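import Mathlib

/-!
# Row 6, P3-AN (helper482), part 1: the meromorphic function `ψ`

`psi s = ∑ T_k(s)`, bound `C/(1+|s|)^2` away from the poles `-1/2-j`, differentiability off the
poles, functional equation `s^3 ψ(s) + (2s-1)^3 ψ(s-1) = -(3s-1)/2`.
-/

set_option autoImplicit false

namespace Crest.Agent.R006.AN482

open Finset Filter Topology

/-- terms of the series of `ψ` (index shifted by one). -/
noncomputable def T (k : ℕ) (s : ℂ) : ℂ :=
  (-1) ^ (k + 1) * ((3 * (s + k + 1) - 1) / 2) * (∏ i ∈ range k, (s + i + 1)) ^ 3 /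
    (∏ i ∈ range (k + 1), (2 * s + 2 * i + 1)) ^ 3

noncomputable def psi (s : ℂ) : ℂ := ∑' k, T k s

/-- distance at least `δ` from all the sites `-1/2-j` -/
def Far (δ : ℝ) (s : ℂ) : Prop := ∀ j : ℕ, δ ≤ ‖s + j + 1 / 2‖

/-- not a site -/
def Off (s : ℂ) : Prop := ∀ j : ℕ, s + j + 1 / 2 ≠ 0

lemma Far.off {δ : ℝ} (hδ : 0 < δ) {s : ℂ} (h : Far δ s) : Off s := by
  intro j hj
  have := h j
  rw [hj, norm_zero] at this
  linarith

lemma card_exc (x : ℝ) (k : ℕ) :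
    ((range k).filter (fun i : ℕ => |2 * x + 2 * i + 1| < 2)).card ≤ 2 := by
  rcases Finset.eq_empty_or_nonempty ((range k).filter (fun i : ℕ => |2 * x + 2 * i + 1| < 2)) with
    h | h
  · rw [h]; simp
  · set i0 := ((range k).filter (fun i : ℕ => |2 * x + 2 * i + 1| < 2)).min' h with hi0
    have hmem : i0 ∈ (range k).filter (fun i : ℕ => |2 * x + 2 * i + 1| < 2) := Finset.min'_mem _ h
    have hsub : (range k).filter (fun i : ℕ => |2 * x + 2 * i + 1| < 2) ⊆ {i0, i0 + 1} := by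
      intro i hi
      have hle : i0 ≤ i := Finset.min'_le _ _ hi
      have h1 := (Finset.mem_filter.1 hi).2
      have h2 := (Finset.mem_filter.1 hmem).2
      rw [abs_lt] at h1 h2
      have h3 : (i : ℝ) - i0 < 2 := by linarith [h1.1, h1.2, h2.1, h2.2]
      have h4 : (i : ℝ) < i0 + 2 := by linarith
      have h5 : i < i0 + 2 := by exact_mod_cast h4
      simp only [Finset.mem_insert, Finset.mem_singleton]
      omega
    exact (Finset.card_le_card hsub).trans Finset.card_le_two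

lemma factor_bound {δ : ℝ} (hδ : 0 < δ) (hδ4 : δ ≤ 1 / 4) {s : ℂ} (i : ℕ)
    (h : δ ≤ ‖s + i + 1 / 2‖) :
    ‖s + i + 1‖ ≤ (3 / 4 * (if |2 * s.re + 2 * i + 1| < 2 then 1 / (2 * δ) else 1)) *
      ‖2 * s + 2 * i + 1‖ := by
  have hv : s + i + 1 = (2 * s + 2 * i + 1) / 2 + 1 / 2 := by ring
  have h1 : ‖s + i + 1‖ ≤ ‖2 * s + 2 * i + 1‖ / 2 + 1 / 2 := by
    rw [hv]
    refine (norm_add_le _ _).trans ?_
    rw [norm_div]
    norm_num
  have h2 : ‖2 * s + 2 * (i : ℂ) + 1‖ = 2 * ‖s + i + 1 / 2‖ := by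
    have : 2 * s + 2 * (i : ℂ) + 1 = 2 * (s + i + 1 / 2) := by ring
    rw [this, norm_mul]; norm_num
  split_ifs with hc
  · have h3 : 2 * δ ≤ ‖2 * s + 2 * (i : ℂ) + 1‖ := by rw [h2]; linarith
    have h4 : (1 : ℝ) / 2 ≤ ‖2 * s + 2 * (i : ℂ) + 1‖ * (1 / (4 * δ)) := by
      have : (1 : ℝ) / 2 = 2 * δ * (1 / (4 * δ)) := by field_simp; norm_num
      rw [this]
      exact mul_le_mul_of_nonneg_right h3 (by positivity)
    have h5 : (1 : ℝ) / 2 ≤ 1 / (8 * δ) := by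
      rw [div_le_div_iff₀ (by norm_num) (by positivity)]; linarith
    have h6 : ‖2 * s + 2 * (i : ℂ) + 1‖ * (1 / 2) ≤ ‖2 * s + 2 * (i : ℂ) + 1‖ * (1 / (8 * δ)) :=
      mul_le_mul_of_nonneg_left h5 (norm_nonneg _)
    have e : (3 / 4 * (1 / (2 * δ))) * ‖2 * s + 2 * (i : ℂ) + 1‖ =
        ‖2 * s + 2 * (i : ℂ) + 1‖ * (1 / (8 * δ)) + ‖2 * s + 2 * (i : ℂ) + 1‖ * (1 / (4 * δ)) := by
      field_simp; ring
    rw [e]; linarith
  · have h3 : 2 ≤ ‖2 * s + 2 * (i : ℂ) + 1‖ := by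
      refine le_trans (not_lt.1 hc) ?_
      have h4 := Complex.abs_re_le_norm (2 * s + 2 * (i : ℂ) + 1)
      have h5 : (2 * s + 2 * (i : ℂ) + 1).re = 2 * s.re + 2 * i + 1 := by simp
      rw [h5] at h4
      exact h4
    linarith

lemma prod_bound {δ : ℝ} (hδ : 0 < δ) (hδ4 : δ ≤ 1 / 4) {s : ℂ} (h : Far δ s) (k : ℕ) :
    ‖∏ i ∈ range k, (s + i + 1)‖ ≤
      ((3 / 4) ^ k / (4 * δ ^ 2)) * ‖∏ i ∈ range k, (2 * s + 2 * i + 1)‖ := by
  rw [norm_prod, norm_prod]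
  have h1 : ∏ i ∈ range k, ‖s + i + 1‖ ≤
      ∏ i ∈ range k, ((3 / 4 * (if |2 * s.re + 2 * i + 1| < 2 then 1 / (2 * δ) else 1)) *
      ‖2 * s + 2 * i + 1‖) :=
    Finset.prod_le_prod (fun i _ => norm_nonneg _) (fun i _ => factor_bound hδ hδ4 i (h i))
  refine h1.trans ?_
  rw [Finset.prod_mul_distrib, Finset.prod_mul_distrib, Finset.prod_const, Finset.card_range]
  refine mul_le_mul_of_nonneg_right ?_ (Finset.prod_nonneg fun i _ => norm_nonneg _)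
  rw [div_eq_mul_inv]
  refine mul_le_mul_of_nonneg_left ?_ (by positivity)
  rw [Finset.prod_ite]
  simp only [Finset.prod_const, one_pow, mul_one]
  have h2 : (1 : ℝ) ≤ 1 / (2 * δ) := by
    rw [le_div_iff₀ (by positivity)]; linarith
  have h3 := pow_le_pow_right₀ h2 (card_exc s.re k)
  refine h3.trans (le_of_eq ?_)
  field_simp
  ring

/-- summable majorant -/
noncomputable def maj (δ : ℝ) (k : ℕ) : ℝ :=
  (3 + 1 / (2 * δ)) / (1024 * δ ^ 8) * (((k : ℝ) + 2) ^ 2 * (27 / 64) ^ k)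

lemma maj_nonneg {δ : ℝ} (hδ : 0 < δ) (k : ℕ) : 0 ≤ maj δ k := by unfold maj; positivity

lemma maj_summable (δ : ℝ) : Summable (maj δ) := by
  unfold maj
  apply Summable.mul_left
  have h0 := summable_pow_mul_geometric_of_norm_lt_one 2 (r := (27 / 64 : ℝ)) (by norm_num)
  have h1 := summable_pow_mul_geometric_of_norm_lt_one 1 (r := (27 / 64 : ℝ)) (by norm_num)
  have h2 := summable_geometric_of_lt_one (r := (27 / 64 : ℝ)) (by norm_num) (by norm_num)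
  have h3 := (h0.add (h1.mul_left 4)).add (h2.mul_left 4)
  refine h3.congr fun k => ?_
  ring

lemma T_bound {δ : ℝ} (hδ : 0 < δ) (hδ4 : δ ≤ 1 / 4) {s : ℂ} (h : Far δ s) (k : ℕ) :
    ‖T k s‖ ≤ maj δ k / (1 + ‖s‖) ^ 2 := by
  set z : ℂ := s + k + 1 / 2 with hz
  have hzd : δ ≤ ‖z‖ := h k
  have hz0 : 0 < ‖z‖ := lt_of_lt_of_le hδ hzd
  set P : ℂ := ∏ i ∈ range k, (2 * s + 2 * i + 1) with hP
  have hPne : P ≠ 0 := by
    rw [hP, Finset.prod_ne_zero_iff]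
    intro i _ h0
    have : s + i + 1 / 2 = 0 := by
      have : 2 * s + 2 * (i : ℂ) + 1 = 2 * (s + i + 1 / 2) := by ring
      rw [this] at h0
      exact (mul_eq_zero.1 h0).resolve_left (by norm_num)
    exact (h.off hδ) i this
  have hPn : 0 < ‖P‖ := norm_pos_iff.2 hPne
  have hlast : 2 * s + 2 * (k : ℂ) + 1 = 2 * z := by rw [hz]; ring
  have e1 : ‖T k s‖ = ‖3 * z + 1 / 2‖ / 2 * ‖∏ i ∈ range k, (s + i + 1)‖ ^ 3 /
      (‖P‖ ^ 3 * (2 * ‖z‖) ^ 3) := by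
    unfold T
    rw [Finset.prod_range_succ, ← hP, hlast]
    rw [norm_div, norm_mul, norm_mul, norm_pow, norm_pow, norm_pow, norm_neg, norm_one, one_pow,
      one_mul, norm_mul, norm_mul, norm_div]
    have : 3 * (s + (k : ℂ) + 1) - 1 = 3 * z + 1 / 2 := by rw [hz]; ring
    rw [this]
    have h2 : ‖(2 : ℂ)‖ = 2 := by norm_num
    rw [h2, mul_pow]
  rw [e1]
  have h1 := prod_bound hδ hδ4 h k
  rw [← hP] at h1
  have h2 : ‖∏ i ∈ range k, (s + i + 1)‖ ^ 3 ≤ (((3 / 4) ^ k / (4 * δ ^ 2)) * ‖P‖) ^ 3 :=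
    pow_le_pow_left₀ (norm_nonneg _) h1 3
  have h3 : ‖3 * z + 1 / 2‖ ≤ (3 + 1 / (2 * δ)) * ‖z‖ := by
    refine (norm_add_le _ _).trans ?_
    rw [norm_mul]
    have : ‖(1 / 2 : ℂ)‖ = 1 / 2 := by norm_num
    rw [this]
    have h4 : (1 : ℝ) / 2 ≤ 1 / (2 * δ) * ‖z‖ := by
      have : (1 : ℝ) / 2 = 1 / (2 * δ) * δ := by field_simp
      rw [this]
      exact mul_le_mul_of_nonneg_left hzd (by positivity)
    have h5 : ‖(3 : ℂ)‖ = 3 := by norm_num
    rw [h5]; linarith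
  have hs1 : 1 + ‖s‖ ≤ ‖z‖ * (((k : ℝ) + 2) / δ) := by
    have h4 : ‖s‖ ≤ ‖z‖ + (k + 1 / 2) := by
      have : s = z - (k + 1 / 2 : ℂ) := by rw [hz]; ring
      calc ‖s‖ = ‖z - (k + 1 / 2 : ℂ)‖ := by rw [← this]
        _ ≤ ‖z‖ + ‖(k + 1 / 2 : ℂ)‖ := norm_sub_le _ _
        _ = ‖z‖ + (k + 1 / 2) := by
            congr 1
            have : (k + 1 / 2 : ℂ) = (((k : ℝ) + 1 / 2 : ℝ) : ℂ) := by push_cast; ring
            rw [this, Complex.norm_real, Real.norm_of_nonneg (by positivity)]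
    have h5 : ((k : ℝ) + 3 / 2) ≤ ‖z‖ * (((k : ℝ) + 3 / 2) / δ) := by
      have : ((k : ℝ) + 3 / 2) = δ * (((k : ℝ) + 3 / 2) / δ) := by field_simp
      calc ((k : ℝ) + 3 / 2) = δ * (((k : ℝ) + 3 / 2) / δ) := this
        _ ≤ _ := mul_le_mul_of_nonneg_right hzd (by positivity)
    have h6 : ‖z‖ ≤ ‖z‖ * (1 / 2 / δ) := by
      have : (1 : ℝ) ≤ 1 / 2 / δ := by rw [le_div_iff₀ hδ]; linarith
      nlinarith
    have h7 : ‖z‖ * (((k : ℝ) + 2) / δ) = ‖z‖ * (1 / 2 / δ) + ‖z‖ * (((k : ℝ) + 3 / 2) / δ) := by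
      ring
    rw [h7]; linarith
  have hs0 : 0 < 1 + ‖s‖ := by positivity
  have hs2 : (1 + ‖s‖) ^ 2 ≤ (‖z‖ * (((k : ℝ) + 2) / δ)) ^ 2 :=
    pow_le_pow_left₀ hs0.le hs1 2
  rw [le_div_iff₀ (by positivity)]
  calc ‖3 * z + 1 / 2‖ / 2 * ‖∏ i ∈ range k, (s + i + 1)‖ ^ 3 /
      (‖P‖ ^ 3 * (2 * ‖z‖) ^ 3) * (1 + ‖s‖) ^ 2
      ≤ ((3 + 1 / (2 * δ)) * ‖z‖) / 2 * (((3 / 4) ^ k / (4 * δ ^ 2)) * ‖P‖) ^ 3 /
      (‖P‖ ^ 3 * (2 * ‖z‖) ^ 3) * (‖z‖ * (((k : ℝ) + 2) / δ)) ^ 2 := by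
        gcongr
    _ = maj δ k := by
        unfold maj
        have e27 : ((27 : ℝ) / 64) ^ k = ((3 / 4) ^ k) ^ 3 := by
          rw [← pow_mul, mul_comm k 3, pow_mul]; norm_num
        rw [e27]
        field_simp
        ring

lemma T_bound' {δ : ℝ} (hδ : 0 < δ) (hδ4 : δ ≤ 1 / 4) {s : ℂ} (h : Far δ s) (k : ℕ) :
    ‖T k s‖ ≤ maj δ k := by
  refine (T_bound hδ hδ4 h k).trans ?_
  apply div_le_self (maj_nonneg hδ k)
  have : 0 ≤ ‖s‖ := norm_nonneg _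
  nlinarith

lemma T_summable {δ : ℝ} (hδ : 0 < δ) (hδ4 : δ ≤ 1 / 4) {s : ℂ} (h : Far δ s) :
    Summable (fun k => T k s) :=
  Summable.of_norm_bounded (maj_summable δ) (T_bound' hδ hδ4 h)

theorem psi_bound {δ : ℝ} (hδ : 0 < δ) (hδ4 : δ ≤ 1 / 4) :
    ∃ C : ℝ, 0 ≤ C ∧ ∀ s : ℂ, Far δ s → ‖psi s‖ ≤ C / (1 + ‖s‖) ^ 2 := by
  refine ⟨∑' k, maj δ k, tsum_nonneg (maj_nonneg hδ), fun s h => ?_⟩
  unfold psi
  have h1 : Summable (fun k => maj δ k / (1 + ‖s‖) ^ 2) := (maj_summable δ).div_const _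
  have h2 := tsum_of_norm_bounded h1.hasSum (T_bound hδ hδ4 h)
  rw [tsum_div_const] at h2
  exact h2

/-- every non-site is at positive distance from the sites -/
lemma exists_far {s : ℂ} (h : Off s) : ∃ δ : ℝ, 0 < δ ∧ δ ≤ 1 / 4 ∧ Far (2 * δ) s := by
  obtain ⟨N, hN⟩ := exists_nat_gt (‖s‖ + 1)
  -- finitely many sites nearby
  have hfin : ∃ δ : ℝ, 0 < δ ∧ ∀ j ∈ range N, δ ≤ ‖s + j + 1 / 2‖ := by
    clear hN
    induction N with
    | zero => exact ⟨1, one_pos, by simp⟩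
    | succ n ih =>
      obtain ⟨δ, h1, h2⟩ := ih
      refine ⟨min δ ‖s + n + 1 / 2‖, lt_min h1 (norm_pos_iff.2 (h n)), ?_⟩
      intro j hj
      rw [Finset.mem_range_succ_iff] at hj
      rcases Nat.lt_or_eq_of_le hj with h3 | h3
      · exact (min_le_left _ _).trans (h2 j (Finset.mem_range.2 h3))
      · subst h3; exact min_le_right _ _
  obtain ⟨δ, h1, h2⟩ := hfin
  refine ⟨min (δ / 2) (1 / 4), by positivity, min_le_right _ _, ?_⟩
  intro j
  rcases lt_or_ge j N with hj | hj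
  · have := h2 j (Finset.mem_range.2 hj)
    have h3 : min (δ / 2) (1 / 4) ≤ δ / 2 := min_le_left _ _
    linarith
  · have h3 : min (δ / 2) (1 / 4) ≤ 1 / 4 := min_le_right _ _
    have h4 : (N : ℝ) ≤ j := by exact_mod_cast hj
    have h5 : ‖((j : ℂ) + 1 / 2)‖ = (j : ℝ) + 1 / 2 := by
      have : ((j : ℂ) + 1 / 2) = (((j : ℝ) + 1 / 2 : ℝ) : ℂ) := by push_cast; ring
      rw [this, Complex.norm_real, Real.norm_of_nonneg (by positivity)]
    have h6 : ‖((j : ℂ) + 1 / 2)‖ - ‖s‖ ≤ ‖s + j + 1 / 2‖ := by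
      have : s + (j : ℂ) + 1 / 2 = ((j : ℂ) + 1 / 2) - (-s) := by ring
      rw [this]
      have := norm_sub_norm_le ((j : ℂ) + 1 / 2) (-s)
      rw [norm_neg] at this
      exact this
    linarith

lemma Far.near {δ : ℝ} {s t : ℂ} (h : Far (2 * δ) s) (ht : t ∈ Metric.ball s δ) : Far δ t := by
  intro j
  have h1 := h j
  rw [Metric.mem_ball, dist_eq_norm] at ht
  have h2 : s + (j : ℂ) + 1 / 2 = (t + j + 1 / 2) - (t - s) := by ring
  rw [h2] at h1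
  have h3 := norm_sub_le (t + (j : ℂ) + 1 / 2) (t - s)
  linarith

lemma T_differentiableAt {s : ℂ} (h : Off s) (k : ℕ) : DifferentiableAt ℂ (T k) s := by
  unfold T
  apply DifferentiableAt.div
  · fun_prop
  · fun_prop
  · apply pow_ne_zero
    rw [Finset.prod_ne_zero_iff]
    intro i _ h0
    apply h i
    have : 2 * s + 2 * (i : ℂ) + 1 = 2 * (s + i + 1 / 2) := by ring
    rw [this] at h0
    exact (mul_eq_zero.1 h0).resolve_left (by norm_num)

theorem psi_differentiableAt {s : ℂ} (h : Off s) : DifferentiableAt ℂ psi s := by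
  obtain ⟨δ, h1, h2, h3⟩ := exists_far h
  have h4 : DifferentiableOn ℂ psi (Metric.ball s δ) := by
    unfold psi
    apply Complex.differentiableOn_tsum_of_summable_norm (maj_summable δ)
    · intro k w hw
      exact (T_differentiableAt ((h3.near hw).off h1) k).differentiableWithinAt
    · exact Metric.isOpen_ball
    · intro k w hw
      exact T_bound' h1 h2 (h3.near hw) k
  exact h4.differentiableAt (Metric.ball_mem_nhds s h1)

lemma T_zero_shift {s : ℂ} (h : 2 * s - 1 ≠ 0) :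
    (2 * s - 1) ^ 3 * T 0 (s - 1) = -(3 * s - 1) / 2 := by
  unfold T
  simp only [zero_add, pow_one, Nat.cast_zero, add_zero, Finset.range_zero, Finset.prod_empty,
    one_pow, mul_one, Finset.prod_range_one, mul_zero]
  have e : 2 * (s - 1) + 1 = 2 * s - 1 := by ring
  rw [e]
  field_simp
  ring

lemma T_succ_shift {s : ℂ} (h : 2 * s - 1 ≠ 0) (k : ℕ) :
    (2 * s - 1) ^ 3 * T (k + 1) (s - 1) = -(s ^ 3 * T k s) := by
  unfold T
  rw [Finset.prod_range_succ' _ k, Finset.prod_range_succ' _ (k + 1)]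
  have e1 : ∏ i ∈ range k, (s - 1 + ((i + 1 : ℕ) : ℂ) + 1) = ∏ i ∈ range k, (s + i + 1) := by
    refine Finset.prod_congr rfl fun i _ => ?_
    push_cast; ring
  have e2 : ∏ i ∈ range (k + 1), (2 * (s - 1) + 2 * ((i + 1 : ℕ) : ℂ) + 1) =
      ∏ i ∈ range (k + 1), (2 * s + 2 * i + 1) := by
    refine Finset.prod_congr rfl fun i _ => ?_
    push_cast; ring
  rw [e1, e2]
  set P := ∏ i ∈ range k, (s + (i : ℂ) + 1) with hP
  set Q := ∏ i ∈ range (k + 1), (2 * s + 2 * (i : ℂ) + 1) with hQ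
  have e3 : s - 1 + ((0 : ℕ) : ℂ) + 1 = s := by push_cast; ring
  have e4 : 2 * (s - 1) + 2 * ((0 : ℕ) : ℂ) + 1 = 2 * s - 1 := by push_cast; ring
  have e5 : 3 * (s - 1 + ((k + 1 : ℕ) : ℂ) + 1) - 1 = 3 * (s + k + 1) - 1 := by push_cast; ring
  rw [e3, e4, e5, mul_pow, mul_pow]
  rcases eq_or_ne Q 0 with hQ0 | hQ0
  · rw [hQ0]; simp
  · field_simp
    ring

theorem psi_shift {s : ℂ} (h : Off (s - 1)) :
    s ^ 3 * psi s + (2 * s - 1) ^ 3 * psi (s - 1) = -(3 * s - 1) / 2 := by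
  have h0 : 2 * s - 1 ≠ 0 := by
    intro h1
    apply h 0
    have : s = 1 / 2 := by linear_combination h1 / 2
    rw [this]; norm_num
  have hs : Off s := by
    intro j hj
    apply h (j + 1)
    push_cast
    linear_combination hj
  obtain ⟨δ, h1, h2, h3⟩ := exists_far h
  obtain ⟨δ', h1', h2', h3'⟩ := exists_far hs
  have hf : Far δ (s - 1) := fun j => by have := h3 j; linarith
  have hf' : Far δ' s := fun j => by have := h3' j; linarith
  have hsum := T_summable h1 h2 hf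
  have hsum' := T_summable h1' h2' hf'
  have e : psi (s - 1) = T 0 (s - 1) + ∑' k, T (k + 1) (s - 1) := by
    unfold psi
    rw [hsum.tsum_eq_zero_add]
  rw [e, mul_add, T_zero_shift h0, ← tsum_mul_left]
  have e2 : (fun k => (2 * s - 1) ^ 3 * T (k + 1) (s - 1)) = fun k => -(s ^ 3 * T k s) := by
    funext k; exact T_succ_shift h0 k
  rw [e2, tsum_neg, tsum_mul_left]
  unfold psi
  ring

end Crest.Agent.R006.AN482
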