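import Crest.Agent.R006.Defs

/-!
Row 6, glue: the germs are affine in the value of Catalan's constant, and the `G`-part is
`O(ε^3)` at the negative integers (helper884).

* `bi_add`, `bi_mul`: the two-sided recursion `bi` is linear in (right side, initial value);
* `HomK`: homogeneous chain over any field, `PsiZ_eq : PsiZ c k = PsiZ 0 k + C c * HomK k`;
* `PsiZ_affine`;
* `X_pow_three_dvd_HomK`, `coeff_PsiZ_neg`: no `c` in the 2-jets at `-m`, `m ≥ 1`;
* `D_HomZ`: the chain of `Defs` is `HomK` over `ℚ`; `psiS γ` = germ of `ψ` with the value `γ` of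
  Catalan's constant, `eval_entry`: the entries of `Defs` evaluated at `γ`.
-/

set_option autoImplicit false

namespace Crest.Agent.R006.Aff

open Polynomial Crest.Agent.R006.NV

section general

variable {K : Type*} [Field K]

lemma bi_add (a b c c' : ℤ → PowerSeries K) (x x' : PowerSeries K) (k : ℤ) :
    bi a b (fun i => c i + c' i) (x + x') k = bi a b c x k + bi a b c' x' k := by
  cases k with
  | ofNat n =>
    induction n with
    | zero => rfl
    | succ n ih =>
      have h : ∀ (c : ℤ → PowerSeries K) (x : PowerSeries K), bi a b c x (Int.ofNat (n + 1)) =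
          (c n - b n * bi a b c x (Int.ofNat n)) * (a n)⁻¹ := fun c x => rfl
      rw [h, h, h, ih]; ring
  | negSucc n =>
    induction n with
    | zero =>
      have h : ∀ (c : ℤ → PowerSeries K) (x : PowerSeries K), bi a b c x (Int.negSucc 0) =
          (c (-1) - a (-1) * x) * (b (-1))⁻¹ := fun c x => rfl
      rw [h, h, h]; ring
    | succ n ih =>
      rw [bi_negSucc, bi_negSucc, bi_negSucc, ih]; ring

lemma bi_mul (a b c : ℤ → PowerSeries K) (t x : PowerSeries K) (k : ℤ) :
    bi a b (fun i => t * c i) (t * x) k = t * bi a b c x k := by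
  cases k with
  | ofNat n =>
    induction n with
    | zero => rfl
    | succ n ih =>
      have h : ∀ (c : ℤ → PowerSeries K) (x : PowerSeries K), bi a b c x (Int.ofNat (n + 1)) =
          (c n - b n * bi a b c x (Int.ofNat n)) * (a n)⁻¹ := fun c x => rfl
      rw [h, h, ih]; ring
  | negSucc n =>
    induction n with
    | zero =>
      have h : ∀ (c : ℤ → PowerSeries K) (x : PowerSeries K), bi a b c x (Int.negSucc 0) =
          (c (-1) - a (-1) * x) * (b (-1))⁻¹ := fun c x => rfl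
      rw [h, h]; ring
    | succ n ih =>
      rw [bi_negSucc, bi_negSucc, ih]; ring

/-- initial value `x + t * y`: the chain is affine -/
lemma bi_affine (a b c : ℤ → PowerSeries K) (x t y : PowerSeries K) (k : ℤ) :
    bi a b c (x + t * y) k = bi a b c x k + t * bi a b (fun _ => 0) y k := by
  rw [← bi_mul, ← bi_add]
  simp

/-- a right side divisible by `P` and an initial value divisible by `P` -/
lemma dvd_bi_neg (a b : ℤ → PowerSeries K) (x P : PowerSeries K) (h : P ∣ a (-1) * x) (n : ℕ) :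
    P ∣ bi a b (fun _ => 0) x (Int.negSucc n) := by
  induction n with
  | zero =>
    have e : bi a b (fun _ => 0) x (Int.negSucc 0) = (0 - a (-1) * x) * (b (-1))⁻¹ := rfl
    rw [e, zero_sub]
    exact (h.neg_right).mul_right _
  | succ n ih =>
    rw [bi_negSucc, zero_sub]
    exact ((ih.mul_left _).neg_right).mul_right _

variable (K) in
/-- homogeneous chain `(i+1+ε)^3 h(i+1) + (2(i+ε)+1)^3 h(i) = 0`, `h(0) = 1` -/
noncomputable def HomK : ℤ → PowerSeries K :=
  bi (fun i => pt ((i : K) + 1) ^ 3) (fun i => (2 * pt (i : K) + 1) ^ 3) (fun _ => 0) 1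

lemma PsiZ_eq (c : K) (k : ℤ) : PsiZ c k = PsiZ 0 k + PowerSeries.C c * HomK K k := by
  unfold PsiZ HomK
  rw [← bi_affine]
  simp

lemma HomK_eq (k : ℤ) : HomK K k = PsiZ 0 k - PsiZ (-1) k := by
  rw [PsiZ_eq (-1)]; simp

/-- the form asked for by helper89 -/
theorem PsiZ_affine (c : K) (k : ℤ) :
    PsiZ (-c) k = PsiZ 0 k + PowerSeries.C c * (PsiZ (-1) k - PsiZ 0 k) := by
  rw [PsiZ_eq (-c), PsiZ_eq (-1)]; simp

lemma X_pow_three_dvd_HomK_negSucc (n : ℕ) :
    (PowerSeries.X : PowerSeries K) ^ 3 ∣ HomK K (Int.negSucc n) := by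
  apply dvd_bi_neg
  have e : pt (((-1 : ℤ) : K) + 1) = (PowerSeries.X : PowerSeries K) := by
    simp [pt]
  simp only [e, mul_one, dvd_refl]

/-- the homogeneous chain has triple zeros at the negative integers -/
theorem X_pow_three_dvd_HomK {k : ℤ} (hk : k < 0) :
    (PowerSeries.X : PowerSeries K) ^ 3 ∣ HomK K k := by
  cases k with
  | ofNat n => exact absurd hk (by simp)
  | negSucc n => exact X_pow_three_dvd_HomK_negSucc n

lemma coeff_HomK_neg {k : ℤ} (hk : k < 0) {j : ℕ} (hj : j < 3) :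
    PowerSeries.coeff j (HomK K k) = 0 :=
  PowerSeries.X_pow_dvd_iff.mp (X_pow_three_dvd_HomK hk) j hj

/-- the 2-jets of `ψ` at the negative integers do not depend on the value at `0` -/
theorem coeff_PsiZ_neg (c : K) {k : ℤ} (hk : k < 0) {j : ℕ} (hj : j < 3) :
    PowerSeries.coeff j (PsiZ c k) = PowerSeries.coeff j (PsiZ 0 k) := by
  rw [PsiZ_eq, map_add, PowerSeries.coeff_C_mul, coeff_HomK_neg hk hj, mul_zero, add_zero]

/-- the same after multiplication by any series (a polynomial germ, a weight) -/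
theorem coeff_mul_PsiZ_neg (f : PowerSeries K) (c : K) {k : ℤ} (hk : k < 0) {j : ℕ} (hj : j < 3) :
    PowerSeries.coeff j (f * PsiZ c k) = PowerSeries.coeff j (f * PsiZ 0 k) := by
  rw [PsiZ_eq, mul_add, map_add]
  have h : (PowerSeries.X : PowerSeries K) ^ 3 ∣ f * (PowerSeries.C c * HomK K k) :=
    ((X_pow_three_dvd_HomK hk).mul_left _).mul_left _
  rw [PowerSeries.X_pow_dvd_iff.mp h j hj, add_zero]

lemma X_sq_dvd_GamZ_negSucc (n : ℕ) :
    (PowerSeries.X : PowerSeries K) ^ 2 ∣ GamZ (Int.negSucc n) := by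
  apply dvd_bi_neg
  have e : pt (((-1 : ℤ) : K) + 1) = (PowerSeries.X : PowerSeries K) := by
    simp [pt]
  simp only [e, mul_one, dvd_refl]

/-- `g` has double zeros at the negative integers -/
theorem X_sq_dvd_GamZ {k : ℤ} (hk : k < 0) :
    (PowerSeries.X : PowerSeries K) ^ 2 ∣ GamZ k := by
  cases k with
  | ofNat n => exact absurd hk (by simp)
  | negSucc n => exact X_sq_dvd_GamZ_negSucc n

end general

/-! ### the germs of `Defs` -/

lemma D_HomZ : D.HomZ = HomK ℚ := rfl

theorem D_psi (c : ℚ) (i : ℤ) :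
    PsiZ (-c) i = D.psi0 (.Z i) - PowerSeries.C c * D.psi1 (.Z i) := by
  rw [PsiZ_eq]
  simp only [D.psi0, D.psi1, D_HomZ, map_neg]
  ring

theorem D_psi1_neg {i : ℤ} (hi : i < 0) :
    (PowerSeries.X : PowerSeries ℚ) ^ 3 ∣ D.psi1 (.Z i) :=
  X_pow_three_dvd_HomK hi

/-- `ent1` vanishes for the rows `(Z i, j)`, `i < 0`, `j < 3` -/
theorem D_ent1_neg (R : ℚ[X]) {i : ℤ} (hi : i < 0) {j : ℕ} (hj : j < 3) :
    D.ent1 R (.Z i, j) = 0 := by
  unfold D.ent1
  exact PowerSeries.X_pow_dvd_iff.mp ((D_psi1_neg hi).mul_left _) j hj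

theorem D_ent1_half (R : ℚ[X]) (i : ℤ) (j : ℕ) : D.ent1 R (.H i, j) = 0 := by
  simp [D.ent1, D.psi1]

/-- germ of `ψ` at a site, the value `γ` in place of Catalan's constant -/
noncomputable def psiS (γ : ℚ) : D.Site → PowerSeries ℚ
  | .Z i => PsiZ (-γ) i
  | .H i => PsiH i

theorem psiS_eq (γ : ℚ) (z : D.Site) :
    psiS γ z = D.psi0 z - PowerSeries.C γ * D.psi1 z := by
  cases z with
  | Z i => exact D_psi γ i
  | H i => simp [psiS, D.psi0, D.psi1]

theorem eval_entry_R (γ : ℚ) (S : D.Shape) (u : ℕ) (ρ : D.Row) (l : Fin (S.k * u)) :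
    (D.entry S u ρ (.inl l)).eval γ =
      PowerSeries.coeff ρ.2 (gm ρ.1.val (D.polR S u l) * psiS γ ρ.1
        - gm ρ.1.val (D.tau (D.polR S u l))) := by
  simp only [D.entry, D.ent0, D.ent1, eval_sub, eval_C, eval_mul, eval_X, psiS_eq, map_sub,
    mul_sub]
  have h : gm ρ.1.val (D.polR S u l) * (PowerSeries.C γ * D.psi1 ρ.1)
      = PowerSeries.C γ * (gm ρ.1.val (D.polR S u l) * D.psi1 ρ.1) := by ring
  rw [h, PowerSeries.coeff_C_mul]
  ring

theorem eval_entry_T (γ : ℚ) (S : D.Shape) (u : ℕ) (ρ : D.Row) (l : Fin (S.q * u)) :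
    (D.entry S u ρ (.inr (.inl l))).eval γ =
      PowerSeries.coeff ρ.2 (gm ρ.1.val (D.bin l)) := by
  simp [D.entry, D.entT]

theorem eval_entry_Q (γ : ℚ) (S : D.Shape) (u : ℕ) (ρ : D.Row) (l : Fin (S.g * u)) :
    (D.entry S u ρ (.inr (.inr l))).eval γ =
      PowerSeries.coeff ρ.2 (gm ρ.1.val (D.bin l) * D.gam ρ.1) := by
  simp [D.entry, D.entQ]

end Crest.Agent.R006.Aff
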