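import Crest.Agent.R006.MainK_464

set_option autoImplicit false

/-!
# Row 6, block P3: the scaled shape (helper650)

`scale K S` multiplies all numbers of the design by `K`;
`Minor (scale K S) v r = Minor S (K v) r'`, and
`archK_of_scale : Arch (scale K S) c α → ArchK S c K (α / K ^ 2)`.
-/

namespace Crest.Agent.R006.D

open Polynomial Filter

/-- the design `S` with the unit `K` -/
def scale (K : ℕ) (S : Shape) : Shape where
  B := K * S.B
  e1 := K * S.e1
  e2 := K * S.e2
  e3 := K * S.e3
  h1 := K * S.h1
  h2 := K * S.h2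
  h3 := K * S.h3
  w := K * S.w
  a1 := K * S.a1
  a2 := K * S.a2
  i1 := K * S.i1
  r1 := K * S.r1
  q := K * S.q
  g := K * S.g

variable {S : Shape} {K : ℕ}

lemma scale_rows : (scale K S).rows = K * S.rows := by
  simp only [Shape.rows, scale]; ring

lemma scale_k : (scale K S).k = K * S.k := by
  simp only [Shape.k, scale_rows]
  simp only [scale]
  rw [Nat.mul_sub, Nat.mul_sub]

theorem scale_good (hK : 0 < K) (h : S.Good) : (scale K S).Good where
  e32 := Nat.mul_le_mul_left K h.e32
  e21 := Nat.mul_le_mul_left K h.e21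
  h32 := Nat.mul_le_mul_left K h.h32
  h21 := Nat.mul_le_mul_left K h.h21
  wi := Nat.mul_le_mul_left K h.wi
  a21 := Nat.mul_le_mul_left K h.a21
  a1B := Nat.mul_lt_mul_of_pos_left h.a1B hK
  e1B := Nat.mul_lt_mul_of_pos_left h.e1B hK
  h1B := Nat.mul_lt_mul_of_pos_left h.h1B hK
  gq := Nat.mul_le_mul_left K h.gq
  qB := Nat.mul_lt_mul_of_pos_left h.qB hK
  kpos := by
    rw [scale_rows]
    have := Nat.mul_lt_mul_of_pos_left h.kpos hK
    simp only [scale]
    rw [← Nat.mul_add]
    exact this

lemma scale_mult (v c : ℕ) (z : Site) : (scale K S).mult v c z = S.mult (K * v) c z := by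
  have e : ∀ a : ℕ, ((K * a : ℕ) : ℤ) * (v : ℤ) = (a : ℤ) * ((K * v : ℕ) : ℤ) := by
    intro a; push_cast; ring
  rcases z with i | i <;> simp only [Shape.mult, scale, e]

lemma scale_isRow (v c : ℕ) (ρ : Row) : IsRow (scale K S) v c ρ ↔ IsRow S (K * v) c ρ := by
  simp only [IsRow, scale_mult]

/-- identification of the columns -/
def colE (S : Shape) (K v : ℕ) : Col (scale K S) v ≃ Col S (K * v) :=
  Equiv.sumCongr (finCongr (by rw [scale_k]; ring))
    (Equiv.sumCongr (finCongr (by simp only [scale]; ring)) (finCongr (by simp only [scale]; ring)))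

lemma scale_polR (v l : ℕ) : polR (scale K S) v l = polR S (K * v) l := by
  have e : ∀ a : ℕ, K * a * v = a * (K * v) := by intro a; ring
  simp only [polR, gauge, scale, e]

lemma scale_entry (v : ℕ) (ρ : Row) (col : Col (scale K S) v) :
    entry (scale K S) v ρ col = entry S (K * v) ρ (colE S K v col) := by
  rcases col with l | l | l
  · simp only [entry, colE, Equiv.sumCongr_apply, Sum.map_inl, scale_polR, finCongr_apply,
      Fin.val_cast]
  · simp only [entry, colE, Equiv.sumCongr_apply, Sum.map_inl, Sum.map_inr, finCongr_apply,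
      Fin.val_cast]
  · simp only [entry, colE, Equiv.sumCongr_apply, Sum.map_inr, finCongr_apply,
      Fin.val_cast]

theorem scale_Minor (v : ℕ) (r : Col S (K * v) → Row) :
    Minor (scale K S) v (fun i => r (colE S K v i)) = Minor S (K * v) r := by
  rw [Minor, Minor, ← Matrix.det_submatrix_equiv_self (colE S K v) (Mat S (K * v) r)]
  congr 1
  ext i j
  simp only [Mat, Matrix.of_apply, Matrix.submatrix_apply, scale_entry]

theorem scale_adm {v c : ℕ} {r : Col S (K * v) → Row} (h : Adm S (K * v) c r) :
    Adm (scale K S) v c (fun i => r (colE S K v i)) :=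
  ⟨h.1.comp (colE S K v).injective, fun i => (scale_isRow v c _).mpr (h.2 _)⟩

/-- **P3 for the scaled shape gives P3 along the multiples of `K`** -/
theorem archK_of_scale (hK : 0 < K) {c : ℕ} {α : ℝ} (h : Arch (scale K S) c α) :
    ArchK S c K (α / (K : ℝ) ^ 2) := by
  intro δ hδ
  have hK0 : (0 : ℝ) < (K : ℝ) ^ 2 := by positivity
  filter_upwards [h (δ * (K : ℝ) ^ 2) (by positivity)] with v hv r hr
  have h1 := hv _ (scale_adm hr)
  rw [scale_Minor] at h1
  refine h1.trans (le_of_eq ?_)
  congr 1
  push_cast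
  field_simp

end Crest.Agent.R006.D
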