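import Crest.Agent.R006.P3_AlphaV_103
import Crest.Agent.R006.CertDataN_112

/-!
# Row 6, block P3: the exponent of the certificate `datN` of `D.SN` (helper103)

`alphaN : alphaV SN datN / K² ≤ -751`, kernel-checked.
-/

set_option autoImplicit false

namespace Crest.Agent.R006.Cert

open Crest.Agent.R006.NumSegx464 Crest.Agent.R006.D

theorem alphaN_W_ok : selfOK (segs (datN.K * SN.w) datN.W) = true := by decide +kernel

theorem alphaN_Z_ok : selfOK (segs (datN.K * SN.w) datN.Z) = true := by decide +kernel

theorem alphaN_Y_ok : selfOK (segs (datN.K * SN.w) datN.Y) = true := by decide +kernel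

theorem alphaN_S_ok : selfOK (LS SN datN.K) = true := by decide +kernel

theorem alphaN_W : 27904148 * 281474976710656 ≤ (selfI (segs (datN.K * SN.w) datN.W)).1 := by
  decide +kernel

theorem alphaN_Z : 13319788 * 281474976710656 ≤ (selfI (segs (datN.K * SN.w) datN.Z)).1 := by
  decide +kernel

theorem alphaN_Y : 2483943 * 281474976710656 ≤ (selfI (segs (datN.K * SN.w) datN.Y)).1 := by
  decide +kernel

theorem alphaN_S : (selfI (LS SN datN.K)).2 ≤ 54171266 * 281474976710656 := by decide +kernel

theorem alphaN_NL : 27187195 * 281474976710656 ≤ (NLKI SN datN.K).1 := by decide +kernel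

theorem alphaN_fin : ((54171266 * 281474976710656 - 27187195 * 281474976710656 -
      27904148 * 281474976710656 - 13319788 * 281474976710656 - 2483943 * 281474976710656) *
      (2 * datN.D) + (2 * (datN.K * (SN.k * datN.lR + SN.g * datN.lQ)) + slot2 SN datN) *
        281474976710656) * ((1 : ℕ) : ℤ) ≤
    (datN.K * datN.K * (-751)) * 281474976710656 * (2 * datN.D) := by
  decide +kernel

/-- **the exponent**: `α ≤ -751` -/
theorem alphaN : alphaV SN datN / (datN.K : ℝ) ^ 2 ≤ -751 := by
  have h := alphaV_div_le (S := SN) (d := datN) (p := -751) (q := 1) (by norm_num)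
    (by decide) (by decide) alphaN_W_ok alphaN_Z_ok alphaN_Y_ok alphaN_S_ok alphaN_W alphaN_Z
    alphaN_Y alphaN_S alphaN_NL alphaN_fin
  refine h.trans (le_of_eq ?_)
  norm_num

end Crest.Agent.R006.Cert
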