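import Crest.Agent.R006.OKDatN_464
import Crest.Agent.R006.P3_AlphaN_103

/-!
# Row 6, block P3: `ArchK SN c 100 (-751)` from the claim of the assembly (helper103)

Certificate: `Cert.OK_datN` (464) and `Cert.alphaN` (103). Open input: `Cert.Claim SN datN` (390).
-/

set_option autoImplicit false

namespace Crest.Agent.R006.D

/-- P3 for the frozen shape, from `Claim SN datN` alone. -/
theorem arch_SN_of_claim (h : Cert.Claim SN Cert.datN) (c : ℕ) : ArchK SN c 100 (-751) :=
  ArchK_mono_103 (h Cert.OK_datN c) Cert.alphaN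

/-- the same with a bound `aa ≥ -751` -/
theorem arch_SN_of_claim' (h : Cert.Claim SN Cert.datN) (c : ℕ) {aa : ℝ} (ha : -751 ≤ aa) :
    ArchK SN c 100 aa :=
  ArchK_mono_103 (arch_SN_of_claim h c) ha

end Crest.Agent.R006.D
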