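import Crest.Agent.R006.P3_Pot_943

/-! Row 6, block P3, leaf POT, part 2 (helper943): self energies (superfactorials), mutual energies
of two families of equally spaced points, shifts of the end points. -/

namespace Crest.Agent.R006.Potx943

open MeasureTheory Set

/-! ### factorials and superfactorials -/

theorem log_factorial_ge (m : ℕ) : (m : ℝ) * Real.log m - m ≤ Real.log (m.factorial) := by
  rcases Nat.eq_zero_or_pos m with h | h
  · subst h; simp
  have hm : (0 : ℝ) < m := by exact_mod_cast h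
  have h1 := Real.pow_div_factorial_le_exp (m : ℝ) hm.le m
  have h2 : (0 : ℝ) < (m.factorial : ℝ) := by exact_mod_cast m.factorial_pos
  have h3 := Real.log_le_log (by positivity) h1
  rw [Real.log_exp, Real.log_div (by positivity) h2.ne', Real.log_pow] at h3
  linarith

theorem log_factorial_le {m : ℕ} (hm : 1 ≤ m) :
    Real.log (m.factorial) ≤ (m : ℝ) * Real.log m - m + Real.log m + 1 := by
  induction m, hm using Nat.le_induction with
  | base => simp
  | succ n hn ih =>
    have hn0 : (0 : ℝ) < n := by exact_mod_cast hn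
    have hn1 : (0 : ℝ) < (n : ℝ) + 1 := by linarith
    rw [Nat.factorial_succ]
    push_cast
    rw [Real.log_mul hn1.ne' (by exact_mod_cast n.factorial_pos.ne')]
    have h1 : 1 / ((n : ℝ) + 1) ≤ Real.log (n + 1) - Real.log n := by
      have h2 := Real.one_sub_inv_le_log_of_pos (x := ((n : ℝ) + 1) / n) (by positivity)
      rw [Real.log_div hn1.ne' hn0.ne'] at h2
      have h3 : 1 - (((n : ℝ) + 1) / n)⁻¹ = 1 / ((n : ℝ) + 1) := by
        field_simp; ring
      rw [h3] at h2
      exact h2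
    have h4 : 1 ≤ ((n : ℝ) + 1) * (Real.log (n + 1) - Real.log n) := by
      have := mul_le_mul_of_nonneg_left h1 hn1.le
      rwa [mul_one_div_cancel hn1.ne'] at this
    nlinarith

/-- `∑_{i<m} log i!` -/
noncomputable def lsf (m : ℕ) : ℝ := ∑ i ∈ Finset.range m, Real.log (i.factorial)

theorem H0_step {m : ℕ} (hm : 1 ≤ m) :
    ((m : ℝ) * Real.log m - m) ≤
      (((m : ℝ) + 1) ^ 2 / 2 * Real.log (m + 1) - 3 / 4 * ((m : ℝ) + 1) ^ 2)
        - ((m : ℝ) ^ 2 / 2 * Real.log m - 3 / 4 * (m : ℝ) ^ 2) ∧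
    (((m : ℝ) + 1) ^ 2 / 2 * Real.log (m + 1) - 3 / 4 * ((m : ℝ) + 1) ^ 2)
        - ((m : ℝ) ^ 2 / 2 * Real.log m - 3 / 4 * (m : ℝ) ^ 2)
      ≤ ((m : ℝ) + 1) * Real.log (m + 1) - (m + 1) := by
  have hm0 : (0 : ℝ) < m := by exact_mod_cast hm
  have hm1 : (0 : ℝ) < (m : ℝ) + 1 := by linarith
  -- log(1+1/m) between 1/(m+1/2)... use the two elementary bounds of the increment L
  set L := Real.log ((m : ℝ) + 1) - Real.log m with hL
  have hlog : Real.log ((m : ℝ) + 1) = Real.log m + L := by rw [hL]; ring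
  -- primitive comparison through the integral of x log x - x
  have hint : ∫ x in (m : ℝ)..(m + 1), (x * Real.log x - x)
      = (((m : ℝ) + 1) ^ 2 / 2 * Real.log (m + 1) - 3 / 4 * ((m : ℝ) + 1) ^ 2)
        - ((m : ℝ) ^ 2 / 2 * Real.log m - 3 / 4 * (m : ℝ) ^ 2) := by
    have hder : ∀ x ∈ Set.uIcc (m : ℝ) (m + 1),
        HasDerivAt (fun x : ℝ => x ^ 2 / 2 * Real.log x - 3 / 4 * x ^ 2) (x * Real.log x - x) x := by
      intro x hx
      rw [Set.uIcc_of_le (by linarith)] at hx
      have hx0 : 0 < x := by linarith [hx.1]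
      have h1 : HasDerivAt (fun x : ℝ => x ^ 2 / 2) x x := by
        have := (hasDerivAt_pow 2 x).div_const 2
        simpa using this
      have h2 := (h1.mul (Real.hasDerivAt_log hx0.ne')).sub ((hasDerivAt_pow 2 x).const_mul (3 / 4))
      have e : x * Real.log x + x ^ 2 / 2 * x⁻¹ - 3 / 4 * (((2 : ℕ) : ℝ) * x ^ (2 - 1))
          = x * Real.log x - x := by
        push_cast
        field_simp
        ring
      rw [e] at h2
      exact h2
    rw [intervalIntegral.integral_eq_sub_of_hasDerivAt hder]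
    apply ContinuousOn.intervalIntegrable
    rw [Set.uIcc_of_le (by linarith)]
    apply ContinuousOn.sub _ continuousOn_id
    exact Real.continuous_mul_log.continuousOn
  have hmono : ∀ x ∈ Set.Icc (m : ℝ) (m + 1), (m : ℝ) * Real.log m - m ≤ x * Real.log x - x ∧
      x * Real.log x - x ≤ ((m : ℝ) + 1) * Real.log (m + 1) - (m + 1) := by
    have key : ∀ x y : ℝ, 1 ≤ x → x ≤ y → x * Real.log x - x ≤ y * Real.log y - y := by
      intro x y hx hxy
      have hx0 : 0 < x := by linarith
      have hy0 : 0 < y := by linarith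
      have h1 := Real.one_sub_inv_le_log_of_pos (x := y / x) (by positivity)
      rw [Real.log_div hy0.ne' hx0.ne', inv_div] at h1
      have h2 : y * (1 - x / y) = y - x := by field_simp
      have h3 := mul_le_mul_of_nonneg_left h1 hy0.le
      have h4 : 0 ≤ Real.log x := Real.log_nonneg hx
      nlinarith
    intro x hx
    have hm' : (1 : ℝ) ≤ m := by exact_mod_cast hm
    exact ⟨key _ _ hm' hx.1, key _ _ (hm'.trans hx.1) hx.2⟩
  rw [← hint]
  have hii : IntervalIntegrable (fun x : ℝ => x * Real.log x - x) volume (m : ℝ) (m + 1) := by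
    apply Continuous.intervalIntegrable
    exact Real.continuous_mul_log.sub continuous_id
  constructor
  · have := intervalIntegral.integral_mono_on (a := (m : ℝ)) (b := m + 1) (by linarith)
      (f := fun _ => (m : ℝ) * Real.log m - m) (by simp) hii (fun x hx => (hmono x hx).1)
    simpa using this
  · have := intervalIntegral.integral_mono_on (a := (m : ℝ)) (b := m + 1) (by linarith)
      (g := fun _ => ((m : ℝ) + 1) * Real.log (m + 1) - (m + 1)) hii (by simp)
      (fun x hx => (hmono x hx).2)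
    simpa using this

/-- lower bound for the superfactorial -/
theorem lsf_ge (m : ℕ) :
    (m : ℝ) ^ 2 / 2 * Real.log m - 3 / 4 * (m : ℝ) ^ 2 - m * Real.log m ≤ lsf m := by
  induction m with
  | zero => simp [lsf]
  | succ n ih =>
    rcases Nat.eq_zero_or_pos n with h | h
    · subst h; simp [lsf]; norm_num
    have h1 := (H0_step h).2
    have h2 := log_factorial_ge n
    have hn0 : (0 : ℝ) < n := by exact_mod_cast h
    have h5 : Real.log n ≤ Real.log (n + 1) := Real.log_le_log hn0 (by linarith)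
    have h6 : Real.log (n + 1) - Real.log n ≤ 1 / n := by
      have h7 := Real.log_le_sub_one_of_pos (x := ((n : ℝ) + 1) / n) (by positivity)
      rw [Real.log_div (by positivity) hn0.ne'] at h7
      have h8 : ((n : ℝ) + 1) / n - 1 = 1 / n := by field_simp; ring
      rw [h8] at h7
      exact h7
    have h9 : (n : ℝ) * (Real.log (n + 1) - Real.log n) ≤ 1 := by
      have := mul_le_mul_of_nonneg_left h6 hn0.le
      rwa [mul_one_div_cancel hn0.ne'] at this
    have e : lsf (n + 1) = lsf n + Real.log (n.factorial) := by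
      unfold lsf; rw [Finset.sum_range_succ]
    rw [e]
    push_cast
    nlinarith

/-- upper bound for the superfactorial -/
theorem lsf_le (m : ℕ) :
    lsf m ≤ (m : ℝ) ^ 2 / 2 * Real.log m - 3 / 4 * (m : ℝ) ^ 2 + m * Real.log m + m := by
  induction m with
  | zero => simp [lsf]
  | succ n ih =>
    rcases Nat.eq_zero_or_pos n with h | h
    · subst h; simp [lsf]; norm_num
    have h1 := (H0_step h).1
    have h2 := log_factorial_le h
    have hn0 : (0 : ℝ) < n := by exact_mod_cast h
    have h5 : Real.log n ≤ Real.log (n + 1) := Real.log_le_log hn0 (by linarith)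
    have e : lsf (n + 1) = lsf n + Real.log (n.factorial) := by
      unfold lsf; rw [Finset.sum_range_succ]
    rw [e]
    push_cast
    nlinarith

/-- the sum over ordered pairs of a family of integers -/
theorem sum_pairs_log (m : ℕ) :
    ∑ i ∈ Finset.range m, ∑ j ∈ Finset.range i, Real.log ((i : ℝ) - j) = lsf m := by
  unfold lsf
  apply Finset.sum_congr rfl
  intro i hi
  clear hi
  induction i with
  | zero => simp
  | succ n ih =>
    rw [Finset.sum_range_succ', Nat.factorial_succ]
    push_cast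
    rw [Real.log_mul (by positivity) (by exact_mod_cast n.factorial_pos.ne')]
    have : ∑ k ∈ Finset.range n, Real.log ((n : ℝ) + 1 - ((k : ℝ) + 1))
        = ∑ k ∈ Finset.range n, Real.log ((n : ℝ) - k) := by
      apply Finset.sum_congr rfl; intro k _; congr 1; ring
    rw [this, ih]
    simp
    ring

theorem norm_pt_sub_pt {a d : ℂ} (i j : ℕ) : ‖pt a d i - pt a d j‖ = |(i : ℝ) - j| * ‖d‖ := by
  have : pt a d i - pt a d j = (((i : ℝ) - j : ℝ) : ℂ) * d := by
    unfold pt; push_cast; ring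
  rw [this, norm_mul, Complex.norm_real, Real.norm_eq_abs]

/-- half of the self energy of a family (unordered pairs) -/
theorem sum_pairs_pt {a d : ℂ} (hd : d ≠ 0) (m : ℕ) :
    ∑ i ∈ Finset.range m, ∑ j ∈ Finset.range i, Real.log ‖pt a d i - pt a d j‖
      = lsf m + (m : ℝ) * (m - 1) / 2 * Real.log ‖d‖ := by
  have h1 : ∑ i ∈ Finset.range m, ∑ j ∈ Finset.range i, Real.log ‖pt a d i - pt a d j‖
      = ∑ i ∈ Finset.range m, ∑ j ∈ Finset.range i, (Real.log ((i : ℝ) - j) + Real.log ‖d‖) := by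
    apply Finset.sum_congr rfl
    intro i _
    apply Finset.sum_congr rfl
    intro j hj
    have hij : (j : ℝ) < i := by exact_mod_cast Finset.mem_range.mp hj
    rw [norm_pt_sub_pt, abs_of_pos (by linarith), Real.log_mul (by linarith) (by simpa using hd)]
  rw [h1]
  simp_rw [Finset.sum_add_distrib]
  rw [sum_pairs_log]
  congr 1
  simp_rw [Finset.sum_const, Finset.card_range, nsmul_eq_mul]
  rw [← Finset.sum_mul]
  congr 1
  clear h1
  induction m with
  | zero => simp
  | succ n ih => rw [Finset.sum_range_succ, ih]; push_cast; ring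

/-! ### integrability of the potential along a line -/

theorem measurable_seg_re (m : ℝ) :
    Measurable (fun w : ℂ => (w * Complex.log w).re - ((w - m) * Complex.log (w - m)).re - m) := by
  fun_prop

theorem abs_re_mul_log_le (w : ℂ) : |(w * Complex.log w).re| ≤ (1 + ‖w‖) ^ 2 + Real.pi * ‖w‖ := by
  have h1 : |(w * Complex.log w).re| ≤ ‖w‖ * |Real.log ‖w‖| + ‖w‖ * |Complex.arg w| := by
    rw [Complex.mul_re, Complex.log_re, Complex.log_im]
    calc |w.re * Real.log ‖w‖ - w.im * Complex.arg w|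
        ≤ |w.re * Real.log ‖w‖| + |w.im * Complex.arg w| := abs_sub _ _
      _ = |w.re| * |Real.log ‖w‖| + |w.im| * |Complex.arg w| := by rw [abs_mul, abs_mul]
      _ ≤ _ := by
          gcongr
          · exact Complex.abs_re_le_norm w
          · exact Complex.abs_im_le_norm w
  have h2 : ‖w‖ * |Complex.arg w| ≤ Real.pi * ‖w‖ := by
    have := Complex.abs_arg_le_pi w
    nlinarith [norm_nonneg w]
  have h3 : ‖w‖ * |Real.log ‖w‖| ≤ (1 + ‖w‖) ^ 2 := by
    rcases eq_or_ne w 0 with h | h
    · rw [h]; simp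
    have hw : 0 < ‖w‖ := norm_pos_iff.mpr h
    rcases le_or_gt 1 ‖w‖ with h' | h'
    · rw [abs_of_nonneg (Real.log_nonneg h')]
      have := Real.log_le_sub_one_of_pos hw
      nlinarith
    · have h4 := xlogx_ge hw
      have h5 : Real.log ‖w‖ ≤ 0 := Real.log_nonpos hw.le h'.le
      rw [abs_of_nonpos h5]
      nlinarith
  linarith

theorem intervalIntegrable_of_bdd {f : ℝ → ℝ} {a b C : ℝ} (hf : Measurable f)
    (hC : ∀ t ∈ Set.uIoc a b, |f t| ≤ C) : IntervalIntegrable f volume a b := by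
  rw [intervalIntegrable_iff]
  apply Measure.integrableOn_of_bounded (M := C)
  · rw [Set.uIoc]; simp
  · exact hf.aestronglyMeasurable
  · rw [ae_restrict_iff' measurableSet_uIoc]
    filter_upwards with t ht
    simpa using hC t ht

theorem intervalIntegrable_Iseg_line {a d a' d' : ℂ} (hd : d ≠ 0) (m : ℝ) (α β : ℝ) :
    IntervalIntegrable (fun t : ℝ => Iseg a d m (a' + t * d')) volume α β := by
  simp_rw [Iseg_closed hd]
  have hc : Continuous (fun t : ℝ => (a' + (t : ℂ) * d' - a) / d) := by fun_prop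
  -- bound of the modulus on the compact interval
  obtain ⟨R, hR⟩ : ∃ R : ℝ, ∀ t ∈ Set.uIcc α β, ‖(a' + (t : ℂ) * d' - a) / d‖ ≤ R := by
    obtain ⟨R, hR⟩ := (isCompact_uIcc (a := α) (b := β)).exists_bound_of_continuousOn hc.continuousOn
    exact ⟨R, hR⟩
  have hR' : ∀ t ∈ Set.uIcc α β, ‖(a' + (t : ℂ) * d' - a) / d - (m : ℂ)‖ ≤ R + |m| := by
    intro t ht
    calc _ ≤ ‖(a' + (t : ℂ) * d' - a) / d‖ + ‖(m : ℂ)‖ := norm_sub_le _ _
      _ ≤ R + |m| := by
        have := hR t ht
        rw [Complex.norm_real, Real.norm_eq_abs]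
        linarith
  apply intervalIntegrable_of_bdd
    (C := |m * Real.log ‖d‖| + ((1 + R) ^ 2 + Real.pi * R) + ((1 + (R + |m|)) ^ 2
      + Real.pi * (R + |m|)) + |m|)
  · fun_prop
  · intro t ht
    have ht' : t ∈ Set.uIcc α β := Set.uIoc_subset_uIcc ht
    set w : ℂ := (a' + (t : ℂ) * d' - a) / d with hw
    have h1 := abs_re_mul_log_le w
    have h2 := abs_re_mul_log_le (w - m)
    have h3 := hR t ht'
    have h4 := hR' t ht'
    have h5 : (1 + ‖w‖) ^ 2 + Real.pi * ‖w‖ ≤ (1 + R) ^ 2 + Real.pi * R := by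
      have := Real.pi_pos
      gcongr
    have h6 : (1 + ‖w - m‖) ^ 2 + Real.pi * ‖w - m‖ ≤ (1 + (R + |m|)) ^ 2 + Real.pi * (R + |m|) := by
      have := Real.pi_pos
      gcongr
    calc |m * Real.log ‖d‖ + (w * Complex.log w).re - ((w - m) * Complex.log (w - m)).re - m|
        ≤ |m * Real.log ‖d‖| + |(w * Complex.log w).re| + |((w - m) * Complex.log (w - m)).re| + |m| := by
          refine (abs_sub _ _).trans ?_
          gcongr
          refine (abs_sub _ _).trans ?_
          gcongr
          exact abs_add_le _ _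
      _ ≤ _ := by linarith

/-- (P4) mutual energy of two families that stay apart -/
theorem abs_mutual_sub_le {a d a' d' : ℂ} (hd : d ≠ 0) (hd' : d' ≠ 0) {m m' : ℕ} {δ : ℝ}
    (hδ : 0 < δ) (hδ1 : δ ≤ 1)
    (h1 : ∀ i < m, ∀ j < m', δ * ‖d‖ ≤ ‖pt a' d' j - pt a d i‖)
    (h2 : ∀ t ∈ Set.Icc (0 : ℝ) m, ∀ j < m', δ * ‖d'‖ ≤ ‖(a + t * d) - pt a' d' j‖) :
    |∑ j ∈ Finset.range m', ∑ i ∈ Finset.range m, Real.log ‖pt a' d' j - pt a d i‖
      - ∫ t in (0 : ℝ)..m, Iseg a' d' m' (a + t * d)| ≤ (m + m') * (22 + 11 * Real.log (1 / δ)) := by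
  set E := 22 + 11 * Real.log (1 / δ) with hE
  have hs1 : |∑ j ∈ Finset.range m', ∑ i ∈ Finset.range m, Real.log ‖pt a' d' j - pt a d i‖
      - ∑ j ∈ Finset.range m', Iseg a d m (pt a' d' j)| ≤ m' * E := by
    rw [← Finset.sum_sub_distrib]
    calc _ ≤ ∑ j ∈ Finset.range m', |∑ i ∈ Finset.range m, Real.log ‖pt a' d' j - pt a d i‖
          - Iseg a d m (pt a' d' j)| := Finset.abs_sum_le_sum_abs _ _
      _ ≤ ∑ _j ∈ Finset.range m', E := by
          apply Finset.sum_le_sum
          intro j hj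
          exact abs_sum_log_sub_Iseg_le hd hδ hδ1 (fun i hi => h1 i hi j (Finset.mem_range.mp hj))
      _ = m' * E := by simp
  have hswap : ∑ j ∈ Finset.range m', Iseg a d m (pt a' d' j)
      = ∫ t in (0 : ℝ)..m, ∑ j ∈ Finset.range m', Real.log ‖(a + t * d) - pt a' d' j‖ := by
    rw [intervalIntegral.integral_finsetSum]
    · apply Finset.sum_congr rfl
      intro j _
      unfold Iseg
      apply intervalIntegral.integral_congr
      intro t _
      simp only
      rw [norm_sub_rev]
    · intro j _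
      have := intervalIntegrable_Iseg (a := a) (d := d) (s := pt a' d' j) 0 (m : ℝ)
      simpa only [norm_sub_rev] using this
  have hs2 : |∑ j ∈ Finset.range m', Iseg a d m (pt a' d' j)
      - ∫ t in (0 : ℝ)..m, Iseg a' d' m' (a + t * d)| ≤ m * E := by
    rw [hswap, ← intervalIntegral.integral_sub]
    · have hb : ∀ t ∈ Set.uIoc (0 : ℝ) m,
          ‖∑ j ∈ Finset.range m', Real.log ‖(a + t * d) - pt a' d' j‖ - Iseg a' d' m' (a + t * d)‖
            ≤ E := by
        intro t ht
        rw [Set.uIoc_of_le (by positivity)] at ht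
        rw [Real.norm_eq_abs]
        exact abs_sum_log_sub_Iseg_le hd' hδ hδ1
          (fun j hj => h2 t ⟨ht.1.le, ht.2⟩ j hj)
      have := intervalIntegral.norm_integral_le_of_norm_le_const hb
      rw [Real.norm_eq_abs] at this
      simp only [sub_zero, Nat.abs_cast] at this
      linarith
    · have : IntervalIntegrable (∑ j ∈ Finset.range m', fun t : ℝ =>
          Real.log ‖(a + t * d) - pt a' d' j‖) volume 0 (m : ℝ) := by
        apply IntervalIntegrable.sum
        intro j _
        have := intervalIntegrable_Iseg (a := a) (d := d) (s := pt a' d' j) 0 (m : ℝ)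
        simpa only [norm_sub_rev] using this
      convert this using 1
      ext t
      simp
    · exact intervalIntegrable_Iseg_line hd' _ _ _
  calc _ = |(∑ j ∈ Finset.range m', ∑ i ∈ Finset.range m, Real.log ‖pt a' d' j - pt a d i‖
      - ∑ j ∈ Finset.range m', Iseg a d m (pt a' d' j))
      + (∑ j ∈ Finset.range m', Iseg a d m (pt a' d' j)
      - ∫ t in (0 : ℝ)..m, Iseg a' d' m' (a + t * d))| := by congr 1; ring
    _ ≤ m' * E + m * E := (abs_add_le _ _).trans (add_le_add hs1 hs2)
    _ = (m + m') * E := by ring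

/-! ### moving the end points -/

theorem shift_ge' (y : ℝ) {ε : ℝ} (h0 : 0 ≤ ε) (h1 : ε ≤ 1) :
    -2 ≤ (y + ε) * Real.log (y + ε) - y * Real.log y := by
  have pos : ∀ y : ℝ, 0 ≤ y → -1 ≤ (y + ε) * Real.log (y + ε) - y * Real.log y := by
    intro y hy
    rcases eq_or_lt_of_le (by linarith : 0 ≤ y + ε) with h | h
    · have hy0 : y = 0 := by linarith
      rw [← h, hy0]; simp
    · have h2 := xlogx_ge h
      rcases le_or_gt 1 y with h3 | h3
      · have h4 : Real.log y ≤ Real.log (y + ε) := Real.log_le_log (by linarith) (by linarith)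
        have h5 : 0 ≤ Real.log (y + ε) := Real.log_nonneg (by linarith)
        nlinarith
      · have h4 : Real.log y ≤ 0 := Real.log_nonpos hy h3.le
        nlinarith
  rcases le_or_gt 0 y with h | h
  · have := pos y h; linarith
  rcases le_or_gt (y + ε) 0 with h' | h'
  · have h2 := pos (-(y + ε)) (by linarith)
    have e : -(y + ε) + ε = -y := by ring
    rw [e, Real.log_neg_eq_log, Real.log_neg_eq_log] at h2
    nlinarith
  · have h2 := xlogx_ge h'
    have h3 := xlogx_ge (y := -y) (by linarith)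
    rw [Real.log_neg_eq_log] at h3
    nlinarith

theorem small_ge (w : ℂ) (c : ℝ) {ε : ℝ} (h0 : 0 ≤ ε) (h1 : ε ≤ 1) :
    -3 ≤ ∫ t in c..(c + ε), Real.log ‖w - (t : ℂ)‖ := by
  have h2 : ∫ t in c..(c + ε), Real.log (w.re - t) ≤ ∫ t in c..(c + ε), Real.log ‖w - (t : ℂ)‖ := by
    apply intervalIntegral.integral_mono_ae (by linarith)
    · have := (intervalIntegral.intervalIntegrable_log' (a := w.re - c)
        (b := w.re - (c + ε))).comp_sub_left w.re
      simpa using this
    · exact intervalIntegrable_log_norm_sub w _ _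
    · have h := (Set.countable_singleton w.re).ae_notMem (volume : Measure ℝ)
      filter_upwards [h] with t ht
      have ht' : w.re - t ≠ 0 := by
        intro h0; apply ht; simp; linarith
      rw [← Real.log_abs]
      apply Real.log_le_log (abs_pos.mpr ht')
      have := Complex.abs_re_le_norm (w - (t : ℂ))
      simpa using this
  have h3 : ∫ t in c..(c + ε), Real.log (w.re - t)
      = (w.re - c) * Real.log (w.re - c) - (w.re - (c + ε)) * Real.log (w.re - (c + ε)) - ε := by
    rw [intervalIntegral.integral_comp_sub_left (fun y => Real.log y) w.re, integral_log]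
    ring
  have h4 := shift_ge' (w.re - (c + ε)) h0 h1
  have e : w.re - (c + ε) + ε = w.re - c := by ring
  rw [e] at h4
  linarith

theorem small_le (w : ℂ) (c : ℝ) {ε : ℝ} (h0 : 0 ≤ ε) (h1 : ε ≤ 1) :
    ∫ t in c..(c + ε), Real.log ‖w - (t : ℂ)‖ ≤ Real.log (1 + ‖w - c‖) := by
  have hL : 0 ≤ Real.log (1 + ‖w - c‖) := Real.log_nonneg (by linarith [norm_nonneg (w - c)])
  have h2 : ∫ t in c..(c + ε), Real.log ‖w - (t : ℂ)‖ ≤ ∫ _t in c..(c + ε), Real.log (1 + ‖w - c‖) := by
    apply intervalIntegral.integral_mono_on (by linarith) (intervalIntegrable_log_norm_sub w _ _)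
      (by simp)
    intro t ht
    have h3 : ‖w - (t : ℂ)‖ ≤ 1 + ‖w - c‖ := by
      calc ‖w - (t : ℂ)‖ = ‖(w - c) - ((t - c : ℝ) : ℂ)‖ := by congr 1; push_cast; ring
        _ ≤ ‖w - c‖ + ‖((t - c : ℝ) : ℂ)‖ := norm_sub_le _ _
        _ ≤ ‖w - c‖ + 1 := by
            gcongr
            rw [Complex.norm_real, Real.norm_eq_abs, abs_le]
            constructor <;> linarith [ht.1, ht.2]
        _ = _ := by ring
    rcases eq_or_lt_of_le (norm_nonneg (w - (t : ℂ))) with h | h
    · rw [← h]; simpa using hL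
    · exact Real.log_le_log h h3
  have h3 : ∫ _t in c..(c + ε), Real.log (1 + ‖w - c‖) = ε * Real.log (1 + ‖w - c‖) := by
    simp
  nlinarith

theorem seg_shift (w : ℂ) (m : ℝ) {ε : ℝ} (h0 : 0 ≤ ε) (h1 : ε ≤ 1) :
    seg (w - ε) m - seg w m ≤ 3 + Real.log (1 + ‖w - m‖) ∧
    -(3 + Real.log (1 + ‖w‖)) ≤ seg (w - ε) m - seg w m := by
  have e : seg (w - ε) m = ∫ t in ε..(m + ε), Real.log ‖w - (t : ℂ)‖ := by
    unfold seg
    have h2 := intervalIntegral.integral_comp_add_right (a := (0 : ℝ)) (b := m)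
      (fun t : ℝ => Real.log ‖w - (t : ℂ)‖) ε
    rw [zero_add] at h2
    rw [← h2]
    apply intervalIntegral.integral_congr
    intro t _
    simp only
    congr 2
    push_cast; ring
  have e2 : ∫ t in ε..(m + ε), Real.log ‖w - (t : ℂ)‖
      = seg w m + (∫ t in m..(m + ε), Real.log ‖w - (t : ℂ)‖)
        - ∫ t in (0 : ℝ)..(0 + ε), Real.log ‖w - (t : ℂ)‖ := by
    unfold seg
    have i := fun a b : ℝ => intervalIntegrable_log_norm_sub w a b
    have h3 := intervalIntegral.integral_add_adjacent_intervals (i 0 ε) (i ε (m + ε))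
    have h4 := intervalIntegral.integral_add_adjacent_intervals (i 0 m) (i m (m + ε))
    rw [zero_add]
    linarith
  rw [e, e2]
  have a1 := small_ge w m h0 h1
  have a2 := small_ge w 0 h0 h1
  have a3 := small_le w m h0 h1
  have a4 := small_le w 0 h0 h1
  simp only [Complex.ofReal_zero, sub_zero] at a4
  constructor <;> linarith

/-- moving a segment by a fraction of its spacing -/
theorem Iseg_shift {a d s : ℂ} (hd : d ≠ 0) (m : ℝ) {ε : ℝ} (h0 : 0 ≤ ε) (h1 : ε ≤ 1) :
    Iseg (a + ε * d) d m s - Iseg a d m s ≤ 3 + Real.log (1 + ‖(s - a) / d - m‖) ∧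
    -(3 + Real.log (1 + ‖(s - a) / d‖)) ≤ Iseg (a + ε * d) d m s - Iseg a d m s := by
  have e : (s - (a + ε * d)) / d = (s - a) / d - ε := by field_simp; ring
  rw [Iseg_eq hd, Iseg_eq hd, e]
  have := seg_shift ((s - a) / d) m h0 h1
  constructor <;> linarith [this.1, this.2]

/-! ### windows of integers -/

theorem pt_window (A : ℤ) (j : ℕ) : pt ((A : ℂ) - 1 / 2) 1 j = (A : ℂ) + j := by
  unfold pt; ring

theorem pt_window_half (A : ℤ) (j : ℕ) : pt (A : ℂ) 1 j = (A : ℂ) + j + 1 / 2 := by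
  unfold pt; ring

/-- the product over the integers `A, …, A+m-1` against the potential of `[A, A+m]` -/
theorem window_prod_le (A : ℤ) (m : ℕ) (s : ℂ) :
    ∏ j ∈ Finset.range m, ‖s - ((A : ℂ) + j)‖ ≤
      Real.exp (Iseg A 1 m s + 25 + Real.log (2 + ‖s - A‖)) := by
  have h1 := prod_le_exp_Iseg (a := (A : ℂ) - 1 / 2) (d := 1) one_ne_zero m s
  simp_rw [pt_window] at h1
  refine h1.trans (Real.exp_le_exp.mpr ?_)
  have h2 := (Iseg_shift (a := (A : ℂ) - 1 / 2) (d := 1) (s := s) one_ne_zero m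
    (ε := 1 / 2) (by norm_num) (by norm_num)).2
  have e : (A : ℂ) - 1 / 2 + ((1 / 2 : ℝ) : ℂ) * 1 = A := by push_cast; ring
  rw [e] at h2
  have h3 : Real.log (1 + ‖(s - ((A : ℂ) - 1 / 2)) / 1‖) ≤ Real.log (2 + ‖s - A‖) := by
    apply Real.log_le_log (by positivity)
    have : ‖(s - ((A : ℂ) - 1 / 2)) / 1‖ ≤ ‖s - A‖ + 1 / 2 := by
      have e2 : (s - ((A : ℂ) - 1 / 2)) / 1 = (s - A) + ((1 / 2 : ℝ) : ℂ) := by push_cast; ring
      rw [e2]
      refine (norm_add_le _ _).trans ?_
      rw [Complex.norm_real]; norm_num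
    linarith
  linarith

/-- lower bound of the same product away from the integers of the window -/
theorem window_prod_ge (A : ℤ) (m : ℕ) (s : ℂ) {δ : ℝ} (hδ : 0 < δ) (hδ1 : δ ≤ 1)
    (h : ∀ j < m, δ ≤ ‖s - ((A : ℂ) + j)‖) :
    Real.exp (Iseg A 1 m s - 25 - 11 * Real.log (1 / δ) - Real.log (2 + ‖s - (A + m)‖)) ≤
      ∏ j ∈ Finset.range m, ‖s - ((A : ℂ) + j)‖ := by
  have hpos : ∀ j ∈ Finset.range m, 0 < ‖s - ((A : ℂ) + j)‖ := fun j hj =>
    lt_of_lt_of_le hδ (h j (Finset.mem_range.mp hj))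
  rw [← Real.le_log_iff_exp_le (Finset.prod_pos hpos), Real.log_prod (fun j hj => (hpos j hj).ne')]
  have h1 := abs_sum_log_sub_Iseg_le (a := (A : ℂ) - 1 / 2) (d := 1) one_ne_zero (m := m) (s := s)
    hδ hδ1 (by intro j hj; rw [pt_window]; simpa using h j hj)
  simp_rw [pt_window] at h1
  have h2 := (Iseg_shift (a := (A : ℂ) - 1 / 2) (d := 1) (s := s) one_ne_zero m
    (ε := 1 / 2) (by norm_num) (by norm_num)).1
  have e : (A : ℂ) - 1 / 2 + ((1 / 2 : ℝ) : ℂ) * 1 = A := by push_cast; ring
  rw [e] at h2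
  have h3 : Real.log (1 + ‖(s - ((A : ℂ) - 1 / 2)) / 1 - ((m : ℝ) : ℂ)‖)
      ≤ Real.log (2 + ‖s - (A + m)‖) := by
    apply Real.log_le_log (by positivity)
    have : ‖(s - ((A : ℂ) - 1 / 2)) / 1 - ((m : ℝ) : ℂ)‖ ≤ ‖s - (A + m)‖ + 1 / 2 := by
      have e2 : (s - ((A : ℂ) - 1 / 2)) / 1 - ((m : ℝ) : ℂ) = (s - (A + m)) + ((1 / 2 : ℝ) : ℂ) := by
        push_cast; ring
      rw [e2]
      refine (norm_add_le _ _).trans ?_
      rw [Complex.norm_real]; norm_num
    linarith
  have h4 := (abs_le.mp h1).1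
  linarith

end Crest.Agent.R006.Potx943
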