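import Crest.Agent.R006.VVAsym_929
import Crest.Agent.R006.P3_Pot2_943

set_option autoImplicit false

/-!
# Row 6, block P3: the node polynomial and the gauge against their potentials (helper650)

* `win_ge`, `win_le` : one window of integers (`e = 0`) or half-integers (`e = 1/2`);
* `UN S x` : potential of the nodes (eight windows) in units of `u`;
* `log_nodes_ge`, `prod_nodes_ge` : `∏ |s - z|^(m z) ≥ exp (u (rows log u + UN S (s/u)) - small)`
  at distance `≥ δ` from the nodes.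
-/

namespace Crest.Agent.R006.ArchSx650

open Finset Crest.Agent.R006.D Crest.Agent.R006.Bordx929 Crest.Agent.R006.Potx943 Crest.Agent.R006.VVx929

lemma sum_Ico_range (A : ℤ) (m : ℕ) (f : ℤ → ℝ) :
    ∑ i ∈ Ico A (A + m), f i = ∑ j ∈ range m, f (A + j) := by
  induction m with
  | zero => simp
  | succ n ih =>
    rw [Finset.sum_range_succ, ← ih]
    have : Ico A (A + ((n + 1 : ℕ) : ℤ)) = insert (A + (n : ℤ)) (Ico A (A + n)) := by
      ext x; simp only [mem_Ico, mem_insert]; push_cast; omega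
    rw [this, Finset.sum_insert (by simp), add_comm]

lemma prod_Ico_range (A : ℤ) (m : ℕ) (f : ℤ → ℝ) :
    ∏ i ∈ Ico A (A + m), f i = ∏ j ∈ range m, f (A + j) := by
  induction m with
  | zero => simp
  | succ n ih =>
    rw [Finset.prod_range_succ, ← ih]
    have : Ico A (A + ((n + 1 : ℕ) : ℤ)) = insert (A + (n : ℤ)) (Ico A (A + n)) := by
      ext x; simp only [mem_Ico, mem_insert]; push_cast; omega
    rw [this, Finset.prod_insert (by simp), mul_comm]

/-- lower bound of a window, integers or half-integers -/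
theorem win_ge (A : ℤ) (m : ℕ) {e : ℝ} (he : e = 0 ∨ e = 1 / 2) (s : ℂ) {δ : ℝ} (hδ : 0 < δ)
    (hδ1 : δ ≤ 1) (h : ∀ i ∈ Ico A (A + m), δ ≤ ‖s - (((i : ℝ) + e : ℝ) : ℂ)‖) :
    Iseg A 1 m s - 25 - 11 * Real.log (1 / δ) - Real.log (2 + ‖s - (A + m)‖) ≤
      ∑ i ∈ Ico A (A + m), Real.log ‖s - (((i : ℝ) + e : ℝ) : ℂ)‖ := by
  have hl : 0 ≤ Real.log (1 / δ) := Real.log_nonneg (by rw [le_div_iff₀ hδ]; linarith)
  have hl2 : 0 ≤ Real.log (2 + ‖s - (A + m)‖) :=
    Real.log_nonneg (by linarith [norm_nonneg (s - (A + m))])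
  rw [sum_Ico_range A m (fun i => Real.log ‖s - (((i : ℝ) + e : ℝ) : ℂ)‖)]
  have h' : ∀ j < m, δ ≤ ‖s - (((A : ℂ) + j) + (e : ℂ))‖ := by
    intro j hj
    have := h (A + j) (by rw [mem_Ico]; constructor <;> omega)
    push_cast at this ⊢
    exact this
  rcases he with rfl | rfl
  · have hw := window_prod_ge A m s hδ hδ1 (fun j hj => by simpa using h' j hj)
    have hpos : ∀ j ∈ range m, 0 < ‖s - ((A : ℂ) + j)‖ := fun j hj =>
      lt_of_lt_of_le hδ (by simpa using h' j (mem_range.mp hj))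
    have h2 := Real.log_le_log (Real.exp_pos _) hw
    rw [Real.log_exp, Real.log_prod (fun j hj => (hpos j hj).ne')] at h2
    refine h2.trans (le_of_eq (sum_congr rfl fun j _ => ?_))
    congr 2
    push_cast; ring
  · have hp := abs_sum_log_sub_Iseg_le (a := (A : ℂ)) (d := 1) (m := m) (s := s) one_ne_zero hδ hδ1
      (fun j hj => by
        rw [norm_one, mul_one]
        have := h' j hj
        have e1 : pt (A : ℂ) 1 j = ((A : ℂ) + j) + ((1 / 2 : ℝ) : ℂ) := by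
          unfold pt; push_cast; ring
        rw [e1]; exact this)
    have h3 := (abs_le.mp hp).1
    have e2 : ∑ j ∈ range m, Real.log ‖s - ((((A + j : ℤ) : ℝ) + 1 / 2 : ℝ) : ℂ)‖ =
        ∑ j ∈ range m, Real.log ‖s - pt (A : ℂ) 1 j‖ := by
      refine sum_congr rfl fun j _ => ?_
      congr 2
      unfold pt; push_cast; ring
    rw [e2]
    linarith

/-- upper bound of a window, integers or half-integers, every `s` -/
theorem win_le (A : ℤ) (m : ℕ) {e : ℝ} (he : e = 0 ∨ e = 1 / 2) (s : ℂ) :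
    ∏ i ∈ Ico A (A + m), ‖s - (((i : ℝ) + e : ℝ) : ℂ)‖ ≤
      Real.exp (Iseg A 1 m s + 25 + Real.log (2 + ‖s - A‖)) := by
  have hl2 : 0 ≤ Real.log (2 + ‖s - A‖) := Real.log_nonneg (by linarith [norm_nonneg (s - A)])
  rw [prod_Ico_range A m (fun i => ‖s - (((i : ℝ) + e : ℝ) : ℂ)‖)]
  rcases he with rfl | rfl
  · refine le_trans (le_of_eq ?_) (window_prod_le A m s)
    refine prod_congr rfl fun j _ => ?_
    congr 1
    push_cast; ring
  · refine le_trans (le_trans (le_of_eq ?_) (prod_le_exp_Iseg (a := (A : ℂ)) (d := 1)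
      one_ne_zero m s)) (Real.exp_le_exp.mpr (by linarith))
    refine prod_congr rfl fun j _ => ?_
    congr 1
    unfold pt; push_cast; ring

/-- potential of one window in units of `u` -/
noncomputable def Uw (S : Shape) (w : Fin 8) (x : ℂ) : ℝ :=
  Iseg (loW S w) 1 ((hiW S w : ℝ) - loW S w) x

/-- potential of all nodes -/
noncomputable def UN (S : Shape) (x : ℂ) : ℝ := ∑ w : Fin 8, Uw S w x

/-- upper bound of a window `[lo u, hi u)`, every `s` (gauge factors) -/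
theorem window_le {lo hi : ℤ} (h : lo ≤ hi) {u : ℕ} (hu : 1 ≤ u) {e : ℝ}
    (he : e = 0 ∨ e = 1 / 2) (s : ℂ) :
    ∏ i ∈ Ico (lo * u) (hi * u), ‖s - (((i : ℝ) + e : ℝ) : ℂ)‖ ≤
      Real.exp ((u : ℝ) * (((hi : ℝ) - lo) * Real.log u +
        Iseg (lo : ℂ) 1 ((hi : ℝ) - lo) (s / u)) + 25 + Real.log (2 + ‖s - lo * u‖)) := by
  have hle : lo * u ≤ hi * u := mul_le_mul_of_nonneg_right h (by positivity)
  obtain ⟨m, hm⟩ : ∃ m : ℕ, hi * u = lo * u + m := ⟨(hi * u - lo * u).toNat, by omega⟩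
  have hu0 : (0 : ℝ) < u := by exact_mod_cast hu
  have hu1 : (u : ℂ) ≠ 0 := by exact_mod_cast hu0.ne'
  have h1 := win_le (lo * u) m he s
  rw [← hm] at h1
  have e2 : (m : ℝ) = ((hi * u - lo * u : ℤ) : ℝ) := by
    rw [hm]; push_cast; ring
  have e3 : Iseg ((lo * u : ℤ) : ℂ) 1 (((hi * u - lo * u : ℤ)) : ℝ) s =
      (u : ℝ) * (((hi : ℝ) - lo) * Real.log u + Iseg (lo : ℂ) 1 ((hi : ℝ) - lo) (s / u)) := by
    rw [← Iseg_scale _ hu0 one_ne_zero]
    congr 1
    · push_cast; ring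
    · push_cast; ring
    · push_cast; field_simp
  rw [e2, e3] at h1
  push_cast at h1 ⊢
  exact h1

lemma Iseg_window_scale {lo hi : ℤ} {u : ℕ} (hu : 1 ≤ u) (s : ℂ) :
    Iseg ((lo * u : ℤ) : ℂ) 1 (((hi * u - lo * u : ℤ)) : ℝ) s =
      (u : ℝ) * (((hi : ℝ) - lo) * Real.log u + Iseg (lo : ℂ) 1 ((hi : ℝ) - lo) (s / u)) := by
  have hu0 : (0 : ℝ) < u := by exact_mod_cast hu
  have hu1 : (u : ℂ) ≠ 0 := by exact_mod_cast hu0.ne'
  rw [← Iseg_scale _ hu0 one_ne_zero]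
  congr 1
  · push_cast; ring
  · push_cast; ring
  · push_cast; field_simp

/-- a window `[lo u, hi u)` with `ex` extra points at the right end -/
theorem window_ge {lo hi : ℤ} (h : lo ≤ hi) (ex : ℕ) {u : ℕ} (hu : 1 ≤ u) {e : ℝ}
    (he : e = 0 ∨ e = 1 / 2) (s : ℂ) {δ : ℝ} (hδ : 0 < δ) (hδ1 : δ ≤ 1)
    (hs : ∀ i ∈ Ico (lo * u) (hi * u + ex), δ ≤ ‖s - (((i : ℝ) + e : ℝ) : ℂ)‖) :
    (u : ℝ) * (((hi : ℝ) - lo) * Real.log u + Iseg (lo : ℂ) 1 ((hi : ℝ) - lo) (s / u)) -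
        25 - (11 + ex) * Real.log (1 / δ) - Real.log (2 + ‖s - hi * u‖) ≤
      ∑ i ∈ Ico (lo * u) (hi * u + ex), Real.log ‖s - (((i : ℝ) + e : ℝ) : ℂ)‖ := by
  have hle : lo * u ≤ hi * u := mul_le_mul_of_nonneg_right h (by positivity)
  obtain ⟨m, hm⟩ : ∃ m : ℕ, hi * u = lo * u + m := ⟨(hi * u - lo * u).toNat, by omega⟩
  have hsplit : Ico (lo * u) (hi * u + ex) = Ico (lo * u) (hi * u) ∪ Ico (hi * u) (hi * u + ex) :=
    (Finset.Ico_union_Ico_eq_Ico hle (by omega)).symm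
  rw [hsplit, sum_union (by
    rw [Finset.disjoint_left]; intro x hx hx'; rw [mem_Ico] at hx hx'; omega)]
  have h1 := win_ge (lo * u) m he s hδ hδ1 (fun i hi' => hs i (by
    rw [mem_Ico] at hi' ⊢; omega))
  rw [← hm] at h1
  have h2 : -(ex * Real.log (1 / δ)) ≤
      ∑ i ∈ Ico (hi * u) (hi * u + ex), Real.log ‖s - (((i : ℝ) + e : ℝ) : ℂ)‖ := by
    have h3 : ∀ i ∈ Ico (hi * u) (hi * u + ex), -Real.log (1 / δ) ≤
        Real.log ‖s - (((i : ℝ) + e : ℝ) : ℂ)‖ := by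
      intro i hi'
      rw [one_div, Real.log_inv, neg_neg]
      exact Real.log_le_log hδ (hs i (by rw [mem_Ico] at hi' ⊢; omega))
    have h4 := Finset.card_nsmul_le_sum _ _ _ h3
    have h5 : (Ico (hi * u) (hi * u + ex)).card = ex := by simp
    rw [h5, nsmul_eq_mul] at h4
    linarith
  have e1 : ((lo * u : ℤ) : ℂ) + (m : ℂ) = hi * u := by
    have : ((hi * u : ℤ) : ℂ) = ((lo * u + m : ℤ) : ℂ) := by rw [hm]
    push_cast at this ⊢
    exact this.symm
  have e2 : (m : ℝ) = ((hi * u - lo * u : ℤ) : ℝ) := by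
    rw [hm]; push_cast; ring
  rw [e1, e2, Iseg_window_scale hu s] at h1
  push_cast at h1 h2 ⊢
  linarith


/-! ### all the nodes -/

variable {S : Shape} {u c : ℕ}

/-- number of extra nodes, as a natural number -/
def exN (c : ℕ) : Fin 8 → ℕ := ![c, 0, 0, 0, 0, 0, 0, 0]

lemma exW_eq (c : ℕ) (w : Fin 8) : exW c w = (exN c w : ℤ) := by
  fin_cases w <;> simp [exW, exN]

lemma exN_le (c : ℕ) (w : Fin 8) : exN c w ≤ c := by
  fin_cases w <;> simp [exN]

lemma eW_or (w : Fin 8) : eW w = 0 ∨ eW w = 1 / 2 := by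
  fin_cases w <;> simp [eW]

/-- the nodes keep the distance `δ` from `s` -/
def Apart (S : Shape) (u c : ℕ) (δ : ℝ) (s : ℂ) : Prop :=
  ∀ z : Site, S.mult u c z ≠ 0 → δ ≤ ‖s - ((z.val : ℝ) : ℂ)‖

lemma exists_site (w : Fin 8) {i : ℤ}
    (hi : i ∈ Ico (loW S w * u) (hiW S w * u + exW c w)) :
    ∃ z : Site, S.mult u c z ≠ 0 ∧ (z.val : ℝ) = i + eW w := by
  have q1 : (0 : ℤ) ≤ S.B * u := by positivity
  rw [mem_Ico] at hi
  fin_cases w
  · refine ⟨Site.Z i, ?_, by simp [Site.val, eW]⟩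
    simp only [loW, hiW, exW, Fin.zero_eta, Matrix.cons_val_zero, zero_mul] at hi
    rw [Shape.mult, if_pos hi.1, if_pos hi.2]; exact one_ne_zero
  · refine ⟨Site.Z i, ?_, by simp [Site.val, eW]⟩
    simp [loW, hiW, exW] at hi
    rw [Shape.mult, if_neg (by omega), if_pos (by linarith)]; omega
  · refine ⟨Site.Z i, ?_, by simp [Site.val, eW]⟩
    simp [loW, hiW, exW] at hi
    rw [Shape.mult, if_neg (by omega), if_pos (c := -i ≤ (S.e2 : ℤ) * u) (by linarith)]; omega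
  · refine ⟨Site.Z i, ?_, by simp [Site.val, eW]⟩
    simp [loW, hiW, exW] at hi
    rw [Shape.mult, if_neg (by omega), if_pos (c := -i ≤ (S.e3 : ℤ) * u) (by linarith)]; omega
  · refine ⟨Site.H i, ?_, by simp [Site.val, eW]⟩
    simp [loW, hiW, exW] at hi
    rw [Shape.mult, if_neg (by omega), if_pos (by linarith)]; omega
  · refine ⟨Site.H i, ?_, by simp [Site.val, eW]⟩
    simp [loW, hiW, exW] at hi
    rw [Shape.mult, if_pos hi.1, if_pos (by linarith)]; omega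
  · refine ⟨Site.H i, ?_, by simp [Site.val, eW]⟩
    simp [loW, hiW, exW] at hi
    rw [Shape.mult, if_pos hi.1, if_pos (c := i < (S.h2 : ℤ) * u) (by linarith)]; omega
  · refine ⟨Site.H i, ?_, by simp [Site.val, eW]⟩
    simp [loW, hiW, exW] at hi
    rw [Shape.mult, if_pos hi.1, if_pos (c := i < (S.h3 : ℤ) * u) (by linarith)]; omega

lemma norm_cast_sub_le (s : ℂ) (w : Fin 8) :
    ‖s - (hiW S w : ℂ) * u‖ ≤ ‖s‖ + (S.B + S.h1 + S.h2 + S.h3) * u := by
  refine (norm_sub_le _ _).trans ?_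
  rw [norm_mul]
  have h1 : ‖(u : ℂ)‖ = u := by simp
  have h2 : ‖(hiW S w : ℂ)‖ ≤ S.B + S.h1 + S.h2 + S.h3 := by
    have hB : (0 : ℝ) ≤ S.B := by positivity
    have h1 : (0 : ℝ) ≤ S.h1 := by positivity
    have h2 : (0 : ℝ) ≤ S.h2 := by positivity
    have h3 : (0 : ℝ) ≤ S.h3 := by positivity
    fin_cases w <;> simp [hiW] <;> linarith
  rw [h1]
  gcongr

/-- **lower bound of the node polynomial** (logarithmic form) -/
theorem log_nodes_ge (hS : S.Good) (hu : 1 ≤ u) {s : ℂ} {δ : ℝ} (hδ : 0 < δ) (hδ1 : δ ≤ 1)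
    (hs : Apart S u c δ s) :
    (u : ℝ) * ((S.rows : ℝ) * Real.log u + UN S (s / u)) -
        8 * (25 + (11 + c) * Real.log (1 / δ) +
          Real.log (2 + ‖s‖ + (S.B + S.h1 + S.h2 + S.h3) * u)) ≤
      ∑ z ∈ sites S u c, (S.mult u c z : ℝ) * Real.log ‖s - ((z.val : ℝ) : ℂ)‖ := by
  have hl : 0 ≤ Real.log (1 / δ) := Real.log_nonneg (by rw [le_div_iff₀ hδ]; linarith)
  rw [sum_sites_real u c hS (fun x => Real.log ‖s - (x : ℂ)‖)]
  have hw : ∀ w : Fin 8, (u : ℝ) * (((hiW S w : ℝ) - loW S w) * Real.log u + Uw S w (s / u)) -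
      (25 + (11 + c) * Real.log (1 / δ) +
        Real.log (2 + ‖s‖ + (S.B + S.h1 + S.h2 + S.h3) * u)) ≤
      ∑ i ∈ Ico (loW S w * u) (hiW S w * u + exW c w), Real.log ‖s - (((i : ℝ) + eW w : ℝ) : ℂ)‖ := by
    intro w
    have h := window_ge (loW_le_hiW S w) (exN c w) hu (eW_or w) s hδ hδ1 (fun i hi => by
      rw [← exW_eq] at hi
      obtain ⟨z, hz, hz'⟩ := exists_site (c := c) w hi
      rw [← hz']; exact hs z hz)
    rw [exW_eq]
    have h2 : ((exN c w : ℕ) : ℝ) ≤ c := by exact_mod_cast exN_le c w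
    have h3 : Real.log (2 + ‖s - (hiW S w : ℂ) * u‖) ≤
        Real.log (2 + ‖s‖ + (S.B + S.h1 + S.h2 + S.h3) * u) := by
      apply Real.log_le_log (by positivity)
      have := norm_cast_sub_le (S := S) (u := u) s w
      linarith
    have h4 : ((exN c w : ℕ) : ℝ) * Real.log (1 / δ) ≤ c * Real.log (1 / δ) :=
      mul_le_mul_of_nonneg_right h2 hl
    unfold Uw
    linarith
  have h := Finset.sum_le_sum fun w (_ : w ∈ (univ : Finset (Fin 8))) => hw w
  refine le_trans (le_of_eq ?_) h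
  rw [Finset.sum_sub_distrib, ← Finset.mul_sum, Finset.sum_add_distrib, ← Finset.sum_mul,
    VVx929.sum_len S, UN, Finset.sum_const, Finset.card_univ, Fintype.card_fin, nsmul_eq_mul]
  norm_num

/-- product form -/
theorem prod_nodes_ge (hS : S.Good) (hu : 1 ≤ u) {s : ℂ} {δ : ℝ} (hδ : 0 < δ) (hδ1 : δ ≤ 1)
    (hs : Apart S u c δ s) :
    Real.exp ((u : ℝ) * ((S.rows : ℝ) * Real.log u + UN S (s / u)) -
        8 * (25 + (11 + c) * Real.log (1 / δ) +
          Real.log (2 + ‖s‖ + (S.B + S.h1 + S.h2 + S.h3) * u))) ≤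
      ∏ z ∈ sites S u c, ‖s - ((z.val : ℝ) : ℂ)‖ ^ S.mult u c z := by
  have hpos : ∀ z ∈ sites S u c, 0 < ‖s - ((z.val : ℝ) : ℂ)‖ ^ S.mult u c z := by
    intro z _
    by_cases h : S.mult u c z = 0
    · rw [h, pow_zero]; exact one_pos
    · exact pow_pos (lt_of_lt_of_le hδ (hs z h)) _
  rw [← Real.exp_log (Finset.prod_pos hpos)]
  apply Real.exp_le_exp.mpr
  refine (log_nodes_ge hS hu hδ hδ1 hs).trans (le_of_eq ?_)
  rw [Real.log_prod fun z hz => (hpos z hz).ne']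
  refine Finset.sum_congr rfl fun z _ => ?_
  rw [Real.log_pow]

end Crest.Agent.R006.ArchSx650
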