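import Crest.Agent.R006.Int_672

/-!
# Row 6: no loss at the large primes (helper672)

`large_of : Large S c X'` as soon as `X' > B` and `X' ≥ 2 e1, 2 h1, a1 + k, i1, r1, q`.
-/

set_option autoImplicit false

namespace Crest.Agent.R006.Large672

open Polynomial Filter Crest.Agent.R006.NV Crest.Agent.R006.PsiInf Crest.Agent.R006.D
  Crest.Agent.R006.Int672 Crest.Agent.R006.ProdBound481

variable {p : ℕ} [hp : Fact p.Prime]

lemma PB_of_PP {P : ℚ[X]} (h : P ∈ PP p) : PB p 0 P := by
  intro k
  have := h k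
  rw [mem_Zp] at this
  simpa using this

/-- the size conditions on the prime, for a fixed `u` -/
structure Big (S : Shape) (u c p : ℕ) : Prop where
  p5 : 5 ≤ p
  B : S.B * u + c ≤ p
  e1 : 2 * (S.e1 * u) ≤ p
  h1 : 2 * (S.h1 * u) ≤ p
  k : S.a1 * u + S.k * u ≤ p
  i1 : S.i1 * u < p
  r1 : S.r1 * u < p
  a2 : S.a2 * u < p
  q : S.q * u ≤ p

lemma val_mem {S : Shape} {u c : ℕ} (hb : Big S u c p) (z : Site) : z.val ∈ Zp p := by
  have h3 : 3 ≤ p := by have := hb.p5; omega
  cases z with
  | Z i => exact int_mem p i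
  | H i => exact (Zp p).add_mem (int_mem p i) (half_mem h3)

lemma gauge_mem {S : Shape} {u c : ℕ} (hb : Big S u c p) : D.gauge S u ∈ PP p := by
  have h3 : 3 ≤ p := by have := hb.p5; omega
  unfold D.gauge
  refine (PP p).mul_mem ((PP p).mul_mem (bin_mem hb.a2) (PP_comp (bin_mem hb.i1) ?_))
    (PP_comp (bin_mem hb.r1) ?_)
  · exact (PP p).add_mem PP_X (PP_C ((Zp p).sub_mem (nat_mem _) (half_mem h3)))
  · exact (PP p).add_mem PP_X (PP_C (nat_mem _))

lemma polR_mem {S : Shape} {u c : ℕ} (hb : Big S u c p) {l : ℕ} (hl : l < S.k * u) :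
    polR S u l ∈ PP p := by
  unfold polR
  exact (PP p).mul_mem (gauge_mem hb) (bin_mem (by have := hb.k; omega))

/-- the three germs are integral at every site of the design -/
lemma germs_mem {S : Shape} (hS : S.Good) {u c : ℕ} (hb : Big S u c p) {z : Site}
    (hz : 0 < S.mult u c z) : psi0 z ∈ PI p ∧ psi1 z ∈ PI p ∧ gam z ∈ PI p := by
  have h3 : 3 ≤ p := by have := hb.p5; omega
  cases z with
  | Z i =>
    rcases lt_or_ge i 0 with hi | hi
    · obtain ⟨m, rfl⟩ : ∃ m : ℕ, i = -(m : ℤ) := ⟨i.natAbs, by omega⟩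
      have hm : (m : ℤ) ≤ S.e1 * u := by
        unfold Shape.mult at hz
        simp only [not_le.mpr hi, if_false, neg_neg] at hz
        have h21 : (S.e2 : ℤ) * u ≤ S.e1 * u := by
          exact_mod_cast Nat.mul_le_mul_right u hS.e21
        have h32 : (S.e3 : ℤ) * u ≤ S.e2 * u := by
          exact_mod_cast Nat.mul_le_mul_right u hS.e32
        by_contra hcon
        rw [if_neg hcon, if_neg (by omega), if_neg (by omega)] at hz
        exact absurd hz (by norm_num)
      have hm' : m ≤ S.e1 * u := by exact_mod_cast hm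
      have h2 := hb.e1
      exact ⟨PsiZ_neg_mem h3 (by omega), HomZ_neg_mem h3 (by omega), GamZ_neg_mem h3 (by omega)⟩
    · obtain ⟨n, rfl⟩ := Int.eq_ofNat_of_zero_le hi
      have hn : n < p := by
        unfold Shape.mult at hz
        simp only [hi, if_true] at hz
        have h1 : ((n : ℕ) : ℤ) < S.B * u + c := by
          by_contra hcon
          rw [if_neg hcon] at hz
          exact absurd hz (by norm_num)
        have h1' : n < S.B * u + c := by exact_mod_cast h1
        have := hb.B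
        omega
      exact ⟨PsiZ_mem h3 hn, HomZ_mem h3 hn, GamZ_mem h3 hn⟩
  | H i =>
    rcases lt_or_ge i 0 with hi | hi
    · obtain ⟨m, rfl⟩ : ∃ m : ℕ, i = -(m : ℤ) - 1 := ⟨(-i - 1).natAbs, by omega⟩
      have hm : m < p := by
        unfold Shape.mult at hz
        simp only [not_le.mpr hi, if_false] at hz
        have h1 : -(-(m : ℤ) - 1) ≤ S.w * u := by
          by_contra hcon
          rw [if_neg hcon] at hz
          exact absurd hz (by norm_num)
        have h2 : (m : ℤ) + 1 ≤ S.w * u := by linarith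
        have h2' : m + 1 ≤ S.w * u := by exact_mod_cast h2
        have h3' : S.w * u ≤ S.i1 * u := Nat.mul_le_mul_right u hS.wi
        have := hb.i1
        omega
      exact ⟨PsiH_neg_mem h3 hm, (PI p).zero_mem, GamH_neg_mem h3 hm⟩
    · obtain ⟨n, rfl⟩ := Int.eq_ofNat_of_zero_le hi
      have hn : 2 * n + 2 ≤ p := by
        unfold Shape.mult at hz
        simp only [hi, if_true] at hz
        have h21 : (S.h2 : ℤ) * u ≤ S.h1 * u := by
          exact_mod_cast Nat.mul_le_mul_right u hS.h21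
        have h32 : (S.h3 : ℤ) * u ≤ S.h2 * u := by
          exact_mod_cast Nat.mul_le_mul_right u hS.h32
        have h1 : ((n : ℕ) : ℤ) < S.h1 * u := by
          by_contra hcon
          rw [if_neg hcon, if_neg (by omega), if_neg (by omega)] at hz
          exact absurd hz (by norm_num)
        have h1' : n < S.h1 * u := by exact_mod_cast h1
        have := hb.h1
        omega
      exact ⟨PsiH_mem h3 hn, (PI p).zero_mem, GamH_mem h3 hn⟩

lemma entry_mem {S : Shape} (hS : S.Good) {u c : ℕ} (hb : Big S u c p) {ρ : Row}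
    (hρ : IsRow S u c ρ) (col : Col S u) : entry S u ρ col ∈ PP p := by
  have h5 := hb.p5
  have hz : 0 < S.mult u c ρ.1 := lt_of_le_of_lt (Nat.zero_le _) hρ
  obtain ⟨g0, g1, g2⟩ := germs_mem hS hb hz
  have hv := val_mem hb ρ.1
  rcases col with l | l | l
  · have hR := polR_mem hb l.2
    refine (PP p).sub_mem (PP_C ?_) ((PP p).mul_mem PP_X (PP_C ?_))
    · exact ((PI p).sub_mem ((PI p).mul_mem (gm_mem hR hv) g0) (gm_mem (TR_mem h5 hR) hv)) _
    · exact ((PI p).mul_mem (gm_mem hR hv) g1) _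
  · have hl : (l : ℕ) < p := lt_of_lt_of_le l.2 hb.q
    exact PP_C (gm_mem (bin_mem hl) hv _)
  · have hl : (l : ℕ) < p := by
      have h1 : S.g * u ≤ S.q * u := Nat.mul_le_mul_right u hS.gq
      have := hb.q
      have := l.2
      omega
    exact PP_C (((PI p).mul_mem (gm_mem (bin_mem hl) hv) g2) _)

theorem loss_of_big {S : Shape} (hS : S.Good) {u c : ℕ} (hb : Big S u c p)
    {r : Col S u → Row} (hr : Adm S u c r) : Loss p (Minor S u r) 0 := by
  have h := PB_det (p := p) (Mat S u r) (fun _ => 0) (fun _ => 0) (fun i j => by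
    have := PB_of_PP (entry_mem hS hb (hr.2 i) j)
    rw [add_zero]
    exact this)
  intro i hi
  have := h.le_padicValRat i hi
  simp only [Finset.sum_const_zero, add_zero] at this
  rw [neg_zero]
  exact_mod_cast this

end Crest.Agent.R006.Large672

namespace Crest.Agent.R006.D

open Filter Crest.Agent.R006.Large672

/-- **no loss at the large primes** -/
theorem large_of (S : Shape) (hS : S.Good) (c : ℕ) (X' : ℚ) (hB : (S.B : ℚ) < X')
    (he : 2 * (S.e1 : ℚ) ≤ X') (hh : 2 * (S.h1 : ℚ) ≤ X') (hk : (S.a1 : ℚ) + S.k ≤ X')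
    (hi : (S.i1 : ℚ) ≤ X') (hr1 : (S.r1 : ℚ) ≤ X') (hq : (S.q : ℚ) ≤ X') : Large S c X' := by
  have hX : 0 < X' := lt_of_le_of_lt (Nat.cast_nonneg _) hB
  obtain ⟨N, hN⟩ := exists_nat_gt (max ((c : ℚ) / (X' - S.B)) (5 / X'))
  filter_upwards [eventually_ge_atTop N] with u hu r hr p hpp hlt
  have : Fact p.Prime := ⟨hpp⟩
  have hlt' : X' * u < p := by exact_mod_cast hlt
  have hu' : (N : ℚ) ≤ u := by exact_mod_cast hu
  have hu0 : (0 : ℚ) ≤ u := Nat.cast_nonneg u
  have h1 : (c : ℚ) / (X' - S.B) < u := lt_of_lt_of_le (lt_of_le_of_lt (le_max_left _ _) hN) hu'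
  have h2 : 5 / X' < (u : ℚ) := lt_of_lt_of_le (lt_of_le_of_lt (le_max_right _ _) hN) hu'
  rw [div_lt_iff₀ (by linarith)] at h1
  rw [div_lt_iff₀ hX] at h2
  have key : ∀ a : ℚ, a ≤ X' → a * u < p := fun a ha =>
    lt_of_le_of_lt (mul_le_mul_of_nonneg_right ha hu0) hlt'
  refine loss_of_big hS (u := u) (c := c) ⟨?_, ?_, ?_, ?_, ?_, ?_, ?_, ?_, ?_⟩ hr
  · have : ((5 : ℕ) : ℚ) < p := by push_cast; linarith
    have := Nat.cast_lt.mp this
    omega
  · have : ((S.B * u + c : ℕ) : ℚ) < p := by push_cast; nlinarith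
    exact (Nat.cast_lt.mp this).le
  · have : ((2 * (S.e1 * u) : ℕ) : ℚ) < p := by
      have := key _ he; push_cast; linarith
    exact (Nat.cast_lt.mp this).le
  · have : ((2 * (S.h1 * u) : ℕ) : ℚ) < p := by
      have := key _ hh; push_cast; linarith
    exact (Nat.cast_lt.mp this).le
  · have : ((S.a1 * u + S.k * u : ℕ) : ℚ) < p := by
      have := key _ hk; push_cast; linarith
    exact (Nat.cast_lt.mp this).le
  · have : ((S.i1 * u : ℕ) : ℚ) < p := by
      have := key _ hi; push_cast; linarith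
    exact Nat.cast_lt.mp this
  · have : ((S.r1 * u : ℕ) : ℚ) < p := by
      have := key _ hr1; push_cast; linarith
    exact Nat.cast_lt.mp this
  · have ha : (S.a2 : ℚ) ≤ X' := by
      have : (S.a2 : ℚ) ≤ S.a1 := by exact_mod_cast hS.a21
      have : (0 : ℚ) ≤ S.k := Nat.cast_nonneg _
      linarith
    have : ((S.a2 * u : ℕ) : ℚ) < p := by
      have := key _ ha; push_cast; linarith
    exact Nat.cast_lt.mp this
  · have : ((S.q * u : ℕ) : ℚ) < p := by
      have := key _ hq; push_cast; linarith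
    exact (Nat.cast_lt.mp this).le

end Crest.Agent.R006.D
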