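import Mathlib

/-!
Row 6, block P2 (nonvanishing): rank exchange.

An injective rectangular matrix over a field has a nonzero maximal minor; the version with
`N + c` rows and `N` columns omits exactly `c` rows.
-/

set_option autoImplicit false

namespace Crest.Agent.R006.NV

open Matrix

/-- An injective matrix has a nonzero maximal minor (arbitrary finite row type). -/
theorem exists_minor_ne_zero {K : Type*} [Field K] {ι κ : Type*} [Fintype ι] [Fintype κ]
    [DecidableEq κ] (M : Matrix ι κ K) (h : ∀ x : κ → K, M.mulVec x = 0 → x = 0) :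
    ∃ f : κ → ι, Function.Injective f ∧ (M.submatrix f id).det ≠ 0 := by
  classical
  obtain ⟨α, a, ha, hsp, hli⟩ := exists_linearIndependent' K (fun i : ι => M i)
  have hrank : M.rank = Fintype.card κ := by
    have hinj : Function.Injective M.mulVecLin := by
      rw [← LinearMap.ker_eq_bot, LinearMap.ker_eq_bot']
      intro x hx
      exact h x (by simpa using hx)
    rw [Matrix.rank, LinearMap.finrank_range_of_inj hinj, Module.finrank_pi]
  have : Finite α := Finite.of_injective a ha
  let _ : Fintype α := Fintype.ofFinite α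
  have hcard : Fintype.card α = Fintype.card κ := by
    have h1 : Module.finrank K (Submodule.span K (Set.range ((fun i : ι => M i) ∘ a)))
        = Fintype.card α := finrank_span_eq_card hli
    rw [hsp] at h1
    rw [← h1, ← hrank, Matrix.rank_eq_finrank_span_row]
    rfl
  obtain ⟨e⟩ : Nonempty (κ ≃ α) := ⟨(Fintype.equivOfCardEq hcard).symm⟩
  refine ⟨a ∘ e, ha.comp e.injective, ?_⟩
  have hli2 : LinearIndependent K (M.submatrix (a ∘ e) id).row := hli.comp e e.injective
  have hu := Matrix.linearIndependent_rows_iff_isUnit.mp hli2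
  exact ((Matrix.isUnit_iff_isUnit_det _).mp hu).ne_zero

/-- An injective matrix has a nonzero maximal minor, the rows being chosen in increasing order. -/
theorem exists_minor_ne_zero_strictMono {K : Type*} [Field K] {m n : ℕ}
    (M : Matrix (Fin m) (Fin n) K) (h : ∀ x : Fin n → K, M.mulVec x = 0 → x = 0) :
    ∃ f : Fin n → Fin m, StrictMono f ∧ (M.submatrix f id).det ≠ 0 := by
  classical
  obtain ⟨g, hg, hdet⟩ := exists_minor_ne_zero M h
  set S : Finset (Fin m) := Finset.univ.image g with hS
  have hcard : S.card = n := by
    rw [hS, Finset.card_image_of_injective _ hg, Finset.card_univ, Fintype.card_fin]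
  set f : Fin n ↪o Fin m := S.orderEmbOfFin hcard with hf
  refine ⟨f, f.strictMono, ?_⟩
  -- `f = g ∘ σ` for a permutation `σ`
  have hmem : ∀ i, ∃ j, g j = f i := by
    intro i
    have : f i ∈ S := Finset.orderEmbOfFin_mem S hcard i
    rw [hS, Finset.mem_image] at this
    obtain ⟨j, -, hj⟩ := this
    exact ⟨j, hj⟩
  choose σ hσ using hmem
  have hσinj : Function.Injective σ := by
    intro i j hij
    apply f.injective
    rw [← hσ i, ← hσ j, hij]
  let s : Equiv.Perm (Fin n) := Equiv.ofBijective σ (Finite.injective_iff_bijective.mp hσinj)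
  have hsub : M.submatrix f id = (M.submatrix g id).submatrix s id := by
    ext i j
    simp only [Matrix.submatrix_apply, id]
    rw [← hσ i]
    rfl
  rw [hsub, Matrix.det_permute]
  exact mul_ne_zero (by
    rcases Int.units_eq_one_or (Equiv.Perm.sign s) with h1 | h1 <;> simp [h1]) hdet

open Classical in
/-- Version for `N` columns, `N` old rows and `c` extra rows: some `N × N` minor is nonzero and the
chosen rows omit at most `c` of the old rows. -/
theorem exists_minor_ne_zero_extra {K : Type*} [Field K] {ρ η κ : Type*} [Fintype ρ] [Fintype η]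
    [Fintype κ] [DecidableEq κ] (hcard : Fintype.card ρ = Fintype.card κ)
    (M : Matrix (ρ ⊕ η) κ K) (h : ∀ x : κ → K, M.mulVec x = 0 → x = 0) :
    ∃ f : κ → ρ ⊕ η, Function.Injective f ∧ (M.submatrix f id).det ≠ 0 ∧
      (Finset.univ.filter fun r : ρ => ∀ k, f k ≠ Sum.inl r).card ≤ Fintype.card η := by
  obtain ⟨f, hf, hdet⟩ := exists_minor_ne_zero M h
  refine ⟨f, hf, hdet, ?_⟩
  set A : Finset ρ := Finset.univ.filter fun r : ρ => ∀ k, f k ≠ Sum.inl r with hA
  -- the image of `f` and `A` are disjoint in `ρ ⊕ η`
  have hdisj : Disjoint (Finset.univ.image f) (A.map Function.Embedding.inl) := by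
    rw [Finset.disjoint_left]
    intro x hx hx'
    rw [Finset.mem_map] at hx'
    obtain ⟨r, hr, rfl⟩ := hx'
    rw [Finset.mem_image] at hx
    obtain ⟨k, -, hk⟩ := hx
    rw [hA, Finset.mem_filter] at hr
    exact hr.2 k hk
  have hle := Finset.card_le_univ (Finset.univ.image f ∪ A.map Function.Embedding.inl)
  rw [Finset.card_union_of_disjoint hdisj, Finset.card_image_of_injective _ hf, Finset.card_map,
    Finset.card_univ, Fintype.card_sum] at hle
  omega

end Crest.Agent.R006.NV
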