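import Crest.Agent.R006.NVDict_938
import Crest.Agent.R006.NVRank_938

/-!
Row 6, block P2 (nonvanishing): the final statement `NV S c` for the frozen definitions.
-/

set_option autoImplicit false

namespace Crest.Agent.R006.D

open Polynomial Crest.Agent.R006.NV Crest.Agent.R006.PsiInf

section

variable (S : Shape) (u c : ℕ)

/-- zeros of `R` at the integers -/
def LR : List (ℤ × ℤ) :=
  [(0, ((S.a1 * u : ℕ) : ℤ)), (0, ((S.a2 * u : ℕ) : ℤ)), (-((S.r1 * u : ℕ) : ℤ), 0)]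

/-- zeros of `R` at the half-integers -/
def HR : List (ℤ × ℤ) := [(-((S.i1 * u : ℕ) : ℤ), 0)]

/-- zeros of `F` at the integers -/
def LF : List (ℤ × ℤ) :=
  [(0, ((S.B * u + c : ℕ) : ℤ)), (-((S.e1 * u : ℕ) : ℤ), 0), (-((S.e2 * u : ℕ) : ℤ), 0),
    (-((S.e3 * u : ℕ) : ℤ), 0)]

/-- zeros of `F` at the half-integers -/
def HF : List (ℤ × ℤ) :=
  [(0, ((S.h1 * u : ℕ) : ℤ)), (0, ((S.h2 * u : ℕ) : ℤ)), (0, ((S.h3 * u : ℕ) : ℤ)),
    (-((S.w * u : ℕ) : ℤ), 0)]

lemma cnt_LR (i : ℤ) : cnt (LR S u) i =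
    (if 0 ≤ i ∧ i < ((S.a2 * u : ℕ) : ℤ) then 1 else 0)
      + (if 0 ≤ i + ((S.r1 * u : ℕ) : ℤ) ∧ i + ((S.r1 * u : ℕ) : ℤ) < ((S.r1 * u : ℕ) : ℤ)
          then 1 else 0)
      + (if 0 ≤ i ∧ i < ((S.a1 * u : ℕ) : ℤ) then 1 else 0) := by
  simp only [cnt, LR, List.countP_cons, List.countP_nil, decide_eq_true_eq]
  generalize S.a1 * u = A1
  generalize S.a2 * u = A2
  generalize S.r1 * u = R1
  split_ifs <;> omega

lemma cnt_HR (i : ℤ) : cnt (HR S u) i =
    (if 0 ≤ i + ((S.i1 * u : ℕ) : ℤ) ∧ i + ((S.i1 * u : ℕ) : ℤ) < ((S.i1 * u : ℕ) : ℤ)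
      then 1 else 0) := by
  simp only [cnt, HR, List.countP_cons, List.countP_nil, decide_eq_true_eq]
  generalize S.i1 * u = I1
  split_ifs <;> omega

lemma cnt_LF (i : ℤ) : cnt (LF S u c) i ≤ S.mult u c (.Z i) := by
  simp only [cnt, LF, List.countP_cons, List.countP_nil, decide_eq_true_eq, Shape.mult]
  simp only [← Nat.cast_mul, Nat.cast_add]
  generalize S.B * u = B'
  generalize S.e1 * u = E1
  generalize S.e2 * u = E2
  generalize S.e3 * u = E3
  split_ifs <;> omega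

lemma cnt_HF (i : ℤ) : cnt (HF S u) i ≤ S.mult u c (.H i) := by
  simp only [cnt, HF, List.countP_cons, List.countP_nil, decide_eq_true_eq, Shape.mult]
  simp only [← Nat.cast_mul]
  generalize S.h1 * u = H1
  generalize S.h2 * u = H2
  generalize S.h3 * u = H3
  generalize S.w * u = W
  split_ifs <;> omega

lemma cnt_nil (i : ℤ) : cnt [] i = 0 := rfl

lemma gm_bin_comp_dvd (n : ℕ) (s a : ℚ) (i : ℤ) (h : s + a = i) :
    PowerSeries.X ^ (if 0 ≤ i ∧ i < n then 1 else 0) ∣ gm s ((bin n).comp (X + C a)) := by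
  split_ifs with hi
  · rw [pow_one]
    apply X_dvd_gm
    obtain ⟨j, rfl⟩ := Int.eq_ofNat_of_zero_le hi.1
    have := bin_eval_zero (n := n) (j := j) (by omega)
    rw [eval_comp, eval_add, eval_X, eval_C, h]
    simpa using this
  · rw [pow_zero]; exact one_dvd _

variable (x : Col S u → ℚ)

lemma gm_kP_dvd (i : ℤ) :
    PowerSeries.X ^ (if 0 ≤ i ∧ i < ((S.a1 * u : ℕ) : ℤ) then 1 else 0) ∣
      gm (i : ℚ) (kP S u x) := by
  split_ifs with hi
  · rw [pow_one]
    apply X_dvd_gm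
    obtain ⟨j, rfl⟩ := Int.eq_ofNat_of_zero_le hi.1
    unfold kP
    rw [eval_finsetSum]
    apply Finset.sum_eq_zero
    intro l _
    have := bin_eval_zero (n := S.a1 * u + l) (j := j) (by omega)
    rw [eval_mul, Int.cast_natCast, this, mul_zero]
  · rw [pow_zero]; exact one_dvd _

lemma zR_kR (i : ℤ) : PowerSeries.X ^ cnt (LR S u) i ∣ gm (i : ℚ) (kR S u x) := by
  rw [cnt_LR, kR_eq, gm_mul, pow_add]
  apply mul_dvd_mul _ (gm_kP_dvd S u x i)
  unfold gauge
  rw [gm_mul, gm_mul, pow_add]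
  apply mul_dvd_mul
  · exact (gm_bin_dvd _ i).mul_right _
  · apply gm_bin_comp_dvd
    push_cast; rfl

lemma hR_kR (i : ℤ) : PowerSeries.X ^ cnt (HR S u) i ∣ gm ((i : ℚ) + 1 / 2) (kR S u x) := by
  rw [cnt_HR, kR_eq, gm_mul]
  apply Dvd.dvd.mul_right
  unfold gauge
  rw [gm_mul, gm_mul]
  apply Dvd.dvd.mul_right
  apply Dvd.dvd.mul_left
  apply gm_bin_comp_dvd
  push_cast; ring

/-- the data of the zero estimate -/
theorem orders_of_ker {γ : ℚ}
    (hx : ∀ ρ : Row, IsRow S u c ρ → ∑ j : Col S u, (entry S u ρ j).eval γ * x j = 0) :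
    Orders (-γ) (1 : ℚ) (kR S u x) (tau (kR S u x) - kY S u x) (-kZ S u x)
      (LR S u) (LF S u c) [] (HR S u) (HF S u) [] where
  zR := zR_kR S u x
  zF i := by
    have h := dvd_of_ker S u x hx (.Z i)
    rw [psi_Z] at h
    exact (pow_dvd_pow _ (cnt_LF S u c i)).trans h
  zQ i := by rw [cnt_nil, pow_zero]; exact one_dvd _
  hR := hR_kR S u x
  hF i := by
    have h := dvd_of_ker S u x hx (.H i)
    rw [psi_H] at h
    have e : gam (.H i) = NV.GamH (1 : ℚ) i := GamH_eq i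
    rw [e] at h
    exact (pow_dvd_pow _ (cnt_HF S u c i)).trans h
  hQ i := by rw [cnt_nil, pow_zero]; exact one_dvd _

lemma natDegree_sum_bin (n a : ℕ) (y : Fin n → ℚ) :
    (∑ l : Fin n, C (y l) * bin (a + l)).natDegree ≤ a + n := by
  apply natDegree_sum_le_of_forall_le
  intro l _
  refine (natDegree_C_mul_le _ _).trans ?_
  rw [natDegree_bin]; omega

lemma natDegree_kP : (kP S u x).natDegree ≤ S.a1 * u + S.k * u := natDegree_sum_bin _ _ _

lemma natDegree_kY : (kY S u x).natDegree ≤ S.q * u := by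
  have := natDegree_sum_bin (S.q * u) 0 (fun l => x (.inr (.inl l)))
  simpa [kY] using this

lemma natDegree_kZ : (kZ S u x).natDegree ≤ S.g * u := by
  have := natDegree_sum_bin (S.g * u) 0 (fun l => x (.inr (.inr l)))
  simpa [kZ] using this

lemma natDegree_kR :
    (kR S u x).natDegree ≤ S.a2 * u + S.i1 * u + S.r1 * u + (S.a1 * u + S.k * u) := by
  rw [kR_eq]
  exact natDegree_mul_le.trans (add_le_add (natDegree_gauge S u) (natDegree_kP S u x))

/-- lengths of the intervals -/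
lemma tot_cons' (k : ℕ) (l : ℤ × ℤ) (L : List (ℤ × ℤ)) :
    (l.2 - l.1 - k) + (tot k L : ℤ) ≤ (tot k (l :: L) : ℤ) := by
  rw [tot_cons, Nat.cast_add]
  have := Int.self_le_toNat (l.2 - l.1 - k)
  omega

lemma tot_LR (k : ℕ) : ((S.a1 * u + S.a2 * u + S.r1 * u : ℕ) : ℤ) - 3 * k ≤ tot k (LR S u) := by
  unfold LR
  have h1 := tot_cons' k (0, ((S.a1 * u : ℕ) : ℤ))
    [(0, ((S.a2 * u : ℕ) : ℤ)), (-((S.r1 * u : ℕ) : ℤ), 0)]
  have h2 := tot_cons' k (0, ((S.a2 * u : ℕ) : ℤ)) [(-((S.r1 * u : ℕ) : ℤ), 0)]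
  have h3 := tot_cons' k (-((S.r1 * u : ℕ) : ℤ), 0) []
  simp only at h1 h2 h3
  push_cast at *
  have h4 : (0 : ℤ) ≤ (tot k ([] : List (ℤ × ℤ)) : ℤ) := by positivity
  linarith

lemma tot_HR (k : ℕ) : ((S.i1 * u : ℕ) : ℤ) - k ≤ tot k (HR S u) := by
  unfold HR
  have h3 := tot_cons' k (-((S.i1 * u : ℕ) : ℤ), 0) []
  simp only at h3
  push_cast at *
  have h4 : (0 : ℤ) ≤ (tot k ([] : List (ℤ × ℤ)) : ℤ) := by positivity
  linarith

lemma tot_LF (k : ℕ) :
    ((S.B * u + c + S.e1 * u + S.e2 * u + S.e3 * u : ℕ) : ℤ) - 4 * k ≤ tot k (LF S u c) := by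
  unfold LF
  have h1 := tot_cons' k (0, ((S.B * u + c : ℕ) : ℤ))
    [(-((S.e1 * u : ℕ) : ℤ), 0), (-((S.e2 * u : ℕ) : ℤ), 0), (-((S.e3 * u : ℕ) : ℤ), 0)]
  have h2 := tot_cons' k (-((S.e1 * u : ℕ) : ℤ), 0)
    [(-((S.e2 * u : ℕ) : ℤ), 0), (-((S.e3 * u : ℕ) : ℤ), 0)]
  have h3 := tot_cons' k (-((S.e2 * u : ℕ) : ℤ), 0) [(-((S.e3 * u : ℕ) : ℤ), 0)]
  have h5 := tot_cons' k (-((S.e3 * u : ℕ) : ℤ), 0) []
  simp only at h1 h2 h3 h5
  push_cast at *
  have h4 : (0 : ℤ) ≤ (tot k ([] : List (ℤ × ℤ)) : ℤ) := by positivity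
  linarith

lemma tot_HF (k : ℕ) :
    ((S.h1 * u + S.h2 * u + S.h3 * u + S.w * u : ℕ) : ℤ) - 4 * k ≤ tot k (HF S u) := by
  unfold HF
  have h1 := tot_cons' k (0, ((S.h1 * u : ℕ) : ℤ))
    [(0, ((S.h2 * u : ℕ) : ℤ)), (0, ((S.h3 * u : ℕ) : ℤ)), (-((S.w * u : ℕ) : ℤ), 0)]
  have h2 := tot_cons' k (0, ((S.h2 * u : ℕ) : ℤ))
    [(0, ((S.h3 * u : ℕ) : ℤ)), (-((S.w * u : ℕ) : ℤ), 0)]
  have h3 := tot_cons' k (0, ((S.h3 * u : ℕ) : ℤ)) [(-((S.w * u : ℕ) : ℤ), 0)]
  have h5 := tot_cons' k (-((S.w * u : ℕ) : ℤ), 0) []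
  simp only at h1 h2 h3 h5
  push_cast at *
  have h4 : (0 : ℤ) ≤ (tot k ([] : List (ℤ × ℤ)) : ℤ) := by positivity
  linarith

lemma natDegree_Finf_k : (Finf (S.a2 * u + S.i1 * u + S.r1 * u + (S.a1 * u + S.k * u)) (kR S u x)
      (tau (kR S u x) - kY S u x)).natDegree ≤
      S.a2 * u + S.i1 * u + S.r1 * u + (S.a1 * u + S.k * u) + S.q * u := by
  obtain ⟨M, hM⟩ : ∃ M, M = S.a2 * u + S.i1 * u + S.r1 * u + (S.a1 * u + S.k * u) := ⟨_, rfl⟩
  rw [← hM]
  have e : Finf M (kR S u x) (tau (kR S u x) - kY S u x) =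
      Finf M (kR S u x) (TR mu (kR S u x)) + X ^ M * kY S u x := by
    unfold Finf tau; ring
  rw [e]
  refine (natDegree_add_le _ _).trans (max_le ?_ ?_)
  · exact (Finf_TR_natDegree _ (by rw [hM]; exact natDegree_kR S u x)).trans (by omega)
  · refine natDegree_mul_le.trans ?_
    rw [natDegree_X_pow]
    exact add_le_add le_rfl (natDegree_kY S u x)

/-- **the zero estimate for the frozen design**: kernel vectors are zero. -/
theorem ker_eq_zero (hS : S.Good) (hc : 40 ≤ c) {γ : ℚ}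
    (hx : ∀ ρ : Row, IsRow S u c ρ → ∑ j : Col S u, (entry S u ρ j).eval γ * x j = 0) :
    x = 0 := by
  have hk : S.k * u + S.q * u + S.g * u = S.B * u + (S.e1 * u + S.e2 * u + S.e3 * u)
      + (S.h1 * u + S.h2 * u + S.h3 * u) + S.w * u := by
    have h := hS.kpos
    have h1 : S.k + S.q + S.g = S.rows := by unfold Shape.k; omega
    rw [← add_mul, ← add_mul, h1, Shape.rows]
    ring
  have hgB : S.g * u ≤ S.B * u := Nat.mul_le_mul_right u (hS.gq.trans hS.qB.le)
  have l1 := fun k => tot_LR S u k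
  have l2 := fun k => tot_LF S u c k
  have l3 := fun k => tot_HR S u k
  have l4 := fun k => tot_HF S u k
  have H3 : (S.a2 * u + S.i1 * u + S.r1 * u + (S.a1 * u + S.k * u)) + S.q * u + S.g * u + 9 <
      tot 2 (LR S u ++ LF S u c ++ []) + tot 2 (HR S u ++ HF S u ++ []) := by
    rw [List.append_nil, List.append_nil, tot_append, tot_append]
    have h1 := l1 2
    have h2 := l2 2
    have h3 := l3 2
    have h4 := l4 2
    generalize tot 2 (LR S u) = t1 at *
    generalize tot 2 (LF S u c) = t2 at *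
    generalize tot 2 (HR S u) = t3 at *
    generalize tot 2 (HF S u) = t4 at *
    clear l1 l2 l3 l4 hx
    zify at *
    linarith
  have H2 : (S.a2 * u + S.i1 * u + S.r1 * u + (S.a1 * u + S.k * u)) + S.q * u + 3 <
      tot 1 (LR S u ++ LF S u c) + tot 1 (HR S u ++ HF S u) := by
    rw [tot_append, tot_append]
    have h1 := l1 1
    have h2 := l2 1
    have h3 := l3 1
    have h4 := l4 1
    have h5 : 0 ≤ S.g * u := Nat.zero_le _
    generalize tot 1 (LR S u) = t1 at *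
    generalize tot 1 (LF S u c) = t2 at *
    generalize tot 1 (HR S u) = t3 at *
    generalize tot 1 (HF S u) = t4 at *
    clear l1 l2 l3 l4 hx
    zify at *
    linarith
  have H2' : S.q * u + S.g * u + 3 <
      tot 1 (LF S u c ++ []) + tot 1 (HF S u ++ []) := by
    rw [List.append_nil, List.append_nil]
    have h2 := l2 1
    have h4 := l4 1
    have h5 : 0 ≤ S.k * u := Nat.zero_le _
    generalize tot 1 (LF S u c) = t2 at *
    generalize tot 1 (HF S u) = t4 at *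
    clear l1 l2 l3 l4 hx
    zify at *
    linarith
  have H1 : S.q * u < tot 0 (LF S u c) + tot 0 (HF S u) := by
    have h2 := l2 0
    have h4 := l4 0
    have h5 : 0 ≤ S.k * u := Nat.zero_le _
    have h6 : 0 ≤ S.g * u := Nat.zero_le _
    generalize tot 0 (LF S u c) = t2 at *
    generalize tot 0 (HF S u) = t4 at *
    clear l1 l2 l3 l4 hx
    zify at *
    linarith
  obtain ⟨h1, h2, h3⟩ := zero_estimate (orders_of_ker S u c x hx)
    (M := S.a2 * u + S.i1 * u + S.r1 * u + (S.a1 * u + S.k * u))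
    (ρ := S.a2 * u + S.i1 * u + S.r1 * u + (S.a1 * u + S.k * u)) (δ := S.q * u) (κ := S.g * u)
    (by omega) (natDegree_kR S u x) (natDegree_Finf_k S u x)
    (by rw [natDegree_neg]; exact natDegree_kZ S u x) H3 H2 H2' H1
    (b := S.B * u + c) (by simp [LF]) (by omega)
  exact eq_zero_of_k S u x h1 h2 h3

/-- the rows of the design form a finite set -/
theorem finite_rows : {ρ : Row | IsRow S u c ρ}.Finite := by
  obtain ⟨N, hN⟩ : ∃ N : ℕ, N = S.B * u + c + S.e1 * u + S.e2 * u + S.e3 * u + S.h1 * u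
    + S.h2 * u + S.h3 * u + S.w * u := ⟨_, rfl⟩
  have h1 : ((fun p : ℤ × ℕ => ((Site.Z p.1, p.2) : Row)) '' (Set.Icc (-(N : ℤ)) N ×ˢ Set.Iic 3) ∪
      (fun p : ℤ × ℕ => ((Site.H p.1, p.2) : Row)) '' (Set.Icc (-(N : ℤ)) N ×ˢ Set.Iic 3)).Finite :=
    ((((Set.finite_Icc _ _).prod (Set.finite_Iic _)).image _).union
      (((Set.finite_Icc _ _).prod (Set.finite_Iic _)).image _))
  refine h1.subset ?_
  rintro ⟨z, j⟩ h
  have h' : j < S.mult u c z := h
  rcases z with i | i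
  · left
    refine ⟨(i, j), ⟨?_, ?_⟩, rfl⟩
    · simp only [Shape.mult] at h'
      simp only [← Nat.cast_mul] at h'
      rw [Set.mem_Icc]
      generalize S.B * u = B' at *
      generalize S.e1 * u = E1 at *
      generalize S.e2 * u = E2 at *
      generalize S.e3 * u = E3 at *
      generalize S.h1 * u = H1 at *
      generalize S.h2 * u = H2 at *
      generalize S.h3 * u = H3 at *
      generalize S.w * u = W at *
      split_ifs at h' <;> omega
    · simp only [Shape.mult] at h'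
      rw [Set.mem_Iic]
      show j ≤ 3
      split_ifs at h' <;> omega
  · right
    refine ⟨(i, j), ⟨?_, ?_⟩, rfl⟩
    · simp only [Shape.mult] at h'
      simp only [← Nat.cast_mul] at h'
      rw [Set.mem_Icc]
      generalize S.B * u = B' at *
      generalize S.e1 * u = E1 at *
      generalize S.e2 * u = E2 at *
      generalize S.e3 * u = E3 at *
      generalize S.h1 * u = H1 at *
      generalize S.h2 * u = H2 at *
      generalize S.h3 * u = H3 at *
      generalize S.w * u = W at *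
      split_ifs at h' <;> omega
    · simp only [Shape.mult] at h'
      rw [Set.mem_Iic]
      show j ≤ 3
      split_ifs at h' <;> omega

end

/-- P2 for every unit `u` (no "eventually" needed) -/
theorem exists_minor (S : Shape) (hS : S.Good) {c : ℕ} (hc : 40 ≤ c) (γ : ℚ) (u : ℕ) :
    ∃ r : Col S u → Row, Adm S u c r ∧ (Minor S u r).eval γ ≠ 0 := by
  classical
  have hfin : Finite {ρ : Row // IsRow S u c ρ} := (finite_rows S u c).to_subtype
  let _ : Fintype {ρ : Row // IsRow S u c ρ} := Fintype.ofFinite _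
  obtain ⟨f, hf, hdet⟩ := exists_minor_ne_zero
    (Matrix.of fun (ρ : {ρ : Row // IsRow S u c ρ}) (j : Col S u) => (entry S u ρ.1 j).eval γ)
    (fun x hx => ker_eq_zero S u c x hS hc (γ := γ) (fun ρ hρ => by
      have := congrFun hx ⟨ρ, hρ⟩
      simpa [Matrix.mulVec, dotProduct] using this))
  refine ⟨fun i => (f i).1, ⟨?_, fun i => (f i).2⟩, ?_⟩
  · exact Subtype.val_injective.comp hf
  · have e : (Minor S u (fun i => (f i).1)).eval γ =
        ((Matrix.of fun (ρ : {ρ : Row // IsRow S u c ρ}) (j : Col S u) =>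
          (entry S u ρ.1 j).eval γ).submatrix f id).det := by
      unfold Minor
      have := (evalRingHom γ).map_det (Mat S u (fun i => (f i).1))
      rw [coe_evalRingHom] at this
      rw [this]
      rfl
    rw [e]
    exact hdet

/-- **P2**: `NV S c` for every shape with `Good`, `c ≥ 40`. -/
theorem NV_of_good {S : Shape} (hS : S.Good) {c : ℕ} (hc : 40 ≤ c) : NV S c :=
  fun γ => Filter.Eventually.of_forall fun u => exists_minor S hS hc γ u

end Crest.Agent.R006.D
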