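import Crest.Agent.R006.LB6_537

/-!
Row 6 (Catalan), block P5/P7 input: THE BOUND for the moment functional.
`LamBound`: `|Λ f|_p ≤ e · p^(2 log_p(k+1)) · |9|_p^(-k)` for `deg f ≤ k`, `|f|_p ≤ e` on `ℕ`,
`p` odd.  Own proof (note 2598).
-/

set_option autoImplicit false

open Polynomial Finset

namespace Crest.Agent.R006.LB537

noncomputable section

variable {p : ℕ} [hp : Fact p.Prime]

/-- a polynomial bounded at the naturals is bounded on `ℤ_(p)` -/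
theorem pn_eval_of_nat (f : ℚ[X]) (e : ℚ) (hf : ∀ n : ℕ, padicNorm p (f.eval (n : ℚ)) ≤ e)
    (z : ℚ) (hz : padicNorm p z ≤ 1) : padicNorm p (f.eval z) ≤ e := by
  set fp : ℚ_[p][X] := f.map (algebraMap ℚ ℚ_[p]) with hfp
  have hev : ∀ q : ℚ, fp.eval (q : ℚ_[p]) = ((f.eval q : ℚ) : ℚ_[p]) := by
    intro q
    rw [hfp]
    have := Polynomial.eval_map_algebraMap (B := ℚ_[p]) f (q : ℚ_[p])
    rw [this]
    have h2 := Polynomial.aeval_algebraMap_apply (B := ℚ_[p]) q f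
    simpa using h2
  have hcl : IsClosed {x : ℤ_[p] | ‖fp.eval (x : ℚ_[p])‖ ≤ (e : ℝ)} := by
    refine isClosed_le ?_ continuous_const
    exact ((Polynomial.continuous fp).comp continuous_subtype_val).norm
  have hall : ∀ x : ℤ_[p], ‖fp.eval (x : ℚ_[p])‖ ≤ (e : ℝ) := by
    intro x
    refine PadicInt.denseRange_natCast.induction_on (p := fun x : ℤ_[p] => ‖fp.eval (x : ℚ_[p])‖ ≤ (e : ℝ)) x hcl ?_
    intro n
    have h1 : ((n : ℤ_[p]) : ℚ_[p]) = ((n : ℚ) : ℚ_[p]) := by simp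
    rw [h1, hev, Padic.eq_padicNorm]
    exact_mod_cast hf n
  have hz' : ‖(z : ℚ_[p])‖ ≤ 1 := by
    rw [Padic.eq_padicNorm]; exact_mod_cast hz
  have := hall ⟨(z : ℚ_[p]), hz'⟩
  simp only at this
  rw [hev, Padic.eq_padicNorm] at this
  exact_mod_cast this

theorem LamBound (Λ : ℚ[X] →ₗ[ℚ] ℚ) (h0 : Λ 1 = 0) (h1 : Λ X = -1 / 6) (h2 : Λ (X ^ 2) = 7 / 54)
    (hK : ∀ P : ℚ[X], Λ (X ^ 3 * P + (2 * X + 1) ^ 3 * P.comp (X + 1)) = 0)
    (p : ℕ) [Fact p.Prime] (hp : p ≠ 2)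
    (k : ℕ) (f : ℚ[X]) (hf : f.natDegree ≤ k) (e : ℚ) (he : 0 ≤ e)
    (hv : ∀ n : ℕ, padicNorm p (f.eval (n : ℚ)) ≤ e) :
    padicNorm p (Λ f) ≤ e * (p : ℚ) ^ (2 * Nat.log p (k + 1)) * ((padicNorm p 9)⁻¹) ^ k := by
  rw [Lam_eq Λ h0 h1 h2 hK f]
  refine pn_Lp hp (f.comp io) k ?_ he ?_
  · refine natDegree_comp_le.trans ?_
    have : io.natDegree ≤ 1 := by
      unfold io
      refine (natDegree_sub_le _ _).trans (max_le (by simp) natDegree_X_le)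
    calc f.natDegree * io.natDegree ≤ k * 1 := Nat.mul_le_mul hf this
      _ = k := mul_one k
  · intro n
    rw [eval_comp]
    refine pn_eval_of_nat f e hv _ ?_
    have : io.eval (n : ℚ) = ((-(2 * n + 1) : ℤ) : ℚ) / 2 := by
      unfold io
      simp only [eval_sub, eval_C, eval_X]
      push_cast; ring
    rw [this]
    exact pn_div_one (padicNorm.of_int _) (pn_two hp)

/-- the case of binomials: `|Λ (C(x,k))|_p ≤ p^(2 log_p (k+1)) |9|_p^(-k)` is the case `e = 1`. For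
`p ≥ 5` the last factor is `1`. -/
theorem LamBound5 (Λ : ℚ[X] →ₗ[ℚ] ℚ) (h0 : Λ 1 = 0) (h1 : Λ X = -1 / 6) (h2 : Λ (X ^ 2) = 7 / 54)
    (hK : ∀ P : ℚ[X], Λ (X ^ 3 * P + (2 * X + 1) ^ 3 * P.comp (X + 1)) = 0)
    (p : ℕ) [Fact p.Prime] (hp2 : p ≠ 2) (hp3 : p ≠ 3)
    (k : ℕ) (f : ℚ[X]) (hf : f.natDegree ≤ k) (e : ℚ) (he : 0 ≤ e)
    (hv : ∀ n : ℕ, padicNorm p (f.eval (n : ℚ)) ≤ e) :
    padicNorm p (Λ f) ≤ e * (p : ℚ) ^ (2 * Nat.log p (k + 1)) := by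
  have h := LamBound Λ h0 h1 h2 hK p hp2 k f hf e he hv
  have h3 : padicNorm p (3 : ℚ) = 1 := by
    have := padicNorm.nat_eq_one_iff (p := p) 3
    rw [show ((3 : ℕ) : ℚ) = 3 by norm_num] at this
    rw [this]
    intro h
    exact hp3 ((Nat.prime_dvd_prime_iff_eq Fact.out Nat.prime_three).1 h)
  have h9 : padicNorm p (9 : ℚ) = 1 := by
    have : (9 : ℚ) = 3 * 3 := by norm_num
    rw [this, padicNorm.mul, h3, one_mul]
  rw [h9] at h
  simpa using h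

end

end Crest.Agent.R006.LB537
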