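import Crest.Agent.R006.P57_Main_241
import Crest.Agent.R006.LamBound_537

/-!
Row 6, blocks P5 / P7 closed (helper939): 241's hypothesis `LamB p` from 537's `LamBound`, and the
unconditional forms of the crude bound (all `p ≥ 5`) and of the bound at `p = 3`.
-/

set_option autoImplicit false

namespace Crest.Agent.R006.P57M

open Polynomial Crest.Agent.R006.PsiInf Crest.Agent.R006.P57

theorem lamB (p : ℕ) [hp : Fact p.Prime] (h2 : p ≠ 2) : LamB p := by
  intro d s
  have h := LB537.LamBound (lin mu) (by simpa using lin_X_pow mu 0) (by simpa using lin_X_pow mu 1)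
    (by simpa using lin_X_pow mu 2) key_mu p h2 d ((cP ℚ d).comp (X - C (s : ℚ))) ?_ 1 zero_le_one ?_
  · simpa using h
  · refine natDegree_comp_le.trans ?_
    rw [natDegree_X_sub_C, mul_one]
    exact natDegree_cP_le d
  · intro n
    rw [eval_comp, eval_sub, eval_X, eval_C]
    refine norm_cP_le _ ?_ d
    have : ((n : ℚ) - s) = (((n : ℤ) - s : ℤ) : ℚ) := by push_cast; ring
    rw [this]
    exact padicNorm.of_int _

/-- **P5**: the crude bound for all primes `p ≥ 5` -/
theorem crude_939 (S : D.Shape) (c : ℕ)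
    (hq : S.q ≤ S.a1 + S.a2 + S.i1 + S.r1 + S.k) : D.Crude S c (KK S c) :=
  crude (fun p hp h5 => by have : Fact p.Prime := ⟨hp⟩; exact lamB p (by omega)) S c hq

/-- **P7**: the bound at `p = 3` -/
theorem p7_939 (S : D.Shape) (c : ℕ) (hq : S.q ≤ S.a1 + S.a2 + S.i1 + S.r1 + S.k) :
    D.AtPrime S c 3 ((((S.a1 + S.a2 + S.i1 + S.r1 + S.k : ℕ) : ℝ) - S.q) ^ 2 / 2) := by
  have : Fact (Nat.Prime 3) := ⟨Nat.prime_three⟩
  have h := p7 (lamB 3 (by norm_num)) S c hq
  simpa using h

end Crest.Agent.R006.P57M
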