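import Crest.Agent.R006.Shape_378
import Crest.Agent.R006.MainK_464
import Crest.Agent.R006.NVKer_938
import Crest.Agent.R006.P57_Close_939
import Crest.Agent.R006.Large_672

/-!
# Row 6: assembly for the frozen shape `SN` (helper378)

`irr_of` : the statement of `S0006` from the three remaining blocks
P3 (`ArchK SN 40 K aA`), P6 (`AtPrime SN 40 2 a2`), P4+P5b+P8 (`Odd SN 40 aO`).
-/

set_option autoImplicit false

namespace Crest.Agent.R006.D

theorem SN_NV : NV SN 40 := NV_of_good SN_good le_rfl

theorem SN_three : AtPrime SN 40 3 162 := by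
  have h := P57M.p7_939 SN 40 (by simp)
  have e : ((((SN.a1 + SN.a2 + SN.i1 + SN.r1 + SN.k : ℕ) : ℝ) - SN.q) ^ 2 / 2) = 162 := by
    simp; norm_num
  rwa [e] at h

theorem SN_crude : Crude SN 40 (P57M.KK SN 40) := P57M.crude_939 SN 40 (by simp)

theorem SN_large {X : ℚ} (hX : 25 ≤ X) : Large SN 40 X :=
  large_of SN SN_good 40 X (by simp; linarith) (by simp; linarith) (by simp; linarith)
    (by simp; linarith) (by simp; linarith) (by simp; linarith) (by simp; linarith)

/-- what is left: P3, P6 and the odd part -/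
theorem irr_of {K : ℕ} (hK : 0 < K) {aA a2 aO : ℝ} (hA : ArchK SN 40 K aA)
    (h2 : AtPrime SN 40 2 a2) (hO : Odd SN 40 aO)
    (hneg : aA + a2 * Real.log 2 + 162 * Real.log 3 + aO < 0) : Irrational GG :=
  mainK SN 40 K hK hneg SN_NV hA h2 SN_three hO

end Crest.Agent.R006.D
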