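import Crest.Agent.Lib.PNT

set_option autoImplicit false

/-!
# Row 6 (Catalan), block P8: sums over primes

`(1/b) ∑_{a b < p ≤ c b} log p · φ(p/b) → ∫_a^c φ` for continuous `φ` (prime number theorem), the
one-sided version for exponents bounded by a piecewise affine profile, and the small primes.
-/

namespace Crest.Agent.R006

open Filter Topology Finset Crest.Agent.Lib.PNT

/-- the primes `p` with `x < p ≤ y` -/
noncomputable def pr (x y : ℝ) : Finset ℕ :=
  (Finset.Ioc 0 ⌊y⌋₊).filter (fun p => p.Prime ∧ x < (p : ℝ))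

lemma mem_pr {x y : ℝ} {p : ℕ} : p ∈ pr x y ↔ p.Prime ∧ x < (p : ℝ) ∧ (p : ℝ) ≤ y := by
  unfold pr
  rw [Finset.mem_filter, Finset.mem_Ioc]
  constructor
  · rintro ⟨⟨h1, h2⟩, h3, h4⟩
    exact ⟨h3, h4, (Nat.le_floor_iff' h1.ne').mp h2⟩
  · rintro ⟨h1, h2, h3⟩
    exact ⟨⟨h1.pos, (Nat.le_floor_iff' h1.pos.ne').mpr h3⟩, h1, h2⟩

lemma pr_zero (y : ℝ) : pr 0 y = (Finset.Ioc 0 ⌊y⌋₊).filter (fun p => p.Prime) := by
  unfold pr
  apply Finset.filter_congr
  intro p hp
  rw [Finset.mem_Ioc] at hp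
  constructor
  · exact fun h => h.1
  · exact fun h => ⟨h, by exact_mod_cast hp.1⟩

lemma sum_log_pr_zero (y : ℝ) : ∑ p ∈ pr 0 y, Real.log p = Chebyshev.theta y := by
  rw [pr_zero, Chebyshev.theta]

lemma pr_union {x y z : ℝ} (hxy : x ≤ y) (hyz : y ≤ z) : pr x z = pr x y ∪ pr y z := by
  ext p
  simp only [Finset.mem_union, mem_pr]
  constructor
  · rintro ⟨h1, h2, h3⟩
    rcases le_or_gt (p : ℝ) y with h | h
    · exact Or.inl ⟨h1, h2, h⟩
    · exact Or.inr ⟨h1, h, h3⟩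
  · rintro (⟨h1, h2, h3⟩ | ⟨h1, h2, h3⟩)
    · exact ⟨h1, h2, h3.trans hyz⟩
    · exact ⟨h1, lt_of_le_of_lt hxy h2, h3⟩

lemma pr_disjoint (x y z : ℝ) : Disjoint (pr x y) (pr y z) := by
  rw [Finset.disjoint_left]
  intro p h1 h2
  rw [mem_pr] at h1 h2
  exact absurd h1.2.2 (not_le.mpr h2.2.1)

lemma sum_pr_add {x y z : ℝ} (hxy : x ≤ y) (hyz : y ≤ z) (f : ℕ → ℝ) :
    ∑ p ∈ pr x y, f p + ∑ p ∈ pr y z, f p = ∑ p ∈ pr x z, f p := by
  rw [pr_union hxy hyz, Finset.sum_union (pr_disjoint x y z)]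

lemma sum_log_pr {x y : ℝ} (hx : 0 ≤ x) (hxy : x ≤ y) :
    ∑ p ∈ pr x y, Real.log p = Chebyshev.theta y - Chebyshev.theta x := by
  have h := sum_pr_add hx hxy (fun p => Real.log p)
  rw [sum_log_pr_zero, sum_log_pr_zero] at h
  linarith

lemma log_nonneg_of_mem {x y : ℝ} {p : ℕ} (hp : p ∈ pr x y) : 0 ≤ Real.log p := by
  rw [mem_pr] at hp
  exact Real.log_nonneg (by exact_mod_cast hp.1.one_lt.le)

/-- `θ(a b)/b → a` -/
lemma tendsto_theta_mul {a : ℝ} (ha : 0 ≤ a) :
    Tendsto (fun b : ℝ => Chebyshev.theta (a * b) / b) atTop (𝓝 a) := by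
  rcases ha.eq_or_lt with rfl | ha
  · have h0 : Chebyshev.theta (0 : ℝ) = 0 := by
      rw [← sum_log_pr_zero]
      apply Finset.sum_eq_zero
      intro p hp
      rw [mem_pr] at hp
      exact absurd hp.2.1 (not_lt.mpr hp.2.2)
    simp [h0]
  · have h1 : Tendsto (fun b : ℝ => a * b) atTop atTop := tendsto_id.const_mul_atTop ha
    have h2 := (theta_div_tendsto.comp h1).const_mul a
    rw [mul_one] at h2
    refine h2.congr' ?_
    filter_upwards [eventually_gt_atTop 0] with b hb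
    simp only [Function.comp]
    field_simp

/-- `(∑_{a b < p ≤ c b} log p)/b → c - a` -/
lemma tendsto_sum_log {a c : ℝ} (ha : 0 ≤ a) (hac : a ≤ c) :
    Tendsto (fun b : ℝ => (∑ p ∈ pr (a * b) (c * b), Real.log p) / b) atTop (𝓝 (c - a)) := by
  have h := (tendsto_theta_mul (ha.trans hac)).sub (tendsto_theta_mul ha)
  refine h.congr' ?_
  filter_upwards [eventually_gt_atTop 0] with b hb
  rw [sum_log_pr (by positivity) (by gcongr)]
  ring

/-- telescoping over a subdivision -/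
lemma sum_pr_telescope {x : ℕ → ℝ} (hx : Monotone x) (f : ℕ → ℝ) (n : ℕ) :
    ∑ k ∈ Finset.range n, ∑ p ∈ pr (x k) (x (k + 1)), f p = ∑ p ∈ pr (x 0) (x n), f p := by
  induction n with
  | zero =>
    have : pr (x 0) (x 0) = ∅ := by
      ext p
      simp only [mem_pr, Finset.notMem_empty, iff_false]
      rintro ⟨_, h1, h2⟩
      exact absurd h2 (not_le.mpr h1)
    simp [this]
  | succ n ih =>
    rw [Finset.sum_range_succ, ih]
    exact sum_pr_add (hx (Nat.zero_le n)) (hx (Nat.le_succ n)) f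

/-- **PNT, profile form.** -/
theorem tendsto_sum_pr {φ : ℝ → ℝ} {a c : ℝ} (ha : 0 ≤ a) (hac : a ≤ c)
    (hφ : ContinuousOn φ (Set.Icc a c)) :
    Tendsto (fun b : ℝ => (∑ p ∈ pr (a * b) (c * b), Real.log p * φ (p / b)) / b) atTop
      (𝓝 (∫ x in a..c, φ x)) := by
  rw [Metric.tendsto_nhds]
  intro δ hδ
  -- uniform continuity
  have huc := isCompact_Icc.uniformContinuousOn_of_continuous hφ
  rw [Metric.uniformContinuousOn_iff] at huc
  set L : ℝ := c - a with hL
  have hL0 : 0 ≤ L := sub_nonneg.mpr hac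
  set δ1 : ℝ := δ / (4 * (L + 1)) with hδ1
  have hδ1pos : 0 < δ1 := by positivity
  obtain ⟨η, hη, hunif⟩ := huc δ1 hδ1pos
  obtain ⟨n, hn⟩ := exists_nat_gt (L / η)
  have hn0 : 0 < n := by
    have : (0 : ℝ) < n := lt_of_le_of_lt (by positivity) hn
    exact_mod_cast this
  have hnR : (0 : ℝ) < n := by exact_mod_cast hn0
  have hmesh : L / n < η := by
    rw [div_lt_iff₀ hη] at hn
    rw [div_lt_iff₀ hnR]
    linarith
  set x : ℕ → ℝ := fun k => a + k * (L / n) with hx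
  have hxmono : Monotone x := by
    intro i j hij
    simp only [hx]
    have : (i : ℝ) ≤ j := by exact_mod_cast hij
    gcongr
  have hx0 : x 0 = a := by simp [hx]
  have hxn : x n = c := by
    simp only [hx]
    field_simp
    rw [hL]; ring
  have hxs : ∀ k, x (k + 1) - x k = L / n := by
    intro k
    simp only [hx]
    push_cast
    ring
  have hxa : ∀ k, a ≤ x k := fun k => hx0 ▸ hxmono (Nat.zero_le k)
  have hxc : ∀ k, k ≤ n → x k ≤ c := fun k hk => hxn ▸ hxmono hk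
  -- the integral
  have hint : ∀ k < n, IntervalIntegrable φ MeasureTheory.volume (x k) (x (k + 1)) := by
    intro k hk
    apply ContinuousOn.intervalIntegrable
    rw [Set.uIcc_of_le (hxmono (Nat.le_succ k))]
    exact hφ.mono (Set.Icc_subset_Icc (hxa k) (hxc (k + 1) hk))
  have hI : ∑ k ∈ Finset.range n, ∫ t in (x k)..(x (k + 1)), φ t = ∫ t in a..c, φ t := by
    rw [intervalIntegral.sum_integral_adjacent_intervals hint, hx0, hxn]
  have hIk : ∀ k < n, |(∫ t in (x k)..(x (k + 1)), φ t) - φ (x k) * (x (k + 1) - x k)|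
      ≤ δ1 * (x (k + 1) - x k) := by
    intro k hk
    have h1 : (∫ t in (x k)..(x (k + 1)), φ t) - φ (x k) * (x (k + 1) - x k)
        = ∫ t in (x k)..(x (k + 1)), (φ t - φ (x k)) := by
      rw [intervalIntegral.integral_sub (hint k hk) (by simp)]
      simp only [intervalIntegral.integral_const, smul_eq_mul]
      ring
    rw [h1]
    have h2 := intervalIntegral.norm_integral_le_of_norm_le_const (a := x k) (b := x (k + 1))
      (C := δ1) (f := fun t => φ t - φ (x k)) ?_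
    · rw [Real.norm_eq_abs] at h2
      rwa [abs_of_nonneg (sub_nonneg.mpr (hxmono (Nat.le_succ k)))] at h2
    · intro t ht
      rw [Set.uIoc_of_le (hxmono (Nat.le_succ k))] at ht
      have h3 := hunif t ⟨(hxa k).trans ht.1.le, ht.2.trans (hxc (k + 1) hk)⟩ (x k)
        ⟨hxa k, hxc k hk.le⟩ ?_
      · rw [Real.dist_eq] at h3
        rw [Real.norm_eq_abs]
        exact h3.le
      · rw [Real.dist_eq, abs_of_nonneg (sub_nonneg.mpr ht.1.le)]
        have := hxs k
        linarith [ht.2]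
  -- the sums over primes
  have hT : Tendsto (fun b : ℝ => ∑ k ∈ Finset.range n,
      φ (x k) * ((∑ p ∈ pr (x k * b) (x (k + 1) * b), Real.log p) / b)) atTop
      (𝓝 (∑ k ∈ Finset.range n, φ (x k) * (x (k + 1) - x k))) := by
    apply tendsto_finsetSum
    intro k _
    exact (tendsto_sum_log (ha.trans (hxa k)) (hxmono (Nat.le_succ k))).const_mul _
  have hT2 := tendsto_sum_log ha hac
  rw [Metric.tendsto_nhds] at hT hT2
  filter_upwards [hT (δ / 4) (by positivity), hT2 1 one_pos, eventually_gt_atTop 0]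
    with b hb1 hb2 hb0
  rw [Real.dist_eq] at hb1 hb2 ⊢
  have hxb : Monotone fun k => x k * b := fun i j hij => by
    have := hxmono hij
    simp only
    gcongr
  have hS : ∑ p ∈ pr (a * b) (c * b), Real.log p * φ (p / b)
      = ∑ k ∈ Finset.range n, ∑ p ∈ pr (x k * b) (x (k + 1) * b), Real.log p * φ (p / b) := by
    rw [sum_pr_telescope hxb]
    simp only [hx0, hxn]
  have hSl : ∑ p ∈ pr (a * b) (c * b), Real.log p
      = ∑ k ∈ Finset.range n, ∑ p ∈ pr (x k * b) (x (k + 1) * b), Real.log p := by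
    rw [sum_pr_telescope hxb]
    simp only [hx0, hxn]
  have hSk : ∀ k < n, |(∑ p ∈ pr (x k * b) (x (k + 1) * b), Real.log p * φ (p / b))
      - φ (x k) * ∑ p ∈ pr (x k * b) (x (k + 1) * b), Real.log p|
      ≤ δ1 * ∑ p ∈ pr (x k * b) (x (k + 1) * b), Real.log p := by
    intro k hk
    rw [Finset.mul_sum, ← Finset.sum_sub_distrib, Finset.mul_sum]
    refine (Finset.abs_sum_le_sum_abs _ _).trans (Finset.sum_le_sum fun p hp => ?_)
    have hlog := log_nonneg_of_mem hp
    rw [mem_pr] at hp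
    have h1 : x k < p / b := by rw [lt_div_iff₀ hb0]; exact hp.2.1
    have h2 : (p : ℝ) / b ≤ x (k + 1) := by rw [div_le_iff₀ hb0]; exact hp.2.2
    have h3 : Real.log p * φ (p / b) - φ (x k) * Real.log p
        = Real.log p * (φ (p / b) - φ (x k)) := by ring
    rw [h3, abs_mul, abs_of_nonneg hlog, mul_comm δ1]
    apply mul_le_mul_of_nonneg_left _ hlog
    have h4 := hunif (p / b) ⟨(hxa k).trans h1.le, h2.trans (hxc (k + 1) hk)⟩ (x k)
      ⟨hxa k, hxc k hk.le⟩ ?_
    · rw [Real.dist_eq] at h4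
      exact h4.le
    · rw [Real.dist_eq, abs_of_nonneg (sub_nonneg.mpr h1.le)]
      have := hxs k
      linarith
  -- assemble
  set A := ∑ p ∈ pr (a * b) (c * b), Real.log p * φ (p / b) with hA
  set B := ∑ k ∈ Finset.range n, φ (x k) * ((∑ p ∈ pr (x k * b) (x (k + 1) * b), Real.log p) / b)
    with hB
  set D := ∑ k ∈ Finset.range n, φ (x k) * (x (k + 1) - x k) with hD
  set E := ∑ p ∈ pr (a * b) (c * b), Real.log p with hE
  have h1 : |A / b - B| ≤ δ1 * (E / b) := by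
    have e1 : A / b - B = (∑ k ∈ Finset.range n,
        ((∑ p ∈ pr (x k * b) (x (k + 1) * b), Real.log p * φ (p / b))
          - φ (x k) * ∑ p ∈ pr (x k * b) (x (k + 1) * b), Real.log p)) / b := by
      rw [Finset.sum_sub_distrib, hS, hB, sub_div, Finset.sum_div _ _ b, Finset.sum_div _ _ b]
      congr 1
      apply Finset.sum_congr rfl
      intro k _
      ring
    rw [e1, abs_div, abs_of_pos hb0, ← mul_div_assoc]
    apply div_le_div_of_nonneg_right _ hb0.le
    rw [hSl, Finset.mul_sum]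
    refine (Finset.abs_sum_le_sum_abs _ _).trans (Finset.sum_le_sum fun k hk => ?_)
    exact hSk k (Finset.mem_range.mp hk)
  have h2 : |(∫ t in a..c, φ t) - D| ≤ δ1 * L := by
    rw [← hI, hD, ← Finset.sum_sub_distrib]
    refine (Finset.abs_sum_le_sum_abs _ _).trans ?_
    refine (Finset.sum_le_sum fun k hk => hIk k (Finset.mem_range.mp hk)).trans ?_
    rw [← Finset.mul_sum, Finset.sum_range_sub x n, hx0, hxn]
  have h3 : E / b ≤ L + 1 := by
    have := (abs_lt.mp hb2).2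
    linarith
  have h4 : δ1 * (E / b) ≤ δ / 4 := by
    calc δ1 * (E / b) ≤ δ1 * (L + 1) := by gcongr
      _ = δ / 4 := by rw [hδ1]; field_simp
  have h5 : δ1 * L ≤ δ / 4 := by
    calc δ1 * L ≤ δ1 * (L + 1) := by gcongr; linarith
      _ = δ / 4 := by rw [hδ1]; field_simp
  have e : A / b - ∫ t in a..c, φ t = (A / b - B) + (B - D) - ((∫ t in a..c, φ t) - D) := by ring
  rw [e]
  calc |(A / b - B) + (B - D) - ((∫ t in a..c, φ t) - D)|
      ≤ |A / b - B| + |B - D| + |(∫ t in a..c, φ t) - D| := by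
        refine (abs_sub _ _).trans ?_
        gcongr
        exact abs_add_le _ _
    _ < δ := by linarith

/-! ### Piecewise affine profiles -/

/-- an affine piece `x ↦ al + be * x` on `(lo, hi]` -/
structure Piece where
  lo : ℚ
  hi : ℚ
  al : ℚ
  be : ℚ
deriving DecidableEq

/-- exact integral of the piece -/
def Piece.I (P : Piece) : ℚ := P.al * (P.hi - P.lo) + P.be * (P.hi ^ 2 - P.lo ^ 2) / 2

lemma Piece.integral_eq (P : Piece) :
    ∫ x in (P.lo : ℝ)..(P.hi : ℝ), ((P.al : ℝ) + P.be * x) = (P.I : ℝ) := by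
  rw [intervalIntegral.integral_add (by simp) (by
    exact (continuous_const.mul continuous_id).intervalIntegrable _ _)]
  rw [intervalIntegral.integral_const, intervalIntegral.integral_const_mul, integral_id]
  simp only [Piece.I, smul_eq_mul]
  push_cast
  ring

lemma Piece.tendsto (P : Piece) (h0 : 0 ≤ P.lo) (hlh : P.lo ≤ P.hi) :
    Tendsto (fun b : ℝ => (∑ p ∈ pr (P.lo * b) (P.hi * b),
      Real.log p * ((P.al : ℝ) + P.be * (p / b))) / b) atTop (𝓝 (P.I : ℝ)) := by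
  rw [← P.integral_eq]
  exact tendsto_sum_pr (φ := fun x => (P.al : ℝ) + P.be * x) (by exact_mod_cast h0)
    (by exact_mod_cast hlh) (by fun_prop)

/-- one piece, one sided -/
theorem Piece.sum_le (P : Piece) (h0 : 0 ≤ P.lo) (hlh : P.lo ≤ P.hi) (C : ℝ) {δ : ℝ}
    (hδ : 0 < δ) : ∀ᶠ b : ℝ in atTop, ∀ E : ℕ → ℝ,
      (∀ p ∈ pr (P.lo * b) (P.hi * b), E p ≤ b * ((P.al : ℝ) + P.be * (p / b)) + C) →
      ∑ p ∈ pr (P.lo * b) (P.hi * b), Real.log p * E p ≤ b ^ 2 * ((P.I : ℝ) + δ) := by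
  have h1 := P.tendsto h0 hlh
  have h2 := tendsto_sum_log (a := (P.lo : ℝ)) (c := (P.hi : ℝ)) (by exact_mod_cast h0)
    (by exact_mod_cast hlh)
  rw [Metric.tendsto_nhds] at h1 h2
  have h3 : ∀ᶠ b : ℝ in atTop, |C| * ((P.hi : ℝ) - P.lo + 1) ≤ (δ / 2) * b := by
    filter_upwards [eventually_ge_atTop (|C| * ((P.hi : ℝ) - P.lo + 1) / (δ / 2))] with b hb
    rw [div_le_iff₀ (by positivity)] at hb
    linarith
  filter_upwards [h1 (δ / 2) (by positivity), h2 1 one_pos, h3, eventually_gt_atTop 0]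
    with b hb1 hb2 hb3 hb0 E hE
  rw [Real.dist_eq] at hb1 hb2
  set S := ∑ p ∈ pr ((P.lo : ℝ) * b) (P.hi * b), Real.log p * ((P.al : ℝ) + P.be * (p / b))
    with hS
  set T := ∑ p ∈ pr ((P.lo : ℝ) * b) (P.hi * b), Real.log p with hT
  have e1 : ∑ p ∈ pr ((P.lo : ℝ) * b) (P.hi * b), Real.log p * E p ≤ b * S + |C| * T := by
    rw [hS, hT, Finset.mul_sum, Finset.mul_sum, ← Finset.sum_add_distrib]
    apply Finset.sum_le_sum
    intro p hp
    have hl := log_nonneg_of_mem hp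
    have := mul_le_mul_of_nonneg_left (hE p hp) hl
    have h5 : Real.log p * C ≤ |C| * Real.log p := by
      rw [mul_comm]
      exact mul_le_mul_of_nonneg_right (le_abs_self C) hl
    nlinarith [this, h5]
  have e2 : S / b ≤ P.I + δ / 2 := by
    have := (abs_lt.mp hb1).2
    linarith
  have e3 : T / b ≤ (P.hi : ℝ) - P.lo + 1 := by
    have := (abs_lt.mp hb2).2
    linarith
  rw [div_le_iff₀ hb0] at e2 e3
  have e4 : b * S ≤ b * ((P.I + δ / 2) * b) := mul_le_mul_of_nonneg_left e2 hb0.le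
  have e5 : |C| * T ≤ |C| * (((P.hi : ℝ) - P.lo + 1) * b) :=
    mul_le_mul_of_nonneg_left e3 (abs_nonneg C)
  have e6 : |C| * (((P.hi : ℝ) - P.lo + 1) * b) ≤ (δ / 2) * b * b := by
    rw [← mul_assoc]
    exact mul_le_mul_of_nonneg_right hb3 hb0.le
  nlinarith

/-- consecutive pieces from `x` to `X` -/
def Chain (x : ℚ) : List Piece → ℚ → Prop
  | [], X => x = X
  | P :: L, X => P.lo = x ∧ P.lo ≤ P.hi ∧ Chain P.hi L X

instance Chain.dec : ∀ (x : ℚ) (L : List Piece) (X : ℚ), Decidable (Chain x L X)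
  | _, [], _ => inferInstanceAs (Decidable (_ = _))
  | _, P :: L, X =>
    have := Chain.dec P.hi L X
    inferInstanceAs (Decidable (_ ∧ _ ∧ _))

lemma Chain.le {x : ℚ} {L : List Piece} {X : ℚ} (h : Chain x L X) : x ≤ X := by
  induction L generalizing x with
  | nil => exact le_of_eq h
  | cons P L ih =>
    obtain ⟨h1, h2, h3⟩ := h
    exact (h1 ▸ h2).trans (ih h3)

/-- exact integral of a list of pieces -/
def pieceSum (L : List Piece) : ℚ := (L.map Piece.I).sum

/-- the piecewise affine profile, one sided -/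
theorem chain_sum_le (L : List Piece) (x X : ℚ) (h0 : 0 ≤ x) (hL : Chain x L X) (C : ℝ) {δ : ℝ}
    (hδ : 0 < δ) : ∀ᶠ b : ℝ in atTop, ∀ E : ℕ → ℝ,
      (∀ P ∈ L, ∀ p ∈ pr (P.lo * b) (P.hi * b), E p ≤ b * ((P.al : ℝ) + P.be * (p / b)) + C) →
      ∑ p ∈ pr (x * b) (X * b), Real.log p * E p ≤ b ^ 2 * ((pieceSum L : ℝ) + δ) := by
  induction L generalizing x δ with
  | nil =>
    have hx : x = X := hL
    subst hx
    filter_upwards with b E _
    have : pr ((x : ℝ) * b) (x * b) = ∅ := by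
      ext p
      simp only [mem_pr, Finset.notMem_empty, iff_false]
      rintro ⟨_, h1, h2⟩
      exact absurd h2 (not_le.mpr h1)
    rw [this]
    simp only [pieceSum, Finset.sum_empty, List.map_nil, List.sum_nil, Rat.cast_zero, zero_add]
    positivity
  | cons P L ih =>
    obtain ⟨h1, h2, h3⟩ := hL
    subst h1
    have hhi : 0 ≤ P.hi := h0.trans h2
    have hX := h3.le
    filter_upwards [P.sum_le h0 h2 C (half_pos hδ), ih P.hi hhi h3 (half_pos hδ),
      eventually_ge_atTop 0] with b hb1 hb2 hb0 E hE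
    have e1 := hb1 E (hE P (by simp))
    have e2 := hb2 E (fun Q hQ => hE Q (by simp [hQ]))
    have h2' : (P.lo : ℝ) * b ≤ P.hi * b := by
      have : (P.lo : ℝ) ≤ P.hi := by exact_mod_cast h2
      gcongr
    have hX' : (P.hi : ℝ) * b ≤ X * b := by
      have : (P.hi : ℝ) ≤ X := by exact_mod_cast hX
      gcongr
    rw [← sum_pr_add h2' hX']
    have e3 : ((pieceSum (P :: L) : ℚ) : ℝ) = P.I + pieceSum L := by
      simp [pieceSum]
    rw [e3]
    nlinarith

/-! ### Small primes -/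

/-- primes up to `√(C b)`: negligible when the weighted exponent is `O(b log b)` -/
theorem tiny_sum_le (C K : ℝ) {δ : ℝ} (hδ : 0 < δ) : ∀ᶠ b : ℝ in atTop, ∀ E : ℕ → ℝ,
      (∀ p ∈ pr 0 (Real.sqrt (C * b)), Real.log p * E p ≤ K * (b * Real.log b)) →
      ∑ p ∈ pr 0 (Real.sqrt (C * b)), Real.log p * E p ≤ δ * b ^ 2 := by
  -- √(|C| b) * |K| b log b ≤ δ b²
  have h1 : (fun b : ℝ => Real.log b) =o[atTop] fun b : ℝ => b ^ (1 / 2 : ℝ) :=
    isLittleO_log_rpow_atTop (by norm_num)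
  have hc : 0 < δ / (|K| * Real.sqrt |C| + 1) := by positivity
  have h2 := h1.def hc
  filter_upwards [h2, eventually_ge_atTop 1] with b hb hb1 E hE
  have hb0 : 0 < b := by linarith
  have hlog : 0 ≤ Real.log b := Real.log_nonneg hb1
  rw [← Real.sqrt_eq_rpow, Real.norm_of_nonneg hlog, Real.norm_of_nonneg (Real.sqrt_nonneg b)] at hb
  have hcard : ((pr 0 (Real.sqrt (C * b))).card : ℝ) ≤ Real.sqrt (|C| * b) := by
    have e1 : (pr 0 (Real.sqrt (C * b))).card ≤ ⌊Real.sqrt (C * b)⌋₊ := by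
      unfold pr
      refine (Finset.card_filter_le _ _).trans ?_
      simp
    have e2 : ((⌊Real.sqrt (C * b)⌋₊ : ℕ) : ℝ) ≤ Real.sqrt (C * b) :=
      Nat.floor_le (Real.sqrt_nonneg _)
    have e3 : Real.sqrt (C * b) ≤ Real.sqrt (|C| * b) := by
      apply Real.sqrt_le_sqrt
      exact mul_le_mul_of_nonneg_right (le_abs_self C) hb0.le
    have e4 : ((pr 0 (Real.sqrt (C * b))).card : ℝ) ≤ (⌊Real.sqrt (C * b)⌋₊ : ℕ) := by
      exact_mod_cast e1
    linarith
  have hs : ∑ p ∈ pr 0 (Real.sqrt (C * b)), Real.log p * E p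
      ≤ (pr 0 (Real.sqrt (C * b))).card * (|K| * (b * Real.log b)) := by
    rw [← nsmul_eq_mul]
    apply Finset.sum_le_card_nsmul
    intro p hp
    refine (hE p hp).trans ?_
    exact mul_le_mul_of_nonneg_right (le_abs_self K) (by positivity)
  refine hs.trans ?_
  calc ((pr 0 (Real.sqrt (C * b))).card : ℝ) * (|K| * (b * Real.log b))
      ≤ Real.sqrt (|C| * b) * (|K| * (b * Real.log b)) := by gcongr
    _ = (|K| * Real.sqrt |C|) * (Real.sqrt b * Real.log b) * b := by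
        rw [Real.sqrt_mul (abs_nonneg C)]; ring
    _ ≤ (|K| * Real.sqrt |C|) * (Real.sqrt b * (δ / (|K| * Real.sqrt |C| + 1) * Real.sqrt b)) * b := by
        gcongr
    _ = δ * ((|K| * Real.sqrt |C|) / (|K| * Real.sqrt |C| + 1)) * (Real.sqrt b * Real.sqrt b) * b := by
        field_simp
    _ = δ * ((|K| * Real.sqrt |C|) / (|K| * Real.sqrt |C| + 1)) * b ^ 2 := by
        rw [Real.mul_self_sqrt hb0.le]; ring
    _ ≤ δ * 1 * b ^ 2 := by
        gcongr
        rw [div_le_one (by positivity)]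
        linarith
    _ = δ * b ^ 2 := by ring

/-- primes in `(√(C b), e b]`: total at most `K e b²` when the exponents are `≤ K b` -/
theorem small_sum_le (C K : ℝ) (hK : 0 ≤ K) (e : ℝ) (he : 0 < e) {δ : ℝ}
    (hδ : 0 < δ) : ∀ᶠ b : ℝ in atTop, ∀ E : ℕ → ℝ,
      (∀ p ∈ pr (Real.sqrt (C * b)) (e * b), E p ≤ K * b) →
      ∑ p ∈ pr (Real.sqrt (C * b)) (e * b), Real.log p * E p ≤ b ^ 2 * (K * e + δ) := by
  have h2 := tendsto_theta_mul he.le
  rw [Metric.tendsto_nhds] at h2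
  have hd : 0 < δ / (K + 1) := by positivity
  filter_upwards [h2 (δ / (K + 1)) hd, eventually_gt_atTop 0] with b hb hb0 E hE
  rw [Real.dist_eq] at hb
  have e1 : ∑ p ∈ pr (Real.sqrt (C * b)) (e * b), Real.log p * E p
      ≤ ∑ p ∈ pr 0 (e * b), Real.log p * (K * b) := by
    refine (Finset.sum_le_sum fun p hp =>
      mul_le_mul_of_nonneg_left (hE p hp) (log_nonneg_of_mem hp)).trans ?_
    apply Finset.sum_le_sum_of_subset_of_nonneg
    · intro p hp
      rw [mem_pr] at hp ⊢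
      exact ⟨hp.1, lt_of_le_of_lt (Real.sqrt_nonneg _) hp.2.1, hp.2.2⟩
    · intro p hp _
      exact mul_nonneg (log_nonneg_of_mem hp) (by positivity)
  rw [← Finset.sum_mul, sum_log_pr_zero] at e1
  have e2 : Chebyshev.theta (e * b) / b ≤ e + δ / (K + 1) := by
    have := (abs_lt.mp hb).2
    linarith
  rw [div_le_iff₀ hb0] at e2
  have e3 : Chebyshev.theta (e * b) * (K * b) ≤ (e + δ / (K + 1)) * b * (K * b) := by
    gcongr
  have e4 : K * (δ / (K + 1)) ≤ δ := by
    rw [mul_div_assoc', div_le_iff₀ (by positivity)]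
    nlinarith
  nlinarith [sq_nonneg b, mul_le_mul_of_nonneg_right e4 (sq_nonneg b)]

/-- **P8, main theorem.** All primes at once: `E p` is the exponent (loss) at `p`.
* tiny primes `p ≤ √(C b)`: `log p · E p ≤ K' b log b`;
* small primes `√(C b) < p ≤ x b`: `E p ≤ K b`;
* `p` in a piece `(lo b, hi b]`: `E p ≤ b (al + be p/b) + C'`;
* `p > X b`: `E p ≤ 0`. -/
theorem all_sum_le (L : List Piece) (x X : ℚ) (h0 : 0 < x) (hL : Chain x L X)
    (C K K' C' : ℝ) (hC : 0 < C) (hK : 0 ≤ K) {δ : ℝ} (hδ : 0 < δ) :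
    ∀ᶠ b : ℝ in atTop, ∀ (E : ℕ → ℝ) (Y : ℝ), X * b ≤ Y →
      (∀ p ∈ pr 0 (Real.sqrt (C * b)), Real.log p * E p ≤ K' * (b * Real.log b)) →
      (∀ p ∈ pr (Real.sqrt (C * b)) (x * b), E p ≤ K * b) →
      (∀ P ∈ L, ∀ p ∈ pr (P.lo * b) (P.hi * b), E p ≤ b * ((P.al : ℝ) + P.be * (p / b)) + C') →
      (∀ p ∈ pr (X * b) Y, E p ≤ 0) →
      ∑ p ∈ pr 0 Y, Real.log p * E p ≤ b ^ 2 * ((pieceSum L : ℝ) + K * x + δ) := by
  have hx : (0 : ℝ) < x := by exact_mod_cast h0
  have hd : 0 < δ / 3 := by positivity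
  have hsq : ∀ᶠ b : ℝ in atTop, Real.sqrt (C * b) ≤ x * b := by
    filter_upwards [eventually_ge_atTop (C / (x : ℝ) ^ 2), eventually_gt_atTop 0] with b hb hb0
    rw [Real.sqrt_le_left (by positivity)]
    rw [div_le_iff₀ (by positivity)] at hb
    nlinarith
  filter_upwards [tiny_sum_le C K' hd, small_sum_le C K hK x hx hd,
    chain_sum_le L x X h0.le hL C' hd, hsq, eventually_gt_atTop 0]
    with b hb1 hb2 hb3 hb4 hb0 E Y hY e1 e2 e3 e4
  have f1 := hb1 E e1
  have f2 := hb2 E e2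
  have f3 := hb3 E e3
  have f4 : ∑ p ∈ pr (X * b) Y, Real.log p * E p ≤ 0 := by
    apply Finset.sum_nonpos
    intro p hp
    exact mul_nonpos_of_nonneg_of_nonpos (log_nonneg_of_mem hp) (e4 p hp)
  have hXx : (x : ℝ) * b ≤ X * b := by
    have : (x : ℝ) ≤ X := by exact_mod_cast hL.le
    gcongr
  rw [← sum_pr_add (Real.sqrt_nonneg (C * b)) (hb4.trans (hXx.trans hY)),
    ← sum_pr_add hb4 (hXx.trans hY), ← sum_pr_add hXx hY]
  nlinarith

end Crest.Agent.R006
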