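import Crest.Agent.R006.Ded
import Crest.Agent.R006.PNTSum_365

set_option autoImplicit false

/-!
# Row 6 (Catalan): assembly of the blocks (helper529)

`ρ_N` is the explicit positive rational reference (products of superfactorials, Vandermonde
products, ...). The archimedean block bounds `log |P(G)| - log ρ`, the `p`-adic blocks bound
`v_p(P) - v_p(ρ)` from below by `-E p`. The product formula for `ρ` joins them.
-/

namespace Crest.Agent.R006

open Polynomial Filter Finset

/-- product formula for a positive rational, over any finite set of primes that contains its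
primes -/
theorem log_rat_eq_sum (ρ : ℚ) (hρ : 0 < ρ) (S : Finset ℕ) (hS : ∀ p ∈ S, p.Prime)
    (h : ∀ p : ℕ, p.Prime → padicValRat p ρ ≠ 0 → p ∈ S) :
    Real.log (ρ : ℝ) = ∑ p ∈ S, (padicValRat p ρ : ℝ) * Real.log p := by
  classical
  set T : Finset ℕ := S ∪ (ρ.num.natAbs.primeFactors ∪ ρ.den.primeFactors) with hT
  have hTp : ∀ p ∈ T, p.Prime := by
    intro p hp
    rw [hT, Finset.mem_union, Finset.mem_union] at hp
    rcases hp with hp | hp | hp
    · exact hS p hp
    · exact Nat.prime_of_mem_primeFactors hp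
    · exact Nat.prime_of_mem_primeFactors hp
  have h1 : ∑ p ∈ S, (padicValRat p ρ : ℝ) * Real.log p
      = ∑ p ∈ T, (padicValRat p ρ : ℝ) * Real.log p := by
    apply Finset.sum_subset (Finset.subset_union_left)
    intro p hp hpS
    have : padicValRat p ρ = 0 := by
      by_contra hne
      exact hpS (h p (hTp p hp) hne)
    rw [this]; simp
  have hnum : 0 < ρ.num := Rat.num_pos.mpr hρ
  have hcast : (ρ : ℝ) = (ρ.num.natAbs : ℝ) / (ρ.den : ℝ) := by
    have e1 : ((ρ.num.natAbs : ℤ) : ℝ) = (ρ.num : ℝ) := by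
      rw [Int.natAbs_of_nonneg hnum.le]
    have e2 : ((ρ.num.natAbs : ℕ) : ℝ) = (ρ.num : ℝ) := by
      rw [← e1]; simp
    rw [e2]
    have := Rat.num_div_den ρ
    exact_mod_cast this.symm
  have hlog : ∀ n : ℕ, n ≠ 0 → n.primeFactors ⊆ T →
      Real.log (n : ℝ) = ∑ p ∈ T, (padicValNat p n : ℝ) * Real.log p := by
    intro n hn hsub
    rw [Real.log_nat_eq_sum_factorization, Finsupp.sum, Nat.support_factorization]
    rw [← Finset.sum_subset hsub]
    · refine Finset.sum_congr rfl fun p hp => ?_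
      rw [Nat.factorization_def n (Nat.prime_of_mem_primeFactors hp)]
    · intro p hp hpn
      have : padicValNat p n = 0 := by
        rw [← Nat.factorization_def n (hTp p hp)]
        exact Finsupp.notMem_support_iff.mp (by rwa [Nat.support_factorization])
      rw [this]; simp
  have hn0 : ρ.num.natAbs ≠ 0 := by
    intro h0
    rw [Int.natAbs_eq_zero] at h0
    exact hnum.ne' h0
  have hd0 : ρ.den ≠ 0 := ρ.den_nz
  rw [h1, hcast, Real.log_div (by exact_mod_cast hn0) (by exact_mod_cast hd0),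
    hlog _ hn0 (fun p hp => by
      rw [hT, Finset.mem_union, Finset.mem_union]; exact Or.inr (Or.inl hp)),
    hlog _ hd0 (fun p hp => by
      rw [hT, Finset.mem_union, Finset.mem_union]; exact Or.inr (Or.inr hp)),
    ← Finset.sum_sub_distrib]
  refine Finset.sum_congr rfl fun p _ => ?_
  rw [padicValRat_def, padicValInt, Int.cast_sub, Int.cast_natCast, Int.cast_natCast, sub_mul]

/-- **Assembly, general form.** `A` = archimedean constant, `B` = total of all primes. -/
theorem irrational_of_blocks (G C A B : ℝ) (hAB : A + B < 0)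
    (h : ∀ r : ℚ, (r : ℝ) = G → ∀ δ : ℝ, 0 < δ → ∀ N0 : ℕ, ∃ N : ℕ, N0 ≤ N ∧
      ∃ (P : ℚ[X]) (ρ : ℚ) (E : ℕ → ℝ) (Y : ℝ), 0 < ρ ∧
        (P.natDegree : ℝ) ≤ C * N ∧ aeval G P ≠ 0 ∧
        Real.log |aeval G P| - Real.log ρ ≤ (N : ℝ) ^ 2 * (A + δ) ∧
        (∀ p : ℕ, p.Prime → ∀ i, P.coeff i ≠ 0 →
          (padicValRat p ρ : ℝ) - E p ≤ padicValRat p (P.coeff i)) ∧
        (∀ p : ℕ, p.Prime → Y < p → E p ≤ 0) ∧
        ∑ p ∈ pr 0 Y, Real.log p * E p ≤ (N : ℝ) ^ 2 * (B + δ)) :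
    Irrational G := by
  classical
  refine irrational_of_rat_polys G C (-(A + B) / 2) (by linarith) fun r hr D0 => ?_
  obtain ⟨N, hN, P, ρ, E, Y, hρ, hdeg, hne, harch, hv, hY, hsum⟩ :=
    h r hr (-(A + B) / 4) (by linarith) D0
  set M : ℕ := max ⌊Y⌋₊ (max ρ.num.natAbs ρ.den) with hM
  set S : Finset ℕ := (Finset.range (M + 1)).filter Nat.Prime with hS
  have hSp : ∀ p ∈ S, p.Prime := fun p hp => (Finset.mem_filter.mp hp).2
  have hmemS : ∀ p : ℕ, p ∈ S ↔ p ≤ M ∧ p.Prime := by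
    intro p
    rw [hS, Finset.mem_filter, Finset.mem_range, Nat.lt_succ_iff]
  have hnumpos : 0 < ρ.num := Rat.num_pos.mpr hρ
  have hn0 : ρ.num.natAbs ≠ 0 := by
    intro h0
    rw [Int.natAbs_eq_zero] at h0
    exact hnumpos.ne' h0
  have hbig : ∀ p : ℕ, p.Prime → p ∉ S → padicValRat p ρ = 0 := by
    intro p hp hpS
    have hlt : M < p := by
      by_contra hle
      exact hpS ((hmemS p).mpr ⟨not_lt.mp hle, hp⟩)
    have h1 : ρ.num.natAbs < p := lt_of_le_of_lt ((le_max_left _ _).trans (le_max_right _ _)) hlt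
    have h2 : ρ.den < p := lt_of_le_of_lt ((le_max_right _ _).trans (le_max_right _ _)) hlt
    rw [padicValRat_def, padicValInt]
    have e1 : padicValNat p ρ.num.natAbs = 0 :=
      padicValNat.eq_zero_of_not_dvd fun hd => absurd (Nat.le_of_dvd (Nat.pos_of_ne_zero hn0) hd)
        (not_le.mpr h1)
    have e2 : padicValNat p ρ.den = 0 :=
      padicValNat.eq_zero_of_not_dvd fun hd => absurd (Nat.le_of_dvd ρ.pos hd) (not_le.mpr h2)
    rw [e1, e2]; simp
  have hYS : ∀ p : ℕ, p.Prime → p ∉ S → Y < p := by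
    intro p hp hpS
    have hlt : M < p := by
      by_contra hle
      exact hpS ((hmemS p).mpr ⟨not_lt.mp hle, hp⟩)
    have : ⌊Y⌋₊ < p := lt_of_le_of_lt (le_max_left _ _) hlt
    exact Nat.lt_of_floor_lt this
  have hlogρ := log_rat_eq_sum ρ hρ S hSp (fun p hp hne' => by
    by_contra hpS
    exact hne' (hbig p hp hpS))
  refine ⟨N, hN, P, S, fun p => ⌊E p⌋ - padicValRat p ρ, hSp, ?_, hdeg, hne, ?_⟩
  · intro p hp i hi
    have hvi := hv p hp i hi
    by_cases hpS : p ∈ S
    · rw [if_pos hpS]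
      have h1 : ((padicValRat p ρ - padicValRat p (P.coeff i) : ℤ) : ℝ) ≤ E p := by
        push_cast; linarith
      have h2 := Int.le_floor.mpr h1
      linarith
    · rw [if_neg hpS]
      have h1 := hY p hp (hYS p hp hpS)
      rw [hbig p hp hpS] at hvi
      have h2 : (0 : ℝ) ≤ (padicValRat p (P.coeff i) : ℝ) := by
        push_cast at hvi; linarith
      have h3 : (0 : ℤ) ≤ padicValRat p (P.coeff i) := by exact_mod_cast h2
      linarith
  · have hsplit : ∑ p ∈ S, ((⌊E p⌋ - padicValRat p ρ : ℤ) : ℝ) * Real.log p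
        = ∑ p ∈ S, (⌊E p⌋ : ℝ) * Real.log p - Real.log ρ := by
      rw [hlogρ, ← Finset.sum_sub_distrib]
      refine Finset.sum_congr rfl fun p _ => ?_
      push_cast; ring
    have hsub : pr 0 Y ⊆ S := by
      intro p hp
      rw [mem_pr] at hp
      rw [hmemS]
      exact ⟨(Nat.le_floor hp.2.2).trans (le_max_left _ _), hp.1⟩
    have hle : ∑ p ∈ S, (⌊E p⌋ : ℝ) * Real.log p ≤ ∑ p ∈ pr 0 Y, Real.log p * E p := by
      rw [← Finset.sum_sdiff hsub]
      have h1 : ∑ p ∈ S \ pr 0 Y, (⌊E p⌋ : ℝ) * Real.log p ≤ 0 := by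
        apply Finset.sum_nonpos
        intro p hp
        rw [Finset.mem_sdiff] at hp
        have hpp := hSp p hp.1
        have hYp : Y < p := by
          by_contra hle
          exact hp.2 (mem_pr.mpr ⟨hpp, by exact_mod_cast hpp.pos, not_lt.mp hle⟩)
        have h2 : ⌊E p⌋ ≤ 0 := by
          have h3 := hY p hpp hYp
          have : (⌊E p⌋ : ℝ) ≤ 0 := (Int.floor_le _).trans h3
          exact_mod_cast this
        exact mul_nonpos_of_nonpos_of_nonneg (by exact_mod_cast h2)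
          (Real.log_nonneg (by exact_mod_cast hpp.one_lt.le))
      have h2 : ∑ p ∈ pr 0 Y, (⌊E p⌋ : ℝ) * Real.log p ≤ ∑ p ∈ pr 0 Y, Real.log p * E p := by
        refine Finset.sum_le_sum fun p hp => ?_
        rw [mul_comm]
        exact mul_le_mul_of_nonneg_left (Int.floor_le _) (log_nonneg_of_mem hp)
      linarith
    have hNN : (N : ℝ) ^ 2 * (A + -(A + B) / 4) + (N : ℝ) ^ 2 * (B + -(A + B) / 4)
        = -(-(A + B) / 2) * (N : ℝ) ^ 2 := by ring
    rw [← hNN]
    have := hsplit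
    push_cast at this ⊢
    linarith

lemma sum_pr_zero_four (f : ℕ → ℝ) : ∑ p ∈ pr 0 4, f p = f 2 + f 3 := by
  have : pr 0 4 = {2, 3} := by
    ext p
    rw [mem_pr, Finset.mem_insert, Finset.mem_singleton]
    constructor
    · rintro ⟨h1, _, h3⟩
      have h4 : p ≤ 4 := by exact_mod_cast h3
      have := h1.two_le
      interval_cases p
      · exact Or.inl rfl
      · exact Or.inr rfl
      · exact absurd h1 (by norm_num)
    · rintro (rfl | rfl)
      · exact ⟨Nat.prime_two, by norm_num, by norm_num⟩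
      · exact ⟨Nat.prime_three, by norm_num, by norm_num⟩
  rw [this, Finset.sum_pair (by norm_num)]

/-- **Assembly, block form.** `N` is the unit of the design.
* `A`: archimedean block (P3);  `c2`, `c3`: blocks P6, P7;
* tiny primes `5 ≤ p ≤ √(C1 N)`: `log p · E p ≤ K' N log N` (P5);
* small primes `√(C1 N) < p ≤ x N`: `E p ≤ K N` (P5);
* the main range `x N < p ≤ X N`: total `≤ (M + δ) N²` (P4 + P8);
* above `X N` nothing is lost. -/
theorem irrational_of_prime_blocks (G C A c2 c3 x X K K' C1 M : ℝ) (hC1 : 0 < C1) (hK : 0 ≤ K)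
    (hx : 0 < x) (hxX : x ≤ X)
    (hT : A + c2 * Real.log 2 + c3 * Real.log 3 + K * x + M < 0)
    (h : ∀ r : ℚ, (r : ℝ) = G → ∀ δ : ℝ, 0 < δ → ∀ᶠ N : ℕ in atTop,
      ∃ (P : ℚ[X]) (ρ : ℚ) (E : ℕ → ℝ) (Y : ℝ), 0 < ρ ∧
        (P.natDegree : ℝ) ≤ C * N ∧ aeval G P ≠ 0 ∧
        Real.log |aeval G P| - Real.log ρ ≤ (N : ℝ) ^ 2 * (A + δ) ∧
        (∀ p : ℕ, p.Prime → ∀ i, P.coeff i ≠ 0 →
          (padicValRat p ρ : ℝ) - E p ≤ padicValRat p (P.coeff i)) ∧
        X * N ≤ Y ∧ (∀ p : ℕ, p.Prime → X * N < p → E p ≤ 0) ∧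
        E 2 ≤ (N : ℝ) ^ 2 * (c2 + δ) ∧ E 3 ≤ (N : ℝ) ^ 2 * (c3 + δ) ∧
        (∀ p ∈ pr 4 (Real.sqrt (C1 * N)), Real.log p * E p ≤ K' * ((N : ℝ) * Real.log N)) ∧
        (∀ p ∈ pr (Real.sqrt (C1 * N)) (x * N), E p ≤ K * N) ∧
        ∑ p ∈ pr (x * N) (X * N), Real.log p * E p ≤ (N : ℝ) ^ 2 * (M + δ)) :
    Irrational G := by
  refine irrational_of_blocks G C A (c2 * Real.log 2 + c3 * Real.log 3 + K * x + M)
    (by linarith) fun r hr δ hδ N0 => ?_
  have hl2 : 0 < Real.log 2 := Real.log_pos (by norm_num)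
  have hl3 : 0 < Real.log 3 := Real.log_pos (by norm_num)
  -- distribute `δ`
  set d : ℝ := δ / (Real.log 2 + Real.log 3 + 4) with hd
  have hdpos : 0 < d := by positivity
  have hdδ : d ≤ δ := by
    rw [hd, div_le_iff₀ (by positivity)]
    nlinarith
  have hK'0 : K' ≤ |K'| := le_abs_self _
  have ev1 := tendsto_natCast_atTop_atTop.eventually (tiny_sum_le C1 |K'| hdpos)
  have ev2 := tendsto_natCast_atTop_atTop.eventually (small_sum_le C1 K hK x hx hdpos)
  have ev3 : ∀ᶠ N : ℕ in atTop, (16 / C1 : ℝ) ≤ N ∧ (C1 / x ^ 2 : ℝ) ≤ N ∧ (1 : ℝ) ≤ N :=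
    (tendsto_natCast_atTop_atTop.eventually_ge_atTop (16 / C1)).and
      ((tendsto_natCast_atTop_atTop.eventually_ge_atTop (C1 / x ^ 2)).and
        (tendsto_natCast_atTop_atTop.eventually_ge_atTop 1))
  obtain ⟨N, ⟨hNN, e1, e2, ⟨h16, hCx, hN1⟩, P, ρ, E, Y, hρ, hdeg, hne, harch, hv, hXY, hYE, hE2,
    hE3, htiny, hsmall, hmain⟩⟩ :=
    ((eventually_ge_atTop N0).and (ev1.and (ev2.and (ev3.and (h r hr d hdpos))))).exists
  have hN0 : (0 : ℝ) < N := by linarith
  refine ⟨N, hNN, P, ρ, E, Y, hρ, hdeg, hne, ?_, hv, ?_, ?_⟩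
  · refine harch.trans ?_
    gcongr
  · intro p hp hYp
    exact hYE p hp (lt_of_le_of_lt hXY hYp)
  · -- split the sum
    have hs4 : (4 : ℝ) ≤ Real.sqrt (C1 * N) := by
      apply Real.le_sqrt_of_sq_le
      rw [div_le_iff₀ hC1] at h16
      nlinarith
    have hsx : Real.sqrt (C1 * N) ≤ x * N := by
      rw [Real.sqrt_le_left (by positivity)]
      rw [div_le_iff₀ (by positivity)] at hCx
      nlinarith
    have hxX' : x * N ≤ X * N := by gcongr
    rw [← sum_pr_add (x := 0) (y := 4) (by norm_num)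
        (hs4.trans (hsx.trans (hxX'.trans hXY))),
      ← sum_pr_add hs4 (hsx.trans (hxX'.trans hXY)),
      ← sum_pr_add hsx (hxX'.trans hXY), ← sum_pr_add hxX' hXY, sum_pr_zero_four]
    have f1 : ∑ p ∈ pr 4 (Real.sqrt (C1 * N)), Real.log p * E p ≤ d * (N : ℝ) ^ 2 := by
      have := e1 (fun p => if p ≤ 4 then 0 else E p) (by
        intro p hp
        by_cases h4 : p ≤ 4
        · simp only [h4, if_true, mul_zero]
          have : 0 ≤ Real.log (N : ℝ) := Real.log_nonneg hN1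
          positivity
        · simp only [h4, if_false]
          rw [mem_pr] at hp
          have hp4 : p ∈ pr 4 (Real.sqrt (C1 * N)) :=
            mem_pr.mpr ⟨hp.1, by exact_mod_cast not_le.mp h4, hp.2.2⟩
          refine (htiny p hp4).trans ?_
          have : 0 ≤ (N : ℝ) * Real.log N := mul_nonneg hN0.le (Real.log_nonneg hN1)
          gcongr)
      rw [← sum_pr_add (x := 0) (y := 4) (by norm_num) hs4, sum_pr_zero_four] at this
      simp only [show (2 : ℕ) ≤ 4 by norm_num, show (3 : ℕ) ≤ 4 by norm_num, if_true, mul_zero,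
        add_zero, zero_add] at this
      refine le_trans (le_of_eq ?_) this
      refine Finset.sum_congr rfl fun p hp => ?_
      rw [mem_pr] at hp
      have : ¬ p ≤ 4 := not_le.mpr (by exact_mod_cast hp.2.1)
      rw [if_neg this]
    have f2 := e2 E hsmall
    have f3 : ∑ p ∈ pr (X * N) Y, Real.log p * E p ≤ 0 := by
      apply Finset.sum_nonpos
      intro p hp
      have hpp := mem_pr.mp hp
      exact mul_nonpos_of_nonneg_of_nonpos (log_nonneg_of_mem hp) (hYE p hpp.1 hpp.2.1)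
    have g2 := mul_le_mul_of_nonneg_left hE2 hl2.le
    have g3 := mul_le_mul_of_nonneg_left hE3 hl3.le
    have hkey : (N : ℝ) ^ 2 * (c2 * Real.log 2 + c3 * Real.log 3 + K * x + M + δ)
        = Real.log 2 * ((N : ℝ) ^ 2 * (c2 + d)) + Real.log 3 * ((N : ℝ) ^ 2 * (c3 + d))
          + (d * (N : ℝ) ^ 2 + ((N : ℝ) ^ 2 * (K * x + d) + (N : ℝ) ^ 2 * (M + d)))
          + d * (N : ℝ) ^ 2 := by
      have : δ = d * (Real.log 2 + Real.log 3 + 4) := by
        rw [hd, div_mul_cancel₀]; positivity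
      rw [this]; ring
    rw [hkey]
    have hdN : 0 ≤ d * (N : ℝ) ^ 2 := by positivity
    push_cast at g2 g3 ⊢
    linarith

end Crest.Agent.R006
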