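import Crest.Agent.R006.Base_724

/-!
Row 6 (helper724): the base formula in discrete form, part 2.

`E K0 z k = mu K0 (fun s => (s - z)^k)` (`k : ℤ`), the recursion in `z`,
injectivity in `K0`, existence of the weights.
-/

set_option autoImplicit false

namespace Crest.Agent.R006.Base724

open Polynomial Filter Topology
open Crest.Agent.R006.NV Crest.Agent.R006.Germ724

/-- not a site -/
def Off (z : ℂ) : Prop := ∀ l : ℕ, site l ≠ z

lemma re_site (l : ℕ) : (site l).re = -(1 / 2) - l := by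
  unfold site
  simp

lemma im_site (l : ℕ) : (site l).im = 0 := by
  unfold site
  simp

lemma site_ne_of_re {z : ℂ} (h : -(1 / 2) < z.re) : Off z := by
  intro l e
  have := congrArg Complex.re e
  rw [re_site] at this
  have hl : (0 : ℝ) ≤ l := Nat.cast_nonneg l
  linarith

lemma dist_site_ge {z : ℂ} (l : ℕ) (h : 0 ≤ z.re) : z.re + 1 / 2 ≤ ‖site l - z‖ := by
  have h1 : |(site l - z).re| ≤ ‖site l - z‖ := Complex.abs_re_le_norm _
  have h2 : (site l - z).re = -(1 / 2) - l - z.re := by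
    rw [Complex.sub_re, re_site]
  rw [h2] at h1
  have hl : (0 : ℝ) ≤ l := Nat.cast_nonneg l
  rw [abs_of_nonpos (by linarith)] at h1
  linarith

lemma tendsto_dist_site (z : ℂ) : Tendsto (fun l : ℕ => ‖site l - z‖) atTop atTop := by
  have h1 : Tendsto (fun l : ℕ => (l : ℝ) - ‖z‖) atTop atTop :=
    tendsto_atTop_add_const_right _ _ tendsto_natCast_atTop_atTop
  refine tendsto_atTop_mono (fun l => ?_) h1
  have h2 : |(site l).re| ≤ ‖site l‖ := Complex.abs_re_le_norm _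
  rw [re_site] at h2
  have hl : (0 : ℝ) ≤ l := Nat.cast_nonneg l
  rw [abs_of_nonpos (by linarith)] at h2
  have h3 : ‖site l‖ ≤ ‖site l - z‖ + ‖z‖ := by
    have := norm_add_le (site l - z) z
    simpa using this
  linarith

lemma exists_dist {z : ℂ} (hz : Off z) : ∃ c : ℝ, 0 < c ∧ ∀ l : ℕ, c ≤ ‖site l - z‖ := by
  have h := tendsto_dist_site z
  rw [← Nat.cofinite_eq_atTop] at h
  obtain ⟨l0, h0⟩ := h.exists_forall_le
  exact ⟨‖site l0 - z‖, norm_pos_iff.mpr (sub_ne_zero.mpr (hz l0)), h0⟩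

/-- germ of `s - z` -/
lemma T_sub_const (z s : ℂ) : T (fun w => w - z) s = pt (s - z) := by
  have h : AnalyticAt ℂ (fun w : ℂ => w) s := analyticAt_id
  rw [T_sub h analyticAt_const, T_id, T_const]
  unfold pt
  rw [map_sub]
  ring

lemma analyticAt_sub (z s : ℂ) : AnalyticAt ℂ (fun w : ℂ => w - z) s :=
  analyticAt_id.sub analyticAt_const

lemma pt_const (s : ℂ) : PowerSeries.constantCoeff (pt s) = s := by
  rw [← PowerSeries.coeff_zero_eq_constantCoeff_apply, pt_coeff_zero]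

lemma inv_pt_coeffs {a : ℂ} (ha : a ≠ 0) :
    PowerSeries.coeff 0 (pt a)⁻¹ = 1 / a ∧
    PowerSeries.coeff 1 (pt a)⁻¹ = -1 / a ^ 2 ∧
    PowerSeries.coeff 2 (pt a)⁻¹ = 1 / a ^ 3 := by
  have h : (pt a)⁻¹ * pt a = 1 := PowerSeries.inv_mul_cancel _ (by rw [pt_const]; exact ha)
  have h0 := congrArg (PowerSeries.coeff 0) h
  have h1 := congrArg (PowerSeries.coeff 1) h
  have h2 := congrArg (PowerSeries.coeff 2) h
  rw [coeff_zero_mul, pt_coeff_zero] at h0
  rw [coeff_one_mul, pt_coeff_zero, pt_coeff_one] at h1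
  rw [coeff_two_mul, pt_coeff_zero, pt_coeff_one, pt_coeff_two] at h2
  simp only [PowerSeries.coeff_one] at h0 h1 h2
  simp only [if_true, if_false, one_ne_zero, OfNat.ofNat_ne_zero] at h0 h1 h2
  have e0 : PowerSeries.coeff 0 (pt a)⁻¹ = 1 / a := by
    rw [eq_div_iff ha]; exact h0
  have e1' : PowerSeries.coeff 1 (pt a)⁻¹ * a ^ 2 = -1 := by
    linear_combination a * h1 - h0
  refine ⟨e0, ?_, ?_⟩
  · rw [eq_div_iff (pow_ne_zero 2 ha)]; exact e1'
  · rw [eq_div_iff (pow_ne_zero 3 ha)]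
    linear_combination a ^ 2 * h2 - e1'

lemma N_inv_pt_le {a : ℂ} {c : ℝ} (hc : 0 < c) (ha : c ≤ ‖a‖) :
    N (pt a)⁻¹ ≤ 1 / c + 1 / (2 * c ^ 2) + 1 / (4 * c ^ 3) := by
  have h0 : a ≠ 0 := norm_pos_iff.mp (hc.trans_le ha)
  obtain ⟨e0, e1, e2⟩ := inv_pt_coeffs h0
  unfold N
  rw [e0, e1, e2, norm_div, norm_div, norm_div, norm_neg, norm_one, norm_pow, norm_pow]
  have h1 : 1 / ‖a‖ ≤ 1 / c := one_div_le_one_div_of_le hc ha
  have h2 : 1 / ‖a‖ ^ 2 ≤ 1 / c ^ 2 :=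
    one_div_le_one_div_of_le (by positivity) (pow_le_pow_left₀ hc.le ha 2)
  have h3 : 1 / ‖a‖ ^ 3 ≤ 1 / c ^ 3 :=
    one_div_le_one_div_of_le (by positivity) (pow_le_pow_left₀ hc.le ha 3)
  have e4 : 1 / (2 * c ^ 2) = 1 / c ^ 2 / 2 := by rw [div_div, mul_comm]
  have e5 : 1 / (4 * c ^ 3) = 1 / c ^ 3 / 4 := by rw [div_div, mul_comm]
  rw [e4, e5]
  linarith

lemma T_inv_sub {z s : ℂ} (h : s ≠ z) : T (fun w => (w - z)⁻¹) s = (pt (s - z))⁻¹ := by
  rw [T_inv (analyticAt_sub z s) (sub_ne_zero.mpr h), T_sub_const]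

lemma Good.sub_const (z : ℂ) : Good (fun s => s - z) := by
  have := Good.id.add (Good.const (-z))
  simpa [sub_eq_add_neg] using this

lemma Good.inv_sub {z : ℂ} (hz : Off z) : Good (fun s => (s - z)⁻¹) := by
  obtain ⟨c, hc, h⟩ := exists_dist hz
  refine ⟨fun l => (analyticAt_sub z _).fun_inv (sub_ne_zero.mpr (hz l)),
    1 / c + 1 / (2 * c ^ 2) + 1 / (4 * c ^ 3), 0, fun l => ?_⟩
  rw [T_inv_sub (hz l), pow_zero, mul_one]
  exact N_inv_pt_le hc (h l)

lemma Good.zpow {z : ℂ} (hz : Off z) (k : ℤ) : Good (fun s => (s - z) ^ k) := by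
  rcases Int.eq_nat_or_neg k with ⟨n, rfl | rfl⟩
  · simpa using (Good.sub_const z).pow n
  · have := (Good.inv_sub hz).pow n
    simpa [zpow_neg] using this

/-- `mu ((s-z)^k)` -/
noncomputable def E (K0 : PowerSeries ℂ) (z : ℂ) (k : ℤ) : ℂ := mu K0 (fun s => (s - z) ^ k)

/-- moments -/
noncomputable def mom (K0 : PowerSeries ℂ) (k : ℕ) : ℂ := mu K0 (fun s => s ^ k)

lemma eventually_ne_site {z : ℂ} (hz : Off z) (l : ℕ) : ∀ᶠ s in 𝓝 (site l), s - z ≠ 0 := by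
  have : ContinuousAt (fun s : ℂ => s - z) (site l) := by fun_prop
  exact this.eventually_ne (sub_ne_zero.mpr (hz l))

lemma mu_cubic {z : ℂ} (hz : Off z) (K0 : PowerSeries ℂ) (k : ℤ) :
    mu K0 (fun s => s ^ 3 * (s - z) ^ k) =
      z ^ 3 * E K0 z k + 3 * z ^ 2 * E K0 z (k + 1) + 3 * z * E K0 z (k + 2) + E K0 z (k + 3) := by
  have g0 := Good.zpow hz k
  have g1 := Good.zpow hz (k + 1)
  have g2 := Good.zpow hz (k + 2)
  have g3 := Good.zpow hz (k + 3)
  have e : mu K0 (fun s => s ^ 3 * (s - z) ^ k) =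
      mu K0 (fun s => ((z ^ 3 * (s - z) ^ k + 3 * z ^ 2 * (s - z) ^ (k + 1)) +
        3 * z * (s - z) ^ (k + 2)) + (s - z) ^ (k + 3)) := by
    apply mu_congr
    intro l
    filter_upwards [eventually_ne_site hz l] with s hs
    rw [zpow_add₀ hs, zpow_add₀ hs, zpow_add₀ hs]
    have h1 : (s - z) ^ (1 : ℤ) = s - z := zpow_one _
    have h2 : (s - z) ^ (2 : ℤ) = (s - z) ^ 2 := by norm_cast
    have h3 : (s - z) ^ (3 : ℤ) = (s - z) ^ 3 := by norm_cast
    rw [h1, h2, h3]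
    ring
  rw [e, mu_add (((g0.smul _).add (g1.smul _)).add (g2.smul _)) g3,
    mu_add ((g0.smul _).add (g1.smul _)) (g2.smul _), mu_add (g0.smul _) (g1.smul _),
    mu_smul g0, mu_smul g1, mu_smul g2]
  rfl

lemma mu_cubic' {z : ℂ} (hz : Off z) (K0 : PowerSeries ℂ) (k : ℤ) :
    mu K0 (fun s => (2 * s + 1) ^ 3 * (s - z) ^ k) =
      (2 * z + 1) ^ 3 * E K0 z k + 6 * (2 * z + 1) ^ 2 * E K0 z (k + 1) +
        12 * (2 * z + 1) * E K0 z (k + 2) + 8 * E K0 z (k + 3) := by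
  have g0 := Good.zpow hz k
  have g1 := Good.zpow hz (k + 1)
  have g2 := Good.zpow hz (k + 2)
  have g3 := Good.zpow hz (k + 3)
  have e : mu K0 (fun s => (2 * s + 1) ^ 3 * (s - z) ^ k) =
      mu K0 (fun s => (((2 * z + 1) ^ 3 * (s - z) ^ k + 6 * (2 * z + 1) ^ 2 * (s - z) ^ (k + 1)) +
        12 * (2 * z + 1) * (s - z) ^ (k + 2)) + 8 * (s - z) ^ (k + 3)) := by
    apply mu_congr
    intro l
    filter_upwards [eventually_ne_site hz l] with s hs
    rw [zpow_add₀ hs, zpow_add₀ hs, zpow_add₀ hs]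
    have h1 : (s - z) ^ (1 : ℤ) = s - z := zpow_one _
    have h2 : (s - z) ^ (2 : ℤ) = (s - z) ^ 2 := by norm_cast
    have h3 : (s - z) ^ (3 : ℤ) = (s - z) ^ 3 := by norm_cast
    rw [h1, h2, h3]
    ring
  rw [e, mu_add (((g0.smul _).add (g1.smul _)).add (g2.smul _)) (g3.smul _),
    mu_add ((g0.smul _).add (g1.smul _)) (g2.smul _), mu_add (g0.smul _) (g1.smul _),
    mu_smul g0, mu_smul g1, mu_smul g2, mu_smul g3]
  rfl

lemma E_zero (K0 : PowerSeries ℂ) (z : ℂ) : E K0 z 0 = mom K0 0 := by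
  unfold E mom
  simp

lemma E_one (K0 : PowerSeries ℂ) (z : ℂ) : E K0 z 1 = mom K0 1 - z * mom K0 0 := by
  unfold E mom
  have e : (fun s : ℂ => (s - z) ^ (1 : ℤ)) = fun s => s ^ 1 + (-z) * s ^ 0 := by
    ext s; rw [zpow_one]; ring
  rw [e, mu_add (Good.id.pow 1) ((Good.id.pow 0).smul _), mu_smul (Good.id.pow 0)]
  ring

lemma E_two (K0 : PowerSeries ℂ) (z : ℂ) :
    E K0 z 2 = mom K0 2 - 2 * z * mom K0 1 + z ^ 2 * mom K0 0 := by
  unfold E mom
  have e : (fun s : ℂ => (s - z) ^ (2 : ℤ)) = fun s => s ^ 2 + ((-2 * z) * s ^ 1 + z ^ 2 * s ^ 0) := by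
    ext s
    have h2 : (s - z) ^ (2 : ℤ) = (s - z) ^ 2 := by norm_cast
    rw [h2]; ring
  rw [e, mu_add (Good.id.pow 2) (((Good.id.pow 1).smul _).add ((Good.id.pow 0).smul _)),
    mu_add ((Good.id.pow 1).smul _) ((Good.id.pow 0).smul _), mu_smul (Good.id.pow 1),
    mu_smul (Good.id.pow 0)]
  ring

/-- the key identity for `(s - z)^k`, `z ≠ 1/2` -/
lemma key_E {z : ℂ} (hz : Off z) (hz1 : Off (z - 1)) (K0 : PowerSeries ℂ) (k : ℤ) :
    mu K0 (fun s => s ^ 3 * (s - z) ^ k) + mu K0 (fun s => (2 * s + 1) ^ 3 * (s - (z - 1)) ^ k) = 0 := by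
  have hg : Good (fun s : ℂ => (2 * s + 1) ^ 3) := by
    have : Good (fun s : ℂ => 2 * s + 1) := (Good.id.smul 2).add (Good.const 1)
    exact this.pow 3
  have hd : ∀ l, T (fun s : ℂ => (2 * s + 1) ^ 3) (site l) = (2 * pt (site l) + 1) ^ 3 := by
    intro l
    have hid : AnalyticAt ℂ (fun s : ℂ => s) (site l) := analyticAt_id
    have h0 : AnalyticAt ℂ (fun s : ℂ => 2 * s) (site l) := analyticAt_const.fun_mul hid
    have h1 : AnalyticAt ℂ (fun s : ℂ => 2 * s + 1) (site l) := h0.fun_add analyticAt_const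
    rw [T_pow h1, T_add h0 analyticAt_const, T_mul analyticAt_const hid,
      T_const, T_const, T_id, map_ofNat, map_one]
  have hT : ∀ l, T (fun s : ℂ => (s - (z - 1)) ^ k) (site l) = T (fun s : ℂ => (s - z) ^ k) (site l + 1) := by
    intro l
    have := T_shift (fun s : ℂ => (s - z) ^ k) (site l) 1
    rw [← this]
    congr 1
    ext s
    congr 1
    ring
  have := key (Good.zpow hz k) (hg.mul (Good.zpow hz1 k)) (fun l => ?_) K0
  · rw [this, T_mul (hg.1 0) ((Good.zpow hz1 k).1 0), hd, site_zero]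
    have h2 : (2 * pt (-(1 / 2) : ℂ) + 1) = PowerSeries.C 2 * PowerSeries.X := by
      unfold pt
      have : (2 : PowerSeries ℂ) = PowerSeries.C (2 : ℂ) := (map_ofNat PowerSeries.C 2).symm
      rw [this, mul_add, ← map_mul]
      norm_num
    rw [h2]
    have h3 : PowerSeries.coeff 2 (K0 * ((PowerSeries.C (2 : ℂ) * PowerSeries.X) ^ 3 *
        T (fun s : ℂ => (s - (z - 1)) ^ k) (-(1 / 2)))) = 0 := by
      have e : K0 * ((PowerSeries.C (2 : ℂ) * PowerSeries.X) ^ 3 *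
        T (fun s : ℂ => (s - (z - 1)) ^ k) (-(1 / 2))) =
        (PowerSeries.X : PowerSeries ℂ) ^ 3 * (K0 * PowerSeries.C (2 : ℂ) ^ 3 *
          T (fun s : ℂ => (s - (z - 1)) ^ k) (-(1 / 2))) := by ring
      rw [e, PowerSeries.coeff_X_pow_mul']
      simp
    rw [h3, neg_zero]
  · rw [T_mul (hg.1 _) ((Good.zpow hz1 k).1 _), hd, hT, site_succ]
    have h4 : 2 * pt (site l - 1) + 1 = den (site l) := by
      unfold den
      have : pt (site l) = pt (site l - 1) + 1 := by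
        rw [pt_add_one]; ring_nf
      rw [this]; ring
    rw [h4]
    congr 2
    ring

/-- RECURSION for the `E`-values. -/
theorem E_rec {z : ℂ} (hz : Off z) (hz1 : Off (z - 1)) (K0 : PowerSeries ℂ) (k : ℤ) :
    (z ^ 3 * E K0 z k + 3 * z ^ 2 * E K0 z (k + 1) + 3 * z * E K0 z (k + 2) + E K0 z (k + 3)) +
    ((2 * z - 1) ^ 3 * E K0 (z - 1) k + 6 * (2 * z - 1) ^ 2 * E K0 (z - 1) (k + 1) +
        12 * (2 * z - 1) * E K0 (z - 1) (k + 2) + 8 * E K0 (z - 1) (k + 3)) = 0 := by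
  have h := key_E hz hz1 K0 k
  rw [mu_cubic hz, mu_cubic' hz1] at h
  linear_combination h

/-- the inhomogeneous polynomial -/
noncomputable def qq (K0 : PowerSeries ℂ) (t : ℂ) : ℂ :=
  9 * mom K0 2 + (9 * t + 4) * mom K0 1 + (9 * t ^ 2 - 4 * t + 2) * mom K0 0

theorem phi_rec {z : ℂ} (hz : Off z) (hz1 : Off (z - 1)) (K0 : PowerSeries ℂ) :
    z ^ 3 * E K0 z (-1) + (2 * z - 1) ^ 3 * E K0 (z - 1) (-1) = -qq K0 z := by
  have h := E_rec hz hz1 K0 (-1)
  norm_num at h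
  rw [E_zero, E_one, E_two, E_zero, E_one, E_two] at h
  unfold qq
  linear_combination h

end Crest.Agent.R006.Base724
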