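import Crest.Agent.R006.Base2_724

/-!
Row 6 (helper724): the base formula in discrete form, part 3.

Injectivity of `K0 ↦ (mom 0, mom 1, mom 2)`, existence of the weights, value `-G` at `0`.
-/

set_option autoImplicit false

namespace Crest.Agent.R006.Base724

open Polynomial Filter Topology
open Crest.Agent.R006.NV Crest.Agent.R006.Germ724

lemma norm_mu_le {f : ℂ → ℂ} (hf : Good f) (K0 : PowerSeries ℂ) {B : ℝ}
    (hB : ∀ l, N (T f (site l)) ≤ B) : ‖mu K0 f‖ ≤ 5 * N K0 * B := by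
  have hB0 : 0 ≤ B := (N_nonneg _).trans (hB 0)
  have hK := N_nonneg K0
  have h1 : Summable (fun l : ℕ => 4 * N K0 * B * (1 / 8 : ℝ) ^ l) :=
    (summable_geometric_of_lt_one (by norm_num) (by norm_num)).mul_left _
  unfold mu
  rw [norm_neg]
  have h2 : ∀ l, ‖term K0 f l‖ ≤ 4 * N K0 * B * (1 / 8 : ℝ) ^ l := by
    intro l
    refine (norm_term_le K0 f l).trans ?_
    have : (1 / 8 : ℝ) ^ l * N (T f (site l)) ≤ (1 / 8 : ℝ) ^ l * B :=
      mul_le_mul_of_nonneg_left (hB l) (by positivity)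
    calc 4 * N K0 * ((1 / 8) ^ l * N (T f (site l))) ≤ 4 * N K0 * ((1 / 8 : ℝ) ^ l * B) :=
          mul_le_mul_of_nonneg_left this (by positivity)
      _ = _ := by ring
  refine (tsum_of_norm_bounded h1.hasSum h2).trans ?_
  rw [tsum_mul_left, tsum_geometric_of_lt_one (by norm_num) (by norm_num)]
  have : 0 ≤ N K0 * B := mul_nonneg hK hB0
  norm_num
  nlinarith

lemma E_neg_one (K0 : PowerSeries ℂ) (z : ℂ) : E K0 z (-1) = mu K0 (fun s => (s - z)⁻¹) := by
  unfold E
  simp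

lemma norm_phi_le {z : ℂ} (hz : 1 / 2 ≤ z.re) (K0 : PowerSeries ℂ) :
    ‖E K0 z (-1)‖ ≤ 10 * N K0 * (1 / (z.re + 1 / 2)) := by
  have hoff : Off z := site_ne_of_re (by linarith)
  rw [E_neg_one]
  set c := z.re + 1 / 2 with hc
  have hc1 : 1 ≤ c := by linarith
  have hc0 : 0 < c := by linarith
  have h := norm_mu_le (Good.inv_sub hoff) K0 (B := 2 * (1 / c)) (fun l => ?_)
  · calc ‖mu K0 (fun s => (s - z)⁻¹)‖ ≤ 5 * N K0 * (2 * (1 / c)) := h
      _ = _ := by ring
  · rw [T_inv_sub (hoff l)]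
    refine (N_inv_pt_le hc0 (dist_site_ge l (by linarith))).trans ?_
    have h2 : 1 / (2 * c ^ 2) ≤ 1 / 2 * (1 / c) := by
      rw [one_div_mul_one_div]
      apply one_div_le_one_div_of_le (by positivity)
      nlinarith
    have h3 : 1 / (4 * c ^ 3) ≤ 1 / 4 * (1 / c) := by
      rw [one_div_mul_one_div]
      apply one_div_le_one_div_of_le (by positivity)
      have : c ≤ c ^ 3 := by nlinarith [sq_nonneg (c - 1), mul_nonneg hc0.le (sub_nonneg.mpr hc1)]
      linarith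
    have : 0 ≤ 1 / c := by positivity
    linarith

lemma norm_le_norm_two {w : ℂ} (hw : 1 ≤ w.re) : ‖w‖ ≤ ‖2 * w - 1‖ := by
  have h : ‖w‖ ^ 2 ≤ ‖2 * w - 1‖ ^ 2 := by
    rw [Complex.sq_norm, Complex.sq_norm, Complex.normSq_apply, Complex.normSq_apply]
    simp only [Complex.sub_re, Complex.mul_re, Complex.re_ofNat, Complex.im_ofNat, zero_mul,
      sub_zero, Complex.one_re, Complex.sub_im, Complex.mul_im, add_zero, Complex.one_im]
    nlinarith [sq_nonneg w.im, sq_nonneg (w.re - 1)]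
  exact le_of_sq_le_sq h (norm_nonneg _) |> fun x => x

lemma phi_grow {K0 : PowerSeries ℂ} (hq : ∀ t, qq K0 t = 0) {w : ℂ} (hw : 1 ≤ w.re) :
    ‖E K0 (w - 1) (-1)‖ ≤ ‖E K0 w (-1)‖ := by
  have h1 : Off w := site_ne_of_re (by linarith)
  have h2 : Off (w - 1) := site_ne_of_re (by simp; linarith)
  have h := phi_rec h1 h2 K0
  rw [hq, neg_zero] at h
  have h3 : w ^ 3 * E K0 w (-1) = -((2 * w - 1) ^ 3 * E K0 (w - 1) (-1)) := by
    linear_combination h
  have h4 := congrArg norm h3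
  rw [norm_neg, norm_mul, norm_mul, norm_pow, norm_pow] at h4
  have hw0 : 0 < ‖w‖ := by
    rw [norm_pos_iff]
    intro e
    rw [e] at hw
    simp at hw
    linarith
  have h5 : ‖w‖ ^ 3 ≤ ‖2 * w - 1‖ ^ 3 := pow_le_pow_left₀ hw0.le (norm_le_norm_two hw) 3
  have h6 : ‖w‖ ^ 3 * ‖E K0 (w - 1) (-1)‖ ≤ ‖w‖ ^ 3 * ‖E K0 w (-1)‖ := by
    rw [h4]
    exact mul_le_mul_of_nonneg_right h5 (norm_nonneg _)
  exact le_of_mul_le_mul_left h6 (by positivity)

lemma phi_zero {K0 : PowerSeries ℂ} (hq : ∀ t, qq K0 t = 0) {z : ℂ} (hz : 0 ≤ z.re) :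
    E K0 z (-1) = 0 := by
  have h1 : ∀ n : ℕ, ‖E K0 z (-1)‖ ≤ ‖E K0 (z + n) (-1)‖ := by
    intro n
    induction n with
    | zero => simp
    | succ n ih =>
      refine ih.trans ?_
      have := phi_grow hq (w := z + (n + 1 : ℕ)) (by
        simp
        have : (0 : ℝ) ≤ n := Nat.cast_nonneg n
        linarith)
      have e : z + (n + 1 : ℕ) - 1 = z + n := by push_cast; ring
      rw [e] at this
      exact this
  have h2 : Tendsto (fun n : ℕ => 10 * N K0 * (1 / ((n : ℝ) + 1 / 2))) atTop (𝓝 0) := by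
    have : Tendsto (fun n : ℕ => (n : ℝ) + 1 / 2) atTop atTop :=
      tendsto_atTop_add_const_right _ _ tendsto_natCast_atTop_atTop
    have := (this.const_div_atTop 1).const_mul (10 * N K0)
    simpa using this
  have h3 : ∀ᶠ n : ℕ in atTop, ‖E K0 z (-1)‖ ≤ 10 * N K0 * (1 / ((n : ℝ) + 1 / 2)) := by
    filter_upwards [eventually_ge_atTop 1] with n hn
    refine (h1 n).trans ?_
    have hn1 : (1 : ℝ) ≤ n := by exact_mod_cast hn
    have hre : (z + n).re = z.re + n := by simp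
    refine (norm_phi_le (by rw [hre]; linarith) K0).trans ?_
    rw [hre]
    have hK := N_nonneg K0
    apply mul_le_mul_of_nonneg_left _ (by positivity)
    apply one_div_le_one_div_of_le (by positivity)
    linarith
  have h4 : ‖E K0 z (-1)‖ ≤ 0 := ge_of_tendsto h2 h3
  exact norm_le_zero_iff.mp h4

lemma jet_bound {K0 : PowerSeries ℂ} (hq : ∀ t, qq K0 t = 0) {e : ℝ} (he : 0 < e) :
    ‖PowerSeries.coeff 0 K0 + PowerSeries.coeff 1 K0 * e + PowerSeries.coeff 2 K0 * e ^ 2‖ ≤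
      10 * N K0 * e ^ 3 := by
  have he' : (e : ℂ) ≠ 0 := by exact_mod_cast he.ne'
  set z : ℂ := -(1 / 2) + e with hz
  have hzre : z.re = -(1 / 2) + e := by simp [hz]
  have ho : Off z := site_ne_of_re (by rw [hzre]; linarith)
  have hz1re : (z + 1).re = 1 / 2 + e := by
    rw [Complex.add_re, hzre, Complex.one_re]; ring
  have ho1 : Off (z + 1) := site_ne_of_re (by rw [hz1re]; linarith)
  have h := phi_rec (z := z + 1) ho1 (by simpa using ho) K0
  rw [hq, phi_zero hq (z := z + 1) (by rw [hz1re]; linarith)] at h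
  have e1 : z + 1 - 1 = z := by ring
  have e2 : 2 * (z + 1) - 1 = 2 * (e : ℂ) := by rw [hz]; ring
  rw [e1, e2] at h
  have h0 : E K0 z (-1) = 0 := by
    have : (2 * (e : ℂ)) ^ 3 ≠ 0 := pow_ne_zero _ (mul_ne_zero two_ne_zero he')
    have h' : (2 * (e : ℂ)) ^ 3 * E K0 z (-1) = 0 := by linear_combination h
    exact (mul_eq_zero.mp h').resolve_left this
  rw [E_neg_one] at h0
  have hG := Good.inv_sub ho
  have hs := hG.hasSum K0
  rw [h0, neg_zero] at hs
  have hs1 : HasSum (fun l => term K0 (fun s => (s - z)⁻¹) (l + 1))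
      (0 - term K0 (fun s => (s - z)⁻¹) 0) := by
    have := (hasSum_nat_add_iff' 1).mpr hs
    simpa using this
  have ht0 : term K0 (fun s => (s - z)⁻¹) 0 =
      -(PowerSeries.coeff 0 K0 + PowerSeries.coeff 1 K0 * e + PowerSeries.coeff 2 K0 * e ^ 2) / e ^ 3 := by
    unfold term
    have hne : site 0 ≠ z := ho 0
    have hsz : site 0 - z = -(e : ℂ) := by rw [site_zero, hz]; ring
    rw [T_inv_sub hne, hsz, K_zero, coeff_two_mul]
    obtain ⟨c0, c1, c2⟩ := inv_pt_coeffs (a := -(e : ℂ)) (neg_ne_zero.mpr he')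
    rw [c0, c1, c2]
    field_simp
    ring
  have hb : ∀ l : ℕ, ‖term K0 (fun s => (s - z)⁻¹) (l + 1)‖ ≤ 8 * N K0 * (1 / 8 : ℝ) ^ l := by
    intro l
    refine (norm_term_le K0 _ (l + 1)).trans ?_
    have hd : (1 : ℝ) ≤ ‖site (l + 1) - z‖ := by
      have h1 : |(site (l + 1) - z).re| ≤ ‖site (l + 1) - z‖ := Complex.abs_re_le_norm _
      have h2 : (site (l + 1) - z).re = -(l : ℝ) - 1 - e := by
        rw [Complex.sub_re, re_site, hzre]; push_cast; ring
      have hl : (0 : ℝ) ≤ l := Nat.cast_nonneg l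
      rw [h2, abs_of_nonpos (by linarith)] at h1
      linarith
    have h3 := N_inv_pt_le one_pos hd
    rw [T_inv_sub (ho (l + 1))]
    have h4 : N (pt (site (l + 1) - z))⁻¹ ≤ 2 := by
      refine h3.trans (by norm_num)
    have hK := N_nonneg K0
    calc 4 * N K0 * ((1 / 8) ^ (l + 1) * N (pt (site (l + 1) - z))⁻¹)
        ≤ 4 * N K0 * ((1 / 8) ^ (l + 1) * 2) := by gcongr
      _ = 8 * N K0 * (1 / 8 : ℝ) ^ l * (1 / 8) := by rw [pow_succ]; ring
      _ ≤ 8 * N K0 * (1 / 8 : ℝ) ^ l * 1 := by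
          apply mul_le_mul_of_nonneg_left (by norm_num) (by positivity)
      _ = _ := by ring
  have hsum : Summable (fun l : ℕ => 8 * N K0 * (1 / 8 : ℝ) ^ l) :=
    (summable_geometric_of_lt_one (by norm_num) (by norm_num)).mul_left _
  have hn := tsum_of_norm_bounded hsum.hasSum hb
  rw [hs1.tsum_eq, tsum_mul_left, tsum_geometric_of_lt_one (by norm_num) (by norm_num), ht0,
    zero_sub, norm_neg, norm_div, norm_neg, norm_pow, Complex.norm_real,
    Real.norm_of_nonneg he.le, div_le_iff₀ (by positivity)] at hn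
  refine hn.trans ?_
  have hK := N_nonneg K0
  apply mul_le_mul_of_nonneg_right _ (by positivity)
  norm_num
  linarith

lemma eq_zero_of_small {a : ℂ} {M : ℝ} (h : ∀ e : ℝ, 0 < e → e ≤ 1 → ‖a‖ ≤ M * e) : a = 0 := by
  have h1 : Tendsto (fun n : ℕ => M * (1 / ((n : ℝ) + 1))) atTop (𝓝 0) := by
    have := (tendsto_one_div_add_atTop_nhds_zero_nat (𝕜 := ℝ)).const_mul M
    simpa using this
  have h2 : ‖a‖ ≤ 0 := by
    refine ge_of_tendsto h1 (Eventually.of_forall fun n => ?_)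
    have : (0 : ℝ) ≤ n := Nat.cast_nonneg n
    exact h _ (by positivity) ((div_le_one (by positivity)).mpr (by linarith))
  exact norm_le_zero_iff.mp h2

theorem inj {K0 : PowerSeries ℂ} (hq : ∀ t, qq K0 t = 0) :
    PowerSeries.coeff 0 K0 = 0 ∧ PowerSeries.coeff 1 K0 = 0 ∧ PowerSeries.coeff 2 K0 = 0 := by
  have hK := N_nonneg K0
  have key : ∀ e : ℝ, 0 < e → e ≤ 1 →
      ‖PowerSeries.coeff 0 K0 + PowerSeries.coeff 1 K0 * e + PowerSeries.coeff 2 K0 * e ^ 2‖ ≤
      10 * N K0 * e ^ 3 := fun e he _ => jet_bound hq he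
  set c0 := PowerSeries.coeff 0 K0
  set c1 := PowerSeries.coeff 1 K0
  set c2 := PowerSeries.coeff 2 K0
  have hc0 : c0 = 0 := by
    apply eq_zero_of_small (M := 10 * N K0 + ‖c1‖ + ‖c2‖)
    intro e he he1
    have h := key e he he1
    have e0 : c0 = (c0 + c1 * e + c2 * e ^ 2) + (-(c1 * e)) + (-(c2 * e ^ 2)) := by ring
    have h2 : ‖c0‖ ≤ ‖c0 + c1 * e + c2 * e ^ 2‖ + ‖c1‖ * e + ‖c2‖ * e ^ 2 := by
      conv_lhs => rw [e0]
      refine (norm_add₃_le).trans ?_
      rw [norm_neg, norm_neg, norm_mul, norm_mul, norm_pow, Complex.norm_real,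
        Real.norm_of_nonneg he.le]
    have h3 : e ^ 3 ≤ e := by nlinarith [pow_pos he 2, mul_pos he he]
    have h4 : e ^ 2 ≤ e := by nlinarith
    have h5 := norm_nonneg c2
    nlinarith
  have hc1 : c1 = 0 := by
    apply eq_zero_of_small (M := 10 * N K0 + ‖c2‖)
    intro e he he1
    have h := key e he he1
    rw [hc0, zero_add] at h
    have e0 : c1 * e = (c1 * e + c2 * e ^ 2) + (-(c2 * e ^ 2)) := by ring
    have h2 : ‖c1‖ * e ≤ ‖c1 * e + c2 * e ^ 2‖ + ‖c2‖ * e ^ 2 := by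
      have : ‖c1 * e‖ = ‖c1‖ * e := by
        rw [norm_mul, Complex.norm_real, Real.norm_of_nonneg he.le]
      rw [← this]
      conv_lhs => rw [e0]
      refine (norm_add_le _ _).trans ?_
      rw [norm_neg, norm_mul, norm_pow, Complex.norm_real, Real.norm_of_nonneg he.le]
    have h3 : ‖c1‖ * e ≤ (10 * N K0 + ‖c2‖) * e * e := by
      have h4 : e ^ 3 ≤ e ^ 2 := by nlinarith [mul_pos he he]
      nlinarith
    exact le_of_mul_le_mul_right h3 he
  refine ⟨hc0, hc1, ?_⟩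
  apply eq_zero_of_small (M := 10 * N K0)
  intro e he he1
  have h := key e he he1
  rw [hc0, hc1, zero_mul, zero_add, zero_add, norm_mul, norm_pow, Complex.norm_real,
    Real.norm_of_nonneg he.le] at h
  have h2 : ‖c2‖ * e ^ 2 ≤ (10 * N K0 * e) * e ^ 2 := by
    calc ‖c2‖ * e ^ 2 ≤ 10 * N K0 * e ^ 3 := h
      _ = _ := by ring
  exact le_of_mul_le_mul_right h2 (by positivity)

end Crest.Agent.R006.Base724
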