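import Crest.Agent.R006.Base3_724

/-!
Row 6 (helper724): the base formula in discrete form, part 4.

Existence of the weights, and `mu (1/s) = -G`.
-/

set_option autoImplicit false

namespace Crest.Agent.R006.Base724

open Polynomial Filter Topology
open Crest.Agent.R006.NV Crest.Agent.R006.Germ724

/-- weight polynomial -/
noncomputable def K0v (v : Fin 3 → ℂ) : PowerSeries ℂ :=
  PowerSeries.C (v 0) * 1 + PowerSeries.C (v 1) * PowerSeries.X +
    PowerSeries.C (v 2) * PowerSeries.X ^ 2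

lemma K0v_coeffs (v : Fin 3 → ℂ) : PowerSeries.coeff 0 (K0v v) = v 0 ∧
    PowerSeries.coeff 1 (K0v v) = v 1 ∧ PowerSeries.coeff 2 (K0v v) = v 2 := by
  unfold K0v
  refine ⟨?_, ?_, ?_⟩
  · rw [map_add, map_add, PowerSeries.coeff_C_mul, PowerSeries.coeff_C_mul,
      PowerSeries.coeff_C_mul, PowerSeries.coeff_X, PowerSeries.coeff_X_pow, PowerSeries.coeff_one]
    norm_num
  · rw [map_add, map_add, PowerSeries.coeff_C_mul, PowerSeries.coeff_C_mul,
      PowerSeries.coeff_C_mul, PowerSeries.coeff_X, PowerSeries.coeff_X_pow, PowerSeries.coeff_one]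
    norm_num
  · rw [map_add, map_add, PowerSeries.coeff_C_mul, PowerSeries.coeff_C_mul,
      PowerSeries.coeff_C_mul, PowerSeries.coeff_X, PowerSeries.coeff_X_pow, PowerSeries.coeff_one]
    norm_num

lemma mu_K0v {f : ℂ → ℂ} (hf : Good f) (v : Fin 3 → ℂ) :
    mu (K0v v) f = v 0 * mu 1 f + v 1 * mu PowerSeries.X f + v 2 * mu (PowerSeries.X ^ 2) f := by
  unfold K0v
  rw [mu_add_K hf, mu_add_K hf, mu_C_mul_K hf, mu_C_mul_K hf, mu_C_mul_K hf]

/-- moment matrix -/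
noncomputable def Amat : Matrix (Fin 3) (Fin 3) ℂ := fun k i => mom (PowerSeries.X ^ (i : ℕ)) k

lemma Amat_mulVec (v : Fin 3 → ℂ) (k : Fin 3) : Amat.mulVec v k = mom (K0v v) k := by
  unfold Amat mom
  rw [mu_K0v (Good.id.pow _)]
  simp [Matrix.mulVec, dotProduct, Fin.sum_univ_three]
  ring

lemma Amat_inj : Function.Injective Amat.mulVecLin := by
  rw [← LinearMap.ker_eq_bot, LinearMap.ker_eq_bot']
  intro v hv
  rw [Matrix.mulVecLin_apply] at hv
  have h : ∀ k : Fin 3, mom (K0v v) k = 0 := fun k => by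
    rw [← Amat_mulVec, hv]; rfl
  have h0 : mom (K0v v) 0 = 0 := h 0
  have h1 : mom (K0v v) 1 = 0 := h 1
  have h2 : mom (K0v v) 2 = 0 := h 2
  have hq : ∀ t, qq (K0v v) t = 0 := fun t => by
    unfold qq; rw [h0, h1, h2]; ring
  obtain ⟨a, b, c⟩ := inj hq
  obtain ⟨a', b', c'⟩ := K0v_coeffs v
  ext i
  fin_cases i
  · exact a'.symm.trans a
  · exact b'.symm.trans b
  · exact c'.symm.trans c

theorem exists_weights : ∃ v : Fin 3 → ℂ, mom (K0v v) 0 = 0 ∧ mom (K0v v) 1 = 1 / 6 ∧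
    mom (K0v v) 2 = -(7 / 54) := by
  have hs : Function.Surjective Amat.mulVecLin :=
    LinearMap.injective_iff_surjective.mp Amat_inj
  obtain ⟨v, hv⟩ := hs ![0, 1 / 6, -(7 / 54)]
  rw [Matrix.mulVecLin_apply] at hv
  refine ⟨v, ?_, ?_, ?_⟩
  · have := Amat_mulVec v 0
    rw [hv] at this
    simpa using this.symm
  · have := Amat_mulVec v 1
    rw [hv] at this
    simpa using this.symm
  · have := Amat_mulVec v 2
    rw [hv] at this
    simpa using this.symm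

/-- admissible weights: the three moments are right -/
structure Adm (K0 : PowerSeries ℂ) : Prop where
  m0 : mom K0 0 = 0
  m1 : mom K0 1 = 1 / 6
  m2 : mom K0 2 = -(7 / 54)

theorem exists_adm : ∃ K0 : PowerSeries ℂ, Adm K0 := by
  obtain ⟨v, h0, h1, h2⟩ := exists_weights
  exact ⟨K0v v, h0, h1, h2⟩

lemma Adm.qq {K0 : PowerSeries ℂ} (h : Adm K0) (t : ℂ) : Base724.qq K0 t = (3 * t - 1) / 2 := by
  unfold Base724.qq
  rw [h.m0, h.m1, h.m2]; ring

theorem Adm.phi_rec {K0 : PowerSeries ℂ} (h : Adm K0) {z : ℂ} (hz : Off z) (hz1 : Off (z - 1)) :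
    z ^ 3 * E K0 z (-1) + (2 * z - 1) ^ 3 * E K0 (z - 1) (-1) = -((3 * z - 1) / 2) := by
  rw [Base724.phi_rec hz hz1, h.qq]

lemma off_nat (n : ℕ) : Off (n : ℂ) := by
  apply site_ne_of_re
  have : (0 : ℝ) ≤ n := Nat.cast_nonneg n
  simp
  linarith

open Psi724 in
lemma Adm.phi_nat {K0 : PowerSeries ℂ} (h : Adm K0) (n : ℕ) :
    E K0 (n : ℂ) (-1) * ((2 * n + 1) ^ 3 * (u n : ℂ)) = E K0 0 (-1) + (S n : ℂ) := by
  induction n with
  | zero => simp [u, S]
  | succ n ih =>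
    have h1 := h.phi_rec (z := ((n + 1 : ℕ) : ℂ)) (off_nat _) (by
      have : ((n + 1 : ℕ) : ℂ) - 1 = (n : ℂ) := by push_cast; ring
      rw [this]; exact off_nat n)
    have e1 : ((n + 1 : ℕ) : ℂ) - 1 = (n : ℂ) := by push_cast; ring
    rw [e1] at h1
    have hu : u (n + 1) = -(((n : ℝ) + 1) / (2 * n + 3)) ^ 3 * u n := rfl
    rw [S_succ, hu]
    push_cast at h1 ⊢
    have h3 : (2 * (n : ℂ) + 3) ≠ 0 := by
      have : (2 * (n : ℂ) + 3) = ((2 * n + 3 : ℕ) : ℂ) := by push_cast; ring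
      rw [this]
      exact_mod_cast (by omega : 2 * n + 3 ≠ 0)
    have e3 : (2 * ((n : ℂ) + 1) + 1) ^ 3 * (-(((n : ℂ) + 1) / (2 * n + 3)) ^ 3 * (u n : ℂ)) =
        -((n : ℂ) + 1) ^ 3 * u n := by
      have : (2 * ((n : ℂ) + 1) + 1) = 2 * n + 3 := by ring
      rw [this]
      field_simp
    rw [e3]
    linear_combination (-(u n : ℂ)) * h1 + ih

open Psi724 in
theorem Adm.phi_zero {K0 : PowerSeries ℂ} (h : Adm K0) : E K0 0 (-1) = -(G : ℂ) := by
  have h1 : Tendsto (fun n : ℕ => E K0 0 (-1) + (S n : ℂ)) atTop (𝓝 (E K0 0 (-1) + (G : ℂ))) := by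
    have := hasSum_G.tendsto_sum_nat
    have h2 : Tendsto (fun n : ℕ => ((S n : ℝ) : ℂ)) atTop (𝓝 ((G : ℝ) : ℂ)) :=
      (Complex.continuous_ofReal.tendsto G).comp this
    exact h2.const_add _
  have h2 : Tendsto (fun n : ℕ => E K0 0 (-1) + (S n : ℂ)) atTop (𝓝 0) := by
    have hb : Tendsto (fun n : ℕ => (10 * N K0) * (8 * (((n : ℝ) + 1) ^ 3 * (1 / 8) ^ n))) atTop (𝓝 0) := by
      have := (summable_geo 3).tendsto_atTop_zero
      have h3 := (this.const_mul 8).const_mul (10 * N K0)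
      simp only [mul_zero] at h3
      refine h3.congr fun n => ?_
      ring
    refine squeeze_zero_norm' ?_ hb
    filter_upwards [eventually_ge_atTop 1] with n hn
    rw [← h.phi_nat n, norm_mul, norm_mul]
    have hn1 : (1 : ℝ) ≤ n := by exact_mod_cast hn
    have hK := N_nonneg K0
    have e1 : ‖E K0 (n : ℂ) (-1)‖ ≤ 10 * N K0 := by
      have hre : (n : ℂ).re = n := by simp
      refine (norm_phi_le (by rw [hre]; linarith) K0).trans ?_
      rw [hre]
      have : 1 / ((n : ℝ) + 1 / 2) ≤ 1 := by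
        rw [div_le_one (by positivity)]; linarith
      nlinarith
    have e2 : ‖(2 * (n : ℂ) + 1) ^ 3‖ ≤ 8 * ((n : ℝ) + 1) ^ 3 := by
      have : (2 * (n : ℂ) + 1) = ((2 * n + 1 : ℝ) : ℂ) := by push_cast; ring
      rw [norm_pow, this, Complex.norm_real, Real.norm_of_nonneg (by positivity)]
      calc (2 * (n : ℝ) + 1) ^ 3 ≤ (2 * ((n : ℝ) + 1)) ^ 3 :=
            pow_le_pow_left₀ (by positivity) (by linarith) 3
        _ = _ := by ring
    have e3 : ‖(u n : ℂ)‖ ≤ (1 / 8) ^ n := by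
      rw [Complex.norm_real, Real.norm_eq_abs]; exact abs_u_le n
    calc ‖E K0 (n : ℂ) (-1)‖ * (‖(2 * (n : ℂ) + 1) ^ 3‖ * ‖(u n : ℂ)‖)
        ≤ (10 * N K0) * ((8 * ((n : ℝ) + 1) ^ 3) * (1 / 8) ^ n) := by
          apply mul_le_mul e1 _ (by positivity) (by positivity)
          exact mul_le_mul e2 e3 (norm_nonneg _) (by positivity)
      _ = _ := by ring
  have h3 := tendsto_nhds_unique h1 h2
  linear_combination h3

/-- the value at `n ≥ 0`: `(S n - G)/((2n+1)^3 u n)` -/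
theorem Adm.phi_nat' {K0 : PowerSeries ℂ} (h : Adm K0) (n : ℕ) :
    E K0 (n : ℂ) (-1) * ((2 * n + 1) ^ 3 * (Psi724.u n : ℂ)) = (Psi724.S n : ℂ) - Psi724.G := by
  rw [h.phi_nat, h.phi_zero]; ring

/-! ### germs -/

/-- the power series `∑_j mu((s-z)^(-1-j)) ε^j` -/
noncomputable def MZ (K0 : PowerSeries ℂ) (z : ℂ) : PowerSeries ℂ :=
  PowerSeries.mk fun j => E K0 z (-1 - j)

lemma MZ_coeff (K0 : PowerSeries ℂ) (z : ℂ) (j : ℕ) :
    PowerSeries.coeff j (MZ K0 z) = E K0 z (-1 - j) := by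
  simp [MZ]

lemma X3_dvd_iff (a : PowerSeries ℂ) : (PowerSeries.X : PowerSeries ℂ) ^ 3 ∣ a ↔
    PowerSeries.coeff 0 a = 0 ∧ PowerSeries.coeff 1 a = 0 ∧ PowerSeries.coeff 2 a = 0 := by
  rw [PowerSeries.X_pow_dvd_iff]
  constructor
  · intro h
    exact ⟨h 0 (by norm_num), h 1 (by norm_num), h 2 (by norm_num)⟩
  · rintro ⟨h0, h1, h2⟩ m hm
    interval_cases m
    · exact h0
    · exact h1
    · exact h2

lemma cube_coeffs (a b : ℂ) :
    PowerSeries.coeff 0 ((PowerSeries.C b * PowerSeries.X + PowerSeries.C a) ^ 3) = a ^ 3 ∧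
    PowerSeries.coeff 1 ((PowerSeries.C b * PowerSeries.X + PowerSeries.C a) ^ 3) = 3 * b * a ^ 2 ∧
    PowerSeries.coeff 2 ((PowerSeries.C b * PowerSeries.X + PowerSeries.C a) ^ 3) = 3 * b ^ 2 * a := by
  set L : PowerSeries ℂ := PowerSeries.C b * PowerSeries.X + PowerSeries.C a
  have l0 : PowerSeries.coeff 0 L = a := by
    simp [L]
  have l1 : PowerSeries.coeff 1 L = b := by
    simp [L, PowerSeries.coeff_C]
  have l2 : PowerSeries.coeff 2 L = 0 := by
    simp [L, PowerSeries.coeff_C, PowerSeries.coeff_X]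
  have e : L ^ 3 = L * (L * L) := by ring
  have m0 : PowerSeries.coeff 0 (L * L) = a ^ 2 := by rw [coeff_zero_mul, l0]; ring
  have m1 : PowerSeries.coeff 1 (L * L) = 2 * a * b := by rw [coeff_one_mul, l0, l1]; ring
  have m2 : PowerSeries.coeff 2 (L * L) = b ^ 2 := by rw [coeff_two_mul, l0, l1, l2]; ring
  rw [e]
  refine ⟨?_, ?_, ?_⟩
  · rw [coeff_zero_mul, l0, m0]; ring
  · rw [coeff_one_mul, l0, l1, m0, m1]; ring
  · rw [coeff_two_mul, l0, l1, l2, m0, m1, m2]; ring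

lemma pt_eq (z : ℂ) : pt z = PowerSeries.C 1 * PowerSeries.X + PowerSeries.C z := by
  unfold pt; simp

lemma den_eq (z : ℂ) : den z = PowerSeries.C 2 * PowerSeries.X + PowerSeries.C (2 * z - 1) := by
  unfold den pt
  have : (2 : PowerSeries ℂ) = PowerSeries.C (2 : ℂ) := (map_ofNat PowerSeries.C 2).symm
  rw [this, map_sub, map_mul, map_one]; ring

/-- right side of the recursion as a germ at `z` -/
noncomputable def rhs (z : ℂ) : PowerSeries ℂ := -(PowerSeries.C (1 / 2) * (3 * pt z - 1))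

lemma rhs_coeffs (z : ℂ) : PowerSeries.coeff 0 (rhs z) = -((3 * z - 1) / 2) ∧
    PowerSeries.coeff 1 (rhs z) = -(3 / 2) ∧ PowerSeries.coeff 2 (rhs z) = 0 := by
  have e : rhs z = PowerSeries.C (-(3 / 2)) * PowerSeries.X + PowerSeries.C (-((3 * z - 1) / 2)) := by
    unfold rhs pt
    have h3 : (3 : PowerSeries ℂ) = PowerSeries.C (3 : ℂ) := (map_ofNat PowerSeries.C 3).symm
    have h1 : (1 : PowerSeries ℂ) = PowerSeries.C (1 : ℂ) := (map_one _).symm
    rw [h3, h1, mul_add, ← map_mul]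
    have e2 : PowerSeries.C (-((3 * z - 1) / 2) : ℂ) =
        -(PowerSeries.C (1 / 2) * (PowerSeries.C (3 * z) - PowerSeries.C 1)) := by
      rw [← map_sub, ← map_mul, ← map_neg]; congr 1; ring
    have e3 : PowerSeries.C (-(3 / 2) : ℂ) = -(PowerSeries.C (1 / 2) * PowerSeries.C 3) := by
      rw [← map_mul, ← map_neg]; congr 1; ring
    rw [e2, e3]; ring
  rw [e]
  refine ⟨?_, ?_, ?_⟩ <;> simp [PowerSeries.coeff_C, PowerSeries.coeff_X]

/-- the germ recursion mod `X^3`, away from `z = 1/2` -/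
theorem Adm.MZ_step {K0 : PowerSeries ℂ} (h : Adm K0) {z : ℂ} (hz : Off z) (hz1 : Off (z - 1)) :
    (PowerSeries.X : PowerSeries ℂ) ^ 3 ∣
      pt z ^ 3 * MZ K0 z + den z ^ 3 * MZ K0 (z - 1) - rhs z := by
  rw [X3_dvd_iff]
  obtain ⟨r0, r1, r2⟩ := rhs_coeffs z
  obtain ⟨p0, p1, p2⟩ := cube_coeffs z 1
  obtain ⟨d0, d1, d2⟩ := cube_coeffs (2 * z - 1) 2
  rw [← pt_eq] at p0 p1 p2
  rw [← den_eq] at d0 d1 d2
  have k1 := E_rec hz hz1 K0 (-1)
  have k2 := E_rec hz hz1 K0 (-2)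
  have k3 := E_rec hz hz1 K0 (-3)
  norm_num at k1 k2 k3
  simp only [E_zero, E_one, E_two, h.m0, h.m1, h.m2] at k1 k2 k3
  refine ⟨?_, ?_, ?_⟩
  · rw [map_sub, map_add, coeff_zero_mul, coeff_zero_mul, p0, d0, r0, MZ_coeff, MZ_coeff]
    norm_num
    linear_combination k1
  · rw [map_sub, map_add, coeff_one_mul, coeff_one_mul, p0, d0, p1, d1, r1, MZ_coeff, MZ_coeff,
      MZ_coeff, MZ_coeff]
    norm_num
    linear_combination k2
  · rw [map_sub, map_add, coeff_two_mul, coeff_two_mul, p0, d0, p1, d1, p2, d2, r2, MZ_coeff,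
      MZ_coeff, MZ_coeff, MZ_coeff, MZ_coeff, MZ_coeff]
    norm_num
    linear_combination k3

end Crest.Agent.R006.Base724
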