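import Mathlib

/-!
Row 6 (Catalan's constant).  Base file P1 (helper724).

* `G` : Catalan's constant, written exactly as in the statement S0006.
* `u n = (-8)^n / ((2n+1)^3 C(2n,n)^3)` (recursive definition, `u_eq`).
* `S n = ∑_{i<n} (1/2)(3i+2) u_i`  (= `-(1/2) ∑_{k=1}^n (3k-1)(-8)^k/(k^3 C(2k,k)^3)`, `S_eq`).
* `hasSum_G : HasSum (fun i => (1/2)(3i+2) u_i) G`  (WZ pair, two steps at once).
* `tail_G : G - S (2m) = u (2m) * W m`.
-/

set_option autoImplicit false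

namespace Crest.Agent.R006.Psi724

open Finset Filter Topology

/-- Catalan's constant, in the form of S0006. -/
noncomputable def G : ℝ := ∑' j : ℕ, (-1 : ℝ) ^ j / ((2 * j + 1 : ℝ) ^ 2)

/-- ratio of Pochhammer symbols `(m+1/2)_k / (2m+3/2)_k`. -/
noncomputable def q (m : ℕ) : ℕ → ℝ
  | 0 => 1
  | k + 1 => q m k * ((k + m + 1 / 2) / (k + 2 * m + 3 / 2))

noncomputable def F (m k : ℕ) : ℝ := (-1) ^ k * (1 + 3 * m + 2 * k) * q m k ^ 3

noncomputable def B (m : ℕ) : ℝ := ((2 * m + 1) * (2 * m + 2) / ((4 * m + 3) * (4 * m + 5))) ^ 3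

lemma q_pos (m k : ℕ) : 0 < q m k := by
  induction k with
  | zero => simp [q]
  | succ k ih => unfold q; positivity

lemma q_le (m k : ℕ) : q m k ≤ 3 / (2 * k + 1) := by
  induction k with
  | zero => simp [q]
  | succ k ih =>
    rcases Nat.eq_zero_or_pos k with hk | hk
    · subst hk
      simp only [q, Nat.cast_zero, zero_add, one_mul, Nat.cast_one]
      rw [div_le_div_iff₀ (by positivity) (by positivity)]
      have : (0 : ℝ) ≤ m := Nat.cast_nonneg m
      nlinarith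
    · have hk1 : (1 : ℝ) ≤ k := by exact_mod_cast hk
      have hm : (0 : ℝ) ≤ m := Nat.cast_nonneg m
      have h1 : ((k : ℝ) + m + 1 / 2) / (k + 2 * m + 3 / 2) ≤ (2 * k + 1) / (2 * k + 3) := by
        rw [div_le_div_iff₀ (by positivity) (by positivity)]
        nlinarith [mul_nonneg hm (by linarith : (0 : ℝ) ≤ k)]
      have h2 : q m (k + 1) = q m k * (((k : ℝ) + m + 1 / 2) / (k + 2 * m + 3 / 2)) := rfl
      rw [h2]
      calc q m k * (((k : ℝ) + m + 1 / 2) / (k + 2 * m + 3 / 2))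
          ≤ (3 / (2 * k + 1)) * ((2 * k + 1) / (2 * k + 3)) := by
            apply mul_le_mul ih h1 (by positivity) (by positivity)
        _ = 3 / (2 * ((k + 1 : ℕ) : ℝ) + 1) := by
            push_cast
            field_simp
            ring

lemma q_succ_left (m k : ℕ) :
    q (m + 1) k = q m k * (((k + m + 1 / 2) / (m + 1 / 2)) *
      ((2 * m + 3 / 2) * (2 * m + 5 / 2) / ((k + 2 * m + 3 / 2) * (k + 2 * m + 5 / 2)))) := by
  induction k with
  | zero =>
    simp only [q, Nat.cast_zero, zero_add]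
    have h1 : ((m : ℝ) + 1 / 2) ≠ 0 := by positivity
    have h2 : (2 * (m : ℝ) + 3 / 2) ≠ 0 := by positivity
    have h3 : (2 * (m : ℝ) + 5 / 2) ≠ 0 := by positivity
    field_simp
  | succ k ih =>
    simp only [q]
    rw [ih]
    push_cast
    have h1 : ((m : ℝ) + 1 / 2) ≠ 0 := by positivity
    have h2 : ((k : ℝ) + 2 * m + 3 / 2) ≠ 0 := by positivity
    have h3 : ((k : ℝ) + 2 * m + 5 / 2) ≠ 0 := by positivity
    have h4 : ((k : ℝ) + 2 * m + 7 / 2) ≠ 0 := by positivity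
    have h5 : ((k : ℝ) + 2 * (m + 1) + 3 / 2) ≠ 0 := by positivity
    have h6 : ((k : ℝ) + 1 + 2 * m + 3 / 2) ≠ 0 := by positivity
    have h7 : ((k : ℝ) + 1 + 2 * m + 5 / 2) ≠ 0 := by positivity
    field_simp
    ring

/-- certificate -/
noncomputable def Gc (m k : ℕ) : ℝ :=
  (-1) ^ k * q m k ^ 3 *
    (-(((k : ℝ) + m + 1 / 2) ^ 4 + (5 * (m + 1) - 1) * ((k : ℝ) + m + 1 / 2) ^ 3
      + 3 * (m + 1) * (3 * (m + 1) - 1) * ((k : ℝ) + m + 1 / 2) ^ 2
      + (m + 1) ^ 2 * (5 * (m + 1) - 3) * ((k : ℝ) + m + 1 / 2)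
      + m * (m + 1) ^ 3) / ((k : ℝ) + 2 * m + 3 / 2) ^ 3)

lemma wz (m k : ℕ) : F m k - B m * F (m + 1) k = Gc m (k + 1) - Gc m k := by
  unfold F B Gc
  rw [q_succ_left]
  simp only [q]
  push_cast
  have h1 : ((m : ℝ) + 1 / 2) ≠ 0 := by positivity
  have h2 : ((k : ℝ) + 2 * m + 3 / 2) ≠ 0 := by positivity
  have h3 : ((k : ℝ) + 2 * m + 5 / 2) ≠ 0 := by positivity
  have h4 : (4 * (m : ℝ) + 3) ≠ 0 := by positivity
  have h5 : (4 * (m : ℝ) + 5) ≠ 0 := by positivity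
  have h6 : ((k : ℝ) + 1 + 2 * m + 3 / 2) ≠ 0 := by positivity
  have h7 : (2 * (m : ℝ) + 3 / 2) ≠ 0 := by positivity
  have h8 : (2 * (m : ℝ) + 5 / 2) ≠ 0 := by positivity
  have e6 : ((k : ℝ) + 1 + 2 * m + 3 / 2) = k + 2 * m + 5 / 2 := by ring
  rw [e6, pow_succ (-1 : ℝ) k]
  -- common factor
  have key : (((2 * (m : ℝ) + 1) * (2 * m + 2) / ((4 * m + 3) * (4 * m + 5))) *
      ((((k : ℝ) + m + 1 / 2) / (m + 1 / 2)) *
      ((2 * m + 3 / 2) * (2 * m + 5 / 2) / ((k + 2 * m + 3 / 2) * (k + 2 * m + 5 / 2)))))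
      = (m + 1) * (k + m + 1 / 2) / ((k + 2 * m + 3 / 2) * (k + 2 * m + 5 / 2)) := by
    field_simp
    ring
  have e1 : (((2 * (m : ℝ) + 1) * (2 * m + 2) / ((4 * m + 3) * (4 * m + 5))) ^ 3 *
      ((-1) ^ k * (1 + 3 * (m + 1) + 2 * k) *
      (q m k * ((((k : ℝ) + m + 1 / 2) / (m + 1 / 2)) *
      ((2 * m + 3 / 2) * (2 * m + 5 / 2) / ((k + 2 * m + 3 / 2) * (k + 2 * m + 5 / 2))))) ^ 3))
      = (-1) ^ k * (1 + 3 * (m + 1) + 2 * k) * q m k ^ 3 *
        ((m + 1) * (k + m + 1 / 2) / ((k + 2 * m + 3 / 2) * (k + 2 * m + 5 / 2))) ^ 3 := by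
    rw [← key]; ring
  rw [e1]
  generalize ((-1 : ℝ) ^ k) = e
  generalize (q m k) = Q
  have : ∀ (A B C : ℝ), e * A * Q ^ 3 - e * B * Q ^ 3 * C = e * Q ^ 3 * (A - B * C) := by
    intros; ring
  rw [this]
  have h2' : e * -1 * (Q * (((k : ℝ) + m + 1 / 2) / (k + 2 * m + 3 / 2))) ^ 3
      = e * Q ^ 3 * (-(((k : ℝ) + m + 1 / 2) / (k + 2 * m + 3 / 2)) ^ 3) := by ring
  rw [h2']
  rw [mul_assoc (e * Q ^ 3), ← mul_sub]
  congr 1
  field_simp
  ring


lemma abs_F_le (m k : ℕ) : |F m k| ≤ 27 * (1 + 3 * (m : ℝ)) / (2 * (k : ℝ) + 1) ^ 2 := by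
  have hq := q_le m k
  have hq0 := (q_pos m k).le
  have hm : (0 : ℝ) ≤ m := Nat.cast_nonneg m
  have hk : (0 : ℝ) ≤ k := Nat.cast_nonneg k
  have h1 : |F m k| = (1 + 3 * m + 2 * k) * q m k ^ 3 := by
    unfold F
    rw [abs_mul, abs_mul, abs_pow, abs_neg, abs_one, one_pow, one_mul, abs_of_nonneg (by positivity),
      abs_of_nonneg (by positivity)]
  rw [h1]
  have h2 : q m k ^ 3 ≤ (3 / (2 * k + 1)) ^ 3 := pow_le_pow_left₀ hq0 hq 3
  calc (1 + 3 * (m : ℝ) + 2 * k) * q m k ^ 3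
      ≤ ((1 + 3 * (m : ℝ)) * (2 * k + 1)) * (3 / (2 * (k : ℝ) + 1)) ^ 3 := by
        apply mul_le_mul _ h2 (by positivity) (by positivity)
        nlinarith [mul_nonneg hm hk]
    _ = 27 * (1 + 3 * (m : ℝ)) / (2 * (k : ℝ) + 1) ^ 2 := by
        have : (2 * (k : ℝ) + 1) ≠ 0 := by positivity
        field_simp
        ring

lemma summable_sq : Summable (fun k : ℕ => 1 / ((2 * (k : ℝ) + 1) ^ 2)) := by
  have h := (Real.summable_one_div_nat_add_rpow 1 2).mpr (by norm_num)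
  refine Summable.of_nonneg_of_le (fun k => by positivity) (fun k => ?_) h
  have hk : (0 : ℝ) ≤ k := Nat.cast_nonneg k
  rw [abs_of_nonneg (by positivity)]
  rw [show ((k : ℝ) + 1) ^ (2 : ℝ) = ((k : ℝ) + 1) ^ 2 by norm_cast]
  apply one_div_le_one_div_of_le (by positivity)
  nlinarith

lemma summable_F (m : ℕ) : Summable (F m) := by
  apply Summable.of_norm_bounded (g := fun k : ℕ => 27 * (1 + 3 * m) * (1 / (2 * (k : ℝ) + 1) ^ 2))
  · exact summable_sq.mul_left _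
  · intro k
    rw [Real.norm_eq_abs]
    refine (abs_F_le m k).trans (le_of_eq ?_)
    ring

noncomputable def W (m : ℕ) : ℝ := ∑' k, F m k

lemma W_zero : W 0 = G := by
  unfold W G
  congr 1
  funext k
  have hq : ∀ k : ℕ, q 0 k = 1 / (2 * k + 1) := by
    intro k
    induction k with
    | zero => simp [q]
    | succ k ih =>
      simp only [q]; rw [ih]; push_cast; field_simp; ring
  unfold F
  rw [hq]
  push_cast
  field_simp
  ring

noncomputable def Csq : ℝ := ∑' k : ℕ, 1 / ((2 * (k : ℝ) + 1) ^ 2)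

lemma abs_W_le (m : ℕ) : |W m| ≤ 27 * (1 + 3 * m) * Csq := by
  unfold W
  have h := (summable_F m).norm
  calc |∑' k, F m k| = ‖∑' k, F m k‖ := rfl
    _ ≤ ∑' k, ‖F m k‖ := norm_tsum_le_tsum_norm h
    _ ≤ ∑' k : ℕ, 27 * (1 + 3 * (m : ℝ)) * (1 / (2 * (k : ℝ) + 1) ^ 2) := by
        apply h.tsum_le_tsum _ (summable_sq.mul_left _)
        intro k
        rw [Real.norm_eq_abs]
        refine (abs_F_le m k).trans (le_of_eq ?_)
        ring
    _ = 27 * (1 + 3 * m) * Csq := by rw [tsum_mul_left]; rfl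

lemma Gc_tendsto (m : ℕ) : Tendsto (Gc m) atTop (𝓝 0) := by
  have hb : ∀ k : ℕ, |Gc m k| ≤ (27 * 30 * ((m : ℝ) + 1) ^ 4) * (1 / (2 * (k : ℝ) + 1) ^ 2) := by
    intro k
    have hm : (0 : ℝ) ≤ m := Nat.cast_nonneg m
    have hk : (0 : ℝ) ≤ k := Nat.cast_nonneg k
    have hq := q_le m k
    have hq0 := (q_pos m k).le
    unfold Gc
    set x : ℝ := (k : ℝ) + m + 1 / 2 with hx
    have hx0 : 0 < x := by positivity
    have hy : (k : ℝ) + 2 * m + 3 / 2 = x + (m + 1) := by rw [hx]; ring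
    rw [hy]
    set n : ℝ := (m : ℝ) + 1 with hn
    have hn1 : 1 ≤ n := by rw [hn]; linarith
    have hm' : (m : ℝ) = n - 1 := by rw [hn]; ring
    rw [abs_mul, abs_mul, abs_pow, abs_neg, abs_one, one_pow, one_mul, abs_div, abs_neg,
      abs_of_nonneg (by positivity : (0 : ℝ) ≤ q m k ^ 3), abs_of_pos (by positivity : (0 : ℝ) < (x + n) ^ 3)]
    have hP : |x ^ 4 + (5 * n - 1) * x ^ 3 + 3 * n * (3 * n - 1) * x ^ 2 + n ^ 2 * (5 * n - 3) * x + m * n ^ 3|
        ≤ 9 * (x + n) ^ 4 := by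
      have h1 : 0 ≤ 5 * n - 1 := by linarith
      have h2 : 0 ≤ 3 * n - 1 := by linarith
      have h3 : 0 ≤ 5 * n - 3 := by linarith
      rw [abs_of_nonneg (by positivity)]
      have a1 : (5 * n - 1) * x ^ 3 ≤ 5 * n * x ^ 3 := by nlinarith [pow_pos hx0 3]
      have a2 : 3 * n * (3 * n - 1) * x ^ 2 ≤ 9 * n ^ 2 * x ^ 2 := by nlinarith [pow_pos hx0 2, mul_pos (by linarith : (0 : ℝ) < n) (pow_pos hx0 2)]
      have a3 : n ^ 2 * (5 * n - 3) * x ≤ 5 * n ^ 3 * x := by nlinarith [mul_pos (pow_pos (by linarith : (0 : ℝ) < n) 2) hx0]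
      have a4 : (m : ℝ) * n ^ 3 ≤ n ^ 4 := by
        rw [hm']; nlinarith [pow_pos (by linarith : (0 : ℝ) < n) 3]
      have hn0 : 0 < n := by linarith
      nlinarith [pow_pos hx0 4, pow_pos hn0 4, mul_pos hn0 (pow_pos hx0 3), mul_pos (pow_pos hn0 2) (pow_pos hx0 2), mul_pos (pow_pos hn0 3) hx0]
    have hq3 : q m k ^ 3 ≤ (3 / (2 * k + 1)) ^ 3 := pow_le_pow_left₀ hq0 hq 3
    have hxn : x + n ≤ 3 * n * (2 * k + 1) := by
      rw [hx, hm']; nlinarith [mul_nonneg hk (by linarith : (0 : ℝ) ≤ n - 1)]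
    have hxn0 : 0 < x + n := by positivity
    calc q m k ^ 3 * (|x ^ 4 + (5 * n - 1) * x ^ 3 + 3 * n * (3 * n - 1) * x ^ 2 + n ^ 2 * (5 * n - 3) * x + m * n ^ 3| / (x + n) ^ 3)
        ≤ (3 / (2 * k + 1)) ^ 3 * (9 * (x + n) ^ 4 / (x + n) ^ 3) := by
          apply mul_le_mul hq3 _ (by positivity) (by positivity)
          apply div_le_div_of_nonneg_right hP (by positivity)
      _ = (3 / (2 * k + 1)) ^ 3 * (9 * (x + n)) := by
          congr 1; field_simp
      _ ≤ (3 / (2 * k + 1)) ^ 3 * (9 * (3 * n * (2 * k + 1))) := by gcongr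
      _ = 27 * 27 * n * (1 / (2 * (k : ℝ) + 1) ^ 2) := by field_simp; norm_num
      _ ≤ (27 * 30 * n ^ 4) * (1 / (2 * (k : ℝ) + 1) ^ 2) := by
          apply mul_le_mul_of_nonneg_right _ (by positivity)
          have : n ≤ n ^ 4 := by
            calc n = n ^ 1 := (pow_one n).symm
              _ ≤ n ^ 4 := pow_le_pow_right₀ hn1 (by norm_num)
          nlinarith
  have h0 : Tendsto (fun k : ℕ => (27 * 30 * ((m : ℝ) + 1) ^ 4) * (1 / (2 * (k : ℝ) + 1) ^ 2)) atTop (𝓝 0) := by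
    have := summable_sq.tendsto_atTop_zero.const_mul (27 * 30 * ((m : ℝ) + 1) ^ 4)
    simpa using this
  exact squeeze_zero_norm (fun k => by rw [Real.norm_eq_abs]; exact hb k) h0

noncomputable def A (m : ℕ) : ℝ :=
  (3 * m + 1) - ((2 * m + 1) / (4 * m + 3)) ^ 3 * ((6 * m + 5) / 2)

lemma Gc_zero (m : ℕ) : Gc m 0 = - A m := by
  unfold Gc A
  simp only [q, Nat.cast_zero, zero_add, pow_zero, one_pow, one_mul, mul_one]
  have h1 : (2 * (m : ℝ) + 3 / 2) ≠ 0 := by positivity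
  have h2 : (4 * (m : ℝ) + 3) ≠ 0 := by positivity
  field_simp
  ring

lemma W_rec (m : ℕ) : W m = A m + B m * W (m + 1) := by
  have h1 : HasSum (fun k => F m k - B m * F (m + 1) k) (W m - B m * W (m + 1)) :=
    (summable_F m).hasSum.sub ((summable_F (m + 1)).hasSum.mul_left (B m))
  have h2 : Tendsto (fun K => ∑ k ∈ range K, (F m k - B m * F (m + 1) k)) atTop
      (𝓝 (W m - B m * W (m + 1))) := h1.tendsto_sum_nat
  have h3 : (fun K => ∑ k ∈ range K, (F m k - B m * F (m + 1) k)) = fun K => Gc m K - Gc m 0 := by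
    funext K
    rw [← Finset.sum_range_sub (Gc m)]
    exact Finset.sum_congr rfl (fun k _ => wz m k)
  rw [h3] at h2
  have h4 : Tendsto (fun K => Gc m K - Gc m 0) atTop (𝓝 (0 - Gc m 0)) := (Gc_tendsto m).sub_const _
  have := tendsto_nhds_unique h2 h4
  rw [Gc_zero] at this
  linarith

/-- `u n = (-8)^n / ((2n+1)^3 C(2n,n)^3)`. -/
noncomputable def u : ℕ → ℝ
  | 0 => 1
  | n + 1 => -(((n : ℝ) + 1) / (2 * n + 3)) ^ 3 * u n

lemma u_eq (n : ℕ) : u n = (-8) ^ n / ((2 * n + 1) ^ 3 * (Nat.centralBinom n : ℝ) ^ 3) := by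
  induction n with
  | zero => simp [u]
  | succ n ih =>
    have hc : ((n : ℝ) + 1) * (Nat.centralBinom (n + 1) : ℝ) = 2 * (2 * n + 1) * Nat.centralBinom n := by
      exact_mod_cast Nat.succ_mul_centralBinom_succ n
    have hc0 : (Nat.centralBinom n : ℝ) ≠ 0 := by exact_mod_cast Nat.centralBinom_ne_zero n
    have hc1 : (Nat.centralBinom (n + 1) : ℝ) ≠ 0 := by exact_mod_cast Nat.centralBinom_ne_zero (n + 1)
    have hn : ((n : ℝ) + 1) ≠ 0 := by positivity
    have h21 : (2 * (n : ℝ) + 1) ≠ 0 := by positivity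
    have h23 : (2 * (n : ℝ) + 3) ≠ 0 := by positivity
    have hC : (Nat.centralBinom (n + 1) : ℝ) = 2 * (2 * n + 1) * Nat.centralBinom n / (n + 1) := by
      field_simp; linarith
    simp only [u]
    rw [ih, hC, pow_succ]
    push_cast
    have e : (2 * ((n : ℝ) + 1) + 1) = 2 * n + 3 := by ring
    rw [e]
    field_simp
    ring

/-- partial sums. -/
noncomputable def S (n : ℕ) : ℝ := ∑ i ∈ range n, (1 / 2) * (3 * i + 2) * u i

lemma S_succ (n : ℕ) : S (n + 1) = S n + (1 / 2) * (3 * n + 2) * u n := by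
  unfold S; rw [Finset.sum_range_succ]

/-- the classical form `S n = -(1/2) ∑_{k=1}^n (3k-1)(-8)^k/(k^3 C(2k,k)^3)`. -/
lemma S_eq (n : ℕ) : S n = -(1 / 2) * ∑ k ∈ Finset.Icc 1 n,
    ((3 * (k : ℝ) - 1) * (-8) ^ k / ((k : ℝ) ^ 3 * (Nat.centralBinom k : ℝ) ^ 3)) := by
  induction n with
  | zero => simp [S]
  | succ n ih =>
    rw [S_succ, ih, Finset.sum_Icc_succ_top (by omega), mul_add]
    congr 1
    have hc : ((n : ℝ) + 1) * (Nat.centralBinom (n + 1) : ℝ) = 2 * (2 * n + 1) * Nat.centralBinom n := by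
      exact_mod_cast Nat.succ_mul_centralBinom_succ n
    have hc0 : (Nat.centralBinom n : ℝ) ≠ 0 := by exact_mod_cast Nat.centralBinom_ne_zero n
    have h21 : (2 * (n : ℝ) + 1) ≠ 0 := by positivity
    rw [u_eq]
    push_cast
    rw [← mul_pow ((n : ℝ) + 1), hc, pow_succ]
    field_simp
    ring

lemma tail_G (m : ℕ) : G - S (2 * m) = u (2 * m) * W m := by
  induction m with
  | zero => simp [S, u, W_zero]
  | succ m ih =>
    have e : 2 * (m + 1) = (2 * m + 1) + 1 := by ring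
    rw [e, S_succ, S_succ]
    have h1 : u (2 * m + 1) = -(((2 * (m : ℝ)) + 1) / (4 * m + 3)) ^ 3 * u (2 * m) := by
      simp only [u]; push_cast
      rw [show (2 * (2 * (m : ℝ)) + 3) = 4 * m + 3 by ring]
    have h2 : u (2 * m + 1 + 1) = -((2 * (m : ℝ) + 2) / (4 * m + 5)) ^ 3 * u (2 * m + 1) := by
      have : u (2 * m + 1 + 1) = -((((2 * m + 1 : ℕ) : ℝ) + 1) / (2 * ((2 * m + 1 : ℕ) : ℝ) + 3)) ^ 3 * u (2 * m + 1) := rfl
      rw [this]; push_cast
      rw [show (2 * (2 * (m : ℝ) + 1) + 3) = 4 * m + 5 by ring, show (2 * (m : ℝ) + 1 + 1) = 2 * m + 2 by ring]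
    have h3 : G - (S (2 * m) + 1 / 2 * (3 * ((2 * m : ℕ) : ℝ) + 2) * u (2 * m)
        + 1 / 2 * (3 * ((2 * m + 1 : ℕ) : ℝ) + 2) * u (2 * m + 1))
        = u (2 * m) * W m - 1 / 2 * (3 * ((2 * m : ℕ) : ℝ) + 2) * u (2 * m)
        - 1 / 2 * (3 * ((2 * m + 1 : ℕ) : ℝ) + 2) * u (2 * m + 1) := by
      rw [← ih]; ring
    rw [h3, W_rec, h2, h1]
    unfold A B
    push_cast
    have h43 : (4 * (m : ℝ) + 3) ≠ 0 := by positivity
    have h45 : (4 * (m : ℝ) + 5) ≠ 0 := by positivity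
    field_simp
    ring

lemma abs_u_le (n : ℕ) : |u n| ≤ (1 / 8) ^ n := by
  induction n with
  | zero => simp [u]
  | succ n ih =>
    simp only [u]
    rw [abs_mul, abs_neg, abs_pow, abs_of_nonneg (by positivity : (0 : ℝ) ≤ ((n : ℝ) + 1) / (2 * n + 3))]
    have h1 : ((n : ℝ) + 1) / (2 * n + 3) ≤ 1 / 2 := by
      rw [div_le_div_iff₀ (by positivity) (by positivity)]
      linarith
    calc (((n : ℝ) + 1) / (2 * n + 3)) ^ 3 * |u n| ≤ (1 / 2) ^ 3 * (1 / 8) ^ n := by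
          apply mul_le_mul (pow_le_pow_left₀ (by positivity) h1 3) ih (abs_nonneg _) (by positivity)
      _ = (1 / 8) ^ (n + 1) := by rw [pow_succ]; norm_num; ring

lemma summable_t : Summable (fun i : ℕ => (1 / 2) * (3 * (i : ℝ) + 2) * u i) := by
  apply Summable.of_norm_bounded (g := fun i : ℕ => (3 / 2) * ((i : ℝ) * (1 / 8) ^ i) + (1 / 8) ^ i)
  · apply Summable.add
    · apply Summable.mul_left
      have := summable_pow_mul_geometric_of_norm_lt_one (R := ℝ) 1 (r := 1 / 8) (by norm_num)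
      simpa using this
    · exact summable_geometric_of_lt_one (by norm_num) (by norm_num)
  · intro i
    rw [Real.norm_eq_abs, abs_mul, abs_of_nonneg (by positivity)]
    calc 1 / 2 * (3 * (i : ℝ) + 2) * |u i| ≤ 1 / 2 * (3 * (i : ℝ) + 2) * (1 / 8) ^ i := by
          gcongr; exact abs_u_le i
      _ = (3 / 2) * ((i : ℝ) * (1 / 8) ^ i) + (1 / 8) ^ i := by ring

/-- **The K3(-8) series for Catalan's constant.** -/
theorem hasSum_G : HasSum (fun i : ℕ => (1 / 2) * (3 * (i : ℝ) + 2) * u i) G := by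
  have h1 := summable_t.hasSum.tendsto_sum_nat
  have h2 : Tendsto (fun m : ℕ => S (2 * m)) atTop (𝓝 (∑' i : ℕ, (1 / 2) * (3 * (i : ℝ) + 2) * u i)) :=
    h1.comp (tendsto_id.const_mul_atTop' (by norm_num))
  have h3 : Tendsto (fun m : ℕ => S (2 * m)) atTop (𝓝 G) := by
    have h4 : Tendsto (fun m : ℕ => u (2 * m) * W m) atTop (𝓝 0) := by
      have hb : ∀ m : ℕ, ‖u (2 * m) * W m‖ ≤ (27 * Csq) * ((m : ℝ) * (1 / 64) ^ m) * 3 + (27 * Csq) * (1 / 64) ^ m := by
        intro m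
        rw [norm_mul, Real.norm_eq_abs, Real.norm_eq_abs]
        have hC : 0 ≤ Csq := tsum_nonneg (fun k => by positivity)
        calc |u (2 * m)| * |W m| ≤ (1 / 8) ^ (2 * m) * (27 * (1 + 3 * m) * Csq) := by
              apply mul_le_mul (abs_u_le _) (abs_W_le m) (abs_nonneg _) (by positivity)
          _ = _ := by rw [pow_mul]; norm_num; ring
      have h5 : Tendsto (fun m : ℕ => (27 * Csq) * ((m : ℝ) * (1 / 64) ^ m) * 3 + (27 * Csq) * (1 / 64) ^ m) atTop (𝓝 0) := by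
        have a := (tendsto_self_mul_const_pow_of_lt_one (r := (1 / 64 : ℝ)) (by norm_num) (by norm_num))
        have b := tendsto_pow_atTop_nhds_zero_of_lt_one (r := (1 / 64 : ℝ)) (by norm_num) (by norm_num)
        have := ((a.const_mul (27 * Csq)).mul_const 3).add (b.const_mul (27 * Csq))
        simpa using this
      exact squeeze_zero_norm hb h5
    have h6 : (fun m : ℕ => S (2 * m)) = fun m => G - u (2 * m) * W m := by
      funext m; rw [← tail_G]; ring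
    rw [h6]
    simpa using h4.const_sub G
  have := tendsto_nhds_unique h2 h3
  rw [← this]
  exact summable_t.hasSum

end Crest.Agent.R006.Psi724
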