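import Crest.Agent.R006.Germ_724
import Crest.Agent.R006.Psi_724

/-!
Row 6 (helper724): the base formula in discrete form.

Sites `site l = -1/2 - l`.  Power series `K K0 l` with
`(2 (site l + ε) - 1)^3 K (l+1) = - (site l + ε)^3 K l`, `K 0 = K0`.
Functional `mu K0 f = - ∑' l, coeff 2 (K K0 l * T f (site l))`.
-/

set_option autoImplicit false

namespace Crest.Agent.R006.Base724

open Polynomial Filter Topology
open Crest.Agent.R006.NV Crest.Agent.R006.Germ724

/-! ### a submultiplicative norm on 2-jets -/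

/-- norm on 2-jets -/
noncomputable def N (a : PowerSeries ℂ) : ℝ :=
  ‖PowerSeries.coeff 0 a‖ + ‖PowerSeries.coeff 1 a‖ / 2 + ‖PowerSeries.coeff 2 a‖ / 4

lemma N_nonneg (a : PowerSeries ℂ) : 0 ≤ N a := by
  unfold N; positivity

lemma coeff_zero_mul (a b : PowerSeries ℂ) : PowerSeries.coeff 0 (a * b) =
    PowerSeries.coeff 0 a * PowerSeries.coeff 0 b := by
  simp [PowerSeries.coeff_mul]

lemma coeff_one_mul (a b : PowerSeries ℂ) : PowerSeries.coeff 1 (a * b) =
    PowerSeries.coeff 0 a * PowerSeries.coeff 1 b + PowerSeries.coeff 1 a * PowerSeries.coeff 0 b := by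
  rw [PowerSeries.coeff_mul, Finset.Nat.sum_antidiagonal_eq_sum_range_succ
    (fun i j => PowerSeries.coeff i a * PowerSeries.coeff j b)]
  simp [Finset.sum_range_succ]

lemma coeff_two_mul (a b : PowerSeries ℂ) : PowerSeries.coeff 2 (a * b) =
    PowerSeries.coeff 0 a * PowerSeries.coeff 2 b + PowerSeries.coeff 1 a * PowerSeries.coeff 1 b +
      PowerSeries.coeff 2 a * PowerSeries.coeff 0 b := by
  rw [PowerSeries.coeff_mul, Finset.Nat.sum_antidiagonal_eq_sum_range_succ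
    (fun i j => PowerSeries.coeff i a * PowerSeries.coeff j b)]
  simp [Finset.sum_range_succ]

lemma N_add_le (a b : PowerSeries ℂ) : N (a + b) ≤ N a + N b := by
  unfold N
  rw [map_add, map_add, map_add]
  have h0 := norm_add_le (PowerSeries.coeff 0 a) (PowerSeries.coeff 0 b)
  have h1 := norm_add_le (PowerSeries.coeff 1 a) (PowerSeries.coeff 1 b)
  have h2 := norm_add_le (PowerSeries.coeff 2 a) (PowerSeries.coeff 2 b)
  linarith

lemma N_neg (a : PowerSeries ℂ) : N (-a) = N a := by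
  unfold N
  simp

lemma N_mul_le (a b : PowerSeries ℂ) : N (a * b) ≤ N a * N b := by
  unfold N
  rw [coeff_zero_mul, coeff_one_mul, coeff_two_mul]
  set a0 := PowerSeries.coeff 0 a
  set a1 := PowerSeries.coeff 1 a
  set a2 := PowerSeries.coeff 2 a
  set b0 := PowerSeries.coeff 0 b
  set b1 := PowerSeries.coeff 1 b
  set b2 := PowerSeries.coeff 2 b
  have h0 : ‖a0 * b0‖ = ‖a0‖ * ‖b0‖ := norm_mul _ _
  have h1 : ‖a0 * b1 + a1 * b0‖ ≤ ‖a0‖ * ‖b1‖ + ‖a1‖ * ‖b0‖ := by
    refine (norm_add_le _ _).trans ?_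
    rw [norm_mul, norm_mul]
  have h2 : ‖a0 * b2 + a1 * b1 + a2 * b0‖ ≤ ‖a0‖ * ‖b2‖ + ‖a1‖ * ‖b1‖ + ‖a2‖ * ‖b0‖ := by
    refine (norm_add₃_le).trans ?_
    rw [norm_mul, norm_mul, norm_mul]
  have p1 : 0 ≤ ‖a1‖ * ‖b2‖ := by positivity
  have p2 : 0 ≤ ‖a2‖ * ‖b1‖ := by positivity
  have p3 : 0 ≤ ‖a2‖ * ‖b2‖ := by positivity
  nlinarith

lemma N_C (c : ℂ) : N (PowerSeries.C c) = ‖c‖ := by
  unfold N
  simp [PowerSeries.coeff_C]

lemma norm_coeff_two_le (a : PowerSeries ℂ) : ‖PowerSeries.coeff 2 a‖ ≤ 4 * N a := by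
  unfold N
  have h0 := norm_nonneg (PowerSeries.coeff 0 a)
  have h1 := norm_nonneg (PowerSeries.coeff 1 a)
  linarith

lemma norm_coeff_zero_le (a : PowerSeries ℂ) : ‖PowerSeries.coeff 0 a‖ ≤ N a := by
  unfold N
  have h0 := norm_nonneg (PowerSeries.coeff 2 a)
  have h1 := norm_nonneg (PowerSeries.coeff 1 a)
  linarith

/-! ### the sites and the weights -/

/-- the sites -/
noncomputable def site (l : ℕ) : ℂ := -(1 / 2) - l

lemma site_succ (l : ℕ) : site (l + 1) = site l - 1 := by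
  unfold site; push_cast; ring

lemma site_zero : site 0 = -(1 / 2) := by
  unfold site; simp

lemma pt_coeff_zero (s : ℂ) : PowerSeries.coeff 0 (pt s) = s := by
  simp [pt]

lemma pt_coeff_one (s : ℂ) : PowerSeries.coeff 1 (pt s) = 1 := by
  simp [pt]

lemma pt_coeff_two (s : ℂ) : PowerSeries.coeff 2 (pt s) = 0 := by
  simp [pt, PowerSeries.coeff_X]

lemma pt_coeff_ge (s : ℂ) (n : ℕ) : PowerSeries.coeff (n + 2) (pt s) = 0 := by
  simp [pt, PowerSeries.coeff_X]

lemma coeff_two_ps (n : ℕ) : PowerSeries.coeff n (2 : PowerSeries ℂ) = if n = 0 then 2 else 0 := by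
  have : (2 : PowerSeries ℂ) = PowerSeries.C (2 : ℂ) := (map_ofNat PowerSeries.C 2).symm
  rw [this, PowerSeries.coeff_C]

/-- the denominators `2(s+ε)-1` -/
noncomputable def den (s : ℂ) : PowerSeries ℂ := 2 * pt s - 1

lemma den_coeff_zero (s : ℂ) : PowerSeries.coeff 0 (den s) = 2 * s - 1 := by
  unfold den
  rw [map_sub, coeff_zero_mul, pt_coeff_zero, coeff_two_ps]; simp

lemma den_coeff_one (s : ℂ) : PowerSeries.coeff 1 (den s) = 2 := by
  unfold den
  rw [map_sub, coeff_one_mul, pt_coeff_zero, pt_coeff_one, coeff_two_ps, coeff_two_ps]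
  simp [PowerSeries.coeff_one]

lemma den_coeff_two (s : ℂ) : PowerSeries.coeff 2 (den s) = 0 := by
  unfold den
  rw [map_sub, coeff_two_mul, pt_coeff_zero, pt_coeff_one, pt_coeff_two, coeff_two_ps, coeff_two_ps,
    coeff_two_ps]
  simp [PowerSeries.coeff_one]

lemma den_const (s : ℂ) : PowerSeries.constantCoeff (den s) = 2 * s - 1 := by
  rw [← PowerSeries.coeff_zero_eq_constantCoeff_apply, den_coeff_zero]

/-- the ratio `(s+ε)/(2(s+ε)-1)` -/
noncomputable def rat (s : ℂ) : PowerSeries ℂ := pt s * (den s)⁻¹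

lemma rat_mul_den {s : ℂ} (hs : 2 * s - 1 ≠ 0) : rat s * den s = pt s := by
  unfold rat
  rw [mul_assoc, PowerSeries.inv_mul_cancel, mul_one]
  rw [den_const]; exact hs

lemma rat_coeffs {s : ℂ} (hs : 2 * s - 1 ≠ 0) :
    PowerSeries.coeff 0 (rat s) = s / (2 * s - 1) ∧
    PowerSeries.coeff 1 (rat s) = -1 / (2 * s - 1) ^ 2 ∧
    PowerSeries.coeff 2 (rat s) = 2 / (2 * s - 1) ^ 3 := by
  have h := rat_mul_den hs
  have h0 := congrArg (PowerSeries.coeff 0) h
  have h1 := congrArg (PowerSeries.coeff 1) h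
  have h2 := congrArg (PowerSeries.coeff 2) h
  rw [coeff_zero_mul, den_coeff_zero, pt_coeff_zero] at h0
  rw [coeff_one_mul, den_coeff_zero, den_coeff_one, pt_coeff_one] at h1
  rw [coeff_two_mul, den_coeff_zero, den_coeff_one, den_coeff_two, pt_coeff_two] at h2
  have e0 : PowerSeries.coeff 0 (rat s) = s / (2 * s - 1) := by
    rw [eq_div_iff hs]; exact h0
  have e1' : PowerSeries.coeff 1 (rat s) * (2 * s - 1) ^ 2 = -1 := by
    linear_combination (2 * s - 1) * h1 - 2 * h0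
  have e1 : PowerSeries.coeff 1 (rat s) = -1 / (2 * s - 1) ^ 2 := by
    rw [eq_div_iff (pow_ne_zero 2 hs)]; exact e1'
  refine ⟨e0, e1, ?_⟩
  rw [eq_div_iff (pow_ne_zero 3 hs)]
  linear_combination (2 * s - 1) ^ 2 * h2 - 2 * e1'

lemma site_den (l : ℕ) : 2 * site l - 1 = -(2 * ((l : ℂ) + 1)) := by
  unfold site; ring

lemma site_den_ne (l : ℕ) : 2 * site l - 1 ≠ 0 := by
  rw [site_den]
  have : (l : ℂ) + 1 ≠ 0 := by exact_mod_cast Nat.succ_ne_zero l
  exact neg_ne_zero.mpr (mul_ne_zero two_ne_zero this)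

lemma N_rat_site (l : ℕ) : N (rat (site l)) ≤ 1 / 2 := by
  obtain ⟨e0, e1, e2⟩ := rat_coeffs (site_den_ne l)
  unfold N
  rw [e0, e1, e2, norm_div, norm_div, norm_div, norm_pow, norm_pow, site_den]
  have hs : site l = -(((l : ℝ) + 1 / 2 : ℝ) : ℂ) := by
    unfold site; push_cast; ring
  have n1 : ‖site l‖ = (l : ℝ) + 1 / 2 := by
    rw [hs, norm_neg, Complex.norm_real, Real.norm_of_nonneg (by positivity)]
  have n2 : ‖-(2 * ((l : ℂ) + 1))‖ = 2 * ((l : ℝ) + 1) := by
    have : -(2 * ((l : ℂ) + 1)) = -((2 * ((l : ℝ) + 1) : ℝ) : ℂ) := by push_cast; ring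
    rw [this, norm_neg, Complex.norm_real, Real.norm_of_nonneg (by positivity)]
  rw [n1, n2, norm_neg, norm_one]
  have n3 : ‖(2 : ℂ)‖ = 2 := by simp
  rw [n3]
  have hl : (0 : ℝ) ≤ l := Nat.cast_nonneg l
  have hl1 : (0 : ℝ) < (l : ℝ) + 1 := by positivity
  have h1 : ((l : ℝ) + 1 / 2) / (2 * ((l : ℝ) + 1)) = 1 / 2 - 1 / (4 * ((l : ℝ) + 1)) := by
    field_simp; ring
  have h2 : 1 / (2 * ((l : ℝ) + 1)) ^ 2 / 2 ≤ 1 / (8 * ((l : ℝ) + 1)) := by
    rw [div_div, div_le_div_iff₀ (by positivity) (by positivity)]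
    nlinarith
  have h3 : 2 / (2 * ((l : ℝ) + 1)) ^ 3 / 4 ≤ 1 / (16 * ((l : ℝ) + 1)) := by
    rw [div_div, div_le_div_iff₀ (by positivity) (by positivity)]
    have : (l : ℝ) + 1 ≤ ((l : ℝ) + 1) ^ 3 := by nlinarith [sq_nonneg ((l : ℝ))]
    nlinarith
  have h4 : 1 / (8 * ((l : ℝ) + 1)) + 1 / (16 * ((l : ℝ) + 1)) ≤ 1 / (4 * ((l : ℝ) + 1)) := by
    have : 1 / (8 * ((l : ℝ) + 1)) + 1 / (16 * ((l : ℝ) + 1)) = 3 / 16 * (1 / ((l : ℝ) + 1)) := by
      field_simp; norm_num
    have h5 : 1 / (4 * ((l : ℝ) + 1)) = 1 / 4 * (1 / ((l : ℝ) + 1)) := by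
      field_simp
    rw [this, h5]
    have : 0 ≤ 1 / ((l : ℝ) + 1) := by positivity
    linarith
  linarith

/-- the weights at the sites -/
noncomputable def K (K0 : PowerSeries ℂ) : ℕ → PowerSeries ℂ
  | 0 => K0
  | l + 1 => -(rat (site l)) ^ 3 * K K0 l

lemma K_zero (K0 : PowerSeries ℂ) : K K0 0 = K0 := rfl

lemma K_succ (K0 : PowerSeries ℂ) (l : ℕ) : K K0 (l + 1) = -(rat (site l)) ^ 3 * K K0 l := rfl

lemma K_step (K0 : PowerSeries ℂ) (l : ℕ) :
    den (site l) ^ 3 * K K0 (l + 1) = -(pt (site l) ^ 3 * K K0 l) := by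
  rw [K_succ]
  have h := rat_mul_den (site_den_ne l)
  calc den (site l) ^ 3 * (-(rat (site l)) ^ 3 * K K0 l)
      = -((rat (site l) * den (site l)) ^ 3 * K K0 l) := by ring
    _ = _ := by rw [h]

lemma N_K_le (K0 : PowerSeries ℂ) (l : ℕ) : N (K K0 l) ≤ (1 / 8) ^ l * N K0 := by
  induction l with
  | zero => simp [K_zero]
  | succ l ih =>
    rw [K_succ, neg_mul, N_neg]
    have h1 : N (rat (site l) ^ 3) ≤ 1 / 8 := by
      have h := N_rat_site l
      have h0 := N_nonneg (rat (site l))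
      have e : rat (site l) ^ 3 = rat (site l) * (rat (site l) * rat (site l)) := by ring
      rw [e]
      calc N (rat (site l) * (rat (site l) * rat (site l)))
          ≤ N (rat (site l)) * N (rat (site l) * rat (site l)) := N_mul_le _ _
        _ ≤ N (rat (site l)) * (N (rat (site l)) * N (rat (site l))) :=
            mul_le_mul_of_nonneg_left (N_mul_le _ _) h0
        _ ≤ 1 / 2 * (1 / 2 * (1 / 2)) := by gcongr
        _ = 1 / 8 := by norm_num
    calc N (rat (site l) ^ 3 * K K0 l) ≤ N (rat (site l) ^ 3) * N (K K0 l) := N_mul_le _ _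
      _ ≤ 1 / 8 * ((1 / 8) ^ l * N K0) := by
          apply mul_le_mul h1 ih (N_nonneg _) (by norm_num)
      _ = (1 / 8) ^ (l + 1) * N K0 := by ring

lemma K_add (A B : PowerSeries ℂ) (l : ℕ) : K (A + B) l = K A l + K B l := by
  induction l with
  | zero => rfl
  | succ l ih => rw [K_succ, K_succ, K_succ, ih]; ring

lemma K_C_mul (c : ℂ) (A : PowerSeries ℂ) (l : ℕ) :
    K (PowerSeries.C c * A) l = PowerSeries.C c * K A l := by
  induction l with
  | zero => rfl
  | succ l ih => rw [K_succ, K_succ, ih]; ring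

/-! ### test functions -/

/-- admissible test functions: analytic at the sites, jets of polynomial growth -/
def Good (f : ℂ → ℂ) : Prop :=
  (∀ l, AnalyticAt ℂ f (site l)) ∧ ∃ C : ℝ, ∃ k : ℕ, ∀ l : ℕ, N (T f (site l)) ≤ C * ((l : ℝ) + 1) ^ k

lemma Good.const (c : ℂ) : Good (fun _ => c) := by
  refine ⟨fun l => analyticAt_const, ‖c‖, 0, fun l => ?_⟩
  rw [T_const, N_C]; simp

lemma Good.id : Good (fun s => s) := by
  refine ⟨fun l => analyticAt_id, 1, 1, fun l => ?_⟩
  rw [T_id]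
  unfold N
  rw [pt_coeff_zero, pt_coeff_one, pt_coeff_two]
  have hs : site l = -(((l : ℝ) + 1 / 2 : ℝ) : ℂ) := by
    unfold site; push_cast; ring
  have n1 : ‖site l‖ = (l : ℝ) + 1 / 2 := by
    rw [hs, norm_neg, Complex.norm_real, Real.norm_of_nonneg (by positivity)]
  rw [n1]
  simp
  linarith

lemma Good.nonneg_const {f : ℂ → ℂ} (hf : Good f) :
    ∃ C : ℝ, 0 ≤ C ∧ ∃ k : ℕ, ∀ l : ℕ, N (T f (site l)) ≤ C * ((l : ℝ) + 1) ^ k := by
  obtain ⟨-, C, k, h⟩ := hf
  refine ⟨C, ?_, k, h⟩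
  have := h 0
  simp at this
  exact (N_nonneg _).trans this

lemma Good.add {f g : ℂ → ℂ} (hf : Good f) (hg : Good g) : Good (fun s => f s + g s) := by
  refine ⟨fun l => (hf.1 l).add (hg.1 l), ?_⟩
  obtain ⟨C, hC, k, h⟩ := hf.nonneg_const
  obtain ⟨C', hC', k', h'⟩ := hg.nonneg_const
  refine ⟨C + C', k + k', fun l => ?_⟩
  rw [T_add (hf.1 l) (hg.1 l)]
  have h1 : (1 : ℝ) ≤ (l : ℝ) + 1 := by
    have : (0 : ℝ) ≤ l := Nat.cast_nonneg l
    linarith
  have e1 : ((l : ℝ) + 1) ^ k ≤ ((l : ℝ) + 1) ^ (k + k') := pow_le_pow_right₀ h1 (by omega)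
  have e2 : ((l : ℝ) + 1) ^ k' ≤ ((l : ℝ) + 1) ^ (k + k') := pow_le_pow_right₀ h1 (by omega)
  calc N (T f (site l) + T g (site l)) ≤ N (T f (site l)) + N (T g (site l)) := N_add_le _ _
    _ ≤ C * ((l : ℝ) + 1) ^ k + C' * ((l : ℝ) + 1) ^ k' := add_le_add (h l) (h' l)
    _ ≤ C * ((l : ℝ) + 1) ^ (k + k') + C' * ((l : ℝ) + 1) ^ (k + k') := by gcongr
    _ = _ := by ring

lemma Good.mul {f g : ℂ → ℂ} (hf : Good f) (hg : Good g) : Good (fun s => f s * g s) := by
  refine ⟨fun l => (hf.1 l).mul (hg.1 l), ?_⟩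
  obtain ⟨C, hC, k, h⟩ := hf.nonneg_const
  obtain ⟨C', hC', k', h'⟩ := hg.nonneg_const
  refine ⟨C * C', k + k', fun l => ?_⟩
  rw [T_mul (hf.1 l) (hg.1 l)]
  calc N (T f (site l) * T g (site l)) ≤ N (T f (site l)) * N (T g (site l)) := N_mul_le _ _
    _ ≤ (C * ((l : ℝ) + 1) ^ k) * (C' * ((l : ℝ) + 1) ^ k') :=
        mul_le_mul (h l) (h' l) (N_nonneg _) (by positivity)
    _ = _ := by ring

lemma Good.congr {f g : ℂ → ℂ} (hf : Good f) (h : ∀ l, f =ᶠ[𝓝 (site l)] g) : Good g := by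
  obtain ⟨h1, C, k, h2⟩ := hf
  refine ⟨fun l => (h1 l).congr (h l), C, k, fun l => ?_⟩
  rw [← T_congr (h l)]
  exact h2 l

lemma Good.pow {f : ℂ → ℂ} (hf : Good f) (n : ℕ) : Good (fun s => f s ^ n) := by
  induction n with
  | zero => simpa using Good.const 1
  | succ n ih =>
    have := ih.mul hf
    simpa [pow_succ] using this

lemma Good.smul {f : ℂ → ℂ} (hf : Good f) (c : ℂ) : Good (fun s => c * f s) :=
  (Good.const c).mul hf

lemma Good.eval (p : ℂ[X]) : Good (fun s => p.eval s) := by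
  induction p using Polynomial.induction_on' with
  | add p q hp hq =>
    have := hp.add hq
    simpa using this
  | monomial n a =>
    have := (Good.id.pow n).smul a
    simpa using this

/-! ### the functional -/

/-- one site -/
noncomputable def term (K0 : PowerSeries ℂ) (f : ℂ → ℂ) (l : ℕ) : ℂ :=
  PowerSeries.coeff 2 (K K0 l * T f (site l))

/-- the functional -/
noncomputable def mu (K0 : PowerSeries ℂ) (f : ℂ → ℂ) : ℂ := -∑' l, term K0 f l

lemma norm_term_le (K0 : PowerSeries ℂ) (f : ℂ → ℂ) (l : ℕ) :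
    ‖term K0 f l‖ ≤ 4 * N K0 * ((1 / 8) ^ l * N (T f (site l))) := by
  unfold term
  calc ‖PowerSeries.coeff 2 (K K0 l * T f (site l))‖ ≤ 4 * N (K K0 l * T f (site l)) :=
        norm_coeff_two_le _
    _ ≤ 4 * (N (K K0 l) * N (T f (site l))) := by
        have := N_mul_le (K K0 l) (T f (site l)); linarith
    _ ≤ 4 * (((1 / 8) ^ l * N K0) * N (T f (site l))) := by
        have := mul_le_mul_of_nonneg_right (N_K_le K0 l) (N_nonneg (T f (site l))); linarith
    _ = _ := by ring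

lemma summable_geo (k : ℕ) : Summable fun l : ℕ => (1 / 8 : ℝ) ^ l * ((l : ℝ) + 1) ^ k := by
  have h := summable_pow_mul_geometric_of_norm_lt_one (R := ℝ) k (r := 1 / 8) (by norm_num)
  have h2 := (summable_nat_add_iff 1).mpr h
  have h3 := h2.mul_left 8
  refine h3.congr fun l => ?_
  push_cast
  rw [pow_succ]
  ring

lemma Good.summable {f : ℂ → ℂ} (hf : Good f) (K0 : PowerSeries ℂ) :
    Summable (fun l => ‖term K0 f l‖) := by
  obtain ⟨C, hC, k, h⟩ := hf.nonneg_const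
  have h1 := (summable_geo k).mul_left (4 * N K0 * C)
  refine h1.of_nonneg_of_le (fun l => norm_nonneg _) (fun l => ?_)
  refine (norm_term_le K0 f l).trans ?_
  have h0 : 0 ≤ 4 * N K0 := by have := N_nonneg K0; positivity
  calc 4 * N K0 * ((1 / 8) ^ l * N (T f (site l)))
      ≤ 4 * N K0 * ((1 / 8) ^ l * (C * ((l : ℝ) + 1) ^ k)) := by
        apply mul_le_mul_of_nonneg_left _ h0
        exact mul_le_mul_of_nonneg_left (h l) (by positivity)
    _ = _ := by ring

lemma Good.hasSum {f : ℂ → ℂ} (hf : Good f) (K0 : PowerSeries ℂ) :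
    HasSum (fun l => term K0 f l) (-mu K0 f) := by
  unfold mu
  rw [neg_neg]
  exact (hf.summable K0).of_norm.hasSum

lemma mu_add {f g : ℂ → ℂ} (hf : Good f) (hg : Good g) (K0 : PowerSeries ℂ) :
    mu K0 (fun s => f s + g s) = mu K0 f + mu K0 g := by
  have h := (hf.hasSum K0).add (hg.hasSum K0)
  have h2 := (hf.add hg).hasSum K0
  have e : (fun l => term K0 f l + term K0 g l) = fun l => term K0 (fun s => f s + g s) l := by
    ext l
    unfold term
    rw [T_add (hf.1 l) (hg.1 l), mul_add, map_add]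
  rw [e] at h
  have := h2.unique h
  linear_combination -this

lemma mu_smul {f : ℂ → ℂ} (hf : Good f) (c : ℂ) (K0 : PowerSeries ℂ) :
    mu K0 (fun s => c * f s) = c * mu K0 f := by
  have h := (hf.hasSum K0).mul_left c
  have h2 := (hf.smul c).hasSum K0
  have e : (fun l => c * term K0 f l) = fun l => term K0 (fun s => c * f s) l := by
    ext l
    unfold term
    rw [T_mul analyticAt_const (hf.1 l), T_const, ← PowerSeries.coeff_C_mul]
    congr 1
    ring
  rw [e] at h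
  have := h2.unique h
  linear_combination -this

lemma term_congr {f g : ℂ → ℂ} {l : ℕ} (h : f =ᶠ[𝓝 (site l)] g) (K0 : PowerSeries ℂ) :
    term K0 f l = term K0 g l := by
  unfold term
  rw [T_congr h]

lemma mu_congr {f g : ℂ → ℂ} (h : ∀ l, f =ᶠ[𝓝 (site l)] g) (K0 : PowerSeries ℂ) :
    mu K0 f = mu K0 g := by
  unfold mu
  congr 1
  exact tsum_congr fun l => term_congr (h l) K0

lemma mu_add_K {f : ℂ → ℂ} (hf : Good f) (A B : PowerSeries ℂ) :
    mu (A + B) f = mu A f + mu B f := by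
  have h := (hf.hasSum A).add (hf.hasSum B)
  have h2 := hf.hasSum (A + B)
  have e : (fun l => term A f l + term B f l) = fun l => term (A + B) f l := by
    ext l
    unfold term
    rw [K_add, add_mul, map_add]
  rw [e] at h
  have := h2.unique h
  linear_combination -this

lemma mu_C_mul_K {f : ℂ → ℂ} (hf : Good f) (c : ℂ) (A : PowerSeries ℂ) :
    mu (PowerSeries.C c * A) f = c * mu A f := by
  have h := (hf.hasSum A).mul_left c
  have h2 := hf.hasSum (PowerSeries.C c * A)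
  have e : (fun l => c * term A f l) = fun l => term (PowerSeries.C c * A) f l := by
    ext l
    unfold term
    rw [K_C_mul, mul_assoc, PowerSeries.coeff_C_mul]
  rw [e] at h
  have := h2.unique h
  linear_combination -this

/-! ### the key identity -/

/-- KEY IDENTITY (general form). -/
theorem key {P Q : ℂ → ℂ} (hP : Good P) (hQ : Good Q)
    (h : ∀ l, T Q (site (l + 1)) = den (site l) ^ 3 * T P (site l)) (K0 : PowerSeries ℂ) :
    mu K0 (fun s => s ^ 3 * P s) + mu K0 Q = -PowerSeries.coeff 2 (K0 * T Q (site 0)) := by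
  have h1 := ((Good.id.pow 3).mul hP).hasSum K0
  have h2 := hQ.hasSum K0
  have h3 : HasSum (fun l => term K0 Q (l + 1)) (-mu K0 Q - term K0 Q 0) := by
    have := (hasSum_nat_add_iff' 1).mpr h2
    simpa using this
  have e : (fun l => term K0 (fun s => s ^ 3 * P s) l) = fun l => -term K0 Q (l + 1) := by
    ext l
    unfold term
    have hid : AnalyticAt ℂ (fun s : ℂ => s) (site l) := analyticAt_id
    rw [h l, T_mul (hid.fun_pow 3) (hP.1 l), T_pow hid, T_id]
    have := K_step K0 l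
    rw [← map_neg]
    congr 1
    linear_combination (T P (site l)) * this
  rw [e] at h1
  have h4 := h3.neg
  have h5 := h1.unique h4
  have h6 : term K0 Q 0 = PowerSeries.coeff 2 (K0 * T Q (site 0)) := rfl
  rw [← h6]
  linear_combination -h5

end Crest.Agent.R006.Base724
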