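import Mathlib

set_option autoImplicit false

/-!
# Row 6 (Catalan), block P9: size of superfactorials (helper481)

`sf n = ∏_{k<n} k!`, `log sf n = n²/2 log n - 3/4 n² + O(n log n)`, and the scaled version for
`a = α n + O(1)`.
-/

namespace Crest.Agent.R006

open Finset

/-- superfactorial `∏_{k<n} k!` -/
def sf (n : ℕ) : ℕ := ∏ k ∈ range n, k.factorial

lemma sf_pos (n : ℕ) : 0 < sf n := Finset.prod_pos fun k _ => k.factorial_pos

lemma sf_zero : sf 0 = 1 := by simp [sf]

lemma sf_succ (n : ℕ) : sf (n + 1) = sf n * n.factorial := by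
  simp [sf, Finset.prod_range_succ]

/-- `x²/2 log x - 3/4 x²` -/
noncomputable def sfF (x : ℝ) : ℝ := x ^ 2 / 2 * Real.log x - 3 / 4 * x ^ 2

lemma sfF_hasDerivAt {x : ℝ} (hx : 0 < x) : HasDerivAt sfF (x * Real.log x - x) x := by
  unfold sfF
  have h1 : HasDerivAt (fun x : ℝ => x ^ 2 / 2) x x := by
    have := (hasDerivAt_pow 2 x).div_const 2
    simpa using this
  have h2 := h1.mul (Real.hasDerivAt_log hx.ne')
  have h3 : HasDerivAt (fun x : ℝ => 3 / 4 * x ^ 2) (3 / 4 * (2 * x)) x := by
    have := (hasDerivAt_pow 2 x).const_mul (3 / 4)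
    simpa using this
  have h4 := h2.sub h3
  refine h4.congr_deriv ?_
  field_simp
  ring

lemma sfF_continuous : Continuous sfF := by
  unfold sfF
  have h : (fun x : ℝ => x ^ 2 / 2 * Real.log x - 3 / 4 * x ^ 2) =
      fun x : ℝ => x / 2 * (x * Real.log x) - 3 / 4 * x ^ 2 := by
    funext x; ring
  rw [h]
  have := Real.continuous_mul_log
  fun_prop

/-- the derivative `x log x - x` is monotone on `[1,∞)` -/
lemma dF_mono {x y : ℝ} (hx : 1 ≤ x) (hxy : x ≤ y) :
    x * Real.log x - x ≤ y * Real.log y - y := by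
  -- log y ≥ log x + (1 - x/y)
  have hx0 : 0 < x := by linarith
  have hy0 : 0 < y := by linarith
  have h1 : 1 - (y / x)⁻¹ ≤ Real.log (y / x) := Real.one_sub_inv_le_log_of_pos (by positivity)
  rw [Real.log_div hy0.ne' hx0.ne', inv_div] at h1
  have h2 : 0 ≤ Real.log x := Real.log_nonneg hx
  have h3 : y * (1 - x / y) ≤ y * (Real.log y - Real.log x) :=
    mul_le_mul_of_nonneg_left h1 hy0.le
  have h4 : y * (1 - x / y) = y - x := by field_simp
  nlinarith

lemma dF_step {x : ℝ} (hx : 1 ≤ x) :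
    (x + 1) * Real.log (x + 1) - (x + 1) - (x * Real.log x - x) ≤ Real.log (x + 1) := by
  have hx0 : 0 < x := by linarith
  have h1 : Real.log ((x + 1) / x) ≤ (x + 1) / x - 1 :=
    Real.log_le_sub_one_of_pos (by positivity)
  rw [Real.log_div (by linarith) hx0.ne'] at h1
  have h2 : x * (Real.log (x + 1) - Real.log x) ≤ x * ((x + 1) / x - 1) :=
    mul_le_mul_of_nonneg_left h1 hx0.le
  have h3 : x * ((x + 1) / x - 1) = 1 := by field_simp; ring
  linarith

lemma sfF_step {x : ℝ} (hx : 1 ≤ x) :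
    x * Real.log x - x ≤ sfF (x + 1) - sfF x ∧
      sfF (x + 1) - sfF x ≤ (x + 1) * Real.log (x + 1) - (x + 1) := by
  obtain ⟨c, hc, hslope⟩ := exists_hasDerivAt_eq_slope sfF (fun x => x * Real.log x - x)
    (by linarith : x < x + 1) sfF_continuous.continuousOn
    (fun y hy => sfF_hasDerivAt (by linarith [hy.1]))
  have h1 : x + 1 - x = 1 := by ring
  rw [h1, div_one] at hslope
  rw [← hslope]
  exact ⟨dF_mono hx hc.1.le, dF_mono (by linarith [hc.1]) hc.2.le⟩

/-- `n log n - n ≤ log n! ≤ (n+1) log (n+1) - n` -/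
lemma log_fac_bounds (n : ℕ) : (n : ℝ) * Real.log n - n ≤ Real.log n.factorial ∧
    Real.log n.factorial ≤ ((n : ℝ) + 1) * Real.log (n + 1) - n := by
  induction n with
  | zero => simp
  | succ n ih =>
    have hfac : Real.log ((n + 1).factorial : ℝ) = Real.log (n + 1) + Real.log n.factorial := by
      rw [Nat.factorial_succ]
      push_cast
      rw [Real.log_mul (by positivity) (by positivity)]
    rw [hfac]
    push_cast
    constructor
    · rcases Nat.eq_zero_or_pos n with rfl | hn
      · simp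
      · have hn' : (1 : ℝ) ≤ n := by exact_mod_cast hn
        have := dF_step hn'
        linarith [ih.1]
    · -- (n+1) log(n+1) - n + log(n+1) ≤ (n+2) log(n+2) - (n+1)
      have hn' : (1 : ℝ) ≤ (n : ℝ) + 1 := by
        have : (0 : ℝ) ≤ n := Nat.cast_nonneg n
        linarith
      have h1 : 1 - (((n : ℝ) + 1 + 1) / ((n : ℝ) + 1))⁻¹ ≤ Real.log (((n : ℝ) + 1 + 1) / ((n : ℝ) + 1)) :=
        Real.one_sub_inv_le_log_of_pos (by positivity)
      rw [Real.log_div (by linarith) (by linarith), inv_div] at h1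
      have h2 : ((n : ℝ) + 1 + 1) * (1 - ((n : ℝ) + 1) / ((n : ℝ) + 1 + 1)) ≤
          ((n : ℝ) + 1 + 1) * (Real.log ((n : ℝ) + 1 + 1) - Real.log ((n : ℝ) + 1)) :=
        mul_le_mul_of_nonneg_left h1 (by linarith)
      have h3 : ((n : ℝ) + 1 + 1) * (1 - ((n : ℝ) + 1) / ((n : ℝ) + 1 + 1)) = 1 := by
        have : (n : ℝ) + 1 + 1 ≠ 0 := by linarith
        field_simp; ring
      linarith [ih.2]

/-- **superfactorial Stirling** -/
theorem log_sf_bound (n : ℕ) (hn : 1 ≤ n) :
    |Real.log (sf n) - sfF n| ≤ n * (Real.log n + 1) := by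
  induction n, hn using Nat.le_induction with
  | base => simp [sf, sfF]; norm_num
  | succ n hn ih =>
    have hn' : (1 : ℝ) ≤ n := by exact_mod_cast hn
    have h1 := log_fac_bounds n
    have h2 := sfF_step hn'
    have h3 := dF_step hn'
    have hsf : Real.log (sf (n + 1)) = Real.log (sf n) + Real.log n.factorial := by
      rw [sf_succ]
      push_cast
      rw [Real.log_mul (by exact_mod_cast (sf_pos n).ne') (by positivity)]
    have hlog : Real.log n ≤ Real.log (n + 1) := Real.log_le_log (by linarith) (by linarith)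
    rw [hsf]
    push_cast
    rw [abs_le] at ih ⊢
    constructor
    · nlinarith [ih.1, h1.1, h2.2]
    · nlinarith [ih.2, h1.2, h2.1]

lemma abs_dF_le {x M : ℝ} (hx : 0 < x) (hxM : x ≤ M) (hM : 1 ≤ M) :
    |x * Real.log x - x| ≤ M * (Real.log M + 1) := by
  have hlM : 0 ≤ Real.log M := Real.log_nonneg hM
  rw [abs_le]
  constructor
  · -- x log x - x ≥ -1
    have h := Real.one_sub_inv_le_log_of_pos hx
    have h2 : x * (1 - x⁻¹) ≤ x * Real.log x := mul_le_mul_of_nonneg_left h hx.le
    have h3 : x * (1 - x⁻¹) = x - 1 := by field_simp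
    nlinarith
  · have h1 : Real.log x ≤ Real.log M := Real.log_le_log hx hxM
    nlinarith [mul_le_mul_of_nonneg_left h1 hx.le, mul_le_mul_of_nonneg_right hxM hlM]

lemma sfF_sub_le {x y M : ℝ} (hx : 0 ≤ x) (hy : 0 ≤ y) (hxM : x ≤ M) (hyM : y ≤ M) (hM : 1 ≤ M) :
    |sfF x - sfF y| ≤ M * (Real.log M + 1) * |x - y| := by
  wlog h : y ≤ x generalizing x y
  · rw [abs_sub_comm (sfF x), abs_sub_comm x]
    exact this hy hx hyM hxM (le_of_not_ge h)
  rcases h.eq_or_lt with rfl | h
  · simp
  obtain ⟨c, hc, hslope⟩ := exists_hasDerivAt_eq_slope sfF (fun x => x * Real.log x - x)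
    h sfF_continuous.continuousOn (fun z hz => sfF_hasDerivAt (by linarith [hz.1]))
  have hxy : 0 < x - y := by linarith
  have h1 : sfF x - sfF y = (c * Real.log c - c) * (x - y) := by
    rw [hslope]; field_simp
  rw [h1, abs_mul]
  exact mul_le_mul_of_nonneg_right (abs_dF_le (by linarith [hc.1]) (by linarith [hc.2]) hM)
    (abs_nonneg _)

lemma sfF_mul {α n : ℝ} (hα : 0 ≤ α) (hn : 0 < n) :
    sfF (α * n) = α ^ 2 / 2 * (n ^ 2 * Real.log n) + sfF α * n ^ 2 := by
  rcases hα.eq_or_lt with rfl | hα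
  · simp [sfF]
  · unfold sfF
    rw [Real.log_mul hα.ne' hn.ne']
    ring

/-- **scaled superfactorial**: `a = α n + O(1)`. -/
theorem log_sf_scaled (α C0 : ℝ) (hα : 0 ≤ α) : ∃ K : ℝ, 0 ≤ K ∧ ∀ n : ℕ, 2 ≤ n → ∀ a : ℕ,
    |(a : ℝ) - α * n| ≤ C0 →
      |Real.log (sf a) - (α ^ 2 / 2 * ((n : ℝ) ^ 2 * Real.log n) + sfF α * (n : ℝ) ^ 2)|
        ≤ K * (n * Real.log n) := by
  -- M = (α + |C0| + 1) n
  set A : ℝ := α + |C0| + 1 with hA
  have hA1 : 1 ≤ A := by rw [hA]; nlinarith [abs_nonneg C0]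
  have hlA : 0 ≤ Real.log A := Real.log_nonneg hA1
  have hl2 : 0 < Real.log 2 := Real.log_pos (by norm_num)
  set B : ℝ := A * (1 + (Real.log A + 1) / Real.log 2) with hB
  have hB0 : 0 ≤ B := by positivity
  refine ⟨B + B * |C0|, by positivity, fun n hn a ha => ?_⟩
  have hn2 : (2 : ℝ) ≤ n := by exact_mod_cast hn
  have hn0 : (0 : ℝ) < n := by linarith
  have hln : Real.log 2 ≤ Real.log n := Real.log_le_log (by norm_num) hn2
  have haM : (a : ℝ) ≤ A * n := by
    have h1 := (abs_le.mp ha).2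
    have h2 : C0 ≤ |C0| := le_abs_self C0
    have h3 : |C0| ≤ |C0| * n := by nlinarith [abs_nonneg C0]
    rw [hA]
    nlinarith
  have hαM : α * n ≤ A * n := by
    apply mul_le_mul_of_nonneg_right _ hn0.le
    rw [hA]; nlinarith [abs_nonneg C0]
  have hM1 : 1 ≤ A * n := by nlinarith
  have hMlog : A * n * (Real.log (A * n) + 1) ≤ B * (n * Real.log n) := by
    rw [Real.log_mul (by linarith) hn0.ne']
    have h1 : Real.log A + 1 ≤ (Real.log A + 1) / Real.log 2 * Real.log n := by
      rw [div_mul_eq_mul_div, le_div_iff₀ hl2]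
      exact mul_le_mul_of_nonneg_left hln (by linarith)
    have h2 : A * n * (Real.log A + Real.log n + 1) ≤
        A * n * ((Real.log A + 1) / Real.log 2 * Real.log n + Real.log n) := by
      apply mul_le_mul_of_nonneg_left _ (by positivity)
      linarith
    refine h2.trans (le_of_eq ?_)
    rw [hB]; ring
  have h1 : |Real.log (sf a) - sfF a| ≤ A * n * (Real.log (A * n) + 1) := by
    rcases Nat.eq_zero_or_pos a with rfl | ha0
    · simp only [sf_zero, Nat.cast_one, Real.log_one, Nat.cast_zero]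
      have : sfF 0 = 0 := by simp [sfF]
      rw [this, sub_zero, abs_zero]
      have := Real.log_nonneg hM1
      positivity
    · refine (log_sf_bound a ha0).trans ?_
      have ha1 : (1 : ℝ) ≤ a := by exact_mod_cast ha0
      have : Real.log a ≤ Real.log (A * n) := Real.log_le_log (by linarith) haM
      have h0 : 0 ≤ Real.log a := Real.log_nonneg ha1
      exact mul_le_mul haM (by linarith) (by linarith) (by positivity)
  have h2 : |sfF a - sfF (α * n)| ≤ A * n * (Real.log (A * n) + 1) * |C0| := by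
    refine (sfF_sub_le (Nat.cast_nonneg a) (by positivity) haM hαM hM1).trans ?_
    apply mul_le_mul_of_nonneg_left (ha.trans (le_abs_self C0))
    have := Real.log_nonneg hM1
    positivity
  rw [← sfF_mul hα hn0]
  calc |Real.log (sf a) - sfF (α * n)| ≤ |Real.log (sf a) - sfF a| + |sfF a - sfF (α * n)| := by
        have : Real.log (sf a) - sfF (α * n) = (Real.log (sf a) - sfF a) + (sfF a - sfF (α * n)) := by
          ring
        rw [this]
        exact abs_add_le _ _
    _ ≤ A * n * (Real.log (A * n) + 1) + A * n * (Real.log (A * n) + 1) * |C0| := add_le_add h1 h2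
    _ ≤ B * (n * Real.log n) + B * (n * Real.log n) * |C0| := by
        gcongr
    _ = (B + B * |C0|) * (n * Real.log n) := by ring

end Crest.Agent.R006
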