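import Mathlib

/-!
Row 6 (S0006), leaf L3 (helper764): valuations of superfactorials, of Vandermonde products of
integers (plain and weighted), and of cross products, at all levels `p^i`.
-/

set_option autoImplicit false

open Finset

namespace Crest.Agent.R006.PreL3x764

/-! ### 1. superfactorial -/

theorem digits_sum_le (p k : ℕ) (hp : 1 < p) :
    (p.digits k).sum ≤ (p - 1) * (Nat.log p k + 1) := by
  rcases Nat.eq_zero_or_pos k with rfl | hk
  · simp
  · have h1 : (p.digits k).sum ≤ (p.digits k).length • (p - 1) := by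
      apply List.sum_le_card_nsmul
      intro d hd
      have := Nat.digits_lt_base hp hd
      omega
    rw [Nat.length_digits p k hp hk.ne'] at h1
    rw [smul_eq_mul, mul_comm] at h1
    exact h1

/-- `(p-1) * ∑_{k<n} v_p(k!) ≤ ∑_{k<n} k`. -/
theorem sf_upper (p n : ℕ) [hp : Fact p.Prime] :
    (p - 1) * (∑ k ∈ range n, padicValNat p k.factorial) ≤ ∑ k ∈ range n, k := by
  rw [Finset.mul_sum]
  apply Finset.sum_le_sum
  intro k _
  rw [sub_one_mul_padicValNat_factorial]
  exact Nat.sub_le _ _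

/-- `∑_{k<n} k ≤ (p-1) * (∑_{k<n} v_p(k!) + n (log_p n + 1))`. -/
theorem sf_lower (p n : ℕ) [hp : Fact p.Prime] :
    ∑ k ∈ range n, k ≤
      (p - 1) * ((∑ k ∈ range n, padicValNat p k.factorial) + n * (Nat.log p n + 1)) := by
  have hp1 : 1 < p := hp.out.one_lt
  rw [mul_add, Finset.mul_sum]
  have h : ∀ k ∈ range n, k ≤ (p - 1) * padicValNat p k.factorial
      + (p - 1) * (Nat.log p n + 1) := by
    intro k hk
    have hkn : k < n := Finset.mem_range.mp hk
    have h1 : (p - 1) * padicValNat p k.factorial = k - (p.digits k).sum :=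
      sub_one_mul_padicValNat_factorial k
    have h2 := digits_sum_le p k hp1
    have h3 : Nat.log p k ≤ Nat.log p n := Nat.log_mono_right hkn.le
    have h4 : (p - 1) * (Nat.log p k + 1) ≤ (p - 1) * (Nat.log p n + 1) :=
      Nat.mul_le_mul_left _ (by omega)
    rw [h1]
    omega
  calc ∑ k ∈ range n, k ≤ ∑ k ∈ range n, ((p - 1) * padicValNat p k.factorial
      + (p - 1) * (Nat.log p n + 1)) := Finset.sum_le_sum h
    _ = _ := by
      rw [Finset.sum_add_distrib, Finset.sum_const, Finset.card_range, smul_eq_mul]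
      ring

/-- Real form, upper bound. -/
theorem sf_upper_real (p n : ℕ) [hp : Fact p.Prime] :
    ((∑ k ∈ range n, padicValNat p k.factorial : ℕ) : ℝ) ≤ (n : ℝ) ^ 2 / (2 * ((p : ℝ) - 1)) := by
  have hp1 : 1 < p := hp.out.one_lt
  have h := sf_upper p n
  have hs : (∑ k ∈ range n, k) * 2 = n * (n - 1) := Finset.sum_range_id_mul_two n
  have hpr : (0 : ℝ) < (p : ℝ) - 1 := by
    have : (1 : ℝ) < p := by exact_mod_cast hp1
    linarith
  rw [le_div_iff₀ (by positivity)]
  have h' : ((p : ℝ) - 1) * ((∑ k ∈ range n, padicValNat p k.factorial : ℕ) : ℝ)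
      ≤ ((∑ k ∈ range n, k : ℕ) : ℝ) := by
    have := (Nat.cast_le (α := ℝ)).mpr h
    rw [Nat.cast_mul, Nat.cast_sub hp1.le] at this
    simpa using this
  have h2 : ((∑ k ∈ range n, k : ℕ) : ℝ) * 2 ≤ (n : ℝ) ^ 2 := by
    have : (∑ k ∈ range n, k) * 2 ≤ n ^ 2 := by
      rw [hs, sq]; exact Nat.mul_le_mul_left _ (Nat.sub_le _ _)
    exact_mod_cast this
  nlinarith

/-- Real form, lower bound. -/
theorem sf_lower_real (p n : ℕ) [hp : Fact p.Prime] :
    (n : ℝ) ^ 2 / (2 * ((p : ℝ) - 1)) - n * ((Nat.log p n : ℝ) + 2) ≤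
      ((∑ k ∈ range n, padicValNat p k.factorial : ℕ) : ℝ) := by
  have hp1 : 1 < p := hp.out.one_lt
  have h := sf_lower p n
  have hs : (∑ k ∈ range n, k) * 2 = n * (n - 1) := Finset.sum_range_id_mul_two n
  have hpr : (1 : ℝ) ≤ (p : ℝ) - 1 := by
    have : (2 : ℝ) ≤ p := by exact_mod_cast hp1
    linarith
  have h' : ((∑ k ∈ range n, k : ℕ) : ℝ) ≤ ((p : ℝ) - 1) *
      (((∑ k ∈ range n, padicValNat p k.factorial : ℕ) : ℝ) + n * ((Nat.log p n : ℝ) + 1)) := by
    have := (Nat.cast_le (α := ℝ)).mpr h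
    rw [Nat.cast_mul, Nat.cast_sub hp1.le] at this
    push_cast at this ⊢
    simpa using this
  have h2 : ((∑ k ∈ range n, k : ℕ) : ℝ) * 2 = (n : ℝ) ^ 2 - n := by
    rcases Nat.eq_zero_or_pos n with rfl | hn
    · simp
    · have : ((∑ k ∈ range n, k : ℕ) : ℝ) * 2 = ((n * (n - 1) : ℕ) : ℝ) := by
        exact_mod_cast hs
      rw [this, Nat.cast_mul, Nat.cast_sub hn]
      push_cast; ring
  have hn0 : (0 : ℝ) ≤ n := Nat.cast_nonneg n
  have hlhs : (n : ℝ) ^ 2 / (2 * ((p : ℝ) - 1)) ≤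
      ((∑ k ∈ range n, padicValNat p k.factorial : ℕ) : ℝ) + n * ((Nat.log p n : ℝ) + 1) + n := by
    rw [div_le_iff₀ (by linarith)]
    nlinarith
  linarith

/-! ### 2. the valuation of an integer as a count of levels -/

theorem val_eq_sum (p : ℕ) [hp : Fact p.Prime] (z : ℤ) (hz : z ≠ 0) (b : ℕ)
    (hb : z.natAbs < p ^ b) :
    padicValInt p z = ∑ i ∈ Ico 1 b, if ((p : ℤ) ^ i ∣ z) then 1 else 0 := by
  have hzn : z.natAbs ≠ 0 := Int.natAbs_ne_zero.mpr hz
  have hv : padicValInt p z = padicValNat p z.natAbs := rfl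
  set v := padicValNat p z.natAbs with hvdef
  have hlt : v < b := by
    by_contra hcon
    push Not at hcon
    have h1 : p ^ b ∣ z.natAbs := (padicValNat_dvd_iff_le hzn).mpr hcon
    exact absurd (Nat.le_of_dvd (Nat.pos_of_ne_zero hzn) h1) (not_le.mpr hb)
  have hiff : ∀ i, ((p : ℤ) ^ i ∣ z) ↔ i ≤ v := by
    intro i
    rw [← padicValNat_dvd_iff_le hzn, ← Int.natCast_dvd]
    push_cast
    exact Iff.rfl
  rw [hv]
  simp only [hiff]
  rw [Finset.sum_ite, Finset.sum_const_zero, add_zero, Finset.sum_const, smul_eq_mul, mul_one]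
  have : (Ico 1 b).filter (fun i => i ≤ v) = Ico 1 (v + 1) := by
    ext i
    simp only [Finset.mem_filter, Finset.mem_Ico]
    omega
  rw [this, Nat.card_Ico]
  rfl

/-! ### 3. weighted cross products -/

/-- total weight of the class of `c` modulo `m`. -/
def W (A : Finset ℤ) (w : ℤ → ℕ) (m : ℕ) (c : ℤ) : ℕ := ∑ x ∈ A with x % (m : ℤ) = c, w x

theorem sum_pairs_dvd (A B : Finset ℤ) (u v : ℤ → ℕ) (m : ℕ) (hm : 0 < m) :
    ∑ x ∈ A, ∑ y ∈ B, (if ((m : ℤ) ∣ x - y) then u x * v y else 0)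
      = ∑ c ∈ range m, W A u m c * W B v m c := by
  have hm' : (m : ℤ) ≠ 0 := by exact_mod_cast hm.ne'
  have hmpos : (0 : ℤ) < m := by exact_mod_cast hm
  have hR : ∀ c ∈ range m, W A u m c * W B v m c
      = ∑ x ∈ A, ∑ y ∈ B, (if (x % (m:ℤ) = c ∧ y % (m:ℤ) = c) then u x * v y else 0) := by
    intro c _
    unfold W
    rw [Finset.sum_filter, Finset.sum_filter, Finset.sum_mul_sum]
    refine Finset.sum_congr rfl fun x _ => Finset.sum_congr rfl fun y _ => ?_
    by_cases h1 : x % (m:ℤ) = c <;> by_cases h2 : y % (m:ℤ) = c <;> simp [h1, h2]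
  have hpt : ∀ x ∈ A, ∀ y ∈ B, (if ((m : ℤ) ∣ x - y) then u x * v y else 0)
      = ∑ c ∈ range m, (if (x % (m:ℤ) = c ∧ y % (m:ℤ) = c) then u x * v y else 0) := by
    intro x _ y _
    by_cases h : (m : ℤ) ∣ x - y
    · rw [if_pos h]
      have hxy : x % (m:ℤ) = y % (m:ℤ) :=
        Int.emod_eq_emod_iff_emod_sub_eq_zero.mpr (Int.emod_eq_zero_of_dvd h)
      have hx0 : 0 ≤ x % (m:ℤ) := Int.emod_nonneg _ hm'
      have hx1 : x % (m:ℤ) < m := Int.emod_lt_of_pos _ hmpos
      obtain ⟨r, hr⟩ := Int.eq_ofNat_of_zero_le hx0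
      have hrm : r < m := by
        have : ((r : ℕ) : ℤ) < m := by rw [← hr]; exact hx1
        exact_mod_cast this
      rw [Finset.sum_eq_single r]
      · rw [if_pos ⟨hr, by rw [← hxy]; exact hr⟩]
      · intro c _ hc
        rw [if_neg]
        rintro ⟨h1, _⟩
        apply hc
        have : (c : ℤ) = r := by rw [← h1, hr]
        exact_mod_cast this
      · intro h'
        exact absurd (Finset.mem_range.mpr hrm) h'
    · rw [if_neg h]
      symm
      apply Finset.sum_eq_zero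
      intro c _
      rw [if_neg]
      rintro ⟨h1, h2⟩
      exact h (Int.dvd_of_emod_eq_zero
        (Int.emod_eq_emod_iff_emod_sub_eq_zero.mp (h1.trans h2.symm)))
  calc ∑ x ∈ A, ∑ y ∈ B, (if ((m : ℤ) ∣ x - y) then u x * v y else 0)
      = ∑ x ∈ A, ∑ y ∈ B, ∑ c ∈ range m,
          (if (x % (m:ℤ) = c ∧ y % (m:ℤ) = c) then u x * v y else 0) :=
        Finset.sum_congr rfl fun x hx => Finset.sum_congr rfl fun y hy => hpt x hx y hy
    _ = ∑ x ∈ A, ∑ c ∈ range m, ∑ y ∈ B,
          (if (x % (m:ℤ) = c ∧ y % (m:ℤ) = c) then u x * v y else 0) :=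
        Finset.sum_congr rfl fun x _ => Finset.sum_comm
    _ = ∑ c ∈ range m, ∑ x ∈ A, ∑ y ∈ B,
          (if (x % (m:ℤ) = c ∧ y % (m:ℤ) = c) then u x * v y else 0) := Finset.sum_comm
    _ = ∑ c ∈ range m, W A u m c * W B v m c := (Finset.sum_congr rfl hR).symm

theorem padicValInt_prod {ι : Type*} (p : ℕ) [hp : Fact p.Prime] (s : Finset ι) (f : ι → ℤ)
    (hf : ∀ i ∈ s, f i ≠ 0) :
    padicValInt p (∏ i ∈ s, f i) = ∑ i ∈ s, padicValInt p (f i) := by
  classical
  induction s using Finset.induction_on with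
  | empty => simp
  | insert a s ha ih =>
    rw [Finset.prod_insert ha, Finset.sum_insert ha, padicValInt.mul, ih]
    · intro i hi; exact hf i (Finset.mem_insert_of_mem hi)
    · exact hf a (Finset.mem_insert_self _ _)
    · exact Finset.prod_ne_zero_iff.mpr fun i hi => hf i (Finset.mem_insert_of_mem hi)

theorem padicValInt_pow (p : ℕ) [hp : Fact p.Prime] (z : ℤ) (hz : z ≠ 0) (n : ℕ) :
    padicValInt p (z ^ n) = n * padicValInt p z := by
  induction n with
  | zero => simp
  | succ n ih => rw [pow_succ, padicValInt.mul (pow_ne_zero _ hz) hz, ih]; ring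

/-- Valuation of a weighted cross product `∏ (x-y)^{u x * v y}`. -/
theorem val_cross (p : ℕ) [hp : Fact p.Prime] (A B : Finset ℤ) (u v : ℤ → ℕ) (b : ℕ)
    (hne : ∀ x ∈ A, ∀ y ∈ B, x ≠ y)
    (hb : ∀ x ∈ A, ∀ y ∈ B, (x - y).natAbs < p ^ b) :
    padicValInt p (∏ x ∈ A, ∏ y ∈ B, (x - y) ^ (u x * v y))
      = ∑ i ∈ Ico 1 b, ∑ c ∈ range (p ^ i), W A u (p ^ i) c * W B v (p ^ i) c := by
  have hsub : ∀ x ∈ A, ∀ y ∈ B, x - y ≠ 0 := fun x hx y hy => sub_ne_zero.mpr (hne x hx y hy)
  rw [padicValInt_prod p A _ (fun x hx => Finset.prod_ne_zero_iff.mpr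
    fun y hy => pow_ne_zero _ (hsub x hx y hy))]
  have h1 : ∀ x ∈ A, padicValInt p (∏ y ∈ B, (x - y) ^ (u x * v y))
      = ∑ y ∈ B, ∑ i ∈ Ico 1 b, (if (((p ^ i : ℕ) : ℤ) ∣ x - y) then u x * v y else 0) := by
    intro x hx
    rw [padicValInt_prod p B _ (fun y hy => pow_ne_zero _ (hsub x hx y hy))]
    refine Finset.sum_congr rfl fun y hy => ?_
    rw [padicValInt_pow p _ (hsub x hx y hy), val_eq_sum p _ (hsub x hx y hy) b (hb x hx y hy),
      Finset.mul_sum]
    refine Finset.sum_congr rfl fun i _ => ?_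
    push_cast
    split_ifs <;> simp
  rw [Finset.sum_congr rfl h1]
  have h2 : ∀ x ∈ A, (∑ y ∈ B, ∑ i ∈ Ico 1 b,
      (if (((p ^ i : ℕ) : ℤ) ∣ x - y) then u x * v y else 0))
      = ∑ i ∈ Ico 1 b, ∑ y ∈ B, (if (((p ^ i : ℕ) : ℤ) ∣ x - y) then u x * v y else 0) :=
    fun x _ => Finset.sum_comm
  rw [Finset.sum_congr rfl h2, Finset.sum_comm]
  refine Finset.sum_congr rfl fun i _ => ?_
  exact sum_pairs_dvd A B u v (p ^ i) (pow_pos hp.out.pos i)

/-! ### 4. weighted Vandermonde products -/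

/-- the weighted Vandermonde product `∏_{y<x} (x-y)^{w x * w y}`. -/
def VV (A : Finset ℤ) (w : ℤ → ℕ) : ℤ :=
  ∏ x ∈ A, ∏ y ∈ A with y < x, (x - y) ^ (w x * w y)

theorem VV_pos (A : Finset ℤ) (w : ℤ → ℕ) : 0 < VV A w := by
  unfold VV
  refine Finset.prod_pos fun x _ => Finset.prod_pos fun y hy => ?_
  have := (Finset.mem_filter.mp hy).2
  exact pow_pos (by linarith) _

/-- `2 v_p(VV) + ∑_i ∑_x w(x)^2 = ∑_i ∑_c W_c^2`. -/
theorem val_VV (p : ℕ) [hp : Fact p.Prime] (A : Finset ℤ) (w : ℤ → ℕ) (b : ℕ)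
    (hb : ∀ x ∈ A, ∀ y ∈ A, (x - y).natAbs < p ^ b) :
    2 * padicValInt p (VV A w) + (b - 1) * ∑ x ∈ A, (w x) ^ 2
      = ∑ i ∈ Ico 1 b, ∑ c ∈ range (p ^ i), (W A w (p ^ i) c) ^ 2 := by
  classical
  have hsub : ∀ x ∈ A, ∀ y ∈ A.filter (· < x), x - y ≠ 0 := by
    intro x _ y hy
    have := (Finset.mem_filter.mp hy).2
    exact sub_ne_zero.mpr (ne_of_gt this)
  have h1 : padicValInt p (VV A w)
      = ∑ x ∈ A, ∑ y ∈ A, ∑ i ∈ Ico 1 b,
        (if y < x then (if (((p ^ i : ℕ) : ℤ) ∣ x - y) then w x * w y else 0) else 0) := by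
    unfold VV
    rw [padicValInt_prod p A _ (fun x hx => Finset.prod_ne_zero_iff.mpr
      fun y hy => pow_ne_zero _ (hsub x hx y hy))]
    refine Finset.sum_congr rfl fun x hx => ?_
    rw [padicValInt_prod p _ _ (fun y hy => pow_ne_zero _ (hsub x hx y hy)), Finset.sum_filter]
    refine Finset.sum_congr rfl fun y hy => ?_
    by_cases hyx : y < x
    · have hne : x - y ≠ 0 := sub_ne_zero.mpr (ne_of_gt hyx)
      simp only [if_pos hyx]
      rw [padicValInt_pow p _ hne, val_eq_sum p _ hne b (hb x hx y hy), Finset.mul_sum]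
      refine Finset.sum_congr rfl fun i _ => ?_
      push_cast
      split_ifs <;> simp
    · simp [if_neg hyx]
  have hswap : padicValInt p (VV A w)
      = ∑ x ∈ A, ∑ y ∈ A, ∑ i ∈ Ico 1 b,
        (if x < y then (if (((p ^ i : ℕ) : ℤ) ∣ x - y) then w x * w y else 0) else 0) := by
    rw [h1, Finset.sum_comm]
    refine Finset.sum_congr rfl fun x _ => Finset.sum_congr rfl fun y _ =>
      Finset.sum_congr rfl fun i _ => ?_
    have : (((p ^ i : ℕ) : ℤ) ∣ y - x) ↔ (((p ^ i : ℕ) : ℤ) ∣ x - y) := dvd_sub_comm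
    rw [mul_comm (w y) (w x)]
    simp only [this]
  have hdiag : (b - 1) * ∑ x ∈ A, (w x) ^ 2
      = ∑ x ∈ A, ∑ y ∈ A, ∑ i ∈ Ico 1 b,
        (if x = y then (if (((p ^ i : ℕ) : ℤ) ∣ x - y) then w x * w y else 0) else 0) := by
    rw [Finset.mul_sum]
    refine Finset.sum_congr rfl fun x hx => ?_
    rw [Finset.sum_eq_single x]
    · simp [sq]
    · intro y _ hyx
      simp [Ne.symm hyx]
    · intro h; exact absurd hx h
  rw [two_mul]
  nth_rewrite 1 [h1]
  rw [hswap, hdiag, ← Finset.sum_add_distrib, ← Finset.sum_add_distrib]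
  have h3 : ∀ x ∈ A, ((∑ y ∈ A, ∑ i ∈ Ico 1 b,
        (if y < x then (if (((p ^ i : ℕ) : ℤ) ∣ x - y) then w x * w y else 0) else 0))
      + (∑ y ∈ A, ∑ i ∈ Ico 1 b,
        (if x < y then (if (((p ^ i : ℕ) : ℤ) ∣ x - y) then w x * w y else 0) else 0)))
      + (∑ y ∈ A, ∑ i ∈ Ico 1 b,
        (if x = y then (if (((p ^ i : ℕ) : ℤ) ∣ x - y) then w x * w y else 0) else 0))
      = ∑ i ∈ Ico 1 b, ∑ y ∈ A, (if (((p ^ i : ℕ) : ℤ) ∣ x - y) then w x * w y else 0) := by
    intro x _
    rw [← Finset.sum_add_distrib, ← Finset.sum_add_distrib, Finset.sum_comm (s := Ico 1 b)]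
    refine Finset.sum_congr rfl fun y _ => ?_
    rw [← Finset.sum_add_distrib, ← Finset.sum_add_distrib]
    refine Finset.sum_congr rfl fun i _ => ?_
    rcases lt_trichotomy y x with h | h | h
    · simp [h, not_lt.mpr h.le, ne_of_gt h]
    · subst h; simp
    · simp [h, not_lt.mpr h.le, ne_of_lt h]
  rw [Finset.sum_congr rfl h3, Finset.sum_comm]
  refine Finset.sum_congr rfl fun i _ => ?_
  rw [sum_pairs_dvd A A w w (p ^ i) (pow_pos hp.out.pos i)]
  exact Finset.sum_congr rfl fun c _ => (sq _).symm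

/-! ### 5. unweighted forms, determinants, intervals -/

/-- number of elements of `A` in the class of `c` modulo `m`. -/
def cls (A : Finset ℤ) (m : ℕ) (c : ℤ) : ℕ := (A.filter fun x => x % (m : ℤ) = c).card

theorem W_one (A : Finset ℤ) (m : ℕ) (c : ℤ) : W A (fun _ => 1) m c = cls A m c := by
  unfold W cls; simp

theorem cls_mono {A B : Finset ℤ} (h : A ⊆ B) (m : ℕ) (c : ℤ) : cls A m c ≤ cls B m c :=
  Finset.card_le_card (Finset.filter_subset_filter _ h)

/-- the classes partition `A`. -/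
theorem sum_W (A : Finset ℤ) (w : ℤ → ℕ) (m : ℕ) (hm : 0 < m) :
    ∑ c ∈ range m, W A w m c = ∑ x ∈ A, w x := by
  have hm' : (m : ℤ) ≠ 0 := by exact_mod_cast hm.ne'
  have hmpos : (0 : ℤ) < m := by exact_mod_cast hm
  unfold W
  simp only [Finset.sum_filter]
  rw [Finset.sum_comm]
  refine Finset.sum_congr rfl fun x _ => ?_
  have hx0 : 0 ≤ x % (m:ℤ) := Int.emod_nonneg _ hm'
  have hx1 : x % (m:ℤ) < m := Int.emod_lt_of_pos _ hmpos
  obtain ⟨r, hr⟩ := Int.eq_ofNat_of_zero_le hx0
  have hrm : r < m := by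
    have : ((r : ℕ) : ℤ) < m := by rw [← hr]; exact hx1
    exact_mod_cast this
  rw [Finset.sum_eq_single r]
  · rw [if_pos hr]
  · intro c _ hc
    rw [if_neg]
    intro h1
    apply hc
    have : (c : ℤ) = r := by rw [← h1, hr]
    exact_mod_cast this
  · intro h'
    exact absurd (Finset.mem_range.mpr hrm) h'

/-- the plain Vandermonde product `∏_{y<x} (x-y)` over `A`. -/
def V (A : Finset ℤ) : ℤ := ∏ x ∈ A, ∏ y ∈ A with y < x, (x - y)

theorem V_eq_VV (A : Finset ℤ) : V A = VV A (fun _ => 1) := by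
  unfold V VV; simp

theorem V_pos (A : Finset ℤ) : 0 < V A := by rw [V_eq_VV]; exact VV_pos _ _

/-- `v_p(V A) = ∑_i ∑_c C(#class, 2)`. -/
theorem val_V (p : ℕ) [hp : Fact p.Prime] (A : Finset ℤ) (b : ℕ)
    (hb : ∀ x ∈ A, ∀ y ∈ A, (x - y).natAbs < p ^ b) :
    padicValInt p (V A) = ∑ i ∈ Ico 1 b, ∑ c ∈ range (p ^ i), (cls A (p ^ i) c).choose 2 := by
  have h := val_VV p A (fun _ => 1) b hb
  rw [← V_eq_VV] at h
  simp only [W_one, one_pow, Finset.sum_const, smul_eq_mul, mul_one] at h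
  have hcard : ∀ i ∈ Ico 1 b, ∑ c ∈ range (p ^ i), cls A (p ^ i) c = A.card := by
    intro i _
    have := sum_W A (fun _ => 1) (p ^ i) (pow_pos hp.out.pos i)
    simp only [W_one, Finset.sum_const, smul_eq_mul, mul_one] at this
    exact this
  have h2 : ∀ m : ℕ, m ^ 2 = 2 * m.choose 2 + m := by
    intro m
    have h3 : m.choose 2 * 2 = m * (m - 1) := by
      rw [Nat.choose_two_right]
      exact Nat.div_mul_cancel (Nat.even_mul_pred_self m).two_dvd
    rcases Nat.eq_zero_or_pos m with rfl | hm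
    · simp
    · obtain ⟨k, rfl⟩ := Nat.exists_eq_succ_of_ne_zero hm.ne'
      rw [Nat.succ_sub_one] at h3
      rw [mul_comm 2, h3, Nat.succ_eq_add_one]; ring
  have h4 : ∑ i ∈ Ico 1 b, ∑ c ∈ range (p ^ i), (cls A (p ^ i) c) ^ 2
      = 2 * (∑ i ∈ Ico 1 b, ∑ c ∈ range (p ^ i), (cls A (p ^ i) c).choose 2)
        + (b - 1) * A.card := by
    have : ∀ i ∈ Ico 1 b, ∑ c ∈ range (p ^ i), (cls A (p ^ i) c) ^ 2
        = 2 * (∑ c ∈ range (p ^ i), (cls A (p ^ i) c).choose 2) + A.card := by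
      intro i hi
      rw [← hcard i hi, Finset.mul_sum, ← Finset.sum_add_distrib]
      exact Finset.sum_congr rfl fun c _ => h2 _
    rw [Finset.sum_congr rfl this, Finset.sum_add_distrib, ← Finset.mul_sum, Finset.sum_const,
      Nat.card_Ico, smul_eq_mul]
  rw [h4] at h
  omega

/-- valuation of `det (vandermonde v)` for an injective integer family. -/
theorem val_det_vandermonde (p : ℕ) [hp : Fact p.Prime] {n : ℕ} (v : Fin n → ℤ)
    (hv : Function.Injective v) (b : ℕ) (hb : ∀ i j, (v i - v j).natAbs < p ^ b) :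
    padicValInt p (Matrix.det (Matrix.vandermonde v))
      = ∑ i ∈ Ico 1 b, ∑ c ∈ range (p ^ i),
        (cls (Finset.univ.image v) (p ^ i) c).choose 2 := by
  classical
  have hsub : ∀ i : Fin n, ∀ j ∈ Finset.Ioi i, v j - v i ≠ 0 := by
    intro i j hj
    exact sub_ne_zero.mpr fun h => (ne_of_gt (Finset.mem_Ioi.mp hj)) (hv h)
  have key : 2 * padicValInt p (Matrix.det (Matrix.vandermonde v))
      = 2 * padicValInt p (V (Finset.univ.image v)) := by
    have e1 : padicValInt p (Matrix.det (Matrix.vandermonde v))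
        = ∑ i : Fin n, ∑ j : Fin n, if i < j then padicValInt p (v j - v i) else 0 := by
      rw [Matrix.det_vandermonde, padicValInt_prod p _ _ (fun i _ =>
        Finset.prod_ne_zero_iff.mpr (hsub i))]
      refine Finset.sum_congr rfl fun i _ => ?_
      rw [padicValInt_prod p _ _ (hsub i), ← Finset.sum_filter]
      refine Finset.sum_congr ?_ fun _ _ => rfl
      ext j; simp
    have e2 : padicValInt p (Matrix.det (Matrix.vandermonde v))
        = ∑ i : Fin n, ∑ j : Fin n, if j < i then padicValInt p (v j - v i) else 0 := by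
      rw [e1, Finset.sum_comm]
      refine Finset.sum_congr rfl fun i _ => Finset.sum_congr rfl fun j _ => ?_
      split_ifs
      · rw [← neg_sub (v j) (v i)]; unfold padicValInt; rw [Int.natAbs_neg]
      · rfl
    have e3 : padicValInt p (V (Finset.univ.image v))
        = ∑ i : Fin n, ∑ j : Fin n, if v j < v i then padicValInt p (v i - v j) else 0 := by
      unfold V
      rw [padicValInt_prod p _ _ (fun x hx => Finset.prod_ne_zero_iff.mpr fun y hy =>
        sub_ne_zero.mpr (ne_of_gt (Finset.mem_filter.mp hy).2)),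
        Finset.sum_image (fun i _ j _ h => hv h)]
      refine Finset.sum_congr rfl fun i _ => ?_
      rw [padicValInt_prod p _ _ (fun y hy =>
        sub_ne_zero.mpr (ne_of_gt (Finset.mem_filter.mp hy).2)), Finset.sum_filter,
        Finset.sum_image (fun i _ j _ h => hv h)]
    have e4 : padicValInt p (V (Finset.univ.image v))
        = ∑ i : Fin n, ∑ j : Fin n, if v i < v j then padicValInt p (v i - v j) else 0 := by
      rw [e3, Finset.sum_comm]
      refine Finset.sum_congr rfl fun i _ => Finset.sum_congr rfl fun j _ => ?_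
      split_ifs
      · rw [← neg_sub (v i) (v j)]; unfold padicValInt; rw [Int.natAbs_neg]
      · rfl
    rw [two_mul, two_mul]
    nth_rewrite 1 [e1]
    rw [e2]
    nth_rewrite 1 [e3]
    rw [e4, ← Finset.sum_add_distrib, ← Finset.sum_add_distrib]
    refine Finset.sum_congr rfl fun i _ => ?_
    rw [← Finset.sum_add_distrib, ← Finset.sum_add_distrib]
    refine Finset.sum_congr rfl fun j _ => ?_
    have hsym : padicValInt p (v j - v i) = padicValInt p (v i - v j) := by
      rw [← neg_sub (v i) (v j)]; unfold padicValInt; rw [Int.natAbs_neg]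
    rw [hsym]
    rcases lt_trichotomy i j with h | h | h
    · have hne : v i ≠ v j := fun e => h.ne (hv e)
      rcases lt_or_gt_of_ne hne with h' | h'
      · simp [h, not_lt.mpr h.le, h', not_lt.mpr h'.le]
      · simp [h, not_lt.mpr h.le, h', not_lt.mpr h'.le]
    · subst h; simp
    · have hne : v i ≠ v j := fun e => h.ne' (hv e)
      rcases lt_or_gt_of_ne hne with h' | h'
      · simp [h, not_lt.mpr h.le, h', not_lt.mpr h'.le]
      · simp [h, not_lt.mpr h.le, h', not_lt.mpr h'.le]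
  have h := val_V p (Finset.univ.image v) b (by
    intro x hx y hy
    obtain ⟨i, _, rfl⟩ := Finset.mem_image.mp hx
    obtain ⟨j, _, rfl⟩ := Finset.mem_image.mp hy
    exact hb i j)
  rw [← h]
  omega

/-- class counts of an interval: `N / m ≤ # ≤ N / m + 1`. -/
theorem cls_Ico (u : ℤ) (N m : ℕ) (hm : 0 < m) (c : ℤ) (hc0 : 0 ≤ c) (hcm : c < m) :
    N / m ≤ cls (Finset.Ico u (u + N)) m c ∧ cls (Finset.Ico u (u + N)) m c ≤ N / m + 1 := by
  have hmpos : (0 : ℤ) < m := by exact_mod_cast hm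
  -- the first element of the class which is `≥ u`
  set r : ℤ := (c - u) % m with hr
  have hr0 : 0 ≤ r := Int.emod_nonneg _ hmpos.ne'
  have hr1 : r < m := Int.emod_lt_of_pos _ hmpos
  have hset : (Finset.Ico u (u + N)).filter (fun x => x % (m:ℤ) = c)
      = ((Finset.range (N + 1)).filter (fun k : ℕ => r + m * (k : ℤ) < N)).image
        (fun k : ℕ => u + r + m * (k : ℤ)) := by
    ext x
    simp only [Finset.mem_filter, Finset.mem_Ico, Finset.mem_image, Finset.mem_range]
    constructor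
    · rintro ⟨⟨h1, h2⟩, h3⟩
      have hd : (m : ℤ) ∣ (x - u) - r := by
        have e1 : (x - u) % (m:ℤ) = (c - u) % (m:ℤ) := by
          rw [← h3, Int.emod_sub_emod]
        rw [hr, ← e1]
        refine ⟨(x - u) / m, ?_⟩
        have := Int.emod_add_mul_ediv (x - u) m
        linarith
      obtain ⟨k, hk⟩ := hd
      have hk0 : 0 ≤ k := by
        by_contra hneg
        push Not at hneg
        have : (m : ℤ) * k ≤ -m := by nlinarith
        linarith
      obtain ⟨n, rfl⟩ := Int.eq_ofNat_of_zero_le hk0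
      refine ⟨n, ⟨?_, by linarith⟩, by linarith⟩
      have : (n : ℤ) < N + 1 := by nlinarith
      exact_mod_cast this
    · rintro ⟨k, ⟨_, h2⟩, rfl⟩
      have hk : (0 : ℤ) ≤ m * (k : ℤ) := by positivity
      refine ⟨⟨by linarith, by linarith⟩, ?_⟩
      have : u + r + (m:ℤ) * (k : ℤ) = c + m * ((k : ℤ) - (c - u) / m) := by
        have := Int.emod_add_mul_ediv (c - u) m
        rw [← hr] at this
        linarith
      rw [this, Int.add_mul_emod_self_left, Int.emod_eq_of_lt hc0 hcm]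
  have hinj : Function.Injective (fun k : ℕ => u + r + (m:ℤ) * (k : ℤ)) := by
    intro a b hab
    have : (m : ℤ) * a = m * b := by
      have := hab
      simp only at this
      linarith
    exact_mod_cast mul_left_cancel₀ hmpos.ne' this
  unfold cls
  rw [hset, Finset.card_image_of_injective _ hinj]
  have hNm : (m : ℤ) * ((N / m : ℕ) : ℤ) ≤ N := by exact_mod_cast Nat.mul_div_le N m
  have hNm2 : (N : ℤ) < m * (((N / m : ℕ) : ℤ) + 1) := by
    exact_mod_cast Nat.lt_mul_div_succ N hm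
  constructor
  · calc N / m = (Finset.range (N / m)).card := (Finset.card_range _).symm
      _ ≤ _ := Finset.card_le_card (by
        intro k hk
        have hk' : k < N / m := Finset.mem_range.mp hk
        have hk2 : (k : ℤ) + 1 ≤ ((N / m : ℕ) : ℤ) := by exact_mod_cast hk'
        have h3 : (m : ℤ) * ((k : ℤ) + 1) ≤ m * ((N / m : ℕ) : ℤ) :=
          mul_le_mul_of_nonneg_left hk2 hmpos.le
        refine Finset.mem_filter.mpr ⟨Finset.mem_range.mpr ?_, by nlinarith⟩
        have : N / m ≤ N := Nat.div_le_self _ _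
        omega)
  · calc _ ≤ (Finset.range (N / m + 1)).card := Finset.card_le_card (by
        intro k hk
        have h2 := (Finset.mem_filter.mp hk).2
        rw [Finset.mem_range]
        by_contra hcon
        push Not at hcon
        have hk2 : ((N / m : ℕ) : ℤ) + 1 ≤ (k : ℤ) := by exact_mod_cast hcon
        have h3 : (m : ℤ) * (((N / m : ℕ) : ℤ) + 1) ≤ m * (k : ℤ) :=
          mul_le_mul_of_nonneg_left hk2 hmpos.le
        linarith)
      _ = _ := Finset.card_range _

end Crest.Agent.R006.PreL3x764
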