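import Crest.Agent.R006.ClsCount_764
import Crest.Agent.R006.Pre_L3_764
import Crest.Agent.R006.P9_SF_481

/-!
# Row 6 (S0006), block P8 (helper555): `p`-adic side of the normalising factorials

In the language of `CellDefs_365` (`jst`):
* `padicVal_sf` : `v_p(sf n) = ∑_{1 ≤ i < b} ∑_{c < p^i} C(cnt n (p^i) c, 2)` for `n ≤ p^b`;
* `padicVal_sf_sq` : `v_p(sf n) = ∑_{c < p} C(cnt n p c, 2)` for `n ≤ p^2`;
* `cnt_eq_jst` : `cnt (M N) p c = jst M 0 N p c`;
* `two_val_sf_jst`, `two_val_sf_ratio_jst` : `2 v_p = ∑_c j (j - 1)` with `j = jst M 0 N p c`;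
* `val_factorial_strip` : `v_p((M N)!) = f` as soon as `f p ≤ M N < (f+1) p`, `f < p`;
* `val_window_cross` : `v_p(∏∏ ((2i+h)-(2j+h')))` of two disjoint windows (types `h, h' ∈ {0,1}`);
* `log_eq_sum_padic`, `log_sf_eq` : `log n = ∑_p v_p(n) log p`.
-/

set_option autoImplicit false

open Finset

namespace Crest.Agent.R006.RefClass555

open Crest.Agent.R006.P8 (jst)
open Crest.Agent.R006.ClsCountx764

/-! ### 1. class counts of `[0, n)` -/

/-- number of `j < n` with `j ≡ c` modulo `m` (for `c < m`) -/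
def cnt (n m c : ℕ) : ℕ := (n + m - 1 - c) / m

lemma cnt_zero (m c : ℕ) (hc : c < m) : cnt 0 m c = 0 := by
  unfold cnt
  apply Nat.div_eq_of_lt
  omega

lemma dvd_iff_mod (n m c : ℕ) (hc : c < m) : m ∣ n + m - c ↔ n % m = c := by
  have hm : 0 < m := by omega
  have hr := Nat.mod_lt n hm
  have hq := Nat.div_add_mod n m
  constructor
  · rintro ⟨k, hk⟩
    -- m * q + r + m - c = m * k
    have h1 : m * (n / m) + (n % m + m - c) = m * k := by omega
    have h2 : m ∣ n % m + m - c := (Nat.dvd_add_right (dvd_mul_right m _)).mp ⟨k, h1⟩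
    obtain ⟨t, ht⟩ := h2
    have ht1 : t = 1 := by
      rcases Nat.lt_or_ge t 1 with h | h
      · have : t = 0 := by omega
        subst this
        rw [mul_zero] at ht
        omega
      · rcases Nat.lt_or_ge 1 t with h' | h'
        · have : m * 2 ≤ m * t := Nat.mul_le_mul_left m h'
          omega
        · omega
    subst ht1
    omega
  · intro h
    refine ⟨n / m + 1, ?_⟩
    rw [mul_add, mul_one]
    omega

lemma cnt_succ (n m c : ℕ) (hc : c < m) :
    cnt (n + 1) m c = cnt n m c + if n % m = c then 1 else 0 := by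
  unfold cnt
  have e : n + 1 + m - 1 - c = (n + m - 1 - c) + 1 := by omega
  rw [e, Nat.succ_div]
  have e2 : n + m - 1 - c + 1 = n + m - c := by omega
  rw [e2]
  by_cases h : n % m = c
  · rw [if_pos h, if_pos ((dvd_iff_mod n m c hc).mpr h)]
  · rw [if_neg h, if_neg fun h' => h ((dvd_iff_mod n m c hc).mp h')]

lemma cnt_self (n m : ℕ) (hm : 0 < m) : cnt n m (n % m) = n / m := by
  unfold cnt
  have hr := Nat.mod_lt n hm
  have hq := Nat.div_add_mod n m
  have e : n + m - 1 - n % m = (m - 1) + m * (n / m) := by omega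
  rw [e, Nat.add_mul_div_left _ _ hm, Nat.div_eq_of_lt (by omega), zero_add]

theorem sum_div_eq (n m : ℕ) (hm : 0 < m) :
    ∑ k ∈ range n, k / m = ∑ c ∈ range m, (cnt n m c).choose 2 := by
  induction n with
  | zero =>
    rw [Finset.range_zero, Finset.sum_empty]
    symm
    apply Finset.sum_eq_zero
    intro c hc
    rw [cnt_zero m c (Finset.mem_range.mp hc)]
    rfl
  | succ n ih =>
    rw [Finset.sum_range_succ, ih]
    have hr := Nat.mod_lt n hm
    have h1 : ∀ c ∈ range m, (cnt (n + 1) m c).choose 2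
        = (cnt n m c).choose 2 + if n % m = c then n / m else 0 := by
      intro c hc
      rw [cnt_succ n m c (Finset.mem_range.mp hc)]
      by_cases h : n % m = c
      · rw [if_pos h, if_pos h]
        have hcs : cnt n m c = n / m := by rw [← h]; exact cnt_self n m hm
        rw [hcs, Nat.choose_succ_succ' (n / m) 1, Nat.choose_one_right]
        ring
      · rw [if_neg h, if_neg h, add_zero, add_zero]
    rw [Finset.sum_congr rfl h1, Finset.sum_add_distrib]
    congr 1
    rw [Finset.sum_ite_eq, if_pos (Finset.mem_range.mpr hr)]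

/-! ### 2. superfactorials -/

theorem padicVal_sf (p n b : ℕ) [hp : Fact p.Prime] (hb : n ≤ p ^ b) :
    padicValNat p (sf n) = ∑ i ∈ Ico 1 b, ∑ c ∈ range (p ^ i), (cnt n (p ^ i) c).choose 2 := by
  have h1 : padicValNat p (sf n) = ∑ k ∈ range n, padicValNat p k.factorial := by
    clear hb
    induction n with
    | zero => simp [sf]
    | succ n ih =>
      rw [sf_succ, padicValNat.mul (sf_pos n).ne' (Nat.factorial_ne_zero n), ih,
        Finset.sum_range_succ]
  rw [h1]
  have h2 : ∀ k ∈ range n, padicValNat p k.factorial = ∑ i ∈ Ico 1 b, k / p ^ i := by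
    intro k hk
    have hk' : k < p ^ b := lt_of_lt_of_le (Finset.mem_range.mp hk) hb
    rcases Nat.eq_zero_or_pos k with rfl | hk0
    · simp
    · exact padicValNat_factorial (Nat.log_lt_of_lt_pow hk0.ne' hk')
  rw [Finset.sum_congr rfl h2, Finset.sum_comm]
  refine Finset.sum_congr rfl fun i _ => ?_
  exact sum_div_eq n (p ^ i) (pow_pos hp.out.pos i)

theorem padicVal_sf_sq (p n : ℕ) [hp : Fact p.Prime] (hb : n ≤ p ^ 2) :
    padicValNat p (sf n) = ∑ c ∈ range p, (cnt n p c).choose 2 := by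
  rw [padicVal_sf p n 2 hb]
  rw [show Ico 1 2 = {1} from rfl, Finset.sum_singleton, pow_one]

/-! ### 3. the `jst` form -/

theorem cnt_eq_jst (M N p c : ℕ) (hc : c < p) : ((cnt (M * N) p c : ℕ) : ℤ) = jst M 0 N p c := by
  have hp : 0 < p := by omega
  have hpz : (0 : ℤ) < p := by exact_mod_cast hp
  have hd := Nat.div_add_mod (M * N + p - 1 - c) p
  have hm := Nat.mod_lt (M * N + p - 1 - c) hp
  set q := (M * N + p - 1 - c) / p with hq
  have hcnt : cnt (M * N) p c = q := rfl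
  rw [hcnt]
  set t := (M * N + p - 1 - c) % p with ht
  have h1 : p * q + t + c + 1 = M * N + p := by omega
  have h1z : (p : ℤ) * q + t + c + 1 = M * N + p := by exact_mod_cast h1
  have htz : (t : ℤ) < p := by exact_mod_cast hm
  have ht0 : (0 : ℤ) ≤ t := by positivity
  apply le_antisymm
  · by_contra hlt
    push Not at hlt
    have h2 : jst M 0 N p c ≤ (q : ℤ) - 1 := by linarith [Int.add_one_le_iff.mpr hlt]
    rw [jst_le_iff (M : ℤ) 0 N p c _ hpz] at h2
    nlinarith
  · rw [jst_le_iff (M : ℤ) 0 N p c _ hpz]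
    nlinarith

lemma two_mul_choose_two (m : ℕ) : (2 * (m.choose 2 : ℕ) : ℤ) = m * (m - 1) := by
  have h3 : m.choose 2 * 2 = m * (m - 1) := by
    rw [Nat.choose_two_right]
    exact Nat.div_mul_cancel (Nat.even_mul_pred_self m).two_dvd
  rcases Nat.eq_zero_or_pos m with rfl | hm
  · simp
  · have : (m.choose 2 * 2 : ℤ) = m * ((m - 1 : ℕ) : ℤ) := by exact_mod_cast h3
    rw [Nat.cast_sub hm, Nat.cast_one] at this
    linarith

/-- `2 v_p(sf (M N)) = ∑_c j (j-1)`, `j = jst M 0 N p c`. -/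
theorem two_val_sf_jst (M N p : ℕ) [hp : Fact p.Prime] (h : M * N ≤ p ^ 2) :
    (2 * (padicValNat p (sf (M * N)) : ℕ) : ℤ)
      = ∑ c ∈ range p, jst M 0 N p c * (jst M 0 N p c - 1) := by
  rw [padicVal_sf_sq p (M * N) h]
  push_cast
  rw [Finset.mul_sum]
  refine Finset.sum_congr rfl fun c hc => ?_
  rw [← cnt_eq_jst M N p c (Finset.mem_range.mp hc)]
  exact two_mul_choose_two _

/-- `v_p(sf (M N)) = ∑_c j (j-1) / 2`. -/
theorem val_sf_jst (M N p : ℕ) [hp : Fact p.Prime] (h : M * N ≤ p ^ 2) :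
    ((padicValNat p (sf (M * N)) : ℕ) : ℤ)
      = ∑ c ∈ range p, jst M 0 N p c * (jst M 0 N p c - 1) / 2 := by
  rw [padicVal_sf_sq p (M * N) h]
  push_cast
  refine Finset.sum_congr rfl fun c hc => ?_
  rw [← cnt_eq_jst M N p c (Finset.mem_range.mp hc), ← two_mul_choose_two]
  rw [Int.mul_ediv_cancel_left _ (by norm_num)]

/-- `∏_{l<k} (a+l)! = sf (a+k) / sf a` -/
theorem prod_factorial_shift (a k : ℕ) : sf a * ∏ l ∈ range k, (a + l).factorial = sf (a + k) := by
  induction k with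
  | zero => simp
  | succ k ih => rw [Finset.prod_range_succ, ← mul_assoc, ih, ← add_assoc, sf_succ]

/-- the shifted block: `v_p(∏_{l<K N} (A N + l)!)` -/
theorem val_shift_jst (A K N p : ℕ) [hp : Fact p.Prime] (h : (A + K) * N ≤ p ^ 2) :
    ((padicValNat p (∏ l ∈ range (K * N), (A * N + l).factorial) : ℕ) : ℤ)
      = ∑ c ∈ range p, (jst (A + K : ℕ) 0 N p c * (jst (A + K : ℕ) 0 N p c - 1) / 2
          - jst A 0 N p c * (jst A 0 N p c - 1) / 2) := by
  have h1 := prod_factorial_shift (A * N) (K * N)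
  rw [← add_mul] at h1
  have hA : A * N ≤ p ^ 2 := le_trans (Nat.mul_le_mul_right N (Nat.le_add_right A K)) h
  have h2 : padicValNat p (sf (A * N)) + padicValNat p (∏ l ∈ range (K * N), (A * N + l).factorial)
      = padicValNat p (sf ((A + K) * N)) := by
    rw [← h1, padicValNat.mul (sf_pos _).ne'
      (Finset.prod_ne_zero_iff.mpr fun l _ => Nat.factorial_ne_zero _)]
  have h3 := val_sf_jst (A + K) N p h
  have h4 := val_sf_jst A N p hA
  rw [Finset.sum_sub_distrib, ← h3, ← h4, ← h2]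
  push_cast
  ring

/-- `v_p(m!) = f` if `f p ≤ m < (f+1) p` and `f < p` -/
theorem val_factorial_strip (p m f : ℕ) [hp : Fact p.Prime] (h1 : f * p ≤ m)
    (h2 : m < (f + 1) * p) (hf : f < p) : padicValNat p m.factorial = f := by
  have hpp := hp.out.pos
  have hm : m < p ^ 2 := by
    have : (f + 1) * p ≤ p * p := Nat.mul_le_mul_right p hf
    nlinarith
  rcases Nat.eq_zero_or_pos m with rfl | hm0
  · rcases Nat.eq_zero_or_pos f with rfl | hf0
    · simp
    · have : 0 < f * p := Nat.mul_pos hf0 hpp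
      omega
  · rw [padicValNat_factorial (b := 2) (Nat.log_lt_of_lt_pow hm0.ne' hm),
      show Ico 1 2 = {1} from rfl, Finset.sum_singleton, pow_one]
    exact Nat.div_eq_of_lt_le h1 h2

/-! ### 4. cross products of windows -/

/-- `∑∑ [p ∣ (2i+h) - (2j+h')] = ∑_c #_c · #'_c` for two windows of types `h`, `h'`. -/
theorem sum_dvd_windows (A B h A' B' h' N : ℤ) (p : ℕ) (hp : 0 < p) (hpodd : p % 2 = 1)
    (hh : h = 0 ∨ h = 1) (hh' : h' = 0 ∨ h' = 1) :
    (∑ i ∈ Ico (A * N) (B * N), ∑ j ∈ Ico (A' * N) (B' * N),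
        (if ((p : ℤ) ∣ (2 * i + h) - (2 * j + h')) then (1 : ℤ) else 0))
      = ∑ c ∈ range p, max 0 (jst B h N p c - jst A h N p c)
          * max 0 (jst B' h' N p c - jst A' h' N p c) := by
  have hpz : (0 : ℤ) < p := by exact_mod_cast hp
  have hpo : (p : ℤ) % 2 = 1 := by exact_mod_cast hpodd
  have hR : ∀ c ∈ range p, max 0 (jst B h N p c - jst A h N p c)
      * max 0 (jst B' h' N p c - jst A' h' N p c)
      = ∑ i ∈ Ico (A * N) (B * N), ∑ j ∈ Ico (A' * N) (B' * N),
        (if ((p : ℤ) ∣ 2 * i + h - 2 * (c : ℤ)) ∧ ((p : ℤ) ∣ 2 * j + h' - 2 * (c : ℤ))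
          then (1 : ℤ) else 0) := by
    intro c _
    rw [← card_cls A B h N p c hpz hpo hh, ← card_cls A' B' h' N p c hpz hpo hh',
      Finset.card_filter, Finset.card_filter]
    push_cast
    rw [Finset.sum_mul_sum]
    refine Finset.sum_congr rfl fun i _ => Finset.sum_congr rfl fun j _ => ?_
    by_cases h1 : (p : ℤ) ∣ 2 * i + h - 2 * (c : ℤ) <;>
      by_cases h2 : (p : ℤ) ∣ 2 * j + h' - 2 * (c : ℤ) <;> simp [h1, h2]
  have hswap : (∑ c ∈ range p, ∑ i ∈ Ico (A * N) (B * N), ∑ j ∈ Ico (A' * N) (B' * N),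
        (if ((p : ℤ) ∣ 2 * i + h - 2 * (c : ℤ)) ∧ ((p : ℤ) ∣ 2 * j + h' - 2 * (c : ℤ))
          then (1 : ℤ) else 0))
      = ∑ i ∈ Ico (A * N) (B * N), ∑ j ∈ Ico (A' * N) (B' * N), ∑ c ∈ range p,
        (if ((p : ℤ) ∣ 2 * i + h - 2 * (c : ℤ)) ∧ ((p : ℤ) ∣ 2 * j + h' - 2 * (c : ℤ))
          then (1 : ℤ) else 0) := by
    rw [Finset.sum_comm]
    exact Finset.sum_congr rfl fun i _ => Finset.sum_comm
  rw [Finset.sum_congr rfl hR, hswap]
  refine Finset.sum_congr rfl fun i _ => ?_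
  refine Finset.sum_congr rfl fun j _ => ?_
  -- the class of `i`
  obtain ⟨c0, ⟨⟨hc0, hc1⟩, hc2⟩, huniq⟩ := exists_unique_cls h p i hpz hpo
  obtain ⟨n, rfl⟩ := Int.eq_ofNat_of_zero_le hc0
  have hn : n < p := by exact_mod_cast hc1
  rw [Finset.sum_eq_single n]
  · have hiff : ((p : ℤ) ∣ (2 * i + h) - (2 * j + h')) ↔
        (((p : ℤ) ∣ 2 * i + h - 2 * ((n : ℕ) : ℤ)) ∧ ((p : ℤ) ∣ 2 * j + h' - 2 * ((n : ℕ) : ℤ))) := by
      constructor
      · intro hd
        refine ⟨hc2, ?_⟩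
        have := dvd_sub hc2 hd
        have e : 2 * i + h - 2 * ((n : ℕ) : ℤ) - ((2 * i + h) - (2 * j + h'))
            = 2 * j + h' - 2 * ((n : ℕ) : ℤ) := by ring
        rwa [e] at this
      · rintro ⟨h1, h2⟩
        have := dvd_sub h1 h2
        have e : 2 * i + h - 2 * ((n : ℕ) : ℤ) - (2 * j + h' - 2 * ((n : ℕ) : ℤ))
            = (2 * i + h) - (2 * j + h') := by ring
        rwa [e] at this
    by_cases hd : (p : ℤ) ∣ (2 * i + h) - (2 * j + h')
    · rw [if_pos hd, if_pos (hiff.mp hd)]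
    · rw [if_neg hd, if_neg fun h' => hd (hiff.mpr h')]
  · intro c hc hne
    rw [if_neg]
    rintro ⟨h1, _⟩
    apply hne
    have := huniq (c : ℤ) ⟨⟨by positivity, by exact_mod_cast Finset.mem_range.mp hc⟩, h1⟩
    exact_mod_cast this
  · intro hnot
    exact absurd (Finset.mem_range.mpr hn) hnot

/-- **cross product of two disjoint windows** (types `h`, `h'`), all differences `< p^2`. -/
theorem val_window_cross (A B h A' B' h' N : ℤ) (p : ℕ) [hp : Fact p.Prime] (hpodd : p % 2 = 1)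
    (hh : h = 0 ∨ h = 1) (hh' : h' = 0 ∨ h' = 1)
    (hne : ∀ i ∈ Ico (A * N) (B * N), ∀ j ∈ Ico (A' * N) (B' * N), (2 * i + h) - (2 * j + h') ≠ 0)
    (hb : ∀ i ∈ Ico (A * N) (B * N), ∀ j ∈ Ico (A' * N) (B' * N),
      ((2 * i + h) - (2 * j + h')).natAbs < p ^ 2) :
    ((padicValInt p (∏ i ∈ Ico (A * N) (B * N), ∏ j ∈ Ico (A' * N) (B' * N),
        ((2 * i + h) - (2 * j + h'))) : ℕ) : ℤ)
      = ∑ c ∈ range p, max 0 (jst B h N p c - jst A h N p c)
          * max 0 (jst B' h' N p c - jst A' h' N p c) := by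
  rw [← sum_dvd_windows A B h A' B' h' N p hp.out.pos hpodd hh hh']
  rw [PreL3x764.padicValInt_prod p _ _ (fun i hi => Finset.prod_ne_zero_iff.mpr (hne i hi))]
  push_cast
  refine Finset.sum_congr rfl fun i hi => ?_
  rw [PreL3x764.padicValInt_prod p _ _ (fun j hj => hne i hi j hj)]
  push_cast
  refine Finset.sum_congr rfl fun j hj => ?_
  rw [PreL3x764.val_eq_sum p _ (hne i hi j hj) 2 (hb i hi j hj), show Ico 1 2 = {1} from rfl,
    Finset.sum_singleton, pow_one]
  push_cast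
  rfl

/-! ### 5. logarithms -/

/-- `log n = ∑_{p ≤ Y} v_p(n) log p` if all prime factors of `n` are `≤ Y` -/
theorem log_eq_sum_padic (n : ℕ) (Y : ℝ) (hY : ∀ p : ℕ, p.Prime → p ∣ n → (p : ℝ) ≤ Y) :
    Real.log n = ∑ p ∈ pr 0 Y, (padicValNat p n : ℝ) * Real.log p := by
  rw [Real.log_nat_eq_sum_factorization, Finsupp.sum]
  have hsub : n.factorization.support ⊆ pr 0 Y := by
    intro p hp
    rw [Nat.support_factorization, Nat.mem_primeFactors] at hp
    rw [mem_pr]
    exact ⟨hp.1, by exact_mod_cast hp.1.pos, hY p hp.1 hp.2.1⟩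
  rw [← Finset.sum_subset hsub]
  · refine Finset.sum_congr rfl fun p hp => ?_
    rw [Nat.support_factorization, Nat.mem_primeFactors] at hp
    rw [Nat.factorization_def n hp.1]
  · intro p hp hnot
    have hpp := (mem_pr.mp hp).1
    rw [← Nat.factorization_def n hpp, Finsupp.notMem_support_iff.mp hnot]
    simp

theorem log_sf_eq (n : ℕ) (Y : ℝ) (hY : (n : ℝ) ≤ Y) :
    Real.log (sf n) = ∑ p ∈ pr 0 Y, (padicValNat p (sf n) : ℝ) * Real.log p := by
  apply log_eq_sum_padic
  intro p hp hd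
  have : ∃ k ∈ range n, p ∣ k.factorial := by
    unfold sf at hd
    exact (hp.prime.dvd_finsetProd_iff _).mp hd
  obtain ⟨k, hk, hd'⟩ := this
  have h1 : p ≤ k := (hp.dvd_factorial).mp hd'
  have h2 : k < n := Finset.mem_range.mp hk
  refine le_trans ?_ hY
  exact_mod_cast (h1.trans h2.le)

end Crest.Agent.R006.RefClass555
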