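import Crest.Agent.R006.Defs
import Crest.Agent.R006.RefClass_555

/-!
# Row 6: from the binomial bases of `Defs` to the monic (integral) bases

* `MatM S u r` : the matrix of `Defs` with the columns
  `gaugeM * descPochhammer (a1 u + l)` (`R`), `descPochhammer l` (`T`, `Q`);
* `minor_eq` : `Minor S u r = C (cst S u) * (MatM S u r).det`;
* `cst S u = 1 / den S u`, `den S u : ℕ` the product of the factorials;
* `loss_of_monic` : a loss of `det (MatM S u r)` plus `v_p (den S u)` is a loss of `Minor S u r`;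
* `val_den_jst` : `v_p (den S u)` for `p^2 ≥ (a1+k) u, q u, g u` as a class sum (`jst`).
-/

set_option autoImplicit false

namespace Crest.Agent.R006.D

open Polynomial Finset Crest.Agent.R006.NV Crest.Agent.R006.PsiInf Crest.Agent.R006.P8
  Crest.Agent.R006.RefClass555

/-! ### linearity of the entries -/

lemma gm_C_mul (s a : ℚ) (R : ℚ[X]) : gm s (C a * R) = PowerSeries.C a * gm s R := by
  rw [gm_mul, gm_C]

lemma ent0_C_mul (a : ℚ) (R : ℚ[X]) (ρ : Row) : ent0 (C a * R) ρ = a * ent0 R ρ := by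
  have h : tau (C a * R) = C a * tau R := by
    unfold tau
    rw [← smul_eq_C_mul, map_smul, smul_eq_C_mul]
  unfold ent0
  rw [h, gm_C_mul, gm_C_mul, mul_assoc, ← mul_sub, PowerSeries.coeff_C_mul]

lemma ent1_C_mul (a : ℚ) (R : ℚ[X]) (ρ : Row) : ent1 (C a * R) ρ = a * ent1 R ρ := by
  unfold ent1
  rw [gm_C_mul, mul_assoc, PowerSeries.coeff_C_mul]

lemma entT_C_mul (a : ℚ) (R : ℚ[X]) (ρ : Row) : entT (C a * R) ρ = a * entT R ρ := by
  unfold entT
  rw [gm_C_mul, PowerSeries.coeff_C_mul]

lemma entQ_C_mul (a : ℚ) (R : ℚ[X]) (ρ : Row) : entQ (C a * R) ρ = a * entQ R ρ := by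
  unfold entQ
  rw [gm_C_mul, mul_assoc, PowerSeries.coeff_C_mul]

/-! ### the entries with an arbitrary basis -/

/-- the entries for arbitrary families `bR`, `bT`, `bQ` of polynomials -/
noncomputable def entryB (S : Shape) (u : ℕ) (bR bT bQ : ℕ → ℚ[X]) (ρ : Row) :
    Col S u → ℚ[X]
  | .inl l => C (ent0 (bR l) ρ) - X * C (ent1 (bR l) ρ)
  | .inr (.inl l) => C (entT (bT l) ρ)
  | .inr (.inr l) => C (entQ (bQ l) ρ)

/-- the matrix for arbitrary families of polynomials -/
noncomputable def MatB (S : Shape) (u : ℕ) (bR bT bQ : ℕ → ℚ[X]) (r : Col S u → Row) :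
    Matrix (Col S u) (Col S u) ℚ[X] :=
  Matrix.of fun i j => entryB S u bR bT bQ (r i) j

theorem Mat_eq_MatB (S : Shape) (u : ℕ) (r : Col S u → Row) :
    Mat S u r = MatB S u (polR S u) bin bin r := by
  ext i j
  rcases j with l | l | l <;> rfl

/-- the column factors -/
def colF (S : Shape) (u : ℕ) (cR cT cQ : ℕ → ℚ) : Col S u → ℚ
  | .inl l => cR l
  | .inr (.inl l) => cT l
  | .inr (.inr l) => cQ l

theorem det_MatB_scale (S : Shape) (u : ℕ) (bR bT bQ : ℕ → ℚ[X]) (cR cT cQ : ℕ → ℚ)
    (r : Col S u → Row) :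
    (MatB S u (fun l => C (cR l) * bR l) (fun l => C (cT l) * bT l) (fun l => C (cQ l) * bQ l)
      r).det
      = C ((∏ l ∈ range (S.k * u), cR l) * ((∏ l ∈ range (S.q * u), cT l)
          * ∏ l ∈ range (S.g * u), cQ l)) * (MatB S u bR bT bQ r).det := by
  have h1 : MatB S u (fun l => C (cR l) * bR l) (fun l => C (cT l) * bT l)
      (fun l => C (cQ l) * bQ l) r
      = Matrix.of fun i j => C (colF S u cR cT cQ j) * MatB S u bR bT bQ r i j := by
    ext i j : 2
    rcases j with l | l | l
    · simp only [MatB, Matrix.of_apply, entryB, colF, ent0_C_mul, ent1_C_mul, map_mul]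
      ring_nf
    · simp only [MatB, Matrix.of_apply, entryB, colF, entT_C_mul, map_mul]
    · simp only [MatB, Matrix.of_apply, entryB, colF, entQ_C_mul, map_mul]
  have h2 : ∏ j : Col S u, colF S u cR cT cQ j
      = (∏ l ∈ range (S.k * u), cR l) * ((∏ l ∈ range (S.q * u), cT l)
          * ∏ l ∈ range (S.g * u), cQ l) := by
    rw [Fintype.prod_sum_type, Fintype.prod_sum_type, ← Fin.prod_univ_eq_prod_range,
      ← Fin.prod_univ_eq_prod_range, ← Fin.prod_univ_eq_prod_range]
    rfl
  rw [h1, Matrix.det_mul_row, ← map_prod, h2]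

/-! ### the monic bases -/

/-- gauge without the denominators -/
noncomputable def gaugeM (S : Shape) (u : ℕ) : ℚ[X] :=
  descPochhammer ℚ (S.a2 * u)
    * (descPochhammer ℚ (S.i1 * u)).comp (X + C ((S.i1 * u : ℕ) - 1 / 2 : ℚ))
    * (descPochhammer ℚ (S.r1 * u)).comp (X + C ((S.r1 * u : ℕ) : ℚ))

/-- monic `R`-basis -/
noncomputable def polRM (S : Shape) (u l : ℕ) : ℚ[X] :=
  gaugeM S u * descPochhammer ℚ (S.a1 * u + l)

/-- the matrix in the monic bases -/
noncomputable def MatM (S : Shape) (u : ℕ) (r : Col S u → Row) :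
    Matrix (Col S u) (Col S u) ℚ[X] :=
  MatB S u (polRM S u) (fun l => descPochhammer ℚ l) (fun l => descPochhammer ℚ l) r

/-- the product of the three gauge factorials -/
def gden (S : Shape) (u : ℕ) : ℕ :=
  (S.a2 * u).factorial * (S.i1 * u).factorial * (S.r1 * u).factorial

lemma gden_pos (S : Shape) (u : ℕ) : 0 < gden S u := by
  unfold gden
  positivity

/-- the product of all denominators of the binomial bases -/
def den (S : Shape) (u : ℕ) : ℕ :=
  (gden S u ^ (S.k * u) * ∏ l ∈ range (S.k * u), (S.a1 * u + l).factorial)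
    * (sf (S.q * u) * sf (S.g * u))

lemma den_pos (S : Shape) (u : ℕ) : 0 < den S u := by
  unfold den
  have h1 := gden_pos S u
  have h2 : 0 < ∏ l ∈ range (S.k * u), (S.a1 * u + l).factorial :=
    Finset.prod_pos fun l _ => Nat.factorial_pos _
  have h3 := sf_pos (S.q * u)
  have h4 := sf_pos (S.g * u)
  positivity

lemma gauge_eq (S : Shape) (u : ℕ) : gauge S u = C ((gden S u : ℚ)⁻¹) * gaugeM S u := by
  unfold gauge gaugeM bin gden
  simp only [mul_comp, C_comp]
  push_cast
  rw [mul_inv, mul_inv]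
  simp only [map_mul]
  ring

lemma polR_eq (S : Shape) (u l : ℕ) :
    polR S u l = C ((gden S u : ℚ)⁻¹ * ((S.a1 * u + l).factorial : ℚ)⁻¹) * polRM S u l := by
  unfold polR polRM
  rw [gauge_eq, bin, map_mul]
  ring

/-- **change of basis** -/
theorem minor_eq (S : Shape) (u : ℕ) (r : Col S u → Row) :
    Minor S u r = C ((den S u : ℚ)⁻¹) * (MatM S u r).det := by
  unfold Minor MatM
  rw [Mat_eq_MatB]
  have h := det_MatB_scale S u (polRM S u) (fun l => descPochhammer ℚ l)
    (fun l => descPochhammer ℚ l)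
    (fun l => (gden S u : ℚ)⁻¹ * ((S.a1 * u + l).factorial : ℚ)⁻¹)
    (fun l => (l.factorial : ℚ)⁻¹) (fun l => (l.factorial : ℚ)⁻¹) r
  have e1 : (fun l => C ((gden S u : ℚ)⁻¹ * ((S.a1 * u + l).factorial : ℚ)⁻¹) * polRM S u l)
      = polR S u := by
    funext l
    rw [polR_eq]
  have e2 : (fun l : ℕ => C ((l.factorial : ℚ)⁻¹) * descPochhammer ℚ l) = bin := rfl
  rw [e1, e2] at h
  rw [h]
  congr 2
  unfold den
  rw [Finset.prod_mul_distrib, Finset.prod_const, Finset.card_range]
  simp only [Finset.prod_inv_distrib]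
  push_cast
  rw [mul_inv, mul_inv, mul_inv, inv_pow]
  unfold sf
  push_cast
  ring

/-! ### losses -/

/-- `Loss` and scaling by a nonzero constant -/
theorem loss_C_inv_mul {p : ℕ} [hp : Fact p.Prime] {P : ℚ[X]} {E : ℝ} {d : ℕ} (hd : 0 < d)
    (h : Loss p P E) : Loss p (C ((d : ℚ)⁻¹) * P) (E + (padicValNat p d : ℕ)) := by
  intro i hi
  rw [coeff_C_mul] at hi ⊢
  have hPi : P.coeff i ≠ 0 := right_ne_zero_of_mul hi
  have hd0 : (d : ℚ) ≠ 0 := by exact_mod_cast hd.ne'
  rw [padicValRat.mul (inv_ne_zero hd0) hPi, padicValRat.inv, padicValRat.of_nat]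
  have := h i hPi
  rw [Int.cast_add, Int.cast_neg, Int.cast_natCast]
  linarith

/-- **P4 with the monic bases gives P4 with the binomial bases** -/
theorem loss_of_monic {S : Shape} {u p : ℕ} [hp : Fact p.Prime] {r : Col S u → Row} {E : ℝ}
    (h : Loss p (MatM S u r).det E) :
    Loss p (Minor S u r) (E + (padicValNat p (den S u) : ℕ)) := by
  rw [minor_eq]
  exact loss_C_inv_mul (den_pos S u) h

/-- `v_p` of the denominators, the superfactorials in class form -/
theorem val_den (S : Shape) (u p : ℕ) [hp : Fact p.Prime] (h1 : (S.a1 + S.k) * u ≤ p ^ 2)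
    (h2 : S.q * u ≤ p ^ 2) (h3 : S.g * u ≤ p ^ 2) :
    ((padicValNat p (den S u) : ℕ) : ℤ)
      = ∑ c ∈ range p,
          ((jst (S.a1 + S.k : ℕ) 0 u p c * (jst (S.a1 + S.k : ℕ) 0 u p c - 1) / 2
            - jst S.a1 0 u p c * (jst S.a1 0 u p c - 1) / 2)
          + (jst S.q 0 u p c * (jst S.q 0 u p c - 1) / 2
            + jst S.g 0 u p c * (jst S.g 0 u p c - 1) / 2))
        + (S.k * u : ℕ) * ((padicValNat p (S.a2 * u).factorial
            + padicValNat p (S.i1 * u).factorial + padicValNat p (S.r1 * u).factorial : ℕ) : ℤ) := by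
  have hg := gden_pos S u
  have hP : 0 < ∏ l ∈ range (S.k * u), (S.a1 * u + l).factorial :=
    Finset.prod_pos fun l _ => Nat.factorial_pos _
  have hq := sf_pos (S.q * u)
  have hg' := sf_pos (S.g * u)
  have e1 : padicValNat p (den S u) = (S.k * u) * padicValNat p (gden S u)
      + padicValNat p (∏ l ∈ range (S.k * u), (S.a1 * u + l).factorial)
      + (padicValNat p (sf (S.q * u)) + padicValNat p (sf (S.g * u))) := by
    unfold den
    rw [padicValNat.mul (by positivity) (by positivity),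
      padicValNat.mul (by positivity) (by positivity), padicValNat.pow,
      padicValNat.mul (by positivity) (by positivity)]
  have e2 : padicValNat p (gden S u) = padicValNat p (S.a2 * u).factorial
      + padicValNat p (S.i1 * u).factorial + padicValNat p (S.r1 * u).factorial := by
    unfold gden
    rw [padicValNat.mul (by positivity) (by positivity),
      padicValNat.mul (by positivity) (by positivity)]
  have e3 := val_shift_jst S.a1 S.k u p h1
  have e4 := val_sf_jst S.q u p h2
  have e5 := val_sf_jst S.g u p h3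
  rw [e1, e2, Finset.sum_add_distrib, Finset.sum_add_distrib, ← e3, ← e4, ← e5]
  push_cast
  ring

/-- `v_p` of the denominators on a strip where the gauge floors are `fa`, `fi`, `fr` -/
theorem val_den_strip (S : Shape) (u p : ℕ) [hp : Fact p.Prime]
    (h1 : (S.a1 + S.k) * u ≤ p ^ 2) (h2 : S.q * u ≤ p ^ 2) (h3 : S.g * u ≤ p ^ 2)
    (fa fi fr : ℕ)
    (ha : fa * p ≤ S.a2 * u ∧ S.a2 * u < (fa + 1) * p ∧ fa < p)
    (hi : fi * p ≤ S.i1 * u ∧ S.i1 * u < (fi + 1) * p ∧ fi < p)
    (hr : fr * p ≤ S.r1 * u ∧ S.r1 * u < (fr + 1) * p ∧ fr < p) :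
    ((padicValNat p (den S u) : ℕ) : ℤ)
      = ∑ c ∈ range p,
          ((jst (S.a1 + S.k : ℕ) 0 u p c * (jst (S.a1 + S.k : ℕ) 0 u p c - 1) / 2
            - jst S.a1 0 u p c * (jst S.a1 0 u p c - 1) / 2)
          + (jst S.q 0 u p c * (jst S.q 0 u p c - 1) / 2
            + jst S.g 0 u p c * (jst S.g 0 u p c - 1) / 2))
        + ((S.k : ℤ) * (fa + fi + fr)) * u := by
  rw [val_den S u p h1 h2 h3, val_factorial_strip p (S.a2 * u) fa ha.1 ha.2.1 ha.2.2,
    val_factorial_strip p (S.i1 * u) fi hi.1 hi.2.1 hi.2.2,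
    val_factorial_strip p (S.r1 * u) fr hr.1 hr.2.1 hr.2.2]
  push_cast
  ring

/-- `v_p (n!) = n / p` for `n < p^2` -/
theorem val_factorial_div (p n : ℕ) [hp : Fact p.Prime] (h : n < p ^ 2) :
    padicValNat p n.factorial = n / p := by
  rcases Nat.eq_zero_or_pos n with rfl | hn
  · simp
  · rw [padicValNat_factorial (b := 2) (Nat.log_lt_of_lt_pow hn.ne' h),
      show Ico 1 2 = {1} from rfl, Finset.sum_singleton, pow_one]

/-- `v_p` of a product of factorials `(a + l)!`, `l < k`, `a + k ≤ p^2` -/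
theorem val_prod_factorial_div (p a k : ℕ) [hp : Fact p.Prime] (h : a + k ≤ p ^ 2) :
    padicValNat p (∏ l ∈ range k, (a + l).factorial) = ∑ l ∈ range k, (a + l) / p := by
  induction k with
  | zero => simp
  | succ k ih =>
    have hP : ∏ l ∈ range k, (a + l).factorial ≠ 0 :=
      Finset.prod_ne_zero_iff.mpr fun l _ => Nat.factorial_ne_zero _
    rw [Finset.prod_range_succ, Finset.sum_range_succ,
      padicValNat.mul hP (Nat.factorial_ne_zero _), ih (by omega),
      val_factorial_div p (a + k) (by omega)]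

theorem val_sf_div (p n : ℕ) [hp : Fact p.Prime] (h : n ≤ p ^ 2) :
    padicValNat p (sf n) = ∑ l ∈ range n, l / p := by
  have := val_prod_factorial_div p 0 n (by omega)
  simp only [zero_add] at this
  exact this

/-- `v_p` of the denominators, natural division form (481) -/
theorem val_den_div (S : Shape) (u p : ℕ) [hp : Fact p.Prime]
    (h1 : (S.a1 + S.k) * u ≤ p ^ 2) (h2 : S.q * u ≤ p ^ 2) (h3 : S.g * u ≤ p ^ 2)
    (ha : S.a2 * u < p ^ 2) (hi : S.i1 * u < p ^ 2) (hr : S.r1 * u < p ^ 2) :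
    padicValNat p (den S u) = (∑ l ∈ range (S.k * u), (S.a1 * u + l) / p)
      + (S.k * u) * (S.a2 * u / p + S.i1 * u / p + S.r1 * u / p)
      + (∑ l ∈ range (S.q * u), l / p) + ∑ l ∈ range (S.g * u), l / p := by
  have hg := gden_pos S u
  have hP : 0 < ∏ l ∈ range (S.k * u), (S.a1 * u + l).factorial :=
    Finset.prod_pos fun l _ => Nat.factorial_pos _
  have hq := sf_pos (S.q * u)
  have hg' := sf_pos (S.g * u)
  unfold den
  rw [padicValNat.mul (by positivity) (by positivity),
    padicValNat.mul (by positivity) (by positivity), padicValNat.pow,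
    padicValNat.mul (by positivity) (by positivity), val_sf_div p _ h2, val_sf_div p _ h3,
    val_prod_factorial_div p _ _ (by rw [← add_mul]; exact h1)]
  unfold gden
  rw [padicValNat.mul (by positivity) (by positivity),
    padicValNat.mul (by positivity) (by positivity), val_factorial_div p _ ha,
    val_factorial_div p _ hi, val_factorial_div p _ hr]
  ring

end Crest.Agent.R006.D
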