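import Crest.Agent.R006.Be0_530

/-!
Row 6 (Catalan), block P1/P3 (helper530): `be = 0`, derivative form.

`W t = ∑_N (-1/8)^N (6N+1+6t) (∏_{i<N} (1/2+i+t)/(1+i+t))^3`; `W 0 = Z0 > 0` and
`hasDerivAt_W : HasDerivAt W (9 * log 2 * Z0) 0`.
-/

set_option autoImplicit false

namespace Crest.Agent.R006.Be0530

open Finset Filter Topology

/-- `∏_{i<N} (1/2+i+t)/(1+i+t)` -/
noncomputable def hq (t : ℝ) (N : ℕ) : ℝ := ∏ i ∈ range N, ((1 / 2 + i + t) / (1 + i + t))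

noncomputable def hs (t : ℝ) (N : ℕ) : ℝ :=
  ∑ i ∈ range N, (1 / (1 / 2 + i + t) - 1 / (1 + i + t))

noncomputable def ww (N : ℕ) (t : ℝ) : ℝ := (-1 / 8) ^ N * (6 * N + 1 + 6 * t) * hq t N ^ 3

noncomputable def wwd (N : ℕ) (t : ℝ) : ℝ := (-1 / 8) ^ N * hq t N ^ 3 *
  (6 + (6 * N + 1 + 6 * t) * (3 * hs t N))

noncomputable def W (t : ℝ) : ℝ := ∑' N, ww N t

lemma hq_zero (t : ℝ) : hq t 0 = 1 := by simp [hq]

lemma hq_succ (t : ℝ) (N : ℕ) : hq t (N + 1) = hq t N * ((1 / 2 + N + t) / (1 + N + t)) := by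
  unfold hq
  rw [prod_range_succ]

lemma hs_zero (t : ℝ) : hs t 0 = 0 := by simp [hs]

lemma hs_succ (t : ℝ) (N : ℕ) :
    hs t (N + 1) = hs t N + (1 / (1 / 2 + N + t) - 1 / (1 + N + t)) := by
  unfold hs
  rw [sum_range_succ]

lemma hq_pos {t : ℝ} (ht : -(1 / 4) < t) (N : ℕ) : 0 < hq t N := by
  unfold hq
  apply prod_pos
  intro i _
  have hi : (0 : ℝ) ≤ i := Nat.cast_nonneg i
  apply div_pos <;> linarith

lemma hq_le {t : ℝ} (ht : -(1 / 4) < t) (N : ℕ) : hq t N ≤ 1 := by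
  induction N with
  | zero => simp [hq_zero]
  | succ N ih =>
    rw [hq_succ]
    have hN : (0 : ℝ) ≤ N := Nat.cast_nonneg N
    have h1 : (1 / 2 + N + t) / (1 + N + t) ≤ 1 := by
      rw [div_le_one (by linarith)]; linarith
    have h2 : 0 ≤ (1 / 2 + N + t) / (1 + N + t) := by
      apply div_nonneg <;> linarith
    calc hq t N * ((1 / 2 + N + t) / (1 + N + t)) ≤ 1 * 1 :=
          mul_le_mul ih h1 h2 zero_le_one
      _ = 1 := one_mul 1

lemma hs_abs_le {t : ℝ} (ht : -(1 / 4) < t) (N : ℕ) : |hs t N| ≤ 4 * N := by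
  induction N with
  | zero => simp [hs_zero]
  | succ N ih =>
    rw [hs_succ]
    have hN : (0 : ℝ) ≤ N := Nat.cast_nonneg N
    have p1 : (0 : ℝ) < 1 / 2 + N + t := by linarith
    have p2 : (0 : ℝ) < 1 + N + t := by linarith
    have h1 : 1 / (1 / 2 + (N : ℝ) + t) ≤ 4 := by
      rw [div_le_iff₀ p1]; nlinarith
    have h1' : 0 ≤ 1 / (1 / 2 + (N : ℝ) + t) := by positivity
    have h2 : 1 / (1 + (N : ℝ) + t) ≤ 4 := by
      rw [div_le_iff₀ p2]; nlinarith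
    have h2' : 0 ≤ 1 / (1 + (N : ℝ) + t) := by positivity
    have h3 : |1 / (1 / 2 + (N : ℝ) + t) - 1 / (1 + (N : ℝ) + t)| ≤ 4 := by
      rw [abs_le]; constructor <;> linarith
    push_cast
    calc _ ≤ |hs t N| + |1 / (1 / 2 + (N : ℝ) + t) - 1 / (1 + (N : ℝ) + t)| := abs_add_le _ _
      _ ≤ _ := by linarith

lemma hasDerivAt_hq {t : ℝ} (ht : -(1 / 4) < t) (N : ℕ) :
    HasDerivAt (fun t => hq t N) (hq t N * hs t N) t := by
  induction N with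
  | zero =>
    simp only [hq_zero, hs_zero, mul_zero]
    exact hasDerivAt_const t (1 : ℝ)
  | succ N ih =>
    have hN : (0 : ℝ) ≤ N := Nat.cast_nonneg N
    have p1 : (1 / 2 + (N : ℝ) + t) ≠ 0 := by
      have : (0 : ℝ) < 1 / 2 + N + t := by linarith
      exact this.ne'
    have p2 : (1 + (N : ℝ) + t) ≠ 0 := by
      have : (0 : ℝ) < 1 + N + t := by linarith
      exact this.ne'
    have h1 : HasDerivAt (fun t : ℝ => (1 / 2 + N + t) / (1 + N + t))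
        ((1 * (1 + N + t) - (1 / 2 + N + t) * 1) / (1 + N + t) ^ 2) t :=
      ((hasDerivAt_id t).const_add _).div ((hasDerivAt_id t).const_add _) p2
    have h2 := ih.mul h1
    have e : (fun t => hq t (N + 1)) = fun t => hq t N * ((1 / 2 + N + t) / (1 + N + t)) := by
      funext t; exact hq_succ t N
    rw [e]
    refine h2.congr_deriv ?_
    rw [hq_succ, hs_succ]
    generalize (1 / 2 + (N : ℝ) + t) = x at p1 ⊢
    generalize (1 + (N : ℝ) + t) = y at p2 ⊢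
    field_simp

lemma hasDerivAt_ww {t : ℝ} (ht : -(1 / 4) < t) (N : ℕ) :
    HasDerivAt (ww N) (wwd N t) t := by
  have h1 : HasDerivAt (fun t : ℝ => (-1 / 8 : ℝ) ^ N * (6 * N + 1 + 6 * t))
      ((-1 / 8 : ℝ) ^ N * (6 * 1)) t :=
    (((hasDerivAt_id t).const_mul 6).const_add _).const_mul _
  have h2 := (hasDerivAt_hq ht N).pow 3
  have h3 := h1.mul h2
  refine h3.congr_deriv ?_
  unfold wwd
  simp only [Pi.pow_apply, Nat.cast_ofNat, Nat.add_one_sub_one]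
  ring

lemma wwd_abs_le {t : ℝ} (ht : t ∈ Set.Ioo (-(1 / 4) : ℝ) (1 / 4)) (N : ℕ) :
    ‖wwd N t‖ ≤ (6 + 36 * N + 72 * (N : ℝ) ^ 2) * (1 / 4) ^ N := by
  obtain ⟨h1, h2⟩ := ht
  rw [Real.norm_eq_abs]
  unfold wwd
  have hN : (0 : ℝ) ≤ N := Nat.cast_nonneg N
  rw [abs_mul, abs_mul, abs_pow8, abs_of_pos (pow_pos (hq_pos h1 N) 3)]
  have hq1 : hq t N ^ 3 ≤ 1 := pow_le_one₀ (hq_pos h1 N).le (hq_le h1 N)
  have hD : |6 + (6 * (N : ℝ) + 1 + 6 * t) * (3 * hs t N)| ≤ 6 + 36 * N + 72 * (N : ℝ) ^ 2 := by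
    refine (abs_add_le _ _).trans ?_
    have h6 : |(6 : ℝ)| = 6 := by norm_num
    have h3 : |(3 : ℝ)| = 3 := by norm_num
    have p : |6 * (N : ℝ) + 1 + 6 * t| ≤ 6 * N + 3 := by
      rw [abs_le]; constructor <;> linarith
    rw [abs_mul, abs_mul, h6, h3]
    have := mul_le_mul p (mul_le_mul_of_nonneg_left (hs_abs_le h1 N) (by norm_num : (0 : ℝ) ≤ 3))
      (by positivity) (by positivity)
    nlinarith
  have h8 : (1 / 8 : ℝ) ^ N ≤ (1 / 4) ^ N := by gcongr; norm_num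
  calc (1 / 8 : ℝ) ^ N * hq t N ^ 3 * |6 + (6 * (N : ℝ) + 1 + 6 * t) * (3 * hs t N)|
      ≤ (1 / 4 : ℝ) ^ N * 1 * (6 + 36 * N + 72 * (N : ℝ) ^ 2) := by
        refine mul_le_mul (mul_le_mul h8 hq1 (pow_pos (hq_pos h1 N) 3).le (by positivity)) hD
          (abs_nonneg _) (by positivity)
    _ = _ := by ring

lemma hq_at_zero (N : ℕ) : hq 0 N = hp N := by
  unfold hq hp
  refine prod_congr rfl ?_
  intro i _
  rw [add_zero, add_zero]

lemma ww_at_zero (N : ℕ) : ww N 0 = w N := by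
  unfold ww w
  rw [hq_at_zero]
  ring

lemma wwd_at_zero (N : ℕ) : wwd N 0 = wd N := by
  unfold wwd wd hs
  rw [hq_at_zero]
  simp only [mul_zero, add_zero]

theorem W_zero : W 0 = Z0 := by
  unfold W Z0
  exact tsum_congr ww_at_zero

lemma ww_abs_le {t : ℝ} (ht : t ∈ Set.Ioo (-(1 / 4) : ℝ) (1 / 4)) (N : ℕ) :
    ‖ww N t‖ ≤ (3 + 6 * N + 0 * (N : ℝ) ^ 2) * (1 / 4) ^ N := by
  obtain ⟨h1, h2⟩ := ht
  rw [Real.norm_eq_abs]
  unfold ww
  have hN : (0 : ℝ) ≤ N := Nat.cast_nonneg N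
  rw [abs_mul, abs_mul, abs_pow8, abs_of_pos (pow_pos (hq_pos h1 N) 3)]
  have hq1 : hq t N ^ 3 ≤ 1 := pow_le_one₀ (hq_pos h1 N).le (hq_le h1 N)
  have p : |6 * (N : ℝ) + 1 + 6 * t| ≤ 6 * N + 3 := by
    rw [abs_le]; constructor <;> linarith
  have h8 : (1 / 8 : ℝ) ^ N ≤ (1 / 4) ^ N := by gcongr; norm_num
  calc (1 / 8 : ℝ) ^ N * |6 * (N : ℝ) + 1 + 6 * t| * hq t N ^ 3
      ≤ (1 / 4 : ℝ) ^ N * (6 * N + 3) * 1 :=
        mul_le_mul (mul_le_mul h8 p (abs_nonneg _) (by positivity)) hq1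
          (pow_pos (hq_pos h1 N) 3).le (by positivity)
    _ = _ := by ring

lemma summable_ww {t : ℝ} (ht : t ∈ Set.Ioo (-(1 / 4) : ℝ) (1 / 4)) :
    Summable (fun N => ww N t) :=
  Summable.of_norm_bounded (summable_poly 3 6 0) (ww_abs_le ht)

theorem hasDerivAt_W : HasDerivAt W (9 * Real.log 2 * Z0) 0 := by
  have h0 : (0 : ℝ) ∈ Set.Ioo (-(1 / 4) : ℝ) (1 / 4) := by constructor <;> norm_num
  have h := hasDerivAt_tsum_of_isPreconnected (g := ww) (g' := wwd) (summable_poly 6 36 72)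
    isOpen_Ioo isPreconnected_Ioo (fun N y hy => hasDerivAt_ww hy.1 N)
    (fun N y hy => wwd_abs_le hy N) h0 (summable_ww h0) h0
  have e : ∑' N, wwd N 0 = 9 * Real.log 2 * Z0 := by
    rw [← hasSum_wd.tsum_eq]
    exact tsum_congr wwd_at_zero
  rw [e] at h
  exact h

end Crest.Agent.R006.Be0530
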