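import Crest.Agent.R006.PsiJ6_576
import Crest.Agent.R006.Be0D_530

/-!
Row 6 (Catalan), block P3 (helper530): `be = 0` for the jump function of helper576:
`vv_one_eq_two : vv 1 = vv 2`, i.e. `P vv s = vv 0 + 2 vv 1 cos (2 π s)`.

* `psi_W` : `(2t)^3 psi (-1/2+t) = -(1/4) W t` for `0 < |t| < 1/4`;
* `hasDerivAt_U` : `U 0' (-1/2) = 9 log 2 * U 0 (-1/2)`.
-/

set_option autoImplicit false

namespace Crest.Agent.R006.Be0530

open Finset Filter Topology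
open Crest.Agent.R006.PsiJ (psi psiF vv ce J psiL P U Bt Dd)
open scoped Real

lemma ce_ne {t : ℝ} (h1 : -(1 / 4) < t) (_h2 : t < 1 / 4) (h0 : t ≠ 0) (k : ℕ) (l : ℕ) :
    ce 0 + (t : ℂ) + k ≠ ce l := by
  intro h
  have hre := congrArg Complex.re h
  simp only [Complex.add_re, PsiJ.ce_re, Complex.ofReal_re, Complex.natCast_re, Nat.cast_zero] at hre
  have e : t = -((k : ℝ) + l) := by linarith
  rcases Nat.eq_zero_or_pos (k + l) with h3 | h3
  · have : ((k + l : ℕ) : ℝ) = 0 := by rw [h3]; simp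
    push_cast at this
    apply h0
    rw [e, this, neg_zero]
  · have : (1 : ℝ) ≤ ((k + l : ℕ) : ℝ) := by exact_mod_cast h3
    push_cast at this
    linarith

/-- `(2(t+k))^3 psi (-1/2+t+k)` -/
noncomputable def bk (t : ℝ) (k : ℕ) : ℂ := (2 * ((t : ℂ) + k)) ^ 3 * psi (ce 0 + t + k)

lemma bk_rec {t : ℝ} (h1 : -(1 / 4) < t) (h2 : t < 1 / 4) (h0 : t ≠ 0) (k : ℕ) :
    bk t k = -(((6 * k + 1 + 6 * t : ℝ) : ℂ) / 4) -
      (1 / 8) * ((((1 / 2 + k + t) / (1 + k + t) : ℝ) : ℂ)) ^ 3 * bk t (k + 1) := by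
  have hz : ∀ l, ce 0 + (t : ℂ) + ((k + 1 : ℕ) : ℂ) ≠ ce l := fun l => ce_ne h1 h2 h0 (k + 1) l
  have hz1 : ∀ l, ce 0 + (t : ℂ) + ((k + 1 : ℕ) : ℂ) - 1 ≠ ce l := by
    intro l
    have := ce_ne h1 h2 h0 k l
    intro h
    apply this
    rw [← h]
    push_cast
    ring
  have h := PsiJ.psi_rec hz hz1
  have e1 : ce 0 + (t : ℂ) + ((k + 1 : ℕ) : ℂ) - 1 = ce 0 + t + k := by push_cast; ring
  rw [e1] at h
  have hne : (1 + (k : ℂ) + t) ≠ 0 := by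
    intro h3
    have hre := congrArg Complex.re h3
    simp only [Complex.add_re, Complex.one_re, Complex.natCast_re, Complex.ofReal_re,
      Complex.zero_re] at hre
    have : (0 : ℝ) ≤ k := Nat.cast_nonneg k
    linarith
  have hc : ce 0 = -(1 / 2) := by simp [PsiJ.ce]
  unfold bk
  rw [hc] at h ⊢
  push_cast at h ⊢
  have e2 : (2 * (-(1 / 2) + (t : ℂ) + (k + 1)) - 1) = 2 * ((t : ℂ) + k) := by ring
  rw [e2] at h
  have e3 : (1 / 8 : ℂ) * ((1 / 2 + (k : ℂ) + t) / (1 + k + t)) ^ 3 *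
      ((2 * ((t : ℂ) + (k + 1))) ^ 3 * psi (-(1 / 2) + (t : ℂ) + (k + 1))) =
      (-(1 / 2) + (t : ℂ) + (k + 1)) ^ 3 * psi (-(1 / 2) + (t : ℂ) + (k + 1)) := by
    rw [div_pow]
    field_simp
    ring
  rw [e3]
  linear_combination h

lemma bk_sum {t : ℝ} (h1 : -(1 / 4) < t) (h2 : t < 1 / 4) (h0 : t ≠ 0) (K : ℕ) :
    bk t 0 = -(1 / 4) * (((∑ k ∈ range K, ww k t : ℝ)) : ℂ) +
      ((((-1 / 8) ^ K * hq t K ^ 3 : ℝ)) : ℂ) * bk t K := by
  induction K with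
  | zero => simp [hq_zero]
  | succ K ih =>
    rw [ih, sum_range_succ]
    conv_lhs => rw [bk_rec h1 h2 h0 K]
    rw [hq_succ]
    unfold ww
    push_cast
    ring

lemma bk_bound : ∃ B : ℝ, 0 ≤ B ∧ ∀ t : ℝ, -(1 / 4) < t → t < 1 / 4 → ∀ k : ℕ, 2 ≤ k →
    ‖bk t k‖ ≤ B * (k : ℝ) ^ 3 := by
  obtain ⟨B, hB⟩ := PsiJ.psiF_bounded vv
  refine ⟨64 * max B 0, by positivity, ?_⟩
  intro t h1 h2 k hk
  have hk' : (2 : ℝ) ≤ k := by exact_mod_cast hk
  unfold bk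
  rw [norm_mul, norm_pow]
  have hp : ‖psi (ce 0 + t + k)‖ ≤ max B 0 := by
    refine (hB _ ?_).trans (le_max_left _ _)
    simp only [Complex.add_re, PsiJ.ce_re, Complex.ofReal_re, Complex.natCast_re, Nat.cast_zero]
    linarith
  have hn : ‖2 * ((t : ℂ) + k)‖ ≤ 4 * k := by
    rw [show (2 * ((t : ℂ) + k)) = ((2 * (t + k) : ℝ) : ℂ) by push_cast; ring, Complex.norm_real,
      Real.norm_eq_abs, abs_of_nonneg (by linarith)]
    linarith
  calc ‖2 * ((t : ℂ) + k)‖ ^ 3 * ‖psi (ce 0 + t + k)‖ ≤ (4 * (k : ℝ)) ^ 3 * max B 0 := by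
        gcongr
    _ = _ := by ring

/-- the numerator of `psi` at `-1/2` -/
theorem psi_W {t : ℝ} (h1 : -(1 / 4) < t) (h2 : t < 1 / 4) (h0 : t ≠ 0) :
    (2 * (t : ℂ)) ^ 3 * psi (ce 0 + t) = -(1 / 4) * (W t : ℂ) := by
  have hb : bk t 0 = (2 * (t : ℂ)) ^ 3 * psi (ce 0 + t) := by simp [bk]
  rw [← hb]
  have hs := (summable_ww ⟨h1, h2⟩).hasSum.tendsto_sum_nat
  have hs' : Tendsto (fun K : ℕ => -(1 / 4) * (((∑ k ∈ range K, ww k t : ℝ)) : ℂ)) atTop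
      (𝓝 (-(1 / 4) * (W t : ℂ))) := by
    refine Tendsto.const_mul _ ?_
    exact (Complex.continuous_ofReal.tendsto _).comp hs
  obtain ⟨B, hB0, hB⟩ := bk_bound
  have hr : Tendsto (fun K : ℕ => ((((-1 / 8) ^ K * hq t K ^ 3 : ℝ)) : ℂ) * bk t K) atTop (𝓝 0) := by
    have hl : Tendsto (fun K : ℕ => B * ((K : ℝ) ^ 3 * (1 / 8 : ℝ) ^ K)) atTop (𝓝 (B * 0)) :=
      (tendsto_pow_const_mul_const_pow_of_abs_lt_one 3 (by norm_num [abs_of_pos])).const_mul B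
    rw [mul_zero] at hl
    refine squeeze_zero_norm' ?_ hl
    filter_upwards [eventually_ge_atTop 2] with K hK
    rw [norm_mul, Complex.norm_real, Real.norm_eq_abs, abs_mul, abs_pow8,
      abs_of_pos (pow_pos (hq_pos h1 K) 3)]
    have hq1 : hq t K ^ 3 ≤ 1 := pow_le_one₀ (hq_pos h1 K).le (hq_le h1 K)
    calc (1 / 8 : ℝ) ^ K * hq t K ^ 3 * ‖bk t K‖ ≤ (1 / 8 : ℝ) ^ K * 1 * (B * (K : ℝ) ^ 3) :=
          mul_le_mul (mul_le_mul_of_nonneg_left hq1 (by positivity)) (hB t h1 h2 K hK)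
            (norm_nonneg _) (by positivity)
      _ = _ := by ring
  have h3 := hs'.add hr
  rw [add_zero] at h3
  have h4 : (fun K : ℕ => -(1 / 4) * (((∑ k ∈ range K, ww k t : ℝ)) : ℂ) +
      ((((-1 / 8) ^ K * hq t K ^ 3 : ℝ)) : ℂ) * bk t K) = fun _ => bk t 0 := by
    funext K
    exact (bk_sum h1 h2 h0 K).symm
  rw [h4] at h3
  exact tendsto_nhds_unique tendsto_const_nhds h3

/-! ### the derivative of `U 0` at `-1/2` -/

lemma hasDerivAt_Bt : HasDerivAt Bt (-(2 * Complex.log 2) * Bt (1 / 2)) (1 / 2) := by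
  have h1 := Complex.hasDerivAt_Gamma_one_half
  have h2 : HasDerivAt (fun w : ℂ => Complex.Gamma (w + 1 / 2)) (-(Real.eulerMascheroniConstant : ℂ))
      (1 / 2) := by
    have h3 : HasDerivAt Complex.Gamma (-(Real.eulerMascheroniConstant : ℂ)) ((1 / 2 : ℂ) + 1 / 2) := by
      rw [show (1 / 2 : ℂ) + 1 / 2 = 1 by norm_num]
      exact Complex.hasDerivAt_Gamma_one
    exact h3.comp_add_const (1 / 2 : ℂ) (1 / 2 : ℂ)
  have hG1 : Complex.Gamma ((1 / 2 : ℂ) + 1 / 2) = 1 := by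
    rw [show (1 / 2 : ℂ) + 1 / 2 = 1 by norm_num, Complex.Gamma_one]
  have h3 := h1.div h2 (by rw [hG1]; exact one_ne_zero)
  refine h3.congr_deriv ?_
  unfold PsiJ.Bt
  rw [hG1]
  have e2 : Complex.Gamma (1 / 2) = (√π : ℂ) := by
    rw [Complex.Gamma_one_half_eq, Real.sqrt_eq_rpow, Complex.ofReal_cpow Real.pi_pos.le]
    norm_num
  rw [e2]
  ring

lemma hasDerivAt_Dd : HasDerivAt Dd 0 0 := by
  have h1 : HasDerivAt Dd (deriv Dd 0) 0 := (PsiJ.Dd_differentiable 0).hasDerivAt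
  have heven : ∀ e : ℂ, Dd (-e) = Dd e := by
    intro e
    by_cases he : e = 0
    · rw [he, neg_zero]
    · rw [PsiJ.Dd_of_ne he, PsiJ.Dd_of_ne (neg_ne_zero.mpr he), mul_neg, Complex.sin_neg,
        neg_div_neg_eq]
  have h2 : HasDerivAt (fun e : ℂ => Dd (-e)) (deriv Dd 0 * (-1)) 0 := by
    have h3 : HasDerivAt Dd (deriv Dd 0) (-(0 : ℂ)) := by rw [neg_zero]; exact h1
    exact h3.comp (0 : ℂ) (hasDerivAt_neg (0 : ℂ))
  have h4 : (fun e : ℂ => Dd (-e)) = Dd := funext heven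
  rw [h4] at h2
  have h5 := h1.unique h2
  have h6 : deriv Dd 0 = 0 := by
    have : (2 : ℂ) * deriv Dd 0 = 0 := by linear_combination h5
    simpa using this
  rw [h6] at h1
  exact h1

lemma U_zero_fun : U 0 = fun s : ℂ => ((8 : ℂ) ^ s * Bt (-s) ^ 3) / Dd (s - ce 0) ^ 3 := by
  funext s
  unfold PsiJ.U
  rw [pow_zero, one_mul]

theorem hasDerivAt_U : HasDerivAt (U 0) (9 * Complex.log 2 * U 0 (ce 0)) (ce 0) := by
  have hc : ce 0 = -(1 / 2) := by simp [PsiJ.ce]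
  have h8 : HasDerivAt (fun s : ℂ => (8 : ℂ) ^ s) ((8 : ℂ) ^ (ce 0) * Complex.log 8 * 1) (ce 0) :=
    (hasDerivAt_id (ce 0)).const_cpow (Or.inl (by norm_num))
  have hB : HasDerivAt (fun s : ℂ => Bt (-s)) (-(2 * Complex.log 2) * Bt (1 / 2) * (-1)) (ce 0) := by
    have h3 : HasDerivAt Bt (-(2 * Complex.log 2) * Bt (1 / 2)) (-(ce 0)) := by
      rw [hc, neg_neg]; exact hasDerivAt_Bt
    exact h3.comp (ce 0) (hasDerivAt_neg (ce 0))
  have hD : HasDerivAt (fun s : ℂ => Dd (s - ce 0)) 0 (ce 0) := by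
    have h3 : HasDerivAt Dd 0 (ce 0 - ce 0) := by rw [sub_self]; exact hasDerivAt_Dd
    exact h3.comp_sub_const (ce 0) (ce 0)
  have hD0 : Dd (ce 0 - ce 0) ≠ 0 := by
    rw [sub_self, PsiJ.Dd_zero]
    exact_mod_cast Real.pi_ne_zero
  have h := (h8.mul (hB.pow 3)).div (hD.pow 3) (pow_ne_zero 3 hD0)
  rw [U_zero_fun]
  refine h.congr_deriv ?_
  have hlog : Complex.log 8 = 3 * Complex.log 2 := by
    rw [show (8 : ℂ) = ((8 : ℝ) : ℂ) by norm_num, show (2 : ℂ) = ((2 : ℝ) : ℂ) by norm_num,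
      ← Complex.ofReal_log (by norm_num), ← Complex.ofReal_log (by norm_num),
      show (8 : ℝ) = 2 ^ 3 by norm_num, Real.log_pow]
    push_cast
    ring
  have hmc : -(ce 0) = 1 / 2 := by rw [hc, neg_neg]
  simp only [Pi.pow_apply, Pi.mul_apply, hmc, hlog, mul_zero, sub_zero, mul_one,
    Nat.add_one_sub_one, Nat.cast_ofNat]
  generalize hX : Dd (ce 0 - ce 0) = X at hD0 ⊢
  generalize Bt (1 / 2) = Y
  generalize (8 : ℂ) ^ (ce 0) = Z
  generalize Complex.log 2 = Lg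
  field_simp
  ring

/-! ### conclusion -/

lemma UP_eq {t : ℝ} (h1 : -(1 / 4) < t) (h2 : t < 1 / 4) (h0 : t ≠ 0) :
    U 0 (ce 0 + t) * P vv (ce 0 + t) =
      -(1 / 32) * (W t : ℂ) - (t : ℂ) ^ 3 * psiL vv 0 (ce 0 + t) := by
  have hz : ∀ l, ce 0 + (t : ℂ) ≠ ce l := by
    intro l
    have := ce_ne h1 h2 h0 0 l
    simpa using this
  have hJ := PsiJ.psiF_sub_J vv 0 hz
  have hJ2 := PsiJ.J_eq vv 0 (hz 0)
  have hW := psi_W h1 h2 h0
  have ht : (t : ℂ) ≠ 0 := by exact_mod_cast h0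
  rw [add_sub_cancel_left] at hJ2
  rw [hJ2] at hJ
  have e : U 0 (ce 0 + t) * P vv (ce 0 + t) / (t : ℂ) ^ 3 * (t : ℂ) ^ 3 =
      U 0 (ce 0 + t) * P vv (ce 0 + t) := div_mul_cancel₀ _ (pow_ne_zero 3 ht)
  have hpsi : psiF vv (ce 0 + t) = psi (ce 0 + t) := rfl
  rw [hpsi] at hJ
  linear_combination (-(t : ℂ) ^ 3) * hJ + (1 / 8) * hW - e

theorem UP_jets : U 0 (ce 0) * P vv (ce 0) = -(1 / 32) * (Z0 : ℂ) ∧
    deriv (fun w : ℂ => U 0 w * P vv w) (ce 0) = -(1 / 32) * ((9 * Real.log 2 * Z0 : ℝ) : ℂ) := by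
  have hc14 : ‖ce 0 - ce 0‖ ≤ 1 / 4 := by simp
  have hUP : DifferentiableAt ℂ (fun w : ℂ => U 0 w * P vv w) (ce 0) :=
    (PsiJ.U_differentiableAt 0 hc14).mul (PsiJ.P_differentiable vv (ce 0))
  have hF : HasDerivAt (fun t : ℝ => U 0 (ce 0 + t) * P vv (ce 0 + t))
      (deriv (fun w : ℂ => U 0 w * P vv w) (ce 0)) 0 := by
    have h3 : HasDerivAt (fun w : ℂ => U 0 w * P vv w) (deriv (fun w : ℂ => U 0 w * P vv w) (ce 0))
        (ce 0 + ((0 : ℝ) : ℂ)) := by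
      rw [Complex.ofReal_zero, add_zero]
      exact hUP.hasDerivAt
    have h4 : HasDerivAt (fun w : ℂ => U 0 (ce 0 + w) * P vv (ce 0 + w))
        (deriv (fun w : ℂ => U 0 w * P vv w) (ce 0)) ((0 : ℝ) : ℂ) :=
      h3.comp_const_add (ce 0) ((0 : ℝ) : ℂ)
    exact h4.comp_ofReal
  have hL : DifferentiableAt ℂ (psiL vv 0) (ce 0) :=
    (PsiJ.psiL_diff vv 0).differentiableAt (Metric.ball_mem_nhds _ (by norm_num))
  have hG : HasDerivAt (fun t : ℝ => -(1 / 32) * (W t : ℂ) - (t : ℂ) ^ 3 * psiL vv 0 (ce 0 + t))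
      (-(1 / 32) * ((9 * Real.log 2 * Z0 : ℝ) : ℂ)) 0 := by
    have h5 : HasDerivAt (fun t : ℝ => -(1 / 32) * (W t : ℂ))
        (-(1 / 32) * ((9 * Real.log 2 * Z0 : ℝ) : ℂ)) 0 :=
      (hasDerivAt_W.ofReal_comp).const_mul _
    have h3 : HasDerivAt (psiL vv 0) (deriv (psiL vv 0) (ce 0)) (ce 0 + ((0 : ℝ) : ℂ)) := by
      rw [Complex.ofReal_zero, add_zero]
      exact hL.hasDerivAt
    have h4 : HasDerivAt (fun w : ℂ => psiL vv 0 (ce 0 + w)) (deriv (psiL vv 0) (ce 0))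
        ((0 : ℝ) : ℂ) := h3.comp_const_add (ce 0) ((0 : ℝ) : ℂ)
    have h6 : HasDerivAt (fun w : ℂ => w ^ 3) (3 * ((0 : ℝ) : ℂ) ^ 2) ((0 : ℝ) : ℂ) := by
      have := hasDerivAt_pow 3 ((0 : ℝ) : ℂ)
      simpa using this
    have h7 := (h6.mul h4).comp_ofReal
    have h8 := h5.sub h7
    refine h8.congr_deriv ?_
    simp
  -- equality on a punctured neighbourhood
  have hne : (fun t : ℝ => U 0 (ce 0 + t) * P vv (ce 0 + t)) =ᶠ[𝓝[≠] 0]
      (fun t : ℝ => -(1 / 32) * (W t : ℂ) - (t : ℂ) ^ 3 * psiL vv 0 (ce 0 + t)) := by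
    have hI : Set.Ioo (-(1 / 4) : ℝ) (1 / 4) ∈ 𝓝 (0 : ℝ) :=
      Ioo_mem_nhds (by norm_num) (by norm_num)
    filter_upwards [mem_nhdsWithin_of_mem_nhds hI, self_mem_nhdsWithin] with t ht ht0
    exact UP_eq ht.1 ht.2 ht0
  have hval : U 0 (ce 0) * P vv (ce 0) = -(1 / 32) * (Z0 : ℂ) := by
    have c1 := hF.continuousAt.tendsto.mono_left (nhdsWithin_le_nhds (s := {0}ᶜ))
    have c2 := hG.continuousAt.tendsto.mono_left (nhdsWithin_le_nhds (s := {0}ᶜ))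
    have c3 := tendsto_nhds_unique (c1.congr' hne) c2
    simpa [W_zero] using c3
  refine ⟨hval, ?_⟩
  have hev : (fun t : ℝ => U 0 (ce 0 + t) * P vv (ce 0 + t)) =ᶠ[𝓝 0]
      (fun t : ℝ => -(1 / 32) * (W t : ℂ) - (t : ℂ) ^ 3 * psiL vv 0 (ce 0 + t)) := by
    have hne' := eventually_nhdsWithin_iff.mp hne
    filter_upwards [hne'] with t ht
    by_cases h0 : t = 0
    · rw [h0]
      simpa [W_zero] using hval
    · exact ht h0
  exact (hF.congr_of_eventuallyEq hev.symm).unique hG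

/-- **`be = 0`** in helper576's parameters -/
theorem vv_one_eq_two : vv 1 = vv 2 := by
  obtain ⟨h0, h1⟩ := UP_jets
  have hP := PsiJ.P_hasDeriv vv (ce 0)
  have h2 := (hasDerivAt_U.mul hP)
  have h3 : deriv (fun w : ℂ => U 0 w * P vv w) (ce 0) =
      9 * Complex.log 2 * U 0 (ce 0) * P vv (ce 0) +
        U 0 (ce 0) * P ![0, 2 * π * Complex.I * vv 1, -(2 * π * Complex.I) * vv 2] (ce 0) := h2.deriv
  rw [h1] at h3
  have hU : U 0 (ce 0) ≠ 0 := PsiJ.U_ne 0 (by simp)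
  have hlog : Complex.log 2 = ((Real.log 2 : ℝ) : ℂ) := by
    rw [Complex.ofReal_log (by norm_num)]; norm_num
  have h4 : U 0 (ce 0) * P ![0, 2 * π * Complex.I * vv 1, -(2 * π * Complex.I) * vv 2] (ce 0) = 0 := by
    rw [hlog] at h3
    push_cast at h3
    linear_combination -h3 - 9 * (Real.log 2 : ℂ) * h0
  have h5 : P ![0, 2 * π * Complex.I * vv 1, -(2 * π * Complex.I) * vv 2] (ce 0) = 0 := by
    rcases mul_eq_zero.mp h4 with h | h
    · exact absurd h hU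
    · exact h
  rw [PsiJ.P_at] at h5
  simp at h5
  have hπ : (2 * π * Complex.I : ℂ) ≠ 0 := Complex.two_pi_I_ne_zero
  have h6 : (2 * π * Complex.I : ℂ) * (vv 2 - vv 1) = 0 := by linear_combination h5
  rcases mul_eq_zero.mp h6 with h | h
  · exact absurd h hπ
  · linear_combination -h

/-- the trigonometric numerator is even -/
theorem P_vv (s : ℂ) : P vv s = vv 0 + 2 * vv 1 * Complex.cos (2 * π * s) := by
  unfold PsiJ.P
  rw [← vv_one_eq_two, Complex.cos]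
  have e1 : Complex.exp (2 * π * s * Complex.I) = Complex.exp (2 * π * Complex.I * s) := by
    congr 1; ring
  have e2 : Complex.exp (-(2 * π * s) * Complex.I) = Complex.exp (-(2 * π * Complex.I * s)) := by
    congr 1; ring
  rw [e1, e2]
  ring

/-- the value at the sites is not `0` -/
theorem P_vv_ne : P vv (ce 0) ≠ 0 := by
  intro h
  have h0 := UP_jets.1
  rw [h, mul_zero] at h0
  have : (Z0 : ℂ) ≠ 0 := by exact_mod_cast Z0_pos.ne'
  apply this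
  linear_combination 32 * h0

theorem vv_ne : vv 0 - 2 * vv 1 ≠ 0 := by
  have h := P_vv_ne
  rw [PsiJ.P_at, ← vv_one_eq_two] at h
  intro h2
  apply h
  linear_combination h2

end Crest.Agent.R006.Be0530
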