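import Mathlib

/-!
Row 6 (Catalan), block P1/P3 (helper530): `be = 0`.

The derivative companion of Ramanujan's series `∑ (-1/8)^N (6N+1) ((1/2)_N/N!)^3`:

* `w N  = (-1/8)^N (6N+1) ((1/2)_N/N!)^3`,
* `wd N = (-1/8)^N ((1/2)_N/N!)^3 (6 + (6N+1) * 3 * ∑_{i<N} (1/(1/2+i) - 1/(1+i)))`
  (the `ε`-derivative at `0` of `(-1/8)^N (6N+6ε+1) ((1/2+ε)_N/(1+ε)_N)^3`),

`hasSum_w : HasSum w Z0`, `Z0_pos : 0 < Z0`, `hasSum_wd : HasSum wd (9 * log 2 * Z0)`.

Proof: `wd = (3/2) zd 0` with the one-parameter family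
`zz e N = (-1/8)^N (6N+1+4e) (1/2+2e)_N (1/2)_N^2 / (N! (1+e)_N^2)`, the WZ pair
`zz e N - lam e * zz (e+1) N = gg e (N+1) - gg e N` and `e → ∞`.
-/

set_option autoImplicit false

namespace Crest.Agent.R006.Be0530

open Finset Filter Topology

noncomputable def aa (e : ℝ) (N : ℕ) : ℝ :=
  ∏ i ∈ range N, ((1 / 2 + 2 * e + i) * (1 / 2 + i) ^ 2 / ((1 + i) * (1 + e + i) ^ 2))

noncomputable def DD (e : ℝ) (N : ℕ) : ℝ :=
  ∑ i ∈ range N, (2 / (1 / 2 + 2 * e + i) - 2 / (1 + e + i))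

noncomputable def zz (e : ℝ) (N : ℕ) : ℝ := (-1 / 8) ^ N * (6 * N + 1 + 4 * e) * aa e N

noncomputable def zd (e : ℝ) (N : ℕ) : ℝ :=
  (-1 / 8) ^ N * aa e N * (4 + (6 * N + 1 + 4 * e) * DD e N)

noncomputable def gg (e : ℝ) (N : ℕ) : ℝ := -4 * N * (-1 / 8) ^ N * aa e N

noncomputable def gd (e : ℝ) (N : ℕ) : ℝ := gg e N * DD e N

noncomputable def lam (e : ℝ) : ℝ := (1 / 2 + 2 * e) * (3 / 2 + 2 * e) / (4 * (1 + e) ^ 2)

noncomputable def rr (e : ℝ) : ℝ := 2 / (1 / 2 + 2 * e) + 2 / (3 / 2 + 2 * e) - 2 / (1 + e)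

lemma aa_zero (e : ℝ) : aa e 0 = 1 := by simp [aa]

lemma aa_succ (e : ℝ) (N : ℕ) : aa e (N + 1) =
    aa e N * ((1 / 2 + 2 * e + N) * (1 / 2 + N) ^ 2 / ((1 + N) * (1 + e + N) ^ 2)) := by
  unfold aa
  rw [prod_range_succ]

lemma DD_zero (e : ℝ) : DD e 0 = 0 := by simp [DD]

lemma DD_succ (e : ℝ) (N : ℕ) : DD e (N + 1) =
    DD e N + (2 / (1 / 2 + 2 * e + N) - 2 / (1 + e + N)) := by
  unfold DD
  rw [sum_range_succ]

lemma lam_pos {e : ℝ} (he : 0 ≤ e) : 0 < lam e := by unfold lam; positivity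

lemma aa_pos {e : ℝ} (he : 0 ≤ e) (N : ℕ) : 0 < aa e N := by
  unfold aa
  apply prod_pos
  intro i _
  positivity

lemma aa_shift {e : ℝ} (he : 0 ≤ e) (N : ℕ) : aa (e + 1) N =
    aa e N * ((1 / 2 + 2 * e + N) * (3 / 2 + 2 * e + N) * (1 + e) ^ 2 /
      ((1 / 2 + 2 * e) * (3 / 2 + 2 * e) * (1 + e + N) ^ 2)) := by
  induction N with
  | zero =>
    have h1 : (1 / 2 + 2 * e) ≠ 0 := by positivity
    have h2 : (3 / 2 + 2 * e) ≠ 0 := by positivity
    have h3 : (1 + e) ≠ 0 := by positivity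
    simp only [aa_zero, Nat.cast_zero, add_zero, one_mul]
    rw [div_self (by positivity)]
  | succ N ih =>
    rw [aa_succ, aa_succ, ih]
    push_cast
    have h1 : (1 / 2 + 2 * e) ≠ 0 := by positivity
    have h2 : (3 / 2 + 2 * e) ≠ 0 := by positivity
    have h4 : (1 + e + (N : ℝ)) ≠ 0 := by positivity
    have h5 : (1 + e + ((N : ℝ) + 1)) ≠ 0 := by positivity
    have h6 : (1 + (N : ℝ)) ≠ 0 := by positivity
    have h7 : (1 + (e + 1) + (N : ℝ)) ≠ 0 := by positivity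
    have e7 : (1 + (e + 1) + (N : ℝ)) = (1 + e + ((N : ℝ) + 1)) := by ring
    rw [e7]
    have e8 : (1 / 2 + 2 * (e + 1) + (N : ℝ)) = 3 / 2 + 2 * e + ((N : ℝ) + 1) := by ring
    have e9 : (1 / 2 + 2 * e + ((N : ℝ) + 1)) = 3 / 2 + 2 * e + N := by ring
    rw [e8, e9]
    generalize aa e N = A
    field_simp

lemma DD_shift (e : ℝ) (N : ℕ) : DD (e + 1) N =
    DD e N + (2 / (1 / 2 + 2 * e + N) + 2 / (3 / 2 + 2 * e + N) - 2 / (1 + e + N)) - rr e := by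
  induction N with
  | zero => simp only [DD_zero, Nat.cast_zero, add_zero, zero_add, rr]; ring
  | succ N ih =>
    rw [DD_succ, DD_succ, ih]
    push_cast
    have e7 : (1 + (e + 1) + (N : ℝ)) = (1 + e + ((N : ℝ) + 1)) := by ring
    have e8 : (1 / 2 + 2 * (e + 1) + (N : ℝ)) = 3 / 2 + 2 * e + ((N : ℝ) + 1) := by ring
    have e9 : (1 / 2 + 2 * e + ((N : ℝ) + 1)) = 3 / 2 + 2 * e + N := by ring
    rw [e7, e8, e9]
    ring

lemma wz {e : ℝ} (he : 0 ≤ e) (N : ℕ) :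
    zz e N - lam e * zz (e + 1) N = gg e (N + 1) - gg e N := by
  unfold zz gg lam
  rw [aa_shift he, aa_succ]
  push_cast
  have h1 : (1 / 2 + 2 * e) ≠ 0 := by positivity
  have h2 : (3 / 2 + 2 * e) ≠ 0 := by positivity
  have h3 : (1 + e) ≠ 0 := by positivity
  have h4 : (1 + e + (N : ℝ)) ≠ 0 := by positivity
  have h6 : (1 + (N : ℝ)) ≠ 0 := by positivity
  have h8 : ((N : ℝ) + 1) ≠ 0 := by positivity
  rw [pow_succ (-1 / 8 : ℝ) N]
  generalize ((-1 / 8 : ℝ) ^ N) = c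
  generalize aa e N = A
  field_simp
  ring

lemma wzd {e : ℝ} (he : 0 ≤ e) (N : ℕ) :
    zd e N - lam e * (rr e * zz (e + 1) N + zd (e + 1) N) = gd e (N + 1) - gd e N := by
  unfold zd gd
  rw [DD_shift, DD_succ]
  -- use the value identity for the coefficient of `DD e N`
  have hw := wz he N
  have hA : zz e N = (-1 / 8) ^ N * (6 * N + 1 + 4 * e) * aa e N := rfl
  have key : (-1 / 8 : ℝ) ^ N * aa e N * 4 - lam e * (rr e * zz (e + 1) N +
      (-1 / 8) ^ N * aa (e + 1) N * (4 + (6 * N + 1 + 4 * (e + 1)) *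
        ((2 / (1 / 2 + 2 * e + N) + 2 / (3 / 2 + 2 * e + N) - 2 / (1 + e + N)) - rr e)))
      = gg e (N + 1) * (2 / (1 / 2 + 2 * e + N) - 2 / (1 + e + N)) := by
    unfold zz gg lam
    rw [aa_shift he, aa_succ]
    push_cast
    have h1 : (1 / 2 + 2 * e) ≠ 0 := by positivity
    have h2 : (3 / 2 + 2 * e) ≠ 0 := by positivity
    have h3 : (1 + e) ≠ 0 := by positivity
    have h4 : (1 + e + (N : ℝ)) ≠ 0 := by positivity
    have h6 : (1 + (N : ℝ)) ≠ 0 := by positivity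
    have h8 : ((N : ℝ) + 1) ≠ 0 := by positivity
    have h9 : (1 / 2 + 2 * e + (N : ℝ)) ≠ 0 := by positivity
    have h10 : (3 / 2 + 2 * e + (N : ℝ)) ≠ 0 := by positivity
    rw [pow_succ (-1 / 8 : ℝ) N]
    generalize ((-1 / 8 : ℝ) ^ N) = c
    generalize aa e N = A
    generalize rr e = R
    field_simp
    ring
  have hz : zz (e + 1) N = (-1 / 8) ^ N * (6 * N + 1 + 4 * (e + 1)) * aa (e + 1) N := rfl
  calc _ = ((-1 / 8 : ℝ) ^ N * aa e N * 4 - lam e * (rr e * zz (e + 1) N +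
      (-1 / 8) ^ N * aa (e + 1) N * (4 + (6 * N + 1 + 4 * (e + 1)) *
        ((2 / (1 / 2 + 2 * e + N) + 2 / (3 / 2 + 2 * e + N) - 2 / (1 + e + N)) - rr e))))
        + (zz e N - lam e * zz (e + 1) N) * DD e N := by rw [hA, hz]; ring
    _ = _ := by rw [key, hw]; ring

/-! ### bounds -/

lemma aa_le_one_step {e : ℝ} (he : 0 ≤ e) (N : ℕ) :
    (1 / 2 + 2 * e + N) * (1 / 2 + N) ^ 2 / ((1 + N) * (1 + e + N) ^ 2) ≤ 2 := by
  rw [div_le_iff₀ (by positivity)]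
  have hN : (0 : ℝ) ≤ N := Nat.cast_nonneg N
  have h1 : (1 / 2 + 2 * e + N) ≤ 2 * (1 + e + N) := by linarith
  have h2 : (1 / 2 + (N : ℝ)) ^ 2 ≤ (1 + N) * (1 + e + N) := by nlinarith
  calc (1 / 2 + 2 * e + N) * (1 / 2 + (N : ℝ)) ^ 2
      ≤ (2 * (1 + e + N)) * ((1 + N) * (1 + e + N)) := by
        apply mul_le_mul h1 h2 (by positivity) (by positivity)
    _ = _ := by ring

lemma aa_le {e : ℝ} (he : 0 ≤ e) (N : ℕ) : aa e N ≤ 2 ^ N := by
  induction N with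
  | zero => simp [aa_zero]
  | succ N ih =>
    rw [aa_succ, pow_succ]
    have h2 : (0 : ℝ) ≤ 2 ^ N := by positivity
    have h3 : 0 ≤ (1 / 2 + 2 * e + N) * (1 / 2 + (N : ℝ)) ^ 2 / ((1 + N) * (1 + e + N) ^ 2) := by
      positivity
    exact mul_le_mul ih (aa_le_one_step he N) h3 h2

lemma aa_le' {e : ℝ} (he : 0 ≤ e) (N : ℕ) : aa e (N + 1) ≤ 2 ^ (N + 1) / (1 + e) := by
  induction N with
  | zero =>
    rw [aa_succ, aa_zero]
    simp only [Nat.cast_zero, add_zero, one_mul, zero_add, pow_one]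
    rw [div_le_div_iff₀ (by positivity) (by positivity)]
    nlinarith [mul_nonneg he he]
  | succ N ih =>
    have e1 : (2 : ℝ) ^ (N + 1 + 1) / (1 + e) = 2 ^ (N + 1) / (1 + e) * 2 := by
      rw [pow_succ (2 : ℝ) (N + 1)]; ring
    have h2 : (0 : ℝ) ≤ 2 ^ (N + 1) / (1 + e) := by positivity
    rw [aa_succ, e1]
    exact mul_le_mul ih (aa_le_one_step he (N + 1)) (by positivity) h2

lemma DD_abs_le {e : ℝ} (he : 0 ≤ e) (N : ℕ) : |DD e N| ≤ 4 * N := by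
  induction N with
  | zero => simp [DD_zero]
  | succ N ih =>
    rw [DD_succ]
    have hN : (0 : ℝ) ≤ N := Nat.cast_nonneg N
    have h1 : 2 / (1 / 2 + 2 * e + (N : ℝ)) ≤ 4 := by
      rw [div_le_iff₀ (by positivity)]; nlinarith
    have h1' : 0 ≤ 2 / (1 / 2 + 2 * e + (N : ℝ)) := by positivity
    have h2 : 2 / (1 + e + (N : ℝ)) ≤ 2 := by
      rw [div_le_iff₀ (by positivity)]; nlinarith
    have h2' : 0 ≤ 2 / (1 + e + (N : ℝ)) := by positivity
    have h3 : |2 / (1 / 2 + 2 * e + (N : ℝ)) - 2 / (1 + e + (N : ℝ))| ≤ 4 := by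
      rw [abs_le]; constructor <;> linarith
    push_cast
    calc _ ≤ |DD e N| + |2 / (1 / 2 + 2 * e + (N : ℝ)) - 2 / (1 + e + (N : ℝ))| := abs_add_le _ _
      _ ≤ _ := by linarith

lemma abs_pow8 (N : ℕ) : |(-1 / 8 : ℝ) ^ N| = (1 / 8) ^ N := by
  rw [abs_pow]; norm_num

lemma zz_abs_le {e : ℝ} (he : 0 ≤ e) (N : ℕ) : |zz e N| ≤ (6 * N + 1 + 4 * e) * (1 / 4) ^ N := by
  unfold zz
  rw [abs_mul, abs_mul, abs_pow8, abs_of_pos (aa_pos he N),
    abs_of_nonneg (by positivity : (0 : ℝ) ≤ 6 * N + 1 + 4 * e)]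
  have h := aa_le he N
  have : (1 / 4 : ℝ) ^ N = (1 / 8) ^ N * 2 ^ N := by rw [← mul_pow]; norm_num
  rw [this]
  calc (1 / 8 : ℝ) ^ N * (6 * N + 1 + 4 * e) * aa e N
      ≤ (1 / 8 : ℝ) ^ N * (6 * N + 1 + 4 * e) * 2 ^ N :=
        mul_le_mul_of_nonneg_left h (by positivity)
    _ = _ := by ring

lemma zz_abs_le' {e : ℝ} (he : 0 ≤ e) (N : ℕ) :
    |zz e (N + 1)| ≤ (6 * (N + 1) + 5) * (1 / 4) ^ (N + 1) := by
  unfold zz
  rw [abs_mul, abs_mul, abs_pow8, abs_of_pos (aa_pos he _),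
    abs_of_nonneg (by positivity : (0 : ℝ) ≤ 6 * ((N + 1 : ℕ) : ℝ) + 1 + 4 * e)]
  have h := aa_le' he N
  have h4 : (1 / 4 : ℝ) ^ (N + 1) = (1 / 8) ^ (N + 1) * 2 ^ (N + 1) := by
    rw [← mul_pow]; norm_num
  rw [h4]
  have hN : (0 : ℝ) ≤ N := Nat.cast_nonneg N
  push_cast
  calc (1 / 8 : ℝ) ^ (N + 1) * (6 * (N + 1) + 1 + 4 * e) * aa e (N + 1)
      ≤ (1 / 8 : ℝ) ^ (N + 1) * ((6 * (N + 1) + 5) * (1 + e)) * (2 ^ (N + 1) / (1 + e)) := by
        refine mul_le_mul (mul_le_mul_of_nonneg_left ?_ (by positivity)) h (aa_pos he _).le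
          (by positivity)
        nlinarith [mul_nonneg hN he]
    _ = _ := by field_simp

lemma zd_abs_le {e : ℝ} (he : 0 ≤ e) (N : ℕ) :
    |zd e N| ≤ (4 + (6 * N + 1 + 4 * e) * (4 * N)) * (1 / 4) ^ N := by
  unfold zd
  rw [abs_mul, abs_mul, abs_pow8, abs_of_pos (aa_pos he N)]
  have h4 : (1 / 4 : ℝ) ^ N = (1 / 8) ^ N * 2 ^ N := by rw [← mul_pow]; norm_num
  have h := aa_le he N
  have hD : |4 + (6 * (N : ℝ) + 1 + 4 * e) * DD e N| ≤ 4 + (6 * N + 1 + 4 * e) * (4 * N) := by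
    refine (abs_add_le _ _).trans ?_
    rw [abs_mul, abs_of_nonneg (by positivity : (0 : ℝ) ≤ 6 * (N : ℝ) + 1 + 4 * e)]
    have : |(4 : ℝ)| = 4 := by norm_num
    rw [this]
    have := mul_le_mul_of_nonneg_left (DD_abs_le he N)
      (by positivity : (0 : ℝ) ≤ 6 * (N : ℝ) + 1 + 4 * e)
    linarith
  rw [h4]
  calc (1 / 8 : ℝ) ^ N * aa e N * |4 + (6 * (N : ℝ) + 1 + 4 * e) * DD e N|
      ≤ (1 / 8 : ℝ) ^ N * 2 ^ N * (4 + (6 * N + 1 + 4 * e) * (4 * N)) := by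
        refine mul_le_mul (mul_le_mul_of_nonneg_left h (by positivity)) hD (abs_nonneg _)
          (by positivity)
    _ = _ := by ring

lemma zd_abs_le' {e : ℝ} (he : 0 ≤ e) (N : ℕ) :
    |zd e (N + 1)| ≤ (4 + (6 * (N + 1) + 5) * (4 * (N + 1))) * (1 / 4) ^ (N + 1) := by
  unfold zd
  rw [abs_mul, abs_mul, abs_pow8, abs_of_pos (aa_pos he _)]
  have h4 : (1 / 4 : ℝ) ^ (N + 1) = (1 / 8) ^ (N + 1) * 2 ^ (N + 1) := by
    rw [← mul_pow]; norm_num
  have h := aa_le' he N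
  have hN : (0 : ℝ) ≤ N := Nat.cast_nonneg N
  have hD : |4 + (6 * ((N + 1 : ℕ) : ℝ) + 1 + 4 * e) * DD e (N + 1)| ≤
      (4 + (6 * (N + 1) + 5) * (4 * (N + 1))) * (1 + e) := by
    refine (abs_add_le _ _).trans ?_
    rw [abs_mul, abs_of_nonneg (by positivity : (0 : ℝ) ≤ 6 * ((N + 1 : ℕ) : ℝ) + 1 + 4 * e)]
    have : |(4 : ℝ)| = 4 := by norm_num
    rw [this]
    have h5 := mul_le_mul_of_nonneg_left (DD_abs_le he (N + 1))
      (by positivity : (0 : ℝ) ≤ 6 * ((N + 1 : ℕ) : ℝ) + 1 + 4 * e)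
    push_cast at h5 ⊢
    nlinarith [mul_nonneg hN he, mul_nonneg (mul_nonneg hN hN) he]
  rw [h4]
  calc (1 / 8 : ℝ) ^ (N + 1) * aa e (N + 1) * |4 + (6 * ((N + 1 : ℕ) : ℝ) + 1 + 4 * e) * DD e (N + 1)|
      ≤ (1 / 8 : ℝ) ^ (N + 1) * (2 ^ (N + 1) / (1 + e)) *
        ((4 + (6 * (N + 1) + 5) * (4 * (N + 1))) * (1 + e)) := by
        refine mul_le_mul (mul_le_mul_of_nonneg_left h (by positivity)) hD (abs_nonneg _)
          (by positivity)
    _ = _ := by field_simp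

lemma summ0 : Summable (fun N : ℕ => (1 / 4 : ℝ) ^ N) :=
  summable_geometric_of_lt_one (by norm_num) (by norm_num)

lemma summ1 : Summable (fun N : ℕ => (N : ℝ) * (1 / 4 : ℝ) ^ N) := by
  have := summable_pow_mul_geometric_of_norm_lt_one 1 (r := (1 / 4 : ℝ)) (by norm_num)
  simpa using this

lemma summ2 : Summable (fun N : ℕ => (N : ℝ) ^ 2 * (1 / 4 : ℝ) ^ N) :=
  summable_pow_mul_geometric_of_norm_lt_one 2 (r := (1 / 4 : ℝ)) (by norm_num)

lemma summable_poly (a b c : ℝ) :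
    Summable (fun N : ℕ => (a + b * N + c * (N : ℝ) ^ 2) * (1 / 4 : ℝ) ^ N) := by
  have := ((summ0.mul_left a).add (summ1.mul_left b)).add (summ2.mul_left c)
  refine this.congr ?_
  intro N
  ring

lemma summable_zz {e : ℝ} (he : 0 ≤ e) : Summable (zz e) := by
  refine Summable.of_norm_bounded (summable_poly (1 + 4 * e) 6 0) ?_
  intro N
  rw [Real.norm_eq_abs]
  refine (zz_abs_le he N).trans (le_of_eq ?_)
  ring

lemma summable_zd {e : ℝ} (he : 0 ≤ e) : Summable (zd e) := by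
  refine Summable.of_norm_bounded (summable_poly 4 (4 * (1 + 4 * e)) 24) ?_
  intro N
  rw [Real.norm_eq_abs]
  refine (zd_abs_le he N).trans (le_of_eq ?_)
  ring

lemma gg_tendsto {e : ℝ} (he : 0 ≤ e) : Tendsto (gg e) atTop (𝓝 0) := by
  have h := (summable_poly 0 4 0).tendsto_atTop_zero
  refine squeeze_zero_norm ?_ h
  intro N
  rw [Real.norm_eq_abs]
  unfold gg
  rw [abs_mul, abs_mul, abs_pow8, abs_of_pos (aa_pos he N)]
  have h4 : (1 / 4 : ℝ) ^ N = (1 / 8) ^ N * 2 ^ N := by rw [← mul_pow]; norm_num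
  have h5 : |(-4 : ℝ) * N| = 4 * N := by
    rw [abs_mul, abs_of_nonneg (Nat.cast_nonneg N : (0 : ℝ) ≤ N)]; norm_num
  rw [h4, h5]
  calc 4 * (N : ℝ) * (1 / 8) ^ N * aa e N ≤ 4 * (N : ℝ) * (1 / 8) ^ N * 2 ^ N :=
        mul_le_mul_of_nonneg_left (aa_le he N) (by positivity)
    _ = _ := by ring

lemma gd_tendsto {e : ℝ} (he : 0 ≤ e) : Tendsto (gd e) atTop (𝓝 0) := by
  have h := (summable_poly 0 0 16).tendsto_atTop_zero
  refine squeeze_zero_norm ?_ h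
  intro N
  rw [Real.norm_eq_abs]
  unfold gd gg
  rw [abs_mul, abs_mul, abs_mul, abs_pow8, abs_of_pos (aa_pos he N)]
  have h4 : (1 / 4 : ℝ) ^ N = (1 / 8) ^ N * 2 ^ N := by rw [← mul_pow]; norm_num
  have h5 : |(-4 : ℝ) * N| = 4 * N := by
    rw [abs_mul, abs_of_nonneg (Nat.cast_nonneg N : (0 : ℝ) ≤ N)]; norm_num
  rw [h4, h5]
  calc 4 * (N : ℝ) * (1 / 8) ^ N * aa e N * |DD e N|
      ≤ 4 * (N : ℝ) * (1 / 8) ^ N * 2 ^ N * (4 * N) :=
        mul_le_mul (mul_le_mul_of_nonneg_left (aa_le he N) (by positivity)) (DD_abs_le he N)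
          (abs_nonneg _) (by positivity)
    _ = _ := by ring

lemma tsum_telescope {f g : ℕ → ℝ} (hf : Summable f) (hfg : ∀ N, f N = g (N + 1) - g N)
    (hg : Tendsto g atTop (𝓝 0)) : ∑' N, f N = - g 0 := by
  have h1 := hf.hasSum.tendsto_sum_nat
  have h2 : (fun n => ∑ i ∈ range n, f i) = fun n => g n - g 0 := by
    funext n
    rw [← sum_range_sub g n]
    exact sum_congr rfl (fun i _ => hfg i)
  rw [h2] at h1
  have h3 : Tendsto (fun n => g n - g 0) atTop (𝓝 (0 - g 0)) := hg.sub_const _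
  rw [zero_sub] at h3
  exact tendsto_nhds_unique h1 h3

noncomputable def ZS (e : ℝ) : ℝ := ∑' N, zz e N
noncomputable def ZD (e : ℝ) : ℝ := ∑' N, zd e N

lemma ZS_rec {e : ℝ} (he : 0 ≤ e) : ZS e = lam e * ZS (e + 1) := by
  have he1 : 0 ≤ e + 1 := by linarith
  have h := tsum_telescope (f := fun N => zz e N - lam e * zz (e + 1) N) (g := gg e)
    ((summable_zz he).sub ((summable_zz he1).mul_left _)) (wz he) (gg_tendsto he)
  rw [(summable_zz he).tsum_sub ((summable_zz he1).mul_left _), tsum_mul_left] at h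
  have h0 : gg e 0 = 0 := by simp [gg]
  rw [h0] at h
  unfold ZS
  linarith

lemma ZD_rec {e : ℝ} (he : 0 ≤ e) :
    ZD e = lam e * (rr e * ZS (e + 1) + ZD (e + 1)) := by
  have he1 : 0 ≤ e + 1 := by linarith
  have hs : Summable (fun N => rr e * zz (e + 1) N + zd (e + 1) N) :=
    ((summable_zz he1).mul_left _).add (summable_zd he1)
  have h := tsum_telescope
    (f := fun N => zd e N - lam e * (rr e * zz (e + 1) N + zd (e + 1) N)) (g := gd e)
    ((summable_zd he).sub (hs.mul_left _)) (wzd he) (gd_tendsto he)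
  rw [(summable_zd he).tsum_sub (hs.mul_left _), tsum_mul_left,
    ((summable_zz he1).mul_left (rr e)).tsum_add (summable_zd he1), tsum_mul_left] at h
  have h0 : gd e 0 = 0 := by simp [gd, gg]
  rw [h0] at h
  unfold ZS ZD
  linarith

/-- the constant of the two bounds -/
noncomputable def CC : ℝ :=
  ∑' N : ℕ, (4 + (6 * ((N : ℝ) + 1) + 5) * (4 * (N + 1))) * (1 / 4) ^ (N + 1)

lemma summable_CC : Summable
    (fun N : ℕ => (4 + (6 * ((N : ℝ) + 1) + 5) * (4 * (N + 1))) * (1 / 4 : ℝ) ^ (N + 1)) := by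
  refine (summable_poly 12 17 6).congr ?_
  intro N
  rw [pow_succ]
  ring

lemma ZS_bound {e : ℝ} (he : 0 ≤ e) : |ZS e - (1 + 4 * e)| ≤ CC := by
  unfold ZS
  rw [(summable_zz he).tsum_eq_zero_add]
  have h0 : zz e 0 = 1 + 4 * e := by simp [zz, aa_zero]
  rw [h0, add_sub_cancel_left, ← Real.norm_eq_abs]
  refine tsum_of_norm_bounded summable_CC.hasSum ?_
  intro N
  rw [Real.norm_eq_abs]
  refine (zz_abs_le' he N).trans ?_
  refine mul_le_mul_of_nonneg_right ?_ (by positivity)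
  have hN : (0 : ℝ) ≤ N := Nat.cast_nonneg N
  nlinarith

lemma ZD_bound {e : ℝ} (he : 0 ≤ e) : |ZD e| ≤ 4 + CC := by
  unfold ZD
  rw [(summable_zd he).tsum_eq_zero_add]
  have h0 : zd e 0 = 4 := by simp [zd, aa_zero, DD_zero]
  rw [h0]
  refine (abs_add_le _ _).trans ?_
  have h4 : |(4 : ℝ)| = 4 := by norm_num
  rw [h4]
  gcongr
  rw [← Real.norm_eq_abs]
  refine tsum_of_norm_bounded summable_CC.hasSum ?_
  intro N
  rw [Real.norm_eq_abs]
  exact zd_abs_le' he N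

lemma ZS_pos (n : ℕ) : 0 < ZS n := by
  -- positive for large arguments
  have hbig : ∀ m : ℕ, CC < 1 + 4 * (m : ℝ) → 0 < ZS m := by
    intro m hm
    have := ZS_bound (Nat.cast_nonneg m : (0 : ℝ) ≤ m)
    have := (abs_le.mp this).1
    linarith
  obtain ⟨k, hk⟩ := exists_nat_gt CC
  have hdown : ∀ j n : ℕ, 0 < ZS ((n + j : ℕ) : ℝ) → 0 < ZS n := by
    intro j
    induction j with
    | zero => intro n h; simpa using h
    | succ j ih =>
      intro n h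
      have h1 : 0 < ZS ((n + 1 : ℕ) : ℝ) := by
        apply ih (n + 1)
        rw [show n + 1 + j = n + (j + 1) by ring]
        exact h
      rw [ZS_rec (Nat.cast_nonneg n)]
      push_cast at h1
      exact mul_pos (lam_pos (Nat.cast_nonneg n)) h1
  apply hdown k n
  apply hbig
  push_cast
  have : (0 : ℝ) ≤ n := Nat.cast_nonneg n
  have : (0 : ℝ) ≤ k := Nat.cast_nonneg k
  linarith

lemma ratio_rec (n : ℕ) : ZD n / ZS n = rr n + ZD ((n + 1 : ℕ) : ℝ) / ZS ((n + 1 : ℕ) : ℝ) := by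
  have h0 : (0 : ℝ) ≤ n := Nat.cast_nonneg n
  have h1 := (ZS_pos (n + 1)).ne'
  have h2 := (lam_pos h0).ne'
  push_cast at h1 ⊢
  rw [ZS_rec h0, ZD_rec h0]
  field_simp

lemma ratio_sum (n : ℕ) : ZD 0 / ZS 0 = ∑ i ∈ range n, rr i + ZD n / ZS n := by
  induction n with
  | zero => simp
  | succ n ih =>
    rw [sum_range_succ, ih, ratio_rec n]
    ring

lemma ratio_tendsto : Tendsto (fun n : ℕ => ZD n / ZS n) atTop (𝓝 0) := by
  have hlim : Tendsto (fun n : ℕ => (4 + CC) / (1 + 4 * (n : ℝ) - CC)) atTop (𝓝 0) := by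
    refine Tendsto.div_atTop tendsto_const_nhds ?_
    have h1 : Tendsto (fun n : ℕ => 4 * (n : ℝ)) atTop atTop :=
      tendsto_natCast_atTop_atTop.const_mul_atTop (by norm_num)
    have := tendsto_atTop_add_const_right atTop (1 - CC) h1
    refine this.congr ?_
    intro n
    ring
  obtain ⟨k, hk⟩ := exists_nat_gt CC
  refine squeeze_zero_norm' ?_ hlim
  filter_upwards [eventually_ge_atTop k] with n hn
  rw [norm_div, Real.norm_eq_abs, Real.norm_eq_abs, abs_of_pos (ZS_pos n)]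
  have hn' : (k : ℝ) ≤ n := by exact_mod_cast hn
  have hk0 : (0 : ℝ) ≤ k := Nat.cast_nonneg k
  have hb := (abs_le.mp (ZS_bound (Nat.cast_nonneg n : (0 : ℝ) ≤ n))).1
  have hd := ZD_bound (Nat.cast_nonneg n : (0 : ℝ) ≤ n)
  have h4 : 0 ≤ 4 + CC := (abs_nonneg _).trans hd
  gcongr
  · linarith
  · linarith

/-! ### the sum of `rr` -/

lemma rr_sum (n : ℕ) : ∑ i ∈ range n, rr (i : ℝ) =
    4 * (harmonic (4 * n) : ℝ) - 2 * (harmonic (2 * n) : ℝ) - 2 * (harmonic n : ℝ) := by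
  induction n with
  | zero => simp
  | succ n ih =>
    rw [sum_range_succ, ih]
    have e4 : 4 * (n + 1) = (((4 * n + 1) + 1) + 1) + 1 := by ring
    have e2 : 2 * (n + 1) = (2 * n + 1) + 1 := by ring
    rw [e4, e2]
    simp only [harmonic_succ]
    unfold rr
    push_cast
    have h1 : (1 / 2 + 2 * (n : ℝ)) ≠ 0 := by positivity
    have h2 : (3 / 2 + 2 * (n : ℝ)) ≠ 0 := by positivity
    have h3 : (1 + (n : ℝ)) ≠ 0 := by positivity
    have h4 : ((n : ℝ) + 1) ≠ 0 := by positivity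
    have h5 : (4 * (n : ℝ) + 1) ≠ 0 := by positivity
    have h6 : (4 * (n : ℝ) + 1 + 1) ≠ 0 := by positivity
    have h7 : (4 * (n : ℝ) + 1 + 1 + 1) ≠ 0 := by positivity
    have h8 : (4 * (n : ℝ) + 1 + 1 + 1 + 1) ≠ 0 := by positivity
    have h9 : (2 * (n : ℝ) + 1) ≠ 0 := by positivity
    have h10 : (2 * (n : ℝ) + 1 + 1) ≠ 0 := by positivity
    have key : 2 / (1 / 2 + 2 * (n : ℝ)) + 2 / (3 / 2 + 2 * (n : ℝ)) - 2 / (1 + (n : ℝ)) =
        4 * ((4 * (n : ℝ) + 1)⁻¹ + (4 * (n : ℝ) + 1 + 1)⁻¹ + (4 * (n : ℝ) + 1 + 1 + 1)⁻¹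
          + (4 * (n : ℝ) + 1 + 1 + 1 + 1)⁻¹) - 2 * ((2 * (n : ℝ) + 1)⁻¹ + (2 * (n : ℝ) + 1 + 1)⁻¹)
          - 2 * ((n : ℝ) + 1)⁻¹ := by
      have a1 : 2 / (1 / 2 + 2 * (n : ℝ)) = 4 * (4 * (n : ℝ) + 1)⁻¹ := by
        field_simp
        ring
      have a2 : 2 / (3 / 2 + 2 * (n : ℝ)) = 4 * (4 * (n : ℝ) + 1 + 1 + 1)⁻¹ := by
        field_simp
        ring
      have a3 : (4 * (n : ℝ) + 1 + 1)⁻¹ = (1 / 2) * (2 * (n : ℝ) + 1)⁻¹ := by
        field_simp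
        ring
      have a4 : (4 * (n : ℝ) + 1 + 1 + 1 + 1)⁻¹ = (1 / 4) * ((n : ℝ) + 1)⁻¹ := by
        field_simp
        ring
      have a5 : (2 * (n : ℝ) + 1 + 1)⁻¹ = (1 / 2) * ((n : ℝ) + 1)⁻¹ := by
        field_simp
        ring
      have a6 : 2 / (1 + (n : ℝ)) = 2 * ((n : ℝ) + 1)⁻¹ := by
        rw [add_comm, div_eq_mul_inv]
      rw [a1, a2, a3, a4, a5, a6]
      ring
    rw [key]
    ring

lemma rr_sum_tendsto : Tendsto (fun n : ℕ => ∑ i ∈ range n, rr (i : ℝ)) atTop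
    (𝓝 (6 * Real.log 2)) := by
  have h := Real.tendsto_harmonic_sub_log
  have h4 : Tendsto (fun n : ℕ => (harmonic (4 * n) : ℝ) - Real.log ((4 * n : ℕ) : ℝ)) atTop
      (𝓝 Real.eulerMascheroniConstant) :=
    h.comp (tendsto_atTop_mono (fun n => by omega : ∀ n : ℕ, n ≤ 4 * n) tendsto_id)
  have h2 : Tendsto (fun n : ℕ => (harmonic (2 * n) : ℝ) - Real.log ((2 * n : ℕ) : ℝ)) atTop
      (𝓝 Real.eulerMascheroniConstant) :=
    h.comp (tendsto_atTop_mono (fun n => by omega : ∀ n : ℕ, n ≤ 2 * n) tendsto_id)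
  have hh := ((h4.const_mul 4).sub (h2.const_mul 2)).sub (h.const_mul 2)
  have hh' := hh.add_const (6 * Real.log 2)
  have e : 4 * Real.eulerMascheroniConstant - 2 * Real.eulerMascheroniConstant -
      2 * Real.eulerMascheroniConstant + 6 * Real.log 2 = 6 * Real.log 2 := by ring
  rw [e] at hh'
  refine hh'.congr' ?_
  filter_upwards [eventually_ge_atTop 1] with n hn
  rw [rr_sum]
  have hn0 : (n : ℝ) ≠ 0 := by
    have : (0 : ℝ) < n := by exact_mod_cast hn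
    exact this.ne'
  have l4 : Real.log (4 : ℝ) = 2 * Real.log 2 := by
    rw [show (4 : ℝ) = 2 ^ 2 by norm_num, Real.log_pow]; norm_num
  push_cast
  rw [Real.log_mul (by norm_num) hn0, Real.log_mul (by norm_num) hn0, l4]
  ring

theorem ZD_eq : ZD 0 = 6 * Real.log 2 * ZS 0 := by
  have h1 : Tendsto (fun n : ℕ => ∑ i ∈ range n, rr (i : ℝ) + ZD n / ZS n) atTop
      (𝓝 (6 * Real.log 2 + 0)) := rr_sum_tendsto.add ratio_tendsto
  have h2 : (fun n : ℕ => ∑ i ∈ range n, rr (i : ℝ) + ZD n / ZS n) = fun _ => ZD 0 / ZS 0 := by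
    funext n
    exact (ratio_sum n).symm
  rw [h2] at h1
  have h3 := tendsto_nhds_unique h1 tendsto_const_nhds
  have h0 := (ZS_pos 0).ne'
  rw [Nat.cast_zero] at h0
  have h4 : ZD 0 / ZS 0 = 6 * Real.log 2 := by
    rw [← h3]; ring
  rw [div_eq_iff h0] at h4
  exact h4

/-! ### the final statements -/

/-- `(1/2)_N / N!` -/
noncomputable def hp (N : ℕ) : ℝ := ∏ i ∈ range N, ((1 / 2 + i) / (1 + i) : ℝ)

noncomputable def w (N : ℕ) : ℝ := (-1 / 8) ^ N * (6 * N + 1) * hp N ^ 3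

noncomputable def wd (N : ℕ) : ℝ := (-1 / 8) ^ N * hp N ^ 3 *
  (6 + (6 * N + 1) * (3 * ∑ i ∈ range N, (1 / (1 / 2 + i) - 1 / (1 + i) : ℝ)))

lemma aa_at_zero (N : ℕ) : aa 0 N = hp N ^ 3 := by
  unfold aa hp
  rw [← prod_pow]
  refine prod_congr rfl ?_
  intro i _
  rw [mul_zero, add_zero, add_zero, div_pow]
  congr 1 <;> ring

lemma w_eq (N : ℕ) : w N = zz 0 N := by
  unfold w zz
  rw [aa_at_zero]
  ring

lemma wd_eq (N : ℕ) : wd N = (3 / 2) * zd 0 N := by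
  unfold wd zd DD
  rw [aa_at_zero]
  have : ∑ i ∈ range N, (2 / (1 / 2 + 2 * 0 + (i : ℝ)) - 2 / (1 + 0 + (i : ℝ))) =
      2 * ∑ i ∈ range N, (1 / (1 / 2 + i) - 1 / (1 + i) : ℝ) := by
    rw [mul_sum]
    refine sum_congr rfl ?_
    intro i _
    rw [mul_zero, add_zero, add_zero]
    ring
  rw [this]
  ring

noncomputable def Z0 : ℝ := ∑' N, w N

lemma Z0_eq : Z0 = ZS 0 := by
  unfold Z0 ZS
  exact tsum_congr w_eq

theorem Z0_pos : 0 < Z0 := by
  rw [Z0_eq]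
  have := ZS_pos 0
  rwa [Nat.cast_zero] at this

theorem hasSum_w : HasSum w Z0 := by
  have h : Summable w := (summable_zz le_rfl).congr (fun N => (w_eq N).symm)
  exact h.hasSum

theorem hasSum_wd : HasSum wd (9 * Real.log 2 * Z0) := by
  have h : HasSum (fun N => (3 / 2 : ℝ) * zd 0 N) ((3 / 2) * ZD 0) :=
    (summable_zd le_rfl).hasSum.mul_left _
  rw [ZD_eq, ← Z0_eq] at h
  have h2 : (fun N => (3 / 2 : ℝ) * zd 0 N) = wd := by
    funext N
    exact (wd_eq N).symm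
  rw [h2] at h
  convert h using 1
  ring

end Crest.Agent.R006.Be0530
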