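import Mathlib

/-!
Row 6 (Catalan), P1/P3, helper294.  Elementary bounds used for `be = 0`.
`bk k = (k+1)^(-17/24)`.
-/

set_option autoImplicit false

namespace Crest.Agent.R006.Be

open Finset Filter Topology

/-- the comparison sequence -/
noncomputable def bk (k : ℕ) : ℝ := ((k : ℝ) + 1) ^ (-(17 / 24 : ℝ))

lemma bk_zero : bk 0 = 1 := by simp [bk]

lemma bk_pos (k : ℕ) : 0 < bk k := by unfold bk; positivity

/-- `(k+1)/(k+1+17/24) * bk k ≤ bk (k+1)` -/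
lemma bk_step (k : ℕ) : ((k : ℝ) + 1) / (k + 1 + 17 / 24) * bk k ≤ bk (k + 1) := by
  have hk : (0 : ℝ) ≤ k := Nat.cast_nonneg k
  have h1 : (1 + 1 / ((k : ℝ) + 1)) ^ (17 / 24 : ℝ) ≤ 1 + (17 / 24) * (1 / ((k : ℝ) + 1)) := by
    apply rpow_one_add_le_one_add_mul_self
    · have : (0 : ℝ) ≤ 1 / ((k : ℝ) + 1) := by positivity
      linarith
    · norm_num
    · norm_num
  have e : (1 + 1 / ((k : ℝ) + 1)) = (k + 2) / (k + 1) := by field_simp; ring
  rw [e, Real.div_rpow (by positivity) (by positivity)] at h1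
  have e2 : 1 + (17 / 24) * (1 / ((k : ℝ) + 1)) = (k + 1 + 17 / 24) / (k + 1) := by
    field_simp
  rw [e2] at h1
  unfold bk
  push_cast
  rw [show (k : ℝ) + 1 + 1 = k + 2 by ring, Real.rpow_neg (by positivity),
    Real.rpow_neg (by positivity)]
  have hA : 0 < ((k : ℝ) + 1) ^ (17 / 24 : ℝ) := by positivity
  have hB : 0 < ((k : ℝ) + 2) ^ (17 / 24 : ℝ) := by positivity
  rw [div_le_div_iff₀ hA (by positivity)] at h1
  rw [← div_eq_mul_inv, div_div, inv_eq_one_div, div_le_div_iff₀ (by positivity) hB]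
  linarith

/-- factor bound: any real number `≤ (k+1/4+3/200)/(k+1-3/200)` works as a factor -/
lemma factor_le (k : ℕ) : ((k : ℝ) + 1 / 4 + 3 / 200) / (k + 1 - 3 / 200) ≤
    ((k : ℝ) + 1) / (k + 1 + 17 / 24) := by
  have hk : (0 : ℝ) ≤ k := Nat.cast_nonneg k
  rw [div_le_div_iff₀ (by linarith) (by linarith)]
  nlinarith

lemma bk_step' (k : ℕ) {x y : ℝ} (hy0 : 0 ≤ y) (hy : y ≤ bk k)
    (hx : x ≤ ((k : ℝ) + 1) / (k + 1 + 17 / 24)) : y * x ≤ bk (k + 1) := by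
  have h := bk_step k
  have hk : (0 : ℝ) ≤ k := Nat.cast_nonneg k
  have h0 : 0 ≤ ((k : ℝ) + 1) / (k + 1 + 17 / 24) := by positivity
  calc y * x ≤ y * (((k : ℝ) + 1) / (k + 1 + 17 / 24)) := mul_le_mul_of_nonneg_left hx hy0
    _ ≤ bk k * (((k : ℝ) + 1) / (k + 1 + 17 / 24)) := mul_le_mul_of_nonneg_right hy h0
    _ = (((k : ℝ) + 1) / (k + 1 + 17 / 24)) * bk k := mul_comm _ _
    _ ≤ bk (k + 1) := h

/-- the majorant of the terms -/
noncomputable def Mk (k : ℕ) : ℝ := ((k : ℝ) + 1) * bk k ^ 3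

lemma Mk_nonneg (k : ℕ) : 0 ≤ Mk k := by
  have := bk_pos k
  unfold Mk; positivity

lemma Mk_eq (k : ℕ) : Mk k = ((k : ℝ) + 1) ^ (-(9 / 8 : ℝ)) := by
  unfold Mk bk
  have h : (0 : ℝ) < (k : ℝ) + 1 := by positivity
  rw [← Real.rpow_natCast, ← Real.rpow_mul h.le]
  nth_rewrite 1 [← Real.rpow_one ((k : ℝ) + 1)]
  rw [← Real.rpow_add h]
  norm_num

lemma summable_Mk : Summable Mk := by
  have h : Summable (fun n : ℕ => (n : ℝ) ^ (-(9 / 8 : ℝ))) := by
    rw [Real.summable_nat_rpow]; norm_num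
  have h2 := (summable_nat_add_iff 1).mpr h
  refine h2.congr (fun k => ?_)
  rw [Mk_eq]; push_cast; rfl

lemma Mk_tendsto : Tendsto Mk atTop (𝓝 0) := summable_Mk.tendsto_atTop_zero

end Crest.Agent.R006.Be
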