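import Crest.Agent.R006.BeU_294

/-!
Row 6 (Catalan), P1/P3, helper294.  Derivative at the symmetric point:
`W(ε) = ∑ (-1)^k (1/4+3ε+2k) ((1/4+ε)_k/(1+2ε)_k)^3` has `W(0) = √2/(2π)`, `W'(0) = 18 log 2 W(0)`.
-/

set_option autoImplicit false

namespace Crest.Agent.R006.Be

open Finset Filter Topology

/-! ### the real function `U` at `1/4` -/

lemma U_quarter : U (1 / 4) = √2 / (2 * Real.pi) := by
  rw [U_eq (by norm_num), Real.Gamma_mul_Gamma_add_half]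
  norm_num
  rw [Real.Gamma_one_half_eq]
  have h2 : (2 : ℝ) ^ (1 / 2 : ℝ) = √2 := by rw [Real.sqrt_eq_rpow]
  rw [h2]
  have hp : √Real.pi * √Real.pi = Real.pi := Real.mul_self_sqrt Real.pi_pos.le
  have h22 : √2 * √2 = (2 : ℝ) := Real.mul_self_sqrt (by norm_num)
  have : (√Real.pi * √2 * √Real.pi) = Real.pi * √2 := by
    rw [show √Real.pi * √2 * √Real.pi = (√Real.pi * √Real.pi) * √2 by ring, hp]
  rw [mul_assoc] at this
  field_simp
  nlinarith [hp, h22, this, Real.pi_pos]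

lemma hasDerivAt_U : HasDerivAt U (6 * Real.log 2 * U (1 / 4)) (1 / 4) := by
  -- closed form near 1/4
  have hev : U =ᶠ[𝓝 (1 / 4 : ℝ)] fun a => Real.Gamma (a + 3 / 4) ^ 2 /
      (Real.Gamma (2 * a) * 2 ^ (1 - 2 * a) * √Real.pi) := by
    filter_upwards [lt_mem_nhds (show (47 / 200 : ℝ) < 1 / 4 by norm_num)] with a ha
    rw [U_eq ha.le, Real.Gamma_mul_Gamma_add_half]
  have hN : HasDerivAt (fun a : ℝ => Real.Gamma (a + 3 / 4) ^ 2)
      (2 * Real.Gamma 1 ^ 1 * (-Real.eulerMascheroniConstant)) (1 / 4) := by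
    have h1 : HasDerivAt (fun a : ℝ => a + 3 / 4) 1 (1 / 4) := (hasDerivAt_id _).add_const _
    have h2 : HasDerivAt Real.Gamma (-Real.eulerMascheroniConstant) ((1 / 4 : ℝ) + 3 / 4) := by
      rw [show (1 / 4 : ℝ) + 3 / 4 = 1 by norm_num]; exact Real.hasDerivAt_Gamma_one
    have h3 := (h2.comp (1 / 4 : ℝ) h1).pow 2
    refine h3.congr_deriv ?_
    simp only [Function.comp]
    norm_num
  have hD1 : HasDerivAt (fun a : ℝ => Real.Gamma (2 * a))
      (-√Real.pi * (Real.eulerMascheroniConstant + 2 * Real.log 2) * 2) (1 / 4) := by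
    have h1 : HasDerivAt (fun a : ℝ => 2 * a) 2 (1 / 4) := by
      simpa using (hasDerivAt_id (1 / 4 : ℝ)).const_mul 2
    have h2 : HasDerivAt Real.Gamma (-√Real.pi * (Real.eulerMascheroniConstant + 2 * Real.log 2))
        (2 * (1 / 4 : ℝ)) := by
      rw [show 2 * (1 / 4 : ℝ) = 1 / 2 by norm_num]; exact Real.hasDerivAt_Gamma_one_half
    exact h2.comp (1 / 4 : ℝ) h1
  have hD2 : HasDerivAt (fun a : ℝ => (2 : ℝ) ^ (1 - 2 * a))
      (-2 * (Real.log 2) * √2) (1 / 4) := by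
    have h1 : HasDerivAt (fun a : ℝ => 1 - 2 * a) (-2) (1 / 4) := by
      have := ((hasDerivAt_id (1 / 4 : ℝ)).const_mul 2).const_sub 1
      simpa using this
    have h2 := h1.const_rpow (a := 2) (by norm_num)
    refine h2.congr_deriv ?_
    rw [show (1 - 2 * (1 / 4 : ℝ)) = 1 / 2 by norm_num, ← Real.sqrt_eq_rpow]
    ring
  have hD := (hD1.mul hD2).mul_const (√Real.pi)
  have hval1 : Real.Gamma (2 * (1 / 4 : ℝ)) = √Real.pi := by
    rw [show 2 * (1 / 4 : ℝ) = 1 / 2 by norm_num]; exact Real.Gamma_one_half_eq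
  have hval2 : (2 : ℝ) ^ (1 - 2 * (1 / 4 : ℝ)) = √2 := by
    rw [show (1 - 2 * (1 / 4 : ℝ)) = 1 / 2 by norm_num, ← Real.sqrt_eq_rpow]
  have hval3 : Real.Gamma ((1 / 4 : ℝ) + 3 / 4) = 1 := by
    rw [show (1 / 4 : ℝ) + 3 / 4 = 1 by norm_num]; exact Real.Gamma_one
  have hpi : (0 : ℝ) < √Real.pi := Real.sqrt_pos.mpr Real.pi_pos
  have h2p : (0 : ℝ) < √2 := by positivity
  have hDne : Real.Gamma (2 * (1 / 4 : ℝ)) * 2 ^ (1 - 2 * (1 / 4 : ℝ)) * √Real.pi ≠ 0 := by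
    rw [hval1, hval2]; positivity
  have hquot := hN.div hD hDne
  refine (hquot.congr_of_eventuallyEq ?_).congr_deriv ?_
  · filter_upwards [hev] with a ha
    rw [ha]
    simp only [Pi.div_apply, Pi.mul_apply]
  · rw [U_quarter]
    simp only [Pi.mul_apply]
    rw [hval1, hval2, hval3, Real.Gamma_one]
    have hp : √Real.pi * √Real.pi = Real.pi := Real.mul_self_sqrt Real.pi_pos.le
    have hp2 : √Real.pi ^ 2 = Real.pi := Real.sq_sqrt Real.pi_pos.le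
    have h22 : √2 ^ 2 = (2 : ℝ) := Real.sq_sqrt (by norm_num)
    have hpp := Real.pi_pos
    have e1 : (√Real.pi * √2 * √Real.pi) = Real.pi * √2 := by
      rw [show √Real.pi * √2 * √Real.pi = (√Real.pi * √Real.pi) * √2 by ring, hp]
    have e2 : (-√Real.pi * (Real.eulerMascheroniConstant + 2 * Real.log 2) * 2 * √2 +
        √Real.pi * (-2 * Real.log 2 * √2)) * √Real.pi
        = Real.pi * √2 * (-(2 * Real.eulerMascheroniConstant + 6 * Real.log 2)) := by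
      have : (-√Real.pi * (Real.eulerMascheroniConstant + 2 * Real.log 2) * 2 * √2 +
        √Real.pi * (-2 * Real.log 2 * √2)) * √Real.pi
        = (√Real.pi * √Real.pi) * √2 * (-(2 * Real.eulerMascheroniConstant + 6 * Real.log 2)) := by
        ring
      rw [this, hp]
    rw [e1, e2]
    field_simp
    rw [h22]
    ring

/-! ### the complex families -/

noncomputable def Pc (ε : ℂ) : ℕ → ℂ
  | 0 => 1
  | k + 1 => Pc ε k * ((k + 1 / 4 + ε) / (k + 1 + 2 * ε))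

noncomputable def Qc (ε : ℂ) : ℕ → ℂ
  | 0 => 1
  | k + 1 => Qc ε k * ((k + 1 / 4 + 3 * ε) / (k + 1))

noncomputable def Rc (ε : ℂ) : ℕ → ℂ
  | 0 => 1
  | k + 1 => Rc ε k * ((k + 1 / 4) / (k + 1 + 3 * ε))

noncomputable def wc (k : ℕ) (ε : ℂ) : ℂ := (-1) ^ k * (1 / 4 + 3 * ε + 2 * k) * Pc ε k ^ 3

noncomputable def uc (k : ℕ) (ε : ℂ) : ℂ :=
  (-1) ^ k * (1 / 4 + 3 * ε + 2 * k) * (Qc ε k * Rc ε k ^ 2)

lemma factor_norm (k : ℕ) {x y : ℂ} (hx : ‖x‖ ≤ k + 1 / 4 + 3 / 200)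
    (hy : (k : ℝ) + 1 - 3 / 200 ≤ ‖y‖) : ‖x / y‖ ≤ ((k : ℝ) + 1) / (k + 1 + 17 / 24) := by
  have hk : (0 : ℝ) ≤ k := Nat.cast_nonneg k
  rw [norm_div]
  refine le_trans ?_ (factor_le k)
  exact div_le_div₀ (by positivity) hx (by linarith) hy

lemma norm_num_le (k : ℕ) (c : ℝ) {t : ℂ} (ht : ‖t‖ ≤ c) :
    ‖(k : ℂ) + 1 / 4 + t‖ ≤ k + 1 / 4 + c := by
  refine (norm_add_le _ _).trans ?_
  have h : ‖(k : ℂ) + 1 / 4‖ ≤ k + 1 / 4 := by
    have : (k : ℂ) + 1 / 4 = (((k : ℝ) + 1 / 4 : ℝ) : ℂ) := by push_cast; ring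
    rw [this, Complex.norm_real, Real.norm_eq_abs, abs_of_nonneg (by positivity)]
  linarith

lemma norm_den_ge (k : ℕ) (c : ℝ) {t : ℂ} (ht : ‖t‖ ≤ c) :
    (k : ℝ) + 1 - c ≤ ‖(k : ℂ) + 1 + t‖ := by
  have h : ‖(k : ℂ) + 1‖ = (k : ℝ) + 1 := by
    have : (k : ℂ) + 1 = (((k : ℝ) + 1 : ℝ) : ℂ) := by push_cast; ring
    rw [this, Complex.norm_real, Real.norm_eq_abs, abs_of_nonneg (by positivity)]
  have := norm_sub_le ((k : ℂ) + 1 + t) t
  rw [add_sub_cancel_right, h] at this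
  linarith

section bounds

variable {ε : ℂ} (hε : ‖ε‖ ≤ 1 / 200)

include hε

lemma norm_two : ‖2 * ε‖ ≤ 3 / 200 := by
  rw [norm_mul]; norm_num; linarith

lemma norm_three : ‖3 * ε‖ ≤ 3 / 200 := by
  rw [norm_mul]; norm_num; linarith

lemma Pc_le (k : ℕ) : ‖Pc ε k‖ ≤ bk k := by
  induction k with
  | zero => simp [Pc, bk_zero]
  | succ k ih =>
    have e : Pc ε (k + 1) = Pc ε k * ((k + 1 / 4 + ε) / (k + 1 + 2 * ε)) := rfl
    rw [e, norm_mul]
    refine bk_step' k (norm_nonneg _) ih (factor_norm k ?_ ?_)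
    · exact norm_num_le k _ (hε.trans (by norm_num))
    · exact norm_den_ge k _ (norm_two hε)

lemma Qc_le (k : ℕ) : ‖Qc ε k‖ ≤ bk k := by
  induction k with
  | zero => simp [Qc, bk_zero]
  | succ k ih =>
    have e : Qc ε (k + 1) = Qc ε k * ((k + 1 / 4 + 3 * ε) / (k + 1)) := rfl
    rw [e, norm_mul]
    refine bk_step' k (norm_nonneg _) ih (factor_norm k ?_ ?_)
    · exact norm_num_le k _ (norm_three hε)
    · have := norm_den_ge k (3 / 200) (t := 0) (by norm_num)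
      rwa [add_zero] at this

lemma Rc_le (k : ℕ) : ‖Rc ε k‖ ≤ bk k := by
  induction k with
  | zero => simp [Rc, bk_zero]
  | succ k ih =>
    have e : Rc ε (k + 1) = Rc ε k * ((k + 1 / 4) / (k + 1 + 3 * ε)) := rfl
    rw [e, norm_mul]
    refine bk_step' k (norm_nonneg _) ih (factor_norm k ?_ ?_)
    · have := norm_num_le k (3 / 200) (t := 0) (by norm_num)
      rwa [add_zero] at this
    · exact norm_den_ge k _ (norm_three hε)

lemma pref_le (k : ℕ) : ‖(-1 : ℂ) ^ k * (1 / 4 + 3 * ε + 2 * k)‖ ≤ 2 * ((k : ℝ) + 1) := by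
  rw [norm_mul, norm_pow, norm_neg, norm_one, one_pow, one_mul]
  have h1 : ‖(1 / 4 + 3 * ε + 2 * k : ℂ)‖ ≤ ‖(1 / 4 : ℂ)‖ + ‖3 * ε‖ + ‖(2 * k : ℂ)‖ :=
    norm_add₃_le
  have h2 : ‖(1 / 4 : ℂ)‖ = 1 / 4 := by norm_num
  have h3 : ‖(2 * k : ℂ)‖ = 2 * k := by
    rw [norm_mul, Complex.norm_natCast]; norm_num
  have h4 := norm_three hε
  rw [h2, h3] at h1
  linarith

lemma wc_le (k : ℕ) : ‖wc k ε‖ ≤ 2 * Mk k := by
  unfold wc
  rw [norm_mul, norm_pow]
  have hb := bk_pos k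
  calc ‖(-1 : ℂ) ^ k * (1 / 4 + 3 * ε + 2 * k)‖ * ‖Pc ε k‖ ^ 3
      ≤ (2 * ((k : ℝ) + 1)) * bk k ^ 3 := by
        apply mul_le_mul (pref_le hε k) (pow_le_pow_left₀ (norm_nonneg _) (Pc_le hε k) 3)
          (by positivity) (by positivity)
    _ = 2 * Mk k := by unfold Mk; ring

lemma uc_le (k : ℕ) : ‖uc k ε‖ ≤ 2 * Mk k := by
  unfold uc
  rw [norm_mul, norm_mul (Qc ε k), norm_pow (Rc ε k)]
  have hb := bk_pos k
  calc ‖(-1 : ℂ) ^ k * (1 / 4 + 3 * ε + 2 * k)‖ * (‖Qc ε k‖ * ‖Rc ε k‖ ^ 2)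
      ≤ (2 * ((k : ℝ) + 1)) * (bk k * bk k ^ 2) := by
        apply mul_le_mul (pref_le hε k) _ (by positivity) (by positivity)
        exact mul_le_mul (Qc_le hε k) (pow_le_pow_left₀ (norm_nonneg _) (Rc_le hε k) 2)
          (by positivity) hb.le
    _ = 2 * Mk k := by unfold Mk; ring

end bounds

/-! ### differentiability -/

lemma den_ne (k : ℕ) {t : ℂ} (ht : ‖t‖ ≤ 3 / 200) : (k : ℂ) + 1 + t ≠ 0 := by
  have h := norm_den_ge k _ ht
  have hk : (0 : ℝ) ≤ k := Nat.cast_nonneg k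
  intro h0
  rw [h0, norm_zero] at h
  linarith

lemma Pc_diff (k : ℕ) : DifferentiableOn ℂ (fun ε => Pc ε k) (Metric.ball 0 (1 / 200)) := by
  induction k with
  | zero => exact differentiableOn_const _
  | succ k ih =>
    have e : (fun ε => Pc ε (k + 1)) = fun ε => Pc ε k * ((k + 1 / 4 + ε) / (k + 1 + 2 * ε)) := rfl
    rw [e]
    refine ih.mul (DifferentiableOn.div (by fun_prop) (by fun_prop) ?_)
    intro ε hε
    rw [mem_ball_zero_iff] at hε
    exact den_ne k (norm_two hε.le)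

lemma Qc_diff (k : ℕ) : DifferentiableOn ℂ (fun ε => Qc ε k) (Metric.ball 0 (1 / 200)) := by
  induction k with
  | zero => exact differentiableOn_const _
  | succ k ih =>
    have e : (fun ε => Qc ε (k + 1)) = fun ε => Qc ε k * ((k + 1 / 4 + 3 * ε) / (k + 1)) := rfl
    rw [e]
    refine ih.mul ?_
    fun_prop

lemma Rc_diff (k : ℕ) : DifferentiableOn ℂ (fun ε => Rc ε k) (Metric.ball 0 (1 / 200)) := by
  induction k with
  | zero => exact differentiableOn_const _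
  | succ k ih =>
    have e : (fun ε => Rc ε (k + 1)) = fun ε => Rc ε k * ((k + 1 / 4) / (k + 1 + 3 * ε)) := rfl
    rw [e]
    refine ih.mul (DifferentiableOn.div (by fun_prop) (by fun_prop) ?_)
    intro ε hε
    rw [mem_ball_zero_iff] at hε
    exact den_ne k (norm_three hε.le)

lemma wc_diff (k : ℕ) : DifferentiableOn ℂ (wc k) (Metric.ball 0 (1 / 200)) := by
  have h := Pc_diff k
  unfold wc
  refine DifferentiableOn.mul (by fun_prop) (h.pow 3)

lemma uc_diff (k : ℕ) : DifferentiableOn ℂ (uc k) (Metric.ball 0 (1 / 200)) := by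
  unfold uc
  refine DifferentiableOn.mul (by fun_prop) ((Qc_diff k).mul ((Rc_diff k).pow 2))

/-! ### derivatives at 0 -/

noncomputable def s1 (k : ℕ) : ℂ := ∑ j ∈ range k, 1 / ((j : ℂ) + 1 / 4)
noncomputable def s2 (k : ℕ) : ℂ := ∑ j ∈ range k, 1 / ((j : ℂ) + 1)

lemma quarter_ne (k : ℕ) : (k : ℂ) + 1 / 4 ≠ 0 := by
  have : (k : ℂ) + 1 / 4 = (((k : ℝ) + 1 / 4 : ℝ) : ℂ) := by push_cast; ring
  rw [this, Complex.ofReal_ne_zero]
  positivity

lemma succ_ne (k : ℕ) : (k : ℂ) + 1 ≠ 0 := by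
  have := den_ne k (t := 0) (by norm_num)
  rwa [add_zero] at this

lemma QR_zero (k : ℕ) : Qc 0 k = Pc 0 k ∧ Rc 0 k = Pc 0 k := by
  induction k with
  | zero => simp [Pc, Qc, Rc]
  | succ k ih =>
    simp only [Pc, Qc, Rc, mul_zero, add_zero]
    rw [ih.1, ih.2]
    exact ⟨rfl, rfl⟩

lemma hasDerivAt_Pc (k : ℕ) :
    HasDerivAt (fun ε => Pc ε k) (Pc 0 k * (s1 k - 2 * s2 k)) 0 := by
  induction k with
  | zero => simpa [Pc, s1, s2] using hasDerivAt_const (0 : ℂ) (1 : ℂ)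
  | succ k ih =>
    have hd : HasDerivAt (fun ε : ℂ => ((k : ℂ) + 1 / 4 + ε) / (k + 1 + 2 * ε))
        ((((1 : ℂ)) * ((k : ℂ) + 1 + 2 * 0) - ((k : ℂ) + 1 / 4 + 0) * (2 * 1)) /
          ((k : ℂ) + 1 + 2 * 0) ^ 2) 0 := by
      apply HasDerivAt.div
      · exact (hasDerivAt_id (0 : ℂ)).const_add _
      · exact ((hasDerivAt_id (0 : ℂ)).const_mul 2).const_add _
      · simpa using succ_ne k
    have h := ih.mul hd
    refine h.congr_deriv ?_
    have e : Pc 0 (k + 1) = Pc 0 k * (((k : ℂ) + 1 / 4 + 0) / (k + 1 + 2 * 0)) := rfl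
    rw [e]
    have h1 := quarter_ne k
    have h2 := succ_ne k
    simp only [s1, s2, sum_range_succ, mul_zero, add_zero]
    generalize (k : ℂ) + 1 / 4 = A at *
    generalize (k : ℂ) + 1 = B at *
    field_simp
    ring_nf

lemma hasDerivAt_Qc (k : ℕ) : HasDerivAt (fun ε => Qc ε k) (Qc 0 k * (3 * s1 k)) 0 := by
  induction k with
  | zero => simpa [Qc, s1] using hasDerivAt_const (0 : ℂ) (1 : ℂ)
  | succ k ih =>
    have hd : HasDerivAt (fun ε : ℂ => ((k : ℂ) + 1 / 4 + 3 * ε) / (k + 1))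
        (3 * 1 / ((k : ℂ) + 1)) 0 := by
      exact (((hasDerivAt_id (0 : ℂ)).const_mul 3).const_add _).div_const _
    have h := ih.mul hd
    refine h.congr_deriv ?_
    have e : Qc 0 (k + 1) = Qc 0 k * (((k : ℂ) + 1 / 4 + 3 * 0) / (k + 1)) := rfl
    rw [e]
    have h1 := quarter_ne k
    have h2 := succ_ne k
    simp only [s1, sum_range_succ, mul_zero, add_zero]
    generalize (k : ℂ) + 1 / 4 = A at *
    generalize (k : ℂ) + 1 = B at *
    field_simp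
    ring_nf

lemma hasDerivAt_Rc (k : ℕ) : HasDerivAt (fun ε => Rc ε k) (Rc 0 k * (-(3 * s2 k))) 0 := by
  induction k with
  | zero => simpa [Rc, s2] using hasDerivAt_const (0 : ℂ) (1 : ℂ)
  | succ k ih =>
    have hd : HasDerivAt (fun ε : ℂ => ((k : ℂ) + 1 / 4) / (k + 1 + 3 * ε))
        (((0 : ℂ) * ((k : ℂ) + 1 + 3 * 0) - ((k : ℂ) + 1 / 4) * (3 * 1)) /
          ((k : ℂ) + 1 + 3 * 0) ^ 2) 0 := by
      apply HasDerivAt.div
      · exact hasDerivAt_const _ _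
      · exact ((hasDerivAt_id (0 : ℂ)).const_mul 3).const_add _
      · simpa using succ_ne k
    have h := ih.mul hd
    refine h.congr_deriv ?_
    have e : Rc 0 (k + 1) = Rc 0 k * (((k : ℂ) + 1 / 4) / (k + 1 + 3 * 0)) := rfl
    rw [e]
    have h2 := succ_ne k
    simp only [s2, sum_range_succ, mul_zero, add_zero]
    field_simp
    ring

lemma hasDerivAt_pref (k : ℕ) :
    HasDerivAt (fun ε : ℂ => (-1 : ℂ) ^ k * (1 / 4 + 3 * ε + 2 * k)) ((-1) ^ k * 3) 0 := by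
  have h := (((hasDerivAt_id (0 : ℂ)).const_mul 3).const_add (1 / 4)).add_const (2 * (k : ℂ))
  have h2 := h.const_mul ((-1 : ℂ) ^ k)
  simpa using h2

lemma deriv_wc_eq (k : ℕ) : deriv (wc k) 0 = deriv (uc k) 0 := by
  have h1 : HasDerivAt (wc k) ((-1) ^ k * 3 * Pc 0 k ^ 3
      + ((-1) ^ k * (1 / 4 + 3 * 0 + 2 * k)) * (3 * Pc 0 k ^ 2 * (Pc 0 k * (s1 k - 2 * s2 k)))) 0 := by
    have h := (hasDerivAt_pref k).mul ((hasDerivAt_Pc k).pow 3)
    refine h.congr_deriv ?_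
    simp only [Pi.pow_apply]
    push_cast
    ring
  have h2 : HasDerivAt (uc k) ((-1) ^ k * 3 * (Qc 0 k * Rc 0 k ^ 2)
      + ((-1) ^ k * (1 / 4 + 3 * 0 + 2 * k)) * ((Qc 0 k * (3 * s1 k)) * Rc 0 k ^ 2
        + Qc 0 k * (2 * Rc 0 k * (Rc 0 k * (-(3 * s2 k)))))) 0 := by
    have h := (hasDerivAt_pref k).mul ((hasDerivAt_Qc k).mul ((hasDerivAt_Rc k).pow 2))
    refine h.congr_deriv ?_
    simp only [Pi.mul_apply, Pi.pow_apply]
    push_cast
    ring
  rw [h1.deriv, h2.deriv, (QR_zero k).1, (QR_zero k).2]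
  ring

noncomputable def Wc (ε : ℂ) : ℂ := ∑' k, wc k ε
noncomputable def Uc (ε : ℂ) : ℂ := ∑' k, uc k ε

lemma summable_2Mk : Summable (fun k => 2 * Mk k) := summable_Mk.mul_left 2

lemma Wc_diff : DifferentiableOn ℂ Wc (Metric.ball 0 (1 / 200)) :=
  Complex.differentiableOn_tsum_of_summable_norm summable_2Mk wc_diff Metric.isOpen_ball
    (fun k _ hw => wc_le (mem_ball_zero_iff.mp hw).le k)

lemma Uc_diff : DifferentiableOn ℂ Uc (Metric.ball 0 (1 / 200)) :=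
  Complex.differentiableOn_tsum_of_summable_norm summable_2Mk uc_diff Metric.isOpen_ball
    (fun k _ hw => uc_le (mem_ball_zero_iff.mp hw).le k)

lemma zero_mem : (0 : ℂ) ∈ Metric.ball (0 : ℂ) (1 / 200) := by simp

lemma deriv_Wc_eq : deriv Wc 0 = deriv Uc 0 := by
  have h1 : HasSum (fun k => deriv (wc k) 0) (deriv Wc 0) :=
    Complex.hasSum_deriv_of_summable_norm summable_2Mk wc_diff Metric.isOpen_ball
      (fun k _ hw => wc_le (mem_ball_zero_iff.mp hw).le k) zero_mem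
  have h2 : HasSum (fun k => deriv (uc k) 0) (deriv Uc 0) :=
    Complex.hasSum_deriv_of_summable_norm summable_2Mk uc_diff Metric.isOpen_ball
      (fun k _ hw => uc_le (mem_ball_zero_iff.mp hw).le k) zero_mem
  have h3 : (fun k => deriv (wc k) 0) = fun k => deriv (uc k) 0 := funext deriv_wc_eq
  rw [h3] at h1
  exact h1.unique h2

lemma Wc_zero_eq : Wc 0 = Uc 0 := by
  unfold Wc Uc
  congr 1
  funext k
  unfold wc uc
  rw [(QR_zero k).1, (QR_zero k).2]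
  ring

/-! ### real points -/

lemma uc_ofReal (e : ℝ) (k : ℕ) :
    uc k (e : ℂ) = ((Ut (1 / 4 + 3 * e) k : ℝ) : ℂ) := by
  have hQR : Qc (e : ℂ) k * Rc (e : ℂ) k ^ 2 = ((TT (1 / 4 + 3 * e) k : ℝ) : ℂ) := by
    induction k with
    | zero => simp [Qc, Rc, TT]
    | succ k ih =>
      have e1 : Qc (e : ℂ) (k + 1) = Qc (e : ℂ) k * ((k + 1 / 4 + 3 * e) / (k + 1)) := rfl
      have e2 : Rc (e : ℂ) (k + 1) = Rc (e : ℂ) k * ((k + 1 / 4) / (k + 1 + 3 * e)) := rfl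
      have e3 : TT (1 / 4 + 3 * e) (k + 1) = TT (1 / 4 + 3 * e) k *
        ((1 / 4 + 3 * e + k) / (k + 1) * ((k + 1 / 4) / (k + (1 / 4 + 3 * e) + 3 / 4)) ^ 2) := rfl
      rw [e1, e2, e3, Complex.ofReal_mul, ← ih]
      push_cast
      have : (k : ℂ) + (1 / 4 + 3 * (e : ℂ)) + 3 / 4 = k + 1 + 3 * e := by ring
      rw [this]
      ring
  unfold uc Ut
  rw [hQR]
  push_cast
  ring

lemma Uc_ofReal (e : ℝ) : Uc (e : ℂ) = ((U (1 / 4 + 3 * e) : ℝ) : ℂ) := by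
  unfold Uc U
  rw [Complex.ofReal_tsum]
  exact tsum_congr (fun k => uc_ofReal e k)

lemma Uc_zero : Uc 0 = ((U (1 / 4) : ℝ) : ℂ) := by
  have := Uc_ofReal 0
  simpa using this

lemma deriv_Uc : deriv Uc 0 = ((18 * Real.log 2 * U (1 / 4) : ℝ) : ℂ) := by
  have h1 : HasDerivAt Uc (deriv Uc 0) ((0 : ℝ) : ℂ) := by
    have : DifferentiableAt ℂ Uc 0 := Uc_diff.differentiableAt (Metric.ball_mem_nhds _ (by norm_num))
    simpa using this.hasDerivAt
  have h2 : HasDerivAt (fun e : ℝ => Uc (e : ℂ)) (deriv Uc 0) 0 := h1.comp_ofReal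
  have h3 : HasDerivAt (fun e : ℝ => U (1 / 4 + 3 * e)) (6 * Real.log 2 * U (1 / 4) * 3) 0 := by
    have a : HasDerivAt (fun e : ℝ => 1 / 4 + 3 * e) 3 0 := by
      simpa using ((hasDerivAt_id (0 : ℝ)).const_mul 3).const_add (1 / 4)
    have b : HasDerivAt U (6 * Real.log 2 * U (1 / 4)) (1 / 4 + 3 * (0 : ℝ)) := by
      simpa using hasDerivAt_U
    exact b.comp (0 : ℝ) a
  have h4 := h3.ofReal_comp
  have h5 : (fun e : ℝ => Uc (e : ℂ)) =ᶠ[𝓝 0] fun e : ℝ => ((U (1 / 4 + 3 * e) : ℝ) : ℂ) := by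
    filter_upwards with e
    exact Uc_ofReal e
  have h6 := (h2.congr_of_eventuallyEq h5.symm).unique h4
  rw [h6]
  push_cast
  ring

/-- **`W(0) = √2/(2π)` and `W'(0) = 18 log 2 · W(0)`.** -/
theorem hasDerivAt_Wc : HasDerivAt Wc (18 * Real.log 2 * Wc 0) 0 := by
  have h : DifferentiableAt ℂ Wc 0 := Wc_diff.differentiableAt (Metric.ball_mem_nhds _ (by norm_num))
  have h2 := h.hasDerivAt
  rw [deriv_Wc_eq, deriv_Uc] at h2
  rw [Wc_zero_eq, Uc_zero]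
  refine h2.congr_deriv ?_
  push_cast
  ring

theorem Wc_zero : Wc 0 = ((√2 / (2 * Real.pi) : ℝ) : ℂ) := by
  rw [Wc_zero_eq, Uc_zero, U_quarter]

end Crest.Agent.R006.Be
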