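import Crest.Agent.R006.BeBound_294

/-!
Row 6 (Catalan), P1/P3, helper294.  The summation
`∑ (-1)^k (a+2k) (a)_k (1/4)_k^2 / (k! (a+3/4)_k^2) = Γ(a+3/4)^2/(Γ(a)Γ(a+1/2))`.
-/

set_option autoImplicit false

namespace Crest.Agent.R006.Be

open Finset Filter Topology

/-- `(a)_k (1/4)_k^2 / (k! (a+3/4)_k^2)` -/
noncomputable def TT (a : ℝ) : ℕ → ℝ
  | 0 => 1
  | k + 1 => TT a k * ((a + k) / (k + 1) * ((k + 1 / 4) / (k + a + 3 / 4)) ^ 2)

noncomputable def Ut (a : ℝ) (k : ℕ) : ℝ := (-1) ^ k * (a + 2 * k) * TT a k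

noncomputable def U (a : ℝ) : ℝ := ∑' k, Ut a k

lemma TT_nonneg {a : ℝ} (ha : 0 ≤ a) (k : ℕ) : 0 ≤ TT a k := by
  induction k with
  | zero => simp [TT]
  | succ k ih => unfold TT; positivity

lemma ratio_le {a : ℝ} (ha : 47 / 200 ≤ a) (k : ℕ) :
    (a + k) / (k + 1) * (((k : ℝ) + 1 / 4) / (k + a + 3 / 4)) ^ 2
      ≤ (((k : ℝ) + 1) / (k + 1 + 17 / 24)) ^ 3 := by
  rcases Nat.eq_zero_or_pos k with h | h
  · subst h
    have ha0 : 0 < a := by linarith
    have e : (a + ((0 : ℕ) : ℝ)) / (((0 : ℕ) : ℝ) + 1) * ((((0 : ℕ) : ℝ) + 1 / 4) / (((0 : ℕ) : ℝ) + a + 3 / 4)) ^ 2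
        = a / (16 * (a + 3 / 4) ^ 2) := by
      push_cast; field_simp; ring
    rw [e]
    have h1 : a / (16 * (a + 3 / 4) ^ 2) ≤ 1 / 48 := by
      rw [div_le_div_iff₀ (by positivity) (by norm_num)]
      nlinarith [sq_nonneg (a - 3 / 4)]
    refine h1.trans ?_
    norm_num
  · have hk1 : (1 : ℝ) ≤ k := by exact_mod_cast h
    have ha0 : 0 < a := by linarith
    -- monotone in a
    have h1 : (a + k) * (k + 197 / 200 : ℝ) ^ 2 ≤ (k + 47 / 200 : ℝ) * (k + a + 3 / 4) ^ 2 := by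
      have hc : 0 ≤ a - 47 / 200 := by linarith
      have hY : (k + 197 / 200 : ℝ) = (k + 47 / 200) + 3 / 4 := by ring
      have e1 : a + k = (k + 47 / 200 : ℝ) + (a - 47 / 200) := by ring
      have e2 : (k : ℝ) + a + 3 / 4 = (k + 197 / 200) + (a - 47 / 200) := by ring
      rw [e1, e2]
      set X : ℝ := k + 47 / 200
      set Y : ℝ := k + 197 / 200 with hYd
      set c : ℝ := a - 47 / 200
      have hX : (3 / 4 : ℝ) ≤ X := by simp only [X]; linarith
      have hXY : Y = X + 3 / 4 := by rw [hY]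
      nlinarith [mul_nonneg hc hc, mul_nonneg hc (by linarith : (0 : ℝ) ≤ X - 3 / 4),
        mul_nonneg (mul_nonneg hc (by linarith : (0 : ℝ) ≤ X - 3 / 4)) (by linarith : (0 : ℝ) ≤ Y),
        mul_nonneg (mul_nonneg hc hc) (by linarith : (0 : ℝ) ≤ X)]
    have h2 : (a + k) / (k + 1) * (((k : ℝ) + 1 / 4) / (k + a + 3 / 4)) ^ 2
        ≤ (k + 47 / 200) / (k + 1) * (((k : ℝ) + 1 / 4) / (k + 197 / 200)) ^ 2 := by
      rw [div_pow, div_pow, div_mul_div_comm, div_mul_div_comm,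
        div_le_div_iff₀ (by positivity) (by positivity)]
      have : 0 ≤ ((k : ℝ) + 1 / 4) ^ 2 * (k + 1) := by positivity
      nlinarith [mul_le_mul_of_nonneg_left h1 this]
    have h3 := factor_le k
    have hpos : (0 : ℝ) < (k : ℝ) + 1 - 3 / 200 := by linarith
    have f1 : (k + 47 / 200 : ℝ) / (k + 1) ≤ ((k : ℝ) + 1) / (k + 1 + 17 / 24) := by
      refine le_trans ?_ h3
      rw [div_le_div_iff₀ (by positivity) hpos]
      nlinarith
    have f2 : ((k : ℝ) + 1 / 4) / (k + 197 / 200) ≤ ((k : ℝ) + 1) / (k + 1 + 17 / 24) := by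
      refine le_trans ?_ h3
      rw [div_le_div_iff₀ (by positivity) hpos]
      nlinarith
    refine h2.trans ?_
    have g1 : 0 ≤ (k + 47 / 200 : ℝ) / (k + 1) := by positivity
    have g2 : 0 ≤ ((k : ℝ) + 1 / 4) / (k + 197 / 200) := by positivity
    calc (k + 47 / 200) / (k + 1) * (((k : ℝ) + 1 / 4) / (k + 197 / 200)) ^ 2
        ≤ (((k : ℝ) + 1) / (k + 1 + 17 / 24)) * (((k : ℝ) + 1) / (k + 1 + 17 / 24)) ^ 2 := by
          apply mul_le_mul f1 (pow_le_pow_left₀ g2 f2 2) (by positivity) (by positivity)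
      _ = (((k : ℝ) + 1) / (k + 1 + 17 / 24)) ^ 3 := by ring

lemma TT_le {a : ℝ} (ha : 47 / 200 ≤ a) (k : ℕ) : TT a k ≤ bk k ^ 3 := by
  induction k with
  | zero => simp [TT, bk_zero]
  | succ k ih =>
    have h0 := TT_nonneg (by linarith : 0 ≤ a) k
    have hb := bk_pos k
    have hr := ratio_le ha k
    have hs := bk_step k
    have hf : (0 : ℝ) ≤ ((k : ℝ) + 1) / (k + 1 + 17 / 24) := by positivity
    have e : TT a (k + 1) = TT a k * ((a + k) / (k + 1) * ((k + 1 / 4) / (k + a + 3 / 4)) ^ 2) := rfl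
    rw [e]
    calc TT a k * ((a + k) / (k + 1) * ((k + 1 / 4) / (k + a + 3 / 4)) ^ 2)
        ≤ bk k ^ 3 * (((k : ℝ) + 1) / (k + 1 + 17 / 24)) ^ 3 := by
          apply mul_le_mul ih hr _ (by positivity)
          have : 0 < a := by linarith
          positivity
      _ = (((k : ℝ) + 1) / (k + 1 + 17 / 24) * bk k) ^ 3 := by ring
      _ ≤ bk (k + 1) ^ 3 := pow_le_pow_left₀ (by positivity) hs 3

lemma abs_Ut_le {a : ℝ} (ha : 47 / 200 ≤ a) (k : ℕ) : |Ut a k| ≤ (a + 2) * Mk k := by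
  have h0 := TT_nonneg (by linarith : 0 ≤ a) k
  have hk : (0 : ℝ) ≤ k := Nat.cast_nonneg k
  have ha0 : 0 < a := by linarith
  unfold Ut
  rw [abs_mul, abs_mul, abs_pow, abs_neg, abs_one, one_pow, one_mul, abs_of_nonneg h0,
    abs_of_nonneg (by positivity : (0 : ℝ) ≤ a + 2 * k)]
  unfold Mk
  have hb := bk_pos k
  calc (a + 2 * k) * TT a k ≤ ((a + 2) * (k + 1)) * bk k ^ 3 := by
        apply mul_le_mul _ (TT_le ha k) h0 (by positivity)
        nlinarith
    _ = (a + 2) * ((k + 1) * bk k ^ 3) := by ring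

lemma summable_Ut {a : ℝ} (ha : 47 / 200 ≤ a) : Summable (Ut a) := by
  apply Summable.of_norm_bounded (g := fun k => (a + 2) * Mk k) (summable_Mk.mul_left _)
  intro k
  rw [Real.norm_eq_abs]; exact abs_Ut_le ha k

/-- shift in `a` -/
lemma TT_shift {a : ℝ} (ha : 0 < a) (k : ℕ) :
    TT (a + 1) k = TT a k * ((a + k) / a * ((a + 3 / 4) / (k + a + 3 / 4)) ^ 2) := by
  induction k with
  | zero =>
    simp only [TT, Nat.cast_zero, add_zero, zero_add]
    have : a + 3 / 4 ≠ 0 := by positivity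
    field_simp
  | succ k ih =>
    simp only [TT]
    rw [ih]
    push_cast
    have h1 : (k : ℝ) + a + 3 / 4 ≠ 0 := by positivity
    have h2 : (k : ℝ) + (a + 1) + 3 / 4 ≠ 0 := by positivity
    have h3 : (k : ℝ) + 1 + a + 3 / 4 ≠ 0 := by positivity
    field_simp
    ring

/-- WZ certificate -/
noncomputable def GU (a : ℝ) (k : ℕ) : ℝ := -(a + 3 / 4) ^ 2 * ((-1) ^ k * k * TT a k)

lemma wzU {a : ℝ} (ha : 0 < a) (k : ℕ) :
    (a + 3 / 4) ^ 2 * Ut a k - a * (a + 1 / 2) * Ut (a + 1) k = GU a (k + 1) - GU a k := by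
  unfold Ut GU
  rw [TT_shift ha]
  simp only [TT]
  push_cast
  have h1 : (k : ℝ) + a + 3 / 4 ≠ 0 := by positivity
  rw [pow_succ (-1 : ℝ) k]
  field_simp
  ring

lemma GU_tendsto {a : ℝ} (ha : 47 / 200 ≤ a) : Tendsto (GU a) atTop (𝓝 0) := by
  have hb : ∀ k : ℕ, |GU a k| ≤ (a + 3 / 4) ^ 2 * Mk k := by
    intro k
    have h0 := TT_nonneg (by linarith : 0 ≤ a) k
    have hk : (0 : ℝ) ≤ k := Nat.cast_nonneg k
    unfold GU Mk
    rw [abs_mul, abs_neg, abs_mul, abs_mul, abs_pow (-1 : ℝ), abs_neg, abs_one, one_pow, one_mul,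
      abs_of_nonneg h0, abs_of_nonneg hk, abs_of_nonneg (by positivity : (0 : ℝ) ≤ (a + 3 / 4) ^ 2)]
    apply mul_le_mul_of_nonneg_left _ (by positivity)
    exact mul_le_mul (by linarith) (TT_le ha k) h0 (by positivity)
  have h0 : Tendsto (fun k : ℕ => (a + 3 / 4) ^ 2 * Mk k) atTop (𝓝 0) := by
    have := Mk_tendsto.const_mul ((a + 3 / 4) ^ 2)
    simpa using this
  exact squeeze_zero_norm (fun k => by rw [Real.norm_eq_abs]; exact hb k) h0

lemma U_rec {a : ℝ} (ha : 47 / 200 ≤ a) :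
    (a + 3 / 4) ^ 2 * U a = a * (a + 1 / 2) * U (a + 1) := by
  have ha0 : 0 < a := by linarith
  have h1 : HasSum (fun k => (a + 3 / 4) ^ 2 * Ut a k - a * (a + 1 / 2) * Ut (a + 1) k)
      ((a + 3 / 4) ^ 2 * U a - a * (a + 1 / 2) * U (a + 1)) :=
    ((summable_Ut ha).hasSum.mul_left _).sub
      ((summable_Ut (by linarith : 47 / 200 ≤ a + 1)).hasSum.mul_left _)
  have h2 := h1.tendsto_sum_nat
  have h3 : (fun n => ∑ k ∈ range n, ((a + 3 / 4) ^ 2 * Ut a k - a * (a + 1 / 2) * Ut (a + 1) k))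
      = fun n => GU a n - GU a 0 := by
    funext n
    rw [← Finset.sum_range_sub (GU a)]
    exact Finset.sum_congr rfl (fun k _ => wzU ha0 k)
  rw [h3] at h2
  have h4 : Tendsto (fun n => GU a n - GU a 0) atTop (𝓝 (0 - GU a 0)) :=
    (GU_tendsto ha).sub_const _
  have h5 := tendsto_nhds_unique h2 h4
  have h6 : GU a 0 = 0 := by simp [GU]
  rw [h6] at h5
  linarith

/-- decay for large `a` -/
lemma TT_large {x : ℝ} (hx : 3 ≤ x) (k : ℕ) :
    TT x (k + 1) ≤ (6 / x) / (((k : ℝ) + 2) * (k + 3) * (k + 4)) := by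
  have hx0 : 0 < x := by linarith
  induction k with
  | zero =>
    simp only [TT, Nat.cast_zero, add_zero, zero_add, one_mul]
    rw [div_div, div_pow, div_mul_div_comm, div_le_div_iff₀ (by positivity) (by positivity)]
    have h6 : 6 / x * (1 * (4 * (x + 3 / 4)) ^ 2) = (96 * (x + 3 / 4) ^ 2) / x := by
      field_simp; ring
    rw [h6, le_div_iff₀ hx0]
    nlinarith
  | succ k ih =>
    have h0 := TT_nonneg hx0.le (k + 1)
    have e : TT x (k + 1 + 1) = TT x (k + 1) * ((x + ((k + 1 : ℕ) : ℝ)) / (((k + 1 : ℕ) : ℝ) + 1) *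
      ((((k + 1 : ℕ) : ℝ) + 1 / 4) / (((k + 1 : ℕ) : ℝ) + x + 3 / 4)) ^ 2) := rfl
    rw [e]
    push_cast
    have hk : (0 : ℝ) ≤ k := Nat.cast_nonneg k
    have hr : (x + ((k : ℝ) + 1)) / ((k : ℝ) + 1 + 1) *
      (((k : ℝ) + 1 + 1 / 4) / ((k : ℝ) + 1 + x + 3 / 4)) ^ 2 ≤ ((k : ℝ) + 2) / (k + 5) := by
      have g1 : (x + ((k : ℝ) + 1)) / ((k : ℝ) + 1 + x + 3 / 4) ≤ 1 := by
        rw [div_le_one (by positivity)]; linarith
      have g2 : ((k : ℝ) + 1 + 1 / 4) / ((k : ℝ) + 1 + 1) ≤ 1 := by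
        rw [div_le_one (by positivity)]; linarith
      have g3 : ((k : ℝ) + 1 + 1 / 4) / ((k : ℝ) + 1 + x + 3 / 4) ≤ ((k : ℝ) + 2) / (k + 5) := by
        rw [div_le_div_iff₀ (by positivity) (by positivity)]
        nlinarith
      have e1 : (x + ((k : ℝ) + 1)) / ((k : ℝ) + 1 + 1) *
        (((k : ℝ) + 1 + 1 / 4) / ((k : ℝ) + 1 + x + 3 / 4)) ^ 2
        = ((x + ((k : ℝ) + 1)) / ((k : ℝ) + 1 + x + 3 / 4)) *
          (((k : ℝ) + 1 + 1 / 4) / ((k : ℝ) + 1 + 1)) *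
          (((k : ℝ) + 1 + 1 / 4) / ((k : ℝ) + 1 + x + 3 / 4)) := by
        field_simp
      rw [e1]
      calc ((x + ((k : ℝ) + 1)) / ((k : ℝ) + 1 + x + 3 / 4)) *
          (((k : ℝ) + 1 + 1 / 4) / ((k : ℝ) + 1 + 1)) *
          (((k : ℝ) + 1 + 1 / 4) / ((k : ℝ) + 1 + x + 3 / 4))
          ≤ 1 * 1 * (((k : ℝ) + 2) / (k + 5)) := by
            apply mul_le_mul _ g3 (by positivity) (by norm_num)
            exact mul_le_mul g1 g2 (by positivity) (by norm_num)
        _ = _ := by ring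
    calc TT x (k + 1) * ((x + ((k : ℝ) + 1)) / ((k : ℝ) + 1 + 1) *
      (((k : ℝ) + 1 + 1 / 4) / ((k : ℝ) + 1 + x + 3 / 4)) ^ 2)
        ≤ ((6 / x) / (((k : ℝ) + 2) * (k + 3) * (k + 4))) * (((k : ℝ) + 2) / (k + 5)) := by
          apply mul_le_mul ih hr (by positivity) (by positivity)
      _ = (6 / x) / (((k : ℝ) + 1 + 2) * ((k : ℝ) + 1 + 3) * ((k : ℝ) + 1 + 4)) := by
          field_simp
          ring

noncomputable def Csq : ℝ := ∑' k : ℕ, 1 / (((k : ℝ) + 1) ^ 2)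

lemma summable_sq : Summable (fun k : ℕ => 1 / (((k : ℝ) + 1) ^ 2)) := by
  have h := (summable_nat_add_iff 1).mpr (Real.summable_one_div_nat_pow.mpr (by norm_num : 1 < 2))
  refine h.congr (fun k => ?_)
  push_cast; rfl

lemma U_large {x : ℝ} (hx : 3 ≤ x) : |U x / x - 1| ≤ 12 * Csq / x := by
  have hx0 : 0 < x := by linarith
  have hs := summable_Ut (by linarith : 47 / 200 ≤ x)
  have h1 : U x = x + ∑' k, Ut x (k + 1) := by
    unfold U
    rw [hs.tsum_eq_zero_add]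
    congr 1
    simp [Ut, TT]
  have hb : ∀ k, ‖Ut x (k + 1)‖ ≤ 12 * (1 / (((k : ℝ) + 1) ^ 2)) := by
    intro k
    have hk : (0 : ℝ) ≤ k := Nat.cast_nonneg k
    have h0 := TT_nonneg hx0.le (k + 1)
    rw [Real.norm_eq_abs]
    unfold Ut
    rw [abs_mul, abs_mul, abs_pow, abs_neg, abs_one, one_pow, one_mul, abs_of_nonneg h0,
      abs_of_nonneg (by positivity)]
    push_cast
    calc (x + 2 * ((k : ℝ) + 1)) * TT x (k + 1)
        ≤ (x + 2 * ((k : ℝ) + 1)) * ((6 / x) / (((k : ℝ) + 2) * (k + 3) * (k + 4))) := by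
          apply mul_le_mul_of_nonneg_left (TT_large hx k) (by positivity)
      _ ≤ 12 * (1 / (((k : ℝ) + 1) ^ 2)) := by
          rw [div_div, mul_one_div, mul_div_assoc', div_le_div_iff₀ (by positivity) (by positivity)]
          have h2 : (x + 2 * ((k : ℝ) + 1)) ≤ x * (k + 2) := by nlinarith
          have h3 : ((k : ℝ) + 1) ^ 2 ≤ (k + 3) * (k + 4) := by nlinarith
          calc (x + 2 * ((k : ℝ) + 1)) * 6 * ((k : ℝ) + 1) ^ 2
              ≤ (x * (k + 2)) * 6 * ((k + 3) * (k + 4)) := by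
                apply mul_le_mul _ h3 (by positivity) (by positivity)
                linarith
            _ ≤ 12 * (x * (((k : ℝ) + 2) * (k + 3) * (k + 4))) := by
                have : 0 ≤ x * (((k : ℝ) + 2) * (k + 3) * (k + 4)) := by positivity
                nlinarith
  have hsq12 : Summable (fun k : ℕ => 12 * (1 / (((k : ℝ) + 1) ^ 2))) := summable_sq.mul_left _
  have h2 : ‖∑' k, Ut x (k + 1)‖ ≤ 12 * Csq := by
    refine (tsum_of_norm_bounded hsq12.hasSum hb).trans (le_of_eq ?_)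
    rw [tsum_mul_left]; rfl
  rw [h1]
  have e : (x + ∑' k, Ut x (k + 1)) / x - 1 = (∑' k, Ut x (k + 1)) / x := by
    field_simp; ring
  rw [e, abs_div, abs_of_pos hx0]
  exact div_le_div_of_nonneg_right h2 hx0.le

/-- iterated recursion -/
lemma U_iter {a : ℝ} (ha : 47 / 200 ≤ a) (n : ℕ) :
    (∏ j ∈ range n, (a + 3 / 4 + j)) ^ 2 * U a
      = (∏ j ∈ range n, (a + j)) * (∏ j ∈ range n, (a + 1 / 2 + j)) * U (a + n) := by
  induction n with
  | zero => simp
  | succ n ih =>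
    rw [prod_range_succ, prod_range_succ, prod_range_succ]
    have hn : (0 : ℝ) ≤ n := Nat.cast_nonneg n
    have hr := U_rec (by linarith : 47 / 200 ≤ a + n)
    push_cast
    have e : a + ((n : ℝ) + 1) = a + n + 1 := by ring
    rw [e]
    have hr' : (a + 3 / 4 + n) ^ 2 * U (a + n) = (a + n) * (a + 1 / 2 + n) * U (a + n + 1) := by
      have e1 : a + 3 / 4 + n = a + n + 3 / 4 := by ring
      have e2 : a + 1 / 2 + (n : ℝ) = a + n + 1 / 2 := by ring
      rw [e1, e2]; exact hr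
    linear_combination (a + 3 / 4 + n) ^ 2 * ih
      + ((∏ j ∈ range n, (a + j)) * (∏ j ∈ range n, (a + 1 / 2 + j))) * hr'

lemma tendsto_U_div (a : ℝ) : Tendsto (fun n : ℕ => U (a + (n + 1 : ℕ)) / n) atTop (𝓝 1) := by
  have hx : Tendsto (fun n : ℕ => a + ((n + 1 : ℕ) : ℝ)) atTop atTop :=
    tendsto_atTop_add_const_left _ _ (tendsto_natCast_atTop_atTop.comp (tendsto_add_atTop_nat 1))
  have h1 : Tendsto (fun x : ℝ => U x / x) atTop (𝓝 1) := by
    have h2 : Tendsto (fun x : ℝ => 12 * Csq / x) atTop (𝓝 0) :=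
      tendsto_const_nhds.div_atTop tendsto_id
    have h3 : Tendsto (fun x : ℝ => U x / x - 1) atTop (𝓝 0) := by
      apply squeeze_zero_norm' _ h2
      filter_upwards [eventually_ge_atTop (3 : ℝ)] with x hx
      rw [Real.norm_eq_abs]
      exact U_large hx
    have := h3.add_const 1
    simpa using this
  have h4 := h1.comp hx
  have h5 : Tendsto (fun n : ℕ => (a + ((n + 1 : ℕ) : ℝ)) / n) atTop (𝓝 1) := by
    have h6 : Tendsto (fun n : ℕ => (a + 1) / (n : ℝ)) atTop (𝓝 0) :=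
      tendsto_const_nhds.div_atTop tendsto_natCast_atTop_atTop
    have h7 := h6.const_add 1
    rw [add_zero] at h7
    refine h7.congr' ?_
    filter_upwards [eventually_gt_atTop 0] with n hn
    have : (n : ℝ) ≠ 0 := by positivity
    push_cast
    field_simp
    ring
  have h8 := h4.mul h5
  rw [one_mul] at h8
  refine h8.congr' ?_
  filter_upwards [hx.eventually_gt_atTop 0] with n hn
  have : a + ((n + 1 : ℕ) : ℝ) ≠ 0 := hn.ne'
  simp only [Function.comp]
  field_simp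

/-- **the summation formula** -/
theorem U_eq {a : ℝ} (ha : 47 / 200 ≤ a) :
    U a = Real.Gamma (a + 3 / 4) ^ 2 / (Real.Gamma a * Real.Gamma (a + 1 / 2)) := by
  have ha0 : 0 < a := by linarith
  have hG1 : Real.Gamma a ≠ 0 := (Real.Gamma_pos_of_pos ha0).ne'
  have hG2 : Real.Gamma (a + 1 / 2) ≠ 0 := (Real.Gamma_pos_of_pos (by linarith)).ne'
  have l1 := (Real.GammaSeq_tendsto_Gamma (a + 3 / 4)).pow 2
  have l2 := (Real.GammaSeq_tendsto_Gamma a).mul (Real.GammaSeq_tendsto_Gamma (a + 1 / 2))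
  have l3 := (l1.div l2 (mul_ne_zero hG1 hG2)).mul (tendsto_U_div a)
  rw [mul_one] at l3
  have l4 : Tendsto (fun _ : ℕ => U a) atTop
      (𝓝 (Real.Gamma (a + 3 / 4) ^ 2 / (Real.Gamma a * Real.Gamma (a + 1 / 2)))) := by
    refine l3.congr' ?_
    filter_upwards [eventually_gt_atTop 0] with n hn
    have hn0 : (0 : ℝ) < n := by exact_mod_cast hn
    have hit := U_iter ha (n + 1)
    simp only [Pi.div_apply, Real.GammaSeq]
    set P1 := ∏ j ∈ range (n + 1), (a + 3 / 4 + (j : ℝ)) with hP1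
    set P2 := ∏ j ∈ range (n + 1), (a + (j : ℝ)) with hP2
    set P3 := ∏ j ∈ range (n + 1), (a + 1 / 2 + (j : ℝ)) with hP3
    have p1 : P1 ≠ 0 := by
      rw [hP1]; exact (Finset.prod_pos (fun j _ => by positivity)).ne'
    have p2 : P2 ≠ 0 := by
      rw [hP2]; exact (Finset.prod_pos (fun j _ => by positivity)).ne'
    have p3 : P3 ≠ 0 := by
      rw [hP3]; exact (Finset.prod_pos (fun j _ => by positivity)).ne'
    have hf : ((n.factorial : ℕ) : ℝ) ≠ 0 := by positivity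
    have r1 : ((n : ℝ) ^ (a + 3 / 4)) ^ 2 = (n : ℝ) ^ a * (n : ℝ) ^ (a + 1 / 2) * n := by
      rw [← Real.rpow_natCast, ← Real.rpow_mul hn0.le]
      nth_rewrite 4 [← Real.rpow_one (n : ℝ)]
      rw [← Real.rpow_add hn0, ← Real.rpow_add hn0]
      congr 1; push_cast; ring
    have q1 : (n : ℝ) ^ a ≠ 0 := by positivity
    have q2 : (n : ℝ) ^ (a + 1 / 2) ≠ 0 := by positivity
    have hU : U (a + ((n + 1 : ℕ) : ℝ)) = P1 ^ 2 * U a / (P2 * P3) := by
      rw [eq_div_iff (mul_ne_zero p2 p3), hit]; ring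
    rw [hU, div_pow, mul_pow, r1]
    field_simp
  exact tendsto_nhds_unique tendsto_const_nhds l4

end Crest.Agent.R006.Be
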