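import Crest.Agent.R006.BeBound_294

/-!
Row 6 (Catalan), P1/P3, helper294.  helper724's WZ pair for real parameter, `x = z + 1/2 ≥ 49/200`:
`Wx x = ∑ (-1)^k (3x-1/2+2k) ((x)_k/(2x+1/2)_k)^3` and
`∑ (1/2)(3(s+k)+2) ∏_{j=1..k} (-(s+j)^3/(2s+2j+1)^3) = Wx ((s+1)/2)`.
-/

set_option autoImplicit false

namespace Crest.Agent.R006.Be

open Finset Filter Topology

noncomputable def qx (x : ℝ) : ℕ → ℝ
  | 0 => 1
  | k + 1 => qx x k * ((k + x) / (k + 2 * x + 1 / 2))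

noncomputable def Fx (x : ℝ) (k : ℕ) : ℝ := (-1) ^ k * (3 * x - 1 / 2 + 2 * k) * qx x k ^ 3

noncomputable def Wx (x : ℝ) : ℝ := ∑' k, Fx x k

noncomputable def Bx (x : ℝ) : ℝ := (2 * x * (2 * x + 1) / ((4 * x + 1) * (4 * x + 3))) ^ 3

noncomputable def Ax (x : ℝ) : ℝ :=
  (3 * x - 1 / 2) - (2 * x / (4 * x + 1)) ^ 3 * (3 * x + 1)

/-- certificate -/
noncomputable def Gx (x : ℝ) (k : ℕ) : ℝ :=
  (-1) ^ k * qx x k ^ 3 *
    (-(((k : ℝ) + x) ^ 4 + (5 * x + 3 / 2) * ((k : ℝ) + x) ^ 3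
      + 3 * (x + 1 / 2) * (3 * x + 1 / 2) * ((k : ℝ) + x) ^ 2
      + (x + 1 / 2) ^ 2 * (5 * x - 1 / 2) * ((k : ℝ) + x)
      + (x - 1 / 2) * (x + 1 / 2) ^ 3) / ((k : ℝ) + 2 * x + 1 / 2) ^ 3)

section

variable {x : ℝ}

lemma qx_nonneg (hx : 0 < x) (k : ℕ) : 0 ≤ qx x k := by
  induction k with
  | zero => simp [qx]
  | succ k ih => unfold qx; positivity

lemma qx_ratio_le (hx : 49 / 200 ≤ x) (k : ℕ) :
    ((k : ℝ) + x) / (k + 2 * x + 1 / 2) ≤ ((k : ℝ) + 1) / (k + 1 + 17 / 24) := by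
  have hk : (0 : ℝ) ≤ k := Nat.cast_nonneg k
  rw [div_le_div_iff₀ (by linarith) (by positivity)]
  rcases Nat.eq_zero_or_pos k with h | h
  · subst h; push_cast; nlinarith
  · have hk1 : (1 : ℝ) ≤ k := by exact_mod_cast h
    nlinarith [mul_nonneg (by linarith : (0 : ℝ) ≤ k - 1) (by linarith : (0 : ℝ) ≤ x - 49 / 200)]

lemma qx_le (hx : 49 / 200 ≤ x) (k : ℕ) : qx x k ≤ bk k := by
  induction k with
  | zero => simp [qx, bk_zero]
  | succ k ih =>
    have e : qx x (k + 1) = qx x k * ((k + x) / (k + 2 * x + 1 / 2)) := rfl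
    rw [e]
    exact bk_step' k (qx_nonneg (by linarith) k) ih (qx_ratio_le hx k)

lemma abs_Fx_le (hx : 49 / 200 ≤ x) (k : ℕ) : |Fx x k| ≤ (3 + 3 * x) * Mk k := by
  have h0 := qx_nonneg (by linarith : 0 < x) k
  have hb := bk_pos k
  have hk : (0 : ℝ) ≤ k := Nat.cast_nonneg k
  unfold Fx Mk
  rw [abs_mul, abs_mul, abs_pow, abs_neg, abs_one, one_pow, one_mul,
    abs_of_nonneg (by positivity : 0 ≤ qx x k ^ 3),
    abs_of_nonneg (by linarith : (0 : ℝ) ≤ 3 * x - 1 / 2 + 2 * k)]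
  calc (3 * x - 1 / 2 + 2 * k) * qx x k ^ 3 ≤ ((3 + 3 * x) * (k + 1)) * bk k ^ 3 := by
        apply mul_le_mul _ (pow_le_pow_left₀ h0 (qx_le hx k) 3) (by positivity) (by positivity)
        nlinarith
    _ = (3 + 3 * x) * ((k + 1) * bk k ^ 3) := by ring

lemma summable_Fx (hx : 49 / 200 ≤ x) : Summable (Fx x) := by
  apply Summable.of_norm_bounded (g := fun k => (3 + 3 * x) * Mk k) (summable_Mk.mul_left _)
  intro k
  rw [Real.norm_eq_abs]; exact abs_Fx_le hx k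

lemma abs_Wx_le (hx : 49 / 200 ≤ x) : |Wx x| ≤ (3 + 3 * x) * ∑' k, Mk k := by
  unfold Wx
  rw [← tsum_mul_left]
  rw [← Real.norm_eq_abs]
  exact tsum_of_norm_bounded (summable_Mk.mul_left _).hasSum
    (fun k => by rw [Real.norm_eq_abs]; exact abs_Fx_le hx k)

lemma qx_succ_left (hx : 0 < x) (k : ℕ) :
    qx (x + 1) k = qx x k * (((k + x) / x) *
      ((2 * x + 1 / 2) * (2 * x + 3 / 2) / ((k + 2 * x + 1 / 2) * (k + 2 * x + 3 / 2)))) := by
  induction k with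
  | zero =>
    simp only [qx, Nat.cast_zero, zero_add]
    have h1 : (2 * x + 1 / 2) ≠ 0 := by positivity
    have h2 : (2 * x + 3 / 2) ≠ 0 := by positivity
    field_simp
  | succ k ih =>
    simp only [qx]
    rw [ih]
    push_cast
    have a2 : ((k : ℝ) + 2 * x + 1 / 2) ≠ 0 := by positivity
    have a3 : ((k : ℝ) + 2 * x + 3 / 2) ≠ 0 := by positivity
    have a4 : ((k : ℝ) + 2 * x + 5 / 2) ≠ 0 := by positivity
    have e1 : (k : ℝ) + (x + 1) = k + 1 + x := by ring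
    have e2 : (k : ℝ) + 2 * (x + 1) + 1 / 2 = k + 2 * x + 5 / 2 := by ring
    have e3 : (k : ℝ) + 1 + 2 * x + 1 / 2 = k + 2 * x + 3 / 2 := by ring
    have e4 : (k : ℝ) + 1 + 2 * x + 3 / 2 = k + 2 * x + 5 / 2 := by ring
    rw [e1, e2, e3, e4]
    field_simp

lemma wzx (hx : 0 < x) (k : ℕ) : Fx x k - Bx x * Fx (x + 1) k = Gx x (k + 1) - Gx x k := by
  unfold Fx Bx Gx
  rw [qx_succ_left hx]
  simp only [qx]
  push_cast
  have h2 : ((k : ℝ) + 2 * x + 1 / 2) ≠ 0 := by positivity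
  have h3 : ((k : ℝ) + 2 * x + 3 / 2) ≠ 0 := by positivity
  have h4 : (4 * x + 1) ≠ 0 := by positivity
  have h5 : (4 * x + 3) ≠ 0 := by positivity
  have e6 : ((k : ℝ) + 1 + 2 * x + 1 / 2) = k + 2 * x + 3 / 2 := by ring
  rw [e6, pow_succ (-1 : ℝ) k]
  have key : ((2 * x * (2 * x + 1) / ((4 * x + 1) * (4 * x + 3))) *
      ((((k : ℝ) + x) / x) *
      ((2 * x + 1 / 2) * (2 * x + 3 / 2) / ((k + 2 * x + 1 / 2) * (k + 2 * x + 3 / 2)))))
      = (x + 1 / 2) * (k + x) / ((k + 2 * x + 1 / 2) * (k + 2 * x + 3 / 2)) := by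
    field_simp
    ring
  have e1 : ((2 * x * (2 * x + 1) / ((4 * x + 1) * (4 * x + 3))) ^ 3 *
      ((-1) ^ k * (3 * (x + 1) - 1 / 2 + 2 * k) *
      (qx x k * ((((k : ℝ) + x) / x) *
      ((2 * x + 1 / 2) * (2 * x + 3 / 2) / ((k + 2 * x + 1 / 2) * (k + 2 * x + 3 / 2))))) ^ 3))
      = (-1) ^ k * (3 * (x + 1) - 1 / 2 + 2 * k) * qx x k ^ 3 *
        ((x + 1 / 2) * (k + x) / ((k + 2 * x + 1 / 2) * (k + 2 * x + 3 / 2))) ^ 3 := by
    rw [← key]; ring
  rw [e1]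
  generalize ((-1 : ℝ) ^ k) = e
  generalize (qx x k) = Q
  have : ∀ (A B C : ℝ), e * A * Q ^ 3 - e * B * Q ^ 3 * C = e * Q ^ 3 * (A - B * C) := by
    intros; ring
  rw [this]
  have h2' : e * -1 * (Q * (((k : ℝ) + x) / (k + 2 * x + 1 / 2))) ^ 3
      = e * Q ^ 3 * (-(((k : ℝ) + x) / (k + 2 * x + 1 / 2)) ^ 3) := by ring
  rw [h2']
  rw [mul_assoc (e * Q ^ 3), ← mul_sub]
  congr 1
  field_simp
  ring

lemma Gx_tendsto (hx : 49 / 200 ≤ x) : Tendsto (Gx x) atTop (𝓝 0) := by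
  -- crude bound of the rational factor
  set c : ℝ := 2 + 5 * x with hc
  have hc0 : 0 < c := by linarith
  have hb : ∀ k : ℕ, |Gx x k| ≤ (8 * (60 * c ^ 4)) * Mk k := by
    intro k
    have hk : (0 : ℝ) ≤ k := Nat.cast_nonneg k
    have h0 := qx_nonneg (by linarith : 0 < x) k
    have hbp := bk_pos k
    unfold Gx Mk
    set w : ℝ := (k : ℝ) + x with hw
    have hw0 : 0 < w := by rw [hw]; linarith
    set y : ℝ := (k : ℝ) + 2 * x + 1 / 2 with hy
    have hy0 : ((k : ℝ) + 1) / 2 ≤ y := by rw [hy]; linarith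
    have hypos : 0 < y := by linarith
    rw [abs_mul, abs_mul, abs_pow (-1 : ℝ), abs_neg, abs_one, one_pow, one_mul,
      abs_of_nonneg (by positivity : (0 : ℝ) ≤ qx x k ^ 3), abs_div, abs_neg,
      abs_of_pos (by positivity : (0 : ℝ) < y ^ 3)]
    set D : ℝ := c * (k + 1) with hD
    have hxk : 0 ≤ x * k := by positivity
    have hwD : w ≤ D := by rw [hw, hD, hc]; nlinarith
    have hxD : x + 1 / 2 ≤ D := by rw [hD, hc]; nlinarith
    have hD1 : 1 ≤ D := by rw [hD, hc]; nlinarith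
    have hD0 : 0 ≤ D := by linarith
    have hx0 : 0 < x := by linarith
    have hP : |w ^ 4 + (5 * x + 3 / 2) * w ^ 3 + 3 * (x + 1 / 2) * (3 * x + 1 / 2) * w ^ 2
        + (x + 1 / 2) ^ 2 * (5 * x - 1 / 2) * w + (x - 1 / 2) * (x + 1 / 2) ^ 3| ≤ 60 * D ^ 4 := by
      have habsw : |w| ≤ D := by rw [abs_of_pos hw0]; exact hwD
      have t1 : |w ^ 4| ≤ D ^ 4 := by
        rw [abs_pow]; exact pow_le_pow_left₀ (abs_nonneg _) habsw 4
      have b1 : |5 * x + 3 / 2| ≤ 6 * D := by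
        rw [abs_of_pos (by linarith)]; linarith
      have b2 : |3 * x + 1 / 2| ≤ 4 * D := by
        rw [abs_of_pos (by linarith)]; linarith
      have b3 : |5 * x - 1 / 2| ≤ 8 * D := by
        rw [abs_of_pos (by linarith)]; linarith
      have b4 : |x + 1 / 2| ≤ D := by rw [abs_of_pos (by linarith)]; exact hxD
      have b5 : |x - 1 / 2| ≤ D := by
        rw [abs_le]; constructor <;> linarith
      have t2 : |(5 * x + 3 / 2) * w ^ 3| ≤ 6 * D ^ 4 := by
        rw [abs_mul, abs_pow]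
        calc |5 * x + 3 / 2| * |w| ^ 3 ≤ (6 * D) * D ^ 3 :=
              mul_le_mul b1 (pow_le_pow_left₀ (abs_nonneg _) habsw 3) (by positivity) (by positivity)
          _ = 6 * D ^ 4 := by ring
      have t3 : |3 * (x + 1 / 2) * (3 * x + 1 / 2) * w ^ 2| ≤ 12 * D ^ 4 := by
        rw [abs_mul, abs_mul, abs_mul, abs_pow, abs_of_pos (by norm_num : (0 : ℝ) < 3)]
        calc 3 * |x + 1 / 2| * |3 * x + 1 / 2| * |w| ^ 2 ≤ (3 * D) * (4 * D) * D ^ 2 := by
              apply mul_le_mul _ (pow_le_pow_left₀ (abs_nonneg _) habsw 2) (by positivity) (by positivity)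
              apply mul_le_mul _ b2 (by positivity) (by positivity)
              linarith
          _ = 12 * D ^ 4 := by ring
      have t4 : |(x + 1 / 2) ^ 2 * (5 * x - 1 / 2) * w| ≤ 8 * D ^ 4 := by
        rw [abs_mul, abs_mul, abs_pow]
        calc |x + 1 / 2| ^ 2 * |5 * x - 1 / 2| * |w| ≤ D ^ 2 * (8 * D) * D := by
              apply mul_le_mul _ habsw (by positivity) (by positivity)
              exact mul_le_mul (pow_le_pow_left₀ (abs_nonneg _) b4 2) b3 (by positivity) (by positivity)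
          _ = 8 * D ^ 4 := by ring
      have t5 : |(x - 1 / 2) * (x + 1 / 2) ^ 3| ≤ D ^ 4 := by
        rw [abs_mul, abs_pow]
        calc |x - 1 / 2| * |x + 1 / 2| ^ 3 ≤ D * D ^ 3 :=
              mul_le_mul b5 (pow_le_pow_left₀ (abs_nonneg _) b4 3) (by positivity) (by positivity)
          _ = D ^ 4 := by ring
      have s1 := abs_add_le (w ^ 4) ((5 * x + 3 / 2) * w ^ 3)
      have s2 := abs_add_le (w ^ 4 + (5 * x + 3 / 2) * w ^ 3)
        (3 * (x + 1 / 2) * (3 * x + 1 / 2) * w ^ 2)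
      have s3 := abs_add_le (w ^ 4 + (5 * x + 3 / 2) * w ^ 3
        + 3 * (x + 1 / 2) * (3 * x + 1 / 2) * w ^ 2) ((x + 1 / 2) ^ 2 * (5 * x - 1 / 2) * w)
      have s4 := abs_add_le (w ^ 4 + (5 * x + 3 / 2) * w ^ 3
        + 3 * (x + 1 / 2) * (3 * x + 1 / 2) * w ^ 2 + (x + 1 / 2) ^ 2 * (5 * x - 1 / 2) * w)
        ((x - 1 / 2) * (x + 1 / 2) ^ 3)
      have hD4 : 0 ≤ D ^ 4 := by positivity
      linarith
    have hy3 : (((k : ℝ) + 1) / 2) ^ 3 ≤ y ^ 3 := pow_le_pow_left₀ (by positivity) hy0 3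
    calc qx x k ^ 3 * (|w ^ 4 + (5 * x + 3 / 2) * w ^ 3 + 3 * (x + 1 / 2) * (3 * x + 1 / 2) * w ^ 2
        + (x + 1 / 2) ^ 2 * (5 * x - 1 / 2) * w + (x - 1 / 2) * (x + 1 / 2) ^ 3| / y ^ 3)
        ≤ bk k ^ 3 * ((60 * D ^ 4) / (((k : ℝ) + 1) / 2) ^ 3) := by
          apply mul_le_mul (pow_le_pow_left₀ h0 (qx_le hx k) 3) _ (by positivity) (by positivity)
          exact div_le_div₀ (by positivity) hP (by positivity) hy3
      _ = (8 * (60 * c ^ 4)) * (((k : ℝ) + 1) * bk k ^ 3) := by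
          rw [hD]
          have : (k : ℝ) + 1 ≠ 0 := by positivity
          field_simp
          norm_num
  have h0 : Tendsto (fun k : ℕ => (8 * (60 * c ^ 4)) * Mk k) atTop (𝓝 0) := by
    have := Mk_tendsto.const_mul (8 * (60 * c ^ 4))
    simpa using this
  exact squeeze_zero_norm (fun k => by rw [Real.norm_eq_abs]; exact hb k) h0

lemma Gx_zero (hx : 0 < x) : Gx x 0 = - Ax x := by
  unfold Gx Ax
  simp only [qx, Nat.cast_zero, zero_add, pow_zero, one_pow, one_mul]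
  have h2 : (4 * x + 1) ≠ 0 := by positivity
  have h3 : (2 * x + 1 / 2) ≠ 0 := by positivity
  field_simp
  ring

lemma Wx_rec (hx : 49 / 200 ≤ x) : Wx x = Ax x + Bx x * Wx (x + 1) := by
  have hx0 : 0 < x := by linarith
  have h1 : HasSum (fun k => Fx x k - Bx x * Fx (x + 1) k) (Wx x - Bx x * Wx (x + 1)) :=
    (summable_Fx hx).hasSum.sub ((summable_Fx (by linarith : 49 / 200 ≤ x + 1)).hasSum.mul_left (Bx x))
  have h2 := h1.tendsto_sum_nat
  have h3 : (fun n => ∑ k ∈ range n, (Fx x k - Bx x * Fx (x + 1) k)) = fun n => Gx x n - Gx x 0 := by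
    funext n
    rw [← Finset.sum_range_sub (Gx x)]
    exact Finset.sum_congr rfl (fun k _ => wzx hx0 k)
  rw [h3] at h2
  have h4 : Tendsto (fun n => Gx x n - Gx x 0) atTop (𝓝 (0 - Gx x 0)) := (Gx_tendsto hx).sub_const _
  have := tendsto_nhds_unique h2 h4
  rw [Gx_zero hx0] at this
  linarith

end

/-- `∏_{j=1..k} (-(s+j)^3/(2s+2j+1)^3)` -/
noncomputable def pz (s : ℝ) : ℕ → ℝ
  | 0 => 1
  | k + 1 => pz s k * (-((s + (k + 1)) / (2 * s + 2 * (k + 1) + 1)) ^ 3)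

noncomputable def phik (s : ℝ) (k : ℕ) : ℝ := (1 / 2) * (3 * (s + k) + 2) * pz s k

lemma abs_pz_le {s : ℝ} (hs : -51 / 100 ≤ s) (k : ℕ) : |pz s k| ≤ (1 / 8) ^ k := by
  induction k with
  | zero => simp [pz]
  | succ k ih =>
    have hk : (0 : ℝ) ≤ k := Nat.cast_nonneg k
    have e : pz s (k + 1) = pz s k * (-((s + (k + 1)) / (2 * s + 2 * (k + 1) + 1)) ^ 3) := rfl
    rw [e, abs_mul, abs_neg, abs_pow]
    have hn : 0 ≤ s + (k + 1) := by linarith
    have hd : 0 < 2 * s + 2 * (k + 1) + 1 := by linarith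
    have h1 : |(s + (k + 1)) / (2 * s + 2 * (k + 1) + 1)| ≤ 1 / 2 := by
      rw [abs_of_nonneg (by positivity), div_le_div_iff₀ hd (by norm_num)]
      linarith
    calc |pz s k| * |(s + (k + 1)) / (2 * s + 2 * (k + 1) + 1)| ^ 3 ≤ (1 / 8) ^ k * (1 / 2) ^ 3 :=
          mul_le_mul ih (pow_le_pow_left₀ (abs_nonneg _) h1 3) (by positivity) (by positivity)
      _ = (1 / 8) ^ (k + 1) := by rw [pow_succ (1 / 8 : ℝ) k]; norm_num

lemma abs_phik_le {s : ℝ} (hs : -51 / 100 ≤ s) (k : ℕ) :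
    |phik s k| ≤ (3 / 2) * ((k : ℝ) * (1 / 8) ^ k) + (3 / 2 * |s| + 1) * (1 / 8) ^ k := by
  have hk : (0 : ℝ) ≤ k := Nat.cast_nonneg k
  unfold phik
  rw [abs_mul, abs_mul, abs_of_pos (by norm_num : (0 : ℝ) < 1 / 2)]
  have h1 : |3 * (s + k) + 2| ≤ 3 * |s| + 3 * k + 2 := by
    have a := abs_add_le (3 * s) (3 * (k : ℝ) + 2)
    rw [abs_mul, abs_of_pos (by norm_num : (0 : ℝ) < 3), abs_of_nonneg (by positivity : (0 : ℝ) ≤ 3 * (k : ℝ) + 2)] at a
    have e : 3 * (s + k) + 2 = 3 * s + (3 * k + 2) := by ring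
    rw [e]; linarith
  calc 1 / 2 * |3 * (s + k) + 2| * |pz s k| ≤ 1 / 2 * (3 * |s| + 3 * k + 2) * (1 / 8) ^ k := by
        apply mul_le_mul _ (abs_pz_le hs k) (abs_nonneg _) (by positivity)
        linarith
    _ = _ := by ring

lemma summable_phik {s : ℝ} (hs : -51 / 100 ≤ s) : Summable (phik s) := by
  apply Summable.of_norm_bounded
    (g := fun k : ℕ => (3 / 2) * ((k : ℝ) * (1 / 8) ^ k) + (3 / 2 * |s| + 1) * (1 / 8) ^ k)
  · apply Summable.add
    · apply Summable.mul_left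
      have := summable_pow_mul_geometric_of_norm_lt_one (R := ℝ) 1 (r := 1 / 8) (by norm_num)
      simpa using this
    · exact (summable_geometric_of_lt_one (by norm_num) (by norm_num)).mul_left _
  · intro k
    rw [Real.norm_eq_abs]; exact abs_phik_le hs k

lemma partial_phik {s : ℝ} (hs : -51 / 100 ≤ s) (m : ℕ) :
    Wx ((s + 1) / 2) - ∑ k ∈ range (2 * m), phik s k = pz s (2 * m) * Wx ((s + 1) / 2 + m) := by
  induction m with
  | zero => simp [pz]
  | succ m ih =>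
    have hm : (0 : ℝ) ≤ m := Nat.cast_nonneg m
    have e : 2 * (m + 1) = (2 * m + 1) + 1 := by ring
    rw [e, sum_range_succ, sum_range_succ]
    have hrec := Wx_rec (x := (s + 1) / 2 + m) (by linarith)
    have hp1 : pz s (2 * m + 1) = pz s (2 * m) *
        (-((s + (((2 * m : ℕ) : ℝ) + 1)) / (2 * s + 2 * (((2 * m : ℕ) : ℝ) + 1) + 1)) ^ 3) := rfl
    have hp2 : pz s (2 * m + 1 + 1) = pz s (2 * m + 1) *
        (-((s + (((2 * m + 1 : ℕ) : ℝ) + 1)) / (2 * s + 2 * (((2 * m + 1 : ℕ) : ℝ) + 1) + 1)) ^ 3) := rfl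
    have hd1 : (2 * s + 4 * (m : ℝ) + 3) ≠ 0 := by intro h; linarith
    have hd2 : (2 * s + 4 * (m : ℝ) + 5) ≠ 0 := by intro h; linarith
    have e1 : (s + 1) / 2 + ((m + 1 : ℕ) : ℝ) = (s + 1) / 2 + m + 1 := by push_cast; ring
    rw [e1, hp2]
    have h3 : Wx ((s + 1) / 2) - (∑ k ∈ range (2 * m), phik s k + phik s (2 * m) + phik s (2 * m + 1))
        = pz s (2 * m) * Wx ((s + 1) / 2 + m) - phik s (2 * m) - phik s (2 * m + 1) := by
      rw [← ih]; ring
    rw [h3, hrec]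
    unfold phik
    rw [hp1]
    unfold Ax Bx
    push_cast
    have f1 : 4 * ((s + 1) / 2 + (m : ℝ)) + 1 = 2 * s + 4 * m + 3 := by ring
    have f2 : 4 * ((s + 1) / 2 + (m : ℝ)) + 3 = 2 * s + 4 * m + 5 := by ring
    have f3 : 2 * s + 2 * (2 * (m : ℝ) + 1) + 1 = 2 * s + 4 * m + 3 := by ring
    have f4 : 2 * s + 2 * (2 * (m : ℝ) + 1 + 1) + 1 = 2 * s + 4 * m + 5 := by ring
    rw [f1, f2, f3, f4]
    field_simp
    ring

/-- **the K3(-8) series is the WZ series**, real parameter. -/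
theorem hasSum_phik {s : ℝ} (hs : -51 / 100 ≤ s) : HasSum (phik s) (Wx ((s + 1) / 2)) := by
  have h1 := (summable_phik hs).hasSum.tendsto_sum_nat
  have h2 : Tendsto (fun m : ℕ => ∑ k ∈ range (2 * m), phik s k) atTop (𝓝 (∑' k, phik s k)) :=
    h1.comp (tendsto_id.const_mul_atTop' (by norm_num))
  have h3 : Tendsto (fun m : ℕ => ∑ k ∈ range (2 * m), phik s k) atTop (𝓝 (Wx ((s + 1) / 2))) := by
    set C := ∑' k, Mk k with hC
    have hC0 : 0 ≤ C := tsum_nonneg Mk_nonneg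
    have h4 : Tendsto (fun m : ℕ => pz s (2 * m) * Wx ((s + 1) / 2 + m)) atTop (𝓝 0) := by
      have hb : ∀ m : ℕ, ‖pz s (2 * m) * Wx ((s + 1) / 2 + m)‖ ≤
          (3 * C) * ((m : ℝ) * (1 / 64) ^ m) + ((6 + 3 * |s|) * C) * (1 / 64) ^ m := by
        intro m
        have hm : (0 : ℝ) ≤ m := Nat.cast_nonneg m
        rw [norm_mul, Real.norm_eq_abs, Real.norm_eq_abs]
        have hW := abs_Wx_le (x := (s + 1) / 2 + m) (by linarith)
        have hs1 := le_abs_self s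
        have hs0 := abs_nonneg s
        calc |pz s (2 * m)| * |Wx ((s + 1) / 2 + m)| ≤ (1 / 8) ^ (2 * m) * ((6 + 3 * (|s| + m)) * C) := by
              apply mul_le_mul (abs_pz_le hs _) _ (abs_nonneg _) (by positivity)
              refine hW.trans ?_
              apply mul_le_mul_of_nonneg_right _ hC0
              linarith
          _ = _ := by rw [pow_mul]; norm_num; ring
      have h5 : Tendsto (fun m : ℕ => (3 * C) * ((m : ℝ) * (1 / 64) ^ m)
          + ((6 + 3 * |s|) * C) * (1 / 64) ^ m) atTop (𝓝 0) := by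
        have a := (tendsto_self_mul_const_pow_of_lt_one (r := (1 / 64 : ℝ)) (by norm_num) (by norm_num))
        have b := tendsto_pow_atTop_nhds_zero_of_lt_one (r := (1 / 64 : ℝ)) (by norm_num) (by norm_num)
        have := (a.const_mul (3 * C)).add (b.const_mul ((6 + 3 * |s|) * C))
        simpa using this
      exact squeeze_zero_norm hb h5
    have h6 : (fun m : ℕ => ∑ k ∈ range (2 * m), phik s k)
        = fun m : ℕ => Wx ((s + 1) / 2) - pz s (2 * m) * Wx ((s + 1) / 2 + m) := by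
      funext m; rw [← partial_phik hs]; ring
    rw [h6]
    simpa using h4.const_sub (Wx ((s + 1) / 2))
  have := tendsto_nhds_unique h2 h3
  rw [← this]
  exact (summable_phik hs).hasSum

end Crest.Agent.R006.Be
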