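import Crest.Agent.R006.BeD_294
import Crest.Agent.R006.BeW_294

/-!
Row 6 (Catalan), P1/P3, helper294.  **`be = 0`**.

`Phi s = ∑_k (1/2)(3(s+k)+2) ∏_{j=1..k} (-(s+j)^3/(2s+2j+1)^3) = -(2s+1)^3 ψ(s)`, real `s ≥ -51/100`.
Main results: `Phi (-1/2) = √2/(2π)`, `HasDerivAt Phi (9 log 2 · Phi (-1/2)) (-1/2)`, i.e. the principal
part `v0 e^-3 + v1 e^-2 + v2 e^-1` of `ψ` at `-1/2` has `v1 = 9 log 2 · v0`, `v0 ≠ 0`.
-/

set_option autoImplicit false

namespace Crest.Agent.R006.Be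

open Finset Filter Topology

noncomputable def Phi (s : ℝ) : ℝ := ∑' k, phik s k

lemma Phi_eq {s : ℝ} (hs : -51 / 100 ≤ s) : Phi s = Wx ((s + 1) / 2) := (hasSum_phik hs).tsum_eq

/-- one step recurrence of `Phi` -/
lemma Phi_rec {s : ℝ} (hs : -51 / 100 ≤ s) :
    Phi s = (3 * s + 2) / 2 - ((s + 1) / (2 * s + 3)) ^ 3 * Phi (s + 1) := by
  have hp : ∀ k : ℕ, pz s (k + 1) = -((s + 1) / (2 * s + 3)) ^ 3 * pz (s + 1) k := by
    intro k
    induction k with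
    | zero =>
      simp only [pz, Nat.cast_zero, one_mul, mul_one]
      have : 2 * s + 2 * (0 + 1) + 1 = 2 * s + 3 := by ring
      rw [this, zero_add]
    | succ k ih =>
      have e1 : pz s (k + 1 + 1) = pz s (k + 1) *
        (-((s + (((k + 1 : ℕ) : ℝ) + 1)) / (2 * s + 2 * (((k + 1 : ℕ) : ℝ) + 1) + 1)) ^ 3) := rfl
      have e2 : pz (s + 1) (k + 1) = pz (s + 1) k *
        (-((s + 1 + ((k : ℝ) + 1)) / (2 * (s + 1) + 2 * ((k : ℝ) + 1) + 1)) ^ 3) := rfl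
      rw [e1, e2, ih]
      push_cast
      have a : s + ((k : ℝ) + 1 + 1) = s + 1 + (k + 1) := by ring
      have b : 2 * s + 2 * ((k : ℝ) + 1 + 1) + 1 = 2 * (s + 1) + 2 * (k + 1) + 1 := by ring
      rw [a, b]; ring
  have h1 := (summable_phik hs).tsum_eq_zero_add
  have h2 : (∑' k, phik s (k + 1)) = -((s + 1) / (2 * s + 3)) ^ 3 * Phi (s + 1) := by
    unfold Phi
    rw [← tsum_mul_left]
    congr 1
    funext k
    unfold phik
    rw [hp k]
    push_cast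
    ring
  unfold Phi at *
  rw [h1, h2]
  simp only [phik, pz, Nat.cast_zero]
  ring

lemma wc_ofReal (e : ℝ) (k : ℕ) : wc k (e : ℂ) = ((Fx (1 / 4 + e) k : ℝ) : ℂ) := by
  have hP : Pc (e : ℂ) k = ((qx (1 / 4 + e) k : ℝ) : ℂ) := by
    induction k with
    | zero => simp [Pc, qx]
    | succ k ih =>
      have e1 : Pc (e : ℂ) (k + 1) = Pc (e : ℂ) k * ((k + 1 / 4 + e) / (k + 1 + 2 * e)) := rfl
      have e3 : qx (1 / 4 + e) (k + 1) = qx (1 / 4 + e) k *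
        ((k + (1 / 4 + e)) / (k + 2 * (1 / 4 + e) + 1 / 2)) := rfl
      rw [e1, e3, Complex.ofReal_mul, ← ih]
      push_cast
      have a : (k : ℂ) + (1 / 4 + (e : ℂ)) = k + 1 / 4 + e := by ring
      have b : (k : ℂ) + 2 * (1 / 4 + (e : ℂ)) + 1 / 2 = k + 1 + 2 * e := by ring
      rw [a, b]
  unfold wc Fx
  rw [hP]
  push_cast
  ring

lemma Wc_ofReal (e : ℝ) : Wc (e : ℂ) = ((Wx (1 / 4 + e) : ℝ) : ℂ) := by
  unfold Wc Wx
  rw [Complex.ofReal_tsum]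
  exact tsum_congr (fun k => wc_ofReal e k)

lemma Wx_quarter : Wx (1 / 4) = √2 / (2 * Real.pi) := by
  have h := Wc_ofReal 0
  rw [Complex.ofReal_zero, Wc_zero, add_zero] at h
  exact (Complex.ofReal_injective h).symm

lemma hasDerivAt_Wx : HasDerivAt (fun e : ℝ => Wx (1 / 4 + e)) (18 * Real.log 2 * Wx (1 / 4)) 0 := by
  have h0 : Wc 0 = ((Wx (1 / 4) : ℝ) : ℂ) := by
    have := Wc_ofReal 0
    rwa [Complex.ofReal_zero, add_zero] at this
  have h1 : HasDerivAt Wc ((18 * Real.log 2 * Wx (1 / 4) : ℝ) : ℂ) ((0 : ℝ) : ℂ) := by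
    have := hasDerivAt_Wc
    rw [Complex.ofReal_zero]
    refine this.congr_deriv ?_
    rw [h0]; push_cast; ring
  have h2 := h1.real_of_complex
  refine h2.congr_of_eventuallyEq ?_
  filter_upwards with e
  rw [Wc_ofReal, Complex.ofReal_re]

/-- `Phi(-1/2) = √2/(2π)` -/
theorem Phi_half : Phi (-1 / 2) = √2 / (2 * Real.pi) := by
  rw [Phi_eq (by norm_num)]
  have : ((-1 / 2 : ℝ) + 1) / 2 = 1 / 4 := by norm_num
  rw [this, Wx_quarter]

theorem Phi_half_ne_zero : Phi (-1 / 2) ≠ 0 := by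
  rw [Phi_half]
  have := Real.pi_pos
  positivity

/-- **`be = 0`, real form.** -/
theorem hasDerivAt_Phi : HasDerivAt Phi (9 * Real.log 2 * Phi (-1 / 2)) (-1 / 2) := by
  have h1 : HasDerivAt (fun s : ℝ => (s + 1) / 2 - 1 / 4) (1 / 2) (-1 / 2) :=
    (((hasDerivAt_id (-1 / 2 : ℝ)).add_const 1).div_const 2).sub_const _
  have h2 : HasDerivAt (fun e : ℝ => Wx (1 / 4 + e)) (18 * Real.log 2 * Wx (1 / 4))
      ((-1 / 2 + 1) / 2 - 1 / 4 : ℝ) := by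
    have : ((-1 / 2 + 1) / 2 - 1 / 4 : ℝ) = 0 := by norm_num
    rw [this]; exact hasDerivAt_Wx
  have h3 := h2.comp (-1 / 2 : ℝ) h1
  have h4 : Phi =ᶠ[𝓝 (-1 / 2 : ℝ)] ((fun e : ℝ => Wx (1 / 4 + e)) ∘ fun s : ℝ => (s + 1) / 2 - 1 / 4) := by
    filter_upwards [lt_mem_nhds (show (-51 / 100 : ℝ) < -1 / 2 by norm_num)] with s hs
    rw [Phi_eq hs.le]
    simp only [Function.comp]
    congr 1; ring
  refine (h3.congr_of_eventuallyEq h4).congr_deriv ?_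
  rw [Phi_half, Wx_quarter]
  ring

end Crest.Agent.R006.Be
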