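import Mathlib

/-!
# Row 6 (Catalan), helper826: the identity `be = 0`

`t k z = (z+1)_{2k} / ∏_{i≤k} (2z+2i+1)^2`, `psi6 z = -(1/2) ∑ t k z` (`Re z ≥ 0`).

* `psi6_rec`   : `z^3 psi6 z + (2z-1)^3 psi6 (z-1) = -(3z-1)/2` for `Re z ≥ 1`;
* `psi6_bound` : `‖psi6 z‖ ≤ 2 / ‖2z+1‖^2` for `Re z ≥ 0`;
* `psi6_unique`: uniqueness of the decaying solution on `Re z ≥ 0`;
* `be_zero`    : `z ↦ (psi6 z + (3z-1)/(2z^3)) / h0 z` has derivative `0` at `1/2`,
  `h0 z = 8^z (Γ(z+1/2)/Γ(z+1))^3`.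
-/

set_option autoImplicit false

open Complex Filter Topology Finset
open scoped Real

namespace Crest.Agent.R006.BeZero

/-! ### a dominating sequence -/

/-- `u (k+1) = u k * (4k+3)/(4k+8)`. -/
noncomputable def u : ℕ → ℝ
  | 0 => 1
  | k + 1 => u k * ((4 * k + 3) / (4 * k + 8))

lemma u_pos (k : ℕ) : 0 < u k := by
  induction k with
  | zero => simp [u]
  | succ k ih => unfold u; positivity

lemma u_tele (k : ℕ) : ((k : ℝ) + 1) * u k - ((k : ℝ) + 1 + 1) * u (k + 1) = u k / 4 := by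
  simp only [u]
  have : (4 * (k : ℝ) + 8) ≠ 0 := by positivity
  field_simp
  ring

lemma sum_u (n : ℕ) : ∑ k ∈ range n, u k = 4 * (1 - ((n : ℝ) + 1) * u n) := by
  induction n with
  | zero => simp [u]
  | succ n ih =>
    rw [sum_range_succ, ih]
    have := u_tele n
    push_cast
    linarith

lemma u_pow (k : ℕ) : u k ^ 4 * ((k : ℝ) + 1) ^ 5 ≤ 1 := by
  induction k with
  | zero => simp [u]
  | succ k ih =>
    simp only [u]
    have hk : (0 : ℝ) ≤ k := Nat.cast_nonneg k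
    have h1 : ((4 * (k : ℝ) + 3) / (4 * k + 8)) ^ 4 * ((k : ℝ) + 1 + 1) ^ 5 ≤ ((k : ℝ) + 1) ^ 5 := by
      have e : ((4 * (k : ℝ) + 3) / (4 * k + 8)) ^ 4 * ((k : ℝ) + 1 + 1) ^ 5
          = ((k : ℝ) + 3 / 4) ^ 4 * (k + 2) := by
        have : (4 * (k : ℝ) + 8) ≠ 0 := by positivity
        field_simp
        ring
      rw [e]
      nlinarith [pow_nonneg hk 2, pow_nonneg hk 3, pow_nonneg hk 4]
    push_cast
    calc (u k * ((4 * (k : ℝ) + 3) / (4 * k + 8))) ^ 4 * ((k : ℝ) + 1 + 1) ^ 5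
        = u k ^ 4 * (((4 * (k : ℝ) + 3) / (4 * k + 8)) ^ 4 * ((k : ℝ) + 1 + 1) ^ 5) := by ring
      _ ≤ u k ^ 4 * ((k : ℝ) + 1) ^ 5 := by
        apply mul_le_mul_of_nonneg_left h1
        positivity
      _ ≤ 1 := ih

lemma mul_u_pow (k : ℕ) : (((k : ℝ) + 1) * u k) ^ 4 ≤ 1 / ((k : ℝ) + 1) := by
  rw [le_div_iff₀ (by positivity)]
  calc (((k : ℝ) + 1) * u k) ^ 4 * ((k : ℝ) + 1) = u k ^ 4 * ((k : ℝ) + 1) ^ 5 := by ring
    _ ≤ 1 := u_pow k

lemma mul_u_tendsto : Tendsto (fun k : ℕ => ((k : ℝ) + 1) * u k) atTop (𝓝 0) := by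
  have h1 : Tendsto (fun k : ℕ => (((k : ℝ) + 1) * u k) ^ 4) atTop (𝓝 0) := by
    refine squeeze_zero (fun k => by have := (u_pos k).le; positivity) mul_u_pow ?_
    exact tendsto_one_div_add_atTop_nhds_zero_nat
  have h2 : Tendsto (fun k : ℕ => Real.sqrt (Real.sqrt ((((k : ℝ) + 1) * u k) ^ 4))) atTop
      (𝓝 (Real.sqrt (Real.sqrt 0))) :=
    (Real.continuous_sqrt.tendsto _).comp ((Real.continuous_sqrt.tendsto 0).comp h1)
  rw [Real.sqrt_zero, Real.sqrt_zero] at h2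
  refine h2.congr fun k => ?_
  have hp : 0 ≤ ((k : ℝ) + 1) * u k := by have := (u_pos k).le; positivity
  rw [show (((k : ℝ) + 1) * u k) ^ 4 = ((((k : ℝ) + 1) * u k) ^ 2) ^ 2 by ring,
    Real.sqrt_sq (by positivity), Real.sqrt_sq hp]

lemma hasSum_u : HasSum u 4 := by
  have h : Tendsto (fun n : ℕ => ∑ k ∈ range n, u k) atTop (𝓝 4) := by
    simp only [sum_u]
    have := (mul_u_tendsto.const_sub 1).const_mul 4
    simpa using this
  exact (hasSum_iff_tendsto_nat_of_nonneg (fun k => (u_pos k).le) 4).mpr h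

/-! ### the series -/

/-- `(z+1)_{2k} / ∏_{i≤k} (2z+2i+1)^2` -/
noncomputable def t : ℕ → ℂ → ℂ
  | 0, z => 1 / (2 * z + 1) ^ 2
  | k + 1, z => t k z * ((z + 2 * k + 1) * (z + 2 * k + 2) / (2 * z + 2 * k + 3) ^ 2)

lemma den_ne {z : ℂ} (hz : 0 ≤ z.re) (k : ℕ) : 2 * z + 2 * k + 1 ≠ 0 := by
  intro h
  have := congrArg Complex.re h
  simp at this
  have hk : (0 : ℝ) ≤ k := Nat.cast_nonneg k
  linarith

lemma ratio_bound {z : ℂ} (hz : 0 ≤ z.re) (k : ℕ) :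
    ‖(z + 2 * k + 1) * (z + 2 * k + 2) / (2 * z + 2 * k + 3) ^ 2‖ ≤ (4 * k + 3) / (4 * k + 8) := by
  have hk : (0 : ℝ) ≤ k := Nat.cast_nonneg k
  set x := z.re with hx
  set y := z.im with hy
  have n1 : ‖z + 2 * k + 1‖ ^ 2 = (x + 2 * k + 1) ^ 2 + y ^ 2 := by
    rw [← Complex.normSq_eq_norm_sq, Complex.normSq_apply]
    simp [← hx, ← hy]
    ring
  have n2 : ‖z + 2 * k + 2‖ ^ 2 = (x + 2 * k + 2) ^ 2 + y ^ 2 := by
    rw [← Complex.normSq_eq_norm_sq, Complex.normSq_apply]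
    simp [← hx, ← hy]
    ring
  have n3 : ‖2 * z + 2 * k + 3‖ ^ 2 = (2 * x + 2 * k + 3) ^ 2 + 4 * y ^ 2 := by
    rw [← Complex.normSq_eq_norm_sq, Complex.normSq_apply]
    simp [← hx, ← hy]
    ring
  rw [norm_div, norm_mul, norm_pow, n3]
  have hd : 0 < (2 * x + 2 * k + 3) ^ 2 + 4 * y ^ 2 := by positivity
  rw [div_le_div_iff₀ hd (by positivity)]
  have am : ‖z + 2 * k + 1‖ * ‖z + 2 * k + 2‖ ≤
      ((x + 2 * k + 1) ^ 2 + y ^ 2 + ((x + 2 * k + 2) ^ 2 + y ^ 2)) / 2 := by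
    rw [← n1, ← n2]
    nlinarith [sq_nonneg (‖z + 2 * k + 1‖ - ‖z + 2 * k + 2‖)]
  have h8 : (0 : ℝ) ≤ 4 * k + 8 := by positivity
  refine (mul_le_mul_of_nonneg_right am h8).trans ?_
  have hy2 : 0 ≤ y ^ 2 := sq_nonneg y
  nlinarith [mul_nonneg hk hy2, mul_nonneg hz hk, mul_nonneg (mul_nonneg hz hz) hk,
    mul_nonneg (mul_nonneg hz hk) hk, mul_nonneg hz hz, mul_nonneg hk hk,
    mul_nonneg (mul_nonneg hk hk) hk]

lemma norm_t_le {z : ℂ} (hz : 0 ≤ z.re) (k : ℕ) : ‖t k z‖ ≤ u k * (1 / ‖2 * z + 1‖ ^ 2) := by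
  induction k with
  | zero => simp [t, u]
  | succ k ih =>
    simp only [t, u]
    rw [norm_mul]
    calc ‖t k z‖ * ‖(z + 2 * k + 1) * (z + 2 * k + 2) / (2 * z + 2 * k + 3) ^ 2‖
        ≤ (u k * (1 / ‖2 * z + 1‖ ^ 2)) * ((4 * k + 3) / (4 * k + 8)) := by
          apply mul_le_mul ih (ratio_bound hz k) (norm_nonneg _)
          have := (u_pos k).le
          positivity
      _ = _ := by ring

lemma summable_t {z : ℂ} (hz : 0 ≤ z.re) : Summable fun k => t k z :=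
  Summable.of_norm_bounded (hasSum_u.summable.mul_right _) (norm_t_le hz)

noncomputable def psi6 (z : ℂ) : ℂ := -(1 / 2) * ∑' k, t k z

lemma hasSum_psi6 {z : ℂ} (hz : 0 ≤ z.re) : HasSum (fun k => -(1 / 2) * t k z) (psi6 z) :=
  (summable_t hz).hasSum.mul_left _

theorem psi6_bound {z : ℂ} (hz : 0 ≤ z.re) : ‖psi6 z‖ ≤ 2 / ‖2 * z + 1‖ ^ 2 := by
  unfold psi6
  rw [norm_mul]
  have h1 : ‖∑' k, t k z‖ ≤ 4 * (1 / ‖2 * z + 1‖ ^ 2) := by
    have h2 := hasSum_u.mul_right (1 / ‖2 * z + 1‖ ^ 2)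
    rw [← h2.tsum_eq]
    exact tsum_of_norm_bounded h2 (norm_t_le hz) |>.trans (le_of_eq h2.tsum_eq.symm)
  have h3 : ‖(-(1 / 2) : ℂ)‖ = 1 / 2 := by simp
  rw [h3]
  calc 1 / 2 * ‖∑' k, t k z‖ ≤ 1 / 2 * (4 * (1 / ‖2 * z + 1‖ ^ 2)) := by gcongr
    _ = _ := by ring

/-- shift relation -/
lemma t_shift {z : ℂ} (hz : 1 ≤ z.re) (k : ℕ) :
    t k z = t k (z - 1) * ((z + 2 * k) / z * ((2 * z - 1) / (2 * z + 2 * k + 1)) ^ 2) := by
  have hz0 : z ≠ 0 := by
    intro h; rw [h] at hz; simp at hz; linarith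
  have hz1 : 2 * z - 1 ≠ 0 := by
    intro h
    have := congrArg Complex.re h
    simp at this; linarith
  induction k with
  | zero =>
    simp only [t, Nat.cast_zero, mul_zero, add_zero]
    have h1 : 2 * z + 1 ≠ 0 := by simpa using den_ne (by linarith : 0 ≤ z.re) 0
    have h2 : 2 * (z - 1) + 1 ≠ 0 := by
      rw [show 2 * (z - 1) + 1 = 2 * z - 1 by ring]; exact hz1
    rw [show 2 * (z - 1) + 1 = 2 * z - 1 by ring]
    field_simp
  | succ k ih =>
    simp only [t]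
    rw [ih]
    have h1 : 2 * z + 2 * k + 1 ≠ 0 := den_ne (by linarith) k
    have h3 : 2 * z + 2 * k + 3 ≠ 0 := by
      have := den_ne (by linarith : 0 ≤ z.re) (k + 1)
      push_cast at this
      intro h; apply this; linear_combination h
    have e1 : 2 * (z - 1) + 2 * (k : ℂ) + 3 = 2 * z + 2 * k + 1 := by ring
    have e2 : z - 1 + 2 * (k : ℂ) + 1 = z + 2 * k := by ring
    have e3 : z - 1 + 2 * (k : ℂ) + 2 = z + 2 * k + 1 := by ring
    rw [e1, e2, e3]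
    push_cast
    have e4 : 2 * z + 2 * ((k : ℂ) + 1) + 1 = 2 * z + 2 * k + 3 := by ring
    rw [e4]
    field_simp
    ring

/-- WZ certificate -/
noncomputable def Gc (z : ℂ) (k : ℕ) : ℂ := (1 - 3 * z - 2 * k) * (2 * z - 1) ^ 2 * t k (z - 1)

lemma wz {z : ℂ} (hz : 1 ≤ z.re) (k : ℕ) :
    z ^ 3 * t k z + (2 * z - 1) ^ 3 * t k (z - 1) = Gc z (k + 1) - Gc z k := by
  have hz0 : z ≠ 0 := by
    intro h; rw [h] at hz; simp at hz; linarith
  have h1 : 2 * z + 2 * k + 1 ≠ 0 := den_ne (by linarith) k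
  unfold Gc
  rw [t_shift hz]
  simp only [t]
  have e1 : 2 * (z - 1) + 2 * (k : ℂ) + 3 = 2 * z + 2 * k + 1 := by ring
  have e2 : z - 1 + 2 * (k : ℂ) + 1 = z + 2 * k := by ring
  have e3 : z - 1 + 2 * (k : ℂ) + 2 = z + 2 * k + 1 := by ring
  rw [e1, e2, e3]
  push_cast
  generalize t k (z - 1) = T
  have a1 : z ^ 3 * (T * ((z + 2 * k) / z * ((2 * z - 1) / (2 * z + 2 * k + 1)) ^ 2))
      = z ^ 2 * (2 * z - 1) ^ 2 * T * (z + 2 * k) / (2 * z + 2 * k + 1) ^ 2 := by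
    field_simp
  have a2 : (1 - 3 * z - 2 * ((k : ℂ) + 1)) * (2 * z - 1) ^ 2 *
      (T * ((z + 2 * k) * (z + 2 * k + 1) / (2 * z + 2 * k + 1) ^ 2))
      = (1 - 3 * z - 2 * ((k : ℂ) + 1)) * (2 * z - 1) ^ 2 * T * (z + 2 * k) * (z + 2 * k + 1)
        / (2 * z + 2 * k + 1) ^ 2 := by
    ring
  rw [a1, a2, ← sub_eq_zero]
  have h2 : (2 * z + 2 * (k : ℂ) + 1) ^ 2 ≠ 0 := pow_ne_zero 2 h1
  rw [show z ^ 2 * (2 * z - 1) ^ 2 * T * (z + 2 * k) / (2 * z + 2 * k + 1) ^ 2 + (2 * z - 1) ^ 3 * T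
      - ((1 - 3 * z - 2 * ((k : ℂ) + 1)) * (2 * z - 1) ^ 2 * T * (z + 2 * k) * (z + 2 * k + 1)
        / (2 * z + 2 * k + 1) ^ 2 - (1 - 3 * z - 2 * k) * (2 * z - 1) ^ 2 * T)
      = (z ^ 2 * (2 * z - 1) ^ 2 * T * (z + 2 * k) - (1 - 3 * z - 2 * ((k : ℂ) + 1)) * (2 * z - 1) ^ 2 * T * (z + 2 * k) * (z + 2 * k + 1))
        / (2 * z + 2 * k + 1) ^ 2 + ((2 * z - 1) ^ 3 * T + (1 - 3 * z - 2 * k) * (2 * z - 1) ^ 2 * T) by ring]
  rw [show z ^ 2 * (2 * z - 1) ^ 2 * T * (z + 2 * k) - (1 - 3 * z - 2 * ((k : ℂ) + 1)) * (2 * z - 1) ^ 2 * T * (z + 2 * k) * (z + 2 * k + 1)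
      = (2 * z - 1) ^ 2 * T * (z + 2 * k) * (2 * z + 2 * k + 1) ^ 2 by ring]
  rw [mul_div_assoc, div_self h2]
  ring

lemma Gc_tendsto {z : ℂ} (hz : 1 ≤ z.re) : Tendsto (Gc z) atTop (𝓝 0) := by
  have hb : ∀ k : ℕ, ‖Gc z k‖ ≤ (‖(2 * z - 1) ^ 2‖ * (1 / ‖2 * (z - 1) + 1‖ ^ 2) * (‖1 - 3 * z‖ + 2)) *
      (((k : ℝ) + 1) * u k) := by
    intro k
    unfold Gc
    rw [norm_mul, norm_mul]
    have h1 : ‖1 - 3 * z - 2 * (k : ℂ)‖ ≤ (‖1 - 3 * z‖ + 2) * ((k : ℝ) + 1) := by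
      have h2 : ‖1 - 3 * z - 2 * (k : ℂ)‖ ≤ ‖1 - 3 * z‖ + 2 * k := by
        refine (norm_sub_le _ _).trans ?_
        simp
      have hk : (0 : ℝ) ≤ k := Nat.cast_nonneg k
      nlinarith [norm_nonneg (1 - 3 * z)]
    have h3 := norm_t_le (z := z - 1) (by simp; linarith) k
    have hu := (u_pos k).le
    calc ‖1 - 3 * z - 2 * (k : ℂ)‖ * ‖(2 * z - 1) ^ 2‖ * ‖t k (z - 1)‖
        ≤ ((‖1 - 3 * z‖ + 2) * ((k : ℝ) + 1)) * ‖(2 * z - 1) ^ 2‖ * (u k * (1 / ‖2 * (z - 1) + 1‖ ^ 2)) := by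
          gcongr
      _ = _ := by ring
  rw [tendsto_zero_iff_norm_tendsto_zero]
  refine squeeze_zero (fun k => norm_nonneg _) hb ?_
  have h := mul_u_tendsto.const_mul
    (‖(2 * z - 1) ^ 2‖ * (1 / ‖2 * (z - 1) + 1‖ ^ 2) * (‖1 - 3 * z‖ + 2))
  rwa [mul_zero] at h

theorem psi6_rec {z : ℂ} (hz : 1 ≤ z.re) :
    z ^ 3 * psi6 z + (2 * z - 1) ^ 3 * psi6 (z - 1) = -(3 * z - 1) / 2 := by
  have hz1 : 0 ≤ (z - 1).re := by simp; linarith
  have hz0 : 0 ≤ z.re := by linarith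
  have h1 := ((summable_t hz0).hasSum.mul_left (z ^ 3)).add
    ((summable_t hz1).hasSum.mul_left ((2 * z - 1) ^ 3))
  have h2 : ∀ n, ∑ k ∈ range n, (z ^ 3 * t k z + (2 * z - 1) ^ 3 * t k (z - 1)) = Gc z n - Gc z 0 := by
    intro n
    induction n with
    | zero => simp
    | succ n ih => rw [sum_range_succ, ih, wz hz]; ring
  have h3 := h1.tendsto_sum_nat
  simp only [h2] at h3
  have h4 := (Gc_tendsto hz).sub_const (Gc z 0)
  have h5 := tendsto_nhds_unique h3 h4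
  have h6 : Gc z 0 = 1 - 3 * z := by
    unfold Gc
    simp only [t, Nat.cast_zero, mul_zero, sub_zero]
    have : 2 * z - 1 ≠ 0 := by
      intro h
      have := congrArg Complex.re h
      simp at this; linarith
    rw [show 2 * (z - 1) + 1 = 2 * z - 1 by ring]
    rw [mul_assoc, mul_one_div_cancel (pow_ne_zero 2 this), mul_one]
  rw [h6] at h5
  unfold psi6
  linear_combination -(1 / 2) * h5

/-! ### decay and uniqueness -/

lemma psi6_tendsto {z : ℂ} (hz : 0 ≤ z.re) : Tendsto (fun n : ℕ => psi6 (z + n)) atTop (𝓝 0) := by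
  rw [tendsto_zero_iff_norm_tendsto_zero]
  refine squeeze_zero (g := fun n : ℕ => 2 * (1 / ((n : ℝ) + 1))) (fun n => norm_nonneg _) (fun n => ?_) ?_
  · have hn : (0 : ℝ) ≤ n := Nat.cast_nonneg n
    have hz' : 0 ≤ (z + n).re := by simp; linarith
    refine (psi6_bound hz').trans ?_
    have h1 : ((n : ℝ) + 1) ≤ ‖2 * (z + n) + 1‖ := by
      refine le_trans ?_ (Complex.re_le_norm _)
      simp
      linarith
    have h2 : ((n : ℝ) + 1) ≤ ‖2 * (z + n) + 1‖ ^ 2 := by nlinarith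
    have h3 : (0 : ℝ) < (n : ℝ) + 1 := by positivity
    rw [mul_one_div]
    exact div_le_div_of_nonneg_left (by norm_num) h3 h2
  · have := (tendsto_one_div_add_atTop_nhds_zero_nat (𝕜 := ℝ)).const_mul 2
    rwa [mul_zero] at this

/-- uniqueness of the decaying solution of the recurrence on `Re z ≥ 0` -/
theorem psi6_unique {f : ℂ → ℂ}
    (hrec : ∀ z : ℂ, 1 ≤ z.re → z ^ 3 * f z + (2 * z - 1) ^ 3 * f (z - 1) = -(3 * z - 1) / 2)
    (hlim : ∀ z : ℂ, 0 ≤ z.re → Tendsto (fun n : ℕ => f (z + n)) atTop (𝓝 0)) {z : ℂ} (hz : 0 ≤ z.re) :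
    f z = psi6 z := by
  have step : ∀ w : ℂ, 0 ≤ w.re → ‖f w - psi6 w‖ ≤ ‖f (w + 1) - psi6 (w + 1)‖ := by
    intro w hw
    have h1 : 1 ≤ (w + 1).re := by simp; linarith
    have h2 := hrec (w + 1) h1
    have h3 := psi6_rec h1
    have e : 2 * (w + 1) - 1 = 2 * w + 1 := by ring
    rw [add_sub_cancel_right, e] at h2 h3
    have h4 : (2 * w + 1) ^ 3 * (f w - psi6 w) = -((w + 1) ^ 3 * (f (w + 1) - psi6 (w + 1))) := by
      linear_combination h2 - h3
    have h5 := congrArg norm h4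
    rw [norm_neg, norm_mul, norm_mul, norm_pow, norm_pow] at h5
    have h6 : ‖w + 1‖ ≤ ‖2 * w + 1‖ := by
      rw [← sq_le_sq₀ (norm_nonneg _) (norm_nonneg _), ← Complex.normSq_eq_norm_sq,
        ← Complex.normSq_eq_norm_sq, Complex.normSq_apply, Complex.normSq_apply]
      simp
      nlinarith [sq_nonneg w.im]
    have h7 : 0 < ‖2 * w + 1‖ := by
      rw [norm_pos_iff]
      simpa using den_ne hw 0
    have h8 : ‖w + 1‖ ^ 3 ≤ ‖2 * w + 1‖ ^ 3 := pow_le_pow_left₀ (norm_nonneg _) h6 3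
    have h9 : ‖2 * w + 1‖ ^ 3 * ‖f w - psi6 w‖ ≤ ‖2 * w + 1‖ ^ 3 * ‖f (w + 1) - psi6 (w + 1)‖ := by
      rw [h5]
      exact mul_le_mul_of_nonneg_right h8 (norm_nonneg _)
    exact le_of_mul_le_mul_left h9 (by positivity)
  have iter : ∀ n : ℕ, ‖f z - psi6 z‖ ≤ ‖f (z + n) - psi6 (z + n)‖ := by
    intro n
    induction n with
    | zero => simp
    | succ n ih =>
      refine ih.trans ?_
      have h1 : 0 ≤ (z + n).re := by
        have : (0 : ℝ) ≤ n := Nat.cast_nonneg n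
        simp; linarith
      have h2 := step _ h1
      rwa [show z + (n : ℂ) + 1 = z + ((n + 1 : ℕ) : ℂ) by push_cast; ring] at h2
  have h1 : Tendsto (fun n : ℕ => ‖f (z + n) - psi6 (z + n)‖) atTop (𝓝 0) := by
    have := ((hlim z hz).sub (psi6_tendsto hz)).norm
    simpa using this
  have h2 : ‖f z - psi6 z‖ ≤ 0 := ge_of_tendsto' h1 iter
  have h3 : f z - psi6 z = 0 := norm_le_zero_iff.mp h2
  exact sub_eq_zero.mp h3

/-! ### Gauss summation in a small range -/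

/-- terms of `2F1(a,b;c;1)` -/
noncomputable def g (a b c : ℂ) : ℕ → ℂ
  | 0 => 1
  | k + 1 => g a b c k * ((a + k) * (b + k) / ((1 + k) * (c + k)))

lemma norm_add_le' {a : ℂ} (ha : ‖a‖ ≤ 9 / 32) (k : ℕ) : ‖a + k‖ ≤ k + 9 / 32 := by
  refine (norm_add_le _ _).trans ?_
  rw [Complex.norm_natCast]
  linarith

lemma le_norm_add {c : ℂ} (hc : 7 / 8 ≤ c.re) (k : ℕ) : (k : ℝ) + 7 / 8 ≤ ‖c + k‖ := by
  refine le_trans ?_ (Complex.re_le_norm _)
  simp
  linarith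

lemma ratio_g {a b c : ℂ} (ha : ‖a‖ ≤ 9 / 32) (hb : ‖b‖ ≤ 9 / 32) (hc : 7 / 8 ≤ c.re) (k : ℕ) :
    ‖(a + k) * (b + k) / ((1 + k) * (c + k))‖ ≤ (4 * k + 3) / (4 * k + 8) := by
  have hk : (0 : ℝ) ≤ k := Nat.cast_nonneg k
  rw [norm_div, norm_mul, norm_mul]
  have h1 := norm_add_le' ha k
  have h2 := norm_add_le' hb k
  have h3 := le_norm_add hc k
  have h4 : ‖(1 : ℂ) + k‖ = k + 1 := by
    rw [show (1 : ℂ) + k = (((k : ℝ) + 1 : ℝ) : ℂ) by push_cast; ring, Complex.norm_real,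
      Real.norm_eq_abs, abs_of_nonneg (by positivity)]
  rw [h4]
  have h5 : 0 < (k : ℝ) + 7 / 8 := by positivity
  have h6 : 0 < ‖c + k‖ := lt_of_lt_of_le h5 h3
  rw [div_le_div_iff₀ (by positivity) (by positivity)]
  calc ‖a + k‖ * ‖b + k‖ * (4 * (k : ℝ) + 8) ≤ ((k + 9 / 32) * (k + 9 / 32)) * (4 * (k : ℝ) + 8) := by
        gcongr
    _ ≤ (4 * (k : ℝ) + 3) * ((k + 1) * (k + 7 / 8)) := by nlinarith [mul_nonneg hk hk, mul_nonneg (mul_nonneg hk hk) hk]
    _ ≤ (4 * (k : ℝ) + 3) * ((k + 1) * ‖c + k‖) := by gcongr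

lemma norm_g_le {a b c : ℂ} (ha : ‖a‖ ≤ 9 / 32) (hb : ‖b‖ ≤ 9 / 32) (hc : 7 / 8 ≤ c.re) (k : ℕ) :
    ‖g a b c k‖ ≤ u k := by
  induction k with
  | zero => simp [g, u]
  | succ k ih =>
    simp only [g, u]
    rw [norm_mul]
    exact mul_le_mul ih (ratio_g ha hb hc k) (norm_nonneg _) (u_pos k).le

lemma summable_g {a b c : ℂ} (ha : ‖a‖ ≤ 9 / 32) (hb : ‖b‖ ≤ 9 / 32) (hc : 7 / 8 ≤ c.re) :
    Summable (g a b c) :=
  Summable.of_norm_bounded hasSum_u.summable (norm_g_le ha hb hc)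

lemma c_ne {c : ℂ} (hc : 0 < c.re) (k : ℕ) : c + k ≠ 0 := by
  intro h
  have := congrArg Complex.re h
  simp at this
  have hk : (0 : ℝ) ≤ k := Nat.cast_nonneg k
  linarith

lemma g_shift {a b c : ℂ} (hc : 0 < c.re) (k : ℕ) : g a b (c + 1) k = g a b c k * (c / (c + k)) := by
  have hc0 : c ≠ 0 := by simpa using c_ne hc 0
  induction k with
  | zero => simp [g, hc0]
  | succ k ih =>
    simp only [g]
    rw [ih]
    have h1 := c_ne hc k
    have h2 := c_ne hc (k + 1)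
    push_cast at h2
    have h3 : (1 : ℂ) + k ≠ 0 := by
      have := c_ne (c := 1) (by norm_num) k
      exact this
    push_cast
    rw [show c + 1 + (k : ℂ) = c + (k + 1) by ring]
    field_simp

lemma gauss_tele {a b c : ℂ} (hc : 0 < c.re) (k : ℕ) :
    c * (c - a - b) * g a b c k - (c - a) * (c - b) * g a b (c + 1) k
      = (-(c * ((k + 1 : ℕ) : ℂ) * g a b c (k + 1))) - (-(c * (k : ℂ) * g a b c k)) := by
  rw [g_shift hc]
  simp only [g]
  have h1 := c_ne hc k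
  have h3 : (1 : ℂ) + k ≠ 0 := c_ne (c := 1) (by norm_num) k
  push_cast
  rw [show (k : ℂ) + 1 = 1 + k by ring]
  field_simp
  ring

lemma gauss_step {a b c : ℂ} (ha : ‖a‖ ≤ 9 / 32) (hb : ‖b‖ ≤ 9 / 32) (hc : 7 / 8 ≤ c.re) :
    c * (c - a - b) * ∑' k, g a b c k = (c - a) * (c - b) * ∑' k, g a b (c + 1) k := by
  have hc0 : 0 < c.re := by linarith
  have hc1 : 7 / 8 ≤ (c + 1).re := by simp; linarith
  have h1 := ((summable_g ha hb hc).hasSum.mul_left (c * (c - a - b))).sub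
    ((summable_g ha hb hc1).hasSum.mul_left ((c - a) * (c - b)))
  have h2 : ∀ n, ∑ k ∈ range n, (c * (c - a - b) * g a b c k - (c - a) * (c - b) * g a b (c + 1) k)
      = -(c * (n : ℂ) * g a b c n) := by
    intro n
    induction n with
    | zero => simp
    | succ n ih => rw [sum_range_succ, ih, gauss_tele hc0]; ring
  have h3 := h1.tendsto_sum_nat
  simp only [h2] at h3
  have h4 : Tendsto (fun n : ℕ => -(c * (n : ℂ) * g a b c n)) atTop (𝓝 0) := by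
    rw [tendsto_zero_iff_norm_tendsto_zero]
    refine squeeze_zero (g := fun n : ℕ => ‖c‖ * (((n : ℝ) + 1) * u n)) (fun n => norm_nonneg _)
      (fun n => ?_) ?_
    · rw [norm_neg, norm_mul, norm_mul, Complex.norm_natCast, mul_assoc]
      have := norm_g_le ha hb hc n
      have hn : (0 : ℝ) ≤ n := Nat.cast_nonneg n
      gcongr
      linarith
    · have := mul_u_tendsto.const_mul ‖c‖
      rwa [mul_zero] at this
  have h5 := tendsto_nhds_unique h3 h4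
  exact sub_eq_zero.mp h5

lemma gauss_lim {a b c : ℂ} (ha : ‖a‖ ≤ 9 / 32) (hb : ‖b‖ ≤ 9 / 32) (hc : 7 / 8 ≤ c.re) :
    Tendsto (fun n : ℕ => ∑' k, g a b (c + n) k) atTop (𝓝 1) := by
  have h1 : (∑' k, if k = 0 then (1 : ℂ) else 0) = 1 := by
    rw [tsum_ite_eq]
  rw [← h1]
  have hcn : ∀ n : ℕ, 7 / 8 ≤ (c + n).re := by
    intro n
    have : (0 : ℝ) ≤ n := Nat.cast_nonneg n
    simp; linarith
  refine tendsto_tsum_of_dominated_convergence hasSum_u.summable (fun k => ?_)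
    (Eventually.of_forall fun n k => norm_g_le ha hb (hcn n) k)
  rcases k with _ | k
  · simp [g]
  · rw [if_neg (Nat.succ_ne_zero k), tendsto_zero_iff_norm_tendsto_zero]
    refine squeeze_zero (g := fun n : ℕ => (u k * ‖(a + k) * (b + k)‖) * (1 / ((n : ℝ) + 1)) * 2)
      (fun n => norm_nonneg _) (fun n => ?_) ?_
    · simp only [g]
      rw [norm_mul, norm_div, norm_mul (1 + (k : ℂ))]
      have h2 := norm_g_le ha hb (hcn n) k
      have h4 : 1 ≤ ‖(1 : ℂ) + k‖ := by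
        rw [show (1 : ℂ) + k = (((k : ℝ) + 1 : ℝ) : ℂ) by push_cast; ring, Complex.norm_real,
          Real.norm_eq_abs, abs_of_nonneg (by positivity)]
        have : (0 : ℝ) ≤ k := Nat.cast_nonneg k
        linarith
      have h5 : ((n : ℝ) + 1) / 2 ≤ ‖c + n + k‖ := by
        have h6 := le_norm_add (hcn n) k
        have h7 : (n : ℝ) + 7 / 8 ≤ ‖c + n + k‖ := by
          refine le_trans ?_ (Complex.re_le_norm _)
          have : (0 : ℝ) ≤ k := Nat.cast_nonneg k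
          simp; linarith
        have : (0 : ℝ) ≤ n := Nat.cast_nonneg n
        linarith
      have hn : (0 : ℝ) < (n : ℝ) + 1 := by positivity
      have h8 : ((n : ℝ) + 1) / 2 ≤ ‖(1 : ℂ) + k‖ * ‖c + n + k‖ := by nlinarith [norm_nonneg (c + n + k)]
      have h9 : ‖(a + k) * (b + k)‖ / (‖(1 : ℂ) + k‖ * ‖c + n + k‖) ≤
          ‖(a + k) * (b + k)‖ / (((n : ℝ) + 1) / 2) :=
        div_le_div_of_nonneg_left (norm_nonneg _) (by positivity) h8
      calc ‖g a b (c + n) k‖ * (‖(a + k) * (b + k)‖ / (‖(1 : ℂ) + k‖ * ‖c + n + k‖))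
          ≤ u k * (‖(a + k) * (b + k)‖ / (((n : ℝ) + 1) / 2)) := by
            apply mul_le_mul h2 h9 (by positivity) (u_pos k).le
        _ = _ := by field_simp
    · have := ((tendsto_one_div_add_atTop_nhds_zero_nat (𝕜 := ℝ)).const_mul
        (u k * ‖(a + k) * (b + k)‖)).mul_const 2
      rwa [mul_zero, zero_mul] at this

/-- finite product -/
noncomputable def P (a b c : ℂ) (n : ℕ) : ℂ :=
  ∏ j ∈ range n, ((c - a + j) * (c - b + j) / ((c + j) * (c - a - b + j)))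

lemma re_bounds {a b c : ℂ} (ha : ‖a‖ ≤ 9 / 32) (hb : ‖b‖ ≤ 9 / 32) (hc : 7 / 8 ≤ c.re) :
    0 < (c - a).re ∧ 0 < (c - b).re ∧ 0 < (c - a - b).re := by
  have h1 := (Complex.abs_re_le_norm a).trans ha
  have h2 := (Complex.abs_re_le_norm b).trans hb
  rw [abs_le] at h1 h2
  refine ⟨?_, ?_, ?_⟩ <;> simp <;> linarith

lemma gauss_iter {a b c : ℂ} (ha : ‖a‖ ≤ 9 / 32) (hb : ‖b‖ ≤ 9 / 32) (hc : 7 / 8 ≤ c.re) (n : ℕ) :
    ∑' k, g a b c k = P a b c n * ∑' k, g a b (c + n) k := by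
  induction n with
  | zero => simp [P]
  | succ n ih =>
    rw [ih]
    have hn : (0 : ℝ) ≤ n := Nat.cast_nonneg n
    have hcn : 7 / 8 ≤ (c + n).re := by simp; linarith
    have h1 := gauss_step ha hb hcn
    have h2 := re_bounds ha hb hc
    have h3 : c + n ≠ 0 := c_ne (by linarith) n
    have h4 : c - a - b + n ≠ 0 := c_ne h2.2.2 n
    unfold P
    rw [prod_range_succ, mul_assoc]
    congr 1
    rw [show c + ((n + 1 : ℕ) : ℂ) = c + n + 1 by push_cast; ring]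
    rw [show c + n - a - b = c - a - b + n by ring, show c + n - a = c - a + n by ring,
      show c + n - b = c - b + n by ring] at h1
    rw [div_mul_eq_mul_div, eq_div_iff (mul_ne_zero h3 h4)]
    rw [← h1]
    ring

lemma P_tendsto {a b c : ℂ} (ha : ‖a‖ ≤ 9 / 32) (hb : ‖b‖ ≤ 9 / 32) (hc : 7 / 8 ≤ c.re) :
    Tendsto (P a b c) atTop
      (𝓝 (Complex.Gamma c * Complex.Gamma (c - a - b) / (Complex.Gamma (c - a) * Complex.Gamma (c - b)))) := by
  have h2 := re_bounds ha hb hc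
  have g1 := Complex.GammaSeq_tendsto_Gamma c
  have g2 := Complex.GammaSeq_tendsto_Gamma (c - a - b)
  have g3 := Complex.GammaSeq_tendsto_Gamma (c - a)
  have g4 := Complex.GammaSeq_tendsto_Gamma (c - b)
  have hne : Complex.Gamma (c - a) * Complex.Gamma (c - b) ≠ 0 :=
    mul_ne_zero (Complex.Gamma_ne_zero_of_re_pos h2.1) (Complex.Gamma_ne_zero_of_re_pos h2.2.1)
  have h3 := (g1.mul g2).div (g3.mul g4) hne
  rw [← tendsto_add_atTop_iff_nat 1]
  refine h3.congr' ?_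
  filter_upwards [eventually_ne_atTop 0] with n hn
  simp only [Pi.div_apply]
  unfold Complex.GammaSeq P
  have hn' : (n : ℂ) ≠ 0 := by exact_mod_cast hn
  rw [prod_div_distrib, prod_mul_distrib, prod_mul_distrib]
  have q1 : ∏ j ∈ range (n + 1), (c + (j : ℂ)) ≠ 0 := prod_ne_zero_iff.mpr fun j _ => c_ne (by linarith) j
  have q2 : ∏ j ∈ range (n + 1), (c - a - b + (j : ℂ)) ≠ 0 := prod_ne_zero_iff.mpr fun j _ => c_ne h2.2.2 j
  have q3 : ∏ j ∈ range (n + 1), (c - a + (j : ℂ)) ≠ 0 := prod_ne_zero_iff.mpr fun j _ => c_ne h2.1 j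
  have q4 : ∏ j ∈ range (n + 1), (c - b + (j : ℂ)) ≠ 0 := prod_ne_zero_iff.mpr fun j _ => c_ne h2.2.1 j
  have hf : (n.factorial : ℂ) ≠ 0 := by exact_mod_cast Nat.factorial_ne_zero n
  have e1 : (n : ℂ) ^ c * (n : ℂ) ^ (c - a - b) = (n : ℂ) ^ (c - a) * (n : ℂ) ^ (c - b) := by
    rw [← Complex.cpow_add _ _ hn', ← Complex.cpow_add _ _ hn']
    congr 1
    ring
  have r1 : (n : ℂ) ^ (c - a) ≠ 0 := by simp [Complex.cpow_eq_zero_iff, hn']
  have r2 : (n : ℂ) ^ (c - b) ≠ 0 := by simp [Complex.cpow_eq_zero_iff, hn']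
  rw [div_mul_div_comm, div_mul_div_comm, div_div_div_eq]
  rw [div_eq_div_iff (by positivity) (by positivity)]
  linear_combination (n.factorial : ℂ) ^ 2 * (∏ j ∈ range (n + 1), (c - a + (j : ℂ))) *
    (∏ j ∈ range (n + 1), (c - b + (j : ℂ))) * (∏ j ∈ range (n + 1), (c + (j : ℂ))) *
    (∏ j ∈ range (n + 1), (c - a - b + (j : ℂ))) * e1

theorem gauss {a b c : ℂ} (ha : ‖a‖ ≤ 9 / 32) (hb : ‖b‖ ≤ 9 / 32) (hc : 7 / 8 ≤ c.re) :
    ∑' k, g a b c k =
      Complex.Gamma c * Complex.Gamma (c - a - b) / (Complex.Gamma (c - a) * Complex.Gamma (c - b)) := by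
  have h1 := (P_tendsto ha hb hc).mul (gauss_lim ha hb hc)
  rw [mul_one] at h1
  have h2 : Tendsto (fun n : ℕ => ∑' k, g a b c k) atTop
      (𝓝 (Complex.Gamma c * Complex.Gamma (c - a - b) / (Complex.Gamma (c - a) * Complex.Gamma (c - b)))) :=
    h1.congr fun n => (gauss_iter ha hb hc n).symm
  exact tendsto_nhds_unique tendsto_const_nhds h2

/-! ### the value and the derivative at `1/2` -/

noncomputable def A (e : ℂ) : ℂ := -(1 / 4) + e / 2
noncomputable def B (e : ℂ) : ℂ := 1 / 4 + e / 2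

noncomputable def f (e : ℂ) : ℕ → ℂ
  | 0 => 1
  | k + 1 => f e k * ((A e + k) * (B e + k) / (1 + e + k) ^ 2)

lemma norm_A {e : ℂ} (he : ‖e‖ ≤ 1 / 16) : ‖A e‖ ≤ 9 / 32 := by
  unfold A
  refine (norm_add_le _ _).trans ?_
  rw [norm_div]
  have : ‖(-(1 / 4) : ℂ)‖ = 1 / 4 := by simp
  rw [this]
  simp
  linarith

lemma norm_B {e : ℂ} (he : ‖e‖ ≤ 1 / 16) : ‖B e‖ ≤ 9 / 32 := by
  unfold B
  refine (norm_add_le _ _).trans ?_
  have h1 : ‖(1 / 4 : ℂ)‖ = 1 / 4 := by simp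
  have h2 : ‖e / 2‖ = ‖e‖ / 2 := by rw [norm_div]; simp
  rw [h1, h2]
  linarith

lemma re_c {e : ℂ} (he : ‖e‖ ≤ 1 / 16) : 7 / 8 ≤ (1 + 2 * e).re := by
  have := (Complex.abs_re_le_norm e).trans he
  rw [abs_le] at this
  simp
  linarith

lemma le_norm_one_add {e : ℂ} (he : ‖e‖ ≤ 1 / 16) (k : ℕ) : (k : ℝ) + 15 / 16 ≤ ‖1 + e + k‖ := by
  have := (Complex.abs_re_le_norm e).trans he
  rw [abs_le] at this
  refine le_trans ?_ (Complex.re_le_norm _)
  simp
  linarith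

lemma norm_f_le {e : ℂ} (he : ‖e‖ ≤ 1 / 16) (k : ℕ) : ‖f e k‖ ≤ u k := by
  induction k with
  | zero => simp [f, u]
  | succ k ih =>
    simp only [f, u]
    rw [norm_mul]
    refine mul_le_mul ih ?_ (norm_nonneg _) (u_pos k).le
    have hk : (0 : ℝ) ≤ k := Nat.cast_nonneg k
    rw [norm_div, norm_mul, norm_pow]
    have h1 := norm_add_le' (norm_A he) k
    have h2 := norm_add_le' (norm_B he) k
    have h3 := le_norm_one_add he k
    have h5 : 0 < (k : ℝ) + 15 / 16 := by positivity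
    have h6 : 0 < ‖1 + e + k‖ := lt_of_lt_of_le h5 h3
    rw [div_le_div_iff₀ (by positivity) (by positivity)]
    calc ‖A e + k‖ * ‖B e + k‖ * (4 * (k : ℝ) + 8) ≤ ((k + 9 / 32) * (k + 9 / 32)) * (4 * (k : ℝ) + 8) := by
          gcongr
      _ ≤ (4 * (k : ℝ) + 3) * (k + 15 / 16) ^ 2 := by
          nlinarith [mul_nonneg hk hk, mul_nonneg (mul_nonneg hk hk) hk]
      _ ≤ (4 * (k : ℝ) + 3) * ‖1 + e + k‖ ^ 2 := by gcongr

lemma one_add_ne {e : ℂ} (he : ‖e‖ ≤ 1 / 16) (k : ℕ) : 1 + e + k ≠ 0 := by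
  rw [← norm_pos_iff]
  have := le_norm_one_add he k
  have hk : (0 : ℝ) ≤ k := Nat.cast_nonneg k
  linarith

lemma f_succ_eq {e : ℂ} (he : ‖e‖ ≤ 1 / 16) (k : ℕ) :
    f e (k + 1) = (4 * e ^ 2 - 1) / 4 * t k (1 / 2 + e) := by
  induction k with
  | zero =>
    have h := one_add_ne he 0
    simp only [Nat.cast_zero, add_zero] at h
    simp only [f, t, A, B, Nat.cast_zero, add_zero, one_mul]
    rw [show 2 * (1 / 2 + e) + 1 = 2 * (1 + e) by ring]
    field_simp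
    ring
  | succ k ih =>
    rw [f, ih]
    simp only [t]
    have h := one_add_ne he (k + 1)
    push_cast at h
    unfold A B
    push_cast
    rw [show 2 * (1 / 2 + e) + 2 * (k : ℂ) + 3 = 2 * (1 + e + (k + 1)) by ring]
    field_simp
    ring

noncomputable def S (e : ℂ) : ℂ := ∑' k, f e k

lemma psi6_half {e : ℂ} (he : ‖e‖ ≤ 1 / 16) :
    psi6 (1 / 2 + e) = 2 / (1 - 4 * e ^ 2) * (S e - 1) := by
  have hs : Summable (f e) := Summable.of_norm_bounded hasSum_u.summable (norm_f_le he)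
  have h1 : S e = 1 + ∑' k, f e (k + 1) := by
    unfold S
    rw [hs.tsum_eq_zero_add]
    simp [f]
  have h2 : ∑' k, f e (k + 1) = (4 * e ^ 2 - 1) / 4 * ∑' k, t k (1 / 2 + e) := by
    rw [← tsum_mul_left]
    exact tsum_congr fun k => f_succ_eq he k
  have h3 : 1 - 4 * e ^ 2 ≠ 0 := by
    intro h
    have h4 : e ^ 2 = 1 / 4 := by linear_combination -h / 4
    have h5 := congrArg norm h4
    rw [norm_pow] at h5
    have h6 : ‖(1 / 4 : ℂ)‖ = 1 / 4 := by simp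
    rw [h6] at h5
    nlinarith [norm_nonneg e]
  unfold psi6
  rw [h1, h2, div_mul_eq_mul_div, eq_div_iff h3]
  ring

noncomputable def Phi (e : ℂ) : ℂ := ∑' k, g (A e) (B e) (1 + 2 * e) k

lemma deriv_pair (k : ℕ) : ∃ d : ℂ, HasDerivAt (fun e => f e k) d 0 ∧
    HasDerivAt (fun e => g (A e) (B e) (1 + 2 * e) k) d 0 ∧
    f 0 k = g (A 0) (B 0) (1 + 2 * 0) k := by
  induction k with
  | zero => exact ⟨0, by simpa [f] using hasDerivAt_const (0 : ℂ) (1 : ℂ),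
      by simpa [g] using hasDerivAt_const (0 : ℂ) (1 : ℂ), by simp [f, g]⟩
  | succ k ih =>
    obtain ⟨d, h1, h2, h3⟩ := ih
    have hk : (1 : ℂ) + k ≠ 0 := c_ne (c := 1) (by norm_num) k
    have hA : HasDerivAt (fun e : ℂ => A e + k) (1 / 2) 0 := by
      unfold A
      simpa using (((hasDerivAt_id (0 : ℂ)).div_const 2).const_add (-(1 / 4))).add_const (k : ℂ)
    have hB : HasDerivAt (fun e : ℂ => B e + k) (1 / 2) 0 := by
      unfold B
      simpa using (((hasDerivAt_id (0 : ℂ)).div_const 2).const_add (1 / 4)).add_const (k : ℂ)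
    have hN := hA.mul hB
    have hD1 : HasDerivAt (fun e : ℂ => (1 + e + (k : ℂ)) ^ 2) (2 * (1 + (k : ℂ))) 0 := by
      have := (((hasDerivAt_id (0 : ℂ)).const_add 1).add_const (k : ℂ)).pow 2
      exact this.congr_deriv (by simp)
    have hD2 : HasDerivAt (fun e : ℂ => (1 + (k : ℂ)) * (1 + 2 * e + k)) (2 * (1 + (k : ℂ))) 0 := by
      have := ((((hasDerivAt_id (0 : ℂ)).const_mul 2).const_add 1).add_const (k : ℂ)).const_mul (1 + (k : ℂ))
      refine this.congr_deriv ?_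
      ring
    have hr := hN.div hD1 (by simpa using pow_ne_zero 2 hk)
    have hs := hN.div hD2 (by simpa using mul_ne_zero hk hk)
    have e0 : (1 + (0 : ℂ) + k) ^ 2 = (1 + (k : ℂ)) * (1 + 2 * 0 + k) := by ring
    refine ⟨_, (h1.mul hr), ?_, ?_⟩
    · refine (h2.mul hs).congr_deriv ?_
      simp only [Pi.mul_apply, Pi.div_apply]
      rw [h3, e0]
    · simp only [f, g]
      rw [h3, e0]

lemma differentiableOn_f (k : ℕ) :
    DifferentiableOn ℂ (fun e => f e k) (Metric.ball 0 (1 / 16)) := by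
  induction k with
  | zero => simp [f]
  | succ k ih =>
    simp only [f]
    refine ih.mul ?_
    refine DifferentiableOn.div ?_ ?_ ?_
    · unfold A B; fun_prop
    · fun_prop
    · intro e he
      exact pow_ne_zero 2 (one_add_ne (by simpa using (mem_ball_zero_iff.mp he).le) k)

lemma differentiableOn_g (k : ℕ) :
    DifferentiableOn ℂ (fun e => g (A e) (B e) (1 + 2 * e) k) (Metric.ball 0 (1 / 16)) := by
  induction k with
  | zero => simp [g]
  | succ k ih =>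
    simp only [g]
    refine ih.mul ?_
    refine DifferentiableOn.div ?_ ?_ ?_
    · unfold A B; fun_prop
    · fun_prop
    · intro e he
      have he' : ‖e‖ ≤ 1 / 16 := by simpa using (mem_ball_zero_iff.mp he).le
      have h1 := re_c he'
      exact mul_ne_zero (c_ne (c := 1) (by norm_num) k) (c_ne (by linarith) k)

lemma S_Phi : ∃ d : ℂ, HasDerivAt S d 0 ∧ HasDerivAt Phi d 0 ∧ S 0 = Phi 0 := by
  have hU : IsOpen (Metric.ball (0 : ℂ) (1 / 16)) := Metric.isOpen_ball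
  have h0 : (0 : ℂ) ∈ Metric.ball (0 : ℂ) (1 / 16) := by simp
  have hnb : Metric.ball (0 : ℂ) (1 / 16) ∈ 𝓝 (0 : ℂ) := hU.mem_nhds h0
  have bf : ∀ (k : ℕ) (w : ℂ), w ∈ Metric.ball (0 : ℂ) (1 / 16) → ‖f w k‖ ≤ u k := by
    intro k w hw
    exact norm_f_le (by simpa using (mem_ball_zero_iff.mp hw).le) k
  have bg : ∀ (k : ℕ) (w : ℂ), w ∈ Metric.ball (0 : ℂ) (1 / 16) →
      ‖g (A w) (B w) (1 + 2 * w) k‖ ≤ u k := by
    intro k w hw
    have he : ‖w‖ ≤ 1 / 16 := by simpa using (mem_ball_zero_iff.mp hw).le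
    exact norm_g_le (norm_A he) (norm_B he) (re_c he) k
  have d1 := (differentiableOn_tsum_of_summable_norm hasSum_u.summable differentiableOn_f hU bf).differentiableAt hnb
  have d2 := (differentiableOn_tsum_of_summable_norm hasSum_u.summable differentiableOn_g hU bg).differentiableAt hnb
  have s1 := hasSum_deriv_of_summable_norm hasSum_u.summable differentiableOn_f hU bf h0
  have s2 := hasSum_deriv_of_summable_norm hasSum_u.summable differentiableOn_g hU bg h0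
  have e1 : ∀ k, deriv (fun e => f e k) 0 = deriv (fun e => g (A e) (B e) (1 + 2 * e) k) 0 := by
    intro k
    obtain ⟨d, h1, h2, _⟩ := deriv_pair k
    rw [h1.deriv, h2.deriv]
  simp only [e1] at s1
  have e2 := s1.unique s2
  refine ⟨_, d1.hasDerivAt, ?_, ?_⟩
  · have h3 := d2.hasDerivAt
    rw [← e2] at h3
    exact h3
  · unfold S Phi
    exact tsum_congr fun k => by
      obtain ⟨d, _, _, h3⟩ := deriv_pair k
      exact h3

/-- `h0 z = 8^z (Γ(z+1/2)/Γ(z+1))^3` -/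
noncomputable def h0 (z : ℂ) : ℂ :=
  (8 : ℂ) ^ z * (Complex.Gamma (z + 1 / 2) / Complex.Gamma (z + 1)) ^ 3

lemma Phi_eq {e : ℂ} (he : ‖e‖ ≤ 1 / 16) :
    Phi e = Complex.Gamma (1 + 2 * e) * Complex.Gamma (1 + e) /
      (Complex.Gamma (3 / 2 + 3 * e) * (2 : ℂ) ^ (-(1 / 2) - 3 * e) * ((√π : ℝ) : ℂ)) := by
  unfold Phi
  rw [gauss (norm_A he) (norm_B he) (re_c he)]
  have h := Complex.Gamma_mul_Gamma_add_half (3 / 4 + 3 * e / 2)
  have e1 : 1 + 2 * e - A e = 3 / 4 + 3 * e / 2 + 1 / 2 := by unfold A; ring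
  have e2 : 1 + 2 * e - B e = 3 / 4 + 3 * e / 2 := by unfold B; ring
  have e3 : 1 + 2 * e - A e - B e = 1 + e := by unfold A B; ring
  rw [e3, e1, e2, mul_comm (Complex.Gamma (3 / 4 + 3 * e / 2 + 1 / 2)), h]
  rw [show 2 * (3 / 4 + 3 * e / 2) = 3 / 2 + 3 * e by ring,
    show 1 - (3 / 2 + 3 * e) = -(1 / 2) - 3 * e by ring]

lemma cpow_eight (w : ℂ) : (8 : ℂ) ^ w = (2 : ℂ) ^ (3 * w) := by
  rw [Complex.cpow_def_of_ne_zero (by norm_num), Complex.cpow_def_of_ne_zero (by norm_num)]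
  congr 1
  have h8 : Complex.log 8 = ((Real.log 8 : ℝ) : ℂ) := by
    rw [Complex.ofReal_log (by norm_num)]; norm_num
  have h2 : Complex.log 2 = ((Real.log 2 : ℝ) : ℂ) := by
    rw [Complex.ofReal_log (by norm_num)]; norm_num
  rw [h8, h2, show (8 : ℝ) = 2 ^ 3 by norm_num, Real.log_pow]
  push_cast
  ring

lemma diff_Gamma {w : ℂ} (hw : 0 < w.re) : DifferentiableAt ℂ Complex.Gamma w := by
  refine Complex.differentiableAt_Gamma w fun m h => ?_
  rw [h] at hw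
  simp at hw
  have : (0 : ℝ) ≤ m := Nat.cast_nonneg m
  linarith

/-- the quotient `Phi / h0` in closed form -/
noncomputable def W (e : ℂ) : ℂ :=
  (1 / (2 * ((√π : ℝ) : ℂ))) * (Complex.Gamma (1 + 2 * e) * Complex.Gamma (3 / 2 + e) ^ 3 /
    (Complex.Gamma (1 + e) ^ 2 * Complex.Gamma (3 / 2 + 3 * e)))

lemma re_pos_of {e w : ℂ} (he : ‖e‖ ≤ 1 / 16) (x : ℝ) (hx : -3 ≤ x ∧ x ≤ 3) (y : ℝ) (hy : 1 ≤ y)
    (hw : w = y + x * e) : 0 < w.re := by
  have h1 := (Complex.abs_re_le_norm e).trans he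
  rw [abs_le] at h1
  rw [hw]
  simp
  obtain ⟨h2, h3⟩ := hx
  nlinarith

lemma Phi_div {e : ℂ} (he : ‖e‖ ≤ 1 / 16) : Phi e / h0 (1 / 2 + e) = W e := by
  rw [Phi_eq he]
  unfold h0 W
  rw [cpow_eight]
  have e1 : 1 / 2 + e + 1 / 2 = 1 + e := by ring
  have e2 : 1 / 2 + e + 1 = 3 / 2 + e := by ring
  rw [e1, e2]
  have p1 : 0 < (1 + e).re := re_pos_of he 1 (by norm_num) 1 (by norm_num) (by push_cast; ring)
  have p2 : 0 < (3 / 2 + e).re := re_pos_of he 1 (by norm_num) (3 / 2) (by norm_num) (by push_cast; ring)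
  have p3 : 0 < (3 / 2 + 3 * e).re := re_pos_of he 3 (by norm_num) (3 / 2) (by norm_num) (by push_cast; ring)
  have n1 := Complex.Gamma_ne_zero_of_re_pos p1
  have n2 := Complex.Gamma_ne_zero_of_re_pos p2
  have n3 := Complex.Gamma_ne_zero_of_re_pos p3
  have n4 : ((√π : ℝ) : ℂ) ≠ 0 := by
    have : (√π : ℝ) ≠ 0 := by positivity
    exact_mod_cast this
  have n5 : (2 : ℂ) ^ (-(1 / 2) - 3 * e) ≠ 0 := by simp [Complex.cpow_eq_zero_iff]
  have e3 : (2 : ℂ) ^ (3 * (1 / 2 + e)) = 2 / (2 : ℂ) ^ (-(1 / 2) - 3 * e) := by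
    rw [eq_div_iff n5, ← Complex.cpow_add _ _ (by norm_num)]
    rw [show 3 * (1 / 2 + e) + (-(1 / 2) - 3 * e) = 1 by ring, Complex.cpow_one]
  rw [e3]
  field_simp

lemma hasDerivAt_W : HasDerivAt W 0 0 := by
  have d1 := (diff_Gamma (w := 1) (by norm_num)).hasDerivAt
  have d3 := (diff_Gamma (w := 3 / 2) (by norm_num)).hasDerivAt
  set g1 := deriv Complex.Gamma 1
  set g3 := deriv Complex.Gamma (3 / 2)
  have G1 : Complex.Gamma 1 = 1 := Complex.Gamma_one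
  have n3 : Complex.Gamma (3 / 2) ≠ 0 := Complex.Gamma_ne_zero_of_re_pos (by norm_num)
  have l1 : HasDerivAt (fun e : ℂ => 1 + 2 * e) 2 0 := by
    simpa using ((hasDerivAt_id (0 : ℂ)).const_mul 2).const_add 1
  have l2 : HasDerivAt (fun e : ℂ => 3 / 2 + e) 1 0 := by
    simpa using (hasDerivAt_id (0 : ℂ)).const_add (3 / 2)
  have l3 : HasDerivAt (fun e : ℂ => 1 + e) 1 0 := by
    simpa using (hasDerivAt_id (0 : ℂ)).const_add 1
  have l4 : HasDerivAt (fun e : ℂ => 3 / 2 + 3 * e) 3 0 := by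
    simpa using ((hasDerivAt_id (0 : ℂ)).const_mul 3).const_add (3 / 2)
  have a1 : HasDerivAt (fun e : ℂ => Complex.Gamma (1 + 2 * e)) (g1 * 2) 0 :=
    HasDerivAt.comp (0 : ℂ) (h₂ := Complex.Gamma) (by simpa using d1) l1
  have a2 : HasDerivAt (fun e : ℂ => Complex.Gamma (3 / 2 + e)) (g3 * 1) 0 :=
    HasDerivAt.comp (0 : ℂ) (h₂ := Complex.Gamma) (by simpa using d3) l2
  have a3 : HasDerivAt (fun e : ℂ => Complex.Gamma (1 + e)) (g1 * 1) 0 :=
    HasDerivAt.comp (0 : ℂ) (h₂ := Complex.Gamma) (by simpa using d1) l3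
  have a4 : HasDerivAt (fun e : ℂ => Complex.Gamma (3 / 2 + 3 * e)) (g3 * 3) 0 :=
    HasDerivAt.comp (0 : ℂ) (h₂ := Complex.Gamma) (by simpa using d3) l4
  have N := a1.mul (a2.pow 3)
  have D := (a3.pow 2).mul a4
  have hD : (((fun e : ℂ => Complex.Gamma (1 + e)) ^ 2) * fun e : ℂ => Complex.Gamma (3 / 2 + 3 * e)) 0 ≠ 0 := by
    simp [n3]
  have Q := (N.div D hD).const_mul (1 / (2 * ((√π : ℝ) : ℂ)))
  refine Q.congr_deriv ?_
  simp only [Pi.mul_apply, Pi.pow_apply, mul_zero, add_zero, G1]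
  field_simp
  ring

theorem be_zero : HasDerivAt (fun z : ℂ => (psi6 z + (3 * z - 1) / (2 * z ^ 3)) / h0 z) 0 (1 / 2) := by
  obtain ⟨d, hS, hP, hSP⟩ := S_Phi
  -- the function `H e = h0 (1/2+e)`
  have hH : DifferentiableAt ℂ (fun e : ℂ => h0 (1 / 2 + e)) 0 := by
    unfold h0
    refine DifferentiableAt.mul ?_ (DifferentiableAt.pow (DifferentiableAt.div ?_ ?_ ?_) 3)
    · simp only [cpow_eight]
      exact (DifferentiableAt.const_cpow (by fun_prop) (Or.inl (by norm_num)))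
    · exact (DifferentiableAt.comp (0 : ℂ) (g := Complex.Gamma) (diff_Gamma (by norm_num)) (by fun_prop))
    · exact (DifferentiableAt.comp (0 : ℂ) (g := Complex.Gamma) (diff_Gamma (by norm_num)) (by fun_prop))
    · exact Complex.Gamma_ne_zero_of_re_pos (by norm_num)
  have hH0 : h0 (1 / 2 + 0) ≠ 0 := by
    unfold h0
    refine mul_ne_zero (by simp [Complex.cpow_eq_zero_iff]) (pow_ne_zero 3 (div_ne_zero ?_ ?_))
    · exact Complex.Gamma_ne_zero_of_re_pos (by norm_num)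
    · exact Complex.Gamma_ne_zero_of_re_pos (by norm_num)
  have hnb : Metric.ball (0 : ℂ) (1 / 16) ∈ 𝓝 (0 : ℂ) := Metric.isOpen_ball.mem_nhds (by simp)
  -- `Phi / H` has derivative zero
  have h1 : HasDerivAt (fun e : ℂ => Phi e / h0 (1 / 2 + e)) 0 0 := by
    refine hasDerivAt_W.congr_of_eventuallyEq ?_
    filter_upwards [hnb] with e he
    exact Phi_div (by simpa using (mem_ball_zero_iff.mp he).le)
  -- the remainder
  have h2 : HasDerivAt (fun e : ℂ => 2 / (1 - 4 * e ^ 2) * (S e - 1) + (3 * (1 / 2 + e) - 1) / (2 * (1 / 2 + e) ^ 3)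
      - 2 * Phi e) 0 0 := by
    have a1 : HasDerivAt (fun e : ℂ => 2 / (1 - 4 * e ^ 2)) 0 0 := by
      have b1 : HasDerivAt (fun e : ℂ => 1 - 4 * e ^ 2) 0 0 := by
        have := (((hasDerivAt_id (0 : ℂ)).pow 2).const_mul 4).const_sub 1
        simpa using this
      have b2 := (hasDerivAt_const (0 : ℂ) (2 : ℂ)).div b1 (by norm_num)
      exact b2.congr_deriv (by simp)
    have a2 : HasDerivAt (fun e : ℂ => (3 * (1 / 2 + e) - 1) / (2 * (1 / 2 + e) ^ 3)) 0 0 := by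
      have b0 : HasDerivAt (fun e : ℂ => 1 / 2 + e) 1 0 :=
        (hasDerivAt_id (0 : ℂ)).const_add (1 / 2)
      have b1 : HasDerivAt (fun e : ℂ => 3 * (1 / 2 + e) - 1) 3 0 := by
        simpa using (b0.const_mul 3).sub_const 1
      have b2 : HasDerivAt (fun e : ℂ => 2 * (1 / 2 + e) ^ 3) (3 / 2) 0 := by
        refine ((b0.pow 3).const_mul 2).congr_deriv ?_
        norm_num
      refine (b1.div b2 (by norm_num)).congr_deriv ?_
      norm_num
    refine (((a1.mul (hS.sub_const 1)).add a2).sub (hP.const_mul 2)).congr_deriv ?_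
    norm_num
  have h3 : HasDerivAt (fun e : ℂ => (2 / (1 - 4 * e ^ 2) * (S e - 1) + (3 * (1 / 2 + e) - 1) / (2 * (1 / 2 + e) ^ 3)
      - 2 * Phi e) / h0 (1 / 2 + e)) 0 0 := by
    refine (h2.div hH.hasDerivAt hH0).congr_deriv ?_
    have z0 : 2 / (1 - 4 * (0 : ℂ) ^ 2) * (S 0 - 1) + (3 * (1 / 2 + 0) - 1) / (2 * (1 / 2 + 0) ^ 3)
        - 2 * Phi 0 = 0 := by
      rw [hSP]; norm_num; ring
    rw [z0]
    simp
  have h4 : HasDerivAt (fun e : ℂ => (psi6 (1 / 2 + e) + (3 * (1 / 2 + e) - 1) / (2 * (1 / 2 + e) ^ 3)) / h0 (1 / 2 + e)) 0 0 := by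
    have h5 := (h1.const_mul 2).add h3
    have e0 : (2 : ℂ) * 0 + 0 = 0 := by ring
    rw [e0] at h5
    refine h5.congr_of_eventuallyEq ?_
    filter_upwards [hnb] with e he
    have he' : ‖e‖ ≤ 1 / 16 := by simpa using (mem_ball_zero_iff.mp he).le
    rw [psi6_half he']
    simp only [Pi.add_apply]
    ring
  have h5 := HasDerivAt.comp_sub_const (𝕜 := ℂ) (f := fun e : ℂ => (psi6 (1 / 2 + e) + (3 * (1 / 2 + e) - 1) / (2 * (1 / 2 + e) ^ 3)) / h0 (1 / 2 + e))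
    (f' := 0) (1 / 2) (1 / 2) (by simpa using h4)
  simpa using h5

lemma W_zero : W 0 = ((√π : ℝ) : ℂ) / 8 := by
  unfold W
  simp only [mul_zero, add_zero]
  have n3 : Complex.Gamma (3 / 2) ≠ 0 := Complex.Gamma_ne_zero_of_re_pos (by norm_num)
  have n4 : ((√π : ℝ) : ℂ) ≠ 0 := by
    have : (√π : ℝ) ≠ 0 := by positivity
    exact_mod_cast this
  have g3 : Complex.Gamma (3 / 2) = ((√π : ℝ) : ℂ) / 2 := by
    have h := Complex.Gamma_add_one (1 / 2) (by norm_num)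
    rw [show (1 / 2 + 1 : ℂ) = 3 / 2 by norm_num] at h
    rw [h, Complex.Gamma_one_half_eq]
    have hp : (π : ℂ) ^ (1 / 2 : ℂ) = ((√π : ℝ) : ℂ) := by
      rw [Real.sqrt_eq_rpow, Complex.ofReal_cpow Real.pi_pos.le]
      norm_num
    rw [hp]
    ring
  rw [Complex.Gamma_one, g3]
  field_simp
  ring

/-- value at `1/2`: `(psi6 (1/2) + 2) / h0 (1/2) = √π/4` -/
theorem be_value : (psi6 (1 / 2) + (3 * (1 / 2) - 1) / (2 * (1 / 2) ^ 3)) / h0 (1 / 2) = ((√π : ℝ) : ℂ) / 4 := by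
  obtain ⟨d, hS, hP, hSP⟩ := S_Phi
  have h1 := psi6_half (e := 0) (by norm_num)
  have h2 := Phi_div (e := 0) (by norm_num)
  rw [W_zero] at h2
  simp only [add_zero] at h1 h2
  rw [h1, hSP]
  have e1 : 2 / (1 - 4 * (0 : ℂ) ^ 2) * (Phi 0 - 1) + (3 * (1 / 2) - 1) / (2 * (1 / 2) ^ 3) = 2 * Phi 0 := by
    norm_num
    ring
  rw [e1, mul_div_assoc, h2]
  ring

/-- `psi6` is holomorphic on `Re z > 0` -/
theorem differentiableOn_psi6 : DifferentiableOn ℂ psi6 {z : ℂ | 0 < z.re} := by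
  have hU : IsOpen {z : ℂ | 0 < z.re} := isOpen_lt continuous_const Complex.continuous_re
  have ht : ∀ k, DifferentiableOn ℂ (t k) {z : ℂ | 0 < z.re} := by
    intro k
    induction k with
    | zero =>
      have e : t 0 = fun z : ℂ => 1 / (2 * z + 1) ^ 2 := by
        funext z; rfl
      rw [e]
      refine DifferentiableOn.div (by fun_prop) (by fun_prop) fun z hz => ?_
      have := den_ne (le_of_lt hz) 0
      simp only [Nat.cast_zero, mul_zero, add_zero] at this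
      exact pow_ne_zero 2 this
    | succ k ih =>
      have e : t (k + 1) = fun z => t k z * ((z + 2 * k + 1) * (z + 2 * k + 2) / (2 * z + 2 * k + 3) ^ 2) := by
        funext z; rfl
      rw [e]
      refine ih.mul (DifferentiableOn.div (by fun_prop) (by fun_prop) fun z hz => ?_)
      have := den_ne (le_of_lt hz) (k + 1)
      refine pow_ne_zero 2 fun h => this ?_
      push_cast
      linear_combination h
  have hb : ∀ (k : ℕ) (w : ℂ), w ∈ {z : ℂ | 0 < z.re} → ‖t k w‖ ≤ u k := by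
    intro k w hw
    have hw' : 0 < w.re := hw
    refine (norm_t_le hw'.le k).trans ?_
    have h1 : 1 ≤ ‖2 * w + 1‖ := by
      refine le_trans ?_ (Complex.re_le_norm _)
      simp
      linarith
    have h2 : 1 / ‖2 * w + 1‖ ^ 2 ≤ 1 := by
      rw [div_le_one (by positivity)]
      nlinarith
    have := (u_pos k).le
    nlinarith
  have h := differentiableOn_tsum_of_summable_norm hasSum_u.summable ht hU hb
  exact h.const_mul (-(1 / 2))

end Crest.Agent.R006.BeZero
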