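import Mathlib

/-!
# Row 6 (Catalan): the even symmetry of the jump function (`be = 0`), helper737

`S e = ∑_k (-1/8)^k (1+6(k+e)) ∏_{i<k} ((i+e+1/2)/(i+1+e))^3`,
`V e = 8^{-e} (Γ(e+1/2)/Γ(e+1))^3 S e`.  Theorem: `V' (0) = 0`.

Proof: a WZ pair gives `S e = 4 e ∑_j C_j(e)` (`e > 0`), Gauss' theorem sums the neighbour
`D_j(e)` of `C_j(e)`, with `(1-2e²) D_j ≤ C_j ≤ D_j`.
-/

set_option autoImplicit false

open Finset Filter Topology

namespace Crest.Agent.R006.BZ737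

noncomputable section

/-! ### the WZ pair -/

def C (e : ℝ) (J : ℕ) : ℝ := ∏ i ∈ range J, ((i + 1 / 4 + e / 2) * (i + 3 / 4 + e / 2) / (i + 1 + e) ^ 2)

def P (e : ℝ) (J k : ℕ) : ℝ :=
  ∏ i ∈ range k, ((i + e + 1 / 2 + 2 * J) * (i + e + 1 / 2) ^ 2 / ((i + 1 + e) * (i + e + 1 + J) ^ 2))

def f (e : ℝ) (J k : ℕ) : ℝ := C e J * (-1 / 8) ^ k * (1 + 4 * J + 6 * (k + e)) * P e J k

def g (e : ℝ) (J k : ℕ) : ℝ := C e J * (-1 / 8) ^ k * (4 * (k + e)) * P e J k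

lemma C_succ (e : ℝ) (J : ℕ) :
    C e (J + 1) = C e J * ((J + 1 / 4 + e / 2) * (J + 3 / 4 + e / 2) / (J + 1 + e) ^ 2) := by
  unfold C; rw [prod_range_succ]

lemma P_succ (e : ℝ) (J k : ℕ) : P e J (k + 1) = P e J k *
    ((k + e + 1 / 2 + 2 * J) * (k + e + 1 / 2) ^ 2 / ((k + 1 + e) * (k + e + 1 + J) ^ 2)) := by
  unfold P; rw [prod_range_succ]

lemma C_pos {e : ℝ} (he : 0 ≤ e) (J : ℕ) : 0 < C e J := by
  unfold C; apply prod_pos; intro i _; positivity

lemma P_pos {e : ℝ} (he : 0 ≤ e) (J k : ℕ) : 0 < P e J k := by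
  unfold P; apply prod_pos; intro i _; positivity

lemma P_shift {e : ℝ} (he : 0 ≤ e) (J k : ℕ) :
    P e (J + 1) k * ((e + 1 / 2 + 2 * J) * (e + 3 / 2 + 2 * J) * (k + e + 1 + J) ^ 2) =
    P e J k * ((k + e + 1 / 2 + 2 * J) * (k + e + 3 / 2 + 2 * J) * (e + 1 + J) ^ 2) := by
  induction k with
  | zero => simp [P]
  | succ k ih =>
    have hk : (0 : ℝ) ≤ k := Nat.cast_nonneg k
    have hJ : (0 : ℝ) ≤ J := Nat.cast_nonneg J
    have h1 : (k : ℝ) + e + 1 + J ≠ 0 := by positivity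
    have h2 : (k : ℝ) + 1 + e ≠ 0 := by positivity
    have h3 : (k : ℝ) + e + 1 + (J + 1) ≠ 0 := by positivity
    rw [P_succ, P_succ]
    push_cast
    have e1 : P e (J + 1) k * ((k + e + 1 / 2 + 2 * ((J : ℝ) + 1)) * (k + e + 1 / 2) ^ 2 /
        ((k + 1 + e) * (k + e + 1 + (J + 1)) ^ 2)) *
        ((e + 1 / 2 + 2 * J) * (e + 3 / 2 + 2 * J) * (k + 1 + e + 1 + J) ^ 2) =
        (P e (J + 1) k * ((e + 1 / 2 + 2 * J) * (e + 3 / 2 + 2 * J) * (k + e + 1 + J) ^ 2)) *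
        ((k + e + 1 / 2 + 2 * ((J : ℝ) + 1)) * (k + e + 1 / 2) ^ 2 /
        ((k + 1 + e) * (k + e + 1 + J) ^ 2)) := by
      field_simp
      ring
    rw [e1, ih]
    field_simp
    ring

lemma wz {e : ℝ} (he : 0 ≤ e) (J k : ℕ) :
    f e (J + 1) k - f e J k = g e J (k + 1) - g e J k := by
  have hk : (0 : ℝ) ≤ k := Nat.cast_nonneg k
  have hJ : (0 : ℝ) ≤ J := Nat.cast_nonneg J
  have h1 : (k : ℝ) + e + 1 + J ≠ 0 := by positivity
  have h2 : (k : ℝ) + 1 + e ≠ 0 := by positivity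
  have h4 : (e + 1 / 2 + 2 * (J : ℝ)) ≠ 0 := by positivity
  have h5 : (e + 3 / 2 + 2 * (J : ℝ)) ≠ 0 := by positivity
  have h6 : (J : ℝ) + 1 + e ≠ 0 := by positivity
  have key : C e (J + 1) * P e (J + 1) k = C e J * P e J k *
      ((k + e + 1 / 2 + 2 * J) * (k + e + 3 / 2 + 2 * J) / (4 * (k + e + 1 + J) ^ 2)) := by
    have := P_shift he J k
    have hP : P e (J + 1) k = P e J k * ((k + e + 1 / 2 + 2 * J) * (k + e + 3 / 2 + 2 * J) *
        (e + 1 + J) ^ 2) / ((e + 1 / 2 + 2 * J) * (e + 3 / 2 + 2 * J) * (k + e + 1 + J) ^ 2) := by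
      rw [eq_div_iff (by positivity)]; exact this
    rw [hP, C_succ]
    field_simp
    ring
  have e1 : f e (J + 1) k = (-1 / 8) ^ k * (1 + 4 * ((J : ℝ) + 1) + 6 * (k + e)) *
      (C e (J + 1) * P e (J + 1) k) := by
    unfold f; push_cast; ring
  rw [e1, key]
  unfold f g
  rw [P_succ]
  push_cast
  rw [pow_succ]
  field_simp
  ring

lemma P_le {e : ℝ} (he : 0 ≤ e) (J k : ℕ) : P e J k ≤ 2 ^ k := by
  unfold P
  rw [← card_range k, ← prod_const]
  rw [card_range]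
  apply Finset.prod_le_prod
  · intro i _; positivity
  · intro i _
    have hi : (0 : ℝ) ≤ i := Nat.cast_nonneg i
    have hJ : (0 : ℝ) ≤ J := Nat.cast_nonneg J
    rw [div_le_iff₀ (by positivity)]
    have h1 : (i : ℝ) + e + 1 / 2 + 2 * J ≤ 2 * (i + e + 1 + J) := by linarith
    have h2 : ((i : ℝ) + e + 1 / 2) ^ 2 ≤ (i + 1 + e) * (i + e + 1 + J) := by
      nlinarith [mul_nonneg hi hJ, mul_nonneg he hJ]
    calc ((i : ℝ) + e + 1 / 2 + 2 * J) * (i + e + 1 / 2) ^ 2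
        ≤ (2 * (i + e + 1 + J)) * ((i + 1 + e) * (i + e + 1 + J)) := by
          apply mul_le_mul h1 h2 (by positivity) (by positivity)
      _ = 2 * ((i + 1 + e) * (i + e + 1 + J) ^ 2) := by ring

lemma summable_aux : Summable (fun k : ℕ => (7 + 6 * (k : ℝ)) * (1 / 4) ^ k) := by
  have h1 : Summable (fun k : ℕ => (1 / 4 : ℝ) ^ k) :=
    summable_geometric_of_lt_one (by norm_num) (by norm_num)
  have h2 : Summable (fun k : ℕ => (k : ℝ) ^ 1 * (1 / 4 : ℝ) ^ k) :=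
    summable_pow_mul_geometric_of_norm_lt_one 1 (by norm_num)
  have h3 := (h1.mul_left 7).add (h2.mul_left 6)
  refine h3.congr ?_
  intro k; ring

lemma abs_f_le {e : ℝ} (he : 0 ≤ e) (he1 : e ≤ 1) (J k : ℕ) :
    |f e J k| ≤ C e J * (J + 1) * ((7 + 6 * (k : ℝ)) * (1 / 4) ^ k) := by
  have hk : (0 : ℝ) ≤ k := Nat.cast_nonneg k
  have hJ : (0 : ℝ) ≤ J := Nat.cast_nonneg J
  unfold f
  rw [abs_mul, abs_mul, abs_mul, abs_of_pos (C_pos he J), abs_of_pos (P_pos he J k), abs_pow,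
    abs_of_nonneg (by positivity : 0 ≤ 1 + 4 * (J : ℝ) + 6 * (k + e))]
  have e1 : |(-1 / 8 : ℝ)| = 1 / 8 := by rw [abs_of_neg (by norm_num)]; norm_num
  rw [e1]
  have h1 : 1 + 4 * (J : ℝ) + 6 * (k + e) ≤ (J + 1) * (7 + 6 * k) := by
    nlinarith [mul_nonneg hJ hk]
  have e2 : (1 / 4 : ℝ) ^ k = (1 / 8) ^ k * 2 ^ k := by
    rw [← mul_pow]; norm_num
  rw [e2]
  calc C e J * (1 / 8) ^ k * (1 + 4 * (J : ℝ) + 6 * (k + e)) * P e J k
      ≤ C e J * (1 / 8) ^ k * ((J + 1) * (7 + 6 * k)) * 2 ^ k := by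
        have := C_pos he J
        apply mul_le_mul _ (P_le he J k) (P_pos he J k).le (by positivity)
        apply mul_le_mul_of_nonneg_left h1 (by positivity)
    _ = C e J * (J + 1) * ((7 + 6 * (k : ℝ)) * ((1 / 8) ^ k * 2 ^ k)) := by ring

lemma summable_f {e : ℝ} (he : 0 ≤ e) (he1 : e ≤ 1) (J : ℕ) : Summable (f e J) :=
  Summable.of_norm_bounded (summable_aux.mul_left (C e J * (J + 1)))
    (fun k => by rw [Real.norm_eq_abs]; exact abs_f_le he he1 J k)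

lemma abs_g_le {e : ℝ} (he : 0 ≤ e) (he1 : e ≤ 1) (J k : ℕ) :
    |g e J k| ≤ C e J * ((7 + 6 * (k : ℝ)) * (1 / 4) ^ k) := by
  have hk : (0 : ℝ) ≤ k := Nat.cast_nonneg k
  unfold g
  rw [abs_mul, abs_mul, abs_mul, abs_of_pos (C_pos he J), abs_of_pos (P_pos he J k), abs_pow,
    abs_of_nonneg (by positivity : 0 ≤ 4 * ((k : ℝ) + e))]
  have e1 : |(-1 / 8 : ℝ)| = 1 / 8 := by rw [abs_of_neg (by norm_num)]; norm_num
  rw [e1]
  have h1 : 4 * ((k : ℝ) + e) ≤ 7 + 6 * k := by linarith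
  have e2 : (1 / 4 : ℝ) ^ k = (1 / 8) ^ k * 2 ^ k := by
    rw [← mul_pow]; norm_num
  rw [e2]
  calc C e J * (1 / 8) ^ k * (4 * ((k : ℝ) + e)) * P e J k
      ≤ C e J * (1 / 8) ^ k * (7 + 6 * k) * 2 ^ k := by
        have := C_pos he J
        apply mul_le_mul _ (P_le he J k) (P_pos he J k).le (by positivity)
        apply mul_le_mul_of_nonneg_left h1 (by positivity)
    _ = C e J * ((7 + 6 * (k : ℝ)) * ((1 / 8) ^ k * 2 ^ k)) := by ring

lemma g_tendsto {e : ℝ} (he : 0 ≤ e) (he1 : e ≤ 1) (J : ℕ) : Tendsto (g e J) atTop (𝓝 0) := by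
  have h1 := (summable_aux.mul_left (C e J)).tendsto_atTop_zero
  exact squeeze_zero_norm (fun k => by rw [Real.norm_eq_abs]; exact abs_g_le he he1 J k) h1

def Sf (e : ℝ) (J : ℕ) : ℝ := ∑' k, f e J k

lemma Sf_succ {e : ℝ} (he : 0 ≤ e) (he1 : e ≤ 1) (J : ℕ) :
    Sf e J = 4 * e * C e J + Sf e (J + 1) := by
  have h1 : HasSum (fun k => f e (J + 1) k - f e J k) (Sf e (J + 1) - Sf e J) :=
    (summable_f he he1 (J + 1)).hasSum.sub (summable_f he he1 J).hasSum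
  have h2 : Tendsto (fun K => ∑ k ∈ range K, (f e (J + 1) k - f e J k)) atTop
      (𝓝 (Sf e (J + 1) - Sf e J)) := h1.tendsto_sum_nat
  have h3 : (fun K => ∑ k ∈ range K, (f e (J + 1) k - f e J k)) = fun K => g e J K - g e J 0 := by
    funext K
    rw [← sum_range_sub]
    exact sum_congr rfl (fun k _ => wz he J k)
  rw [h3] at h2
  have h4 : Tendsto (fun K => g e J K - g e J 0) atTop (𝓝 (0 - g e J 0)) :=
    (g_tendsto he he1 J).sub tendsto_const_nhds
  have h5 := tendsto_nhds_unique h2 h4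
  have h6 : g e J 0 = 4 * e * C e J := by
    unfold g P; simp; ring
  rw [h6] at h5
  linarith

lemma Sf_eq {e : ℝ} (he : 0 ≤ e) (he1 : e ≤ 1) (J : ℕ) :
    Sf e 0 = 4 * e * (∑ j ∈ range J, C e j) + Sf e J := by
  induction J with
  | zero => simp
  | succ J ih => rw [ih, sum_range_succ, Sf_succ he he1 J]; ring

/-! ### decay of `C` -/

lemma C_decay {e : ℝ} (he : 0 < e) (he1 : e ≤ 1 / 4) (J : ℕ) :
    ((J : ℝ) + 1) ^ (1 + e / 2) * C e J ≤ 1 := by
  induction J with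
  | zero => simp [C]
  | succ J ih =>
    have hJ : (0 : ℝ) ≤ J := Nat.cast_nonneg J
    have hx : (0 : ℝ) < (J : ℝ) + 1 := by positivity
    have h1 : (((J + 1 : ℕ) : ℝ) + 1) = ((J : ℝ) + 1) * (1 + 1 / ((J : ℝ) + 1)) := by
      push_cast; field_simp
    have h2 : (1 + 1 / ((J : ℝ) + 1)) ^ (1 + e / 2) ≤
        (1 + 1 / ((J : ℝ) + 1)) * (1 + e / 2 * (1 / ((J : ℝ) + 1))) := by
      rw [Real.rpow_add (by positivity), Real.rpow_one]
      apply mul_le_mul_of_nonneg_left _ (by positivity)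
      apply _root_.rpow_one_add_le_one_add_mul_self (by
        have : (0 : ℝ) < 1 / ((J : ℝ) + 1) := by positivity
        linarith) (by linarith) (by linarith)
    have h3 : (1 + 1 / ((J : ℝ) + 1)) * (1 + e / 2 * (1 / ((J : ℝ) + 1))) *
        ((J + 1 / 4 + e / 2) * (J + 3 / 4 + e / 2) / (J + 1 + e) ^ 2) ≤ 1 := by
      have e1 : (1 + 1 / ((J : ℝ) + 1)) * (1 + e / 2 * (1 / ((J : ℝ) + 1))) *
        ((J + 1 / 4 + e / 2) * (J + 3 / 4 + e / 2) / (J + 1 + e) ^ 2) =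
        ((J + 2) * (J + 1 + e / 2) * ((J + 1 / 4 + e / 2) * (J + 3 / 4 + e / 2))) /
        ((J + 1) ^ 2 * (J + 1 + e) ^ 2) := by
        field_simp
        ring
      rw [e1, div_le_one (by positivity)]
      nlinarith [mul_nonneg hJ hJ, mul_nonneg (mul_nonneg hJ hJ) hJ, mul_nonneg he.le hJ,
        mul_nonneg (mul_nonneg he.le hJ) hJ, mul_nonneg he.le he.le,
        mul_nonneg (mul_nonneg (mul_nonneg he.le hJ) hJ) hJ,
        mul_nonneg (mul_nonneg he.le he.le) hJ,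
        mul_nonneg (sub_nonneg.2 he1) hJ, mul_nonneg (mul_nonneg (sub_nonneg.2 he1) hJ) hJ,
        mul_nonneg (mul_nonneg (mul_nonneg (sub_nonneg.2 he1) hJ) hJ) hJ,
        mul_nonneg (mul_nonneg (sub_nonneg.2 he1) he.le) hJ,
        mul_nonneg (mul_nonneg (mul_nonneg (sub_nonneg.2 he1) he.le) hJ) hJ,
        mul_nonneg (sub_nonneg.2 he1) he.le]
    rw [h1, Real.mul_rpow hx.le (by positivity), C_succ]
    have hC := C_pos he.le J
    calc ((J : ℝ) + 1) ^ (1 + e / 2) * (1 + 1 / ((J : ℝ) + 1)) ^ (1 + e / 2) *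
        (C e J * ((J + 1 / 4 + e / 2) * (J + 3 / 4 + e / 2) / (J + 1 + e) ^ 2))
        = (((J : ℝ) + 1) ^ (1 + e / 2) * C e J) * ((1 + 1 / ((J : ℝ) + 1)) ^ (1 + e / 2) *
        ((J + 1 / 4 + e / 2) * (J + 3 / 4 + e / 2) / (J + 1 + e) ^ 2)) := by ring
      _ ≤ 1 * 1 := by
        apply mul_le_mul ih _ (by positivity) (by norm_num)
        refine le_trans ?_ h3
        apply mul_le_mul_of_nonneg_right h2 (by positivity)
      _ = 1 := by norm_num

lemma C_le_rpow {e : ℝ} (he : 0 < e) (he1 : e ≤ 1 / 4) (J : ℕ) :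
    C e J ≤ ((J : ℝ) + 1) ^ (-(1 + e / 2)) := by
  have h := C_decay he he1 J
  have h0 : (0 : ℝ) < ((J : ℝ) + 1) ^ (1 + e / 2) := by positivity
  rw [Real.rpow_neg (by positivity)]
  rw [mul_comm] at h
  rw [← one_div, le_div_iff₀ h0]
  exact h

lemma summable_rpow {e : ℝ} (he : 0 < e) :
    Summable (fun J : ℕ => ((J : ℝ) + 1) ^ (-(1 + e / 2))) := by
  have h1 : Summable (fun J : ℕ => (J : ℝ) ^ (-(1 + e / 2))) :=
    Real.summable_nat_rpow.2 (by linarith)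
  have h2 := (summable_nat_add_iff 1).2 h1
  refine h2.congr (fun J => ?_)
  push_cast; rfl

lemma tendsto_aux {e : ℝ} (he : 0 < e) :
    Tendsto (fun J : ℕ => ((J : ℝ) + 1) * ((J : ℝ) + 1) ^ (-(1 + e / 2))) atTop (𝓝 0) := by
  have h1 : Tendsto (fun x : ℝ => x ^ (-(e / 2))) atTop (𝓝 0) :=
    tendsto_rpow_neg_atTop (by linarith)
  have h2 : Tendsto (fun J : ℕ => (J : ℝ) + 1) atTop atTop :=
    tendsto_atTop_add_const_right _ _ tendsto_natCast_atTop_atTop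
  refine (h1.comp h2).congr (fun J => ?_)
  have hx : (0 : ℝ) < (J : ℝ) + 1 := by positivity
  simp only [Function.comp]
  conv_rhs => rw [← Real.rpow_one ((J : ℝ) + 1)]
  rw [Real.rpow_one, show -(e / 2) = 1 + -(1 + e / 2) by ring, Real.rpow_add hx, Real.rpow_one]

lemma summable_C {e : ℝ} (he : 0 < e) (he1 : e ≤ 1 / 4) : Summable (C e) :=
  Summable.of_nonneg_of_le (fun J => (C_pos he.le J).le) (fun J => C_le_rpow he he1 J)
    (summable_rpow he)

lemma C_tendsto {e : ℝ} (he : 0 < e) (he1 : e ≤ 1 / 4) :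
    Tendsto (fun J : ℕ => ((J : ℝ) + 1) * C e J) atTop (𝓝 0) := by
  refine squeeze_zero (fun J => ?_) (fun J => ?_) (tendsto_aux he)
  · have := C_pos he.le J; positivity
  · exact mul_le_mul_of_nonneg_left (C_le_rpow he he1 J) (by positivity)

lemma Sf_tendsto {e : ℝ} (he : 0 < e) (he1 : e ≤ 1 / 4) : Tendsto (Sf e) atTop (𝓝 0) := by
  have h1 := (C_tendsto he he1).mul_const (∑' k : ℕ, (7 + 6 * (k : ℝ)) * (1 / 4) ^ k)
  rw [zero_mul] at h1
  refine squeeze_zero_norm (fun J => ?_) h1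
  have h2 : ‖Sf e J‖ ≤ ∑' k : ℕ, C e J * (J + 1) * ((7 + 6 * (k : ℝ)) * (1 / 4) ^ k) := by
    apply tsum_of_norm_bounded (summable_aux.mul_left _).hasSum
    intro k
    rw [Real.norm_eq_abs]
    exact abs_f_le he.le (by linarith) J k
  rw [tsum_mul_left] at h2
  calc ‖Sf e J‖ ≤ _ := h2
    _ = _ := by ring

/-- the WZ sum: `S e = 4 e ∑ C_j` -/
theorem Sf_zero {e : ℝ} (he : 0 < e) (he1 : e ≤ 1 / 4) : Sf e 0 = 4 * e * ∑' j, C e j := by
  have h1 : Tendsto (fun J => 4 * e * (∑ j ∈ range J, C e j) + Sf e J) atTop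
      (𝓝 (4 * e * (∑' j, C e j) + 0)) :=
    ((summable_C he he1).hasSum.tendsto_sum_nat.const_mul _).add (Sf_tendsto he he1)
  have h2 : Tendsto (fun J => 4 * e * (∑ j ∈ range J, C e j) + Sf e J) atTop (𝓝 (Sf e 0)) := by
    refine tendsto_const_nhds.congr (fun J => ?_)
    exact Sf_eq he.le (by linarith) J
  have := tendsto_nhds_unique h2 h1
  rw [this, add_zero]

/-! ### Gauss' theorem for the neighbour -/

def t (e : ℝ) (m j : ℕ) : ℝ :=
  ∏ i ∈ range j, ((i + 1 / 4 + e / 2) * (i + 3 / 4 + e / 2) / ((i + 1) * (i + 1 + 2 * e + m)))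

lemma t_succ (e : ℝ) (m j : ℕ) : t e m (j + 1) = t e m j *
    ((j + 1 / 4 + e / 2) * (j + 3 / 4 + e / 2) / ((j + 1) * (j + 1 + 2 * e + m))) := by
  unfold t; rw [prod_range_succ]

lemma t_pos {e : ℝ} (he : 0 ≤ e) (m j : ℕ) : 0 < t e m j := by
  unfold t; apply prod_pos; intro i _; positivity

lemma t_shift {e : ℝ} (he : 0 ≤ e) (m j : ℕ) :
    t e (m + 1) j * (1 + 2 * e + m + j) = t e m j * (1 + 2 * e + m) := by
  induction j with
  | zero => simp [t]
  | succ j ih =>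
    have hj : (0 : ℝ) ≤ j := Nat.cast_nonneg j
    have hm : (0 : ℝ) ≤ m := Nat.cast_nonneg m
    have h1 : (j : ℝ) + 1 + 2 * e + m ≠ 0 := by positivity
    have h2 : (j : ℝ) + 1 + 2 * e + (m + 1) ≠ 0 := by positivity
    rw [t_succ, t_succ]
    push_cast
    have e1 : t e (m + 1) j * ((j + 1 / 4 + e / 2) * (j + 3 / 4 + e / 2) /
        ((j + 1) * (j + 1 + 2 * e + ((m : ℝ) + 1)))) * (1 + 2 * e + m + (j + 1)) =
        (t e (m + 1) j * (1 + 2 * e + m + j)) * ((j + 1 / 4 + e / 2) * (j + 3 / 4 + e / 2) /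
        ((j + 1) * (j + 1 + 2 * e + m))) := by
      field_simp
      ring
    rw [e1, ih]
    ring

lemma wz2 {e : ℝ} (he : 0 ≤ e) (m j : ℕ) :
    (3 / 4 + 3 * e / 2 + m) * (1 / 4 + 3 * e / 2 + m) * t e (m + 1) j -
      (1 + 2 * e + m) * (e + m) * t e m j =
    (1 + 2 * e + m) * (((j + 1 : ℕ) : ℝ) * t e m (j + 1)) - (1 + 2 * e + m) * ((j : ℝ) * t e m j) := by
  have hj : (0 : ℝ) ≤ j := Nat.cast_nonneg j
  have hm : (0 : ℝ) ≤ m := Nat.cast_nonneg m
  have h1 : (1 + 2 * e + (m : ℝ) + j) ≠ 0 := by positivity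
  have h2 : (j : ℝ) + 1 + 2 * e + m ≠ 0 := by positivity
  have ht : t e (m + 1) j = t e m j * (1 + 2 * e + m) / (1 + 2 * e + m + j) := by
    rw [eq_div_iff h1]; exact t_shift he m j
  rw [ht, t_succ]
  push_cast
  field_simp
  ring

lemma C_le_t {e : ℝ} (he : 0 ≤ e) (j : ℕ) : C e j ≤ t e 0 j := by
  unfold C t
  apply Finset.prod_le_prod
  · intro i _; positivity
  · intro i _
    apply div_le_div_of_nonneg_left (by positivity) (by positivity)
    push_cast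
    nlinarith [sq_nonneg e]

lemma t_le_C {e : ℝ} (he : 0 ≤ e) (j : ℕ) :
    (1 - 2 * e ^ 2 + e ^ 2 / (j + 1 / 2)) * t e 0 j ≤ C e j := by
  induction j with
  | zero => simp [C, t]; nlinarith [sq_nonneg e]
  | succ j ih =>
    have hj : (0 : ℝ) ≤ j := Nat.cast_nonneg j
    rw [C_succ, t_succ]
    push_cast
    have h0 := t_pos he 0 j
    have hb : 0 < ((j : ℝ) + 1 / 4 + e / 2) * (j + 3 / 4 + e / 2) := by positivity
    -- the factor
    have h1 : (1 - 2 * e ^ 2 + e ^ 2 / ((j : ℝ) + 1 + 1 / 2)) ≤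
        (1 - 2 * e ^ 2 + e ^ 2 / ((j : ℝ) + 1 / 2)) * (((j : ℝ) + 1) * (j + 1 + 2 * e) / (j + 1 + e) ^ 2)
        := by
      have e1 : (((j : ℝ) + 1) * (j + 1 + 2 * e) / (j + 1 + e) ^ 2) =
          1 - e ^ 2 / (j + 1 + e) ^ 2 := by
        field_simp; ring
      rw [e1]
      have e2 : e ^ 2 / ((j : ℝ) + 1 / 2) - e ^ 2 / ((j : ℝ) + 1 + 1 / 2) ≥ e ^ 2 / (j + 1 + e) ^ 2 := by
        rw [ge_iff_le, div_sub_div _ _ (by positivity) (by positivity),
          div_le_div_iff₀ (by positivity) (by positivity)]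
        have : e ^ 2 * ((j : ℝ) + 1 + 1 / 2) - (j + 1 / 2) * e ^ 2 = e ^ 2 := by ring
        rw [this]
        apply mul_le_mul_of_nonneg_left _ (by positivity)
        nlinarith
      have e3 : e ^ 2 / ((j : ℝ) + 1 / 2) ≤ 2 * e ^ 2 := by
        rw [div_le_iff₀ (by positivity)]
        nlinarith [mul_nonneg (sq_nonneg e) hj]
      have e4 : 0 ≤ e ^ 2 / ((j : ℝ) + 1 + e) ^ 2 := by positivity
      nlinarith
    have h2 : (((j : ℝ) + 1 / 4 + e / 2) * (j + 3 / 4 + e / 2) / ((j + 1) * (j + 1 + 2 * e + 0))) *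
        (((j : ℝ) + 1) * (j + 1 + 2 * e) / (j + 1 + e) ^ 2) =
        (((j : ℝ) + 1 / 4 + e / 2) * (j + 3 / 4 + e / 2) / (j + 1 + e) ^ 2) := by
      field_simp
      ring
    calc (1 - 2 * e ^ 2 + e ^ 2 / ((j : ℝ) + 1 + 1 / 2)) * (t e 0 j *
        (((j : ℝ) + 1 / 4 + e / 2) * (j + 3 / 4 + e / 2) / ((j + 1) * (j + 1 + 2 * e + 0))))
        ≤ ((1 - 2 * e ^ 2 + e ^ 2 / ((j : ℝ) + 1 / 2)) *
          (((j : ℝ) + 1) * (j + 1 + 2 * e) / (j + 1 + e) ^ 2)) * (t e 0 j *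
        (((j : ℝ) + 1 / 4 + e / 2) * (j + 3 / 4 + e / 2) / ((j + 1) * (j + 1 + 2 * e + 0)))) := by
          apply mul_le_mul_of_nonneg_right h1 (by positivity)
      _ = ((1 - 2 * e ^ 2 + e ^ 2 / ((j : ℝ) + 1 / 2)) * t e 0 j) *
          ((((j : ℝ) + 1 / 4 + e / 2) * (j + 3 / 4 + e / 2) / ((j + 1) * (j + 1 + 2 * e + 0))) *
        (((j : ℝ) + 1) * (j + 1 + 2 * e) / (j + 1 + e) ^ 2)) := by ring
      _ = ((1 - 2 * e ^ 2 + e ^ 2 / ((j : ℝ) + 1 / 2)) * t e 0 j) *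
          (((j : ℝ) + 1 / 4 + e / 2) * (j + 3 / 4 + e / 2) / (j + 1 + e) ^ 2) := by rw [h2]
      _ ≤ _ := by apply mul_le_mul_of_nonneg_right ih (by positivity)

lemma t_le_C' {e : ℝ} (he : 0 ≤ e) (j : ℕ) : (1 - 2 * e ^ 2) * t e 0 j ≤ C e j := by
  refine le_trans ?_ (t_le_C he j)
  have := t_pos he 0 j
  apply mul_le_mul_of_nonneg_right _ this.le
  have : 0 ≤ e ^ 2 / ((j : ℝ) + 1 / 2) := by positivity
  linarith

lemma t_le_two_C {e : ℝ} (he : 0 ≤ e) (he1 : e ≤ 1 / 4) (j : ℕ) : t e 0 j ≤ 2 * C e j := by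
  have h1 := t_le_C' he j
  have h2 := t_pos he 0 j
  have h3 : (1 : ℝ) / 2 ≤ 1 - 2 * e ^ 2 := by nlinarith
  nlinarith [mul_le_mul_of_nonneg_right h3 h2.le]

lemma t_le_t_zero {e : ℝ} (he : 0 ≤ e) (m j : ℕ) : t e m j ≤ t e 0 j := by
  unfold t
  apply Finset.prod_le_prod
  · intro i _; positivity
  · intro i _
    apply div_le_div_of_nonneg_left (by positivity) (by positivity)
    have hm : (0 : ℝ) ≤ m := Nat.cast_nonneg m
    have hi : (0 : ℝ) ≤ i := Nat.cast_nonneg i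
    push_cast
    nlinarith

lemma summable_t {e : ℝ} (he : 0 < e) (he1 : e ≤ 1 / 4) (m : ℕ) : Summable (t e m) :=
  Summable.of_nonneg_of_le (fun j => (t_pos he.le m j).le)
    (fun j => (t_le_t_zero he.le m j).trans (t_le_two_C he.le he1 j)) ((summable_C he he1).mul_left 2)

lemma t_tendsto {e : ℝ} (he : 0 < e) (he1 : e ≤ 1 / 4) (m : ℕ) :
    Tendsto (fun j : ℕ => (j : ℝ) * t e m j) atTop (𝓝 0) := by
  have h1 := (C_tendsto he he1).const_mul 2
  rw [mul_zero] at h1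
  refine squeeze_zero (fun j => ?_) (fun j => ?_) h1
  · have := t_pos he.le m j; positivity
  · have h2 := (t_le_t_zero he.le m j).trans (t_le_two_C he.le he1 j)
    have h3 := t_pos he.le m j
    have hj : (0 : ℝ) ≤ j := Nat.cast_nonneg j
    have h4 := C_pos he.le j
    calc (j : ℝ) * t e m j ≤ (j + 1) * (2 * C e j) := by
          apply mul_le_mul (by linarith) h2 h3.le (by positivity)
      _ = 2 * (((j : ℝ) + 1) * C e j) := by ring

def T (e : ℝ) (m : ℕ) : ℝ := ∑' j, t e m j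

lemma T_succ {e : ℝ} (he : 0 < e) (he1 : e ≤ 1 / 4) (m : ℕ) :
    (1 + 2 * e + m) * (e + m) * T e m =
      (3 / 4 + 3 * e / 2 + m) * (1 / 4 + 3 * e / 2 + m) * T e (m + 1) := by
  have h1 := ((summable_t he he1 (m + 1)).hasSum.mul_left
      ((3 / 4 + 3 * e / 2 + m) * (1 / 4 + 3 * e / 2 + m))).sub
      ((summable_t he he1 m).hasSum.mul_left ((1 + 2 * e + m) * (e + m)))
  have h2 := h1.tendsto_sum_nat
  have h3 : (fun K => ∑ j ∈ range K, ((3 / 4 + 3 * e / 2 + m) * (1 / 4 + 3 * e / 2 + m) * t e (m + 1) j -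
      (1 + 2 * e + m) * (e + m) * t e m j)) =
      fun K : ℕ => (1 + 2 * e + m) * ((K : ℝ) * t e m K) - (1 + 2 * e + m) * (((0 : ℕ) : ℝ) * t e m 0) := by
    funext K
    rw [← sum_range_sub (fun K : ℕ => (1 + 2 * e + m) * ((K : ℝ) * t e m K))]
    exact sum_congr rfl (fun j _ => wz2 he.le m j)
  rw [h3] at h2
  have h4 := ((t_tendsto he he1 m).const_mul (1 + 2 * e + (m : ℝ))).sub
    (tendsto_const_nhds (x := (1 + 2 * e + m) * (((0 : ℕ) : ℝ) * t e m 0)))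
  have h5 := tendsto_nhds_unique h2 h4
  unfold T
  simp only [Nat.cast_zero, zero_mul, mul_zero, sub_zero] at h5
  linarith

lemma T_prod {e : ℝ} (he : 0 < e) (he1 : e ≤ 1 / 4) (m : ℕ) :
    T e 0 * ((∏ i ∈ range m, (1 + 2 * e + i)) * ∏ i ∈ range m, (e + (i : ℝ))) =
      ((∏ i ∈ range m, (3 / 4 + 3 * e / 2 + i)) * ∏ i ∈ range m, (1 / 4 + 3 * e / 2 + (i : ℝ))) * T e m := by
  induction m with
  | zero => simp
  | succ m ih =>
    rw [prod_range_succ, prod_range_succ, prod_range_succ, prod_range_succ]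
    have h1 := T_succ he he1 m
    calc T e 0 * ((∏ i ∈ range m, (1 + 2 * e + i)) * (1 + 2 * e + m) *
          ((∏ i ∈ range m, (e + (i : ℝ))) * (e + m)))
        = (T e 0 * ((∏ i ∈ range m, (1 + 2 * e + i)) * ∏ i ∈ range m, (e + (i : ℝ)))) *
          ((1 + 2 * e + m) * (e + m)) := by ring
      _ = ((∏ i ∈ range m, (3 / 4 + 3 * e / 2 + i)) * ∏ i ∈ range m, (1 / 4 + 3 * e / 2 + (i : ℝ))) *
          ((1 + 2 * e + m) * (e + m) * T e m) := by rw [ih]; ring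
      _ = _ := by rw [h1]; ring

lemma t_le_inv {e : ℝ} (he : 0 ≤ e) (he1 : e ≤ 1 / 4) (m j : ℕ) : t e m (j + 1) ≤ 1 / ((m : ℝ) + 1) := by
  induction j with
  | zero =>
    have hm : (0 : ℝ) ≤ m := Nat.cast_nonneg m
    simp only [t, zero_add, range_one, prod_singleton, Nat.cast_zero]
    rw [div_le_div_iff₀ (by positivity) (by positivity)]
    have h1 : (1 / 4 + e / 2) * (3 / 4 + e / 2) ≤ 1 := by nlinarith
    have h2 : (1 / 4 + e / 2) * (3 / 4 + e / 2) * ((m : ℝ) + 1) ≤ 1 * (m + 1) :=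
      mul_le_mul_of_nonneg_right h1 (by positivity)
    linarith
  | succ j ih =>
    rw [t_succ]
    have hm : (0 : ℝ) ≤ m := Nat.cast_nonneg m
    have hj : (0 : ℝ) ≤ ((j + 1 : ℕ) : ℝ) := Nat.cast_nonneg _
    have h1 : ((((j + 1 : ℕ) : ℝ) + 1 / 4 + e / 2) * (((j + 1 : ℕ) : ℝ) + 3 / 4 + e / 2) /
        ((((j + 1 : ℕ) : ℝ) + 1) * (((j + 1 : ℕ) : ℝ) + 1 + 2 * e + m))) ≤ 1 := by
      rw [div_le_one (by positivity)]
      nlinarith [mul_nonneg hj hm]
    calc _ ≤ 1 / ((m : ℝ) + 1) * 1 := by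
          apply mul_le_mul ih h1 (by positivity) (by positivity)
      _ = _ := by ring

lemma T_tendsto {e : ℝ} (he : 0 < e) (he1 : e ≤ 1 / 4) : Tendsto (T e) atTop (𝓝 1) := by
  have h1 : Tendsto (fun m => ∑' j, t e m j) atTop (𝓝 (∑' j, if j = 0 then (1 : ℝ) else 0)) := by
    apply tendsto_tsum_of_dominated_convergence (summable_t he he1 0)
    · intro j
      rcases j with _ | j
      · simp [t]
      · simp only [Nat.add_eq_zero_iff, one_ne_zero, and_false, if_false]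
        exact squeeze_zero (fun m => (t_pos he.le m _).le) (fun m => t_le_inv he.le he1 m j)
          tendsto_one_div_add_atTop_nhds_zero_nat
    · refine Eventually.of_forall (fun m j => ?_)
      rw [Real.norm_eq_abs, abs_of_pos (t_pos he.le m j)]
      exact t_le_t_zero he.le m j
  rw [tsum_ite_eq] at h1
  exact h1

/-- Gauss' theorem -/
theorem T_zero {e : ℝ} (he : 0 < e) (he1 : e ≤ 1 / 4) :
    T e 0 * (Real.Gamma (3 / 4 + 3 * e / 2) * Real.Gamma (1 / 4 + 3 * e / 2)) =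
      Real.Gamma (1 + 2 * e) * Real.Gamma e := by
  have h1 : ∀ n : ℕ, 0 < n → T e 0 * (Real.GammaSeq (3 / 4 + 3 * e / 2) n * Real.GammaSeq (1 / 4 + 3 * e / 2) n) =
      Real.GammaSeq (1 + 2 * e) n * Real.GammaSeq e n * T e (n + 1) := by
    intro n hn
    have hn' : (0 : ℝ) < n := by exact_mod_cast hn
    have h := T_prod he he1 (n + 1)
    unfold Real.GammaSeq
    have p1 : 0 < ∏ i ∈ range (n + 1), (1 + 2 * e + (i : ℝ)) := prod_pos (fun i _ => by positivity)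
    have p2 : 0 < ∏ i ∈ range (n + 1), (e + (i : ℝ)) := prod_pos (fun i _ => by positivity)
    have p3 : 0 < ∏ i ∈ range (n + 1), (3 / 4 + 3 * e / 2 + (i : ℝ)) := prod_pos (fun i _ => by positivity)
    have p4 : 0 < ∏ i ∈ range (n + 1), (1 / 4 + 3 * e / 2 + (i : ℝ)) := prod_pos (fun i _ => by positivity)
    have q : (n : ℝ) ^ (3 / 4 + 3 * e / 2) * (n : ℝ) ^ (1 / 4 + 3 * e / 2) =
        (n : ℝ) ^ (1 + 2 * e) * (n : ℝ) ^ e := by
      rw [← Real.rpow_add hn', ← Real.rpow_add hn']; congr 1; ring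
    set P1 := ∏ i ∈ range (n + 1), (1 + 2 * e + (i : ℝ))
    set P2 := ∏ i ∈ range (n + 1), (e + (i : ℝ))
    set P3 := ∏ i ∈ range (n + 1), (3 / 4 + 3 * e / 2 + (i : ℝ))
    set P4 := ∏ i ∈ range (n + 1), (1 / 4 + 3 * e / 2 + (i : ℝ))
    set F := ((n.factorial : ℕ) : ℝ)
    have e1 : T e 0 * ((n : ℝ) ^ (3 / 4 + 3 * e / 2) * F / P3 * ((n : ℝ) ^ (1 / 4 + 3 * e / 2) * F / P4)) =
        ((n : ℝ) ^ (3 / 4 + 3 * e / 2) * (n : ℝ) ^ (1 / 4 + 3 * e / 2)) * F ^ 2 * (T e 0 * (P1 * P2)) /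
          (P1 * P2 * P3 * P4) := by
      field_simp
    rw [e1, h, q]
    field_simp
  have h2 : Tendsto (fun n : ℕ => T e 0 * (Real.GammaSeq (3 / 4 + 3 * e / 2) n *
      Real.GammaSeq (1 / 4 + 3 * e / 2) n)) atTop
      (𝓝 (T e 0 * (Real.Gamma (3 / 4 + 3 * e / 2) * Real.Gamma (1 / 4 + 3 * e / 2)))) :=
    ((Real.GammaSeq_tendsto_Gamma _).mul (Real.GammaSeq_tendsto_Gamma _)).const_mul _
  have h3 : Tendsto (fun n : ℕ => Real.GammaSeq (1 + 2 * e) n * Real.GammaSeq e n * T e (n + 1)) atTop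
      (𝓝 (Real.Gamma (1 + 2 * e) * Real.Gamma e * 1)) :=
    ((Real.GammaSeq_tendsto_Gamma _).mul (Real.GammaSeq_tendsto_Gamma _)).mul
      ((T_tendsto he he1).comp (tendsto_add_atTop_nat 1))
  have h4 : (fun n : ℕ => T e 0 * (Real.GammaSeq (3 / 4 + 3 * e / 2) n *
      Real.GammaSeq (1 / 4 + 3 * e / 2) n)) =ᶠ[atTop]
      (fun n : ℕ => Real.GammaSeq (1 + 2 * e) n * Real.GammaSeq e n * T e (n + 1)) := by
    filter_upwards [eventually_gt_atTop 0] with n hn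
    exact h1 n hn
  have h5 := tendsto_nhds_unique (h2.congr' h4) h3
  rw [h5, mul_one]

/-- two sided bound for `S e` -/
theorem Sf_bounds {e : ℝ} (he : 0 < e) (he1 : e ≤ 1 / 4) :
    (1 - 2 * e ^ 2) * (4 * e * T e 0) ≤ Sf e 0 ∧ Sf e 0 ≤ 4 * e * T e 0 := by
  rw [Sf_zero he he1]
  constructor
  · have h1 : (1 - 2 * e ^ 2) * T e 0 ≤ ∑' j, C e j := by
      unfold T
      rw [← tsum_mul_left]
      exact (summable_t he he1 0).mul_left (1 - 2 * e ^ 2) |>.tsum_le_tsum (fun j => t_le_C' he.le j)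
        (summable_C he he1)
    calc (1 - 2 * e ^ 2) * (4 * e * T e 0) = 4 * e * ((1 - 2 * e ^ 2) * T e 0) := by ring
      _ ≤ _ := mul_le_mul_of_nonneg_left h1 (by positivity)
  · apply mul_le_mul_of_nonneg_left _ (by positivity)
    exact (summable_C he he1).tsum_le_tsum (fun j => C_le_t he.le j) (summable_t he he1 0)

/-! ### the closed form -/

def q (x : ℝ) : ℝ := 4 / (2 ^ (1 / 2 : ℝ) * √Real.pi) *
  (Real.Gamma (x + 1 / 2) ^ 3 * Real.Gamma (1 + 2 * x) / (Real.Gamma (1 + x) ^ 2 * Real.Gamma (1 / 2 + 3 * x)))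

lemma q_eq {e : ℝ} (he : 0 < e) (he1 : e ≤ 1 / 4) :
    (8 : ℝ) ^ (-e) * (Real.Gamma (e + 1 / 2) / Real.Gamma (e + 1)) ^ 3 * (4 * e * T e 0) = q e := by
  have h1 := T_zero he he1
  have h2 := Real.Gamma_mul_Gamma_add_half (1 / 4 + 3 * e / 2)
  have g1 : 0 < Real.Gamma (3 / 4 + 3 * e / 2) := Real.Gamma_pos_of_pos (by positivity)
  have g2 : 0 < Real.Gamma (1 / 4 + 3 * e / 2) := Real.Gamma_pos_of_pos (by positivity)
  have g3 : 0 < Real.Gamma (1 / 2 + 3 * e) := Real.Gamma_pos_of_pos (by positivity)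
  have g4 : 0 < Real.Gamma (1 + e) := Real.Gamma_pos_of_pos (by positivity)
  have g5 : Real.Gamma (e + 1) = e * Real.Gamma e := Real.Gamma_add_one he.ne'
  have hpi : 0 < √Real.pi := Real.sqrt_pos.2 Real.pi_pos
  rw [show (1 / 4 + 3 * e / 2 + 1 / 2 : ℝ) = 3 / 4 + 3 * e / 2 by ring,
    show (2 * (1 / 4 + 3 * e / 2) : ℝ) = 1 / 2 + 3 * e by ring,
    show (1 - (1 / 2 + 3 * e) : ℝ) = 1 / 2 - 3 * e by ring] at h2
  have hT : T e 0 = Real.Gamma (1 + 2 * e) * Real.Gamma e /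
      (Real.Gamma (1 / 2 + 3 * e) * 2 ^ (1 / 2 - 3 * e) * √Real.pi) := by
    rw [← h2, eq_div_iff (by positivity), ← h1]; ring
  have h8 : (8 : ℝ) ^ (-e) = 2 ^ (-(3 * e)) := by
    rw [show (8 : ℝ) = 2 ^ (3 : ℝ) by norm_num, ← Real.rpow_mul (by norm_num)]
    congr 1; ring
  have h9 : (2 : ℝ) ^ (1 / 2 - 3 * e) = 2 ^ (1 / 2 : ℝ) * 2 ^ (-(3 * e)) := by
    rw [← Real.rpow_add (by norm_num)]; congr 1
  have h10 : 0 < (2 : ℝ) ^ (1 / 2 : ℝ) := by positivity
  have h11 : 0 < (2 : ℝ) ^ (-(3 * e)) := by positivity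
  have h12 : Real.Gamma (1 + e) = Real.Gamma (e + 1) := by rw [add_comm]
  unfold q
  rw [hT, h8, h9, h12, g5]
  have g6 : 0 < Real.Gamma e := Real.Gamma_pos_of_pos he
  field_simp

lemma hasDerivAt_q : HasDerivAt q 0 0 := by
  have d1 : DifferentiableAt ℝ Real.Gamma (1 / 2) :=
    Real.differentiableAt_Gamma (fun m h => by
      have : (0 : ℝ) ≤ m := Nat.cast_nonneg m
      linarith)
  have d2 : DifferentiableAt ℝ Real.Gamma 1 :=
    Real.differentiableAt_Gamma (fun m h => by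
      have : (0 : ℝ) ≤ m := Nat.cast_nonneg m
      linarith)
  set a := deriv Real.Gamma (1 / 2)
  set b := deriv Real.Gamma 1
  have a1 : HasDerivAt Real.Gamma a (1 / 2) := d1.hasDerivAt
  have b1 : HasDerivAt Real.Gamma b 1 := d2.hasDerivAt
  have k1 : HasDerivAt (fun x : ℝ => Real.Gamma (x + 1 / 2)) a 0 := by
    have h : HasDerivAt (fun x : ℝ => x + 1 / 2) 1 0 := (hasDerivAt_id 0).add_const _
    have h' : HasDerivAt Real.Gamma a ((fun x : ℝ => x + 1 / 2) 0) := by simpa using a1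
    have h'' := h'.comp (0 : ℝ) h
    rw [mul_one] at h''
    exact h''
  have k2 : HasDerivAt (fun x : ℝ => Real.Gamma (1 + 2 * x)) (b * 2) 0 := by
    have h : HasDerivAt (fun x : ℝ => 1 + 2 * x) 2 0 := by
      simpa using ((hasDerivAt_id (0 : ℝ)).const_mul 2).const_add 1
    have h' : HasDerivAt Real.Gamma b ((fun x : ℝ => 1 + 2 * x) 0) := by simpa using b1
    exact h'.comp (0 : ℝ) h
  have k3 : HasDerivAt (fun x : ℝ => Real.Gamma (1 + x)) b 0 := by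
    have h : HasDerivAt (fun x : ℝ => 1 + x) 1 0 := by
      simpa using (hasDerivAt_id (0 : ℝ)).const_add 1
    have h' : HasDerivAt Real.Gamma b ((fun x : ℝ => 1 + x) 0) := by simpa using b1
    have h'' := h'.comp (0 : ℝ) h
    rw [mul_one] at h''
    exact h''
  have k4 : HasDerivAt (fun x : ℝ => Real.Gamma (1 / 2 + 3 * x)) (a * 3) 0 := by
    have h : HasDerivAt (fun x : ℝ => 1 / 2 + 3 * x) 3 0 := by
      simpa using ((hasDerivAt_id (0 : ℝ)).const_mul 3).const_add (1 / 2)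
    have h' : HasDerivAt Real.Gamma a ((fun x : ℝ => 1 / 2 + 3 * x) 0) := by simpa using a1
    exact h'.comp (0 : ℝ) h
  have hG : Real.Gamma (1 / 2) ≠ 0 := (Real.Gamma_pos_of_pos (by norm_num)).ne'
  have k5 := ((k1.pow 3).mul k2).div ((k3.pow 2).mul k4) (by
    show Real.Gamma (1 + 0) ^ 2 * Real.Gamma (1 / 2 + 3 * 0) ≠ 0
    rw [add_zero, mul_zero, add_zero, Real.Gamma_one]
    simpa using hG)
  have k6 := k5.const_mul (4 / (2 ^ (1 / 2 : ℝ) * √Real.pi))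
  have k7 : HasDerivAt q _ 0 := k6
  refine k7.congr_deriv ?_
  simp only [zero_add, mul_zero, add_zero, Real.Gamma_one, Pi.pow_apply, Pi.mul_apply]
  field_simp
  ring

/-! ### the complex function -/

def SC (z : ℂ) : ℂ := ∑' k : ℕ, (-1 / 8 : ℂ) ^ k * (1 + 6 * (k + z)) *
  ∏ i ∈ range k, ((i + z + 1 / 2) / (i + 1 + z)) ^ 3

def V (z : ℂ) : ℂ := (8 : ℂ) ^ (-z) * (Complex.Gamma (z + 1 / 2) / Complex.Gamma (z + 1)) ^ 3 * SC z

lemma norm_sub_half_le {w : ℂ} (hw : 1 / 4 ≤ w.re) : ‖w - 1 / 2‖ ≤ ‖w‖ := by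
  rw [Complex.norm_def, Complex.norm_def]
  apply Real.sqrt_le_sqrt
  rw [Complex.normSq_apply, Complex.normSq_apply]
  have h1 : (w - 1 / 2).re = w.re - 1 / 2 := by simp
  have h2 : (w - 1 / 2).im = w.im := by simp
  rw [h1, h2]
  nlinarith

lemma norm_factor_le {z : ℂ} (hz : ‖z‖ < 1 / 4) (i : ℕ) :
    ‖(i + z + 1 / 2) / (i + 1 + z)‖ ≤ 1 := by
  have h1 : (1 / 4 : ℝ) ≤ (i + 1 + z : ℂ).re := by
    have h2 : |z.re| ≤ ‖z‖ := Complex.abs_re_le_norm z
    have h3 := abs_le.1 (h2.trans hz.le)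
    have h4 : (0 : ℝ) ≤ i := Nat.cast_nonneg i
    simp
    linarith
  rw [norm_div]
  apply div_le_one_of_le₀ _ (norm_nonneg _)
  have := norm_sub_half_le h1
  rwa [show (i + 1 + z - 1 / 2 : ℂ) = i + z + 1 / 2 by ring] at this

lemma den_ne {z : ℂ} (hz : ‖z‖ < 1 / 4) (i : ℕ) : (i + 1 + z : ℂ) ≠ 0 := by
  intro h
  have h1 : (i + 1 + z : ℂ).re = 0 := by rw [h]; simp
  have h2 : |z.re| ≤ ‖z‖ := Complex.abs_re_le_norm z
  have h3 := abs_le.1 (h2.trans hz.le)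
  have h4 : (0 : ℝ) ≤ i := Nat.cast_nonneg i
  simp at h1
  linarith

lemma summable_aux2 : Summable (fun k : ℕ => (1 / 8 : ℝ) ^ k * (7 + 6 * (k : ℝ))) := by
  refine Summable.of_nonneg_of_le (fun k => by positivity) (fun k => ?_) summable_aux
  rw [mul_comm]
  apply mul_le_mul_of_nonneg_left _ (by positivity)
  apply pow_le_pow_left₀ (by norm_num) (by norm_num)

lemma SC_diffOn : DifferentiableOn ℂ SC (Metric.ball 0 (1 / 4)) := by
  unfold SC
  apply Complex.differentiableOn_tsum_of_summable_norm summable_aux2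
  · intro k z hz
    have hz' : ‖z‖ < 1 / 4 := by simpa using hz
    apply DifferentiableAt.differentiableWithinAt
    apply DifferentiableAt.mul
    · fun_prop
    · apply DifferentiableAt.fun_finsetProd
      intro i _
      apply DifferentiableAt.pow
      apply DifferentiableAt.div (by fun_prop) (by fun_prop) (den_ne hz' i)
  · exact Metric.isOpen_ball
  · intro k z hz
    have hz' : ‖z‖ < 1 / 4 := by simpa using hz
    rw [norm_mul, norm_mul, norm_pow]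
    have e1 : ‖(-1 / 8 : ℂ)‖ = 1 / 8 := by simp
    rw [e1]
    have h1 : ‖(1 + 6 * (k + z) : ℂ)‖ ≤ 7 + 6 * (k : ℝ) := by
      calc ‖(1 + 6 * (k + z) : ℂ)‖ ≤ ‖(1 : ℂ)‖ + ‖(6 * (k + z) : ℂ)‖ := norm_add_le _ _
        _ ≤ 1 + 6 * (‖(k : ℂ)‖ + ‖z‖) := by
          rw [norm_one, norm_mul]
          have := norm_add_le (k : ℂ) z
          have h6 : ‖(6 : ℂ)‖ = 6 := by simp
          rw [h6]; linarith
        _ ≤ 7 + 6 * (k : ℝ) := by
          rw [Complex.norm_natCast]; linarith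
    have h2 : ‖∏ i ∈ range k, ((i + z + 1 / 2) / (i + 1 + z) : ℂ) ^ 3‖ ≤ 1 := by
      rw [norm_prod]
      apply Finset.prod_le_one
      · intro i _; positivity
      · intro i _
        rw [norm_pow]
        exact pow_le_one₀ (norm_nonneg _) (norm_factor_le hz' i)
    calc (1 / 8 : ℝ) ^ k * ‖(1 + 6 * (k + z) : ℂ)‖ * ‖∏ i ∈ range k, ((i + z + 1 / 2) / (i + 1 + z) : ℂ) ^ 3‖
        ≤ (1 / 8 : ℝ) ^ k * (7 + 6 * (k : ℝ)) * 1 := by
          apply mul_le_mul _ h2 (norm_nonneg _) (by positivity)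
          apply mul_le_mul_of_nonneg_left h1 (by positivity)
      _ = _ := by ring

lemma SC_ofReal (e : ℝ) : SC (e : ℂ) = ((Sf e 0 : ℝ) : ℂ) := by
  unfold SC Sf
  rw [Complex.ofReal_tsum]
  apply tsum_congr
  intro k
  unfold f C P
  push_cast
  simp only [range_zero, prod_empty, one_mul, mul_zero, add_zero]
  congr 1
  apply Finset.prod_congr rfl
  intro i _
  rw [div_pow, pow_succ' _ 2, pow_succ' (_ : ℂ) 2]
  congr 2
  ring

lemma V_ofReal (e : ℝ) : V (e : ℂ) =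
    (((8 : ℝ) ^ (-e) * (Real.Gamma (e + 1 / 2) / Real.Gamma (e + 1)) ^ 3 * Sf e 0 : ℝ) : ℂ) := by
  unfold V
  rw [SC_ofReal]
  push_cast
  rw [Complex.ofReal_cpow (by norm_num)]
  push_cast
  rw [← Complex.Gamma_ofReal, ← Complex.Gamma_ofReal]
  push_cast
  rfl

lemma V_diffAt : DifferentiableAt ℂ V 0 := by
  unfold V
  apply DifferentiableAt.mul
  · apply DifferentiableAt.mul
    · apply DifferentiableAt.const_cpow (by fun_prop)
      left; norm_num
    · apply DifferentiableAt.pow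
      apply DifferentiableAt.div
      · apply DifferentiableAt.comp (g := Complex.Gamma) (f := fun z : ℂ => z + 1 / 2)
        · apply Complex.differentiableAt_Gamma
          intro m h
          have h1 : ((0 : ℂ) + 1 / 2).re = (-(m : ℂ)).re := by rw [h]
          have : (0 : ℝ) ≤ m := Nat.cast_nonneg m
          simp at h1
          linarith
        · fun_prop
      · apply DifferentiableAt.comp (g := Complex.Gamma) (f := fun z : ℂ => z + 1)
        · apply Complex.differentiableAt_Gamma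
          intro m h
          have h1 : ((0 : ℂ) + 1).re = (-(m : ℂ)).re := by rw [h]
          have : (0 : ℝ) ≤ m := Nat.cast_nonneg m
          simp at h1
          linarith
        · fun_prop
      · simp
  · exact (SC_diffOn 0 (by simp)).differentiableAt (Metric.ball_mem_nhds 0 (by norm_num))

/-- real version of `V` -/
def VR (e : ℝ) : ℝ := (8 : ℝ) ^ (-e) * (Real.Gamma (e + 1 / 2) / Real.Gamma (e + 1)) ^ 3 * Sf e 0

lemma VR_bounds {e : ℝ} (he : 0 < e) (he1 : e ≤ 1 / 4) : |VR e - q e| ≤ 2 * e ^ 2 * q e := by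
  have h := Sf_bounds he he1
  have h1 := q_eq he he1
  have g1 : 0 < Real.Gamma (e + 1 / 2) := Real.Gamma_pos_of_pos (by positivity)
  have g2 : 0 < Real.Gamma (e + 1) := Real.Gamma_pos_of_pos (by positivity)
  have hA : 0 < (8 : ℝ) ^ (-e) * (Real.Gamma (e + 1 / 2) / Real.Gamma (e + 1)) ^ 3 := by positivity
  unfold VR
  rw [← h1]
  set A := (8 : ℝ) ^ (-e) * (Real.Gamma (e + 1 / 2) / Real.Gamma (e + 1)) ^ 3
  rw [abs_le]
  constructor
  · have := mul_le_mul_of_nonneg_left h.1 hA.le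
    nlinarith
  · have h2 := mul_le_mul_of_nonneg_left h.2 hA.le
    have h3 : 0 ≤ T e 0 := tsum_nonneg (fun j => (t_pos he.le 0 j).le)
    have h4 : 0 ≤ 2 * e ^ 2 * (A * (4 * e * T e 0)) := by positivity
    linarith

lemma V_eq_VR (e : ℝ) : V (e : ℂ) = ((VR e : ℝ) : ℂ) := V_ofReal e

theorem VR_zero : VR 0 = q 0 := by
  have h1 : ContinuousAt VR 0 := by
    have h2 : ContinuousAt (fun e : ℝ => (V (e : ℂ)).re) 0 := by
      apply Complex.continuous_re.continuousAt.comp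
      apply ContinuousAt.comp (g := V)
      · simpa using V_diffAt.continuousAt
      · exact Complex.continuous_ofReal.continuousAt
    have h3 : VR = fun e : ℝ => (V (e : ℂ)).re := by
      funext e; rw [V_eq_VR]; simp
    rw [h3]; exact h2
  have h4 : ContinuousAt q 0 := hasDerivAt_q.continuousAt
  have t1 : Tendsto (fun e => VR e - q e) (𝓝[>] 0) (𝓝 (VR 0 - q 0)) :=
    ((h1.sub h4).tendsto).mono_left nhdsWithin_le_nhds
  have t2 : Tendsto (fun e => VR e - q e) (𝓝[>] 0) (𝓝 0) := by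
    have t3 : Tendsto (fun e : ℝ => 2 * e ^ 2 * q e) (𝓝[>] 0) (𝓝 (2 * 0 ^ 2 * q 0)) := by
      apply Tendsto.mono_left _ nhdsWithin_le_nhds
      have : ContinuousAt (fun e : ℝ => 2 * e ^ 2 * q e) 0 :=
        (by fun_prop : ContinuousAt (fun e : ℝ => 2 * e ^ 2) 0).mul h4
      exact this.tendsto
    simp only [ne_eq, OfNat.ofNat_ne_zero, not_false_eq_true, zero_pow, mul_zero, zero_mul] at t3
    apply squeeze_zero_norm' _ t3
    have : Set.Ioc (0 : ℝ) (1 / 4) ∈ 𝓝[>] (0 : ℝ) := Ioc_mem_nhdsGT (by norm_num)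
    filter_upwards [this] with e he
    rw [Real.norm_eq_abs]
    exact VR_bounds he.1 he.2
  have := tendsto_nhds_unique t1 t2
  linarith

theorem q_zero : q 0 = 4 / (2 ^ (1 / 2 : ℝ) * √Real.pi) * Real.pi := by
  unfold q
  have h : Real.Gamma (1 / 2) = √Real.pi := Real.Gamma_one_half_eq
  simp only [zero_add, mul_zero, add_zero, Real.Gamma_one, h]
  have h1 : √Real.pi ≠ 0 := (Real.sqrt_pos.2 Real.pi_pos).ne'
  have h2 : √Real.pi ^ 2 = Real.pi := Real.sq_sqrt Real.pi_pos.le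
  have h3 : √Real.pi ^ 3 * 1 / (1 ^ 2 * √Real.pi) = √Real.pi ^ 2 := by
    field_simp
  rw [h3, h2]

theorem V_zero_ne : V 0 ≠ 0 := by
  have h : V ((0 : ℝ) : ℂ) = _ := V_eq_VR 0
  rw [Complex.ofReal_zero] at h
  rw [h, VR_zero, q_zero]
  have : 0 < 4 / ((2 : ℝ) ^ (1 / 2 : ℝ) * √Real.pi) * Real.pi := by
    have := Real.pi_pos
    positivity
  exact_mod_cast this.ne'

/-- **the even symmetry**: `V'(0) = 0`. -/
theorem hasDerivAt_V : HasDerivAt V 0 0 := by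
  have hV : HasDerivAt V (deriv V 0) 0 := V_diffAt.hasDerivAt
  have h1 := hasDerivAt_iff_tendsto_slope_zero.1 hV
  have h2 : Tendsto (fun e : ℝ => (e : ℂ)) (𝓝[>] 0) (𝓝[≠] 0) := by
    apply tendsto_nhdsWithin_iff.2
    constructor
    · have : Tendsto (fun e : ℝ => (e : ℂ)) (𝓝 0) (𝓝 ((0 : ℝ) : ℂ)) :=
        Complex.continuous_ofReal.tendsto 0
      rw [Complex.ofReal_zero] at this
      exact this.mono_left nhdsWithin_le_nhds
    · filter_upwards [self_mem_nhdsWithin] with e he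
      have : (0 : ℝ) < e := he
      simp [this.ne']
  have h3 := h1.comp h2
  have h4 : Tendsto (fun e : ℝ => (((e⁻¹ * (VR e - VR 0) : ℝ)) : ℂ)) (𝓝[>] 0) (𝓝 (deriv V 0)) := by
    refine h3.congr (fun e => ?_)
    simp only [Function.comp, zero_add, smul_eq_mul]
    have h : V ((0 : ℝ) : ℂ) = _ := V_eq_VR 0
    rw [Complex.ofReal_zero] at h
    rw [V_eq_VR, h]
    push_cast; ring
  have h5 : Tendsto (fun e : ℝ => e⁻¹ * (VR e - VR 0)) (𝓝[>] 0) (𝓝 0) := by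
    have hq := hasDerivAt_iff_tendsto_slope_zero.1 hasDerivAt_q
    have h6 : Tendsto (fun e : ℝ => e⁻¹ * (q e - q 0)) (𝓝[>] 0) (𝓝 0) := by
      have : 𝓝[>] (0 : ℝ) ≤ 𝓝[≠] 0 := nhdsWithin_mono _ (fun x hx => ne_of_gt hx)
      refine (hq.mono_left this).congr (fun e => ?_)
      simp
    have h7 : Tendsto (fun e : ℝ => e⁻¹ * (VR e - q e)) (𝓝[>] 0) (𝓝 0) := by
      have t3 : Tendsto (fun e : ℝ => 2 * e * q e) (𝓝[>] 0) (𝓝 (2 * 0 * q 0)) := by
        apply Tendsto.mono_left _ nhdsWithin_le_nhds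
        have : ContinuousAt (fun e : ℝ => 2 * e * q e) 0 :=
          (by fun_prop : ContinuousAt (fun e : ℝ => 2 * e) 0).mul hasDerivAt_q.continuousAt
        exact this.tendsto
      simp only [mul_zero, zero_mul] at t3
      apply squeeze_zero_norm' _ t3
      have : Set.Ioc (0 : ℝ) (1 / 4) ∈ 𝓝[>] (0 : ℝ) := Ioc_mem_nhdsGT (by norm_num)
      filter_upwards [this] with e he
      rw [norm_mul, Real.norm_eq_abs, Real.norm_eq_abs, abs_inv, abs_of_pos he.1]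
      have := VR_bounds he.1 he.2
      calc e⁻¹ * |VR e - q e| ≤ e⁻¹ * (2 * e ^ 2 * q e) :=
            mul_le_mul_of_nonneg_left this (inv_nonneg.2 he.1.le)
        _ = 2 * e * q e := by
            have := he.1.ne'
            field_simp
    have h8 := h7.add h6
    rw [add_zero] at h8
    refine h8.congr (fun e => ?_)
    rw [VR_zero]; ring
  have h9 : Tendsto (fun e : ℝ => (((e⁻¹ * (VR e - VR 0) : ℝ)) : ℂ)) (𝓝[>] 0) (𝓝 ((0 : ℝ) : ℂ)) :=
    (Complex.continuous_ofReal.tendsto 0).comp h5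
  have h10 := tendsto_nhds_unique h4 h9
  rw [h10] at hV
  simpa using hV

end

end Crest.Agent.R006.BZ737
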