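import Crest.Agent.R006.Bord_89

/-!
# Row 6: bordered minors over a `K`-algebra (helper819)

`K` a field of characteristic zero, `A` a `K`-algebra, `x : A` (the value of `G`).

`minor_eqK`: for an admissible choice `r` of the rows there are an injective list `J : Fin c → Rw`
of the omitted rows, a numbering `e` of all rows and a sign `s`, such that for all monic families
`p` over `K`

`(∏_{l < q u} l!) * Minor(x) = s * det vmat * det [lam (p k) (column k')]`,

where the columns are the `R`-columns of `polR S u l`, the `Q`-columns of `bin l` and the `c` unit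
vector columns at the rows `J`.
`minor_eqK_monic`: the same with `R`-columns of `ρ * bR l` and `Q`-columns of `bQ l` for arbitrary
monic families `bR, bQ`.
-/

set_option autoImplicit false

namespace Crest.Agent.R006.BordK

open Polynomial Crest.Agent.R006.D Crest.Agent.R006.NV Crest.Agent.R006.Lam
  Crest.Agent.R006.Bord

section change
variable {K : Type*} [Field K] {A : Type*} [CommRing A] [Algebra K A]
variable {γ : Type*} [Fintype γ] [DecidableEq γ] {n : ℕ}

/-- matrix with a block of columns `Φ r (b l)` -/
noncomputable def blk (Φ : Fin n ⊕ γ → K[X] →ₗ[K] A) (G : Fin n ⊕ γ → γ → A) (b : ℕ → K[X]) :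
    Matrix (Fin n ⊕ γ) (Fin n ⊕ γ) A :=
  Matrix.of fun r c => Sum.elim (fun l : Fin n => Φ r (b l)) (fun t => G r t) c

lemma det_blk_eq (Φ : Fin n ⊕ γ → K[X] →ₗ[K] A) (G : Fin n ⊕ γ → γ → A) (b : ℕ → K[X])
    (hb : MonicFam b) :
    (blk Φ G b).det = (blk Φ G fun k => X ^ k).det := by
  have h : blk Φ G b = blk Φ G (fun k => X ^ k) *
      Matrix.fromBlocks ((Matrix.of fun (i j : Fin n) => (b j).coeff i).map (algebraMap K A))
        0 0 1 := by
    ext r c
    rw [Matrix.mul_apply, Fintype.sum_sum_type]
    rcases c with c | c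
    · simp only [blk, Matrix.of_apply, Sum.elim_inl, Sum.elim_inr, Matrix.fromBlocks_apply₁₁,
        Matrix.fromBlocks_apply₂₁, Matrix.zero_apply, mul_zero, Finset.sum_const_zero, add_zero,
        Matrix.map_apply]
      have hc : (b c) = ∑ i : Fin n, C ((b c).coeff i) * X ^ (i : ℕ) := by
        rw [Fin.sum_univ_eq_sum_range (fun i => C ((b c).coeff i) * X ^ i) n]
        conv_lhs => rw [(b c).as_sum_range_C_mul_X_pow' (n := n) (by rw [(hb c).2]; exact c.2)]
      conv_lhs => rw [hc]
      rw [map_sum]
      refine Finset.sum_congr rfl fun i _ => ?_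
      rw [← smul_eq_C_mul, map_smul, Algebra.smul_def, mul_comm]
    · simp only [blk, Matrix.of_apply, Sum.elim_inl, Sum.elim_inr, Matrix.fromBlocks_apply₁₂,
        Matrix.fromBlocks_apply₂₂, Matrix.zero_apply, mul_zero, Finset.sum_const_zero, zero_add]
      rw [Finset.sum_eq_single c]
      · simp
      · intro t _ ht; rw [Matrix.one_apply_ne ht, mul_zero]
      · intro h; exact absurd (Finset.mem_univ c) h
  rw [h, Matrix.det_mul, Matrix.det_fromBlocks_zero₂₁, Matrix.det_one, mul_one]
  have hdet : (Matrix.of fun (i j : Fin n) => (b j).coeff i : Matrix (Fin n) (Fin n) K).det = 1 := by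
    rw [Matrix.det_of_isUpperTriangular]
    · apply Finset.prod_eq_one
      intro i _
      rw [Matrix.of_apply]
      have := (hb i).1
      rw [Monic, leadingCoeff, (hb i).2] at this
      exact this
    · intro i j hij
      rw [Matrix.of_apply]
      apply coeff_eq_zero_of_natDegree_lt
      rw [(hb j).2]
      exact hij
  have h2 : ((Matrix.of fun (i j : Fin n) => (b j).coeff i).map (algebraMap K A)).det = 1 := by
    have := (algebraMap K A).map_det (Matrix.of fun (i j : Fin n) => (b j).coeff i)
    rw [hdet, map_one] at this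
    rw [this]; rfl
  rw [h2, mul_one]

/-- scaling of the block -/
lemma det_blk_smul (Φ : Fin n ⊕ γ → K[X] →ₗ[K] A) (G : Fin n ⊕ γ → γ → A) (b : ℕ → K[X])
    (s : ℕ → K) :
    (blk Φ G fun k => C (s k) * b k).det =
      algebraMap K A (∏ k ∈ Finset.range n, s k) * (blk Φ G b).det := by
  have h : (blk Φ G fun k => C (s k) * b k) = blk Φ G b *
      Matrix.diagonal (Sum.elim (fun l : Fin n => algebraMap K A (s l)) fun _ => 1) := by
    ext r c
    rw [Matrix.mul_diagonal]
    rcases c with c | c
    · simp only [blk, Matrix.of_apply, Sum.elim_inl]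
      rw [← smul_eq_C_mul, map_smul, Algebra.smul_def, mul_comm]
    · simp only [blk, Matrix.of_apply, Sum.elim_inr, mul_one]
  rw [h, Matrix.det_mul, Matrix.det_diagonal, Fintype.prod_sum_type]
  simp only [Sum.elim_inl, Sum.elim_inr, Finset.prod_const_one, mul_one]
  rw [map_prod, Fin.prod_univ_eq_prod_range (fun k => algebraMap K A (s k)) n, mul_comm]

/-- two families, each of the form `constant * monic` -/
theorem det_blk_change (Φ : Fin n ⊕ γ → K[X] →ₗ[K] A) (G : Fin n ⊕ γ → γ → A) (b b' : ℕ → K[X])
    (s : ℕ → K) (hb : MonicFam b) (hb' : MonicFam b') :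
    (blk Φ G fun k => C (s k) * b k).det =
      algebraMap K A (∏ k ∈ Finset.range n, s k) * (blk Φ G b').det := by
  rw [det_blk_smul, det_blk_eq Φ G b hb, det_blk_eq Φ G b' hb']

end change

section defs
variable (S : Shape) (u c : ℕ)

/-- position in `K` -/
def zK (K : Type*) [Field K] (z : St S u c) : K := ((zz S u c z : ℚ) : K)

lemma zK_injective (K : Type*) [Field K] [CharZero K] : Function.Injective (zK S u c K) := by
  intro a b h
  simp only [zK, Rat.cast_inj] at h
  exact zz_injective S u c h

variable (K : Type*) [Field K] [CharZero K]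
variable {A : Type*} [CommRing A] [Algebra K A] (x : A)

/-- the structure map `ℚ → A` through `K` -/
noncomputable def fA (K : Type*) [Field K] [CharZero K] (A : Type*) [CommRing A] [Algebra K A] :
    ℚ →+* A := (algebraMap K A).comp (algebraMap ℚ K)

/-- moments of `ψ_∞` in `K` -/
noncomputable def muK (i : ℕ) : K := algebraMap ℚ K (PsiInf.mu i)

variable {K}

/-- germ of the `R`-column of the polynomial `P`; `x` = value of `G` -/
noncomputable def colR (P : K[X]) (z : St S u c) : PowerSeries A :=
  PowerSeries.map (algebraMap K A)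
      (Lam.germ (zK S u c K z) P * PowerSeries.map (algebraMap ℚ K) (psi0 z.1)
        - Lam.germ (zK S u c K z) (PsiInf.TR (muK K) P))
    - PowerSeries.C x * PowerSeries.map (algebraMap K A)
      (Lam.germ (zK S u c K z) P * PowerSeries.map (algebraMap ℚ K) (psi1 z.1))

/-- germ of the `Q`-column of the polynomial `P` -/
noncomputable def colQ (A : Type*) [CommRing A] [Algebra K A] (P : K[X]) (z : St S u c) :
    PowerSeries A :=
  PowerSeries.map (algebraMap K A)
    (Lam.germ (zK S u c K z) P * PowerSeries.map (algebraMap ℚ K) (gam z.1))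

/-- labels of the columns other than the `T`-columns: `R`, `Q`, unit vectors -/
abbrev CT : Type := Fin (S.k * u) ⊕ (Fin (S.g * u) ⊕ Fin c)

/-- degree of the test polynomial attached to a label -/
def cidx : CT S u c → ℕ :=
  Sum.elim (fun l => l) (Sum.elim (fun l => S.k * u + l) fun t => S.k * u + (S.g * u + t))

/-- the columns: `R`-columns of `bR l`, `Q`-columns of `bQ l`, unit vectors -/
noncomputable def col (bR bQ : ℕ → K[X]) (J : Fin c → Rw S u c) :
    CT S u c → St S u c → PowerSeries A :=
  Sum.elim (fun l => colR S u c x (bR l))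
    (Sum.elim (fun l => colQ S u c A (bQ l)) fun t => Lam.unitCol (mm S u c) A (J t))

/-- the matrix `lam (p k) (col k')` -/
noncomputable def lmat (p : ℕ → K[X]) (bR bQ : ℕ → K[X]) (J : Fin c → Rw S u c) :
    Matrix (CT S u c) (CT S u c) A :=
  Matrix.of fun k l => Lam.lam (zK S u c K) (mm S u c) (p (cidx S u c k))
    (col S u c x bR bQ J l)

end defs

section germs
variable {S : Shape} {u c : ℕ}
variable {K : Type*} [Field K] [CharZero K]
variable {A : Type*} [CommRing A] [Algebra K A] (x : A)

lemma germ_map (y : ℚ) (P : ℚ[X]) :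
    Lam.germ ((y : ℚ) : K) (P.map (algebraMap ℚ K)) = PowerSeries.map (algebraMap ℚ K) (gm y P) := by
  have h : ((y : ℚ) : K) = algebraMap ℚ K y := (eq_ratCast (algebraMap ℚ K) y).symm
  rw [Lam.germ, gm, h, ← Polynomial.map_taylor, Polynomial.polynomial_map_coe]

lemma TR_map (P : ℚ[X]) :
    PsiInf.TR (muK K) (P.map (algebraMap ℚ K)) = (PsiInf.TR PsiInf.mu P).map (algebraMap ℚ K) := by
  induction P using Polynomial.induction_on' with
  | add p q hp hq => rw [Polynomial.map_add, map_add, map_add, Polynomial.map_add, hp, hq]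
  | monomial n a =>
    rw [Polynomial.map_monomial, PsiInf.TR_monomial, PsiInf.TR_monomial, Polynomial.map_mul,
      Polynomial.map_C, Polynomial.map_sum]
    congr 1
    refine Finset.sum_congr rfl fun i _ => ?_
    rw [Polynomial.map_mul, Polynomial.map_C, Polynomial.map_pow, Polynomial.map_X]
    rfl

lemma coeff_colR_map (P : ℚ[X]) (ρ : Rw S u c) :
    PowerSeries.coeff (ρ.2 : ℕ) (colR S u c x (P.map (algebraMap ℚ K)) ρ.1) =
      fA K A (ent0 P (toRow S u c ρ)) - x * fA K A (ent1 P (toRow S u c ρ)) := by
  rw [colR, map_sub, PowerSeries.coeff_map, PowerSeries.coeff_C_mul, PowerSeries.coeff_map, zK,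
    germ_map, TR_map, germ_map, ← map_mul, ← map_mul, ← map_sub, PowerSeries.coeff_map,
    PowerSeries.coeff_map]
  rfl

lemma coeff_colQ_map (P : ℚ[X]) (ρ : Rw S u c) :
    PowerSeries.coeff (ρ.2 : ℕ) (colQ S u c A (P.map (algebraMap ℚ K)) ρ.1) =
      fA K A (entQ P (toRow S u c ρ)) := by
  rw [colQ, PowerSeries.coeff_map, zK, germ_map, ← map_mul, PowerSeries.coeff_map]
  rfl

lemma coeff_pgerm_map (P : ℚ[X]) (ρ : Rw S u c) :
    PowerSeries.coeff (ρ.2 : ℕ)
      (Lam.pgerm (zK S u c K) A (P.map (algebraMap ℚ K)) ρ.1) =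
      fA K A (entT P (toRow S u c ρ)) := by
  rw [Lam.pgerm, PowerSeries.coeff_map, zK, germ_map, PowerSeries.coeff_map]
  rfl

end germs

end Crest.Agent.R006.BordK
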