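import Crest.Agent.R006.BordK_819

/-!
# Row 6: bordered minors over a `K`-algebra, main theorems (helper819)
-/

set_option autoImplicit false

namespace Crest.Agent.R006.BordK

open Polynomial Crest.Agent.R006.D Crest.Agent.R006.NV Crest.Agent.R006.Lam
  Crest.Agent.R006.Bord

section rows
variable {S : Shape} {u c : ℕ}

lemma card_Col (hk : S.q + S.g ≤ S.rows) : Fintype.card (Col S u) = S.rows * u := by
  rw [Fintype.card_sum, Fintype.card_sum, Fintype.card_fin, Fintype.card_fin, Fintype.card_fin,
    Shape.k, ← Nat.add_mul, ← Nat.add_mul]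
  congr 1
  omega

/-- numbering of all rows: chosen rows and omitted rows -/
lemma exists_equiv (hk : S.q + S.g ≤ S.rows) (r : Col S u → D.Row) (hr : Adm S u c r) :
    ∃ e : Col S u ⊕ Fin c ≃ Rw S u c, ∀ i, toRow S u c (e (Sum.inl i)) = r i := by
  classical
  set r' : Col S u → Rw S u c := fun i => ofRow S u c (r i) (hr.2 i) with hr'
  have hinj : Function.Injective r' := by
    intro i j h
    apply hr.1
    have := congrArg (toRow S u c) h
    rwa [hr', toRow_ofRow, toRow_ofRow] at this
  have hcard : Fintype.card ↥(Set.range r')ᶜ = c := by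
    rw [Fintype.card_compl_set, card_Rw, Set.card_range_of_injective hinj, card_Col hk]
    omega
  set e2 : Fin c ≃ ↥(Set.range r')ᶜ := (Fintype.equivFinOfCardEq hcard).symm with he2
  refine ⟨(Equiv.sumCongr (Equiv.ofInjective r' hinj) e2).trans
    (Equiv.Set.sumCompl (Set.range r')), ?_⟩
  intro i
  rw [Equiv.trans_apply, Equiv.sumCongr_apply, Sum.map_inl, Equiv.Set.sumCompl_apply_inl,
    Equiv.ofInjective_apply]
  rfl

end rows

section full
variable {S : Shape} {u c : ℕ}
variable {K : Type*} [Field K] [CharZero K]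
variable {A : Type*} [CommRing A] [Algebra K A] (x : A)

/-- all columns, in the order of `Col S u`, then the unit vectors -/
noncomputable def fcol (bR bT bQ : ℕ → K[X]) (J : Fin c → Rw S u c) :
    Col S u ⊕ Fin c → St S u c → PowerSeries A :=
  Sum.elim (Sum.elim (fun l => colR S u c x (bR l))
      (Sum.elim (fun l => Lam.pgerm (zK S u c K) A (bT l)) fun l => colQ S u c A (bQ l)))
    fun t => Lam.unitCol (mm S u c) A (J t)

/-- **the minor as a full determinant** -/
theorem det_full (r : Col S u → D.Row) (e : Col S u ⊕ Fin c ≃ Rw S u c)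
    (he : ∀ i, toRow S u c (e (Sum.inl i)) = r i) :
    (Matrix.of fun a b : Col S u ⊕ Fin c => PowerSeries.coeff ((e a).2 : ℕ)
      (fcol x (fun l => (polR S u l).map (algebraMap ℚ K)) (fun l => (bin l).map (algebraMap ℚ K))
        (fun l => (bin l).map (algebraMap ℚ K)) (fun t => e (Sum.inr t)) b (e a).1)).det =
      eval₂ (fA K A) x (Minor S u r) := by
  have hM : eval₂ (fA K A) x (Minor S u r) =
      ((eval₂RingHom (fA K A) x).mapMatrix (Mat S u r)).det := by
    rw [← RingHom.map_det]; rfl
  have h : (Matrix.of fun a b : Col S u ⊕ Fin c => PowerSeries.coeff ((e a).2 : ℕ)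
      (fcol x (fun l => (polR S u l).map (algebraMap ℚ K)) (fun l => (bin l).map (algebraMap ℚ K))
        (fun l => (bin l).map (algebraMap ℚ K)) (fun t => e (Sum.inr t)) b (e a).1)) =
      Matrix.fromBlocks ((eval₂RingHom (fA K A) x).mapMatrix (Mat S u r)) 0
        (Matrix.of fun (t : Fin c) (b : Col S u) => PowerSeries.coeff ((e (Sum.inr t)).2 : ℕ)
          (fcol x (fun l => (polR S u l).map (algebraMap ℚ K))
            (fun l => (bin l).map (algebraMap ℚ K)) (fun l => (bin l).map (algebraMap ℚ K))
            (fun t => e (Sum.inr t)) (Sum.inl b) (e (Sum.inr t)).1)) 1 := by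
    ext a b
    rcases a with a | a
    · rcases b with b | b
      · rw [Matrix.fromBlocks_apply₁₁, Matrix.of_apply, RingHom.mapMatrix_apply, Matrix.map_apply,
          Mat, Matrix.of_apply, ← he a]
        rcases b with l | l | l
        · simp only [fcol, Sum.elim_inl, entry]
          rw [coeff_colR_map, coe_eval₂RingHom, eval₂_sub, eval₂_mul, eval₂_C, eval₂_C, eval₂_X]
        · simp only [fcol, Sum.elim_inl, Sum.elim_inr, entry]
          rw [coeff_pgerm_map, coe_eval₂RingHom, eval₂_C]
        · simp only [fcol, Sum.elim_inl, Sum.elim_inr, entry]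
          rw [coeff_colQ_map, coe_eval₂RingHom, eval₂_C]
      · rw [Matrix.fromBlocks_apply₁₂, Matrix.of_apply, Matrix.zero_apply]
        simp only [fcol, Sum.elim_inr]
        rw [Lam.coeff_unitCol, if_neg]
        intro h
        exact absurd (e.injective h) (by simp)
    · rcases b with b | b
      · rfl
      · rw [Matrix.fromBlocks_apply₂₂, Matrix.of_apply, Matrix.one_apply]
        simp only [fcol, Sum.elim_inr]
        rw [Lam.coeff_unitCol]
        by_cases hab : a = b
        · rw [if_pos (by rw [hab]), if_pos hab]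
        · rw [if_neg, if_neg hab]
          intro h
          exact hab (Sum.inr.inj (e.injective h))
  rw [h, Matrix.det_fromBlocks_zero₁₂, Matrix.det_one, mul_one, hM]

end full

section perm
variable (S : Shape) (u c : ℕ)

/-- numbering of the labels `CT` -/
def phi : CT S u c ≃ Fin (S.k * u + (S.g * u + c)) :=
  (Equiv.sumCongr (Equiv.refl _) finSumFinEquiv).trans finSumFinEquiv

lemma phi_val (k : CT S u c) : (phi S u c k : ℕ) = cidx S u c k := by
  rcases k with k | k | k <;> simp [phi, cidx]

/-- reordering of the columns -/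
def tau' : CT S u c ⊕ Fin (S.q * u) ≃ Col S u ⊕ Fin c where
  toFun
    | .inl (.inl l) => .inl (.inl l)
    | .inl (.inr (.inl l)) => .inl (.inr (.inr l))
    | .inl (.inr (.inr t)) => .inr t
    | .inr l => .inl (.inr (.inl l))
  invFun
    | .inl (.inl l) => .inl (.inl l)
    | .inl (.inr (.inr l)) => .inl (.inr (.inl l))
    | .inr t => .inl (.inr (.inr t))
    | .inl (.inr (.inl l)) => .inr l
  left_inv := by rintro ((l | l | l) | l) <;> rfl
  right_inv := by rintro ((l | l | l) | l) <;> rfl

/-- reordering of the columns, second form -/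
def sig : Fin (S.k * u + (S.g * u + c)) ⊕ Fin (S.q * u) ≃ Col S u ⊕ Fin c :=
  (Equiv.sumCongr (phi S u c).symm (Equiv.refl _)).trans (tau' S u c)

end perm

section main
variable {S : Shape} {u c : ℕ}
variable (K : Type*) [Field K] [CharZero K]
variable {A : Type*} [CommRing A] [Algebra K A] (x : A)

lemma bin_map (l : ℕ) : (bin l).map (algebraMap ℚ K) =
    C (((l.factorial : ℕ) : K)⁻¹) * descPochhammer K l := by
  rw [bin, Polynomial.map_mul, Polynomial.map_C, descPochhammer_map, map_inv₀, map_natCast]

omit [CharZero K] in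
lemma monicFam_desc : MonicFam (fun l => descPochhammer K l) :=
  fun l => ⟨monic_descPochhammer K l, descPochhammer_natDegree K l⟩

/-- the constant: numbering `e` of all rows -/
noncomputable def kap (S : Shape) (u c : ℕ)
    (e : Fin (S.k * u + (S.g * u + c)) ⊕ Fin (S.q * u) ≃ Rw S u c) : ℚ :=
  (∏ l ∈ Finset.range (S.q * u), ((l.factorial : ℕ) : ℚ)⁻¹) *
    (vmat (zz S u c) (mm S u c) ℚ e).det

lemma vmat_map (e : Fin (S.k * u + (S.g * u + c)) ⊕ Fin (S.q * u) ≃ Rw S u c) :
    (vmat (zK S u c K) (mm S u c) A e).det =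
      fA K A (vmat (zz S u c) (mm S u c) ℚ e).det := by
  rw [fA, RingHom.comp_apply, RingHom.map_det, RingHom.map_det]
  congr 1
  ext a b
  simp only [vmat, mat, pgerm, Matrix.of_apply, RingHom.mapMatrix_apply, Matrix.map_apply,
    PowerSeries.coeff_map]
  have h := germ_map (K := K) (zz S u c (e a).1) (X ^ (idx b))
  rw [Polynomial.map_pow, Polynomial.map_X] at h
  rw [zK, h, PowerSeries.coeff_map]
  rfl

/-- **minor_eq over `K`**, for the polynomials of the design -/
theorem minor_eqK (hk : S.q + S.g ≤ S.rows) (r : Col S u → D.Row) (hr : Adm S u c r) :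
    ∃ (J : Fin c → Rw S u c) (e : Fin (S.k * u + (S.g * u + c)) ⊕ Fin (S.q * u) ≃ Rw S u c),
      Function.Injective J ∧ (∀ t i, toRow S u c (J t) ≠ r i) ∧
      ∀ p : ℕ → K[X], MonicFam p → ∃ s : ℤˣ,
        eval₂ (fA K A) x (Minor S u r) = ((s : ℤ) : A) * (fA K A (kap S u c e) *
          (lmat S u c x p (fun l => (polR S u l).map (algebraMap ℚ K))
            (fun l => (bin l).map (algebraMap ℚ K)) J).det) := by
  obtain ⟨e, he⟩ := exists_equiv hk r hr
  refine ⟨fun t => e (Sum.inr t), (sig S u c).trans e, ?_, ?_, ?_⟩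
  · intro a b h
    exact Sum.inr.inj (e.injective h)
  · intro t i h
    rw [← he i] at h
    exact absurd (e.injective (toRow_injective S u c h)) (by simp)
  intro p hp
  set J : Fin c → Rw S u c := fun t => e (Sum.inr t) with hJ
  set F : Fin (S.k * u + (S.g * u + c)) → St S u c → PowerSeries A := fun i =>
    col S u c x (fun l => (polR S u l).map (algebraMap ℚ K))
      (fun l => (bin l).map (algebraMap ℚ K)) J ((phi S u c).symm i) with hF
  obtain ⟨s, hs⟩ := det_mat_eq (mm S u c) (zK_injective S u c K) p
    (fun l => descPochhammer K l) hp (monicFam_desc K) ((sig S u c).trans e) F (A := A)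
  refine ⟨s, ?_⟩
  rw [← det_full (K := K) x r e he]
  -- the full matrix with binomials
  have h1 : (Matrix.of fun a b : Col S u ⊕ Fin c => PowerSeries.coeff ((e a).2 : ℕ)
      (fcol x (fun l => (polR S u l).map (algebraMap ℚ K)) (fun l => (bin l).map (algebraMap ℚ K))
        (fun l => (bin l).map (algebraMap ℚ K)) (fun t => e (Sum.inr t)) b (e a).1)).submatrix
        (sig S u c) (sig S u c) =
      mat (mm S u c) ((sig S u c).trans e)
        (Sum.elim F fun l => pgerm (zK S u c K) A (descPochhammer K l)) *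
      Matrix.diagonal (Sum.elim (fun _ => 1) fun l : Fin (S.q * u) =>
        algebraMap K A ((((l : ℕ).factorial : ℕ) : K)⁻¹)) := by
    ext a b
    rw [Matrix.mul_diagonal, Matrix.submatrix_apply, Matrix.of_apply, mat, Matrix.of_apply,
      Equiv.trans_apply]
    rcases b with b | b
    · simp only [Sum.elim_inl, mul_one]
      congr 1
      rw [hF]
      obtain ⟨w, rfl⟩ := (phi S u c).surjective b
      simp only [sig, Equiv.trans_apply, Equiv.sumCongr_apply, Sum.map_inl,
        Equiv.symm_apply_apply]
      rcases w with w | w | w <;> rfl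
    · simp only [Sum.elim_inr]
      have h2 : sig S u c (Sum.inr b) = Sum.inl (Sum.inr (Sum.inl b)) := rfl
      rw [h2]
      simp only [fcol, Sum.elim_inl, Sum.elim_inr]
      rw [bin_map, pgerm, pgerm, Lam.germ_mul, Lam.germ_C, map_mul, PowerSeries.map_C,
        PowerSeries.coeff_C_mul, mul_comm]
  have h3 := congrArg Matrix.det h1
  rw [Matrix.det_submatrix_equiv_self, Matrix.det_mul, Matrix.det_diagonal,
    Fintype.prod_sum_type, hs] at h3
  rw [h3, vmat_map]
  have h4 : (Matrix.of fun k c_1 => lam (zK S u c K) (mm S u c) (p ((k : Fin _) : ℕ)) (F c_1)).det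
      = (lmat S u c x p (fun l => (polR S u l).map (algebraMap ℚ K))
            (fun l => (bin l).map (algebraMap ℚ K)) J).det := by
    rw [← Matrix.det_submatrix_equiv_self (phi S u c)]
    congr 1
    ext a b
    rw [Matrix.submatrix_apply, Matrix.of_apply, lmat, Matrix.of_apply, phi_val, hF]
    simp only [Equiv.symm_apply_apply]
  rw [h4]
  have h5 : (∏ l : Fin (S.q * u), Sum.elim (fun _ => (1 : A))
      (fun l : Fin (S.q * u) => algebraMap K A ((((l : ℕ).factorial : ℕ) : K)⁻¹))
        (Sum.inr l : Fin (S.k * u + (S.g * u + c)) ⊕ Fin (S.q * u))) =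
      fA K A (∏ l ∈ Finset.range (S.q * u), ((l.factorial : ℕ) : ℚ)⁻¹) := by
    rw [map_prod, ← Fin.prod_univ_eq_prod_range (fun l => fA K A (((l.factorial : ℕ) : ℚ)⁻¹))]
    refine Finset.prod_congr rfl fun l _ => ?_
    have h6 : algebraMap ℚ K ((((l : ℕ).factorial : ℕ) : ℚ)⁻¹) =
        ((((l : ℕ).factorial : ℕ) : K)⁻¹) := by rw [map_inv₀, map_natCast]
    rw [Sum.elim_inr, fA, RingHom.comp_apply, h6]
  rw [h5, kap, map_mul]
  simp only [Sum.elim_inl, Finset.prod_const_one]
  ring

end main

end Crest.Agent.R006.BordK
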