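import Crest.Agent.R006.BordL_819

/-!
# Row 6: bordered minors, arbitrary monic families (helper819)

`minor_eqK_monic`: for an admissible choice `r` of the rows there are omitted rows `J` (injective,
disjoint from `r`), a numbering `e` of all rows and a sign `s` such that for ALL monic families
`p` (test side), `bR`, `bQ` (column side) over `K`, and `x` in the `K`-algebra `A`,

`Minor(x) = s * kapM * det [lam (p k) (column k')]`,

columns: `R`-columns of `rho * bR l` (`rho = gauge * descPochhammer (a1 u)`), `l < k u`;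
`Q`-columns of `bQ l`, `l < g u`; unit vectors at the rows `J`.
-/

set_option autoImplicit false

namespace Crest.Agent.R006.BordK

open Polynomial Crest.Agent.R006.D Crest.Agent.R006.NV Crest.Agent.R006.Lam
  Crest.Agent.R006.Bord

section lin
variable {K : Type*} [Field K] {A : Type*} [CommRing A] [Algebra K A]

lemma lam_add_right {ι : Type*} [Fintype ι] [DecidableEq ι] (z : ι → K) (m : ι → ℕ) (p : K[X])
    (F G : ι → PowerSeries A) :
    lam z m p (fun i => F i + G i) = lam z m p F + lam z m p G := by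
  simp only [lam, map_add, mul_add, Finset.sum_add_distrib]

variable [CharZero K] {S : Shape} {u c : ℕ} (x : A)

lemma colR_add (P Q : K[X]) (z : St S u c) :
    colR S u c x (P + Q) z = colR S u c x P z + colR S u c x Q z := by
  simp only [colR, Lam.germ_add, map_add, add_mul, map_sub, mul_add, map_mul]
  ring

lemma colR_C_mul (a : K) (P : K[X]) (z : St S u c) :
    colR S u c x (C a * P) z = PowerSeries.C (algebraMap K A a) * colR S u c x P z := by
  have h : PsiInf.TR (muK K) (C a * P) = C a * PsiInf.TR (muK K) P := by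
    rw [← smul_eq_C_mul, map_smul, smul_eq_C_mul]
  simp only [colR, h, Lam.germ_mul, Lam.germ_C, map_sub, map_mul, PowerSeries.map_C]
  ring

omit [CharZero K] in
lemma colQ_add [CharZero K] (P Q : K[X]) (z : St S u c) :
    colQ S u c A (P + Q) z = colQ S u c A P z + colQ S u c A Q z := by
  simp only [colQ, Lam.germ_add, map_add, add_mul]

lemma colQ_C_mul (a : K) (P : K[X]) (z : St S u c) :
    colQ S u c A (C a * P) z = PowerSeries.C (algebraMap K A a) * colQ S u c A P z := by
  simp only [colQ, Lam.germ_mul, Lam.germ_C, map_mul, PowerSeries.map_C]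
  ring

/-- `lam p (R-column of rho * P)`, linear in `P` -/
noncomputable def PhiR (S : Shape) (u c : ℕ) (x : A) (p rho : K[X]) : K[X] →ₗ[K] A where
  toFun P := lam (zK S u c K) (mm S u c) p (colR S u c x (rho * P))
  map_add' P Q := by
    rw [← lam_add_right]
    congr 1
    funext z
    rw [mul_add, colR_add]
  map_smul' a P := by
    rw [RingHom.id_apply, smul_eq_C_mul, Algebra.smul_def, ← lam_C_mul_right]
    congr 1
    funext z
    rw [mul_left_comm, colR_C_mul]

/-- `lam p (Q-column of P)`, linear in `P` -/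
noncomputable def PhiQ (S : Shape) (u c : ℕ) (A : Type*) [CommRing A] [Algebra K A] (p : K[X]) :
    K[X] →ₗ[K] A where
  toFun P := lam (zK S u c K) (mm S u c) p (colQ S u c A P)
  map_add' P Q := by
    rw [← lam_add_right]
    congr 1
    funext z
    rw [colQ_add]
  map_smul' a P := by
    rw [RingHom.id_apply, smul_eq_C_mul, Algebra.smul_def, ← lam_C_mul_right]
    congr 1
    funext z
    rw [colQ_C_mul]

lemma PhiR_apply (p rho P : K[X]) : PhiR S u c x p rho P =
    lam (zK S u c K) (mm S u c) p (colR S u c x (rho * P)) := rfl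

lemma PhiQ_apply (p P : K[X]) : PhiQ S u c A p P =
    lam (zK S u c K) (mm S u c) p (colQ S u c A P) := rfl

lemma lmat_R (p bR bQ : ℕ → K[X]) (J : Fin c → Rw S u c) (rho : K[X]) (m : ℕ → K[X])
    (hb : ∀ l, bR l = rho * m l) :
    lmat S u c x p bR bQ J =
      blk (fun r => PhiR S u c x (p (cidx S u c r)) rho)
    (fun r t => lam (zK S u c K) (mm S u c) (p (cidx S u c r))
      (Sum.elim (fun l : Fin (S.g * u) => colQ S u c A (bQ l))
        (fun t => Lam.unitCol (mm S u c) A (J t)) t)) m := by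
  ext a b
  rw [lmat, Matrix.of_apply, blk, Matrix.of_apply]
  rcases b with b | b
  · rw [Sum.elim_inl, PhiR_apply, ← hb, col, Sum.elim_inl]
  · rw [Sum.elim_inr, col, Sum.elim_inr]

/-- change of the `R`-family -/
theorem det_lmat_R (p bR bR' bQ : ℕ → K[X]) (J : Fin c → Rw S u c) (rho : K[X]) (s : ℕ → K)
    {m m' : ℕ → K[X]} (hm : MonicFam m) (hm' : MonicFam m')
    (h1 : ∀ l, bR l = C (s l) * (rho * m l)) (h2 : ∀ l, bR' l = rho * m' l) :
    (lmat S u c x p bR bQ J).det =
      algebraMap K A (∏ k ∈ Finset.range (S.k * u), s k) *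
        (lmat S u c x p bR' bQ J).det := by
  rw [lmat_R x p bR bQ J rho (fun k => C (s k) * m k) (fun l => by rw [h1, mul_left_comm]),
    lmat_R x p bR' bQ J rho m' h2]
  exact det_blk_change _ _ m m' s hm hm'

/-- exchange of the first two blocks -/
def swp (S : Shape) (u c : ℕ) : Fin (S.g * u) ⊕ (Fin (S.k * u) ⊕ Fin c) ≃ CT S u c where
  toFun
    | .inl l => .inr (.inl l)
    | .inr (.inl l) => .inl l
    | .inr (.inr t) => .inr (.inr t)
  invFun
    | .inr (.inl l) => .inl l
    | .inl l => .inr (.inl l)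
    | .inr (.inr t) => .inr (.inr t)
  left_inv := by rintro (l | l | l) <;> rfl
  right_inv := by rintro (l | l | l) <;> rfl

lemma lmat_Q (p bR bQ : ℕ → K[X]) (J : Fin c → Rw S u c) :
    (lmat S u c x p bR bQ J).submatrix (swp S u c) (swp S u c) =
      blk (fun r => PhiQ S u c A (p (cidx S u c (swp S u c r))))
    (fun r t => lam (zK S u c K) (mm S u c) (p (cidx S u c (swp S u c r)))
      (Sum.elim (fun l : Fin (S.k * u) => colR S u c x (bR l))
        (fun t => Lam.unitCol (mm S u c) A (J t)) t)) bQ := by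
  ext a b
  rw [Matrix.submatrix_apply, lmat, Matrix.of_apply, blk, Matrix.of_apply]
  rcases b with b | b | b
  · rw [Sum.elim_inl, PhiQ_apply]
    rfl
  · rw [Sum.elim_inr, Sum.elim_inl]
    rfl
  · rw [Sum.elim_inr, Sum.elim_inr]
    rfl

/-- change of the `Q`-family -/
theorem det_lmat_Q (p bR bQ bQ' : ℕ → K[X]) (J : Fin c → Rw S u c) (s : ℕ → K)
    {m : ℕ → K[X]} (hm : MonicFam m) (hm' : MonicFam bQ') (h1 : ∀ l, bQ l = C (s l) * m l) :
    (lmat S u c x p bR bQ J).det =
      algebraMap K A (∏ k ∈ Finset.range (S.g * u), s k) *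
        (lmat S u c x p bR bQ' J).det := by
  rw [← Matrix.det_submatrix_equiv_self (swp S u c) (lmat S u c x p bR bQ J),
    ← Matrix.det_submatrix_equiv_self (swp S u c) (lmat S u c x p bR bQ' J),
    lmat_Q, lmat_Q, funext h1]
  exact det_blk_change _ _ m bQ' s hm hm'

/-- change of the test family -/
theorem det_lmat_test (bR bQ : ℕ → K[X]) (J : Fin c → Rw S u c)
    {p p' : ℕ → K[X]} (hp : MonicFam p) (hp' : MonicFam p') :
    (lmat S u c x p bR bQ J).det = (lmat S u c x p' bR bQ J).det := by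
  have h := det_test (zK S u c K) (mm S u c) (n := S.k * u + (S.g * u + c)) hp hp'
    (fun i => col S u c x bR bQ J ((phi S u c).symm i))
  have e : ∀ p : ℕ → K[X], (Matrix.of fun k c_1 : Fin (S.k * u + (S.g * u + c)) =>
      lam (zK S u c K) (mm S u c) (p k)
        (col S u c x bR bQ J ((phi S u c).symm c_1))).det = (lmat S u c x p bR bQ J).det := by
    intro p
    rw [← Matrix.det_submatrix_equiv_self (phi S u c)]
    congr 1
    ext a b
    rw [Matrix.submatrix_apply, Matrix.of_apply, lmat, Matrix.of_apply, phi_val]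
    simp only [Equiv.symm_apply_apply]
  rw [← e p, ← e p', h]

end lin

section main
variable {S : Shape} {u c : ℕ}

/-- the fixed factor of all `R`-columns -/
noncomputable def rho (S : Shape) (u : ℕ) : ℚ[X] := gauge S u * descPochhammer ℚ (S.a1 * u)

lemma polR_eq (l : ℕ) : polR S u l = C ((((S.a1 * u + l).factorial : ℕ) : ℚ)⁻¹) *
    (rho S u * (descPochhammer ℚ l).comp (X - C ((S.a1 * u : ℕ) : ℚ))) := by
  rw [polR, bin, rho, ← descPochhammer_mul, map_natCast]
  ring

variable (K : Type*) [Field K] [CharZero K]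
variable {A : Type*} [CommRing A] [Algebra K A] (x : A)

lemma polR_map (l : ℕ) : (polR S u l).map (algebraMap ℚ K) =
    C ((((S.a1 * u + l).factorial : ℕ) : K)⁻¹) *
    ((rho S u).map (algebraMap ℚ K) *
      (descPochhammer K l).comp (X - C ((S.a1 * u : ℕ) : K))) := by
  rw [polR_eq, Polynomial.map_mul, Polynomial.map_mul, Polynomial.map_C, map_inv₀, map_natCast,
    Polynomial.map_comp, descPochhammer_map, Polynomial.map_sub, Polynomial.map_X,
    Polynomial.map_C, map_natCast]

omit [CharZero K] in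
lemma monicFam_descComp (a : K) : MonicFam (fun l => (descPochhammer K l).comp (X - C a)) := by
  intro l
  refine ⟨(monic_descPochhammer K l).comp (monic_X_sub_C a) (by simp), ?_⟩
  rw [natDegree_comp, descPochhammer_natDegree, natDegree_X_sub_C, mul_one]

/-- the constant of `minor_eqK_monic` -/
noncomputable def kapM (S : Shape) (u c : ℕ)
    (e : Fin (S.k * u + (S.g * u + c)) ⊕ Fin (S.q * u) ≃ Rw S u c) : ℚ :=
  (∏ l ∈ Finset.range (S.k * u), (((S.a1 * u + l).factorial : ℕ) : ℚ)⁻¹) *
    ((∏ l ∈ Finset.range (S.g * u), ((l.factorial : ℕ) : ℚ)⁻¹) *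
    ((∏ l ∈ Finset.range (S.q * u), ((l.factorial : ℕ) : ℚ)⁻¹) *
    (vmat (zz S u c) (mm S u c) ℚ e).det))

lemma kapM_ne_zero (e : Fin (S.k * u + (S.g * u + c)) ⊕ Fin (S.q * u) ≃ Rw S u c) :
    kapM S u c e ≠ 0 := by
  refine mul_ne_zero ?_ (mul_ne_zero ?_ (mul_ne_zero ?_ ?_))
  · exact Finset.prod_ne_zero_iff.mpr fun l _ =>
      inv_ne_zero (Nat.cast_ne_zero.mpr (Nat.factorial_ne_zero _))
  · exact Finset.prod_ne_zero_iff.mpr fun l _ =>
      inv_ne_zero (Nat.cast_ne_zero.mpr (Nat.factorial_ne_zero _))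
  · exact Finset.prod_ne_zero_iff.mpr fun l _ =>
      inv_ne_zero (Nat.cast_ne_zero.mpr (Nat.factorial_ne_zero _))
  · exact det_vmat_ne_zero _ (zz_injective S u c) e

/-- **bordered form of the minor, arbitrary monic families** -/
theorem minor_eqK_monic (hk : S.q + S.g ≤ S.rows) (r : Col S u → D.Row) (hr : Adm S u c r) :
    ∃ (J : Fin c → Rw S u c) (e : Fin (S.k * u + (S.g * u + c)) ⊕ Fin (S.q * u) ≃ Rw S u c),
      Function.Injective J ∧ (∀ t i, toRow S u c (J t) ≠ r i) ∧
      ∃ s : ℤˣ, ∀ p bR bQ : ℕ → K[X], MonicFam p → MonicFam bR → MonicFam bQ →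
        eval₂ (fA K A) x (Minor S u r) = ((s : ℤ) : A) * (fA K A (kapM S u c e) *
          (lmat S u c x p (fun l => (rho S u).map (algebraMap ℚ K) * bR l) bQ J).det) := by
  obtain ⟨J, e, hJ, hJr, h⟩ := minor_eqK K x hk r hr
  obtain ⟨s, hs⟩ := h (fun k => X ^ k) monicFam_X
  refine ⟨J, e, hJ, hJr, s, ?_⟩
  intro p bR bQ hp hbR hbQ
  rw [hs]
  rw [det_lmat_R x _ _ (fun l => (rho S u).map (algebraMap ℚ K) * bR l) _ J
      ((rho S u).map (algebraMap ℚ K)) (fun l => (((S.a1 * u + l).factorial : ℕ) : K)⁻¹)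
      (monicFam_descComp K _) hbR (fun l => polR_map K l) (fun _ => rfl),
    det_lmat_Q x _ _ _ bQ J (fun l => ((l.factorial : ℕ) : K)⁻¹) (monicFam_desc K) hbQ
      (fun l => bin_map K l),
    det_lmat_test x _ _ J monicFam_X hp, kapM, kap]
  have f1 : algebraMap K A (∏ k ∈ Finset.range (S.k * u),
      (((S.a1 * u + k).factorial : ℕ) : K)⁻¹) =
      fA K A (∏ l ∈ Finset.range (S.k * u), (((S.a1 * u + l).factorial : ℕ) : ℚ)⁻¹) := by
    rw [fA, RingHom.comp_apply, map_prod (algebraMap ℚ K)]
    congr 1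
    refine Finset.prod_congr rfl fun l _ => ?_
    rw [map_inv₀, map_natCast]
  have f2 : algebraMap K A (∏ k ∈ Finset.range (S.g * u), ((k.factorial : ℕ) : K)⁻¹) =
      fA K A (∏ l ∈ Finset.range (S.g * u), ((l.factorial : ℕ) : ℚ)⁻¹) := by
    rw [fA, RingHom.comp_apply, map_prod (algebraMap ℚ K)]
    congr 1
    refine Finset.prod_congr rfl fun l _ => ?_
    rw [map_inv₀, map_natCast]
  rw [f1, f2]
  simp only [map_mul]
  ring

/-- `eval₂` through `K` is `aeval` -/
lemma eval₂_fA [Algebra ℚ A] (P : ℚ[X]) : eval₂ (fA K A) x P = aeval x P := by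
  rw [aeval_def]
  congr 1
  exact Subsingleton.elim _ _

end main

end Crest.Agent.R006.BordK
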