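import Crest.Agent.R006.Bord_89

/-!
# Row 6: `Minor` as a residue determinant (helper89)

`minor_eq`: for every commutative `ℚ`-algebra `A`, `x : A`, admissible `r` there are the `c` omitted
rows `J` with
`aeval x (Minor S u r) = ± algebraMap (kap * V) * det [lam (p k) (column)]`,
columns: `ρ bR_l ψ - τ(..)` (`l < k u`), `bQ_l g` (`l < g u`), unit vectors at `J t` (`t < c`),
for all monic families `p, bR, bQ`; `V` = confluent Vandermonde of all rows.
-/

set_option autoImplicit false

namespace Crest.Agent.R006.Bord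

open Polynomial Finset Crest.Agent.R006.D Crest.Agent.R006.NV Crest.Agent.R006.Lam

/-! ### the omitted rows -/

section border
variable {S : Shape} {u c : ℕ}

/-- rows of an admissible choice as labels -/
def selRow (r : Col S u → D.Row) (h : Adm S u c r) (i : Col S u) : Rw S u c :=
  ofRow S u c (r i) (h.2 i)

lemma toRow_selRow (r : Col S u → D.Row) (h : Adm S u c r) (i : Col S u) :
    toRow S u c (selRow r h i) = r i := rfl

lemma selRow_injective (r : Col S u → D.Row) (h : Adm S u c r) :
    Function.Injective (selRow r h) := by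
  intro i j hij
  apply h.1
  rw [← toRow_selRow r h i, ← toRow_selRow r h j, hij]

lemma card_Col (hk : S.q + S.g ≤ S.rows) : Fintype.card (Col S u) = S.rows * u := by
  have h1 : Fintype.card (Col S u) = S.k * u + (S.q * u + S.g * u) := by
    simp only [Col, Fintype.card_sum, Fintype.card_fin]
  rw [h1, ← add_mul, ← add_mul, Shape.k]
  congr 1
  omega

lemma exists_border (hk : S.q + S.g ≤ S.rows) (r : Col S u → D.Row) (h : Adm S u c r) :
    ∃ e : Col S u ⊕ Fin c ≃ Rw S u c, ∀ i, e (Sum.inl i) = selRow r h i := by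
  classical
  have hinj := selRow_injective r h
  have hcol := card_Col (u := u) hk
  have hcompl : Fintype.card ((Set.range (selRow r h))ᶜ : Set (Rw S u c)) = c := by
    rw [Fintype.card_compl_set, card_Rw, Set.card_range_of_injective hinj, hcol]
    omega
  exact ⟨(Equiv.sumCongr (Equiv.ofInjective _ hinj) (Fintype.equivFinOfCardEq hcompl).symm).trans
    (Equiv.Set.sumCompl _), fun i => rfl⟩

end border

/-! ### germ columns over an algebra -/

section cols
variable (S : Shape) (u c : ℕ) {A : Type*} [CommRing A] [Algebra ℚ A]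

/-- germs of `R ψ - τ(R)` with `ψ = psi0 - x psi1` -/
noncomputable def colR (x : A) (R : ℚ[X]) (z : St S u c) : PowerSeries A :=
  PowerSeries.map (algebraMap ℚ A) (germ (zz S u c z) R * psi0 z.1 - germ (zz S u c z) (tau R))
    - PowerSeries.C x * PowerSeries.map (algebraMap ℚ A) (germ (zz S u c z) R * psi1 z.1)

/-- germs of `Q g` -/
noncomputable def colQ (A : Type*) [CommRing A] [Algebra ℚ A] (Q : ℚ[X]) (z : St S u c) :
    PowerSeries A :=
  PowerSeries.map (algebraMap ℚ A) (germ (zz S u c z) Q * gam z.1)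

/-- all columns -/
noncomputable def fullCol (x : A) (fR fT fQ : ℕ → ℚ[X]) (J : Fin c → Rw S u c) :
    Col S u ⊕ Fin c → St S u c → PowerSeries A
  | .inl (.inl l) => colR S u c x (fR l)
  | .inl (.inr (.inl l)) => pgerm (zz S u c) A (fT l)
  | .inl (.inr (.inr l)) => colQ S u c A (fQ l)
  | .inr t => unitCol (mm S u c) A (J t)

/-- the full (bordered) matrix -/
noncomputable def fullMat (x : A) (fR fT fQ : ℕ → ℚ[X]) (e : Col S u ⊕ Fin c ≃ Rw S u c) :
    Matrix (Col S u ⊕ Fin c) (Col S u ⊕ Fin c) A :=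
  Matrix.of fun i j => PowerSeries.coeff ((e i).2 : ℕ)
    (fullCol S u c x fR fT fQ (fun t => e (Sum.inr t)) j (e i).1)

variable {S u c} in
lemma coeff_colR (x : A) (R : ℚ[X]) (z : St S u c) (n : ℕ) :
    PowerSeries.coeff n (colR S u c x R z) =
      algebraMap ℚ A (PowerSeries.coeff n (germ (zz S u c z) R * psi0 z.1
        - germ (zz S u c z) (tau R)))
      - x * algebraMap ℚ A (PowerSeries.coeff n (germ (zz S u c z) R * psi1 z.1)) := by
  rw [colR, map_sub, PowerSeries.coeff_map, PowerSeries.coeff_C_mul, PowerSeries.coeff_map]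

lemma aeval_entry (x : A) (ρ : Rw S u c) (j : Col S u) (J : Fin c → Rw S u c) :
    aeval x (entry S u (toRow S u c ρ) j) = PowerSeries.coeff (ρ.2 : ℕ)
      (fullCol S u c x (polR S u) bin bin J (Sum.inl j) ρ.1) := by
  rcases j with l | l | l
  · simp only [entry, fullCol, coeff_colR]
    rw [map_sub, map_mul, aeval_C, aeval_C, aeval_X]
    rfl
  · simp only [entry, fullCol]
    rw [aeval_C, pgerm, PowerSeries.coeff_map]
    rfl
  · simp only [entry, fullCol]
    rw [aeval_C, colQ, PowerSeries.coeff_map]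
    rfl

variable {S u c}

lemma det_fullMat (x : A) (r : Col S u → D.Row) (h : Adm S u c r)
    (e : Col S u ⊕ Fin c ≃ Rw S u c) (he : ∀ i, e (Sum.inl i) = selRow r h i) :
    (fullMat S u c x (polR S u) bin bin e).det = aeval x (Minor S u r) := by
  have h1 : aeval x (Minor S u r) = ((Mat S u r).map (aeval x)).det := by
    rw [Minor, AlgHom.map_det]; rfl
  have h2 : fullMat S u c x (polR S u) bin bin e = Matrix.fromBlocks ((Mat S u r).map (aeval x)) 0
      (Matrix.of fun i j => fullMat S u c x (polR S u) bin bin e (Sum.inr i) (Sum.inl j)) 1 := by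
    ext i j
    rcases i with i | i <;> rcases j with j | j
    · rw [Matrix.fromBlocks_apply₁₁, Matrix.map_apply, Mat, Matrix.of_apply, ← toRow_selRow r h i,
        aeval_entry S u c x _ j (fun t => e (Sum.inr t)), fullMat, Matrix.of_apply, he]
    · rw [Matrix.fromBlocks_apply₁₂, Matrix.zero_apply, fullMat, Matrix.of_apply]
      simp only [fullCol]
      rw [coeff_unitCol, if_neg]
      intro hh
      have := e.injective hh
      simp at this
    · rw [Matrix.fromBlocks_apply₂₁, Matrix.of_apply]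
    · rw [Matrix.fromBlocks_apply₂₂, fullMat, Matrix.of_apply]
      simp only [fullCol]
      rw [coeff_unitCol, Matrix.one_apply]
      congr 1
      rw [e.injective.eq_iff]
      simp
  rw [h2, Matrix.det_fromBlocks_zero₁₂, Matrix.det_one, mul_one, h1]

end cols

/-! ### shuffling -/

section shuffle
variable (S : Shape) (u c : ℕ)

/-- residue columns: `R`, `Q`, unit vectors -/
abbrev RC : Type := Fin (S.k * u) ⊕ (Fin (S.g * u) ⊕ Fin c)

/-- number of residue columns -/
abbrev nRC : ℕ := S.k * u + S.g * u + c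

/-- numbering of the residue columns -/
def rcEquiv : Fin (nRC S u c) ≃ RC S u c :=
  finSumFinEquiv.symm.trans ((Equiv.sumCongr finSumFinEquiv.symm (Equiv.refl _)).trans
    (Equiv.sumAssoc _ _ _))

/-- position of a residue column -/
def pos (k : RC S u c) : ℕ := ((rcEquiv S u c).symm k : ℕ)

lemma pos_inl (l : Fin (S.k * u)) : pos S u c (Sum.inl l) = l := by
  simp [pos, rcEquiv]

lemma pos_inr_inl (l : Fin (S.g * u)) : pos S u c (Sum.inr (Sum.inl l)) = S.k * u + l := by
  simp [pos, rcEquiv]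

lemma pos_inr_inr (t : Fin c) : pos S u c (Sum.inr (Sum.inr t)) = S.k * u + S.g * u + t := by
  simp [pos, rcEquiv]

lemma pos_rcEquiv (k : Fin (nRC S u c)) : pos S u c (rcEquiv S u c k) = k := by
  simp [pos]

/-- reordering of the columns -/
def shuf : RC S u c ⊕ Fin (S.q * u) ≃ Col S u ⊕ Fin c where
  toFun
    | .inl (.inl l) => .inl (.inl l)
    | .inl (.inr (.inl l)) => .inl (.inr (.inr l))
    | .inl (.inr (.inr t)) => .inr t
    | .inr l => .inl (.inr (.inl l))
  invFun
    | .inl (.inl l) => .inl (.inl l)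
    | .inl (.inr (.inr l)) => .inl (.inr (.inl l))
    | .inr t => .inl (.inr (.inr t))
    | .inl (.inr (.inl l)) => .inr l
  left_inv := by rintro ((l | (l | t)) | l) <;> rfl
  right_inv := by rintro ((l | (l | l)) | t) <;> rfl

/-- the labels in the order `R, Q, unit, T` -/
def sig : Fin (nRC S u c) ⊕ Fin (S.q * u) ≃ Col S u ⊕ Fin c :=
  (Equiv.sumCongr (rcEquiv S u c) (Equiv.refl _)).trans (shuf S u c)

end shuffle

section res
variable (S : Shape) (u c : ℕ) {A : Type*} [CommRing A] [Algebra ℚ A]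

/-- residue columns with arbitrary polynomials -/
noncomputable def resCol (x : A) (fR fQ : ℕ → ℚ[X]) (J : Fin c → Rw S u c) :
    RC S u c → St S u c → PowerSeries A
  | .inl l => colR S u c x (fR l)
  | .inr (.inl l) => colQ S u c A (fQ l)
  | .inr (.inr t) => unitCol (mm S u c) A (J t)

/-- the residue matrix: row `k` = test polynomial `p (pos k)` -/
noncomputable def resMat (x : A) (p fR fQ : ℕ → ℚ[X]) (J : Fin c → Rw S u c) :
    Matrix (RC S u c) (RC S u c) A :=
  Matrix.of fun k j => lam (zz S u c) (mm S u c) (p (pos S u c k)) (resCol S u c x fR fQ J j)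

/-- the confluent Vandermonde of all rows -/
noncomputable def VV (e : Col S u ⊕ Fin c ≃ Rw S u c) : ℚ :=
  (vmat (zz S u c) (mm S u c) ℚ ((sig S u c).trans e)).det

variable {S u c}

/-- residue identity for monic `T`-columns -/
lemma det_fullMat_monic (x : A) (fR fT fQ p : ℕ → ℚ[X]) (hp : MonicFam p) (hT : MonicFam fT)
    (e : Col S u ⊕ Fin c ≃ Rw S u c) :
    ∃ s : ℤˣ, (fullMat S u c x fR fT fQ e).det = ((s : ℤ) : A) * (algebraMap ℚ A (VV S u c e) *
      (resMat S u c x p fR fQ fun t => e (Sum.inr t)).det) := by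
  obtain ⟨s, hs⟩ := det_mat_eq (A := A) (z := zz S u c) (mm S u c) (zz_injective S u c) p fT hp hT
    ((sig S u c).trans e)
    (fun k => resCol S u c x fR fQ (fun t => e (Sum.inr t)) (rcEquiv S u c k))
  refine ⟨s, ?_⟩
  have h1 : (fullMat S u c x fR fT fQ e).det = (mat (mm S u c) ((sig S u c).trans e)
      (Sum.elim (fun k => resCol S u c x fR fQ (fun t => e (Sum.inr t)) (rcEquiv S u c k))
        fun l : Fin (S.q * u) => pgerm (zz S u c) A (fT l))).det := by
    rw [← Matrix.det_submatrix_equiv_self (sig S u c)]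
    congr 1
    ext i j
    rw [Matrix.submatrix_apply, fullMat, Matrix.of_apply, mat, Matrix.of_apply]
    have h2 : fullCol S u c x fR fT fQ (fun t => e (Sum.inr t)) (sig S u c j) =
        Sum.elim (fun k => resCol S u c x fR fQ (fun t => e (Sum.inr t)) (rcEquiv S u c k))
          (fun l : Fin (S.q * u) => pgerm (zz S u c) A (fT l)) j := by
      rcases j with k | l
      · have h3 : sig S u c (Sum.inl k) = shuf S u c (Sum.inl (rcEquiv S u c k)) := rfl
        rw [h3, Sum.elim_inl]
        rcases rcEquiv S u c k with l | (l | t) <;> rfl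
      · rfl
    rw [h2]
    rfl
  have h4 : (Matrix.of fun k j : Fin (nRC S u c) => lam (zz S u c) (mm S u c) (p k)
      (resCol S u c x fR fQ (fun t => e (Sum.inr t)) (rcEquiv S u c j))).det =
      (resMat S u c x p fR fQ fun t => e (Sum.inr t)).det := by
    rw [← Matrix.det_submatrix_equiv_self (rcEquiv S u c)]
    congr 1
    ext k j
    rw [Matrix.submatrix_apply, resMat, Matrix.of_apply, Matrix.of_apply, pos_rcEquiv]
  rw [h1, hs, h4, vmat_eq_map, VV, RingHom.map_det, RingHom.mapMatrix_apply]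

/-! ### linearity of the columns -/

lemma colR_C_mul (x : A) (a : ℚ) (R : ℚ[X]) (z : St S u c) :
    colR S u c x (C a * R) z = PowerSeries.C (algebraMap ℚ A a) * colR S u c x R z := by
  have h1 : tau (C a * R) = C a * tau R := by
    simp only [tau, ← smul_eq_C_mul, map_smul]
  rw [colR, colR, h1, germ_mul, germ_mul, germ_C, mul_assoc, mul_assoc, ← mul_sub, map_mul,
    map_mul (PowerSeries.map (algebraMap ℚ A)) (PowerSeries.C a), PowerSeries.map_C]
  ring

lemma colR_add (x : A) (R R' : ℚ[X]) (z : St S u c) :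
    colR S u c x (R + R') z = colR S u c x R z + colR S u c x R' z := by
  have h1 : tau (R + R') = tau R + tau R' := by simp only [tau, map_add]
  simp only [colR, h1, germ_add, map_sub, map_mul, map_add]
  ring

lemma colQ_C_mul (a : ℚ) (Q : ℚ[X]) (z : St S u c) :
    colQ S u c A (C a * Q) z = PowerSeries.C (algebraMap ℚ A a) * colQ S u c A Q z := by
  rw [colQ, colQ, germ_mul, germ_C, mul_assoc, map_mul, PowerSeries.map_C]

lemma colQ_add (Q Q' : ℚ[X]) (z : St S u c) :
    colQ S u c A (Q + Q') z = colQ S u c A Q z + colQ S u c A Q' z := by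
  simp only [colQ, germ_add, map_mul, map_add]
  ring

lemma lam_add_right (p : ℚ[X]) (F G : St S u c → PowerSeries A) :
    lam (zz S u c) (mm S u c) p (fun z => F z + G z)
      = lam (zz S u c) (mm S u c) p F + lam (zz S u c) (mm S u c) p G := by
  simp only [lam, map_add, mul_add, Finset.sum_add_distrib]

/-- `R ↦ lam p (ρ R ψ - τ)` is linear -/
noncomputable def PhiR (x : A) (ρ : ℚ[X]) (p : ℕ → ℚ[X]) :
    ℚ[X] →ₗ[ℚ] (RC S u c → A) where
  toFun R k := lam (zz S u c) (mm S u c) (p (pos S u c k)) (colR S u c x (ρ * R))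
  map_add' R R' := by
    funext k
    have : colR S u c x (ρ * (R + R')) =
        fun z => colR S u c x (ρ * R) z + colR S u c x (ρ * R') z := by
      funext z; rw [mul_add, colR_add]
    rw [this, lam_add_right]; rfl
  map_smul' a R := by
    funext k
    have : colR S u c x (ρ * (a • R)) =
        fun z => PowerSeries.C (algebraMap ℚ A a) * colR S u c x (ρ * R) z := by
      funext z; rw [smul_eq_C_mul, mul_left_comm, colR_C_mul]
    rw [this, lam_C_mul_right, Pi.smul_apply, Algebra.smul_def]; rfl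

/-- the columns `inl` and `inr (inl)` exchanged -/
def swapRC (S : Shape) (u c : ℕ) : Fin (S.g * u) ⊕ (Fin (S.k * u) ⊕ Fin c) ≃ RC S u c where
  toFun
    | .inl l => .inr (.inl l)
    | .inr (.inl l) => .inl l
    | .inr (.inr t) => .inr (.inr t)
  invFun
    | .inr (.inl l) => .inl l
    | .inl l => .inr (.inl l)
    | .inr (.inr t) => .inr (.inr t)
  left_inv := by rintro (l | (l | t)) <;> rfl
  right_inv := by rintro (l | (l | t)) <;> rfl

/-- `Q ↦ lam p (σ Q g)` is linear -/
noncomputable def PhiQ (A : Type*) [CommRing A] [Algebra ℚ A] (σ : ℚ[X]) (p : ℕ → ℚ[X]) :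
    ℚ[X] →ₗ[ℚ] (Fin (S.g * u) ⊕ (Fin (S.k * u) ⊕ Fin c) → A) where
  toFun Q k := lam (zz S u c) (mm S u c) (p (pos S u c (swapRC S u c k)))
    (colQ S u c A (σ * Q))
  map_add' R R' := by
    funext k
    have : colQ S u c A (σ * (R + R')) =
        fun z => colQ S u c A (σ * R) z + colQ S u c A (σ * R') z := by
      funext z; rw [mul_add, colQ_add]
    rw [this, lam_add_right]; rfl
  map_smul' a R := by
    funext k
    have : colQ S u c A (σ * (a • R)) =
        fun z => PowerSeries.C (algebraMap ℚ A a) * colQ S u c A (σ * R) z := by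
      funext z; rw [smul_eq_C_mul, mul_left_comm, colQ_C_mul]
    rw [this, lam_C_mul_right, Pi.smul_apply, Algebra.smul_def]; rfl

lemma det_resMat_test (x : A) {p p' : ℕ → ℚ[X]} (hp : MonicFam p) (hp' : MonicFam p')
    (fR fQ : ℕ → ℚ[X]) (J : Fin c → Rw S u c) :
    (resMat S u c x p fR fQ J).det = (resMat S u c x p' fR fQ J).det := by
  have key : ∀ p : ℕ → ℚ[X], (resMat S u c x p fR fQ J).det =
      (Matrix.of fun k j : Fin (nRC S u c) => lam (zz S u c) (mm S u c) (p k)
        (resCol S u c x fR fQ J (rcEquiv S u c j))).det := by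
    intro p
    rw [← Matrix.det_submatrix_equiv_self (rcEquiv S u c)]
    congr 1
    ext k j
    rw [Matrix.submatrix_apply, resMat, Matrix.of_apply, Matrix.of_apply, pos_rcEquiv]
  rw [key, key]
  exact det_test _ _ hp hp' fun j => resCol S u c x fR fQ J (rcEquiv S u c j)

lemma det_resMat_R (x : A) (p : ℕ → ℚ[X]) (ρ : ℚ[X]) {bR bR' : ℕ → ℚ[X]}
    (hR : MonicFam bR) (hR' : MonicFam bR') (fQ : ℕ → ℚ[X]) (J : Fin c → Rw S u c) :
    (resMat S u c x p (fun l => ρ * bR l) fQ J).det =
      (resMat S u c x p (fun l => ρ * bR' l) fQ J).det := by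
  have key : ∀ b : ℕ → ℚ[X], resMat S u c x p (fun l => ρ * b l) fQ J =
      Matrix.of fun r j : RC S u c => Sum.elim (fun l : Fin (S.k * u) => PhiR x ρ p (b l) r)
        (fun g => lam (zz S u c) (mm S u c) (p (pos S u c r))
          (resCol S u c x (fun l => ρ * b 0) fQ J (Sum.inr g))) j := by
    intro b
    ext r j
    rcases j with l | (l | t) <;> rfl
  have key2 : ∀ (b : ℕ → ℚ[X]) (g : Fin (S.g * u) ⊕ Fin c),
      resCol S u c x (fun _ => ρ * b 0) fQ J (Sum.inr g) =
        resCol S u c x (fun _ => 0) fQ J (Sum.inr g) := by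
    intro b g
    rcases g with l | t <;> rfl
  rw [key bR, key bR']
  simp only [key2]
  exact det_cols (PhiR x ρ p) _ hR hR'

lemma det_resMat_Q (x : A) (p : ℕ → ℚ[X]) (σ : ℚ[X]) {bQ bQ' : ℕ → ℚ[X]}
    (hQ : MonicFam bQ) (hQ' : MonicFam bQ') (fR : ℕ → ℚ[X]) (J : Fin c → Rw S u c) :
    (resMat S u c x p fR (fun l => σ * bQ l) J).det =
      (resMat S u c x p fR (fun l => σ * bQ' l) J).det := by
  have key : ∀ b : ℕ → ℚ[X], (resMat S u c x p fR (fun l => σ * b l) J).submatrix
      (swapRC S u c) (swapRC S u c) =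
      Matrix.of fun r j : Fin (S.g * u) ⊕ (Fin (S.k * u) ⊕ Fin c) =>
        Sum.elim (fun l : Fin (S.g * u) => PhiQ A σ p (b l) r)
        (fun g => lam (zz S u c) (mm S u c) (p (pos S u c (swapRC S u c r)))
          (resCol S u c x fR (fun _ => 0) J (swapRC S u c (Sum.inr g)))) j := by
    intro b
    ext r j
    rcases j with l | (l | t) <;> rfl
  rw [← Matrix.det_submatrix_equiv_self (swapRC S u c), key bQ,
    ← Matrix.det_submatrix_equiv_self (swapRC S u c) (resMat S u c x p fR _ J), key bQ']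
  exact det_cols (PhiQ A σ p) _ hQ hQ'

/-- **freedom of all monic bases** in the residue matrix -/
theorem det_resMat_base (x : A) {p p' bR bR' bQ bQ' : ℕ → ℚ[X]} (hp : MonicFam p)
    (hp' : MonicFam p') (hR : MonicFam bR) (hR' : MonicFam bR') (hQ : MonicFam bQ)
    (hQ' : MonicFam bQ') (ρ σ : ℚ[X]) (J : Fin c → Rw S u c) :
    (resMat S u c x p (fun l => ρ * bR l) (fun l => σ * bQ l) J).det =
      (resMat S u c x p' (fun l => ρ * bR' l) (fun l => σ * bQ' l) J).det := by
  rw [det_resMat_test x hp hp', det_resMat_R x p' ρ hR hR', det_resMat_Q x p' σ hQ hQ']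

/-! ### scaling of the columns -/

/-- scaling factors of all columns -/
noncomputable def scl (A : Type*) [CommRing A] [Algebra ℚ A] (vR vT vQ : ℕ → ℚ) :
    Col S u ⊕ Fin c → A
  | .inl (.inl l) => algebraMap ℚ A (vR l)
  | .inl (.inr (.inl l)) => algebraMap ℚ A (vT l)
  | .inl (.inr (.inr l)) => algebraMap ℚ A (vQ l)
  | .inr _ => 1

lemma det_fullMat_scale (x : A) (fR fT fQ gR gT gQ : ℕ → ℚ[X]) (vR vT vQ : ℕ → ℚ)
    (hR : ∀ l, fR l = C (vR l) * gR l) (hT : ∀ l, fT l = C (vT l) * gT l)
    (hQ : ∀ l, fQ l = C (vQ l) * gQ l) (e : Col S u ⊕ Fin c ≃ Rw S u c) :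
    (fullMat S u c x fR fT fQ e).det =
      algebraMap ℚ A ((∏ l : Fin (S.k * u), vR l) * ((∏ l : Fin (S.q * u), vT l) *
        ∏ l : Fin (S.g * u), vQ l)) * (fullMat S u c x gR gT gQ e).det := by
  have h1 : fullMat S u c x fR fT fQ e =
      Matrix.of fun i j => scl (S := S) (u := u) (c := c) A vR vT vQ j
        * fullMat S u c x gR gT gQ e i j := by
    ext i j
    rw [fullMat, fullMat, Matrix.of_apply, Matrix.of_apply, Matrix.of_apply]
    rcases j with (l | (l | l)) | t
    · simp only [fullCol, scl, hR, colR_C_mul, PowerSeries.coeff_C_mul]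
    · simp only [fullCol, scl, hT, pgerm, germ_mul, germ_C, map_mul, PowerSeries.map_C,
        PowerSeries.coeff_C_mul]
    · simp only [fullCol, scl, hQ, colQ_C_mul, PowerSeries.coeff_C_mul]
    · simp only [fullCol, scl, one_mul]
  rw [h1, Matrix.det_mul_row]
  congr 1
  rw [Fintype.prod_sum_type, Fintype.prod_sum_type, Fintype.prod_sum_type]
  simp only [scl, Finset.prod_const_one, mul_one, map_mul, map_prod]

end res

/-! ### the gauge -/

section gauge
variable (S : Shape) (u : ℕ)

/-- the monic gauge polynomial of the `R`-columns (with the zeros `0..a1 u - 1`) -/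
noncomputable def rho : ℚ[X] :=
  descPochhammer ℚ (S.a2 * u)
    * (descPochhammer ℚ (S.i1 * u)).comp (X + C ((S.i1 * u : ℕ) - 1 / 2 : ℚ))
    * (descPochhammer ℚ (S.r1 * u)).comp (X + C ((S.r1 * u : ℕ) : ℚ))
    * descPochhammer ℚ (S.a1 * u)

lemma rho_monic : (rho S u).Monic :=
  (((monic_descPochhammer ℚ _).mul ((monic_descPochhammer ℚ _).comp_X_add_C _)).mul
    ((monic_descPochhammer ℚ _).comp_X_add_C _)).mul (monic_descPochhammer ℚ _)

/-- normalisation of the `l`-th `R`-column -/
noncomputable def vR (l : ℕ) : ℚ :=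
  (((S.a2 * u).factorial : ℚ)⁻¹ * ((S.i1 * u).factorial : ℚ)⁻¹ * ((S.r1 * u).factorial : ℚ)⁻¹)
    * ((S.a1 * u + l).factorial : ℚ)⁻¹

lemma polR_eq (l : ℕ) : polR S u l = C (vR S u l) *
    (rho S u * (descPochhammer ℚ l).comp (X - ((S.a1 * u : ℕ) : ℚ[X]))) := by
  have h := descPochhammer_mul ℚ (S.a1 * u) l
  simp only [polR, D.gauge, bin, vR, rho, ← h, mul_comp, C_comp, C_mul]
  ring

lemma monicFam_desc (n : ℕ) :
    MonicFam fun l => (descPochhammer ℚ l).comp (X - ((n : ℕ) : ℚ[X])) := by
  intro l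
  have e : (X - ((n : ℕ) : ℚ[X])) = X + C (-(n : ℚ)) := by simp [sub_eq_add_neg]
  refine ⟨?_, ?_⟩
  · simp only [e]
    exact (monic_descPochhammer ℚ l).comp_X_add_C _
  · simp only [e]
    rw [natDegree_comp, natDegree_X_add_C, mul_one, descPochhammer_natDegree]

lemma monicFam_desc0 : MonicFam (descPochhammer ℚ) :=
  fun l => ⟨monic_descPochhammer ℚ l, descPochhammer_natDegree ℚ l⟩

/-- the total normalisation -/
noncomputable def kap : ℚ :=
  (∏ l : Fin (S.k * u), vR S u l) * ((∏ l : Fin (S.q * u), (((l : ℕ).factorial : ℚ)⁻¹)) *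
    ∏ l : Fin (S.g * u), (((l : ℕ).factorial : ℚ)⁻¹))

end gauge

/-- **`Minor` as a residue determinant.** -/
theorem minor_eq {S : Shape} {u c : ℕ} {A : Type*} [CommRing A] [Algebra ℚ A]
    (hk : S.q + S.g ≤ S.rows) (x : A) (r : Col S u → D.Row) (h : Adm S u c r)
    {p bR bQ : ℕ → ℚ[X]} (hp : MonicFam p) (hR : MonicFam bR) (hQ : MonicFam bQ) :
    ∃ (e : Col S u ⊕ Fin c ≃ Rw S u c) (s : ℤˣ), (∀ i, toRow S u c (e (Sum.inl i)) = r i) ∧
      aeval x (Minor S u r) = ((s : ℤ) : A) * (algebraMap ℚ A (kap S u * VV S u c e) *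
        (resMat S u c x p (fun l => rho S u * bR l) bQ fun t => e (Sum.inr t)).det) := by
  obtain ⟨e, he⟩ := exists_border hk r h
  have h1 := det_fullMat x r h e he
  have h2 := det_fullMat_scale x (polR S u) bin bin
    (fun l => rho S u * (descPochhammer ℚ l).comp (X - ((S.a1 * u : ℕ) : ℚ[X])))
    (descPochhammer ℚ) (descPochhammer ℚ) (vR S u) (fun l => ((l : ℕ).factorial : ℚ)⁻¹)
    (fun l => ((l : ℕ).factorial : ℚ)⁻¹) (polR_eq S u) (fun l => rfl) (fun l => rfl) e
  obtain ⟨s, hs⟩ := det_fullMat_monic x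
    (fun l => rho S u * (descPochhammer ℚ l).comp (X - ((S.a1 * u : ℕ) : ℚ[X])))
    (descPochhammer ℚ) (descPochhammer ℚ) p hp monicFam_desc0 e
  refine ⟨e, s, fun i => by rw [he, toRow_selRow], ?_⟩
  have h3 := det_resMat_R x p (rho S u) (monicFam_desc (S.a1 * u)) hR (descPochhammer ℚ)
    (fun t => e (Sum.inr t))
  have h4 := det_resMat_Q x p 1 monicFam_desc0 hQ (fun l => rho S u * bR l)
    (fun t => e (Sum.inr t))
  simp only [one_mul] at h4
  rw [← h1, h2, hs, h3, h4]
  simp only [kap, map_mul]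
  ring

end Crest.Agent.R006.Bord
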