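import Crest.Agent.R006.Defs_89

/-!
# Row 6: base change of the germs (helper189)

All germs of `Defs_89` commute with a homomorphism `f : K →+* K'` of fields.

* `map_inv`, `map_bi`, `map_pt`: the basic facts; `map_PsiZ`, `map_GamZ`, `map_PsiH0`, `map_GamH0`,
  `map_psiG`, `map_gG`;
* `map_EE`, `map_pinf`, `map_cinf`, `map_Tpart`;
* `map_germ`, `map_Nhat`, `map_NS`, `map_wt`, `map_u`, `map_lam`, `map_lam_alg`;
* `map_Fgerm`, `map_colK`, `map_lam_colK`, `map_det_colK`.
-/

set_option autoImplicit false

namespace Crest.Agent.R006.Map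

open Polynomial Finset

variable {K K' : Type*} [Field K] [Field K'] (f : K →+* K')

/-! ### inverses of power series -/

lemma constantCoeff_map (x : PowerSeries K) :
    PowerSeries.constantCoeff (PowerSeries.map f x) = f (PowerSeries.constantCoeff x) := by
  rw [← PowerSeries.coeff_zero_eq_constantCoeff_apply, PowerSeries.coeff_map,
    PowerSeries.coeff_zero_eq_constantCoeff_apply]

lemma map_inv (x : PowerSeries K) : PowerSeries.map f x⁻¹ = (PowerSeries.map f x)⁻¹ := by
  by_cases h : PowerSeries.constantCoeff x = 0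
  · have h' : PowerSeries.constantCoeff (PowerSeries.map f x) = 0 := by
      rw [constantCoeff_map, h, map_zero]
    rw [PowerSeries.inv_eq_zero.mpr h, PowerSeries.inv_eq_zero.mpr h', map_zero]
  · have h' : PowerSeries.constantCoeff (PowerSeries.map f x) ≠ 0 := by
      rw [constantCoeff_map]
      exact fun h0 => h ((map_eq_zero f).mp h0)
    rw [PowerSeries.eq_inv_iff_mul_eq_one h', ← map_mul, PowerSeries.inv_mul_cancel x h, map_one]

/-! ### the chains -/

lemma map_pt (s : K) : PowerSeries.map f (NV.pt s) = NV.pt (f s) := by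
  simp [NV.pt]

lemma map_bi (a b c : ℤ → PowerSeries K) (init : PowerSeries K) (i : ℤ) :
    PowerSeries.map f (NV.bi a b c init i) =
      NV.bi (fun i => PowerSeries.map f (a i)) (fun i => PowerSeries.map f (b i))
        (fun i => PowerSeries.map f (c i)) (PowerSeries.map f init) i := by
  rcases i with n | n
  · induction n with
    | zero => rfl
    | succ n ih =>
      have e : (Int.ofNat (n + 1) : ℤ) = ((n + 1 : ℕ) : ℤ) := rfl
      have e' : (Int.ofNat n : ℤ) = ((n : ℕ) : ℤ) := rfl
      rw [e'] at ih
      rw [e, NV.bi_succ, NV.bi_succ, map_mul, map_inv, map_sub, map_mul, ih]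
  · induction n with
    | zero =>
      have e2 : (Int.negSucc 0 : ℤ) = -1 := rfl
      rw [e2, NV.bi_negOne, NV.bi_negOne, map_mul, map_inv, map_sub, map_mul]
    | succ n ih =>
      rw [NV.bi_negSucc, NV.bi_negSucc, map_mul, map_inv, map_sub, map_mul, ih]

lemma map_two : PowerSeries.map f (2 : PowerSeries K) = 2 := map_ofNat _ 2

lemma map_three : PowerSeries.map f (3 : PowerSeries K) = 3 := map_ofNat _ 3

lemma map_half : f (1 / 2) = 1 / 2 := by
  rw [map_div₀, map_one, map_ofNat]

lemma map_quarter : f (1 / 4) = 1 / 4 := by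
  rw [map_div₀, map_one, map_ofNat]

theorem map_PsiZ (c : K) (i : ℤ) :
    PowerSeries.map f (NV.PsiZ c i) = NV.PsiZ (f c) i := by
  unfold NV.PsiZ
  rw [map_bi]
  congr 1
  · funext i
    rw [map_pow, map_pt, map_add, map_intCast, map_one]
  · funext i
    rw [map_pow, map_add, map_mul, map_two, map_pt, map_intCast, map_one]
  · funext i
    rw [map_neg, map_mul, map_add, map_mul, map_two, map_three, map_pt, map_intCast,
      PowerSeries.map_C, map_half]
  · rw [PowerSeries.map_C]

theorem map_GamZ (i : ℤ) :
    PowerSeries.map f (NV.GamZ i) = NV.GamZ i := by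
  unfold NV.GamZ
  rw [map_bi]
  congr 1
  · funext i
    rw [map_pow, map_pt, map_add, map_intCast, map_one]
  · funext i
    rw [map_neg, map_mul, map_pow, map_add, map_mul, map_two, map_pt, map_intCast, map_one,
      PowerSeries.map_C, map_quarter]
  · funext i
    rw [map_zero]
  · rw [map_one]

theorem map_PsiH0 (i : ℤ) :
    PowerSeries.map f (NV.PsiH0 i) = NV.PsiH0 i := by
  unfold NV.PsiH0
  rw [map_bi]
  congr 1
  · funext i
    rw [map_pow, map_pt, map_add, map_sub, map_intCast, map_one, map_half]
  · funext i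
    rw [map_pow, map_add, map_mul, map_two, map_pt, map_sub, map_intCast, map_one, map_half]
  · funext i
    rw [map_neg, map_mul, map_add, map_mul, map_two, map_three, map_pt, map_sub, map_intCast,
      PowerSeries.map_C, map_half]
  · rw [map_zero]

theorem map_PsiH (i : ℤ) :
    PowerSeries.map f (NV.PsiH i) = NV.PsiH i := map_PsiH0 f (i + 1)

/-- the version of `NVChain_664`, value `lam` at `-1/2` -/
theorem map_NVGamH0 (lam : K) (i : ℤ) :
    PowerSeries.map f (NV.GamH0 lam i) = NV.GamH0 (f lam) i := by
  unfold NV.GamH0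
  rw [map_bi]
  congr 1
  · funext i
    rw [map_pow, map_pt, map_add, map_sub, map_intCast, map_one, map_half]
  · funext i
    rw [map_neg, map_mul, map_pow, map_add, map_mul, map_two, map_pt, map_sub, map_intCast,
      map_one, PowerSeries.map_C, map_quarter, map_half]
  · funext i
    rw [map_zero]
  · rw [PowerSeries.map_C]

theorem map_NVGamH (lam : K) (i : ℤ) :
    PowerSeries.map f (NV.GamH lam i) = NV.GamH (f lam) i := map_NVGamH0 f lam (i + 1)

/-- the version of `Defs_89`, value `1` at `-1/2` -/
theorem map_GamH0 (i : ℤ) :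
    PowerSeries.map f (GamH0 i) = GamH0 i := by
  unfold GamH0
  rw [map_bi]
  congr 1
  · funext i
    rw [map_pow, map_pt, map_add, map_sub, map_intCast, map_one, map_half]
  · funext i
    rw [map_neg, map_mul, map_pow, map_add, map_mul, map_two, map_pt, map_sub, map_intCast,
      map_one, PowerSeries.map_C, map_quarter, map_half]
  · funext i
    rw [map_zero]
  · rw [map_one]

theorem map_psiG (c : K) (k : ℤ) :
    PowerSeries.map f (psiG c k) = psiG (f c) k := by
  unfold psiG
  split_ifs with h
  · rw [map_PsiZ, map_neg]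
  · rw [map_PsiH0]

theorem map_gG (k : ℤ) :
    PowerSeries.map f (gG k) = gG k := by
  unfold gG
  split_ifs with h
  · rw [map_GamZ]
  · rw [map_GamH0]

/-! ### the solution at infinity -/

lemma map_EE (M : ℕ) (p : K[X]) : (NV.EE M p).map f = NV.EE M (p.map f) := by
  unfold NV.EE
  simp only [Polynomial.map_add, Polynomial.map_mul, Polynomial.map_pow, Polynomial.map_X,
    Polynomial.map_one, Polynomial.map_ofNat, Polynomial.map_C, map_half, Polynomial.map_taylor,
    map_one]

lemma map_pinf (M : ℕ) : (NV.pinf M : K[X]).map f = NV.pinf M := by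
  induction M with
  | zero => exact Polynomial.map_zero f
  | succ M ih =>
    simp only [NV.pinf]
    rw [Polynomial.map_add, Polynomial.map_mul, Polynomial.map_X, ih, Polynomial.map_C, map_mul,
      map_neg, map_div₀, map_one, map_ofNat, ← Polynomial.coeff_map, map_EE, ih]

theorem map_cinf (M : ℕ) : f (NV.cinf M) = NV.cinf M := by
  cases M with
  | zero => exact map_zero f
  | succ M =>
    simp only [NV.cinf]
    rw [map_mul, map_neg, map_div₀, map_one, map_ofNat, ← Polynomial.coeff_map, map_EE, map_pinf]

lemma Tpart_eq_sum_range (R : K[X]) :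
    Tpart R = ∑ n ∈ range (R.natDegree + 1),
      ∑ i ∈ Finset.range (n + 1), C (R.coeff n * NV.cinf i) * X ^ (n - i) := by
  unfold Tpart
  rw [Polynomial.sum_over_range]
  intro n
  simp

theorem map_Tpart (R : K[X]) : (Tpart R).map f = Tpart (R.map f) := by
  rw [Tpart_eq_sum_range, Tpart_eq_sum_range, Polynomial.natDegree_map, Polynomial.map_sum]
  refine Finset.sum_congr rfl fun n _ => ?_
  rw [Polynomial.map_sum]
  refine Finset.sum_congr rfl fun i _ => ?_
  rw [Polynomial.map_mul, Polynomial.map_pow, Polynomial.map_X, Polynomial.map_C, map_mul,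
    map_cinf, Polynomial.coeff_map]

/-! ### germs of polynomials and the functionals -/

theorem map_germ (x : K) (p : K[X]) :
    PowerSeries.map f (Lam.germ x p) = Lam.germ (f x) (p.map f) := by
  unfold Lam.germ
  rw [← Polynomial.polynomial_map_coe, Polynomial.map_taylor]

theorem map_gm (x : K) (p : K[X]) :
    PowerSeries.map f (NV.gm x p) = NV.gm (f x) (p.map f) := map_germ f x p

theorem map_FF (s : K) (R T Q : K[X]) (ψ g : PowerSeries K) :
    PowerSeries.map f (NV.FF s R T Q ψ g) =
      NV.FF (f s) (R.map f) (T.map f) (Q.map f) (PowerSeries.map f ψ) (PowerSeries.map f g) := by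
  unfold NV.FF
  rw [map_sub, map_sub, map_mul, map_mul, map_gm, map_gm, map_gm]

section
variable {ι : Type*} [Fintype ι] (z : ι → K) (m : ι → ℕ)

theorem map_NS : (Lam.NS z m).map f = Lam.NS (fun i => f (z i)) m := by
  unfold Lam.NS
  rw [Polynomial.map_prod]
  refine Finset.prod_congr rfl fun l _ => ?_
  rw [Polynomial.map_pow, Polynomial.map_sub, Polynomial.map_X, Polynomial.map_C]

variable [DecidableEq ι]

theorem map_Nhat (i : ι) : (Lam.Nhat z m i).map f = Lam.Nhat (fun i => f (z i)) m i := by
  unfold Lam.Nhat
  rw [Polynomial.map_prod]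
  refine Finset.prod_congr rfl fun l _ => ?_
  rw [Polynomial.map_pow, Polynomial.map_sub, Polynomial.map_X, Polynomial.map_C]

theorem map_wt (p : K[X]) (i : ι) :
    PowerSeries.map f (Lam.wt z m p i) = Lam.wt (fun i => f (z i)) m (p.map f) i := by
  unfold Lam.wt
  rw [map_mul, map_inv, map_germ, map_germ, map_Nhat]

theorem map_u (p : K[X]) (r : Lam.Row m) :
    f (Lam.u z m p r) = Lam.u (fun i => f (z i)) m (p.map f) r := by
  unfold Lam.u
  rw [← map_wt, PowerSeries.coeff_map]

theorem map_Phi (p : K[X]) (r : Lam.Row m) :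
    f (Lam.Phi z m p r) = Lam.Phi (fun i => f (z i)) m (p.map f) r := by
  unfold Lam.Phi
  rw [← map_wt, PowerSeries.coeff_map]

theorem map_bb (r : Lam.Row m) :
    (Lam.bb z m r).map f = Lam.bb (fun i => f (z i)) m r := by
  unfold Lam.bb
  rw [Polynomial.map_mul, map_Nhat, Polynomial.map_pow, Polynomial.map_sub, Polynomial.map_X,
    Polynomial.map_C]

theorem map_resSum (p : K[X]) :
    f (Lam.resSum z m p) = Lam.resSum (fun i => f (z i)) m (p.map f) := by
  unfold Lam.resSum
  rw [map_sum]
  refine Finset.sum_congr rfl fun i _ => ?_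
  split_ifs with h
  · rw [map_zero]
  · rw [← map_wt, PowerSeries.coeff_map]

/-- `lam` commutes with a homomorphism of algebras over a homomorphism of fields -/
theorem map_lam_alg {A A' : Type*} [CommRing A] [CommRing A'] [Algebra K A] [Algebra K' A']
    (g : A →+* A') (hg : ∀ x : K, g (algebraMap K A x) = algebraMap K' A' (f x))
    (p : K[X]) (F : ι → PowerSeries A) :
    g (Lam.lam z m p F) =
      Lam.lam (fun i => f (z i)) m (p.map f) (fun i => PowerSeries.map g (F i)) := by
  unfold Lam.lam
  rw [map_sum]
  refine Finset.sum_congr rfl fun r _ => ?_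
  rw [map_mul, hg, map_u, PowerSeries.coeff_map]

/-- **base change for `lam`** -/
theorem map_lam (p : K[X]) (F : ι → PowerSeries K) :
    f (Lam.lam z m p F) =
      Lam.lam (fun i => f (z i)) m (p.map f) (fun i => PowerSeries.map f (F i)) :=
  map_lam_alg f z m f (fun _ => rfl) p F

/-- `lam` over the field `K` and over an algebra `A`: the same weights -/
theorem algebraMap_lam {A : Type*} [CommRing A] [Algebra K A] (p : K[X]) (F : ι → PowerSeries K) :
    algebraMap K A (Lam.lam z m p F) =
      Lam.lam z m p (fun i => PowerSeries.map (algebraMap K A) (F i)) := by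
  unfold Lam.lam
  rw [map_sum]
  refine Finset.sum_congr rfl fun r _ => ?_
  rw [map_mul, PowerSeries.coeff_map]
  rfl

end

theorem map_unitCol {ι : Type*} [DecidableEq ι] (m : ι → ℕ) {A A' : Type*} [CommRing A]
    [CommRing A'] (g : A →+* A') (ρ : Lam.Row m) (i : ι) :
    PowerSeries.map g (Lam.unitCol m A ρ i) = Lam.unitCol m A' ρ i := by
  unfold Lam.unitCol
  split_ifs with h
  · rw [map_pow, PowerSeries.map_X]
  · rw [map_zero]

/-! ### the germs of `F` -/

/-- **base change for the germs of `F = R ψ - T - Q g`** -/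
theorem map_Fgerm (c : K) (R T Q : K[X]) (k : ℤ) :
    PowerSeries.map f (Fgerm c R T Q k) =
      Fgerm (f c) (R.map f) (T.map f) (Q.map f) k := by
  unfold Fgerm
  have h : f ((k : K) / 2) = (k : K') / 2 := by
    rw [map_div₀, map_intCast, map_ofNat]
  rw [map_sub, map_sub, map_mul, map_mul, map_germ, map_germ, map_germ, map_psiG, map_gG, h]

section design
variable (D : Design)

lemma map_pos (k : D.Site) : f (D.pos K k) = D.pos K' k := by
  unfold Design.pos
  rw [map_div₀, map_intCast, map_ofNat]

lemma map_ratCast_comp (p : ℚ[X]) [CharZero K] [CharZero K'] :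
    (p.map (Rat.castHom K)).map f = p.map (Rat.castHom K') := by
  rw [Polynomial.map_map]
  congr 1
  exact Subsingleton.elim _ _

variable [CharZero K] [CharZero K']

/-- **base change for the columns** -/
theorem map_colK (c : K) (bR bQ : ℕ → K[X]) (J : Fin D.c0 → D.Row) (col : D.Col) (k : D.Site) :
    PowerSeries.map f (D.colK K c bR bQ J col k) =
      D.colK K' (f c) (fun l => (bR l).map f) (fun l => (bQ l).map f) J col k := by
  rcases col with l | l | i
  · simp only [Design.colK]
    rw [map_Fgerm, map_Tpart, Polynomial.map_mul, map_ratCast_comp, Polynomial.map_zero]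
  · simp only [Design.colK]
    rw [map_Fgerm, Polynomial.map_mul, map_ratCast_comp, Polynomial.map_zero]
  · simp only [Design.colK]
    rw [map_unitCol]

/-- **base change for the entries** `lam p (col)` -/
theorem map_lam_colK (c : K) (bR bQ : ℕ → K[X]) (J : Fin D.c0 → D.Row) (p : K[X]) (col : D.Col) :
    f (Lam.lam (D.pos K) D.m p (D.colK K c bR bQ J col)) =
      Lam.lam (D.pos K') D.m (p.map f)
        (D.colK K' (f c) (fun l => (bR l).map f) (fun l => (bQ l).map f) J col) := by
  have h1 : (fun i => f (D.pos K i)) = D.pos K' := by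
    funext i
    exact map_pos f D i
  have h2 : (fun i => PowerSeries.map f (D.colK K c bR bQ J col i)) =
      D.colK K' (f c) (fun l => (bR l).map f) (fun l => (bQ l).map f) J col := by
    funext i
    exact map_colK f D c bR bQ J col i
  rw [map_lam, h1, h2]

/-- **base change for the determinant** -/
theorem map_det_colK (c : K) (bR bQ p : ℕ → K[X]) (J : Fin D.c0 → D.Row) :
    f (Matrix.of fun (k c' : D.Col) =>
      Lam.lam (D.pos K) D.m (p (D.colIdx k)) (D.colK K c bR bQ J c')).det =
    (Matrix.of fun (k c' : D.Col) =>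
      Lam.lam (D.pos K') D.m ((p (D.colIdx k)).map f)
        (D.colK K' (f c) (fun l => (bR l).map f) (fun l => (bQ l).map f) J c')).det := by
  rw [RingHom.map_det]
  congr 1
  ext k c'
  simp only [RingHom.mapMatrix_apply, Matrix.map_apply, Matrix.of_apply]
  exact map_lam_colK f D c bR bQ J _ c'

end design

end Crest.Agent.R006.Map
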