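import Crest.Agent.R006.BordM_819
import Crest.Agent.R006.BordM_89
import Crest.Agent.R006.Map_189

/-!
# Row 6: helper89's `minor_eq` with monic families over a larger field `K` (helper819)

`K` a field of characteristic zero, `A` a `K`-algebra (and a `ℚ`-algebra), `x : A`.

`minor_eq_K`: constants `kap`, `VV`, gauge `rho`, numbering `e` of `BordM_89`; columns and matrix
`BordK.lmat` over `K`: for ALL monic families `p`, `bR`, `bQ` over `K`

`aeval x (Minor S u r) = s * (kap * VV * det (lmat x p (rho * bR) bQ J))`.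
-/

set_option autoImplicit false

namespace Crest.Agent.R006.BordK

open Polynomial Crest.Agent.R006.D Crest.Agent.R006.NV Crest.Agent.R006.Lam

section
variable {S : Shape} {u c : ℕ}
variable {K : Type*} [Field K] [CharZero K]
variable {A : Type*} [CommRing A] [Algebra K A] [Algebra ℚ A] (x : A)

lemma algQ_eq (a : ℚ) : algebraMap ℚ A a = algebraMap K A (algebraMap ℚ K a) := by
  have h : algebraMap ℚ A = (algebraMap K A).comp (algebraMap ℚ K) := Subsingleton.elim _ _
  rw [h]; rfl

lemma mapQ_eq (F : PowerSeries ℚ) : PowerSeries.map (algebraMap ℚ A) F =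
    PowerSeries.map (algebraMap K A) (PowerSeries.map (algebraMap ℚ K) F) := by
  ext n
  rw [PowerSeries.coeff_map, PowerSeries.coeff_map, PowerSeries.coeff_map, algQ_eq (K := K)]

lemma colR_eq (P : ℚ[X]) (z : Bord.St S u c) :
    Bord.colR S u c x P z = colR S u c x (P.map (algebraMap ℚ K)) z := by
  have h1 : Lam.germ (zK S u c K z) (P.map (algebraMap ℚ K)) =
      PowerSeries.map (algebraMap ℚ K) (Lam.germ (Bord.zz S u c z) P) := germ_map _ _
  have h2 : Lam.germ (zK S u c K z) ((PsiInf.TR PsiInf.mu P).map (algebraMap ℚ K)) =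
      PowerSeries.map (algebraMap ℚ K) (Lam.germ (Bord.zz S u c z) (tau P)) := germ_map _ _
  rw [Bord.colR, colR, TR_map, h1, h2,
    mapQ_eq (K := K) (A := A) (germ (Bord.zz S u c z) P * psi0 z.1 - germ (Bord.zz S u c z) (tau P)),
    mapQ_eq (K := K) (A := A) (germ (Bord.zz S u c z) P * psi1 z.1)]
  simp only [map_sub, map_mul]

lemma colQ_eq (P : ℚ[X]) (z : Bord.St S u c) :
    Bord.colQ S u c A P z = colQ S u c A (P.map (algebraMap ℚ K)) z := by
  have h1 : Lam.germ (zK S u c K z) (P.map (algebraMap ℚ K)) =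
      PowerSeries.map (algebraMap ℚ K) (Lam.germ (Bord.zz S u c z) P) := germ_map _ _
  rw [Bord.colQ, colQ, h1, mapQ_eq (K := K) (A := A) (germ (Bord.zz S u c z) P * gam z.1)]
  simp only [map_mul]

lemma pos_eq (k : Bord.RC S u c) : Bord.pos S u c k = cidx S u c k := by
  rcases k with l | l | t
  · rw [Bord.pos_inl]; rfl
  · rw [Bord.pos_inr_inl]; rfl
  · rw [Bord.pos_inr_inr, add_assoc]; rfl

/-- the residue matrix over `ℚ` is the residue matrix over `K` of the mapped polynomials -/
lemma resMat_eq (p fR fQ : ℕ → ℚ[X]) (J : Fin c → Bord.Rw S u c) :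
    Bord.resMat S u c x p fR fQ J = lmat S u c x (fun k => (p k).map (algebraMap ℚ K))
      (fun l => (fR l).map (algebraMap ℚ K)) (fun l => (fQ l).map (algebraMap ℚ K)) J := by
  ext a b
  have h := Map.map_lam_alg (algebraMap ℚ K) (Bord.zz S u c) (Bord.mm S u c) (RingHom.id A)
    (fun y => algQ_eq (K := K) y) (p (Bord.pos S u c a)) (Bord.resCol S u c x fR fQ J b)
  rw [RingHom.id_apply] at h
  rw [Bord.resMat, Matrix.of_apply, h, lmat, Matrix.of_apply, pos_eq]
  have hz : (fun i => algebraMap ℚ K (Bord.zz S u c i)) = zK S u c K := by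
    funext i
    exact eq_ratCast (algebraMap ℚ K) _
  have hc : (fun i => PowerSeries.map (RingHom.id A) (Bord.resCol S u c x fR fQ J b i)) =
      col S u c x (fun l => (fR l).map (algebraMap ℚ K)) (fun l => (fQ l).map (algebraMap ℚ K))
        J b := by
    funext i
    rw [PowerSeries.map_id, id_eq]
    rcases b with l | l | t
    · exact colR_eq x (fR l) i
    · exact colQ_eq (fQ l) i
    · rfl
  rw [hz, hc]

/-- **`Minor` as a residue determinant, monic families over `K`.** -/
theorem minor_eq_K (K : Type*) [Field K] [CharZero K] [Algebra K A]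
    (hk : S.q + S.g ≤ S.rows) (r : Col S u → D.Row) (h : Adm S u c r) :
    ∃ (e : Col S u ⊕ Fin c ≃ Bord.Rw S u c) (s : ℤˣ),
      (∀ i, Bord.toRow S u c (e (Sum.inl i)) = r i) ∧
      ∀ p bR bQ : ℕ → K[X], MonicFam p → MonicFam bR → MonicFam bQ →
      aeval x (Minor S u r) = ((s : ℤ) : A) *
        (algebraMap ℚ A (Bord.kap S u * Bord.VV S u c e) *
        (lmat S u c x p (fun l => (Bord.rho S u).map (algebraMap ℚ K) * bR l) bQ
          fun t => e (Sum.inr t)).det) := by
  obtain ⟨e, s, he, hs⟩ := Bord.minor_eq (A := A) hk x r h (monicFam_X (K := ℚ))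
    (monicFam_X (K := ℚ)) (monicFam_X (K := ℚ))
  refine ⟨e, s, he, ?_⟩
  intro p bR bQ hp hR hQ
  rw [hs, resMat_eq (K := K)]
  have e1 : ∀ l : ℕ, ((X : ℚ[X]) ^ l).map (algebraMap ℚ K) = X ^ l := fun l => by
    rw [Polynomial.map_pow, Polynomial.map_X]
  have e2 : ∀ l : ℕ, (Bord.rho S u * (X : ℚ[X]) ^ l).map (algebraMap ℚ K) =
      (Bord.rho S u).map (algebraMap ℚ K) * X ^ l := fun l => by
    rw [Polynomial.map_mul, e1]
  simp only [e1, e2]
  have f1 := det_lmat_R x (fun k => (X : K[X]) ^ k)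
    (fun l => (Bord.rho S u).map (algebraMap ℚ K) * X ^ l)
    (fun l => (Bord.rho S u).map (algebraMap ℚ K) * bR l) (fun l => X ^ l)
    (fun t => e (Sum.inr t)) ((Bord.rho S u).map (algebraMap ℚ K)) (fun _ => 1)
    (monicFam_X (K := K)) hR (fun l => by rw [C_1, one_mul]) (fun _ => rfl)
  have f2 := det_lmat_Q x (fun k => (X : K[X]) ^ k)
    (fun l => (Bord.rho S u).map (algebraMap ℚ K) * bR l) (fun l => X ^ l) bQ
    (fun t => e (Sum.inr t)) (fun _ => 1) (monicFam_X (K := K)) hQ
    (fun l => by rw [C_1, one_mul])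
  rw [Finset.prod_const_one, map_one, one_mul] at f1 f2
  rw [f1, f2, det_lmat_test x _ _ _ (monicFam_X (K := K)) hp]

/-- `K = A`: families over `K`, value in `K` -/
theorem minor_eq_self (K : Type*) [Field K] [CharZero K] (x : K)
    (hk : S.q + S.g ≤ S.rows) (r : Col S u → D.Row) (h : Adm S u c r) :
    ∃ (e : Col S u ⊕ Fin c ≃ Bord.Rw S u c) (s : ℤˣ),
      (∀ i, Bord.toRow S u c (e (Sum.inl i)) = r i) ∧
      ∀ p bR bQ : ℕ → K[X], MonicFam p → MonicFam bR → MonicFam bQ →
      aeval x (Minor S u r) = ((s : ℤ) : K) *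
        (algebraMap ℚ K (Bord.kap S u * Bord.VV S u c e) *
        (lmat S u c x p (fun l => (Bord.rho S u).map (algebraMap ℚ K) * bR l) bQ
          fun t => e (Sum.inr t)).det) :=
  minor_eq_K x K hk r h

end

end Crest.Agent.R006.BordK
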