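import Crest.Agent.R006.Lam_89

/-!
# Row 6: linearity of `lam` and monic base change (helper89)
-/

set_option autoImplicit false

namespace Crest.Agent.R006.Lam

open Polynomial

variable {K : Type*} [Field K]

section lam
variable {ι : Type*} [Fintype ι] [DecidableEq ι] (z : ι → K) (m : ι → ℕ)
variable {A : Type*} [CommRing A] [Algebra K A]

lemma u_sum {α : Type*} (s : Finset α) (f : α → K[X]) (r : Row m) :
    u z m (∑ a ∈ s, f a) r = ∑ a ∈ s, u z m (f a) r := by
  simp only [u, wt, germ_sum, Finset.sum_mul, map_sum]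

lemma u_C_mul (a : K) (p : K[X]) (r : Row m) :
    u z m (C a * p) r = a * u z m p r := by
  rw [u, wt_C_mul, PowerSeries.coeff_C_mul, ← u]

lemma lam_sum_left {α : Type*} (s : Finset α) (f : α → K[X]) (F : ι → PowerSeries A) :
    lam z m (∑ a ∈ s, f a) F = ∑ a ∈ s, lam z m (f a) F := by
  simp only [lam, u_sum, map_sum, Finset.sum_mul]
  rw [Finset.sum_comm]

lemma lam_C_mul_left (a : K) (p : K[X]) (F : ι → PowerSeries A) :
    lam z m (C a * p) F = algebraMap K A a * lam z m p F := by
  simp only [lam, u_C_mul, map_mul, Finset.mul_sum]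
  exact Finset.sum_congr rfl fun r _ => by ring

/-- `lam` for a polynomial test function in terms of monomials -/
lemma lam_poly_left {n : ℕ} {p : K[X]} (hp : p.natDegree < n) (F : ι → PowerSeries A) :
    lam z m p F = ∑ k : Fin n, algebraMap K A (p.coeff k) * lam z m (X ^ (k : ℕ)) F := by
  conv_lhs => rw [p.as_sum_range' n hp]
  rw [lam_sum_left, Finset.sum_range]
  refine Finset.sum_congr rfl fun k _ => ?_
  rw [← C_mul_X_pow_eq_monomial, lam_C_mul_left]

lemma lam_sum_right {α : Type*} (s : Finset α) (p : K[X]) (F : α → ι → PowerSeries A) :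
    lam z m p (fun i => ∑ a ∈ s, F a i) = ∑ a ∈ s, lam z m p (F a) := by
  simp only [lam, map_sum, Finset.mul_sum]
  rw [Finset.sum_comm]

lemma lam_C_mul_right (a : A) (p : K[X]) (F : ι → PowerSeries A) :
    lam z m p (fun i => PowerSeries.C a * F i) = a * lam z m p F := by
  simp only [lam, PowerSeries.coeff_C_mul, Finset.mul_sum]
  exact Finset.sum_congr rfl fun r _ => by ring

end lam

/-- monic family -/
def MonicFam (p : ℕ → K[X]) : Prop := ∀ k, (p k).Monic ∧ (p k).natDegree = k

lemma monicFam_X : MonicFam (fun k => (X : K[X]) ^ k) :=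
  fun k => ⟨monic_X_pow k, natDegree_X_pow k⟩

/-- coefficient matrix of a monic family has determinant one (over any algebra) -/
lemma det_tri (A : Type*) [CommRing A] [Algebra K A] {n : ℕ} (b : ℕ → K[X]) (hb : MonicFam b) :
    (Matrix.of fun l' l : Fin n => algebraMap K A ((b l).coeff l')).det = 1 := by
  rw [Matrix.det_of_isUpperTriangular]
  · apply Finset.prod_eq_one
    intro l _
    rw [Matrix.of_apply]
    have := (hb l).1.coeff_natDegree
    rw [(hb l).2] at this
    rw [this, map_one]
  · intro l' l h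
    rw [Matrix.of_apply]
    have h' : (l : ℕ) < l' := h
    rw [coeff_eq_zero_of_natDegree_lt, map_zero]
    rw [(hb l).2]; exact h'

section base
variable {A : Type*} [CommRing A] [Algebra K A]

/-- **test side**: `det [lam (p k) (F c)]` does not depend on the monic test family. Rows `k < n`. -/
theorem det_test {ι : Type*} [Fintype ι] [DecidableEq ι] (z : ι → K) (m : ι → ℕ) {n : ℕ}
    {p p' : ℕ → K[X]} (hp : MonicFam p) (hp' : MonicFam p')
    (F : Fin n → ι → PowerSeries A) :
    (Matrix.of fun k c : Fin n => lam z m (p k) (F c)).det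
      = (Matrix.of fun k c : Fin n => lam z m (p' k) (F c)).det := by
  have key : ∀ p : ℕ → K[X], MonicFam p →
      (Matrix.of fun k c : Fin n => lam z m (p k) (F c)).det =
        (Matrix.of fun k c : Fin n => lam z m (X ^ (k : ℕ)) (F c)).det := by
    intro p hp
    have h : (Matrix.of fun k c : Fin n => lam z m (p k) (F c)) =
        (Matrix.of fun l' l : Fin n => algebraMap K A ((p l).coeff l')).transpose *
          (Matrix.of fun k c : Fin n => lam z m (X ^ (k : ℕ)) (F c)) := by
      ext k c
      rw [Matrix.mul_apply, Matrix.of_apply, lam_poly_left z m (n := n)]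
      · rfl
      · rw [(hp k).2]; exact k.2
    rw [h, Matrix.det_mul, Matrix.det_transpose, det_tri A p hp, one_mul]
  rw [key p hp, key p' hp']

/-- **column side**: a block of `n` columns `Φ (b l)`, `Φ` linear over `K`, does not depend on the
monic family `b`; the other columns (labels `γ`) are fixed. -/
theorem det_cols {γ : Type*} [Fintype γ] [DecidableEq γ] {n : ℕ}
    (Φ : K[X] →ₗ[K] (Fin n ⊕ γ → A)) (Ψ : γ → (Fin n ⊕ γ) → A)
    {b b' : ℕ → K[X]} (hb : MonicFam b) (hb' : MonicFam b') :
    (Matrix.of fun (r : Fin n ⊕ γ) (c : Fin n ⊕ γ) =>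
      Sum.elim (fun l : Fin n => Φ (b l) r) (fun g => Ψ g r) c).det =
    (Matrix.of fun (r : Fin n ⊕ γ) (c : Fin n ⊕ γ) =>
      Sum.elim (fun l : Fin n => Φ (b' l) r) (fun g => Ψ g r) c).det := by
  have key : ∀ b : ℕ → K[X], MonicFam b →
      (Matrix.of fun (r : Fin n ⊕ γ) (c : Fin n ⊕ γ) =>
        Sum.elim (fun l : Fin n => Φ (b l) r) (fun g => Ψ g r) c).det =
      (Matrix.of fun (r : Fin n ⊕ γ) (c : Fin n ⊕ γ) =>
        Sum.elim (fun l : Fin n => Φ (X ^ (l : ℕ)) r) (fun g => Ψ g r) c).det := by
    intro b hb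
    have h : (Matrix.of fun (r : Fin n ⊕ γ) (c : Fin n ⊕ γ) =>
        Sum.elim (fun l : Fin n => Φ (b l) r) (fun g => Ψ g r) c) =
        (Matrix.of fun (r : Fin n ⊕ γ) (c : Fin n ⊕ γ) =>
          Sum.elim (fun l : Fin n => Φ (X ^ (l : ℕ)) r) (fun g => Ψ g r) c) *
        Matrix.fromBlocks (Matrix.of fun l' l : Fin n => algebraMap K A ((b l).coeff l')) 0 0 1 := by
      ext r c
      rw [Matrix.mul_apply, Fintype.sum_sum_type]
      rcases c with l | g
      · simp only [Matrix.of_apply, Sum.elim_inl, Matrix.fromBlocks_apply₁₁,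
          Matrix.fromBlocks_apply₂₁, Matrix.zero_apply, mul_zero, Finset.sum_const_zero, add_zero]
        have hl : b l = ∑ l' : Fin n, (b l).coeff l' • (X : K[X]) ^ (l' : ℕ) := by
          have := (b l).as_sum_range' n (by rw [(hb l).2]; exact l.2)
          conv_lhs => rw [this]
          rw [Finset.sum_range]
          refine Finset.sum_congr rfl fun l' _ => ?_
          rw [smul_X_eq_monomial]
        conv_lhs => rw [hl]
        rw [map_sum, Finset.sum_apply]
        refine Finset.sum_congr rfl fun l' _ => ?_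
        rw [map_smul, Pi.smul_apply, Algebra.smul_def, mul_comm]
      · simp only [Matrix.of_apply, Sum.elim_inr, Matrix.fromBlocks_apply₁₂,
          Matrix.fromBlocks_apply₂₂, Matrix.zero_apply, mul_zero, Finset.sum_const_zero, zero_add,
          Matrix.one_apply, mul_ite, mul_one]
        rw [Finset.sum_ite_eq' Finset.univ g]
        simp
    rw [h, Matrix.det_mul, Matrix.det_fromBlocks_zero₂₁, det_tri A b hb, Matrix.det_one, mul_one,
      mul_one]
  rw [key b hb, key b' hb']

end base

end Crest.Agent.R006.Lam
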