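import Crest.Agent.R006.Defs
import Crest.Agent.R006.LamLin_89

/-!
# Row 6: bordered minors and the residue form of `Minor` (helper89)

`minor_eq`: for every `ℚ`-algebra `A`, `x : A`, admissible `r`, there are omitted rows `J` such that
`aeval x (Minor S u r) = ± κ · det [lam (p k) (column)]`, over the full closed node set
(`c` extra `G`-nodes, `c` unit vector columns), for all monic families `p, bR, bQ`.
-/

set_option autoImplicit false

namespace Crest.Agent.R006.Bord

open Polynomial Finset Crest.Agent.R006.D Crest.Agent.R006.NV Crest.Agent.R006.Lam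

variable (S : Shape) (u c : ℕ)

/-- bound for all positions -/
def L : ℕ := (S.B + S.e1 + S.e2 + S.e3 + S.h1 + S.h2 + S.h3 + S.w) * u + c

/-- the sites of the window -/
noncomputable def sites : Finset Site :=
  ((Finset.Icc (-(L S u c : ℤ)) (L S u c)).image Site.Z) ∪
    ((Finset.Icc (-(L S u c : ℤ)) (L S u c)).image Site.H)

/-- site labels -/
abbrev St : Type := {z // z ∈ sites S u c}

/-- positions -/
def zz (z : St S u c) : ℚ := z.1.val

/-- multiplicities -/
def mm (z : St S u c) : ℕ := S.mult u c z.1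

/-- row labels (dependent form) -/
abbrev Rw : Type := Lam.Row (mm S u c)

lemma val_injective : Function.Injective Site.val := by
  intro a b h
  rcases a with i | i <;> rcases b with j | j
  · simp only [Site.val] at h
    rw [Int.cast_inj] at h
    rw [h]
  · exfalso
    simp only [Site.val] at h
    have h2 : ((2 * i : ℤ) : ℚ) = ((2 * j + 1 : ℤ) : ℚ) := by push_cast; linarith
    rw [Int.cast_inj] at h2
    omega
  · exfalso
    simp only [Site.val] at h
    have h2 : ((2 * j : ℤ) : ℚ) = ((2 * i + 1 : ℤ) : ℚ) := by push_cast; linarith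
    rw [Int.cast_inj] at h2
    omega
  · simp only [Site.val] at h
    have h2 : ((i : ℤ) : ℚ) = ((j : ℤ) : ℚ) := by linarith
    rw [Int.cast_inj] at h2
    rw [h2]

lemma zz_injective : Function.Injective (zz S u c) := fun a b h =>
  Subtype.ext (val_injective h)

/-- the row as a pair -/
def toRow (ρ : Rw S u c) : D.Row := (ρ.1.1, (ρ.2 : ℕ))

lemma toRow_injective : Function.Injective (toRow S u c) := by
  rintro ⟨⟨z, hz⟩, j⟩ ⟨⟨z', hz'⟩, j'⟩ h
  have h1 : z = z' := congrArg Prod.fst h
  have h2 : (j : ℕ) = j' := congrArg Prod.snd h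
  subst h1
  have : j = j' := Fin.ext h2
  subst this
  rfl

lemma isRow_toRow (ρ : Rw S u c) : IsRow S u c (toRow S u c ρ) := ρ.2.2

lemma mem_sites_of_mult {z : Site} (h : S.mult u c z ≠ 0) : z ∈ sites S u c := by
  have expand : (L S u c : ℤ) = S.B * u + S.e1 * u + S.e2 * u + S.e3 * u + S.h1 * u + S.h2 * u
      + S.h3 * u + S.w * u + c := by
    simp only [L]; push_cast; ring
  have p1 : (0 : ℤ) ≤ S.B * u := by positivity
  have p2 : (0 : ℤ) ≤ S.e1 * u := by positivity
  have p3 : (0 : ℤ) ≤ S.e2 * u := by positivity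
  have p4 : (0 : ℤ) ≤ S.e3 * u := by positivity
  have p5 : (0 : ℤ) ≤ S.h1 * u := by positivity
  have p6 : (0 : ℤ) ≤ S.h2 * u := by positivity
  have p7 : (0 : ℤ) ≤ S.h3 * u := by positivity
  have p8 : (0 : ℤ) ≤ S.w * u := by positivity
  rcases z with i | i
  · refine Finset.mem_union_left _ (Finset.mem_image.mpr ⟨i, ?_, rfl⟩)
    rw [Finset.mem_Icc]
    simp only [Shape.mult] at h
    split_ifs at h <;> constructor <;> omega
  · refine Finset.mem_union_right _ (Finset.mem_image.mpr ⟨i, ?_, rfl⟩)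
    rw [Finset.mem_Icc]
    simp only [Shape.mult] at h
    split_ifs at h <;> constructor <;> omega

/-- the dependent label of a row -/
def ofRow (ρ : D.Row) (h : IsRow S u c ρ) : Rw S u c :=
  ⟨⟨ρ.1, mem_sites_of_mult S u c (Nat.ne_of_gt (Nat.lt_of_le_of_lt (Nat.zero_le _) h))⟩, ⟨ρ.2, h⟩⟩

lemma toRow_ofRow (ρ : D.Row) (h : IsRow S u c ρ) : toRow S u c (ofRow S u c ρ h) = ρ := rfl

/-! ### counting the rows -/

lemma sum_right {L N : ℕ} (h : N ≤ L) :
    ∑ i ∈ Finset.Icc (-(L : ℤ)) L, (if 0 ≤ i then (if i < N then 1 else 0) else 0) = N := by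
  have h1 : ∀ i ∈ Finset.Icc (-(L : ℤ)) L,
      (if 0 ≤ i then (if i < (N : ℤ) then 1 else 0) else 0) = if i ∈ Finset.Ico (0 : ℤ) N then 1 else 0 := by
    intro i _
    simp only [Finset.mem_Ico]
    split_ifs <;> first | rfl | omega
  rw [Finset.sum_congr rfl h1, Finset.sum_ite_mem, Finset.sum_const, smul_eq_mul, mul_one]
  have h2 : Finset.Icc (-(L : ℤ)) L ∩ Finset.Ico (0 : ℤ) N = Finset.Ico (0 : ℤ) N := by
    rw [Finset.inter_eq_right]
    intro i hi
    rw [Finset.mem_Ico] at hi
    rw [Finset.mem_Icc]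
    constructor <;> omega
  rw [h2]; simp

lemma sum_left {L N : ℕ} (h : N ≤ L) :
    ∑ i ∈ Finset.Icc (-(L : ℤ)) L, (if 0 ≤ i then 0 else (if -i ≤ N then 1 else 0)) = N := by
  have h1 : ∀ i ∈ Finset.Icc (-(L : ℤ)) L,
      (if 0 ≤ i then 0 else (if -i ≤ (N : ℤ) then 1 else 0)) =
        if i ∈ Finset.Ico (-(N : ℤ)) 0 then 1 else 0 := by
    intro i _
    simp only [Finset.mem_Ico]
    split_ifs <;> first | rfl | omega
  rw [Finset.sum_congr rfl h1, Finset.sum_ite_mem, Finset.sum_const, smul_eq_mul, mul_one]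
  have h2 : Finset.Icc (-(L : ℤ)) L ∩ Finset.Ico (-(N : ℤ)) 0 = Finset.Ico (-(N : ℤ)) 0 := by
    rw [Finset.inter_eq_right]
    intro i hi
    rw [Finset.mem_Ico] at hi
    rw [Finset.mem_Icc]
    constructor <;> omega
  rw [h2]; simp

lemma L_ge : S.B * u + c ≤ L S u c ∧ S.e1 * u ≤ L S u c ∧ S.e2 * u ≤ L S u c ∧
    S.e3 * u ≤ L S u c ∧ S.h1 * u ≤ L S u c ∧ S.h2 * u ≤ L S u c ∧ S.h3 * u ≤ L S u c ∧
    S.w * u ≤ L S u c := by
  have : L S u c = S.B * u + S.e1 * u + S.e2 * u + S.e3 * u + S.h1 * u + S.h2 * u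
      + S.h3 * u + S.w * u + c := by
    simp only [L]; ring
  refine ⟨?_, ?_, ?_, ?_, ?_, ?_, ?_, ?_⟩ <;> omega

lemma card_Rw : Fintype.card (Rw S u c) = S.rows * u + c := by
  have h0 : Fintype.card (Rw S u c) = ∑ z : St S u c, mm S u c z := by
    rw [Fintype.card_sigma]
    simp
  have h1 : ∑ z : St S u c, mm S u c z = ∑ z ∈ sites S u c, S.mult u c z := by
    rw [← Finset.sum_coe_sort (sites S u c)]
    rfl
  rw [h0, h1, sites, Finset.sum_union]
  · rw [Finset.sum_image (by intro a _ b _ h; simpa using h),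
      Finset.sum_image (by intro a _ b _ h; simpa using h)]
    obtain ⟨l1, l2, l3, l4, l5, l6, l7, l8⟩ := L_ge S u c
    have hZ : ∑ i ∈ Finset.Icc (-(L S u c : ℤ)) (L S u c), S.mult u c (Site.Z i)
        = (S.B * u + c) + S.e1 * u + S.e2 * u + S.e3 * u := by
      rw [← sum_right l1, ← sum_left l2, ← sum_left l3, ← sum_left l4, ← Finset.sum_add_distrib,
        ← Finset.sum_add_distrib, ← Finset.sum_add_distrib]
      refine Finset.sum_congr rfl fun i _ => ?_
      simp only [Shape.mult]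
      push_cast
      split_ifs <;> first | rfl | omega
    have hH : ∑ i ∈ Finset.Icc (-(L S u c : ℤ)) (L S u c), S.mult u c (Site.H i)
        = S.h1 * u + S.h2 * u + S.h3 * u + S.w * u := by
      rw [← sum_right l5, ← sum_right l6, ← sum_right l7, ← sum_left l8, ← Finset.sum_add_distrib,
        ← Finset.sum_add_distrib, ← Finset.sum_add_distrib]
      refine Finset.sum_congr rfl fun i _ => ?_
      simp only [Shape.mult]
      push_cast
      split_ifs <;> first | rfl | omega
    rw [hZ, hH, Shape.rows]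
    ring
  · rw [Finset.disjoint_left]
    intro x hx hx'
    obtain ⟨i, _, rfl⟩ := Finset.mem_image.mp hx
    obtain ⟨j, _, hj⟩ := Finset.mem_image.mp hx'
    exact Site.noConfusion hj

end Crest.Agent.R006.Bord
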