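import Mathlib

/-!
# Row 6: the residue identity (helper89), design independent

Sites `z i`, multiplicities `m i`, rows `(i,j)` with `j < m i`, a column is any family of germs
`F i : A⟦ε⟧`. `lam p F = ∑_i Res_{z i} F p / NS`.
-/

set_option autoImplicit false

namespace Crest.Agent.R006.Lam

open Polynomial Finset

variable {K : Type*} [Field K]

/-- Taylor germ `p (x + ε)` -/
noncomputable def germ (x : K) (p : K[X]) : PowerSeries K := ((taylor x p : K[X]) : PowerSeries K)

lemma germ_add (x : K) (p q : K[X]) : germ x (p + q) = germ x p + germ x q := by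
  simp [germ]

lemma germ_sub (x : K) (p q : K[X]) : germ x (p - q) = germ x p - germ x q := by
  simp [germ]

lemma germ_mul (x : K) (p q : K[X]) : germ x (p * q) = germ x p * germ x q := by
  simp [germ, taylor_mul]

lemma germ_pow (x : K) (p : K[X]) (n : ℕ) : germ x (p ^ n) = germ x p ^ n := by
  simp [germ, taylor_pow]

lemma germ_one (x : K) : germ x (1 : K[X]) = 1 := by
  simp [germ]

lemma germ_C (x a : K) : germ x (C a) = PowerSeries.C a := by
  simp [germ]

lemma germ_sum {α : Type*} (x : K) (s : Finset α) (f : α → K[X]) :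
    germ x (∑ a ∈ s, f a) = ∑ a ∈ s, germ x (f a) := by
  induction s using Finset.cons_induction with
  | empty => simp [germ]
  | cons a s ha ih => rw [Finset.sum_cons, Finset.sum_cons, germ_add, ih]

lemma constantCoeff_germ (x : K) (p : K[X]) : PowerSeries.constantCoeff (germ x p) = p.eval x := by
  rw [germ, Polynomial.constantCoeff_coe, taylor_coeff_zero]

lemma germ_X_sub_C (x y : K) : germ x (X - C y) = PowerSeries.X + PowerSeries.C (x - y) := by
  simp [germ, taylor_X, taylor_C]
  ring

lemma germ_X_sub_C_self (x : K) : germ x (X - C x) = PowerSeries.X := by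
  rw [germ_X_sub_C]; simp

lemma X_pow_dvd_germ_iff {x : K} {k : ℕ} {p : K[X]} :
    (PowerSeries.X : PowerSeries K) ^ k ∣ germ x p ↔ (X - C x) ^ k ∣ p := by
  constructor
  · intro h
    rw [PowerSeries.X_pow_dvd_iff] at h
    have h1 : (X : K[X]) ^ k ∣ taylor x p := by
      rw [Polynomial.X_pow_dvd_iff]
      intro d hd
      have := h d hd
      rwa [germ, Polynomial.coeff_coe] at this
    obtain ⟨r, hr⟩ := h1
    refine ⟨taylor (-x) r, ?_⟩
    have h2 : taylor (-x) (taylor x p) = taylor (-x) (X ^ k * r) := by rw [hr]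
    rw [taylor_taylor] at h2
    simp only [neg_add_cancel, taylor_zero, taylor_mul, taylor_pow] at h2
    rw [h2]
    congr 2
    simp [taylor_X, sub_eq_add_neg]
  · rintro ⟨r, rfl⟩
    rw [germ_mul, germ_pow, germ_X_sub_C_self]
    exact dvd_mul_right _ _

section
variable {ι : Type*} [Fintype ι] [DecidableEq ι] (z : ι → K) (m : ι → ℕ)

/-- row labels -/
abbrev Row (m : ι → ℕ) := Σ i, Fin (m i)

/-- node polynomial without the site `i` -/
noncomputable def Nhat (i : ι) : K[X] := ∏ l ∈ univ.erase i, (X - C (z l)) ^ (m l)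

/-- node polynomial -/
noncomputable def NS : K[X] := ∏ l, (X - C (z l)) ^ (m l)

lemma NS_eq (i : ι) : NS z m = (X - C (z i)) ^ (m i) * Nhat z m i := by
  rw [NS, Nhat, Finset.mul_prod_erase univ (fun l => (X - C (z l)) ^ (m l)) (mem_univ i)]

lemma Nhat_monic (i : ι) : (Nhat z m i).Monic :=
  monic_prod_of_monic _ _ fun _ _ => (monic_X_sub_C _).pow _

omit [DecidableEq ι] in
lemma NS_monic : (NS z m).Monic :=
  monic_prod_of_monic _ _ fun _ _ => (monic_X_sub_C _).pow _

lemma natDegree_Nhat (i : ι) : (Nhat z m i).natDegree = ∑ l ∈ univ.erase i, m l := by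
  rw [Nhat, natDegree_prod_of_monic _ _ fun l _ => (monic_X_sub_C _).pow _]
  refine Finset.sum_congr rfl fun l _ => ?_
  rw [natDegree_pow, natDegree_X_sub_C, mul_one]

lemma natDegree_Nhat_add (i : ι) : (Nhat z m i).natDegree + m i = ∑ l, m l := by
  rw [natDegree_Nhat, Finset.sum_erase_add _ _ (mem_univ i)]

omit [DecidableEq ι] in
lemma natDegree_NS : (NS z m).natDegree = ∑ l, m l := by
  rw [NS, natDegree_prod_of_monic _ _ fun l _ => (monic_X_sub_C _).pow _]
  refine Finset.sum_congr rfl fun l _ => ?_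
  rw [natDegree_pow, natDegree_X_sub_C, mul_one]

variable {z} in
lemma Nhat_eval_ne (hz : Function.Injective z) (i : ι) : (Nhat z m i).eval (z i) ≠ 0 := by
  rw [Nhat, eval_prod, Finset.prod_ne_zero_iff]
  intro l hl
  rw [eval_pow, eval_sub, eval_X, eval_C]
  refine pow_ne_zero _ (sub_ne_zero.mpr fun h => ?_)
  exact (Finset.mem_erase.mp hl).1 (hz h).symm

/-- `p (z i + ε) / Nhat_i (z i + ε)` -/
noncomputable def wt (p : K[X]) (i : ι) : PowerSeries K :=
  germ (z i) p * (germ (z i) (Nhat z m i))⁻¹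

/-- weight of the row `(i,j)` in `lam p` -/
noncomputable def u (p : K[X]) (r : Row m) : K :=
  PowerSeries.coeff (m r.1 - 1 - r.2) (wt z m p r.1)

/-- basis function dual to the row `(i,j)` of `Phi` -/
noncomputable def bb (r : Row m) : K[X] := Nhat z m r.1 * (X - C (z r.1)) ^ (r.2 : ℕ)

/-- the functionals `coeff_j (f / Nhat_i)` at `z i` -/
noncomputable def Phi (f : K[X]) (r : Row m) : K := PowerSeries.coeff (r.2 : ℕ) (wt z m f r.1)

lemma wt_add (p q : K[X]) (i : ι) : wt z m (p + q) i = wt z m p i + wt z m q i := by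
  rw [wt, wt, wt, germ_add, add_mul]

lemma wt_sub (p q : K[X]) (i : ι) : wt z m (p - q) i = wt z m p i - wt z m q i := by
  rw [wt, wt, wt, germ_sub, sub_mul]

lemma wt_mul (p q : K[X]) (i : ι) : wt z m (p * q) i = germ (z i) p * wt z m q i := by
  rw [wt, wt, germ_mul, mul_assoc]

lemma wt_C_mul (a : K) (q : K[X]) (i : ι) :
    wt z m (C a * q) i = PowerSeries.C a * wt z m q i := by
  rw [wt_mul, germ_C]

lemma Phi_sum {α : Type*} (s : Finset α) (f : α → K[X]) (r : Row m) :
    Phi z m (∑ a ∈ s, f a) r = ∑ a ∈ s, Phi z m (f a) r := by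
  simp only [Phi, wt, germ_sum, Finset.sum_mul, map_sum]

variable {z} in
lemma wt_Nhat (hz : Function.Injective z) (i : ι) : wt z m (Nhat z m i) i = 1 := by
  rw [wt]
  apply PowerSeries.mul_inv_cancel
  rw [constantCoeff_germ]
  exact Nhat_eval_ne m hz i

variable {z} in
lemma wt_bb_self (hz : Function.Injective z) (r : Row m) :
    wt z m (bb z m r) r.1 = PowerSeries.X ^ (r.2 : ℕ) := by
  rw [bb, mul_comm, wt_mul, wt_Nhat m hz, mul_one, germ_pow, germ_X_sub_C_self]

lemma X_pow_dvd_wt_bb {r : Row m} {i : ι} (h : i ≠ r.1) :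
    (PowerSeries.X : PowerSeries K) ^ (m i) ∣ wt z m (bb z m r) i := by
  rw [wt]
  apply Dvd.dvd.mul_right
  rw [X_pow_dvd_germ_iff, bb]
  apply Dvd.dvd.mul_right
  rw [Nhat]
  exact Finset.dvd_prod_of_mem (fun l => (X - C (z l)) ^ (m l))
    (Finset.mem_erase.mpr ⟨h, mem_univ _⟩)

variable {z} in
lemma Phi_bb (hz : Function.Injective z) (r r' : Row m) :
    Phi z m (bb z m r) r' = if r = r' then 1 else 0 := by
  by_cases h : r'.1 = r.1
  · obtain ⟨i, j⟩ := r
    obtain ⟨i', j'⟩ := r'
    simp only at h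
    subst h
    rw [Phi, wt_bb_self m hz, PowerSeries.coeff_X_pow]
    by_cases hj : j = j'
    · subst hj; simp
    · have h1 : ¬ ((j' : ℕ) = j) := fun hh => hj (Fin.ext hh.symm)
      have h2 : ¬ ((⟨i', j⟩ : Row m) = ⟨i', j'⟩) := by
        intro hh
        apply hj
        simpa using hh
      rw [if_neg h1, if_neg h2]
  · have h2 : ¬ (r = r') := fun hh => h (by rw [hh])
    rw [if_neg h2, Phi]
    have := X_pow_dvd_wt_bb z m h
    rw [PowerSeries.X_pow_dvd_iff] at this
    exact this _ r'.2.2

lemma bb_monic (r : Row m) : (bb z m r).Monic :=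
  (Nhat_monic z m _).mul ((monic_X_sub_C _).pow _)

lemma natDegree_bb (r : Row m) : (bb z m r).natDegree = (Nhat z m r.1).natDegree + r.2 := by
  rw [bb, (Nhat_monic z m _).natDegree_mul ((monic_X_sub_C _).pow _), natDegree_pow,
    natDegree_X_sub_C, mul_one]

lemma natDegree_bb_lt (r : Row m) : (bb z m r).natDegree < ∑ l, m l := by
  rw [natDegree_bb, ← natDegree_Nhat_add z m r.1]
  exact Nat.add_lt_add_left r.2.2 _

variable {z} in
/-- injectivity of `Phi` on degree `< N` -/
lemma eq_zero_of_Phi (hz : Function.Injective z) {f : K[X]} (hf : f.degree < (∑ l, m l : ℕ))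
    (h : ∀ r, Phi z m f r = 0) : f = 0 := by
  have h1 : ∀ i, (X - C (z i)) ^ (m i) ∣ f := by
    intro i
    rw [← X_pow_dvd_germ_iff]
    have h2 : (PowerSeries.X : PowerSeries K) ^ (m i) ∣ wt z m f i := by
      rw [PowerSeries.X_pow_dvd_iff]
      intro d hd
      exact h ⟨i, ⟨d, hd⟩⟩
    have h3 : germ (z i) f = wt z m f i * germ (z i) (Nhat z m i) := by
      rw [wt, mul_assoc, PowerSeries.inv_mul_cancel, mul_one]
      rw [constantCoeff_germ]
      exact Nhat_eval_ne m hz i
    rw [h3]
    exact Dvd.dvd.mul_right h2 _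
  have h4 : NS z m ∣ f := by
    rw [NS]
    apply Finset.prod_dvd_of_coprime
    · intro i _ j _ hij
      apply IsCoprime.pow
      apply Polynomial.isCoprime_X_sub_C_of_isUnit_sub
      exact (sub_ne_zero.mpr fun h => hij (hz h)).isUnit
    · intro i _
      exact h1 i
  by_contra h0
  have := Polynomial.natDegree_le_of_dvd h4 h0
  rw [natDegree_NS] at this
  rw [degree_eq_natDegree h0] at hf
  have h5 : f.natDegree < ∑ l, m l := by exact_mod_cast hf
  omega

variable {z} in
/-- partial fractions -/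
lemma eq_sum_Phi (hz : Function.Injective z) {f : K[X]} (hf : f.degree < (∑ l, m l : ℕ)) :
    f = ∑ r, C (Phi z m f r) * bb z m r := by
  rw [← sub_eq_zero]
  apply eq_zero_of_Phi m hz
  · refine (degree_sub_le _ _).trans_lt (max_lt hf ?_)
    refine (degree_sum_le _ _).trans_lt ?_
    rw [Finset.sup_lt_iff (by exact WithBot.bot_lt_coe _)]
    intro r _
    rw [← smul_eq_C_mul]
    refine (degree_smul_le _ _).trans_lt ?_
    rw [degree_eq_natDegree (bb_monic z m r).ne_zero]
    exact_mod_cast natDegree_bb_lt z m r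
  · intro r
    have hsub : Phi z m (f - ∑ r, C (Phi z m f r) * bb z m r) r
        = Phi z m f r - Phi z m (∑ r, C (Phi z m f r) * bb z m r) r := by
      simp only [Phi, wt_sub, map_sub]
    rw [hsub, Phi_sum]
    have : ∀ r', Phi z m (C (Phi z m f r') * bb z m r') r
        = Phi z m f r' * (if r' = r then 1 else 0) := by
      intro r'
      rw [← Phi_bb m hz r' r, Phi, wt_C_mul, PowerSeries.coeff_C_mul, ← Phi]
    simp only [this, mul_ite, mul_one, mul_zero, Finset.sum_ite_eq', mem_univ, if_true, sub_self]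

/-- sum of all residues of `f / NS` -/
noncomputable def resSum (f : K[X]) : K :=
  ∑ i, if m i = 0 then 0 else PowerSeries.coeff (m i - 1) (wt z m f i)

variable {z} in
/-- the sum of the residues of `f/NS` is the top coefficient -/
lemma resSum_eq (hz : Function.Injective z) {f : K[X]} (hf : f.degree < (∑ l, m l : ℕ)) :
    resSum z m f = f.coeff (∑ l, m l - 1) := by
  conv_rhs => rw [eq_sum_Phi m hz hf]
  rw [finsetSum_coeff, Fintype.sum_sigma, resSum]
  refine Finset.sum_congr rfl fun i _ => ?_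
  split_ifs with h0
  · symm
    apply Finset.sum_eq_zero
    intro j _
    exact absurd j.2 (by omega)
  · rw [Finset.sum_eq_single (⟨m i - 1, by omega⟩ : Fin (m i))]
    · rw [coeff_C_mul]
      have hd : (bb z m ⟨i, ⟨m i - 1, by omega⟩⟩).natDegree = ∑ l, m l - 1 := by
        rw [natDegree_bb, ← natDegree_Nhat_add z m i]
        simp only
        omega
      have := (bb_monic z m ⟨i, ⟨m i - 1, by omega⟩⟩).coeff_natDegree
      rw [hd] at this
      rw [this, mul_one]
      rfl
    · intro j _ hj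
      rw [coeff_C_mul]
      have hj' : (j : ℕ) ≠ m i - 1 := fun hh => hj (Fin.ext hh)
      have hj2 : (j : ℕ) < m i := j.2
      rw [coeff_eq_zero_of_natDegree_lt, mul_zero]
      rw [natDegree_bb, ← natDegree_Nhat_add z m i]
      simp only
      omega
    · intro h; exact absurd (mem_univ _) h


/-! ### the functional `lam` on germs over an algebra -/

variable {A : Type*} [CommRing A] [Algebra K A]

/-- `lam p F = ∑_i Res_{z i} (F p / NS)` for a family of germs `F i : A⟦ε⟧` -/
noncomputable def lam (p : K[X]) (F : ι → PowerSeries A) : A :=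
  ∑ r : Row m, algebraMap K A (u z m p r) * PowerSeries.coeff (r.2 : ℕ) (F r.1)

/-- germs of a polynomial, mapped to `A` -/
noncomputable def pgerm (A : Type*) [CommRing A] [Algebra K A] (T : K[X]) (i : ι) :
    PowerSeries A := PowerSeries.map (algebraMap K A) (germ (z i) T)

variable {z} in
lemma sum_u_mul (i : ι) (hi : m i ≠ 0) (p : K[X]) (f : PowerSeries K) :
    ∑ j : Fin (m i), u z m p ⟨i, j⟩ * PowerSeries.coeff (j : ℕ) f
      = PowerSeries.coeff (m i - 1) (f * wt z m p i) := by
  rw [PowerSeries.coeff_mul, Finset.Nat.sum_antidiagonal_eq_sum_range_succ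
    (fun a b => PowerSeries.coeff a f * PowerSeries.coeff b (wt z m p i))]
  have h1 : (m i - 1).succ = m i := by omega
  rw [h1, ← Fin.sum_univ_eq_sum_range (fun k => PowerSeries.coeff k f *
    PowerSeries.coeff (m i - 1 - k) (wt z m p i)) (m i)]
  refine Finset.sum_congr rfl fun j _ => ?_
  rw [u, mul_comm]

variable {z} in
/-- (I2) `lam p T` for a polynomial `T` is the top coefficient of `T p` -/
lemma lam_pgerm (hz : Function.Injective z) {p T : K[X]}
    (h : (T * p).degree < (∑ l, m l : ℕ)) :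
    lam z m p (pgerm z A T) = algebraMap K A ((T * p).coeff (∑ l, m l - 1)) := by
  rw [← resSum_eq m hz h, lam, Fintype.sum_sigma, resSum, map_sum]
  refine Finset.sum_congr rfl fun i _ => ?_
  split_ifs with h0
  · rw [map_zero]
    apply Finset.sum_eq_zero
    intro j _
    exact absurd j.2 (by omega)
  · rw [wt_mul, ← sum_u_mul m i h0 p (germ (z i) T), map_sum]
    refine Finset.sum_congr rfl fun j _ => ?_
    rw [pgerm, PowerSeries.coeff_map, map_mul]


/-! ### the determinant identity -/

/-- a matrix with zeros strictly above and ones on the anti-diagonal -/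
lemma det_antitri {R : Type*} [CommRing R] {n : ℕ} (B : Matrix (Fin n) (Fin n) R)
    (h0 : ∀ i j : Fin n, (i : ℕ) + j + 1 < n → B i j = 0)
    (h1 : ∀ i j : Fin n, (i : ℕ) + j + 1 = n → B i j = 1) :
    B.det = (((Equiv.Perm.sign (Fin.revPerm : Equiv.Perm (Fin n)) : ℤˣ) : ℤ) : R) := by
  have hp := Matrix.det_permute' (Fin.revPerm : Equiv.Perm (Fin n)) B
  have hB : (B.submatrix id (Fin.revPerm : Equiv.Perm (Fin n))).det = 1 := by
    rw [Matrix.det_of_isLowerTriangular]
    · apply Finset.prod_eq_one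
      intro i _
      rw [Matrix.submatrix_apply, id, Fin.revPerm_apply]
      apply h1
      rw [Fin.val_rev]
      omega
    · intro i j hij
      rw [Matrix.submatrix_apply, id, Fin.revPerm_apply]
      apply h0
      have hij' : (i : ℕ) < j := hij
      rw [Fin.val_rev]
      omega
  rw [hB] at hp
  have hs : (((Equiv.Perm.sign (Fin.revPerm : Equiv.Perm (Fin n)) : ℤˣ) : ℤ) : R) *
      (((Equiv.Perm.sign (Fin.revPerm : Equiv.Perm (Fin n)) : ℤˣ) : ℤ) : R) = 1 := by
    rw [← Int.cast_mul, ← Units.val_mul, Int.units_mul_self]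
    simp
  linear_combination (-(((Equiv.Perm.sign (Fin.revPerm : Equiv.Perm (Fin n)) : ℤˣ) : ℤ) : R)) * hp
    + (-B.det) * hs

variable {a q : ℕ}

/-- position of a row/column label -/
def idx : Fin a ⊕ Fin q → ℕ := Sum.elim (fun k => (k : ℕ)) (fun r => a + r)

lemma idx_eq (k : Fin a ⊕ Fin q) : idx k = (finSumFinEquiv k : Fin (a + q)) := by
  rcases k with k | k <;> simp [idx]

/-- the matrix of a family of germ columns -/
noncomputable def mat (e : Fin a ⊕ Fin q ≃ Row m)
    (col : Fin a ⊕ Fin q → ι → PowerSeries A) : Matrix (Fin a ⊕ Fin q) (Fin a ⊕ Fin q) A :=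
  Matrix.of fun r c => PowerSeries.coeff ((e r).2 : ℕ) (col c (e r).1)

/-- the matrix of weights -/
noncomputable def umat (A : Type*) [CommRing A] [Algebra K A] (p : ℕ → K[X])
    (e : Fin a ⊕ Fin q ≃ Row m) : Matrix (Fin a ⊕ Fin q) (Fin a ⊕ Fin q) A :=
  Matrix.of fun k r => algebraMap K A (u z m (p (idx k)) (e r))

lemma umat_mul_mat (p : ℕ → K[X]) (e : Fin a ⊕ Fin q ≃ Row m)
    (col : Fin a ⊕ Fin q → ι → PowerSeries A) (k c : Fin a ⊕ Fin q) :
    (umat z m A p e * mat m e col) k c = lam z m (p (idx k)) (col c) := by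
  rw [Matrix.mul_apply, lam, ← Equiv.sum_comp e]
  rfl

/-- confluent Vandermonde -/
noncomputable def vmat (A : Type*) [CommRing A] [Algebra K A] (e : Fin a ⊕ Fin q ≃ Row m) :
    Matrix (Fin a ⊕ Fin q) (Fin a ⊕ Fin q) A :=
  mat m e fun c => pgerm z A (X ^ (idx c))

omit [Fintype ι] [DecidableEq ι] in
lemma vmat_eq_map (e : Fin a ⊕ Fin q ≃ Row m) :
    vmat z m A e = (vmat z m K e).map (algebraMap K A) := by
  ext r c
  simp [vmat, mat, pgerm, PowerSeries.coeff_map]

omit [DecidableEq ι] in
lemma card_of_equiv (e : Fin a ⊕ Fin q ≃ Row m) : a + q = ∑ l, m l := by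
  have := Fintype.card_congr e
  simpa using this

variable {z} in
/-- values of `lam` on polynomials above / on the anti-diagonal -/
lemma lam_poly (hz : Function.Injective z) {p T : K[X]} (hp : p.Monic) (hT : T.Monic)
    (h : T.natDegree + p.natDegree + 1 ≤ ∑ l, m l) :
    lam z m p (pgerm z A T) = if T.natDegree + p.natDegree + 1 = ∑ l, m l then 1 else 0 := by
  have hd : (T * p).natDegree = T.natDegree + p.natDegree := hT.natDegree_mul hp
  rw [lam_pgerm m hz]
  · split_ifs with h1
    · have h2 : ∑ l, m l - 1 = (T * p).natDegree := by omega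
      rw [h2, (hT.mul hp).coeff_natDegree, map_one]
    · rw [coeff_eq_zero_of_natDegree_lt (by omega), map_zero]
  · rw [degree_eq_natDegree (hT.mul hp).ne_zero]
    exact_mod_cast (by omega : (T * p).natDegree < ∑ l, m l)

variable {z} in
theorem det_umat_mul_vmat (hz : Function.Injective z) (p : ℕ → K[X])
    (hp : ∀ k, (p k).Monic ∧ (p k).natDegree = k) (e : Fin a ⊕ Fin q ≃ Row m) :
    ∃ s : ℤˣ, (umat z m A p e).det * (vmat z m A e).det = ((s : ℤ) : A) := by
  refine ⟨Equiv.Perm.sign (Fin.revPerm : Equiv.Perm (Fin (a + q))), ?_⟩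
  have hN := card_of_equiv m e
  rw [← Matrix.det_mul, ← Matrix.det_submatrix_equiv_self finSumFinEquiv.symm]
  apply det_antitri
  · intro i j hij
    rw [Matrix.submatrix_apply, vmat, umat_mul_mat, idx_eq, idx_eq, Equiv.apply_symm_apply,
      Equiv.apply_symm_apply, lam_poly m hz (hp _).1 (monic_X_pow _)]
    · rw [if_neg]
      rw [natDegree_X_pow, (hp _).2]; omega
    · rw [natDegree_X_pow, (hp _).2]; omega
  · intro i j hij
    rw [Matrix.submatrix_apply, vmat, umat_mul_mat, idx_eq, idx_eq, Equiv.apply_symm_apply,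
      Equiv.apply_symm_apply, lam_poly m hz (hp _).1 (monic_X_pow _)]
    · rw [if_pos]
      rw [natDegree_X_pow, (hp _).2]; omega
    · rw [natDegree_X_pow, (hp _).2]; omega

variable {z} in
/-- the confluent Vandermonde determinant is not zero -/
theorem det_vmat_ne_zero (hz : Function.Injective z) (e : Fin a ⊕ Fin q ≃ Row m) :
    (vmat z m K e).det ≠ 0 := by
  obtain ⟨s, hs⟩ := det_umat_mul_vmat (A := K) m hz (fun k => X ^ k)
    (fun k => ⟨monic_X_pow k, natDegree_X_pow k⟩) e
  intro h
  rw [h, mul_zero] at hs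
  rcases Int.units_eq_one_or s with h1 | h1 <;> simp [h1] at hs

variable {z} in
/-- **residue identity**: with `q` columns which are monic polynomials `t c` of degree `c`, and
arbitrary other columns `F`, and any monic test family `p`,
`det (coeff_j F^c_i) = ± V * det (lam (p k) (F c))`. -/
theorem det_mat_eq (hz : Function.Injective z) (p t : ℕ → K[X])
    (hp : ∀ k, (p k).Monic ∧ (p k).natDegree = k) (ht : ∀ k, (t k).Monic ∧ (t k).natDegree = k)
    (e : Fin a ⊕ Fin q ≃ Row m) (F : Fin a → ι → PowerSeries A) :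
    ∃ s : ℤˣ, (mat m e (Sum.elim F fun c => pgerm z A (t c))).det =
      ((s : ℤ) : A) * ((vmat z m A e).det *
        (Matrix.of fun k c : Fin a => lam z m (p k) (F c)).det) := by
  have hN := card_of_equiv m e
  set M := mat m e (Sum.elim F fun c => pgerm z A (t c)) with hM
  set L : Matrix (Fin a) (Fin a) A := Matrix.of fun k c : Fin a => lam z m (p k) (F c) with hL
  have hblock : umat z m A p e * M = Matrix.fromBlocks L 0
      (Matrix.of fun (k : Fin q) (c : Fin a) => lam z m (p (a + k)) (F c))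
      (Matrix.of fun (k c : Fin q) => lam z m (p (a + k)) (pgerm z A (t c))) := by
    ext k c
    rw [hM, umat_mul_mat]
    rcases k with k | k <;> rcases c with c | c
    · rfl
    · rw [Matrix.fromBlocks_apply₁₂, Matrix.zero_apply]
      simp only [Sum.elim_inr, idx, Sum.elim_inl]
      rw [lam_poly m hz (hp _).1 (ht _).1]
      · rw [if_neg]
        rw [(ht _).2, (hp _).2]; omega
      · rw [(ht _).2, (hp _).2]; omega
    · rfl
    · rfl
  have hD : (Matrix.of fun (k c : Fin q) => lam z m (p (a + k)) (pgerm z A (t c))).det =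
      (((Equiv.Perm.sign (Fin.revPerm : Equiv.Perm (Fin q)) : ℤˣ) : ℤ) : A) := by
    apply det_antitri
    · intro i j hij
      rw [Matrix.of_apply, lam_poly m hz (hp _).1 (ht _).1]
      · rw [if_neg]
        rw [(ht _).2, (hp _).2]; omega
      · rw [(ht _).2, (hp _).2]; omega
    · intro i j hij
      rw [Matrix.of_apply, lam_poly m hz (hp _).1 (ht _).1]
      · rw [if_pos]
        rw [(ht _).2, (hp _).2]; omega
      · rw [(ht _).2, (hp _).2]; omega
  have h1 : (umat z m A p e).det * M.det = L.det *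
      (((Equiv.Perm.sign (Fin.revPerm : Equiv.Perm (Fin q)) : ℤˣ) : ℤ) : A) := by
    rw [← Matrix.det_mul, hblock, Matrix.det_fromBlocks_zero₁₂, hD]
  obtain ⟨s, hs⟩ := det_umat_mul_vmat (A := A) m hz p hp e
  have hss : ((s : ℤ) : A) * ((s : ℤ) : A) = 1 := by
    rw [← Int.cast_mul, ← Units.val_mul, Int.units_mul_self]; simp
  refine ⟨s * Equiv.Perm.sign (Fin.revPerm : Equiv.Perm (Fin q)), ?_⟩
  rw [Units.val_mul, Int.cast_mul]
  linear_combination ((s : ℤ) : A) * (vmat z m A e).det * h1 - ((s : ℤ) : A) * M.det * hs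
    - M.det * hss

/-- unit vector column at the row `ρ` -/
noncomputable def unitCol (A : Type*) [CommRing A] (ρ : Row m) (i : ι) : PowerSeries A :=
  if i = ρ.1 then PowerSeries.X ^ (ρ.2 : ℕ) else 0

omit [Fintype ι] in
lemma coeff_unitCol (ρ r : Row m) :
    PowerSeries.coeff (r.2 : ℕ) (unitCol m A ρ r.1) = if r = ρ then 1 else 0 := by
  obtain ⟨i, j⟩ := r
  obtain ⟨i', j'⟩ := ρ
  by_cases h : i = i'
  · subst h
    simp only [unitCol, if_true, PowerSeries.coeff_X_pow]
    by_cases hj : j = j'
    · subst hj; simp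
    · have h1 : ¬ ((j : ℕ) = j') := fun hh => hj (Fin.ext hh)
      have h2 : ¬ ((⟨i, j⟩ : Row m) = ⟨i, j'⟩) := by
        intro hh; apply hj; simpa using hh
      rw [if_neg h1, if_neg h2]
  · have h2 : ¬ ((⟨i, j⟩ : Row m) = ⟨i', j'⟩) := by
      intro hh; apply h; rw [Sigma.mk.injEq] at hh; exact hh.1
    rw [if_neg h2]
    simp [unitCol, h]

lemma lam_unitCol (p : K[X]) (ρ : Row m) :
    lam z m p (unitCol m A ρ) = algebraMap K A (u z m p ρ) := by
  rw [lam, Finset.sum_eq_single ρ]
  · rw [coeff_unitCol, if_pos rfl, mul_one]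
  · intro r _ hr
    rw [coeff_unitCol, if_neg hr, mul_zero]
  · intro h; exact absurd (mem_univ _) h

end

end Crest.Agent.R006.Lam
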