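import Mathlib

/-!
Row 6, block P2 (nonvanishing): bordering by unit vectors.

If the columns of a `ρ × κ` matrix over a field are linearly independent and
`|ρ| = |κ| + |γ|`, then the matrix can be completed by `γ` unit vector columns to an invertible
matrix. Used with `γ = Fin c0` (`c0` extra rows).
-/

set_option autoImplicit false

namespace Crest.Agent.R006.NV

open Matrix

/-- the matrix `M` bordered by unit vectors in the rows `J t` -/
def border {K ρ κ γ : Type*} [Zero K] [One K] [DecidableEq ρ] (M : Matrix ρ κ K) (J : γ → ρ) :
    Matrix ρ (κ ⊕ γ) K :=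
  Matrix.of fun r c => Sum.elim (fun k => M r k) (fun t => if r = J t then 1 else 0) c

/-- **Bordering lemma.** -/
theorem exists_border_det_ne_zero {K : Type*} [Field K] {ρ κ γ : Type*} [Fintype ρ] [Fintype κ]
    [Fintype γ] [DecidableEq ρ] [DecidableEq κ] [DecidableEq γ] (e : κ ⊕ γ ≃ ρ)
    (M : Matrix ρ κ K) (h : ∀ x : κ → K, M.mulVec x = 0 → x = 0) :
    ∃ J : γ → ρ, Function.Injective J ∧ ((border M J).submatrix e id).det ≠ 0 := by
  classical
  -- columns of `M`
  have hli : LinearIndependent K (fun k : κ => M.col k) := by
    rw [Fintype.linearIndependent_iff]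
    intro g hg
    have h1 : M.mulVec g = 0 := by
      funext r
      have := congrFun hg r
      simp only [Finset.sum_apply, Pi.smul_apply, Matrix.col_apply, smul_eq_mul,
        Pi.zero_apply] at this
      rw [Matrix.mulVec, dotProduct, Pi.zero_apply, ← this]
      exact Finset.sum_congr rfl fun k _ => mul_comm _ _
    intro i
    exact congrFun (h g h1) i
  -- all vectors: columns of `M` and the unit vectors
  let v : κ ⊕ ρ → (ρ → K) := Sum.elim (fun k => M.col k) (fun r => Pi.single r 1)
  have hs : LinearIndepOn K v (Set.range (Sum.inl : κ → κ ⊕ ρ)) := by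
    rw [linearIndepOn_range_iff Sum.inl_injective]
    exact hli
  have hspan : Submodule.span K (Set.range v) = ⊤ := by
    rw [eq_top_iff, ← (Pi.basisFun K ρ).span_eq]
    apply Submodule.span_mono
    rintro _ ⟨r, rfl⟩
    refine ⟨Sum.inr r, ?_⟩
    simp [v]
  set B : Set (κ ⊕ ρ) := hs.extend (Set.subset_univ _) with hB
  have hBsub : Set.range (Sum.inl : κ → κ ⊕ ρ) ⊆ B := hs.subset_extend _
  have hBli : LinearIndepOn K v B := hs.linearIndepOn_extend _
  have hBspan : Submodule.span K (v '' B) = ⊤ := by
    rw [hB, hs.span_image_extend_eq_span_image, Set.image_univ, hspan]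
  -- cardinality
  have hcardB : Fintype.card B = Fintype.card ρ := by
    have h1 := finrank_span_eq_card hBli.linearIndependent
    have h2 : Set.range (fun x : B => v x) = v '' B := by
      ext y; simp
    rw [h2, hBspan, finrank_top, Module.finrank_pi] at h1
    exact h1.symm
  let G0 : Type _ := {r : ρ // Sum.inr r ∈ B}
  have hBeq : Fintype.card B = Fintype.card κ + Fintype.card G0 := by
    rw [← Fintype.card_sum]
    refine Fintype.card_congr (Equiv.ofBijective
      (fun b : κ ⊕ G0 => (⟨Sum.elim (fun k => Sum.inl k) (fun r => Sum.inr r.1) b, ?_⟩ : B))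
      ⟨?_, ?_⟩).symm
    · rcases b with k | r
      · exact hBsub ⟨k, rfl⟩
      · exact r.2
    · rintro (a | a) (b | b) hab
      · simpa using hab
      · simp at hab
      · simp at hab
      · have : a.1 = b.1 := by simpa using hab
        exact congrArg Sum.inr (Subtype.ext this)
    · rintro ⟨x, hx⟩
      rcases x with k | r
      · exact ⟨Sum.inl k, rfl⟩
      · exact ⟨Sum.inr ⟨r, hx⟩, rfl⟩
  have hG0 : Fintype.card γ = Fintype.card G0 := by
    have := Fintype.card_congr e
    rw [Fintype.card_sum] at this
    omega
  let E : γ ≃ G0 := Fintype.equivOfCardEq hG0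
  refine ⟨fun t => (E t).1, fun a b hab => E.injective (Subtype.ext hab), ?_⟩
  -- linear independence of the columns of the bordered matrix
  let φ : κ ⊕ γ → B := fun c =>
    ⟨Sum.elim (fun k => Sum.inl k) (fun t => Sum.inr (E t).1) c, by
      rcases c with k | t
      · exact hBsub ⟨k, rfl⟩
      · exact (E t).2⟩
  have hφ : Function.Injective φ := by
    rintro (a | a) (b | b) hab
    · simpa [φ] using hab
    · simp [φ] at hab
    · simp [φ] at hab
    · have : (E a).1 = (E b).1 := by simpa [φ] using hab
      exact congrArg Sum.inr (E.injective (Subtype.ext this))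
  have hcol : (fun c => (border M (fun t => (E t).1)).col c) = fun c => v (φ c) := by
    funext c r
    rcases c with k | t
    · rfl
    · simp only [border, Matrix.col_apply, Matrix.of_apply, Sum.elim_inr, v, φ]
      rw [Pi.single_apply]
  have hli2 : LinearIndependent K (fun c => (border M (fun t => (E t).1)).col c) := by
    rw [hcol]
    exact hBli.linearIndependent.comp φ hφ
  have hli3 : LinearIndependent K ((border M (fun t => (E t).1)).submatrix e id).col := by
    have := hli2.map' (LinearEquiv.funCongrLeft K K e).toLinearMap (LinearEquiv.ker _)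
    exact this
  have hu := Matrix.linearIndependent_cols_iff_isUnit.mp hli3
  exact ((Matrix.isUnit_iff_isUnit_det _).mp hu).ne_zero

end Crest.Agent.R006.NV
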