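import Crest.Agent.R006.Defs
import Crest.Agent.R006.NVBorder_938
import Crest.Agent.R006.Lam_89

/-!
# Row 6: the bordered minor (helper929), on 378's `Defs`

* `det_border` : for `r : κ → ρ`, `J : γ → ρ` with `Sum.elim r J` bijective and any enumeration
  `e : κ ⊕ γ ≃ ρ`, the determinant of the full matrix with the unit columns `J` is `±` the minor `r`.
* `sites S u c`, `sum_mult` : the sites of the design, the number of rows is `S.rows * u + c`.
* `exists_J` : the omitted rows of an admissible choice.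
* `Minor_eq_lam` : `Minor S u r = ± (∏ 1/l!) V det (lam (p k) (F c))`, the residue identity (89's
  `det_mat_eq`) for the full node set; `F` = the `R`-columns, the `Q`-columns, `c` unit columns.
-/

set_option autoImplicit false

namespace Crest.Agent.R006.Bordx929

open Polynomial Crest.Agent.R006.NV Crest.Agent.R006.PsiInf Crest.Agent.R006.D

section generic

variable {R ρ κ γ : Type*} [CommRing R] [Fintype κ] [DecidableEq κ] [Fintype γ] [DecidableEq γ]
  [DecidableEq ρ]

theorem det_border_base (M : Matrix ρ κ R) (r : κ → ρ) (J : γ → ρ)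
    (hJ : Function.Injective J) (hd : ∀ i t, r i ≠ J t) :
    ((border M J).submatrix (Sum.elim r J) id).det = (M.submatrix r id).det := by
  have h : (border M J).submatrix (Sum.elim r J) id =
      Matrix.fromBlocks (M.submatrix r id) 0 (M.submatrix J id) 1 := by
    ext i j
    rcases i with i | i <;> rcases j with j | j
    · rfl
    · simp [border, hd]
    · rfl
    · simp [border, Matrix.one_apply, hJ.eq_iff]
  rw [h, Matrix.det_fromBlocks_zero₁₂, Matrix.det_one, mul_one]

theorem det_border (M : Matrix ρ κ R) (r : κ → ρ) (J : γ → ρ)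
    (hb : Function.Bijective (Sum.elim r J)) (e : κ ⊕ γ ≃ ρ) :
    ∃ s : ℤˣ, (M.submatrix r id).det = ((s : ℤ) : R) * ((border M J).submatrix e id).det := by
  have hJ : Function.Injective J := fun a b hab => by
    simpa using hb.1 (show Sum.elim r J (Sum.inr a) = Sum.elim r J (Sum.inr b) from hab)
  have hd : ∀ i t, r i ≠ J t := fun i t h => by
    simpa using hb.1 (show Sum.elim r J (Sum.inl i) = Sum.elim r J (Sum.inr t) from h)
  let e0 : κ ⊕ γ ≃ ρ := Equiv.ofBijective _ hb
  let σ : Equiv.Perm (κ ⊕ γ) := e0.trans e.symm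
  refine ⟨Equiv.Perm.sign σ, ?_⟩
  rw [← det_border_base M r J hJ hd, ← Matrix.det_permute]
  congr 1
  ext i j
  simp [σ, e0, Matrix.submatrix_apply]

end generic

/-! ### the sites -/

variable (S : Shape) (u c : ℕ)

lemma Z_inj : Function.Injective Site.Z := fun _ _ h => by injection h

lemma H_inj : Function.Injective Site.H := fun _ _ h => by injection h

/-- the sites of the design -/
noncomputable def sites : Finset Site :=
  ((Finset.Ico (-((S.e1 * u : ℕ) : ℤ)) ((S.B * u + c : ℕ) : ℤ)).map ⟨Site.Z, Z_inj⟩).disjUnion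
  ((Finset.Ico (-((S.w * u : ℕ) : ℤ)) ((S.h1 * u : ℕ) : ℤ)).map ⟨Site.H, H_inj⟩) (by
      rw [Finset.disjoint_left]
      intro x hx hy
      rw [Finset.mem_map] at hx hy
      obtain ⟨a, _, rfl⟩ := hx
      obtain ⟨b, _, hb⟩ := hy
      simp at hb)

/-- sum over an integer interval of an indicator -/
lemma sum_ind (a b a' b' : ℤ) (p : ℤ → Prop) [DecidablePred p]
    (h : ∀ i, (a ≤ i ∧ i < b) ∧ p i ↔ a' ≤ i ∧ i < b') :
    ∑ i ∈ Finset.Ico a b, (if p i then 1 else 0) = (b' - a').toNat := by
  rw [Finset.sum_boole, ← Int.card_Ico]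
  have : Finset.filter p (Finset.Ico a b) = Finset.Ico a' b' := by
    ext i
    rw [Finset.mem_filter, Finset.mem_Ico, Finset.mem_Ico, h]
  rw [this]
  simp

variable {S}

lemma sum_mult (hS : S.Good) : ∑ z ∈ sites S u c, S.mult u c z = S.rows * u + c := by
  have h1 := Nat.mul_le_mul_right u hS.e21
  have h2 := Nat.mul_le_mul_right u hS.e32
  have h3 := Nat.mul_le_mul_right u hS.h21
  have h4 := Nat.mul_le_mul_right u hS.h32
  rw [sites, Finset.sum_disjUnion, Finset.sum_map, Finset.sum_map]
  simp only [Function.Embedding.coeFn_mk]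
  have e1 : ∀ i : ℤ, S.mult u c (Site.Z i) =
      (if 0 ≤ i ∧ i < S.B * u + c then 1 else 0) + (if i < 0 ∧ -i ≤ S.e1 * u then 1 else 0)
      + (if i < 0 ∧ -i ≤ S.e2 * u then 1 else 0) + (if i < 0 ∧ -i ≤ S.e3 * u then 1 else 0) := by
    intro i
    rw [Shape.mult]
    by_cases h : 0 ≤ i
    · have h' : ¬ i < 0 := not_lt.mpr h
      simp [h, h']
    · have h' : i < 0 := not_le.mp h
      simp only [h, h', if_false, false_and, true_and, zero_add]
  have e2 : ∀ i : ℤ, S.mult u c (Site.H i) =
      (if i < 0 ∧ -i ≤ S.w * u then 1 else 0) + (if 0 ≤ i ∧ i < S.h1 * u then 1 else 0)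
      + (if 0 ≤ i ∧ i < S.h2 * u then 1 else 0) + (if 0 ≤ i ∧ i < S.h3 * u then 1 else 0) := by
    intro i
    rw [Shape.mult]
    by_cases h : 0 ≤ i
    · have h' : ¬ i < 0 := not_lt.mpr h
      simp only [h, h', if_true, false_and, true_and, if_false, zero_add]
    · have h' : i < 0 := not_le.mp h
      simp [h, h']
  simp only [e1, e2, Finset.sum_add_distrib]
  rw [sum_ind _ _ 0 (S.B * u + c : ℕ), sum_ind _ _ (-((S.e1 * u : ℕ) : ℤ)) 0,
    sum_ind _ _ (-((S.e2 * u : ℕ) : ℤ)) 0, sum_ind _ _ (-((S.e3 * u : ℕ) : ℤ)) 0,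
    sum_ind _ _ (-((S.w * u : ℕ) : ℤ)) 0, sum_ind _ _ 0 ((S.h1 * u : ℕ) : ℤ),
    sum_ind _ _ 0 ((S.h2 * u : ℕ) : ℤ), sum_ind _ _ 0 ((S.h3 * u : ℕ) : ℤ)]
  · simp only [sub_zero, zero_sub, neg_neg, Int.toNat_natCast]
    rw [Shape.rows]
    ring
  all_goals
    intro i
    zify at h1 h2 h3 h4
    have p1 : (0 : ℤ) ≤ S.e1 * u := by positivity
    have p2 : (0 : ℤ) ≤ S.e2 * u := by positivity
    have p3 : (0 : ℤ) ≤ S.e3 * u := by positivity
    have p4 : (0 : ℤ) ≤ S.h1 * u := by positivity
    have p5 : (0 : ℤ) ≤ S.h2 * u := by positivity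
    have p6 : (0 : ℤ) ≤ S.h3 * u := by positivity
    have p7 : (0 : ℤ) ≤ S.w * u := by positivity
    have p8 : (0 : ℤ) ≤ S.B * u := by positivity
    have p9 : (0 : ℤ) ≤ c := by positivity
    push_cast
    omega

lemma mem_sites (hS : S.Good) {z : Site} (h : S.mult u c z ≠ 0) : z ∈ sites S u c := by
  have h1 := Nat.mul_le_mul_right u hS.e21
  have h2 := Nat.mul_le_mul_right u hS.e32
  have h3 := Nat.mul_le_mul_right u hS.h21
  have h4 := Nat.mul_le_mul_right u hS.h32
  zify at h1 h2 h3 h4
  rw [sites, Finset.mem_disjUnion, Finset.mem_map, Finset.mem_map]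
  rcases z with i | i
  · left
    refine ⟨i, ?_, rfl⟩
    rw [Finset.mem_Ico]
    have h0 : (0 : ℤ) ≤ S.B * u := by positivity
    have h0' : (0 : ℤ) ≤ S.e1 * u := by positivity
    rw [Shape.mult] at h
    push_cast
    split_ifs at h <;> omega
  · right
    refine ⟨i, ?_, rfl⟩
    rw [Finset.mem_Ico]
    have h0 : (0 : ℤ) ≤ S.w * u := by positivity
    have h0' : (0 : ℤ) ≤ S.h1 * u := by positivity
    rw [Shape.mult] at h
    push_cast
    split_ifs at h <;> omega

/-- the type of the sites -/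
abbrev SI (S : Shape) (u c : ℕ) : Type := {z : Site // z ∈ sites S u c}

/-- the numbers attached to the sites -/
noncomputable def zz (S : Shape) (u c : ℕ) (z : SI S u c) : ℚ := z.1.val

/-- the multiplicities -/
def mm (S : Shape) (u c : ℕ) (z : SI S u c) : ℕ := S.mult u c z.1

lemma val_injective : Function.Injective Site.val := by
  rintro (i | i) (j | j) h
  · simp only [Site.val] at h
    rw [show i = j by exact_mod_cast h]
  · simp only [Site.val] at h
    exfalso
    have h' : (2 : ℚ) * i = 2 * j + 1 := by rw [h]; ring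
    have h2 : (2 : ℤ) * i = 2 * j + 1 := by exact_mod_cast h'
    omega
  · simp only [Site.val] at h
    exfalso
    have h' : (2 : ℚ) * j = 2 * i + 1 := by rw [← h]; ring
    have h2 : (2 : ℤ) * j = 2 * i + 1 := by exact_mod_cast h'
    omega
  · simp only [Site.val] at h
    have h' : (i : ℚ) = j := by linarith
    rw [show i = j by exact_mod_cast h']

lemma zz_injective : Function.Injective (zz S u c) := fun _ _ h =>
  Subtype.ext (val_injective h)

lemma sum_mm (hS : S.Good) : ∑ z, mm S u c z = S.rows * u + c := by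
  rw [← sum_mult u c hS]
  exact Finset.sum_coe_sort (sites S u c) (fun z => S.mult u c z)

lemma card_Row (hS : S.Good) : Fintype.card (Lam.Row (mm S u c)) = S.rows * u + c := by
  rw [Fintype.card_sigma]
  simp only [Fintype.card_fin]
  exact sum_mm u c hS

/-- a row of the design as an element of `Lam.Row` -/
def toRow (hS : S.Good) (ρ : D.Row) (h : IsRow S u c ρ) : Lam.Row (mm S u c) :=
  ⟨⟨ρ.1, mem_sites u c hS (Nat.ne_of_gt (Nat.lt_of_le_of_lt (Nat.zero_le _) h))⟩, ⟨ρ.2, h⟩⟩

/-- back to the label -/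
def ofRow (x : Lam.Row (mm S u c)) : D.Row := (x.1.1, x.2)

lemma ofRow_toRow (hS : S.Good) (ρ : D.Row) (h : IsRow S u c ρ) :
    ofRow u c (toRow u c hS ρ h) = ρ := rfl

lemma ofRow_injective : Function.Injective (ofRow (S := S) u c) := by
  rintro ⟨⟨z, hz⟩, ⟨j, hj⟩⟩ ⟨⟨z', hz'⟩, ⟨j', hj'⟩⟩ h
  simp only [ofRow, Prod.mk.injEq] at h
  obtain ⟨rfl, rfl⟩ := h
  rfl

lemma card_Col (hS : S.Good) : Fintype.card (Col S u) = S.rows * u := by
  have h : Fintype.card (Col S u) = S.k * u + (S.q * u + S.g * u) := by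
    change Fintype.card (Fin (S.k * u) ⊕ Fin (S.q * u) ⊕ Fin (S.g * u)) = _
    rw [Fintype.card_sum, Fintype.card_sum, Fintype.card_fin, Fintype.card_fin, Fintype.card_fin]
  rw [h, ← Nat.add_mul, ← Nat.add_mul, Shape.k]
  congr 1
  have := hS.kpos
  omega

/-- complement of an injective choice -/
lemma exists_compl {κ ρ : Type*} [Fintype κ] [Fintype ρ] (r : κ → ρ)
    (hr : Function.Injective r) (c : ℕ) (h : Fintype.card ρ = Fintype.card κ + c) :
    ∃ J : Fin c → ρ, Function.Bijective (Sum.elim r J) := by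
  classical
  have h1 : Fintype.card {x // x ∉ Set.range r} = c := by
    rw [Fintype.card_subtype_compl]
    have : Fintype.card {x // x ∈ Set.range r} = Fintype.card κ :=
      Fintype.card_congr (Equiv.ofInjective r hr).symm
    rw [this, h]
    omega
  let E : Fin c ≃ {x // x ∉ Set.range r} := (Fintype.equivFinOfCardEq h1).symm
  refine ⟨fun t => (E t).1, ?_⟩
  rw [Fintype.bijective_iff_injective_and_card]
  refine ⟨?_, by rw [Fintype.card_sum, Fintype.card_fin, h]⟩
  rintro (a | a) (b | b) hab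
  · exact congrArg Sum.inl (hr hab)
  · exact absurd ⟨a, hab⟩ (E b).2
  · exact absurd ⟨b, hab.symm⟩ (E a).2
  · exact congrArg Sum.inr (E.injective (Subtype.ext hab))

/-- the full matrix, one row for every `(z,j)` of the design -/
noncomputable def full (S : Shape) (u c : ℕ) : Matrix (Lam.Row (mm S u c)) (Col S u) ℚ[X] :=
  Matrix.of fun x col => entry S u (ofRow u c x) col

/-- **the bordered minor**: for an admissible choice `r` there are omitted rows `J` such that, for
every enumeration `e` of the rows, `Minor S u r` is `±` the determinant of the full matrix with the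
unit columns `J`. -/
theorem Minor_eq_border (hS : S.Good) (r : Col S u → D.Row) (hr : Adm S u c r) :
    ∃ J : Fin c → Lam.Row (mm S u c), Function.Injective J ∧ (∀ i t, r i ≠ ofRow u c (J t)) ∧
      ∀ e : Col S u ⊕ Fin c ≃ Lam.Row (mm S u c), ∃ s : ℤˣ,
        Minor S u r = ((s : ℤ) : ℚ[X]) * ((border (full S u c) J).submatrix e id).det := by
  let r' : Col S u → Lam.Row (mm S u c) := fun i => toRow u c hS (r i) (hr.2 i)
  have hr' : Function.Injective r' := fun a b h => hr.1 (by
    have := congrArg (ofRow u c) h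
    exact this)
  obtain ⟨J, hJ⟩ := exists_compl r' hr' c (by rw [card_Row u c hS, card_Col u hS])
  refine ⟨J, fun a b h => ?_, fun i t h => ?_, fun e => ?_⟩
  · simpa using hJ.1 (show Sum.elim r' J (Sum.inr a) = Sum.elim r' J (Sum.inr b) from h)
  · have h1 : r' i = J t := ofRow_injective u c h
    simpa using hJ.1 (show Sum.elim r' J (Sum.inl i) = Sum.elim r' J (Sum.inr t) from h1)
  · obtain ⟨s, hs⟩ := det_border (full S u c) r' J hJ e
    exact ⟨s, by rw [← hs]; rfl⟩

/-! ### the residue identity -/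

/-- germs of the `R`-columns -/
noncomputable def colR (S : Shape) (u l : ℕ) (z : Site) : PowerSeries ℚ[X] :=
  PowerSeries.map (algebraMap ℚ ℚ[X])
      (gm z.val (polR S u l) * psi0 z - gm z.val (tau (polR S u l)))
    - PowerSeries.C (X : ℚ[X]) *
      PowerSeries.map (algebraMap ℚ ℚ[X]) (gm z.val (polR S u l) * psi1 z)

/-- germs of the `Q`-columns -/
noncomputable def colQ (l : ℕ) (z : Site) : PowerSeries ℚ[X] :=
  PowerSeries.map (algebraMap ℚ ℚ[X]) (gm z.val (bin l) * gam z)

lemma coeff_colR (l : Fin (S.k * u)) (z : Site) (j : ℕ) :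
    PowerSeries.coeff j (colR S u l z) = entry S u (z, j) (Sum.inl l) := by
  rw [colR, map_sub, PowerSeries.coeff_C_mul, PowerSeries.coeff_map, PowerSeries.coeff_map]
  rfl

lemma coeff_colQ (l : Fin (S.g * u)) (z : Site) (j : ℕ) :
    PowerSeries.coeff j (colQ l z) = entry S u (z, j) (Sum.inr (Sum.inr l)) := by
  rw [colQ, PowerSeries.coeff_map]
  rfl

/-- number of the non-polynomial columns -/
def nA (S : Shape) (u c : ℕ) : ℕ := S.k * u + (S.g * u + c)

/-- enumeration of the non-polynomial columns: `R`-columns, `Q`-columns, unit columns -/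
def EA (S : Shape) (u c : ℕ) : Fin (S.k * u) ⊕ (Fin (S.g * u) ⊕ Fin c) ≃ Fin (nA S u c) :=
  (Equiv.sumCongr (Equiv.refl _) finSumFinEquiv).trans finSumFinEquiv

/-- the non-polynomial columns -/
noncomputable def FA (S : Shape) (u c : ℕ) (J : Fin c → Lam.Row (mm S u c)) :
    Fin (S.k * u) ⊕ (Fin (S.g * u) ⊕ Fin c) → SI S u c → PowerSeries ℚ[X] :=
  Sum.elim (fun l z => colR S u l z.1)
    (Sum.elim (fun l z => colQ l z.1) (fun t => Lam.unitCol (mm S u c) ℚ[X] (J t)))

/-- enumeration of all columns -/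
def EC (S : Shape) (u c : ℕ) : Fin (nA S u c) ⊕ Fin (S.q * u) ≃ Col S u ⊕ Fin c :=
  (Equiv.sumCongr (EA S u c).symm (Equiv.refl _)).trans
    { toFun := Sum.elim (Sum.elim (fun l => Sum.inl (Sum.inl l))
        (Sum.elim (fun l => Sum.inl (Sum.inr (Sum.inr l))) (fun t => Sum.inr t)))
        (fun l => Sum.inl (Sum.inr (Sum.inl l)))
      invFun := Sum.elim (Sum.elim (fun l => Sum.inl (Sum.inl l))
        (Sum.elim (fun l => Sum.inr l) (fun l => Sum.inl (Sum.inr (Sum.inl l)))))
        (fun t => Sum.inl (Sum.inr (Sum.inr t)))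
      left_inv := by rintro ((l | l | l) | l) <;> rfl
      right_inv := by rintro ((l | l | l) | l) <;> rfl }

/-- a fixed enumeration of the rows -/
noncomputable def ER (S : Shape) (u c : ℕ) (hS : S.Good) :
    Fin (nA S u c) ⊕ Fin (S.q * u) ≃ Lam.Row (mm S u c) :=
  Fintype.equivOfCardEq (by
    rw [card_Row u c hS, ← card_Col u hS, Fintype.card_congr (EC S u c), Fintype.card_sum,
      Fintype.card_fin])

/-- the confluent Vandermonde determinant of the nodes (up to sign) -/
noncomputable def VV (S : Shape) (u c : ℕ) (hS : S.Good) : ℚ :=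
  (Lam.vmat (zz S u c) (mm S u c) ℚ (ER S u c hS)).det

lemma VV_ne_zero (hS : S.Good) : VV S u c hS ≠ 0 :=
  Lam.det_vmat_ne_zero (mm S u c) (zz_injective u c) (ER S u c hS)

lemma det_vmat_map (hS : S.Good) :
    (Lam.vmat (zz S u c) (mm S u c) ℚ[X] (ER S u c hS)).det = C (VV S u c hS) := by
  rw [Lam.vmat_eq_map, VV, ← Polynomial.algebraMap_eq, RingHom.map_det]
  rfl

/-- **the residue identity for the minors**: with the omitted rows `J` of the admissible choice `r`
and any monic test family `p`,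
`Minor S u r = ± V * (∏ 1/l!) * det (lam (p k) (F c))`,
`F` = the `R`-columns, the `Q`-columns and the unit columns at `J`. -/
theorem Minor_eq_lam (hS : S.Good) (r : Col S u → D.Row) (hr : Adm S u c r) :
    ∃ J : Fin c → Lam.Row (mm S u c), Function.Injective J ∧ (∀ i t, r i ≠ ofRow u c (J t)) ∧
      ∀ p : ℕ → ℚ[X], (∀ k, (p k).Monic ∧ (p k).natDegree = k) → ∃ s : ℤˣ,
        Minor S u r = ((s : ℤ) : ℚ[X]) *
          (C (VV S u c hS * ∏ l : Fin (S.q * u), ((l : ℕ).factorial : ℚ)⁻¹) *
          (Matrix.of fun k i : Fin (nA S u c) => Lam.lam (zz S u c) (mm S u c) (p k)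
            (FA S u c J ((EA S u c).symm i))).det) := by
  obtain ⟨J, hJ, hrJ, h⟩ := Minor_eq_border u c hS r hr
  refine ⟨J, hJ, hrJ, fun p hp => ?_⟩
  obtain ⟨s, hs⟩ := h ((EC S u c).symm.trans (ER S u c hS))
  obtain ⟨s', hs'⟩ := Lam.det_mat_eq (A := ℚ[X]) (mm S u c) (zz_injective u c) p
    (fun l => descPochhammer ℚ l)
    hp (fun l => ⟨monic_descPochhammer ℚ l, descPochhammer_natDegree ℚ l⟩) (ER S u c hS)
    (fun i => FA S u c J ((EA S u c).symm i))
  rw [det_vmat_map] at hs'
  have key : ((border (full S u c) J).submatrix ((EC S u c).symm.trans (ER S u c hS)) id).det =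
      C (∏ l : Fin (S.q * u), ((l : ℕ).factorial : ℚ)⁻¹) *
      (Lam.mat (mm S u c) (ER S u c hS) (Sum.elim (fun i => FA S u c J ((EA S u c).symm i))
        fun l => Lam.pgerm (zz S u c) ℚ[X] (descPochhammer ℚ l))).det := by
    rw [← Matrix.det_submatrix_equiv_self (EC S u c)]
    have h1 : C (∏ l : Fin (S.q * u), ((l : ℕ).factorial : ℚ)⁻¹) =
        ∏ i, (Sum.elim (fun _ : Fin (nA S u c) => (1 : ℚ[X]))
          (fun l : Fin (S.q * u) => C ((l : ℕ).factorial : ℚ)⁻¹) i) := by
      rw [Fintype.prod_sum_type]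
      simp only [Sum.elim_inl, Sum.elim_inr, Finset.prod_const_one, one_mul]
      exact map_prod C _ _
    rw [h1, ← Matrix.det_mul_row]
    congr 1
    refine Matrix.ext fun x y => ?_
    rw [Matrix.submatrix_apply, Matrix.submatrix_apply, Equiv.trans_apply,
      Equiv.symm_apply_apply, id_eq, Matrix.of_apply, Lam.mat, Matrix.of_apply]
    rcases y with i | l
    · rw [Sum.elim_inl, Sum.elim_inl, one_mul]
      obtain ⟨y, rfl⟩ := (EA S u c).surjective i
      rw [Equiv.symm_apply_apply]
      have hy : EC S u c (Sum.inl (EA S u c y)) = Sum.elim (fun l => Sum.inl (Sum.inl l))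
          (Sum.elim (fun l => Sum.inl (Sum.inr (Sum.inr l))) (fun t => Sum.inr t)) y := by
        simp only [EC, Equiv.trans_apply, Equiv.sumCongr_apply, Sum.map_inl,
          Equiv.symm_apply_apply]
        rfl
      rw [hy]
      rcases y with l | l | t
      · exact (coeff_colR u l _ _).symm
      · exact (coeff_colQ u l _ _).symm
      · exact (Lam.coeff_unitCol (A := ℚ[X]) (mm S u c) (J t) (ER S u c hS x)).symm
    · have hy : EC S u c (Sum.inr l) = Sum.inl (Sum.inr (Sum.inl l)) := rfl
      rw [hy, Sum.elim_inr, Sum.elim_inr, Lam.pgerm, PowerSeries.coeff_map]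
      change C (entT (bin l) _) = _
      rw [entT, bin, gm_mul, gm_C, PowerSeries.coeff_C_mul, C_mul]
      rfl
  refine ⟨s * s', ?_⟩
  rw [hs, key, hs', Units.val_mul, Int.cast_mul, C_mul]
  ring

end Crest.Agent.R006.Bordx929
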