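import Crest.Agent.R006.Defs

/-!
# Row 6: LEMMA bord for the frozen `Minor` (helper931)

For an admissible choice `r` of the rows there are `c` further rows `J` and a bijection
`e : Col S u ⊕ Fin c ≃ {all rows}` with `e (inl i) = r i`, `e (inr t) = J t`, and `Minor S u r` is
*equal* (no sign) to the determinant of the full matrix bordered by the unit columns of the
omitted rows (rows listed by `e`).
-/

set_option autoImplicit false

namespace Crest.Agent.R006.D

open Polynomial Matrix

section generic

variable {R ρ κ γ : Type*} [CommRing R] [DecidableEq ρ]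

/-- `A` bordered by the unit columns of the rows `J t` -/
def bord (A : Matrix ρ κ R) (J : γ → ρ) : Matrix ρ (κ ⊕ γ) R :=
  Matrix.of fun x => Sum.elim (fun k => A x k) (fun t => if x = J t then 1 else 0)

/-- a maximal minor is the full determinant bordered by the unit columns of the omitted rows -/
theorem det_bord [Fintype κ] [Fintype γ] [DecidableEq κ] [DecidableEq γ]
    (A : Matrix ρ κ R) (e : κ ⊕ γ → ρ) (he : Function.Injective e) :
    ((bord A fun t => e (.inr t)).submatrix e id).det
      = (A.submatrix (fun k => e (.inl k)) id).det := by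
  have h : (bord A fun t => e (.inr t)).submatrix e id
      = Matrix.fromBlocks (A.submatrix (fun k => e (.inl k)) id) 0
          (A.submatrix (fun t => e (.inr t)) id) (1 : Matrix γ γ R) := by
    ext i j
    rcases i with i | i <;> rcases j with j | j
    · rfl
    · have hne : e (.inl i) ≠ e (.inr j) := fun hh => by simpa using he hh
      simp [bord, hne]
    · rfl
    · by_cases hij : i = j
      · subst hij; simp [bord]
      · have hne : e (.inr i) ≠ e (.inr j) := fun hh => hij (by simpa using he hh)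
        simp [bord, hne, hij]
  rw [h, Matrix.det_fromBlocks_zero₁₂, Matrix.det_one, mul_one]

/-- completing an injection to a bijection -/
theorem exists_equiv_extend [Fintype ρ] [Fintype κ] [Fintype γ] (r : κ → ρ)
    (hr : Function.Injective r) (hc : Fintype.card ρ = Fintype.card κ + Fintype.card γ) :
    ∃ e : κ ⊕ γ ≃ ρ, ∀ k, e (.inl k) = r k := by
  classical
  have h1 : Fintype.card {x // x ∉ Set.range r} = Fintype.card γ := by
    have h2 := Fintype.card_subtype_compl (fun x => x ∈ Set.range r)
    have h3 : Fintype.card {x // x ∈ Set.range r} = Fintype.card κ :=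
      (Fintype.card_congr (Equiv.ofInjective r hr)).symm
    rw [h2, h3, hc]; omega
  let f : γ ≃ {x // x ∉ Set.range r} := Fintype.equivOfCardEq h1.symm
  let g : κ ≃ {x // x ∈ Set.range r} := Equiv.ofInjective r hr
  refine ⟨(Equiv.sumCongr g f).trans (Equiv.sumCompl (fun x => x ∈ Set.range r)), fun k => ?_⟩
  simp [g]

end generic

/-! ### the finite set of all rows -/

/-- the sites with positive multiplicity lie in a finite window -/
noncomputable def siteWin (S : Shape) (u c : ℕ) : Finset Site :=
  ((Finset.Icc (-((S.e1 + S.e2 + S.e3) * u : ℤ)) ((S.B * u + c : ℕ) : ℤ)).image Site.Z) ∪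
  ((Finset.Icc (-(S.w * u : ℤ)) (((S.h1 + S.h2 + S.h3) * u : ℕ) : ℤ)).image Site.H)

theorem mem_siteWin {S : Shape} {u c : ℕ} {z : Site} (h : 0 < S.mult u c z) :
    z ∈ siteWin S u c := by
  rcases z with i | i
  · simp only [siteWin, Finset.mem_union, Finset.mem_image, Finset.mem_Icc]
    left
    refine ⟨i, ⟨?_, ?_⟩, rfl⟩
    · simp only [Shape.mult] at h
      split_ifs at h <;> first | omega | nlinarith [Int.natCast_nonneg (S.e1 * u), Int.natCast_nonneg (S.e2 * u), Int.natCast_nonneg (S.e3 * u)]
    · simp only [Shape.mult] at h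
      split_ifs at h <;> push_cast at * <;> first | omega | nlinarith
  · simp only [siteWin, Finset.mem_union, Finset.mem_image, Finset.mem_Icc]
    right
    refine ⟨i, ⟨?_, ?_⟩, rfl⟩
    · simp only [Shape.mult] at h
      split_ifs at h <;> push_cast at * <;> first | omega | nlinarith
    · simp only [Shape.mult] at h
      split_ifs at h <;> push_cast at * <;> first | omega | nlinarith

/-- the finite set of all rows -/
noncomputable def rowFin (S : Shape) (u c : ℕ) : Finset Row :=
  ((siteWin S u c).sigma fun z => Finset.range (S.mult u c z)).map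
    ⟨fun x => (x.1, x.2), by rintro ⟨a, b⟩ ⟨a', b'⟩ h; simp at h; simp [h]⟩

theorem mem_rowFin {S : Shape} {u c : ℕ} {ρ : Row} : ρ ∈ rowFin S u c ↔ IsRow S u c ρ := by
  simp only [rowFin, Finset.mem_map, Finset.mem_sigma, Finset.mem_range, IsRow,
    Function.Embedding.coeFn_mk]
  constructor
  · rintro ⟨x, ⟨_, h2⟩, rfl⟩; exact h2
  · intro h
    exact ⟨⟨ρ.1, ρ.2⟩, ⟨mem_siteWin (lt_of_le_of_lt (Nat.zero_le _) h), h⟩, rfl⟩

theorem sum_ind_Ico (W : Finset ℤ) (a b : ℤ) (h : ∀ i, a ≤ i → i < b → i ∈ W) :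
    ∑ i ∈ W, (if a ≤ i ∧ i < b then 1 else 0) = (b - a).toNat := by
  rw [Finset.sum_ite, Finset.sum_const_zero, add_zero, Finset.sum_const, smul_eq_mul, mul_one]
  have : W.filter (fun i => a ≤ i ∧ i < b) = Finset.Ico a b := by
    ext i
    simp only [Finset.mem_filter, Finset.mem_Ico]
    exact ⟨fun hh => hh.2, fun hh => ⟨h i hh.1 hh.2, hh⟩⟩
  rw [this, Int.card_Ico]

theorem card_rowFin (S : Shape) (u c : ℕ) : (rowFin S u c).card = S.rows * u + c := by
  rw [rowFin, Finset.card_map, Finset.card_sigma]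
  simp only [Finset.card_range]
  rw [siteWin, Finset.sum_union, Finset.sum_image, Finset.sum_image]
  · have hZ : ∀ i : ℤ, S.mult u c (.Z i) = (if (0 : ℤ) ≤ i ∧ i < ((S.B * u + c : ℕ) : ℤ) then 1 else 0)
        + (if -((S.e1 * u : ℕ) : ℤ) ≤ i ∧ i < 0 then 1 else 0)
        + (if -((S.e2 * u : ℕ) : ℤ) ≤ i ∧ i < 0 then 1 else 0)
        + (if -((S.e3 * u : ℕ) : ℤ) ≤ i ∧ i < 0 then 1 else 0) := by
      intro i
      simp only [Shape.mult]
      push_cast
      by_cases h0 : (0 : ℤ) ≤ i
      · have h1 : ¬ i < 0 := by omega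
        simp [h0, h1]
      · have h1 : i < 0 := by omega
        have h2 : ∀ e : ℤ, (-i ≤ e) ↔ (-e ≤ i) := fun e => by constructor <;> intro h <;> omega
        simp [h0, h1, h2]
    have hH : ∀ i : ℤ, S.mult u c (.H i)
        = (if (0 : ℤ) ≤ i ∧ i < ((S.h1 * u : ℕ) : ℤ) then 1 else 0)
        + (if (0 : ℤ) ≤ i ∧ i < ((S.h2 * u : ℕ) : ℤ) then 1 else 0)
        + (if (0 : ℤ) ≤ i ∧ i < ((S.h3 * u : ℕ) : ℤ) then 1 else 0)
        + (if -((S.w * u : ℕ) : ℤ) ≤ i ∧ i < 0 then 1 else 0) := by
      intro i
      simp only [Shape.mult]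
      push_cast
      by_cases h0 : (0 : ℤ) ≤ i
      · have h1 : ¬ i < 0 := by omega
        simp [h0, h1]
      · have h1 : i < 0 := by omega
        have h2 : ∀ e : ℤ, (-i ≤ e) ↔ (-e ≤ i) := fun e => by constructor <;> intro h <;> omega
        simp [h0, h1, h2]
    have p1 : (0 : ℤ) ≤ (S.B : ℤ) * u := by positivity
    have p2 : (0 : ℤ) ≤ (S.e1 : ℤ) * u := by positivity
    have p3 : (0 : ℤ) ≤ (S.e2 : ℤ) * u := by positivity
    have p4 : (0 : ℤ) ≤ (S.e3 : ℤ) * u := by positivity
    have p5 : (0 : ℤ) ≤ (S.h1 : ℤ) * u := by positivity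
    have p6 : (0 : ℤ) ≤ (S.h2 : ℤ) * u := by positivity
    have p7 : (0 : ℤ) ≤ (S.h3 : ℤ) * u := by positivity
    have p8 : (0 : ℤ) ≤ (S.w : ℤ) * u := by positivity
    simp only [hZ, hH, Finset.sum_add_distrib]
    rw [sum_ind_Ico, sum_ind_Ico, sum_ind_Ico, sum_ind_Ico, sum_ind_Ico, sum_ind_Ico,
      sum_ind_Ico, sum_ind_Ico]
    · simp only [Shape.rows, add_mul]
      omega
    all_goals
      intro i h1 h2
      rw [Finset.mem_Icc]
      push_cast at *
      constructor <;> nlinarith
  · intro a _ b _ h; simpa using h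
  · intro a _ b _ h; simpa using h
  · rw [Finset.disjoint_left]
    intro z hz hz'
    rw [Finset.mem_image] at hz hz'
    obtain ⟨a, _, rfl⟩ := hz
    obtain ⟨b, _, hb⟩ := hz'
    simp at hb

theorem card_Col (S : Shape) (u : ℕ) : Fintype.card (Col S u) = (S.k + S.q + S.g) * u := by
  simp only [Col, Fintype.card_sum, Fintype.card_fin]
  ring

/-- **LEMMA bord.** For an admissible choice of the rows there is an enumeration `e` of *all* rows
by `Col S u ⊕ Fin c` extending `r`, and the minor is the full bordered determinant. -/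
theorem exists_bord (S : Shape) (hS : S.q + S.g ≤ S.rows) (u c : ℕ) (r : Col S u → Row)
    (hr : Adm S u c r) :
    ∃ e : Col S u ⊕ Fin c → Row, Function.Injective e ∧ (∀ k, e (.inl k) = r k) ∧
      (∀ ρ, (∃ x, e x = ρ) ↔ IsRow S u c ρ) ∧
      Minor S u r = Matrix.det (Matrix.of fun i j : Col S u ⊕ Fin c =>
        Sum.elim (entry S u (e i)) (fun t : Fin c => if e i = e (.inr t) then (1 : ℚ[X]) else 0) j) := by
  classical
  have hc : Fintype.card {ρ // ρ ∈ rowFin S u c}
      = Fintype.card (Col S u) + Fintype.card (Fin c) := by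
    rw [Fintype.card_coe, card_rowFin, card_Col, Fintype.card_fin, Shape.k]
    congr 2
    omega
  obtain ⟨e, he⟩ := exists_equiv_extend (γ := Fin c)
    (fun i => (⟨r i, mem_rowFin.mpr (hr.2 i)⟩ : {ρ // ρ ∈ rowFin S u c}))
    (fun a b h => hr.1 (by simpa using h)) hc
  refine ⟨fun x => (e x).1, fun a b h => e.injective (Subtype.ext h), fun k => ?_, fun ρ => ?_, ?_⟩
  · simp [he]
  · constructor
    · rintro ⟨x, rfl⟩
      exact mem_rowFin.mp (e x).2
    · intro h
      exact ⟨e.symm ⟨ρ, mem_rowFin.mpr h⟩, by simp⟩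
  · have h := det_bord (R := ℚ[X]) (Matrix.of fun (ρ : Row) (j : Col S u) => entry S u ρ j)
      (fun x => (e x).1) (fun a b h => e.injective (Subtype.ext h))
    rw [Minor, Mat]
    have h2 : (Matrix.of fun i j => entry S u (r i) j)
        = (Matrix.of fun (ρ : Row) (j : Col S u) => entry S u ρ j).submatrix
            (fun k => (e (.inl k)).1) id := by
      ext i j
      simp [he]
    rw [h2, ← h]
    rfl

end Crest.Agent.R006.D
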