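import Crest.Agent.R006.DetBound_885

set_option autoImplicit false

/-!
# Row 6, block P3: the bordered change of basis and the packaged bound (helper410)

`B_R, B_Q : K[X] → K[X] → K` bilinear, `u o : K[X] → K` linear.

* original matrix (`colO`): rows `X^i`, `i < n`, columns `B_R(·, ω_v X^j)` (`j < a`),
  `B_Q(·, X^j)` (`j < k`), `u o` (`o < c`), `n = a + k + c`;
* bordered matrix: rows `pW i` (`i < n`) and the `κ` evaluations at the points `v`, columns
  `pZ j` (`j < κ + a`), mixed columns `B_Q(·, pY y) + B_R(·, g y)`, `u o`.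

`norm_det_border`: the determinants agree up to the factors
`det (coefM pW) * det (coefM pZ) * det (coefM pY) * V(v)`.
`border_bound`: entry bounds give the bound of the original determinant, with slots
(rank one pieces) as in `DetBound_885`.
-/

namespace Crest.Agent.R006.Border410

open Polynomial Matrix Finset

section field

variable {K : Type*} [Field K]

/-- coefficient matrix of a family of polynomials -/
noncomputable def coefM {n : ℕ} (p : Fin n → K[X]) : Matrix (Fin n) (Fin n) K :=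
  Matrix.of fun i j => (p j).coeff i

/-- `∏ (X - v i)` -/
noncomputable def om {n : ℕ} (v : Fin n → K) : K[X] := ∏ i, (X - C (v i))

/-- Lagrange basis polynomial, not normalised -/
noncomputable def lg {n : ℕ} (w : Fin n → K) (i : Fin n) : K[X] :=
  ∏ j ∈ univ.erase i, (X - C (w j))

lemma om_monic {n : ℕ} (v : Fin n → K) : (om v).Monic :=
  monic_prod_of_monic _ _ fun i _ => monic_X_sub_C (v i)

lemma om_natDegree {n : ℕ} (v : Fin n → K) : (om v).natDegree = n := by
  unfold om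
  rw [natDegree_prod_of_monic _ _ fun i _ => monic_X_sub_C (v i)]
  simp

lemma eval_om {n : ℕ} (v : Fin n → K) (s : K) : eval s (om v) = ∏ i, (s - v i) := by
  simp [om, eval_prod]

lemma eval_om_self {n : ℕ} (v : Fin n → K) (i : Fin n) : eval (v i) (om v) = 0 := by
  rw [eval_om]; exact prod_eq_zero (mem_univ i) (sub_self _)

lemma eval_lg {n : ℕ} (w : Fin n → K) (i : Fin n) (s : K) :
    eval s (lg w i) = ∏ j ∈ univ.erase i, (s - w j) := by
  simp [lg, eval_prod]

lemma lg_natDegree_lt {n : ℕ} (w : Fin n → K) (i : Fin n) : (lg w i).natDegree < n := by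
  unfold lg
  rw [natDegree_prod_of_monic _ _ fun i _ => monic_X_sub_C (w i)]
  simp only [natDegree_X_sub_C, sum_const, card_erase_of_mem (mem_univ i), card_univ,
    Fintype.card_fin, smul_eq_mul, mul_one]
  have := i.2
  omega

/-- linear expansion -/
lemma lin_expand {n : ℕ} (φ : K[X] →ₗ[K] K) (f : K[X]) (hf : f.natDegree < n) :
    φ f = ∑ j : Fin n, φ (X ^ (j : ℕ)) * f.coeff j := by
  conv_lhs => rw [as_sum_range' f n hf]
  rw [map_sum, Finset.sum_range fun i => φ (monomial i (f.coeff i))]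
  refine sum_congr rfl fun j _ => ?_
  rw [← C_mul_X_pow_eq_monomial, ← smul_eq_C_mul, map_smul, smul_eq_mul, mul_comm]

lemma lin_expand' {n : ℕ} (φ : K[X] →ₗ[K] K) (f : K[X]) (hf : f.degree < (n : WithBot ℕ)) :
    φ f = ∑ j : Fin n, φ (X ^ (j : ℕ)) * f.coeff j := by
  by_cases h0 : f = 0
  · subst h0; simp
  · exact lin_expand φ f ((natDegree_lt_iff_degree_lt h0).2 hf)

lemma vandermonde_mul_coefM {n : ℕ} (w : Fin n → K) (p : Fin n → K[X])
    (hp : ∀ j, (p j).natDegree < n) :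
    vandermonde w * coefM p = Matrix.of fun i j => eval (w i) (p j) := by
  ext i j
  rw [Matrix.mul_apply, Matrix.of_apply, eval_eq_sum_range' (hp j), Finset.sum_range]
  refine sum_congr rfl fun k _ => ?_
  rw [vandermonde_apply, coefM, Matrix.of_apply, mul_comm]

/-- the coefficient matrix of the Lagrange basis has determinant `∏_{i<j} (w i - w j)` -/
theorem det_coefM_lg {n : ℕ} (w : Fin n → K) (hw : Function.Injective w) :
    (coefM (lg w)).det = ∏ i, ∏ j ∈ Ioi i, (w i - w j) := by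
  have h := congrArg Matrix.det (vandermonde_mul_coefM w (lg w) (lg_natDegree_lt w))
  have hd : (Matrix.of fun i j => eval (w i) (lg w j)) =
      Matrix.diagonal fun i => ∏ j ∈ univ.erase i, (w i - w j) := by
    ext i j
    rw [Matrix.of_apply, eval_lg]
    by_cases hij : i = j
    · subst hij; rw [Matrix.diagonal_apply_eq]
    · rw [Matrix.diagonal_apply_ne _ hij]
      exact prod_eq_zero (mem_erase.2 ⟨hij, mem_univ i⟩) (sub_self _)
  rw [det_mul, hd, det_diagonal, det_vandermonde] at h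
  have h2 : ∏ i, ∏ j ∈ univ.erase i, (w i - w j) =
      (∏ i, ∏ j ∈ Ioi i, (w j - w i)) * ∏ i, ∏ j ∈ Ioi i, (w i - w j) := by
    have h3 : ∀ i : Fin n, ∏ j ∈ univ.erase i, (w i - w j) =
        (∏ j ∈ Iio i, (w i - w j)) * ∏ j ∈ Ioi i, (w i - w j) := by
      intro i
      rw [← prod_union]
      · refine prod_congr ?_ fun _ _ => rfl
        ext a
        simp only [mem_erase, mem_univ, and_true, mem_union, mem_Iio, mem_Ioi]
        exact lt_or_lt_iff_ne.symm
      · rw [Finset.disjoint_left]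
        intro a ha hb
        rw [mem_Iio] at ha
        rw [mem_Ioi] at hb
        exact lt_asymm ha hb
    simp only [h3, prod_mul_distrib]
    congr 1
    rw [prod_comm' (s := univ) (t := fun i : Fin n => Iio i) (t' := univ)
      (s' := fun i : Fin n => Ioi i)]
    intro x y
    simp
  rw [h2] at h
  have h0 : (∏ i, ∏ j ∈ Ioi i, (w j - w i)) ≠ 0 := by
    rw [← det_vandermonde]
    exact det_vandermonde_ne_zero_iff.2 hw
  exact mul_left_cancel₀ h0 h

variable {n a k c κ : ℕ}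

/-- original columns -/
noncomputable def colO (BR BQ : K[X] →ₗ[K] K[X] →ₗ[K] K) (u : Fin c → K[X] →ₗ[K] K)
    (v : Fin κ → K) (P : K[X]) : Fin a ⊕ (Fin k ⊕ Fin c) → K :=
  Sum.elim (fun j => BR P (om v * X ^ (j : ℕ)))
    (Sum.elim (fun j => BQ P (X ^ (j : ℕ))) (fun o => u o P))

/-- the bordered matrix: rows `Fin κ ⊕ Fin n`, columns `Fin (κ + a) ⊕ (Fin k ⊕ Fin c)` -/
noncomputable def bordM (BR BQ : K[X] →ₗ[K] K[X] →ₗ[K] K) (u : Fin c → K[X] →ₗ[K] K)
    (v : Fin κ → K) (pW : Fin n → K[X]) (pZ : Fin (κ + a) → K[X]) (pY : Fin k → K[X])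
    (g : Fin k → K[X]) : Matrix (Fin κ ⊕ Fin n) (Fin (κ + a) ⊕ (Fin k ⊕ Fin c)) K :=
  Matrix.of fun i j => Sum.elim
    (fun l => Sum.elim (fun j => eval (v l) (pZ j))
      (Sum.elim (fun y => eval (v l) (g y)) (fun _ => 0)) j)
    (fun i => Sum.elim (fun j => BR (pW i) (pZ j))
      (Sum.elim (fun y => BQ (pW i) (pY y) + BR (pW i) (g y)) (fun o => u o (pW i))) j) i

/-- the basis `X^i (i < κ)`, `ω_v X^j (j < a)` -/
noncomputable def newb (v : Fin κ → K) (a : ℕ) (j : Fin (κ + a)) : K[X] :=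
  if (j : ℕ) < κ then X ^ (j : ℕ) else om v * X ^ ((j : ℕ) - κ)

lemma newb_monic (v : Fin κ → K) (j : Fin (κ + a)) : (newb v a j).Monic := by
  unfold newb
  split_ifs
  · exact monic_X_pow _
  · exact (om_monic v).mul (monic_X_pow _)

lemma newb_natDegree (v : Fin κ → K) (j : Fin (κ + a)) : (newb v a j).natDegree = j := by
  unfold newb
  split_ifs with h
  · exact natDegree_X_pow _
  · rw [(om_monic v).natDegree_mul (monic_X_pow _), om_natDegree, natDegree_X_pow]
    omega

lemma det_coefM_newb (v : Fin κ → K) : (coefM (newb v a)).det = 1 := by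
  apply Matrix.det_matrixOfPolynomials
  · intro i; exact newb_natDegree v i
  · intro i; exact newb_monic v i

/-- the bordered matrix with monomials in the rows and the basis `b` of the `R`-space -/
theorem bordM_factor (BR BQ : K[X] →ₗ[K] K[X] →ₗ[K] K) (u : Fin c → K[X] →ₗ[K] K)
    (v : Fin κ → K) (pW : Fin n → K[X]) (hW : ∀ i, (pW i).natDegree < n)
    (pZ : Fin (κ + a) → K[X]) (hZ : ∀ i, (pZ i).natDegree < κ + a)
    (pY : Fin k → K[X]) (hY : ∀ i, (pY i).natDegree < k)
    (g : Fin k → K[X]) (hg : ∀ i, (g i).degree < ((κ + a : ℕ) : WithBot ℕ)) :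
    bordM BR BQ u v pW pZ pY g =
      (fromBlocks (1 : Matrix (Fin κ) (Fin κ) K) 0 0 (coefM pW))ᵀ *
        (bordM BR BQ u v (fun i : Fin n => X ^ (i : ℕ)) (fun j : Fin (κ + a) => X ^ (j : ℕ))
          (fun j : Fin k => X ^ (j : ℕ)) (fun _ => 0) *
        fromBlocks (coefM pZ) (Matrix.of fun i j => Sum.elim (fun y => (g y).coeff i)
          (fun _ => 0) j) 0 (fromBlocks (coefM pY) 0 0 (1 : Matrix (Fin c) (Fin c) K))) := by
  have hrow : ∀ (φ : K[X] →ₗ[K] K) (i : Fin n), φ (pW i) =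
      ∑ l : Fin n, coefM pW l i * φ (X ^ (l : ℕ)) := by
    intro φ i
    rw [lin_expand φ _ (hW i)]
    exact sum_congr rfl fun l _ => by rw [coefM, Matrix.of_apply, mul_comm]
  have hev : ∀ (s : K) (f : K[X]), f.degree < ((κ + a : ℕ) : WithBot ℕ) →
      eval s f = ∑ j : Fin (κ + a), eval s (X ^ (j : ℕ)) * f.coeff j := by
    intro s f hf
    have := lin_expand' (leval s) f hf
    simpa using this
  have hZ' : ∀ j, (pZ j).degree < ((κ + a : ℕ) : WithBot ℕ) := fun j => by
    by_cases h0 : pZ j = 0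
    · rw [h0, degree_zero]; exact WithBot.bot_lt_coe _
    · exact (natDegree_lt_iff_degree_lt h0).1 (hZ j)
  ext i j
  rw [Matrix.mul_apply]
  simp only [Matrix.mul_apply, Matrix.transpose_apply, Fintype.sum_sum_type]
  rcases i with l | i
  · -- border rows
    simp only [fromBlocks_apply₁₁, fromBlocks_apply₂₁, Matrix.zero_apply, zero_mul,
      sum_const_zero, add_zero, Matrix.one_apply, ite_mul, one_mul, Finset.sum_ite_eq',
      mem_univ, if_true]
    rcases j with j | (y | o)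
    · simp only [bordM, Matrix.of_apply, Sum.elim_inl, Sum.elim_inr, fromBlocks_apply₁₁,
        fromBlocks_apply₂₁, Matrix.zero_apply, mul_zero, sum_const_zero, add_zero]
      exact hev _ _ (hZ' j)
    · simp only [bordM, Matrix.of_apply, Sum.elim_inl, Sum.elim_inr, fromBlocks_apply₁₂,
        fromBlocks_apply₂₂, fromBlocks_apply₁₁, fromBlocks_apply₂₁, Matrix.zero_apply, mul_zero,
        eval_zero, zero_mul, sum_const_zero, add_zero]
      exact hev _ _ (hg y)
    · simp only [bordM, Matrix.of_apply, Sum.elim_inl, Sum.elim_inr, fromBlocks_apply₁₂,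
        mul_zero, eval_zero, zero_mul, sum_const_zero, add_zero]
  · simp only [fromBlocks_apply₁₂, fromBlocks_apply₂₂, Matrix.zero_apply, zero_mul,
      sum_const_zero, zero_add]
    rcases j with j | (y | o)
    · simp only [bordM, Matrix.of_apply, Sum.elim_inl, Sum.elim_inr, fromBlocks_apply₁₁,
        fromBlocks_apply₂₁, Matrix.zero_apply, mul_zero, sum_const_zero, add_zero]
      rw [lin_expand (BR (pW i)) _ (hZ j)]
      have : ∀ x : Fin (κ + a), BR (pW i) (X ^ (x : ℕ)) =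
          ∑ l : Fin n, coefM pW l i * BR (X ^ (l : ℕ)) (X ^ (x : ℕ)) := fun x => by
        simpa using hrow (BR.flip (X ^ (x : ℕ))) i
      simp only [this, Finset.sum_mul, Finset.mul_sum]
      rw [Finset.sum_comm]
      refine sum_congr rfl fun l _ => sum_congr rfl fun x _ => ?_
      rw [coefM, coefM, Matrix.of_apply, Matrix.of_apply]; ring
    · simp only [bordM, Matrix.of_apply, Sum.elim_inl, Sum.elim_inr, fromBlocks_apply₁₂,
        fromBlocks_apply₂₂, fromBlocks_apply₁₁, fromBlocks_apply₂₁, Matrix.zero_apply, mul_zero,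
        sum_const_zero, add_zero, map_zero]
      rw [lin_expand' (BR (pW i)) _ (hg y), lin_expand (BQ (pW i)) _ (hY y)]
      have h1 : ∀ x : Fin (κ + a), BR (pW i) (X ^ (x : ℕ)) =
          ∑ l : Fin n, coefM pW l i * BR (X ^ (l : ℕ)) (X ^ (x : ℕ)) := fun x => by
        simpa using hrow (BR.flip (X ^ (x : ℕ))) i
      have h2 : ∀ x : Fin k, BQ (pW i) (X ^ (x : ℕ)) =
          ∑ l : Fin n, coefM pW l i * BQ (X ^ (l : ℕ)) (X ^ (x : ℕ)) := fun x => by
        simpa using hrow (BQ.flip (X ^ (x : ℕ))) i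
      simp only [h1, h2, Finset.sum_mul, Finset.mul_sum, mul_add, Finset.sum_add_distrib]
      rw [add_comm, Finset.sum_comm]
      congr 1
      · refine sum_congr rfl fun l _ => sum_congr rfl fun x _ => ?_
        rw [coefM, Matrix.of_apply]; ring
      · rw [Finset.sum_comm]
        refine sum_congr rfl fun l _ => sum_congr rfl fun x _ => ?_
        rw [coefM, coefM, Matrix.of_apply, Matrix.of_apply]; ring
    · simp only [bordM, Matrix.of_apply, Sum.elim_inl, Sum.elim_inr, fromBlocks_apply₁₂,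
        fromBlocks_apply₂₂, Matrix.zero_apply, mul_zero, sum_const_zero, add_zero, zero_add,
        Matrix.one_apply, mul_ite, mul_one, Finset.sum_ite_eq', mem_univ, if_true, map_zero]
      exact hrow (u o) i

lemma det_coefM_X_pow : (coefM (fun i : Fin n => (X : K[X]) ^ (i : ℕ))).det = 1 := by
  apply Matrix.det_matrixOfPolynomials
  · intro i; exact natDegree_X_pow _
  · intro i; exact monic_X_pow _

/-- determinant of the factorisation, `τ` any identification of columns and rows -/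
theorem det_bordM (BR BQ : K[X] →ₗ[K] K[X] →ₗ[K] K) (u : Fin c → K[X] →ₗ[K] K)
    (v : Fin κ → K) (pW : Fin n → K[X]) (hW : ∀ i, (pW i).natDegree < n)
    (pZ : Fin (κ + a) → K[X]) (hZ : ∀ i, (pZ i).natDegree < κ + a)
    (pY : Fin k → K[X]) (hY : ∀ i, (pY i).natDegree < k)
    (g : Fin k → K[X]) (hg : ∀ i, (g i).degree < ((κ + a : ℕ) : WithBot ℕ))
    (τ : Fin (κ + a) ⊕ (Fin k ⊕ Fin c) ≃ Fin κ ⊕ Fin n) :
    ((bordM BR BQ u v pW pZ pY g).submatrix τ id).det =
      (coefM pW).det * ((coefM pZ).det * (coefM pY).det) *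
      ((bordM BR BQ u v (fun i : Fin n => X ^ (i : ℕ)) (fun j : Fin (κ + a) => X ^ (j : ℕ))
          (fun j : Fin k => X ^ (j : ℕ)) (fun _ => 0)).submatrix τ id).det := by
  rw [bordM_factor BR BQ u v pW hW pZ hZ pY hY g hg]
  rw [← Matrix.submatrix_mul_equiv _ _ τ τ id, Matrix.det_mul, Matrix.det_submatrix_equiv_self,
    Matrix.det_transpose, Matrix.det_fromBlocks_zero₂₁, Matrix.det_one, one_mul]
  have h := Matrix.submatrix_mul_equiv
    (bordM BR BQ u v (fun i : Fin n => X ^ (i : ℕ)) (fun j : Fin (κ + a) => X ^ (j : ℕ))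
          (fun j : Fin k => X ^ (j : ℕ)) (fun _ => 0))
    (fromBlocks (coefM pZ) (Matrix.of fun i j => Sum.elim (fun y => (g y).coeff i)
          (fun _ => 0) j) 0 (fromBlocks (coefM pY) 0 0 (1 : Matrix (Fin c) (Fin c) K)))
    τ (Equiv.refl _) id
  rw [← h, Matrix.det_mul, Equiv.coe_refl, Matrix.submatrix_id_id, Matrix.det_fromBlocks_zero₂₁,
    Matrix.det_fromBlocks_zero₂₁, Matrix.det_one, mul_one]
  ring

/-- the bordered matrix in the basis `newb` is block triangular -/
theorem bordM_newb (BR BQ : K[X] →ₗ[K] K[X] →ₗ[K] K) (u : Fin c → K[X] →ₗ[K] K)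
    (v : Fin κ → K) (ρ : Fin a ⊕ (Fin k ⊕ Fin c) ≃ Fin n) :
    ((bordM BR BQ u v (fun i : Fin n => X ^ (i : ℕ)) (newb v a)
          (fun j : Fin k => X ^ (j : ℕ)) (fun _ => 0)).submatrix
      (Equiv.sumCongr (Equiv.refl (Fin κ)) ρ)
      ((Equiv.sumAssoc (Fin κ) (Fin a) (Fin k ⊕ Fin c)).symm.trans
        (Equiv.sumCongr finSumFinEquiv (Equiv.refl _)))).det =
    (vandermonde v).det *
      (Matrix.of fun i j => colO BR BQ u v (X ^ (ρ i : ℕ)) j).det := by
  have h : ((bordM BR BQ u v (fun i : Fin n => X ^ (i : ℕ)) (newb v a)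
          (fun j : Fin k => X ^ (j : ℕ)) (fun _ => 0)).submatrix
      (Equiv.sumCongr (Equiv.refl (Fin κ)) ρ)
      ((Equiv.sumAssoc (Fin κ) (Fin a) (Fin k ⊕ Fin c)).symm.trans
        (Equiv.sumCongr finSumFinEquiv (Equiv.refl _)))) =
      fromBlocks (vandermonde v) 0
        (Matrix.of fun i j => BR (X ^ (ρ i : ℕ)) (X ^ (j : ℕ)))
        (Matrix.of fun i j => colO BR BQ u v (X ^ (ρ i : ℕ)) j) := by
    ext i j
    rcases i with l | i <;> rcases j with j | (j | (y | o))
    · simp [bordM, newb, vandermonde_apply]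
    · simp [bordM, newb, eval_om_self]
    · simp [bordM]
    · simp [bordM]
    · simp [bordM, newb]
    · simp [bordM, newb, colO]
    · simp [bordM, colO]
    · simp [bordM, colO]
  rw [h, Matrix.det_fromBlocks_zero₁₂]

end field

section norm

variable {K : Type*} [NormedField K] {n a k c κ : ℕ}

lemma norm_det_submatrix_eq {ι R' C' : Type*} [Fintype ι] [DecidableEq ι] [Fintype R']
    [DecidableEq R'] [Fintype C'] [DecidableEq C'] (A : Matrix R' C' K) (e1 : ι ≃ R') (e2 : ι ≃ C')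
    (τ : C' ≃ R') : ‖(A.submatrix e1 e2).det‖ = ‖(A.submatrix τ id).det‖ := by
  have h1 : A.submatrix e1 e2 =
      (((A.submatrix τ id).submatrix ((e2.symm.trans e1).trans τ.symm) id).submatrix e2 e2) := by
    ext i j
    simp
  rw [h1, Matrix.det_submatrix_equiv_self, Matrix.det_permute]
  rcases Int.units_eq_one_or (Equiv.Perm.sign ((e2.symm.trans e1).trans τ.symm)) with h | h <;>
    simp [h]

/-- **determinant of the bordered matrix** -/
theorem norm_det_border (BR BQ : K[X] →ₗ[K] K[X] →ₗ[K] K) (u : Fin c → K[X] →ₗ[K] K)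
    (v : Fin κ → K) (pW : Fin n → K[X]) (hW : ∀ i, (pW i).natDegree < n)
    (pZ : Fin (κ + a) → K[X]) (hZ : ∀ i, (pZ i).natDegree < κ + a)
    (pY : Fin k → K[X]) (hY : ∀ i, (pY i).natDegree < k)
    (g : Fin k → K[X]) (hg : ∀ i, (g i).degree < ((κ + a : ℕ) : WithBot ℕ))
    (τ : Fin (κ + a) ⊕ (Fin k ⊕ Fin c) ≃ Fin κ ⊕ Fin n)
    (ρ : Fin a ⊕ (Fin k ⊕ Fin c) ≃ Fin n) :
    ‖((bordM BR BQ u v pW pZ pY g).submatrix τ id).det‖ =
      ‖(coefM pW).det‖ * (‖(coefM pZ).det‖ * ‖(coefM pY).det‖) * (‖(vandermonde v).det‖ *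
        ‖(Matrix.of fun i j => colO BR BQ u v (X ^ (ρ i : ℕ)) j).det‖) := by
  rw [det_bordM BR BQ u v pW hW pZ hZ pY hY g hg τ]
  have h1 := det_bordM BR BQ u v (fun i : Fin n => X ^ (i : ℕ))
    (fun i => by rw [natDegree_X_pow]; exact i.2) (newb v a)
    (fun j => by rw [newb_natDegree]; exact j.2) (fun j : Fin k => X ^ (j : ℕ))
    (fun i => by rw [natDegree_X_pow]; exact i.2) (fun _ => 0)
    (fun i => by rw [degree_zero]; exact WithBot.bot_lt_coe _) τ
  rw [det_coefM_X_pow, det_coefM_newb, det_coefM_X_pow, one_mul, one_mul, one_mul] at h1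
  have h2 := bordM_newb BR BQ u v ρ
  have h3 := norm_det_submatrix_eq (bordM BR BQ u v (fun i : Fin n => X ^ (i : ℕ)) (newb v a)
    (fun j : Fin k => X ^ (j : ℕ)) (fun _ => 0)) (Equiv.sumCongr (Equiv.refl (Fin κ)) ρ)
    ((Equiv.sumAssoc (Fin κ) (Fin a) (Fin k ⊕ Fin c)).symm.trans
        (Equiv.sumCongr finSumFinEquiv (Equiv.refl _))) τ
  rw [h2, norm_mul] at h3
  rw [h3, h1, norm_mul, norm_mul, norm_mul]

/-- **Packaged bound.** Border rows (weights `β`), rows (weights `r`), columns (weights `αR`, `αQ`,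
`γU`) and slots `s : σ` (rank one pieces `U s i * VR s j`, weights `μ s`, `ν s`). -/
theorem border_bound {σ : Type*} [Fintype σ] [DecidableEq σ]
    (BR BQ : K[X] →ₗ[K] K[X] →ₗ[K] K) (u : Fin c → K[X] →ₗ[K] K)
    (v : Fin κ → K) (pW : Fin n → K[X]) (hW : ∀ i, (pW i).natDegree < n)
    (pZ : Fin (κ + a) → K[X]) (hZ : ∀ i, (pZ i).natDegree < κ + a)
    (pY : Fin k → K[X]) (hY : ∀ i, (pY i).natDegree < k)
    (g : Fin k → K[X]) (hg : ∀ i, (g i).degree < ((κ + a : ℕ) : WithBot ℕ))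
    (ρ : Fin a ⊕ (Fin k ⊕ Fin c) ≃ Fin n)
    (U : σ → Fin n → K) (VR : σ → Fin (κ + a) → K) (VM : σ → Fin k → K)
    (r : Fin n → ℝ) (β : Fin κ → ℝ) (αR : Fin (κ + a) → ℝ) (αQ : Fin k → ℝ) (γU : Fin c → ℝ)
    (μ ν : σ → ℝ) (hr : ∀ i, 0 ≤ r i) (hβ : ∀ l, 0 ≤ β l) (hαR : ∀ j, 0 ≤ αR j)
    (hαQ : ∀ y, 0 ≤ αQ y) (hγ : ∀ o, 0 ≤ γU o) (hμ : ∀ s, 0 < μ s) (hν : ∀ s, 0 ≤ ν s)
    (hR : ∀ i j, ‖BR (pW i) (pZ j) - ∑ s, U s i * VR s j‖ ≤ r i * αR j)
    (hM : ∀ i y, ‖BQ (pW i) (pY y) + BR (pW i) (g y) - ∑ s, U s i * VM s y‖ ≤ r i * αQ y)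
    (hu : ∀ i o, ‖u o (pW i)‖ ≤ r i * γU o)
    (hU : ∀ s i, ‖U s i‖ ≤ r i * μ s)
    (hVR : ∀ s j, ‖VR s j‖ ≤ ν s * αR j) (hVM : ∀ s y, ‖VM s y‖ ≤ ν s * αQ y)
    (hbR : ∀ l j, ‖eval (v l) (pZ j)‖ ≤ β l * αR j)
    (hbM : ∀ l y, ‖eval (v l) (g y)‖ ≤ β l * αQ y) :
    ‖(coefM pW).det‖ * (‖(coefM pZ).det‖ * ‖(coefM pY).det‖) * (‖(vandermonde v).det‖ *
        ‖(Matrix.of fun i j => colO BR BQ u v (X ^ (ρ i : ℕ)) j).det‖) ≤
      (κ + n + Fintype.card σ).factorial *
        (((∏ l, β l) * ∏ i, r i) * ((∏ j, αR j) * ((∏ y, αQ y) * ∏ o, γU o)) *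
          ∏ s, max 1 (μ s * ν s)) := by
  classical
  have hcard : Fintype.card (Fin (κ + a) ⊕ (Fin k ⊕ Fin c)) = Fintype.card (Fin κ ⊕ Fin n) := by
    have e2 := Fintype.card_congr ρ
    simp only [Fintype.card_sum, Fintype.card_fin] at e2 ⊢
    omega
  set τ : Fin (κ + a) ⊕ (Fin k ⊕ Fin c) ≃ Fin κ ⊕ Fin n := Fintype.equivOfCardEq hcard with hτ
  rw [← norm_det_border BR BQ u v pW hW pZ hZ pY hY g hg τ ρ]
  set r' : Fin (κ + a) ⊕ (Fin k ⊕ Fin c) → ℝ := fun i => Sum.elim β r (τ i) with hr'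
  set a' : Fin (κ + a) ⊕ (Fin k ⊕ Fin c) → ℝ := Sum.elim αR (Sum.elim αQ γU) with ha'
  set U' : Matrix (Fin (κ + a) ⊕ (Fin k ⊕ Fin c)) σ K :=
    Matrix.of fun i s => Sum.elim (fun _ => 0) (fun i => U s i) (τ i) with hU'
  set V' : Matrix σ (Fin (κ + a) ⊕ (Fin k ⊕ Fin c)) K :=
    Matrix.of fun s => Sum.elim (VR s) (Sum.elim (VM s) fun _ => 0) with hV'
  set E := (bordM BR BQ u v pW pZ pY g).submatrix τ id with hE
  have h := DetBoundx885.norm_det_add_mul_le (E - U' * V') U' V' r' a' μ ν ?_ ?_ hμ hν ?_ ?_ ?_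
  · rw [sub_add_cancel] at h
    refine h.trans (le_of_eq ?_)
    have e1 : ∏ i, r' i = (∏ l, β l) * ∏ i, r i := by
      rw [hr', Equiv.prod_comp τ (Sum.elim β r), Fintype.prod_sum_type]
      simp
    have e2 : ∏ i, a' i = (∏ j, αR j) * ((∏ y, αQ y) * ∏ o, γU o) := by
      rw [ha', Fintype.prod_sum_type, Fintype.prod_sum_type]
      simp
    rw [e1, e2, hcard]
    simp only [Fintype.card_sum, Fintype.card_fin]
  · intro i
    rw [hr']
    show 0 ≤ Sum.elim β r (τ i)
    rcases τ i with l | i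
    · exact hβ l
    · exact hr i
  · rw [ha']
    rintro (j | (y | o))
    · exact hαR j
    · exact hαQ y
    · exact hγ o
  · intro i j
    rw [Matrix.sub_apply, Matrix.mul_apply]
    show ‖E i j - ∑ s, U' i s * V' s j‖ ≤ Sum.elim β r (τ i) * a' j
    have hEij : E i j = bordM BR BQ u v pW pZ pY g (τ i) j := rfl
    have hUi : ∀ s, U' i s = Sum.elim (fun _ => 0) (fun i => U s i) (τ i) := fun s => rfl
    rw [hEij]
    simp only [hUi]
    rcases τ i with l | i
    · rcases j with j | (y | o)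
      · simpa [bordM, ha'] using hbR l j
      · simpa [bordM, ha'] using hbM l y
      · simpa [bordM, ha'] using mul_nonneg (hβ l) (hγ o)
    · rcases j with j | (y | o)
      · simpa [bordM, ha', hV'] using hR i j
      · simpa [bordM, ha', hV'] using hM i y
      · simpa [bordM, ha', hV'] using hu i o
  · intro i s
    show ‖U' i s‖ ≤ Sum.elim β r (τ i) * μ s
    have hUi : U' i s = Sum.elim (fun _ => 0) (fun i => U s i) (τ i) := rfl
    rw [hUi]
    rcases τ i with l | i
    · simpa using mul_nonneg (hβ l) (hμ s).le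
    · exact hU s i
  · rintro s (j | (y | o))
    · exact hVR s j
    · exact hVM s y
    · simpa [hV', ha'] using mul_nonneg (hν s) (hγ o)

/-- the same with simple reference points: `W` (`n` points), `Z` (`κ + a`), `Y` (`k`), `v` (`κ`);
`V w = ∏_{i<j} (w j - w i)` -/
theorem norm_det_coefM_lg (w : Fin n → K) (hw : Function.Injective w) :
    ‖(coefM (lg w)).det‖ = ‖(vandermonde w).det‖ := by
  rw [det_coefM_lg w hw, det_vandermonde, norm_prod, norm_prod]
  refine prod_congr rfl fun i _ => ?_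
  rw [norm_prod, norm_prod]
  exact prod_congr rfl fun j _ => norm_sub_rev _ _

end norm

end Crest.Agent.R006.Border410
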