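import Mathlib

set_option autoImplicit false

/-!
# Row 6, block P3: the logarithmic kernel `log (s + ‖z - w‖²)` is conditionally negative definite

This gives the finite (measure free) dual inequality for log energies of signed charges.
-/

namespace Crest.Agent.R006.CNDx803

open Finset MeasureTheory Filter Topology

variable {ι κ : Type*}

/-- powers of the real Gram kernel are positive semidefinite -/
theorem sum_re_pow_nonneg (S : Finset ι) (a : ι → ℝ) (z : ι → ℂ) (k : ℕ) :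
    0 ≤ ∑ i ∈ S, ∑ j ∈ S, a i * a j * ((z i).re * (z j).re + (z i).im * (z j).im) ^ k := by
  have h : ∀ i j, ((z i).re * (z j).re + (z i).im * (z j).im) ^ k
      = ∑ m ∈ range (k + 1), (k.choose m : ℝ) *
        (((z i).re ^ m * (z i).im ^ (k - m)) * ((z j).re ^ m * (z j).im ^ (k - m))) := by
    intro i j
    rw [add_pow]
    refine sum_congr rfl fun m _ => ?_
    rw [mul_pow, mul_pow]; ring
  have e : ∑ i ∈ S, ∑ j ∈ S, a i * a j * ((z i).re * (z j).re + (z i).im * (z j).im) ^ k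
      = ∑ m ∈ range (k + 1), (k.choose m : ℝ) *
        (∑ i ∈ S, a i * ((z i).re ^ m * (z i).im ^ (k - m))) ^ 2 := by
    have : ∀ i ∈ S, ∀ j ∈ S, a i * a j * ((z i).re * (z j).re + (z i).im * (z j).im) ^ k
        = ∑ m ∈ range (k + 1), (k.choose m : ℝ) *
          ((a i * ((z i).re ^ m * (z i).im ^ (k - m))) *
            (a j * ((z j).re ^ m * (z j).im ^ (k - m)))) := by
      intro i _ j _
      rw [h i j, mul_sum]
      refine sum_congr rfl fun m _ => ?_
      ring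
    rw [sum_congr rfl fun i hi => sum_congr rfl fun j hj => this i hi j hj]
    have h2 : ∀ i ∈ S, (∑ j ∈ S, ∑ m ∈ range (k + 1), (k.choose m : ℝ) *
          ((a i * ((z i).re ^ m * (z i).im ^ (k - m))) *
            (a j * ((z j).re ^ m * (z j).im ^ (k - m)))))
        = ∑ m ∈ range (k + 1), ∑ j ∈ S, (k.choose m : ℝ) *
          ((a i * ((z i).re ^ m * (z i).im ^ (k - m))) *
            (a j * ((z j).re ^ m * (z j).im ^ (k - m)))) := fun i _ => sum_comm
    rw [sum_congr rfl h2, sum_comm]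
    refine sum_congr rfl fun m _ => ?_
    rw [sq, Finset.sum_mul_sum, mul_sum]
    refine sum_congr rfl fun i _ => ?_
    rw [mul_sum]
  rw [e]
  exact sum_nonneg fun m _ => by positivity

/-- the exponential of the Gram kernel is positive semidefinite -/
theorem sum_exp_nonneg (S : Finset ι) (a : ι → ℝ) (z : ι → ℂ) {t : ℝ} (ht : 0 ≤ t) :
    0 ≤ ∑ i ∈ S, ∑ j ∈ S,
      a i * a j * Real.exp (t * ((z i).re * (z j).re + (z i).im * (z j).im)) := by
  have hs : ∀ x : ℝ, HasSum (fun n : ℕ => x ^ n / (n.factorial : ℝ)) (Real.exp x) := by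
    intro x
    rw [Real.exp_eq_exp_ℝ]
    exact NormedSpace.expSeries_div_hasSum_exp x
  have h1 : HasSum (fun n : ℕ => ∑ i ∈ S, ∑ j ∈ S, a i * a j *
      ((t * ((z i).re * (z j).re + (z i).im * (z j).im)) ^ n / (n.factorial : ℝ)))
      (∑ i ∈ S, ∑ j ∈ S,
      a i * a j * Real.exp (t * ((z i).re * (z j).re + (z i).im * (z j).im))) := by
    refine hasSum_sum fun i _ => hasSum_sum fun j _ => ?_
    exact (hs _).mul_left _
  refine h1.nonneg fun n => ?_
  have h2 : ∑ i ∈ S, ∑ j ∈ S, a i * a j *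
      ((t * ((z i).re * (z j).re + (z i).im * (z j).im)) ^ n / (n.factorial : ℝ))
      = t ^ n / (n.factorial : ℝ) *
        ∑ i ∈ S, ∑ j ∈ S, a i * a j * ((z i).re * (z j).re + (z i).im * (z j).im) ^ n := by
    rw [mul_sum]
    refine sum_congr rfl fun i _ => ?_
    rw [mul_sum]
    refine sum_congr rfl fun j _ => ?_
    rw [mul_pow]; ring
  rw [h2]
  exact mul_nonneg (by positivity) (sum_re_pow_nonneg S a z n)

theorem norm_sub_sq' (z w : ℂ) :
    ‖z - w‖ ^ 2 = ‖z‖ ^ 2 + ‖w‖ ^ 2 - 2 * (z.re * w.re + z.im * w.im) := by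
  rw [Complex.sq_norm, Complex.sq_norm, Complex.sq_norm, Complex.normSq_apply,
    Complex.normSq_apply, Complex.normSq_apply, Complex.sub_re, Complex.sub_im]
  ring

/-- the Gaussian kernel is positive semidefinite -/
theorem sum_gauss_nonneg (S : Finset ι) (c : ι → ℝ) (z : ι → ℂ) {t : ℝ} (ht : 0 ≤ t) :
    0 ≤ ∑ i ∈ S, ∑ j ∈ S, c i * c j * Real.exp (-(t * ‖z i - z j‖ ^ 2)) := by
  have h := sum_exp_nonneg S (fun i => c i * Real.exp (-(t * ‖z i‖ ^ 2))) z
    (t := 2 * t) (by positivity)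
  have e : ∀ i j, c i * Real.exp (-(t * ‖z i‖ ^ 2)) * (c j * Real.exp (-(t * ‖z j‖ ^ 2))) *
      Real.exp (2 * t * ((z i).re * (z j).re + (z i).im * (z j).im))
      = c i * c j * Real.exp (-(t * ‖z i - z j‖ ^ 2)) := by
    intro i j
    have : -(t * ‖z i - z j‖ ^ 2) = -(t * ‖z i‖ ^ 2) + -(t * ‖z j‖ ^ 2) +
        2 * t * ((z i).re * (z j).re + (z i).im * (z j).im) := by
      rw [norm_sub_sq']; ring
    rw [this, Real.exp_add, Real.exp_add]; ring
  simpa only [e] using h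

/-- the kernel `1 / (s + ‖z - w‖²)` is positive semidefinite -/
theorem sum_inv_nonneg (S : Finset ι) (c : ι → ℝ) (z : ι → ℂ) {s : ℝ} (hs : 0 < s) :
    0 ≤ ∑ i ∈ S, ∑ j ∈ S, c i * c j * (s + ‖z i - z j‖ ^ 2)⁻¹ := by
  have hu : ∀ i j, 0 < s + ‖z i - z j‖ ^ 2 := fun i j => by positivity
  have hI : ∀ u : ℝ, 0 < u → ∫ t : ℝ in Set.Ioi 0, Real.exp (-u * t) = u⁻¹ := by
    intro u h0
    rw [integral_exp_mul_Ioi (by linarith : -u < 0) 0]
    simp [neg_div_neg_eq]
  have hint : ∀ u : ℝ, 0 < u → IntegrableOn (fun t : ℝ => Real.exp (-u * t)) (Set.Ioi 0) :=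
    fun u h0 => integrableOn_exp_mul_Ioi (by linarith) 0
  have key : ∑ i ∈ S, ∑ j ∈ S, c i * c j * (s + ‖z i - z j‖ ^ 2)⁻¹
      = ∫ t : ℝ in Set.Ioi 0, ∑ i ∈ S, ∑ j ∈ S,
        c i * c j * Real.exp (-(s + ‖z i - z j‖ ^ 2) * t) := by
    rw [integral_finsetSum]
    · refine sum_congr rfl fun i _ => ?_
      rw [integral_finsetSum]
      · refine sum_congr rfl fun j _ => ?_
        rw [integral_const_mul, hI _ (hu i j)]
      · intro j _
        exact (hint _ (hu i j)).const_mul _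
    · intro i _
      refine integrable_finsetSum _ fun j _ => ?_
      exact (hint _ (hu i j)).const_mul _
  rw [key]
  refine setIntegral_nonneg measurableSet_Ioi fun t ht => ?_
  have ht0 : (0 : ℝ) ≤ t := le_of_lt ht
  have h2 := sum_gauss_nonneg S c z ht0
  have e : ∀ i j, c i * c j * Real.exp (-(s + ‖z i - z j‖ ^ 2) * t)
      = Real.exp (-(s * t)) * (c i * c j * Real.exp (-(t * ‖z i - z j‖ ^ 2))) := by
    intro i j
    have : -(s + ‖z i - z j‖ ^ 2) * t = -(s * t) + -(t * ‖z i - z j‖ ^ 2) := by ring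
    rw [this, Real.exp_add]; ring
  simp only [e, ← mul_sum]
  exact mul_nonneg (Real.exp_pos _).le h2

/-- **Conditional negative definiteness** of `log (s + ‖z - w‖²)`. -/
theorem cnd_log (S : Finset ι) (c : ι → ℝ) (hc : ∑ i ∈ S, c i = 0) (z : ι → ℂ) {s : ℝ}
    (hs : 0 < s) :
    ∑ i ∈ S, ∑ j ∈ S, c i * c j * Real.log (s + ‖z i - z j‖ ^ 2) ≤ 0 := by
  set Φ : ℝ → ℝ := fun u => ∑ i ∈ S, ∑ j ∈ S, c i * c j * Real.log (u + ‖z i - z j‖ ^ 2) with hΦ
  have hder : ∀ u : ℝ, 0 < u → HasDerivAt Φ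
      (∑ i ∈ S, ∑ j ∈ S, c i * c j * (u + ‖z i - z j‖ ^ 2)⁻¹) u := by
    intro u hu
    refine HasDerivAt.fun_sum fun i _ => HasDerivAt.fun_sum fun j _ => ?_
    have h0 : u + ‖z i - z j‖ ^ 2 ≠ 0 := by positivity
    have h1 : HasDerivAt (fun v : ℝ => v + ‖z i - z j‖ ^ 2) 1 u :=
      (hasDerivAt_id u).add_const _
    have h2 := (h1.log h0).const_mul (c i * c j)
    simpa [one_div] using h2
  have hmono : MonotoneOn Φ (Set.Ioi 0) := by
    refine monotoneOn_of_deriv_nonneg (convex_Ioi 0) ?_ ?_ ?_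
    · intro u hu
      exact (hder u hu).continuousAt.continuousWithinAt
    · intro u hu
      rw [interior_Ioi] at hu
      exact (hder u hu).differentiableAt.differentiableWithinAt
    · intro u hu
      rw [interior_Ioi] at hu
      rw [(hder u hu).deriv]
      exact sum_inv_nonneg S c z hu
  have hcc : ∑ i ∈ S, ∑ j ∈ S, c i * c j = 0 := by
    rw [← Finset.sum_mul_sum, hc, zero_mul]
  have hlim : Tendsto Φ atTop (𝓝 0) := by
    have h1 : Tendsto (fun u : ℝ => ∑ i ∈ S, ∑ j ∈ S,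
        c i * c j * Real.log (1 + ‖z i - z j‖ ^ 2 / u)) atTop (𝓝 0) := by
      have : (0 : ℝ) = ∑ i ∈ S, ∑ j ∈ S, c i * c j * 0 := by simp
      rw [this]
      refine tendsto_finsetSum _ fun i _ => tendsto_finsetSum _ fun j _ => ?_
      refine Tendsto.const_mul _ ?_
      have h2 : Tendsto (fun u : ℝ => 1 + ‖z i - z j‖ ^ 2 / u) atTop (𝓝 (1 + 0)) :=
        tendsto_const_nhds.add (tendsto_const_nhds.div_atTop tendsto_id)
      have h3 := (Real.continuousAt_log (x := (1 : ℝ) + 0) (by norm_num)).tendsto.comp h2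
      simpa [Function.comp_def] using h3
    refine h1.congr' ?_
    filter_upwards [eventually_gt_atTop 0] with u hu
    have e : ∀ i j, c i * c j * Real.log (u + ‖z i - z j‖ ^ 2)
        = c i * c j * Real.log u + c i * c j * Real.log (1 + ‖z i - z j‖ ^ 2 / u) := by
      intro i j
      have h0 : 0 < 1 + ‖z i - z j‖ ^ 2 / u := by positivity
      have : u + ‖z i - z j‖ ^ 2 = u * (1 + ‖z i - z j‖ ^ 2 / u) := by
        field_simp
      rw [this, Real.log_mul hu.ne' h0.ne']; ring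
    simp only [hΦ, e, sum_add_distrib, ← sum_mul, hcc, zero_mul, zero_add]
  refine ge_of_tendsto hlim ?_
  filter_upwards [eventually_ge_atTop s] with u hu
  exact hmono hs (lt_of_lt_of_le hs hu) hu

/-- **Finite dual inequality** for the regularised log energy: charges `a` at points `x` against
trial charges `m` at points `w` with the same total charge. -/
theorem energy_le_trial (S : Finset ι) (T : Finset κ) (a : ι → ℝ) (x : ι → ℂ)
    (m : κ → ℝ) (w : κ → ℂ) (ht : ∑ i ∈ S, a i = ∑ k ∈ T, m k) {s : ℝ} (hs : 0 < s) :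
    ∑ i ∈ S, ∑ j ∈ S, a i * a j * Real.log (s + ‖x i - x j‖ ^ 2)
      ≤ 2 * ∑ i ∈ S, ∑ k ∈ T, a i * m k * Real.log (s + ‖x i - w k‖ ^ 2)
        - ∑ k ∈ T, ∑ l ∈ T, m k * m l * Real.log (s + ‖w k - w l‖ ^ 2) := by
  classical
  have h := cnd_log (S.disjSum T) (Sum.elim a (fun k => - m k)) (by
    rw [sum_disjSum]; simp [ht]) (Sum.elim x w) hs
  simp only [sum_disjSum, Sum.elim_inl, Sum.elim_inr, sum_add_distrib] at h
  have e1 : ∑ i ∈ S, ∑ k ∈ T, a i * -m k * Real.log (s + ‖x i - w k‖ ^ 2)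
      = - ∑ i ∈ S, ∑ k ∈ T, a i * m k * Real.log (s + ‖x i - w k‖ ^ 2) := by
    rw [← sum_neg_distrib]
    refine sum_congr rfl fun i _ => ?_
    rw [← sum_neg_distrib]
    exact sum_congr rfl fun k _ => by ring
  have e2 : ∑ k ∈ T, ∑ i ∈ S, -m k * a i * Real.log (s + ‖w k - x i‖ ^ 2)
      = - ∑ i ∈ S, ∑ k ∈ T, a i * m k * Real.log (s + ‖x i - w k‖ ^ 2) := by
    rw [sum_comm, ← sum_neg_distrib]
    refine sum_congr rfl fun i _ => ?_
    rw [← sum_neg_distrib]
    refine sum_congr rfl fun k _ => ?_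
    rw [norm_sub_rev]; ring
  have e3 : ∑ k ∈ T, ∑ l ∈ T, -m k * -m l * Real.log (s + ‖w k - w l‖ ^ 2)
      = ∑ k ∈ T, ∑ l ∈ T, m k * m l * Real.log (s + ‖w k - w l‖ ^ 2) := by
    refine sum_congr rfl fun k _ => sum_congr rfl fun l _ => ?_
    ring
  rw [e1, e2, e3] at h
  linarith

/-- comparison of the plain and regularised kernels -/
theorem log_sq_le (s : ℝ) (hs : 0 ≤ s) (z : ℂ) :
    Real.log (‖z‖ ^ 2) ≤ Real.log (s + ‖z‖ ^ 2) ∨ (z = 0) := by
  by_cases h : z = 0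
  · exact Or.inr h
  · left
    have : 0 < ‖z‖ ^ 2 := by positivity
    exact Real.log_le_log this (by linarith)

theorem neg_log_sq_le (s : ℝ) (hs : 0 ≤ s) (z : ℂ) (hz : z ≠ 0) :
    - Real.log (‖z‖ ^ 2) ≤ - Real.log (s + ‖z‖ ^ 2) + s / ‖z‖ ^ 2 := by
  have h0 : 0 < ‖z‖ ^ 2 := by positivity
  have h1 : s + ‖z‖ ^ 2 = ‖z‖ ^ 2 * (1 + s / ‖z‖ ^ 2) := by field_simp; ring
  have h2 : 0 < 1 + s / ‖z‖ ^ 2 := by positivity
  rw [h1, Real.log_mul h0.ne' h2.ne']
  have := Real.log_le_sub_one_of_pos h2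
  linarith

end Crest.Agent.R006.CNDx803
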