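import Crest.Agent.R006.CauchyDual_324

/-!
Row 6, block P3 (helper475): Cauchy duality with signed charges (the `Y`-layer of the Nikishin
form): particles `x` (charge `+1`), `y` (charge `-1`), references `z` (for `x`), `y0` (for `y`).

`signed_dual`: `V(x) V(y) / ∏|x-y| * V(z) V(y0) / ∏|z-y0| ≤
   (a+b)! d^-(a+b) * ∏_x (∏|x-z| / ∏|x-y0|) * ∏_y (∏|y-y0| / ∏|y-z|)`.
-/

set_option autoImplicit false

namespace Crest.Agent.R006.DualSigned475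

open scoped Nat
open Finset Matrix CauchyDual324

/-- product form (no division). -/
theorem signed_dual_mul {a b : ℕ} (x z : Fin a → ℂ) (y y0 : Fin b → ℂ) {d : ℝ} (hd : 0 < d)
    (hxz : ∀ i j, d ≤ ‖x i - z j‖) (hxy : ∀ i j, d ≤ ‖x i - y j‖)
    (hy0z : ∀ i j, d ≤ ‖y0 i - z j‖) (hy0y : ∀ i j, d ≤ ‖y0 i - y j‖) :
    (nV x * nV y * (nV z * nV y0)) *
      ((∏ i, ∏ j, ‖x i - y0 j‖) * ∏ i, ∏ j, ‖y i - z j‖) ≤
    ((a + b)! : ℝ) * d⁻¹ ^ (a + b) *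
      ((∏ i, ∏ j, ‖x i - z j‖) * (∏ i, ∏ j, ‖x i - y j‖) *
        ((∏ i, ∏ j, ‖z i - y0 j‖) * ∏ i, ∏ j, ‖y i - y0 j‖)) := by
  have h3 := nV_dual (Fin.append x y0) (Fin.append z y) hd (by
    intro i j
    refine Fin.addCases (fun i => ?_) (fun i => ?_) i <;>
      refine Fin.addCases (fun j => ?_) (fun j => ?_) j
    · simpa using hxz i j
    · simpa using hxy i j
    · simpa using hy0z i j
    · simpa using hy0y i j)
  rw [nV_append, nV_append, Fin.prod_univ_add] at h3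
  simp only [Fin.prod_univ_add, Fin.append_left, Fin.append_right] at h3
  simp only [Finset.prod_mul_distrib] at h3
  have e1 : (∏ i, ∏ j, ‖y i - z j‖) = ∏ i, ∏ j, ‖z i - y j‖ := by
    rw [Finset.prod_comm]
    exact Finset.prod_congr rfl fun i _ => Finset.prod_congr rfl fun j _ => norm_sub_rev _ _
  have e2 : (∏ i, ∏ j, ‖z i - y0 j‖) = ∏ i, ∏ j, ‖y0 i - z j‖ := by
    rw [Finset.prod_comm]
    exact Finset.prod_congr rfl fun i _ => Finset.prod_congr rfl fun j _ => norm_sub_rev _ _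
  have e3 : (∏ i, ∏ j, ‖y i - y0 j‖) = ∏ i, ∏ j, ‖y0 i - y j‖ := by
    rw [Finset.prod_comm]
    exact Finset.prod_congr rfl fun i _ => Finset.prod_congr rfl fun j _ => norm_sub_rev _ _
  rw [e1, e2, e3]
  calc _ = (nV x * nV y0 * ∏ i, ∏ j, ‖x i - y0 j‖) * (nV z * nV y * ∏ i, ∏ j, ‖z i - y j‖) := by
        ring
    _ ≤ _ := h3
    _ = _ := by ring

/-- the "signed Vandermonde" `V(x) V(y) / ∏ |x - y|`. -/
noncomputable def sV {a b : ℕ} (x : Fin a → ℂ) (y : Fin b → ℂ) : ℝ :=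
  nV x * nV y / ∏ i, ∏ j, ‖x i - y j‖

theorem sV_nonneg {a b : ℕ} (x : Fin a → ℂ) (y : Fin b → ℂ) : 0 ≤ sV x y := by
  unfold sV
  exact div_nonneg (mul_nonneg (nV_nonneg _) (nV_nonneg _)) (by positivity)

/-- **signed Cauchy duality**. -/
theorem signed_dual {a b : ℕ} (x z : Fin a → ℂ) (y y0 : Fin b → ℂ) {d : ℝ} (hd : 0 < d)
    (hxz : ∀ i j, d ≤ ‖x i - z j‖) (hxy : ∀ i j, d ≤ ‖x i - y j‖)
    (hy0z : ∀ i j, d ≤ ‖y0 i - z j‖) (hy0y : ∀ i j, d ≤ ‖y0 i - y j‖)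
    (hxy0 : ∀ i j, x i ≠ y0 j) (hyz : ∀ i j, y i ≠ z j) :
    sV x y * sV z y0 ≤ ((a + b)! : ℝ) * d⁻¹ ^ (a + b) *
      ((∏ i, ((∏ j, ‖x i - z j‖) / ∏ j, ‖x i - y0 j‖)) *
        ∏ i, ((∏ j, ‖y i - y0 j‖) / ∏ j, ‖y i - z j‖)) := by
  have h := signed_dual_mul x z y y0 hd hxz hxy hy0z hy0y
  have p1 : 0 < ∏ i, ∏ j, ‖x i - y j‖ := Finset.prod_pos fun i _ => Finset.prod_pos fun j _ =>
    lt_of_lt_of_le hd (hxy i j)
  have p2 : 0 < ∏ i, ∏ j, ‖z i - y0 j‖ := Finset.prod_pos fun i _ => Finset.prod_pos fun j _ => by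
    rw [norm_sub_rev]; exact lt_of_lt_of_le hd (hy0z j i)
  have p3 : 0 < ∏ i, ∏ j, ‖x i - y0 j‖ := Finset.prod_pos fun i _ => Finset.prod_pos fun j _ =>
    norm_pos_iff.mpr (sub_ne_zero.mpr (hxy0 i j))
  have p4 : 0 < ∏ i, ∏ j, ‖y i - z j‖ := Finset.prod_pos fun i _ => Finset.prod_pos fun j _ =>
    norm_pos_iff.mpr (sub_ne_zero.mpr (hyz i j))
  unfold sV
  rw [Finset.prod_div_distrib, Finset.prod_div_distrib, div_mul_div_comm, div_mul_div_comm,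
    ← mul_div_assoc, div_le_div_iff₀ (mul_pos p1 p2) (mul_pos p3 p4)]
  calc _ ≤ _ := h
    _ = _ := by ring

/-- one-sided form: the signed Vandermonde of the particles is bounded by one-particle weights. -/
theorem sV_le {a b : ℕ} (x z : Fin a → ℂ) (y y0 : Fin b → ℂ) {d : ℝ} (hd : 0 < d)
    (hxz : ∀ i j, d ≤ ‖x i - z j‖) (hxy : ∀ i j, d ≤ ‖x i - y j‖)
    (hy0z : ∀ i j, d ≤ ‖y0 i - z j‖) (hy0y : ∀ i j, d ≤ ‖y0 i - y j‖)
    (hxy0 : ∀ i j, x i ≠ y0 j) (hyz : ∀ i j, y i ≠ z j) (href : 0 < sV z y0) :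
    sV x y ≤ ((a + b)! : ℝ) * d⁻¹ ^ (a + b) / sV z y0 *
      ((∏ i, ((∏ j, ‖x i - z j‖) / ∏ j, ‖x i - y0 j‖)) *
        ∏ i, ((∏ j, ‖y i - y0 j‖) / ∏ j, ‖y i - z j‖)) := by
  have h := signed_dual x z y y0 hd hxz hxy hy0z hy0y hxy0 hyz
  rw [div_mul_eq_mul_div, le_div_iff₀ href]
  exact h

end Crest.Agent.R006.DualSigned475
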