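import Mathlib

/-!
Row 6, block P3 (helper324): the dual certificate for Vandermonde products, without energy theory.

`vandermonde_dual`: for all points `s`, `z : Fin k → ℂ` with mutual distances `≥ d`,
  `‖V(s)‖ * ‖V(z)‖ ≤ k! * d⁻¹ ^ k * ∏ i, ∏ j, ‖s i - z j‖`.
-/

open scoped BigOperators Nat
open Finset Matrix

namespace CauchyDual324

/-- Lagrange matrix `L i j = ∏_{m ≠ j} (s i - z m)/(z j - z m)`. -/
noncomputable def lag {k : ℕ} (s z : Fin k → ℂ) : Matrix (Fin k) (Fin k) ℂ :=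
  Matrix.of fun i j => ∏ m ∈ univ.erase j, (s i - z m) / (z j - z m)

theorem lag_eq_basis {k : ℕ} (s z : Fin k → ℂ) (i j : Fin k) :
    lag s z i j = (Lagrange.basis univ z j).eval (s i) := by
  classical
  unfold lag Lagrange.basis Lagrange.basisDivisor
  rw [Matrix.of_apply, Polynomial.eval_prod]
  refine Finset.prod_congr rfl fun m _ => ?_
  simp [div_eq_mul_inv, mul_comm]

theorem vandermonde_eq_lag_mul {k : ℕ} (s z : Fin k → ℂ) (hz : Function.Injective z) :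
    Matrix.vandermonde s = lag s z * Matrix.vandermonde z := by
  classical
  ext i l
  rw [Matrix.mul_apply, Matrix.vandermonde_apply]
  have hinj : Set.InjOn z (univ : Finset (Fin k)) := fun a _ b _ h => hz h
  have hdeg : (Polynomial.X ^ (l : ℕ) : Polynomial ℂ).degree < (univ : Finset (Fin k)).card := by
    rw [Polynomial.degree_X_pow, Finset.card_univ, Fintype.card_fin]
    exact_mod_cast l.2
  have h := Lagrange.eq_interpolate_of_eval_eq (s := univ) (v := z)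
    (fun j => (z j) ^ (l : ℕ)) hinj hdeg (fun j _ => by simp)
  have h2 := congrArg (Polynomial.eval (s i)) h
  rw [Lagrange.interpolate_apply] at h2
  simp only [Polynomial.eval_pow, Polynomial.eval_X, Polynomial.eval_finsetSum,
    Polynomial.eval_mul, Polynomial.eval_C] at h2
  rw [h2]
  refine Finset.sum_congr rfl fun j _ => ?_
  rw [lag_eq_basis, Matrix.vandermonde_apply, mul_comm]

theorem norm_lag_le {k : ℕ} (s z : Fin k → ℂ) {d : ℝ} (hd : 0 < d)
    (h : ∀ i j, d ≤ ‖s i - z j‖) (i j : Fin k) :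
    ‖lag s z i j‖ ≤ d⁻¹ * (∏ m, ‖s i - z m‖) * (∏ m ∈ univ.erase j, ‖z j - z m‖)⁻¹ := by
  classical
  unfold lag
  rw [Matrix.of_apply, Finset.prod_div_distrib, norm_div, norm_prod, norm_prod, div_eq_mul_inv]
  refine mul_le_mul_of_nonneg_right ?_ (by positivity)
  rw [← Finset.mul_prod_erase univ (fun m => ‖s i - z m‖) (Finset.mem_univ j), ← mul_assoc]
  have h1 : (1 : ℝ) ≤ d⁻¹ * ‖s i - z j‖ := by
    rw [← div_eq_inv_mul, le_div_iff₀ hd, one_mul]; exact h i j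
  calc ∏ m ∈ univ.erase j, ‖s i - z m‖ = 1 * ∏ m ∈ univ.erase j, ‖s i - z m‖ := (one_mul _).symm
    _ ≤ _ := mul_le_mul_of_nonneg_right h1 (by positivity)

theorem norm_det_lag_le {k : ℕ} (s z : Fin k → ℂ) {d : ℝ} (hd : 0 < d)
    (h : ∀ i j, d ≤ ‖s i - z j‖) :
    ‖(lag s z).det‖ ≤ (k ! : ℝ) * (d⁻¹ ^ k * (∏ i, ∏ m, ‖s i - z m‖) *
      (∏ j, ∏ m ∈ univ.erase j, ‖z j - z m‖)⁻¹) := by
  classical
  rw [Matrix.det_apply]
  have hterm : ∀ σ : Equiv.Perm (Fin k),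
      ‖Equiv.Perm.sign σ • ∏ i, lag s z (σ i) i‖ ≤
        d⁻¹ ^ k * (∏ i, ∏ m, ‖s i - z m‖) * (∏ j, ∏ m ∈ univ.erase j, ‖z j - z m‖)⁻¹ := by
    intro σ
    have hs : ‖Equiv.Perm.sign σ • ∏ i, lag s z (σ i) i‖ = ‖∏ i, lag s z (σ i) i‖ := by
      rcases Int.units_eq_one_or (Equiv.Perm.sign σ) with h1 | h1 <;> simp [h1]
    rw [hs, norm_prod]
    calc ∏ i, ‖lag s z (σ i) i‖
        ≤ ∏ i, (d⁻¹ * (∏ m, ‖s (σ i) - z m‖) * (∏ m ∈ univ.erase i, ‖z i - z m‖)⁻¹) :=
          Finset.prod_le_prod (fun i _ => norm_nonneg _) fun i _ => norm_lag_le s z hd h (σ i) i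
      _ = d⁻¹ ^ k * (∏ i, ∏ m, ‖s i - z m‖) * (∏ j, ∏ m ∈ univ.erase j, ‖z j - z m‖)⁻¹ := by
          rw [Finset.prod_mul_distrib, Finset.prod_mul_distrib, Finset.prod_const,
            Finset.card_univ, Fintype.card_fin, Finset.prod_inv_distrib,
            Equiv.prod_comp σ (fun i => ∏ m, ‖s i - z m‖)]
  calc ‖∑ σ : Equiv.Perm (Fin k), Equiv.Perm.sign σ • ∏ i, lag s z (σ i) i‖
      ≤ ∑ σ : Equiv.Perm (Fin k), ‖Equiv.Perm.sign σ • ∏ i, lag s z (σ i) i‖ := norm_sum_le _ _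
    _ ≤ ∑ _σ : Equiv.Perm (Fin k), (d⁻¹ ^ k * (∏ i, ∏ m, ‖s i - z m‖) *
          (∏ j, ∏ m ∈ univ.erase j, ‖z j - z m‖)⁻¹) := Finset.sum_le_sum fun σ _ => hterm σ
    _ = _ := by
        rw [Finset.sum_const, Finset.card_univ, Fintype.card_perm, Fintype.card_fin, nsmul_eq_mul]

/-- `∏_j ∏_{m≠j} ‖z j - z m‖ = ‖V(z)‖²`. -/
theorem prod_erase_eq_sq {k : ℕ} (z : Fin k → ℂ) :
    (∏ j, ∏ m ∈ univ.erase j, ‖z j - z m‖) = ‖(Matrix.vandermonde z).det‖ ^ 2 := by
  classical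
  rw [Matrix.det_vandermonde, norm_prod, sq, ← Finset.prod_mul_distrib]
  have h1 : ∀ j : Fin k, (∏ m ∈ univ.erase j, ‖z j - z m‖) =
      (∏ m ∈ Ioi j, ‖z j - z m‖) * ∏ m ∈ Iio j, ‖z j - z m‖ := by
    intro j
    rw [← Finset.prod_union]
    · refine Finset.prod_congr ?_ fun _ _ => rfl
      ext m
      simp only [Finset.mem_erase, Finset.mem_univ, and_true, Finset.mem_union, Finset.mem_Ioi,
        Finset.mem_Iio]
      constructor
      · intro h; rcases lt_or_gt_of_ne h with h | h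
        · exact Or.inr h
        · exact Or.inl h
      · rintro (h | h)
        · exact ne_of_gt h
        · exact ne_of_lt h
    · rw [Finset.disjoint_left]
      intro m hm1 hm2
      rw [Finset.mem_Ioi] at hm1
      rw [Finset.mem_Iio] at hm2
      exact absurd (hm1.trans hm2) (lt_irrefl _)
  simp_rw [h1]
  rw [Finset.prod_mul_distrib, Finset.prod_mul_distrib]
  have h2 : (∏ j : Fin k, ∏ m ∈ Ioi j, ‖z j - z m‖) = ∏ j : Fin k, ‖∏ m ∈ Ioi j, (z m - z j)‖ := by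
    refine Finset.prod_congr rfl fun j _ => ?_
    rw [norm_prod]
    exact Finset.prod_congr rfl fun m _ => norm_sub_rev _ _
  have h3 : (∏ j : Fin k, ∏ m ∈ Iio j, ‖z j - z m‖) = ∏ j : Fin k, ‖∏ m ∈ Ioi j, (z m - z j)‖ := by
    rw [Finset.prod_sigma', Finset.prod_congr rfl (fun j _ => norm_prod (Ioi j) fun m => z m - z j),
      Finset.prod_sigma']
    refine Finset.prod_bij' (fun x _ => ⟨x.2, x.1⟩) (fun x _ => ⟨x.2, x.1⟩) ?_ ?_ ?_ ?_ ?_
    all_goals simp
  rw [h2, h3]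

/-- **Cauchy duality.** -/
theorem vandermonde_dual {k : ℕ} (s z : Fin k → ℂ) {d : ℝ} (hd : 0 < d)
    (h : ∀ i j, d ≤ ‖s i - z j‖) :
    ‖(Matrix.vandermonde s).det‖ * ‖(Matrix.vandermonde z).det‖ ≤
      (k ! : ℝ) * d⁻¹ ^ k * ∏ i, ∏ j, ‖s i - z j‖ := by
  classical
  by_cases hz : Function.Injective z
  · have hV : ‖(Matrix.vandermonde z).det‖ ≠ 0 := by
      rw [norm_ne_zero_iff]; exact Matrix.det_vandermonde_ne_zero_iff.mpr hz
    have hVpos : 0 < ‖(Matrix.vandermonde z).det‖ := lt_of_le_of_ne (norm_nonneg _) (Ne.symm hV)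
    rw [vandermonde_eq_lag_mul s z hz, Matrix.det_mul, norm_mul]
    have h1 := norm_det_lag_le s z hd h
    rw [prod_erase_eq_sq] at h1
    calc ‖(lag s z).det‖ * ‖(Matrix.vandermonde z).det‖ * ‖(Matrix.vandermonde z).det‖
        = ‖(lag s z).det‖ * ‖(Matrix.vandermonde z).det‖ ^ 2 := by ring
      _ ≤ ((k ! : ℝ) * (d⁻¹ ^ k * (∏ i, ∏ m, ‖s i - z m‖) *
            (‖(Matrix.vandermonde z).det‖ ^ 2)⁻¹)) * ‖(Matrix.vandermonde z).det‖ ^ 2 :=
          mul_le_mul_of_nonneg_right h1 (by positivity)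
      _ = _ := by field_simp
  · have hV : (Matrix.vandermonde z).det = 0 := by
      by_contra hne
      exact hz (Matrix.det_vandermonde_ne_zero_iff.mp hne)
    rw [hV, norm_zero, mul_zero]
    positivity

/-- norm of the Vandermonde determinant -/
noncomputable def nV {k : ℕ} (s : Fin k → ℂ) : ℝ := ‖(Matrix.vandermonde s).det‖

theorem nV_nonneg {k : ℕ} (s : Fin k → ℂ) : 0 ≤ nV s := norm_nonneg _

theorem nV_eq_prod {k : ℕ} (s : Fin k → ℂ) :
    nV s = ∏ i, ∏ j ∈ Ioi i, ‖s j - s i‖ := by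
  unfold nV
  rw [Matrix.det_vandermonde, norm_prod]
  exact Finset.prod_congr rfl fun i _ => norm_prod _ _

/-- `‖V(s)‖² = ∏_i ∏_{j≠i} ‖s i - s j‖`. -/
theorem nV_sq {k : ℕ} (s : Fin k → ℂ) : nV s ^ 2 = ∏ j, ∏ m ∈ univ.erase j, ‖s j - s m‖ :=
  (prod_erase_eq_sq s).symm

/-- Two species: `V(s ∪ t) = V(s) V(t) ∏ (s i - t j)` in norm. -/
theorem nV_append {a b : ℕ} (s : Fin a → ℂ) (t : Fin b → ℂ) :
    nV (Fin.append s t) = nV s * nV t * ∏ i, ∏ j, ‖s i - t j‖ := by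
  classical
  have key : nV (Fin.append s t) ^ 2 = (nV s * nV t * ∏ i, ∏ j, ‖s i - t j‖) ^ 2 := by
    rw [nV_sq, Fin.prod_univ_add]
    have hE : ∀ x : Fin (a + b), (∏ m ∈ univ.erase x, ‖Fin.append s t x - Fin.append s t m‖) =
        ∏ m, (if m = x then (1 : ℝ) else ‖Fin.append s t x - Fin.append s t m‖) := by
      intro x
      rw [← Finset.mul_prod_erase univ _ (Finset.mem_univ x), if_pos rfl, one_mul]
      exact Finset.prod_congr rfl fun m hm => by rw [if_neg (Finset.ne_of_mem_erase hm)]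
    have hS : ∀ x : Fin a, (∏ m ∈ univ.erase x, ‖s x - s m‖) =
        ∏ m, (if m = x then (1 : ℝ) else ‖s x - s m‖) := by
      intro x
      rw [← Finset.mul_prod_erase univ _ (Finset.mem_univ x), if_pos rfl, one_mul]
      exact Finset.prod_congr rfl fun m hm => by rw [if_neg (Finset.ne_of_mem_erase hm)]
    have hT : ∀ x : Fin b, (∏ m ∈ univ.erase x, ‖t x - t m‖) =
        ∏ m, (if m = x then (1 : ℝ) else ‖t x - t m‖) := by
      intro x
      rw [← Finset.mul_prod_erase univ _ (Finset.mem_univ x), if_pos rfl, one_mul]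
      exact Finset.prod_congr rfl fun m hm => by rw [if_neg (Finset.ne_of_mem_erase hm)]
    have h1 : ∀ i : Fin a, (∏ m ∈ univ.erase (Fin.castAdd b i),
        ‖Fin.append s t (Fin.castAdd b i) - Fin.append s t m‖) =
        (∏ m ∈ univ.erase i, ‖s i - s m‖) * ∏ j, ‖s i - t j‖ := by
      intro i
      rw [hE, Fin.prod_univ_add, hS]
      congr 1
      · refine Finset.prod_congr rfl fun m _ => ?_
        simp only [Fin.append_left, Fin.castAdd_inj]
      · refine Finset.prod_congr rfl fun m _ => ?_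
        rw [if_neg, Fin.append_left, Fin.append_right]
        intro h
        have := congrArg Fin.val h
        simp at this
        omega
    have h2 : ∀ j : Fin b, (∏ m ∈ univ.erase (Fin.natAdd a j),
        ‖Fin.append s t (Fin.natAdd a j) - Fin.append s t m‖) =
        (∏ i, ‖s i - t j‖) * (∏ m ∈ univ.erase j, ‖t j - t m‖) := by
      intro j
      rw [hE, Fin.prod_univ_add, hT]
      congr 1
      · refine Finset.prod_congr rfl fun m _ => ?_
        rw [if_neg, Fin.append_left, Fin.append_right, norm_sub_rev]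
        intro h
        have := congrArg Fin.val h
        simp at this
        omega
      · refine Finset.prod_congr rfl fun m _ => ?_
        simp only [Fin.append_right, Fin.natAdd_inj]
    rw [Finset.prod_congr rfl fun i _ => h1 i, Finset.prod_congr rfl fun j _ => h2 j,
      Finset.prod_mul_distrib, Finset.prod_mul_distrib, ← nV_sq, ← nV_sq,
      Finset.prod_comm (s := (univ : Finset (Fin b))) (t := (univ : Finset (Fin a)))]
    ring
  have hnn : 0 ≤ nV s * nV t * ∏ i, ∏ j, ‖s i - t j‖ :=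
    mul_nonneg (mul_nonneg (nV_nonneg _) (nV_nonneg _)) (by positivity)
  exact (pow_left_inj₀ (nV_nonneg _) hnn two_ne_zero).mp key

theorem nV_dual {k : ℕ} (s z : Fin k → ℂ) {d : ℝ} (hd : 0 < d)
    (h : ∀ i j, d ≤ ‖s i - z j‖) :
    nV s * nV z ≤ (k ! : ℝ) * d⁻¹ ^ k * ∏ i, ∏ j, ‖s i - z j‖ :=
  vandermonde_dual s z hd h

/-- **Two-species dual certificate** (psi-particles `s`, references `Z`; g1-particles `t`,
references `Y`).  The left side is the Vandermonde part of the integrand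
`V(s)² V(t)² ∏(s-t)` times the reference constant; the right side factorises over the particles. -/
theorem two_species_dual {a b : ℕ} (s Z : Fin a → ℂ) (t Y : Fin b → ℂ) {d : ℝ} (hd : 0 < d)
    (hsZ : ∀ i j, d ≤ ‖s i - Z j‖) (htY : ∀ i j, d ≤ ‖t i - Y j‖)
    (hsY : ∀ i j, d ≤ ‖s i - Y j‖) (htZ : ∀ i j, d ≤ ‖t i - Z j‖) :
    (nV s ^ 2 * nV t ^ 2 * ∏ i, ∏ j, ‖s i - t j‖) *
        (nV Z ^ 2 * nV Y ^ 2 * ∏ i, ∏ j, ‖Z i - Y j‖) ≤
      ((a ! : ℝ) * (b ! : ℝ) * ((a + b)! : ℝ) * d⁻¹ ^ (2 * (a + b))) *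
        ((∏ i, ((∏ j, ‖s i - Z j‖) ^ 2 * ∏ j, ‖s i - Y j‖)) *
          ∏ i, ((∏ j, ‖t i - Y j‖) ^ 2 * ∏ j, ‖t i - Z j‖)) := by
  classical
  have h1 := nV_dual s Z hd hsZ
  have h2 := nV_dual t Y hd htY
  have h3 := nV_dual (Fin.append s t) (Fin.append Z Y) hd (by
    intro i j
    refine Fin.addCases (fun i => ?_) (fun i => ?_) i <;>
      refine Fin.addCases (fun j => ?_) (fun j => ?_) j
    · simpa using hsZ i j
    · simpa using hsY i j
    · simpa using htZ i j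
    · simpa using htY i j)
  rw [nV_append, nV_append, Fin.prod_univ_add] at h3
  simp only [Fin.prod_univ_add, Fin.append_left, Fin.append_right] at h3
  have e1 : (nV s ^ 2 * nV t ^ 2 * ∏ i, ∏ j, ‖s i - t j‖) *
        (nV Z ^ 2 * nV Y ^ 2 * ∏ i, ∏ j, ‖Z i - Y j‖) =
      (nV s * nV Z) * (nV t * nV Y) * ((nV s * nV t * ∏ i, ∏ j, ‖s i - t j‖) *
        (nV Z * nV Y * ∏ i, ∏ j, ‖Z i - Y j‖)) := by ring
  rw [e1]
  have p0 : 0 ≤ nV s * nV Z := mul_nonneg (nV_nonneg _) (nV_nonneg _)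
  have p1 : 0 ≤ nV t * nV Y := mul_nonneg (nV_nonneg _) (nV_nonneg _)
  have p2 : 0 ≤ (nV s * nV t * ∏ i, ∏ j, ‖s i - t j‖) *
        (nV Z * nV Y * ∏ i, ∏ j, ‖Z i - Y j‖) := by
    have q1 : 0 ≤ nV s * nV t * ∏ i, ∏ j, ‖s i - t j‖ :=
      mul_nonneg (mul_nonneg (nV_nonneg _) (nV_nonneg _)) (by positivity)
    have q2 : 0 ≤ nV Z * nV Y * ∏ i, ∏ j, ‖Z i - Y j‖ :=
      mul_nonneg (mul_nonneg (nV_nonneg _) (nV_nonneg _)) (by positivity)
    exact mul_nonneg q1 q2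
  refine (mul_le_mul (mul_le_mul h1 h2 p1 (by positivity)) h3 p2 (by positivity)).trans
    (le_of_eq ?_)
  simp only [Finset.prod_mul_distrib, Finset.prod_pow]
  have hp : d⁻¹ ^ (2 * (a + b)) = d⁻¹ ^ a * d⁻¹ ^ b * d⁻¹ ^ (a + b) := by
    rw [← pow_add, ← pow_add]; congr 1; ring
  rw [hp]
  ring

end CauchyDual324
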