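import Mathlib

/-!
Row 6, block P3: the (dual / linearised) energy inequality from the Cauchy determinant.

For points `x` and reference points `y` (same number):
`|V(x)| |V(y)| ≤ ∏_{i,j} |x i - y j| * ∏_j ∑_i 1/|x i - y j|`.
-/

namespace Crest.Agent.R006.CauchyEnergyx41

open Finset Matrix Polynomial

section det

variable {K : Type*} [Field K] {n : ℕ}

/-- `P_j = ∏_{k ≠ j} (X - y_k)`. -/
noncomputable def nod (y : Fin n → K) (j : Fin n) : K[X] :=
  ∏ k ∈ univ.erase j, (X - C (y k))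

lemma nod_natDegree (y : Fin n → K) (j : Fin n) : (nod y j).natDegree < n := by
  have hn : 0 < n := Fin.pos j
  unfold nod
  rw [natDegree_prod_of_monic _ _ (fun i _ => monic_X_sub_C _)]
  simp only [natDegree_X_sub_C, sum_const, smul_eq_mul, mul_one]
  rw [card_erase_of_mem (mem_univ j), card_univ, Fintype.card_fin]
  omega

lemma nod_eval (y : Fin n → K) (j : Fin n) (a : K) :
    (nod y j).eval a = ∏ k ∈ univ.erase j, (a - y k) := by
  unfold nod
  rw [eval_prod]
  simp

/-- coefficient matrix of the `P_j`. -/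
noncomputable def cof (y : Fin n → K) : Matrix (Fin n) (Fin n) K :=
  Matrix.of fun l j => (nod y j).coeff l

lemma vand_mul_cof (x y : Fin n → K) :
    (vandermonde x) * cof y = Matrix.of fun i j => ∏ k ∈ univ.erase j, (x i - y k) := by
  ext i j
  rw [Matrix.mul_apply]
  simp only [vandermonde_apply, cof, Matrix.of_apply]
  rw [← nod_eval, eval_eq_sum_range' (nod_natDegree y j)]
  rw [← Fin.sum_univ_eq_sum_range (fun l => (nod y j).coeff l * x i ^ l) n]
  exact Finset.sum_congr rfl (fun l _ => mul_comm _ _)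

lemma det_nod_self (y : Fin n → K) :
    (Matrix.of fun i j => ∏ k ∈ univ.erase j, (y i - y k)).det =
      ∏ j, ∏ k ∈ univ.erase j, (y j - y k) := by
  have : (Matrix.of fun i j => ∏ k ∈ univ.erase j, (y i - y k)) =
      Matrix.diagonal (fun j => ∏ k ∈ univ.erase j, (y j - y k)) := by
    ext i j
    rw [Matrix.of_apply, Matrix.diagonal_apply]
    split_ifs with h
    · subst h; rfl
    · exact Finset.prod_eq_zero (mem_erase.2 ⟨h, mem_univ i⟩) (sub_self _)
  rw [this, det_diagonal]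

/-- `det (P_j(x_i)) * V(y) = V(x) * ∏_j P_j(y_j)`. -/
lemma det_nod_mul (x y : Fin n → K) :
    (Matrix.of fun i j => ∏ k ∈ univ.erase j, (x i - y k)).det * (vandermonde y).det =
      (vandermonde x).det * ∏ j, ∏ k ∈ univ.erase j, (y j - y k) := by
  rw [← vand_mul_cof x y, ← det_nod_self y, ← vand_mul_cof y y, det_mul, det_mul]
  ring

/-- the Cauchy matrix times the nodal factors. -/
lemma det_nod_eq_cauchy (x y : Fin n → K) (h : ∀ i j, x i ≠ y j) :
    (Matrix.of fun i j => ∏ k ∈ univ.erase j, (x i - y k)).det =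
      (∏ i, ∏ k, (x i - y k)) * (Matrix.of fun i j => (x i - y j)⁻¹).det := by
  rw [← Matrix.det_mul_column (fun i => ∏ k, (x i - y k)) (Matrix.of fun i j => (x i - y j)⁻¹)]
  congr 1
  ext i j
  rw [Matrix.of_apply, Matrix.of_apply, Matrix.of_apply,
    ← mul_prod_erase univ (fun k => x i - y k) (mem_univ j)]
  have : x i - y j ≠ 0 := sub_ne_zero.2 (h i j)
  field_simp

end det

section norm

/-- ordered double product of distances `∏_{i ≠ j} |x_i - x_j| = |V(x)|²`. -/
noncomputable def dd {ι : Type*} [Fintype ι] [DecidableEq ι] (x : ι → ℂ) : ℝ :=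
  ∏ i, ∏ j ∈ univ.erase i, ‖x i - x j‖

/-- mixed product `∏_{i,j} |x_i - y_j|`. -/
noncomputable def mm {ι κ : Type*} [Fintype ι] [Fintype κ] (x : ι → ℂ) (y : κ → ℂ) : ℝ :=
  ∏ i, ∏ j, ‖x i - y j‖

lemma dd_nonneg {ι : Type*} [Fintype ι] [DecidableEq ι] (x : ι → ℂ) : 0 ≤ dd x :=
  prod_nonneg fun _ _ => prod_nonneg fun _ _ => norm_nonneg _

lemma mm_nonneg {ι κ : Type*} [Fintype ι] [Fintype κ] (x : ι → ℂ) (y : κ → ℂ) : 0 ≤ mm x y :=
  prod_nonneg fun _ _ => prod_nonneg fun _ _ => norm_nonneg _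

lemma dd_pos {ι : Type*} [Fintype ι] [DecidableEq ι] {x : ι → ℂ} (hx : Function.Injective x) :
    0 < dd x :=
  prod_pos fun i _ => prod_pos fun j hj =>
    norm_pos_iff.2 (sub_ne_zero.2 fun h => (mem_erase.1 hj).1 (hx h.symm))

lemma mm_pos {ι κ : Type*} [Fintype ι] [Fintype κ] {x : ι → ℂ} {y : κ → ℂ}
    (h : ∀ i j, x i ≠ y j) : 0 < mm x y :=
  prod_pos fun i _ => prod_pos fun j _ => norm_pos_iff.2 (sub_ne_zero.2 (h i j))

/-- `dd x = |V(x)|²`. -/
lemma dd_eq_sq {n : ℕ} (x : Fin n → ℂ) : dd x = ‖(vandermonde x).det‖ ^ 2 := by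
  rw [det_vandermonde, norm_prod, ← prod_pow]
  unfold dd
  have h1 : ∀ i : Fin n, ‖∏ j ∈ Ioi i, (x j - x i)‖ = ∏ j ∈ Ioi i, ‖x i - x j‖ := by
    intro i
    rw [norm_prod]
    exact prod_congr rfl fun j _ => norm_sub_rev _ _
  have h2 : ∀ i : Fin n, ∏ j ∈ univ.erase i, ‖x i - x j‖ =
      (∏ j ∈ Ioi i, ‖x i - x j‖) * ∏ j ∈ Iio i, ‖x i - x j‖ := by
    intro i
    rw [← prod_union]
    · congr 1
      ext j
      simp only [mem_erase, mem_univ, and_true, mem_union, mem_Ioi, mem_Iio]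
      constructor
      · intro h
        rcases lt_trichotomy i j with h' | h' | h'
        · exact Or.inl h'
        · exact absurd h'.symm h
        · exact Or.inr h'
      · rintro (h | h)
        · exact h.ne'
        · exact h.ne
    · rw [Finset.disjoint_left]
      intro j hj hj'
      exact absurd (mem_Ioi.1 hj) (not_lt.2 (mem_Iio.1 hj').le)
  have h3 : ∏ i : Fin n, ∏ j ∈ Iio i, ‖x i - x j‖ = ∏ i : Fin n, ∏ j ∈ Ioi i, ‖x i - x j‖ := by
    rw [prod_sigma', prod_sigma']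
    refine prod_bij' (fun a _ => ⟨a.2, a.1⟩) (fun a _ => ⟨a.2, a.1⟩) ?_ ?_ ?_ ?_ ?_
    · intro a ha; simp only [mem_sigma, mem_univ, true_and, mem_Iio, mem_Ioi] at ha ⊢; exact ha
    · intro a ha; simp only [mem_sigma, mem_univ, true_and, mem_Iio, mem_Ioi] at ha ⊢; exact ha
    · intro a _; rfl
    · intro a _; rfl
    · intro a _; exact norm_sub_rev _ _
  rw [prod_congr rfl fun i _ => h2 i, prod_mul_distrib, h3, ← prod_mul_distrib]
  refine prod_congr rfl fun i _ => ?_
  rw [h1 i, sq]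

/-- the determinant is at most the product of the column sums of norms. -/
lemma norm_det_le_prod_sum {n : ℕ} (A : Matrix (Fin n) (Fin n) ℂ) :
    ‖A.det‖ ≤ ∏ j, ∑ i, ‖A i j‖ := by
  rw [det_apply]
  calc ‖∑ σ : Equiv.Perm (Fin n), Equiv.Perm.sign σ • ∏ i, A (σ i) i‖
      ≤ ∑ σ : Equiv.Perm (Fin n), ‖Equiv.Perm.sign σ • ∏ i, A (σ i) i‖ := norm_sum_le _ _
    _ = ∑ σ : Equiv.Perm (Fin n), ∏ i, ‖A (σ i) i‖ := by
        refine sum_congr rfl fun σ _ => ?_
        rw [← norm_prod]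
        rcases Int.units_eq_one_or (Equiv.Perm.sign σ) with h | h <;> rw [h] <;> simp
    _ ≤ ∑ f : Fin n → Fin n, ∏ i, ‖A (f i) i‖ := by
        have hinj : Function.Injective (fun σ : Equiv.Perm (Fin n) => (σ : Fin n → Fin n)) :=
          fun a b h => Equiv.ext fun i => congrFun h i
        have e := Finset.sum_map (univ : Finset (Equiv.Perm (Fin n)))
          (⟨fun σ => (σ : Fin n → Fin n), hinj⟩ : Equiv.Perm (Fin n) ↪ (Fin n → Fin n))
          (fun f : Fin n → Fin n => ∏ i, ‖A (f i) i‖)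
        simp only [Function.Embedding.coeFn_mk] at e
        refine le_trans (le_of_eq e.symm) ?_
        exact sum_le_sum_of_subset_of_nonneg (subset_univ _)
          fun f _ _ => prod_nonneg fun _ _ => norm_nonneg _
    _ = ∏ j, ∑ i, ‖A i j‖ := by
        rw [Finset.prod_univ_sum]
        simp only [Fintype.piFinset_univ]

/-- the energy inequality on `Fin n`, squared form. -/
lemma dd_mul_dd_le_fin {n : ℕ} (x y : Fin n → ℂ) (h : ∀ i j, x i ≠ y j) :
    dd x * dd y ≤ (mm x y * ∏ j, ∑ i, ‖x i - y j‖⁻¹) ^ 2 := by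
  have hS : 0 ≤ mm x y * ∏ j, ∑ i, ‖x i - y j‖⁻¹ :=
    mul_nonneg (mm_nonneg x y)
      (prod_nonneg fun _ _ => sum_nonneg fun _ _ => inv_nonneg.2 (norm_nonneg _))
  by_cases hy : Function.Injective y
  · have hV : (vandermonde y).det ≠ 0 := det_vandermonde_ne_zero_iff.2 hy
    have key := congrArg norm (det_nod_mul x y)
    rw [norm_mul, norm_mul] at key
    have hd : ‖∏ j, ∏ k ∈ univ.erase j, (y j - y k)‖ = dd y := by
      unfold dd
      rw [norm_prod]
      exact prod_congr rfl fun j _ => norm_prod _ _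
    rw [hd, dd_eq_sq y] at key
    have hvy : 0 < ‖(vandermonde y).det‖ := norm_pos_iff.2 hV
    have e1 : ‖(Matrix.of fun i j => ∏ k ∈ univ.erase j, (x i - y k)).det‖ =
        ‖(vandermonde x).det‖ * ‖(vandermonde y).det‖ := by
      have : ‖(Matrix.of fun i j => ∏ k ∈ univ.erase j, (x i - y k)).det‖ *
          ‖(vandermonde y).det‖ =
          (‖(vandermonde x).det‖ * ‖(vandermonde y).det‖) * ‖(vandermonde y).det‖ := by
        rw [key]; ring
      exact mul_right_cancel₀ hvy.ne' this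
    rw [det_nod_eq_cauchy x y h, norm_mul] at e1
    have e2 : ‖∏ i, ∏ k, (x i - y k)‖ = mm x y := by
      unfold mm
      rw [norm_prod]
      exact prod_congr rfl fun j _ => norm_prod _ _
    rw [e2] at e1
    have e3 : ‖(Matrix.of fun i j => (x i - y j)⁻¹).det‖ ≤ ∏ j, ∑ i, ‖x i - y j‖⁻¹ := by
      refine (norm_det_le_prod_sum _).trans (le_of_eq ?_)
      refine prod_congr rfl fun j _ => sum_congr rfl fun i _ => ?_
      rw [Matrix.of_apply, norm_inv]
    rw [dd_eq_sq, dd_eq_sq, ← mul_pow, ← e1]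
    exact pow_le_pow_left₀ (mul_nonneg (mm_nonneg _ _) (norm_nonneg _))
      (mul_le_mul_of_nonneg_left e3 (mm_nonneg x y)) 2
  · have : dd y = 0 := by
      rw [dd_eq_sq, det_vandermonde_eq_zero_iff.2]
      · simp
      · rw [Function.Injective] at hy
        push_neg at hy
        obtain ⟨a, b, hab, hne⟩ := hy
        exact ⟨a, b, hab, hne⟩
    rw [this, mul_zero]
    positivity

variable {ι : Type*} [Fintype ι] [DecidableEq ι]

lemma dd_comp_equiv {κ : Type*} [Fintype κ] [DecidableEq κ] (e : κ ≃ ι) (x : ι → ℂ) :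
    dd (x ∘ e) = dd x := by
  unfold dd
  rw [← e.prod_comp (fun i => ∏ j ∈ univ.erase i, ‖x i - x j‖)]
  refine prod_congr rfl fun i _ => ?_
  refine prod_bij (fun j _ => e j) ?_ ?_ ?_ ?_
  · intro j hj
    rw [mem_erase] at hj ⊢
    exact ⟨fun h => hj.1 (e.injective h), mem_univ _⟩
  · intro a _ b _ h; exact e.injective h
  · intro b hb
    rw [mem_erase] at hb
    exact ⟨e.symm b, mem_erase.2 ⟨fun h => hb.1 (by rw [← h, e.apply_symm_apply]), mem_univ _⟩,
      e.apply_symm_apply b⟩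
  · intro j _; rfl

/-- **Energy inequality** (discrete, from the Cauchy determinant), product form. -/
theorem dd_mul_dd_le (x y : ι → ℂ) (h : ∀ i j, x i ≠ y j) :
    dd x * dd y ≤ (mm x y * ∏ j, ∑ i, ‖x i - y j‖⁻¹) ^ 2 := by
  classical
  let e := (Fintype.equivFin ι).symm
  have := dd_mul_dd_le_fin (x ∘ e) (y ∘ e) (fun i j => h _ _)
  rw [dd_comp_equiv e x, dd_comp_equiv e y] at this
  refine this.trans (le_of_eq ?_)
  congr 2
  · unfold mm
    rw [← e.prod_comp (fun i => ∏ j, ‖x i - y j‖)]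
    refine prod_congr rfl fun i _ => ?_
    rw [← e.prod_comp (fun j => ‖x (e i) - y j‖)]
    rfl
  · rw [← e.prod_comp (fun j => ∑ i, ‖x i - y j‖⁻¹)]
    refine prod_congr rfl fun j _ => ?_
    rw [← e.sum_comp (fun i => ‖x i - y (e j)‖⁻¹)]
    rfl

/-- the version with a separation `δ`. -/
theorem dd_mul_dd_le_sep (x y : ι → ℂ) {δ : ℝ} (hδ : 0 < δ) (h : ∀ i j, δ ≤ ‖x i - y j‖) :
    dd x * dd y ≤ (mm x y) ^ 2 * (Fintype.card ι / δ) ^ (2 * Fintype.card ι) := by
  have hne : ∀ i j, x i ≠ y j := fun i j hij => by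
    have := h i j
    rw [hij, sub_self, norm_zero] at this
    exact absurd this (not_le.2 hδ)
  refine (dd_mul_dd_le x y hne).trans ?_
  rw [mul_pow]
  refine mul_le_mul_of_nonneg_left ?_ (by positivity)
  rw [mul_comm 2, pow_mul]
  refine pow_le_pow_left₀ (prod_nonneg fun _ _ => sum_nonneg fun _ _ =>
    inv_nonneg.2 (norm_nonneg _)) ?_ 2
  calc ∏ j, ∑ i, ‖x i - y j‖⁻¹ ≤ ∏ _j : ι, (Fintype.card ι / δ : ℝ) := by
        refine prod_le_prod (fun _ _ => sum_nonneg fun _ _ => inv_nonneg.2 (norm_nonneg _)) ?_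
        intro j _
        calc ∑ i, ‖x i - y j‖⁻¹ ≤ ∑ _i : ι, δ⁻¹ :=
              sum_le_sum fun i _ => inv_anti₀ hδ (h i j)
          _ = Fintype.card ι / δ := by
              rw [sum_const, card_univ, nsmul_eq_mul, div_eq_mul_inv]
    _ = (Fintype.card ι / δ : ℝ) ^ Fintype.card ι := by
        rw [prod_const, card_univ]

/-- ordered double sum of `log |x_i - x_j|`, `i ≠ j`. -/
noncomputable def en {ι : Type*} [Fintype ι] [DecidableEq ι] (x : ι → ℂ) : ℝ :=
  ∑ i, ∑ j ∈ univ.erase i, Real.log ‖x i - x j‖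

/-- `∑_{i,j} log |x_i - y_j|`. -/
noncomputable def me {ι κ : Type*} [Fintype ι] [Fintype κ] (x : ι → ℂ) (y : κ → ℂ) : ℝ :=
  ∑ i, ∑ j, Real.log ‖x i - y j‖

lemma log_dd {x : ι → ℂ} (hx : Function.Injective x) : Real.log (dd x) = en x := by
  have h0 : ∀ i, ∀ j ∈ univ.erase i, ‖x i - x j‖ ≠ 0 := fun i j hj =>
    norm_ne_zero_iff.2 (sub_ne_zero.2 fun h => (mem_erase.1 hj).1 (hx h.symm))
  unfold dd en
  rw [Real.log_prod fun i _ => prod_ne_zero_iff.2 (h0 i)]
  exact sum_congr rfl fun i _ => Real.log_prod (h0 i)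

lemma log_mm {κ : Type*} [Fintype κ] {x : ι → ℂ} {y : κ → ℂ} (h : ∀ i j, x i ≠ y j) :
    Real.log (mm x y) = me x y := by
  have h0 : ∀ i j, ‖x i - y j‖ ≠ 0 := fun i j =>
    norm_ne_zero_iff.2 (sub_ne_zero.2 (h i j))
  unfold mm me
  rw [Real.log_prod fun i _ => prod_ne_zero_iff.2 fun j _ => h0 i j]
  exact sum_congr rfl fun i _ => Real.log_prod fun j _ => h0 i j

/-- **Energy inequality**, logarithmic form:
`∑_{i≠j} log|x_i-x_j| + ∑_{i≠j} log|y_i-y_j| ≤ 2 ∑_{i,j} log|x_i-y_j| + 2 n log (n/δ)`. -/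
theorem en_add_en_le {x y : ι → ℂ} (hx : Function.Injective x) (hy : Function.Injective y)
    {δ : ℝ} (hδ : 0 < δ) (h : ∀ i j, δ ≤ ‖x i - y j‖) :
    en x + en y ≤ 2 * me x y + 2 * Fintype.card ι * Real.log (Fintype.card ι / δ) := by
  have hne : ∀ i j, x i ≠ y j := fun i j hij => by
    have := h i j
    rw [hij, sub_self, norm_zero] at this
    exact absurd this (not_le.2 hδ)
  rcases Nat.eq_zero_or_pos (Fintype.card ι) with hc | hc
  · haveI : IsEmpty ι := Fintype.card_eq_zero_iff.1 hc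
    simp [en, me]
  have hcard : (0 : ℝ) < Fintype.card ι := by exact_mod_cast hc
  have h1 := Real.log_le_log (mul_pos (dd_pos hx) (dd_pos hy)) (dd_mul_dd_le_sep x y hδ h)
  rw [Real.log_mul (dd_pos hx).ne' (dd_pos hy).ne', log_dd hx, log_dd hy,
    Real.log_mul (pow_pos (mm_pos hne) 2).ne' (pow_pos (div_pos hcard hδ) _).ne',
    Real.log_pow, Real.log_pow, log_mm hne] at h1
  push_cast at h1
  linarith

/-- one-sided (dual, linearised) form: the energy of `x` is at most a sum of potentials. -/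
theorem en_le {x t : ι → ℂ} (hx : Function.Injective x) (ht : Function.Injective t)
    {δ : ℝ} (hδ : 0 < δ) (h : ∀ i j, δ ≤ ‖x i - t j‖) :
    en x ≤ 2 * ∑ i, (∑ j, Real.log ‖x i - t j‖) - en t
      + 2 * Fintype.card ι * Real.log (Fintype.card ι / δ) := by
  have := en_add_en_le hx ht hδ h
  unfold me at this
  linarith

lemma en_elim {κ : Type*} [Fintype κ] [DecidableEq κ] (x : ι → ℂ) (x' : κ → ℂ) :
    en (Sum.elim x x') = en x + en x' + 2 * me x x' := by
  classical
  have hl : ∀ i : ι, ∑ j ∈ univ.erase (Sum.inl i : ι ⊕ κ),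
      Real.log ‖Sum.elim x x' (Sum.inl i) - Sum.elim x x' j‖ =
      (∑ j ∈ univ.erase i, Real.log ‖x i - x j‖) + ∑ j, Real.log ‖x i - x' j‖ := by
    intro i
    have := Fintype.sum_sum_type (fun j : ι ⊕ κ => Real.log ‖x i - Sum.elim x x' j‖)
    have e := add_sum_erase univ (fun j : ι ⊕ κ => Real.log ‖x i - Sum.elim x x' j‖)
      (mem_univ (Sum.inl i))
    have e' := add_sum_erase univ (fun j : ι => Real.log ‖x i - x j‖) (mem_univ i)
    simp only [Sum.elim_inl, Sum.elim_inr, sub_self, norm_zero, Real.log_zero, zero_add] at this e e' ⊢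
    rw [e, this, e']
  have hr : ∀ i : κ, ∑ j ∈ univ.erase (Sum.inr i : ι ⊕ κ),
      Real.log ‖Sum.elim x x' (Sum.inr i) - Sum.elim x x' j‖ =
      (∑ j ∈ univ.erase i, Real.log ‖x' i - x' j‖) + ∑ j, Real.log ‖x' i - x j‖ := by
    intro i
    have := Fintype.sum_sum_type (fun j : ι ⊕ κ => Real.log ‖x' i - Sum.elim x x' j‖)
    have e := add_sum_erase univ (fun j : ι ⊕ κ => Real.log ‖x' i - Sum.elim x x' j‖)
      (mem_univ (Sum.inr i))
    have e' := add_sum_erase univ (fun j : κ => Real.log ‖x' i - x' j‖) (mem_univ i)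
    simp only [Sum.elim_inl, Sum.elim_inr, sub_self, norm_zero, Real.log_zero, zero_add] at this e e' ⊢
    rw [e, this, e']
    ring
  have hc : ∑ i : κ, ∑ j : ι, Real.log ‖x' i - x j‖ = ∑ i : ι, ∑ j : κ, Real.log ‖x i - x' j‖ := by
    rw [sum_comm]
    exact sum_congr rfl fun i _ => sum_congr rfl fun j _ => by rw [norm_sub_rev]
  unfold en me
  rw [Fintype.sum_sum_type, sum_congr rfl fun i _ => hl i, sum_congr rfl fun i _ => hr i,
    sum_add_distrib, sum_add_distrib, hc]
  ring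

lemma me_elim {κ : Type*} [Fintype κ] (x t : ι → ℂ) (x' t' : κ → ℂ) :
    me (Sum.elim x x') (Sum.elim t t') = me x t + me x t' + me x' t + me x' t' := by
  unfold me
  rw [Fintype.sum_sum_type]
  simp only [Sum.elim_inl, Sum.elim_inr, Fintype.sum_sum_type, sum_add_distrib]
  ring

/-- **Two species** with interaction matrix `((2,1),(1,2))`: with reference configurations
`t`, `t'`
`2·(½ en x) + 2·(½ en x') + me x x' ≤ potentials - reference energy + O(n log n)`. -/
theorem two_species {κ : Type*} [Fintype κ] [DecidableEq κ] {x t : ι → ℂ} {x' t' : κ → ℂ}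
    (hx : Function.Injective (Sum.elim x x')) (ht : Function.Injective (Sum.elim t t'))
    {δ : ℝ} (hδ : 0 < δ) (h : ∀ i j, δ ≤ ‖Sum.elim x x' i - Sum.elim t t' j‖) :
    en x + en x' + me x x' ≤
      (∑ i, (2 * (∑ j, Real.log ‖x i - t j‖) + ∑ j, Real.log ‖x i - t' j‖)) +
      (∑ i, (2 * (∑ j, Real.log ‖x' i - t' j‖) + ∑ j, Real.log ‖x' i - t j‖)) -
      (en t + en t' + me t t')
      + (Fintype.card ι * Real.log (Fintype.card ι / δ)
        + Fintype.card κ * Real.log (Fintype.card κ / δ)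
        + (Fintype.card ι + Fintype.card κ : ℝ) *
            Real.log ((Fintype.card ι + Fintype.card κ : ℝ) / δ)) := by
  have hx1 : Function.Injective x := hx.comp Sum.inl_injective
  have hx2 : Function.Injective x' := hx.comp Sum.inr_injective
  have ht1 : Function.Injective t := ht.comp Sum.inl_injective
  have ht2 : Function.Injective t' := ht.comp Sum.inr_injective
  have a1 := en_add_en_le hx1 ht1 hδ (fun i j => h (Sum.inl i) (Sum.inl j))
  have a2 := en_add_en_le hx2 ht2 hδ (fun i j => h (Sum.inr i) (Sum.inr j))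
  have a3 := en_add_en_le hx ht hδ h
  rw [en_elim, en_elim, me_elim, Fintype.card_sum] at a3
  push_cast at a3
  have b1 : ∑ i, (2 * (∑ j, Real.log ‖x i - t j‖) + ∑ j, Real.log ‖x i - t' j‖) =
      2 * me x t + me x t' := by
    unfold me; rw [sum_add_distrib, mul_sum]
  have b2 : ∑ i, (2 * (∑ j, Real.log ‖x' i - t' j‖) + ∑ j, Real.log ‖x' i - t j‖) =
      2 * me x' t' + me x' t := by
    unfold me; rw [sum_add_distrib, mul_sum]
  rw [b1, b2]
  linarith

end norm

end Crest.Agent.R006.CauchyEnergyx41
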