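import Mathlib

/-!
Row 6 (helper340), P1 glue: the CONFLUENT VANDERMONDE determinant, over any commutative ring.

* `det_conf_seq` : for a sequence of nodes `v : Fin N → R` (repetitions allowed), row `i` = the
  Taylor coefficient of order `jx v i = #{i' < i, v i' = v i}` at `v i` of the monomials `X^c`,
  `c < N`: the determinant is `∏_i ∏_{i' < i, v i' ≠ v i} (v i - v i')`.
* `det_conf` : rows indexed by `Σ s, Fin (m s)` through any equivalence with `Fin N`.
* versions with an arbitrary monic polynomial basis, with gauge factors (rows = jets of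
  `γ * X^c`), and for factorised row functionals.
-/

set_option autoImplicit false
set_option linter.unusedSectionVars false
set_option linter.unusedVariables false

namespace Crest.Agent.R006.ConfVx340

open Finset Matrix Polynomial

section seq

variable {R : Type*} [CommRing R] [DecidableEq R] {N : ℕ}

/-- the number of earlier nodes equal to the `i`-th one. -/
def jx (v : Fin N → R) (i : Fin N) : ℕ := (univ.filter fun i' => i' < i ∧ v i' = v i).card

/-- Newton polynomials of the sequence `v`. -/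
noncomputable def newt (v : Fin N → R) (c : Fin N) : R[X] :=
  ∏ i' ∈ univ.filter (fun i' => i' < c), (X - C (v i'))

lemma newt_monic (v : Fin N → R) (c : Fin N) : (newt v c).Monic :=
  monic_prod_of_monic _ _ fun i _ => monic_X_sub_C _

lemma newt_natDegree [Nontrivial R] (v : Fin N → R) (c : Fin N) :
    (newt v c).natDegree = c := by
  unfold newt
  rw [natDegree_prod_of_monic _ _ (fun i _ => monic_X_sub_C _)]
  simp only [natDegree_X_sub_C, Finset.sum_const, smul_eq_mul, mul_one]
  have : (univ.filter fun i' : Fin N => i' < c) = Finset.Iio c := by ext; simp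
  rw [this, Fin.card_Iio]

lemma newt_comp (v : Fin N → R) (i c : Fin N) :
    (newt v c).comp (X + C (v i)) =
      X ^ (univ.filter fun i' => i' < c ∧ v i' = v i).card *
        ∏ i' ∈ univ.filter (fun i' => i' < c ∧ v i' ≠ v i), (X + C (v i - v i')) := by
  unfold newt
  rw [Polynomial.prod_comp]
  have h1 : ∀ i' ∈ univ.filter (fun i' => i' < c),
      (X - C (v i')).comp (X + C (v i)) = X + C (v i - v i') := by
    intro i' _
    simp only [sub_comp, X_comp, C_comp, C_sub]
    ring
  rw [Finset.prod_congr rfl h1, ← Finset.prod_filter_mul_prod_filter_not _ (fun i' => v i' = v i)]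
  rw [Finset.filter_filter, Finset.filter_filter]
  congr 1
  rw [← Finset.prod_const]
  refine Finset.prod_congr rfl fun i' hi' => ?_
  rw [Finset.mem_filter] at hi'
  rw [hi'.2.2]
  simp

/-- the confluent Vandermonde matrix of a sequence. -/
noncomputable def confM (v : Fin N → R) : Matrix (Fin N) (Fin N) R :=
  Matrix.of fun i c => ((X + C (v i)) ^ (c : ℕ)).coeff (jx v i)

lemma confM_mul (v : Fin N → R) (i : Fin N) (p : R[X]) (hp : p.natDegree < N) :
    ∑ d : Fin N, confM v i d * p.coeff d = (p.comp (X + C (v i))).coeff (jx v i) := by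
  have h := p.as_sum_range_C_mul_X_pow' hp
  conv_rhs => rw [h]
  rw [Polynomial.sum_comp, finsetSum_coeff, Finset.sum_range]
  refine Finset.sum_congr rfl fun d _ => ?_
  rw [mul_comp, C_comp, X_pow_comp, coeff_C_mul, mul_comm]
  rfl

/-- **confluent Vandermonde**, sequence form. -/
theorem det_conf_seq (v : Fin N → R) :
    (confM v).det = ∏ i, ∏ i' ∈ univ.filter (fun i' => i' < i ∧ v i' ≠ v i), (v i - v i') := by
  rcases subsingleton_or_nontrivial R with hR | hR
  · exact Subsingleton.elim _ _
  have hA : (Matrix.of fun (d c : Fin N) => (newt v c).coeff d).det = 1 :=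
    Matrix.det_matrixOfPolynomials _ (newt_natDegree v) (newt_monic v)
  have hM : (confM v).det = (confM v * Matrix.of fun (d c : Fin N) => (newt v c).coeff d).det := by
    rw [Matrix.det_mul, hA, mul_one]
  have hE : ∀ i c : Fin N, (confM v * Matrix.of fun (d c : Fin N) => (newt v c).coeff d) i c =
      ((newt v c).comp (X + C (v i))).coeff (jx v i) := by
    intro i c
    rw [Matrix.mul_apply, ← confM_mul v i (newt v c) (by rw [newt_natDegree]; exact c.2)]
    rfl
  rw [hM, Matrix.det_of_isLowerTriangular]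
  · refine Finset.prod_congr rfl fun i _ => ?_
    rw [hE, newt_comp]
    have h0 : (univ.filter fun i' => i' < i ∧ v i' = v i).card = jx v i := rfl
    rw [h0, coeff_X_pow_mul', if_pos le_rfl, Nat.sub_self, coeff_zero_prod]
    refine Finset.prod_congr rfl fun i' _ => ?_
    simp
  · intro i c hic
    have hic' : i < c := hic
    rw [hE, newt_comp, coeff_X_pow_mul', if_neg]
    rw [not_le]
    apply Finset.card_lt_card
    refine ⟨fun i' hi' => ?_, fun hsub => ?_⟩
    · rw [Finset.mem_filter] at hi' ⊢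
      exact ⟨hi'.1, hi'.2.1.trans hic', hi'.2.2⟩
    · have := hsub (Finset.mem_filter.2 ⟨Finset.mem_univ i, hic', rfl⟩)
      rw [Finset.mem_filter] at this
      exact lt_irrefl _ this.2.1

end seq

section sigma

variable {R : Type*} [CommRing R] {ι : Type*} [Fintype ι] [LinearOrder ι] {N : ℕ}

/-- the confluent Vandermonde matrix, rows `(s, j)` (site `z s`, Taylor coefficient of order `j`)
listed through `e`. -/
noncomputable def confS (z : ι → R) (m : ι → ℕ) (e : Fin N ≃ Σ s, Fin (m s)) :
    Matrix (Fin N) (Fin N) R :=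
  Matrix.of fun r c => ((X + C (z (e r).1)) ^ (c : ℕ)).coeff (e r).2

/-- the value of the confluent Vandermonde determinant. -/
def confProd (z : ι → R) (m : ι → ℕ) : R :=
  ∏ s, ∏ s' ∈ univ.filter (fun s' => s' < s), (z s - z s') ^ (m s * m s')

lemma card_lex (m : ι → ℕ) (t : Σ s, Fin (m s)) :
    (univ.filter fun t' : Σₗ s, Fin (m s) => t' < toLex t ∧ (ofLex t').1 = t.1).card = t.2 := by
  obtain ⟨s, j⟩ := t
  have h : (univ.filter fun t' : Σₗ s, Fin (m s) => t' < toLex ⟨s, j⟩ ∧ (ofLex t').1 = s) =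
      (Finset.Iio j).map ⟨fun j' => toLex (⟨s, j'⟩ : Σ s, Fin (m s)), fun a b hab => by
        have := toLex.injective hab
        simpa using this⟩ := by
    ext t'
    obtain ⟨⟨s', j'⟩, rfl⟩ := toLex.surjective t'
    rw [Finset.mem_filter, Finset.mem_map]
    constructor
    · rintro ⟨-, hlt, hs⟩
      have hs' : s' = s := hs
      subst hs'
      refine ⟨j', ?_, rfl⟩
      rw [Finset.mem_Iio]
      rcases Sigma.Lex.lt_def.1 hlt with h | ⟨_, h⟩
      · exact absurd h (lt_irrefl _)
      · exact h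
    · rintro ⟨j'', hj, heq⟩
      rw [Finset.mem_Iio] at hj
      have h3 : (⟨s, j''⟩ : Σ s, Fin (m s)) = ⟨s', j'⟩ := toLex.injective heq
      rw [Sigma.mk.injEq] at h3
      obtain ⟨h1, h2⟩ := h3
      subst h1
      have h2' := eq_of_heq h2
      subst h2'
      exact ⟨Finset.mem_univ _, Sigma.Lex.lt_def.2 (Or.inr ⟨rfl, hj⟩), rfl⟩
  have h' := congrArg Finset.card h
  rw [Finset.card_map, Fin.card_Iio] at h'
  exact h'

lemma lex_lt_and_ne (m : ι → ℕ) (t t' : Σ s, Fin (m s)) :
    (toLex t' < toLex t ∧ t'.1 ≠ t.1) ↔ t'.1 < t.1 := by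
  constructor
  · rintro ⟨h, hne⟩
    rcases Sigma.Lex.lt_def.1 h with h | ⟨h, _⟩
    · exact h
    · exact absurd h hne
  · intro h
    exact ⟨Sigma.Lex.lt_def.2 (Or.inl h), h.ne⟩

lemma prod_sigma_lt (m : ι → ℕ) (f : ι → ι → R) :
    (∏ t : Σ s, Fin (m s), ∏ t' ∈ univ.filter (fun t' : Σ s, Fin (m s) => t'.1 < t.1),
      f t.1 t'.1) = ∏ s, ∏ s' ∈ univ.filter (fun s' => s' < s), (f s s') ^ (m s * m s') := by
  rw [Fintype.prod_sigma]
  refine Finset.prod_congr rfl fun s _ => ?_
  have h : (∏ t' ∈ univ.filter (fun t' : Σ s, Fin (m s) => t'.1 < s), f s t'.1) =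
      ∏ s' ∈ univ.filter (fun s' => s' < s), (f s s') ^ (m s') := by
    rw [Finset.prod_filter, Fintype.prod_sigma, Finset.prod_filter]
    refine Finset.prod_congr rfl fun s' _ => ?_
    have h2 : (∏ j : Fin (m s'), if s' < s then f s s' else 1) =
      if s' < s then (f s s') ^ (m s') else 1 := by
      rw [Finset.prod_const, Finset.card_univ, Fintype.card_fin]
      split_ifs
      · rfl
      · exact one_pow _
    exact h2
  have h3 : (∏ j : Fin (m s), ∏ t' ∈ univ.filter (fun t' : Σ s, Fin (m s) => t'.1 < s), f s t'.1) =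
      ∏ s' ∈ univ.filter (fun s' => s' < s), (f s s') ^ (m s * m s') := by
    rw [h, Finset.prod_const, Finset.card_univ, Fintype.card_fin, ← Finset.prod_pow]
    refine Finset.prod_congr rfl fun s' _ => ?_
    rw [← pow_mul, mul_comm]
  exact h3

/-- **Confluent Vandermonde determinant** (any commutative ring). -/
theorem det_conf (z : ι → R) (hz : Function.Injective z) (m : ι → ℕ)
    (e : Fin N ≃ Σ s, Fin (m s)) :
    ∃ u : R, (u = 1 ∨ u = -1) ∧ (confS z m e).det = u * confProd z m := by
  classical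
  have hc : Fintype.card (Σₗ s, Fin (m s)) = N := by
    rw [Fintype.card_congr ofLex, ← Fintype.card_congr e, Fintype.card_fin]
  let o : Fin N ≃o (Σₗ s, Fin (m s)) := Fintype.orderIsoFinOfCardEq _ hc
  let v : Fin N → R := fun i => z (ofLex (o i)).1
  have hj : ∀ i, jx v i = (ofLex (o i)).2 := by
    intro i
    rw [← card_lex m (ofLex (o i))]
    unfold jx
    refine Finset.card_equiv o.toEquiv fun i' => ?_
    simp only [Finset.mem_filter, Finset.mem_univ, true_and]
    refine and_congr ?_ ?_
    · exact o.lt_iff_lt.symm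
    · exact hz.eq_iff
  let σ : Equiv.Perm (Fin N) := e.trans (toLex.trans o.symm.toEquiv)
  have hσ : ∀ r, o (σ r) = toLex (e r) := fun r => o.apply_symm_apply _
  have hM : confS z m e = (confM v).submatrix σ id := by
    ext r c
    change ((X + C (z (e r).1)) ^ (c : ℕ)).coeff (e r).2 =
      ((X + C (v (σ r))) ^ (c : ℕ)).coeff (jx v (σ r))
    rw [hj]
    change _ = ((X + C (z (ofLex (o (σ r))).1)) ^ (c : ℕ)).coeff (ofLex (o (σ r))).2
    rw [hσ]
    rfl
  have hP : (confM v).det = confProd z m := by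
    rw [det_conf_seq]
    unfold confProd
    rw [← prod_sigma_lt m (fun s s' => z s - z s')]
    refine Fintype.prod_equiv (o.toEquiv.trans ofLex) _ _ fun i => ?_
    refine Finset.prod_equiv (o.toEquiv.trans ofLex) (fun i' => ?_) (fun i' _ => rfl)
    simp only [Finset.mem_filter, Finset.mem_univ, true_and]
    rw [← lex_lt_and_ne]
    refine and_congr ?_ ?_
    · exact o.lt_iff_lt.symm
    · exact not_congr hz.eq_iff
  refine ⟨((Equiv.Perm.sign σ : ℤ) : R), ?_, ?_⟩
  · rcases Int.units_eq_one_or (Equiv.Perm.sign σ) with h | h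
    · left; rw [h]; simp
    · right; rw [h]; simp
  · rw [hM, Matrix.det_permute, hP]

/-- the matrix of the jets of arbitrary polynomials factors through the confluent Vandermonde. -/
theorem conf_poly_eq (z : ι → R) (m : ι → ℕ) (e : Fin N ≃ Σ s, Fin (m s)) (p : Fin N → R[X])
    (hp : ∀ c, (p c).natDegree < N) :
    (Matrix.of fun r c : Fin N => ((p c).comp (X + C (z (e r).1))).coeff (e r).2) =
      confS z m e * Matrix.of fun d c : Fin N => (p c).coeff d := by
  ext r c
  rw [Matrix.mul_apply]
  have h := (p c).as_sum_range_C_mul_X_pow' (hp c)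
  change ((p c).comp (X + C (z (e r).1))).coeff (e r).2 = _
  conv_lhs => rw [h]
  rw [Polynomial.sum_comp, finsetSum_coeff, Finset.sum_range]
  refine Finset.sum_congr rfl fun d _ => ?_
  rw [mul_comp, C_comp, X_pow_comp, coeff_C_mul, mul_comm]
  rfl

/-- confluent Vandermonde with respect to an arbitrary family of monic polynomials. -/
theorem det_conf_monic (z : ι → R) (m : ι → ℕ) (e : Fin N ≃ Σ s, Fin (m s)) (p : Fin N → R[X])
    (hp : ∀ c, (p c).natDegree = c) (hm : ∀ c, (p c).Monic) :
    (Matrix.of fun r c : Fin N => ((p c).comp (X + C (z (e r).1))).coeff (e r).2).det =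
      (confS z m e).det := by
  rw [conf_poly_eq z m e p fun c => by rw [hp]; exact c.2, Matrix.det_mul,
    Matrix.det_matrixOfPolynomials p hp hm, mul_one]

/-- the (block triangular) matrix of the multiplication of jets by the gauge `Γ`. -/
noncomputable def gaugeL (m : ι → ℕ) (Γ : ι → PowerSeries R) (t t' : Σ s, Fin (m s)) : R :=
  if t.1 = t'.1 ∧ (t'.2 : ℕ) ≤ t.2 then PowerSeries.coeff ((t.2 : ℕ) - t'.2) (Γ t.1) else 0

lemma det_gaugeL (m : ι → ℕ) (Γ : ι → PowerSeries R) (e : Fin N ≃ Σ s, Fin (m s)) :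
    (Matrix.of fun r r' : Fin N => gaugeL m Γ (e r) (e r')).det =
      ∏ s, (PowerSeries.constantCoeff (Γ s)) ^ (m s) := by
  classical
  have h1 : (Matrix.of fun r r' : Fin N => gaugeL m Γ (e r) (e r')) =
      (Matrix.of fun t t' : Σₗ s, Fin (m s) => gaugeL m Γ (ofLex t) (ofLex t')).submatrix
        (e.trans toLex) (e.trans toLex) := by
    ext r r'
    rfl
  rw [h1, Matrix.det_submatrix_equiv_self, Matrix.det_of_isLowerTriangular]
  · have h2 : (∏ t : Σₗ s, Fin (m s), gaugeL m Γ (ofLex t) (ofLex t)) =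
        ∏ t : Σ s, Fin (m s), PowerSeries.constantCoeff (Γ t.1) := by
      refine Fintype.prod_equiv ofLex _ _ fun t => ?_
      unfold gaugeL
      rw [if_pos ⟨rfl, le_rfl⟩, Nat.sub_self, PowerSeries.coeff_zero_eq_constantCoeff_apply]
    refine Eq.trans h2 ?_
    rw [Fintype.prod_sigma]
    refine Finset.prod_congr rfl fun s _ => ?_
    have h3 : (∏ _j : Fin (m s), PowerSeries.constantCoeff (Γ s)) =
        (PowerSeries.constantCoeff (Γ s)) ^ (m s) := by
      rw [Finset.prod_const, Finset.card_univ, Fintype.card_fin]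
    exact h3
  · intro t t' htt
    have htt' : t < t' := htt
    change gaugeL m Γ (ofLex t) (ofLex t') = 0
    unfold gaugeL
    rw [if_neg]
    rintro ⟨h1, h2⟩
    obtain ⟨⟨s, j⟩, rfl⟩ := toLex.surjective t
    obtain ⟨⟨s', j'⟩, rfl⟩ := toLex.surjective t'
    have h1' : s = s' := h1
    subst h1'
    rcases Sigma.Lex.lt_def.1 htt' with h | ⟨_, h⟩
    · exact lt_irrefl _ h
    · have h4 : (j : ℕ) < j' := h
      have h5 : (j' : ℕ) ≤ j := h2
      omega

lemma sum_gaugeL (m : ι → ℕ) (Γ : ι → PowerSeries R) (t : Σ s, Fin (m s))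
    (φ : ι → PowerSeries R) :
    (∑ t' : Σ s, Fin (m s), gaugeL m Γ t t' * PowerSeries.coeff (t'.2 : ℕ) (φ t'.1)) =
      PowerSeries.coeff (t.2 : ℕ) (Γ t.1 * φ t.1) := by
  classical
  obtain ⟨s, j⟩ := t
  rw [Fintype.sum_sigma, Finset.sum_eq_single s]
  · have h1 : (∑ j' : Fin (m s), gaugeL m Γ ⟨s, j⟩ ⟨s, j'⟩ * PowerSeries.coeff (j' : ℕ) (φ s)) =
        ∑ k ∈ Finset.range (m s), if k ≤ j then
          PowerSeries.coeff k (φ s) * PowerSeries.coeff ((j : ℕ) - k) (Γ s) else 0 := by
      rw [Finset.sum_range]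
      refine Finset.sum_congr rfl fun j' _ => ?_
      unfold gaugeL
      simp only [true_and, ite_mul, zero_mul]
      split_ifs
      · exact mul_comm _ _
      · rfl
    refine Eq.trans h1 ?_
    change _ = PowerSeries.coeff (j : ℕ) (Γ s * φ s)
    rw [mul_comm, PowerSeries.coeff_mul, Finset.Nat.sum_antidiagonal_eq_sum_range_succ
      (fun a b => PowerSeries.coeff a (φ s) * PowerSeries.coeff b (Γ s)) (j : ℕ),
      ← Finset.sum_filter]
    refine Finset.sum_congr ?_ fun _ _ => rfl
    ext k
    simp only [Finset.mem_filter, Finset.mem_range]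
    have := j.2
    omega
  · intro s' _ hs'
    refine Finset.sum_eq_zero fun j' _ => ?_
    unfold gaugeL
    rw [if_neg, zero_mul]
    rintro ⟨h, -⟩
    exact hs' h.symm
  · intro h
    exact absurd (Finset.mem_univ s) h

/-- **confluent Vandermonde with gauge**: rows = Taylor coefficients at the sites of
`Γ_s(X) * p_c(X + z_s)`. -/
theorem det_conf_gauge (z : ι → R) (m : ι → ℕ) (Γ : ι → PowerSeries R)
    (e : Fin N ≃ Σ s, Fin (m s)) (p : Fin N → R[X]) (hp : ∀ c, (p c).natDegree < N) :
    (Matrix.of fun r c : Fin N => PowerSeries.coeff ((e r).2 : ℕ)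
        (Γ (e r).1 * (((p c).comp (X + C (z (e r).1)) : R[X]) : PowerSeries R))).det =
      (∏ s, (PowerSeries.constantCoeff (Γ s)) ^ (m s)) * ((confS z m e).det *
        (Matrix.of fun d c : Fin N => (p c).coeff d).det) := by
  rw [← Matrix.det_mul, ← conf_poly_eq z m e p hp, ← det_gaugeL m Γ e, ← Matrix.det_mul]
  congr 1
  ext r c
  rw [Matrix.mul_apply]
  change PowerSeries.coeff ((e r).2 : ℕ)
        (Γ (e r).1 * (((p c).comp (X + C (z (e r).1)) : R[X]) : PowerSeries R)) = _
  rw [← sum_gaugeL m Γ (e r) (fun s => (((p c).comp (X + C (z s)) : R[X]) : PowerSeries R)),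
    ← Equiv.sum_comp e]
  refine Finset.sum_congr rfl fun r' _ => ?_
  rw [Polynomial.coeff_coe]
  rfl

end sigma

section values

variable {ι : Type*} [Fintype ι] [LinearOrder ι] {N : ℕ}

lemma norm_det_conf {K : Type*} [NormedField K] (z : ι → K) (hz : Function.Injective z)
    (m : ι → ℕ) (e : Fin N ≃ Σ s, Fin (m s)) :
    ‖(confS z m e).det‖ =
      ∏ s, ∏ s' ∈ univ.filter (fun s' => s' < s), ‖z s - z s'‖ ^ (m s * m s') := by
  obtain ⟨u, hu, h⟩ := det_conf z hz m e
  have hu' : ‖u‖ = 1 := by
    rcases hu with rfl | rfl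
    · exact norm_one
    · rw [norm_neg, norm_one]
  rw [h, norm_mul, hu', one_mul]
  unfold confProd
  simp only [norm_prod, norm_pow]

lemma det_conf_ne_zero {K : Type*} [Field K] (z : ι → K) (hz : Function.Injective z)
    (m : ι → ℕ) (e : Fin N ≃ Σ s, Fin (m s)) : (confS z m e).det ≠ 0 := by
  obtain ⟨u, hu, h⟩ := det_conf z hz m e
  have hu' : u ≠ 0 := by
    rcases hu with rfl | rfl
    · exact one_ne_zero
    · exact neg_ne_zero.2 one_ne_zero
  rw [h]
  refine mul_ne_zero hu' (Finset.prod_ne_zero_iff.2 fun s _ => Finset.prod_ne_zero_iff.2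
    fun s' hs' => pow_ne_zero _ (sub_ne_zero.2 fun he => ?_))
  rw [Finset.mem_filter] at hs'
  exact hs'.2.ne' (hz he)

lemma padicValRat_prod {α : Type*} (p : ℕ) [Fact p.Prime] (S : Finset α) (f : α → ℚ)
    (hf : ∀ a ∈ S, f a ≠ 0) : padicValRat p (∏ a ∈ S, f a) = ∑ a ∈ S, padicValRat p (f a) := by
  classical
  induction S using Finset.induction_on with
  | empty => simp
  | insert a S ha ih =>
    rw [Finset.prod_insert ha, Finset.sum_insert ha, padicValRat.mul
      (hf a (Finset.mem_insert_self a S))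
      (Finset.prod_ne_zero_iff.2 fun b hb => hf b (Finset.mem_insert_of_mem hb)),
      ih fun b hb => hf b (Finset.mem_insert_of_mem hb)]

lemma padicValRat_det_conf (p : ℕ) [Fact p.Prime] (z : ι → ℚ) (hz : Function.Injective z)
    (m : ι → ℕ) (e : Fin N ≃ Σ s, Fin (m s)) :
    padicValRat p (confS z m e).det =
      ∑ s, ∑ s' ∈ univ.filter (fun s' => s' < s),
        ((m s * m s' : ℕ) : ℤ) * padicValRat p (z s - z s') := by
  have hne : ∀ s, ∀ s' ∈ univ.filter (fun s' => s' < s), z s - z s' ≠ 0 := by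
    intro s s' hs'
    rw [Finset.mem_filter] at hs'
    exact sub_ne_zero.2 fun he => hs'.2.ne' (hz he)
  obtain ⟨u, hu, h⟩ := det_conf z hz m e
  have hu' : padicValRat p u = 0 := by
    rcases hu with rfl | rfl
    · simp
    · rw [padicValRat.neg]; simp
  have hu0 : u ≠ 0 := by
    rcases hu with rfl | rfl
    · exact one_ne_zero
    · exact neg_ne_zero.2 one_ne_zero
  have hc0 : confProd z m ≠ 0 := Finset.prod_ne_zero_iff.2 fun s _ =>
    Finset.prod_ne_zero_iff.2 fun s' hs' => pow_ne_zero _ (hne s s' hs')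
  rw [h, padicValRat.mul hu0 hc0, hu', zero_add]
  unfold confProd
  rw [padicValRat_prod p _ _ fun s _ => Finset.prod_ne_zero_iff.2 fun s' hs' =>
    pow_ne_zero _ (hne s s' hs')]
  refine Finset.sum_congr rfl fun s _ => ?_
  rw [padicValRat_prod p _ _ fun s' hs' => pow_ne_zero _ (hne s s' hs')]
  refine Finset.sum_congr rfl fun s' hs' => ?_
  rw [padicValRat.pow]

end values

end Crest.Agent.R006.ConfVx340
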