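import Mathlib
import Crest.Agent.R006.ConfV_340

/-!
Row 6 (helper340), leaf L1: CAUCHY-VANDERMONDE determinant with confluent rows, over a field.

`det_cauchyVand`: rows = Taylor coefficients of order `j < m s` at the (distinct) sites `z s`,
columns = `1/(x - y_c)` (`c < k`) and `x^l` (`l < q`), `k + q = Σ m s`:
`det = ± ∏_{s' < s} (z s - z s')^{m s m s'} * ∏_{i < j} (y j - y i) / ∏_{s, c} (z s - y c)^{m s}`.
-/

set_option autoImplicit false
set_option linter.unusedSectionVars false
set_option linter.unusedVariables false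

namespace Crest.Agent.R006.CauchyVandx340

open Finset Matrix Polynomial Crest.Agent.R006.ConfVx340

variable {K : Type*} [Field K] {k q : ℕ}

/-- the polynomial with roots the poles. -/
noncomputable def DD (y : Fin k → K) : K[X] := ∏ j, (X - C (y j))

/-- the column polynomials. -/
noncomputable def pc (y : Fin k → K) (q : ℕ) : Fin k ⊕ Fin q → K[X] :=
  Sum.elim (fun c => ∏ j ∈ univ.erase c, (X - C (y j))) (fun l => DD y * X ^ (l : ℕ))

lemma DD_monic (y : Fin k → K) : (DD y).Monic := monic_prod_of_monic _ _ fun i _ => monic_X_sub_C _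

lemma DD_natDegree (y : Fin k → K) : (DD y).natDegree = k := by
  unfold DD
  rw [natDegree_prod_of_monic _ _ (fun i _ => monic_X_sub_C _)]
  simp

lemma pcl_natDegree (y : Fin k → K) (c : Fin k) :
    (∏ j ∈ univ.erase c, (X - C (y j))).natDegree = k - 1 := by
  rw [natDegree_prod_of_monic _ _ (fun i _ => monic_X_sub_C _)]
  simp

lemma pc_natDegree_lt (y : Fin k → K) (c : Fin k ⊕ Fin q) : (pc y q c).natDegree < k + q := by
  rcases c with c | l
  · change (∏ j ∈ univ.erase c, (X - C (y j))).natDegree < k + q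
    rw [pcl_natDegree]
    have := c.2
    omega
  · change (DD y * X ^ (l : ℕ)).natDegree < k + q
    rw [natDegree_mul_X_pow _ (DD_monic y).ne_zero, DD_natDegree]
    have := l.2
    omega

/-- the determinant of the coefficients of the Lagrange-type polynomials. -/
lemma det_lagr (y : Fin k → K) (hy : Function.Injective y) :
    ∃ u : K, (u = 1 ∨ u = -1) ∧
      (Matrix.of fun d c : Fin k => (∏ j ∈ univ.erase c, (X - C (y j))).coeff d).det =
        u * ∏ i : Fin k, ∏ j ∈ Finset.Ioi i, (y j - y i) := by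
  classical
  have hV : (Matrix.vandermonde y).det ≠ 0 := Matrix.det_vandermonde_ne_zero_iff.2 hy
  have h1 : (Matrix.vandermonde y *
      Matrix.of fun d c : Fin k => (∏ j ∈ univ.erase c, (X - C (y j))).coeff d) =
      Matrix.diagonal fun c => ∏ j ∈ univ.erase c, (y c - y j) := by
    ext i c
    rw [Matrix.mul_apply, Matrix.diagonal_apply]
    have h2 : (∑ d : Fin k, Matrix.vandermonde y i d *
        (Matrix.of fun d c : Fin k => (∏ j ∈ univ.erase c, (X - C (y j))).coeff d) d c) =
        (∏ j ∈ univ.erase c, (X - C (y j))).eval (y i) := by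
      rw [eval_eq_sum_range' (n := k) (by rw [pcl_natDegree]; have := c.2; omega),
        Finset.sum_range]
      refine Finset.sum_congr rfl fun d _ => ?_
      rw [Matrix.vandermonde_apply, mul_comm]
      rfl
    rw [h2, eval_prod]
    simp only [eval_sub, eval_X, eval_C]
    split_ifs with h
    · rw [h]
    · exact Finset.prod_eq_zero (Finset.mem_erase.2 ⟨h, Finset.mem_univ i⟩) (sub_self _)
  have h3 := congrArg Matrix.det h1
  rw [Matrix.det_mul, Matrix.det_diagonal] at h3
  -- product over ordered pairs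
  have h4 : (∏ c : Fin k, ∏ j ∈ univ.erase c, (y c - y j)) =
      (∏ c : Fin k, ∏ j ∈ Finset.Ioi c, (-1 : K)) * ((∏ i : Fin k, ∏ j ∈ Finset.Ioi i, (y j - y i)) *
        ∏ i : Fin k, ∏ j ∈ Finset.Ioi i, (y j - y i)) := by
    have h5 : ∀ c : Fin k, (∏ j ∈ univ.erase c, (y c - y j)) =
        (∏ j ∈ Finset.Ioi c, (y c - y j)) * ∏ j ∈ Finset.Iio c, (y c - y j) := by
      intro c
      rw [← Finset.prod_union]
      · refine Finset.prod_congr ?_ fun _ _ => rfl
        ext j
        simp only [Finset.mem_erase, Finset.mem_univ, and_true, Finset.mem_union, Finset.mem_Ioi,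
          Finset.mem_Iio]
        constructor
        · intro h
          rcases lt_or_gt_of_ne h with h | h
          · exact Or.inr h
          · exact Or.inl h
        · rintro (h | h)
          · exact h.ne'
          · exact h.ne
      · rw [Finset.disjoint_left]
        intro j h1 h2
        rw [Finset.mem_Ioi] at h1
        rw [Finset.mem_Iio] at h2
        exact lt_asymm h1 h2
    have h6 : (∏ c : Fin k, ∏ j ∈ Finset.Iio c, (y c - y j)) =
        ∏ i : Fin k, ∏ j ∈ Finset.Ioi i, (y j - y i) := by
      refine Finset.prod_comm' fun a b => ?_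
      simp
    rw [Finset.prod_congr rfl fun c _ => h5 c, Finset.prod_mul_distrib, h6, ← mul_assoc]
    congr 1
    rw [← Finset.prod_mul_distrib]
    refine Finset.prod_congr rfl fun c _ => ?_
    rw [← Finset.prod_mul_distrib]
    refine Finset.prod_congr rfl fun j _ => ?_
    ring
  rw [h4] at h3
  rw [Matrix.det_vandermonde] at h3 hV
  refine ⟨∏ c : Fin k, ∏ j ∈ Finset.Ioi c, (-1 : K), ?_, ?_⟩
  · simp only [Finset.prod_const]
    rw [Finset.prod_pow_eq_pow_sum]
    exact neg_one_pow_eq_or K _
  · apply mul_left_cancel₀ hV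
    rw [h3]
    ring

/-- the determinant of the coefficients of the column polynomials. -/
lemma det_coeff_pc (y : Fin k → K) (q : ℕ) (hy : Function.Injective y) :
    ∃ u : K, (u = 1 ∨ u = -1) ∧
      (Matrix.of fun d c : Fin (k + q) => (pc y q (finSumFinEquiv.symm c)).coeff d).det =
        u * ∏ i : Fin k, ∏ j ∈ Finset.Ioi i, (y j - y i) := by
  classical
  obtain ⟨u, hu, h⟩ := det_lagr y hy
  refine ⟨u, hu, ?_⟩
  rw [← h, ← Matrix.det_submatrix_equiv_self (finSumFinEquiv (m := k) (n := q))]
  have h1 : (Matrix.of fun d c : Fin (k + q) =>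
      (pc y q (finSumFinEquiv.symm c)).coeff d).submatrix finSumFinEquiv finSumFinEquiv =
      Matrix.fromBlocks
        (Matrix.of fun d c : Fin k => (∏ j ∈ univ.erase c, (X - C (y j))).coeff d)
        (Matrix.of fun (d : Fin k) (l : Fin q) => (DD y * X ^ (l : ℕ)).coeff (d : ℕ))
        0
        (Matrix.of fun (d : Fin q) (l : Fin q) => (DD y * X ^ (l : ℕ)).coeff (k + (d : ℕ))) := by
    ext d c
    rcases d with d | d <;> rcases c with c | c
    · simp only [Matrix.submatrix_apply, Matrix.of_apply, Equiv.symm_apply_apply,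
        Matrix.fromBlocks_apply₁₁]
      rfl
    · simp only [Matrix.submatrix_apply, Matrix.of_apply, Equiv.symm_apply_apply,
        Matrix.fromBlocks_apply₁₂]
      rfl
    · simp only [Matrix.submatrix_apply, Matrix.of_apply, Equiv.symm_apply_apply,
        Matrix.fromBlocks_apply₂₁, Matrix.zero_apply]
      change (∏ j ∈ univ.erase c, (X - C (y j))).coeff _ = 0
      refine coeff_eq_zero_of_natDegree_lt ?_
      rw [pcl_natDegree]
      have := c.2
      simp only [finSumFinEquiv_apply_right, Fin.val_natAdd]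
      omega
    · simp only [Matrix.submatrix_apply, Matrix.of_apply, Equiv.symm_apply_apply,
        Matrix.fromBlocks_apply₂₂]
      rfl
  rw [h1, Matrix.det_fromBlocks_zero₂₁]
  have h2 : (Matrix.of fun (d : Fin q) (l : Fin q) =>
      (DD y * X ^ (l : ℕ)).coeff (k + (d : ℕ))).det = 1 := by
    rw [Matrix.det_of_isUpperTriangular]
    · refine Finset.prod_eq_one fun d _ => ?_
      change (DD y * X ^ (d : ℕ)).coeff (k + (d : ℕ)) = 1
      rw [coeff_mul_X_pow]
      have := (DD_monic y).coeff_natDegree
      rwa [DD_natDegree] at this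
    · intro d l hdl
      have hdl' : l < d := hdl
      change (DD y * X ^ (l : ℕ)).coeff (k + (d : ℕ)) = 0
      refine coeff_eq_zero_of_natDegree_lt ?_
      rw [natDegree_mul_X_pow _ (DD_monic y).ne_zero, DD_natDegree]
      have : (l : ℕ) < d := hdl'
      omega
  rw [h2, mul_one]

variable {ι : Type*} [Fintype ι] [LinearOrder ι]

/-- entry of the Cauchy-Vandermonde matrix: Taylor coefficient of order `t` at `z` of the
column function. -/
noncomputable def cvEntry (y : Fin k → K) (z : K) (t : ℕ) : Fin k ⊕ Fin q → K :=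
  Sum.elim (fun c => (-1) ^ t / (z - y c) ^ (t + 1)) (fun l => ((X + C z) ^ (l : ℕ)).coeff t)

/-- the Cauchy-Vandermonde matrix with confluent rows. -/
noncomputable def cvM (z : ι → K) (m : ι → ℕ) (e : Fin (k + q) ≃ Σ s, Fin (m s))
    (y : Fin k → K) : Matrix (Fin (k + q)) (Fin (k + q)) K :=
  Matrix.of fun r c => cvEntry (q := q) y (z (e r).1) (e r).2 (finSumFinEquiv.symm c)

lemma coeff_inv_lin (a : K) (ha : a ≠ 0) (t : ℕ) :
    PowerSeries.coeff t ((((X + C a : K[X]) : PowerSeries K))⁻¹) = (-1) ^ t / a ^ (t + 1) := by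
  have h0 : PowerSeries.constantCoeff (((X + C a : K[X]) : PowerSeries K)) ≠ 0 := by
    simpa using ha
  have h1 : (PowerSeries.mk fun t => (-1 : K) ^ t / a ^ (t + 1)) *
      ((X + C a : K[X]) : PowerSeries K) = 1 := by
    ext n
    have h2 : ((X + C a : K[X]) : PowerSeries K) = PowerSeries.X + PowerSeries.C a := by
      simp
    rw [h2, mul_add, map_add]
    rcases n with _ | n
    · simp [ha]
    · rw [PowerSeries.coeff_succ_mul_X, PowerSeries.coeff_mul_C, PowerSeries.coeff_mk,
        PowerSeries.coeff_mk, PowerSeries.coeff_one, if_neg (Nat.succ_ne_zero n)]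
      field_simp
      ring
  have h3 := (PowerSeries.eq_inv_iff_mul_eq_one h0).2 h1
  rw [← h3, PowerSeries.coeff_mk]

lemma DD_comp_const (y : Fin k → K) (z : K) :
    PowerSeries.constantCoeff (((DD y).comp (X + C z) : K[X]) : PowerSeries K) =
      ∏ j, (z - y j) := by
  rw [← PowerSeries.coeff_zero_eq_constantCoeff_apply, Polynomial.coeff_coe,
    Polynomial.coeff_zero_eq_eval_zero, eval_comp]
  unfold DD
  rw [eval_prod]
  simp

lemma gauge_inl (y : Fin k → K) (z : K) (hz : ∀ j, z ≠ y j) (c : Fin k) :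
    ((((DD y).comp (X + C z) : K[X]) : PowerSeries K))⁻¹ *
      (((∏ j ∈ univ.erase c, (X - C (y j))).comp (X + C z) : K[X]) : PowerSeries K) =
      (((X + C (z - y c) : K[X]) : PowerSeries K))⁻¹ := by
  have h0 : PowerSeries.constantCoeff (((X + C (z - y c) : K[X]) : PowerSeries K)) ≠ 0 := by
    simpa using sub_ne_zero.2 (hz c)
  have h1 : PowerSeries.constantCoeff ((((DD y).comp (X + C z) : K[X]) : PowerSeries K)) ≠ 0 := by
    rw [DD_comp_const]
    exact Finset.prod_ne_zero_iff.2 fun j _ => sub_ne_zero.2 (hz j)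
  rw [PowerSeries.eq_inv_iff_mul_eq_one h0, mul_assoc, ← Polynomial.coe_mul]
  have h2 : (∏ j ∈ univ.erase c, (X - C (y j))).comp (X + C z) * (X + C (z - y c)) =
      (DD y).comp (X + C z) := by
    have h3 : (X + C (z - y c) : K[X]) = (X - C (y c)).comp (X + C z) := by
      simp only [sub_comp, X_comp, C_comp, C_sub]
      ring
    rw [h3, ← mul_comp]
    congr 1
    unfold DD
    rw [Finset.prod_erase_mul _ _ (Finset.mem_univ c)]
  rw [h2, PowerSeries.inv_mul_cancel _ h1]

lemma gauge_inr (y : Fin k → K) (z : K) (hz : ∀ j, z ≠ y j) (l : ℕ) :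
    ((((DD y).comp (X + C z) : K[X]) : PowerSeries K))⁻¹ *
      (((DD y * X ^ l).comp (X + C z) : K[X]) : PowerSeries K) =
      (((X + C z) ^ l : K[X]) : PowerSeries K) := by
  have h1 : PowerSeries.constantCoeff ((((DD y).comp (X + C z) : K[X]) : PowerSeries K)) ≠ 0 := by
    rw [DD_comp_const]
    exact Finset.prod_ne_zero_iff.2 fun j _ => sub_ne_zero.2 (hz j)
  rw [mul_comp, X_pow_comp, Polynomial.coe_mul, ← mul_assoc, PowerSeries.inv_mul_cancel _ h1,
    one_mul]

/-- **Cauchy-Vandermonde determinant**, confluent rows. -/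
theorem det_cauchyVand (z : ι → K) (hz : Function.Injective z) (m : ι → ℕ)
    (e : Fin (k + q) ≃ Σ s, Fin (m s)) (y : Fin k → K) (hzy : ∀ s j, z s ≠ y j) :
    ∃ u : K, (u = 1 ∨ u = -1) ∧ (cvM z m e y).det =
      u * (confProd z m * (∏ i : Fin k, ∏ j ∈ Finset.Ioi i, (y j - y i)) /
        ∏ s, (∏ j, (z s - y j)) ^ (m s)) := by
  classical
  by_cases hy : Function.Injective y
  · obtain ⟨u1, hu1, h1⟩ := det_conf z hz m e
    obtain ⟨u2, hu2, h2⟩ := det_coeff_pc y q hy
    refine ⟨u1 * u2, ?_, ?_⟩
    · rcases hu1 with rfl | rfl <;> rcases hu2 with rfl | rfl <;> simp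
    · have h3 : cvM z m e y = Matrix.of fun r c : Fin (k + q) =>
          PowerSeries.coeff ((e r).2 : ℕ)
            ((fun s => ((((DD y).comp (X + C (z s)) : K[X]) : PowerSeries K))⁻¹) (e r).1 *
              ((((fun c : Fin (k + q) => pc y q (finSumFinEquiv.symm c)) c).comp
                (X + C (z (e r).1)) : K[X]) : PowerSeries K)) := by
        ext r c
        change cvEntry (q := q) y (z (e r).1) (e r).2 (finSumFinEquiv.symm c) =
          PowerSeries.coeff ((e r).2 : ℕ)
            (((((DD y).comp (X + C (z (e r).1)) : K[X]) : PowerSeries K))⁻¹ *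
              (((pc y q (finSumFinEquiv.symm c)).comp
                (X + C (z (e r).1)) : K[X]) : PowerSeries K))
        rcases finSumFinEquiv.symm c with c' | l
        · change _ = PowerSeries.coeff ((e r).2 : ℕ)
            (((((DD y).comp (X + C (z (e r).1)) : K[X]) : PowerSeries K))⁻¹ *
              (((∏ j ∈ univ.erase c', (X - C (y j))).comp
                (X + C (z (e r).1)) : K[X]) : PowerSeries K))
          rw [gauge_inl y _ (hzy _), coeff_inv_lin _ (sub_ne_zero.2 (hzy _ _))]
          rfl
        · change _ = PowerSeries.coeff ((e r).2 : ℕ)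
            (((((DD y).comp (X + C (z (e r).1)) : K[X]) : PowerSeries K))⁻¹ *
              (((DD y * X ^ (l : ℕ)).comp
                (X + C (z (e r).1)) : K[X]) : PowerSeries K))
          rw [gauge_inr y _ (hzy _), Polynomial.coeff_coe]
          rfl
      have hg := det_conf_gauge z m
        (fun s => ((((DD y).comp (X + C (z s)) : K[X]) : PowerSeries K))⁻¹) e
        (fun c : Fin (k + q) => pc y q (finSumFinEquiv.symm c)) (fun c => pc_natDegree_lt y _)
      refine (congrArg Matrix.det h3).trans (hg.trans ?_)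
      rw [h1, h2]
      have h4 : (∏ s, (PowerSeries.constantCoeff
          ((((DD y).comp (X + C (z s)) : K[X]) : PowerSeries K))⁻¹) ^ (m s)) =
          (∏ s, (∏ j, (z s - y j)) ^ (m s))⁻¹ := by
        rw [← Finset.prod_inv_distrib]
        refine Finset.prod_congr rfl fun s _ => ?_
        rw [PowerSeries.constantCoeff_inv, DD_comp_const, inv_pow]
      rw [h4, div_eq_mul_inv]
      ring
  · refine ⟨1, Or.inl rfl, ?_⟩
    have hy' : ∃ i j, y i = y j ∧ i ≠ j := by
      unfold Function.Injective at hy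
      by_contra hcon
      exact hy fun a b hab => by
        by_contra hne
        exact hcon ⟨a, b, hab, hne⟩
    obtain ⟨i, j, hij, hne⟩ := hy'
    have h1 : (cvM z m e y).det = 0 := by
      apply Matrix.det_zero_of_column_eq (i := finSumFinEquiv (Sum.inl i))
        (j := finSumFinEquiv (Sum.inl j))
      · intro h
        exact hne (Sum.inl_injective (finSumFinEquiv.injective h))
      · intro r
        change cvEntry (q := q) y (z (e r).1) (e r).2 (finSumFinEquiv.symm (finSumFinEquiv (Sum.inl i))) =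
          cvEntry (q := q) y (z (e r).1) (e r).2 (finSumFinEquiv.symm (finSumFinEquiv (Sum.inl j)))
        rw [Equiv.symm_apply_apply, Equiv.symm_apply_apply]
        change (-1) ^ ((e r).2 : ℕ) / (z (e r).1 - y i) ^ (((e r).2 : ℕ) + 1) = _
        rw [hij]
        rfl
    have h2 : (∏ i : Fin k, ∏ j ∈ Finset.Ioi i, (y j - y i)) = 0 := by
      have := (Matrix.det_vandermonde_eq_zero_iff (v := y)).2 ⟨i, j, hij, hne⟩
      rwa [Matrix.det_vandermonde] at this
    rw [h1, h2]
    simp

/-- norm version. -/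
theorem norm_det_cauchyVand {𝕜 : Type*} [NormedField 𝕜] (z : ι → 𝕜) (hz : Function.Injective z)
    (m : ι → ℕ) (e : Fin (k + q) ≃ Σ s, Fin (m s)) (y : Fin k → 𝕜) (hzy : ∀ s j, z s ≠ y j) :
    ‖(cvM z m e y).det‖ =
      (∏ s, ∏ s' ∈ univ.filter (fun s' => s' < s), ‖z s - z s'‖ ^ (m s * m s')) *
        (∏ i : Fin k, ∏ j ∈ Finset.Ioi i, ‖y j - y i‖) / ∏ s, (∏ j, ‖z s - y j‖) ^ (m s) := by
  obtain ⟨u, hu, h⟩ := det_cauchyVand z hz m e y hzy
  have hu' : ‖u‖ = 1 := by
    rcases hu with rfl | rfl
    · exact norm_one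
    · rw [norm_neg, norm_one]
  rw [h, norm_mul, hu', one_mul]
  unfold confProd
  simp only [norm_prod, norm_pow, norm_mul, norm_div]

end Crest.Agent.R006.CauchyVandx340
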