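import Crest.Agent.R006.PNTSum_365

set_option autoImplicit false

/-!
# Row 6, block P8: class sums of step functions (definitions)

Scale: `N` (the unit, `b = 24 N`), all window ends are integer multiples of `N`.
A prime `p` has `x = p/N`, a class `c` mod `p` (`0 ≤ c < p`) has `y = c/N`.
A node of the class `c` is `c + (j + h/2) p`, `h = 0` (integer nodes) or `h = 1` (half-integer nodes,
`p` odd). A *boundary* `(A, h)` gives the least `j` with `A N ≤ c + (j + h/2) p`; the nodes of the
window `[A N, B N)` (type `h`) in the class `c` are those with `jst A h ≤ j < jst B h`.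
The vector of all `jst` is constant between two neighbouring breakpoint lines `2 y = 2 al - j x`.
-/

namespace Crest.Agent.R006.P8

/-- a breakpoint line `2 y = 2 al - j x` -/
structure Ln where
  al : ℤ
  j : ℤ
deriving DecidableEq

/-- twice the value (in units 1) of the line at `(N, p)`; also `v` times the value at `x = u/v` for
`(v, u)` -/
def Ln.v (l : Ln) (N p : ℤ) : ℤ := 2 * l.al * N - l.j * p

/-- the least `j` with `A N ≤ c + (j + h/2) p` -/
def jst (A h N p c : ℤ) : ℤ := -((2 * c + h * p - 2 * A * N) / (2 * p))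

/-- the vector of all `jst` -/
def jvec (bd : List (ℤ × ℤ)) (N p c : ℤ) : List ℤ := bd.map fun q => jst q.1 q.2 N p c

/-- a cell: lower line and the constant value of `jvec` on the cell -/
structure Cell where
  ln : Ln
  js : List ℤ

/-- the `x`-interval `[u0/v0, u1/v1]` -/
structure Iv where
  u0 : ℤ
  v0 : ℤ
  u1 : ℤ
  v1 : ℤ

/-- `l ≤ l'` at both ends of the interval -/
def le2 (I : Iv) (l l' : Ln) : Bool :=
  decide (l.v I.v0 I.u0 ≤ l'.v I.v0 I.u0) && decide (l.v I.v1 I.u1 ≤ l'.v I.v1 I.u1)

/-- the `j`-vector is right on the cell between `l` and `l'` -/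
def checkJs (I : Iv) (l l' : Ln) : List (ℤ × ℤ) → List ℤ → Bool
  | [], [] => true
  | q :: bd, j :: js =>
    le2 I ⟨q.1, 2 * j + q.2⟩ l && (le2 I l' ⟨q.1, 2 * j - 2 + q.2⟩ && checkJs I l l' bd js)
  | _, _ => false

/-- the top line `y = x` -/
def topLn : Ln := ⟨0, -2⟩

/-- the line above -/
def nextLn : List Cell → Ln
  | [] => topLn
  | c :: _ => c.ln

/-- all cells are right -/
def checkCells (bd : List (ℤ × ℤ)) (I : Iv) : List Cell → Bool
  | [] => true
  | c :: cs => le2 I c.ln (nextLn cs) && (checkJs I c.ln (nextLn cs) bd c.js && checkCells bd I cs)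

/-- the interval is right -/
def Iv.ok (I : Iv) : Bool :=
  decide (0 < I.u0) && (decide (0 < I.v0) && (decide (0 < I.v1) &&
    decide (I.u0 * I.v1 ≤ I.u1 * I.v0)))

/-- the check of one strip -/
def checkStrip (bd : List (ℤ × ℤ)) (I : Iv) : List Cell → Bool
  | [] => false
  | c :: cs => decide (c.ln = ⟨0, 0⟩) && (I.ok && checkCells bd I (c :: cs))

/-- `∑ κ_s (al_{s+1} - al_s)` -/
def alTot (kap : List ℤ → ℤ) : List Cell → ℤ
  | [] => 0
  | c :: cs => kap c.js * ((nextLn cs).al - c.ln.al) + alTot kap cs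

/-- `∑ κ_s (j_{s+1} - j_s)` -/
def jTot (kap : List ℤ → ℤ) : List Cell → ℤ
  | [] => 0
  | c :: cs => kap c.js * ((nextLn cs).j - c.ln.j) + jTot kap cs

/-- `∑ |κ_s|` -/
def absTot (kap : List ℤ → ℤ) : List Cell → ℤ
  | [] => 0
  | c :: cs => |kap c.js| + absTot kap cs

/-! ### Kernel-computable construction of the cells of a strip (no proofs needed: `checkStrip` decides) -/

/-- the breakpoint line of the boundary `(A,h)` in the strip, at the interior point `x = u/v`: the
line `(A, 2j+h)` with `0 ≤ value < x` -/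
def bpLn (u v : ℤ) (q : ℤ × ℤ) : Ln :=
  ⟨q.1, 2 * jst q.1 q.2 v u 0 - 2 + q.2⟩

/-- insertion by value at `x = u/v` -/
def insLn (u v : ℤ) (l : Ln) : List Ln → List Ln
  | [] => [l]
  | a :: as => if l.v v u ≤ a.v v u then l :: a :: as else a :: insLn u v l as

/-- sorted lines -/
def sortLn (u v : ℤ) : List Ln → List Ln
  | [] => []
  | a :: as => insLn u v a (sortLn u v as)

/-- `j`-vector just above the line `l` at `x = u/v` (all scaled by `2`: the point `2y = l.v`) -/
def jAbove (bd : List (ℤ × ℤ)) (u v : ℤ) (l : Ln) : List ℤ :=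
  bd.map fun q => -((l.v v u + q.2 * u - 2 * q.1 * v) / (2 * u))

/-- the cells of the strip, built at the mediant of its ends -/
def mkCells (bd : List (ℤ × ℤ)) (I : Iv) : List Cell :=
  let u := I.u0 + I.u1
  let v := I.v0 + I.v1
  ((⟨0, 0⟩ : Ln) :: sortLn u v (bd.map (bpLn u v))).map fun l => ⟨l, jAbove bd u v l⟩

/-- `⌊Sc · ∫_{x0}^{x1} (al - j x / 2) dx⌋` -/
def intLow (Sc : ℤ) (I : Iv) (al j : ℤ) : ℤ :=
  (Sc * ((I.u1 * I.v0 - I.u0 * I.v1) * (4 * al * (I.v0 * I.v1) - j * (I.u0 * I.v1 + I.u1 * I.v0))))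
    / (4 * (I.v0 * I.v1) ^ 2)

/-- a strip with its multipliers `t` (the right end is the left end of the next one) -/
structure St where
  u : ℤ
  v : ℤ
  t : List ℤ

/-- lower bound (scaled by `Sc`) of the integral of one strip, `none` if the check fails -/
def stripLow (Sc : ℤ) (bd : List (ℤ × ℤ)) (kap : List ℤ → List ℤ → ℤ) (ext : List ℤ → ℤ)
    (I : Iv) (t : List ℤ) : Option ℤ :=
  let cs := mkCells bd I
  if checkStrip bd I cs then
    some (intLow Sc I (alTot (kap t) cs + ext t) (jTot (kap t) cs))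
  else none

/-- total over consecutive strips; `(u,v)` = the right end of the last one -/
def totalLow (Sc : ℤ) (bd : List (ℤ × ℤ)) (kap : List ℤ → List ℤ → ℤ) (ext : List ℤ → ℤ) :
    List St → Option ℤ
  | [] => some 0
  | [_] => some 0
  | s :: s' :: L =>
    match stripLow Sc bd kap ext ⟨s.u, s.v, s'.u, s'.v⟩ s.t, totalLow Sc bd kap ext (s' :: L) with
    | some a, some b => some (a + b)
    | _, _ => none

end Crest.Agent.R006.P8
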