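import Crest.Agent.R006.CellDefs_365

set_option autoImplicit false

/-!
# Row 6, block P8: the class sum of a step function (helper757)

`class_sum_ge`: on a checked strip, the sum over all residue classes `c mod p` of a function of the
`j`-vector is at least `N * alTot - p * jTot / 2 - absTot`.
-/

namespace Crest.Agent.R006.P8

namespace CellSumx757

/-- linear inequalities at the two ends of the strip hold inside -/
lemma lin_nonneg {u0 v0 u1 v1 N p α β : ℤ} (hv0 : 0 < v0) (hv1 : 0 < v1) (hN : 0 ≤ N)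
    (h0 : u0 * N ≤ v0 * p) (h1 : v1 * p ≤ u1 * N)
    (hw0 : 0 ≤ α * v0 + β * u0) (hw1 : 0 ≤ α * v1 + β * u1) : 0 ≤ α * N + β * p := by
  rcases le_total 0 β with hb | hb
  · have h2 : 0 ≤ v0 * (α * N + β * p) := by
      have : β * (u0 * N) ≤ β * (v0 * p) := mul_le_mul_of_nonneg_left h0 hb
      nlinarith [mul_nonneg hw0 hN]
    exact nonneg_of_mul_nonneg_right h2 hv0
  · have h2 : 0 ≤ v1 * (α * N + β * p) := by
      have : β * (u1 * N) ≤ β * (v1 * p) := mul_le_mul_of_nonpos_left h1 hb
      nlinarith [mul_nonneg hw1 hN]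
    exact nonneg_of_mul_nonneg_right h2 hv1

/-- `(N, p)` lies in the strip -/
structure In (I : Iv) (N p : ℤ) : Prop where
  v0 : 0 < I.v0
  v1 : 0 < I.v1
  N0 : 0 ≤ N
  p0 : 0 < p
  h0 : I.u0 * N ≤ I.v0 * p
  h1 : I.v1 * p ≤ I.u1 * N

lemma le2_le {I : Iv} {N p : ℤ} (hI : In I N p) {l l' : Ln} (h : le2 I l l' = true) :
    l.v N p ≤ l'.v N p := by
  simp only [le2, Bool.and_eq_true, decide_eq_true_eq] at h
  obtain ⟨ha, hb⟩ := h
  unfold Ln.v at ha hb ⊢
  have := lin_nonneg (α := 2 * l'.al - 2 * l.al) (β := l.j - l'.j) hI.v0 hI.v1 hI.N0 hI.h0 hI.h1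
    (by linarith) (by linarith)
  linarith

lemma jst_eq_iff {A h N p c j : ℤ} (hp : 0 < p) :
    jst A h N p c = j ↔ 2 * A * N ≤ 2 * c + (2 * j + h) * p ∧
      2 * c + (2 * j - 2 + h) * p < 2 * A * N := by
  unfold jst
  have h2p : (0:ℤ) < 2 * p := by linarith
  constructor
  · intro hh
    have h' : (2 * c + h * p - 2 * A * N) / (2 * p) = -j := by linarith
    have h1 := Int.ediv_mul_le (2 * c + h * p - 2 * A * N) h2p.ne'
    have h2 := Int.lt_ediv_add_one_mul_self (2 * c + h * p - 2 * A * N) h2p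
    rw [h'] at h1 h2
    constructor <;> nlinarith
  · rintro ⟨h1, h2⟩
    have : (2 * c + h * p - 2 * A * N) / (2 * p) = -j := by
      apply le_antisymm
      · have : (2 * c + h * p - 2 * A * N) / (2 * p) < -j + 1 := by
          apply Int.ediv_lt_of_lt_mul h2p
          nlinarith
        linarith
      · apply Int.le_ediv_of_mul_le h2p
        nlinarith
    linarith

lemma checkJs_jvec {I : Iv} {N p c : ℤ} (hI : In I N p) {l l' : Ln} (hl : l.v N p ≤ 2 * c)
    (hl' : 2 * c < l'.v N p) :
    ∀ (bd : List (ℤ × ℤ)) (js : List ℤ), checkJs I l l' bd js = true → jvec bd N p c = js := by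
  intro bd
  induction bd with
  | nil =>
    intro js h
    cases js with
    | nil => rfl
    | cons j js => simp [checkJs] at h
  | cons q bd ih =>
    intro js h
    cases js with
    | nil => simp [checkJs] at h
    | cons j js =>
      simp only [checkJs, Bool.and_eq_true] at h
      obtain ⟨h1, h2, h3⟩ := h
      have e1 := le2_le hI h1
      have e2 := le2_le hI h2
      have hj : jst q.1 q.2 N p c = j := by
        rw [jst_eq_iff hI.p0]
        unfold Ln.v at e1 e2 hl hl'
        simp only at e1 e2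
        constructor <;> linarith
      have hrec := ih js h3
      unfold jvec at hrec ⊢
      rw [List.map_cons, hj, hrec]

lemma top_v (N p : ℤ) : topLn.v N p = 2 * p := by
  simp [topLn, Ln.v]

lemma next_le_top {bd : List (ℤ × ℤ)} {I : Iv} {N p : ℤ} (hI : In I N p) :
    ∀ cs : List Cell, checkCells bd I cs = true → (nextLn cs).v N p ≤ 2 * p := by
  intro cs
  induction cs with
  | nil => intro _; show topLn.v N p ≤ 2 * p; rw [top_v]
  | cons c cs ih =>
    intro h
    simp only [checkCells, Bool.and_eq_true] at h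
    have h1 := le2_le hI h.1
    have h2 := ih h.2.2
    exact h1.trans h2

/-- the main induction: the sum over the classes above the lowest line -/
lemma sum_cells {bd : List (ℤ × ℤ)} {I : Iv} {N p : ℤ} (hI : In I N p) (kap : List ℤ → ℤ) :
    ∀ cs : List Cell, checkCells bd I cs = true → 0 ≤ (nextLn cs).v N p →
      2 * alTot kap cs * N - jTot kap cs * p - absTot kap cs ≤
        2 * ∑ c ∈ Finset.Ico (((nextLn cs).v N p + 1) / 2) p, kap (jvec bd N p c) := by
  intro cs
  induction cs with
  | nil =>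
    intro _ _
    have h1 : ((nextLn []).v N p + 1) / 2 = p := by
      show (topLn.v N p + 1) / 2 = p
      rw [top_v]; omega
    rw [h1]
    simp [alTot, jTot, absTot]
  | cons a cs ih =>
    intro h hpos
    simp only [checkCells, Bool.and_eq_true] at h
    obtain ⟨hle, hjs, hrest⟩ := h
    have h2 : a.ln.v N p ≤ (nextLn cs).v N p := le2_le hI hle
    have hpos' : 0 ≤ a.ln.v N p := hpos
    have ihh := ih hrest (hpos'.trans h2)
    have h3 := next_le_top hI cs hrest
    show 2 * (kap a.js * ((nextLn cs).al - a.ln.al) + alTot kap cs) * N -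
        (kap a.js * ((nextLn cs).j - a.ln.j) + jTot kap cs) * p -
        (|kap a.js| + absTot kap cs) ≤
      2 * ∑ c ∈ Finset.Ico ((a.ln.v N p + 1) / 2) p, kap (jvec bd N p c)
    set lo := a.ln.v N p with hlo
    set hi := (nextLn cs).v N p with hhi
    set k := kap a.js with hk
    have hconst : ∀ c ∈ Finset.Ico ((lo + 1) / 2) ((hi + 1) / 2), kap (jvec bd N p c) = k := by
      intro c hc
      rw [Finset.mem_Ico] at hc
      rw [checkJs_jvec (l := a.ln) (l' := nextLn cs) hI (by omega) (by omega) bd a.js hjs]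
    have hab : (lo + 1) / 2 ≤ (hi + 1) / 2 := by omega
    have hbc : (hi + 1) / 2 ≤ p := by omega
    have hsplit : ∑ c ∈ Finset.Ico ((lo + 1) / 2) p, kap (jvec bd N p c) =
        ∑ c ∈ Finset.Ico ((lo + 1) / 2) ((hi + 1) / 2), kap (jvec bd N p c) +
        ∑ c ∈ Finset.Ico ((hi + 1) / 2) p, kap (jvec bd N p c) := by
      rw [← Finset.sum_union]
      · congr 1
        ext c
        simp only [Finset.mem_union, Finset.mem_Ico]
        omega
      · rw [Finset.disjoint_left]
        intro c h4 h5
        rw [Finset.mem_Ico] at h4 h5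
        omega
    have hcellsum : ∑ c ∈ Finset.Ico ((lo + 1) / 2) ((hi + 1) / 2), kap (jvec bd N p c) =
        ((hi + 1) / 2 - (lo + 1) / 2) * k := by
      rw [Finset.sum_congr rfl hconst, Finset.sum_const, Int.card_Ico, nsmul_eq_mul,
        Int.toNat_of_nonneg (by omega)]
    rw [hsplit, hcellsum]
    have hd : |2 * ((hi + 1) / 2 - (lo + 1) / 2) - (hi - lo)| ≤ 1 := by
      rw [abs_le]; constructor <;> omega
    have hk2 : k * (hi - lo) - |k| ≤ 2 * (((hi + 1) / 2 - (lo + 1) / 2) * k) := by
      have h5 : |k * (2 * ((hi + 1) / 2 - (lo + 1) / 2) - (hi - lo))| ≤ |k| * 1 := by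
        rw [abs_mul]
        exact mul_le_mul_of_nonneg_left hd (abs_nonneg _)
      have h6 := (abs_le.mp h5).1
      linarith
    have hpe : hi - lo = 2 * ((nextLn cs).al - a.ln.al) * N - ((nextLn cs).j - a.ln.j) * p := by
      rw [hhi, hlo]; unfold Ln.v; ring
    rw [hpe] at hk2
    linarith

lemma absTot_nonneg (kap : List ℤ → ℤ) : ∀ cs : List Cell, 0 ≤ absTot kap cs := by
  intro cs
  induction cs with
  | nil => simp [absTot]
  | cons a cs ih =>
    have := abs_nonneg (kap a.js)
    simp only [absTot]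
    linarith

lemma sum_Ico_int (p : ℕ) (F : ℤ → ℤ) :
    ∑ c ∈ Finset.Ico (0 : ℤ) p, F c = ∑ c ∈ Finset.range p, F (c : ℤ) := by
  induction p with
  | zero => simp
  | succ n ih =>
    rw [Finset.sum_range_succ, ← ih]
    have : Finset.Ico (0 : ℤ) ((n + 1 : ℕ) : ℤ) = insert (n : ℤ) (Finset.Ico (0 : ℤ) n) := by
      ext c
      simp only [Finset.mem_Ico, Finset.mem_insert]
      push_cast
      omega
    rw [this, Finset.sum_insert (by simp)]
    ring

end CellSumx757

open CellSumx757 in
/-- **The class sum of a step function.** On a checked strip the sum over all classes `c mod p` of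
a function bounded below by a function of the `j`-vector is at least the area count. -/
theorem class_sum_ge (bd : List (ℤ × ℤ)) (I : Iv) (cs : List Cell)
    (h : checkStrip bd I cs = true) (kap : List ℤ → ℤ) (N p : ℕ) (hN : 0 < N)
    (h0 : I.u0 * N ≤ I.v0 * p) (h1 : I.v1 * p ≤ I.u1 * N) (f : ℕ → ℤ)
    (hf : ∀ c < p, kap (jvec bd N p c) ≤ f c) :
    (N : ℝ) * alTot kap cs - (p : ℝ) * jTot kap cs / 2 - absTot kap cs ≤
      ∑ c ∈ Finset.range p, (f c : ℝ) := by
  cases cs with
  | nil => simp [checkStrip] at h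
  | cons a cs =>
    simp only [checkStrip, Iv.ok, Bool.and_eq_true, decide_eq_true_eq] at h
    obtain ⟨hln, ⟨hu0, hv0, hv1, _⟩, hcells⟩ := h
    have hN' : (0 : ℤ) < N := by exact_mod_cast hN
    have hp : (0 : ℤ) < p := by
      have : 0 < I.v0 * (p : ℤ) := lt_of_lt_of_le (mul_pos hu0 hN') h0
      exact (mul_pos_iff_of_pos_left hv0).mp this
    have hI : In I N p := ⟨hv0, hv1, hN'.le, hp, h0, h1⟩
    have hz : (nextLn (a :: cs)).v (N : ℤ) p = 0 := by
      show a.ln.v (N : ℤ) p = 0
      rw [hln]; simp [Ln.v]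
    have key := sum_cells hI kap (a :: cs) hcells (by rw [hz])
    rw [hz] at key
    have hz0 : ((0 : ℤ) + 1) / 2 = 0 := by norm_num
    rw [hz0, sum_Ico_int] at key
    have hsum : ∑ c ∈ Finset.range p, kap (jvec bd N p (c : ℤ)) ≤ ∑ c ∈ Finset.range p, f c :=
      Finset.sum_le_sum fun c hc => hf c (Finset.mem_range.mp hc)
    have habs := absTot_nonneg kap (a :: cs)
    have hfin : 2 * alTot kap (a :: cs) * N - jTot kap (a :: cs) * p - absTot kap (a :: cs) ≤
        2 * ∑ c ∈ Finset.range p, f c := by linarith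
    have hfin' : (2 * alTot kap (a :: cs) * N - jTot kap (a :: cs) * p -
        absTot kap (a :: cs) : ℝ) ≤ 2 * ∑ c ∈ Finset.range p, (f c : ℝ) := by
      exact_mod_cast hfin
    have habs' : (0 : ℝ) ≤ (absTot kap (a :: cs) : ℝ) := by exact_mod_cast habs
    linarith

end Crest.Agent.R006.P8
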