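import Crest.Agent.R006.CellDefs_365

set_option autoImplicit false

/-!
# Row 6, block P8: splitting `totalLow` over several files
-/

namespace Crest.Agent.R006.P8

theorem totalLow_cons_cons {Sc : ℤ} {bd : List (ℤ × ℤ)} {kap : List ℤ → List ℤ → ℤ}
    {ext : List ℤ → ℤ} {s s' : St} {L : List St} {a b : ℤ}
    (ha : stripLow Sc bd kap ext ⟨s.u, s.v, s'.u, s'.v⟩ s.t = some a)
    (hb : totalLow Sc bd kap ext (s' :: L) = some b) :
    totalLow Sc bd kap ext (s :: s' :: L) = some (a + b) := by
  rw [totalLow, ha, hb]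

theorem totalLow_cons_cons_inv {Sc : ℤ} {bd : List (ℤ × ℤ)} {kap : List ℤ → List ℤ → ℤ}
    {ext : List ℤ → ℤ} {s s' : St} {L : List St} {c : ℤ}
    (h : totalLow Sc bd kap ext (s :: s' :: L) = some c) :
    ∃ a b, stripLow Sc bd kap ext ⟨s.u, s.v, s'.u, s'.v⟩ s.t = some a ∧
      totalLow Sc bd kap ext (s' :: L) = some b ∧ a + b = c := by
  rw [totalLow] at h
  cases ha : stripLow Sc bd kap ext ⟨s.u, s.v, s'.u, s'.v⟩ s.t with
  | none => rw [ha] at h; simp at h
  | some a =>
    cases hb : totalLow Sc bd kap ext (s' :: L) with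
    | none => rw [ha, hb] at h; simp at h
    | some b =>
      rw [ha, hb] at h
      exact ⟨a, b, rfl, rfl, by simpa using h⟩

/-- the list of strips may be cut at any strip `s` -/
theorem totalLow_append {Sc : ℤ} {bd : List (ℤ × ℤ)} {kap : List ℤ → List ℤ → ℤ}
    {ext : List ℤ → ℤ} {s : St} {L2 : List St} {b : ℤ}
    (hb : totalLow Sc bd kap ext (s :: L2) = some b) :
    ∀ (L1 : List St) (a : ℤ), totalLow Sc bd kap ext (L1 ++ [s]) = some a →
      totalLow Sc bd kap ext (L1 ++ s :: L2) = some (a + b)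
  | [], a, ha => by
    have : a = 0 := by
      simpa [totalLow] using ha.symm
    rw [this, List.nil_append, zero_add]; exact hb
  | [x], a, ha => by
    obtain ⟨a1, b1, h1, h2, h3⟩ := totalLow_cons_cons_inv (L := []) ha
    have hb1 : b1 = 0 := by simpa [totalLow] using h2.symm
    subst hb1
    have h4 : a1 = a := by omega
    subst h4
    exact totalLow_cons_cons h1 hb
  | x :: y :: L1, a, ha => by
    obtain ⟨a1, b1, h1, h2, h3⟩ :=
      totalLow_cons_cons_inv (s := x) (s' := y) (L := L1 ++ [s]) ha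
    have h4 := totalLow_append hb (y :: L1) b1 h2
    have h5 := totalLow_cons_cons (s := x) (s' := y) (L := L1 ++ s :: L2) h1 h4
    rw [← h3, add_assoc]
    exact h5

/-- the same, with the sum `T = a + b` named -/
theorem totalLow_append' {Sc : ℤ} {bd : List (ℤ × ℤ)} {kap : List ℤ → List ℤ → ℤ}
    {ext : List ℤ → ℤ} (L1 : List St) (s : St) (L2 : List St) {a b T : ℤ}
    (ha : totalLow Sc bd kap ext (L1 ++ [s]) = some a)
    (hb : totalLow Sc bd kap ext (s :: L2) = some b) (hT : a + b = T) :
    totalLow Sc bd kap ext (L1 ++ s :: L2) = some T := by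
  rw [← hT]; exact totalLow_append hb L1 a ha

end Crest.Agent.R006.P8
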