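import Crest.Agent.R006.CellDefs_365

set_option autoImplicit false

/-!
# Row 6, block P8: total over the strips

`total_ge_of`: the class sum inequality (757) and the kernel-evaluated number `totalLow` give the
lower bound of `∑_{x0 N < p ≤ X N} log p · v_p`.
-/

namespace Crest.Agent.R006.P8

open Filter Topology Finset

/-- the statement of `class_sum_ge` -/
def ClassSumGe : Prop :=
  ∀ (bd : List (ℤ × ℤ)) (I : Iv) (cs : List Cell), checkStrip bd I cs = true →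
    ∀ (kap : List ℤ → ℤ) (N p : ℕ), 0 < N → I.u0 * N ≤ I.v0 * p → I.v1 * p ≤ I.u1 * N →
    ∀ f : ℕ → ℤ, (∀ c < p, kap (jvec bd N p c) ≤ f c) →
      (N : ℝ) * alTot kap cs - (p : ℝ) * jTot kap cs / 2 - absTot kap cs
        ≤ ∑ c ∈ range p, (f c : ℝ)

lemma Iv.ok_iff {I : Iv} (h : I.ok = true) :
    0 < I.u0 ∧ 0 < I.v0 ∧ 0 < I.v1 ∧ I.u0 * I.v1 ≤ I.u1 * I.v0 := by
  simpa [Iv.ok, Bool.and_eq_true, decide_eq_true_eq] using h

lemma ok_of_checkStrip {bd : List (ℤ × ℤ)} {I : Iv} {cs : List Cell}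
    (h : checkStrip bd I cs = true) : I.ok = true := by
  cases cs with
  | nil => simp [checkStrip] at h
  | cons c cs =>
    simp only [checkStrip, Bool.and_eq_true] at h
    exact h.2.1

/-- the piece of a strip, loss orientation -/
def ivPiece (I : Iv) (al j : ℤ) : Piece :=
  { lo := (I.u0 : ℚ) / I.v0, hi := (I.u1 : ℚ) / I.v1, al := -(al : ℚ), be := (j : ℚ) / 2 }

lemma intLow_le {Sc : ℤ} {I : Iv} (h0 : 0 < I.v0) (h1 : 0 < I.v1) (al j : ℤ) :
    ((intLow Sc I al j : ℤ) : ℚ) ≤ -(Sc * (ivPiece I al j).I) := by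
  have h0Q : (0 : ℚ) < I.v0 := by exact_mod_cast h0
  have h1Q : (0 : ℚ) < I.v1 := by exact_mod_cast h1
  set den : ℤ := 4 * (I.v0 * I.v1) ^ 2 with hden
  set num : ℤ := Sc * ((I.u1 * I.v0 - I.u0 * I.v1) *
    (4 * al * (I.v0 * I.v1) - j * (I.u0 * I.v1 + I.u1 * I.v0))) with hnum
  have hdpos : 0 < den := by positivity
  have hdQ : (0 : ℚ) < den := by exact_mod_cast hdpos
  have e1 : (num / den) * den ≤ num := Int.ediv_mul_le _ hdpos.ne'
  have e2 : ((num / den : ℤ) : ℚ) * den ≤ num := by exact_mod_cast e1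
  have e3 : -(Sc * (ivPiece I al j).I) * den = num := by
    simp only [ivPiece, Piece.I, hnum, hden]
    push_cast
    field_simp
    ring
  have e4 : intLow Sc I al j = num / den := rfl
  rw [e4, ← mul_le_mul_iff_left₀ hdQ, e3]
  exact e2

/-- one strip -/
theorem strip_ge (H : ClassSumGe) (Sc : ℤ) (hSc : 0 < Sc) (bd : List (ℤ × ℤ))
    (kap : List ℤ → List ℤ → ℤ) (ext : List ℤ → ℤ) (I : Iv) (t : List ℤ) (a : ℤ)
    (ha : stripLow Sc bd kap ext I t = some a) (C : ℝ) {δ : ℝ} (hδ : 0 < δ) :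
    ((I.u0 : ℝ) / I.v0 ≤ (I.u1 : ℝ) / I.v1 ∧ 0 < (I.u0 : ℝ) / I.v0) ∧
    ∀ᶠ N : ℕ in atTop, ∀ V : ℕ → ℝ,
      (∀ p ∈ pr ((I.u0 : ℝ) / I.v0 * N) ((I.u1 : ℝ) / I.v1 * N),
        (∑ c ∈ range p, (kap t (jvec bd N p c) : ℝ)) + ext t * N - C ≤ V p) →
      (N : ℝ) ^ 2 * ((a : ℝ) / Sc - δ)
        ≤ ∑ p ∈ pr ((I.u0 : ℝ) / I.v0 * N) ((I.u1 : ℝ) / I.v1 * N), Real.log p * V p := by
  have hck : checkStrip bd I (mkCells bd I) = true ∧
      a = intLow Sc I (alTot (kap t) (mkCells bd I) + ext t) (jTot (kap t) (mkCells bd I)) := by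
    unfold stripLow at ha
    simp only at ha
    split_ifs at ha with hc
    exact ⟨hc, (Option.some.inj ha).symm⟩
  obtain ⟨hc, hae⟩ := hck
  obtain ⟨hu0, hv0, hv1, huv⟩ := Iv.ok_iff (ok_of_checkStrip hc)
  set cs := mkCells bd I with hcs
  set al : ℤ := alTot (kap t) cs with hal
  set j : ℤ := jTot (kap t) cs with hj
  have hu0R : (0 : ℝ) < I.u0 := by exact_mod_cast hu0
  have hv0R : (0 : ℝ) < I.v0 := by exact_mod_cast hv0
  have hv1R : (0 : ℝ) < I.v1 := by exact_mod_cast hv1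
  have huvR : (I.u0 : ℝ) * I.v1 ≤ I.u1 * I.v0 := by exact_mod_cast huv
  have hle : (I.u0 : ℝ) / I.v0 ≤ (I.u1 : ℝ) / I.v1 := by
    rw [div_le_div_iff₀ hv0R hv1R]; exact huvR
  refine ⟨⟨hle, by positivity⟩, ?_⟩
  set P : Piece := ivPiece I (al + ext t) j with hP
  have hPlo : ((P.lo : ℚ) : ℝ) = (I.u0 : ℝ) / I.v0 := by simp [hP, ivPiece]
  have hPhi : ((P.hi : ℚ) : ℝ) = (I.u1 : ℝ) / I.v1 := by simp [hP, ivPiece]
  have hlo0 : 0 ≤ P.lo := by
    have : (0 : ℝ) ≤ ((P.lo : ℚ) : ℝ) := by rw [hPlo]; positivity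
    exact_mod_cast this
  have hlh : P.lo ≤ P.hi := by
    have : ((P.lo : ℚ) : ℝ) ≤ ((P.hi : ℚ) : ℝ) := by rw [hPlo, hPhi]; exact hle
    exact_mod_cast this
  have key := tendsto_natCast_atTop_atTop.eventually
    (P.sum_le hlo0 hlh (C + absTot (kap t) cs) hδ)
  filter_upwards [key, eventually_gt_atTop 0] with N hN hN0 V hV
  have hN0R : (0 : ℝ) < N := by exact_mod_cast hN0
  rw [hPlo, hPhi] at hN
  have e1 := hN (fun p => -V p) ?_
  · have e2 : ∑ p ∈ pr ((I.u0 : ℝ) / I.v0 * N) ((I.u1 : ℝ) / I.v1 * N), Real.log p * -V p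
        = -∑ p ∈ pr ((I.u0 : ℝ) / I.v0 * N) ((I.u1 : ℝ) / I.v1 * N), Real.log p * V p := by
      rw [← Finset.sum_neg_distrib]
      exact Finset.sum_congr rfl fun p _ => by ring
    rw [e2] at e1
    have hScR : (0 : ℝ) < Sc := by exact_mod_cast hSc
    have e3 : (a : ℝ) ≤ -(Sc * (P.I : ℝ)) := by
      have := intLow_le (Sc := Sc) hv0 hv1 (al + ext t) j
      rw [← hae] at this
      exact_mod_cast this
    have e4 : (a : ℝ) / Sc ≤ -(P.I : ℝ) := by
      rw [div_le_iff₀ hScR]; linarith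
    have e5 : (N : ℝ) ^ 2 * ((a : ℝ) / Sc - δ) ≤ (N : ℝ) ^ 2 * (-(P.I : ℝ) - δ) := by
      gcongr
    linarith
  · intro p hp
    have hp' := hp
    rw [mem_pr] at hp'
    have hV' := hV p hp
    have h0 : I.u0 * N ≤ I.v0 * p := by
      have := hp'.2.1
      rw [div_mul_eq_mul_div, div_lt_iff₀ hv0R] at this
      have h' : (I.u0 : ℝ) * N ≤ I.v0 * p := by linarith
      exact_mod_cast h'
    have h1 : I.v1 * p ≤ I.u1 * N := by
      have := hp'.2.2
      rw [div_mul_eq_mul_div, le_div_iff₀ hv1R] at this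
      have h' : (I.v1 : ℝ) * p ≤ I.u1 * N := by linarith
      exact_mod_cast h'
    have h2 := H bd I cs hc (kap t) N p hN0 h0 h1 (fun c => kap t (jvec bd N p c))
      (fun c _ => le_rfl)
    have h3 : (N : ℝ) * ((P.al : ℝ) + P.be * (p / N))
        = -((N : ℝ) * (al + ext t)) + p * j / 2 := by
      simp only [hP, ivPiece]
      push_cast
      field_simp
    rw [h3]
    linarith

lemma totalLow_cons {Sc : ℤ} {bd : List (ℤ × ℤ)} {kap : List ℤ → List ℤ → ℤ} {ext : List ℤ → ℤ}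
    {s s' : St} {L : List St} {T : ℤ} (h : totalLow Sc bd kap ext (s :: s' :: L) = some T) :
    ∃ a b, stripLow Sc bd kap ext ⟨s.u, s.v, s'.u, s'.v⟩ s.t = some a ∧
      totalLow Sc bd kap ext (s' :: L) = some b ∧ T = a + b := by
  rw [totalLow] at h
  split at h
  · rename_i a b ha hb
    exact ⟨a, b, ha, hb, (Option.some.inj h).symm⟩
  · exact absurd h (by simp)

theorem total_ge_of (H : ClassSumGe) (Sc : ℤ) (hSc : 0 < Sc) (bd : List (ℤ × ℤ))
    (kap : List ℤ → List ℤ → ℤ) (ext : List ℤ → ℤ) (se : St) (C : ℝ) (L : List St) :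
    ∀ (s0 : St) (T : ℤ) (_ : totalLow Sc bd kap ext (s0 :: L ++ [se]) = some T) {δ : ℝ}
      (_ : 0 < δ),
      ((s0.u : ℝ) / s0.v ≤ (se.u : ℝ) / se.v) ∧
      ∀ᶠ N : ℕ in atTop, ∀ V : ℕ → ℝ,
        (∀ s s' : St, [s, s'] <:+: (s0 :: L ++ [se]) →
          ∀ p ∈ pr ((s.u : ℝ) / s.v * N) ((s'.u : ℝ) / s'.v * N),
            (∑ c ∈ range p, (kap s.t (jvec bd N p c) : ℝ)) + ext s.t * N - C ≤ V p) →
        (N : ℝ) ^ 2 * ((T : ℝ) / Sc - δ)
          ≤ ∑ p ∈ pr ((s0.u : ℝ) / s0.v * N) ((se.u : ℝ) / se.v * N), Real.log p * V p := by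
  induction L with
  | nil =>
    intro s0 T hT δ hδ
    obtain ⟨a, b, ha, hb, rfl⟩ := totalLow_cons (s := s0) (s' := se) (L := []) hT
    have hb0 : b = 0 := by
      simp only [totalLow] at hb
      exact (Option.some.inj hb).symm
    subst hb0
    obtain ⟨⟨h1, _⟩, h2⟩ := strip_ge H Sc hSc bd kap ext _ _ a ha C hδ
    refine ⟨h1, ?_⟩
    filter_upwards [h2] with N hN V hV
    have := hN V (fun p hp => hV s0 se (List.infix_rfl) p hp)
    simpa using this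
  | cons s1 L ih =>
    intro s0 T hT δ hδ
    obtain ⟨a, b, ha, hb, rfl⟩ := totalLow_cons (s := s0) (s' := s1) (L := L ++ [se]) hT
    obtain ⟨⟨h1, _⟩, h2⟩ := strip_ge H Sc hSc bd kap ext _ _ a ha C (half_pos hδ)
    obtain ⟨h3, h4⟩ := ih s1 b hb (half_pos hδ)
    simp only at h1 h2
    refine ⟨h1.trans h3, ?_⟩
    filter_upwards [h2, h4, eventually_ge_atTop 0] with N hN1 hN2 _ V hV
    have hNn : (0 : ℝ) ≤ N := Nat.cast_nonneg N
    have e1 := hN1 V (fun p hp => hV s0 s1 ⟨[], L ++ [se], by simp⟩ p hp)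
    have e2 := hN2 V (fun s s' hss p hp => hV s s' ?_ p hp)
    · rw [← sum_pr_add (mul_le_mul_of_nonneg_right h1 hNn) (mul_le_mul_of_nonneg_right h3 hNn)]
      push_cast
      have e3 : (N : ℝ) ^ 2 * (((a : ℝ) + b) / Sc - δ)
          = (N : ℝ) ^ 2 * ((a : ℝ) / Sc - δ / 2) + (N : ℝ) ^ 2 * ((b : ℝ) / Sc - δ / 2) := by
        ring
      linarith
    · exact hss.trans (List.infix_cons List.infix_rfl)

end Crest.Agent.R006.P8
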