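import Crest.Agent.R006.CellTotAux_305
import Crest.Agent.R006.CellSum_757

set_option autoImplicit false

/-!
# Row 6, block P8: `total_ge`
-/

namespace Crest.Agent.R006.P8

open Filter Topology Finset

theorem classSumGe : ClassSumGe := by
  intro bd I cs h kap N p hN h0 h1 f hf
  exact class_sum_ge bd I cs h kap N p hN h0 h1 f hf

/-- **P8, link with P4.** -/
theorem total_ge (Sc : ℤ) (hSc : 0 < Sc) (bd : List (ℤ × ℤ)) (kap : List ℤ → List ℤ → ℤ)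
    (ext : List ℤ → ℤ) (s0 : St) (L : List St) (se : St) (T : ℤ)
    (hT : totalLow Sc bd kap ext (s0 :: L ++ [se]) = some T) (C : ℝ) {δ : ℝ} (hδ : 0 < δ) :
    ∀ᶠ N : ℕ in atTop, ∀ V : ℕ → ℝ,
      (∀ s s' : St, [s, s'] <:+: (s0 :: L ++ [se]) →
        ∀ p ∈ pr ((s.u : ℝ) / s.v * N) ((s'.u : ℝ) / s'.v * N),
          (∑ c ∈ range p, (kap s.t (jvec bd N p c) : ℝ)) + ext s.t * N - C ≤ V p) →
      (N : ℝ) ^ 2 * ((T : ℝ) / Sc - δ)
        ≤ ∑ p ∈ pr ((s0.u : ℝ) / s0.v * N) ((se.u : ℝ) / se.v * N), Real.log p * V p :=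
  (total_ge_of classSumGe Sc hSc bd kap ext se C L s0 T hT hδ).2

end Crest.Agent.R006.P8
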