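import Crest.Agent.R006.NumSum_464

/-!
# Row 6, certified numerics: line checker (helper746)

`chkLine L P d IA IB c T0 Ts = true` (closed by `decide +kernel`) implies
`potL L (gc P + t * gc d) + a + b * t ≤ c / 2^48` for all real `t` from `T0` to the last element of
`Ts` (`T0 < Ts[0] < Ts[1] < ...` are the cell ends; `IA`, `IB` enclose `a`, `b`).

Method: on a cell every end point `A` of a segment `[A, A+e]` contributes a `Phi` whose deviation
from its chord is at most `|d|² h² / (8 |e| dist)`, and at most `|Re (d/e)| h / 2.718` when `A` is an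
end point of the cell.  So the maximum over a cell is at most the larger end value plus these bounds.
End points of segments must be ends of the cell or at positive distance from it, and no segment
line may cross the interior of a cell.
-/

set_option autoImplicit false

namespace Crest.Agent.R006.Chk746

open Real Set Num482 Crest.Agent.R006.NumPhix179 Crest.Agent.R006.NumSegx464

/-! ### deviation from the chord -/

/-- value at `t` of the chord of `f` over `[l, r]` -/
noncomputable def chord (f : ℝ → ℝ) (l r t : ℝ) : ℝ := ((r - t) * f l + (t - l) * f r) / (r - l)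

/-- `f` differs from its chord over `[l, r]` by at most `D` -/
def CDev (f : ℝ → ℝ) (l r D : ℝ) : Prop := ∀ t ∈ Icc l r, |f t - chord f l r t| ≤ D

theorem CDev.mono {f : ℝ → ℝ} {l r D D' : ℝ} (h : CDev f l r D) (hD : D ≤ D') : CDev f l r D' :=
  fun t ht => (h t ht).trans hD

theorem CDev.congr {f g : ℝ → ℝ} {l r D : ℝ} (h : CDev f l r D) (hlr : l ≤ r)
    (hfg : ∀ t ∈ Icc l r, f t = g t) : CDev g l r D := by
  intro t ht
  have := h t ht
  unfold chord at this ⊢
  rw [← hfg t ht, ← hfg l ⟨le_rfl, hlr⟩, ← hfg r ⟨hlr, le_rfl⟩]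
  exact this

theorem CDev.add {f g : ℝ → ℝ} {l r D E : ℝ} (hf : CDev f l r D) (hg : CDev g l r E) :
    CDev (fun t => f t + g t) l r (D + E) := by
  intro t ht
  have e : (f t + g t) - chord (fun t => f t + g t) l r t =
      (f t - chord f l r t) + (g t - chord g l r t) := by unfold chord; ring
  rw [e]
  exact (abs_add_le _ _).trans (add_le_add (hf t ht) (hg t ht))

theorem CDev.sub {f g : ℝ → ℝ} {l r D E : ℝ} (hf : CDev f l r D) (hg : CDev g l r E) :
    CDev (fun t => f t - g t) l r (D + E) := by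
  intro t ht
  have e : (f t - g t) - chord (fun t => f t - g t) l r t =
      (f t - chord f l r t) - (g t - chord g l r t) := by unfold chord; ring
  rw [e]
  exact (abs_sub _ _).trans (add_le_add (hf t ht) (hg t ht))

theorem CDev.smul {f : ℝ → ℝ} {l r D : ℝ} (c : ℝ) (hf : CDev f l r D) :
    CDev (fun t => c * f t) l r (|c| * D) := by
  intro t ht
  have e : c * f t - chord (fun t => c * f t) l r t = c * (f t - chord f l r t) := by
    unfold chord; ring
  rw [e, abs_mul]
  exact mul_le_mul_of_nonneg_left (hf t ht) (abs_nonneg _)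

theorem cdev_affine {a b l r : ℝ} (h : l < r) : CDev (fun t => a + b * t) l r 0 := by
  intro t _
  have e : a + b * t - chord (fun t => a + b * t) l r t = 0 := by
    unfold chord
    have h0 : r - l ≠ 0 := (sub_pos.2 h).ne'
    field_simp
    ring
  rw [e]; simp

/-- the upper bound used by the checker -/
theorem CDev.le {f : ℝ → ℝ} {l r D C : ℝ} (hlr : l < r) (h : CDev f l r D) (hl : f l + D ≤ C)
    (hr : f r + D ≤ C) : ∀ t ∈ Icc l r, f t ≤ C := by
  intro t ht
  have h1 := (abs_le.1 (h t ht)).2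
  have h0 : 0 < r - l := sub_pos.2 hlr
  have h2 : chord f l r t ≤ C - D := by
    unfold chord
    rw [div_le_iff₀ h0]
    have e1 : 0 ≤ r - t := by linarith [ht.2]
    have e2 : 0 ≤ t - l := by linarith [ht.1]
    nlinarith [mul_le_mul_of_nonneg_left (by linarith : f l ≤ C - D) e1,
      mul_le_mul_of_nonneg_left (by linarith : f r ≤ C - D) e2]
  linarith

theorem chord_ge_of_convex {f : ℝ → ℝ} {l r : ℝ} (hlr : l < r) (h : ConvexOn ℝ (Icc l r) f) :
    ∀ t ∈ Icc l r, f t ≤ chord f l r t := by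
  intro t ht
  have h0 : 0 < r - l := sub_pos.2 hlr
  have h1 : 0 ≤ (r - t) / (r - l) := div_nonneg (by linarith [ht.2]) h0.le
  have h2 : 0 ≤ (t - l) / (r - l) := div_nonneg (by linarith [ht.1]) h0.le
  have h3 : (r - t) / (r - l) + (t - l) / (r - l) = 1 := by field_simp; ring
  have h4 := h.2 (left_mem_Icc.2 hlr.le) (right_mem_Icc.2 hlr.le) h1 h2 h3
  have h5 : ((r - t) / (r - l)) • l + ((t - l) / (r - l)) • r = t := by
    simp only [smul_eq_mul]; field_simp; ring
  rw [h5] at h4
  refine h4.trans (le_of_eq ?_)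
  unfold chord
  simp only [smul_eq_mul]
  field_simp

theorem cdev_smooth {f f1 f2 : ℝ → ℝ} {l r M : ℝ} (hlr : l < r) (hc : ContinuousOn f (Icc l r))
    (h1 : ∀ t ∈ Ioo l r, HasDerivAt f (f1 t) t) (h2 : ∀ t ∈ Ioo l r, HasDerivAt f1 (f2 t) t)
    (hM : ∀ t ∈ Ioo l r, |f2 t| ≤ M) : CDev f l r (M * (r - l) ^ 2 / 8) := by
  have h0 : 0 < r - l := sub_pos.2 hlr
  have hM0 : 0 ≤ M := (abs_nonneg _).trans (hM ((l + r) / 2) ⟨by linarith, by linarith⟩)
  have key : ∀ (g g1 g2 : ℝ → ℝ), ContinuousOn g (Icc l r) →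
      (∀ t ∈ Ioo l r, HasDerivAt g (g1 t) t) → (∀ t ∈ Ioo l r, HasDerivAt g1 (g2 t) t) →
      (∀ t ∈ Ioo l r, -M ≤ g2 t) →
      ∀ t ∈ Icc l r, g t - chord g l r t ≤ M * (r - l) ^ 2 / 8 := by
    intro g g1 g2 hc h1 h2 hM t ht
    have hconv : ConvexOn ℝ (Icc l r) (fun t => g t + M / 2 * t ^ 2) := by
      refine convexOn_of_hasDerivWithinAt2_nonneg (f' := fun t => g1 t + M * t)
        (f'' := fun t => g2 t + M) (convex_Icc l r) (hc.add (by fun_prop)) ?_ ?_ ?_
      · intro x hx
        rw [interior_Icc] at hx ⊢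
        have e : HasDerivAt (fun t : ℝ => M / 2 * t ^ 2) (M * x) x := by
          refine ((hasDerivAt_pow 2 x).const_mul (M / 2)).congr_deriv ?_
          push_cast; ring
        exact ((h1 x hx).fun_add e).hasDerivWithinAt
      · intro x hx
        rw [interior_Icc] at hx ⊢
        have e : HasDerivAt (fun t : ℝ => M * t) M x := by
          simpa using (hasDerivAt_id x).const_mul M
        exact ((h2 x hx).fun_add e).hasDerivWithinAt
      · intro x hx
        rw [interior_Icc] at hx
        linarith [hM x hx]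
    have h3 := chord_ge_of_convex hlr hconv t ht
    have e : chord (fun t => g t + M / 2 * t ^ 2) l r t =
        chord g l r t + M / 2 * (t ^ 2 + (t - l) * (r - t)) := by
      unfold chord; field_simp; ring
    rw [e] at h3
    have h4 : (t - l) * (r - t) ≤ (r - l) ^ 2 / 4 := by nlinarith [sq_nonneg (2 * t - l - r)]
    nlinarith [mul_le_mul_of_nonneg_left h4 hM0]
  intro t ht
  rw [abs_le]
  constructor
  · have h3 := key (fun t => - f t) (fun t => - f1 t) (fun t => - f2 t) hc.neg
      (fun t ht => (h1 t ht).neg) (fun t ht => (h2 t ht).neg)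
      (fun t ht => by have := (abs_le.1 (hM t ht)).2; linarith) t ht
    have e : chord (fun t => - f t) l r t = - chord f l r t := by unfold chord; ring
    rw [e] at h3
    linarith
  · exact key f f1 f2 hc h1 h2 (fun t ht => (abs_le.1 (hM t ht)).1) t ht

/-! ### singular end points -/

theorem xlogx_bound {x : ℝ} (h0 : 0 ≤ x) (h1 : x ≤ 1) : |x * Real.log x| ≤ 0.3678794412 := by
  rcases h0.eq_or_lt with h | h
  · subst h; norm_num
  have hneg : x * Real.log x ≤ 0 := mul_nonpos_of_nonneg_of_nonpos h0 (Real.log_nonpos h0 h1)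
  rw [abs_of_nonpos hneg]
  have he : 0 < Real.exp 1 := Real.exp_pos 1
  have h2 := Real.log_le_sub_one_of_pos (x := (x * Real.exp 1)⁻¹) (by positivity)
  rw [Real.log_inv, Real.log_mul h.ne' he.ne', Real.log_exp] at h2
  have h3 : -Real.log x ≤ (x * Real.exp 1)⁻¹ := by linarith
  have h4 : -(x * Real.log x) ≤ (Real.exp 1)⁻¹ := by
    calc -(x * Real.log x) = x * (-Real.log x) := by ring
      _ ≤ x * (x * Real.exp 1)⁻¹ := mul_le_mul_of_nonneg_left h3 h0
      _ = (Real.exp 1)⁻¹ := by field_simp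
  have h5 : (Real.exp 1)⁻¹ ≤ 0.3678794412 := by
    rw [← Real.exp_neg]; exact Real.exp_neg_one_lt_d9.le
  linarith

theorem Phi_ray (u v : ℝ) {κ : ℝ} (hκ : 0 < κ) :
    Phi (κ * u) (κ * v) = κ * (u * Real.log κ + Phi u v) := by
  unfold Phi
  rw [mul_div_mul_left _ _ hκ.ne']
  by_cases h : u ^ 2 + v ^ 2 = 0
  · have hu : u = 0 := by nlinarith [sq_nonneg u, sq_nonneg v]
    have hv : v = 0 := by nlinarith [sq_nonneg u, sq_nonneg v]
    subst hu hv; simp
  · have e : (κ * u) ^ 2 + (κ * v) ^ 2 = κ ^ 2 * (u ^ 2 + v ^ 2) := by ring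
    rw [e, Real.log_mul (by positivity) h, Real.log_pow]
    push_cast
    ring

theorem Phi_neg (u v : ℝ) : Phi (-u) (-v) = -Phi u v := by rw [Phi_even, Phi_odd]

theorem Phi_zero : Phi 0 0 = 0 := by simp [Phi]

/-- the left end point of the cell is the singularity -/
theorem cdev_sing_left {u v h : ℝ} (hh : 0 < h) :
    CDev (fun t => Phi (t * u) (t * v)) 0 h (|u| * h * 0.3678794412) := by
  intro t ht
  rcases ht.1.eq_or_lt with h0 | h0
  · subst h0
    unfold chord
    simp [Phi_zero]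
    positivity
  have e : Phi (t * u) (t * v) - chord (fun t => Phi (t * u) (t * v)) 0 h t =
      u * h * (t / h * Real.log (t / h)) := by
    unfold chord
    beta_reduce
    rw [Phi_ray u v h0, Phi_ray u v hh, zero_mul, zero_mul, Phi_zero,
      Real.log_div h0.ne' hh.ne', sub_zero, sub_zero, mul_zero, zero_add]
    have hne : h ≠ 0 := hh.ne'
    field_simp
    ring
  simp only
  rw [e, abs_mul, abs_mul, abs_of_pos hh]
  exact mul_le_mul_of_nonneg_left (xlogx_bound (by positivity) ((div_le_one hh).2 ht.2))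
    (by positivity)

/-- the right end point of the cell is the singularity -/
theorem cdev_sing_right {u v h : ℝ} (hh : 0 < h) :
    CDev (fun t => Phi ((t - h) * u) ((t - h) * v)) 0 h (|u| * h * 0.3678794412) := by
  intro t ht
  rcases ht.2.eq_or_lt with h0 | h0
  · subst h0
    unfold chord
    have e : t - 0 ≠ 0 := by linarith
    simp [Phi_zero]
    have : 0 ≤ |u| * t * 0.3678794412 := by positivity
    norm_num at this ⊢
    linarith
  have hpos : 0 < h - t := by linarith
  have e1 : ∀ s : ℝ, Phi ((s - h) * u) ((s - h) * v) = -Phi ((h - s) * u) ((h - s) * v) := by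
    intro s
    rw [← Phi_neg]; congr 1 <;> ring
  have e : Phi ((t - h) * u) ((t - h) * v) -
      chord (fun t => Phi ((t - h) * u) ((t - h) * v)) 0 h t =
      -(u * h * ((h - t) / h * Real.log ((h - t) / h))) := by
    unfold chord
    beta_reduce
    rw [e1 t, e1 0, e1 h, Phi_ray u v hpos, sub_zero, Phi_ray u v hh, sub_self, zero_mul,
      zero_mul, Phi_zero, Real.log_div hpos.ne' hh.ne']
    have hne : h ≠ 0 := hh.ne'
    field_simp
    ring
  simp only
  rw [e, abs_neg, abs_mul, abs_mul, abs_of_pos hh]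
  exact mul_le_mul_of_nonneg_left (xlogx_bound (by positivity)
    ((div_le_one hh).2 (by linarith [ht.1]))) (by positivity)

/-- regular end point -/
theorem cdev_reg {a b c d h R : ℝ} (hh : 0 < h) (hR : 0 < R)
    (hd : ∀ t ∈ Ioo 0 h, R ^ 2 ≤ (a + b * t) ^ 2 + (c + d * t) ^ 2)
    (hv : (∀ t ∈ Ioo 0 h, c + d * t ≠ 0) ∨ (c = 0 ∧ d = 0)) :
    CDev (fun t => Phi (a + b * t) (c + d * t)) 0 h ((b ^ 2 + d ^ 2) / R * h ^ 2 / 8) := by
  have hcond : ∀ t ∈ Ioo 0 h, c + d * t ≠ 0 ∨ (c = 0 ∧ d = 0 ∧ a + b * t ≠ 0) := by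
    intro t ht
    rcases hv with h1 | ⟨h1, h2⟩
    · exact Or.inl (h1 t ht)
    · refine Or.inr ⟨h1, h2, ?_⟩
      intro h3
      have := hd t ht
      rw [h3, h1, h2] at this
      nlinarith [pow_pos hR 2]
  have hcont : ContinuousOn (fun t => Phi (a + b * t) (c + d * t)) (Icc 0 h) := by
    have h1 : Continuous (fun t : ℝ => (⟨a + b * t, c + d * t⟩ : ℂ)) := by
      have e : (fun t : ℝ => (⟨a + b * t, c + d * t⟩ : ℂ)) =
          fun t : ℝ => ((a + b * t : ℝ) : ℂ) + ((c + d * t : ℝ) : ℂ) * Complex.I := by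
        funext t; apply Complex.ext <;> simp
      rw [e]; fun_prop
    exact (continuous_Phi.comp h1).continuousOn
  have := cdev_smooth (M := (b ^ 2 + d ^ 2) / R) hh hcont
    (fun t ht => hasDerivAt_Phi (hcond t ht)) (fun t ht => hasDerivAt_D1 (hcond t ht))
    (fun t ht => abs_D2_le hR (hd t ht))
  rw [sub_zero] at this
  exact this


/-! ### integer geometry -/

/-- lower bound of the squared distance from `w` to `{t d : 0 ≤ t ≤ h}` (`n2 = |d|²`) -/
def dist2 (w1 w2 d1 d2 : ℤ) (n2 h : ℕ) : ℕ :=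
  (fun dt : ℤ =>
    bif decide (dt ≤ 0) then sqN w1 w2
    else bif decide (((h * n2 : ℕ) : ℤ) ≤ dt) then sqN (w1 - h * d1) (w2 - h * d2)
    else (w1 * d2 - w2 * d1).natAbs * (w1 * d2 - w2 * d1).natAbs / n2) (w1 * d1 + w2 * d2)

theorem dist2_le {w1 w2 d1 d2 : ℤ} {n2 h : ℕ} (hn : n2 = sqN d1 d2) (hn0 : 0 < n2) {t : ℝ}
    (h0 : 0 ≤ t) (h1 : t ≤ h) :
    ((dist2 w1 w2 d1 d2 n2 h : ℕ) : ℝ) ≤ ((w1 : ℝ) - t * d1) ^ 2 + ((w2 : ℝ) - t * d2) ^ 2 := by
  have hnr : (n2 : ℝ) = (d1 : ℝ) ^ 2 + (d2 : ℝ) ^ 2 := by rw [hn, sqN_cast]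
  have hn0r : (0 : ℝ) < n2 := by exact_mod_cast hn0
  unfold dist2
  simp only
  cases hc : decide (w1 * d1 + w2 * d2 ≤ 0) with
  | true =>
    rw [decide_eq_true_eq] at hc
    have hcr : (w1 : ℝ) * d1 + w2 * d2 ≤ 0 := by exact_mod_cast hc
    rw [cond_true, sqN_cast]
    nlinarith [mul_nonneg h0 (neg_nonneg.2 hcr), sq_nonneg (t * (d1 : ℝ)), sq_nonneg (t * (d2 : ℝ))]
  | false =>
    rw [cond_false]
    cases hc2 : decide (((h * n2 : ℕ) : ℤ) ≤ w1 * d1 + w2 * d2) with
    | true =>
      rw [decide_eq_true_eq] at hc2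
      have hcr : (h : ℝ) * n2 ≤ (w1 : ℝ) * d1 + w2 * d2 := by exact_mod_cast hc2
      rw [cond_true, sqN_cast]
      push_cast
      have e : ((w1 : ℝ) - t * d1) ^ 2 + ((w2 : ℝ) - t * d2) ^ 2 -
          (((w1 : ℝ) - h * d1) ^ 2 + ((w2 : ℝ) - h * d2) ^ 2) =
          (h - t) * (2 * ((w1 : ℝ) * d1 + w2 * d2 - h * n2) + (h - t) * n2) := by
        rw [hnr]; ring
      have h3 : 0 ≤ (h : ℝ) - t := by linarith
      have h4 : 0 ≤ 2 * ((w1 : ℝ) * d1 + w2 * d2 - h * n2) + (h - t) * n2 := by
        have := mul_nonneg h3 hn0r.le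
        linarith
      have := mul_nonneg h3 h4
      linarith
    | false =>
      rw [cond_false]
      have hx : (((w1 * d2 - w2 * d1).natAbs : ℕ) : ℝ) * (((w1 * d2 - w2 * d1).natAbs : ℕ) : ℝ) =
          ((w1 : ℝ) * d2 - w2 * d1) ^ 2 := by
        rw [← pow_two, Nat.cast_natAbs, Int.cast_abs, sq_abs]; push_cast; ring
      have h5 : (((w1 * d2 - w2 * d1).natAbs * (w1 * d2 - w2 * d1).natAbs / n2 : ℕ) : ℝ) ≤
          ((w1 : ℝ) * d2 - w2 * d1) ^ 2 / n2 := by
        refine (Nat.cast_div_le).trans ?_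
        rw [Nat.cast_mul, hx]
      refine h5.trans ?_
      rw [div_le_iff₀ hn0r, hnr]
      nlinarith [sq_nonneg (t * ((d1 : ℝ) ^ 2 + (d2 : ℝ) ^ 2) - (w1 * d1 + w2 * d2))]

/-- approximate integer square root from below -/
def isq (X : ℕ) : ℕ :=
  (fun s0 : ℕ => (fun s1 : ℕ => (fun s2 : ℕ => (fun s3 : ℕ => (fun s4 : ℕ =>
    bif Nat.ble s4 (X / s4) then s4 else X / s4)
    ((s3 + X / s3) / 2)) ((s2 + X / s2) / 2)) ((s1 + X / s1) / 2)) ((s0 + X / s0) / 2))
  (2 ^ (X.log2 / 2 + 1))

theorem isq_sq_le (X : ℕ) : isq X * isq X ≤ X := by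
  have key : ∀ s : ℕ, (bif Nat.ble s (X / s) then s else X / s) *
      (bif Nat.ble s (X / s) then s else X / s) ≤ X := by
    intro s
    cases hb : Nat.ble s (X / s) with
    | true =>
      rw [cond_true]
      have := Nat.le_of_ble_eq_true hb
      calc s * s ≤ s * (X / s) := Nat.mul_le_mul_left _ this
        _ ≤ X := Nat.mul_div_le _ _
    | false =>
      rw [cond_false]
      have : ¬ s ≤ X / s := fun h => by
        rw [Nat.ble_eq_true_of_le h] at hb; exact Bool.noConfusion hb
      calc X / s * (X / s) ≤ s * (X / s) := Nat.mul_le_mul_right _ (by omega)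
        _ ≤ X := Nat.mul_div_le _ _
  unfold isq
  exact key _

/-- bound (scale `2^48`) of the deviation of the `Phi` of one end point; `w` = end point minus
`z`, cell `z + t d`, `0 ≤ t ≤ h`, block direction `e`, `n2 = |d|²`, `N = |e|²` -/
def endD (w1 w2 d1 d2 e1 e2 : ℤ) (n2 N h : ℕ) : Option ℕ :=
  bif (decide (w1 = 0) && decide (w2 = 0)) || (decide (w1 = h * d1) && decide (w2 = h * d2)) then
    some ((d1 * e1 + d2 * e2).natAbs * h * 103548857144100 / N + 1)
  else
    (fun s : ℕ => bif Nat.beq s 0 then none else some (n2 * h * h * 35184372088832 / s + 1))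
      (isq (N * dist2 w1 w2 d1 d2 n2 h))

theorem div_re' (s1 s2 e1 e2 : ℝ) : ((⟨s1, s2⟩ : ℂ) / (⟨e1, e2⟩ : ℂ)).re =
    (s1 * e1 + s2 * e2) / (e1 ^ 2 + e2 ^ 2) := by
  rw [Complex.div_re, Complex.normSq_mk]; ring

theorem div_im' (s1 s2 e1 e2 : ℝ) : ((⟨s1, s2⟩ : ℂ) / (⟨e1, e2⟩ : ℂ)).im =
    (s2 * e1 - s1 * e2) / (e1 ^ 2 + e2 ^ 2) := by
  rw [Complex.div_im, Complex.normSq_mk]; ring

/-- one end point -/
theorem cdev_end {w1 w2 d1 d2 e1 e2 : ℤ} {n2 N h D : ℕ} (hn : n2 = sqN d1 d2) (hn0 : 0 < n2)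
    (hN : N = sqN e1 e2) (hN0 : 0 < N) (hh : 0 < h)
    (hv : (0 ≤ w1 * e2 - w2 * e1 ∧ 0 ≤ w1 * e2 - w2 * e1 + h * (d2 * e1 - d1 * e2)) ∨
      (w1 * e2 - w2 * e1 ≤ 0 ∧ w1 * e2 - w2 * e1 + h * (d2 * e1 - d1 * e2) ≤ 0))
    (hD : endD w1 w2 d1 d2 e1 e2 n2 N h = some D) :
    CDev (fun t : ℝ => Phi (((t * d1 - w1) * e1 + (t * d2 - w2) * e2) / N)
      (((t * d2 - w2) * e1 - (t * d1 - w1) * e2) / N)) 0 h (D / 281474976710656) := by
  have hnr : (n2 : ℝ) = (d1 : ℝ) ^ 2 + (d2 : ℝ) ^ 2 := by rw [hn, sqN_cast]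
  have hNr : (N : ℝ) = (e1 : ℝ) ^ 2 + (e2 : ℝ) ^ 2 := by rw [hN, sqN_cast]
  have hN0r : (0 : ℝ) < N := by exact_mod_cast hN0
  have hn0r : (0 : ℝ) < n2 := by exact_mod_cast hn0
  have hhr : (0 : ℝ) < h := by exact_mod_cast hh
  unfold endD at hD
  cases hs : ((decide (w1 = 0) && decide (w2 = 0)) ||
      (decide (w1 = h * d1) && decide (w2 = h * d2))) with
  | true =>
    rw [hs, cond_true] at hD
    have hD' := Option.some.inj hD
    have hb : |((d1 : ℝ) * e1 + d2 * e2) / N| * h * 0.3678794412 ≤ D / 281474976710656 := by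
      have h1 : ((d1 * e1 + d2 * e2).natAbs : ℝ) = |(d1 : ℝ) * e1 + d2 * e2| := by
        rw [Nat.cast_natAbs, Int.cast_abs]; push_cast; ring
      have h2 := Nat.lt_div_mul_add (a := (d1 * e1 + d2 * e2).natAbs * h * 103548857144100)
        (b := N) hN0
      have h3 : (d1 * e1 + d2 * e2).natAbs * h * 103548857144100 ≤ D * N := by
        rw [← hD', Nat.add_mul, one_mul]; exact h2.le
      have h4 : |(d1 : ℝ) * e1 + d2 * e2| * h * 103548857144100 ≤ D * N := by
        rw [← h1]; exact_mod_cast h3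
      rw [abs_div, abs_of_pos hN0r, le_div_iff₀ (by norm_num), div_mul_eq_mul_div,
        div_mul_eq_mul_div, div_mul_eq_mul_div, div_le_iff₀ hN0r]
      refine le_trans ?_ h4
      have : 0 ≤ |(d1 : ℝ) * e1 + d2 * e2| * h := by positivity
      nlinarith
    simp only [Bool.or_eq_true, Bool.and_eq_true, decide_eq_true_eq] at hs
    rcases hs with ⟨h1, h2⟩ | ⟨h1, h2⟩
    · subst h1 h2
      refine ((cdev_sing_left (u := ((d1 : ℝ) * e1 + d2 * e2) / N)
        (v := ((d2 : ℝ) * e1 - d1 * e2) / N) hhr).mono hb).congr hhr.le ?_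
      intro t _
      congr 1
      · push_cast; ring
      · push_cast; ring
    · have h1r : (w1 : ℝ) = h * d1 := by exact_mod_cast h1
      have h2r : (w2 : ℝ) = h * d2 := by exact_mod_cast h2
      refine ((cdev_sing_right (u := ((d1 : ℝ) * e1 + d2 * e2) / N)
        (v := ((d2 : ℝ) * e1 - d1 * e2) / N) hhr).mono hb).congr hhr.le ?_
      intro t _
      rw [h1r, h2r]
      congr 1 <;> ring
  | false =>
    rw [hs, cond_false] at hD
    simp only at hD
    generalize hs' : isq (N * dist2 w1 w2 d1 d2 n2 h) = s at hD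
    cases hs0 : Nat.beq s 0 with
    | true => rw [hs0, cond_true] at hD; exact absurd hD (by simp)
    | false =>
      rw [hs0, cond_false] at hD
      have hD' := Option.some.inj hD
      have hspos : 0 < s := by
        rcases Nat.eq_zero_or_pos s with h0 | h0
        · subst h0; simp at hs0
        · exact h0
      have hsr : (0 : ℝ) < s := by exact_mod_cast hspos
      have hsq : (s : ℝ) * s ≤ N * ((dist2 w1 w2 d1 d2 n2 h : ℕ) : ℝ) := by
        have := isq_sq_le (N * dist2 w1 w2 d1 d2 n2 h)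
        rw [hs'] at this
        exact_mod_cast this
      have hb : ((((d1 : ℝ) * e1 + d2 * e2) / N) ^ 2 + (((d2 : ℝ) * e1 - d1 * e2) / N) ^ 2) /
          ((s : ℝ) / N) * h ^ 2 / 8 ≤ D / 281474976710656 := by
        have h2 := Nat.lt_div_mul_add (a := n2 * h * h * 35184372088832) (b := s) hspos
        have h3 : n2 * h * h * 35184372088832 ≤ D * s := by
          rw [← hD', Nat.add_mul, one_mul]; exact h2.le
        have h4 : (n2 : ℝ) * h * h * 35184372088832 ≤ D * s := by exact_mod_cast h3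
        have e1 : ((((d1 : ℝ) * e1 + d2 * e2) / N) ^ 2 + (((d2 : ℝ) * e1 - d1 * e2) / N) ^ 2) /
          ((s : ℝ) / N) * h ^ 2 / 8 = n2 * h * h / (8 * s) := by
          rw [div_pow, div_pow, ← add_div]
          have e2 : ((d1 : ℝ) * e1 + d2 * e2) ^ 2 + ((d2 : ℝ) * e1 - d1 * e2) ^ 2 = n2 * N := by
            rw [hnr, hNr]; ring
          rw [e2]
          field_simp
        rw [e1, div_le_div_iff₀ (by positivity) (by norm_num)]
        nlinarith
      have hreg := cdev_reg (a := -((w1 : ℝ) * e1 + w2 * e2) / N)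
        (b := ((d1 : ℝ) * e1 + d2 * e2) / N) (c := ((w1 : ℝ) * e2 - w2 * e1) / N)
        (d := ((d2 : ℝ) * e1 - d1 * e2) / N) (h := (h : ℝ)) (R := (s : ℝ) / N) hhr
        (by positivity) ?_ ?_
      · refine (hreg.mono hb).congr hhr.le ?_
        intro t _
        congr 1 <;> ring
      · intro t ht
        have h6 := dist2_le (w1 := w1) (w2 := w2) (h := h) hn hn0 (le_of_lt ht.1) (le_of_lt ht.2)
        have e3 : (-((w1 : ℝ) * e1 + w2 * e2) / N + ((d1 : ℝ) * e1 + d2 * e2) / N * t) ^ 2 +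
            (((w1 : ℝ) * e2 - w2 * e1) / N + ((d2 : ℝ) * e1 - d1 * e2) / N * t) ^ 2 =
            (((w1 : ℝ) - t * d1) ^ 2 + ((w2 : ℝ) - t * d2) ^ 2) * N / N ^ 2 := by
          have : (((w1 : ℝ) - t * d1) ^ 2 + ((w2 : ℝ) - t * d2) ^ 2) * N =
            (-((w1 : ℝ) * e1 + w2 * e2) + ((d1 : ℝ) * e1 + d2 * e2) * t) ^ 2 +
            (((w1 : ℝ) * e2 - w2 * e1) + ((d2 : ℝ) * e1 - d1 * e2) * t) ^ 2 := by
            rw [hNr]; ring
          rw [this]
          field_simp
        rw [e3, div_pow]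
        apply div_le_div_of_nonneg_right _ (by positivity)
        nlinarith
      · by_cases hz : w1 * e2 - w2 * e1 = 0 ∧ w1 * e2 - w2 * e1 + h * (d2 * e1 - d1 * e2) = 0
        · right
          obtain ⟨z1, z2⟩ := hz
          have z1r : (w1 : ℝ) * e2 - w2 * e1 = 0 := by exact_mod_cast z1
          rw [z1, zero_add] at z2
          have z2r : (h : ℝ) * ((d2 : ℝ) * e1 - d1 * e2) = 0 := by exact_mod_cast z2
          have z3 : (d2 : ℝ) * e1 - d1 * e2 = 0 := by
            rcases mul_eq_zero.1 z2r with h7 | h7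
            · exact absurd h7 hhr.ne'
            · exact h7
          rw [z1r, z3]; simp
        · left
          intro t ht
          have e4 : ((w1 : ℝ) * e2 - w2 * e1) / N + ((d2 : ℝ) * e1 - d1 * e2) / N * t =
              ((h - t) * ((w1 : ℝ) * e2 - w2 * e1) +
                t * ((w1 : ℝ) * e2 - w2 * e1 + h * ((d2 : ℝ) * e1 - d1 * e2))) / (N * h) := by
            field_simp; ring
          rw [e4]
          have ht1 : 0 < (h : ℝ) - t := by linarith [ht.2]
          have ht0 : 0 < t := ht.1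
          apply div_ne_zero _ (by positivity)
          rcases hv with ⟨p1, p2⟩ | ⟨p1, p2⟩
          · have p1r : (0 : ℝ) ≤ (w1 : ℝ) * e2 - w2 * e1 := by exact_mod_cast p1
            have p2r : (0 : ℝ) ≤ (w1 : ℝ) * e2 - w2 * e1 + h * ((d2 : ℝ) * e1 - d1 * e2) := by
              exact_mod_cast p2
            rcases not_and_or.1 hz with q | q
            · have : (0 : ℝ) < (w1 : ℝ) * e2 - w2 * e1 := by
                refine lt_of_le_of_ne p1r ?_
                intro h9; apply q; have := h9.symm; exact_mod_cast this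
              have := mul_pos ht1 this
              have := mul_nonneg ht0.le p2r
              linarith
            · have : (0 : ℝ) < (w1 : ℝ) * e2 - w2 * e1 + h * ((d2 : ℝ) * e1 - d1 * e2) := by
                refine lt_of_le_of_ne p2r ?_
                intro h9; apply q; have := h9.symm; exact_mod_cast this
              have := mul_pos ht0 this
              have := mul_nonneg ht1.le p1r
              linarith
          · have p1r : (w1 : ℝ) * e2 - w2 * e1 ≤ 0 := by exact_mod_cast p1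
            have p2r : (w1 : ℝ) * e2 - w2 * e1 + h * ((d2 : ℝ) * e1 - d1 * e2) ≤ 0 := by
              exact_mod_cast p2
            rcases not_and_or.1 hz with q | q
            · have : (w1 : ℝ) * e2 - w2 * e1 < 0 := by
                refine lt_of_le_of_ne p1r ?_
                intro h9; apply q; exact_mod_cast h9
              have := mul_neg_of_pos_of_neg ht1 this
              have := mul_nonpos_of_nonneg_of_nonpos ht0.le p2r
              linarith
            · have : (w1 : ℝ) * e2 - w2 * e1 + h * ((d2 : ℝ) * e1 - d1 * e2) < 0 := by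
                refine lt_of_le_of_ne p2r ?_
                intro h9; apply q; exact_mod_cast h9
              have := mul_neg_of_pos_of_neg ht0 this
              have := mul_nonpos_of_nonneg_of_nonpos ht1.le p1r
              linarith

/-! ### one weighted segment, lists -/

/-- deviation bound (scale `2^48`) of `m * pot` along the cell `z + t d`, `0 ≤ t ≤ h` -/
def blkD (p : WSeg) (z d : ℤ × ℤ) (n2 h : ℕ) : Option ℕ :=
  (fun (w1 w2 e1 e2 : ℤ) => (fun (v0 vd : ℤ) (N : ℕ) =>
    bif Nat.ble 1 N && ((decide (0 ≤ v0) && decide (0 ≤ v0 + h * vd)) ||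
        (decide (v0 ≤ 0) && decide (v0 + h * vd ≤ 0))) then
      match endD w1 w2 d.1 d.2 e1 e2 n2 N h with
      | none => none
      | some x => match endD (w1 + e1) (w2 + e2) d.1 d.2 e1 e2 n2 N h with
        | none => none
        | some y => some (p.2.2.natAbs * (x + y))
    else none) (w1 * e2 - w2 * e1) (d.2 * e1 - d.1 * e2) (sqN e1 e2))
  (p.1.1 - z.1) (p.1.2 - z.2) (p.2.1.1 - p.1.1) (p.2.1.2 - p.1.2)

theorem cdev_blk {p : WSeg} {z d : ℤ × ℤ} {n2 h D : ℕ} (hn : n2 = sqN d.1 d.2) (hn0 : 0 < n2)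
    (hh : 0 < h) (hD : blkD p z d n2 h = some D) :
    CDev (fun t : ℝ => (p.2.2 : ℝ) * pot (gc p.1) (gc p.2.1) (gc z + t * gc d)) 0 h
      (D / 281474976710656) := by
  obtain ⟨⟨a1, a2⟩, ⟨b1, b2⟩, m⟩ := p
  obtain ⟨z1, z2⟩ := z
  obtain ⟨d1, d2⟩ := d
  unfold blkD at hD
  simp only at hD hn ⊢
  generalize he1 : b1 - a1 = e1 at hD
  generalize he2 : b2 - a2 = e2 at hD
  generalize hw1 : a1 - z1 = w1 at hD
  generalize hw2 : a2 - z2 = w2 at hD
  generalize hN : sqN e1 e2 = N at hD
  cases hc : (Nat.ble 1 N && ((decide (0 ≤ w1 * e2 - w2 * e1) &&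
      decide (0 ≤ w1 * e2 - w2 * e1 + h * (d2 * e1 - d1 * e2))) ||
      (decide (w1 * e2 - w2 * e1 ≤ 0) &&
        decide (w1 * e2 - w2 * e1 + h * (d2 * e1 - d1 * e2) ≤ 0)))) with
  | false => rw [hc, cond_false] at hD; exact absurd hD (by simp)
  | true =>
    rw [hc, cond_true] at hD
    simp only [Bool.or_eq_true, Bool.and_eq_true, decide_eq_true_eq] at hc
    obtain ⟨hN1, hv⟩ := hc
    have hN0 : 0 < N := Nat.le_of_ble_eq_true hN1
    cases hx : endD w1 w2 d1 d2 e1 e2 n2 N h with
    | none => rw [hx] at hD; exact absurd hD (by simp)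
    | some x =>
      rw [hx] at hD
      simp only at hD
      cases hy : endD (w1 + e1) (w2 + e2) d1 d2 e1 e2 n2 N h with
      | none => rw [hy] at hD; exact absurd hD (by simp)
      | some y =>
        rw [hy] at hD
        have hD' := Option.some.inj hD
        have hv' : (0 ≤ (w1 + e1) * e2 - (w2 + e2) * e1 ∧
              0 ≤ (w1 + e1) * e2 - (w2 + e2) * e1 + h * (d2 * e1 - d1 * e2)) ∨
            ((w1 + e1) * e2 - (w2 + e2) * e1 ≤ 0 ∧
              (w1 + e1) * e2 - (w2 + e2) * e1 + h * (d2 * e1 - d1 * e2) ≤ 0) := by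
          have e : (w1 + e1) * e2 - (w2 + e2) * e1 = w1 * e2 - w2 * e1 := by ring
          rw [e]; exact hv
        have cx := cdev_end hn hn0 hN.symm hN0 hh hv hx
        have cy := cdev_end hn hn0 hN.symm hN0 hh hv' hy
        have hNr : (N : ℝ) = (e1 : ℝ) ^ 2 + (e2 : ℝ) ^ 2 := by rw [← hN, sqN_cast]
        have hN0r : (0 : ℝ) < N := by exact_mod_cast hN0
        have hhr : (0 : ℝ) < h := by exact_mod_cast hh
        have hAB : gc (b1, b2) - gc (a1, a2) = ⟨(e1 : ℝ), (e2 : ℝ)⟩ := by
          apply Complex.ext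
          · simp [← he1]
          · simp [← he2]
        have hAB0 : gc (b1, b2) - gc (a1, a2) ≠ 0 := by
          rw [hAB, Ne, ← Complex.normSq_eq_zero, Complex.normSq_mk]
          have : (e1 : ℝ) * e1 + e2 * e2 = N := by rw [hNr]; ring
          rw [this]; exact hN0r.ne'
        have hs : ∀ t : ℝ, gc (z1, z2) + t * gc (d1, d2) - gc (a1, a2) =
            ⟨t * d1 - w1, t * d2 - w2⟩ := by
          intro t
          apply Complex.ext
          · simp [← hw1]; ring
          · simp [← hw2]; ring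
        have hpot : ∀ t : ℝ, pot (gc (a1, a2)) (gc (b1, b2)) (gc (z1, z2) + t * gc (d1, d2)) =
            (Real.log ‖gc (b1, b2) - gc (a1, a2)‖ + 0 * t) +
            (Phi (((t * d1 - w1) * e1 + (t * d2 - w2) * e2) / N)
                (((t * d2 - w2) * e1 - (t * d1 - w1) * e2) / N) -
              Phi (((t * d1 - (w1 + e1 : ℤ)) * e1 + (t * d2 - (w2 + e2 : ℤ)) * e2) / N)
                (((t * d2 - (w2 + e2 : ℤ)) * e1 - (t * d1 - (w1 + e1 : ℤ)) * e2) / N)) := by
          intro t
          unfold pot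
          rw [inner_eq hAB0, hs, hAB, Complex.sub_re, Complex.sub_im, div_re', div_im', ← hNr]
          have i1 : ((t * (d1 : ℝ) - w1) * e1 + (t * d2 - w2) * e2) / N - (1 : ℂ).re =
              ((t * d1 - (w1 + e1 : ℤ)) * e1 + (t * d2 - (w2 + e2 : ℤ)) * e2) / N := by
            rw [Complex.one_re, sub_eq_iff_eq_add, div_add_one hN0r.ne', div_left_inj' hN0r.ne', hNr]
            push_cast; ring
          have i2 : ((t * (d2 : ℝ) - w2) * e1 - (t * d1 - w1) * e2) / N - (1 : ℂ).im =
              ((t * d2 - (w2 + e2 : ℤ)) * e1 - (t * d1 - (w1 + e1 : ℤ)) * e2) / N := by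
            rw [Complex.one_im, sub_zero, div_left_inj' hN0r.ne']
            push_cast; ring
          rw [i1, i2, zero_mul, add_zero]
        have hfin := ((cdev_affine (a := Real.log ‖gc (b1, b2) - gc (a1, a2)‖) (b := 0) hhr).add
          (cx.sub cy)).smul (m : ℝ)
        have hDr : (D : ℝ) = |(m : ℝ)| * (x + y) := by
          rw [← hD']; push_cast; rw [Nat.cast_natAbs, Int.cast_abs]
        refine (hfin.congr hhr.le ?_).mono (le_of_eq ?_)
        · intro t _
          rw [hpot t]
        · rw [hDr]; ring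

/-- deviation bound of the potential of a weighted list along the cell `z + t d`, `0 ≤ t ≤ h` -/
def devL : List WSeg → ℤ × ℤ → ℤ × ℤ → ℕ → ℕ → Option ℕ
  | [], _, _, _, _ => some 0
  | p :: L, z, d, n2, h => match blkD p z d n2 h with
    | none => none
    | some x => match devL L z d n2 h with
      | none => none
      | some y => some (x + y)

theorem cdev_devL {z d : ℤ × ℤ} {n2 h : ℕ} (hn : n2 = sqN d.1 d.2) (hn0 : 0 < n2) (hh : 0 < h) :
    ∀ (L : List WSeg) {D : ℕ}, devL L z d n2 h = some D →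
      CDev (fun t : ℝ => potL L (gc z + t * gc d)) 0 h (D / 281474976710656)
  | [], D, hD => by
    have hD' := Option.some.inj hD
    intro t _
    unfold chord potL
    rw [← hD']; simp
  | p :: L, D, hD => by
    unfold devL at hD
    cases hx : blkD p z d n2 h with
    | none => rw [hx] at hD; exact absurd hD (by simp)
    | some x =>
      rw [hx] at hD
      simp only at hD
      cases hy : devL L z d n2 h with
      | none => rw [hy] at hD; exact absurd hD (by simp)
      | some y =>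
        rw [hy] at hD
        have hD' := Option.some.inj hD
        have h1 := (cdev_blk hn hn0 hh hx).add (cdev_devL hn hn0 hh L hy)
        refine h1.mono (le_of_eq ?_)
        rw [← hD']; push_cast; ring

/-! ### the line checker -/

/-- upper end (scale `2^48`) of `potL L z + a + T b` -/
def valU (L : List WSeg) (IA IB : ℤ × ℤ) (z : ℤ × ℤ) (T : ℕ) : ℤ :=
  (addI (addI (potLI L z) IA) (nsmulI T IB)).2

theorem le_valU {L : List WSeg} {a b : ℝ} {IA IB : ℤ × ℤ} (hL : potOK L = true) (ha : Enc a IA)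
    (hb : Enc b IB) (z : ℤ × ℤ) (T : ℕ) :
    (potL L (gc z) + a + T * b) * 281474976710656 ≤ valU L IA IB z T :=
  ((((enc_potL z L hL).add ha).add (hb.nsmul T)).2)

/-- the point `P + T d` -/
def node (P d : ℤ × ℤ) (T : ℕ) : ℤ × ℤ := (P.1 + T * d.1, P.2 + T * d.2)

theorem gc_node (P d : ℤ × ℤ) (T : ℕ) : gc (node P d T) = gc P + (T : ℂ) * gc d := by
  apply Complex.ext <;> simp [node, gc]

/-- cells `[T, T1], [T1, T2], ...`; `V` = upper value at the left end point -/
def chkCells (L : List WSeg) (P d : ℤ × ℤ) (n2 : ℕ) (IA IB : ℤ × ℤ) (c : ℤ) :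
    ℕ → ℤ → List ℕ → Bool
  | _, _, [] => true
  | T, V, T' :: Ts =>
    (fun V' : ℤ =>
      (match devL L (node P d T) d n2 (T' - T) with
        | none => false
        | some D => decide (V + D ≤ c) && decide (V' + D ≤ c)) &&
      (Nat.blt T T' && chkCells L P d n2 IA IB c T' V' Ts)) (valU L IA IB (node P d T') T')

/-- **line checker**: `potL L (P + t d) + a + b t ≤ c / 2^48` on `[T0, last]`. -/
def chkLine (L : List WSeg) (P d : ℤ × ℤ) (IA IB : ℤ × ℤ) (c : ℤ) (T0 : ℕ) (Ts : List ℕ) : Bool :=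
  potOK L && (Nat.blt 0 (sqN d.1 d.2) &&
    chkCells L P d (sqN d.1 d.2) IA IB c T0 (valU L IA IB (node P d T0) T0) Ts)

/-- last parameter value -/
def endN : ℕ → List ℕ → ℕ
  | T, [] => T
  | _, T' :: Ts => endN T' Ts

theorem chkCells_le {L : List WSeg} {P d : ℤ × ℤ} {n2 : ℕ} {IA IB : ℤ × ℤ} {c : ℤ} {a b : ℝ}
    (hn : n2 = sqN d.1 d.2) (hn0 : 0 < n2) (hL : potOK L = true) (ha : Enc a IA) (hb : Enc b IB) :
    ∀ (Ts : List ℕ) (T : ℕ) (V : ℤ), Ts ≠ [] →
      (potL L (gc (node P d T)) + a + T * b) * 281474976710656 ≤ V →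
      chkCells L P d n2 IA IB c T V Ts = true →
      ∀ t : ℝ, (T : ℝ) ≤ t → t ≤ (endN T Ts : ℕ) →
        potL L (gc P + t * gc d) + a + b * t ≤ c / 281474976710656
  | [], _, _, h, _, _ => absurd rfl h
  | T' :: Ts, T, V, _, hV, h => by
    unfold chkCells at h
    simp only [Bool.and_eq_true] at h
    obtain ⟨h1, h2, h3⟩ := h
    have hTT : T < T' := by simpa [Nat.blt_eq] using h2
    have hV' := le_valU hL ha hb (node P d T') T'
    cases hD : devL L (node P d T) d n2 (T' - T) with
    | none => rw [hD] at h1; exact absurd h1 (by simp)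
    | some D =>
      rw [hD] at h1
      simp only [Bool.and_eq_true, decide_eq_true_eq] at h1
      obtain ⟨h4, h5⟩ := h1
      have hh : 0 < T' - T := Nat.sub_pos_of_lt hTT
      have hhr : (0 : ℝ) < ((T' - T : ℕ) : ℝ) := by exact_mod_cast hh
      have hhe : ((T' - T : ℕ) : ℝ) = (T' : ℝ) - T := by rw [Nat.cast_sub hTT.le]
      have hdev := (cdev_devL hn hn0 hh L hD).add (cdev_affine (a := a + b * T) (b := b) hhr)
      have h4r : ((V : ℝ) + D) ≤ c := by exact_mod_cast h4
      have h5r : ((valU L IA IB (node P d T') T' : ℝ) + D) ≤ c := by exact_mod_cast h5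
      have hcell := hdev.le (C := (c : ℝ) / 281474976710656) hhr
        (by
          rw [le_div_iff₀ (by norm_num)]
          simp only [Complex.ofReal_zero, zero_mul, add_zero, mul_zero]
          linarith)
        (by
          rw [le_div_iff₀ (by norm_num)]
          have e : gc (node P d T) + (((T' - T : ℕ) : ℝ) : ℂ) * gc d = gc (node P d T') := by
            rw [gc_node, gc_node, hhe]; push_cast; ring
          rw [e, hhe]
          linarith)
      intro t ht0 ht1
      rcases le_or_gt t T' with htT | htT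
      · have := hcell (t - T) ⟨by linarith, by rw [hhe]; linarith⟩
        have e : gc (node P d T) + ((t - T : ℝ) : ℂ) * gc d = gc P + t * gc d := by
          rw [gc_node]; push_cast; ring
        simp only [e] at this
        linarith
      · have hne : Ts ≠ [] := by
          intro h0
          subst h0
          simp only [endN] at ht1
          linarith
        exact chkCells_le hn hn0 hL ha hb Ts T' _ hne hV' h3 t htT.le ht1

/-- **the line checker is correct** -/
theorem chkLine_le {L : List WSeg} {P d : ℤ × ℤ} {IA IB : ℤ × ℤ} {c : ℤ} {a b : ℝ} {T0 : ℕ}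
    {Ts : List ℕ} (ha : Enc a IA) (hb : Enc b IB) (hne : Ts ≠ [])
    (h : chkLine L P d IA IB c T0 Ts = true) :
    ∀ t : ℝ, (T0 : ℝ) ≤ t → t ≤ (endN T0 Ts : ℕ) →
      potL L (gc P + t * gc d) + a + b * t ≤ c / 281474976710656 := by
  unfold chkLine at h
  simp only [Bool.and_eq_true] at h
  obtain ⟨h1, h2, h3⟩ := h
  have hn0 : 0 < sqN d.1 d.2 := by simpa [Nat.blt_eq] using h2
  exact chkCells_le rfl hn0 h1 ha hb Ts T0 _ hne (le_valU h1 ha hb _ _) h3

end Crest.Agent.R006.Chk746
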