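import Crest.Agent.R006.CertTail_322
import Crest.Agent.R006.P3_Chk_746

/-!
# Row 6, block P3: from the Bool checks to `Cert.OK` (helper322)

* `RayR S d x y`, `RayQ S d x y` : the ray inequalities for `T ∈ [x, y]`; `rayR_chk`, `rayQ_chk`
  (helper746's line checker), `RayR.trans`;
* `CellR S d c`, `CellQ S d c` : the inequalities on one real cell; `cellR_chk`, `cellQ_chk`;
* `OK_mk` : assembly; `chkAll`, `OK_of_chkAll` : everything in one Bool.
-/

set_option autoImplicit false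

namespace Crest.Agent.R006.Cert

open D NumSegx464 Num482 NumTail2x322 Chk746

/-- floor of `l / D` in units `2^-48` -/
def lev (l : ℤ) (D : ℕ) : ℤ := l * 281474976710656 / D

theorem lev_le (l : ℤ) {D : ℕ} (hD : 0 < D) : (lev l D : ℝ) / 281474976710656 ≤ (l : ℝ) / D := by
  have h1 : lev l D * D ≤ l * 281474976710656 := by
    unfold lev
    exact Int.ediv_mul_le _ (by exact_mod_cast hD.ne')
  have h2 : (lev l D : ℝ) * D ≤ l * 281474976710656 := by exact_mod_cast h1
  have hD' : (0 : ℝ) < D := by exact_mod_cast hD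
  rw [div_le_div_iff₀ (by norm_num) hD']
  exact h2

/-! ### rays -/

/-- the `R` inequality on the part `[x, y]` of the ray -/
def RayR (S : Shape) (d : Data) (x y : ℝ) : Prop :=
  ∀ T : ℝ, x ≤ T → T ≤ y → PhiR S d (ray S d T) ≤ (d.lR : ℝ) / d.D

/-- the `Q` inequality on the part `[x, y]` of the ray -/
def RayQ (S : Shape) (d : Data) (x y : ℝ) : Prop :=
  ∀ T : ℝ, x ≤ T → T ≤ y → PhiQ S d (ray S d T) ≤ (d.lQ : ℝ) / d.D

theorem RayR.trans {S : Shape} {d : Data} {x y z : ℝ} (h : RayR S d x y) (h' : RayR S d y z) :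
    RayR S d x z := fun T h1 h2 => (le_total T y).elim (h T h1) (fun h3 => h' T h3 h2)

theorem RayQ.trans {S : Shape} {d : Data} {x y z : ℝ} (h : RayQ S d x y) (h' : RayQ S d y z) :
    RayQ S d x z := fun T h1 h2 => (le_total T y).elim (h T h1) (fun h3 => h' T h3 h2)

/-- test of the `R` inequality on `[T0, last Ts]` -/
def rayR_chk (S : Shape) (d : Data) (T0 : ℕ) (Ts : List ℕ) : Bool :=
  (!Ts.isEmpty) && chkLine (LRl S d) (apx S d) (-1, 1) (smulI (-(d.K * S.w)) ln8I)
    (negI (addI ln8I piI)) (lev d.lR d.D) T0 Ts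

/-- test of the `Q` inequality on `[T0, last Ts]` -/
def rayQ_chk (S : Shape) (d : Data) (T0 : ℕ) (Ts : List ℕ) : Bool :=
  (!Ts.isEmpty) && chkLine (LQl S d) (apx S d) (-1, 1) (0, 0)
    (negI (smulI 2 piI)) (lev d.lQ d.D) T0 Ts

theorem ne_of_isEmpty {Ts : List ℕ} (h : (!Ts.isEmpty) = true) : Ts ≠ [] := by
  intro h0; subst h0; simp at h

theorem rayR_of_chk {S : Shape} {d : Data} (hD : 0 < d.D) {T0 : ℕ} {Ts : List ℕ}
    (h : rayR_chk S d T0 Ts = true) : RayR S d T0 (endN T0 Ts) := by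
  intro T h1 h2
  unfold rayR_chk at h
  simp only [Bool.and_eq_true] at h
  have ha : Enc (-(Real.log 8 * (d.K * S.w))) (smulI (-(d.K * S.w)) ln8I) := by
    have := enc_ln8.smul (-(d.K * S.w))
    refine (Eq.subst (motive := fun r : ℝ => Enc r _) ?_ this)
    push_cast; ring
  have hb : Enc (-(Real.log 8 + Real.pi)) (negI (addI ln8I piI)) := (enc_ln8.add enc_pi).neg
  have hT : (0 : ℝ) ≤ T := le_trans (Nat.cast_nonneg _) h1
  rw [PhiR_ray S d hT]
  exact (chkLine_le ha hb (ne_of_isEmpty h.1) h.2 T h1 h2).trans (lev_le _ hD)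

theorem rayQ_of_chk {S : Shape} {d : Data} (hD : 0 < d.D) {T0 : ℕ} {Ts : List ℕ}
    (h : rayQ_chk S d T0 Ts = true) : RayQ S d T0 (endN T0 Ts) := by
  intro T h1 h2
  unfold rayQ_chk at h
  simp only [Bool.and_eq_true] at h
  have hb : Enc (-(2 * Real.pi)) (negI (smulI 2 piI)) := by
    have := (enc_pi.smul 2).neg
    refine (Eq.subst (motive := fun r : ℝ => Enc r _) ?_ this)
    push_cast; ring
  have hT : (0 : ℝ) ≤ T := le_trans (Nat.cast_nonneg _) h1
  rw [PhiQ_ray S d hT]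
  have := (chkLine_le enc_zero hb (ne_of_isEmpty h.1) h.2 T h1 h2).trans (lev_le _ hD)
  linarith

/-! ### real cells -/

/-- the `R` inequality on one real cell -/
def CellR (S : Shape) (d : Data) (c : SCell) : Prop :=
  ∀ x ∈ Set.Icc (c.l : ℝ) c.r, PhiR S d (x : ℂ) - (d.lR : ℝ) / d.D ≤ c.val d.D x

/-- the `Q` inequality on one real cell -/
def CellQ (S : Shape) (d : Data) (c : SCell) : Prop :=
  ∀ x ∈ Set.Icc (c.l : ℝ) c.r, PhiQ S d (x : ℂ) - (d.lQ : ℝ) / d.D ≤ c.val d.D x

/-- the majorant is nonnegative on one real cell -/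
def Cell0 (d : Data) (c : SCell) : Prop :=
  ∀ x ∈ Set.Icc (c.l : ℝ) c.r, 0 ≤ c.val d.D x

/-- test of the `R` inequality on a real cell; `Ts` = cell ends relative to `c.l` -/
def cellR_chk (S : Shape) (d : Data) (c : SCell) (Ts : List ℕ) : Bool :=
  (!Ts.isEmpty) && decide ((endN 0 Ts : ℤ) = c.r - c.l) &&
    chkLine (LRl S d) (c.l, 0) (1, 0)
      (subI (smulI c.l ln8I) (ofQ (d.lR + (c.al + c.be * c.l)) d.D))
      (subI ln8I (ofQ c.be d.D)) 0 0 Ts

/-- test of the `Q` inequality on a real cell; `Ts` = cell ends relative to `c.l` -/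
def cellQ_chk (S : Shape) (d : Data) (c : SCell) (Ts : List ℕ) : Bool :=
  (!Ts.isEmpty) && decide ((endN 0 Ts : ℤ) = c.r - c.l) &&
    chkLine (LQl S d) (c.l, 0) (1, 0)
      (negI (ofQ (d.lQ + (c.al + c.be * c.l)) d.D))
      (negI (ofQ c.be d.D)) 0 0 Ts

def cell0_chk (c : SCell) : Bool :=
  decide (0 ≤ c.al + c.be * c.l) && decide (0 ≤ c.al + c.be * c.r)

theorem gc_line (l : ℤ) (x : ℝ) : ((x : ℝ) : ℂ) = gc (l, 0) + ((x - l : ℝ) : ℂ) * gc (1, 0) := by
  apply Complex.ext <;> simp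

theorem cellR_of_chk {S : Shape} {d : Data} (hD : 0 < d.D) {c : SCell} {Ts : List ℕ}
    (h : cellR_chk S d c Ts = true) : CellR S d c := by
  intro x hx
  unfold cellR_chk at h
  simp only [Bool.and_eq_true, decide_eq_true_eq] at h
  obtain ⟨⟨h1, h2⟩, h3⟩ := h
  have ha := (enc_ln8.smul c.l).sub (enc_ofQ (d.lR + (c.al + c.be * c.l)) hD)
  have hb := enc_ln8.sub (enc_ofQ c.be hD)
  have he : ((endN 0 Ts : ℕ) : ℝ) = (c.r : ℝ) - c.l := by
    have : ((endN 0 Ts : ℤ) : ℝ) = ((c.r - c.l : ℤ) : ℝ) := by exact_mod_cast h2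
    push_cast at this
    exact_mod_cast this
  have := chkLine_le ha hb (ne_of_isEmpty h1) h3 (x - c.l) (by simpa using hx.1)
    (by rw [he]; linarith [hx.2])
  rw [← gc_line] at this
  rw [PhiR_real]
  unfold SCell.val
  have hD' : (d.D : ℝ) ≠ 0 := by exact_mod_cast hD.ne'
  push_cast at this
  have e : (c.al + c.be * x : ℝ) / d.D = ((c.al : ℝ) + c.be * c.l) / d.D +
      (c.be : ℝ) / d.D * (x - c.l) := by
    field_simp; ring
  have e2 : ((d.lR : ℝ) + ((c.al : ℝ) + c.be * c.l)) / d.D =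
      (d.lR : ℝ) / d.D + ((c.al : ℝ) + c.be * c.l) / d.D := by ring
  rw [e]
  rw [e2] at this
  rw [zero_div] at this
  nlinarith

theorem cellQ_of_chk {S : Shape} {d : Data} (hD : 0 < d.D) {c : SCell} {Ts : List ℕ}
    (h : cellQ_chk S d c Ts = true) : CellQ S d c := by
  intro x hx
  unfold cellQ_chk at h
  simp only [Bool.and_eq_true, decide_eq_true_eq] at h
  obtain ⟨⟨h1, h2⟩, h3⟩ := h
  have ha := (enc_ofQ (d.lQ + (c.al + c.be * c.l)) hD).neg
  have hb := (enc_ofQ c.be hD).neg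
  have he : ((endN 0 Ts : ℕ) : ℝ) = (c.r : ℝ) - c.l := by
    have : ((endN 0 Ts : ℤ) : ℝ) = ((c.r - c.l : ℤ) : ℝ) := by exact_mod_cast h2
    push_cast at this
    exact_mod_cast this
  have := chkLine_le ha hb (ne_of_isEmpty h1) h3 (x - c.l) (by simpa using hx.1)
    (by rw [he]; linarith [hx.2])
  rw [← gc_line] at this
  rw [PhiQ_real]
  unfold SCell.val
  have hD' : (d.D : ℝ) ≠ 0 := by exact_mod_cast hD.ne'
  push_cast at this
  have e : (c.al + c.be * x : ℝ) / d.D = ((c.al : ℝ) + c.be * c.l) / d.D +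
      (c.be : ℝ) / d.D * (x - c.l) := by
    field_simp; ring
  have e2 : ((d.lQ : ℝ) + ((c.al : ℝ) + c.be * c.l)) / d.D =
      (d.lQ : ℝ) / d.D + ((c.al : ℝ) + c.be * c.l) / d.D := by ring
  rw [e]
  rw [e2] at this
  rw [zero_div] at this
  nlinarith

theorem cell0_of_chk {d : Data} {c : SCell} (h : cell0_chk c = true) : Cell0 d c := by
  intro x hx
  unfold cell0_chk at h
  simp only [Bool.and_eq_true, decide_eq_true_eq] at h
  have h1 : (0 : ℝ) ≤ c.al + c.be * c.l := by exact_mod_cast h.1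
  have h2 : (0 : ℝ) ≤ c.al + c.be * c.r := by exact_mod_cast h.2
  unfold SCell.val
  apply div_nonneg _ (Nat.cast_nonneg _)
  rcases le_total 0 (c.be : ℝ) with hb | hb
  · nlinarith [mul_le_mul_of_nonneg_left hx.1 hb]
  · nlinarith [mul_le_mul_of_nonpos_left hx.2 hb]

/-- the three inequalities on all cells of a list; `Ts`: pairs (subdivision for `R`, for `Q`) -/
def cells_chk (S : Shape) (d : Data) : List SCell → List (List ℕ × List ℕ) → Bool
  | [], [] => true
  | c :: L, t :: Ts => cellR_chk S d c t.1 && cellQ_chk S d c t.2 && cell0_chk c &&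
      cells_chk S d L Ts
  | _, _ => false

/-- all inequalities on the cells of a list -/
def CellsOK (S : Shape) (d : Data) (L : List SCell) : Prop :=
  ∀ c ∈ L, CellR S d c ∧ CellQ S d c ∧ Cell0 d c

theorem CellsOK.append {S : Shape} {d : Data} {L L' : List SCell} (h : CellsOK S d L)
    (h' : CellsOK S d L') : CellsOK S d (L ++ L') := by
  intro c hc
  rcases List.mem_append.1 hc with h1 | h1
  · exact h c h1
  · exact h' c h1

theorem cells_of_chk {S : Shape} {d : Data} (hD : 0 < d.D) : ∀ (L : List SCell)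
    (Ts : List (List ℕ × List ℕ)), cells_chk S d L Ts = true → CellsOK S d L
  | [], _, _ => by intro c hc; simp at hc
  | c :: L, [], h => by simp [cells_chk] at h
  | c :: L, t :: Ts, h => by
    simp only [cells_chk, Bool.and_eq_true] at h
    obtain ⟨⟨⟨h1, h2⟩, h3⟩, h4⟩ := h
    intro c' hc'
    rcases List.mem_cons.1 hc' with rfl | hc'
    · exact ⟨cellR_of_chk hD h1, cellQ_of_chk hD h2, cell0_of_chk h3⟩
    · exact cells_of_chk hD L Ts h4 c' hc'

theorem wf_D {S : Shape} {d : Data} (h : wf S d = true) : 0 < d.D := by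
  unfold wf at h
  simp only [Bool.and_eq_true, decide_eq_true_eq] at h
  exact h.1.1.1.1.1.1.1.1.2

/-- **assembly** -/
theorem OK_mk {S : Shape} {d : Data} (hwf : Cert.wf S d = true) (hwf2 : Cert.wf2 S d = true)
    {R R' Q Q' : ℤ}
    {C C' : List Cand} (hR : RayR S d 0 R) (tR : tailR_chk S d R' C = true) (hR' : R' ≤ R)
    (hQ : RayQ S d 0 Q) (tQ : tailQ_chk S d Q' C' = true) (hQ' : Q' ≤ Q)
    (hc : CellsOK S d d.cells) : OK S d where
  wf := hwf
  wf2 := hwf2
  rayR := by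
    intro T hT
    rcases le_total T R with h | h
    · exact hR T hT h
    · exact tailR (wf_D hwf) tR (le_trans (by exact_mod_cast hR') h)
  rayQ := by
    intro T hT
    rcases le_total T Q with h | h
    · exact hQ T hT h
    · exact tailQ (wf_D hwf) tQ (le_trans (by exact_mod_cast hQ') h)
  cellR := fun c h => (hc c h).1
  cellQ := fun c h => (hc c h).2.1
  cell0 := fun c h => (hc c h).2.2

/-- the data of the kernel checks -/
structure ChkData where
  tR : List ℕ
  tQ : List ℕ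
  tc : List (List ℕ × List ℕ)

/-- everything in one Bool -/
def chkAll (S : Shape) (d : Data) (k : ChkData) : Bool :=
  Cert.wf S d && Cert.wf2 S d && rayR_chk S d 0 k.tR && tailR_chk S d (endN 0 k.tR) stdC &&
    rayQ_chk S d 0 k.tQ && tailQ_chk S d (endN 0 k.tQ) stdC && cells_chk S d d.cells k.tc

theorem OK_of_chkAll {S : Shape} {d : Data} {k : ChkData} (h : chkAll S d k = true) : OK S d := by
  unfold chkAll at h
  simp only [Bool.and_eq_true] at h
  obtain ⟨⟨⟨⟨⟨⟨h1, h1'⟩, h2⟩, h3⟩, h4⟩, h5⟩, h6⟩ := h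
  have hD := wf_D h1
  have hR := rayR_of_chk hD h2
  have hQ := rayQ_of_chk hD h4
  refine OK_mk h1 h1' (R := endN 0 k.tR) (Q := endN 0 k.tQ) ?_ h3 le_rfl ?_ h5 le_rfl
    (cells_of_chk hD _ _ h6)
  · intro T h7 h8
    exact hR T (by simpa using h7) (by exact_mod_cast h8)
  · intro T h7 h8
    exact hQ T (by simpa using h7) (by exact_mod_cast h8)

end Crest.Agent.R006.Cert
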