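import Mathlib

/-! Row 6, block P3, leaf POT (helper943): sums of logs over equally spaced points of a segment
against the potential of the segment (one point per cell, at the midpoint of the cell). -/

namespace Crest.Agent.R006.Potx943

open MeasureTheory Set

/-- potential of the centred unit cell -/
noncomputable def cell (u : ℂ) : ℝ := ∫ t in (-(1 / 2) : ℝ)..(1 / 2), Real.log ‖u - (t : ℂ)‖

/-- potential of the segment `[0,m]` of the real line (density one) -/
noncomputable def seg (w : ℂ) (m : ℝ) : ℝ := ∫ t in (0 : ℝ)..m, Real.log ‖w - (t : ℂ)‖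

theorem intervalIntegrable_log_norm_sub (w : ℂ) (a b : ℝ) :
    IntervalIntegrable (fun t : ℝ => Real.log ‖w - (t : ℂ)‖) volume a b := by
  apply MeromorphicOn.intervalIntegrable_log_norm
  intro x _
  have h1 : AnalyticAt ℝ (fun t : ℝ => w - (t : ℂ)) x :=
    analyticAt_const.sub (Complex.ofRealCLM.analyticAt x)
  exact h1.meromorphicAt

theorem xlogx_ge {y : ℝ} (hy : 0 < y) : y - 1 ≤ y * Real.log y := by
  have h := Real.one_sub_inv_le_log_of_pos hy
  have := mul_le_mul_of_nonneg_left h hy.le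
  have h2 : y * (1 - y⁻¹) = y - 1 := by field_simp
  linarith

theorem shift_ge_aux {x : ℝ} (hx : 1 / 2 ≤ x) :
    0 ≤ (x + 1 / 2) * Real.log (x + 1 / 2) - (x - 1 / 2) * Real.log (x - 1 / 2) := by
  rcases eq_or_lt_of_le hx with h | h
  · rw [← h]; norm_num
  · have h1 : 0 < x - 1 / 2 := by linarith
    have h2 : Real.log (x - 1 / 2) ≤ Real.log (x + 1 / 2) := Real.log_le_log h1 (by linarith)
    have h3 : 0 ≤ Real.log (x + 1 / 2) := Real.log_nonneg (by linarith)
    nlinarith

theorem shift_ge (x : ℝ) :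
    -1 ≤ (x + 1 / 2) * Real.log (x + 1 / 2) - (x - 1 / 2) * Real.log (x - 1 / 2) := by
  rcases le_or_gt (1 / 2) x with h | h
  · have := shift_ge_aux h; linarith
  rcases le_or_gt x (-(1 / 2)) with h' | h'
  · have h3 := shift_ge_aux (x := -x) (by linarith)
    have e1 : Real.log (-x + 1 / 2) = Real.log (x - 1 / 2) := by
      rw [← Real.log_neg_eq_log]; congr 1; ring
    have e2 : Real.log (-x - 1 / 2) = Real.log (x + 1 / 2) := by
      rw [← Real.log_neg_eq_log]; congr 1; ring
    rw [e1, e2] at h3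
    nlinarith
  · have h1 := xlogx_ge (y := x + 1 / 2) (by linarith)
    have h2 := xlogx_ge (y := -(x - 1 / 2)) (by linarith)
    rw [Real.log_neg_eq_log] at h2
    nlinarith

/-- the potential of a unit cell is at least `-2` everywhere -/
theorem cell_ge (u : ℂ) : -2 ≤ cell u := by
  have h1 : ∫ t in (-(1 / 2) : ℝ)..(1 / 2), Real.log (u.re - t) ≤ cell u := by
    unfold cell
    apply intervalIntegral.integral_mono_ae (by norm_num)
    · have := (intervalIntegral.intervalIntegrable_log' (a := u.re - -(1/2)) (b := u.re - 1/2)).comp_sub_left u.re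
      simpa using this
    · exact intervalIntegrable_log_norm_sub u _ _
    · have h := (Set.countable_singleton u.re).ae_notMem (volume : Measure ℝ)
      filter_upwards [h] with t ht
      have ht' : u.re - t ≠ 0 := by
        intro h0; apply ht; simp; linarith
      rw [← Real.log_abs]
      apply Real.log_le_log (abs_pos.mpr ht')
      have := Complex.abs_re_le_norm (u - (t : ℂ))
      simpa using this
  have h2 : ∫ t in (-(1 / 2) : ℝ)..(1 / 2), Real.log (u.re - t)
      = (u.re + 1 / 2) * Real.log (u.re + 1 / 2) - (u.re - 1 / 2) * Real.log (u.re - 1 / 2) - 1 := by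
    rw [intervalIntegral.integral_comp_sub_left (fun y => Real.log y) u.re, integral_log]
    have : u.re - -(1 / 2) = u.re + 1 / 2 := by ring
    rw [this]; ring
  have h3 := shift_ge u.re
  linarith

/-- upper bound of the potential of a unit cell near the cell -/
theorem cell_le {u : ℂ} (hu : ‖u‖ ≤ 1) : cell u ≤ 1 / 2 := by
  have h1 : cell u ≤ ∫ _t in (-(1 / 2) : ℝ)..(1 / 2), (1 / 2 : ℝ) := by
    unfold cell
    apply intervalIntegral.integral_mono_on (by norm_num) (intervalIntegrable_log_norm_sub u _ _)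
      (by simp)
    intro t ht
    have h2 : ‖u - (t : ℂ)‖ ≤ 3 / 2 := by
      calc ‖u - (t : ℂ)‖ ≤ ‖u‖ + ‖(t : ℂ)‖ := norm_sub_le _ _
        _ ≤ 1 + 1 / 2 := by
            gcongr
            rw [Complex.norm_real, Real.norm_eq_abs, abs_le]
            constructor <;> linarith [ht.1, ht.2]
        _ = 3 / 2 := by norm_num
    rcases eq_or_lt_of_le (norm_nonneg (u - (t : ℂ))) with h | h
    · rw [← h]; simp
    · calc Real.log ‖u - (t : ℂ)‖ ≤ ‖u - (t : ℂ)‖ - 1 := Real.log_le_sub_one_of_pos h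
        _ ≤ 1 / 2 := by linarith
  have h2 : ∫ _t in (-(1 / 2) : ℝ)..(1 / 2), (1 / 2 : ℝ) = 1 / 2 := by
    simp; norm_num
  linarith

/-- far cells: midpoint rule -/
theorem cell_far {u : ℂ} (hu : 1 ≤ ‖u‖) : |cell u - Real.log ‖u‖| ≤ 1 / (4 * ‖u‖ ^ 2) := by
  have hu0 : u ≠ 0 := by
    intro h; rw [h] at hu; simp at hu; linarith
  have hpos : 0 < ‖u‖ := by linarith
  set f : ℝ → ℝ := fun t => Real.log ‖u - (t : ℂ)‖ - Real.log ‖u‖ + t * (1 / u).re with hf
  have hint : ∫ t in (-(1 / 2) : ℝ)..(1 / 2), f t = cell u - Real.log ‖u‖ := by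
    simp only [hf]
    rw [intervalIntegral.integral_add, intervalIntegral.integral_sub]
    · unfold cell
      rw [intervalIntegral.integral_mul_const]
      simp
      norm_num
    · exact intervalIntegrable_log_norm_sub u _ _
    · simp
    · exact (intervalIntegrable_log_norm_sub u _ _).sub (by simp)
    · apply Continuous.intervalIntegrable; fun_prop
  have hb : ∀ t ∈ Set.uIoc (-(1 / 2) : ℝ) (1 / 2), ‖f t‖ ≤ 1 / (4 * ‖u‖ ^ 2) := by
    intro t ht
    rw [Set.uIoc_of_le (by norm_num)] at ht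
    have ht1 : |t| ≤ 1 / 2 := by rw [abs_le]; constructor <;> linarith [ht.1, ht.2]
    set z : ℂ := -((t : ℂ) / u) with hz
    have hzn : ‖z‖ = |t| / ‖u‖ := by
      rw [hz, norm_neg, norm_div, Complex.norm_real, Real.norm_eq_abs]
    have hz1 : ‖z‖ ≤ 1 / 2 := by
      rw [hzn]
      calc |t| / ‖u‖ ≤ |t| / 1 := by gcongr
        _ ≤ 1 / 2 := by simpa using ht1
    have hlog : Real.log ‖u - (t : ℂ)‖ - Real.log ‖u‖ = (Complex.log (1 + z)).re := by
      rw [Complex.log_re, ← Real.log_div]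
      · congr 1
        rw [← norm_div]
        congr 1
        rw [hz]; field_simp; ring
      · have : ‖u - (t : ℂ)‖ ≥ ‖u‖ - ‖(t : ℂ)‖ := by
          have := norm_sub_norm_le u (t : ℂ)
          linarith
        rw [Complex.norm_real, Real.norm_eq_abs] at this
        have : 0 < ‖u - (t : ℂ)‖ := by linarith
        exact this.ne'
      · exact hpos.ne'
    have hre : t * (1 / u).re = -z.re := by
      rw [hz, Complex.neg_re, neg_neg]
      have : (t : ℂ) / u = (t : ℂ) * (1 / u) := by ring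
      rw [this, Complex.re_ofReal_mul]
    have h3 := Complex.norm_log_one_add_sub_self_le (z := z) (by linarith)
    have h4 : ‖z‖ ^ 2 * (1 - ‖z‖)⁻¹ / 2 ≤ ‖z‖ ^ 2 := by
      have : (1 - ‖z‖)⁻¹ ≤ 2 := by
        rw [inv_le_comm₀ (by linarith) (by norm_num)]
        linarith
      nlinarith [sq_nonneg ‖z‖]
    have h5 : f t = (Complex.log (1 + z) - z).re := by
      simp only [hf]
      rw [Complex.sub_re, ← hlog, hre]; ring
    rw [h5]
    calc ‖(Complex.log (1 + z) - z).re‖ ≤ ‖Complex.log (1 + z) - z‖ := by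
          rw [Real.norm_eq_abs]; exact Complex.abs_re_le_norm _
      _ ≤ ‖z‖ ^ 2 := by linarith
      _ = |t| ^ 2 / ‖u‖ ^ 2 := by rw [hzn, div_pow]
      _ ≤ (1 / 2) ^ 2 / ‖u‖ ^ 2 := by gcongr
      _ = 1 / (4 * ‖u‖ ^ 2) := by field_simp; norm_num
  have h := intervalIntegral.norm_integral_le_of_norm_le_const hb
  rw [hint, Real.norm_eq_abs] at h
  have : |(1 / 2 : ℝ) - -(1 / 2)| = 1 := by norm_num
  rw [this, mul_one] at h
  exact h

/-- cell error in terms of the real distance, upper side (no hypothesis on `u`) -/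
theorem cell_upper (u : ℂ) : Real.log ‖u‖ - cell u ≤ 2 * (1 / (max 1 |u.re|) ^ 2) := by
  rcases le_or_gt 1 ‖u‖ with h | h
  · have h1 := (abs_le.mp (cell_far h)).1
    have h2 : max 1 |u.re| ≤ ‖u‖ := max_le h (Complex.abs_re_le_norm u)
    have h3 : 0 < max 1 |u.re| := lt_of_lt_of_le one_pos (le_max_left _ _)
    have h4 : 1 / (4 * ‖u‖ ^ 2) ≤ 2 * (1 / (max 1 |u.re|) ^ 2) := by
      have h5 : 1 / ‖u‖ ^ 2 ≤ 1 / (max 1 |u.re|) ^ 2 := by
        apply one_div_le_one_div_of_le (by positivity)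
        gcongr
      have h6 : 0 ≤ 1 / ‖u‖ ^ 2 := by positivity
      have h7 : 1 / (4 * ‖u‖ ^ 2) = (1 / 4) * (1 / ‖u‖ ^ 2) := by
        rw [one_div, one_div, mul_inv]; norm_num
      rw [h7]; linarith
    linarith
  · have h1 : max 1 |u.re| = 1 := by
      apply max_eq_left
      exact (Complex.abs_re_le_norm u).trans h.le
    rw [h1]
    have h2 : Real.log ‖u‖ ≤ 0 := Real.log_nonpos (norm_nonneg _) h.le
    have h3 := cell_ge u
    norm_num
    linarith

/-- cell error, lower side -/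
theorem cell_lower {u : ℂ} {δ : ℝ} (hδ : 0 < δ) (hδ1 : δ ≤ 1) (hu : u = 0 ∨ δ ≤ ‖u‖) :
    cell u - Real.log ‖u‖ ≤ (1 + Real.log (1 / δ)) * (1 / (max 1 |u.re|) ^ 2) := by
  have hl : 0 ≤ Real.log (1 / δ) := Real.log_nonneg (by rw [le_div_iff₀ hδ]; linarith)
  rcases le_or_gt 1 ‖u‖ with h | h
  · have h1 := (abs_le.mp (cell_far h)).2
    have h2 : max 1 |u.re| ≤ ‖u‖ := max_le h (Complex.abs_re_le_norm u)
    have h3 : 0 < max 1 |u.re| := lt_of_lt_of_le one_pos (le_max_left _ _)
    have h5 : 1 / ‖u‖ ^ 2 ≤ 1 / (max 1 |u.re|) ^ 2 := by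
      apply one_div_le_one_div_of_le (by positivity)
      gcongr
    have h6 : 0 ≤ 1 / ‖u‖ ^ 2 := by positivity
    have h7 : 1 / (4 * ‖u‖ ^ 2) = (1 / 4) * (1 / ‖u‖ ^ 2) := by
      rw [one_div, one_div, mul_inv]; norm_num
    rw [h7] at h1
    have h8 : 0 ≤ 1 / (max 1 |u.re|) ^ 2 := by positivity
    nlinarith
  · have h1 : max 1 |u.re| = 1 := by
      apply max_eq_left
      exact (Complex.abs_re_le_norm u).trans h.le
    rw [h1]
    have h3 := cell_le h.le
    have h2 : -Real.log (1 / δ) ≤ Real.log ‖u‖ := by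
      rcases hu with hu | hu
      · rw [hu]; simp; rw [one_div, Real.log_inv] at hl; linarith
      · rw [one_div, Real.log_inv, neg_neg]
        exact Real.log_le_log hδ hu
    norm_num at *
    linarith

/-- summation lemma -/
theorem inv_sq_le_arctan (v : ℝ) :
    1 / (max 1 |v|) ^ 2 ≤ 13 / 4 * (Real.arctan (v + 1 / 2) - Real.arctan (v - 1 / 2)) := by
  have h0 : ∫ t in (v - 1 / 2)..(v + 1 / 2), (1 : ℝ) / (1 + t ^ 2)
      = Real.arctan (v + 1 / 2) - Real.arctan (v - 1 / 2) := integral_one_div_one_add_sq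
  have hM : 1 ≤ max 1 |v| := le_max_left _ _
  have h1 : ∫ _t in (v - 1 / 2)..(v + 1 / 2), (4 / 13 * (1 / (max 1 |v|) ^ 2) : ℝ)
      ≤ ∫ t in (v - 1 / 2)..(v + 1 / 2), (1 : ℝ) / (1 + t ^ 2) := by
    apply intervalIntegral.integral_mono_on (by linarith) (by simp)
    · apply Continuous.intervalIntegrable
      apply Continuous.div continuous_const (by fun_prop)
      intro x; positivity
    · intro t ht
      have h2 : |t| ≤ max 1 |v| + 1 / 2 := by
        have : |t| ≤ |v| + 1 / 2 := by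
          rw [abs_le]
          constructor
          · linarith [ht.1, neg_abs_le v]
          · linarith [ht.2, le_abs_self v]
        linarith [le_max_right 1 |v|]
      have h3 : t ^ 2 ≤ (max 1 |v| + 1 / 2) ^ 2 := by
        rw [← sq_abs]; gcongr
      have h4 : 1 + t ^ 2 ≤ 13 / 4 * (max 1 |v|) ^ 2 := by nlinarith
      rw [div_mul_div_comm, le_div_iff₀ (by positivity)]
      rw [div_mul_eq_mul_div, div_le_one (by positivity)]
      nlinarith
  rw [h0] at h1
  have h5 : ∫ _t in (v - 1 / 2)..(v + 1 / 2), (4 / 13 * (1 / (max 1 |v|) ^ 2) : ℝ)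
      = 4 / 13 * (1 / (max 1 |v|) ^ 2) := by
    rw [intervalIntegral.integral_const]
    have : v + 1 / 2 - (v - 1 / 2) = 1 := by ring
    rw [this]; simp
  rw [h5] at h1
  linarith

theorem sum_inv_sq_le (x : ℝ) (m : ℕ) :
    ∑ j ∈ Finset.range m, 1 / (max 1 |x - ((j : ℝ) + 1 / 2)|) ^ 2 ≤ 11 := by
  have h1 : ∑ j ∈ Finset.range m, 1 / (max 1 |x - ((j : ℝ) + 1 / 2)|) ^ 2
      ≤ 13 / 4 * (Real.arctan x - Real.arctan (x - m)) := by
    induction m with
    | zero => simp
    | succ n ih =>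
      rw [Finset.sum_range_succ]
      have h2 := inv_sq_le_arctan (x - ((n : ℝ) + 1 / 2))
      have e1 : x - ((n : ℝ) + 1 / 2) + 1 / 2 = x - n := by ring
      have e2 : x - ((n : ℝ) + 1 / 2) - 1 / 2 = x - ((n + 1 : ℕ) : ℝ) := by push_cast; ring
      rw [e1, e2] at h2
      linarith
  have h2 := Real.arctan_lt_pi_div_two x
  have h3 := Real.neg_pi_div_two_lt_arctan (x - m)
  have h4 := Real.pi_lt_d2
  linarith

theorem seg_eq_sum (w : ℂ) (m : ℕ) :
    seg w m = ∑ j ∈ Finset.range m, cell (w - ((j : ℂ) + 1 / 2)) := by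
  induction m with
  | zero => simp [seg]
  | succ n ih =>
    rw [Finset.sum_range_succ, ← ih]
    unfold seg
    have h := intervalIntegral.integral_add_adjacent_intervals
      (intervalIntegrable_log_norm_sub w 0 (n : ℝ)) (intervalIntegrable_log_norm_sub w (n : ℝ) ((n + 1 : ℕ) : ℝ))
    rw [← h]
    congr 1
    unfold cell
    have h2 := intervalIntegral.integral_comp_add_right (a := -(1 / 2 : ℝ)) (b := 1 / 2)
      (fun t : ℝ => Real.log ‖w - (t : ℂ)‖) ((n : ℝ) + 1 / 2)
    have e1 : -(1 / 2 : ℝ) + ((n : ℝ) + 1 / 2) = n := by ring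
    have e2 : (1 / 2 : ℝ) + ((n : ℝ) + 1 / 2) = ((n + 1 : ℕ) : ℝ) := by push_cast; ring
    rw [e1, e2] at h2
    rw [← h2]
    apply intervalIntegral.integral_congr
    intro t _
    simp only
    congr 2
    push_cast
    ring

/-- (P2) one-sided, log form: valid for every `w` -/
theorem sum_log_le (w : ℂ) (m : ℕ) :
    ∑ j ∈ Finset.range m, Real.log ‖w - ((j : ℂ) + 1 / 2)‖ ≤ seg w m + 22 := by
  rw [seg_eq_sum]
  have h1 : ∀ j ∈ Finset.range m, Real.log ‖w - ((j : ℂ) + 1 / 2)‖ ≤
      cell (w - ((j : ℂ) + 1 / 2)) + 2 * (1 / (max 1 |w.re - ((j : ℝ) + 1 / 2)|) ^ 2) := by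
    intro j _
    have h := cell_upper (w - ((j : ℂ) + 1 / 2))
    have e : (w - ((j : ℂ) + 1 / 2)).re = w.re - ((j : ℝ) + 1 / 2) := by
      simp
    rw [e] at h
    linarith
  have h2 := Finset.sum_le_sum h1
  rw [Finset.sum_add_distrib, ← Finset.mul_sum] at h2
  have h3 := sum_inv_sq_le w.re m
  linarith

/-- (P1) two-sided, log form -/
theorem abs_sum_log_sub_le {w : ℂ} {m : ℕ} {δ : ℝ} (hδ : 0 < δ) (hδ1 : δ ≤ 1)
    (h : ∀ j < m, w = (j : ℂ) + 1 / 2 ∨ δ ≤ ‖w - ((j : ℂ) + 1 / 2)‖) :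
    |∑ j ∈ Finset.range m, Real.log ‖w - ((j : ℂ) + 1 / 2)‖ - seg w m|
      ≤ 22 + 11 * Real.log (1 / δ) := by
  have hl : 0 ≤ Real.log (1 / δ) := Real.log_nonneg (by rw [le_div_iff₀ hδ]; linarith)
  rw [abs_le]
  constructor
  · rw [seg_eq_sum]
    have h1 : ∀ j ∈ Finset.range m, cell (w - ((j : ℂ) + 1 / 2)) ≤
        Real.log ‖w - ((j : ℂ) + 1 / 2)‖ +
          (1 + Real.log (1 / δ)) * (1 / (max 1 |w.re - ((j : ℝ) + 1 / 2)|) ^ 2) := by
      intro j hj
      have h := cell_lower (u := w - ((j : ℂ) + 1 / 2)) hδ hδ1 (by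
        rcases h j (Finset.mem_range.mp hj) with h | h
        · left; rw [h]; ring
        · right; exact h)
      have e : (w - ((j : ℂ) + 1 / 2)).re = w.re - ((j : ℝ) + 1 / 2) := by
        simp
      rw [e] at h
      linarith
    have h2 := Finset.sum_le_sum h1
    rw [Finset.sum_add_distrib, ← Finset.mul_sum] at h2
    have h3 := sum_inv_sq_le w.re m
    nlinarith
  · have := sum_log_le w m
    linarith

/-! ### closed form -/

theorem seg_closed (w : ℂ) (m : ℝ) :
    seg w m = (w * Complex.log w).re - ((w - m) * Complex.log (w - m)).re - m := by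
  unfold seg
  rcases eq_or_ne w.im 0 with h0 | h0
  · obtain ⟨x, rfl⟩ : ∃ x : ℝ, w = (x : ℂ) := ⟨w.re, by
      apply Complex.ext <;> simp [h0]⟩
    have e1 : ∀ y : ℝ, ((y : ℂ) * Complex.log y).re = y * Real.log y := by
      intro y
      rw [Complex.re_ofReal_mul, Complex.log_re, Complex.norm_real, Real.norm_eq_abs, Real.log_abs]
    have e2 : ((x : ℂ) - m) = ((x - m : ℝ) : ℂ) := by push_cast; ring
    rw [e2, e1, e1]
    have e3 : ∀ t : ℝ, Real.log ‖(x : ℂ) - (t : ℂ)‖ = Real.log (x - t) := by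
      intro t
      rw [← Complex.ofReal_sub, Complex.norm_real, Real.norm_eq_abs, Real.log_abs]
    simp_rw [e3]
    rw [intervalIntegral.integral_comp_sub_left (fun y => Real.log y) x, integral_log]
    ring_nf
  · have hd : ∀ t ∈ Set.uIcc (0 : ℝ) m, HasDerivAt
        (fun t : ℝ => -((w - t) * Complex.log (w - t)).re - t) (Real.log ‖w - (t : ℂ)‖) t := by
      intro t _
      have hs : w - (t : ℂ) ∈ Complex.slitPlane := by
        right; simpa using h0
      have h1 : HasDerivAt (fun t : ℝ => w - (t : ℂ)) (-1) t := by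
        have := (hasDerivAt_id t).ofReal_comp.const_sub w
        simpa using this
      have h2 : HasDerivAt (fun t : ℝ => (w - (t : ℂ)) * Complex.log (w - (t : ℂ)))
          ((-1) * Complex.log (w - (t : ℂ)) + (w - (t : ℂ)) * (-1 / (w - (t : ℂ)))) t :=
        h1.mul (h1.clog_real hs)
      have hne : w - (t : ℂ) ≠ 0 := Complex.slitPlane_ne_zero hs
      have e : (-1) * Complex.log (w - (t : ℂ)) + (w - (t : ℂ)) * (-1 / (w - (t : ℂ)))
          = -Complex.log (w - (t : ℂ)) - 1 := by field_simp; ring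
      rw [e] at h2
      have h3 : HasDerivAt (fun t : ℝ => ((w - (t : ℂ)) * Complex.log (w - (t : ℂ))).re)
          ((-Complex.log (w - (t : ℂ)) - 1).re) t :=
        (Complex.reCLM.hasFDerivAt.comp_hasDerivAt t h2)
      have h4 : HasDerivAt (fun t : ℝ => -((w - (t : ℂ)) * Complex.log (w - (t : ℂ))).re - t)
          (-(-Complex.log (w - (t : ℂ)) - 1).re - 1) t := (h3.neg).sub (hasDerivAt_id t)
      have e2 : -(-Complex.log (w - (t : ℂ)) - 1).re - 1 = Real.log ‖w - (t : ℂ)‖ := by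
        rw [Complex.sub_re, Complex.neg_re, Complex.log_re, Complex.one_re]; ring
      rw [e2] at h4
      exact h4
    rw [intervalIntegral.integral_eq_sub_of_hasDerivAt hd (intervalIntegrable_log_norm_sub w 0 m)]
    simp
    ring

/-! ### general segments `a + t d` -/

/-- midpoints of the cells -/
noncomputable def pt (a d : ℂ) (j : ℕ) : ℂ := a + ((j : ℂ) + 1 / 2) * d

/-- potential of the segment `a + t d`, `0 ≤ t ≤ m` (one unit of mass per cell `d`) -/
noncomputable def Iseg (a d : ℂ) (m : ℝ) (s : ℂ) : ℝ :=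
  ∫ t in (0 : ℝ)..m, Real.log ‖s - (a + t * d)‖

theorem norm_sub_pt {a d s : ℂ} (hd : d ≠ 0) (j : ℕ) :
    ‖s - pt a d j‖ = ‖d‖ * ‖(s - a) / d - ((j : ℂ) + 1 / 2)‖ := by
  rw [← norm_mul]
  congr 1
  unfold pt
  field_simp
  ring

theorem Iseg_eq {a d s : ℂ} (hd : d ≠ 0) (m : ℝ) :
    Iseg a d m s = m * Real.log ‖d‖ + seg ((s - a) / d) m := by
  unfold Iseg seg
  have h1 : ∫ t in (0 : ℝ)..m, Real.log ‖s - (a + t * d)‖
      = ∫ t in (0 : ℝ)..m, (Real.log ‖d‖ + Real.log ‖(s - a) / d - (t : ℂ)‖) := by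
    apply intervalIntegral.integral_congr_ae
    have h := (Set.countable_singleton ((s - a) / d).re).ae_notMem (volume : Measure ℝ)
    filter_upwards [h] with t ht _
    have hne : (s - a) / d - (t : ℂ) ≠ 0 := by
      intro h0
      apply ht
      have : (s - a) / d = (t : ℂ) := by linear_combination h0
      rw [this]; simp
    rw [← Real.log_mul (by simpa using hd) (by simpa using hne), ← norm_mul]
    congr 2
    field_simp
    ring
  rw [h1, intervalIntegral.integral_add (by simp) (intervalIntegrable_log_norm_sub _ _ _)]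
  simp

theorem intervalIntegrable_Iseg {a d s : ℂ} (α β : ℝ) :
    IntervalIntegrable (fun t : ℝ => Real.log ‖s - (a + t * d)‖) volume α β := by
  apply MeromorphicOn.intervalIntegrable_log_norm
  intro x _
  have h1 : AnalyticAt ℝ (fun t : ℝ => s - (a + (t : ℂ) * d)) x :=
    analyticAt_const.sub (analyticAt_const.add ((Complex.ofRealCLM.analyticAt x).mul analyticAt_const))
  exact h1.meromorphicAt

/-- closed form of the potential of a segment, valid for every `s` (also on the segment) -/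
theorem Iseg_closed {a d s : ℂ} (hd : d ≠ 0) (m : ℝ) :
    Iseg a d m s = m * Real.log ‖d‖ + (((s - a) / d) * Complex.log ((s - a) / d)).re
      - (((s - a) / d - m) * Complex.log ((s - a) / d - m)).re - m := by
  rw [Iseg_eq hd, seg_closed]; ring

/-- (P2) product form: no hypothesis on `s` -/
theorem prod_le_exp_Iseg {a d : ℂ} (hd : d ≠ 0) (m : ℕ) (s : ℂ) :
    ∏ j ∈ Finset.range m, ‖s - pt a d j‖ ≤ Real.exp (Iseg a d m s + 22) := by
  by_cases h : ∃ j ∈ Finset.range m, ‖s - pt a d j‖ = 0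
  · obtain ⟨j, hj, h0⟩ := h
    rw [Finset.prod_eq_zero hj h0]
    positivity
  · push Not at h
    have hpos : ∀ j ∈ Finset.range m, 0 < ‖s - pt a d j‖ := fun j hj =>
      lt_of_le_of_ne (norm_nonneg _) (Ne.symm (h j hj))
    rw [← Real.log_le_iff_le_exp (Finset.prod_pos hpos), Real.log_prod (fun j hj => (hpos j hj).ne')]
    have h1 : ∑ j ∈ Finset.range m, Real.log ‖s - pt a d j‖
        = m * Real.log ‖d‖ + ∑ j ∈ Finset.range m, Real.log ‖(s - a) / d - ((j : ℂ) + 1 / 2)‖ := by
      rw [← Finset.card_range m, ← nsmul_eq_mul, ← Finset.sum_const, Finset.card_range,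
        ← Finset.sum_add_distrib]
      apply Finset.sum_congr rfl
      intro j hj
      have h2 := h j hj
      rw [norm_sub_pt hd] at h2 ⊢
      exact Real.log_mul (left_ne_zero_of_mul h2) (right_ne_zero_of_mul h2)
    rw [h1, Iseg_eq hd]
    have := sum_log_le ((s - a) / d) m
    linarith

/-- (P1) two-sided form -/
theorem abs_sum_log_sub_Iseg_le {a d : ℂ} (hd : d ≠ 0) {m : ℕ} {s : ℂ} {δ : ℝ} (hδ : 0 < δ)
    (hδ1 : δ ≤ 1) (h : ∀ j < m, δ * ‖d‖ ≤ ‖s - pt a d j‖) :
    |∑ j ∈ Finset.range m, Real.log ‖s - pt a d j‖ - Iseg a d m s|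
      ≤ 22 + 11 * Real.log (1 / δ) := by
  have hdn : 0 < ‖d‖ := norm_pos_iff.mpr hd
  have h1 : ∑ j ∈ Finset.range m, Real.log ‖s - pt a d j‖
      = m * Real.log ‖d‖ + ∑ j ∈ Finset.range m, Real.log ‖(s - a) / d - ((j : ℂ) + 1 / 2)‖ := by
    rw [← Finset.card_range m, ← nsmul_eq_mul, ← Finset.sum_const, Finset.card_range,
      ← Finset.sum_add_distrib]
    apply Finset.sum_congr rfl
    intro j hj
    have h2 := h j (Finset.mem_range.mp hj)
    have h3 : ‖s - pt a d j‖ ≠ 0 := by
      have : 0 < δ * ‖d‖ := by positivity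
      intro h0; linarith
    rw [norm_sub_pt hd] at h3 ⊢
    exact Real.log_mul (left_ne_zero_of_mul h3) (right_ne_zero_of_mul h3)
  rw [h1, Iseg_eq hd]
  have h2 := abs_sum_log_sub_le (w := (s - a) / d) (m := m) hδ hδ1 (by
    intro j hj
    right
    have := h j hj
    rw [norm_sub_pt hd] at this
    by_contra hc
    push Not at hc
    nlinarith)
  have e : (m : ℝ) * Real.log ‖d‖ + ∑ j ∈ Finset.range m, Real.log ‖(s - a) / d - ((j : ℂ) + 1 / 2)‖
      - (m * Real.log ‖d‖ + seg ((s - a) / d) m)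
      = ∑ j ∈ Finset.range m, Real.log ‖(s - a) / d - ((j : ℂ) + 1 / 2)‖ - seg ((s - a) / d) m := by
    ring
  rw [e]
  exact h2

/-- scaling: the whole picture multiplied by `N` (same spacing `d`, `N m` points) -/
theorem Iseg_scale {a d s : ℂ} (m : ℝ) {N : ℝ} (hN : 0 < N) (hd : d ≠ 0) :
    Iseg (N * a) d (N * m) (N * s) = N * (m * Real.log N + Iseg a d m s) := by
  unfold Iseg
  have h1 := intervalIntegral.integral_comp_mul_left (a := 0) (b := m)
    (fun t : ℝ => Real.log ‖(N : ℂ) * s - (N * a + t * d)‖) hN.ne'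
  simp only [mul_zero] at h1
  have h2 : ∫ t in (0 : ℝ)..(N * m), Real.log ‖(N : ℂ) * s - (N * a + t * d)‖
      = N * ∫ t in (0 : ℝ)..m, Real.log ‖(N : ℂ) * s - (N * a + (N * t : ℝ) * d)‖ := by
    rw [h1, smul_eq_mul, ← mul_assoc, mul_inv_cancel₀ hN.ne', one_mul]
  rw [h2]
  congr 1
  have h3 : ∫ t in (0 : ℝ)..m, Real.log ‖(N : ℂ) * s - (N * a + (N * t : ℝ) * d)‖
      = ∫ t in (0 : ℝ)..m, (Real.log N + Real.log ‖s - (a + t * d)‖) := by
    apply intervalIntegral.integral_congr_ae
    have h := (Set.countable_singleton ((s - a) / d).re).ae_notMem (volume : Measure ℝ)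
    filter_upwards [h] with t ht _
    have hne : s - (a + t * d) ≠ 0 := by
      intro h0
      apply ht
      have : (s - a) / d = (t : ℂ) := by
        rw [div_eq_iff hd]; linear_combination h0
      rw [this]; simp
    have e : (N : ℂ) * s - (N * a + (N * t : ℝ) * d) = N * (s - (a + t * d)) := by
      push_cast; ring
    rw [e, norm_mul, Complex.norm_real, Real.norm_eq_abs, abs_of_pos hN,
      Real.log_mul hN.ne' (by simpa using hne)]
  rw [h3, intervalIntegral.integral_add (by simp) (intervalIntegrable_Iseg 0 m)]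
  simp

end Crest.Agent.R006.Potx943
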