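import Crest.Agent.R006.NumSum_464
import Crest.Agent.R006.P3_Pot_943

/-!
# Row 6, certified numerics: Lipschitz bounds of segment potentials, the tail of a ray (helper322)

`s(t) = P + t d` with Gaussian integers `P`, `d`; a measure is a list of weighted segments
(`WSeg` of helper464, signed masses).

* `abs_pot_sub_le` : the potential of a segment is Lipschitz away from the segment;
* `tSum` : Lipschitz constant of `t ↦ potL L (P + t d)` on `[R, ∞)` (in units `2^-20`), from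
  separating integer functionals, no square roots in the kernel;
* `tail_le` : if that constant is at most `-b` and the inequality holds at `R`, then
  `potL L (P + t d) + a + b t ≤ 0` for all `t ≥ R`.
-/

set_option autoImplicit false

namespace Crest.Agent.R006.NumTail2x322

open Real Set MeasureTheory Num482 Crest.Agent.R006.NumSegx464

/-! ### Lipschitz bound -/

theorem log_norm_sub_le {z z' : ℂ} {δ : ℝ} (hδ : 0 < δ) (h' : δ ≤ ‖z'‖) (h : δ ≤ ‖z‖) :
    Real.log ‖z‖ - Real.log ‖z'‖ ≤ ‖z - z'‖ / δ := by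
  have hz' : 0 < ‖z'‖ := lt_of_lt_of_le hδ h'
  have hz : 0 < ‖z‖ := lt_of_lt_of_le hδ h
  rw [← Real.log_div hz.ne' hz'.ne']
  have h1 := Real.log_le_sub_one_of_pos (div_pos hz hz')
  have h2 : ‖z‖ / ‖z'‖ - 1 ≤ ‖z - z'‖ / ‖z'‖ := by
    rw [div_sub_one hz'.ne']
    gcongr
    have := norm_sub_norm_le z z'
    exact this
  have h3 : ‖z - z'‖ / ‖z'‖ ≤ ‖z - z'‖ / δ := by gcongr
  linarith

theorem abs_log_norm_sub_le {z z' : ℂ} {δ : ℝ} (hδ : 0 < δ) (h' : δ ≤ ‖z'‖) (h : δ ≤ ‖z‖) :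
    |Real.log ‖z‖ - Real.log ‖z'‖| ≤ ‖z - z'‖ / δ := by
  rw [abs_le]
  constructor
  · have := log_norm_sub_le hδ h h'
    rw [norm_sub_rev] at this
    linarith
  · exact log_norm_sub_le hδ h' h

theorem intervalIntegrable_pot (A B s : ℂ) (a b : ℝ) :
    IntervalIntegrable (fun κ : ℝ => Real.log ‖s - (A + κ * (B - A))‖) volume a b := by
  apply MeromorphicOn.intervalIntegrable_log_norm
  intro x _
  have h1 : AnalyticAt ℝ (fun t : ℝ => s - (A + t * (B - A))) x := by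
    have : AnalyticAt ℝ (fun t : ℝ => (t : ℂ)) x := Complex.ofRealCLM.analyticAt x
    fun_prop
  exact h1.meromorphicAt

/-- the potential of a segment is Lipschitz away from the segment -/
theorem abs_pot_sub_le {A B s s' : ℂ} {δ : ℝ} (hδ : 0 < δ)
    (h : ∀ κ ∈ Icc (0 : ℝ) 1, δ ≤ ‖s - (A + κ * (B - A))‖)
    (h' : ∀ κ ∈ Icc (0 : ℝ) 1, δ ≤ ‖s' - (A + κ * (B - A))‖) :
    |pot A B s - pot A B s'| ≤ ‖s - s'‖ / δ := by
  unfold pot
  rw [← intervalIntegral.integral_sub (intervalIntegrable_pot A B s 0 1)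
    (intervalIntegrable_pot A B s' 0 1)]
  have := intervalIntegral.norm_integral_le_of_norm_le_const (a := (0 : ℝ)) (b := 1)
    (C := ‖s - s'‖ / δ)
    (f := fun κ : ℝ => Real.log ‖s - (A + κ * (B - A))‖ - Real.log ‖s' - (A + κ * (B - A))‖) ?_
  · simpa using this
  · intro κ hκ
    rw [uIoc_of_le zero_le_one] at hκ
    have hκ' : κ ∈ Icc (0 : ℝ) 1 := ⟨hκ.1.le, hκ.2⟩
    rw [Real.norm_eq_abs]
    have e : s - s' = (s - (A + κ * (B - A))) - (s' - (A + κ * (B - A))) := by ring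
    rw [e]
    exact abs_log_norm_sub_le hδ (h' κ hκ') (h κ hκ')


/-! ### separating functionals -/

/-- dot product of two integer vectors -/
def dot (x y : ℤ × ℤ) : ℤ := x.1 * y.1 + x.2 * y.2

/-- `P + R d - A` -/
def vecAt (P d : ℤ × ℤ) (R : ℤ) (A : ℤ × ℤ) : ℤ × ℤ :=
  (P.1 + R * d.1 - A.1, P.2 + R * d.2 - A.2)

/-- separation of the half ray `P + t d`, `t ≥ R`, from the segment `[A,B]` by the functional `l` -/
def sepN (P d : ℤ × ℤ) (R : ℤ) (A B l : ℤ × ℤ) : ℤ :=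
  min (dot l (vecAt P d R A)) (dot l (vecAt P d R B))

theorem sep_le {P d : ℤ × ℤ} {R : ℤ} {A B l : ℤ × ℤ} (hd : 0 ≤ dot l d) {t κ : ℝ}
    (ht : (R : ℝ) ≤ t) (hκ : κ ∈ Icc (0 : ℝ) 1) :
    ((sepN P d R A B l : ℤ) : ℝ) ≤
      ‖gc l‖ * ‖(gc P + t * gc d) - (gc A + κ * (gc B - gc A))‖ := by
  set w : ℂ := (gc P + t * gc d) - (gc A + κ * (gc B - gc A)) with hw
  have h1 : (l.1 : ℝ) * w.re + (l.2 : ℝ) * w.im ≤ ‖gc l‖ * ‖w‖ := by
    have e : (l.1 : ℝ) * w.re + (l.2 : ℝ) * w.im = ((starRingEnd ℂ) (gc l) * w).re := by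
      simp [Complex.mul_re]
    rw [e]
    calc ((starRingEnd ℂ) (gc l) * w).re ≤ ‖(starRingEnd ℂ) (gc l) * w‖ := Complex.re_le_norm _
      _ = ‖gc l‖ * ‖w‖ := by rw [norm_mul, RCLike.norm_conj]
  refine le_trans ?_ h1
  have hA : ((sepN P d R A B l : ℤ) : ℝ) ≤ ((dot l (vecAt P d R A) : ℤ) : ℝ) := by
    exact_mod_cast min_le_left _ _
  have hB : ((sepN P d R A B l : ℤ) : ℝ) ≤ ((dot l (vecAt P d R B) : ℤ) : ℝ) := by
    exact_mod_cast min_le_right _ _
  have hd' : (0 : ℝ) ≤ ((dot l d : ℤ) : ℝ) := by exact_mod_cast hd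
  have hre : w.re = (P.1 : ℝ) + t * d.1 - (A.1 + κ * (B.1 - A.1)) := by
    rw [hw]; simp
  have him : w.im = (P.2 : ℝ) + t * d.2 - (A.2 + κ * (B.2 - A.2)) := by
    rw [hw]; simp
  have key : (l.1 : ℝ) * w.re + (l.2 : ℝ) * w.im =
      (1 - κ) * ((dot l (vecAt P d R A) : ℤ) : ℝ) + κ * ((dot l (vecAt P d R B) : ℤ) : ℝ) +
        (t - R) * ((dot l d : ℤ) : ℝ) := by
    rw [hre, him]
    unfold dot vecAt
    push_cast
    ring
  rw [key]
  have h2 : 0 ≤ (t - R) * ((dot l d : ℤ) : ℝ) := mul_nonneg (by linarith) hd'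
  have h3 := mul_le_mul_of_nonneg_left hA (by linarith [hκ.2] : (0 : ℝ) ≤ 1 - κ)
  have h4 := mul_le_mul_of_nonneg_left hB hκ.1
  linarith

/-- a candidate: functional `l` and `c ≥ 2^20 |l| |d|` -/
abbrev Cand := (ℤ × ℤ) × ℕ

def candOK (d : ℤ × ℤ) (c : Cand) : Bool :=
  Nat.ble (sqN d.1 d.2 * sqN c.1.1 c.1.2 * 1099511627776) (c.2 * c.2) && decide (0 ≤ dot c.1 d)

def candsOK (d : ℤ × ℤ) : List Cand → Bool
  | [] => true
  | c :: L => candOK d c && candsOK d L

/-- Lipschitz constant (units `2^-20`) of one weighted segment with one functional -/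
def tTerm (P d : ℤ × ℤ) (R : ℤ) (p : WSeg) (c : Cand) : Option ℕ :=
  (fun n : ℤ =>
    match n with
    | Int.ofNat 0 => none
    | Int.ofNat (k + 1) => some (p.2.2.natAbs * c.2 / (k + 1) + 1)
    | Int.negSucc _ => none) (sepN P d R p.1 p.2.1 c.1)

def omin : Option ℕ → Option ℕ → Option ℕ
  | none, y => y
  | some x, none => some x
  | some x, some y => some (min x y)

def tBest (P d : ℤ × ℤ) (R : ℤ) (p : WSeg) : List Cand → Option ℕ
  | [] => none
  | c :: L => omin (tTerm P d R p c) (tBest P d R p L)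

/-- Lipschitz constant (units `2^-20`) of `t ↦ potL L (P + t d)` on `[R, ∞)` -/
def tSum (P d : ℤ × ℤ) (R : ℤ) (C : List Cand) : List WSeg → Option ℕ
  | [] => some 0
  | p :: L =>
    match tBest P d R p C, tSum P d R C L with
    | some x, some y => some (x + y)
    | _, _ => none

theorem norm_gc_sq (z : ℤ × ℤ) : ‖gc z‖ ^ 2 = ((sqN z.1 z.2 : ℕ) : ℝ) := by
  rw [Complex.sq_norm, Complex.normSq_apply, sqN_cast]
  simp only [gc_re, gc_im]
  ring

theorem cand_norm {d : ℤ × ℤ} {c : Cand} (h : candOK d c = true) :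
    ‖gc d‖ * ‖gc c.1‖ ≤ (c.2 : ℝ) / 1048576 := by
  unfold candOK at h
  simp only [Bool.and_eq_true, decide_eq_true_eq] at h
  have h1 := Nat.le_of_ble_eq_true h.1
  have h2 : ((sqN d.1 d.2 * sqN c.1.1 c.1.2 * 1099511627776 : ℕ) : ℝ) ≤ ((c.2 * c.2 : ℕ) : ℝ) := by
    exact_mod_cast h1
  push_cast at h2
  rw [← norm_gc_sq d, ← norm_gc_sq c.1] at h2
  refine le_of_sq_le_sq ?_ (by positivity)
  rw [div_pow, mul_pow, le_div_iff₀ (by norm_num)]
  nlinarith

/-- the term bounds the Lipschitz constant of the weighted potential -/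
theorem tTerm_spec {P d : ℤ × ℤ} {R : ℤ} {p : WSeg} {c : Cand} {N : ℕ} (hc : candOK d c = true)
    (h : tTerm P d R p c = some N) {t t' : ℝ} (ht : (R : ℝ) ≤ t) (ht' : (R : ℝ) ≤ t') :
    |(p.2.2 : ℝ) * pot (gc p.1) (gc p.2.1) (gc P + t * gc d) -
      (p.2.2 : ℝ) * pot (gc p.1) (gc p.2.1) (gc P + t' * gc d)| ≤
      |t - t'| * ((N : ℝ) / 1048576) := by
  have hd : 0 ≤ dot c.1 d := by
    unfold candOK at hc
    simp only [Bool.and_eq_true, decide_eq_true_eq] at hc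
    exact hc.2
  have hcn := cand_norm hc
  unfold tTerm at h
  simp only at h
  -- the separation is positive
  obtain ⟨k, hk, hN⟩ : ∃ k : ℕ, sepN P d R p.1 p.2.1 c.1 = ((k + 1 : ℕ) : ℤ) ∧
      N = p.2.2.natAbs * c.2 / (k + 1) + 1 := by
    rcases hs : sepN P d R p.1 p.2.1 c.1 with (_ | k) | k
    · rw [hs] at h; simp at h
    · rw [hs] at h
      simp only [Option.some.injEq] at h
      exact ⟨k, rfl, h.symm⟩
    · rw [hs] at h; simp at h
  have hkr : (0 : ℝ) < ((k : ℝ) + 1) := by positivity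
  have hsep : ∀ {τ : ℝ}, (R : ℝ) ≤ τ → ∀ κ ∈ Icc (0 : ℝ) 1,
      ((k : ℝ) + 1) ≤ ‖gc c.1‖ *
        ‖(gc P + τ * gc d) - (gc p.1 + κ * (gc p.2.1 - gc p.1))‖ := by
    intro τ hτ κ hκ
    have := sep_le (A := p.1) (B := p.2.1) (P := P) hd hτ hκ
    rw [hk] at this
    push_cast at this
    exact this
  have hl : 0 < ‖gc c.1‖ := by
    by_contra hcon
    have h0 : ‖gc c.1‖ = 0 := le_antisymm (not_lt.1 hcon) (norm_nonneg _)
    have := hsep ht 0 (by simp)
    rw [h0, zero_mul] at this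
    linarith
  have hδ : 0 < ((k : ℝ) + 1) / ‖gc c.1‖ := by positivity
  have hL := abs_pot_sub_le (A := gc p.1) (B := gc p.2.1) (s := gc P + t * gc d)
    (s' := gc P + t' * gc d) hδ
    (fun κ hκ => by rw [div_le_iff₀ hl, mul_comm]; exact hsep ht κ hκ)
    (fun κ hκ => by rw [div_le_iff₀ hl, mul_comm]; exact hsep ht' κ hκ)
  have e1 : ‖gc P + t * gc d - (gc P + t' * gc d)‖ = |t - t'| * ‖gc d‖ := by
    have : gc P + t * gc d - (gc P + t' * gc d) = ((t - t' : ℝ) : ℂ) * gc d := by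
      push_cast; ring
    rw [this, norm_mul, Complex.norm_real, Real.norm_eq_abs]
  rw [e1] at hL
  rw [← mul_sub, abs_mul]
  have hm : |(p.2.2 : ℝ)| = (p.2.2.natAbs : ℝ) := by
    rw [Nat.cast_natAbs, Int.cast_abs]
  have hNr : (p.2.2.natAbs : ℝ) * c.2 / ((k : ℝ) + 1) ≤ N := by
    rw [hN, div_le_iff₀ hkr]
    have := Nat.lt_div_mul_add (a := p.2.2.natAbs * c.2) (b := k + 1) (by omega)
    have h2 : ((p.2.2.natAbs * c.2 : ℕ) : ℝ) ≤
        (((p.2.2.natAbs * c.2 / (k + 1)) * (k + 1) + (k + 1) : ℕ) : ℝ) := by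
      exact_mod_cast this.le
    push_cast at h2 ⊢
    linarith
  calc |(p.2.2 : ℝ)| * |pot (gc p.1) (gc p.2.1) (gc P + t * gc d) -
        pot (gc p.1) (gc p.2.1) (gc P + t' * gc d)|
      ≤ (p.2.2.natAbs : ℝ) * (|t - t'| * ‖gc d‖ / (((k : ℝ) + 1) / ‖gc c.1‖)) := by
        rw [hm]; gcongr
    _ = |t - t'| * ((p.2.2.natAbs : ℝ) * (‖gc d‖ * ‖gc c.1‖) / ((k : ℝ) + 1)) := by
        field_simp
    _ ≤ |t - t'| * ((p.2.2.natAbs : ℝ) * ((c.2 : ℝ) / 1048576) / ((k : ℝ) + 1)) := by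
        gcongr
    _ = |t - t'| * ((p.2.2.natAbs : ℝ) * c.2 / ((k : ℝ) + 1) / 1048576) := by
        ring
    _ ≤ |t - t'| * ((N : ℝ) / 1048576) := by
        gcongr

theorem tBest_spec {P d : ℤ × ℤ} {R : ℤ} {p : WSeg} : ∀ (C : List Cand) {N : ℕ},
    candsOK d C = true → tBest P d R p C = some N → ∀ {t t' : ℝ}, (R : ℝ) ≤ t → (R : ℝ) ≤ t' →
    |(p.2.2 : ℝ) * pot (gc p.1) (gc p.2.1) (gc P + t * gc d) -
      (p.2.2 : ℝ) * pot (gc p.1) (gc p.2.1) (gc P + t' * gc d)| ≤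
      |t - t'| * ((N : ℝ) / 1048576)
  | [], N, _, h, _, _, _, _ => by simp [tBest] at h
  | c :: C, N, hC, h, t, t', ht, ht' => by
    simp only [candsOK, Bool.and_eq_true] at hC
    unfold tBest at h
    rcases h1 : tTerm P d R p c with _ | x
    · rw [h1] at h
      simp only [omin] at h
      exact tBest_spec C hC.2 h ht ht'
    · rcases h2 : tBest P d R p C with _ | y
      · rw [h1, h2] at h
        simp only [omin, Option.some.injEq] at h
        subst h
        exact tTerm_spec hC.1 h1 ht ht'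
      · rw [h1, h2] at h
        simp only [omin, Option.some.injEq] at h
        rcases min_choice x y with hm | hm
        · rw [hm] at h; subst h
          exact tTerm_spec hC.1 h1 ht ht'
        · rw [hm] at h; subst h
          exact tBest_spec C hC.2 h2 ht ht'

/-- Lipschitz bound of the potential of a list along the ray -/
theorem tSum_spec {P d : ℤ × ℤ} {R : ℤ} {C : List Cand} (hC : candsOK d C = true) :
    ∀ (L : List WSeg) {N : ℕ}, tSum P d R C L = some N →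
      ∀ {t t' : ℝ}, (R : ℝ) ≤ t → (R : ℝ) ≤ t' →
      |potL L (gc P + t * gc d) - potL L (gc P + t' * gc d)| ≤ |t - t'| * ((N : ℝ) / 1048576)
  | [], N, h, t, t', _, _ => by
    simp only [tSum, Option.some.injEq] at h
    subst h
    simp [potL]
  | p :: L, N, h, t, t', ht, ht' => by
    unfold tSum at h
    rcases h1 : tBest P d R p C with _ | x
    · rw [h1] at h; simp at h
    · rcases h2 : tSum P d R C L with _ | y
      · rw [h1, h2] at h; simp at h
      · rw [h1, h2] at h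
        simp only [Option.some.injEq] at h
        subst h
        have e1 := tBest_spec C hC h1 ht ht'
        have e2 := tSum_spec hC L h2 ht ht'
        simp only [potL]
        push_cast
        rw [abs_le] at e1 e2 ⊢
        constructor <;> [nlinarith [e1.1, e2.1]; nlinarith [e1.2, e2.2]]

/-- **tail of a ray** -/
theorem tail_le {P d : ℤ × ℤ} {R : ℤ} {C : List Cand} {L : List WSeg} {N : ℕ} {a b : ℝ}
    (hC : candsOK d C = true) (hN : tSum P d R C L = some N) (hb : (N : ℝ) / 1048576 ≤ -b)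
    (hR : potL L (gc P + (R : ℝ) * gc d) + a + b * R ≤ 0) {t : ℝ} (ht : (R : ℝ) ≤ t) :
    potL L (gc P + t * gc d) + a + b * t ≤ 0 := by
  have h := (abs_le.1 (tSum_spec hC L hN ht le_rfl)).2
  rw [abs_of_nonneg (by linarith : (0 : ℝ) ≤ t - R)] at h
  have h2 := mul_le_mul_of_nonneg_left hb (by linarith : (0 : ℝ) ≤ t - R)
  nlinarith

theorem gc_add_mul (P d : ℤ × ℤ) (R : ℤ) :
    gc P + ((R : ℝ) : ℂ) * gc d = gc (P.1 + R * d.1, P.2 + R * d.2) := by
  apply Complex.ext <;> simp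

end Crest.Agent.R006.NumTail2x322
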