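import Crest.Agent.R006.Cert_112
import Crest.Agent.R006.NumTail2_322

/-!
# Row 6, block P3: normal forms of `PhiR`, `PhiQ` and the tail of the rays (helper322)

* `LRl`, `LQl` : the two signed lists; `PhiR_eq`, `PhiQ_eq`, `PhiR_ray`, `PhiQ_ray`,
  `PhiR_real`, `PhiQ_real`;
* `rayRI`, `rayQI`, `realRI`, `realQI` : certified values at integer parameters;
* `tailR_chk`, `tailQ_chk` : Bool tests, `tailR`, `tailQ` : the inequalities for all `T ≥ R`.
-/

set_option autoImplicit false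

namespace Crest.Agent.R006.Cert

open D NumSegx464 Num482 NumTail2x322

/-! ### lists -/

/-- the measure with the opposite sign -/
def negL (L : List WSeg) : List WSeg := L.map fun p => (p.1, p.2.1, -p.2.2)

private theorem potL_append (L L' : List WSeg) (s : ℂ) : potL (L ++ L') s = potL L s + potL L' s := by
  induction L with
  | nil => simp [potL]
  | cons p L ih =>
    simp only [List.cons_append, potL, ih]
    ring

private theorem potL_negL (L : List WSeg) (s : ℂ) : potL (negL L) s = -potL L s := by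
  induction L with
  | nil => simp [potL, negL]
  | cons p L ih =>
    simp only [negL, List.map_cons, potL] at ih ⊢
    rw [ih]
    push_cast
    ring

/-- the signed measure of `PhiR` -/
def LRl (S : Shape) (d : Data) : List WSeg :=
  segs (d.K * S.w) d.W ++ segs (d.K * S.w) d.Z ++ LG S d.K ++ negL (LS S d.K)

/-- the signed measure of `PhiQ` -/
def LQl (S : Shape) (d : Data) : List WSeg :=
  segs (d.K * S.w) d.W ++ segs (d.K * S.w) d.Y ++ negL (LS S d.K)

theorem PhiR_eq (S : Shape) (d : Data) (s : ℂ) :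
    PhiR S d s = potL (LRl S d) s + Real.log 8 * s.re - Real.pi * |s.im| := by
  unfold PhiR LRl
  simp only [potL_append, potL_negL]
  ring

theorem PhiQ_eq (S : Shape) (d : Data) (s : ℂ) :
    PhiQ S d s = potL (LQl S d) s - 2 * Real.pi * |s.im| := by
  unfold PhiQ LQl
  simp only [potL_append, potL_negL]
  ring

theorem PhiR_real (S : Shape) (d : Data) (x : ℝ) :
    PhiR S d (x : ℂ) = potL (LRl S d) (x : ℂ) + Real.log 8 * x := by
  rw [PhiR_eq]; simp

theorem PhiQ_real (S : Shape) (d : Data) (x : ℝ) :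
    PhiQ S d (x : ℂ) = potL (LQl S d) (x : ℂ) := by
  rw [PhiQ_eq]; simp

/-- the apex -/
def apx (S : Shape) (d : Data) : ℤ × ℤ := (-(d.K * S.w), 0)

theorem ray_eq (S : Shape) (d : Data) (T : ℝ) :
    ray S d T = gc (apx S d) + (T : ℂ) * gc (-1, 1) := by
  apply Complex.ext
  · simp [ray, apx]; ring
  · simp [ray, apx]

theorem PhiR_ray (S : Shape) (d : Data) {T : ℝ} (hT : 0 ≤ T) :
    PhiR S d (ray S d T) = potL (LRl S d) (gc (apx S d) + (T : ℂ) * gc (-1, 1)) +
      -(Real.log 8 * (d.K * S.w)) + -(Real.log 8 + Real.pi) * T := by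
  rw [PhiR_eq, ray_eq]
  have h1 : (gc (apx S d) + (T : ℂ) * gc (-1, 1)).re = -(d.K * S.w : ℝ) - T := by
    simp [apx]; ring
  have h2 : (gc (apx S d) + (T : ℂ) * gc (-1, 1)).im = T := by
    simp [apx]
  rw [h1, h2, abs_of_nonneg hT]
  ring

theorem PhiQ_ray (S : Shape) (d : Data) {T : ℝ} (hT : 0 ≤ T) :
    PhiQ S d (ray S d T) = potL (LQl S d) (gc (apx S d) + (T : ℂ) * gc (-1, 1)) +
      -(2 * Real.pi) * T := by
  rw [PhiQ_eq, ray_eq]
  have h2 : (gc (apx S d) + (T : ℂ) * gc (-1, 1)).im = T := by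
    simp [apx]
  rw [h2, abs_of_nonneg hT]
  ring

/-! ### certified values at integer parameters -/

/-- `log 8` -/
def ln8I : ℤ × ℤ := (585310759515495, 585310759515555)

private theorem log8_eq : Real.log 8 = 3 * Real.log 2 := by
  rw [show (8 : ℝ) = 2 ^ 3 by norm_num, Real.log_pow]; norm_num

theorem enc_ln8 : Enc (Real.log 8) ln8I := by
  have h := enc_ln2.smul 3
  rw [log8_eq]
  exact h

/-- value of `PhiR` at the ray point with integer parameter `T ≥ 0` -/
def rayRI (S : Shape) (d : Data) (T : ℤ) : ℤ × ℤ :=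
  subI (addI (potLI (LRl S d) (-(d.K * S.w) - T, T)) (smulI (-(d.K * S.w) - T) ln8I))
    (smulI T piI)

/-- value of `PhiQ` at the ray point with integer parameter `T ≥ 0` -/
def rayQI (S : Shape) (d : Data) (T : ℤ) : ℤ × ℤ :=
  subI (potLI (LQl S d) (-(d.K * S.w) - T, T)) (smulI (2 * T) piI)

/-- value of `PhiR` at the integer `x` -/
def realRI (S : Shape) (d : Data) (x : ℤ) : ℤ × ℤ :=
  addI (potLI (LRl S d) (x, 0)) (smulI x ln8I)

/-- value of `PhiQ` at the integer `x` -/
def realQI (S : Shape) (d : Data) (x : ℤ) : ℤ × ℤ := potLI (LQl S d) (x, 0)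

theorem ray_int (S : Shape) (d : Data) (T : ℤ) :
    ray S d (T : ℝ) = gc (-(d.K * S.w) - T, T) := by
  apply Complex.ext <;> simp [ray]

theorem real_int (x : ℤ) : (((x : ℝ)) : ℂ) = gc (x, 0) := by
  apply Complex.ext <;> simp

theorem enc_rayRI {S : Shape} {d : Data} (h : potOK (LRl S d) = true) {T : ℤ} (hT : 0 ≤ T) :
    Enc (PhiR S d (ray S d T)) (rayRI S d T) := by
  have h1 := ((enc_potL (-(d.K * S.w) - T, T) (LRl S d) h).add
    (enc_ln8.smul (-(d.K * S.w) - T))).sub (enc_pi.smul T)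
  have hT' : (0 : ℝ) ≤ T := by exact_mod_cast hT
  rw [PhiR_eq, ray_int]
  simp only [gc_re, gc_im, abs_of_nonneg hT']
  unfold rayRI
  refine (Eq.subst (motive := fun r : ℝ => Enc r _) ?_ h1)
  push_cast
  ring

theorem enc_rayQI {S : Shape} {d : Data} (h : potOK (LQl S d) = true) {T : ℤ} (hT : 0 ≤ T) :
    Enc (PhiQ S d (ray S d T)) (rayQI S d T) := by
  have h1 := (enc_potL (-(d.K * S.w) - T, T) (LQl S d) h).sub (enc_pi.smul (2 * T))
  have hT' : (0 : ℝ) ≤ T := by exact_mod_cast hT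
  rw [PhiQ_eq, ray_int]
  simp only [gc_im, abs_of_nonneg hT']
  unfold rayQI
  refine (Eq.subst (motive := fun r : ℝ => Enc r _) ?_ h1)
  push_cast
  ring

theorem enc_realRI {S : Shape} {d : Data} (h : potOK (LRl S d) = true) (x : ℤ) :
    Enc (PhiR S d ((x : ℝ) : ℂ)) (realRI S d x) := by
  have h1 := (enc_potL (x, 0) (LRl S d) h).add (enc_ln8.smul x)
  rw [PhiR_real, real_int]
  unfold realRI
  refine (Eq.subst (motive := fun r : ℝ => Enc r _) ?_ h1)
  ring

theorem enc_realQI {S : Shape} {d : Data} (h : potOK (LQl S d) = true) (x : ℤ) :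
    Enc (PhiQ S d ((x : ℝ) : ℂ)) (realQI S d x) := by
  have h1 := enc_potL (x, 0) (LQl S d) h
  rw [PhiQ_real, real_int]
  exact h1

/-! ### the tails -/

/-- `5474600 / 2^20 ≤ log 8 + π` -/
theorem slopeR : (5474600 : ℝ) / 1048576 ≤ Real.log 8 + Real.pi := by
  have h1 := Real.log_two_gt_d9
  have h2 := Real.pi_gt_d6
  rw [log8_eq]
  norm_num at h1 h2 ⊢
  linarith

theorem slopeQ : (6588300 : ℝ) / 1048576 ≤ 2 * Real.pi := by
  have h2 := Real.pi_gt_d6
  norm_num at h2 ⊢
  linarith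

def nle (o : Option ℕ) (m : ℕ) : Bool :=
  match o with
  | some n => Nat.ble n m
  | none => false

/-- the test for the tail of the `R` inequality -/
def tailR_chk (S : Shape) (d : Data) (R : ℤ) (C : List Cand) : Bool :=
  decide (0 ≤ R) && candsOK (-1, 1) C && potOK (LRl S d) &&
    nle (tSum (apx S d) (-1, 1) R C (LRl S d)) 5474600 &&
    decide ((rayRI S d R).2 * d.D ≤ d.lR * 281474976710656)

/-- the test for the tail of the `Q` inequality -/
def tailQ_chk (S : Shape) (d : Data) (R : ℤ) (C : List Cand) : Bool :=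
  decide (0 ≤ R) && candsOK (-1, 1) C && potOK (LQl S d) &&
    nle (tSum (apx S d) (-1, 1) R C (LQl S d)) 6588300 &&
    decide ((rayQI S d R).2 * d.D ≤ d.lQ * 281474976710656)

private theorem nle_spec {o : Option ℕ} {m : ℕ} (h : nle o m = true) : ∃ n, o = some n ∧ n ≤ m := by
  rcases o with _ | n
  · simp [nle] at h
  · exact ⟨n, rfl, Nat.le_of_ble_eq_true h⟩

theorem tailR {S : Shape} {d : Data} {R : ℤ} {C : List Cand} (hD : 0 < d.D)
    (h : tailR_chk S d R C = true) {T : ℝ} (hT : (R : ℝ) ≤ T) :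
    PhiR S d (ray S d T) ≤ (d.lR : ℝ) / d.D := by
  unfold tailR_chk at h
  simp only [Bool.and_eq_true, decide_eq_true_eq] at h
  obtain ⟨⟨⟨⟨h0, h1⟩, h2⟩, h3⟩, h4⟩ := h
  obtain ⟨N, hN, hN'⟩ := nle_spec h3
  have h0' : (0 : ℝ) ≤ R := by exact_mod_cast h0
  have hv := (enc_rayRI h2 h0).le_of hD h4
  rw [PhiR_ray S d h0'] at hv
  rw [PhiR_ray S d (h0'.trans hT)]
  have hb : (N : ℝ) / 1048576 ≤ -(-(Real.log 8 + Real.pi)) := by
    rw [neg_neg]
    refine le_trans ?_ slopeR
    gcongr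
    exact_mod_cast hN'
  have := tail_le (a := -(Real.log 8 * (d.K * S.w)) - (d.lR : ℝ) / d.D) h1 hN hb
    (by linarith) hT
  linarith

theorem tailQ {S : Shape} {d : Data} {R : ℤ} {C : List Cand} (hD : 0 < d.D)
    (h : tailQ_chk S d R C = true) {T : ℝ} (hT : (R : ℝ) ≤ T) :
    PhiQ S d (ray S d T) ≤ (d.lQ : ℝ) / d.D := by
  unfold tailQ_chk at h
  simp only [Bool.and_eq_true, decide_eq_true_eq] at h
  obtain ⟨⟨⟨⟨h0, h1⟩, h2⟩, h3⟩, h4⟩ := h
  obtain ⟨N, hN, hN'⟩ := nle_spec h3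
  have h0' : (0 : ℝ) ≤ R := by exact_mod_cast h0
  have hv := (enc_rayQI h2 h0).le_of hD h4
  rw [PhiQ_ray S d h0'] at hv
  rw [PhiQ_ray S d (h0'.trans hT)]
  have hb : (N : ℝ) / 1048576 ≤ -(-(2 * Real.pi)) := by
    rw [neg_neg]
    refine le_trans ?_ slopeQ
    gcongr
    exact_mod_cast hN'
  have := tail_le (a := -((d.lQ : ℝ) / d.D)) h1 hN hb (by linarith) hT
  linarith

/-- the standard candidate functionals for the direction `-1 + i` -/
def stdC : List Cand := [((-1, 1), 2097153), ((0, 1), 1482912), ((-1, 0), 1482912)]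

theorem stdC_ok : candsOK (-1, 1) stdC = true := by decide +kernel

end Crest.Agent.R006.Cert
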