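import Crest.Agent.R006.NumPotI_464

/-!
# Row 6, certified numerics: weighted lists of segments (helper464)

A measure = list of `(A, B, m)`: mass `m : ℤ`, uniformly distributed on the segment `[A,B]`
(Gaussian integer end points).
* `enc_potL`  : potential of the measure at a Gaussian integer
* `enc_rowE`, `enc_mutE` : mutual energy, `enc_selfE` : self energy `Σ_{p<q} + ½ Σ_{p=q}`
-/

set_option autoImplicit false

namespace Crest.Agent.R006.NumSegx464

open Real Num482

/-- weighted segment `(A, B, m)` -/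
abbrev WSeg := (ℤ × ℤ) × (ℤ × ℤ) × ℤ

noncomputable def pairE (p q : WSeg) : ℝ :=
  ((p.2.2 * q.2.2 : ℤ) : ℝ) * segE (gc p.1) (gc p.2.1) (gc q.1) (gc q.2.1)

noncomputable def rowE (p : WSeg) : List WSeg → ℝ
  | [] => 0
  | q :: L => pairE p q + rowE p L

noncomputable def mutE : List WSeg → List WSeg → ℝ
  | [], _ => 0
  | p :: L, L' => rowE p L' + mutE L L'

/-- `½ ∬ log|z-w| dν dν`, written as `Σ_{p<q} + ½ Σ_{p=q}` -/
noncomputable def selfE : List WSeg → ℝ
  | [] => 0
  | p :: L => pairE p p / (2 : ℕ) + rowE p L + selfE L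

noncomputable def potL : List WSeg → ℂ → ℝ
  | [], _ => 0
  | p :: L, s => (p.2.2 : ℝ) * pot (gc p.1) (gc p.2.1) s + potL L s

def pairI (p q : WSeg) : ℤ × ℤ := smulI (p.2.2 * q.2.2) (segI p.1 p.2.1 q.1 q.2.1)

def pairOK (p q : WSeg) : Bool := segOK p.1 p.2.1 q.1 q.2.1

def rowI (p : WSeg) : List WSeg → ℤ × ℤ
  | [] => (0, 0)
  | q :: L => addI (pairI p q) (rowI p L)

def rowOK (p : WSeg) : List WSeg → Bool
  | [] => true
  | q :: L => pairOK p q && rowOK p L

def mutI : List WSeg → List WSeg → ℤ × ℤ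
  | [], _ => (0, 0)
  | p :: L, L' => addI (rowI p L') (mutI L L')

def mutOK : List WSeg → List WSeg → Bool
  | [], _ => true
  | p :: L, L' => rowOK p L' && mutOK L L'

def selfI : List WSeg → ℤ × ℤ
  | [] => (0, 0)
  | p :: L => addI (addI (divI (pairI p p) 2) (rowI p L)) (selfI L)

def selfOK : List WSeg → Bool
  | [] => true
  | p :: L => pairOK p p && rowOK p L && selfOK L

def potLI : List WSeg → ℤ × ℤ → ℤ × ℤ
  | [], _ => (0, 0)
  | p :: L, s => addI (smulI p.2.2 (potI p.1 p.2.1 s)) (potLI L s)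

def potOK : List WSeg → Bool
  | [] => true
  | p :: L => decide (sqN (p.2.1.1 - p.1.1) (p.2.1.2 - p.1.2) ≠ 0) && potOK L

theorem enc_pairE {p q : WSeg} (h : pairOK p q = true) : Enc (pairE p q) (pairI p q) :=
  (enc_segE h).smul _

theorem enc_rowE (p : WSeg) : ∀ (L : List WSeg), rowOK p L = true → Enc (rowE p L) (rowI p L)
  | [], _ => enc_zero
  | q :: L, h => by
    simp only [rowOK, Bool.and_eq_true] at h
    exact (enc_pairE h.1).add (enc_rowE p L h.2)

theorem enc_mutE : ∀ (L L' : List WSeg), mutOK L L' = true → Enc (mutE L L') (mutI L L')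
  | [], _, _ => enc_zero
  | p :: L, L', h => by
    simp only [mutOK, Bool.and_eq_true] at h
    exact (enc_rowE p L' h.1).add (enc_mutE L L' h.2)

theorem enc_selfE : ∀ (L : List WSeg), selfOK L = true → Enc (selfE L) (selfI L)
  | [], _ => enc_zero
  | p :: L, h => by
    simp only [selfOK, Bool.and_eq_true] at h
    exact (((enc_pairE h.1.1).divN (q := 2) (by norm_num)).add (enc_rowE p L h.1.2)).add
      (enc_selfE L h.2)

theorem enc_potL (s : ℤ × ℤ) : ∀ (L : List WSeg), potOK L = true →
    Enc (potL L (gc s)) (potLI L s)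
  | [], _ => enc_zero
  | p :: L, h => by
    simp only [potOK, Bool.and_eq_true, decide_eq_true_eq] at h
    exact ((enc_pot s h.1).smul p.2.2).add (enc_potL s L h.2)

/-- example: the energy of the uniform measure on `[0,100]`, cut into two halves, agrees. -/
example : mutOK [((0,0),(50,0),1), ((50,0),(100,0),1)] [((0,0),(50,0),1), ((50,0),(100,0),1)]
    = true := by decide +kernel

example : 1242068 / 100000 ≤ mutE [((0,0),(50,0),1), ((50,0),(100,0),1)]
    [((0,0),(50,0),1), ((50,0),(100,0),1)] := by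
  have h := enc_mutE [((0,0),(50,0),1), ((50,0),(100,0),1)]
    [((0,0),(50,0),1), ((50,0),(100,0),1)] (by decide +kernel)
  have := h.ge_of (p := 1242068) (q := 100000) (by norm_num) (by decide +kernel)
  norm_num at this ⊢
  linarith

end Crest.Agent.R006.NumSegx464
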