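import Mathlib
import Crest.Agent.R006.P9_SF_481

set_option autoImplicit false

/-!
# Row 6 (Catalan): reference asymptotics (helper252, for blocks P3, P4, P8, P9)

* `W2 δ A B A' B' = ∑_{i ∈ [A,B)} ∑_{j ∈ [A',B')} log |i - j + δ|` (integer windows; for `δ = 0` the
  diagonal terms are `log 0 = 0`, i.e. omitted);
* exact formula for `δ = 0` by superfactorials, asymptotics for `|δ| ≤ 1/2`,
  scaled version for windows with ends `α N` (`α : ℤ`), error `C N log N`;
* quadratic version for a finite family of weighted windows (integer and half-integer points);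
* `v_p` of superfactorials, and the product formula `∑_p v_p(q) log p = log |q|`.
-/

namespace Crest.Agent.R006

open Finset

/-! ## superfactorial on `ℤ` -/

/-- `log sf |m|`, an even function of `m : ℤ` -/
noncomputable def lsf (m : ℤ) : ℝ := Real.log (sf m.natAbs)

lemma lsf_neg (m : ℤ) : lsf (-m) = lsf m := by simp [lsf]

lemma lsf_nat (n : ℕ) : lsf (n : ℤ) = Real.log (sf n) := by simp [lsf]

lemma log_sf_succ (n : ℕ) : Real.log (sf (n + 1)) = Real.log (sf n) + Real.log (n.factorial) := by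
  rw [sf_succ, Nat.cast_mul, Real.log_mul]
  · exact_mod_cast (sf_pos n).ne'
  · exact_mod_cast n.factorial_pos.ne'

lemma lsf_second_nat (n : ℕ) :
    (lsf ((n : ℤ) + 2) - lsf ((n : ℤ) + 1)) - (lsf ((n : ℤ) + 1) - lsf (n : ℤ)) =
      Real.log ((n : ℝ) + 1) := by
  have e1 : lsf ((n : ℤ) + 1) = Real.log (sf (n + 1)) := by
    have := lsf_nat (n + 1); push_cast at this; exact this
  have e2 : lsf ((n : ℤ) + 2) = Real.log (sf (n + 2)) := by
    have := lsf_nat (n + 2); push_cast at this; exact this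
  rw [e1, e2, lsf_nat, log_sf_succ (n + 1), log_sf_succ n, Nat.factorial_succ, Nat.cast_mul,
    Real.log_mul (by positivity) (by exact_mod_cast n.factorial_pos.ne')]
  push_cast
  ring

/-- second difference of `lsf` is `log |m|` on all of `ℤ`. -/
lemma lsf_second (m : ℤ) :
    (lsf (m + 1) - lsf m) - (lsf m - lsf (m - 1)) = Real.log (m : ℝ) := by
  rcases lt_trichotomy m 0 with h | h | h
  · obtain ⟨n, rfl⟩ : ∃ n : ℕ, m = -((n : ℤ) + 1) := by
      refine ⟨(-m - 1).toNat, ?_⟩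
      rw [Int.toNat_of_nonneg (by omega)]; ring
    have h1 := lsf_second_nat n
    have e1 : lsf (-((n : ℤ) + 1) + 1) = lsf (n : ℤ) := by
      rw [show -((n : ℤ) + 1) + 1 = -(n : ℤ) by ring, lsf_neg]
    have e2 : lsf (-((n : ℤ) + 1) - 1) = lsf ((n : ℤ) + 2) := by
      rw [show -((n : ℤ) + 1) - 1 = -((n : ℤ) + 2) by ring, lsf_neg]
    rw [e1, e2, lsf_neg]
    push_cast
    rw [show (-((n : ℝ) + 1)) = -((n : ℝ) + 1) by rfl, Real.log_neg_eq_log]
    linarith
  · subst h
    simp [lsf, sf]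
  · obtain ⟨n, rfl⟩ : ∃ n : ℕ, m = (n : ℤ) + 1 := by
      refine ⟨(m - 1).toNat, ?_⟩
      rw [Int.toNat_of_nonneg (by omega)]; ring
    have h1 := lsf_second_nat n
    rw [show (n : ℤ) + 1 + 1 = (n : ℤ) + 2 by ring, show (n : ℤ) + 1 - 1 = (n : ℤ) by ring]
    push_cast
    linarith

lemma sum_Ico_telescope (f : ℤ → ℝ) {A B : ℤ} (h : A ≤ B) :
    ∑ i ∈ Ico A B, (f (i + 1) - f i) = f B - f A := by
  induction B, h using Int.leInduction with
  | base => simp
  | succ B hB ih =>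
    have : Ico A (B + 1) = insert B (Ico A B) := by
      ext x; simp only [mem_Ico, mem_insert]; omega
    rw [this, sum_insert (by simp), ih]
    ring

lemma sum_Ico_telescope' (f : ℤ → ℝ) (c : ℤ) {A B : ℤ} (h : A ≤ B) :
    ∑ i ∈ Ico A B, (f (i - c + 1) - f (i - c)) = f (B - c) - f (A - c) := by
  have := sum_Ico_telescope (fun i => f (i - c)) h
  rw [← this]
  apply sum_congr rfl
  intro i _
  rw [show i + 1 - c = i - c + 1 by ring]

/-- `∑_{i ∈ [A,B)} ∑_{j ∈ [A',B')} log |i - j + δ|`. -/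
noncomputable def W2 (δ : ℝ) (A B A' B' : ℤ) : ℝ :=
  ∑ i ∈ Ico A B, ∑ j ∈ Ico A' B', Real.log ((i : ℝ) - j + δ)

lemma inner_sum (i : ℤ) {A' B' : ℤ} (h : A' ≤ B') :
    ∑ j ∈ Ico A' B', Real.log ((i : ℝ) - j) =
      (lsf (i - A' + 1) - lsf (i - A')) - (lsf (i - B' + 1) - lsf (i - B')) := by
  have h1 := sum_Ico_telescope (fun j => -(lsf (i - j + 1) - lsf (i - j))) h
  have h2 : ∑ j ∈ Ico A' B', Real.log ((i : ℝ) - j) =
      ∑ j ∈ Ico A' B', (-(lsf (i - (j + 1) + 1) - lsf (i - (j + 1))) -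
        -(lsf (i - j + 1) - lsf (i - j))) := by
    apply sum_congr rfl
    intro j _
    have h3 := lsf_second (i - j)
    push_cast at h3
    rw [← h3, show i - (j + 1) + 1 = i - j by ring, show i - (j + 1) = i - j - 1 by ring]
    ring
  rw [h2, h1]
  ring

/-- exact formula -/
theorem W2_zero {A B A' B' : ℤ} (h : A ≤ B) (h' : A' ≤ B') :
    W2 0 A B A' B' = lsf (B - A') - lsf (A - A') - lsf (B - B') + lsf (A - B') := by
  unfold W2
  simp only [add_zero]
  simp_rw [inner_sum _ h']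
  rw [sum_sub_distrib, sum_Ico_telescope' lsf A' h, sum_Ico_telescope' lsf B' h]
  ring

/-! ## asymptotics -/

lemma sfF_neg (x : ℝ) : sfF (-x) = sfF x := by simp [sfF, Real.log_neg_eq_log]

lemma sfF_zero : sfF 0 = 0 := by simp [sfF]

/-- scaling of `sfF` -/
lemma sfF_scale {N : ℝ} (hN : 0 < N) (u : ℝ) :
    sfF (u * N) = N ^ 2 * (u ^ 2 / 2 * Real.log N + sfF u) := by
  rcases eq_or_ne u 0 with rfl | hu
  · simp [sfF]
  · unfold sfF
    rw [Real.log_mul hu hN.ne']
    ring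

lemma lsf_asymp_nat (n : ℕ) : |lsf (n : ℤ) - sfF (n : ℝ)| ≤ (n : ℝ) * (Real.log n + 1) := by
  rw [lsf_nat]
  rcases Nat.eq_zero_or_pos n with rfl | hn
  · simp [sf_zero, sfF_zero]
  · exact log_sf_bound n hn

/-- `|m| (log |m| + 1)` error -/
lemma lsf_asymp (m : ℤ) : |lsf m - sfF (m : ℝ)| ≤ |(m : ℝ)| * (Real.log |(m : ℝ)| + 1) := by
  rcases le_total 0 m with h | h
  · obtain ⟨n, rfl⟩ := Int.eq_ofNat_of_zero_le h
    have := lsf_asymp_nat n
    push_cast
    rw [Nat.abs_cast]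
    exact this
  · obtain ⟨n, hn⟩ := Int.eq_ofNat_of_zero_le (a := -m) (by omega)
    have hm : m = -(n : ℤ) := by omega
    subst hm
    have := lsf_asymp_nat n
    rw [lsf_neg]
    push_cast
    rw [sfF_neg, abs_neg, Nat.abs_cast]
    exact this

lemma lsf_asymp_le {m : ℤ} {M : ℝ} (hM : 1 ≤ M) (h : |(m : ℝ)| ≤ M) :
    |lsf m - sfF (m : ℝ)| ≤ M * (Real.log M + 1) := by
  refine (lsf_asymp m).trans ?_
  have hl : 0 ≤ Real.log M := Real.log_nonneg hM
  rcases eq_or_ne m 0 with rfl | hm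
  · simp; positivity
  · have h1 : (1 : ℝ) ≤ |(m : ℝ)| := by
      have : (1 : ℤ) ≤ |m| := Int.one_le_abs hm
      exact_mod_cast this
    have h2 : Real.log |(m : ℝ)| ≤ Real.log M := Real.log_le_log (by linarith) h
    have h3 : 0 ≤ Real.log |(m : ℝ)| := Real.log_nonneg h1
    nlinarith

/-- the limit shape of a window pair -/
noncomputable def QW (α β α' β' : ℝ) : ℝ :=
  sfF (β - α') - sfF (α - α') - sfF (β - β') + sfF (α - β')

theorem W2_zero_bound {A B A' B' : ℤ} (h : A ≤ B) (h' : A' ≤ B') {M : ℝ} (hM : 1 ≤ M)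
    (h1 : |(B : ℝ) - A'| ≤ M) (h2 : |(A : ℝ) - A'| ≤ M) (h3 : |(B : ℝ) - B'| ≤ M)
    (h4 : |(A : ℝ) - B'| ≤ M) :
    |W2 0 A B A' B' - QW A B A' B'| ≤ 4 * (M * (Real.log M + 1)) := by
  have a1 := lsf_asymp_le (m := B - A') hM (by push_cast; exact h1)
  have a2 := lsf_asymp_le (m := A - A') hM (by push_cast; exact h2)
  have a3 := lsf_asymp_le (m := B - B') hM (by push_cast; exact h3)
  have a4 := lsf_asymp_le (m := A - B') hM (by push_cast; exact h4)
  rw [W2_zero h h']
  unfold QW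
  push_cast at a1 a2 a3 a4
  rw [abs_le] at *
  constructor <;> linarith [a1.1, a1.2, a2.1, a2.2, a3.1, a3.2, a4.1, a4.2]

/-! ## shifts `|δ| ≤ 1/2` -/

lemma abs_log_one_add_le {x : ℝ} (h : |x| ≤ 1 / 2) : |Real.log (1 + x)| ≤ 2 * |x| := by
  rw [abs_le] at h
  have hpos : 0 < 1 + x := by linarith
  rw [abs_le]
  constructor
  · have h1 := Real.one_sub_inv_le_log_of_pos hpos
    have h2 : -(2 * |x|) ≤ 1 - (1 + x)⁻¹ := by
      have e : 1 - (1 + x)⁻¹ = x / (1 + x) := by field_simp; ring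
      rw [e, le_div_iff₀ hpos]
      rcases le_total 0 x with hx | hx
      · rw [abs_of_nonneg hx]; nlinarith
      · rw [abs_of_nonpos hx]; nlinarith
    linarith
  · have h1 := Real.log_le_sub_one_of_pos hpos
    have := le_abs_self x
    have := abs_nonneg x
    linarith

lemma log_shift {d δ : ℝ} (hd : 1 ≤ |d|) (hδ : |δ| ≤ 1 / 2) :
    |Real.log (d + δ) - Real.log d| ≤ |d|⁻¹ := by
  have hd0 : d ≠ 0 := by
    intro h; rw [h, abs_zero] at hd; linarith
  have e : d + δ = d * (1 + δ / d) := by field_simp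
  have hx : |δ / d| ≤ 1 / 2 := by
    rw [abs_div, div_le_iff₀ (by linarith)]
    linarith
  have h1 : 1 + δ / d ≠ 0 := by
    rw [abs_le] at hx; linarith
  rw [e, Real.log_mul hd0 h1, add_sub_cancel_left]
  refine (abs_log_one_add_le hx).trans ?_
  rw [abs_div, div_eq_mul_inv]
  have : 0 ≤ |d|⁻¹ := by positivity
  nlinarith

/-- `∑_{j ∈ [A',B'), j ≠ i} 1/|i-j| ≤ 2 (1 + log M)` -/
lemma sum_inv_le (i A' B' : ℤ) {M : ℕ} (hM : 1 ≤ M) (h : ∀ j ∈ Ico A' B', |i - j| ≤ M) :
    ∑ j ∈ (Ico A' B').filter (· ≠ i), (|(i : ℝ) - j|)⁻¹ ≤ 2 * (1 + Real.log M) := by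
  have hH : ∑ k ∈ Icc 1 M, ((k : ℝ))⁻¹ ≤ 1 + Real.log M := by
    have := harmonic_le_one_add_log M
    rw [harmonic_eq_sum_Icc] at this
    push_cast at this
    exact this
  have side : ∀ s : Finset ℤ, (∀ j ∈ s, |i - j| ≤ M ∧ j ≠ i) →
      Set.InjOn (fun j : ℤ => (i - j).natAbs) s →
      ∑ j ∈ s, (|(i : ℝ) - j|)⁻¹ ≤ ∑ k ∈ Icc 1 M, ((k : ℝ))⁻¹ := by
    intro s hs hinj
    have e : ∑ j ∈ s, (|(i : ℝ) - j|)⁻¹ = ∑ k ∈ s.image (fun j : ℤ => (i - j).natAbs), ((k : ℝ))⁻¹ := by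
      rw [sum_image hinj]
      apply sum_congr rfl
      intro j _
      congr 1
      rw [← Int.cast_sub, ← Int.cast_abs, Int.abs_eq_natAbs]
      simp
    rw [e]
    apply sum_le_sum_of_subset_of_nonneg
    · intro k hk
      rw [mem_image] at hk
      obtain ⟨j, hj, rfl⟩ := hk
      have h5 := (hs j hj).1
      have h6 := (hs j hj).2
      rw [mem_Icc]
      constructor
      · have : i - j ≠ 0 := by omega
        omega
      · rw [Int.abs_eq_natAbs] at h5
        exact_mod_cast h5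
    · intro k _ _
      positivity
  have split : (Ico A' B').filter (· ≠ i) =
      (Ico A' B').filter (· < i) ∪ (Ico A' B').filter (i < ·) := by
    ext j
    simp only [mem_filter, mem_union, mem_Ico]
    omega
  rw [split, sum_union]
  · have h1 := side ((Ico A' B').filter (· < i)) (fun j hj => by
      rw [mem_filter] at hj; exact ⟨h j hj.1, by omega⟩) (by
        intro a ha b hb hab
        simp only [coe_filter, Set.mem_ofPred_eq] at ha hb
        simp only at hab
        omega)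
    have h2 := side ((Ico A' B').filter (i < ·)) (fun j hj => by
      rw [mem_filter] at hj; exact ⟨h j hj.1, by omega⟩) (by
        intro a ha b hb hab
        simp only [coe_filter, Set.mem_ofPred_eq] at ha hb
        simp only at hab
        omega)
    linarith
  · rw [disjoint_left]
    intro j hj hj'
    rw [mem_filter] at hj hj'
    omega

lemma W2_shift {A B A' B' : ℤ} {δ : ℝ} (hδ : |δ| ≤ 1 / 2) (h : A ≤ B) {M : ℕ} (hM : 1 ≤ M)
    (hd : ∀ i ∈ Ico A B, ∀ j ∈ Ico A' B', |i - j| ≤ M) :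
    |W2 δ A B A' B' - W2 0 A B A' B'| ≤
      ((B : ℝ) - A) * (|Real.log δ| + 2 * (1 + Real.log M)) := by
  unfold W2
  rw [← sum_sub_distrib]
  refine (abs_sum_le_sum_abs _ _).trans ?_
  have key : ∀ i ∈ Ico A B, |∑ j ∈ Ico A' B', Real.log ((i : ℝ) - j + δ) -
      ∑ j ∈ Ico A' B', Real.log ((i : ℝ) - j + 0)| ≤ |Real.log δ| + 2 * (1 + Real.log M) := by
    intro i hi
    rw [← sum_sub_distrib]
    refine (abs_sum_le_sum_abs _ _).trans ?_
    rw [← sum_filter_add_sum_filter_not (Ico A' B') (· ≠ i)]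
    have h1 : ∑ j ∈ (Ico A' B').filter (· ≠ i),
        |Real.log ((i : ℝ) - j + δ) - Real.log ((i : ℝ) - j + 0)| ≤ 2 * (1 + Real.log M) := by
      refine le_trans (sum_le_sum fun j hj => ?_) (sum_inv_le i A' B' hM (hd i hi))
      rw [mem_filter] at hj
      rw [add_zero]
      apply log_shift _ hδ
      have : (1 : ℤ) ≤ |i - j| := Int.one_le_abs (by omega)
      exact_mod_cast this
    have h2 : ∑ j ∈ (Ico A' B').filter (fun j => ¬ j ≠ i),
        |Real.log ((i : ℝ) - j + δ) - Real.log ((i : ℝ) - j + 0)| ≤ |Real.log δ| := by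
      have hsub : (Ico A' B').filter (fun j => ¬ j ≠ i) ⊆ {i} := by
        intro j hj
        rw [mem_filter] at hj
        simp only [ne_eq, not_not] at hj
        simp [hj.2]
      refine (sum_le_sum_of_subset_of_nonneg hsub fun _ _ _ => abs_nonneg _).trans ?_
      simp
    linarith
  refine (sum_le_sum key).trans ?_
  rw [sum_const, Int.card_Ico, nsmul_eq_mul]
  have : (((B - A).toNat : ℕ) : ℝ) = (B : ℝ) - A := by
    have h5 : (((B - A).toNat : ℕ) : ℤ) = B - A := Int.toNat_of_nonneg (by omega)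
    exact_mod_cast h5
  rw [this]

/-! ## scaled windows -/

lemma QW_scale {N : ℝ} (hN : 0 < N) (α β α' β' : ℝ) :
    QW (α * N) (β * N) (α' * N) (β' * N) =
      N ^ 2 * (Real.log N * ((β - α) * (β' - α')) + QW α β α' β') := by
  unfold QW
  rw [← sub_mul, ← sub_mul, ← sub_mul, ← sub_mul, sfF_scale hN, sfF_scale hN, sfF_scale hN,
    sfF_scale hN]
  ring

/-- **double window sum**, ends `α N`, `β N`, `α' N`, `β' N`. -/
theorem W2_scaled {δ : ℝ} (hδ : |δ| ≤ 1 / 2) {α β α' β' : ℤ} (h : α ≤ β) (h' : α' ≤ β') :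
    ∃ C : ℝ, 0 ≤ C ∧ ∀ N : ℕ, 2 ≤ N →
      |W2 δ (α * N) (β * N) (α' * N) (β' * N) -
        (N : ℝ) ^ 2 * (Real.log N * (((β : ℝ) - α) * (β' - α')) + QW α β α' β')| ≤
          C * (N * Real.log N) := by
  set K : ℕ := 1 + |β - α'|.toNat + |α - α'|.toNat + |β - β'|.toNat + |α - β'|.toNat with hK
  have hK1 : 1 ≤ K := by omega
  have hKr : (1 : ℝ) ≤ K := by exact_mod_cast hK1
  have hBA : (0 : ℝ) ≤ (β : ℝ) - α := by
    have : (α : ℝ) ≤ β := by exact_mod_cast h
    linarith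
  refine ⟨4 * (K * (2 * Real.log K + 3)) + ((β : ℝ) - α) * (2 * |Real.log δ| + 2 * (3 + 2 * Real.log K)),
    ?_, ?_⟩
  · have : 0 ≤ Real.log K := Real.log_nonneg hKr
    positivity
  intro N hN
  have hN0 : (0 : ℝ) < N := by positivity
  have hN2 : (2 : ℝ) ≤ N := by exact_mod_cast hN
  have hlogN : 1 / 2 ≤ Real.log N := by
    have h2 : Real.log 2 ≤ Real.log N := Real.log_le_log (by norm_num) hN2
    have := Real.log_two_gt_d9
    linarith
  have hlogK : 0 ≤ Real.log K := Real.log_nonneg hKr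
  -- M = K N
  have hM : 1 ≤ K * N := Nat.one_le_iff_ne_zero.mpr (by positivity)
  have hMr : (1 : ℝ) ≤ (K * N : ℕ) := by exact_mod_cast hM
  have hlogM : Real.log ((K * N : ℕ) : ℝ) = Real.log K + Real.log N := by
    push_cast
    rw [Real.log_mul (by positivity) (by positivity)]
  have dist : ∀ x : ℤ, |x| ≤ K → |((x * N : ℤ) : ℝ)| ≤ ((K * N : ℕ) : ℝ) := by
    intro x hx
    push_cast
    rw [abs_mul, Nat.abs_cast]
    have : |(x : ℝ)| ≤ K := by exact_mod_cast hx
    exact mul_le_mul_of_nonneg_right this hN0.le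
  have k1 : |β - α'| ≤ K := by
    have := abs_nonneg (β - α'); omega
  have k2 : |α - α'| ≤ K := by
    have := abs_nonneg (α - α'); omega
  have k3 : |β - β'| ≤ K := by
    have := abs_nonneg (β - β'); omega
  have k4 : |α - β'| ≤ K := by
    have := abs_nonneg (α - β'); omega
  have hA : α * (N : ℤ) ≤ β * N := mul_le_mul_of_nonneg_right h (by positivity)
  have hA' : α' * (N : ℤ) ≤ β' * N := mul_le_mul_of_nonneg_right h' (by positivity)
  have b0 := W2_zero_bound hA hA' hMr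
    (by have := dist _ k1; push_cast at this ⊢; rw [sub_mul] at this; exact this)
    (by have := dist _ k2; push_cast at this ⊢; rw [sub_mul] at this; exact this)
    (by have := dist _ k3; push_cast at this ⊢; rw [sub_mul] at this; exact this)
    (by have := dist _ k4; push_cast at this ⊢; rw [sub_mul] at this; exact this)
  have b1 := W2_shift (A' := α' * N) (B' := β' * N) hδ hA hM (by
    intro i hi j hj
    rw [mem_Ico] at hi hj
    have hN' : (0 : ℤ) ≤ N := by positivity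
    have e1 : (α - β') * N ≤ i - j := by nlinarith [hi.1, hj.2]
    have e2 : i - j ≤ (β - α') * N := by nlinarith [hi.2, hj.1]
    have e3 : -((K : ℤ) * N) ≤ (α - β') * N := by
      have := (abs_le.mp k4).1
      nlinarith
    have e4 : (β - α') * N ≤ (K : ℤ) * N := by
      have := (abs_le.mp k1).2
      nlinarith
    rw [abs_le]
    push_cast
    constructor <;> linarith)
  have e := QW_scale hN0 (α : ℝ) β α' β'
  push_cast at b0 b1 hlogM
  rw [hlogM] at b0 b1
  rw [e] at b0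
  have tri : |W2 δ (α * N) (β * N) (α' * N) (β' * N) -
        (N : ℝ) ^ 2 * (Real.log N * (((β : ℝ) - α) * (β' - α')) + QW α β α' β')| ≤
      4 * ((K * N) * (Real.log K + Real.log N + 1)) +
      ((β : ℝ) * N - α * N) * (|Real.log δ| + 2 * (1 + (Real.log K + Real.log N))) := by
    have h6 := abs_sub_le (W2 δ (α * N) (β * N) (α' * N) (β' * N)) (W2 0 (α * N) (β * N) (α' * N) (β' * N))
      ((N : ℝ) ^ 2 * (Real.log N * (((β : ℝ) - α) * (β' - α')) + QW α β α' β'))
    linarith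
  refine tri.trans ?_
  have hc1 : 4 * ((K * N) * (Real.log K + Real.log N + 1)) ≤
      4 * (K * (2 * Real.log K + 3)) * (N * Real.log N) := by
    have : Real.log K + Real.log N + 1 ≤ (2 * Real.log K + 3) * Real.log N := by nlinarith
    have h3 : (0 : ℝ) ≤ K * N := by positivity
    nlinarith [mul_le_mul_of_nonneg_left this h3]
  have hc2 : ((β : ℝ) * N - α * N) * (|Real.log δ| + 2 * (1 + (Real.log K + Real.log N))) ≤
      (((β : ℝ) - α) * (2 * |Real.log δ| + 2 * (3 + 2 * Real.log K))) * (N * Real.log N) := by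
    have h0 : 0 ≤ |Real.log δ| := abs_nonneg _
    have : |Real.log δ| + 2 * (1 + (Real.log K + Real.log N)) ≤
        (2 * |Real.log δ| + 2 * (3 + 2 * Real.log K)) * Real.log N := by nlinarith
    have h3 : (0 : ℝ) ≤ (β - α) * N := by positivity
    nlinarith [mul_le_mul_of_nonneg_left this h3]
  linarith

/-! ## weighted families of windows -/

/-- bilinear form: two finite families of windows (integer points `e = 0`, half-integer points
`e = 1/2`), ends `lo w * N`, `hi w * N`, weights `c w`, `d v`. -/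
noncomputable def WB {ι κ : Type*} (s : Finset ι) (t : Finset κ) (c : ι → ℝ) (d : κ → ℝ)
    (e : ι → ℝ) (f : κ → ℝ) (lo hi : ι → ℤ) (lo' hi' : κ → ℤ) (N : ℕ) : ℝ :=
  ∑ w ∈ s, ∑ v ∈ t, c w * d v *
    W2 (e w - f v) (lo w * N) (hi w * N) (lo' v * N) (hi' v * N)

/-- **asymptotics of weighted double window sums** -/
theorem WB_scaled {ι κ : Type*} (s : Finset ι) (t : Finset κ) (c : ι → ℝ) (d : κ → ℝ)
    (e : ι → ℝ) (f : κ → ℝ) (lo hi : ι → ℤ) (lo' hi' : κ → ℤ)
    (he : ∀ w ∈ s, ∀ v ∈ t, |e w - f v| ≤ 1 / 2)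
    (h : ∀ w ∈ s, lo w ≤ hi w) (h' : ∀ v ∈ t, lo' v ≤ hi' v) :
    ∃ C : ℝ, 0 ≤ C ∧ ∀ N : ℕ, 2 ≤ N →
      |WB s t c d e f lo hi lo' hi' N -
        (N : ℝ) ^ 2 * (Real.log N * ((∑ w ∈ s, c w * ((hi w : ℝ) - lo w)) *
            (∑ v ∈ t, d v * ((hi' v : ℝ) - lo' v))) +
          ∑ w ∈ s, ∑ v ∈ t, c w * d v * QW (lo w) (hi w) (lo' v) (hi' v))| ≤
          C * (N * Real.log N) := by
  classical
  have hex : ∀ w : ι, ∀ v : κ, ∃ C : ℝ, 0 ≤ C ∧ (w ∈ s → v ∈ t → ∀ N : ℕ, 2 ≤ N →
      |W2 (e w - f v) (lo w * N) (hi w * N) (lo' v * N) (hi' v * N) -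
        (N : ℝ) ^ 2 * (Real.log N * (((hi w : ℝ) - lo w) * ((hi' v : ℝ) - lo' v)) +
          QW (lo w) (hi w) (lo' v) (hi' v))| ≤ C * (N * Real.log N)) := by
    intro w v
    by_cases hw : w ∈ s ∧ v ∈ t
    · obtain ⟨C, h0, h1⟩ := W2_scaled (he w hw.1 v hw.2) (h w hw.1) (h' v hw.2)
      exact ⟨C, h0, fun _ _ => h1⟩
    · exact ⟨0, le_refl _, fun h1 h2 => absurd ⟨h1, h2⟩ hw⟩
  choose C hC0 hC using hex
  refine ⟨∑ w ∈ s, ∑ v ∈ t, |c w * d v| * C w v,
    sum_nonneg fun w _ => sum_nonneg fun v _ => mul_nonneg (abs_nonneg _) (hC0 w v), ?_⟩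
  intro N hN
  have e1 : WB s t c d e f lo hi lo' hi' N -
        (N : ℝ) ^ 2 * (Real.log N * ((∑ w ∈ s, c w * ((hi w : ℝ) - lo w)) *
            (∑ v ∈ t, d v * ((hi' v : ℝ) - lo' v))) +
          ∑ w ∈ s, ∑ v ∈ t, c w * d v * QW (lo w) (hi w) (lo' v) (hi' v)) =
      ∑ w ∈ s, ∑ v ∈ t, c w * d v *
        (W2 (e w - f v) (lo w * N) (hi w * N) (lo' v * N) (hi' v * N) -
        (N : ℝ) ^ 2 * (Real.log N * (((hi w : ℝ) - lo w) * ((hi' v : ℝ) - lo' v)) +
          QW (lo w) (hi w) (lo' v) (hi' v))) := by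
    unfold WB
    rw [sum_mul_sum, mul_add]
    simp only [mul_sum]
    rw [← sum_add_distrib, ← sum_sub_distrib]
    apply sum_congr rfl; intro w _
    rw [← sum_add_distrib, ← sum_sub_distrib]
    apply sum_congr rfl; intro v _
    ring
  rw [e1, sum_mul]
  refine (abs_sum_le_sum_abs _ _).trans (sum_le_sum fun w hw => ?_)
  rw [sum_mul]
  refine (abs_sum_le_sum_abs _ _).trans (sum_le_sum fun v hv => ?_)
  rw [abs_mul, mul_assoc]
  exact mul_le_mul_of_nonneg_left (hC w v hw hv N hN) (abs_nonneg _)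

/-! ## valuations and the product formula -/

lemma padicValNat_finset_prod {ι : Type*} {p : ℕ} [hp : Fact p.Prime] (s : Finset ι) (f : ι → ℕ)
    (hf : ∀ i ∈ s, f i ≠ 0) : padicValNat p (∏ i ∈ s, f i) = ∑ i ∈ s, padicValNat p (f i) := by
  classical
  induction s using Finset.induction_on with
  | empty => simp
  | insert a s ha ih =>
    rw [prod_insert ha, sum_insert ha, padicValNat.mul (hf a (mem_insert_self a s))
      (prod_ne_zero_iff.mpr fun i hi => hf i (mem_insert_of_mem hi)),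
      ih fun i hi => hf i (mem_insert_of_mem hi)]

/-- `v_p (sf n)` by Legendre -/
theorem padicValNat_sf {p : ℕ} [hp : Fact p.Prime] {n b : ℕ} (hb : Nat.log p n < b) :
    padicValNat p (sf n) = ∑ k ∈ Ico 1 b, ∑ j ∈ range n, j / p ^ k := by
  rw [sum_comm]
  unfold sf
  rw [padicValNat_finset_prod _ _ fun k _ => k.factorial_ne_zero]
  apply sum_congr rfl
  intro j hj
  apply padicValNat_factorial
  exact lt_of_le_of_lt (Nat.log_mono_right (mem_range.mp hj).le) hb

/-- valuation of a product of integers by counting divisibility -/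
lemma padicValNat_eq_sum {p : ℕ} [hp : Fact p.Prime] {n b : ℕ} (hn : n ≠ 0) (hb : Nat.log p n < b) :
    padicValNat p n = ∑ k ∈ Ico 1 b, if p ^ k ∣ n then 1 else 0 := by
  rw [← card_filter]
  have e : (Ico 1 b).filter (fun k => p ^ k ∣ n) = Ico 1 (padicValNat p n + 1) := by
    ext k
    simp only [mem_filter, mem_Ico]
    rw [padicValNat_dvd_iff_le hn]
    have h1 : padicValNat p n < b :=
      lt_of_le_of_lt (padicValNat_le_nat_log n) hb
    omega
  rw [e]
  simp

/-- valuation of a double product of differences -/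
theorem padicValNat_pairs {p : ℕ} [hp : Fact p.Prime] {b : ℕ} (s : Finset (ℤ × ℤ))
    (hs : ∀ q ∈ s, q.1 ≠ q.2) (hb : ∀ q ∈ s, Nat.log p (q.1 - q.2).natAbs < b) :
    padicValNat p (∏ q ∈ s, (q.1 - q.2).natAbs) =
      ∑ k ∈ Ico 1 b, (s.filter fun q => (p : ℤ) ^ k ∣ q.1 - q.2).card := by
  have hne : ∀ q ∈ s, (q.1 - q.2).natAbs ≠ 0 := fun q hq => by
    have := hs q hq
    simp only [ne_eq, Int.natAbs_eq_zero]
    omega
  rw [padicValNat_finset_prod _ _ hne]
  simp_rw [card_filter]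
  rw [sum_comm]
  apply sum_congr rfl
  intro q hq
  rw [padicValNat_eq_sum (hne q hq) (hb q hq)]
  apply sum_congr rfl
  intro k _
  congr 1
  rw [← Int.natCast_dvd_natCast, Int.dvd_natAbs]
  push_cast
  rfl

/-- **product formula** for a positive natural number -/
theorem sum_log_padicValNat {n : ℕ} (hn : n ≠ 0) (P : Finset ℕ) (hP : ∀ p ∈ P, p.Prime)
    (hPn : ∀ p, p.Prime → p ∣ n → p ∈ P) :
    ∑ p ∈ P, (padicValNat p n : ℝ) * Real.log p = Real.log n := by
  rw [Real.log_nat_eq_sum_factorization n, Finsupp.sum, Nat.support_factorization]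
  have hsub : n.primeFactors ⊆ P := by
    intro p hp
    exact hPn p (Nat.prime_of_mem_primeFactors hp) (Nat.dvd_of_mem_primeFactors hp)
  rw [← sum_subset hsub]
  · apply sum_congr rfl
    intro p hp
    rw [Nat.factorization_def n (Nat.prime_of_mem_primeFactors hp)]
  · intro p hp hpn
    have : padicValNat p n = 0 := by
      apply padicValNat.eq_zero_of_not_dvd
      intro hd
      exact hpn (Nat.mem_primeFactors.mpr ⟨hP p hp, hd, hn⟩)
    simp [this]

/-- **product formula** for a nonzero rational number -/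
theorem sum_log_padicValRat {q : ℚ} (hq : q ≠ 0) (P : Finset ℕ) (hP : ∀ p ∈ P, p.Prime)
    (hPn : ∀ p, p.Prime → (p ∣ q.num.natAbs ∨ p ∣ q.den) → p ∈ P) :
    ∑ p ∈ P, (padicValRat p q : ℝ) * Real.log p = Real.log |(q : ℝ)| := by
  have h1 := sum_log_padicValNat (n := q.num.natAbs) (by simpa using hq) P hP
    fun p hp h => hPn p hp (Or.inl h)
  have h2 := sum_log_padicValNat (n := q.den) q.den_nz P hP fun p hp h => hPn p hp (Or.inr h)
  have e : ∀ p ∈ P, (padicValRat p q : ℝ) * Real.log p =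
      (padicValNat p q.num.natAbs : ℝ) * Real.log p - (padicValNat p q.den : ℝ) * Real.log p := by
    intro p _
    simp only [padicValRat, padicValInt, Int.cast_sub, Int.cast_natCast]
    ring
  rw [sum_congr rfl e, sum_sub_distrib, h1, h2]
  have e2 : |(q : ℝ)| = (q.num.natAbs : ℝ) / (q.den : ℝ) := by
    rw [Rat.cast_def, abs_div, Nat.abs_cast]
    congr 1
    rw [← Int.cast_abs, Int.abs_eq_natAbs]
    simp
  rw [e2, Real.log_div]
  · have : q.num.natAbs ≠ 0 := by simpa using hq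
    exact_mod_cast this
  · exact_mod_cast q.den_nz

/-- the product formula with the primes below a bound -/
theorem sum_log_padicValRat_lt {q : ℚ} (hq : q ≠ 0) (M : ℕ)
    (hM : ∀ p, p.Prime → (p ∣ q.num.natAbs ∨ p ∣ q.den) → p < M) :
    ∑ p ∈ (range M).filter Nat.Prime, (padicValRat p q : ℝ) * Real.log p = Real.log |(q : ℝ)| :=
  sum_log_padicValRat hq _ (fun p hp => (mem_filter.mp hp).2) fun p hp h =>
    mem_filter.mpr ⟨mem_range.mpr (hM p hp h), hp⟩

end Crest.Agent.R006
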