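import Crest.Agent.R006.Defs
import Crest.Agent.R006.RefAsym_252

set_option autoImplicit false

/-!
# Row 6: asymptotics of the (confluent) Vandermonde of the full node set of a `Shape` (helper252)

`LV S u c T = (1/2) ∑_{z,w ∈ T} m_z m_w log |z - w|` (`T` any finite set of sites containing the
support of `S.mult u c`, diagonal omitted) `= u² (log u * rows²/2 + VL S) + O(u log u)`.
-/

namespace Crest.Agent.R006.D

open Finset Crest.Agent.R006

/-- real number attached to a site -/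
noncomputable def Site.r : Site → ℝ
  | .Z i => i
  | .H i => (i : ℝ) + 1 / 2

lemma Site.r_val (z : Site) : z.r = ((z.val : ℚ) : ℝ) := by
  cases z <;> simp [Site.r, Site.val]

/-- site of index `i` of the integer (`false`) or half-integer (`true`) family -/
def st (f : Bool) (i : ℤ) : Site := if f then .H i else .Z i

lemma st_inj (f : Bool) : Function.Injective (st f) := by
  intro i j h
  cases f <;> simpa [st] using h

/-- offset of the family -/
noncomputable def off (f : Bool) : ℝ := if f then 1 / 2 else 0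

lemma st_r (f : Bool) (i : ℤ) : (st f i).r = i + off f := by
  cases f <;> simp [st, off, Site.r]

/-- family flags of the 8 windows -/
def wf : Fin 8 → Bool := ![false, false, false, false, true, true, true, true]

/-- lower ends (per unit) of the windows -/
def wlo (S : Shape) : Fin 8 → ℤ :=
  ![0, -(S.e1 : ℤ), -(S.e2 : ℤ), -(S.e3 : ℤ), 0, 0, 0, -(S.w : ℤ)]

/-- upper ends (per unit) of the windows -/
def whi (S : Shape) : Fin 8 → ℤ :=
  ![(S.B : ℤ), 0, 0, 0, (S.h1 : ℤ), (S.h2 : ℤ), (S.h3 : ℤ), 0]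

lemma wlo_le_whi (S : Shape) (a : Fin 8) : wlo S a ≤ whi S a := by
  fin_cases a <;> simp [wlo, whi]

/-- indicator of a window -/
noncomputable def ind (f : Bool) (A B : ℤ) (z : Site) : ℝ :=
  ∑ i ∈ Ico A B, if st f i = z then 1 else 0

lemma ind_Z (A B i : ℤ) : ind false A B (.Z i) = if A ≤ i ∧ i < B then 1 else 0 := by
  unfold ind
  simp only [st, Bool.false_eq_true, if_false, Site.Z.injEq]
  rw [sum_ite_eq' (Ico A B) i (fun _ => (1 : ℝ))]
  simp [mem_Ico]

lemma ind_H (A B i : ℤ) : ind true A B (.H i) = if A ≤ i ∧ i < B then 1 else 0 := by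
  unfold ind
  simp only [st, if_true, Site.H.injEq]
  rw [sum_ite_eq' (Ico A B) i (fun _ => (1 : ℝ))]
  simp [mem_Ico]

lemma ind_ZH (A B i : ℤ) : ind true A B (.Z i) = 0 := by simp [ind, st]

lemma ind_HZ (A B i : ℤ) : ind false A B (.H i) = 0 := by simp [ind, st]

lemma mult_eq (S : Shape) (u c : ℕ) (z : Site) :
    (S.mult u c z : ℝ) = ∑ a, ind (wf a) (wlo S a * u) (whi S a * u) z
      + ind false (S.B * u) (S.B * u + c) z := by
  have h1 : (0 : ℤ) ≤ S.e1 * u := by positivity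
  have h2 : (0 : ℤ) ≤ S.e2 * u := by positivity
  have h3 : (0 : ℤ) ≤ S.e3 * u := by positivity
  have h4 : (0 : ℤ) ≤ S.h1 * u := by positivity
  have h5 : (0 : ℤ) ≤ S.h2 * u := by positivity
  have h6 : (0 : ℤ) ≤ S.h3 * u := by positivity
  have h7 : (0 : ℤ) ≤ S.w * u := by positivity
  have h8 : (0 : ℤ) ≤ S.B * u := by positivity
  have h9 : (0 : ℤ) ≤ c := by positivity
  cases z with
  | Z i =>
    simp only [Shape.mult, Fin.sum_univ_succ, wf, wlo, whi]
    simp [ind_Z, ind_ZH]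
    by_cases hi : 0 ≤ i
    · rw [if_pos hi]
      have e1 : ¬ (i < 0) := by omega
      simp only [e1, and_false, if_false, hi, true_and]
      by_cases hB : i < S.B * u
      · have : i < S.B * u + c := by omega
        have h' : ¬ ((S.B : ℤ) * u ≤ i) := by omega
        simp [hB, this, h']
      · have h' : (S.B : ℤ) * u ≤ i := by omega
        simp [hB, h']
    · rw [if_neg hi]
      have e1 : i < 0 := by omega
      have e2 : ¬ ((S.B : ℤ) * u ≤ i) := by omega
      simp only [hi, e1, e2, false_and, and_true, if_false]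
      simp only [neg_le (a := (S.e1 : ℤ) * u), neg_le (a := (S.e2 : ℤ) * u), neg_le (a := (S.e3 : ℤ) * u)]
      ring
  | H i =>
    simp only [Shape.mult, Fin.sum_univ_succ, wf, wlo, whi]
    simp [ind_H, ind_HZ]
    by_cases hi : 0 ≤ i
    · rw [if_pos hi]
      have e1 : ¬ (i < 0) := by omega
      simp only [e1, and_false, if_false, hi, true_and]
      ring
    · rw [if_neg hi]
      have e1 : i < 0 := by omega
      simp only [hi, e1, false_and, and_true, if_false]
      simp only [neg_le (a := (S.w : ℤ) * u)]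
      ring

/-- the log-Vandermonde energy of the node set (diagonal omitted, `log 0 = 0`) -/
noncomputable def LV (S : Shape) (u c : ℕ) (T : Finset Site) : ℝ :=
  (1 / 2) * ∑ z ∈ T, ∑ w ∈ T, (S.mult u c z : ℝ) * S.mult u c w * Real.log (z.r - w.r)

lemma sum_ind (T : Finset Site) (f : Bool) (A B : ℤ) (F : Site → ℝ)
    (h : ∀ i ∈ Ico A B, st f i ∈ T) :
    ∑ z ∈ T, ind f A B z * F z = ∑ i ∈ Ico A B, F (st f i) := by
  unfold ind
  simp_rw [sum_mul]
  rw [sum_comm]
  apply sum_congr rfl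
  intro i hi
  simp only [ite_mul, one_mul, zero_mul]
  rw [sum_ite_eq T (st f i) F, if_pos (h i hi)]

lemma ind_nonneg (f : Bool) (A B : ℤ) (z : Site) : 0 ≤ ind f A B z := by
  unfold ind
  apply sum_nonneg
  intro i _
  split_ifs <;> norm_num

lemma ind_pos (f : Bool) {A B i : ℤ} (h : i ∈ Ico A B) : 0 < ind f A B (st f i) := by
  unfold ind
  apply sum_pos' (fun j _ => by split_ifs <;> norm_num)
  exact ⟨i, h, by simp⟩

lemma mult_ne (S : Shape) (u c : ℕ) (a : Fin 8) {i : ℤ} (h : i ∈ Ico (wlo S a * u) (whi S a * u)) :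
    S.mult u c (st (wf a) i) ≠ 0 := by
  intro h0
  have h1 := mult_eq S u c (st (wf a) i)
  rw [h0] at h1
  have h2 := ind_nonneg false (S.B * u) (S.B * u + c) (st (wf a) i)
  have h3 : ind (wf a) (wlo S a * u) (whi S a * u) (st (wf a) i) ≤
      ∑ a', ind (wf a') (wlo S a' * u) (whi S a' * u) (st (wf a) i) :=
    single_le_sum (f := fun a' => ind (wf a') (wlo S a' * u) (whi S a' * u) (st (wf a) i))
      (fun _ _ => ind_nonneg _ _ _ _) (mem_univ a)
  have h4 := ind_pos (wf a) h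
  simp only [Nat.cast_zero] at h1
  linarith

lemma mult_ne' (S : Shape) (u c : ℕ) {i : ℤ} (h : i ∈ Ico ((S.B : ℤ) * u) (S.B * u + c)) :
    S.mult u c (st false i) ≠ 0 := by
  intro h0
  have h1 := mult_eq S u c (st false i)
  rw [h0] at h1
  have h3 : 0 ≤ ∑ a', ind (wf a') (wlo S a' * u) (whi S a' * u) (st false i) :=
    sum_nonneg fun _ _ => ind_nonneg _ _ _ _
  have h4 := ind_pos false h
  simp only [Nat.cast_zero] at h1
  linarith

/-- sums against the multiplicity -/
lemma sum_mult (S : Shape) (u c : ℕ) (T : Finset Site) (hT : ∀ z, S.mult u c z ≠ 0 → z ∈ T)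
    (F : Site → ℝ) :
    ∑ z ∈ T, (S.mult u c z : ℝ) * F z =
      ∑ a, ∑ i ∈ Ico (wlo S a * u) (whi S a * u), F (st (wf a) i) +
        ∑ i ∈ Ico ((S.B : ℤ) * u) (S.B * u + c), F (st false i) := by
  simp_rw [mult_eq, add_mul, sum_mul, sum_add_distrib]
  rw [sum_comm]
  congr 1
  · apply sum_congr rfl
    intro a _
    exact sum_ind T _ _ _ F fun i hi => hT _ (mult_ne S u c a hi)
  · exact sum_ind T _ _ _ F fun i hi => hT _ (mult_ne' S u c hi)

/-- the bilinear form of the 8 main windows -/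
noncomputable def mainV (S : Shape) (u : ℕ) : ℝ :=
  ∑ a, ∑ b, W2 (off (wf a) - off (wf b)) (wlo S a * u) (whi S a * u) (wlo S b * u) (whi S b * u)

lemma LV_eq (S : Shape) (u c : ℕ) (T : Finset Site) (hT : ∀ z, S.mult u c z ≠ 0 → z ∈ T) :
    LV S u c T = (1 / 2) * mainV S u +
      ∑ a, ∑ i ∈ Ico (wlo S a * u) (whi S a * u), ∑ j ∈ Ico ((S.B : ℤ) * u) (S.B * u + c),
        Real.log ((st (wf a) i).r - (st false j).r) +
      (1 / 2) * ∑ i ∈ Ico ((S.B : ℤ) * u) (S.B * u + c), ∑ j ∈ Ico ((S.B : ℤ) * u) (S.B * u + c),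
        Real.log ((st false i).r - (st false j).r) := by
  have h1 : ∀ z : Site, ∑ w ∈ T, (S.mult u c z : ℝ) * S.mult u c w * Real.log (z.r - w.r) =
      (S.mult u c z : ℝ) * (∑ a, ∑ i ∈ Ico (wlo S a * u) (whi S a * u),
        Real.log (z.r - (st (wf a) i).r) +
        ∑ i ∈ Ico ((S.B : ℤ) * u) (S.B * u + c), Real.log (z.r - (st false i).r)) := by
    intro z
    rw [← sum_mult S u c T hT (fun w => Real.log (z.r - w.r)), mul_sum]
    apply sum_congr rfl
    intro w _
    ring
  unfold LV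
  simp_rw [h1]
  rw [sum_mult S u c T hT]
  have h2 : ∑ i ∈ Ico ((S.B : ℤ) * u) (S.B * u + c), ∑ a, ∑ j ∈ Ico (wlo S a * u) (whi S a * u),
        Real.log ((st false i).r - (st (wf a) j).r) =
      ∑ a, ∑ i ∈ Ico (wlo S a * u) (whi S a * u), ∑ j ∈ Ico ((S.B : ℤ) * u) (S.B * u + c),
        Real.log ((st (wf a) i).r - (st false j).r) := by
    rw [sum_comm]
    apply sum_congr rfl
    intro a _
    rw [sum_comm]
    apply sum_congr rfl
    intro i _
    apply sum_congr rfl
    intro j _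
    rw [← Real.log_neg_eq_log]
    congr 1
    ring
  have h3 : ∑ a, ∑ i ∈ Ico (wlo S a * u) (whi S a * u), ∑ b, ∑ j ∈ Ico (wlo S b * u) (whi S b * u),
        Real.log ((st (wf a) i).r - (st (wf b) j).r) = mainV S u := by
    unfold mainV
    apply sum_congr rfl
    intro a _
    rw [sum_comm]
    apply sum_congr rfl
    intro b _
    unfold W2
    apply sum_congr rfl
    intro i _
    apply sum_congr rfl
    intro j _
    congr 1
    rw [st_r, st_r]
    ring
  simp only [sum_add_distrib]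
  rw [h2, h3]
  ring

/-- the constant of the node energy -/
noncomputable def VL (S : Shape) : ℝ :=
  (1 / 2) * ∑ a, ∑ b, QW (wlo S a) (whi S a) (wlo S b) (whi S b)

lemma sum_len (S : Shape) : ∑ a, (1 : ℝ) * ((whi S a : ℝ) - wlo S a) = S.rows := by
  simp only [Fin.sum_univ_succ, wlo, whi, Shape.rows]
  simp
  ring

lemma mainV_asymp (S : Shape) : ∃ C : ℝ, 0 ≤ C ∧ ∀ u : ℕ, 2 ≤ u →
    |mainV S u - (u : ℝ) ^ 2 * (Real.log u * (S.rows : ℝ) ^ 2 + 2 * VL S)| ≤ C * (u * Real.log u) := by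
  obtain ⟨C, h0, hC⟩ := WB_scaled (univ : Finset (Fin 8)) (univ : Finset (Fin 8)) (fun _ => 1)
    (fun _ => 1) (fun a => off (wf a)) (fun a => off (wf a)) (wlo S) (whi S) (wlo S) (whi S)
    (by
      intro w _ v _
      rw [abs_le]
      unfold off
      constructor <;> split_ifs <;> norm_num)
    (fun a _ => wlo_le_whi S a) (fun a _ => wlo_le_whi S a)
  refine ⟨C, h0, fun u hu => ?_⟩
  have := hC u hu
  rw [sum_len] at this
  have e1 : WB univ univ (fun _ => 1) (fun _ => 1) (fun a => off (wf a)) (fun a => off (wf a))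
      (wlo S) (whi S) (wlo S) (whi S) u = mainV S u := by
    unfold WB mainV
    simp
  rw [e1] at this
  convert this using 3
  unfold VL
  simp only [one_mul]
  ring

/-- size of the logarithm of a difference of two sites of the node set -/
lemma log_site_le {M : ℝ} (hM : 1 ≤ M) {z w : Site} (hz : |z.r| ≤ M) (hw : |w.r| ≤ M) :
    |Real.log (z.r - w.r)| ≤ Real.log (2 * M) := by
  have hlog : 0 ≤ Real.log (2 * M) := Real.log_nonneg (by linarith)
  rcases eq_or_ne (z.r) (w.r) with h | h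
  · rw [h]; simpa using hlog
  · have h1 : |z.r - w.r| ≤ 2 * M := by
      have := abs_sub z.r w.r
      linarith
    have h2 : 1 / 2 ≤ |z.r - w.r| := by
      obtain ⟨k, hk⟩ : ∃ k : ℤ, 2 * (z.r - w.r) = k := by
        cases z with
        | Z i =>
          cases w with
          | Z j => exact ⟨2 * (i - j), by simp only [Site.r]; push_cast; ring⟩
          | H j => exact ⟨2 * (i - j) - 1, by simp only [Site.r]; push_cast; ring⟩
        | H i =>
          cases w with
          | Z j => exact ⟨2 * (i - j) + 1, by simp only [Site.r]; push_cast; ring⟩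
          | H j => exact ⟨2 * (i - j), by simp only [Site.r]; push_cast; ring⟩
      have hk0 : k ≠ 0 := by
        rintro rfl
        apply h
        simp at hk
        linarith
      have h3 : (1 : ℝ) ≤ |(k : ℝ)| := by
        have : (1 : ℤ) ≤ |k| := Int.one_le_abs hk0
        exact_mod_cast this
      rw [← hk, abs_mul] at h3
      norm_num at h3
      linarith
    rw [← Real.log_abs, abs_le]
    constructor
    · have h4 : Real.log (1 / 2) ≤ Real.log |z.r - w.r| := Real.log_le_log (by norm_num) h2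
      have h5 : Real.log (1 / 2) = -Real.log 2 := by
        rw [one_div, Real.log_inv]
      have h6 : Real.log 2 ≤ Real.log (2 * M) := Real.log_le_log (by norm_num) (by linarith)
      linarith
    · exact Real.log_le_log (by linarith) h1

lemma abs_sum_sum_le {ι κ : Type*} (s : Finset ι) (t : Finset κ) (f : ι → κ → ℝ) (M : ℝ)
    (h : ∀ i ∈ s, ∀ j ∈ t, |f i j| ≤ M) : |∑ i ∈ s, ∑ j ∈ t, f i j| ≤ s.card * (t.card * M) := by
  refine (abs_sum_le_sum_abs _ _).trans ?_
  rw [← nsmul_eq_mul]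
  apply sum_le_card_nsmul
  intro i hi
  refine (abs_sum_le_sum_abs _ _).trans ?_
  rw [← nsmul_eq_mul]
  exact sum_le_card_nsmul _ _ _ fun j hj => h i hi j hj

/-- **asymptotics of the node energy** -/
theorem LV_asymp (S : Shape) (c : ℕ) : ∃ C : ℝ, 0 ≤ C ∧ ∀ u : ℕ, 2 ≤ u →
    ∀ T : Finset Site, (∀ z, S.mult u c z ≠ 0 → z ∈ T) →
    |LV S u c T - (u : ℝ) ^ 2 * (Real.log u * ((S.rows : ℝ) ^ 2 / 2) + VL S)| ≤
      C * (u * Real.log u) := by
  obtain ⟨C, h0, hC⟩ := mainV_asymp S
  set K : ℕ := S.B + S.e1 + S.e2 + S.e3 + S.h1 + S.h2 + S.h3 + S.w + c + 1 with hK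
  have hK1 : (1 : ℝ) ≤ K := by
    have : 1 ≤ K := by omega
    exact_mod_cast this
  set LK : ℝ := 2 * Real.log (2 * K) + 1 with hLK
  have hLK0 : 0 ≤ LK := by
    have : 0 ≤ Real.log (2 * (K : ℝ)) := Real.log_nonneg (by linarith)
    positivity
  refine ⟨(1 / 2) * C + (S.rows * c + c * c) * LK, by positivity, ?_⟩
  intro u hu T hT
  have hu2 : (2 : ℝ) ≤ u := by exact_mod_cast hu
  have hu0 : (0 : ℝ) < u := by linarith
  have hlogu : 1 / 2 ≤ Real.log u := by
    have h2 : Real.log 2 ≤ Real.log u := Real.log_le_log (by norm_num) hu2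
    have := Real.log_two_gt_d9
    linarith
  set M : ℝ := K * u with hM
  have hM1 : 1 ≤ M := by nlinarith
  have hlogM : Real.log (2 * M) ≤ LK * Real.log u := by
    rw [hM, ← mul_assoc, Real.log_mul (by positivity) (by positivity)]
    have : 0 ≤ Real.log (2 * (K : ℝ)) := Real.log_nonneg (by linarith)
    nlinarith
  have hlogM0 : 0 ≤ Real.log (2 * M) := Real.log_nonneg (by linarith)
  -- positions
  have hoff : ∀ f, 0 ≤ off f ∧ off f ≤ 1 / 2 := by
    intro f; unfold off; split_ifs <;> norm_num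
  have pos1 : ∀ a : Fin 8, ∀ i ∈ Ico (wlo S a * u) (whi S a * u), |(st (wf a) i).r| ≤ M := by
    intro a i hi
    rw [mem_Ico] at hi
    rw [st_r]
    have hlo : -((K : ℤ) - 1) ≤ wlo S a := by
      fin_cases a <;> simp [wlo, hK] <;> omega
    have hhi : whi S a ≤ (K : ℤ) - 1 := by
      fin_cases a <;> simp [whi, hK] <;> omega
    have hu' : (0 : ℤ) < u := by omega
    have i1 : -((K : ℤ) - 1) * u ≤ i := by nlinarith [hi.1]
    have i2 : i ≤ ((K : ℤ) - 1) * u := by nlinarith [hi.2]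
    have i1' : -((K : ℝ) - 1) * u ≤ i := by exact_mod_cast i1
    have i2' : (i : ℝ) ≤ ((K : ℝ) - 1) * u := by exact_mod_cast i2
    have := hoff (wf a)
    rw [abs_le, hM]
    constructor <;> nlinarith
  have pos2 : ∀ i ∈ Ico ((S.B : ℤ) * u) (S.B * u + c), |(st false i).r| ≤ M := by
    intro i hi
    rw [mem_Ico] at hi
    rw [st_r]
    have hu' : (1 : ℤ) ≤ u := by omega
    have hK2 : (S.B : ℤ) + c ≤ K := by rw [hK]; push_cast; omega
    have i1 : (0 : ℤ) ≤ i := le_trans (by positivity) hi.1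
    have i2 : i ≤ (K : ℤ) * u := by
      have : (c : ℤ) ≤ c * u := by nlinarith [Int.natCast_nonneg c]
      nlinarith [hi.2]
    have i1' : (0 : ℝ) ≤ i := by exact_mod_cast i1
    have i2' : (i : ℝ) ≤ (K : ℝ) * u := by exact_mod_cast i2
    simp only [off, Bool.false_eq_true, if_false, add_zero]
    rw [abs_le, hM]
    constructor <;> nlinarith
  have hc2 : ((Ico ((S.B : ℤ) * u) (S.B * u + c)).card : ℝ) = c := by
    rw [Int.card_Ico]
    congr 1
    omega
  have hE2 := abs_sum_sum_le (Ico ((S.B : ℤ) * u) (S.B * u + c)) (Ico ((S.B : ℤ) * u) (S.B * u + c))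
    (fun i j => Real.log ((st false i).r - (st false j).r)) (Real.log (2 * M))
    (fun i hi j hj => log_site_le hM1 (pos2 i hi) (pos2 j hj))
  rw [hc2] at hE2
  have hE1 : |∑ a, ∑ i ∈ Ico (wlo S a * u) (whi S a * u), ∑ j ∈ Ico ((S.B : ℤ) * u) (S.B * u + c),
        Real.log ((st (wf a) i).r - (st false j).r)| ≤ (S.rows * u) * (c * Real.log (2 * M)) := by
    have key : ∀ a : Fin 8, |∑ i ∈ Ico (wlo S a * u) (whi S a * u),
        ∑ j ∈ Ico ((S.B : ℤ) * u) (S.B * u + c),
        Real.log ((st (wf a) i).r - (st false j).r)| ≤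
          (1 * ((whi S a : ℝ) - wlo S a)) * (u * (c * Real.log (2 * M))) := by
      intro a
      have h := abs_sum_sum_le (Ico (wlo S a * u) (whi S a * u)) (Ico ((S.B : ℤ) * u) (S.B * u + c))
        (fun i j => Real.log ((st (wf a) i).r - (st false j).r)) (Real.log (2 * M))
        (fun i hi j hj => log_site_le hM1 (pos1 a i hi) (pos2 j hj))
      rw [hc2] at h
      have hcard : ((Ico (wlo S a * u) (whi S a * u)).card : ℝ) = ((whi S a : ℝ) - wlo S a) * u := by
        rw [Int.card_Ico]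
        have h5 : (((whi S a * u - wlo S a * u).toNat : ℕ) : ℤ) = whi S a * u - wlo S a * u :=
          Int.toNat_of_nonneg (by
            have := wlo_le_whi S a
            have hu' : (0 : ℤ) ≤ u := by positivity
            nlinarith)
        have h6 : (((whi S a * u - wlo S a * u).toNat : ℕ) : ℝ) =
            (whi S a : ℝ) * u - wlo S a * u := by exact_mod_cast h5
        rw [h6]; ring
      rw [hcard] at h
      refine h.trans (le_of_eq ?_)
      ring
    refine (abs_sum_le_sum_abs _ _).trans ((sum_le_sum fun a _ => key a).trans ?_)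
    rw [← sum_mul, sum_len]
    refine le_of_eq ?_
    ring
  rw [LV_eq S u c T hT]
  have hmain := hC u hu
  rw [abs_le] at hmain hE1 hE2 ⊢
  have hx1 : (S.rows * u : ℝ) * (c * Real.log (2 * M)) ≤ (S.rows * c) * LK * (u * Real.log u) := by
    have : (0 : ℝ) ≤ S.rows * u * c := by positivity
    nlinarith [mul_le_mul_of_nonneg_left hlogM this]
  have hx2 : (c : ℝ) * (c * Real.log (2 * M)) ≤ (c * c) * LK * (u * Real.log u) := by
    have h1 : (0 : ℝ) ≤ (c : ℝ) * c := by positivity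
    have h2 : (c : ℝ) * c * Real.log (2 * M) ≤ (c : ℝ) * c * (LK * Real.log u) :=
      mul_le_mul_of_nonneg_left hlogM h1
    have h3 : (c : ℝ) * c * (LK * Real.log u) ≤ (c : ℝ) * c * (LK * Real.log u) * u := by
      have : (0 : ℝ) ≤ (c : ℝ) * c * (LK * Real.log u) := by positivity
      nlinarith
    nlinarith
  have hx3 : 0 ≤ (c : ℝ) * (c * Real.log (2 * M)) := by positivity
  constructor
  · nlinarith [hmain.1, hE1.1, hE2.1]
  · nlinarith [hmain.2, hE1.2, hE2.2]

/-! ## the normalisation of the binomial bases -/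

/-- `x log x - x` -/
noncomputable def phi (x : ℝ) : ℝ := x * Real.log x - x

lemma log_fac_asymp (a : ℕ) : ∃ C : ℝ, 0 ≤ C ∧ ∀ u : ℕ, 2 ≤ u →
    |Real.log ((a * u).factorial) - (u : ℝ) * (a * Real.log u + phi a)| ≤ C * Real.log u := by
  rcases Nat.eq_zero_or_pos a with rfl | ha
  · exact ⟨0, le_refl _, fun u _ => by simp [phi]⟩
  have ha' : (1 : ℝ) ≤ a := by exact_mod_cast ha
  refine ⟨2 * (Real.log a + 3), by have := Real.log_nonneg ha'; positivity, fun u hu => ?_⟩
  have hu2 : (2 : ℝ) ≤ u := by exact_mod_cast hu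
  have hlogu : 1 / 2 ≤ Real.log u := by
    have h2 : Real.log 2 ≤ Real.log u := Real.log_le_log (by norm_num) hu2
    have := Real.log_two_gt_d9
    linarith
  have hla : 0 ≤ Real.log (a : ℝ) := Real.log_nonneg ha'
  have h := log_fac_bounds (a * u)
  push_cast at h
  have hau : (1 : ℝ) ≤ (a : ℝ) * u := by nlinarith
  have e1 : Real.log ((a : ℝ) * u) = Real.log a + Real.log u :=
    Real.log_mul (by positivity) (by positivity)
  have e2 : Real.log ((a : ℝ) * u + 1) ≤ Real.log a + Real.log u + (a * u : ℝ)⁻¹ := by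
    have : (a : ℝ) * u + 1 = (a * u) * (1 + ((a : ℝ) * u)⁻¹) := by field_simp
    rw [this, Real.log_mul (by positivity) (by positivity), e1]
    have := Real.log_le_sub_one_of_pos (x := 1 + ((a : ℝ) * u)⁻¹) (by positivity)
    linarith
  have e3 : ((a : ℝ) * u + 1) * ((a * u : ℝ)⁻¹) ≤ 2 := by
    rw [add_mul, mul_inv_cancel₀ (by positivity), one_mul]
    have : ((a : ℝ) * u)⁻¹ ≤ 1 := inv_le_one_of_one_le₀ hau
    linarith
  have e4 : ((a : ℝ) * u + 1) * Real.log ((a : ℝ) * u + 1) ≤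
      ((a : ℝ) * u + 1) * (Real.log a + Real.log u) + 2 := by
    have := mul_le_mul_of_nonneg_left e2 (by positivity : (0 : ℝ) ≤ (a : ℝ) * u + 1)
    nlinarith
  rw [e1] at h
  unfold phi
  rw [abs_le]
  constructor
  · nlinarith [h.1]
  · nlinarith [h.2]

/-- logarithm of the factorial normalisation of the columns of `Mat S u` -/
noncomputable def LN (S : Shape) (u : ℕ) : ℝ :=
  (S.k * u : ℕ) * (Real.log ((S.a2 * u).factorial) + Real.log ((S.i1 * u).factorial) +
    Real.log ((S.r1 * u).factorial)) +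
  (∑ l ∈ range (S.k * u), Real.log ((S.a1 * u + l).factorial)) +
  (∑ l ∈ range (S.q * u), Real.log (l.factorial)) + ∑ l ∈ range (S.g * u), Real.log (l.factorial)

lemma log_sf_eq (n : ℕ) : Real.log (sf n) = ∑ l ∈ range n, Real.log (l.factorial) := by
  unfold sf
  push_cast
  rw [Real.log_prod]
  intro k _
  exact_mod_cast k.factorial_ne_zero

lemma LN_eq (S : Shape) (u : ℕ) : LN S u =
    (S.k * u : ℕ) * (Real.log ((S.a2 * u).factorial) + Real.log ((S.i1 * u).factorial) +
    Real.log ((S.r1 * u).factorial)) +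
    (lsf (((S.a1 + S.k) * u : ℕ) : ℤ) - lsf ((S.a1 * u : ℕ) : ℤ)) + lsf ((S.q * u : ℕ) : ℤ) +
      lsf ((S.g * u : ℕ) : ℤ) := by
  unfold LN
  rw [lsf_nat, lsf_nat, lsf_nat, lsf_nat, log_sf_eq, log_sf_eq, log_sf_eq, log_sf_eq,
    show (S.a1 + S.k) * u = S.a1 * u + S.k * u by ring, sum_range_add]
  ring

/-- the constants -/
noncomputable def NL (S : Shape) : ℝ :=
  S.k * (phi S.a2 + phi S.i1 + phi S.r1) + sfF (S.a1 + S.k) - sfF S.a1 + sfF S.q + sfF S.g

/-- coefficient of `u² log u` -/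
noncomputable def NC (S : Shape) : ℝ :=
  S.k * ((S.a2 : ℝ) + S.i1 + S.r1) + (((S.a1 : ℝ) + S.k) ^ 2 - (S.a1 : ℝ) ^ 2) / 2 +
    (S.q : ℝ) ^ 2 / 2 + (S.g : ℝ) ^ 2 / 2

lemma lsf_scaled (a : ℕ) : ∃ C : ℝ, 0 ≤ C ∧ ∀ u : ℕ, 2 ≤ u →
    |lsf ((a * u : ℕ) : ℤ) - (u : ℝ) ^ 2 * ((a : ℝ) ^ 2 / 2 * Real.log u + sfF a)| ≤
      C * (u * Real.log u) := by
  have ha : (0 : ℝ) ≤ Real.log ((a : ℝ) + 1) := Real.log_nonneg (by
    have : (0 : ℝ) ≤ a := by positivity
    linarith)
  refine ⟨((a : ℝ) + 1) * (2 * Real.log ((a : ℝ) + 1) + 3), by positivity, fun u hu => ?_⟩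
  have hu2 : (2 : ℝ) ≤ u := by exact_mod_cast hu
  have hlogu : 1 / 2 ≤ Real.log u := by
    have h2 : Real.log 2 ≤ Real.log u := Real.log_le_log (by norm_num) hu2
    have := Real.log_two_gt_d9
    linarith
  have hM : (1 : ℝ) ≤ ((a : ℝ) + 1) * u := by
    have : (0 : ℝ) ≤ a := by positivity
    nlinarith
  have h := lsf_asymp_le (m := ((a * u : ℕ) : ℤ)) hM (by
    push_cast
    rw [abs_of_nonneg (by positivity)]
    nlinarith)
  have e : ((((a * u : ℕ) : ℤ)) : ℝ) = (a : ℝ) * u := by push_cast; ring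
  rw [e, sfF_scale (by linarith : (0 : ℝ) < u), Real.log_mul (by positivity) (by positivity)] at h
  refine h.trans ?_
  have h1 : Real.log ((a : ℝ) + 1) + Real.log u + 1 ≤ (2 * Real.log ((a : ℝ) + 1) + 3) * Real.log u := by
    nlinarith
  have h2 : (0 : ℝ) ≤ ((a : ℝ) + 1) * u := by positivity
  nlinarith [mul_le_mul_of_nonneg_left h1 h2]

/-- **asymptotics of the normalisation** -/
theorem LN_asymp (S : Shape) : ∃ C : ℝ, 0 ≤ C ∧ ∀ u : ℕ, 2 ≤ u →
    |LN S u - (u : ℝ) ^ 2 * (NC S * Real.log u + NL S)| ≤ C * (u * Real.log u) := by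
  obtain ⟨c1, p1, h1⟩ := log_fac_asymp S.a2
  obtain ⟨c2, p2, h2⟩ := log_fac_asymp S.i1
  obtain ⟨c3, p3, h3⟩ := log_fac_asymp S.r1
  obtain ⟨c4, p4, h4⟩ := lsf_scaled (S.a1 + S.k)
  obtain ⟨c5, p5, h5⟩ := lsf_scaled S.a1
  obtain ⟨c6, p6, h6⟩ := lsf_scaled S.q
  obtain ⟨c7, p7, h7⟩ := lsf_scaled S.g
  refine ⟨S.k * (c1 + c2 + c3) + c4 + c5 + c6 + c7, by positivity, fun u hu => ?_⟩
  have hu2 : (2 : ℝ) ≤ u := by exact_mod_cast hu
  rw [LN_eq]
  have g1 := h1 u hu
  have g2 := h2 u hu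
  have g3 := h3 u hu
  have g4 := h4 u hu
  have g5 := h5 u hu
  have g6 := h6 u hu
  have g7 := h7 u hu
  have hku : (0 : ℝ) ≤ (S.k : ℝ) * u := by positivity
  have g123 : |(S.k : ℝ) * u * (Real.log ((S.a2 * u).factorial) + Real.log ((S.i1 * u).factorial) +
      Real.log ((S.r1 * u).factorial)) - (S.k : ℝ) * u * ((u : ℝ) * (S.a2 * Real.log u + phi S.a2) +
      (u : ℝ) * (S.i1 * Real.log u + phi S.i1) + (u : ℝ) * (S.r1 * Real.log u + phi S.r1))| ≤
      S.k * (c1 + c2 + c3) * (u * Real.log u) := by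
    rw [← mul_sub, abs_mul, abs_of_nonneg hku]
    have : |Real.log ((S.a2 * u).factorial) + Real.log ((S.i1 * u).factorial) +
      Real.log ((S.r1 * u).factorial) - ((u : ℝ) * (S.a2 * Real.log u + phi S.a2) +
      (u : ℝ) * (S.i1 * Real.log u + phi S.i1) + (u : ℝ) * (S.r1 * Real.log u + phi S.r1))| ≤
      (c1 + c2 + c3) * Real.log u := by
      rw [abs_le] at g1 g2 g3 ⊢
      constructor <;> nlinarith [g1.1, g1.2, g2.1, g2.2, g3.1, g3.2]
    have := mul_le_mul_of_nonneg_left this hku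
    refine this.trans (le_of_eq ?_)
    ring
  push_cast at g4 g5 g6 g7 ⊢
  unfold NC NL
  rw [abs_le] at g123 g4 g5 g6 g7 ⊢
  constructor
  · nlinarith [g123.1, g4.1, g5.2, g6.1, g7.1]
  · nlinarith [g123.2, g4.2, g5.1, g6.2, g7.2]

end Crest.Agent.R006.D
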