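import Crest.Agent.R006.MainK_464
import Crest.Agent.R006.NumSum_464
import Crest.Agent.R006.VAsym_252

/-!
# Row 6, block P3: the certificate interface (helper112)

Plain two-species text. `u = K v`; ALL lengths and masses below are in units of `v`, they are
integers (`x` units of `u` are `K x` units of `v`). The apex of the two rays is `-K w`; the rays
are `-K w + T (-1 ± i)`, `T ≥ 0`.

* `Piece` : mass `m`, uniformly distributed on a piece of the real axis (`re lo hi`) or of a ray
  (`up lo hi`, `dn lo hi` : the points with parameter `T ∈ [lo, hi]`).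
* `Data` : the three references `W` (mass `K (k + g)`), `Z` (mass `K k`), `Y` (mass `K g`),
  arbitrary pieces, no relation to the sites (slot form, helper885's `norm_det_add_mul_le`).
  Levels `lR`, `lQ`; the cells (`SCell`) carry the linear majorants of the slot levels, they form
  a chain from `-K max(e1, w)` to `K h1`; slots: `3` at the sites in `[-K w, 0]`, `h` at the
  stars in `[0, K h1]`, `e` at the nodes in `[-K e1, -K w]`.
* `PhiR`, `PhiQ` : the two potentials; `OK` : what the kernel proves; `alpha`.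
-/

set_option autoImplicit false

namespace Crest.Agent.R006.Cert

open D NumSegx464

/-- a piece of a reference measure, mass `m` (units `v`) -/
inductive Piece
  | re (lo hi : ℤ) (m : ℤ)
  | up (lo hi : ℤ) (m : ℤ)
  | dn (lo hi : ℤ) (m : ℤ)
  deriving DecidableEq, Repr

namespace Piece

def lo : Piece → ℤ
  | re a _ _ => a
  | up a _ _ => a
  | dn a _ _ => a

def hi : Piece → ℤ
  | re _ b _ => b
  | up _ b _ => b
  | dn _ b _ => b

def mass : Piece → ℤ
  | re _ _ m => m
  | up _ _ m => m
  | dn _ _ m => m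

/-- `0` = real axis, `1` = upper ray, `2` = lower ray -/
def line : Piece → ℕ
  | re _ _ _ => 0
  | up _ _ _ => 1
  | dn _ _ _ => 2

/-- the weighted segment, `W` = `K w` (the apex is `-W`) -/
def seg (W : ℤ) : Piece → WSeg
  | re a b m => ((a, 0), (b, 0), m)
  | up a b m => ((-W - a, a), (-W - b, b), m)
  | dn a b m => ((-W - a, -a), (-W - b, -b), m)

/-- nondegenerate, positive mass, ray pieces have `0 ≤ lo` -/
def good (p : Piece) : Bool :=
  decide (p.lo < p.hi) && decide (0 < p.mass) && (decide (p.line = 0) || decide (0 ≤ p.lo))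

end Piece

/-- two pieces do not overlap -/
def apart (p q : Piece) : Bool :=
  !decide (p.line = q.line) || decide (p.hi ≤ q.lo) || decide (q.hi ≤ p.lo)

/-- all pieces good and pairwise apart -/
def listOK : List Piece → Bool
  | [] => true
  | p :: L => p.good && L.all (apart p) && listOK L

def massL (L : List Piece) : ℤ := (L.map Piece.mass).sum

def segs (W : ℤ) (L : List Piece) : List WSeg := L.map (Piece.seg W)

/-- real segment, dropped if the mass is `0` -/
def rseg (a b m : ℤ) : List WSeg := if m = 0 then [] else [((a, 0), (b, 0), m)]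

/-- nodes (with multiplicities) -/
def LS (S : Shape) (K : ℤ) : List WSeg :=
  rseg 0 (K * S.B) (K * S.B) ++
  rseg (-(K * S.e1)) 0 (K * S.e1) ++ rseg (-(K * S.e2)) 0 (K * S.e2) ++
  rseg (-(K * S.e3)) 0 (K * S.e3) ++
  rseg 0 (K * S.h1) (K * S.h1) ++ rseg 0 (K * S.h2) (K * S.h2) ++ rseg 0 (K * S.h3) (K * S.h3) ++
  rseg (-(K * S.w)) 0 (K * S.w)

/-- zeros of the gauge of the `R`-columns -/
def LG (S : Shape) (K : ℤ) : List WSeg :=
  rseg 0 (K * S.a1) (K * S.a1) ++ rseg 0 (K * S.a2) (K * S.a2) ++
  rseg (-(K * S.i1)) 0 (K * S.i1) ++ rseg (-(K * S.r1)) 0 (K * S.r1)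

/-- a cell `[l, r]` of the slot levels with the linear majorant `(al + be x) / D` -/
structure SCell where
  l : ℤ
  r : ℤ
  al : ℤ
  be : ℤ
  deriving Repr

/-- slot multiplicity on the cell (constant there if the cell ends contain the break points) -/
def cap (S : Shape) (K : ℤ) (c : SCell) : ℤ :=
  if c.r ≤ -(K * S.w) then
    (if -(K * S.e1) ≤ c.l then 1 else 0) + (if -(K * S.e2) ≤ c.l then 1 else 0) +
      (if -(K * S.e3) ≤ c.l then 1 else 0)
  else if c.r ≤ 0 then 3
  else (if c.r ≤ K * S.h1 then 1 else 0) + (if c.r ≤ K * S.h2 then 1 else 0) +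
      (if c.r ≤ K * S.h3 then 1 else 0)

/-- no break point in the interior of the cell -/
def cellOK (S : Shape) (K : ℤ) (c : SCell) : Bool :=
  decide (c.l < c.r) &&
    ([-(K * S.e1), -(K * S.e2), -(K * S.e3), -(K * S.w), 0, K * S.h1, K * S.h2, K * S.h3].all
      fun x => decide (x ≤ c.l) || decide (c.r ≤ x))

/-- the cells form a chain from `x` to `y` -/
def chain (x y : ℤ) : List SCell → Bool
  | [] => decide (x = y)
  | c :: L => decide (c.l = x) && chain c.r y L

/-- the data of the certificate. `D` = common denominator of levels and majorants -/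
structure Data where
  K : ℕ
  D : ℕ
  Z : List Piece
  Y : List Piece
  W : List Piece
  lR : ℤ
  lQ : ℤ
  cells : List SCell

/-- the combinatorial conditions (decidable) -/
def wf (S : Shape) (d : Data) : Bool :=
  decide (0 < d.K) && decide (0 < d.D) && listOK d.Z && listOK d.Y && listOK d.W &&
  decide (massL d.Z = d.K * S.k) && decide (massL d.Y = d.K * S.g) &&
  decide (massL d.W = d.K * (S.k + S.g)) &&
  d.cells.all (cellOK S d.K) &&
  chain (-(d.K * max (S.e1 : ℤ) S.w)) (d.K * S.h1) d.cells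

/-- exchange of the two rays -/
def Piece.conj : Piece → Piece
  | .re a b m => .re a b m
  | .up a b m => .dn a b m
  | .dn a b m => .up a b m

/-- the list is symmetric -/
def symL (L : List Piece) : Bool := (L.map Piece.conj).isPerm L

/-- no real piece has the apex in its interior -/
def apexL (W : ℤ) (L : List Piece) : Bool :=
  L.all fun p => !decide (p.line = 0) || decide (p.hi ≤ -W) || decide (-W ≤ p.lo)

/-- second part of the combinatorial conditions (decidable) -/
def wf2 (S : Shape) (d : Data) : Bool :=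
  symL d.Z && symL d.Y && symL d.W &&
  apexL (d.K * S.w) d.Z && apexL (d.K * S.w) d.Y && apexL (d.K * S.w) d.W

/-- `PhiR` at `s` (units `v`) -/
noncomputable def PhiR (S : Shape) (d : Data) (s : ℂ) : ℝ :=
  potL (segs (d.K * S.w) d.W) s + potL (segs (d.K * S.w) d.Z) s +
    potL (LG S d.K) s - potL (LS S d.K) s + Real.log 8 * s.re - Real.pi * |s.im|

/-- `PhiQ` at `s` (units `v`) -/
noncomputable def PhiQ (S : Shape) (d : Data) (s : ℂ) : ℝ :=
  potL (segs (d.K * S.w) d.W) s + potL (segs (d.K * S.w) d.Y) s -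
    potL (LS S d.K) s - 2 * Real.pi * |s.im|

/-- the point of the upper ray with parameter `T` -/
noncomputable def ray (S : Shape) (d : Data) (T : ℝ) : ℂ := ⟨-(d.K * S.w : ℝ) - T, T⟩

/-- value of the majorant of a cell -/
noncomputable def SCell.val (D : ℕ) (c : SCell) (x : ℝ) : ℝ := (c.al + c.be * x) / D

/-- integral of the slot levels (times `2 D`), an integer -/
def slot2 (S : Shape) (d : Data) : ℤ :=
  (d.cells.map fun c => cap S d.K c * ((c.r - c.l) * (2 * c.al + c.be * (c.l + c.r)))).sum

/-- the analytic conditions -/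
structure OK (S : Shape) (d : Data) : Prop where
  wf : wf S d = true
  wf2 : wf2 S d = true
  rayR : ∀ T : ℝ, 0 ≤ T → PhiR S d (ray S d T) ≤ (d.lR : ℝ) / d.D
  rayQ : ∀ T : ℝ, 0 ≤ T → PhiQ S d (ray S d T) ≤ (d.lQ : ℝ) / d.D
  cellR : ∀ c ∈ d.cells, ∀ x ∈ Set.Icc (c.l : ℝ) c.r,
    PhiR S d (x : ℂ) - (d.lR : ℝ) / d.D ≤ c.val d.D x
  cellQ : ∀ c ∈ d.cells, ∀ x ∈ Set.Icc (c.l : ℝ) c.r,
    PhiQ S d (x : ℂ) - (d.lQ : ℝ) / d.D ≤ c.val d.D x
  cell0 : ∀ c ∈ d.cells, ∀ x ∈ Set.Icc (c.l : ℝ) c.r, 0 ≤ c.val d.D x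

/-- the exponent in units `v` -/
noncomputable def alphaV (S : Shape) (d : Data) : ℝ :=
  selfE (LS S d.K)
    - ((d.K : ℝ) ^ 2 * (NL S + NC S * Real.log d.K))
    + ((d.K * S.k : ℕ) : ℝ) * ((d.lR : ℝ) / d.D) + ((d.K * S.g : ℕ) : ℝ) * ((d.lQ : ℝ) / d.D)
    + (slot2 S d : ℝ) / (2 * d.D)
    - selfE (segs (d.K * S.w) d.W)
    - selfE (segs (d.K * S.w) d.Z) - selfE (segs (d.K * S.w) d.Y)

/-- **the interface**: `arch_of_cert` (consumer) is
`OK S d → side conditions on S → ArchK S c d.K (alphaV S d / d.K ^ 2)`. -/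
def Claim (S : Shape) (d : Data) : Prop :=
  OK S d → ∀ c : ℕ, ArchK S c d.K (alphaV S d / (d.K : ℝ) ^ 2)

end Crest.Agent.R006.Cert
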