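import Mathlib

/-!
Row 6 (Catalan).  Block P1, the formal solution at infinity (helper294).

`ψ_∞ = ∑_{k ≥ 0} μ_k s^{-k-1}` is the formal solution in `ℚ[[1/s]]` of
`s^3 ψ(s) + (2s-1)^3 ψ(s-1) = -(3s-1)/2`  (`μ_0 = 0, μ_1 = -1/6, μ_2 = 7/54`).

* `lin m P = ∑ P.coeff k * m k`, the residue functional `[s^{-1}] (P ψ)` of a moment sequence `m`;
* `Key m`: `lin m (s^3 P(s) + (2s+1)^3 P(s+1)) = 0` for all polynomials `P`;
* `mu`, `key_mu`, `mu_unique`;
* `TR m R` = polynomial part of `R ψ`, `eval_TR`;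
* `coeff_inf`: `[s^{-1}] (P/N ψ) = lin m (P /ₘ N)`, in reversed power series form.
-/

set_option autoImplicit false

namespace Crest.Agent.R006.PsiInf

open Polynomial Finset

section lin

variable {K : Type*} [Field K]

/-- The residue functional of a moment sequence: `P ↦ ∑ P_k m_k`. -/
noncomputable def lin (m : ℕ → K) : K[X] →ₗ[K] K :=
  Polynomial.lsum (fun k => LinearMap.mulRight K (m k))

theorem lin_apply (m : ℕ → K) (P : K[X]) : lin m P = P.sum (fun k c => c * m k) := by
  simp [lin, Polynomial.lsum_apply]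

theorem lin_eq_sum (m : ℕ → K) (P : K[X]) {n : ℕ} (hn : P.natDegree < n) :
    lin m P = ∑ k ∈ range n, P.coeff k * m k := by
  rw [lin_apply, Polynomial.sum_over_range' P (by simp) n hn]

@[simp] theorem lin_monomial (m : ℕ → K) (k : ℕ) (c : K) : lin m (monomial k c) = c * m k := by
  rw [lin_apply, Polynomial.sum_monomial_index]; simp

@[simp] theorem lin_X_pow (m : ℕ → K) (k : ℕ) : lin m (X ^ k) = m k := by
  rw [Polynomial.X_pow_eq_monomial, lin_monomial, one_mul]

theorem lin_C_mul (m : ℕ → K) (c : K) (P : K[X]) : lin m (C c * P) = c * lin m P := by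
  rw [← smul_eq_C_mul, map_smul, smul_eq_mul]

/-- `(2X+1)^3 (X+1)^j` -/
noncomputable def shp (K : Type*) [Field K] (j : ℕ) : K[X] := (2 * X + 1) ^ 3 * (X + 1) ^ j

/-- the key identity -/
def Key (m : ℕ → K) : Prop :=
  ∀ P : K[X], lin m (X ^ 3 * P + (2 * X + 1) ^ 3 * P.comp (X + 1)) = 0

theorem key_of_monomials (m : ℕ → K) (h : ∀ j, m (j + 3) + lin m (shp K j) = 0) : Key m := by
  intro P
  induction P using Polynomial.induction_on' with
  | add P Q hP hQ =>
    have e : X ^ 3 * (P + Q) + (2 * X + 1) ^ 3 * (P + Q).comp (X + 1)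
        = (X ^ 3 * P + (2 * X + 1) ^ 3 * P.comp (X + 1))
          + (X ^ 3 * Q + (2 * X + 1) ^ 3 * Q.comp (X + 1)) := by
      rw [add_comp]; ring
    rw [e, map_add, hP, hQ, add_zero]
  | monomial j c =>
    have e : X ^ 3 * (monomial j c : K[X]) + (2 * X + 1) ^ 3 * (monomial j c : K[X]).comp (X + 1)
        = C c * (X ^ (j + 3) + shp K j) := by
      rw [← C_mul_X_pow_eq_monomial, mul_comp, C_comp, pow_comp, X_comp, shp]
      ring
    rw [e, lin_C_mul, map_add, lin_X_pow, h j, mul_zero]

theorem Key.monomials {m : ℕ → K} (h : Key m) (j : ℕ) : m (j + 3) + lin m (shp K j) = 0 := by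
  have := h (X ^ j)
  have e : X ^ 3 * (X ^ j : K[X]) + (2 * X + 1) ^ 3 * (X ^ j : K[X]).comp (X + 1)
        = X ^ (j + 3) + shp K j := by
    rw [pow_comp, X_comp, shp]; ring
  rwa [e, map_add, lin_X_pow] at this

theorem shp_natDegree_le (j : ℕ) : (shp K j).natDegree ≤ j + 3 := by
  unfold shp
  refine (natDegree_mul_le).trans ?_
  have h1 : ((2 * X + 1 : K[X]) ^ 3).natDegree ≤ 3 := by
    refine natDegree_pow_le.trans ?_
    have : (2 * X + 1 : K[X]).natDegree ≤ 1 := by
      compute_degree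
    omega
  have h2 : ((X + 1 : K[X]) ^ j).natDegree ≤ j := by
    refine natDegree_pow_le.trans ?_
    have : (X + 1 : K[X]).natDegree ≤ 1 := by
      compute_degree
    calc j * (X + 1 : K[X]).natDegree ≤ j * 1 := Nat.mul_le_mul_left _ this
      _ = j := mul_one j
  omega

theorem shp_coeff_top (j : ℕ) : (shp K j).coeff (j + 3) = 8 := by
  unfold shp
  have h1 : ((2 * X + 1 : K[X]) ^ 3).natDegree ≤ 3 := by
    refine natDegree_pow_le.trans ?_
    have : (2 * X + 1 : K[X]).natDegree ≤ 1 := by compute_degree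
    omega
  have h2 : ((X + 1 : K[X]) ^ j).natDegree ≤ j := by
    refine natDegree_pow_le.trans ?_
    have : (X + 1 : K[X]).natDegree ≤ 1 := by compute_degree
    calc j * (X + 1 : K[X]).natDegree ≤ j * 1 := Nat.mul_le_mul_left _ this
      _ = j := mul_one j
  rw [show j + 3 = 3 + j by ring, coeff_mul_add_eq_of_natDegree_le h1 h2]
  have a : ((2 * X + 1 : K[X]) ^ 3).coeff 3 = 8 := by
    have h := coeff_pow_of_natDegree_le (p := (2 * X + 1 : K[X])) (n := 1) (m := 3)
      (by compute_degree)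
    have e : (2 * X + 1 : K[X]).coeff 1 = 2 := by
      have : (2 : K[X]) = C 2 := (map_ofNat C 2).symm
      rw [this]; simp [coeff_one]
    rw [e] at h
    norm_num at h
    exact h
  have b : ((X + 1 : K[X]) ^ j).coeff j = 1 := by
    have h := coeff_pow_of_natDegree_le (p := (X + 1 : K[X])) (n := 1) (m := j)
      (by compute_degree)
    have e : (X + 1 : K[X]).coeff 1 = 1 := by simp [coeff_one]
    rw [e] at h
    simpa using h
  rw [a, b, mul_one]

/-- the recursion equivalent to `Key`. -/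
theorem lin_shp (m : ℕ → K) (j : ℕ) :
    lin m (shp K j) = 8 * m (j + 3) + ∑ i ∈ range (j + 3), (shp K j).coeff i * m i := by
  rw [lin_eq_sum m (shp K j) (n := j + 4) (by have := shp_natDegree_le (K := K) j; omega),
    sum_range_succ, shp_coeff_top]
  ring

theorem key_iff (m : ℕ → K) :
    Key m ↔ ∀ j, 9 * m (j + 3) = -∑ i ∈ range (j + 3), (shp K j).coeff i * m i := by
  constructor
  · intro h j
    have := h.monomials j
    rw [lin_shp] at this
    linear_combination this
  · intro h
    apply key_of_monomials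
    intro j
    rw [lin_shp]
    linear_combination h j

/-- uniqueness: `Key` determines all moments from `m 0, m 1, m 2`. -/
theorem key_unique [CharZero K] {m m' : ℕ → K} (h : Key m) (h' : Key m')
    (h0 : m 0 = m' 0) (h1 : m 1 = m' 1) (h2 : m 2 = m' 2) : m = m' := by
  rw [key_iff] at h h'
  have h9 : (9 : K) ≠ 0 := by norm_num
  funext n
  induction n using Nat.strong_induction_on with
  | _ n ih =>
    match n, ih with
    | 0, _ => exact h0
    | 1, _ => exact h1
    | 2, _ => exact h2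
    | j + 3, ih =>
      have e : ∑ i ∈ range (j + 3), (shp K j).coeff i * m i
          = ∑ i ∈ range (j + 3), (shp K j).coeff i * m' i :=
        sum_congr rfl (fun i hi => by rw [ih i (mem_range.mp hi)])
      have : 9 * m (j + 3) = 9 * m' (j + 3) := by rw [h j, h' j, e]
      exact mul_left_cancel₀ h9 this

end lin

/-- the moments (`a_{k+1} = mu k` are the coefficients of `ψ_∞`). -/
noncomputable def mu : ℕ → ℚ
  | 0 => 0
  | 1 => -1 / 6
  | 2 => 7 / 54
  | (j + 3) => -(1 / 9) * ∑ i : Fin (j + 3), (shp ℚ j).coeff i * mu i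
decreasing_by exact i.2

@[simp] theorem mu_zero : mu 0 = 0 := by rw [mu]
@[simp] theorem mu_one : mu 1 = -1 / 6 := by rw [mu]
@[simp] theorem mu_two : mu 2 = 7 / 54 := by rw [mu]

theorem mu_rec (j : ℕ) : mu (j + 3) = -(1 / 9) * ∑ i ∈ range (j + 3), (shp ℚ j).coeff i * mu i := by
  rw [mu, Fin.sum_univ_eq_sum_range (fun i => (shp ℚ j).coeff i * mu i) (j + 3)]

theorem key_mu : Key mu := by
  rw [key_iff]
  intro j
  rw [mu_rec]; ring

/-- the key identity over any field of characteristic zero -/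
theorem key_mu_cast (K : Type*) [Field K] [CharZero K] : Key (fun k => ((mu k : ℚ) : K)) := by
  rw [key_iff]
  intro j
  have h := (key_iff mu).mp key_mu j
  have h' : ((9 * mu (j + 3) : ℚ) : K) = ((-∑ i ∈ range (j + 3), (shp ℚ j).coeff i * mu i : ℚ) : K) := by
    rw [h]
  push_cast at h'
  rw [h']
  congr 1
  refine sum_congr rfl (fun i _ => ?_)
  have : shp K j = (shp ℚ j).map (Rat.castHom K) := by
    simp [shp, Polynomial.map_mul, Polynomial.map_pow]
  rw [this, coeff_map]
  simp

theorem mu_unique {K : Type*} [Field K] [CharZero K] {m : ℕ → K} (h : Key m)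
    (h0 : 9 * m 0 = 0) (h1 : 9 * m 1 + 14 * m 0 = -3 / 2) (h2 : 9 * m 2 + 13 * m 1 + 7 * m 0 = -1) :
    m = fun k => ((mu k : ℚ) : K) := by
  have h9 : (9 : K) ≠ 0 := by norm_num
  have a0 : m 0 = 0 := by
    rcases mul_eq_zero.mp h0 with h | h
    · exact absurd h h9
    · exact h
  have a1 : m 1 = -1 / 6 := by
    have : 9 * m 1 = 9 * (-1 / 6) := by rw [a0] at h1; rw [mul_zero, add_zero] at h1; rw [h1]; norm_num
    exact mul_left_cancel₀ h9 this
  have a2 : m 2 = 7 / 54 := by
    have : 9 * m 2 = 9 * (7 / 54) := by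
      rw [a0, a1] at h2
      linear_combination h2
    exact mul_left_cancel₀ h9 this
  refine key_unique h (key_mu_cast K) ?_ ?_ ?_
  · simp [a0]
  · rw [a1]; simp
  · rw [a2]; simp

section TR

variable {K : Type*} [Field K]

theorem add_divByMonic' (P Q N : K[X]) (hN : N.Monic) :
    (P + Q) /ₘ N = P /ₘ N + Q /ₘ N := by
  refine (div_modByMonic_unique (f := P + Q) (g := N) (P /ₘ N + Q /ₘ N) (P %ₘ N + Q %ₘ N) hN
    ⟨?_, ?_⟩).1
  · have h1 := modByMonic_add_div P N
    have h2 := modByMonic_add_div Q N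
    linear_combination h1 + h2
  · exact (degree_add_le _ _).trans_lt (max_lt (degree_modByMonic_lt P hN)
      (degree_modByMonic_lt Q hN))

theorem C_mul_divByMonic (c : K) (P N : K[X]) (hN : N.Monic) :
    (C c * P) /ₘ N = C c * (P /ₘ N) := by
  refine (div_modByMonic_unique (f := C c * P) (g := N) (C c * (P /ₘ N)) (C c * (P %ₘ N)) hN
    ⟨?_, ?_⟩).1
  · have h1 := modByMonic_add_div P N
    linear_combination C c * h1
  · by_cases hc : c = 0
    · subst hc
      rw [C_0, zero_mul, degree_zero]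
      exact bot_lt_iff_ne_bot.mpr (by rw [Ne, degree_eq_bot]; exact hN.ne_zero)
    · rw [degree_C_mul hc]; exact degree_modByMonic_lt P hN

/-- polynomial part of `R ψ_∞`. -/
noncomputable def TR (m : ℕ → K) : K[X] →ₗ[K] K[X] :=
  Polynomial.lsum (fun k => LinearMap.toSpanSingleton K K[X]
    (∑ i ∈ range k, C (m i) * X ^ (k - 1 - i)))

theorem TR_apply (m : ℕ → K) (R : K[X]) :
    TR m R = R.sum (fun k c => C c * ∑ i ∈ range k, C (m i) * X ^ (k - 1 - i)) := by
  simp [TR, Polynomial.lsum_apply, LinearMap.toSpanSingleton_apply, smul_eq_C_mul]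

theorem TR_monomial (m : ℕ → K) (k : ℕ) (c : K) :
    TR m (monomial k c) = C c * ∑ i ∈ range k, C (m i) * X ^ (k - 1 - i) := by
  rw [TR_apply, Polynomial.sum_monomial_index]; simp

/-- geometric division of `X^k` by `X - x`. -/
theorem X_pow_divByMonic (x : K) (k : ℕ) :
    (X ^ k : K[X]) /ₘ (X - C x) = ∑ i ∈ range k, C (x ^ (k - 1 - i)) * X ^ i := by
  have hm : (X - C x).Monic := monic_X_sub_C x
  have key : (X - C x) * (∑ i ∈ range k, C (x ^ (k - 1 - i)) * X ^ i) = X ^ k - C (x ^ k) := by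
    have := (Commute.all (X : K[X]) (C x)).mul_geom_sum₂ k
    rw [C_pow, ← this]
    congr 1
    refine sum_congr rfl (fun i hi => ?_)
    rw [C_pow]; ring
  have h := (div_modByMonic_unique (f := (X ^ k : K[X])) (g := X - C x)
    (∑ i ∈ range k, C (x ^ (k - 1 - i)) * X ^ i) (C (x ^ k)) hm
    ⟨by rw [key]; ring, by
      rw [degree_X_sub_C]
      exact (degree_C_le).trans_lt (by norm_num)⟩).1
  exact h

/-- `TR m R (x) = lin_z ((R(z) - R(x))/(z - x))`. -/
theorem eval_TR (m : ℕ → K) (R : K[X]) (x : K) :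
    (TR m R).eval x = lin m (R /ₘ (X - C x)) := by
  induction R using Polynomial.induction_on' with
  | add P Q hP hQ =>
    have e : (P + Q) /ₘ (X - C x) = P /ₘ (X - C x) + Q /ₘ (X - C x) := by
      exact add_divByMonic' P Q _ (monic_X_sub_C x)
    rw [map_add, eval_add, hP, hQ, e, map_add]
  | monomial k c =>
    have e : (monomial k c : K[X]) /ₘ (X - C x) = C c * (X ^ k /ₘ (X - C x)) := by
      rw [← C_mul_X_pow_eq_monomial, C_mul_divByMonic _ _ _ (monic_X_sub_C x)]
    rw [TR_monomial, e, lin_C_mul, X_pow_divByMonic, eval_mul, eval_C, map_sum, eval_finsetSum]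
    congr 1
    refine sum_congr rfl (fun i _ => ?_)
    rw [lin_C_mul, lin_X_pow, eval_mul, eval_C, eval_pow, eval_X]
    ring

/-- the partial fraction behind the Cauchy form of `R ψ - T_R`. -/
theorem eval_div_sub (R : K[X]) (x s : K) (h : x ≠ s) :
    R.eval s / (x - s) = R.eval x / (x - s) - (R /ₘ (X - C x)).eval s := by
  have h1 := modByMonic_add_div R (X - C x)
  rw [modByMonic_X_sub_C_eq_C_eval] at h1
  have h2 : R.eval s = R.eval x + (s - x) * (R /ₘ (X - C x)).eval s := by
    conv_lhs => rw [← h1]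
    simp
  have h3 : x - s ≠ 0 := sub_ne_zero.mpr h
  field_simp
  rw [h2]; ring

theorem natDegree_TR_le (m : ℕ → K) (h0 : m 0 = 0) (R : K[X]) {n : ℕ} (hn : R.natDegree ≤ n + 2) :
    (TR m R).natDegree ≤ n := by
  rw [TR_apply, Polynomial.sum_def]
  refine natDegree_sum_le_of_forall_le _ _ (fun k hk => ?_)
  refine (natDegree_C_mul_le _ _).trans ?_
  refine natDegree_sum_le_of_forall_le _ _ (fun i hi => ?_)
  have hk' : k ≤ n + 2 := (le_natDegree_of_mem_supp k hk).trans hn
  rw [mem_range] at hi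
  rcases Nat.eq_zero_or_pos i with h | h
  · subst h; rw [h0]; simp
  · refine (natDegree_C_mul_le _ _).trans ?_
    rw [natDegree_X_pow]; omega

end TR

section PS

variable {K : Type*} [Field K]

/-- `ψ_∞` as a power series in `t = 1/s`. -/
noncomputable def ser (m : ℕ → K) : PowerSeries K := PowerSeries.X * PowerSeries.mk m

theorem coeff_ser_succ (m : ℕ → K) (k : ℕ) : PowerSeries.coeff (k + 1) (ser m) = m k := by
  rw [ser, PowerSeries.coeff_succ_X_mul, PowerSeries.coeff_mk]

theorem coeff_ser_zero (m : ℕ → K) : PowerSeries.coeff 0 (ser m) = 0 := by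
  rw [ser, PowerSeries.coeff_zero_X_mul]

/-- `[t^(j+1)] (rev_j(Q) ψ) = lin Q`. -/
theorem coeff_reflect_mul_ser (m : ℕ → K) (Q : K[X]) {j : ℕ} (hj : Q.natDegree ≤ j) :
    PowerSeries.coeff (j + 1) ((Q.reflect j : K[X]) * ser m : PowerSeries K) = lin m Q := by
  rw [ser, ← mul_assoc, mul_comm ((Q.reflect j : K[X]) : PowerSeries K) PowerSeries.X, mul_assoc,
    PowerSeries.coeff_succ_X_mul, PowerSeries.coeff_mul, lin_eq_sum m Q (Nat.lt_succ_of_le hj),
    Finset.Nat.sum_antidiagonal_eq_sum_range_succ_mk, Nat.succ_eq_add_one,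
    ← Finset.sum_range_reflect]
  refine sum_congr rfl (fun i hi => ?_)
  rw [mem_range] at hi
  have hi' : i ≤ j := by omega
  have e : j + 1 - 1 - i = j - i := by omega
  rw [e]
  simp only [PowerSeries.coeff_mk, Polynomial.coeff_coe, coeff_reflect]
  rw [revAt_le (by omega : j - i ≤ j), show j - (j - i) = i by omega]

/-- **the residue at infinity of `P/N ψ_∞`** (`N` monic of degree `d`, `deg P ≤ d + j`):
`P/N = t^{-j} rev_{d+j}(P)/rev(N)` with `t = 1/s`. -/
theorem coeff_inf (m : ℕ → K) (N : K[X]) (hN : N.Monic) (P : K[X]) {j : ℕ}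
    (hP : P.natDegree ≤ N.natDegree + j) :
    PowerSeries.coeff (j + 1) ((P.reflect (N.natDegree + j) : K[X]) *
      ((N.reflect N.natDegree : K[X]) : PowerSeries K)⁻¹ * ser m : PowerSeries K)
      = lin m (P /ₘ N) := by
  set d := N.natDegree with hd
  have hconst : PowerSeries.constantCoeff ((N.reflect d : K[X]) : PowerSeries K) ≠ 0 := by
    rw [← PowerSeries.coeff_zero_eq_constantCoeff_apply, Polynomial.coeff_coe, coeff_reflect,
      revAt_le (Nat.zero_le _), Nat.sub_zero, hd]
    have : N.coeff N.natDegree = 1 := hN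
    rw [this]; exact one_ne_zero
  have hQdeg : (P /ₘ N).natDegree ≤ j := by
    rw [natDegree_divByMonic P hN]; omega
  have hdec : P = P %ₘ N + N * (P /ₘ N) := (modByMonic_add_div P N).symm
  have hrefl : P.reflect (d + j) = (P %ₘ N).reflect (d + j)
      + N.reflect d * (P /ₘ N).reflect j := by
    conv_lhs => rw [hdec]
    rw [reflect_add, reflect_mul N (P /ₘ N) le_rfl hQdeg]
  have hmod : ∃ S : K[X], (P %ₘ N).reflect (d + j) = X ^ (j + 1) * S ∨ (P %ₘ N) = 0 := by
    by_cases h0 : P %ₘ N = 0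
    · exact ⟨0, Or.inr h0⟩
    · have hlt : (P %ₘ N).natDegree < d := by
        rcases Nat.eq_zero_or_pos d with h | h
        · have : N = 1 := (Polynomial.Monic.natDegree_eq_zero hN).mp h
          rw [this, modByMonic_one] at h0
          exact absurd rfl h0
        · exact natDegree_modByMonic_lt P hN (by
            intro h1; rw [h1, natDegree_one] at hd; omega)
      have hdvd : (X ^ (j + 1) : K[X]) ∣ (P %ₘ N).reflect (d + j) := by
        rw [X_pow_dvd_iff]
        intro i hi
        rw [coeff_reflect, revAt_le (by omega)]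
        apply coeff_eq_zero_of_natDegree_lt
        omega
      obtain ⟨S, hS⟩ := hdvd
      exact ⟨S, Or.inl hS⟩
  have hzero : PowerSeries.coeff (j + 1) ((((P %ₘ N).reflect (d + j) : K[X]) : PowerSeries K) *
      ((N.reflect d : K[X]) : PowerSeries K)⁻¹ * ser m) = 0 := by
    obtain ⟨S, hS | hS⟩ := hmod
    · rw [hS, Polynomial.coe_mul, Polynomial.coe_pow, Polynomial.coe_X, ser]
      have e : (PowerSeries.X ^ (j + 1) * (S : PowerSeries K)) *
          ((N.reflect d : K[X]) : PowerSeries K)⁻¹ * (PowerSeries.X * PowerSeries.mk m)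
          = PowerSeries.X ^ (j + 2) * ((S : PowerSeries K) *
            ((N.reflect d : K[X]) : PowerSeries K)⁻¹ * PowerSeries.mk m) := by
        ring
      rw [e, PowerSeries.coeff_X_pow_mul', if_neg (by omega)]
    · rw [hS]; simp
  rw [hrefl, Polynomial.coe_add, add_mul, add_mul, map_add, hzero, zero_add, Polynomial.coe_mul]
  have e : ((N.reflect d : K[X]) : PowerSeries K) * ((P /ₘ N).reflect j : K[X]) *
      ((N.reflect d : K[X]) : PowerSeries K)⁻¹ * ser m
      = (((N.reflect d : K[X]) : PowerSeries K) * ((N.reflect d : K[X]) : PowerSeries K)⁻¹) *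
        (((P /ₘ N).reflect j : K[X]) * ser m) := by ring
  rw [e, PowerSeries.mul_inv_cancel _ hconst, one_mul]
  exact coeff_reflect_mul_ser m _ hQdeg

end PS

end Crest.Agent.R006.PsiInf
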