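import Crest.Agent.R006.NVTau_938
import Crest.Agent.R006.PsiInf_294
import Crest.Agent.R006.Map_189

/-!
# Row 6: the two descriptions of the formal solution at infinity agree (helper189)

* `cinf_succ`: `NV.cinf (k + 1) = mu k` over every field of characteristic zero;
* `key_cinf`: the key identity for `k ↦ cinf (k + 1)`;
* `TR_X_pow`, `TR_eq_Tpart`: `PsiInf.TR mu = Tpart`, `TR mu (X ^ l) = NV.tau l`;
* `TR_map`: base change of `TR`;
* `Finf_TR_coeff`, `Finf_TR_natDegree_le`: `R ψ_∞ - TR mu R` has no polynomial part.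
-/

set_option autoImplicit false

namespace Crest.Agent.R006.CinfMu

open Polynomial Finset NV PsiInf

variable {K : Type*} [Field K]

/-- coefficient functional against `pinf` -/
lemma lin_cinf_eq (P : K[X]) {M : ℕ} (hM : P.natDegree < M) :
    lin (fun k => (cinf (k + 1) : K)) P = (P * pinf M).coeff (M - 1) := by
  rw [lin_eq_sum _ P hM, coeff_mul, Finset.Nat.sum_antidiagonal_eq_sum_range_succ
    (fun a b => P.coeff a * (pinf M : K[X]).coeff b)]
  have h1 : (M - 1).succ = M := by omega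
  rw [h1]
  refine Finset.sum_congr rfl fun k hk => ?_
  rw [Finset.mem_range] at hk
  rw [pinf_coeff, if_pos (by omega)]
  congr 2
  omega

/-- **the key identity** for the coefficients `cinf` -/
theorem key_cinf [CharZero K] : Key (fun k => (cinf (k + 1) : K)) := by
  apply key_of_monomials
  intro j
  obtain ⟨M, hM⟩ : ∃ M : ℕ, M = j + 4 := ⟨_, rfl⟩
  have hs : (shp K j).natDegree < M := by
    have := shp_natDegree_le (K := K) j
    omega
  rw [lin_cinf_eq _ hs]
  set p : K[X] := pinf M with hp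
  set A : K[X] := X ^ (j + 3) * p with hA
  set B : K[X] := shp K j * p with hB
  have hAc : A.coeff (M - 1) = cinf (j + 3 + 1) := by
    rw [hA, mul_comm, coeff_mul_X_pow', if_pos (by omega), hp, pinf_coeff, if_pos (by omega)]
    congr 1
    omega
  -- division by `X ^ M`
  have hXm : (X ^ M : K[X]).Monic := monic_X_pow M
  have hXd : (X ^ M : K[X]).degree = M := degree_X_pow M
  have dA := modByMonic_add_div A (X ^ M : K[X])
  have dB := modByMonic_add_div B (X ^ M : K[X])
  have lA : (A %ₘ X ^ M).degree < M := by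
    have := degree_modByMonic_lt A hXm
    rwa [hXd] at this
  have lB : (B %ₘ X ^ M).degree < M := by
    have := degree_modByMonic_lt B hXm
    rwa [hXd] at this
  have hM0 : 0 < M := by omega
  have nA : (A %ₘ X ^ M).natDegree ≤ M - 1 := by
    rcases eq_or_ne (A %ₘ X ^ M) 0 with h | h
    · rw [h]; simp
    · have := (natDegree_lt_iff_degree_lt h).mpr lA
      omega
  have nB : (B %ₘ X ^ M).natDegree ≤ M - 1 := by
    rcases eq_or_ne (B %ₘ X ^ M) 0 with h | h
    · rw [h]; simp
    · have := (natDegree_lt_iff_degree_lt h).mpr lB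
      omega
  have cA : (A %ₘ X ^ M).coeff (M - 1) = A.coeff (M - 1) := by
    conv_rhs => rw [← dA, mul_comm (X ^ M), coeff_add, coeff_mul_X_pow', if_neg (by omega)]
    rw [add_zero]
  have cB : (B %ₘ X ^ M).coeff (M - 1) = B.coeff (M - 1) := by
    conv_rhs => rw [← dB, mul_comm (X ^ M), coeff_add, coeff_mul_X_pow', if_neg (by omega)]
    rw [add_zero]
  set A0 := A %ₘ X ^ M
  set B0 := B %ₘ X ^ M
  set A1 := A /ₘ X ^ M
  set B1 := B /ₘ X ^ M
  -- the identity
  have e1 : (X + 1) ^ j * EE M p = (X + 1) ^ M * B + X ^ M * taylor 1 A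
      + X ^ M * (X + 1) ^ M * (C (1 / 2) * (3 * X + 2) * (X + 1) ^ j) := by
    rw [hA, hB, shp, taylor_mul, taylor_X_pow, C_1]
    unfold EE
    ring
  have e2 : taylor 1 A = taylor 1 A0 + (X + 1) ^ M * taylor 1 A1 := by
    conv_lhs => rw [← dA]
    rw [map_add, taylor_mul, taylor_X_pow, C_1]
  set Q : K[X] := B1 + taylor 1 A1 + C (1 / 2) * (3 * X + 2) * (X + 1) ^ j with hQ
  have e3 : X ^ M * (X + 1) ^ M * Q =
      (X + 1) ^ j * EE M p - (X + 1) ^ M * B0 - X ^ M * taylor 1 A0 := by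
    rw [e1, e2, hQ]
    have : B = B0 + X ^ M * B1 := dB.symm
    rw [this]
    ring
  have nT : (taylor 1 A0).natDegree ≤ M - 1 := by rw [natDegree_taylor]; exact nA
  have nE : ((X + 1) ^ j * EE M p).natDegree ≤ 2 * M - 2 := by
    refine nd_mul (m := j) (n := M + 2) (nd_pow j natDegree_X_add_one.le le_rfl)
      (EE_pinf_natDegree M) (by omega)
  have n1 : ((X + 1) ^ M * B0).natDegree ≤ 2 * M - 1 :=
    nd_mul (nd_pow M natDegree_X_add_one.le le_rfl) nB (by omega)
  have n2 : (X ^ M * taylor 1 A0).natDegree ≤ 2 * M - 1 :=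
    nd_mul (natDegree_X_pow_le _) nT (by omega)
  have n3 : (X ^ M * (X + 1) ^ M * Q).natDegree ≤ 2 * M - 1 := by
    rw [e3]
    exact nd_sub (nd_sub (nE.trans (by omega)) n1) n2
  have hQ0 : Q = 0 := by
    by_contra h
    have hm : (X ^ M * (X + 1) ^ M : K[X]).Monic := by
      have : (X + 1 : K[X]).Monic := by
        have := monic_X_add_C (1 : K)
        rwa [C_1] at this
      exact (monic_X_pow M).mul (this.pow M)
    have hd : (X ^ M * (X + 1) ^ M : K[X]).natDegree = M + M := by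
      have h1 : (X + 1 : K[X]).Monic := by
        have := monic_X_add_C (1 : K)
        rwa [C_1] at this
      rw [(monic_X_pow M).natDegree_mul (h1.pow M), natDegree_X_pow, h1.natDegree_pow,
        natDegree_X_add_one, mul_one]
    have := hm.natDegree_mul' h
    rw [hd] at this
    omega
  rw [hQ0, mul_zero] at e3
  have e4 : ((X + 1) ^ j * EE M p - (X + 1) ^ M * B0 - X ^ M * taylor 1 A0).coeff (2 * M - 1)
      = 0 := by rw [← e3, coeff_zero]
  rw [coeff_sub, coeff_sub, coeff_eq_zero_of_natDegree_lt (p := (X + 1) ^ j * EE M p) (by omega),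
    show 2 * M - 1 = M + (M - 1) by omega,
    coeff_mul_add_eq_of_natDegree_le (nd_pow M natDegree_X_add_one.le le_rfl) nB,
    coeff_mul_add_eq_of_natDegree_le (natDegree_X_pow_le _) nT, coeff_X_pow_self, one_mul] at e4
  have p1 : ((X + 1 : K[X]) ^ M).coeff M = 1 := by
    have := coeff_pow_of_natDegree_le (m := M) (natDegree_X_add_one (K := K)).le
    rw [mul_one] at this
    rw [this, coeff_one_X_add_one, one_pow]
  have p2 : (taylor 1 A0).coeff (M - 1) = A0.coeff (M - 1) := by
    rcases Nat.lt_or_ge A0.natDegree (M - 1) with h | h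
    · rw [coeff_eq_zero_of_natDegree_lt h, coeff_eq_zero_of_natDegree_lt]
      rw [natDegree_taylor]; exact h
    · have h' : A0.natDegree = M - 1 := le_antisymm nA h
      have := coeff_taylor_natDegree (1 : K) A0
      rw [h'] at this
      rw [this, leadingCoeff, h']
  rw [p1, one_mul, p2, cA, cB, hAc] at e4
  have e5 : B.coeff (M - 1) = (shp K j * pinf M).coeff (M - 1) := rfl
  show cinf (j + 3 + 1) + B.coeff (M - 1) = 0
  linear_combination -e4

lemma cinf_one : (cinf 1 : K) = 0 := by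
  show -(1 / 9) * (EE 0 (pinf 0) : K[X]).coeff 2 = 0
  have : (EE 0 (pinf 0) : K[X]) = C (1 / 2 * 3) * X + C (1 / 2 * 2) := by
    simp only [EE, pinf, mul_zero, map_zero, add_zero, zero_add, pow_zero, mul_one]
    rw [three_eq_C, two_eq_C, C_mul, C_mul]
    ring
  rw [this]
  simp

lemma pinf_one : (pinf 1 : K[X]) = 0 := by
  have h := pinf_succ (K := K) 0
  rw [zero_add, cinf_one, C_0, add_zero] at h
  rw [h]
  simp [pinf]

lemma cinf_two [CharZero K] : (cinf 2 : K) = -1 / 6 := by
  show -(1 / 9) * (EE 1 (pinf 1) : K[X]).coeff 3 = -1 / 6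
  rw [pinf_one]
  have : (EE 1 0 : K[X]) = C (3 / 2) * X ^ 3 + C (5 / 2) * X ^ 2 + C 1 * X := by
    simp only [EE, mul_zero, map_zero, add_zero, zero_add, pow_one]
    have h3 : (3 : K[X]) = C 3 := three_eq_C
    have h2 : (2 : K[X]) = C 2 := two_eq_C
    rw [h3, h2]
    have e1 : (C (3 / 2) : K[X]) = C (1 / 2) * C 3 := by rw [← C_mul]; norm_num
    have e2 : (C (5 / 2) : K[X]) = C (1 / 2) * C 3 + C (1 / 2) * C 2 := by
      rw [← C_mul, ← C_mul, ← C_add]; norm_num
    have e3 : (C 1 : K[X]) = C (1 / 2) * C 2 := by rw [← C_mul]; norm_num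
    rw [e1, e2, e3]
    ring
  rw [this]
  simp only [coeff_add, coeff_C_mul, coeff_X_pow, coeff_X]
  norm_num

lemma pinf_two [CharZero K] : (pinf 2 : K[X]) = C (-1 / 6) := by
  have h := pinf_succ (K := K) 1
  rw [pinf_one, mul_zero, zero_add] at h
  rw [h]
  show C (cinf 2 : K) = _
  rw [cinf_two]

lemma cinf_three [CharZero K] : (cinf 3 : K) = 7 / 54 := by
  show -(1 / 9) * (EE 2 (pinf 2) : K[X]).coeff 4 = 7 / 54
  rw [pinf_two]
  have h3 : (3 : K[X]) = C 3 := three_eq_C
  have h2 : (2 : K[X]) = C 2 := two_eq_C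
  have : (EE 2 (C (-1 / 6)) : K[X]) =
      C (-1 / 6) * (C 8 * X ^ 5 + C 28 * X ^ 4 + C 38 * X ^ 3 + C 25 * X ^ 2 + C 8 * X + C 1)
      + C (-1 / 6) * (X ^ 5 + C 3 * X ^ 4 + C 3 * X ^ 3 + X ^ 2)
      + C (1 / 2) * (C 3 * X ^ 5 + C 8 * X ^ 4 + C 7 * X ^ 3 + C 2 * X ^ 2) := by
    unfold EE
    rw [taylor_C]
    simp only [map_ofNat, C_1]
    ring
  rw [this]
  simp only [coeff_add, coeff_C_mul, coeff_X_pow, coeff_X, coeff_C]
  norm_num

/-- **`cinf (k + 1) = mu k`** -/
theorem cinf_succ [CharZero K] (k : ℕ) : (cinf (k + 1) : K) = ((mu k : ℚ) : K) := by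
  have h := mu_unique (K := K) (m := fun k => (cinf (k + 1) : K)) key_cinf
    (by simp only [zero_add]; rw [cinf_one, mul_zero])
    (by
      simp only [zero_add, Nat.reduceAdd]
      rw [cinf_one, cinf_two]; norm_num)
    (by
      simp only [zero_add, Nat.reduceAdd]
      rw [cinf_one, cinf_two, cinf_three]; norm_num)
  exact congrFun h k

/-- over `ℚ` -/
theorem cinf_succ_rat (k : ℕ) : (cinf (k + 1) : ℚ) = mu k := by
  rw [cinf_succ]; rfl

/-! ### polynomial parts -/

theorem TR_X_pow (m : ℕ → K) (l : ℕ) :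
    TR m (X ^ l) = ∑ i ∈ range l, C (m i) * X ^ (l - 1 - i) := by
  rw [X_pow_eq_monomial, TR_monomial, C_1, one_mul]

/-- `TR mu (X ^ l) = tau l` (938's `NV.tau`) -/
theorem TR_X_pow_eq_tau [CharZero K] (l : ℕ) :
    TR (fun k => ((mu k : ℚ) : K)) (X ^ l) = NV.tau l := by
  rw [TR_X_pow, NV.tau, ← Finset.sum_range_reflect]
  refine Finset.sum_congr rfl fun i hi => ?_
  rw [Finset.mem_range] at hi
  rw [show l - 1 - (l - 1 - i) = i by omega, ← cinf_succ,
    show l - 1 - i + 1 = l - i by omega]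

theorem TR_eq_sum_tau [CharZero K] (R : K[X]) :
    TR (fun k => ((mu k : ℚ) : K)) R = R.sum fun l a => C a * NV.tau l := by
  conv_lhs => rw [← Polynomial.sum_C_mul_X_pow_eq R]
  rw [Polynomial.sum_def, Polynomial.sum_def, map_sum]
  refine Finset.sum_congr rfl fun l _ => ?_
  rw [← smul_eq_C_mul, map_smul, TR_X_pow_eq_tau, smul_eq_C_mul]

/-- `TR mu` (helper294, `Defs`) is `Tpart` (`Defs_89`) -/
theorem TR_eq_Tpart [CharZero K] (R : K[X]) :
    TR (fun k => ((mu k : ℚ) : K)) R = Tpart R := by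
  rw [TR_eq_sum_tau, Tpart, Polynomial.sum_def, Polynomial.sum_def]
  refine Finset.sum_congr rfl fun l _ => ?_
  rw [NV.tau, Finset.mul_sum, ← Finset.sum_range_reflect, Finset.sum_range_succ']
  have h0 : (cinf 0 : K) = 0 := rfl
  rw [h0, mul_zero, C_0, zero_mul, add_zero]
  refine Finset.sum_congr rfl fun i hi => ?_
  rw [Finset.mem_range] at hi
  rw [show l - (l - 1 - i) = i + 1 by omega, show l - 1 - i = l - (i + 1) by omega, C_mul, mul_assoc]

/-- over `ℚ` -/
theorem TR_mu_eq_Tpart (R : ℚ[X]) : TR mu R = Tpart R := by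
  rw [← TR_eq_Tpart]
  rfl

/-- base change of `TR` -/
theorem TR_map {K' : Type*} [Field K'] (f : K →+* K') (m : ℕ → K) (R : K[X]) :
    (TR m R).map f = TR (fun k => f (m k)) (R.map f) := by
  induction R using Polynomial.induction_on' with
  | add P Q hP hQ => rw [map_add, Polynomial.map_add, hP, hQ, Polynomial.map_add, map_add]
  | monomial k c =>
    rw [TR_monomial, Polynomial.map_monomial, TR_monomial, Polynomial.map_mul, Polynomial.map_C,
      Polynomial.map_sum]
    congr 1
    refine Finset.sum_congr rfl fun i _ => ?_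
    rw [Polynomial.map_mul, Polynomial.map_C, Polynomial.map_pow, Polynomial.map_X]

theorem TR_mu_map [CharZero K] (R : ℚ[X]) :
    (TR mu R).map (Rat.castHom K) = TR (fun k => ((mu k : ℚ) : K)) (R.map (Rat.castHom K)) :=
  TR_map (Rat.castHom K) mu R

/-! ### behaviour of `R ψ_∞ - TR mu R` at infinity, through `pinf` -/

theorem Finf_TR_coeff [CharZero K] {M : ℕ} (R : K[X]) (hR : R.natDegree ≤ M) (d : ℕ) :
    (Finf M R (TR (fun k => ((mu k : ℚ) : K)) R)).coeff (M + d) = 0 := by
  have e : Finf M R (TR (fun k => ((mu k : ℚ) : K)) R) =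
      ∑ l ∈ R.support, C (R.coeff l) * Finf M (X ^ l) (NV.tau l) := by
    have h1 : Finf M (∑ l ∈ R.support, C (R.coeff l) * X ^ l)
        (∑ l ∈ R.support, C (R.coeff l) * NV.tau l) =
        ∑ l ∈ R.support, Finf M (C (R.coeff l) * X ^ l) (C (R.coeff l) * NV.tau l) :=
      Finf_sum _ _ _ _
    rw [← R.as_sum_support_C_mul_X_pow] at h1
    rw [TR_eq_sum_tau, Polynomial.sum_def, h1]
    exact Finset.sum_congr rfl fun l _ => Finf_smul M _ _ _
  rw [e, finsetSum_coeff]
  refine Finset.sum_eq_zero fun l hl => ?_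
  rw [coeff_C_mul, Finf_tau_coeff ((le_natDegree_of_mem_supp l hl).trans hR), mul_zero]

theorem Finf_TR_natDegree_le [CharZero K] {M : ℕ} (R : K[X]) (hR : R.natDegree ≤ M) :
    (Finf M R (TR (fun k => ((mu k : ℚ) : K)) R)).natDegree ≤ M := by
  rw [natDegree_le_iff_coeff_eq_zero]
  intro N hN
  obtain ⟨d, rfl⟩ : ∃ d, N = M + d := ⟨N - M, by omega⟩
  exact Finf_TR_coeff R hR d

end Crest.Agent.R006.CinfMu
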