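import Crest.Agent.R006.CellDefs_365

/-!
Row 6 (S0006), P4 <-> P8 bridge (helper764): the number of sites of a window in a residue class.

A site of type `h ∈ {0,1}` is `n + h/2`, `n : ℤ`. It is in the class `c` modulo the odd `p` iff
`p ∣ 2 n + h - 2 c`, iff `n + h/2 = c + (j + h/2) p` for an integer `j`.
`jst A h N p c` (helper365) = least `j` with `A N ≤ c + (j + h/2) p`.
-/

set_option autoImplicit false

open Finset

namespace Crest.Agent.R006.ClsCountx764

open Crest.Agent.R006.P8 (jst)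

theorem jst_le_iff (A h N p c j : ℤ) (hp : 0 < p) :
    jst A h N p c ≤ j ↔ 2 * A * N ≤ 2 * c + (2 * j + h) * p := by
  unfold jst
  rw [neg_le, Int.le_ediv_iff_mul_le (by linarith)]
  constructor <;> intro H <;> nlinarith

theorem lt_jst_iff (A h N p c j : ℤ) (hp : 0 < p) :
    j < jst A h N p c ↔ 2 * c + (2 * j + h) * p < 2 * A * N := by
  rw [← not_le, jst_le_iff A h N p c j hp, not_le]

theorem jst_mono (A B h N p c : ℤ) (hp : 0 < p) (hAB : A * N ≤ B * N) :
    jst A h N p c ≤ jst B h N p c := by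
  rw [jst_le_iff A h N p c _ hp]
  have := (jst_le_iff B h N p c (jst B h N p c) hp).mp le_rfl
  linarith

/-- class condition of a site of type `h`. -/
theorem dvd_iff (h p c n : ℤ) (hpodd : p % 2 = 1) (_hh : h = 0 ∨ h = 1) :
    p ∣ 2 * n + h - 2 * c ↔ ∃ j : ℤ, 2 * n + h = 2 * c + (2 * j + h) * p := by
  constructor
  · rintro ⟨k, hk⟩
    have hpar : k % 2 = h % 2 := by
      have h1 : (2 * n + h - 2 * c) % 2 = h % 2 := by omega
      rw [hk, Int.mul_emod, hpodd, one_mul, Int.emod_emod_of_dvd _ (dvd_refl 2)] at h1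
      exact h1
    refine ⟨(k - h) / 2, ?_⟩
    have h2 : 2 * ((k - h) / 2) = k - h := by
      have : (k - h) % 2 = 0 := by omega
      omega
    rw [h2]
    linarith
  · rintro ⟨j, hj⟩
    exact ⟨2 * j + h, by linarith⟩

/-- the site with parameter `j`. -/
def site (h p c j : ℤ) : ℤ := c + j * p + h * ((p - 1) / 2)

theorem two_site (h p c j : ℤ) (hpodd : p % 2 = 1) :
    2 * site h p c j + h = 2 * c + (2 * j + h) * p := by
  unfold site
  have h1 : 2 * ((p - 1) / 2) = p - 1 := by omega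
  have : 2 * (c + j * p + h * ((p - 1) / 2)) + h = 2 * c + 2 * (j * p) + h * (2 * ((p - 1) / 2)) + h := by
    ring
  rw [this, h1]; ring

/-- the sites of the window `[A N, B N)` of type `h` in the class `c` are the `site h p c j`,
`jst A ≤ j < jst B`. -/
theorem filter_eq_image (A B h N p c : ℤ) (hp : 0 < p) (hpodd : p % 2 = 1) (hh : h = 0 ∨ h = 1) :
    (Finset.Ico (A * N) (B * N)).filter (fun n => p ∣ 2 * n + h - 2 * c)
      = (Finset.Ico (jst A h N p c) (jst B h N p c)).image (site h p c) := by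
  ext n
  simp only [Finset.mem_filter, Finset.mem_Ico, Finset.mem_image]
  constructor
  · rintro ⟨⟨h1, h2⟩, h3⟩
    obtain ⟨j, hj⟩ := (dvd_iff h p c n hpodd hh).mp h3
    have hs := two_site h p c j hpodd
    refine ⟨j, ⟨?_, ?_⟩, by omega⟩
    · rw [jst_le_iff A h N p c j hp, ← hj]
      have : 2 * A * N = 2 * (A * N) := by ring
      rw [this]; rcases hh with rfl | rfl <;> linarith
    · rw [lt_jst_iff B h N p c j hp, ← hj]
      have : 2 * B * N = 2 * (B * N) := by ring
      rw [this]; rcases hh with rfl | rfl <;> omega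
  · rintro ⟨j, ⟨h1, h2⟩, rfl⟩
    have hs := two_site h p c j hpodd
    rw [jst_le_iff A h N p c j hp, ← hs] at h1
    rw [lt_jst_iff B h N p c j hp, ← hs] at h2
    have e1 : 2 * A * N = 2 * (A * N) := by ring
    have e2 : 2 * B * N = 2 * (B * N) := by ring
    rw [e1] at h1
    rw [e2] at h2
    refine ⟨⟨?_, ?_⟩, ?_⟩
    · rcases hh with rfl | rfl <;> omega
    · rcases hh with rfl | rfl <;> omega
    · exact (dvd_iff h p c _ hpodd hh).mpr ⟨j, hs⟩

theorem site_injective (h p c : ℤ) (hp : 0 < p) : Function.Injective (site h p c) := by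
  intro a b hab
  unfold site at hab
  have : a * p = b * p := by linarith
  exact mul_right_cancel₀ hp.ne' this

/-- **count of the sites of a window in a class** -/
theorem card_cls (A B h N p c : ℤ) (hp : 0 < p) (hpodd : p % 2 = 1) (hh : h = 0 ∨ h = 1) :
    (((Finset.Ico (A * N) (B * N)).filter (fun n => p ∣ 2 * n + h - 2 * c)).card : ℤ)
      = max 0 (jst B h N p c - jst A h N p c) := by
  rw [filter_eq_image A B h N p c hp hpodd hh,
    Finset.card_image_of_injective _ (site_injective h p c hp), Int.card_Ico]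
  rw [Int.toNat_eq_max, max_comm]

theorem card_cls' (A B h N p c : ℤ) (hp : 0 < p) (hpodd : p % 2 = 1) (hh : h = 0 ∨ h = 1)
    (hAB : A * N ≤ B * N) :
    (((Finset.Ico (A * N) (B * N)).filter (fun n => p ∣ 2 * n + h - 2 * c)).card : ℤ)
      = jst B h N p c - jst A h N p c := by
  rw [card_cls A B h N p c hp hpodd hh, max_eq_right]
  have := jst_mono A B h N p c hp hAB
  linarith

/-- sums over the sites of a window in a class = sums over `j`. -/
theorem sum_cls {M : Type*} [AddCommMonoid M] (f : ℤ → M) (A B h N p c : ℤ) (hp : 0 < p)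
    (hpodd : p % 2 = 1) (hh : h = 0 ∨ h = 1) :
    ∑ n ∈ (Finset.Ico (A * N) (B * N)).filter (fun n => p ∣ 2 * n + h - 2 * c), f n
      = ∑ j ∈ Finset.Ico (jst A h N p c) (jst B h N p c), f (site h p c j) := by
  rw [filter_eq_image A B h N p c hp hpodd hh,
    Finset.sum_image fun a _ b _ hab => site_injective h p c hp hab]

/-- integer sites: the class condition is `n % p = c`. -/
theorem dvd_int_iff (p c n : ℤ) (hp : 0 < p) (hpodd : p % 2 = 1) (hc0 : 0 ≤ c) (hcp : c < p) :
    p ∣ 2 * n + 0 - 2 * c ↔ n % p = c := by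
  have h1 : 2 * n + 0 - 2 * c = 2 * (n - c) := by ring
  rw [h1]
  have hcop : IsCoprime p 2 := ⟨1, -(p / 2), by omega⟩
  constructor
  · intro hd
    obtain ⟨k, hk⟩ := IsCoprime.dvd_of_dvd_mul_left hcop hd
    have : n = c + p * k := by linarith
    rw [this, Int.add_mul_emod_self_left, Int.emod_eq_of_lt hc0 hcp]
  · intro hn
    refine dvd_mul_of_dvd_right ⟨n / p, ?_⟩ 2
    have := Int.emod_add_mul_ediv n p
    rw [hn] at this
    linarith

/-- the classes `0 ≤ c < p` partition the sites of type `h`. -/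
theorem exists_unique_cls (h p n : ℤ) (hp : 0 < p) (hpodd : p % 2 = 1) :
    ∃! c : ℤ, (0 ≤ c ∧ c < p) ∧ p ∣ 2 * n + h - 2 * c := by
  have hcop : IsCoprime p 2 := ⟨1, -(p / 2), by omega⟩
  -- `2 * ((p+1)/2) = p + 1`
  have hq : 2 * ((p + 1) / 2) = p + 1 := by omega
  set c0 : ℤ := ((2 * n + h) * ((p + 1) / 2)) % p with hc0
  have hc0a : 0 ≤ c0 := Int.emod_nonneg _ hp.ne'
  have hc0b : c0 < p := Int.emod_lt_of_pos _ hp
  have hdvd : p ∣ 2 * n + h - 2 * c0 := by
    have h1 := Int.emod_add_mul_ediv ((2 * n + h) * ((p + 1) / 2)) p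
    rw [← hc0] at h1
    refine ⟨2 * ((2 * n + h) * ((p + 1) / 2) / p) - (2 * n + h), ?_⟩
    have h2 : 2 * c0 = 2 * ((2 * n + h) * ((p + 1) / 2)) - 2 * (p * ((2 * n + h) * ((p + 1) / 2) / p)) := by
      linarith
    have h3 : 2 * ((2 * n + h) * ((p + 1) / 2)) = (2 * n + h) * (p + 1) := by
      calc 2 * ((2 * n + h) * ((p + 1) / 2)) = (2 * n + h) * (2 * ((p + 1) / 2)) := by ring
        _ = _ := by rw [hq]
    rw [h2, h3]; ring
  refine ⟨c0, ⟨⟨hc0a, hc0b⟩, hdvd⟩, ?_⟩
  rintro c ⟨⟨h1, h2⟩, h3⟩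
  have h4 : p ∣ 2 * (c0 - c) := by
    have := dvd_sub h3 hdvd
    have e : 2 * n + h - 2 * c - (2 * n + h - 2 * c0) = 2 * (c0 - c) := by ring
    rwa [e] at this
  have h5 : p ∣ c0 - c := IsCoprime.dvd_of_dvd_mul_left hcop h4
  have h6 : c0 - c = 0 := by
    apply Int.eq_zero_of_abs_lt_dvd h5
    rw [abs_lt]; constructor <;> linarith
  linarith

/-- the class of a site of type `h` (`p` odd). -/
def clsOf (h p n : ℤ) : ℤ := ((2 * n + h) * ((p + 1) / 2)) % p

/-- real bounds for the count of a window -/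
theorem count_bounds (A B h N p c : ℤ) (hp : 0 < p) :
    ((B * N - A * N : ℤ) : ℝ) / p - 1 ≤ ((jst B h N p c - jst A h N p c : ℤ) : ℝ) ∧
      ((jst B h N p c - jst A h N p c : ℤ) : ℝ) ≤ ((B * N - A * N : ℤ) : ℝ) / p + 1 := by
  have hpr : (0 : ℝ) < p := by exact_mod_cast hp
  have a1 := (jst_le_iff A h N p c (jst A h N p c) hp).mp le_rfl
  have a2 := (lt_jst_iff A h N p c (jst A h N p c - 1) hp).mp (by linarith)
  have b1 := (jst_le_iff B h N p c (jst B h N p c) hp).mp le_rfl
  have b2 := (lt_jst_iff B h N p c (jst B h N p c - 1) hp).mp (by linarith)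
  constructor
  · rw [sub_le_iff_le_add, div_le_iff₀ hpr]
    have : B * N - A * N ≤ (jst B h N p c - jst A h N p c + 1) * p := by nlinarith
    exact_mod_cast this
  · rw [← sub_le_iff_le_add, le_div_iff₀ hpr]
    have : (jst B h N p c - jst A h N p c - 1) * p ≤ B * N - A * N := by nlinarith
    exact_mod_cast this

end Crest.Agent.R006.ClsCountx764
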