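import Mathlib

/-!
Row 6 (S0006), block P4: the congruence behind Lemma L (k = 2).
For `p = 2m+1` prime, `p ∣ Σ_{j ≤ m} (3j+1) 8^j C(m,j)^3`.
Proof: the terminating WZ identity
`Σ_{n ≤ m} (3n+m+1) (m+n)!^2 / (4^n (m-n)! n!^2 (2m+2n+1)!!) = 1`.
-/

set_option autoImplicit false

namespace Crest.Agent.R006.Cong826

open Finset

/-- odd double factorial `(2N-1)!! = ∏_{i<N} (2i+1)` in `ℚ`. -/
def odf (N : ℕ) : ℚ := ∏ i ∈ range N, (2 * (i : ℚ) + 1)

lemma odf_succ (N : ℕ) : odf (N + 1) = odf N * (2 * (N : ℚ) + 1) := by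
  simp [odf, prod_range_succ]

lemma odf_pos (N : ℕ) : 0 < odf N := by
  apply prod_pos; intro i _; positivity

/-- the term `X(m,n)` with `1/(m-n)!` (meant for `n ≤ m`). -/
def X (m n : ℕ) : ℚ :=
  ((m + n).factorial : ℚ) ^ 2 / (4 ^ n * ((m - n).factorial : ℚ) * (n.factorial : ℚ) ^ 2 * odf (m + n + 1))

def T (m n : ℕ) : ℚ := (3 * (n : ℚ) + m + 1) * X m n

def Gc (m n : ℕ) : ℚ :=
  -(4 * (n : ℚ) ^ 2) * ((m + n).factorial : ℚ) ^ 2 /
    (4 ^ n * ((m + 1 - n).factorial : ℚ) * (n.factorial : ℚ) ^ 2 * odf (m + n + 1))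

lemma wz (m n : ℕ) (h : n ≤ m) : T (m + 1) n - T m n = Gc m (n + 1) - Gc m n := by
  obtain ⟨d, rfl⟩ := Nat.exists_eq_add_of_le h
  have e1 : n + d + 1 - n = d + 1 := by omega
  have e2 : n + d - n = d := by omega
  have e3 : n + d + 1 - (n + 1) = d := by omega
  have e4 : n + d + 1 + n = (n + d + n) + 1 := by omega
  have e5 : n + d + (n + 1) = (n + d + n) + 1 := by omega
  simp only [T, X, Gc, e1, e2, e3, e4, e5]
  rw [odf_succ (n + d + n + 1), Nat.factorial_succ (n + d + n), Nat.factorial_succ d, Nat.factorial_succ n]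
  have h1 : (odf (n + d + n + 1)) ≠ 0 := (odf_pos _).ne'
  have h2 : ((n + d + n).factorial : ℚ) ≠ 0 := by positivity
  have h3 : (d.factorial : ℚ) ≠ 0 := by positivity
  have h4 : (n.factorial : ℚ) ≠ 0 := by positivity
  have h5 : (2 * (((n + d + n + 1 : ℕ) : ℚ)) + 1) ≠ 0 := by positivity
  have h6 : ((d : ℚ) + 1) ≠ 0 := by positivity
  have h7 : ((n : ℚ) + 1) ≠ 0 := by positivity
  push_cast
  push_cast at h5
  field_simp
  ring

lemma tele (m N : ℕ) (h : N ≤ m + 1) :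
    ∑ n ∈ range N, (T (m + 1) n - T m n) = Gc m N := by
  induction N with
  | zero => simp [Gc]
  | succ N ih => rw [sum_range_succ, ih (by omega), wz m N (by omega)]; ring

lemma last (m : ℕ) : T (m + 1) (m + 1) = - Gc m (m + 1) := by
  have e1 : m + 1 - (m + 1) = 0 := by omega
  have e4 : m + 1 + (m + 1) = (m + (m + 1)) + 1 := by omega
  simp only [T, X, Gc, e1, e4]
  rw [odf_succ (m + (m + 1) + 1), Nat.factorial_succ (m + (m + 1))]
  have h1 : (odf (m + (m + 1) + 1)) ≠ 0 := (odf_pos _).ne'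
  have h2 : ((m + (m + 1)).factorial : ℚ) ≠ 0 := by positivity
  have h4 : ((m + 1).factorial : ℚ) ≠ 0 := by positivity
  have h5 : (2 * (((m + (m + 1) + 1 : ℕ) : ℚ)) + 1) ≠ 0 := by positivity
  push_cast
  push_cast at h5
  field_simp
  ring

/-- the terminating WZ identity. -/
theorem sum_T (m : ℕ) : ∑ n ∈ range (m + 1), T m n = 1 := by
  induction m with
  | zero => simp [T, X, odf]
  | succ m ih =>
    rw [sum_range_succ, last]
    have := tele m (m + 1) le_rfl
    rw [sum_sub_distrib, ih] at this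
    linarith


/-- odd double factorial over `ℕ`. -/
def odfN (N : ℕ) : ℕ := ∏ i ∈ range N, (2 * i + 1)

lemma odfN_cast (N : ℕ) : (odfN N : ℚ) = odf N := by simp [odfN, odf]

/-- `Q(m,n) = ∏_{l=n+1}^{m} (2m+1+2l)`. -/
def Qf (m n : ℕ) : ℕ := ∏ l ∈ Ico (n + 1) (m + 1), (2 * m + 1 + 2 * l)

lemma odfN_split (m n : ℕ) (h : n ≤ m) : odfN (m + n + 1) * Qf m n = odfN (2 * m + 1) := by
  unfold odfN Qf
  have h2 : ∏ l ∈ Ico (n + 1) (m + 1), (2 * m + 1 + 2 * l) =
      ∏ l ∈ Ico (m + n + 1) (2 * m + 1), (2 * l + 1) := by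
    have e : Ico (m + n + 1) (2 * m + 1) = Ico (n + 1 + m) (m + 1 + m) := by
      congr 1 <;> ring
    rw [e, ← Finset.prod_Ico_add' (fun l => 2 * l + 1) (n + 1) (m + 1) m]
    apply Finset.prod_congr rfl
    intro l _
    ring
  rw [h2, Finset.prod_range_mul_prod_Ico _ (by omega)]

lemma term_int (m n : ℕ) (h : n ≤ m) :
    (((3 * n + m + 1) * (m + n).factorial ^ 2 * 4 ^ (m - n) * m.choose n * m.factorial *
      (m.choose n * (m - n).factorial) * Qf m n : ℕ) : ℚ) =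
    4 ^ m * (m.factorial : ℚ) ^ 3 * odf (2 * m + 1) * T m n := by
  have e : odf (2 * m + 1) = odf (m + n + 1) * (Qf m n : ℚ) := by
    rw [← odfN_cast, ← odfN_cast, ← odfN_split m n h]; push_cast; ring
  have e4 : (4 : ℚ) ^ m = 4 ^ n * 4 ^ (m - n) := by rw [← pow_add]; congr 1; omega
  have ec : (m.factorial : ℚ) = m.choose n * n.factorial * (m - n).factorial := by
    exact_mod_cast (Nat.choose_mul_factorial_mul_factorial h).symm
  have h1 : (odf (m + n + 1)) ≠ 0 := (odf_pos _).ne'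
  have h3 : ((m - n).factorial : ℚ) ≠ 0 := by positivity
  have h4 : (n.factorial : ℚ) ≠ 0 := by positivity
  rw [e, e4]
  simp only [T, X]
  push_cast
  field_simp
  rw [ec]
  ring

theorem int_identity (m : ℕ) :
    (∑ n ∈ range (m + 1), (3 * n + m + 1) * (m + n).factorial ^ 2 * 4 ^ (m - n) * m.choose n *
      m.factorial * (m.choose n * (m - n).factorial) * Qf m n) =
    4 ^ m * m.factorial ^ 3 * odfN (2 * m + 1) := by
  have h : ((∑ n ∈ range (m + 1), (3 * n + m + 1) * (m + n).factorial ^ 2 * 4 ^ (m - n) *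
      m.choose n * m.factorial * (m.choose n * (m - n).factorial) * Qf m n : ℕ) : ℚ) =
      ((4 ^ m * m.factorial ^ 3 * odfN (2 * m + 1) : ℕ) : ℚ) := by
    rw [Nat.cast_sum]
    rw [Finset.sum_congr rfl (fun n hn => term_int m n (by simpa [Nat.lt_succ_iff] using hn))]
    rw [← Finset.mul_sum, sum_T]
    push_cast
    rw [odfN_cast]; ring
  exact_mod_cast h

section modp

variable {m : ℕ}

lemma wil [hp : Fact (2 * m + 1).Prime] (k : ℕ) (hk : k ≤ 2 * m) :
    ((k.factorial : ℕ) : ZMod (2 * m + 1)) * ((2 * m - k).factorial : ℕ) = (-1) ^ (k + 1) := by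
  induction k with
  | zero =>
    have := ZMod.wilsons_lemma (2 * m + 1)
    simpa using this
  | succ k ih =>
    have ih' := ih (by omega)
    obtain ⟨d, hd⟩ : ∃ d, 2 * m - k = d + 1 := ⟨2 * m - k - 1, by omega⟩
    have hd2 : 2 * m - (k + 1) = d := by omega
    rw [hd, Nat.factorial_succ] at ih'
    rw [hd2, Nat.factorial_succ]
    have hz : ((d + 1 : ℕ) : ZMod (2 * m + 1)) = - ((k + 1 : ℕ) : ZMod (2 * m + 1)) := by
      have : ((d + 1 : ℕ) : ZMod (2 * m + 1)) + ((k + 1 : ℕ) : ZMod (2 * m + 1)) = 0 := by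
        rw [← Nat.cast_add]
        have e : d + 1 + (k + 1) = 2 * m + 1 := by omega
        rw [e]; exact ZMod.natCast_self _
      linear_combination this
    push_cast at ih' hz ⊢
    rw [pow_succ, ← ih', hz]
    ring

lemma wil_sq [hp : Fact (2 * m + 1).Prime] (n : ℕ) (h : n ≤ m) :
    (((m + n).factorial : ℕ) : ZMod (2 * m + 1)) ^ 2 * ((m - n).factorial : ℕ) ^ 2 = 1 := by
  have := wil (m := m) (m + n) (by omega)
  have e : 2 * m - (m + n) = m - n := by omega
  rw [e] at this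
  rw [← mul_pow, this]
  rcases neg_one_pow_eq_or (ZMod (2 * m + 1)) (m + n + 1) with h1 | h1 <;> rw [h1] <;> norm_num

lemma prod_Ico_fact (m n : ℕ) (h : n ≤ m) :
    ∏ l ∈ Ico (n + 1) (m + 1), l = m.choose n * (m - n).factorial := by
  have h1 : n.factorial * ∏ l ∈ Ico (n + 1) (m + 1), l = m.factorial := by
    induction m, h using Nat.le_induction with
    | base => simp
    | succ m hm ih => rw [Finset.prod_Ico_succ_top (by omega), ← mul_assoc, ih, Nat.factorial_succ]; ring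
  have h2 := Nat.choose_mul_factorial_mul_factorial h
  have h3 : n.factorial * ∏ l ∈ Ico (n + 1) (m + 1), l = n.factorial * (m.choose n * (m - n).factorial) := by
    rw [h1, ← h2]; ring
  exact Nat.eq_of_mul_eq_mul_left (Nat.factorial_pos n) h3

lemma Qf_mod (n : ℕ) (h : n ≤ m) :
    ((Qf m n : ℕ) : ZMod (2 * m + 1)) = 2 ^ (m - n) * ((m.choose n * (m - n).factorial : ℕ) : ZMod (2 * m + 1)) := by
  unfold Qf
  rw [← prod_Ico_fact m n h]
  push_cast
  have : ∀ l ∈ Ico (n + 1) (m + 1), (2 * (m : ZMod (2 * m + 1)) + 1 + 2 * (l : ZMod (2 * m + 1))) = 2 * (l : ZMod (2 * m + 1)) := by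
    intro l _
    have h0 : (2 * (m : ZMod (2 * m + 1)) + 1) = 0 := by
      have := ZMod.natCast_self (2 * m + 1)
      push_cast at this; exact this
    rw [h0, zero_add]
  rw [Finset.prod_congr rfl this, Finset.prod_mul_distrib, Finset.prod_const, Nat.card_Ico]
  congr 2
  omega

/-- **The congruence** in `ZMod p`, `p = 2m+1` prime. -/
theorem cong_zmod (m : ℕ) [hp : Fact (2 * m + 1).Prime] :
    ∑ j ∈ range (m + 1), (3 * (j : ZMod (2 * m + 1)) + 1) * 8 ^ j * (m.choose j : ZMod (2 * m + 1)) ^ 3 = 0 := by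
  have hI := congrArg (Nat.cast : ℕ → ZMod (2 * m + 1)) (int_identity m)
  have h0 : ((odfN (2 * m + 1) : ℕ) : ZMod (2 * m + 1)) = 0 := by
    rw [ZMod.natCast_eq_zero_iff]
    exact Finset.dvd_prod_of_mem (fun i => 2 * i + 1) (Finset.mem_range.2 (by omega : m < 2 * m + 1))
  have hr : ((4 ^ m * m.factorial ^ 3 * odfN (2 * m + 1) : ℕ) : ZMod (2 * m + 1)) = 0 := by
    push_cast; rw [h0, mul_zero]
  rw [hr, Nat.cast_sum] at hI
  have hm1 : (2 * (m : ZMod (2 * m + 1)) + 1) = 0 := by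
    have := ZMod.natCast_self (2 * m + 1)
    push_cast at this; exact this
  have hterm : ∀ n ∈ range (m + 1), (((3 * n + m + 1) * (m + n).factorial ^ 2 * 4 ^ (m - n) * m.choose n *
      m.factorial * (m.choose n * (m - n).factorial) * Qf m n : ℕ) : ZMod (2 * m + 1)) =
      (m.factorial : ZMod (2 * m + 1)) * ((3 * (n : ZMod (2 * m + 1)) + m + 1) * 8 ^ (m - n) * (m.choose n : ZMod (2 * m + 1)) ^ 3) := by
    intro n hn
    have hle : n ≤ m := by simpa [Nat.lt_succ_iff] using hn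
    have hw := wil_sq (m := m) n hle
    have hQ := Qf_mod (m := m) n hle
    have e8 : (8 : ZMod (2 * m + 1)) ^ (m - n) = 4 ^ (m - n) * 2 ^ (m - n) := by
      rw [← mul_pow]; norm_num
    push_cast at hQ ⊢
    rw [hQ, e8]
    linear_combination ((3 * (n : ZMod (2 * m + 1)) + m + 1) * 4 ^ (m - n) * 2 ^ (m - n) * (m.choose n : ZMod (2 * m + 1)) ^ 3 * (m.factorial : ZMod (2 * m + 1))) * hw
  rw [Finset.sum_congr rfl hterm, ← Finset.mul_sum] at hI
  have hf : (m.factorial : ZMod (2 * m + 1)) ≠ 0 := by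
    intro hz
    rw [ZMod.natCast_eq_zero_iff, (Fact.out : (2 * m + 1).Prime).dvd_factorial] at hz
    omega
  have hS := (mul_eq_zero.1 hI).resolve_left hf
  rw [← Finset.sum_range_reflect] at hS
  have : ∑ j ∈ range (m + 1), (3 * (j : ZMod (2 * m + 1)) + 1) * 8 ^ j * (m.choose j : ZMod (2 * m + 1)) ^ 3 =
      - ∑ j ∈ range (m + 1), ((3 * ((m + 1 - 1 - j : ℕ) : ZMod (2 * m + 1)) + m + 1) * 8 ^ (m - (m + 1 - 1 - j)) * (m.choose (m + 1 - 1 - j) : ZMod (2 * m + 1)) ^ 3) := by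
    rw [← Finset.sum_neg_distrib]
    apply Finset.sum_congr rfl
    intro j hj
    have hle : j ≤ m := by simpa [Nat.lt_succ_iff] using hj
    have e1 : m + 1 - 1 - j = m - j := by omega
    have e2 : m - (m - j) = j := by omega
    rw [e1, e2, Nat.choose_symm hle, Nat.cast_sub hle]
    linear_combination (2 * 8 ^ j * (m.choose j : ZMod (2 * m + 1)) ^ 3) * hm1
  rw [this, hS, neg_zero]

/-- **The congruence** over `ℤ`. -/
theorem cong_int (m : ℕ) (hp : (2 * m + 1).Prime) :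
    ((2 * m + 1 : ℕ) : ℤ) ∣ ∑ j ∈ range (m + 1), (3 * (j : ℤ) + 1) * 8 ^ j * (m.choose j : ℤ) ^ 3 := by
  have : Fact (2 * m + 1).Prime := ⟨hp⟩
  rw [← ZMod.intCast_zmod_eq_zero_iff_dvd, Int.cast_sum]
  have h := cong_zmod m
  push_cast
  exact h

/-- `C(2j,j) = (-4)^j C(m,j)` in `ZMod p`, `p = 2m+1`, `j ≤ m`. -/
theorem central_zmod (m : ℕ) [hp : Fact (2 * m + 1).Prime] (j : ℕ) (hj : j ≤ m) :
    ((Nat.centralBinom j : ℕ) : ZMod (2 * m + 1)) = (-4) ^ j * (m.choose j : ZMod (2 * m + 1)) := by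
  have hm1 : (2 * (m : ZMod (2 * m + 1)) + 1) = 0 := by
    have := ZMod.natCast_self (2 * m + 1)
    push_cast at this; exact this
  induction j with
  | zero => simp
  | succ j ih =>
    have ih' := ih (by omega)
    have h1 := congrArg (Nat.cast : ℕ → ZMod (2 * m + 1)) (Nat.succ_mul_centralBinom_succ j)
    have h2 := congrArg (Nat.cast : ℕ → ZMod (2 * m + 1)) (Nat.choose_succ_right_eq m j)
    have hle : j ≤ m := by omega
    push_cast [Nat.cast_sub hle] at h1 h2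
    have hne : ((j : ZMod (2 * m + 1)) + 1) ≠ 0 := by
      have : ((j + 1 : ℕ) : ZMod (2 * m + 1)) ≠ 0 := by
        rw [Ne, ZMod.natCast_eq_zero_iff]
        intro hd
        exact absurd (Nat.le_of_dvd (by omega) hd) (by omega)
      simpa using this
    apply mul_left_cancel₀ hne
    rw [h1, ih', pow_succ]
    linear_combination (-4 : ZMod (2 * m + 1)) ^ j * 4 * h2 + (-2 * (-4 : ZMod (2 * m + 1)) ^ j * (m.choose j : ZMod (2 * m + 1))) * hm1 * 0 + (2 * (-4 : ZMod (2 * m + 1)) ^ j * (m.choose j : ZMod (2 * m + 1))) * hm1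

/-- **The congruence** in the form `Σ_{j ≤ m} (3j+1) C(2j,j)^3 (-8)^{-j} = 0` in `ZMod p`. -/
theorem cong_central (m : ℕ) [hp : Fact (2 * m + 1).Prime] (hm : 1 ≤ m) :
    ∑ j ∈ range (m + 1), (3 * (j : ZMod (2 * m + 1)) + 1) *
      ((Nat.centralBinom j : ℕ) : ZMod (2 * m + 1)) ^ 3 * ((-8 : ZMod (2 * m + 1))⁻¹) ^ j = 0 := by
  rw [← cong_zmod m]
  apply Finset.sum_congr rfl
  intro j hj
  have hle : j ≤ m := by simpa [Nat.lt_succ_iff] using hj
  rw [central_zmod m j hle]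
  have h8 : (-8 : ZMod (2 * m + 1)) ≠ 0 := by
    have h2 : (2 : ZMod (2 * m + 1)) ≠ 0 := by
      have : ((2 : ℕ) : ZMod (2 * m + 1)) ≠ 0 := by
        rw [Ne, ZMod.natCast_eq_zero_iff]
        intro hd
        exact absurd (Nat.le_of_dvd (by omega) hd) (by omega)
      simpa using this
    have : (-8 : ZMod (2 * m + 1)) = -(2 ^ 3) := by norm_num
    rw [this]; exact neg_ne_zero.2 (pow_ne_zero _ h2)
  have hpw : ((-4 : ZMod (2 * m + 1)) ^ j) ^ 3 * ((-8 : ZMod (2 * m + 1))⁻¹) ^ j = 8 ^ j := by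
    rw [← pow_mul, mul_comm j 3, pow_mul, ← mul_pow]
    congr 1
    have e : ((-4 : ZMod (2 * m + 1)) ^ 3) = 8 * (-8) := by norm_num
    rw [e, mul_assoc, mul_inv_cancel₀ h8, mul_one]
  linear_combination ((3 * (j : ZMod (2 * m + 1)) + 1) * (m.choose j : ZMod (2 * m + 1)) ^ 3) * hpw

end modp

end Crest.Agent.R006.Cong826
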