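import Mathlib

set_option autoImplicit false

/-!
# Row 6 (Catalan), shape independent deduction (helper89)

If `G` were rational, an integer polynomial of degree `≤ C D` with nonzero value at `G` would have
value at least `exp (-C D log q)`; a family with values `≤ exp (-c D²)` is impossible.
-/

namespace Crest.Agent.R006

open Polynomial

/-- lower bound for an integer polynomial at a rational point -/
theorem one_le_den_pow_mul (P : ℤ[X]) (r : ℚ) (h : aeval (r : ℝ) P ≠ 0) :
    1 ≤ (r.den : ℝ) ^ P.natDegree * |aeval (r : ℝ) P| := by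
  -- q^n P(p/q) is an integer
  obtain ⟨z, hz⟩ : ∃ z : ℤ, (z : ℝ) = (r.den : ℝ) ^ P.natDegree * aeval (r : ℝ) P := by
    refine ⟨∑ i ∈ Finset.range (P.natDegree + 1),
      P.coeff i * r.num ^ i * (r.den : ℤ) ^ (P.natDegree - i), ?_⟩
    rw [aeval_eq_sum_range, Finset.mul_sum]
    push_cast
    refine Finset.sum_congr rfl fun i hi => ?_
    have hi' : i ≤ P.natDegree := Nat.lt_succ_iff.mp (Finset.mem_range.mp hi)
    have hd : (r.den : ℝ) ≠ 0 := by exact_mod_cast r.den_nz
    have hr : (r : ℝ) = (r.num : ℝ) / (r.den : ℝ) := by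
      have := Rat.num_div_den r
      exact_mod_cast this.symm
    rw [hr, zsmul_eq_mul, div_pow]
    have hsplit : (r.den : ℝ) ^ P.natDegree = (r.den : ℝ) ^ i * (r.den : ℝ) ^ (P.natDegree - i) := by
      rw [← pow_add]; congr 1; omega
    rw [hsplit]
    field_simp
  have hz0 : z ≠ 0 := by
    rintro rfl
    have hd : (r.den : ℝ) ^ P.natDegree ≠ 0 := pow_ne_zero _ (by exact_mod_cast r.den_nz)
    have : (r.den : ℝ) ^ P.natDegree * aeval (r : ℝ) P = 0 := by rw [← hz]; simp
    rcases mul_eq_zero.mp this with h1 | h1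
    · exact hd h1
    · exact h h1
  have h1 : (1 : ℝ) ≤ |(z : ℝ)| := by
    have : (1 : ℤ) ≤ |z| := Int.one_le_abs hz0
    exact_mod_cast this
  have hpos : (0 : ℝ) ≤ (r.den : ℝ) ^ P.natDegree := by positivity
  rw [hz, abs_mul, abs_of_nonneg hpos] at h1
  exact h1

/-- Deduction, integer polynomials. The family may be produced under the assumption that `G` is
rational (this is used for the nonvanishing). -/
theorem irrational_of_int_polys (G C c : ℝ) (hc : 0 < c)
    (h : ∀ r : ℚ, (r : ℝ) = G → ∀ D0 : ℕ, ∃ D : ℕ, D0 ≤ D ∧ ∃ P : ℤ[X],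
      (P.natDegree : ℝ) ≤ C * D ∧ aeval G P ≠ 0 ∧ |aeval G P| ≤ Real.exp (-c * (D : ℝ) ^ 2)) :
    Irrational G := by
  rintro ⟨r, hr⟩
  have hden : (1 : ℝ) ≤ (r.den : ℝ) := by exact_mod_cast r.pos
  have hlog : 0 ≤ Real.log (r.den : ℝ) := Real.log_nonneg hden
  obtain ⟨D0, hD0⟩ := exists_nat_gt (|C| * Real.log (r.den : ℝ) / c)
  obtain ⟨D, hD, P, hdeg, hne, hle⟩ := h r hr (D0 + 1)
  have hDpos : (0 : ℝ) < D := by
    have : 0 < D := by omega
    exact_mod_cast this
  have hDgt : |C| * Real.log (r.den : ℝ) / c < D := by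
    refine hD0.trans_le ?_
    exact_mod_cast (by omega : D0 ≤ D)
  have h1 := one_le_den_pow_mul P r (by rw [hr]; exact hne)
  rw [hr] at h1
  have h2 : (r.den : ℝ) ^ P.natDegree ≤ Real.exp (|C| * D * Real.log (r.den : ℝ)) := by
    have : (r.den : ℝ) ^ P.natDegree = Real.exp (P.natDegree * Real.log (r.den : ℝ)) := by
      rw [Real.exp_nat_mul, Real.exp_log (by linarith)]
    rw [this]
    apply Real.exp_le_exp.mpr
    apply mul_le_mul_of_nonneg_right _ hlog
    refine hdeg.trans ?_
    exact mul_le_mul_of_nonneg_right (le_abs_self C) hDpos.le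
  have h3 : (1 : ℝ) ≤ Real.exp (|C| * D * Real.log (r.den : ℝ)) * Real.exp (-c * (D : ℝ) ^ 2) :=
    h1.trans (mul_le_mul h2 hle (abs_nonneg _) (Real.exp_pos _).le)
  rw [← Real.exp_add] at h3
  have h4 : 0 ≤ |C| * D * Real.log (r.den : ℝ) + -c * (D : ℝ) ^ 2 := by
    by_contra hcon
    push Not at hcon
    have := Real.exp_lt_one_iff.mpr hcon
    linarith
  have h5 : |C| * Real.log (r.den : ℝ) < c * D := by
    have := (div_lt_iff₀ hc).mp hDgt
    linarith
  nlinarith

/-- An exponent function with finite support which bounds all denominators clears them. -/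
theorem exists_int_poly (P : ℚ[X]) (S : Finset ℕ) (hS : ∀ p ∈ S, p.Prime) (e : ℕ → ℤ)
    (h : ∀ p : ℕ, p.Prime → ∀ i, P.coeff i ≠ 0 →
      -(if p ∈ S then e p else 0) ≤ padicValRat p (P.coeff i)) :
    ∃ Q : ℤ[X], Q.natDegree = P.natDegree ∧
      Q.map (Int.castRingHom ℚ) = C (∏ p ∈ S, (p : ℚ) ^ (e p)) * P := by
  set N : ℚ := ∏ p ∈ S, (p : ℚ) ^ (e p) with hN
  have hN0 : N ≠ 0 := by
    refine Finset.prod_ne_zero_iff.mpr fun p hp => ?_
    exact zpow_ne_zero _ (by exact_mod_cast (hS p hp).ne_zero)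
  have hval : ∀ p : ℕ, p.Prime → padicValRat p N = if p ∈ S then e p else 0 := by
    intro p hp
    have := Fact.mk hp
    have key : ∀ T : Finset ℕ, (∀ q ∈ T, q.Prime) →
        padicValRat p (∏ q ∈ T, (q : ℚ) ^ (e q)) = if p ∈ T then e p else 0 := by
      intro T
      induction T using Finset.induction_on with
      | empty => intro _; simp
      | insert q T hq ih =>
        intro hT
        have hq' : q.Prime := hT q (Finset.mem_insert_self _ _)
        have hT' : ∀ q ∈ T, q.Prime := fun x hx => hT x (Finset.mem_insert_of_mem hx)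
        have hne1 : (q : ℚ) ^ (e q) ≠ 0 := zpow_ne_zero _ (by exact_mod_cast hq'.ne_zero)
        have hne2 : (∏ q ∈ T, (q : ℚ) ^ (e q)) ≠ 0 :=
          Finset.prod_ne_zero_iff.mpr fun x hx =>
            zpow_ne_zero _ (by exact_mod_cast (hT' x hx).ne_zero)
        rw [Finset.prod_insert hq, padicValRat.mul hne1 hne2, ih hT', padicValRat.zpow]
        by_cases hpq : p = q
        · subst hpq
          simp [hq, padicValRat.self hp.one_lt]
        · have : padicValRat p (q : ℚ) = 0 := by
            rw [show ((q : ℚ)) = ((q : ℕ) : ℚ) from rfl, padicValRat.of_nat]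
            have : padicValNat p q = 0 := by
              apply padicValNat.eq_zero_of_not_dvd
              intro hdvd
              exact hpq ((Nat.prime_dvd_prime_iff_eq hp hq').mp hdvd)
            simp [this]
          rw [this]
          simp [Finset.mem_insert, hpq]
    exact key S hS
  -- every coefficient of N * P is an integer
  have hint : ∀ i, ∃ z : ℤ, (z : ℚ) = N * P.coeff i := by
    intro i
    by_cases h0 : P.coeff i = 0
    · exact ⟨0, by simp [h0]⟩
    · have hx : N * P.coeff i ≠ 0 := mul_ne_zero hN0 h0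
      have hden : (N * P.coeff i).den = 1 := by
        by_contra hd
        obtain ⟨p, hp, hpd⟩ := Nat.exists_prime_and_dvd hd
        have := Fact.mk hp
        have hv : 0 ≤ padicValRat p (N * P.coeff i) := by
          rw [padicValRat.mul hN0 h0, hval p hp]
          have := h p hp i h0
          linarith
        have hnum : ¬ (p : ℤ) ∣ (N * P.coeff i).num := by
          intro hdvd
          have hc := (N * P.coeff i).reduced
          have h1 : p ∣ (N * P.coeff i).num.natAbs := Int.natCast_dvd.mp hdvd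
          have := Nat.Coprime.eq_one_of_dvd (Nat.Coprime.coprime_dvd_left h1 hc) hpd
          exact hp.one_lt.ne' this
        have h2 : padicValRat p (N * P.coeff i) < 0 := by
          rw [padicValRat_def]
          have h3 : padicValInt p (N * P.coeff i).num = 0 :=
            padicValInt.eq_zero_of_not_dvd hnum
          have h4 : 1 ≤ padicValNat p (N * P.coeff i).den :=
            one_le_padicValNat_of_dvd (Rat.den_nz _) hpd
          rw [h3]; simp only [Nat.cast_zero, zero_sub]; omega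
        linarith
      exact ⟨(N * P.coeff i).num, by
        have := Rat.num_div_den (N * P.coeff i)
        rw [hden] at this
        simpa using this⟩
  have hl : C N * P ∈ lifts (Int.castRingHom ℚ) := by
    rw [lifts_iff_coeff_lifts]
    intro i
    obtain ⟨z, hz⟩ := hint i
    exact ⟨z, by rw [coeff_C_mul]; exact hz⟩
  obtain ⟨Q, hQ, hdeg⟩ := exists_degree_eq_of_mem_lifts hl
  refine ⟨Q, ?_, hQ⟩
  rw [natDegree_eq_natDegree hdeg]
  exact natDegree_C_mul hN0

/-- Deduction, rational polynomials with prime by prime denominators. `e p` may be negative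
(content). -/
theorem irrational_of_rat_polys (G C c : ℝ) (hc : 0 < c)
    (h : ∀ r : ℚ, (r : ℝ) = G → ∀ D0 : ℕ, ∃ D : ℕ, D0 ≤ D ∧ ∃ (P : ℚ[X]) (S : Finset ℕ) (e : ℕ → ℤ),
      (∀ p ∈ S, p.Prime) ∧
      (∀ p : ℕ, p.Prime → ∀ i, P.coeff i ≠ 0 →
        -(if p ∈ S then e p else 0) ≤ padicValRat p (P.coeff i)) ∧
      (P.natDegree : ℝ) ≤ C * D ∧ aeval G P ≠ 0 ∧
      Real.log |aeval G P| + ∑ p ∈ S, (e p : ℝ) * Real.log p ≤ -c * (D : ℝ) ^ 2) :
    Irrational G := by
  refine irrational_of_int_polys G C c hc fun r hr D0 => ?_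
  obtain ⟨D, hD, P, S, e, hS, hv, hdeg, hne, hle⟩ := h r hr D0
  obtain ⟨Q, hQdeg, hQ⟩ := exists_int_poly P S hS e hv
  have hval : aeval G Q = ((∏ p ∈ S, (p : ℚ) ^ (e p) : ℚ) : ℝ) * aeval G P := by
    have h1 : aeval G (Q.map (Int.castRingHom ℚ)) = aeval G Q := by
      rw [aeval_def, eval₂_map, aeval_def]
      congr 1
    rw [← h1, hQ, map_mul, aeval_C]
    rfl
  have hNpos : (0 : ℝ) < ((∏ p ∈ S, (p : ℚ) ^ (e p) : ℚ) : ℝ) := by
    have : (0 : ℚ) < ∏ p ∈ S, (p : ℚ) ^ (e p) :=
      Finset.prod_pos fun p hp => zpow_pos (by exact_mod_cast (hS p hp).pos) _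
    exact_mod_cast this
  have hlogN : Real.log ((∏ p ∈ S, (p : ℚ) ^ (e p) : ℚ) : ℝ) =
      ∑ p ∈ S, (e p : ℝ) * Real.log p := by
    push_cast
    rw [Real.log_prod]
    · refine Finset.sum_congr rfl fun p _ => ?_
      rw [Real.log_zpow]
    · intro p hp
      exact zpow_ne_zero _ (by exact_mod_cast (hS p hp).ne_zero)
  refine ⟨D, hD, Q, by rw [hQdeg]; exact hdeg, ?_, ?_⟩
  · rw [hval]; exact mul_ne_zero hNpos.ne' hne
  · rw [hval, abs_mul, abs_of_pos hNpos]
    have hpos : 0 < ((∏ p ∈ S, (p : ℚ) ^ (e p) : ℚ) : ℝ) * |aeval G P| :=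
      mul_pos hNpos (abs_pos.mpr hne)
    rw [← Real.log_le_iff_le_exp hpos, Real.log_mul hNpos.ne' (abs_pos.mpr hne).ne', hlogN]
    linarith

end Crest.Agent.R006
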