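import Mathlib

/-!
Row 6: product bounds for determinants (helper481).

* `abs_det_le` / `norm_det_le` : `|M i j| ≤ α i * γ j` for all `i j` implies
  `|det M| ≤ n! * ∏ α * ∏ γ`.
* `PB p v P` : every coefficient of `P : ℚ[X]` has `p`-adic norm `≤ p ^ (-v)` (`v : ℤ`).
  Closed under sums, products, negation, monotone in `v`.
* `PB_det` : `PB p (a i + c j) (M i j)` for all `i j` implies `PB p (∑ a + ∑ c) (det M)`.
* `PB.le_padicValRat` : back to `padicValRat` (the form used in `Ded.lean`).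
-/

set_option autoImplicit false
set_option linter.unusedSectionVars false

namespace Crest.Agent.R006.ProdBound481

open Polynomial Matrix

section Real

variable {𝕜 : Type*} [NormedField 𝕜] {n : Type*} [Fintype n] [DecidableEq n]

theorem norm_det_le (M : Matrix n n 𝕜) (α γ : n → ℝ)
    (h : ∀ i j, ‖M i j‖ ≤ α i * γ j) :
    ‖M.det‖ ≤ (Fintype.card n).factorial * ((∏ i, α i) * ∏ j, γ j) := by
  rw [Matrix.det_apply]
  calc ‖∑ σ : Equiv.Perm n, Equiv.Perm.sign σ • ∏ i, M (σ i) i‖
      ≤ ∑ σ : Equiv.Perm n, ‖Equiv.Perm.sign σ • ∏ i, M (σ i) i‖ := norm_sum_le _ _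
    _ ≤ ∑ σ : Equiv.Perm n, (∏ i, α i) * ∏ j, γ j := by
        refine Finset.sum_le_sum fun σ _ => ?_
        have h1 : ‖Equiv.Perm.sign σ • ∏ i, M (σ i) i‖ = ∏ i, ‖M (σ i) i‖ := by
          rcases Int.units_eq_one_or (Equiv.Perm.sign σ) with hs | hs
          · rw [hs, one_smul, norm_prod]
          · rw [hs, Units.neg_smul, one_smul, norm_neg, norm_prod]
        rw [h1]
        calc ∏ i, ‖M (σ i) i‖ ≤ ∏ i, (α (σ i) * γ i) :=
              Finset.prod_le_prod (fun i _ => norm_nonneg _) fun i _ => h _ _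
          _ = (∏ i, α i) * ∏ j, γ j := by
              rw [Finset.prod_mul_distrib, Equiv.prod_comp σ α]
    _ = (Fintype.card n).factorial * ((∏ i, α i) * ∏ j, γ j) := by
        rw [Finset.sum_const, Finset.card_univ, Fintype.card_perm, nsmul_eq_mul]

theorem abs_det_le (M : Matrix n n ℝ) (α γ : n → ℝ)
    (h : ∀ i j, |M i j| ≤ α i * γ j) :
    |M.det| ≤ (Fintype.card n).factorial * ((∏ i, α i) * ∏ j, γ j) :=
  norm_det_le M α γ h

end Real

/-- All coefficients of `P` have `p`-adic norm at most `p ^ (-v)`. -/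
def PB (p : ℕ) (v : ℤ) (P : ℚ[X]) : Prop := ∀ k, padicNorm p (P.coeff k) ≤ (p : ℚ) ^ (-v)

variable {p : ℕ} [hp : Fact p.Prime]

lemma p_pos : (0 : ℚ) < p := by exact_mod_cast hp.out.pos

lemma PB.zero (v : ℤ) : PB p v (0 : ℚ[X]) := by
  intro k
  rw [coeff_zero, padicNorm.zero]
  exact (zpow_pos p_pos _).le

lemma PB.mono {v w : ℤ} {P : ℚ[X]} (h : PB p v P) (hw : w ≤ v) : PB p w P := by
  intro k
  refine (h k).trans ?_
  exact zpow_le_zpow_right₀ (by exact_mod_cast hp.out.one_lt.le) (by omega)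

lemma PB.add {v : ℤ} {P Q : ℚ[X]} (h1 : PB p v P) (h2 : PB p v Q) : PB p v (P + Q) := by
  intro k
  rw [coeff_add]
  exact padicNorm.nonarchimedean.trans (max_le (h1 k) (h2 k))

lemma PB.neg {v : ℤ} {P : ℚ[X]} (h1 : PB p v P) : PB p v (-P) := by
  intro k
  rw [coeff_neg, padicNorm.neg]
  exact h1 k

lemma PB.sub {v : ℤ} {P Q : ℚ[X]} (h1 : PB p v P) (h2 : PB p v Q) : PB p v (P - Q) := by
  rw [sub_eq_add_neg]; exact h1.add h2.neg

lemma PB.sum {ι : Type*} {v : ℤ} (s : Finset ι) (f : ι → ℚ[X]) (h : ∀ i ∈ s, PB p v (f i)) :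
    PB p v (∑ i ∈ s, f i) := by
  classical
  induction s using Finset.induction_on with
  | empty => simpa using PB.zero v
  | insert a s ha ih =>
    rw [Finset.sum_insert ha]
    exact (h a (Finset.mem_insert_self _ _)).add
      (ih fun i hi => h i (Finset.mem_insert_of_mem hi))

lemma PB.mul {v w : ℤ} {P Q : ℚ[X]} (h1 : PB p v P) (h2 : PB p w Q) : PB p (v + w) (P * Q) := by
  intro k
  rw [coeff_mul]
  have key : ∀ s : Finset (ℕ × ℕ),
      padicNorm p (∑ x ∈ s, P.coeff x.1 * Q.coeff x.2) ≤ (p : ℚ) ^ (-(v + w)) := by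
    intro s
    classical
    induction s using Finset.induction_on with
    | empty =>
      rw [Finset.sum_empty, padicNorm.zero]
      exact (zpow_pos p_pos _).le
    | insert a s ha ih =>
      rw [Finset.sum_insert ha]
      refine padicNorm.nonarchimedean.trans (max_le ?_ ih)
      rw [padicNorm.mul, neg_add, zpow_add₀ p_pos.ne']
      exact mul_le_mul (h1 _) (h2 _) (padicNorm.nonneg _) (zpow_pos p_pos _).le
  exact key _

lemma PB.one : PB p 0 (1 : ℚ[X]) := by
  intro k
  rw [coeff_one, neg_zero, zpow_zero]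
  split_ifs
  · rw [padicNorm.one]
  · rw [padicNorm.zero]; exact zero_le_one

lemma PB.prod {ι : Type*} (s : Finset ι) (v : ι → ℤ) (f : ι → ℚ[X])
    (h : ∀ i ∈ s, PB p (v i) (f i)) : PB p (∑ i ∈ s, v i) (∏ i ∈ s, f i) := by
  classical
  induction s using Finset.induction_on with
  | empty => simpa using PB.one
  | insert a s ha ih =>
    rw [Finset.sum_insert ha, Finset.prod_insert ha]
    exact (h a (Finset.mem_insert_self _ _)).mul
      (ih fun i hi => h i (Finset.mem_insert_of_mem hi))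

/-- constants -/
lemma PB.C {v : ℤ} {a : ℚ} (h : padicNorm p a ≤ (p : ℚ) ^ (-v)) : PB p v (C a) := by
  intro k
  rw [coeff_C]
  split_ifs
  · exact h
  · rw [padicNorm.zero]; exact (zpow_pos p_pos _).le

/-- product bound for the determinant at a finite place (Gauss norm) -/
theorem PB_det {n : Type*} [Fintype n] [DecidableEq n] (M : Matrix n n ℚ[X]) (a c : n → ℤ)
    (h : ∀ i j, PB p (a i + c j) (M i j)) : PB p (∑ i, a i + ∑ j, c j) M.det := by
  rw [Matrix.det_apply]
  refine PB.sum _ _ fun σ _ => ?_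
  have h1 : PB p (∑ i, a i + ∑ j, c j) (∏ i, M (σ i) i) := by
    have := PB.prod (p := p) Finset.univ (fun i => a (σ i) + c i) (fun i => M (σ i) i)
      fun i _ => h _ _
    rwa [Finset.sum_add_distrib, Equiv.sum_comp σ a] at this
  rcases Int.units_eq_one_or (Equiv.Perm.sign σ) with hs | hs
  · rw [hs, one_smul]; exact h1
  · rw [hs, Units.neg_smul, one_smul]; exact h1.neg

/-- back to `padicValRat` -/
theorem PB.le_padicValRat {v : ℤ} {P : ℚ[X]} (h : PB p v P) (k : ℕ) (hk : P.coeff k ≠ 0) :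
    v ≤ padicValRat p (P.coeff k) := by
  have h1 := h k
  rw [padicNorm.eq_zpow_of_nonzero hk] at h1
  have h2 : (1 : ℚ) < p := by exact_mod_cast hp.out.one_lt
  have := (zpow_le_zpow_iff_right₀ h2).mp h1
  linarith

theorem PB.of_padicValRat {v : ℤ} {P : ℚ[X]}
    (h : ∀ k, P.coeff k ≠ 0 → v ≤ padicValRat p (P.coeff k)) : PB p v P := by
  intro k
  by_cases h0 : P.coeff k = 0
  · rw [h0, padicNorm.zero]; exact (zpow_pos p_pos _).le
  · rw [padicNorm.eq_zpow_of_nonzero h0]
    exact zpow_le_zpow_right₀ (by exact_mod_cast hp.out.one_lt.le) (by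
      have := h k h0
      omega)

end Crest.Agent.R006.ProdBound481
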