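import Crest.Agent.R006.NVChain_664
import Crest.Agent.R006.PsiInf_294
import Crest.Agent.R006.ProdBound_481
import Crest.Agent.R006.Psi_724

/-!
# Row 6: the frozen definitions (helper378)

The pole-free form of the construction (helper710's twist): three polynomials `R, T, Q`,
`F = R ψ - T - Q g`, rows = coefficients of germs of `F` at integers and half-integers.

* `Site` : `Z i` is the point `i`, `H i` is the point `i + 1/2` (`i : ℤ`).
* germs over `ℚ`: `psi0`, `psi1` (inhomogeneous / homogeneous part of `ψ`: the germ of `ψ` is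
  `psi0 - X * psi1`, `X` standing for Catalan's constant `G`) and `gam` (germ of `g`).
* `Shape` : the numbers of the design, per unit; `Shape.mult S u c` the node multiplicities
  (`c` = number of extra `G`-rows), a row is a pair `(z, j)` with `j < mult z`.
* columns: `ρ * C(s, a1*u + l)` times `ψ` (with the polynomial part `TR mu` subtracted), `l < k`;
  `C(s, l)`, `l < q*u`;  `C(s, l) * g`, `l < g*u`.
* `entry S u row col : ℚ[X]`, `Minor S u r : ℚ[X]` the determinant for a choice `r` of the rows.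
-/

set_option autoImplicit false

namespace Crest.Agent.R006.D

open Polynomial Crest.Agent.R006.NV Crest.Agent.R006.PsiInf

/-! ### sites and germs -/

/-- a site: `Z i` is the integer `i`, `H i` is the half-integer `i + 1/2` -/
inductive Site
  | Z (i : ℤ)
  | H (i : ℤ)
  deriving DecidableEq

/-- the rational number attached to a site -/
def Site.val : Site → ℚ
  | .Z i => i
  | .H i => (i : ℚ) + 1 / 2

/-- homogeneous chain: `(i+1+ε)^3 h(i+1) + (2(i+ε)+1)^3 h(i) = 0`, `h(0) = 1` -/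
noncomputable def HomZ : ℤ → PowerSeries ℚ :=
  bi (fun i => pt ((i : ℚ) + 1) ^ 3) (fun i => (2 * pt (i : ℚ) + 1) ^ 3) (fun _ => 0) 1

/-- half chain of `g`, index `0` is the point `-1/2`, value `1` there -/
noncomputable def GamH0 : ℤ → PowerSeries ℚ :=
  bi (fun i => pt ((i : ℚ) - 1 / 2 + 1) ^ 2)
    (fun i => -(PowerSeries.C (1 / 4) * (2 * pt ((i : ℚ) - 1 / 2) + 1) ^ 2)) (fun _ => 0) 1

/-- germ of `g` at `i + 1/2` (value `1` at `-1/2`; `4 g*_i ε^2 + ..` for `i ≥ 0`) -/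
noncomputable def GamH (i : ℤ) : PowerSeries ℚ := GamH0 (i + 1)

/-- inhomogeneous part of the germ of `ψ` -/
noncomputable def psi0 : Site → PowerSeries ℚ
  | .Z i => PsiZ 0 i
  | .H i => PsiH i

/-- homogeneous part of the germ of `ψ` (multiplies `-X`) -/
noncomputable def psi1 : Site → PowerSeries ℚ
  | .Z i => HomZ i
  | .H _ => 0

/-- germ of `g` -/
noncomputable def gam : Site → PowerSeries ℚ
  | .Z i => GamZ i
  | .H i => GamH i

/-! ### the shape -/

/-- The numbers of the design (per unit `u`).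
`B` : `G`-rows `F(n) = 0`, `0 ≤ n < B u` (+ `c` extra ones);
`e1 ≥ e2 ≥ e3` : `F = O(ε^j)` at `-m`, `1 ≤ m ≤ e_j u`;
`h1 ≥ h2 ≥ h3` : `F = O(ε^j)` at `l + 1/2`, `0 ≤ l < h_j u`;
`w` : the row `T + g Q = 0` at `-1/2-m`, `0 ≤ m < w u` (`w ≤ i1`);
`a1 , a2` : zeros of `R` at `n`, `0 ≤ n < a_j u`; `i1` : zeros of `R` at `-1/2-m`, `m < i1 u`;
`r1` : zeros of `R` at `-m`, `1 ≤ m ≤ r1 u`;
`q`, `g` : numbers of `T`-columns and of `Q`-columns. -/
structure Shape where
  B : ℕ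
  e1 : ℕ
  e2 : ℕ
  e3 : ℕ
  h1 : ℕ
  h2 : ℕ
  h3 : ℕ
  w : ℕ
  a1 : ℕ
  a2 : ℕ
  i1 : ℕ
  r1 : ℕ
  q : ℕ
  g : ℕ

namespace Shape

variable (S : Shape)

/-- number of rows per unit -/
def rows : ℕ := S.B + (S.e1 + S.e2 + S.e3) + (S.h1 + S.h2 + S.h3) + S.w

/-- number of `R`-columns per unit -/
def k : ℕ := S.rows - S.q - S.g

/-- the side conditions under which the blocks are proved -/
structure Good : Prop where
  e32 : S.e3 ≤ S.e2
  e21 : S.e2 ≤ S.e1
  h32 : S.h3 ≤ S.h2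
  h21 : S.h2 ≤ S.h1
  wi : S.w ≤ S.i1
  a21 : S.a2 ≤ S.a1
  a1B : S.a1 < S.B
  e1B : S.e1 < S.B
  h1B : S.h1 < S.B
  gq : S.g ≤ S.q
  qB : S.q < S.B
  kpos : S.q + S.g < S.rows

/-- multiplicity of a site, unit `u`, `c` extra `G`-rows -/
def mult (u c : ℕ) : Site → ℕ
  | .Z i => if 0 ≤ i then (if i < S.B * u + c then 1 else 0)
      else (if -i ≤ S.e1 * u then 1 else 0) + (if -i ≤ S.e2 * u then 1 else 0)
        + (if -i ≤ S.e3 * u then 1 else 0)
  | .H i => if 0 ≤ i then (if i < S.h1 * u then 1 else 0) + (if i < S.h2 * u then 1 else 0)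
        + (if i < S.h3 * u then 1 else 0)
      else (if -i ≤ S.w * u then 1 else 0)

end Shape

/-- a row label: site and order of the coefficient -/
abbrev Row := Site × ℕ

/-- `(z, j)` is a row of the design -/
def IsRow (S : Shape) (u c : ℕ) (ρ : Row) : Prop := ρ.2 < S.mult u c ρ.1

/-- column labels: `R`-columns, `T`-columns, `Q`-columns -/
abbrev Col (S : Shape) (u : ℕ) := Fin (S.k * u) ⊕ Fin (S.q * u) ⊕ Fin (S.g * u)

/-! ### polynomials -/

/-- the binomial polynomial `C(s, l)` -/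
noncomputable def bin (l : ℕ) : ℚ[X] := C ((l.factorial : ℚ)⁻¹) * descPochhammer ℚ l

/-- normalised gauge polynomial of the `R`-columns:
`C(s, a2 u) * C(s + i1 u - 1/2, i1 u) * C(s + r1 u, r1 u)` -/
noncomputable def gauge (S : Shape) (u : ℕ) : ℚ[X] :=
  bin (S.a2 * u) * (bin (S.i1 * u)).comp (X + C ((S.i1 * u : ℕ) - 1 / 2 : ℚ))
    * (bin (S.r1 * u)).comp (X + C ((S.r1 * u : ℕ) : ℚ))

/-- the polynomial `R_l` -/
noncomputable def polR (S : Shape) (u l : ℕ) : ℚ[X] := gauge S u * bin (S.a1 * u + l)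

/-- polynomial part of `R ψ_∞` -/
noncomputable def tau (R : ℚ[X]) : ℚ[X] := TR mu R

/-! ### entries -/

/-- `G`-free part of the `R`-entry: `[ε^j] (R psi0 - τ(R))` at the site `z` -/
noncomputable def ent0 (R : ℚ[X]) (ρ : Row) : ℚ :=
  PowerSeries.coeff ρ.2 (gm ρ.1.val R * psi0 ρ.1 - gm ρ.1.val (tau R))

/-- coefficient of `-X`: `[ε^j] (R psi1)` -/
noncomputable def ent1 (R : ℚ[X]) (ρ : Row) : ℚ :=
  PowerSeries.coeff ρ.2 (gm ρ.1.val R * psi1 ρ.1)

/-- `T`-entry: `[ε^j] T` -/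
noncomputable def entT (T : ℚ[X]) (ρ : Row) : ℚ := PowerSeries.coeff ρ.2 (gm ρ.1.val T)

/-- `Q`-entry: `[ε^j] (Q g)` -/
noncomputable def entQ (Q : ℚ[X]) (ρ : Row) : ℚ :=
  PowerSeries.coeff ρ.2 (gm ρ.1.val Q * gam ρ.1)

/-- the matrix entry, a polynomial of degree `≤ 1` in `X` (`X` stands for `G`) -/
noncomputable def entry (S : Shape) (u : ℕ) (ρ : Row) : Col S u → ℚ[X]
  | .inl l => C (ent0 (polR S u l) ρ) - X * C (ent1 (polR S u l) ρ)
  | .inr (.inl l) => C (entT (bin l) ρ)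
  | .inr (.inr l) => C (entQ (bin l) ρ)

/-- the square matrix for a choice `r` of the rows -/
noncomputable def Mat (S : Shape) (u : ℕ) (r : Col S u → Row) : Matrix (Col S u) (Col S u) ℚ[X] :=
  Matrix.of fun i j => entry S u (r i) j

/-- the minor for a choice `r` of the rows -/
noncomputable def Minor (S : Shape) (u : ℕ) (r : Col S u → Row) : ℚ[X] := (Mat S u r).det

/-! ### the block statements -/

/-- admissible choice of the rows -/
def Adm (S : Shape) (u c : ℕ) (r : Col S u → Row) : Prop :=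
  Function.Injective r ∧ ∀ i, IsRow S u c (r i)

/-- Catalan's constant, literally the number of `S0006` -/
noncomputable def GG : ℝ := ∑' j : ℕ, (-1 : ℝ) ^ j / ((2 * (j : ℝ) + 1) ^ 2)

/-- P2: some maximal minor does not vanish at `G` (`c` extra rows, `u` large) -/
def NV (S : Shape) (c : ℕ) : Prop :=
  ∀ γ : ℚ, ∀ᶠ u : ℕ in Filter.atTop,
    ∃ r : Col S u → Row, Adm S u c r ∧ (Minor S u r).eval γ ≠ 0

/-- P3: archimedean bound with the exponent `α` -/
def Arch (S : Shape) (c : ℕ) (α : ℝ) : Prop :=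
  ∀ δ : ℝ, 0 < δ → ∀ᶠ u : ℕ in Filter.atTop, ∀ r : Col S u → Row, Adm S u c r →
    |aeval GG (Minor S u r)| ≤ Real.exp ((α + δ) * (u : ℝ) ^ 2)

/-- `E` is a loss at the prime `p` for the polynomial `P` -/
def Loss (p : ℕ) (P : ℚ[X]) (E : ℝ) : Prop :=
  ∀ i, P.coeff i ≠ 0 → -E ≤ (padicValRat p (P.coeff i) : ℝ)

/-- P6, P7: the bound at one prime (`p = 2`, `p = 3`) -/
def AtPrime (S : Shape) (c p : ℕ) (α : ℝ) : Prop :=
  ∀ δ : ℝ, 0 < δ → ∀ᶠ u : ℕ in Filter.atTop, ∀ r : Col S u → Row, Adm S u c r →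
    Loss p (Minor S u r) ((α + δ) * (u : ℝ) ^ 2)

/-- P4 + P5 + P8: the total of the losses at all primes `p ≥ 5` -/
def Odd (S : Shape) (c : ℕ) (α : ℝ) : Prop :=
  ∀ δ : ℝ, 0 < δ → ∀ᶠ u : ℕ in Filter.atTop, ∀ r : Col S u → Row, Adm S u c r →
    ∃ (A : Finset ℕ) (E : ℕ → ℝ), (∀ p ∈ A, p.Prime ∧ 5 ≤ p) ∧
      (∀ p : ℕ, p.Prime → 5 ≤ p → Loss p (Minor S u r) (if p ∈ A then E p else 0)) ∧
      ∑ p ∈ A, E p * Real.log p ≤ (α + δ) * (u : ℝ) ^ 2

/-- P5: the crude bound for all primes `p ≥ 5` -/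
def Crude (S : Shape) (c : ℕ) (K : ℝ) : Prop :=
  ∀ᶠ u : ℕ in Filter.atTop, ∀ r : Col S u → Row, Adm S u c r → ∀ p : ℕ, p.Prime → 5 ≤ p →
    Loss p (Minor S u r) (K * u * (1 + Nat.log p u))

/-- P4: the sharp bound on one strip `lo * u < p ≤ hi * u` -/
def Strip (S : Shape) (c : ℕ) (lo hi : ℚ) (al be : ℝ) : Prop :=
  ∃ C' : ℝ, ∀ᶠ u : ℕ in Filter.atTop, ∀ r : Col S u → Row, Adm S u c r → ∀ p : ℕ, p.Prime →
    (lo : ℝ) * u < p → (p : ℝ) ≤ hi * u → Loss p (Minor S u r) (u * (al + be * (p / u)) + C')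

/-- P4/P5: no loss at the large primes -/
def Large (S : Shape) (c : ℕ) (X' : ℚ) : Prop :=
  ∀ᶠ u : ℕ in Filter.atTop, ∀ r : Col S u → Row, Adm S u c r → ∀ p : ℕ, p.Prime →
    (X' : ℝ) * u < p → Loss p (Minor S u r) 0

end Crest.Agent.R006.D
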