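import Crest.Agent.R006.NVLocal_664

/-!
Row 6, block P2 (nonvanishing): the chains of germs.

* `PsiZ c : ℤ → K⟦X⟧`, germ of `ψ` at the integer `i`, with `PsiZ c 0 = c` (constant);
  `GamZ : ℤ → K⟦X⟧`, germ of `g`, with `GamZ 0 = 1`.
* `PsiH : ℤ → K⟦X⟧`, germ of `ψ_*` at `i + 1/2`, with `PsiH (-1) = 0`; companion `g = 0`.
-/

set_option autoImplicit false

namespace Crest.Agent.R006.NV

open Polynomial

variable {K : Type*} [Field K]

/-- two-sided recursion `a i * ψ(i+1) + b i * ψ(i) = c i` from `ψ 0 = init`. -/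
noncomputable def bi (a b c : ℤ → PowerSeries K) (init : PowerSeries K) : ℤ → PowerSeries K
  | Int.ofNat n => Nat.rec init (fun k x => (c k - b k * x) * (a k)⁻¹) n
  | Int.negSucc n => Nat.rec ((c (-1) - a (-1) * init) * (b (-1))⁻¹)
      (fun k x => (c (-(k : ℤ) - 2) - a (-(k : ℤ) - 2) * x) * (b (-(k : ℤ) - 2))⁻¹) n

lemma bi_zero (a b c : ℤ → PowerSeries K) (init : PowerSeries K) : bi a b c init 0 = init := rfl

lemma bi_succ (a b c : ℤ → PowerSeries K) (init : PowerSeries K) (n : ℕ) :
    bi a b c init (n + 1 : ℕ) = (c n - b n * bi a b c init n) * (a n)⁻¹ := rfl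

lemma bi_negOne (a b c : ℤ → PowerSeries K) (init : PowerSeries K) :
    bi a b c init (-1) = (c (-1) - a (-1) * init) * (b (-1))⁻¹ := rfl

lemma bi_negSucc (a b c : ℤ → PowerSeries K) (init : PowerSeries K) (n : ℕ) :
    bi a b c init (Int.negSucc (n + 1)) =
      (c (-(n : ℤ) - 2) - a (-(n : ℤ) - 2) * bi a b c init (Int.negSucc n)) *
        (b (-(n : ℤ) - 2))⁻¹ := rfl

theorem bi_step {a b c : ℤ → PowerSeries K} {init : PowerSeries K}
    (ha : ∀ i : ℤ, 0 ≤ i → PowerSeries.constantCoeff (a i) ≠ 0)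
    (hb : ∀ i : ℤ, i < 0 → PowerSeries.constantCoeff (b i) ≠ 0) (i : ℤ) :
    a i * bi a b c init (i + 1) + b i * bi a b c init i = c i := by
  rcases lt_or_ge i 0 with h | h
  · obtain ⟨n, rfl⟩ : ∃ n : ℕ, i = Int.negSucc n := by
      cases i with
      | ofNat n => exact absurd h (by simp)
      | negSucc n => exact ⟨n, rfl⟩
    have hb' := hb _ h
    cases n with
    | zero =>
      have e1 : (Int.negSucc 0 + 1 : ℤ) = 0 := rfl
      have e2 : (Int.negSucc 0 : ℤ) = -1 := rfl
      rw [e1, e2, bi_zero, bi_negOne]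
      rw [e2] at hb'
      have := PowerSeries.mul_inv_cancel (b (-1)) hb'
      linear_combination (c (-1) - a (-1) * init) * this
    | succ n =>
      have e1 : (Int.negSucc (n + 1) + 1 : ℤ) = Int.negSucc n := by
        rw [Int.negSucc_eq, Int.negSucc_eq]; push_cast; ring
      have e2 : (Int.negSucc (n + 1) : ℤ) = -(n : ℤ) - 2 := by
        rw [Int.negSucc_eq]; push_cast; ring
      rw [e1, bi_negSucc]
      rw [e2] at hb' ⊢
      have := PowerSeries.mul_inv_cancel (b (-(n : ℤ) - 2)) hb'
      linear_combination (c (-(n : ℤ) - 2) - a (-(n : ℤ) - 2) * bi a b c init (Int.negSucc n)) * this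
  · obtain ⟨n, rfl⟩ := Int.eq_ofNat_of_zero_le h
    have e1 : ((n : ℤ) + 1) = ((n + 1 : ℕ) : ℤ) := by push_cast; rfl
    rw [e1, bi_succ]
    have := PowerSeries.mul_inv_cancel (a (n : ℤ)) (ha _ h)
    linear_combination (c n - b n * bi a b c init n) * this

lemma constantCoeff_pt (s : K) : PowerSeries.constantCoeff (pt s) = s := by
  simp [pt]

lemma constantCoeff_two : PowerSeries.constantCoeff (2 : PowerSeries K) = (2 : K) :=
  map_ofNat PowerSeries.constantCoeff 2

/-- germ of `ψ` at the integers, `ψ = c` at `0`. -/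
noncomputable def PsiZ (c : K) : ℤ → PowerSeries K :=
  bi (fun i => pt ((i : K) + 1) ^ 3) (fun i => (2 * pt (i : K) + 1) ^ 3)
    (fun i => -(PowerSeries.C (1 / 2) * (3 * pt (i : K) + 2))) (PowerSeries.C c)

/-- germ of `g` at the integers, `g = 1` at `0`. -/
noncomputable def GamZ : ℤ → PowerSeries K :=
  bi (fun i => pt ((i : K) + 1) ^ 2) (fun i => -(PowerSeries.C (1 / 4) * (2 * pt (i : K) + 1) ^ 2))
    (fun _ => 0) 1

/-- germ of `ψ_*` at `i - 1/2`, zero at `-1/2` (index `0`). -/
noncomputable def PsiH0 : ℤ → PowerSeries K :=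
  bi (fun i => pt ((i : K) - 1 / 2 + 1) ^ 3) (fun i => (2 * pt ((i : K) - 1 / 2) + 1) ^ 3)
    (fun i => -(PowerSeries.C (1 / 2) * (3 * pt ((i : K) - 1 / 2) + 2))) 0

lemma PsiZ_zero (c : K) : PsiZ c 0 = PowerSeries.C c := rfl
lemma GamZ_zero : (GamZ 0 : PowerSeries K) = 1 := rfl
lemma PsiH0_zero : (PsiH0 0 : PowerSeries K) = 0 := rfl

variable [CharZero K]

theorem step_Z (c : K) (i : ℤ) :
    Step (i : K) (PsiZ c i) (GamZ i) (PsiZ c (i + 1)) (GamZ (i + 1)) := by
  constructor
  · apply bi_step (K := K) (a := fun i => pt ((i : K) + 1) ^ 3)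
      (b := fun i => (2 * pt (i : K) + 1) ^ 3)
    · intro i hi
      rw [map_pow, constantCoeff_pt]
      apply pow_ne_zero
      have : ((i + 1 : ℤ) : K) ≠ 0 := by
        exact_mod_cast (by omega : (i + 1 : ℤ) ≠ 0)
      push_cast at this
      exact this
    · intro i hi
      rw [map_pow, map_add, map_mul, constantCoeff_pt, constantCoeff_two, map_one]
      apply pow_ne_zero
      have : ((2 * i + 1 : ℤ) : K) ≠ 0 := by
        exact_mod_cast (by omega : (2 * i + 1 : ℤ) ≠ 0)
      push_cast at this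
      exact this
  · have := bi_step (K := K) (a := fun i => pt ((i : K) + 1) ^ 2)
      (b := fun i => -(PowerSeries.C (1 / 4) * (2 * pt (i : K) + 1) ^ 2)) (c := fun _ => 0)
      (init := 1) ?_ ?_ i
    · have e : bi (fun i => pt ((i : K) + 1) ^ 2)
        (fun i => -(PowerSeries.C (1 / 4) * (2 * pt (i : K) + 1) ^ 2)) (fun _ => 0) 1 = GamZ := rfl
      rw [e] at this
      linear_combination this
    · intro i hi
      rw [map_pow, constantCoeff_pt]
      apply pow_ne_zero
      have : ((i + 1 : ℤ) : K) ≠ 0 := by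
        exact_mod_cast (by omega : (i + 1 : ℤ) ≠ 0)
      push_cast at this
      exact this
    · intro i hi
      rw [map_neg, map_mul, PowerSeries.constantCoeff_C, map_pow, map_add, map_mul,
        constantCoeff_pt, constantCoeff_two, map_one]
      apply neg_ne_zero.mpr
      apply mul_ne_zero (by norm_num)
      apply pow_ne_zero
      have : ((2 * i + 1 : ℤ) : K) ≠ 0 := by
        exact_mod_cast (by omega : (2 * i + 1 : ℤ) ≠ 0)
      push_cast at this
      exact this

theorem step_H0 (i : ℤ) :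
    Step ((i : K) - 1 / 2) (PsiH0 i) 0 (PsiH0 (i + 1)) 0 := by
  constructor
  · apply bi_step (K := K) (a := fun i => pt ((i : K) - 1 / 2 + 1) ^ 3)
      (b := fun i => (2 * pt ((i : K) - 1 / 2) + 1) ^ 3)
    · intro i hi
      rw [map_pow, constantCoeff_pt]
      apply pow_ne_zero
      have : ((2 * i + 1 : ℤ) : K) ≠ 0 := by
        exact_mod_cast (by omega : (2 * i + 1 : ℤ) ≠ 0)
      push_cast at this
      intro h
      apply this
      linear_combination 2 * h
    · intro i hi
      rw [map_pow, map_add, map_mul, constantCoeff_pt, constantCoeff_two, map_one]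
      apply pow_ne_zero
      have : ((2 * i : ℤ) : K) ≠ 0 := by
        exact_mod_cast (by omega : (2 * i : ℤ) ≠ 0)
      push_cast at this
      intro h
      apply this
      linear_combination h
  · simp

/-- germ of `ψ_*` at `i + 1/2`. -/
noncomputable def PsiH (i : ℤ) : PowerSeries K := PsiH0 (i + 1)

theorem step_H (i : ℤ) :
    Step ((i : K) + 1 / 2) (PsiH i) 0 (PsiH (i + 1)) 0 := by
  have h := step_H0 (K := K) (i + 1)
  have e : (((i + 1 : ℤ) : K) - 1 / 2) = (i : K) + 1 / 2 := by
    push_cast; ring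
  rw [e] at h
  exact h

/-- germ of `g^-` at `i - 1/2`, constant `lam` at `-1/2` (index `0`); double zeros on the right. -/
noncomputable def GamH0 (lam : K) : ℤ → PowerSeries K :=
  bi (fun i => pt ((i : K) - 1 / 2 + 1) ^ 2)
    (fun i => -(PowerSeries.C (1 / 4) * (2 * pt ((i : K) - 1 / 2) + 1) ^ 2))
    (fun _ => 0) (PowerSeries.C lam)

omit [CharZero K] in
lemma GamH0_zero (lam : K) : (GamH0 lam 0 : PowerSeries K) = PowerSeries.C lam := rfl

/-- the half-integer chain with a nonzero second germ -/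
theorem step_HG0 (lam : K) (i : ℤ) :
    Step ((i : K) - 1 / 2) (PsiH0 i) (GamH0 lam i) (PsiH0 (i + 1)) (GamH0 lam (i + 1)) := by
  constructor
  · exact (step_H0 i).psi
  · have := bi_step (K := K) (a := fun i => pt ((i : K) - 1 / 2 + 1) ^ 2)
      (b := fun i => -(PowerSeries.C (1 / 4) * (2 * pt ((i : K) - 1 / 2) + 1) ^ 2))
      (c := fun _ => 0) (init := PowerSeries.C lam) ?_ ?_ i
    · have e : bi (fun i => pt ((i : K) - 1 / 2 + 1) ^ 2)
        (fun i => -(PowerSeries.C (1 / 4) * (2 * pt ((i : K) - 1 / 2) + 1) ^ 2)) (fun _ => 0)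
        (PowerSeries.C lam) = GamH0 lam := rfl
      rw [e] at this
      linear_combination this
    · intro i hi
      rw [map_pow, constantCoeff_pt]
      apply pow_ne_zero
      have : ((2 * i + 1 : ℤ) : K) ≠ 0 := by
        exact_mod_cast (by omega : (2 * i + 1 : ℤ) ≠ 0)
      push_cast at this
      intro h
      apply this
      linear_combination 2 * h
    · intro i hi
      rw [map_neg, map_mul, PowerSeries.constantCoeff_C, map_pow, map_add, map_mul,
        constantCoeff_pt, constantCoeff_two, map_one]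
      apply neg_ne_zero.mpr
      apply mul_ne_zero (by norm_num)
      apply pow_ne_zero
      have : ((2 * i : ℤ) : K) ≠ 0 := by
        exact_mod_cast (by omega : (2 * i : ℤ) ≠ 0)
      push_cast at this
      intro h
      apply this
      linear_combination h

/-- germ of `g^-` at `i + 1/2`. -/
noncomputable def GamH (lam : K) (i : ℤ) : PowerSeries K := GamH0 lam (i + 1)

theorem step_HG (lam : K) (i : ℤ) :
    Step ((i : K) + 1 / 2) (PsiH i) (GamH lam i) (PsiH (i + 1)) (GamH lam (i + 1)) := by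
  have h := step_HG0 lam (i + 1)
  have e : (((i + 1 : ℤ) : K) - 1 / 2) = (i : K) + 1 / 2 := by
    push_cast; ring
  rw [e] at h
  exact h

/-- for `lam = 0` the second germ is zero -/
lemma GamH0_lam_zero (i : ℤ) : (GamH0 0 i : PowerSeries K) = 0 := by
  rcases i with n | n
  · have : ∀ n : ℕ, (GamH0 0 (n : ℤ) : PowerSeries K) = 0 := by
      intro n
      induction n with
      | zero =>
        have : (GamH0 0 ((0 : ℕ) : ℤ) : PowerSeries K) = PowerSeries.C 0 := rfl
        rw [this, map_zero]
      | succ n ih =>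
        unfold GamH0 at ih ⊢
        rw [bi_succ, ih]; simp
    exact this n
  · have : ∀ n : ℕ, (GamH0 0 (Int.negSucc n) : PowerSeries K) = 0 := by
      intro n
      induction n with
      | zero =>
        have e : (Int.negSucc 0 : ℤ) = -1 := rfl
        unfold GamH0
        rw [e, bi_negOne]; simp
      | succ n ih =>
        unfold GamH0 at ih ⊢
        rw [bi_negSucc, ih]; simp
    exact this n

lemma GamH_lam_zero (i : ℤ) : (GamH 0 i : PowerSeries K) = 0 := GamH0_lam_zero _

end Crest.Agent.R006.NV
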