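import Crest.Agent.R006.NVDefs_664

/-!
Row 6, block P2 (nonvanishing): behaviour at infinity.

`pinf M = s^M * (truncation at s^{-M} of the formal solution ψ_∞)`, a polynomial.
`natDegree_DD_le`: degree bound for the Casoratian.
-/

set_option autoImplicit false

namespace Crest.Agent.R006.NV

open Polynomial

variable {K : Type*} [Field K]

lemma two_eq_C : (2 : K[X]) = C 2 := (map_ofNat C 2).symm

lemma three_eq_C : (3 : K[X]) = C 3 := (map_ofNat C 3).symm

lemma nd_sub {p q : K[X]} {n : ℕ} (hp : natDegree p ≤ n) (hq : natDegree q ≤ n) :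
    natDegree (p - q) ≤ n := (natDegree_sub_le p q).trans (max_le hp hq)

lemma nd_mul {p q : K[X]} {m n k : ℕ} (hp : natDegree p ≤ m) (hq : natDegree q ≤ n)
    (h : m + n ≤ k) : natDegree (p * q) ≤ k := (natDegree_mul_le_of_le hp hq).trans h

lemma natDegree_two_X_add_one : natDegree (2 * X + 1 : K[X]) ≤ 1 := by
  have : (2 * X + 1 : K[X]) = C 2 * X + C 1 := by rw [two_eq_C, C_1]
  rw [this]; exact natDegree_linear_le

lemma natDegree_X_add_one : natDegree (X + 1 : K[X]) = 1 := by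
  have : (X + 1 : K[X]) = X + C 1 := by rw [C_1]
  rw [this]; exact natDegree_X_add_C (1 : K)

lemma X_add_one_ne_zero : (X + 1 : K[X]) ≠ 0 := by
  intro h
  have := natDegree_X_add_one (K := K)
  rw [h] at this
  simp at this

lemma nd_pow {p : K[X]} {n : ℕ} (k : ℕ) (hp : natDegree p ≤ 1) (h : k ≤ n) :
    natDegree (p ^ k) ≤ n := (natDegree_pow_le_of_le k hp).trans (by omega)

/-- error of the recurrence for `p = s^M ψ(s)` (cleared) -/
noncomputable def EE (M : ℕ) (p : K[X]) : K[X] :=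
  (2 * X + 1) ^ 3 * (X + 1) ^ M * p + X ^ M * (X + 1) ^ 3 * taylor 1 p
    + C (1 / 2) * (3 * X + 2) * X ^ M * (X + 1) ^ M

/-- `pinf M = s^M ψ_M(s)` where `ψ_M` is the truncation of the formal solution at infinity;
`pinf (M+1) = s * pinf M + c_{M+1}`. -/
noncomputable def pinf : ℕ → K[X]
  | 0 => 0
  | M + 1 => X * pinf M + C (-(1 / 9) * (EE M (pinf M)).coeff (M + 2))

/-- the coefficients of the formal solution `ψ_∞ = ∑ cinf k / s^k` -/
noncomputable def cinf : ℕ → K
  | 0 => 0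
  | M + 1 => -(1 / 9) * (EE M (pinf M)).coeff (M + 2)

lemma pinf_succ (M : ℕ) : (pinf (M + 1) : K[X]) = X * pinf M + C (cinf (M + 1)) := rfl

lemma EE_succ (M : ℕ) (p : K[X]) (c : K) :
    EE (M + 1) (X * p + C c) = X * (X + 1) * EE M p
      + C c * ((2 * X + 1) ^ 3 * (X + 1) ^ (M + 1) + X ^ (M + 1) * (X + 1) ^ 3) := by
  unfold EE
  have e : taylor 1 (X * p + C c) = (X + 1) * taylor 1 p + C c := by
    simp [taylor_mul]
  rw [e]
  ring

lemma bracket_natDegree (M : ℕ) :
    natDegree ((2 * X + 1) ^ 3 * (X + 1) ^ (M + 1) + X ^ (M + 1) * (X + 1) ^ 3 : K[X]) ≤ M + 4 := by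
  apply natDegree_add_le_of_degree_le
  · exact nd_mul (nd_pow 3 natDegree_two_X_add_one le_rfl)
      (nd_pow (M + 1) natDegree_X_add_one.le le_rfl) (by omega)
  · exact nd_mul (natDegree_X_pow_le _) (nd_pow 3 natDegree_X_add_one.le le_rfl) (by omega)

lemma coeff_one_two_X_add_one : (2 * X + 1 : K[X]).coeff 1 = 2 := by
  rw [two_eq_C, coeff_add, coeff_C_mul, coeff_X_one, coeff_one]; norm_num

lemma coeff_one_X_add_one : (X + 1 : K[X]).coeff 1 = 1 := by
  rw [coeff_add, coeff_X_one, coeff_one]; norm_num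

lemma bracket_coeff (M : ℕ) :
    ((2 * X + 1) ^ 3 * (X + 1) ^ (M + 1) + X ^ (M + 1) * (X + 1) ^ 3 : K[X]).coeff (M + 4) = 9 := by
  have p2 : ((2 * X + 1 : K[X]) ^ 3).coeff 3 = 8 := by
    have := coeff_pow_of_natDegree_le (m := 3) (natDegree_two_X_add_one (K := K))
    rw [mul_one] at this
    rw [this, coeff_one_two_X_add_one]; norm_num
  have p1 : ∀ k : ℕ, ((X + 1 : K[X]) ^ k).coeff k = 1 := by
    intro k
    have := coeff_pow_of_natDegree_le (m := k) (natDegree_X_add_one (K := K)).le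
    rw [mul_one] at this
    rw [this, coeff_one_X_add_one, one_pow]
  have d1 : ∀ k : ℕ, natDegree ((X + 1 : K[X]) ^ k) ≤ k := fun k =>
    nd_pow k natDegree_X_add_one.le le_rfl
  have d2 : natDegree ((2 * X + 1 : K[X]) ^ 3) ≤ 3 := nd_pow 3 natDegree_two_X_add_one le_rfl
  rw [coeff_add]
  have a1 : ((2 * X + 1) ^ 3 * (X + 1) ^ (M + 1) : K[X]).coeff (M + 4) = 8 := by
    rw [show M + 4 = 3 + (M + 1) by ring, coeff_mul_add_eq_of_natDegree_le d2 (d1 _), p2, p1,
      mul_one]
  have a2 : (X ^ (M + 1) * (X + 1) ^ 3 : K[X]).coeff (M + 4) = 1 := by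
    rw [show M + 4 = (M + 1) + 3 by ring,
      coeff_mul_add_eq_of_natDegree_le (natDegree_X_pow_le _) (d1 _), p1, coeff_X_pow_self, mul_one]
  rw [a1, a2]; norm_num

theorem EE_pinf_natDegree [CharZero K] (M : ℕ) : natDegree (EE M (pinf M : K[X])) ≤ M + 2 := by
  induction M with
  | zero =>
    simp only [EE, pinf, mul_zero, map_zero, add_zero, zero_add, pow_zero, mul_one]
    have : (C (1 / 2) * (3 * X + 2) : K[X]) = C (3 / 2) * X + C 1 := by
      rw [three_eq_C, two_eq_C, mul_add, ← mul_assoc, ← C_mul, ← C_mul]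
      norm_num
    rw [this]
    exact natDegree_linear_le.trans (by omega)
  | succ M ih =>
    rw [pinf_succ, EE_succ]
    have h1 : natDegree (X + 1 : K[X]) ≤ 1 := natDegree_X_add_one.le
    have hX : natDegree (X * (X + 1) : K[X]) ≤ 2 :=
      (natDegree_mul_le_of_le natDegree_X_le h1)
    have hA : natDegree (X * (X + 1) * EE M (pinf M) : K[X]) ≤ M + 4 :=
      (natDegree_mul_le_of_le hX ih).trans (by omega)
    have hB : natDegree (C (cinf (M + 1)) * ((2 * X + 1) ^ 3 * (X + 1) ^ (M + 1)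
        + X ^ (M + 1) * (X + 1) ^ 3) : K[X]) ≤ M + 4 :=
      (natDegree_C_mul_le _ _).trans (bracket_natDegree M)
    have hle : natDegree (X * (X + 1) * EE M (pinf M) + C (cinf (M + 1)) *
        ((2 * X + 1) ^ 3 * (X + 1) ^ (M + 1) + X ^ (M + 1) * (X + 1) ^ 3) : K[X]) ≤ M + 4 :=
      natDegree_add_le_of_degree_le hA hB
    have hc : (X * (X + 1) * EE M (pinf M) + C (cinf (M + 1)) *
        ((2 * X + 1) ^ 3 * (X + 1) ^ (M + 1) + X ^ (M + 1) * (X + 1) ^ 3) : K[X]).coeff (M + 4)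
        = 0 := by
      have cX : (X * (X + 1) : K[X]).coeff 2 = 1 := by
        have : (X * (X + 1) : K[X]) = X ^ 2 + X := by ring
        rw [this]; simp [coeff_X]
      rw [coeff_add, coeff_C_mul, bracket_coeff, show M + 4 = 2 + (M + 2) by ring,
        coeff_mul_add_eq_of_natDegree_le hX ih, cX]
      simp only [cinf]
      have : (9 : K) ≠ 0 := by norm_num
      field_simp
      ring
    by_contra hcon
    push Not at hcon
    have hd : natDegree (X * (X + 1) * EE M (pinf M) + C (cinf (M + 1)) *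
        ((2 * X + 1) ^ 3 * (X + 1) ^ (M + 1) + X ^ (M + 1) * (X + 1) ^ 3) : K[X]) = M + 4 := by
      omega
    have hne : (X * (X + 1) * EE M (pinf M) + C (cinf (M + 1)) *
        ((2 * X + 1) ^ 3 * (X + 1) ^ (M + 1) + X ^ (M + 1) * (X + 1) ^ 3) : K[X]) ≠ 0 := by
      intro h0
      rw [h0] at hd
      simp at hd
    have := leadingCoeff_ne_zero.mpr hne
    rw [leadingCoeff, hd] at this
    exact this hc

/-- `F` at infinity, scaled by `s^M`. -/
noncomputable def Finf (M : ℕ) (R T : K[X]) : K[X] := pinf M * R - X ^ M * T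

lemma Finf_shift (M : ℕ) (R T : K[X]) :
    (X + 1) ^ M * Finf M (sR R) (sT R T) =
      X ^ M * (X + 1) ^ 3 * taylor 1 (Finf M R T) - taylor 1 R * EE M (pinf M) := by
  unfold Finf sR sT EE
  have e : taylor 1 (pinf M * R - X ^ M * T) =
      taylor 1 (pinf M) * taylor 1 R - (X + 1) ^ M * taylor 1 T := by
    simp [taylor_mul]
  rw [e]
  ring

lemma natDegree_sR {R : K[X]} {ρ : ℕ} (h : natDegree R ≤ ρ) : natDegree (sR R) ≤ ρ + 3 := by
  unfold sR
  rw [natDegree_neg]
  refine (natDegree_mul_le_of_le (m := 3) (n := ρ) ?_ ?_).trans (by omega)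
  · exact (natDegree_pow_le_of_le 3 natDegree_two_X_add_one).trans (by omega)
  · rw [natDegree_taylor]; exact h

lemma natDegree_sQ {Q : K[X]} {κ : ℕ} (h : natDegree Q ≤ κ) : natDegree (sQ Q) ≤ κ + 3 := by
  unfold sQ
  refine (natDegree_mul_le_of_le (m := 3) (n := κ) ?_ ?_).trans (by omega)
  · refine (natDegree_mul_le_of_le (m := 1) (n := 2) ?_ ?_).trans (by omega)
    · exact (natDegree_C_mul_le _ _).trans natDegree_X_add_one.le
    · exact (natDegree_pow_le_of_le 2 natDegree_two_X_add_one).trans (by omega)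
  · rw [natDegree_taylor]; exact h

lemma natDegree_Finf_shift [CharZero K] {M ρ δ : ℕ} (hM : ρ ≤ M + δ) {R T : K[X]}
    (hR : natDegree R ≤ ρ)
    (hF : natDegree (Finf M R T) ≤ M + δ) :
    natDegree (Finf M (sR R) (sT R T)) ≤ M + (δ + 3) := by
  by_cases h0 : Finf M (sR R) (sT R T) = 0
  · rw [h0]; simp
  have e := Finf_shift M R T
  have hX : natDegree ((X + 1 : K[X]) ^ M) = M := by
    rw [natDegree_pow, natDegree_X_add_one, mul_one]
  have h1 : natDegree ((X + 1) ^ M * Finf M (sR R) (sT R T)) =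
      M + natDegree (Finf M (sR R) (sT R T)) := by
    rw [natDegree_mul (pow_ne_zero _ X_add_one_ne_zero) h0, hX]
  have h2 : natDegree ((X + 1) ^ M * Finf M (sR R) (sT R T)) ≤ M + (M + (δ + 3)) := by
    rw [e]
    apply nd_sub
    · refine nd_mul (m := M + 3) (n := M + δ) ?_ ?_ (by omega)
      · exact nd_mul (natDegree_X_pow_le _) (nd_pow 3 natDegree_X_add_one.le le_rfl) le_rfl
      · rw [natDegree_taylor]; exact hF
    · refine nd_mul (m := ρ) (n := M + 2) ?_ (EE_pinf_natDegree M) (by omega)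
      rw [natDegree_taylor]; exact hR
  omega

lemma natDegree_det3_le {r0 t0 q0 r1 t1 q1 r2 t2 q2 : K[X]} {a b c : ℕ}
    (h0 : natDegree r0 ≤ a) (h1 : natDegree r1 ≤ a + 3) (h2 : natDegree r2 ≤ a + 6)
    (k0 : natDegree t0 ≤ b) (k1 : natDegree t1 ≤ b + 3) (k2 : natDegree t2 ≤ b + 6)
    (l0 : natDegree q0 ≤ c) (l1 : natDegree q1 ≤ c + 3) (l2 : natDegree q2 ≤ c + 6) :
    natDegree (det3 r0 t0 q0 r1 t1 q1 r2 t2 q2) ≤ a + b + c + 9 := by
  unfold det3
  have m : ∀ {x y z : K[X]} {i j k : ℕ}, natDegree x ≤ i → natDegree y ≤ j → natDegree z ≤ k →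
      natDegree (x * (y * z)) ≤ i + j + k := by
    intro x y z i j k hx hy hz
    refine (natDegree_mul_le_of_le hx (natDegree_mul_le_of_le hy hz)).trans (by omega)
  apply natDegree_add_le_of_degree_le
  · apply nd_sub
    · rw [mul_sub]
      apply nd_sub
      · exact (m h0 k1 l2).trans (by omega)
      · exact (m h0 k2 l1).trans (by omega)
    · rw [mul_sub]
      apply nd_sub
      · exact (m k0 h1 l2).trans (by omega)
      · exact (m k0 h2 l1).trans (by omega)
  · rw [mul_sub]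
    apply nd_sub
    · exact (m l0 h1 k2).trans (by omega)
    · exact (m l0 h2 k1).trans (by omega)

/-- **degree bound** for the 3x3 Casoratian -/
theorem natDegree_DD_le [CharZero K] {M ρ δ κ : ℕ} (hM : ρ ≤ M + δ) {R T Q : K[X]}
    (hR : natDegree R ≤ ρ) (hF : natDegree (Finf M R T) ≤ M + δ) (hQ : natDegree Q ≤ κ) :
    natDegree (DD R T Q) ≤ ρ + δ + κ + 9 := by
  by_cases h0 : DD R T Q = 0
  · rw [h0]; simp
  have F1 := natDegree_Finf_shift hM hR hF
  have R1 := natDegree_sR hR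
  have F2 := natDegree_Finf_shift (by omega) R1 F1
  have R2 := natDegree_sR R1
  have Q1 := natDegree_sQ hQ
  have Q2 := natDegree_sQ Q1
  have e : X ^ M * DD R T Q =
      -det3 R (Finf M R T) Q (sR R) (Finf M (sR R) (sT R T)) (sQ Q)
        (sR (sR R)) (Finf M (sR (sR R)) (sT (sR R) (sT R T))) (sQ (sQ Q)) := by
    unfold DD det3 Finf
    ring
  have h1 : natDegree (X ^ M * DD R T Q) = M + natDegree (DD R T Q) := by
    rw [natDegree_mul (pow_ne_zero _ X_ne_zero) h0, natDegree_X_pow]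
  have h2 : natDegree (X ^ M * DD R T Q) ≤ ρ + (M + δ) + κ + 9 := by
    rw [e, natDegree_neg]
    apply natDegree_det3_le hR R1 R2 hF (F1.trans (by omega)) (F2.trans (by omega)) hQ Q1 Q2
  omega

/-- degree bound for the 2x2 Casoratian of `(R,T)` -/
theorem natDegree_DRT_le [CharZero K] {M ρ δ : ℕ} (hM : ρ ≤ M + δ) {R T : K[X]}
    (hR : natDegree R ≤ ρ) (hF : natDegree (Finf M R T) ≤ M + δ) :
    natDegree (DRT R T) ≤ ρ + δ + 3 := by
  by_cases h0 : DRT R T = 0
  · rw [h0]; simp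
  have F1 := natDegree_Finf_shift hM hR hF
  have R1 := natDegree_sR hR
  have e : X ^ M * DRT R T = Finf M R T * sR R - R * Finf M (sR R) (sT R T) := by
    unfold DRT Finf
    ring
  have h1 : natDegree (X ^ M * DRT R T) = M + natDegree (DRT R T) := by
    rw [natDegree_mul (pow_ne_zero _ X_ne_zero) h0, natDegree_X_pow]
  have h2 : natDegree (X ^ M * DRT R T) ≤ M + (ρ + δ + 3) := by
    rw [e]
    apply nd_sub
    · exact (natDegree_mul_le_of_le hF R1).trans (by omega)
    · exact (natDegree_mul_le_of_le hR F1).trans (by omega)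
  omega

/-- degree bound for the 2x2 Casoratian of `(T,Q)` -/
theorem natDegree_DTQ_le {δ κ : ℕ} {T Q : K[X]}
    (hT : natDegree T ≤ δ) (hQ : natDegree Q ≤ κ) :
    natDegree (DTQ T Q) ≤ δ + κ + 3 := by
  have Q1 := natDegree_sQ hQ
  have T1 : natDegree (sT 0 T) ≤ δ + 3 := by
    unfold sT
    simp only [map_zero, mul_zero, add_zero]
    refine (natDegree_mul_le_of_le (m := 3) (n := δ) ?_ ?_).trans (by omega)
    · exact (natDegree_pow_le_of_le 3 natDegree_X_add_one.le).trans (by omega)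
    · rw [natDegree_taylor]; exact hT
  unfold DTQ
  apply nd_sub
  · exact (natDegree_mul_le_of_le hT Q1).trans (by omega)
  · exact (natDegree_mul_le_of_le hQ T1).trans (by omega)

end Crest.Agent.R006.NV
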