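import Crest.Agent.R006.Lam_89
import Crest.Agent.R006.NVChain_664
import Crest.Agent.R006.NVInf_664

/-!
# Row 6: frozen definitions (draft, helper89)

Pole-free form (710). Everything over a field `K` of characteristic zero with a value `c : K` of
Catalan's constant.

* sites `k : ℤ` in doubled coordinates, position `k/2`;
* germs: `psiG c k`, `gG k` : integer chain (`ψ(0) = -c`, `g(0) = 1`) for even `k`, half chain
  (`ψ(-1/2) = 0`, `g(-1/2) = 1`) for odd `k`;
* `F = R ψ - T - Q g`.
-/

set_option autoImplicit false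

namespace Crest.Agent.R006

open Polynomial

variable {K : Type*} [Field K]

/-- germ of `g` at `i - 1/2`, value `1` at `-1/2` (index `0`) -/
noncomputable def GamH0 : ℤ → PowerSeries K :=
  NV.bi (fun i => NV.pt ((i : K) - 1 / 2 + 1) ^ 2)
    (fun i => -(PowerSeries.C (1 / 4) * (2 * NV.pt ((i : K) - 1 / 2) + 1) ^ 2)) (fun _ => 0) 1

/-- germ of `ψ` at the site `k/2` -/
noncomputable def psiG (c : K) (k : ℤ) : PowerSeries K :=
  if k % 2 = 0 then NV.PsiZ (-c) (k / 2) else NV.PsiH0 ((k + 1) / 2)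

/-- germ of `g` at the site `k/2` -/
noncomputable def gG (k : ℤ) : PowerSeries K :=
  if k % 2 = 0 then NV.GamZ (k / 2) else GamH0 ((k + 1) / 2)

/-- polynomial part of `R ψ_∞` -/
noncomputable def Tpart (R : K[X]) : K[X] :=
  R.sum fun n a => ∑ i ∈ Finset.range (n + 1), C (a * NV.cinf i) * X ^ (n - i)

/-- germ at the site `k/2` of `F = R ψ - T - Q g` -/
noncomputable def Fgerm (c : K) (R T Q : K[X]) (k : ℤ) : PowerSeries K :=
  Lam.germ ((k : K) / 2) R * psiG c k - Lam.germ ((k : K) / 2) T
    - Lam.germ ((k : K) / 2) Q * gG k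

/-- Design numbers (actual lengths, not units). Sites are the `k/2`, `lo ≤ k ≤ hi`;
G-nodes `0..B-1` are simple, `E m` is the multiplicity of `-m` (`m ≥ 1`), `H l` the one of `l+1/2`,
`W l` the one of `-l-1/2` (`l ≥ 0`); `R ∈ rhoR · Poly_{<A}`, `Q ∈ rhoQ · Poly_{<Kq}`, `q` free
polynomial columns, `c0` unit vector columns (bordering). -/
structure Design where
  B : ℕ
  E : ℕ → ℕ
  H : ℕ → ℕ
  W : ℕ → ℕ
  /-- bound for all doubled positions -/
  L : ℕ
  rhoR : ℚ[X]
  rhoQ : ℚ[X]
  A : ℕ
  q : ℕ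
  Kq : ℕ
  c0 : ℕ

namespace Design

variable (D : Design)

/-- multiplicity of the site `k/2` -/
def mult (k : ℤ) : ℕ :=
  if k % 2 = 0 then
    if 0 ≤ k then (if k / 2 < D.B then 1 else 0) else D.E (-(k / 2)).toNat
  else
    if 0 ≤ k then D.H (k / 2).toNat else D.W (-(k + 1) / 2).toNat

/-- the sites -/
abbrev Site : Type := {k : ℤ // k ∈ Finset.Icc (-(D.L : ℤ)) D.L}

/-- position of a site -/
def pos (K : Type*) [Field K] (k : D.Site) : K := ((k : ℤ) : K) / 2

/-- multiplicities as a function on sites -/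
def m (k : D.Site) : ℕ := D.mult k

/-- rows `(k,j)`, `j < m k` -/
abbrev Row : Type := Lam.Row D.m

/-- all columns which are not free polynomials: `R`-block, `Q`-block, unit vectors -/
abbrev Col : Type := Fin D.A ⊕ Fin D.Kq ⊕ Fin D.c0

/-- columns over a field with value `c` of `G`; `bR`, `bQ` are families of polynomials
(monic of degree `l` in the applications), `J` the rows of the unit vectors. -/
noncomputable def colK (K : Type*) [Field K] [CharZero K] (c : K) (bR bQ : ℕ → K[X])
    (J : Fin D.c0 → D.Row) : D.Col → D.Site → PowerSeries K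
  | Sum.inl l => fun k =>
      Fgerm c (D.rhoR.map (Rat.castHom K) * bR l) (Tpart (D.rhoR.map (Rat.castHom K) * bR l)) 0 k
  | Sum.inr (Sum.inl l) => fun k => Fgerm c 0 0 (D.rhoQ.map (Rat.castHom K) * bQ l) k
  | Sum.inr (Sum.inr i) => Lam.unitCol D.m K (J i)

/-- the same over `ℚ[X]`, `X` in place of `G` (affine in `X`) -/
noncomputable def colX (J : Fin D.c0 → D.Row) (c : D.Col) (k : D.Site) :
    PowerSeries (ℚ[X]) :=
  let f0 := D.colK ℚ 0 (fun l => X ^ l) (fun l => X ^ l) J c k
  let f1 := D.colK ℚ 1 (fun l => X ^ l) (fun l => X ^ l) J c k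
  PowerSeries.map C f0 + PowerSeries.C X * PowerSeries.map C (f1 - f0)

/-- position of a column/row label -/
def colIdx : D.Col → ℕ
  | Sum.inl l => l
  | Sum.inr (Sum.inl l) => D.A + l
  | Sum.inr (Sum.inr i) => D.A + D.Kq + i

/-- **the determinant**, a polynomial in `X` (`X` = Catalan's constant), in the residue form:
rows = test polynomials `X^k`, `k < A + Kq + c0`. -/
noncomputable def Delta (J : Fin D.c0 → D.Row) : ℚ[X] :=
  (Matrix.of fun (k c : D.Col) =>
    Lam.lam (D.pos ℚ) D.m (X ^ (D.colIdx k)) (D.colX J c)).det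

end Design

end Crest.Agent.R006
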