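import Mathlib

set_option autoImplicit false

/-!
# Row 6, block P3: scaled Leibniz bound and the bordered matrix (helper885)

* `norm_det_le_scaled`  : `‖M i j‖ ≤ x i * y j` for all `i j` implies
  `‖det M‖ ≤ n! * ∏ x * ∏ y`.
* `norm_det_add_mul_le` : for `A : n × n`, `U : n × m`, `V : m × n` with
  `‖A i c‖ ≤ r i * a c`, `‖U i k‖ ≤ r i * μ k`, `‖V k c‖ ≤ ν k * a c`:
  `‖det (A + U * V)‖ ≤ (n + m)! * ∏ r * ∏ a * ∏ max 1 (μ k * ν k)`.
-/

namespace Crest.Agent.R006.DetBoundx885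

open Finset Matrix

variable {n m : Type*} [Fintype n] [DecidableEq n] [Fintype m] [DecidableEq m]

/-- scaled Leibniz bound -/
theorem norm_det_le_scaled {R : Type*} [NormedCommRing R] [NormOneClass R]
    (M : Matrix n n R) (x y : n → ℝ)
    (h : ∀ i j, ‖M i j‖ ≤ x i * y j) :
    ‖M.det‖ ≤ (Fintype.card n).factorial * ((∏ i, x i) * ∏ j, y j) := by
  rw [Matrix.det_apply]
  refine (norm_sum_le _ _).trans ?_
  have hterm : ∀ σ ∈ (Finset.univ : Finset (Equiv.Perm n)),
      ‖Equiv.Perm.sign σ • ∏ i, M (σ i) i‖ ≤ (∏ i, x i) * ∏ j, y j := by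
    intro σ _
    have h1 : ‖Equiv.Perm.sign σ • ∏ i, M (σ i) i‖ = ‖∏ i, M (σ i) i‖ := by
      rcases Int.units_eq_one_or (Equiv.Perm.sign σ) with hs | hs <;> simp [hs]
    rw [h1]
    refine (Finset.norm_prod_le _ _).trans ?_
    calc ∏ i, ‖M (σ i) i‖ ≤ ∏ i, (x (σ i) * y i) :=
          Finset.prod_le_prod (fun i _ => norm_nonneg _) (fun i _ => h (σ i) i)
      _ = (∏ i, x (σ i)) * ∏ i, y i := Finset.prod_mul_distrib
      _ = (∏ i, x i) * ∏ j, y j := by rw [Equiv.prod_comp σ x]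
  refine (Finset.sum_le_sum hterm).trans ?_
  rw [Finset.sum_const, Finset.card_univ, Fintype.card_perm, nsmul_eq_mul]

/-- **Bordered bound.** `m` rank one pieces are used at most once each. -/
theorem norm_det_add_mul_le {R : Type*} [NormedCommRing R] [NormOneClass R]
    (A : Matrix n n R) (U : Matrix n m R) (V : Matrix m n R)
    (r a : n → ℝ) (μ ν : m → ℝ) (hr : ∀ i, 0 ≤ r i) (ha : ∀ i, 0 ≤ a i) (hμ : ∀ k, 0 < μ k)
    (hν : ∀ k, 0 ≤ ν k)
    (hA : ∀ i c, ‖A i c‖ ≤ r i * a c) (hU : ∀ i k, ‖U i k‖ ≤ r i * μ k)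
    (hV : ∀ k c, ‖V k c‖ ≤ ν k * a c) :
    ‖(A + U * V).det‖ ≤ (Fintype.card n + Fintype.card m).factorial *
      ((∏ i, r i) * (∏ c, a c) * ∏ k, max 1 (μ k * ν k)) := by
  have hdet : (A + U * V).det = (Matrix.fromBlocks A U (-V) 1).det := by
    rw [Matrix.det_fromBlocks_one₂₂]
    simp
  rw [hdet]
  -- scales
  let x : n ⊕ m → ℝ := Sum.elim r (fun k => max (ν k) (1 / μ k))
  let y : n ⊕ m → ℝ := Sum.elim a μ
  have hx : ∀ i, 0 ≤ x i := by
    rintro (i | k)
    · exact hr i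
    · exact (hν k).trans (le_max_left _ _)
  have hM : ∀ i j, ‖Matrix.fromBlocks A U (-V) (1 : Matrix m m R) i j‖ ≤ x i * y j := by
    rintro (i | k) (c | l)
    · simpa [x, y] using hA i c
    · simpa [x, y] using hU i l
    · simp only [Matrix.fromBlocks_apply₂₁, Matrix.neg_apply, norm_neg, x, y, Sum.elim_inl,
        Sum.elim_inr]
      exact (hV k c).trans (mul_le_mul_of_nonneg_right (le_max_left _ _) (ha c))
    · simp only [Matrix.fromBlocks_apply₂₂, x, y, Sum.elim_inr]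
      by_cases hkl : k = l
      · subst hkl
        rw [Matrix.one_apply_eq, norm_one]
        calc (1 : ℝ) = (1 / μ k) * μ k := by field_simp [(hμ k).ne']
          _ ≤ max (ν k) (1 / μ k) * μ k :=
            mul_le_mul_of_nonneg_right (le_max_right _ _) (hμ k).le
      · rw [Matrix.one_apply_ne hkl, norm_zero]
        exact mul_nonneg ((hν k).trans (le_max_left _ _)) (hμ l).le
  have h := norm_det_le_scaled (Matrix.fromBlocks A U (-V) (1 : Matrix m m R)) x y hM
  rw [Fintype.card_sum] at h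
  refine h.trans (le_of_eq ?_)
  congr 1
  simp only [Fintype.prod_sum_type, x, y, Sum.elim_inl, Sum.elim_inr]
  have hk : ∀ k, max (ν k) (1 / μ k) * μ k = max 1 (μ k * ν k) := by
    intro k
    rw [max_mul_of_nonneg _ _ (hμ k).le, max_comm]
    congr 1
    · field_simp [(hμ k).ne']
    · ring
  have : (∏ k, max (ν k) (1 / μ k)) * ∏ k, μ k = ∏ k, max 1 (μ k * ν k) := by
    rw [← Finset.prod_mul_distrib]
    exact Finset.prod_congr rfl fun k _ => hk k
  rw [← this]
  ring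

end Crest.Agent.R006.DetBoundx885
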