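import Crest.Agent.R006.NVLocal_664

/-!
Row 6 (helper475): residues with germs, Hermite interpolation, duality.  Design-independent.

`K` a field, nodes `Z : Finset K` with multiplicities `m : K → ℕ`,
`NS = ∏_{z ∈ Z} (X - C z)^(m z)`, `cof z = NS / (X - C z)^(m z)`, `gm z P` = germ `P(z+ε)`.

* `res Z m z φ` = residue at `z` of `φ / NS` (`φ` a germ at `z`) = `coeff (m z - 1) (φ / cof)`.
* `herm Z m φ` = Hermite interpolant of the germs `φ z`; `coeff_herm`: its coefficient of degree
  `deg NS - 1` is the sum of the residues.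
* `sum_res` : residue theorem, `∑_z res (gm z P) = (P %ₘ NS).coeff (deg NS - 1)`.
* `infc` : `[s^-1] (P/NS * ψ)` for a formal series `ψ` in `t = 1/s`.
* `duality` : the functional equations for `s^j`, `j < J`, give the interpolating polynomial `T`
  with the condition at infinity.
-/

set_option autoImplicit false
set_option linter.unusedSectionVars false

namespace Crest.Agent.R006.Dual475

open Polynomial Crest.Agent.R006.NV

variable {K : Type*} [Field K] [DecidableEq K]

/-- the node polynomial -/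
noncomputable def NS (Z : Finset K) (m : K → ℕ) : K[X] := ∏ z ∈ Z, (X - C z) ^ m z

/-- the cofactor of the node `z` -/
noncomputable def cof (Z : Finset K) (m : K → ℕ) (z : K) : K[X] :=
  ∏ w ∈ Z.erase z, (X - C w) ^ m w

variable {Z : Finset K} {m : K → ℕ}

lemma NS_eq {z : K} (hz : z ∈ Z) : NS Z m = (X - C z) ^ m z * cof Z m z :=
  (Finset.mul_prod_erase Z (fun w => (X - C w) ^ m w) hz).symm

lemma NS_monic : (NS Z m).Monic := monic_prod_of_monic _ _ fun z _ => (monic_X_sub_C z).pow _

lemma cof_monic (z : K) : (cof Z m z).Monic :=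
  monic_prod_of_monic _ _ fun z _ => (monic_X_sub_C z).pow _

lemma natDegree_NS : (NS Z m).natDegree = ∑ z ∈ Z, m z := by
  unfold NS
  rw [natDegree_prod_of_monic _ _ fun z _ => (monic_X_sub_C z).pow _]
  refine Finset.sum_congr rfl fun z _ => ?_
  rw [(monic_X_sub_C z).natDegree_pow, natDegree_X_sub_C, mul_one]

lemma natDegree_cof {z : K} (hz : z ∈ Z) :
    m z + (cof Z m z).natDegree = (NS Z m).natDegree := by
  rw [NS_eq hz, ((monic_X_sub_C z).pow _).natDegree_mul (cof_monic z),
    (monic_X_sub_C z).natDegree_pow, natDegree_X_sub_C, mul_one]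

lemma gm_X_sub_C (z w : K) : gm z (X - C w) = PowerSeries.X + PowerSeries.C (z - w) := by
  rw [gm_sub, gm_X, gm_C, pt, map_sub]; ring

lemma gm_prod {ι : Type*} (z : K) (s : Finset ι) (f : ι → K[X]) :
    gm z (∏ i ∈ s, f i) = ∏ i ∈ s, gm z (f i) := by
  classical
  refine Finset.induction_on s (by simp [gm_one]) ?_
  intro a s ha ih
  rw [Finset.prod_insert ha, Finset.prod_insert ha, gm_mul, ih]

lemma gm_sum {ι : Type*} (z : K) (s : Finset ι) (f : ι → K[X]) :
    gm z (∑ i ∈ s, f i) = ∑ i ∈ s, gm z (f i) := by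
  classical
  refine Finset.induction_on s (by simp [gm_zero]) ?_
  intro a s ha ih
  rw [Finset.sum_insert ha, Finset.sum_insert ha, gm_add, ih]

lemma constantCoeff_gm (z : K) (P : K[X]) : PowerSeries.constantCoeff (gm z P) = P.eval z := by
  simp [gm]

lemma eval_cof_ne (z : K) : (cof Z m z).eval z ≠ 0 := by
  unfold cof
  rw [eval_prod]
  refine Finset.prod_ne_zero_iff.mpr fun w hw => ?_
  rw [eval_pow, eval_sub, eval_X, eval_C]
  exact pow_ne_zero _ (sub_ne_zero.mpr (Finset.ne_of_mem_erase hw).symm)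

lemma gm_cof_mul_inv (z : K) : gm z (cof Z m z) * (gm z (cof Z m z))⁻¹ = 1 :=
  PowerSeries.mul_inv_cancel _ (by rw [constantCoeff_gm]; exact eval_cof_ne z)

lemma dvd_gm_cof {z w : K} (hw : w ∈ Z) (hne : w ≠ z) :
    (PowerSeries.X : PowerSeries K) ^ m w ∣ gm w (cof Z m z) := by
  apply gm_dvd_of_dvd
  exact Finset.dvd_prod_of_mem (fun w => (X - C w) ^ m w) (Finset.mem_erase.mpr ⟨hne, hw⟩)

/-- residue at `z` of `φ / NS` -/
noncomputable def res (Z : Finset K) (m : K → ℕ) (z : K) (φ : PowerSeries K) : K :=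
  if m z = 0 then 0 else PowerSeries.coeff (m z - 1) (φ * (gm z (cof Z m z))⁻¹)

lemma res_add (z : K) (φ ψ : PowerSeries K) : res Z m z (φ + ψ) = res Z m z φ + res Z m z ψ := by
  unfold res
  split_ifs <;> simp [add_mul]

lemma res_smul (z : K) (a : K) (φ : PowerSeries K) :
    res Z m z (PowerSeries.C a * φ) = a * res Z m z φ := by
  unfold res
  split_ifs
  · simp
  · rw [mul_assoc, PowerSeries.coeff_C_mul]

lemma res_congr {z : K} {φ ψ : PowerSeries K} (h : (PowerSeries.X : PowerSeries K) ^ m z ∣ φ - ψ) :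
    res Z m z φ = res Z m z ψ := by
  unfold res
  split_ifs with h0
  · rfl
  · obtain ⟨u, hu⟩ := h
    have e : φ = ψ + PowerSeries.X ^ m z * u := by rw [← hu]; ring
    rw [e, add_mul, map_add, mul_assoc, PowerSeries.coeff_X_pow_mul', if_neg (by omega), add_zero]

/-- Hermite interpolant of the germs `φ z`. -/
noncomputable def herm (Z : Finset K) (m : K → ℕ) (φ : K → PowerSeries K) : K[X] :=
  ∑ z ∈ Z, cof Z m z * taylor (-z) (PowerSeries.trunc (m z) (φ z * (gm z (cof Z m z))⁻¹))

lemma gm_taylor_neg (z : K) (p : K[X]) : gm z (taylor (-z) p) = (p : PowerSeries K) := by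
  unfold gm
  rw [taylor_taylor]; simp

theorem herm_spec (φ : K → PowerSeries K) {z : K} (hz : z ∈ Z) :
    (PowerSeries.X : PowerSeries K) ^ m z ∣ gm z (herm Z m φ) - φ z := by
  unfold herm
  rw [gm_sum, ← Finset.add_sum_erase _ _ hz, add_sub_right_comm]
  refine dvd_add ?_ (Finset.dvd_sum fun w hw => ?_)
  · rw [gm_mul, gm_taylor_neg]
    have h1 : (PowerSeries.X : PowerSeries K) ^ m z ∣
        ((PowerSeries.trunc (m z) (φ z * (gm z (cof Z m z))⁻¹) : K[X]) : PowerSeries K) -
          φ z * (gm z (cof Z m z))⁻¹ := by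
      rw [PowerSeries.X_pow_dvd_iff]
      intro i hi
      rw [map_sub, Polynomial.coeff_coe, PowerSeries.coeff_trunc, if_pos hi, sub_self]
    have h2 : gm z (cof Z m z) *
        ((PowerSeries.trunc (m z) (φ z * (gm z (cof Z m z))⁻¹) : K[X]) : PowerSeries K) - φ z =
        gm z (cof Z m z) *
        (((PowerSeries.trunc (m z) (φ z * (gm z (cof Z m z))⁻¹) : K[X]) : PowerSeries K) -
          φ z * (gm z (cof Z m z))⁻¹) := by
      have := gm_cof_mul_inv (Z := Z) (m := m) z
      linear_combination (φ z) * this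
    rw [h2]
    exact Dvd.dvd.mul_left h1 _
  · rw [gm_mul]
    exact Dvd.dvd.mul_right (dvd_gm_cof hz (Finset.ne_of_mem_erase hw).symm) _

lemma degree_term_lt (φ : PowerSeries K) {z : K} (hz : z ∈ Z) :
    (cof Z m z * taylor (-z) (PowerSeries.trunc (m z) φ)).degree < ((NS Z m).natDegree : ℕ) := by
  rw [degree_mul, degree_taylor]
  have h1 : (PowerSeries.trunc (m z) φ).degree < (m z : ℕ) := PowerSeries.degree_trunc_lt _ _
  have h2 : (cof Z m z).degree = ((cof Z m z).natDegree : ℕ) :=
    degree_eq_natDegree (cof_monic z).ne_zero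
  rw [h2, ← natDegree_cof hz]
  rcases eq_or_ne (PowerSeries.trunc (m z) φ) 0 with h0 | h0
  · rw [h0, degree_zero]
    simp
  · rw [degree_eq_natDegree h0] at h1 ⊢
    have h3 : (PowerSeries.trunc (m z) φ).natDegree < m z := by exact_mod_cast h1
    exact_mod_cast (by omega : (cof Z m z).natDegree + (PowerSeries.trunc (m z) φ).natDegree <
      m z + (cof Z m z).natDegree)

theorem degree_herm_lt (φ : K → PowerSeries K) :
    (herm Z m φ).degree < ((NS Z m).natDegree : ℕ) := by
  unfold herm
  refine (degree_sum_le _ _).trans_lt ?_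
  rw [Finset.sup_lt_iff]
  · intro z hz
    exact degree_term_lt _ hz
  · exact WithBot.bot_lt_coe _

theorem coeff_herm (φ : K → PowerSeries K) :
    (herm Z m φ).coeff ((NS Z m).natDegree - 1) = ∑ z ∈ Z, res Z m z (φ z) := by
  unfold herm
  rw [finsetSum_coeff]
  refine Finset.sum_congr rfl fun z hz => ?_
  unfold res
  split_ifs with h0
  · have h1 : PowerSeries.trunc (m z) (φ z * (gm z (cof Z m z))⁻¹) = 0 := by
      rw [h0]
      ext i
      rw [PowerSeries.coeff_trunc]
      simp
    rw [h1, map_zero, mul_zero, coeff_zero]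
  · have hd := natDegree_cof (m := m) hz
    have e1 : (NS Z m).natDegree - 1 = (cof Z m z).natDegree + (m z - 1) := by omega
    set q := PowerSeries.trunc (m z) (φ z * (gm z (cof Z m z))⁻¹) with hq
    have hqd : q.natDegree ≤ m z - 1 := by
      have : q.degree < (m z : ℕ) := PowerSeries.degree_trunc_lt _ _
      rcases eq_or_ne q 0 with h2 | h2
      · rw [h2]; simp
      · rw [degree_eq_natDegree h2] at this
        have : q.natDegree < m z := by exact_mod_cast this
        omega
    have hqd' : (taylor (-z) q).natDegree ≤ m z - 1 := by rw [natDegree_taylor]; exact hqd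
    rw [e1, coeff_mul_add_eq_of_natDegree_le le_rfl hqd', coeff_natDegree, (cof_monic z).leadingCoeff,
      one_mul]
    have e2 : (taylor (-z) q).coeff (m z - 1) = q.coeff (m z - 1) := by
      rcases Nat.lt_or_ge q.natDegree (m z - 1) with h3 | h3
      · rw [coeff_eq_zero_of_natDegree_lt (by rw [natDegree_taylor]; exact h3),
          coeff_eq_zero_of_natDegree_lt h3]
      · have h4 : m z - 1 = q.natDegree := le_antisymm h3 hqd
        have h5 : m z - 1 = (taylor (-z) q).natDegree := by rw [natDegree_taylor]; exact h4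
        conv_lhs => rw [h5]
        rw [coeff_natDegree, leadingCoeff_taylor, h4, coeff_natDegree]
    rw [e2, hq, PowerSeries.coeff_trunc, if_pos (by omega)]

theorem eq_zero_of_dvd {P : K[X]} (hd : P.degree < ((NS Z m).natDegree : ℕ))
    (h : ∀ z ∈ Z, (PowerSeries.X : PowerSeries K) ^ m z ∣ gm z P) : P = 0 := by
  have h1 : NS Z m ∣ P := by
    unfold NS
    apply Finset.prod_dvd_of_coprime
    · intro z _ w _ hzw
      exact (pairwise_coprime_X_sub_C (s := (id : K → K)) Function.injective_id hzw).pow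
    · intro z hz
      exact dvd_of_gm_dvd (h z hz)
  refine eq_zero_of_dvd_of_degree_lt h1 ?_
  rwa [degree_eq_natDegree NS_monic.ne_zero]

theorem herm_eq_of_spec {P : K[X]} {φ : K → PowerSeries K}
    (hd : P.degree < ((NS Z m).natDegree : ℕ))
    (h : ∀ z ∈ Z, (PowerSeries.X : PowerSeries K) ^ m z ∣ gm z P - φ z) : herm Z m φ = P := by
  have : herm Z m φ - P = 0 := by
    apply eq_zero_of_dvd (Z := Z) (m := m)
    · exact (degree_sub_le _ _).trans_lt (max_lt (degree_herm_lt φ) hd)
    · intro z hz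
      rw [gm_sub]
      have h1 := herm_spec (m := m) φ hz
      have h2 := h z hz
      have e : gm z (herm Z m φ) - gm z P = (gm z (herm Z m φ) - φ z) - (gm z P - φ z) := by ring
      rw [e]
      exact dvd_sub h1 h2
  exact sub_eq_zero.mp this

lemma degree_modByMonic_NS (P : K[X]) : (P %ₘ NS Z m).degree < ((NS Z m).natDegree : ℕ) := by
  have := degree_modByMonic_lt P (NS_monic (Z := Z) (m := m))
  rwa [degree_eq_natDegree NS_monic.ne_zero] at this

lemma dvd_gm_modByMonic (P : K[X]) {z : K} (hz : z ∈ Z) :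
    (PowerSeries.X : PowerSeries K) ^ m z ∣ gm z (P %ₘ NS Z m) - gm z P := by
  have h := modByMonic_add_div P (NS Z m)
  have e : gm z (P %ₘ NS Z m) - gm z P = -(gm z (NS Z m) * gm z (P /ₘ NS Z m)) := by
    conv_lhs => rw [← h]
    rw [h, ← gm_mul]
    rw [← gm_sub]
    rw [← gm_neg]
    congr 1
    linear_combination h
  rw [e]
  apply Dvd.dvd.neg_right
  apply Dvd.dvd.mul_right
  apply gm_dvd_of_dvd
  rw [NS_eq hz]
  exact Dvd.intro _ rfl

/-- **product with a polynomial**: the interpolant of `P φ` is `P * herm φ mod NS`. -/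
theorem herm_mul (P : K[X]) (φ : K → PowerSeries K) :
    herm Z m (fun z => gm z P * φ z) = (P * herm Z m φ) %ₘ NS Z m := by
  apply herm_eq_of_spec (degree_modByMonic_NS _)
  intro z hz
  have h1 := dvd_gm_modByMonic (m := m) (P * herm Z m φ) hz
  have h2 := herm_spec (m := m) φ hz
  have e : gm z ((P * herm Z m φ) %ₘ NS Z m) - gm z P * φ z =
      (gm z ((P * herm Z m φ) %ₘ NS Z m) - gm z (P * herm Z m φ)) +
        gm z P * (gm z (herm Z m φ) - φ z) := by
    rw [gm_mul]; ring
  rw [e]
  exact dvd_add h1 (Dvd.dvd.mul_left h2 _)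

/-- **sum of residues against an interpolant** -/
theorem sum_res_mul (P : K[X]) (φ : K → PowerSeries K) :
    ∑ z ∈ Z, res Z m z (gm z P * φ z) =
      ((P * herm Z m φ) %ₘ NS Z m).coeff ((NS Z m).natDegree - 1) := by
  rw [← herm_mul, coeff_herm]

/-- **residue theorem** for a polynomial over `NS`. -/
theorem sum_res (P : K[X]) :
    ∑ z ∈ Z, res Z m z (gm z P) = (P %ₘ NS Z m).coeff ((NS Z m).natDegree - 1) := by
  rw [← coeff_herm (fun z => gm z P)]
  congr 1
  apply herm_eq_of_spec (degree_modByMonic_NS _)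
  intro z hz
  exact dvd_gm_modByMonic P hz

/-! ### infinity -/

/-- `t^N NS(1/t)` as a power series in `t` (constant coefficient `1`). -/
noncomputable def Nr (Z : Finset K) (m : K → ℕ) : PowerSeries K :=
  ((reflect (NS Z m).natDegree (NS Z m) : K[X]) : PowerSeries K)

lemma constantCoeff_Nr : PowerSeries.constantCoeff (Nr Z m) = 1 := by
  unfold Nr
  rw [← PowerSeries.coeff_zero_eq_constantCoeff_apply, Polynomial.coeff_coe, coeff_reflect,
    revAt_zero]
  exact NS_monic

lemma Nr_mul_inv : Nr Z m * (Nr Z m)⁻¹ = 1 :=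
  PowerSeries.mul_inv_cancel _ (by rw [constantCoeff_Nr]; exact one_ne_zero)

lemma constantCoeff_Nr_inv : PowerSeries.constantCoeff (Nr Z m)⁻¹ = 1 := by
  have h := congrArg PowerSeries.constantCoeff (Nr_mul_inv (Z := Z) (m := m))
  rw [map_mul, constantCoeff_Nr, one_mul, map_one] at h
  exact h

lemma coeff_reflect_of_le {P : K[X]} {D i : ℕ} (hi : i ≤ D) :
    (reflect D P).coeff i = P.coeff (D - i) := by
  rw [coeff_reflect, revAt_le hi]

lemma coeff_reflect_of_lt {P : K[X]} {D i : ℕ} (hP : P.natDegree ≤ D) (hi : D < i) :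
    (reflect D P).coeff i = 0 := by
  rw [coeff_reflect, revAt_eq_self_of_lt hi]
  exact coeff_eq_zero_of_natDegree_lt (by omega)

lemma reflect_add_of_le {P : K[X]} {D e : ℕ} (hP : P.natDegree ≤ D) :
    reflect (e + D) P = X ^ e * reflect D P := by
  ext i
  rw [coeff_X_pow_mul']
  split_ifs with h
  · rcases Nat.lt_or_ge (e + D) i with h1 | h1
    · rw [coeff_reflect_of_lt (by omega) h1, coeff_reflect_of_lt hP (by omega)]
    · rw [coeff_reflect_of_le h1, coeff_reflect_of_le (by omega)]
      congr 1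
      omega
  · rw [coeff_reflect_of_le (by omega)]
    exact coeff_eq_zero_of_natDegree_lt (by omega)

/-- `[s^-1](P/NS)` for a polynomial `P` of degree `≤ D`, computed at infinity. -/
theorem coeff_modByMonic_eq {P : K[X]} {D : ℕ} (hN : 0 < (NS Z m).natDegree)
    (hP : P.natDegree ≤ D) (hD : (NS Z m).natDegree ≤ D + 1) :
    (P %ₘ NS Z m).coeff ((NS Z m).natDegree - 1) =
      PowerSeries.coeff (D + 1 - (NS Z m).natDegree)
        (((reflect D P : K[X]) : PowerSeries K) * (Nr Z m)⁻¹) := by
  set N := (NS Z m).natDegree with hNdef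
  set r := P %ₘ NS Z m with hr
  set q := P /ₘ NS Z m with hq
  have hdec : P = r + NS Z m * q := (modByMonic_add_div P (NS Z m)).symm
  have hrd : r.natDegree ≤ N - 1 := by
    have := degree_modByMonic_NS (Z := Z) (m := m) P
    rw [← hr, ← hNdef] at this
    rcases eq_or_ne r 0 with h0 | h0
    · rw [h0]; simp
    · rw [degree_eq_natDegree h0] at this
      have : r.natDegree < N := by exact_mod_cast this
      omega
  have hqd : q.natDegree = P.natDegree - N := natDegree_divByMonic P NS_monic
  have hrr : reflect D r = X ^ (D + 1 - N) * reflect (N - 1) r := by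
    have e : D = (D + 1 - N) + (N - 1) := by omega
    conv_lhs => rw [e]
    exact reflect_add_of_le hrd
  have h1 : PowerSeries.coeff (D + 1 - N)
      (((reflect D r : K[X]) : PowerSeries K) * (Nr Z m)⁻¹) = r.coeff (N - 1) := by
    rw [hrr, Polynomial.coe_mul, Polynomial.coe_pow, Polynomial.coe_X, mul_assoc]
    have := PowerSeries.coeff_X_pow_mul' (((reflect (N - 1) r : K[X]) : PowerSeries K) * (Nr Z m)⁻¹)
      (D + 1 - N) (D + 1 - N)
    rw [this, if_pos le_rfl, Nat.sub_self, PowerSeries.coeff_zero_eq_constantCoeff_apply, map_mul,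
      constantCoeff_Nr_inv, mul_one, ← PowerSeries.coeff_zero_eq_constantCoeff_apply,
      Polynomial.coeff_coe, coeff_reflect_of_le (Nat.zero_le _), Nat.sub_zero]
  have h2 : PowerSeries.coeff (D + 1 - N)
      (((reflect D (NS Z m * q) : K[X]) : PowerSeries K) * (Nr Z m)⁻¹) = 0 := by
    rcases Nat.lt_or_ge D N with h3 | h3
    · -- `q = 0`
      have hq0 : q = 0 := by
        rw [hq]
        rw [divByMonic_eq_zero_iff NS_monic]
        rw [degree_eq_natDegree NS_monic.ne_zero, ← hNdef]
        refine lt_of_le_of_lt degree_le_natDegree ?_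
        exact_mod_cast (by omega : P.natDegree < N)
      rw [hq0, mul_zero, reflect_zero, Polynomial.coe_zero, zero_mul, map_zero]
    · have e : D = N + (D - N) := by omega
      have h4 : reflect D (NS Z m * q) = reflect N (NS Z m) * reflect (D - N) q := by
        conv_lhs => rw [e]
        exact reflect_mul _ _ le_rfl (by omega)
      have h5 : ((reflect D (NS Z m * q) : K[X]) : PowerSeries K) * (Nr Z m)⁻¹ =
          ((reflect (D - N) q : K[X]) : PowerSeries K) := by
        rw [h4, Polynomial.coe_mul]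
        change Nr Z m * _ * _ = _
        rw [mul_right_comm, Nr_mul_inv, one_mul]
      rw [h5, Polynomial.coeff_coe]
      exact coeff_reflect_of_lt (by omega) (by omega)
  calc r.coeff (N - 1) =
        PowerSeries.coeff (D + 1 - N) (((reflect D r : K[X]) : PowerSeries K) * (Nr Z m)⁻¹) +
        PowerSeries.coeff (D + 1 - N)
          (((reflect D (NS Z m * q) : K[X]) : PowerSeries K) * (Nr Z m)⁻¹) := by
        rw [h1, h2, add_zero]
    _ = _ := by
      conv_rhs => rw [hdec]
      rw [reflect_add, Polynomial.coe_add, add_mul, map_add]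

/-- `[s^-1] ( s^j R ψ / NS )`, `ψ` a formal series in `t = 1/s`, `natDegree R ≤ deg NS - 1`. -/
noncomputable def infc (Z : Finset K) (m : K → ℕ) (ψ : PowerSeries K) (R : K[X]) (j : ℕ) : K :=
  PowerSeries.coeff j
    (((reflect ((NS Z m).natDegree - 1) R : K[X]) : PowerSeries K) * ψ * (Nr Z m)⁻¹)

/-- **DUALITY.** -/
theorem duality (φ : K → PowerSeries K) (ψ : PowerSeries K) (R : K[X])
    (hN : 0 < (NS Z m).natDegree) {J : ℕ} (hJ : J ≤ (NS Z m).natDegree)
    (h : ∀ j < J, ∑ z ∈ Z, res Z m z (gm z (X ^ j) * φ z) = infc Z m ψ R j) :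
    ∀ k < J, (herm Z m φ).coeff ((NS Z m).natDegree - 1 - k) =
      PowerSeries.coeff k (((reflect ((NS Z m).natDegree - 1) R : K[X]) : PowerSeries K) * ψ) := by
  set N := (NS Z m).natDegree with hNdef
  set T := herm Z m φ with hT
  have hTd : T.natDegree ≤ N - 1 := by
    have := degree_herm_lt (Z := Z) (m := m) φ
    rw [← hT, ← hNdef] at this
    rcases eq_or_ne T 0 with h0 | h0
    · rw [h0]; simp
    · rw [degree_eq_natDegree h0] at this
      have : T.natDegree < N := by exact_mod_cast this
      omega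
  -- the difference series
  set W : PowerSeries K := ((reflect (N - 1) T : K[X]) : PowerSeries K) -
    ((reflect (N - 1) R : K[X]) : PowerSeries K) * ψ with hW
  have h1 : ∀ j < J, PowerSeries.coeff j (W * (Nr Z m)⁻¹) = 0 := by
    intro j hj
    have h2 := h j hj
    rw [sum_res_mul, ← hT, coeff_modByMonic_eq (D := j + (N - 1)) hN
      ((natDegree_mul_le).trans (by rw [natDegree_X_pow]; omega)) (by omega)] at h2
    have e1 : reflect (j + (N - 1)) (X ^ j * T) = reflect (N - 1) T := by
      rw [reflect_mul _ _ (natDegree_X_pow_le j) hTd, reflect_monomial, revAt_le le_rfl,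
        Nat.sub_self, pow_zero, one_mul]
    have e2 : j + (N - 1) + 1 - N = j := by omega
    rw [← hNdef, e1, e2] at h2
    rw [hW, sub_mul, map_sub, h2]
    unfold infc
    rw [← hNdef, sub_self]
  have h3 : (PowerSeries.X : PowerSeries K) ^ J ∣ W * (Nr Z m)⁻¹ := by
    rw [PowerSeries.X_pow_dvd_iff]; exact h1
  have h4 : (PowerSeries.X : PowerSeries K) ^ J ∣ W := by
    have := Dvd.dvd.mul_right h3 (Nr Z m)
    rwa [mul_assoc, mul_comm (Nr Z m)⁻¹, Nr_mul_inv, mul_one] at this
  intro k hk
  rw [PowerSeries.X_pow_dvd_iff] at h4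
  have h5 := h4 k hk
  rw [hW, map_sub, Polynomial.coeff_coe, coeff_reflect_of_le (by omega)] at h5
  exact sub_eq_zero.mp h5

end Crest.Agent.R006.Dual475
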