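import Crest.Agent.R006.PotDisc_41

/-!
Row 6, block P3: mutual energies of two blocks of equally spaced points of the plane.
-/

namespace Crest.Agent.R006.EnDiscx41

open Real Finset Crest.Agent.R006.PotDiscx41

/-! ### modulus of continuity of `Phi` -/

lemma Phi_neg_left (v u : ℝ) : Phi (-v) u = Phi v u := by
  unfold Phi
  rw [div_neg, Real.arctan_neg]
  ring_nf

lemma Phi_abs_left (v u : ℝ) : Phi |v| u = Phi v u := by
  rcases abs_choice v with h | h <;> rw [h]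
  exact Phi_neg_left v u

lemma hasDerivAt_Phi_left {v u : ℝ} (hv : v ≠ 0) :
    HasDerivAt (fun v => Phi v u) (Real.arctan (u / v)) v := by
  have h0 : 0 < u ^ 2 + v ^ 2 := sq_add_pos (Or.inl hv)
  have h1 : HasDerivAt (fun v : ℝ => u ^ 2 + v ^ 2) (2 * v) v := by
    simpa using (hasDerivAt_pow 2 v).const_add (u ^ 2)
  have h2 : HasDerivAt (fun v : ℝ => Real.log (u ^ 2 + v ^ 2)) (2 * v / (u ^ 2 + v ^ 2)) v :=
    h1.log h0.ne'
  have h3 := (h2.const_mul (u / 2)).sub_const u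
  have h4 : HasDerivAt (fun v : ℝ => u / v) (-u / v ^ 2) v := by
    have := (hasDerivAt_inv hv).const_mul u
    refine (this.congr_deriv ?_).congr_of_eventuallyEq ?_
    · field_simp
    · exact Filter.Eventually.of_forall fun x => by simp [div_eq_mul_inv]
  have h5 := (hasDerivAt_id v).mul h4.arctan
  have h6 : HasDerivAt (fun v => Phi v u) (u / 2 * (2 * v / (u ^ 2 + v ^ 2)) +
      (1 * Real.arctan (u / v) + v * (1 / (1 + (u / v) ^ 2) * (-u / v ^ 2)))) v := h3.add h5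
  refine h6.congr_deriv ?_
  have h7 : (1 + (u / v) ^ 2) = (u ^ 2 + v ^ 2) / v ^ 2 := by field_simp; ring
  rw [h7]
  field_simp
  ring

lemma continuous_Phi_left (u : ℝ) : Continuous (fun v => Phi v u) := by
  rcases eq_or_ne u 0 with rfl | hu
  · simp only [Phi_zero]; exact continuous_const
  · refine continuous_iff_continuousAt.2 fun v => ?_
    rcases eq_or_ne v 0 with rfl | hv
    · have h1 : Filter.Tendsto (fun v : ℝ => v * Real.arctan (u / v)) (nhds 0) (nhds 0) := by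
        refine squeeze_zero_norm (a := fun v : ℝ => |v| * (π / 2)) (fun v => ?_) ?_
        · rw [Real.norm_eq_abs, abs_mul]
          refine mul_le_mul_of_nonneg_left ?_ (abs_nonneg _)
          exact (abs_lt.2 ⟨Real.neg_pi_div_two_lt_arctan _, Real.arctan_lt_pi_div_two _⟩).le
        · have : Continuous (fun v : ℝ => |v| * (π / 2)) := by fun_prop
          simpa using this.tendsto 0
      have h2 : Filter.Tendsto (fun v : ℝ => u / 2 * Real.log (u ^ 2 + v ^ 2) - u) (nhds 0)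
          (nhds (u / 2 * Real.log (u ^ 2 + 0 ^ 2) - u)) := by
        have hc : ContinuousAt (fun v : ℝ => u / 2 * Real.log (u ^ 2 + v ^ 2) - u) 0 := by
          refine ContinuousAt.sub (ContinuousAt.mul continuousAt_const
            (ContinuousAt.log (by fun_prop) ?_)) continuousAt_const
          have : 0 < u ^ 2 := by positivity
          simpa using this.ne'
        exact hc
      have h3 := h2.add h1
      have h4 : Phi 0 u = u / 2 * Real.log (u ^ 2 + 0 ^ 2) - u + 0 := by simp [Phi]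
      have h5 : Filter.Tendsto (fun v => Phi v u) (nhds 0) (nhds (Phi 0 u)) := by
        rw [h4]; exact h3
      exact h5
    · exact (hasDerivAt_Phi_left hv).continuousAt

lemma Phi_lip_nonneg {v w u : ℝ} (hv : 0 ≤ v) (hvw : v ≤ w) :
    |Phi w u - Phi v u| ≤ π / 2 * (w - v) := by
  rcases hvw.eq_or_lt with rfl | hvw
  · simp
  · obtain ⟨c, hc, hc'⟩ := exists_hasDerivAt_eq_slope (fun v => Phi v u) (fun v => Real.arctan (u / v))
      hvw (continuous_Phi_left u).continuousOn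
      (fun x hx => hasDerivAt_Phi_left (lt_of_le_of_lt hv hx.1).ne')
    have h1 : |(Phi w u - Phi v u) / (w - v)| ≤ π / 2 := by
      rw [← hc']
      exact (abs_lt.2 ⟨Real.neg_pi_div_two_lt_arctan _, Real.arctan_lt_pi_div_two _⟩).le
    rw [abs_div, abs_of_pos (sub_pos.2 hvw), div_le_iff₀ (sub_pos.2 hvw)] at h1
    exact h1

lemma Phi_lip (v w u : ℝ) : |Phi w u - Phi v u| ≤ π / 2 * |w - v| := by
  have key : |Phi w u - Phi v u| ≤ π / 2 * |(|w| - |v|)| := by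
    rw [← Phi_abs_left v, ← Phi_abs_left w]
    rcases le_total |v| |w| with h | h
    · rw [abs_of_nonneg (sub_nonneg.2 h)]
      exact Phi_lip_nonneg (abs_nonneg _) h
    · rw [abs_sub_comm, abs_sub_comm |w| |v|, abs_of_nonneg (sub_nonneg.2 h)]
      exact Phi_lip_nonneg (abs_nonneg _) h
  refine key.trans (mul_le_mul_of_nonneg_left (abs_abs_sub_abs_le_abs_sub w v) (by positivity))

lemma continuous_Phi2 : Continuous (fun p : ℝ × ℝ => Phi p.1 p.2) := by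
  refine continuous_prod_of_continuous_lipschitzWith (fun p : ℝ × ℝ => Phi p.1 p.2)
    (Real.toNNReal (π / 2)) (fun a => continuous_Phi a) (fun b => ?_)
  refine LipschitzWith.of_dist_le_mul fun x y => ?_
  rw [Real.dist_eq, Real.dist_eq, Real.coe_toNNReal _ (by positivity)]
  exact Phi_lip y x b

lemma Phi_mod_le {v u u' η R : ℝ} (hR : 1 ≤ R) (hv : |v| ≤ R) (hu : |u| ≤ R) (huu : u ≤ u')
    (hη : u' - u ≤ η) (hηR : η ≤ R) :
    |Phi v u' - Phi v u| ≤ η * Real.log (3 * R) + 2 := by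
  have hlog : 0 ≤ Real.log (3 * R) := Real.log_nonneg (by linarith)
  rcases huu.eq_or_lt with rfl | huu
  · rw [sub_self, abs_zero]
    have : 0 ≤ η := by linarith
    positivity
  · have hd : 0 < u' - u := sub_pos.2 huu
    have h1 := D_le (v := v) (s := u) hd
    have h2 := D_ge (v := v) (s := u) hd
    rw [add_sub_cancel] at h1 h2
    have h3 : g v (|u| + (u' - u)) ≤ Real.log (3 * R) := g_le_log hR hv (by
      rw [abs_of_nonneg (by positivity)]; linarith)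
    have h4 : (u' - u) * g v (|u| + (u' - u)) ≤ η * Real.log (3 * R) :=
      (mul_le_mul_of_nonneg_left h3 hd.le).trans (mul_le_mul_of_nonneg_right hη hlog)
    have h5 : 1 - ((u' - u) / 2)⁻¹ ≤ Real.log ((u' - u) / 2) := Real.one_sub_inv_le_log_of_pos (by positivity)
    have h6 := mul_le_mul_of_nonneg_left h5 hd.le
    have h7 : (u' - u) * (1 - ((u' - u) / 2)⁻¹) = (u' - u) - 2 := by field_simp
    have h8 : 0 ≤ η * Real.log (3 * R) := mul_nonneg (by linarith) hlog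
    rw [abs_le]
    constructor <;> linarith

lemma Phi_mod {v u u' η R : ℝ} (hR : 1 ≤ R) (hv : |v| ≤ R) (hu : |u| ≤ R) (hu' : |u'| ≤ R)
    (hη : |u' - u| ≤ η) (hηR : η ≤ R) :
    |Phi v u' - Phi v u| ≤ η * Real.log (3 * R) + 2 := by
  rcases le_total u u' with h | h
  · exact Phi_mod_le hR hv hu h ((le_abs_self _).trans hη) hηR
  · rw [abs_sub_comm]
    exact Phi_mod_le hR hv hu' h ((le_abs_self _).trans (by rwa [abs_sub_comm])) hηR

lemma segPot_mod {c ω z z' : ℂ} (hω : ‖ω‖ = 1) {L η R : ℝ} (hL : 0 ≤ L) (hR : 1 ≤ R)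
    (hz : ‖z - c‖ + L ≤ R) (hz' : ‖z' - c‖ + L ≤ R) (hη : ‖z' - z‖ ≤ η) (hηR : η ≤ R) :
    |segPot c ω L z' - segPot c ω L z| ≤ 2 * η * Real.log (3 * R) + 4 + π * η := by
  have hc : ∀ y : ℂ, ‖(y - c) * (starRingEnd ℂ) ω‖ = ‖y - c‖ := fun y => by
    rw [norm_mul, RCLike.norm_conj, hω, mul_one]
  have hd : ‖(z' - c) * (starRingEnd ℂ) ω - (z - c) * (starRingEnd ℂ) ω‖ ≤ η := by
    rw [← sub_mul, norm_mul, RCLike.norm_conj, hω, mul_one, sub_sub_sub_cancel_right]; exact hη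
  unfold segPot
  have hw := hc z
  have hw' := hc z'
  set w := (z - c) * (starRingEnd ℂ) ω
  set w' := (z' - c) * (starRingEnd ℂ) ω
  have hre : |w'.re - w.re| ≤ η := by
    rw [← Complex.sub_re]; exact (Complex.abs_re_le_norm _).trans hd
  have him : |w'.im - w.im| ≤ η := by
    rw [← Complex.sub_im]; exact (Complex.abs_im_le_norm _).trans hd
  have h1 := Complex.abs_re_le_norm w
  have h2 := Complex.abs_im_le_norm w
  have h3 := Complex.abs_re_le_norm w'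
  have h4 := Complex.abs_im_le_norm w'
  rw [hw] at h1 h2
  rw [hw'] at h3 h4
  have a1 := Phi_lip w.im w'.im (L - w'.re)
  have a2 := Phi_lip w.im w'.im (-w'.re)
  have e1 : |L - w.re| ≤ R := by
    rw [abs_le] at h1 ⊢; constructor <;> linarith [h1.1, h1.2, norm_nonneg (z - c)]
  have e2 : |L - w'.re| ≤ R := by
    rw [abs_le] at h3 ⊢; constructor <;> linarith [h3.1, h3.2, norm_nonneg (z' - c)]
  have a3 := Phi_mod (v := w.im) (u := L - w.re) (u' := L - w'.re) (η := η) hR (by linarith) e1 e2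
    (by rw [show L - w'.re - (L - w.re) = -(w'.re - w.re) by ring, abs_neg]; exact hre) hηR
  have a4 := Phi_mod (v := w.im) (u := -w.re) (u' := -w'.re) (η := η) hR (by linarith)
    (by rw [abs_neg]; linarith) (by rw [abs_neg]; linarith)
    (by rw [show -w'.re - -w.re = -(w'.re - w.re) by ring, abs_neg]; exact hre) hηR
  have b1 : π / 2 * |w'.im - w.im| ≤ π / 2 * η := mul_le_mul_of_nonneg_left him (by positivity)
  rw [abs_le] at a1 a2 a3 a4 ⊢
  constructor <;> linarith [a1.1, a1.2, a2.1, a2.2, a3.1, a3.2, a4.1, a4.2]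

lemma continuous_segPot (c ω : ℂ) (L : ℝ) : Continuous (segPot c ω L) := by
  unfold segPot
  have h1 : Continuous (fun z : ℂ => (z - c) * (starRingEnd ℂ) ω) := by fun_prop
  have h2 := Complex.continuous_im.comp h1
  have h3 := Complex.continuous_re.comp h1
  exact (continuous_Phi2.comp (h2.prodMk (continuous_const.sub h3))).sub
    (continuous_Phi2.comp (h2.prodMk h3.neg))

/-- mutual energy of the uniform densities on two segments. -/
noncomputable def En (c₁ ω₁ : ℂ) (L₁ : ℝ) (c₂ ω₂ : ℂ) (L₂ : ℝ) : ℝ :=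
  ∫ t in (0:ℝ)..L₂, segPot c₁ ω₁ L₁ (c₂ + t * ω₂)

lemma En_scale {b : ℝ} (hb : 0 < b) (c₁ ω₁ : ℂ) (L₁ : ℝ) (c₂ ω₂ : ℂ) (L₂ : ℝ) :
    En (b * c₁) ω₁ (b * L₁) (b * c₂) ω₂ (b * L₂) =
      b ^ 2 * (En c₁ ω₁ L₁ c₂ ω₂ L₂ + L₁ * L₂ * Real.log b) := by
  unfold En
  have h1 : ∀ t : ℝ, segPot (b * c₁) ω₁ (b * L₁) (b * c₂ + ((b * t : ℝ) : ℂ) * ω₂) =
      b * (segPot c₁ ω₁ L₁ (c₂ + t * ω₂) + L₁ * Real.log b) := by
    intro t
    rw [← segPot_scale hb]
    congr 1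
    push_cast
    ring
  have h2 := intervalIntegral.mul_integral_comp_mul_left (a := (0:ℝ)) (b := L₂)
    (f := fun t : ℝ => segPot (b * c₁) ω₁ (b * L₁) (b * c₂ + (t : ℂ) * ω₂)) b
  rw [mul_zero] at h2
  rw [← h2]
  simp only [h1]
  rw [intervalIntegral.integral_const_mul, intervalIntegral.integral_add, intervalIntegral.integral_const]
  · simp only [sub_zero, smul_eq_mul]; ring
  · exact ((continuous_segPot c₁ ω₁ L₁).comp (by fun_prop)).intervalIntegrable _ _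
  · exact intervalIntegrable_const

/-- Riemann sums of the potential along a segment. -/
lemma sum_segPot (c₁ ω₁ c₂ ω₂ : ℂ) (hω₁ : ‖ω₁‖ = 1) (hω₂ : ‖ω₂‖ = 1) {L₁ h R : ℝ} (hL : 0 ≤ L₁)
    (hh : 0 < h) (n : ℕ) (hR : 1 ≤ R) (hz : ‖c₂ - c₁‖ + n * h + L₁ ≤ R) (hhR : h ≤ R) :
    |h * ∑ j ∈ range n, segPot c₁ ω₁ L₁ (c₂ + ((j * h : ℝ) : ℂ) * ω₂) - En c₁ ω₁ L₁ c₂ ω₂ (n * h)| ≤
      n * (h * (2 * h * Real.log (3 * R) + 4 + π * h)) := by
  have hcont : Continuous (fun t : ℝ => segPot c₁ ω₁ L₁ (c₂ + t * ω₂)) :=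
    (continuous_segPot c₁ ω₁ L₁).comp (by fun_prop)
  have hint : ∀ a b : ℝ, IntervalIntegrable (fun t : ℝ => segPot c₁ ω₁ L₁ (c₂ + t * ω₂))
      MeasureTheory.volume a b := fun a b => hcont.intervalIntegrable a b
  have hnorm : ∀ t : ℝ, 0 ≤ t → t ≤ n * h → ‖c₂ + t * ω₂ - c₁‖ + L₁ ≤ R := by
    intro t ht ht'
    have : ‖c₂ + t * ω₂ - c₁‖ ≤ ‖c₂ - c₁‖ + ‖(t : ℂ) * ω₂‖ := by
      rw [show c₂ + t * ω₂ - c₁ = (c₂ - c₁) + t * ω₂ by ring]; exact norm_add_le _ _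
    rw [norm_mul, hω₂, mul_one, Complex.norm_real, Real.norm_of_nonneg ht] at this
    linarith
  have hsum := intervalIntegral.sum_integral_adjacent_intervals (μ := MeasureTheory.volume)
    (f := fun t : ℝ => segPot c₁ ω₁ L₁ (c₂ + t * ω₂)) (a := fun k : ℕ => (k : ℝ) * h) (n := n)
    (fun k _ => hint _ _)
  have hEn : En c₁ ω₁ L₁ c₂ ω₂ (n * h) = ∑ k ∈ range n,
      ∫ t in ((k : ℝ) * h)..(((k + 1 : ℕ) : ℝ) * h), segPot c₁ ω₁ L₁ (c₂ + t * ω₂) := by
    rw [hsum]; unfold En; simp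
  rw [hEn, mul_sum, ← sum_sub_distrib]
  refine (abs_sum_le_sum_abs _ _).trans ?_
  have hterm : ∀ k ∈ range n, |h * segPot c₁ ω₁ L₁ (c₂ + ((k * h : ℝ) : ℂ) * ω₂) -
      ∫ t in ((k : ℝ) * h)..(((k + 1 : ℕ) : ℝ) * h), segPot c₁ ω₁ L₁ (c₂ + t * ω₂)| ≤
      h * (2 * h * Real.log (3 * R) + 4 + π * h) := by
    intro k hk
    have hk' : ((k : ℝ) + 1) * h ≤ n * h :=
      mul_le_mul_of_nonneg_right (by exact_mod_cast mem_range.1 hk) hh.le
    have hk0 : (0:ℝ) ≤ k * h := by positivity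
    have hlen : ((k + 1 : ℕ) : ℝ) * h - k * h = h := by push_cast; ring
    have hconst : ∫ _t in ((k : ℝ) * h)..(((k + 1 : ℕ) : ℝ) * h),
        segPot c₁ ω₁ L₁ (c₂ + ((k * h : ℝ) : ℂ) * ω₂) =
        h * segPot c₁ ω₁ L₁ (c₂ + ((k * h : ℝ) : ℂ) * ω₂) := by
      rw [intervalIntegral.integral_const, hlen, smul_eq_mul]
    rw [← hconst, ← intervalIntegral.integral_sub intervalIntegrable_const (hint _ _)]
    have hb := intervalIntegral.norm_integral_le_of_norm_le_const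
      (a := (k : ℝ) * h) (b := ((k + 1 : ℕ) : ℝ) * h)
      (f := fun t : ℝ => segPot c₁ ω₁ L₁ (c₂ + ((k * h : ℝ) : ℂ) * ω₂) -
        segPot c₁ ω₁ L₁ (c₂ + t * ω₂)) (C := 2 * h * Real.log (3 * R) + 4 + π * h) (by
        intro t ht
        rw [Set.uIoc_of_le (by push_cast; linarith)] at ht
        have ht1 := ht.1
        have ht2 : t ≤ (k + 1) * h := by have := ht.2; push_cast at this; exact this
        rw [Real.norm_eq_abs]
        refine segPot_mod hω₁ hL hR (hnorm t (by linarith) (by linarith))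
          (hnorm (k * h) hk0 (by linarith)) ?_ hhR
        rw [show c₂ + ((k * h : ℝ) : ℂ) * ω₂ - (c₂ + t * ω₂) = (((k * h - t : ℝ)) : ℂ) * ω₂ by
          push_cast; ring, norm_mul, hω₂, mul_one, Complex.norm_real, Real.norm_eq_abs, abs_le]
        constructor <;> linarith)
    rw [hlen, abs_of_pos hh, Real.norm_eq_abs] at hb
    linarith
  refine (sum_le_sum hterm).trans (le_of_eq ?_)
  rw [sum_const, card_range, nsmul_eq_mul]

/-! ### double sums and double products -/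

/-- LOWER BOUND of the mutual energy of two blocks; all mutual distances at least `δ ≤ 1`. -/
theorem energy_ge (c₁ ω₁ c₂ ω₂ : ℂ) (hω₁ : ‖ω₁‖ = 1) (hω₂ : ‖ω₂‖ = 1) {h₁ h₂ R δ : ℝ}
    (hh₁ : 0 < h₁) (hh₂ : 0 < h₂) (hδ0 : 0 < δ) (hδ1 : δ ≤ 1) (n₁ n₂ : ℕ) (hR : 1 ≤ R)
    (hz : ‖c₂ - c₁‖ + n₂ * h₂ + n₁ * h₁ ≤ R) (hhR₁ : h₁ ≤ R) (hhR₂ : h₂ ≤ R)
    (hδ : ∀ j < n₂, ∀ i < n₁, δ ≤ ‖c₂ + ((j * h₂ : ℝ) : ℂ) * ω₂ - (c₁ + ((i * h₁ : ℝ) : ℂ) * ω₁)‖) :
    En c₁ ω₁ (n₁ * h₁) c₂ ω₂ (n₂ * h₂) / (h₁ * h₂) -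
        n₂ * ((2 * h₂ * Real.log (3 * R) + 4 + π * h₂) / h₁ + (2 * Real.log (3 * R) - 2 * Real.log δ)) ≤
      ∑ j ∈ range n₂, ∑ i ∈ range n₁,
        Real.log ‖c₂ + ((j * h₂ : ℝ) : ℂ) * ω₂ - (c₁ + ((i * h₁ : ℝ) : ℂ) * ω₁)‖ := by
  have hnorm : ∀ j : ℕ, j < n₂ → ‖c₂ + ((j * h₂ : ℝ) : ℂ) * ω₂ - c₁‖ + n₁ * h₁ ≤ R := by
    intro j hj
    have : ‖c₂ + ((j * h₂ : ℝ) : ℂ) * ω₂ - c₁‖ ≤ ‖c₂ - c₁‖ + ‖((j * h₂ : ℝ) : ℂ) * ω₂‖ := by
      rw [show c₂ + ((j * h₂ : ℝ) : ℂ) * ω₂ - c₁ = (c₂ - c₁) + ((j * h₂ : ℝ) : ℂ) * ω₂ by ring]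
      exact norm_add_le _ _
    rw [norm_mul, hω₂, mul_one, Complex.norm_real, Real.norm_of_nonneg (by positivity)] at this
    have h1 : (j : ℝ) * h₂ ≤ n₂ * h₂ := mul_le_mul_of_nonneg_right (by exact_mod_cast hj.le) hh₂.le
    linarith
  have h1 : ∀ j ∈ range n₂, segPot c₁ ω₁ (n₁ * h₁) (c₂ + ((j * h₂ : ℝ) : ℂ) * ω₂) / h₁ -
      (2 * Real.log (3 * R) - 2 * Real.log δ) ≤ ∑ i ∈ range n₁,
        Real.log ‖c₂ + ((j * h₂ : ℝ) : ℂ) * ω₂ - (c₁ + ((i * h₁ : ℝ) : ℂ) * ω₁)‖ := fun j hj =>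
    sum_log_ge _ c₁ ω₁ hω₁ hh₁ (Real.log_nonpos hδ0.le hδ1) n₁
      (fun i hi => Real.log_le_log hδ0 (hδ j (mem_range.1 hj) i hi)) hR
      (hnorm j (mem_range.1 hj)) hhR₁
  refine le_trans ?_ (sum_le_sum h1)
  rw [sum_sub_distrib, sum_const, card_range, nsmul_eq_mul, ← sum_div]
  have h2 := sum_segPot c₁ ω₁ c₂ ω₂ hω₁ hω₂ (L₁ := n₁ * h₁) (by positivity) hh₂ n₂ hR hz hhR₂
  have h3 := (abs_le.1 h2).1
  set E := En c₁ ω₁ (n₁ * h₁) c₂ ω₂ (n₂ * h₂)
  set S := ∑ j ∈ range n₂, segPot c₁ ω₁ (n₁ * h₁) (c₂ + ((j * h₂ : ℝ) : ℂ) * ω₂)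
  set M := 2 * h₂ * Real.log (3 * R) + 4 + π * h₂
  have h4 : E / (h₁ * h₂) - n₂ * (M / h₁) ≤ S / h₁ := by
    have h5 : (E - n₂ * (h₂ * M)) / (h₁ * h₂) ≤ h₂ * S / (h₁ * h₂) :=
      div_le_div_of_nonneg_right (by linarith) (by positivity)
    have h6 : (E - n₂ * (h₂ * M)) / (h₁ * h₂) = E / (h₁ * h₂) - n₂ * (M / h₁) := by
      field_simp
    have h7 : h₂ * S / (h₁ * h₂) = S / h₁ := by field_simp
    linarith
  linarith

/-- UPPER BOUND of the mutual product of two blocks (no separation needed). -/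
theorem prod_prod_le (c₁ ω₁ c₂ ω₂ : ℂ) (hω₁ : ‖ω₁‖ = 1) (hω₂ : ‖ω₂‖ = 1) {h₁ h₂ R : ℝ}
    (hh₁ : 0 < h₁) (hh₂ : 0 < h₂) (n₁ n₂ : ℕ) (hR : 1 ≤ R)
    (hz : ‖c₂ - c₁‖ + n₂ * h₂ + n₁ * h₁ ≤ R) (hhR₁ : h₁ ≤ R) (hhR₂ : h₂ ≤ R) :
    ∏ j ∈ range n₂, ∏ i ∈ range n₁,
        ‖c₂ + ((j * h₂ : ℝ) : ℂ) * ω₂ - (c₁ + ((i * h₁ : ℝ) : ℂ) * ω₁)‖ ≤
      Real.exp (En c₁ ω₁ (n₁ * h₁) c₂ ω₂ (n₂ * h₂) / (h₁ * h₂) +
        n₂ * ((2 * h₂ * Real.log (3 * R) + 4 + π * h₂) / h₁ +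
          (Real.log (3 * R) + 1 + |Real.log (h₁ / 2)|))) := by
  have hn1 : (0:ℝ) ≤ n₁ * h₁ := by positivity
  have hnorm : ∀ j : ℕ, j < n₂ → ‖c₂ + ((j * h₂ : ℝ) : ℂ) * ω₂ - c₁‖ ≤ R := by
    intro j hj
    have : ‖c₂ + ((j * h₂ : ℝ) : ℂ) * ω₂ - c₁‖ ≤ ‖c₂ - c₁‖ + ‖((j * h₂ : ℝ) : ℂ) * ω₂‖ := by
      rw [show c₂ + ((j * h₂ : ℝ) : ℂ) * ω₂ - c₁ = (c₂ - c₁) + ((j * h₂ : ℝ) : ℂ) * ω₂ by ring]
      exact norm_add_le _ _
    rw [norm_mul, hω₂, mul_one, Complex.norm_real, Real.norm_of_nonneg (by positivity)] at this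
    have h1 : (j : ℝ) * h₂ ≤ n₂ * h₂ := mul_le_mul_of_nonneg_right (by exact_mod_cast hj.le) hh₂.le
    linarith
  refine (prod_le_prod (fun j _ => prod_nonneg fun i _ => norm_nonneg _) (fun j hj =>
    prod_norm_le _ c₁ ω₁ hω₁ hh₁ n₁ hR (hnorm j (mem_range.1 hj)) hhR₁)).trans ?_
  rw [← Real.exp_sum, Real.exp_le_exp, sum_add_distrib, sum_const, card_range, nsmul_eq_mul, ← sum_div]
  have h2 := sum_segPot c₁ ω₁ c₂ ω₂ hω₁ hω₂ (L₁ := n₁ * h₁) (by positivity) hh₂ n₂ hR hz hhR₂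
  have h3 := (abs_le.1 h2).2
  set E := En c₁ ω₁ (n₁ * h₁) c₂ ω₂ (n₂ * h₂)
  set S := ∑ j ∈ range n₂, segPot c₁ ω₁ (n₁ * h₁) (c₂ + ((j * h₂ : ℝ) : ℂ) * ω₂)
  set M := 2 * h₂ * Real.log (3 * R) + 4 + π * h₂
  have h4 : S / h₁ ≤ E / (h₁ * h₂) + n₂ * (M / h₁) := by
    have h5 : h₂ * S / (h₁ * h₂) ≤ (E + n₂ * (h₂ * M)) / (h₁ * h₂) :=
      div_le_div_of_nonneg_right (by linarith) (by positivity)
    have h6 : (E + n₂ * (h₂ * M)) / (h₁ * h₂) = E / (h₁ * h₂) + n₂ * (M / h₁) := by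
      field_simp
    have h7 : h₂ * S / (h₁ * h₂) = S / h₁ := by field_simp
    linarith
  linarith

/-- `∑_{k=1}^j log (k h) ≥ j log (j h) - j`. -/
lemma sum_log_self_ge {h : ℝ} (hh : 0 < h) (j : ℕ) :
    (j : ℝ) * Real.log (j * h) - j ≤ ∑ k ∈ range j, Real.log ((k + 1 : ℕ) * h) := by
  have hPhi : ∀ x : ℝ, Phi 0 x = x * Real.log x - x := by
    intro x
    unfold Phi
    rw [show (x ^ 2 + 0 ^ 2 : ℝ) = x ^ 2 by ring, Real.log_pow]
    push_cast; ring
  have key : ∀ j : ℕ, Phi 0 (j * h) ≤ h * ∑ k ∈ range j, Real.log ((k + 1 : ℕ) * h) := by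
    intro j
    induction j with
    | zero => simp [Phi_zero]
    | succ j ih =>
      rw [sum_range_succ, mul_add]
      have h1 := stepL (v := 0) (u := (j + 1 : ℕ) * h) (h := h)
        (by push_cast; nlinarith [(Nat.cast_nonneg j : (0:ℝ) ≤ j)]) hh
      have h2 : g 0 ((j + 1 : ℕ) * h) = Real.log ((j + 1 : ℕ) * h) := by
        unfold g
        rw [show ((((j + 1 : ℕ) : ℝ) * h) ^ 2 + 0 ^ 2 : ℝ) = (((j + 1 : ℕ) : ℝ) * h) ^ 2 by ring,
          Real.log_pow]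
        push_cast; ring
      rw [h2, show ((j + 1 : ℕ) : ℝ) * h - h = j * h by push_cast; ring] at h1
      linarith
  have h3 := key j
  rw [hPhi] at h3
  have h4 : h * ((j : ℝ) * Real.log (j * h) - j) ≤ h * ∑ k ∈ range j, Real.log ((k + 1 : ℕ) * h) := by
    linarith
  exact le_of_mul_le_mul_left h4 hh

/-- self energy of a block: `∑_{i<j<n} log ((j-i) h) ≥ n²/2 log (n h) - 3n²/4 - n log⁺ (n h)`. -/
theorem self_energy_ge {h : ℝ} (hh : 0 < h) (n : ℕ) :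
    (n : ℝ) ^ 2 / 2 * Real.log (n * h) - 3 / 4 * (n : ℝ) ^ 2 - n * max 0 (Real.log (n * h)) ≤
      ∑ j ∈ range n, ∑ k ∈ range j, Real.log ((k + 1 : ℕ) * h) := by
  set f : ℝ → ℝ := fun x => x * Real.log (x * h) - x with hf
  set F : ℝ → ℝ := fun x => x ^ 2 / 2 * Real.log (x * h) - 3 / 4 * x ^ 2 with hF
  have hfd : ∀ x : ℝ, 0 < x → HasDerivAt f (Real.log (x * h)) x := by
    intro x hx
    have h1 : HasDerivAt (fun x : ℝ => Real.log (x * h)) (h / (x * h)) x :=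
      ((hasDerivAt_id x).mul_const h |>.congr_deriv (one_mul h)).log (by positivity)
    have h2 := ((hasDerivAt_id x).mul h1).sub (hasDerivAt_id x)
    refine h2.congr_deriv ?_
    simp only [id]
    field_simp
    ring
  have hFd : ∀ x : ℝ, 0 < x → HasDerivAt F (f x) x := by
    intro x hx
    have h1 : HasDerivAt (fun x : ℝ => Real.log (x * h)) (h / (x * h)) x :=
      ((hasDerivAt_id x).mul_const h |>.congr_deriv (one_mul h)).log (by positivity)
    have h0 := hasDerivAt_pow 2 x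
    have h2 := ((h0.div_const 2).mul h1).sub (h0.const_mul (3 / 4))
    refine h2.congr_deriv ?_
    simp only [hf]
    field_simp
    ring
  have hfc : Continuous f := by
    have : f = fun x => (x * h) * Real.log (x * h) / h - x := by
      funext x; simp only [hf]; field_simp
    rw [this]
    exact ((Real.continuous_mul_log.comp (continuous_id.mul continuous_const)).div_const h).sub
      continuous_id
  have hFc : Continuous F := by
    have : F = fun x => x / 2 * ((x * h) * Real.log (x * h) / h) - 3 / 4 * x ^ 2 := by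
      funext x; simp only [hF]; field_simp
    rw [this]
    exact ((continuous_id.div_const 2).mul
      ((Real.continuous_mul_log.comp (continuous_id.mul continuous_const)).div_const h)).sub
      (continuous_const.mul (continuous_id.pow 2))
  have hstep : ∀ m : ℕ, F (m + 1) - F m ≤ f m + max 0 (Real.log ((m + 1) * h)) := by
    intro m
    have hm : (0:ℝ) ≤ m := Nat.cast_nonneg m
    obtain ⟨ξ, hξ, hξ'⟩ := exists_hasDerivAt_eq_slope F f (by linarith : (m:ℝ) < m + 1)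
      hFc.continuousOn (fun x hx => hFd x (lt_of_le_of_lt hm hx.1))
    obtain ⟨η, hη, hη'⟩ := exists_hasDerivAt_eq_slope f (fun x => Real.log (x * h)) hξ.1
      hfc.continuousOn (fun x hx => hfd x (lt_of_le_of_lt hm hx.1))
    have h1 : F (m + 1) - F m = f ξ := by rw [hξ']; field_simp; ring
    have hpos : 0 < ξ - m := sub_pos.2 hξ.1
    have h2 : f ξ - f m = Real.log (η * h) * (ξ - m) := by
      rw [hη']; field_simp
    have hη0 : 0 < η := lt_of_le_of_lt hm hη.1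
    have h3 : Real.log (η * h) ≤ Real.log ((m + 1) * h) := Real.log_le_log (by positivity)
      (mul_le_mul_of_nonneg_right (by linarith [hη.2, hξ.2]) hh.le)
    have h4 := le_max_right 0 (Real.log ((m + 1) * h))
    have h5 := le_max_left 0 (Real.log ((m + 1) * h))
    have h6 : Real.log (η * h) * (ξ - m) ≤ max 0 (Real.log ((m + 1) * h)) * (ξ - m) :=
      mul_le_mul_of_nonneg_right (h3.trans h4) hpos.le
    have h7 : max 0 (Real.log ((m + 1) * h)) * (ξ - m) ≤ max 0 (Real.log ((m + 1) * h)) * 1 :=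
      mul_le_mul_of_nonneg_left (by linarith [hξ.2]) h5
    linarith
  have hmain : ∀ m : ℕ, m ≤ n → F m - m * max 0 (Real.log (n * h)) ≤
      ∑ j ∈ range m, ∑ k ∈ range j, Real.log ((k + 1 : ℕ) * h) := by
    intro m
    induction m with
    | zero => intro _; simp [hF]
    | succ m ih =>
      intro hm
      have ih' := ih (by omega)
      rw [sum_range_succ]
      have h1 := sum_log_self_ge hh m
      have h2 := hstep m
      have h3 : max 0 (Real.log (((m:ℝ) + 1) * h)) ≤ max 0 (Real.log (n * h)) := by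
        refine max_le_max le_rfl (Real.log_le_log (by positivity) (mul_le_mul_of_nonneg_right ?_ hh.le))
        exact_mod_cast hm
      have h4 : f m = (m : ℝ) * Real.log (m * h) - m := rfl
      push_cast at ih' h1 ⊢
      linarith
  exact hmain n le_rfl

end Crest.Agent.R006.EnDiscx41
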