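import Crest.Agent.R006.Base4_724
import Crest.Agent.R006.PsiInf_294

/-!
Row 6 (helper724): the `R`-entries as `mu`-functionals, part 1 (polynomials, Taylor shift of `TR`).

* `mu_eval : mu K0 (P.eval) = - lin (cast mu) P` for admissible `K0`;
* `mu_mul_zpow : mu K0 (R(s) (s-z)^(-1-j)) = coeff j (gm z R * MZ K0 z - gm z (TR m R))`.
-/

set_option autoImplicit false

namespace Crest.Agent.R006.Base724

open Polynomial Filter Topology
open Crest.Agent.R006.NV Crest.Agent.R006.Germ724 Crest.Agent.R006.PsiInf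

/-- the moments of `ψ_∞` attached to the weights -/
noncomputable def mm (K0 : PowerSeries ℂ) (k : ℕ) : ℂ := -mom K0 k

lemma lin_mm (K0 : PowerSeries ℂ) (P : ℂ[X]) : lin (mm K0) P = -mu K0 (fun s => P.eval s) := by
  induction P using Polynomial.induction_on' with
  | add p q hp hq =>
    have e : (fun s => (p + q).eval s) = fun s => p.eval s + q.eval s := by
      ext s; simp
    rw [map_add, hp, hq, e, mu_add (Good.eval p) (Good.eval q)]
    ring
  | monomial n a =>
    have e : (fun s => (monomial n a).eval s) = fun s => a * s ^ n := by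
      ext s; simp
    rw [lin_monomial, e, mu_smul (Good.id.pow n)]
    unfold mm mom
    ring

lemma den_site (l : ℕ) : 2 * pt (site (l + 1)) + 1 = den (site l) := by
  rw [site_succ]
  unfold den
  have : pt (site l) = pt (site l - 1) + 1 := by
    rw [pt_add_one]; ring_nf
  rw [this]; ring

lemma two_pt_half : (2 * pt (-(1 / 2) : ℂ) + 1) = PowerSeries.C 2 * PowerSeries.X := by
  unfold pt
  have : (2 : PowerSeries ℂ) = PowerSeries.C (2 : ℂ) := (map_ofNat PowerSeries.C 2).symm
  rw [this, mul_add, ← map_mul]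
  norm_num

lemma coeff_two_cube (A B : PowerSeries ℂ) :
    PowerSeries.coeff 2 (A * ((PowerSeries.C (2 : ℂ) * PowerSeries.X) ^ 3 * B)) = 0 := by
  have e : A * ((PowerSeries.C (2 : ℂ) * PowerSeries.X) ^ 3 * B) =
    (PowerSeries.X : PowerSeries ℂ) ^ 3 * (A * PowerSeries.C (2 : ℂ) ^ 3 * B) := by ring
  rw [e, PowerSeries.coeff_X_pow_mul']
  simp

theorem key_mm (K0 : PowerSeries ℂ) : Key (mm K0) := by
  intro P
  rw [lin_mm]
  have h := key (Good.eval P) (Good.eval ((2 * X + 1) ^ 3 * P.comp (X + 1))) (fun l => ?_) K0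
  · rw [T_eval, site_zero] at h
    have e1 : gm (-(1 / 2) : ℂ) ((2 * X + 1) ^ 3 * P.comp (X + 1)) =
        (PowerSeries.C (2 : ℂ) * PowerSeries.X) ^ 3 * gm (-(1 / 2)) (P.comp (X + 1)) := by
      rw [gm_mul, gm_pow, gm_add, gm_mul, gm_two, gm_X, gm_one, two_pt_half]
    rw [e1, coeff_two_cube, neg_zero] at h
    have e2 : (fun s => (X ^ 3 * P + (2 * X + 1) ^ 3 * P.comp (X + 1) : ℂ[X]).eval s) =
        fun s => s ^ 3 * P.eval s + ((2 * X + 1) ^ 3 * P.comp (X + 1) : ℂ[X]).eval s := by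
      ext s; simp
    rw [e2, mu_add ((Good.id.pow 3).mul (Good.eval P)) (Good.eval _), h, neg_zero]
  · rw [T_eval, T_eval, gm_mul, gm_pow, gm_add, gm_mul, gm_two, gm_X, gm_one, den_site]
    congr 1
    have : P.comp (X + 1) = taylor 1 P := by
      rw [taylor_apply, C_1]
    rw [this, gm_taylor_one, site_succ]
    congr 1
    ring

lemma Adm.mm_eq {K0 : PowerSeries ℂ} (h : Adm K0) : mm K0 = fun k => ((PsiInf.mu k : ℚ) : ℂ) := by
  apply mu_unique (key_mm K0)
  · unfold mm; rw [h.m0]; simp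
  · unfold mm; rw [h.m0, h.m1]; norm_num
  · unfold mm; rw [h.m0, h.m1, h.m2]; norm_num

lemma Adm.mu_eval {K0 : PowerSeries ℂ} (h : Adm K0) (P : ℂ[X]) :
    mu K0 (fun s => P.eval s) = -lin (fun k => ((PsiInf.mu k : ℚ) : ℂ)) P := by
  rw [← h.mm_eq, lin_mm, neg_neg]

/-! ### Taylor shift of `TR` -/

lemma pow_div (z x : ℂ) (i : ℕ) : ((X - C z) ^ i : ℂ[X]) /ₘ (X - C x) =
    ∑ b ∈ Finset.range i, C ((x - z) ^ b) * (X - C z) ^ (i - 1 - b) := by
  have h1 : (X - C x : ℂ[X]) * ∑ b ∈ Finset.range i, C ((x - z) ^ b) * (X - C z) ^ (i - 1 - b) =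
      (X - C z) ^ i - C ((x - z) ^ i) := by
    have hg := (Commute.all (C (x - z) : ℂ[X]) (X - C z)).mul_geom_sum₂ i
    have e1 : (C (x - z) - (X - C z) : ℂ[X]) = -(X - C x) := by rw [C_sub]; ring
    rw [e1] at hg
    have e2 : ∑ b ∈ Finset.range i, C ((x - z) ^ b) * (X - C z) ^ (i - 1 - b) =
        ∑ b ∈ Finset.range i, (C (x - z) : ℂ[X]) ^ b * (X - C z) ^ (i - 1 - b) := by
      refine Finset.sum_congr rfl fun b _ => ?_
      rw [C_pow]
    rw [e2, C_pow]
    linear_combination -hg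
  have h2 := div_modByMonic_unique (f := (X - C z) ^ i) (g := X - C x)
    (∑ b ∈ Finset.range i, C ((x - z) ^ b) * (X - C z) ^ (i - 1 - b)) (C ((x - z) ^ i))
    (monic_X_sub_C x) ⟨by rw [h1]; ring, ?_⟩
  · exact h2.1
  · rw [degree_X_sub_C]
    exact lt_of_le_of_lt degree_C_le (by norm_num)

lemma TR_pow (m : ℕ → ℂ) (z : ℂ) (i : ℕ) : TR m ((X - C z) ^ i) =
    ∑ b ∈ Finset.range i, C (lin m ((X - C z) ^ (i - 1 - b))) * (X - C z) ^ b := by
  apply Polynomial.funext
  intro x
  rw [eval_TR, pow_div, map_sum, eval_finsetSum]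
  refine Finset.sum_congr rfl fun b _ => ?_
  rw [lin_C_mul, eval_mul, eval_C, eval_pow, eval_sub, eval_X, eval_C]
  ring

lemma gm_pow_self (z : ℂ) (i : ℕ) : gm z ((X - C z) ^ i : ℂ[X]) = PowerSeries.X ^ i := by
  rw [gm_pow, gm_sub, gm_X, gm_C]
  congr 1
  unfold pt; ring

lemma gm_sum {α : Type*} (z : ℂ) (s : Finset α) (f : α → ℂ[X]) :
    gm z (∑ a ∈ s, f a) = ∑ a ∈ s, gm z (f a) := by
  induction s using Finset.cons_induction with
  | empty => simp [gm_zero]
  | cons a s ha ih => rw [Finset.sum_cons, Finset.sum_cons, gm_add, ih]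

lemma coeff_gm_TR_pow (m : ℕ → ℂ) (z : ℂ) (i j : ℕ) :
    PowerSeries.coeff j (gm z (TR m ((X - C z) ^ i))) =
      if j < i then lin m ((X - C z) ^ (i - 1 - j)) else 0 := by
  rw [TR_pow, gm_sum, map_sum]
  have : ∀ b ∈ Finset.range i, PowerSeries.coeff j
      (gm z (C (lin m ((X - C z) ^ (i - 1 - b))) * (X - C z) ^ b)) =
      if b = j then lin m ((X - C z) ^ (i - 1 - b)) else 0 := by
    intro b _
    rw [gm_mul, gm_C, gm_pow_self, PowerSeries.coeff_C_mul, PowerSeries.coeff_X_pow]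
    by_cases h : b = j
    · rw [if_pos h, if_pos h.symm, mul_one]
    · rw [if_neg h, if_neg (fun hh => h hh.symm), mul_zero]
  rw [Finset.sum_congr rfl this, Finset.sum_ite_eq']
  simp only [Finset.mem_range]

/-- the value of `mu` on `R(s) (s-z)^(-1-j)` -/
theorem mu_mul_zpow (K0 : PowerSeries ℂ) {z : ℂ} (hz : Off z) (R : ℂ[X]) (j : ℕ) :
    mu K0 (fun s => R.eval s * (s - z) ^ (-1 - (j : ℤ))) =
      PowerSeries.coeff j (gm z R * MZ K0 z - gm z (TR (mm K0) R)) := by
  suffices h : ∀ P : ℂ[X], mu K0 (fun s => (taylor (-z) P).eval s * (s - z) ^ (-1 - (j : ℤ))) =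
      PowerSeries.coeff j (gm z (taylor (-z) P) * MZ K0 z - gm z (TR (mm K0) (taylor (-z) P))) by
    have := h (taylor z R)
    rw [taylor_taylor] at this
    simpa using this
  intro P
  induction P using Polynomial.induction_on' with
  | add p q hp hq =>
    have e : (fun s => (taylor (-z) (p + q)).eval s * (s - z) ^ (-1 - (j : ℤ))) =
        fun s => (taylor (-z) p).eval s * (s - z) ^ (-1 - (j : ℤ)) +
          (taylor (-z) q).eval s * (s - z) ^ (-1 - (j : ℤ)) := by
      ext s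
      rw [map_add, eval_add, add_mul]
    rw [e, mu_add ((Good.eval _).mul (Good.zpow hz _)) ((Good.eval _).mul (Good.zpow hz _)), hp, hq,
      ← map_add, map_add (taylor (-z)), map_add (TR (mm K0)), gm_add, gm_add]
    congr 1
    ring
  | monomial i a =>
    have e0 : taylor (-z) (monomial i a) = C a * (X - C z) ^ i := by
      rw [taylor_monomial, C_neg, ← sub_eq_add_neg]
    rw [e0]
    have e : mu K0 (fun s => (C a * (X - C z) ^ i : ℂ[X]).eval s * (s - z) ^ (-1 - (j : ℤ))) =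
        mu K0 (fun s => a * (s - z) ^ ((i : ℤ) + (-1 - (j : ℤ)))) := by
      apply mu_congr
      intro l
      filter_upwards [eventually_ne_site hz l] with s hs
      rw [eval_mul, eval_C, eval_pow, eval_sub, eval_X, eval_C, zpow_add₀ hs, zpow_natCast]
      ring
    rw [e, mu_smul (Good.zpow hz _), gm_mul, gm_C, gm_pow_self]
    have e1 : TR (mm K0) (C a * (X - C z) ^ i) = C a * TR (mm K0) ((X - C z) ^ i) := by
      rw [← smul_eq_C_mul, map_smul, smul_eq_C_mul]
    rw [e1, gm_mul, gm_C, map_sub, mul_assoc, PowerSeries.coeff_C_mul, PowerSeries.coeff_C_mul,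
      coeff_gm_TR_pow, PowerSeries.coeff_X_pow_mul', ← mul_sub]
    congr 1
    by_cases h : i ≤ j
    · rw [if_pos h, if_neg (by omega), sub_zero, MZ_coeff]
      unfold E
      congr 1
      ext s
      congr 1
      have : ((j - i : ℕ) : ℤ) = (j : ℤ) - i := by push_cast [h]; ring
      rw [this]; ring
    · rw [if_neg h, if_pos (by omega), zero_sub, lin_mm, neg_neg]
      congr 1
      ext s
      rw [eval_pow, eval_sub, eval_X, eval_C, ← zpow_natCast]
      congr 1
      have : ((i - 1 - j : ℕ) : ℤ) = (i : ℤ) - 1 - j := by omega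
      rw [this]; ring

end Crest.Agent.R006.Base724
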