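import Crest.Agent.R006.EntR1_724
import Crest.Agent.R006.Defs

/-!
Row 6 (helper724): the `R`-entries of `Defs.lean` as `mu`-functionals, part 2 (the chains).
-/

set_option autoImplicit false

namespace Crest.Agent.R006.Base724

open Polynomial Filter Topology
open Crest.Agent.R006.NV Crest.Agent.R006.Germ724 Crest.Agent.R006.PsiInf

/-- base change of power series -/
noncomputable abbrev mp (a : PowerSeries ℚ) : PowerSeries ℂ := PowerSeries.map (algebraMap ℚ ℂ) a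

lemma mp_pt (s : ℚ) : mp (pt s) = pt (s : ℂ) := by
  unfold mp pt
  rw [map_add, PowerSeries.map_X, PowerSeries.map_C]
  simp

lemma mp_gm (s : ℚ) (p : ℚ[X]) : mp (gm s p) = gm (s : ℂ) (p.map (algebraMap ℚ ℂ)) := by
  unfold mp gm
  have e : taylor (s : ℂ) (p.map (algebraMap ℚ ℂ)) = (taylor s p).map (algebraMap ℚ ℂ) := by
    rw [taylor_apply, taylor_apply, Polynomial.map_comp]
    simp
  rw [e]
  ext n
  rw [PowerSeries.coeff_map, Polynomial.coeff_coe, Polynomial.coeff_coe, Polynomial.coeff_map]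

lemma const_pt' (s : ℂ) : PowerSeries.constantCoeff (pt s) = s := pt_const s

lemma const_two_pt (s : ℂ) : PowerSeries.constantCoeff (2 * pt s + 1) = 2 * s + 1 := by
  rw [map_add, map_mul, pt_const, map_one, map_ofNat]

lemma dvd_of_unit_mul {k : ℕ} {u a : PowerSeries ℂ} (hu : PowerSeries.constantCoeff u ≠ 0)
    (h : (PowerSeries.X : PowerSeries ℂ) ^ k ∣ u * a) : (PowerSeries.X : PowerSeries ℂ) ^ k ∣ a := by
  have e : a = u⁻¹ * (u * a) := by
    rw [← mul_assoc, PowerSeries.inv_mul_cancel _ hu, one_mul]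
  rw [e]
  exact Dvd.dvd.mul_left h _

/-! ### the integer chain -/

lemma HomZ_step (i : ℤ) : pt ((i : ℚ) + 1) ^ 3 * D.HomZ (i + 1) +
    (2 * pt (i : ℚ) + 1) ^ 3 * D.HomZ i = 0 := by
  apply bi_step (K := ℚ) (a := fun i => pt ((i : ℚ) + 1) ^ 3)
    (b := fun i => (2 * pt (i : ℚ) + 1) ^ 3) (c := fun _ => 0)
  · intro i hi
    rw [map_pow, constantCoeff_pt]
    apply pow_ne_zero
    have : ((i + 1 : ℤ) : ℚ) ≠ 0 := by
      exact_mod_cast (by omega : (i + 1 : ℤ) ≠ 0)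
    push_cast at this
    exact this
  · intro i hi
    rw [map_pow, map_add, map_mul, constantCoeff_pt, constantCoeff_two, map_one]
    apply pow_ne_zero
    have : ((2 * i + 1 : ℤ) : ℚ) ≠ 0 := by
      exact_mod_cast (by omega : (2 * i + 1 : ℤ) ≠ 0)
    push_cast at this
    exact this

/-- complex germ of the integer chain at `X = G` -/
noncomputable def PC (i : ℤ) : PowerSeries ℂ :=
  mp (PsiZ 0 i) - PowerSeries.C (Psi724.G : ℂ) * mp (D.HomZ i)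

lemma PC_zero : PC 0 = -PowerSeries.C (Psi724.G : ℂ) := by
  unfold PC
  have h1 : PsiZ (0 : ℚ) 0 = PowerSeries.C 0 := PsiZ_zero 0
  have h2 : D.HomZ 0 = 1 := rfl
  rw [h1, h2]
  simp [mp]

lemma PC_step (i : ℤ) : pt ((i : ℂ) + 1) ^ 3 * PC (i + 1) + (2 * pt (i : ℂ) + 1) ^ 3 * PC i =
    -(PowerSeries.C (1 / 2) * (3 * pt (i : ℂ) + 2)) := by
  have h1 := congrArg mp ((step_Z (0 : ℚ) i).psi)
  have h2 := congrArg mp (HomZ_step i)
  have e1 : mp (pt ((i : ℚ) + 1)) = pt ((i : ℂ) + 1) := by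
    rw [mp_pt]; push_cast; rfl
  have e2 : mp (pt (i : ℚ)) = pt (i : ℂ) := by
    rw [mp_pt]; push_cast; rfl
  have e3 : mp (PowerSeries.C (1 / 2 : ℚ)) = PowerSeries.C (1 / 2 : ℂ) := by
    simp [mp]
  simp only [mp, map_add, map_mul, map_pow, map_neg, map_one, map_ofNat, map_zero] at h1 h2 e1 e2 e3
  rw [e1, e2, e3] at h1
  rw [e1, e2] at h2
  unfold PC
  simp only [mp]
  linear_combination h1 - PowerSeries.C (Psi724.G : ℂ) * h2

lemma off_int (i : ℤ) : Off (i : ℂ) := by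
  intro l e
  unfold site at e
  have h : (2 * (i + l) + 1 : ℤ) = 0 := by
    have : ((2 * (i + l) + 1 : ℤ) : ℂ) = 0 := by
      push_cast
      linear_combination -2 * e
    exact_mod_cast this
  omega

lemma den_add_one (z : ℂ) : den (z + 1) = 2 * pt z + 1 := by
  unfold den
  rw [← pt_add_one]; ring

lemma rhs_add_one (z : ℂ) : rhs (z + 1) = -(PowerSeries.C (1 / 2) * (3 * pt z + 2)) := by
  unfold rhs
  rw [← pt_add_one]; ring

lemma Adm.diff_step {K0 : PowerSeries ℂ} (h : Adm K0) (i : ℤ) :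
    (PowerSeries.X : PowerSeries ℂ) ^ 3 ∣
      pt ((i : ℂ) + 1) ^ 3 * (MZ K0 ((i + 1 : ℤ) : ℂ) - PC (i + 1)) +
        (2 * pt (i : ℂ) + 1) ^ 3 * (MZ K0 (i : ℂ) - PC i) := by
  have e1 : ((i + 1 : ℤ) : ℂ) = (i : ℂ) + 1 := by push_cast; ring
  have h1 := h.MZ_step (z := (i : ℂ) + 1) (by rw [← e1]; exact off_int _)
    (by rw [add_sub_cancel_right]; exact off_int _)
  rw [den_add_one, rhs_add_one, add_sub_cancel_right, ← PC_step] at h1
  rw [e1]
  have e : pt ((i : ℂ) + 1) ^ 3 * (MZ K0 ((i : ℂ) + 1) - PC (i + 1)) +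
        (2 * pt (i : ℂ) + 1) ^ 3 * (MZ K0 (i : ℂ) - PC i) =
      pt ((i : ℂ) + 1) ^ 3 * MZ K0 ((i : ℂ) + 1) + (2 * pt (i : ℂ) + 1) ^ 3 * MZ K0 (i : ℂ) -
        (pt ((i : ℂ) + 1) ^ 3 * PC (i + 1) + (2 * pt (i : ℂ) + 1) ^ 3 * PC i) := by ring
  rw [e]
  exact h1

/-- integers `≥ 0`: constant terms agree -/
theorem Adm.nonneg_chain {K0 : PowerSeries ℂ} (h : Adm K0) (n : ℕ) :
    (PowerSeries.X : PowerSeries ℂ) ^ 1 ∣ MZ K0 ((n : ℤ) : ℂ) - PC n := by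
  induction n with
  | zero =>
    rw [pow_one, PowerSeries.X_dvd_iff, map_sub]
    have e0 : PowerSeries.constantCoeff (MZ K0 (((0 : ℕ) : ℤ) : ℂ)) = E K0 0 (-1) := by
      rw [← PowerSeries.coeff_zero_eq_constantCoeff_apply, MZ_coeff]
      simp
    have e1 : PC ((0 : ℕ) : ℤ) = -PowerSeries.C (Psi724.G : ℂ) := PC_zero
    rw [e0, e1, h.phi_zero]
    simp
  | succ n ih =>
    have h1 := (dvd_trans (pow_dvd_pow _ (by norm_num : 1 ≤ 3)) (h.diff_step (n : ℤ)))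
    have h2 : (PowerSeries.X : PowerSeries ℂ) ^ 1 ∣
        pt (((n : ℤ) : ℂ) + 1) ^ 3 * (MZ K0 (((n : ℤ) + 1 : ℤ) : ℂ) - PC ((n : ℤ) + 1)) := by
      have := (dvd_add_left (Dvd.dvd.mul_left ih ((2 * pt ((n : ℤ) : ℂ) + 1) ^ 3))).mp h1
      exact this
    have e : ((n + 1 : ℕ) : ℤ) = (n : ℤ) + 1 := by push_cast; ring
    rw [e]
    refine dvd_of_unit_mul ?_ h2
    rw [map_pow, pt_const]
    apply pow_ne_zero
    have : (((n : ℤ) + 1 : ℤ) : ℂ) ≠ 0 := by exact_mod_cast (by omega : ((n : ℤ) + 1 : ℤ) ≠ 0)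
    push_cast at this ⊢
    exact this

/-- negative integers: 2-jets agree -/
theorem Adm.neg_chain {K0 : PowerSeries ℂ} (h : Adm K0) (n : ℕ) :
    (PowerSeries.X : PowerSeries ℂ) ^ 3 ∣ MZ K0 ((-(n : ℤ) - 1 : ℤ) : ℂ) - PC (-(n : ℤ) - 1) := by
  have hunit : ∀ i : ℤ, PowerSeries.constantCoeff ((2 * pt (i : ℂ) + 1) ^ 3) ≠ 0 := by
    intro i
    rw [map_pow, const_two_pt]
    apply pow_ne_zero
    have : ((2 * i + 1 : ℤ) : ℂ) ≠ 0 := by exact_mod_cast (by omega : (2 * i + 1 : ℤ) ≠ 0)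
    push_cast at this
    exact this
  induction n with
  | zero =>
    have h1 := h.diff_step (-1)
    have e0 : ((-1 : ℤ) : ℂ) + 1 = 0 := by push_cast; ring
    rw [e0] at h1
    have e1 : (pt (0 : ℂ)) = PowerSeries.X := by unfold pt; simp
    rw [e1] at h1
    have h2 := (dvd_add_right (Dvd.intro _ rfl :
      (PowerSeries.X : PowerSeries ℂ) ^ 3 ∣
        PowerSeries.X ^ 3 * (MZ K0 ((-1 + 1 : ℤ) : ℂ) - PC (-1 + 1)))).mp h1
    have h3 := dvd_of_unit_mul (hunit (-1)) h2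
    simpa using h3
  | succ n ih =>
    have h1 := h.diff_step (-(n : ℤ) - 2)
    have e0 : (-(n : ℤ) - 2 + 1 : ℤ) = -(n : ℤ) - 1 := by ring
    rw [e0] at h1
    have h2 := (dvd_add_right (Dvd.dvd.mul_left ih (pt (((-(n : ℤ) - 2 : ℤ) : ℂ) + 1) ^ 3))).mp h1
    have h3 := dvd_of_unit_mul (hunit _) h2
    have e : -((n + 1 : ℕ) : ℤ) - 1 = -(n : ℤ) - 2 := by push_cast; ring
    rw [e]
    exact h3

/-! ### the star chain -/

/-- germ of the jump at `l + 1/2` -/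
noncomputable def Kr (K0 : PowerSeries ℂ) : ℕ → PowerSeries ℂ
  | 0 => -8 * (pt (1 / 2 : ℂ) ^ 3)⁻¹ * K0
  | l + 1 => -(den ((l : ℂ) + 3 / 2) ^ 3) * (pt ((l : ℂ) + 3 / 2) ^ 3)⁻¹ * Kr K0 l

lemma pt_cube_unit {z : ℂ} (hz : z ≠ 0) : PowerSeries.constantCoeff (pt z ^ 3) ≠ 0 := by
  rw [map_pow, pt_const]; exact pow_ne_zero _ hz

lemma half_ne : (1 / 2 : ℂ) ≠ 0 := by norm_num

lemma Kr_zero_eq (K0 : PowerSeries ℂ) : pt (1 / 2 : ℂ) ^ 3 * Kr K0 0 = -8 * K0 := by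
  have h := PowerSeries.mul_inv_cancel _ (pt_cube_unit half_ne)
  show pt (1 / 2 : ℂ) ^ 3 * (-8 * (pt (1 / 2 : ℂ) ^ 3)⁻¹ * K0) = -8 * K0
  linear_combination (-8 * K0) * h

lemma nat_half_ne (l : ℕ) : (l : ℂ) + 3 / 2 ≠ 0 := by
  intro h
  have : ((2 * l + 3 : ℕ) : ℂ) = 0 := by push_cast; linear_combination 2 * h
  have : (2 * l + 3 : ℕ) = 0 := by exact_mod_cast this
  omega

lemma Kr_succ_eq (K0 : PowerSeries ℂ) (l : ℕ) : pt ((l : ℂ) + 3 / 2) ^ 3 * Kr K0 (l + 1) +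
    den ((l : ℂ) + 3 / 2) ^ 3 * Kr K0 l = 0 := by
  have h := PowerSeries.mul_inv_cancel _ (pt_cube_unit (nat_half_ne l))
  show pt ((l : ℂ) + 3 / 2) ^ 3 * (-(den ((l : ℂ) + 3 / 2) ^ 3) * (pt ((l : ℂ) + 3 / 2) ^ 3)⁻¹ *
    Kr K0 l) + _ = 0
  linear_combination (-(den ((l : ℂ) + 3 / 2) ^ 3) * Kr K0 l) * h

lemma off_half (l : ℕ) : Off ((l : ℂ) + 1 / 2) := by
  apply site_ne_of_re
  have h : ((l : ℂ) + 1 / 2).re = l + 1 / 2 := by simp
  rw [h]
  have : (0 : ℝ) ≤ l := Nat.cast_nonneg l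
  linarith

/-- key identity at `z = 1/2` -/
lemma key_half (K0 : PowerSeries ℂ) (j : ℕ) (hj : j ≤ 2) :
    mu K0 (fun s => s ^ 3 * (s - 1 / 2) ^ (-1 - (j : ℤ))) + 8 * E K0 (-(1 / 2)) (2 - (j : ℤ)) =
      -8 * PowerSeries.coeff j K0 := by
  have hoff : Off (1 / 2 : ℂ) := by
    have := off_half 0
    simpa using this
  set Q : ℂ → ℂ := fun s => 8 * (s + 1 / 2) ^ (2 - j) with hQ
  have hQg : Good Q := ((Good.id.add (Good.const (1 / 2))).pow (2 - j)).smul 8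
  have hTQ : ∀ z : ℂ, T Q z = PowerSeries.C 8 * pt (z + 1 / 2) ^ (2 - j) := by
    intro z
    have hid : AnalyticAt ℂ (fun s : ℂ => s) z := analyticAt_id
    have h1 : AnalyticAt ℂ (fun s : ℂ => s + 1 / 2) z := hid.fun_add analyticAt_const
    rw [hQ, T_mul analyticAt_const (h1.fun_pow _), T_const, T_pow h1,
      T_add hid analyticAt_const, T_id, T_const]
    unfold pt
    rw [map_add]; ring
  have h := key (Good.zpow hoff (-1 - (j : ℤ))) hQg (fun l => ?_) K0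
  · rw [hTQ, site_zero] at h
    have e1 : pt (-(1 / 2) + 1 / 2 : ℂ) = PowerSeries.X := by unfold pt; simp
    rw [e1] at h
    have e2 : PowerSeries.coeff 2 (K0 * (PowerSeries.C 8 * PowerSeries.X ^ (2 - j))) =
        8 * PowerSeries.coeff j K0 := by
      have : K0 * (PowerSeries.C 8 * PowerSeries.X ^ (2 - j)) =
          PowerSeries.C 8 * (K0 * PowerSeries.X ^ (2 - j)) := by ring
      rw [this, PowerSeries.coeff_C_mul, PowerSeries.coeff_mul_X_pow', if_pos (by omega)]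
      congr 3
      omega
    rw [e2] at h
    have e3 : mu K0 Q = 8 * E K0 (-(1 / 2)) (2 - (j : ℤ)) := by
      unfold E
      rw [hQ]
      have h4 : (fun s : ℂ => (s - -(1 / 2)) ^ (2 - (j : ℤ))) = fun s => (s + 1 / 2) ^ (2 - j) := by
        ext s
        have : (2 - (j : ℤ)) = ((2 - j : ℕ) : ℤ) := by omega
        rw [this, zpow_natCast, sub_neg_eq_add]
      rw [h4]
      exact mu_smul ((Good.id.add (Good.const (1 / 2))).pow (2 - j)) 8 K0
    rw [e3] at h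
    rw [h]; ring
  · rw [hTQ, site_succ]
    have h1 : T (fun s : ℂ => (s - 1 / 2) ^ (-1 - (j : ℤ))) (site l) = (pt (site l - 1 / 2))⁻¹ ^ (1 + j) := by
      have e : (fun s : ℂ => (s - 1 / 2) ^ (-1 - (j : ℤ))) = fun s => ((s - 1 / 2)⁻¹) ^ (1 + j) := by
        ext s
        rw [inv_pow, ← zpow_natCast, ← zpow_neg]
        congr 1
        push_cast; ring
      have ha : AnalyticAt ℂ (fun s : ℂ => (s - 1 / 2)⁻¹) (site l) :=
        (analyticAt_sub _ _).fun_inv (sub_ne_zero.mpr (hoff l))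
      rw [e, T_pow ha, T_inv_sub (hoff l)]
    rw [h1]
    have h2 : pt (site l - 1 + 1 / 2) = pt (site l - 1 / 2) := by congr 1; ring
    have h3 : den (site l) = PowerSeries.C 2 * pt (site l - 1 / 2) := by
      unfold den pt
      have : (2 : PowerSeries ℂ) = PowerSeries.C (2 : ℂ) := (map_ofNat PowerSeries.C 2).symm
      rw [this, map_sub, mul_add, mul_add, mul_sub, ← map_mul, ← map_mul]
      norm_num
      ring
    rw [h2, h3]
    set P := pt (site l - 1 / 2)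
    have hP : PowerSeries.constantCoeff P ≠ 0 := by
      rw [pt_const]; exact sub_ne_zero.mpr (hoff l)
    have hinv := PowerSeries.mul_inv_cancel P hP
    have h8 : (PowerSeries.C (2 : ℂ)) ^ 3 = PowerSeries.C 8 := by
      rw [← map_pow]; norm_num
    rw [mul_pow, h8, mul_assoc]
    congr 1
    have e5 : P ^ 3 = P ^ (2 - j) * P ^ (1 + j) := by
      rw [← pow_add]; congr 1; omega
    rw [e5, mul_assoc, ← mul_pow, hinv, one_pow, mul_one]

theorem Adm.star_zero {K0 : PowerSeries ℂ} (h : Adm K0) :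
    (PowerSeries.X : PowerSeries ℂ) ^ 3 ∣
      pt (1 / 2 : ℂ) ^ 3 * (MZ K0 (1 / 2) - Kr K0 0) - rhs (1 / 2) := by
  have e0 : pt (1 / 2 : ℂ) ^ 3 * (MZ K0 (1 / 2) - Kr K0 0) - rhs (1 / 2) =
      pt (1 / 2 : ℂ) ^ 3 * MZ K0 (1 / 2) + 8 * K0 - rhs (1 / 2) := by
    have := Kr_zero_eq K0
    linear_combination -this
  rw [e0, X3_dvd_iff]
  obtain ⟨r0, r1, r2⟩ := rhs_coeffs (1 / 2)
  obtain ⟨p0, p1, p2⟩ := cube_coeffs (1 / 2) 1
  rw [← pt_eq] at p0 p1 p2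
  have hoff : Off (1 / 2 : ℂ) := by
    have := off_half 0
    simpa using this
  have k0 := key_half K0 0 (by norm_num)
  have k1 := key_half K0 1 (by norm_num)
  have k2 := key_half K0 2 (by norm_num)
  rw [mu_cubic hoff] at k0 k1 k2
  norm_num at k0 k1 k2
  simp only [E_zero, E_one, E_two, h.m0, h.m1, h.m2] at k0 k1 k2
  have h8 : (8 : PowerSeries ℂ) = PowerSeries.C (8 : ℂ) := (map_ofNat PowerSeries.C 8).symm
  rw [h8]
  refine ⟨?_, ?_, ?_⟩
  · rw [map_sub, map_add, coeff_zero_mul, PowerSeries.coeff_C_mul, p0, r0, MZ_coeff]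
    norm_num
    linear_combination k0
  · rw [map_sub, map_add, coeff_one_mul, PowerSeries.coeff_C_mul, p0, p1, r1, MZ_coeff, MZ_coeff]
    norm_num
    linear_combination k1
  · rw [map_sub, map_add, coeff_two_mul, PowerSeries.coeff_C_mul, p0, p1, p2, r2, MZ_coeff,
      MZ_coeff, MZ_coeff]
    norm_num
    linear_combination k2

/-- complex germ of the star chain at `l + 1/2` -/
noncomputable def PH (l : ℕ) : PowerSeries ℂ := mp (PsiH (l : ℤ))

lemma PH_zero_step : pt (1 / 2 : ℂ) ^ 3 * PH 0 = rhs (1 / 2) := by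
  have h1 := congrArg mp ((step_H0 (K := ℚ) 0).psi)
  have h0 : (PsiH0 (0 : ℤ) : PowerSeries ℚ) = 0 := PsiH0_zero
  rw [h0, mul_zero, add_zero] at h1
  have e1 : mp (pt (((0 : ℤ) : ℚ) - 1 / 2 + 1)) = pt (1 / 2 : ℂ) := by
    rw [mp_pt]; congr 1; push_cast; norm_num
  have e2 : mp (pt (((0 : ℤ) : ℚ) - 1 / 2)) = pt (-(1 / 2) : ℂ) := by
    rw [mp_pt]; congr 1; push_cast; norm_num
  have e3 : mp (PowerSeries.C (1 / 2 : ℚ)) = PowerSeries.C (1 / 2 : ℂ) := by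
    simp [mp]
  simp only [mp, map_add, map_mul, map_pow, map_neg, map_ofNat] at h1 e1 e2 e3
  rw [e1, e2, e3] at h1
  unfold PH PsiH mp
  have e4 : ((0 : ℕ) : ℤ) + 1 = 0 + 1 := by norm_num
  rw [e4, h1]
  have := rhs_add_one (-(1 / 2) : ℂ)
  have e5 : (-(1 / 2) + 1 : ℂ) = 1 / 2 := by norm_num
  rw [e5] at this
  rw [this]

lemma PH_succ_step (l : ℕ) : pt ((l : ℂ) + 3 / 2) ^ 3 * PH (l + 1) +
    den ((l : ℂ) + 3 / 2) ^ 3 * PH l = rhs ((l : ℂ) + 3 / 2) := by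
  have h1 := congrArg mp ((step_H (K := ℚ) (l : ℤ)).psi)
  have e1 : mp (pt (((l : ℤ) : ℚ) + 1 / 2 + 1)) = pt ((l : ℂ) + 3 / 2) := by
    rw [mp_pt]; congr 1; push_cast; ring
  have e2 : mp (pt (((l : ℤ) : ℚ) + 1 / 2)) = pt ((l : ℂ) + 1 / 2) := by
    rw [mp_pt]; congr 1; push_cast; ring
  have e3 : mp (PowerSeries.C (1 / 2 : ℚ)) = PowerSeries.C (1 / 2 : ℂ) := by
    simp [mp]
  simp only [mp, map_add, map_mul, map_pow, map_neg, map_one, map_ofNat] at h1 e1 e2 e3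
  rw [e1, e2, e3] at h1
  unfold PH mp
  have e4 : ((l + 1 : ℕ) : ℤ) = (l : ℤ) + 1 := by push_cast; ring
  have e5 := rhs_add_one ((l : ℂ) + 1 / 2)
  have e6 := den_add_one ((l : ℂ) + 1 / 2)
  have e7 : ((l : ℂ) + 1 / 2 + 1) = (l : ℂ) + 3 / 2 := by ring
  rw [e7] at e5 e6
  rw [e4, e5, e6]
  exact h1

/-- star nodes: 2-jets of `MZ - Kr` agree with the star chain -/
theorem Adm.star_chain {K0 : PowerSeries ℂ} (h : Adm K0) (l : ℕ) :
    (PowerSeries.X : PowerSeries ℂ) ^ 3 ∣ (MZ K0 ((l : ℂ) + 1 / 2) - Kr K0 l) - PH l := by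
  induction l with
  | zero =>
    have h1 := h.star_zero
    rw [← PH_zero_step, ← mul_sub] at h1
    have := dvd_of_unit_mul (pt_cube_unit half_ne) h1
    simpa using this
  | succ l ih =>
    have e1 : (((l + 1 : ℕ) : ℂ) + 1 / 2) = (l : ℂ) + 3 / 2 := by push_cast; ring
    have e2 : ((l : ℂ) + 3 / 2 - 1) = (l : ℂ) + 1 / 2 := by ring
    have h1 := h.MZ_step (z := (l : ℂ) + 3 / 2) (by rw [← e1]; exact off_half _)
      (by rw [e2]; exact off_half _)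
    rw [e2, ← PH_succ_step] at h1
    rw [e1]
    have h2 := Kr_succ_eq K0 l
    have h3 : (PowerSeries.X : PowerSeries ℂ) ^ 3 ∣
        pt ((l : ℂ) + 3 / 2) ^ 3 * ((MZ K0 ((l : ℂ) + 3 / 2) - Kr K0 (l + 1)) - PH (l + 1)) +
        den ((l : ℂ) + 3 / 2) ^ 3 * ((MZ K0 ((l : ℂ) + 1 / 2) - Kr K0 l) - PH l) := by
      have e : pt ((l : ℂ) + 3 / 2) ^ 3 * ((MZ K0 ((l : ℂ) + 3 / 2) - Kr K0 (l + 1)) - PH (l + 1)) +
        den ((l : ℂ) + 3 / 2) ^ 3 * ((MZ K0 ((l : ℂ) + 1 / 2) - Kr K0 l) - PH l) =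
        pt ((l : ℂ) + 3 / 2) ^ 3 * MZ K0 ((l : ℂ) + 3 / 2) +
          den ((l : ℂ) + 3 / 2) ^ 3 * MZ K0 ((l : ℂ) + 1 / 2) -
          (pt ((l : ℂ) + 3 / 2) ^ 3 * PH (l + 1) + den ((l : ℂ) + 3 / 2) ^ 3 * PH l) := by
        linear_combination -h2
      rw [e]
      exact h1
    have h4 := (dvd_add_left (Dvd.dvd.mul_left ih (den ((l : ℂ) + 3 / 2) ^ 3))).mp h3
    exact dvd_of_unit_mul (pt_cube_unit (nat_half_ne l)) h4

end Crest.Agent.R006.Base724
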