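import Crest.Agent.R006.EntR2_724

/-!
Row 6 (helper724): the `R`-entries of `Defs.lean` as `mu`-functionals, part 3 (final form).

`entC R ρ = ent0 R ρ - G ent1 R ρ` (the value at `X = G`).

* `entC_nonneg`  : row `(Z n, 0)`, `n ≥ 0`;
* `entC_neg`     : row `(Z (-m-1), j)`, `j ≤ 2`;
* `entC_star`    : row `(H l, j)`, `l ≥ 0`, `j ≤ 2`;
* `entC_w`       : row `(H (-l-1), 0)`, `R(-1/2-l) = 0`.
-/

set_option autoImplicit false

namespace Crest.Agent.R006.Base724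

open Polynomial Filter Topology
open Crest.Agent.R006.NV Crest.Agent.R006.Germ724 Crest.Agent.R006.PsiInf

/-- base change of polynomials -/
noncomputable abbrev pc (R : ℚ[X]) : ℂ[X] := R.map (algebraMap ℚ ℂ)

lemma GG_eq : D.GG = Psi724.G := rfl

/-- value of the entry at `X = G` -/
noncomputable def entC (R : ℚ[X]) (ρ : D.Row) : ℂ :=
  ((D.ent0 R ρ : ℚ) : ℂ) - (D.GG : ℂ) * ((D.ent1 R ρ : ℚ) : ℂ)

lemma entC_eq (R : ℚ[X]) (ρ : D.Row) :
    ((aeval D.GG (C (D.ent0 R ρ) - X * C (D.ent1 R ρ) : ℚ[X]) : ℝ) : ℂ) = entC R ρ := by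
  unfold entC
  simp
  exact mul_comm _ _

lemma TR_map (R : ℚ[X]) : pc (TR PsiInf.mu R) = TR (fun k => ((PsiInf.mu k : ℚ) : ℂ)) (pc R) := by
  unfold pc
  induction R using Polynomial.induction_on' with
  | add p q hp hq => rw [map_add, Polynomial.map_add, hp, hq, Polynomial.map_add, map_add]
  | monomial k c =>
    rw [TR_monomial, Polynomial.map_monomial, TR_monomial, Polynomial.map_mul, Polynomial.map_C,
      Polynomial.map_sum]
    congr 1
    refine Finset.sum_congr rfl fun i _ => ?_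
    rw [Polynomial.map_mul, Polynomial.map_C, Polynomial.map_pow, Polynomial.map_X]
    rfl

lemma coeff_mp (j : ℕ) (a : PowerSeries ℚ) :
    PowerSeries.coeff j (mp a) = ((PowerSeries.coeff j a : ℚ) : ℂ) := by
  unfold mp
  rw [PowerSeries.coeff_map]; rfl

/-- `entC` as a coefficient over `ℂ` -/
lemma entC_coeff (R : ℚ[X]) (z : D.Site) (j : ℕ) :
    entC R (z, j) = PowerSeries.coeff j
      (gm (z.val : ℂ) (pc R) * (mp (D.psi0 z) - PowerSeries.C (Psi724.G : ℂ) * mp (D.psi1 z)) -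
        gm (z.val : ℂ) (TR (fun k => ((PsiInf.mu k : ℚ) : ℂ)) (pc R))) := by
  unfold entC D.ent0 D.ent1
  rw [← coeff_mp, ← coeff_mp, ← TR_map]
  simp only [GG_eq]
  have e1 : mp (gm z.val R * D.psi0 z - gm z.val (D.tau R)) =
      gm (z.val : ℂ) (pc R) * mp (D.psi0 z) - gm (z.val : ℂ) (pc (TR PsiInf.mu R)) := by
    rw [← mp_gm, ← mp_gm]
    simp only [mp, map_sub, map_mul]
    rfl
  have e2 : mp (gm z.val R * D.psi1 z) = gm (z.val : ℂ) (pc R) * mp (D.psi1 z) := by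
    rw [← mp_gm]
    simp only [mp, map_mul]
  rw [e1, e2, ← PowerSeries.coeff_C_mul, ← map_sub]
  congr 1
  ring

lemma coeff_eq_of_dvd {k j : ℕ} (hj : j < k) {g a b c : PowerSeries ℂ}
    (h : (PowerSeries.X : PowerSeries ℂ) ^ k ∣ a - b) :
    PowerSeries.coeff j (g * b - c) = PowerSeries.coeff j (g * a - c) := by
  have h1 : (PowerSeries.X : PowerSeries ℂ) ^ k ∣ g * (a - b) := Dvd.dvd.mul_left h _
  have h2 := (PowerSeries.X_pow_dvd_iff.mp h1) j hj
  have e : g * a - c = (g * b - c) + g * (a - b) := by ring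
  rw [e, map_add, h2, add_zero]

variable {K0 : PowerSeries ℂ}

/-- row `(Z n, 0)`, `n ≥ 0` -/
theorem Adm.entC_nonneg (h : Adm K0) (R : ℚ[X]) (n : ℕ) :
    entC R (D.Site.Z n, 0) = mu K0 (fun s => (pc R).eval s * (s - n) ^ (-1 : ℤ)) := by
  have h1 := mu_mul_zpow K0 (off_nat n) (pc R) 0
  rw [h.mm_eq] at h1
  have e1 : (-1 - ((0 : ℕ) : ℤ)) = -1 := by norm_num
  rw [e1] at h1
  rw [h1, entC_coeff]
  have ev : (((D.Site.Z n).val : ℚ) : ℂ) = (n : ℂ) := by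
    simp [D.Site.val]
  rw [ev]
  have h2 := h.nonneg_chain n
  have e2 : (((n : ℤ) : ℂ)) = (n : ℂ) := by push_cast; rfl
  rw [e2] at h2
  exact coeff_eq_of_dvd (by norm_num) h2

/-- row `(Z (-m-1), j)`, `j ≤ 2` -/
theorem Adm.entC_neg (h : Adm K0) (R : ℚ[X]) (m j : ℕ) (hj : j ≤ 2) :
    entC R (D.Site.Z (-(m : ℤ) - 1), j) =
      mu K0 (fun s => (pc R).eval s * (s - ((-(m : ℤ) - 1 : ℤ) : ℂ)) ^ (-1 - (j : ℤ))) := by
  rw [mu_mul_zpow K0 (off_int _) (pc R) j, h.mm_eq, entC_coeff]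
  have ev : (((D.Site.Z (-(m : ℤ) - 1)).val : ℚ) : ℂ) = ((-(m : ℤ) - 1 : ℤ) : ℂ) := by
    simp [D.Site.val]
  rw [ev]
  exact coeff_eq_of_dvd (by omega) (h.neg_chain m)

/-- row `(H l, j)`, `l ≥ 0`, `j ≤ 2` -/
theorem Adm.entC_star (h : Adm K0) (R : ℚ[X]) (l j : ℕ) (hj : j ≤ 2) :
    entC R (D.Site.H l, j) =
      mu K0 (fun s => (pc R).eval s * (s - ((l : ℂ) + 1 / 2)) ^ (-1 - (j : ℤ))) -
        PowerSeries.coeff j (gm ((l : ℂ) + 1 / 2) (pc R) * Kr K0 l) := by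
  rw [mu_mul_zpow K0 (off_half l) (pc R) j, h.mm_eq, entC_coeff]
  have ev : (((D.Site.H l).val : ℚ) : ℂ) = (l : ℂ) + 1 / 2 := by
    simp [D.Site.val]
  rw [ev]
  have e0 : mp (D.psi0 (D.Site.H l)) - PowerSeries.C (Psi724.G : ℂ) * mp (D.psi1 (D.Site.H l)) =
      PH l := by
    have : D.psi1 (D.Site.H l) = 0 := rfl
    rw [this]
    simp only [mp, map_zero, mul_zero, sub_zero]
    rfl
  rw [e0, ← map_sub]
  have h2 := h.star_chain l
  have e := coeff_eq_of_dvd (g := gm ((l : ℂ) + 1 / 2) (pc R))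
    (c := gm ((l : ℂ) + 1 / 2) (TR (fun k => ((PsiInf.mu k : ℚ) : ℂ)) (pc R)))
    (show j < 3 by omega) h2
  rw [e]
  congr 1
  ring

/-- row `(H (-l-1), 0)` when `R` vanishes there -/
theorem Adm.entC_w (h : Adm K0) (R : ℚ[X]) (l : ℕ) (hR : (pc R).eval (site l) = 0) :
    entC R (D.Site.H (-(l : ℤ) - 1), 0) =
      mu K0 (fun s => ((pc R) /ₘ (X - C (site l))).eval s) := by
  rw [entC_coeff, h.mu_eval]
  have ev : (((D.Site.H (-(l : ℤ) - 1)).val : ℚ) : ℂ) = site l := by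
    unfold site
    simp [D.Site.val]
    ring
  rw [ev, map_sub, coeff_zero_mul]
  have e0 : ∀ P : ℂ[X], PowerSeries.coeff 0 (gm (site l) P) = P.eval (site l) := by
    intro P
    unfold gm
    rw [Polynomial.coeff_coe, taylor_coeff_zero]
  rw [e0, e0, hR, zero_mul, zero_sub, eval_TR]

end Crest.Agent.R006.Base724
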