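import Crest.Agent.R006.Asm_378

/-!
# Row 6: the final sum for `SN` (helper378)

Targets per `u²` (normalisation of `Defs`): `α_arch = -748`, `α₂ = 1455`, `α₃ = 162`,
`α_odd = -446`; `-748 + 1455 log 2 + 162 log 3 - 446 < 0`.
-/

set_option autoImplicit false

namespace Crest.Agent.R006.D

lemma log3_lt : Real.log 3 < 1.0987 := by
  have h := Real.log_two_lt_d9
  have h2 : Real.log 3 = Real.log 2 + Real.log (3 / 2) := by
    rw [← Real.log_mul (by norm_num) (by norm_num)]; norm_num
  have h3 : Real.log (3 / 2) < 0.4055 := by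
    rw [Real.log_lt_iff_lt_exp (by norm_num)]
    have := Real.sum_le_exp_of_nonneg (x := 0.4055) (by norm_num) 7
    refine lt_of_lt_of_le ?_ this
    norm_num [Finset.sum_range_succ, Nat.factorial]
  rw [h2]; linarith

/-- the final numerical inequality with the slack made explicit -/
theorem final_sum {aA a2 aO : ℝ} (h2 : a2 ≤ 1455) (h : aA + aO ≤ -1187) :
    aA + a2 * Real.log 2 + 162 * Real.log 3 + aO < 0 := by
  have hl2 := Real.log_two_lt_d9
  have hl2' := Real.log_two_gt_d9
  have hl3 := log3_lt
  have : a2 * Real.log 2 ≤ 1455 * Real.log 2 := by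
    apply mul_le_mul_of_nonneg_right h2; linarith
  nlinarith

/-- the statement of `S0006` from the three remaining blocks, for the frozen shape -/
theorem final_378 {K : ℕ} (hK : 0 < K) {aA a2 aO : ℝ} (hA : ArchK SN 40 K aA)
    (h2 : AtPrime SN 40 2 a2) (hO : Odd SN 40 aO) (h2' : a2 ≤ 1455) (h : aA + aO ≤ -1187) :
    Irrational GG :=
  irr_of hK hA h2 hO (final_sum h2' h)

end Crest.Agent.R006.D
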