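import Crest.Agent.R006.Shape_378
import Crest.Agent.R006.MainK_464
import Crest.Agent.R006.NVKer_938
import Crest.Agent.R006.P57_Close_939

/-!
# Row 6: the final wiring for the frozen shape `SN` (helper89)

`final`: P2 (938), P7 (241, 537, 939) are in; open inputs are `Arch` (P3), `AtPrime 2` (P6) and
`Odd` (P4 + P5 + P8).
-/

set_option autoImplicit false

namespace Crest.Agent.R006.Fin89

open Crest.Agent.R006.D

lemma log_three_lt : Real.log 3 < 1.0989 := by
  have h1 : (3 : ℝ) ^ 41 < 2 ^ 65 := by norm_num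
  have h2 : Real.log ((3 : ℝ) ^ 41) < Real.log (2 ^ 65) := Real.log_lt_log (by positivity) h1
  rw [Real.log_pow, Real.log_pow] at h2
  have h3 := Real.log_two_lt_d9
  push_cast at h2
  linarith

/-- P7 for `SN` -/
theorem SN_three (c : ℕ) : AtPrime SN c 3 162 := by
  have h := P57M.p7_939 SN c (by simp)
  have e : ((((SN.a1 + SN.a2 + SN.i1 + SN.r1 + SN.k : ℕ) : ℝ) - (SN.q : ℕ)) ^ 2 / 2) = 162 := by
    simp only [SN_a1, SN_a2, SN_i1, SN_r1, SN_k, SN_q]
    norm_num
  rw [e] at h
  exact h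

/-- **final wiring**, `Arch` only for `u = K v`. -/
theorem final {K : ℕ} (hK : 0 < K) {αa α2 αo : ℝ} (hA : ArchK SN 40 K αa)
    (h2 : AtPrime SN 40 2 α2) (ho : Odd SN 40 αo)
    (hsum : αa + α2 * Real.log 2 + αo < -178.03) : Irrational GG := by
  refine mainK SN 40 K hK (αa := αa) (α2 := α2) (α3 := 162) (αo := αo) ?_
    (NV_of_good SN_good (le_refl 40)) hA h2 (SN_three 40) ho
  have := log_three_lt
  linarith

/-- with `α2 = 1455` (the true minimum is `40727/28 = 1454.5357`, helper618) -/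
theorem final' {K : ℕ} (hK : 0 < K) {αa αo : ℝ} (hA : ArchK SN 40 K αa)
    (h2 : AtPrime SN 40 2 1455) (ho : Odd SN 40 αo)
    (hsum : αa + αo < -1186.6) : Irrational GG := by
  refine final hK hA h2 ho ?_
  have := Real.log_two_lt_d9
  linarith

/-- with `α2 = 40727/28` -/
theorem final'' {K : ℕ} (hK : 0 < K) {αa αo : ℝ} (hA : ArchK SN 40 K αa)
    (h2 : AtPrime SN 40 2 (40727 / 28)) (ho : Odd SN 40 αo)
    (hsum : αa + αo < -1186.3) : Irrational GG := by
  refine final hK hA h2 ho ?_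
  have := Real.log_two_lt_d9
  linarith

/-- the literal statement of `S0006` -/
theorem literal (h : Irrational GG) :
    Irrational (∑' j : ℕ, (-1 : ℝ) ^ j / ((2 * j + 1 : ℝ) ^ 2)) := h

end Crest.Agent.R006.Fin89
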