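import Mathlib

/-!
Row 6 (S0006), block P4/P1 (helper170).

* `Lam a : A[X] →ₗ[A] A`, the linear functional with moments `a : ℕ → A` (`Lam a (X^i) = a i`), over
  an arbitrary commutative ring `A`; naturality `Lam_map` in the ring.
* `Key a` : the key identity `Lam (X^3 P + (2X+1)^3 P(X+1)) = 0` for all `P : A[X]`.
* `Key.iter` : the `m`-fold key identity.
* `exists_key` : if `9` is invertible in `A`, then for all `x y z : A` there is a moment sequence with
  `Key`, `a 0 = x`, `a 1 = y`, `a 2 = z`; `key_unique` : uniqueness.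
-/

set_option autoImplicit false

open Polynomial Finset

namespace Crest.Agent.R006.FuncLx170

variable {A B : Type*} [CommRing A] [CommRing B]

/-- The `A`-linear functional on `A[X]` with moments `a`. -/
noncomputable def Lam (a : ℕ → A) : A[X] →ₗ[A] A :=
  Polynomial.lsum (fun i => LinearMap.toSpanSingleton A A (a i))

theorem Lam_apply (a : ℕ → A) (f : A[X]) : Lam a f = f.sum (fun i c => c * a i) := by
  simp only [Lam, Polynomial.lsum_apply]
  rfl

theorem Lam_monomial (a : ℕ → A) (i : ℕ) (c : A) : Lam a (monomial i c) = c * a i := by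
  rw [Lam_apply, Polynomial.sum_monomial_index _ _ (by simp)]

theorem Lam_C_mul (a : ℕ → A) (c : A) (f : A[X]) : Lam a (C c * f) = c * Lam a f := by
  rw [← smul_eq_C_mul, map_smul, smul_eq_mul]

theorem Lam_X_pow (a : ℕ → A) (i : ℕ) : Lam a (X ^ i) = a i := by
  rw [X_pow_eq_monomial, Lam_monomial, one_mul]

theorem Lam_one (a : ℕ → A) : Lam a 1 = a 0 := by
  simpa using Lam_X_pow a 0

theorem Lam_C (a : ℕ → A) (c : A) : Lam a (C c) = c * a 0 := by
  have := Lam_C_mul a c 1
  rwa [mul_one, Lam_one] at this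

theorem Lam_X (a : ℕ → A) : Lam a X = a 1 := by
  simpa using Lam_X_pow a 1

theorem Lam_natCast_mul (a : ℕ → A) (n : ℕ) (f : A[X]) :
    Lam a ((n : A[X]) * f) = (n : A) * Lam a f := by
  have : ((n : ℕ) : A[X]) = C (n : A) := by simp
  rw [this, Lam_C_mul]

/-- Naturality in the ring. -/
theorem Lam_map (φ : A →+* B) (a : ℕ → A) (f : A[X]) :
    Lam (fun i => φ (a i)) (f.map φ) = φ (Lam a f) := by
  induction f using Polynomial.induction_on' with
  | add p q hp hq => simp [hp, hq]
  | monomial n c => rw [Polynomial.map_monomial, Lam_monomial, Lam_monomial, map_mul]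

/-- Two functionals which agree on the powers of `X` are equal. -/
theorem Lam_unique (a : ℕ → A) (F : A[X] →ₗ[A] A) (h : ∀ i, F (X ^ i) = a i) : F = Lam a := by
  apply LinearMap.ext
  intro f
  induction f using Polynomial.induction_on' with
  | add p q hp hq => simp [hp, hq]
  | monomial n c =>
    rw [Lam_monomial, ← C_mul_X_pow_eq_monomial, ← smul_eq_C_mul, map_smul, h, smul_eq_mul]

/-- The key identity. -/
def Key (a : ℕ → A) : Prop :=
  ∀ P : A[X], Lam a (X ^ 3 * P + (2 * X + 1) ^ 3 * P.comp (X + 1)) = 0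

/-- It is enough to know the key identity on the powers of `X`. -/
theorem key_of_pow (a : ℕ → A)
    (h : ∀ j : ℕ, Lam a (X ^ 3 * X ^ j + (2 * X + 1) ^ 3 * (X + 1) ^ j) = 0) : Key a := by
  intro P
  induction P using Polynomial.induction_on' with
  | add p q hp hq =>
    rw [add_comp]
    have : X ^ 3 * (p + q) + (2 * X + 1) ^ 3 * (p.comp (X + 1) + q.comp (X + 1))
        = (X ^ 3 * p + (2 * X + 1) ^ 3 * p.comp (X + 1))
          + (X ^ 3 * q + (2 * X + 1) ^ 3 * q.comp (X + 1)) := by ring
    rw [this, map_add, hp, hq, add_zero]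
  | monomial n c =>
    rw [← C_mul_X_pow_eq_monomial]
    have : X ^ 3 * (C c * X ^ n) + (2 * X + 1) ^ 3 * (C c * X ^ n).comp (X + 1)
        = C c * (X ^ 3 * X ^ n + (2 * X + 1) ^ 3 * (X + 1) ^ n) := by
      simp only [mul_comp, C_comp, pow_comp, X_comp]
      ring
    rw [this, Lam_C_mul, h, mul_zero]

theorem Key.map {a : ℕ → A} (h : Key a) (φ : A →+* B) : Key (fun i => φ (a i)) := by
  apply key_of_pow
  intro j
  have h1 := h (X ^ j)
  have h2 : (X ^ 3 * X ^ j + (2 * X + 1) ^ 3 * (X + 1) ^ j : B[X])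
      = (X ^ 3 * X ^ j + (2 * X + 1) ^ 3 * ((X : A[X]) ^ j).comp (X + 1)).map φ := by
    simp
  rw [h2, Lam_map, h1, map_zero]

theorem Key.apply {a : ℕ → A} (h : Key a) (P : A[X]) :
    Lam a (X ^ 3 * P) = - Lam a ((2 * X + 1) ^ 3 * P.comp (X + 1)) := by
  have := h P
  rw [map_add] at this
  exact eq_neg_of_add_eq_zero_left this

/-- `theta m = X (X-1) ... (X-m+1)`. -/
noncomputable def theta (A : Type*) [CommRing A] (m : ℕ) : A[X] :=
  ∏ j ∈ range m, (X - (j : A[X]))

/-- `thetap m = (2X+1)(2X+3) ... (2X+2m-1)`. -/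
noncomputable def thetap (A : Type*) [CommRing A] (m : ℕ) : A[X] :=
  ∏ j ∈ range m, (2 * X + (2 * (j : A[X]) + 1))

theorem theta_map (φ : A →+* B) (m : ℕ) : (theta A m).map φ = theta B m := by
  simp [theta, Polynomial.map_prod]

theorem thetap_map (φ : A →+* B) (m : ℕ) : (thetap A m).map φ = thetap B m := by
  simp [thetap, Polynomial.map_prod]

theorem theta_monic (m : ℕ) : (theta A m).Monic := by
  unfold theta
  apply monic_prod_of_monic
  intro i _
  have : (X - (i : A[X])) = X - C (i : A) := by simp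
  rw [this]
  exact monic_X_sub_C _

/-- The `m`-fold key identity. -/
theorem Key.iter {a : ℕ → A} (h : Key a) (m : ℕ) : ∀ P : A[X],
    Lam a (theta A m ^ 3 * P)
      = (-1) ^ m * Lam a (thetap A m ^ 3 * P.comp (X + (m : A[X]))) := by
  induction m with
  | zero => intro P; simp [theta, thetap]
  | succ m ih =>
    intro P
    have e1 : theta A (m + 1) = X * ∏ j ∈ range m, (X - ((j + 1 : ℕ) : A[X])) := by
      unfold theta
      rw [Finset.prod_range_succ']
      simp [mul_comm]
    have e2 : (∏ j ∈ range m, (X - ((j + 1 : ℕ) : A[X]))).comp (X + 1) = theta A m := by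
      unfold theta
      rw [Polynomial.prod_comp]
      apply Finset.prod_congr rfl
      intro j _
      simp only [sub_comp, X_comp, natCast_comp]
      push_cast
      ring
    rw [e1]
    have e3 : (X * ∏ j ∈ range m, (X - ((j + 1 : ℕ) : A[X]))) ^ 3 * P
        = X ^ 3 * ((∏ j ∈ range m, (X - ((j + 1 : ℕ) : A[X]))) ^ 3 * P) := by ring
    rw [e3, h.apply, mul_comp, pow_comp, e2]
    have e4 : (2 * X + 1) ^ 3 * (theta A m ^ 3 * P.comp (X + 1))
        = theta A m ^ 3 * ((2 * X + 1) ^ 3 * P.comp (X + 1)) := by ring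
    rw [e4, ih]
    have e51 : ((2 * X + 1 : A[X])).comp (X + (m : A[X])) = 2 * X + (2 * (m : A[X]) + 1) := by
      simp only [mul_comp, add_comp, X_comp, one_comp, ofNat_comp]
      ring
    have e52 : ((X + 1 : A[X])).comp (X + (m : A[X])) = X + ((m + 1 : ℕ) : A[X]) := by
      simp only [add_comp, X_comp, one_comp]
      push_cast
      ring
    have e5 : ((2 * X + 1) ^ 3 * P.comp (X + 1)).comp (X + (m : A[X]))
        = (2 * X + (2 * (m : A[X]) + 1)) ^ 3 * P.comp (X + ((m + 1 : ℕ) : A[X])) := by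
      rw [mul_comp, pow_comp, e51, comp_assoc, e52]
    rw [e5]
    have e6 : thetap A (m + 1) = thetap A m * (2 * X + (2 * (m : A[X]) + 1)) := by
      unfold thetap
      rw [Finset.prod_range_succ]
    rw [e6]
    have e7 : thetap A m ^ 3
          * ((2 * X + (2 * (m : A[X]) + 1)) ^ 3 * P.comp (X + ((m + 1 : ℕ) : A[X])))
        = (thetap A m * (2 * X + (2 * (m : A[X]) + 1))) ^ 3
          * P.comp (X + ((m + 1 : ℕ) : A[X])) := by ring
    rw [e7]
    ring

/-! ### existence and uniqueness -/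

/-- the polynomial `X^3 X^j + (2X+1)^3 (X+1)^j`. -/
noncomputable def Qp (A : Type*) [CommRing A] (j : ℕ) : A[X] :=
  X ^ 3 * X ^ j + (2 * X + 1) ^ 3 * (X + 1) ^ j

theorem Qp_natDegree_le (j : ℕ) : (Qp A j).natDegree ≤ j + 3 := by
  unfold Qp
  compute_degree!
  omega

theorem Qp_coeff (j : ℕ) : (Qp A j).coeff (j + 3) = 9 := by
  have h1 : (X ^ 3 * X ^ j : A[X]).coeff (j + 3) = 1 := by
    rw [← pow_add, coeff_X_pow]; simp [add_comm]
  have h2 : ((2 * X + 1) ^ 3 * (X + 1) ^ j : A[X]).coeff (3 + j * 1)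
      = ((2 * X + 1) ^ 3 : A[X]).coeff 3 * ((X + 1) ^ j : A[X]).coeff (j * 1) := by
    apply coeff_mul_add_eq_of_natDegree_le
    · compute_degree!
    · compute_degree!
  have h3 : ((2 * X + 1) ^ 3 : A[X]).coeff (3 * 1) = (2 * X + 1 : A[X]).coeff 1 ^ 3 :=
    coeff_pow_of_natDegree_le (by compute_degree!)
  have h4 : ((X + 1) ^ j : A[X]).coeff (j * 1) = (X + 1 : A[X]).coeff 1 ^ j :=
    coeff_pow_of_natDegree_le (by compute_degree!)
  have h5 : (2 * X + 1 : A[X]).coeff 1 = 2 := by
    have : (2 * X : A[X]) = C 2 * X := by rw [show (C (2:A) : A[X]) = 2 from rfl]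
    rw [coeff_add, this, coeff_C_mul, coeff_X_one, coeff_one]; simp
  have h6 : (X + 1 : A[X]).coeff 1 = 1 := by
    rw [coeff_add, coeff_X_one, coeff_one]; simp
  unfold Qp
  rw [coeff_add, h1]
  have e : j + 3 = 3 + j * 1 := by omega
  rw [e, h2, h4, h6, show (3 : ℕ) = 3 * 1 from rfl, h3, h5]
  norm_num

theorem Lam_eq_sum_range (a : ℕ → A) (f : A[X]) (n : ℕ) (h : f.natDegree < n) :
    Lam a f = ∑ i ∈ range n, f.coeff i * a i := by
  rw [Lam_apply]
  exact f.sum_over_range' (by simp) n h

/-- the moment sequence determined by the key identity and the first three moments. -/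
noncomputable def seq (u x y z : A) : ℕ → A
  | 0 => x
  | 1 => y
  | 2 => z
  | (n + 3) => - u * ∑ i : Fin (n + 3), (Qp A n).coeff i * seq u x y z i
termination_by n => n
decreasing_by exact i.2

theorem seq_key (u x y z : A) (hu : 9 * u = 1) : Key (seq u x y z) := by
  apply key_of_pow
  intro j
  have h := Lam_eq_sum_range (seq u x y z) (Qp A j) (j + 3 + 1)
    (Nat.lt_succ_of_le (Qp_natDegree_le j))
  unfold Qp at h
  rw [h, Finset.sum_range_succ]
  change (∑ i ∈ range (j + 3), (Qp A j).coeff i * seq u x y z i)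
    + (Qp A j).coeff (j + 3) * seq u x y z (j + 3) = 0
  rw [Qp_coeff, seq, Finset.sum_range]
  linear_combination (- ∑ i : Fin (j + 3), (Qp A j).coeff i * seq u x y z i) * hu

theorem exists_key (u x y z : A) (hu : 9 * u = 1) :
    ∃ a : ℕ → A, Key a ∧ a 0 = x ∧ a 1 = y ∧ a 2 = z :=
  ⟨seq u x y z, seq_key u x y z hu, by rw [seq], by rw [seq], by rw [seq]⟩

/-- uniqueness: two moment sequences with the key identity and the same first three moments. -/
theorem key_unique {a b : ℕ → A} (ha : Key a) (hb : Key b) (h9 : ∀ x : A, 9 * x = 0 → x = 0)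
    (h0 : a 0 = b 0) (h1 : a 1 = b 1) (h2 : a 2 = b 2) : a = b := by
  funext n
  induction n using Nat.strong_induction_on with
  | _ n ih =>
    match n, ih with
    | 0, _ => exact h0
    | 1, _ => exact h1
    | 2, _ => exact h2
    | (j + 3), ih =>
      have ea := ha (X ^ j)
      have eb := hb (X ^ j)
      have hQ : (X ^ 3 * X ^ j + (2 * X + 1) ^ 3 * ((X : A[X]) ^ j).comp (X + 1)) = Qp A j := by
        simp [Qp]
      rw [hQ, Lam_eq_sum_range _ (Qp A j) (j + 3 + 1)
        (Nat.lt_succ_of_le (Qp_natDegree_le j)), Finset.sum_range_succ, Qp_coeff] at ea eb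
      have hs : ∑ i ∈ range (j + 3), (Qp A j).coeff i * a i
          = ∑ i ∈ range (j + 3), (Qp A j).coeff i * b i := by
        apply Finset.sum_congr rfl
        intro i hi
        rw [ih i (Finset.mem_range.1 hi)]
      have : 9 * (a (j + 3) - b (j + 3)) = 0 := by
        linear_combination ea - eb - hs
      exact sub_eq_zero.1 (h9 _ this)

end Crest.Agent.R006.FuncLx170
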