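import Mathlib

/-!
Row 6 (Catalan's constant), block P1, the `g1` side (helper186).

* `g1 z = (Γ(z+1/2)/Γ(z+1))^2/π`, `g1 n = C(2n,n)^2/16^n` (`g1_nat`), recurrence `g1_rec`.
* `g1L z = (Γ(-z)/Γ(1/2-z))^2/π`, `J1 z = g1L z / cos^2(π z)`.
* `J1_sub` : `J1 z - g1L z = g1 z` away from the half-integers, `Re z < 0`.
* `norm_g1_le`, `norm_g1L_le`: bounds by the real values (Beta integral).
-/

set_option autoImplicit false

namespace Crest.Agent.R006.G1x186

open Complex Filter Topology MeasureTheory Set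

/-- The ratio `Γ(w)/Γ(w+1/2)` (so `√π` times it is `B(w,1/2)`). -/
noncomputable def gr (w : ℂ) : ℂ := Gamma w * (Gamma (w + 1 / 2))⁻¹

/-- The complex function `g1`. -/
noncomputable def g1 (z : ℂ) : ℂ := gr (z + 1 / 2) ^ 2 / Real.pi

noncomputable def g1L (z : ℂ) : ℂ := gr (-z) ^ 2 / Real.pi

noncomputable def J1 (z : ℂ) : ℂ := g1L z / Complex.cos (Real.pi * z) ^ 2

/-- real version of `gr`. -/
noncomputable def grR (x : ℝ) : ℝ := Real.Gamma x / Real.Gamma (x + 1 / 2)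

lemma gr_ofReal (x : ℝ) : gr x = (grR x : ℂ) := by
  unfold gr grR
  have h : (x : ℂ) + 1 / 2 = ((x + 1 / 2 : ℝ) : ℂ) := by push_cast; ring
  rw [h, Complex.Gamma_ofReal, Complex.Gamma_ofReal]
  rw [Complex.ofReal_div]
  exact (div_eq_mul_inv _ _).symm

lemma grR_pos {x : ℝ} (hx : 0 < x) : 0 < grR x :=
  div_pos (Real.Gamma_pos_of_pos hx) (Real.Gamma_pos_of_pos (by linarith))

/-- `√π Γ(w)/Γ(w+1/2) = B(w,1/2)`. -/
lemma gr_eq_beta {w : ℂ} (hw : 0 < w.re) :
    gr w = betaIntegral w (1 / 2) / Gamma (1 / 2) := by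
  have h := Complex.Gamma_mul_Gamma_eq_betaIntegral (s := w) (t := 1 / 2) hw (by norm_num)
  have h1 : Gamma (w + 1 / 2) ≠ 0 :=
    Complex.Gamma_ne_zero_of_re_pos (by simp; linarith)
  have h2 : Gamma (1 / 2 : ℂ) ≠ 0 := Complex.Gamma_ne_zero_of_re_pos (by norm_num)
  unfold gr
  rw [← div_eq_mul_inv, div_eq_div_iff h1 h2, h]
  ring

/-- `|B(w,1/2)| ≤ B(Re w,1/2)`, in the form of the Gamma ratio. -/
lemma norm_gr_le {w : ℂ} (hw : 0 < w.re) : ‖gr w‖ ≤ grR w.re := by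
  have h2 : Gamma (1 / 2 : ℂ) ≠ 0 := Complex.Gamma_ne_zero_of_re_pos (by norm_num)
  have hr : ((grR w.re : ℝ) : ℂ) = betaIntegral (w.re : ℂ) (1 / 2) / Gamma (1 / 2) := by
    rw [← gr_ofReal, gr_eq_beta (by simpa using hw)]
  have hpos := grR_pos hw
  have key : ‖betaIntegral w (1 / 2)‖ ≤ ‖betaIntegral (w.re : ℂ) (1 / 2)‖ := by
    have e : ∀ v : ℂ, ∀ x ∈ Set.Ioo (0 : ℝ) 1,
        ‖(x : ℂ) ^ (v - 1) * (1 - (x : ℂ)) ^ ((1 / 2 : ℂ) - 1)‖
          = x ^ (v.re - 1) * (1 - x) ^ ((1 / 2 : ℝ) - 1) := by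
      intro v x hx
      have hx1 : (1 : ℂ) - (x : ℂ) = ((1 - x : ℝ) : ℂ) := by push_cast; ring
      rw [norm_mul, hx1, Complex.norm_cpow_eq_rpow_re_of_pos hx.1,
        Complex.norm_cpow_eq_rpow_re_of_pos (by linarith [hx.2])]
      norm_num
    have hreal : betaIntegral (w.re : ℂ) (1 / 2) =
        ((∫ x in (0 : ℝ)..1, x ^ (w.re - 1) * (1 - x) ^ ((1 / 2 : ℝ) - 1) : ℝ) : ℂ) := by
      unfold betaIntegral
      rw [← intervalIntegral.integral_ofReal]
      rw [intervalIntegral.integral_of_le (by norm_num), intervalIntegral.integral_of_le (by norm_num),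
        integral_Ioc_eq_integral_Ioo, integral_Ioc_eq_integral_Ioo]
      apply setIntegral_congr_fun measurableSet_Ioo
      intro x hx
      have hx1 : (1 : ℂ) - (x : ℂ) = ((1 - x : ℝ) : ℂ) := by push_cast; ring
      simp only
      rw [hx1]
      push_cast [Complex.ofReal_cpow hx.1.le, Complex.ofReal_cpow (show (0:ℝ) ≤ 1 - x by linarith [hx.2])]
      norm_num
    have hnn : 0 ≤ ∫ x in (0 : ℝ)..1, x ^ (w.re - 1) * (1 - x) ^ ((1 / 2 : ℝ) - 1) := by
      rw [intervalIntegral.integral_of_le (by norm_num), integral_Ioc_eq_integral_Ioo]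
      apply setIntegral_nonneg measurableSet_Ioo
      intro x hx
      exact mul_nonneg (Real.rpow_nonneg hx.1.le _) (Real.rpow_nonneg (by linarith [hx.2]) _)
    rw [hreal, Complex.norm_real, Real.norm_of_nonneg hnn]
    unfold betaIntegral
    refine (intervalIntegral.norm_integral_le_integral_norm (by norm_num)).trans ?_
    rw [intervalIntegral.integral_of_le (by norm_num), intervalIntegral.integral_of_le (by norm_num),
      integral_Ioc_eq_integral_Ioo, integral_Ioc_eq_integral_Ioo]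
    apply le_of_eq
    apply setIntegral_congr_fun measurableSet_Ioo
    intro x hx
    exact e w x hx
  have h3 : ‖gr w‖ ≤ ‖((grR w.re : ℝ) : ℂ)‖ := by
    rw [hr, gr_eq_beta hw, norm_div, norm_div]
    exact div_le_div_of_nonneg_right key (norm_nonneg _)
  rwa [Complex.norm_real, Real.norm_of_nonneg hpos.le] at h3

lemma norm_g1_le {z : ℂ} (hz : -1 / 2 < z.re) :
    ‖g1 z‖ ≤ grR (z.re + 1 / 2) ^ 2 / Real.pi := by
  unfold g1
  have h : 0 < (z + 1 / 2).re := by simp; linarith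
  have h1 := norm_gr_le h
  have h2 : (z + 1 / 2).re = z.re + 1 / 2 := by simp
  rw [h2] at h1
  rw [norm_div, norm_pow, Complex.norm_real, Real.norm_of_nonneg Real.pi_pos.le]
  exact div_le_div_of_nonneg_right (pow_le_pow_left₀ (norm_nonneg _) h1 2) Real.pi_pos.le

lemma norm_g1L_le {z : ℂ} (hz : z.re < 0) :
    ‖g1L z‖ ≤ grR (-z.re) ^ 2 / Real.pi := by
  unfold g1L
  have h : 0 < (-z).re := by simp; linarith
  have h1 := norm_gr_le h
  have h2 : (-z).re = -z.re := by simp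
  rw [h2] at h1
  rw [norm_div, norm_pow, Complex.norm_real, Real.norm_of_nonneg Real.pi_pos.le]
  exact div_le_div_of_nonneg_right (pow_le_pow_left₀ (norm_nonneg _) h1 2) Real.pi_pos.le

/-! ### reflection -/

lemma inv_Gamma_add_one {z : ℂ} (hz : z.re < 0) :
    (Gamma (z + 1))⁻¹ = -(Gamma (-z) * Complex.sin (Real.pi * z)) / Real.pi := by
  have hpi : (Real.pi : ℂ) ≠ 0 := by exact_mod_cast Real.pi_ne_zero
  have h := Complex.Gamma_mul_Gamma_one_sub (-z)
  have e1 : 1 - -z = z + 1 := by ring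
  have e2 : (Real.pi : ℂ) * -z = -(Real.pi * z) := by ring
  rw [e1, e2, Complex.sin_neg] at h
  have hG : Gamma (-z) ≠ 0 := Complex.Gamma_ne_zero_of_re_pos (by simpa using hz)
  by_cases hs : Complex.sin (Real.pi * z) = 0
  · rw [hs] at h ⊢
    simp only [neg_zero, div_zero, mul_eq_zero] at h
    rcases h with h | h
    · exact absurd h hG
    · rw [h]; simp
  · have hG1 : Gamma (z + 1) ≠ 0 := by
      intro h0
      rw [h0, mul_zero] at h
      have := div_ne_zero hpi (neg_ne_zero.mpr hs)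
      exact this h.symm
    rw [eq_div_iff (neg_ne_zero.mpr hs)] at h
    rw [inv_eq_one_div, div_eq_div_iff hG1 hpi]
    linear_combination -h

lemma Gamma_add_half {z : ℂ} (hz : z.re < 0) (hc : Complex.cos (Real.pi * z) ≠ 0) :
    Gamma (z + 1 / 2) = Real.pi / (Complex.cos (Real.pi * z) * Gamma (1 / 2 - z)) := by
  have h := Complex.Gamma_mul_Gamma_one_sub (z + 1 / 2)
  have e1 : 1 - (z + 1 / 2) = 1 / 2 - z := by ring
  have e2 : (Real.pi : ℂ) * (z + 1 / 2) = Real.pi * z + Real.pi / 2 := by ring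
  rw [e1, e2, Complex.sin_add_pi_div_two] at h
  have hG : Gamma (1 / 2 - z) ≠ 0 := Complex.Gamma_ne_zero_of_re_pos (by simp; linarith)
  rw [eq_div_iff (mul_ne_zero hc hG)]
  rw [eq_div_iff hc] at h
  linear_combination h

/-- `g1 = tan^2(π z) g1L` for `Re z < 0`. -/
lemma g1_reflect {z : ℂ} (hz : z.re < 0) (hc : Complex.cos (Real.pi * z) ≠ 0) :
    g1 z = Complex.sin (Real.pi * z) ^ 2 / Complex.cos (Real.pi * z) ^ 2 * g1L z := by
  have hpi : (Real.pi : ℂ) ≠ 0 := by exact_mod_cast Real.pi_ne_zero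
  have hG : Gamma (1 / 2 - z) ≠ 0 := Complex.Gamma_ne_zero_of_re_pos (by simp; linarith)
  unfold g1 g1L gr
  have e1 : z + 1 / 2 + 1 / 2 = z + 1 := by ring
  have e2 : -z + 1 / 2 = 1 / 2 - z := by ring
  rw [e1, e2, inv_Gamma_add_one hz, Gamma_add_half hz hc]
  field_simp

/-- the jump: `J1 = g1 + g1L` for `Re z < 0`. -/
lemma J1_eq {z : ℂ} (hz : z.re < 0) (hc : Complex.cos (Real.pi * z) ≠ 0) :
    J1 z = g1 z + g1L z := by
  rw [g1_reflect hz hc]
  unfold J1
  have h := Complex.sin_sq_add_cos_sq (Real.pi * z)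
  have hc2 : Complex.cos (Real.pi * z) ^ 2 ≠ 0 := pow_ne_zero 2 hc
  field_simp
  linear_combination -(g1L z) * h

/-! ### differentiability -/

lemma differentiableAt_g1L {z : ℂ} (hz : z.re < 0) : DifferentiableAt ℂ g1L z := by
  unfold g1L gr
  have h1 : DifferentiableAt ℂ (fun z : ℂ => Gamma (-z)) z := by
    have : DifferentiableAt ℂ Gamma (-z) := by
      apply Complex.differentiableAt_Gamma
      intro m h
      have := congrArg Complex.re h
      simp at this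
      have hm : (0 : ℝ) ≤ m := Nat.cast_nonneg m
      linarith
    exact DifferentiableAt.comp (f := fun z : ℂ => -z) z this (by fun_prop)
  have h2 : DifferentiableAt ℂ (fun z : ℂ => (Gamma (-z + 1 / 2))⁻¹) z := by
    exact DifferentiableAt.comp (f := fun z : ℂ => -z + 1 / 2) z
      (Complex.differentiable_one_div_Gamma (-z + 1 / 2)) (by fun_prop)
  exact ((h1.mul h2).pow 2).div_const _

lemma differentiableAt_g1 {z : ℂ} (hz : ∀ l : ℕ, z ≠ -1 / 2 - l) : DifferentiableAt ℂ g1 z := by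
  unfold g1 gr
  have h1 : DifferentiableAt ℂ (fun z : ℂ => Gamma (z + 1 / 2)) z := by
    have : DifferentiableAt ℂ Gamma (z + 1 / 2) := by
      apply Complex.differentiableAt_Gamma
      intro m h
      apply hz m
      linear_combination h
    exact DifferentiableAt.comp (f := fun z : ℂ => z + 1 / 2) z this (by fun_prop)
  have h2 : DifferentiableAt ℂ (fun z : ℂ => (Gamma (z + 1 / 2 + 1 / 2))⁻¹) z := by
    exact DifferentiableAt.comp (f := fun z : ℂ => z + 1 / 2 + 1 / 2) z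
      (Complex.differentiable_one_div_Gamma (z + 1 / 2 + 1 / 2)) (by fun_prop)
  exact ((h1.mul h2).pow 2).div_const _

/-- bound for the real ratio: `(Γ(x)/Γ(x+1/2))^2 ≤ (x+1/2)/x^2`. -/
lemma grR_sq_le {x : ℝ} (hx : 0 < x) : grR x ^ 2 ≤ (x + 1 / 2) / x ^ 2 := by
  have h := Real.Gamma_mul_add_mul_le_rpow_Gamma_mul_rpow_Gamma (s := x + 1 / 2) (t := x + 3 / 2)
    (a := 1 / 2) (b := 1 / 2) (by linarith) (by linarith) (by norm_num) (by norm_num) (by norm_num)
  have e1 : (1 / 2 : ℝ) * (x + 1 / 2) + 1 / 2 * (x + 3 / 2) = x + 1 := by ring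
  have e2 : x + 3 / 2 = (x + 1 / 2) + 1 := by ring
  have hG1 : 0 < Real.Gamma (x + 1 / 2) := Real.Gamma_pos_of_pos (by linarith)
  have hG0 : 0 < Real.Gamma x := Real.Gamma_pos_of_pos hx
  rw [e1, e2, Real.Gamma_add_one hx.ne', Real.Gamma_add_one (by linarith : x + 1 / 2 ≠ 0),
    ← Real.mul_rpow hG1.le (by positivity)] at h
  have h3 : (x * Real.Gamma x) ^ 2 ≤ (x + 1 / 2) * Real.Gamma (x + 1 / 2) ^ 2 := by
    have h4 := pow_le_pow_left₀ (by positivity) h 2
    rw [← Real.rpow_natCast ((Real.Gamma (x + 1 / 2) * ((x + 1 / 2) * Real.Gamma (x + 1 / 2))) ^ (1 / 2 : ℝ)) 2,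
      ← Real.rpow_mul (by positivity)] at h4
    norm_num at h4
    nlinarith [h4]
  unfold grR
  rw [div_pow, div_le_div_iff₀ (by positivity) (by positivity)]
  nlinarith [h3]

/-! ### lower bound for the cosine and the bound for `J1` -/

lemma norm_cos_sq (x y : ℝ) :
    ‖Complex.cos (Real.pi * (x + y * I))‖ ^ 2 = Real.sinh (Real.pi * y) ^ 2 + Real.cos (Real.pi * x) ^ 2 := by
  have e : (Real.pi : ℂ) * (x + y * I) = ((Real.pi * x : ℝ) : ℂ) + ((Real.pi * y : ℝ) : ℂ) * I := by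
    push_cast; ring
  rw [e, Complex.cos_add, Complex.cos_mul_I, Complex.sin_mul_I, ← Complex.ofReal_cos,
    ← Complex.ofReal_sin, ← Complex.ofReal_cosh, ← Complex.ofReal_sinh]
  rw [← Complex.normSq_eq_norm_sq, Complex.normSq_apply]
  simp only [Complex.sub_re, Complex.sub_im, Complex.mul_re, Complex.mul_im, Complex.ofReal_re,
    Complex.ofReal_im, Complex.I_re, Complex.I_im]
  have h1 := Real.sin_sq_add_cos_sq (Real.pi * x)
  have h2 := Real.cosh_sq (Real.pi * y)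
  nlinarith [h1, h2]

lemma exp_le_one_add_two_sinh {t : ℝ} (ht : 0 ≤ t) : Real.exp t ≤ 1 + 2 * Real.sinh t := by
  have h1 := Real.cosh_add_sinh t
  have h2 := Real.cosh_sub_sinh t
  have h3 : Real.exp (-t) ≤ 1 := Real.exp_le_one_iff.mpr (by linarith)
  linarith

/-- lower bound of the cosine off the discs of radius `1/8` around the half-integers. -/
lemma exp_le_norm_cos {s : ℂ} (hd : ∀ k : ℤ, 1 / 8 ≤ ‖s - (k + 1 / 2)‖) :
    Real.exp (Real.pi * |s.im|) ≤ 6 * ‖Complex.cos (Real.pi * s)‖ := by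
  set x := s.re with hx
  set y := s.im with hy
  have hs : s = x + y * I := by rw [hx, hy, Complex.re_add_im]
  have hcos := norm_cos_sq x y
  rw [← hs] at hcos
  set N := ‖Complex.cos (Real.pi * s)‖ with hN
  have hN0 : 0 ≤ N := norm_nonneg _
  have hpi := Real.pi_gt_three
  -- nearest half-integer
  set k := round (x - 1 / 2) with hk
  set u := x - 1 / 2 - k with hu
  have hu2 : |u| ≤ 1 / 2 := abs_sub_round _
  have hcosx : Real.cos (Real.pi * x) ^ 2 = Real.sin (Real.pi * u) ^ 2 := by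
    have e : Real.pi * x = (Real.pi * u + Real.pi / 2) + k * Real.pi := by rw [hu]; ring
    rw [e, Real.cos_add_int_mul_pi, Real.cos_add_pi_div_two]
    rcases Int.even_or_odd k with h | h
    · rw [h.neg_one_zpow]; ring
    · rw [h.neg_one_zpow]; ring
  have hsin : (2 * u) ^ 2 ≤ Real.sin (Real.pi * u) ^ 2 := by
    have h1 : 2 / Real.pi * (Real.pi * |u|) ≤ Real.sin (Real.pi * |u|) :=
      Real.mul_le_sin (by positivity) (by nlinarith [Real.pi_pos, abs_nonneg u])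
    have h2 : 2 / Real.pi * (Real.pi * |u|) = 2 * |u| := by field_simp
    rw [h2] at h1
    have h3 : Real.sin (Real.pi * |u|) ^ 2 = Real.sin (Real.pi * u) ^ 2 := by
      rcases abs_cases u with ⟨h, _⟩ | ⟨h, _⟩
      · rw [h]
      · rw [h, mul_neg, Real.sin_neg, neg_sq]
    have h4 := pow_le_pow_left₀ (by positivity) h1 2
    rw [h3, mul_pow, sq_abs, ← mul_pow] at h4
    exact h4
  have hsinh : (Real.pi * |y|) ^ 2 ≤ Real.sinh (Real.pi * y) ^ 2 := by
    have h1 : Real.pi * |y| ≤ Real.sinh (Real.pi * |y|) := Real.self_le_sinh_iff.mpr (by positivity)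
    have h3 : Real.sinh (Real.pi * |y|) ^ 2 = Real.sinh (Real.pi * y) ^ 2 := by
      rcases abs_cases y with ⟨h, _⟩ | ⟨h, _⟩
      · rw [h]
      · rw [h, mul_neg, Real.sinh_neg, neg_sq]
    rw [← h3]
    exact pow_le_pow_left₀ (by positivity) h1 2
  have hdist := hd k
  have hnorm : ‖s - (k + 1 / 2)‖ ^ 2 = u ^ 2 + y ^ 2 := by
    rw [← Complex.normSq_eq_norm_sq, Complex.normSq_apply]
    have h1 : (s - ((k : ℂ) + 1 / 2)).re = u := by
      simp [hu, hx]; ring
    have h2 : (s - ((k : ℂ) + 1 / 2)).im = y := by simp [hy]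
    rw [h1, h2]; ring
  have hN1 : 1 / 4 ≤ N := by
    have h1 : (1 / 8) ^ 2 ≤ ‖s - ((k : ℂ) + 1 / 2)‖ ^ 2 := pow_le_pow_left₀ (by norm_num) hdist 2
    rw [hnorm] at h1
    have h2 : (1 / 4 : ℝ) ^ 2 ≤ N ^ 2 := by
      rw [hcos, hcosx]
      have h3 : (2 * y) ^ 2 ≤ (Real.pi * |y|) ^ 2 := by
        rw [mul_pow, mul_pow, sq_abs]
        exact mul_le_mul_of_nonneg_right (by nlinarith) (sq_nonneg y)
      nlinarith [h3, hsinh, hsin, h1]
    exact abs_le_of_sq_le_sq' h2 hN0 |>.2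
  have hN2 : Real.sinh (Real.pi * |y|) ≤ N := by
    have h3 : Real.sinh (Real.pi * |y|) ^ 2 = Real.sinh (Real.pi * y) ^ 2 := by
      rcases abs_cases y with ⟨h, _⟩ | ⟨h, _⟩
      · rw [h]
      · rw [h, mul_neg, Real.sinh_neg, neg_sq]
    have h4 : Real.sinh (Real.pi * |y|) ^ 2 ≤ N ^ 2 := by
      rw [hcos, h3]; nlinarith [sq_nonneg (Real.cos (Real.pi * x))]
    exact abs_le_of_sq_le_sq' h4 hN0 |>.2
  have h5 := exp_le_one_add_two_sinh (t := Real.pi * |y|) (by positivity)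
  linarith

/-- **Bound of the jump** off the discs of radius `1/8` around the sites `-1/2-l`. -/
theorem norm_J1_le {s : ℂ} (hs : s.re ≤ -1 / 4) (hd : ∀ l : ℕ, 1 / 8 ≤ ‖s - (-1 / 2 - l)‖) :
    ‖J1 s‖ ≤ 36 / (-s.re) * Real.exp (-(2 * Real.pi * |s.im|)) := by
  have hx : 0 < -s.re := by linarith
  have hd' : ∀ k : ℤ, 1 / 8 ≤ ‖s - (k + 1 / 2)‖ := by
    intro k
    rcases lt_or_ge k 0 with hk | hk
    · obtain ⟨l, hl⟩ := Int.eq_ofNat_of_zero_le (show 0 ≤ -k - 1 by omega)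
      have e : (k : ℂ) = -1 - (l : ℂ) := by
        have : k = -1 - (l : ℤ) := by omega
        rw [this]; push_cast; ring
      have := hd l
      rw [e]
      have e2 : s - (-1 - (l : ℂ) + 1 / 2) = s - (-1 / 2 - l) := by ring
      rwa [e2]
    · have h1 := Complex.abs_re_le_norm (s - (k + 1 / 2))
      have h2 : (s - ((k : ℂ) + 1 / 2)).re = s.re - k - 1 / 2 := by simp; ring
      rw [h2] at h1
      have h3 : (0 : ℝ) ≤ k := by exact_mod_cast hk
      have h4 : |s.re - k - 1 / 2| = -(s.re - k - 1 / 2) := abs_of_nonpos (by linarith)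
      rw [h4] at h1
      linarith
  have hcos := exp_le_norm_cos hd'
  have hcpos : 0 < ‖Complex.cos (Real.pi * s)‖ := by
    have := Real.exp_pos (Real.pi * |s.im|)
    linarith
  unfold J1
  rw [norm_div, norm_pow]
  have h1 := norm_g1L_le (z := s) (by linarith)
  have h2 := grR_sq_le hx
  have h3 : ‖g1L s‖ ≤ 1 / (-s.re) := by
    refine h1.trans ?_
    rw [div_le_div_iff₀ Real.pi_pos hx]
    rw [le_div_iff₀ (by positivity)] at h2
    have h4 : grR (-s.re) ^ 2 * (-s.re) ^ 2 ≤ 3 * (-s.re) := by linarith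
    have h5 : grR (-s.re) ^ 2 * (-s.re) ≤ 3 := by
      have : grR (-s.re) ^ 2 * (-s.re) * (-s.re) ≤ 3 * (-s.re) := by linarith
      exact le_of_mul_le_mul_right this hx
    linarith [Real.pi_gt_three]
  have h4 : Real.exp (2 * Real.pi * |s.im|) ≤ 36 * ‖Complex.cos (Real.pi * s)‖ ^ 2 := by
    have h5 : Real.exp (2 * Real.pi * |s.im|) = Real.exp (Real.pi * |s.im|) ^ 2 := by
      rw [← Real.exp_nat_mul]; congr 1; push_cast; ring
    rw [h5]
    have := pow_le_pow_left₀ (Real.exp_pos _).le hcos 2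
    linarith
  rw [Real.exp_neg, div_le_iff₀ (by positivity)]
  have h6 : 1 ≤ 36 * (Real.exp (2 * Real.pi * |s.im|))⁻¹ * ‖Complex.cos (Real.pi * s)‖ ^ 2 := by
    have hE := Real.exp_pos (2 * Real.pi * |s.im|)
    have : 1 ≤ (36 * ‖Complex.cos (Real.pi * s)‖ ^ 2) / Real.exp (2 * Real.pi * |s.im|) := by
      rw [le_div_iff₀ hE]; linarith
    calc (1 : ℝ) ≤ _ := this
      _ = _ := by rw [div_eq_mul_inv]; ring
  calc ‖g1L s‖ ≤ 1 / (-s.re) := h3
    _ = 1 / (-s.re) * 1 := (mul_one _).symm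
    _ ≤ 1 / (-s.re) * (36 * (Real.exp (2 * Real.pi * |s.im|))⁻¹ * ‖Complex.cos (Real.pi * s)‖ ^ 2) :=
      mul_le_mul_of_nonneg_left h6 (by positivity)
    _ = _ := by ring

/-- values at the natural numbers. -/
lemma g1_zero : g1 0 = 1 := by
  unfold g1 gr
  have h1 : (0 : ℂ) + 1 / 2 = 1 / 2 := by norm_num
  have h2 : (0 : ℂ) + 1 / 2 + 1 / 2 = 1 := by norm_num
  rw [h2, h1, Complex.Gamma_one, Complex.Gamma_one_half_eq]
  have hpi : (Real.pi : ℂ) ≠ 0 := by exact_mod_cast Real.pi_ne_zero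
  rw [inv_one, mul_one, ← Complex.cpow_nat_mul]
  norm_num [hpi]

/-- the recurrence `z^2 g1 z = (z-1/2)^2 g1 (z-1)`. -/
lemma g1_rec {z : ℂ} (hz : z ≠ 1 / 2) : z ^ 2 * g1 z = (z - 1 / 2) ^ 2 * g1 (z - 1) := by
  unfold g1 gr
  have e1 : z + 1 / 2 = (z - 1 / 2) + 1 := by ring
  have e2 : z - 1 + 1 / 2 = z - 1 / 2 := by ring
  have e3 : z - 1 / 2 + 1 / 2 = z := by ring
  have hz' : z - 1 / 2 ≠ 0 := sub_ne_zero.mpr hz
  have h1 : Gamma (z + 1 / 2) = (z - 1 / 2) * Gamma (z - 1 / 2) := by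
    rw [e1, Complex.Gamma_add_one _ hz']
  have h2 : z * (Gamma (z + 1 / 2 + 1 / 2))⁻¹ = (Gamma z)⁻¹ := by
    have e4 : z + 1 / 2 + 1 / 2 = z + 1 := by ring
    rw [e4, ← Complex.one_div_Gamma_eq_self_mul_one_div_Gamma_add_one]
  rw [e2, e3, h1]
  have h3 : z ^ 2 * (((z - 1 / 2) * Gamma (z - 1 / 2) * (Gamma (z + 1 / 2 + 1 / 2))⁻¹) ^ 2 / (Real.pi : ℂ))
      = (z - 1 / 2) ^ 2 * ((Gamma (z - 1 / 2) * (z * (Gamma (z + 1 / 2 + 1 / 2))⁻¹)) ^ 2 / (Real.pi : ℂ)) := by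
    ring
  rw [h3, h2]

lemma g1_nat (n : ℕ) : g1 n = ((n.centralBinom : ℂ)) ^ 2 / 16 ^ n := by
  induction n with
  | zero => simp [g1_zero]
  | succ n ih =>
    have h1 : ((n + 1 : ℕ) : ℂ) ≠ 1 / 2 := by
      intro h
      have h' : ((2 * (n + 1) : ℕ) : ℂ) = ((1 : ℕ) : ℂ) := by
        push_cast at h ⊢
        rw [h]; norm_num
      have := Nat.cast_injective h'
      omega
    have h2 := g1_rec h1
    have e : ((n + 1 : ℕ) : ℂ) - 1 = n := by push_cast; ring
    rw [e, ih] at h2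
    have h3 : ((n + 1 : ℕ) : ℂ) ≠ 0 := by exact_mod_cast Nat.succ_ne_zero n
    have h4 : ((n + 1 : ℕ) : ℂ) * ((n + 1).centralBinom : ℂ) = 2 * (2 * n + 1) * (n.centralBinom : ℂ) := by
      exact_mod_cast congrArg (Nat.cast (R := ℂ)) (Nat.succ_mul_centralBinom_succ n)
    have h5 : ((n + 1 : ℕ) : ℂ) ^ 2 * g1 ((n + 1 : ℕ) : ℂ)
        = ((n + 1 : ℕ) : ℂ) ^ 2 * (((n + 1).centralBinom : ℂ) ^ 2 / 16 ^ (n + 1)) := by
      rw [h2]
      have h6 : ((n + 1 : ℕ) : ℂ) ^ 2 * (((n + 1).centralBinom : ℂ) ^ 2 / 16 ^ (n + 1))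
          = (((n + 1 : ℕ) : ℂ) * ((n + 1).centralBinom : ℂ)) ^ 2 / 16 ^ (n + 1) := by ring
      rw [h6, h4]
      push_cast
      rw [pow_succ]
      field_simp
      ring
    exact mul_left_cancel₀ (pow_ne_zero 2 h3) h5

end Crest.Agent.R006.G1x186
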