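import Crest.Agent.R006.NVLocal_664

/-!
Row 6 (helper724): Taylor germs of analytic functions, `T f z : ℂ⟦X⟧`.

`T` is additive and multiplicative on analytic germs, `T p z = gm z p` for polynomials,
`T (f (· + a)) z = T f (z + a)`, and
`∮ f(w)/(w-z)^(n+1) = 2πi coeff n (T f z)`.
-/

set_option autoImplicit false

namespace Crest.Agent.R006.Germ724

open Polynomial Filter Topology
open Crest.Agent.R006.NV

/-- Taylor series of `f` at `z`, in the local parameter. -/
noncomputable def T (f : ℂ → ℂ) (z : ℂ) : PowerSeries ℂ :=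
  PowerSeries.mk fun n => iteratedDeriv n f z / (n.factorial : ℂ)

lemma coeff_T (f : ℂ → ℂ) (z : ℂ) (n : ℕ) :
    PowerSeries.coeff n (T f z) = iteratedDeriv n f z / (n.factorial : ℂ) := by
  simp [T]

lemma constantCoeff_T (f : ℂ → ℂ) (z : ℂ) : PowerSeries.constantCoeff (T f z) = f z := by
  rw [← PowerSeries.coeff_zero_eq_constantCoeff_apply, coeff_T]
  simp

lemma T_congr {f g : ℂ → ℂ} {z : ℂ} (h : f =ᶠ[𝓝 z] g) : T f z = T g z := by
  ext n
  rw [coeff_T, coeff_T, h.iteratedDeriv_eq n]

lemma T_add {f g : ℂ → ℂ} {z : ℂ} (hf : AnalyticAt ℂ f z) (hg : AnalyticAt ℂ g z) :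
    T (fun s => f s + g s) z = T f z + T g z := by
  ext n
  rw [map_add, coeff_T, coeff_T, coeff_T]
  have := iteratedDeriv_add (n := n) (hf.contDiffAt) (hg.contDiffAt)
  have e : (fun s => f s + g s) = f + g := rfl
  rw [e, this, add_div]

lemma T_neg {f : ℂ → ℂ} {z : ℂ} : T (fun s => -f s) z = -T f z := by
  ext n
  rw [map_neg, coeff_T, coeff_T]
  rw [iteratedDeriv_fun_neg, neg_div]

lemma T_sub {f g : ℂ → ℂ} {z : ℂ} (hf : AnalyticAt ℂ f z) (hg : AnalyticAt ℂ g z) :
    T (fun s => f s - g s) z = T f z - T g z := by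
  ext n
  rw [map_sub, coeff_T, coeff_T, coeff_T]
  have := iteratedDeriv_sub (n := n) (hf.contDiffAt) (hg.contDiffAt)
  have e : (fun s => f s - g s) = f - g := rfl
  rw [e, this, sub_div]

lemma T_mul {f g : ℂ → ℂ} {z : ℂ} (hf : AnalyticAt ℂ f z) (hg : AnalyticAt ℂ g z) :
    T (fun s => f s * g s) z = T f z * T g z := by
  ext n
  rw [PowerSeries.coeff_mul, coeff_T]
  have := iteratedDeriv_mul (n := n) (hf.contDiffAt) (hg.contDiffAt)
  have e : (fun s => f s * g s) = f * g := rfl
  rw [e, this, Finset.Nat.sum_antidiagonal_eq_sum_range_succ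
    (fun i j => PowerSeries.coeff i (T f z) * PowerSeries.coeff j (T g z)), Finset.sum_div]
  apply Finset.sum_congr rfl
  intro i hi
  rw [Finset.mem_range, Nat.lt_succ_iff] at hi
  rw [coeff_T, coeff_T]
  have h1 : (i.factorial : ℂ) ≠ 0 := by exact_mod_cast i.factorial_ne_zero
  have h2 : ((n - i).factorial : ℂ) ≠ 0 := by exact_mod_cast (n - i).factorial_ne_zero
  have h3 : (n.factorial : ℂ) ≠ 0 := by exact_mod_cast n.factorial_ne_zero
  have h4 : (n.choose i : ℂ) * i.factorial * (n - i).factorial = n.factorial := by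
    exact_mod_cast Nat.choose_mul_factorial_mul_factorial hi
  field_simp
  linear_combination (iteratedDeriv i f z * iteratedDeriv (n - i) g z) * h4

lemma T_const (c z : ℂ) : T (fun _ => c) z = PowerSeries.C c := by
  ext n
  rw [coeff_T, PowerSeries.coeff_C, iteratedDeriv_const]
  split_ifs with h
  · simp [h]
  · simp

lemma T_id (z : ℂ) : T (fun s => s) z = pt z := by
  ext n
  rw [coeff_T, pt, map_add, PowerSeries.coeff_X, PowerSeries.coeff_C]
  rcases n with _ | _ | n
  · simp
  · simp [iteratedDeriv_one]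
  · have : iteratedDeriv (n + 1 + 1) (fun s : ℂ => s) z = 0 := by
      rw [iteratedDeriv_succ']
      have : deriv (fun s : ℂ => s) = fun _ => 1 := by
        ext s; exact deriv_id s
      rw [this, iteratedDeriv_const]
      simp
    rw [this]
    simp

lemma T_pow {f : ℂ → ℂ} {z : ℂ} (hf : AnalyticAt ℂ f z) (k : ℕ) :
    T (fun s => f s ^ k) z = T f z ^ k := by
  induction k with
  | zero => simp [T_const]
  | succ k ih =>
    have : (fun s => f s ^ (k + 1)) = fun s => f s ^ k * f s := by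
      ext s; rw [pow_succ]
    rw [this, T_mul (hf.fun_pow k) hf, ih, pow_succ]

lemma analyticAt_eval (p : ℂ[X]) (z : ℂ) : AnalyticAt ℂ (fun s => p.eval s) z := by
  have : Differentiable ℂ (fun s => p.eval s) := p.differentiable
  exact (this.analyticAt z)

lemma T_eval (p : ℂ[X]) (z : ℂ) : T (fun s => p.eval s) z = gm z p := by
  induction p using Polynomial.induction_on' with
  | add p q hp hq =>
    have : (fun s => (p + q).eval s) = fun s => p.eval s + q.eval s := by
      ext s; simp
    rw [this, T_add (analyticAt_eval p z) (analyticAt_eval q z), hp, hq, gm_add]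
  | monomial n a =>
    have : (fun s => (monomial n a).eval s) = fun s => a * s ^ n := by
      ext s; simp
    have hid : AnalyticAt ℂ (fun s : ℂ => s) z := analyticAt_id
    rw [this, T_mul analyticAt_const (hid.fun_pow n), T_const,
      T_pow hid, ← C_mul_X_pow_eq_monomial, gm_mul, gm_C, gm_pow, gm_X, T_id]

lemma T_shift (f : ℂ → ℂ) (z a : ℂ) : T (fun s => f (s + a)) z = T f (z + a) := by
  ext n
  rw [coeff_T, coeff_T, iteratedDeriv_comp_add_const]

lemma T_inv {f : ℂ → ℂ} {z : ℂ} (hf : AnalyticAt ℂ f z) (h0 : f z ≠ 0) :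
    T (fun s => (f s)⁻¹) z = (T f z)⁻¹ := by
  have h1 : T (fun s => f s * (f s)⁻¹) z = 1 := by
    have : (fun s => f s * (f s)⁻¹) =ᶠ[𝓝 z] fun _ => (1 : ℂ) := by
      filter_upwards [hf.continuousAt.eventually_ne h0] with s hs
      exact mul_inv_cancel₀ hs
    rw [T_congr this, T_const, map_one]
  rw [T_mul hf (hf.fun_inv h0)] at h1
  have h2 : PowerSeries.constantCoeff (T f z) ≠ 0 := by
    rw [constantCoeff_T]; exact h0
  rw [PowerSeries.eq_inv_iff_mul_eq_one h2, mul_comm]
  exact h1

lemma T_div {f g : ℂ → ℂ} {z : ℂ} (hf : AnalyticAt ℂ f z) (hg : AnalyticAt ℂ g z)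
    (h0 : g z ≠ 0) : T (fun s => f s / g s) z = T f z * (T g z)⁻¹ := by
  have : (fun s => f s / g s) = fun s => f s * (g s)⁻¹ := by
    ext s; rw [div_eq_mul_inv]
  rw [this, T_mul hf (hg.fun_inv h0), T_inv hg h0]

/-- Cauchy: Taylor coefficients are circle integrals. -/
theorem circle_eq {f : ℂ → ℂ} {z : ℂ} {r : ℝ} (hr : 0 < r)
    (hf : DifferentiableOn ℂ f (Metric.closedBall z r)) (n : ℕ) :
    (∮ w in C(z, r), f w / (w - z) ^ (n + 1)) =
      2 * Real.pi * Complex.I * PowerSeries.coeff n (T f z) := by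
  have := DifferentiableOn.circleIntegral_one_div_sub_center_pow_smul hr n hf
  have e : (∮ w in C(z, r), f w / (w - z) ^ (n + 1)) =
      ∮ w in C(z, r), (1 / (w - z) ^ (n + 1)) • f w := by
    congr 1
    ext w
    rw [smul_eq_mul, one_div, div_eq_mul_inv, mul_comm]
  rw [e, this, coeff_T, smul_eq_mul]
  ring

end Crest.Agent.R006.Germ724
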