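import Crest.Agent.R006.G1Polar_186
import Crest.Agent.R006.Germ_724
import Crest.Agent.R006.Map_189
import Crest.Agent.R006.Defs

/-!
Row 6 (Catalan's constant), g1 side (helper186): the germs of the frozen definitions (`Defs`) are
the Taylor germs of `g1` (rows `Z i`) and of `g1L` (rows `H i`).
-/

set_option autoImplicit false

namespace Crest.Agent.R006.G1x186

open Complex Filter Topology Set
open Crest.Agent.R006.PsiJ Crest.Agent.R006.Germ724 Crest.Agent.R006.NV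

/-! ### analyticity -/

lemma analyticAt_Gamma {w : ℂ} (hw : ∀ m : ℕ, w ≠ -m) : AnalyticAt ℂ Gamma w := by
  have h1 : AnalyticAt ℂ (fun s : ℂ => (Gamma s)⁻¹) w :=
    Complex.differentiable_one_div_Gamma.analyticAt w
  have h2 : (Gamma w)⁻¹ ≠ 0 := inv_ne_zero (Complex.Gamma_ne_zero hw)
  have h3 := h1.fun_inv h2
  simpa only [inv_inv] using h3

lemma analyticAt_gr {w : ℂ} (hw : ∀ m : ℕ, w ≠ -m) : AnalyticAt ℂ gr w := by
  have h1 : AnalyticAt ℂ (fun s : ℂ => (Gamma s)⁻¹) (w + 1 / 2) :=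
    Complex.differentiable_one_div_Gamma.analyticAt _
  have h2 : AnalyticAt ℂ (fun s : ℂ => (Gamma (s + 1 / 2))⁻¹) w :=
    AnalyticAt.comp (f := fun s : ℂ => s + 1 / 2) h1 (analyticAt_id.add analyticAt_const)
  exact (analyticAt_Gamma hw).mul h2

lemma analyticAt_g1 {z : ℂ} (hz : ∀ l, z ≠ ce l) : AnalyticAt ℂ g1 z := by
  have h1 : AnalyticAt ℂ gr (z + 1 / 2) := by
    apply analyticAt_gr
    intro m h
    apply hz m
    rw [ce_eq]
    linear_combination h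
  have h2 : AnalyticAt ℂ (fun s : ℂ => gr (s + 1 / 2)) z :=
    AnalyticAt.comp (f := fun s : ℂ => s + 1 / 2) h1 (analyticAt_id.add analyticAt_const)
  have h3 := (h2.fun_pow 2).fun_mul (analyticAt_const (v := (Real.pi : ℂ)⁻¹))
  exact h3

lemma analyticAt_g1L {z : ℂ} (hz : ∀ n : ℕ, z ≠ n) : AnalyticAt ℂ g1L z := by
  have h1 : AnalyticAt ℂ gr (-z) := by
    apply analyticAt_gr
    intro m h
    apply hz m
    linear_combination -h
  have h2 : AnalyticAt ℂ (fun s : ℂ => gr (-s)) z :=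
    AnalyticAt.comp (f := fun s : ℂ => -s) h1 analyticAt_id.neg
  have h3 := (h2.fun_pow 2).fun_mul (analyticAt_const (v := (Real.pi : ℂ)⁻¹))
  exact h3

/-! ### recurrences -/

lemma gr_rec {w : ℂ} (hw : w ≠ 0) : (w + 1 / 2) * gr (w + 1) = w * gr w := by
  unfold gr
  have h1 := Complex.one_div_Gamma_eq_self_mul_one_div_Gamma_add_one (w + 1 / 2)
  have e : w + 1 + 1 / 2 = w + 1 / 2 + 1 := by ring
  rw [e, h1, Complex.Gamma_add_one w hw]
  ring

lemma g1L_rec {s : ℂ} (hs : s ≠ 0) : s ^ 2 * g1L s = (s - 1 / 2) ^ 2 * g1L (s - 1) := by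
  unfold g1L
  have h := gr_rec (w := -s) (neg_ne_zero.mpr hs)
  have e : -(s - 1) = -s + 1 := by ring
  rw [e]
  have h2 : ((-s + 1 / 2) * gr (-s + 1)) ^ 2 = (-s * gr (-s)) ^ 2 := by rw [h]
  linear_combination (-(1 : ℂ) / Real.pi) * h2

lemma g1L_ce (l : ℕ) : g1L (ce l) = g1 l := by
  unfold g1L g1
  have : -ce l = (l : ℂ) + 1 / 2 := by rw [ce_eq]; ring
  rw [this]

lemma g1L_neg_half : g1L (-(1 / 2)) = 1 := by
  have h := g1L_ce 0
  have e : ce 0 = -(1 / 2) := by rw [ce_eq]; push_cast; ring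
  rw [e] at h
  rw [h]
  push_cast
  exact g1_zero

lemma T_shift_neg (f : ℂ → ℂ) (z : ℂ) : T (fun s => f (s - 1)) z = T f (z - 1) := by
  have := T_shift f z (-1)
  simpa [sub_eq_add_neg] using this

/-- germ recurrence of a function with `s^2 f(s) = (s-1/2)^2 f(s-1)` near `z`. -/
lemma T_rec {f : ℂ → ℂ} {z : ℂ} (h1 : AnalyticAt ℂ f z) (h2 : AnalyticAt ℂ f (z - 1))
    (hr : ∀ᶠ s in 𝓝 z, s ^ 2 * f s = (s - 1 / 2) ^ 2 * f (s - 1)) :
    pt z ^ 2 * T f z = (pt z - PowerSeries.C (1 / 2)) ^ 2 * T f (z - 1) := by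
  have hid : AnalyticAt ℂ (fun s : ℂ => s) z := analyticAt_id
  have h3 : AnalyticAt ℂ (fun s : ℂ => f (s - 1)) z :=
    AnalyticAt.comp (f := fun s : ℂ => s - 1) h2 (analyticAt_id.sub analyticAt_const)
  have h4 : AnalyticAt ℂ (fun s : ℂ => s - 1 / 2) z := analyticAt_id.sub analyticAt_const
  have hL : T (fun s => s ^ 2 * f s) z = pt z ^ 2 * T f z := by
    rw [T_mul (hid.fun_pow 2) h1, T_pow hid, T_id]
  have hR : T (fun s => (s - 1 / 2) ^ 2 * f (s - 1)) z =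
      (pt z - PowerSeries.C (1 / 2)) ^ 2 * T f (z - 1) := by
    rw [T_mul (h4.fun_pow 2) h3, T_pow h4, T_sub hid analyticAt_const, T_id, T_const, T_shift_neg]
  rw [← hL, ← hR]
  exact T_congr hr

lemma T_g1_rec {z : ℂ} (hz : ∀ l, z ≠ ce l) (hz1 : ∀ l, z - 1 ≠ ce l) :
    pt z ^ 2 * T g1 z = (pt z - PowerSeries.C (1 / 2)) ^ 2 * T g1 (z - 1) := by
  apply T_rec (analyticAt_g1 hz) (analyticAt_g1 hz1)
  have hne : z ≠ 1 / 2 := by
    intro h
    apply hz1 0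
    rw [h, ce_eq]
    push_cast
    ring
  filter_upwards [isOpen_ne.mem_nhds hne] with s hs
  exact g1_rec hs

lemma T_g1L_rec {z : ℂ} (hz : ∀ n : ℕ, z ≠ n) (hz1 : ∀ n : ℕ, z - 1 ≠ n) :
    pt z ^ 2 * T g1L z = (pt z - PowerSeries.C (1 / 2)) ^ 2 * T g1L (z - 1) := by
  apply T_rec (analyticAt_g1L hz) (analyticAt_g1L hz1)
  have hne : z ≠ 0 := by
    intro h
    apply hz 0
    rw [h]; simp
  filter_upwards [isOpen_ne.mem_nhds hne] with s hs
  exact g1L_rec hs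

/-! ### integers and half-integers off the sites -/

lemma int_off (i : ℤ) (l : ℕ) : (i : ℂ) ≠ ce l := by
  intro h
  have h1 : ((2 * i + 1 + 2 * l : ℤ) : ℂ) = 0 := by
    rw [ce_eq] at h
    push_cast
    linear_combination 2 * h
  have h2 : (2 * i + 1 + 2 * (l : ℤ)) = 0 := by exact_mod_cast h1
  omega

lemma half_off {i : ℤ} (hi : 0 ≤ i) (l : ℕ) : (i : ℂ) + 1 / 2 ≠ ce l := by
  intro h
  have h1 : ((i + 1 + l : ℤ) : ℂ) = 0 := by
    rw [ce_eq] at h
    push_cast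
    linear_combination h
  have h2 : (i + 1 + (l : ℤ)) = 0 := by exact_mod_cast h1
  omega

lemma half_ne_nat (i : ℤ) (n : ℕ) : (i : ℂ) + 1 / 2 ≠ n := by
  intro h
  have h1 : ((2 * i + 1 - 2 * n : ℤ) : ℂ) = 0 := by
    push_cast
    linear_combination 2 * h
  have h2 : (2 * i + 1 - 2 * (n : ℤ)) = 0 := by exact_mod_cast h1
  omega

/-! ### comparison of the germs -/

lemma dvd_of_dvd_unit_mul {a b : PowerSeries ℂ} {k : ℕ} (ha : PowerSeries.constantCoeff a ≠ 0)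
    (h : (PowerSeries.X : PowerSeries ℂ) ^ k ∣ a * b) : (PowerSeries.X : PowerSeries ℂ) ^ k ∣ b := by
  have hu : IsUnit a := PowerSeries.isUnit_iff_constantCoeff.mpr (isUnit_iff_ne_zero.mpr ha)
  exact (hu.dvd_mul_left).mp h

lemma pt_const (s : ℂ) : PowerSeries.constantCoeff (pt s) = s := constantCoeff_pt s

lemma quarter_sq (i : ℂ) : (PowerSeries.C (1 / 4) * (2 * pt i + 1) ^ 2 : PowerSeries ℂ) =
    (pt (i + 1) - PowerSeries.C (1 / 2)) ^ 2 := by
  have h1 : (PowerSeries.C (1 / 4) : PowerSeries ℂ) = PowerSeries.C (1 / 2) ^ 2 := by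
    rw [← map_pow]; congr 1; norm_num
  have h2 : (PowerSeries.C (1 / 2) * 2 : PowerSeries ℂ) = 1 := by
    have : (2 : PowerSeries ℂ) = PowerSeries.C 2 := (map_ofNat PowerSeries.C 2).symm
    rw [this, ← map_mul]; norm_num
  rw [h1, ← pt_add_one]
  have h3 : (pt i + 1 - PowerSeries.C (1 / 2) : PowerSeries ℂ) = PowerSeries.C (1 / 2) * (2 * pt i + 1) := by
    linear_combination (-(pt i) - 1) * h2
  rw [h3]
  ring

/-- difference of the germs at `Z i` -/
noncomputable def DZ (i : ℤ) : PowerSeries ℂ := GamZ i - T g1 (i : ℂ)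

lemma DZ_rec (i : ℤ) : pt ((i : ℂ) + 1) ^ 2 * DZ (i + 1) =
    (pt ((i : ℂ) + 1) - PowerSeries.C (1 / 2)) ^ 2 * DZ i := by
  have h1 := (step_Z (0 : ℂ) i).gam
  rw [quarter_sq] at h1
  have h2 := T_g1_rec (z := (i : ℂ) + 1)
    (fun l => by have := int_off (i + 1) l; push_cast at this; exact this)
    (fun l => by rw [add_sub_cancel_right]; exact int_off i l)
  rw [add_sub_cancel_right] at h2
  unfold DZ
  push_cast
  linear_combination h1 - h2

lemma DZ_zero : (PowerSeries.X : PowerSeries ℂ) ∣ DZ 0 := by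
  rw [PowerSeries.X_dvd_iff]
  unfold DZ
  rw [map_sub, constantCoeff_T, GamZ_zero]
  simp [g1_zero]

lemma DZ_nonneg (n : ℕ) : (PowerSeries.X : PowerSeries ℂ) ∣ DZ n := by
  induction n with
  | zero => exact DZ_zero
  | succ n ih =>
    have h := DZ_rec n
    have h1 : (PowerSeries.X : PowerSeries ℂ) ^ 1 ∣ pt (((n : ℤ) : ℂ) + 1) ^ 2 * DZ ((n : ℤ) + 1) := by
      rw [h, pow_one]
      exact ih.mul_left _
    have h2 := dvd_of_dvd_unit_mul (a := pt (((n : ℤ) : ℂ) + 1) ^ 2) (by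
      rw [map_pow, pt_const]
      apply pow_ne_zero
      have : ((n + 1 : ℕ) : ℂ) ≠ 0 := by exact_mod_cast Nat.succ_ne_zero n
      push_cast at this ⊢
      exact this) h1
    rw [pow_one] at h2
    have e : ((n + 1 : ℕ) : ℤ) = (n : ℤ) + 1 := by push_cast; ring
    rw [e]
    exact h2

lemma const_shift_ne (i : ℤ) :
    PowerSeries.constantCoeff ((pt ((i : ℂ) + 1) - PowerSeries.C (1 / 2)) ^ 2) ≠ 0 := by
  rw [map_pow, map_sub, pt_const, PowerSeries.constantCoeff_C]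
  apply pow_ne_zero
  intro h
  have h1 : ((2 * i + 1 : ℤ) : ℂ) = 0 := by
    push_cast
    linear_combination 2 * h
  have h2 : (2 * i + 1 : ℤ) = 0 := by exact_mod_cast h1
  omega

lemma DZ_neg (n : ℕ) : (PowerSeries.X : PowerSeries ℂ) ^ 3 ∣ DZ (-(n : ℤ) - 1) := by
  induction n with
  | zero =>
    have h := DZ_rec (-1)
    have e0 : (-1 : ℤ) + 1 = 0 := by norm_num
    have e1 : (((-1 : ℤ) : ℂ)) + 1 = 0 := by push_cast; ring
    rw [e0, e1] at h
    have hX : pt (0 : ℂ) = PowerSeries.X := by simp [pt]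
    have h1 : (PowerSeries.X : PowerSeries ℂ) ^ 3 ∣
        (pt (0 : ℂ) - PowerSeries.C (1 / 2)) ^ 2 * DZ (-1) := by
      rw [← h, hX]
      obtain ⟨c, hc⟩ := DZ_zero
      rw [hc]
      exact ⟨c, by ring⟩
    have h2 := const_shift_ne (-1)
    rw [e1] at h2
    have h3 := dvd_of_dvd_unit_mul h2 h1
    simpa using h3
  | succ n ih =>
    have h := DZ_rec (-(n : ℤ) - 2)
    have e0 : -(n : ℤ) - 2 + 1 = -(n : ℤ) - 1 := by ring
    rw [e0] at h
    have h1 : (PowerSeries.X : PowerSeries ℂ) ^ 3 ∣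
        (pt (((-(n : ℤ) - 2 : ℤ) : ℂ) + 1) - PowerSeries.C (1 / 2)) ^ 2 * DZ (-(n : ℤ) - 2) := by
      rw [← h]
      exact ih.mul_left _
    have h3 := dvd_of_dvd_unit_mul (const_shift_ne (-(n : ℤ) - 2)) h1
    have e : -((n + 1 : ℕ) : ℤ) - 1 = -(n : ℤ) - 2 := by push_cast; ring
    rw [e]
    exact h3

/-! ### half-integers -/

lemma GamH0_rec (i : ℤ) : (pt ((i : ℚ) + 1 / 2) ^ 2 * D.GamH0 (i + 1) : PowerSeries ℚ) =
    PowerSeries.C (1 / 4) * (2 * pt ((i : ℚ) - 1 / 2) + 1) ^ 2 * D.GamH0 i := by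
  have h := bi_step (K := ℚ) (a := fun i : ℤ => pt ((i : ℚ) - 1 / 2 + 1) ^ 2)
    (b := fun i : ℤ => -(PowerSeries.C (1 / 4) * (2 * pt ((i : ℚ) - 1 / 2) + 1) ^ 2))
    (c := fun _ => 0) (init := 1) (by
      intro i hi
      rw [map_pow, constantCoeff_pt]
      apply pow_ne_zero
      have : (0 : ℚ) ≤ i := by exact_mod_cast hi
      linarith) (by
      intro i hi
      rw [map_neg, map_mul, PowerSeries.constantCoeff_C, map_pow, map_add, map_mul,
        constantCoeff_pt, constantCoeff_two, map_one]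
      apply neg_ne_zero.mpr
      apply mul_ne_zero (by norm_num)
      apply pow_ne_zero
      have : (i : ℚ) < 0 := by exact_mod_cast hi
      intro h
      linarith) i
  have e : bi (fun i : ℤ => pt ((i : ℚ) - 1 / 2 + 1) ^ 2)
      (fun i : ℤ => -(PowerSeries.C (1 / 4) * (2 * pt ((i : ℚ) - 1 / 2) + 1) ^ 2)) (fun _ => 0) 1
      = D.GamH0 := rfl
  rw [e] at h
  have e2 : ((i : ℚ) - 1 / 2 + 1) = (i : ℚ) + 1 / 2 := by ring
  rw [e2] at h
  linear_combination h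

/-- the complex version of the half chain, index `i` is the point `i - 1/2` -/
noncomputable def gH0 (i : ℤ) : PowerSeries ℂ := PowerSeries.map (Rat.castHom ℂ) (D.GamH0 i)

lemma gH0_rec (i : ℤ) : pt ((i : ℂ) + 1 / 2) ^ 2 * gH0 (i + 1) =
    (pt ((i : ℂ) + 1 / 2) - PowerSeries.C (1 / 2)) ^ 2 * gH0 i := by
  have h := congrArg (PowerSeries.map (Rat.castHom ℂ)) (GamH0_rec i)
  rw [map_mul, map_pow, map_mul, map_mul, map_pow, map_add, map_mul, Map.map_pt, Map.map_pt,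
    Map.map_two, PowerSeries.map_C, map_one] at h
  have e1 : (Rat.castHom ℂ) ((i : ℚ) + 1 / 2) = (i : ℂ) + 1 / 2 := by
    simp
  have e2 : (Rat.castHom ℂ) ((i : ℚ) - 1 / 2) = (i : ℂ) - 1 / 2 := by
    simp
  have e3 : (Rat.castHom ℂ) (1 / 4) = 1 / 4 := by simp
  rw [e1, e2, e3] at h
  have e4 := quarter_sq ((i : ℂ) - 1 / 2)
  have e5 : (i : ℂ) - 1 / 2 + 1 = (i : ℂ) + 1 / 2 := by ring
  rw [e5] at e4
  rw [e4] at h
  exact h

/-- difference of the germs at `i - 1/2` -/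
noncomputable def DH (i : ℤ) : PowerSeries ℂ := gH0 i - T g1L ((i : ℂ) - 1 / 2)

lemma DH_rec (i : ℤ) : pt ((i : ℂ) + 1 / 2) ^ 2 * DH (i + 1) =
    (pt ((i : ℂ) + 1 / 2) - PowerSeries.C (1 / 2)) ^ 2 * DH i := by
  have h1 := gH0_rec i
  have h2 := T_g1L_rec (z := (i : ℂ) + 1 / 2) (fun n => half_ne_nat i n) (fun n => by
    have := half_ne_nat (i - 1) n
    push_cast at this
    intro h
    apply this
    linear_combination h)
  have e : (i : ℂ) + 1 / 2 - 1 = (i : ℂ) - 1 / 2 := by ring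
  rw [e] at h2
  unfold DH
  push_cast
  have e2 : (i : ℂ) + 1 - 1 / 2 = (i : ℂ) + 1 / 2 := by ring
  rw [e2]
  linear_combination h1 - h2

lemma DH_zero : (PowerSeries.X : PowerSeries ℂ) ∣ DH 0 := by
  rw [PowerSeries.X_dvd_iff]
  unfold DH
  have e1 : ((0 : ℤ) : ℂ) - 1 / 2 = -(1 / 2) := by push_cast; ring
  rw [map_sub, constantCoeff_T, e1, g1L_neg_half]
  have e2 : D.GamH0 0 = 1 := rfl
  unfold gH0
  rw [e2, map_one, map_one, sub_self]

lemma pt_sub_half (i : ℤ) : (pt ((i : ℂ) + 1 / 2) - PowerSeries.C (1 / 2) : PowerSeries ℂ) = pt (i : ℂ) := by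
  unfold pt
  rw [map_add]
  ring

lemma DH_nonpos (n : ℕ) : (PowerSeries.X : PowerSeries ℂ) ∣ DH (-(n : ℤ)) := by
  induction n with
  | zero => simpa using DH_zero
  | succ n ih =>
    have h := DH_rec (-(n : ℤ) - 1)
    have e0 : -(n : ℤ) - 1 + 1 = -(n : ℤ) := by ring
    rw [e0, pt_sub_half] at h
    have h1 : (PowerSeries.X : PowerSeries ℂ) ^ 1 ∣
        pt ((-(n : ℤ) - 1 : ℤ) : ℂ) ^ 2 * DH (-(n : ℤ) - 1) := by
      rw [← h, pow_one]
      exact ih.mul_left _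
    have h3 := dvd_of_dvd_unit_mul (a := pt ((-(n : ℤ) - 1 : ℤ) : ℂ) ^ 2) (by
      rw [map_pow, pt_const]
      apply pow_ne_zero
      intro h0
      have : (-(n : ℤ) - 1) = 0 := by exact_mod_cast h0
      omega) h1
    rw [pow_one] at h3
    have e : -((n + 1 : ℕ) : ℤ) = -(n : ℤ) - 1 := by push_cast; ring
    rw [e]
    exact h3

lemma DH_pos (n : ℕ) : (PowerSeries.X : PowerSeries ℂ) ^ 3 ∣ DH ((n : ℤ) + 1) := by
  induction n with
  | zero =>
    have h := DH_rec 0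
    rw [pt_sub_half] at h
    have hX : pt ((0 : ℤ) : ℂ) = PowerSeries.X := by simp [pt]
    have h1 : (PowerSeries.X : PowerSeries ℂ) ^ 3 ∣ pt (((0 : ℤ) : ℂ) + 1 / 2) ^ 2 * DH (0 + 1) := by
      rw [h, hX]
      obtain ⟨c, hc⟩ := DH_zero
      rw [hc]
      exact ⟨c, by ring⟩
    have h3 := dvd_of_dvd_unit_mul (a := pt (((0 : ℤ) : ℂ) + 1 / 2) ^ 2) (by
      rw [map_pow, pt_const]
      apply pow_ne_zero
      push_cast
      norm_num) h1
    simpa using h3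
  | succ n ih =>
    have h := DH_rec ((n : ℤ) + 1)
    have h1 : (PowerSeries.X : PowerSeries ℂ) ^ 3 ∣
        pt ((((n : ℤ) + 1 : ℤ) : ℂ) + 1 / 2) ^ 2 * DH ((n : ℤ) + 1 + 1) := by
      rw [h]
      exact ih.mul_left _
    have h3 := dvd_of_dvd_unit_mul (a := pt ((((n : ℤ) + 1 : ℤ) : ℂ) + 1 / 2) ^ 2) (by
      rw [map_pow, pt_const]
      apply pow_ne_zero
      intro h0
      have h2 : ((2 * n + 3 : ℕ) : ℂ) = 0 := by
        push_cast at h0 ⊢
        linear_combination 2 * h0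
      have : (2 * n + 3 : ℕ) = 0 := by exact_mod_cast h2
      omega) h1
    have e : ((n + 1 : ℕ) : ℤ) + 1 = (n : ℤ) + 1 + 1 := by push_cast; ring
    rw [e]
    exact h3

/-! ### the entries -/

open Polynomial in
/-- the complex version of a polynomial -/
noncomputable def cP (Q : ℚ[X]) : ℂ[X] := Q.map (Rat.castHom ℂ)

open Polynomial in
lemma entQ_cast (Q : ℚ[X]) (z : D.Site) (j : ℕ) :
    ((D.entQ Q (z, j) : ℚ) : ℂ) =
      PowerSeries.coeff j (gm ((z.val : ℚ) : ℂ) (cP Q) * PowerSeries.map (Rat.castHom ℂ) (D.gam z)) := by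
  have h : ((D.entQ Q (z, j) : ℚ) : ℂ) = Rat.castHom ℂ (D.entQ Q (z, j)) := rfl
  rw [h]
  unfold D.entQ cP
  rw [← PowerSeries.coeff_map, map_mul, Map.map_gm]
  rfl

lemma coeff_eq_of_dvd {A B c : PowerSeries ℂ} {j k : ℕ} (hjk : j < k)
    (h : (PowerSeries.X : PowerSeries ℂ) ^ k ∣ A - B) :
    PowerSeries.coeff j (c * A) = PowerSeries.coeff j (c * B) := by
  have h1 : (PowerSeries.X : PowerSeries ℂ) ^ k ∣ c * A - c * B := by
    rw [← mul_sub]; exact h.mul_left _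
  rw [PowerSeries.X_pow_dvd_iff] at h1
  have h2 := h1 j hjk
  rw [map_sub, sub_eq_zero] at h2
  exact h2

open Polynomial in
/-- **rows `Z i`** : Taylor coefficients of `Q g1` at `i`. -/
theorem entQ_Z (Q : ℚ[X]) (i : ℤ) (j : ℕ) (h : (0 ≤ i ∧ j = 0) ∨ (i < 0 ∧ j ≤ 2)) :
    ((D.entQ Q (.Z i, j) : ℚ) : ℂ) =
      PowerSeries.coeff j (T (fun s => (cP Q).eval s * g1 s) (i : ℂ)) := by
  rw [entQ_cast]
  have e1 : PowerSeries.map (Rat.castHom ℂ) (D.gam (.Z i)) = GamZ i := Map.map_GamZ _ i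
  have e2 : (((D.Site.Z i).val : ℚ) : ℂ) = (i : ℂ) := by simp [D.Site.val]
  rw [e1, e2, T_mul (analyticAt_eval (cP Q) _) (analyticAt_g1 (int_off i)), T_eval]
  rcases h with ⟨hi, hj⟩ | ⟨hi, hj⟩
  · obtain ⟨n, rfl⟩ := Int.eq_ofNat_of_zero_le hi
    subst hj
    apply coeff_eq_of_dvd (k := 1) (by norm_num)
    rw [pow_one]
    exact DZ_nonneg n
  · obtain ⟨n, hn⟩ := Int.eq_ofNat_of_zero_le (show 0 ≤ -i - 1 by omega)
    have e : i = -(n : ℤ) - 1 := by omega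
    subst e
    apply coeff_eq_of_dvd (k := 3) (by omega)
    exact DZ_neg n

open Polynomial in
/-- **rows `H i`** : Taylor coefficients of `Q g1L` at `i + 1/2`. -/
theorem entQ_H (Q : ℚ[X]) (i : ℤ) (j : ℕ) (h : (i < 0 ∧ j = 0) ∨ (0 ≤ i ∧ j ≤ 2)) :
    ((D.entQ Q (.H i, j) : ℚ) : ℂ) =
      PowerSeries.coeff j (T (fun s => (cP Q).eval s * g1L s) ((i : ℂ) + 1 / 2)) := by
  rw [entQ_cast]
  have e1 : PowerSeries.map (Rat.castHom ℂ) (D.gam (.H i)) = gH0 (i + 1) := rfl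
  have e2 : (((D.Site.H i).val : ℚ) : ℂ) = (i : ℂ) + 1 / 2 := by simp [D.Site.val]
  have e3 : ((i + 1 : ℤ) : ℂ) - 1 / 2 = (i : ℂ) + 1 / 2 := by push_cast; ring
  rw [e1, e2, T_mul (analyticAt_eval (cP Q) _) (analyticAt_g1L (half_ne_nat i)), T_eval]
  have hD : gH0 (i + 1) - T g1L ((i : ℂ) + 1 / 2) = DH (i + 1) := by
    unfold DH; rw [e3]
  rcases h with ⟨hi, hj⟩ | ⟨hi, hj⟩
  · obtain ⟨n, hn⟩ := Int.eq_ofNat_of_zero_le (show 0 ≤ -i - 1 by omega)
    have e : i + 1 = -(n : ℤ) := by omega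
    subst hj
    apply coeff_eq_of_dvd (k := 1) (by norm_num)
    rw [pow_one, hD, e]
    exact DH_nonpos n
  · obtain ⟨n, rfl⟩ := Int.eq_ofNat_of_zero_le hi
    apply coeff_eq_of_dvd (k := 3) (by omega)
    rw [hD]
    exact DH_pos n

/-- `g1L` has double zeros at `i + 1/2`, `i ≥ 0`. -/
lemma T_g1L_dvd (n : ℕ) : (PowerSeries.X : PowerSeries ℂ) ^ 2 ∣ T g1L ((n : ℂ) + 1 / 2) := by
  induction n with
  | zero =>
    have h := T_g1L_rec (z := ((0 : ℤ) : ℂ) + 1 / 2) (fun n => half_ne_nat 0 n) (fun n => by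
      have := half_ne_nat (-1) n
      push_cast at this ⊢
      intro h
      apply this
      linear_combination h)
    rw [pt_sub_half] at h
    have hX : pt ((0 : ℤ) : ℂ) = PowerSeries.X := by simp [pt]
    have h1 : (PowerSeries.X : PowerSeries ℂ) ^ 2 ∣
        pt (((0 : ℤ) : ℂ) + 1 / 2) ^ 2 * T g1L (((0 : ℤ) : ℂ) + 1 / 2) := by
      rw [h, hX]
      exact dvd_mul_right _ _
    have h3 := dvd_of_dvd_unit_mul (a := pt (((0 : ℤ) : ℂ) + 1 / 2) ^ 2) (by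
      rw [map_pow, pt_const]
      apply pow_ne_zero
      push_cast
      norm_num) h1
    simpa using h3
  | succ n ih =>
    have h := T_g1L_rec (z := (((n + 1 : ℕ) : ℤ) : ℂ) + 1 / 2) (fun m => half_ne_nat ((n + 1 : ℕ) : ℤ) m)
      (fun m => by
      have := half_ne_nat (n : ℤ) m
      push_cast at this ⊢
      intro h
      apply this
      linear_combination h)
    have e : (((n + 1 : ℕ) : ℤ) : ℂ) + 1 / 2 - 1 = (n : ℂ) + 1 / 2 := by push_cast; ring
    rw [e] at h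
    have h1 : (PowerSeries.X : PowerSeries ℂ) ^ 2 ∣
        pt ((((n + 1 : ℕ) : ℤ) : ℂ) + 1 / 2) ^ 2 * T g1L ((((n + 1 : ℕ) : ℤ) : ℂ) + 1 / 2) := by
      rw [h]
      exact ih.mul_left _
    have h3 := dvd_of_dvd_unit_mul (a := pt ((((n + 1 : ℕ) : ℤ) : ℂ) + 1 / 2) ^ 2) (by
      rw [map_pow, pt_const]
      apply pow_ne_zero
      intro h0
      have h2 : ((2 * n + 3 : ℕ) : ℂ) = 0 := by
        push_cast at h0 ⊢
        linear_combination 2 * h0
      have : (2 * n + 3 : ℕ) = 0 := by exact_mod_cast h2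
      omega) h1
    simpa using h3

/-! ### jets of `g1` as sums -/

lemma iteratedDeriv_g1 (j : ℕ) {z : ℂ} (hz : ∀ l, z ≠ ce l) :
    iteratedDeriv j g1 z = (-1) ^ j * (j.factorial : ℂ) * Sg j z := by
  induction j generalizing z with
  | zero => simp [Sg_zero hz]
  | succ j ih =>
    rw [iteratedDeriv_succ]
    have hev : iteratedDeriv j g1 =ᶠ[𝓝 z] fun w => (-1) ^ j * (j.factorial : ℂ) * Sg j w := by
      filter_upwards [isOpen_OffU.mem_nhds hz] with w hw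
      exact ih hw
    rw [hev.deriv_eq]
    have h := (hasDerivAt_Sg j hz).const_mul ((-1) ^ j * (j.factorial : ℂ))
    rw [h.deriv, Nat.factorial_succ]
    push_cast
    ring

theorem coeff_T_g1 (j : ℕ) {z : ℂ} (hz : ∀ l, z ≠ ce l) :
    PowerSeries.coeff j (T g1 z) = (-1) ^ j * Sg j z := by
  rw [coeff_T, iteratedDeriv_g1 j hz]
  have : (j.factorial : ℂ) ≠ 0 := by exact_mod_cast j.factorial_ne_zero
  field_simp

lemma hasDerivAt_inv_pow (n : ℕ) {c z : ℂ} (hne : c - z ≠ 0) :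
    HasDerivAt (fun w : ℂ => ((w - z) ^ (n + 1))⁻¹) (-((n : ℂ) + 1) * ((c - z) ^ (n + 2))⁻¹) c := by
  have h1 : HasDerivAt (fun w : ℂ => (w - z) ^ (n + 1)) (((n + 1 : ℕ) : ℂ) * (c - z) ^ n * 1) c :=
    ((hasDerivAt_id c).sub_const z).pow (n + 1)
  have h2 := h1.inv (pow_ne_zero _ hne)
  refine h2.congr_deriv ?_
  push_cast
  have h3 : (c - z) ^ (n + 1) ≠ 0 := pow_ne_zero _ hne
  have h4 : (c - z) ^ (n + 2) ≠ 0 := pow_ne_zero _ hne
  rw [div_eq_iff (pow_ne_zero 2 h3)]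
  have h5 : ((c - z) ^ (n + 1)) ^ 2 = (c - z) ^ (n + 2) * (c - z) ^ n := by
    rw [← pow_mul, ← pow_add]; congr 1; ring
  rw [h5]
  have h6 := inv_mul_cancel₀ h4
  linear_combination ((n : ℂ) + 1) * (c - z) ^ n * h6

lemma inv_neg_pow (u : ℂ) (n : ℕ) : ((-u) ^ n)⁻¹ = (-1) ^ n * (u ^ n)⁻¹ := by
  rw [neg_pow, mul_inv]
  congr 1
  rcases neg_one_pow_eq_or ℂ n with h | h
  · rw [h]; norm_num
  · rw [h]; norm_num

/-- circle functional of the powers `(s-z)^{-(j+1)}`. -/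
lemma Lg_pow (l j : ℕ) {z : ℂ} (hz : 1 / 4 < ‖z - ce l‖) :
    Lg l (fun s => ((s - z) ^ (j + 1))⁻¹) = (-1) ^ (j + 1) * gk j l z := by
  have hne : z - ce l ≠ 0 := by
    intro h; rw [h, norm_zero] at hz; norm_num at hz
  have hne' : ce l - z ≠ 0 := by
    intro h; apply hne; linear_combination -h
  have hd : DifferentiableOn ℂ (fun s : ℂ => ((s - z) ^ (j + 1))⁻¹) (Metric.closedBall (ce l) (1 / 4)) := by
    intro s hs
    apply DifferentiableAt.differentiableWithinAt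
    apply DifferentiableAt.inv (by fun_prop)
    apply pow_ne_zero
    intro h0
    rw [Metric.mem_closedBall, dist_eq_norm] at hs
    rw [sub_eq_zero] at h0
    rw [h0] at hs
    linarith
  rw [Lg_eq l hd, (hasDerivAt_inv_pow j hne').deriv]
  have e : ce l - z = -(z - ce l) := by ring
  rw [e, inv_neg_pow, inv_neg_pow]
  unfold gk
  rw [pow_succ (-1 : ℂ) (j + 1)]
  ring

/-- **jets of `g1` through the circles** -/
theorem hasSum_circle_g_pow (j : ℕ) {z : ℂ} (hz : ∀ l, 1 / 4 < ‖z - ce l‖) :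
    HasSum (fun l => Lg l (fun s => ((s - z) ^ (j + 1))⁻¹)) (-PowerSeries.coeff j (T g1 z)) := by
  have hoff : ∀ l, z ≠ ce l := by
    intro l h
    have := hz l
    rw [h, sub_self, norm_zero] at this
    norm_num at this
  have h := ((summable_gk j hoff).hasSum).mul_left ((-1 : ℂ) ^ (j + 1))
  have e : (fun l => Lg l (fun s => ((s - z) ^ (j + 1))⁻¹)) = fun l => (-1) ^ (j + 1) * gk j l z :=
    funext fun l => Lg_pow l j (hz l)
  rw [e, coeff_T_g1 j hoff]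
  have e2 : -((-1) ^ j * Sg j z) = (-1 : ℂ) ^ (j + 1) * ∑' l, gk j l z := by
    unfold Sg
    rw [pow_succ]
    ring
  rw [e2]
  exact h

end Crest.Agent.R006.G1x186
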