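import Mathlib

/-!
Row 6, helper186: Cauchy / Poisson formulas on half-planes for bounded holomorphic functions, and the
jump representation `fR z = (1/2π) ∫ J(c+iy)/(z-c-iy) dy`, `J = fR - fL`.
-/

set_option autoImplicit false

namespace Crest.Agent.R006.HalfPlanex186

open Complex Filter Topology MeasureTheory Set

theorem integral_line_eq_zero_right {F : ℂ → ℂ} {c C R0 : ℝ} (hR0 : 0 < R0)
    (hd : DifferentiableOn ℂ F {s | c ≤ s.re})
    (hb : ∀ s : ℂ, c ≤ s.re → R0 ≤ ‖s - c‖ → ‖F s‖ ≤ C / ‖s - c‖ ^ 2)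
    (hi : Integrable fun y : ℝ => F (c + y * I)) : ∫ y : ℝ, F (c + y * I) = 0 := by
  have h1 : Tendsto (fun R : ℝ => ∫ y in (-R)..R, F (c + y * I)) atTop
      (𝓝 (∫ y : ℝ, F (c + y * I))) :=
    intervalIntegral_tendsto_integral hi tendsto_neg_atTop_atBot tendsto_id
  have hbound : ∀ R : ℝ, R0 ≤ R → ‖∫ y in (-R)..R, F (c + y * I)‖ ≤ 4 * C / R := by
    intro R hR
    have hRpos : 0 < R := lt_of_lt_of_le hR0 hR
    have hCnn : 0 ≤ C / R ^ 2 := by
      have := hb ((c + R : ℝ) : ℂ) (by simp; exact hRpos.le)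
        (by simp [abs_of_pos hRpos, hR])
      have h2 := (norm_nonneg _).trans this
      simpa [abs_of_pos hRpos] using h2
    have hrect := Complex.integral_boundary_rect_eq_zero_of_differentiableOn F
      (⟨c, -R⟩ : ℂ) (⟨c + R, R⟩ : ℂ) (by
        apply hd.mono
        intro s hs
        rw [mem_reProdIm] at hs
        have := hs.1
        simp only at this
        rw [Set.uIcc_of_le (by linarith)] at this
        exact this.1)
    simp only at hrect
    have hB : ∀ s : ℂ, c ≤ s.re → R ≤ ‖s - c‖ → ‖F s‖ ≤ C / R ^ 2 := by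
      intro s hs hsR
      refine (hb s hs (hR.trans hsR)).trans ?_
      have hC : 0 ≤ C := by
        have := mul_nonneg hCnn (sq_nonneg R)
        rwa [div_mul_cancel₀ _ (pow_ne_zero 2 hRpos.ne')] at this
      exact div_le_div_of_nonneg_left hC (by positivity) (pow_le_pow_left₀ hRpos.le hsR 2)
    have hbot : ‖∫ x in c..(c + R), F ((x : ℂ) + ((-R : ℝ) : ℂ) * I)‖ ≤ C / R ^ 2 * |c + R - c| := by
      apply intervalIntegral.norm_integral_le_of_norm_le_const
      intro x hx
      rw [Set.uIoc_of_le (by linarith)] at hx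
      apply hB
      · simp; exact hx.1.le
      · have : |((x : ℂ) + ((-R : ℝ) : ℂ) * I - (c : ℂ)).im| ≤ ‖(x : ℂ) + ((-R : ℝ) : ℂ) * I - (c : ℂ)‖ :=
          Complex.abs_im_le_norm _
        simp at this
        rw [abs_of_pos hRpos] at this
        simpa using this
    have htop : ‖∫ x in c..(c + R), F ((x : ℂ) + ((R : ℝ) : ℂ) * I)‖ ≤ C / R ^ 2 * |c + R - c| := by
      apply intervalIntegral.norm_integral_le_of_norm_le_const
      intro x hx
      rw [Set.uIoc_of_le (by linarith)] at hx
      apply hB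
      · simp; exact hx.1.le
      · have : |((x : ℂ) + ((R : ℝ) : ℂ) * I - (c : ℂ)).im| ≤ ‖(x : ℂ) + ((R : ℝ) : ℂ) * I - (c : ℂ)‖ :=
          Complex.abs_im_le_norm _
        simp at this
        rw [abs_of_pos hRpos] at this
        simpa using this
    have hright : ‖∫ y in (-R)..R, F (((c + R : ℝ) : ℂ) + (y : ℂ) * I)‖ ≤ C / R ^ 2 * |R - -R| := by
      apply intervalIntegral.norm_integral_le_of_norm_le_const
      intro y hy
      apply hB
      · simp; exact hRpos.le
      · have : |(((c + R : ℝ) : ℂ) + (y : ℂ) * I - (c : ℂ)).re| ≤ ‖((c + R : ℝ) : ℂ) + (y : ℂ) * I - (c : ℂ)‖ :=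
          Complex.abs_re_le_norm _
        simp at this
        rw [abs_of_pos hRpos] at this
        simpa using this
    have e1 : |c + R - c| = R := by rw [add_sub_cancel_left, abs_of_pos hRpos]
    have e2 : |R - -R| = 2 * R := by rw [abs_of_pos (by linarith)]; ring
    rw [e1] at hbot htop
    rw [e2] at hright
    have hsolve : I * (∫ y in (-R)..R, F (c + y * I)) =
        (∫ x in c..(c + R), F ((x : ℂ) + ((-R : ℝ) : ℂ) * I))
          - (∫ x in c..(c + R), F ((x : ℂ) + ((R : ℝ) : ℂ) * I))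
          + I * (∫ y in (-R)..R, F (((c + R : ℝ) : ℂ) + (y : ℂ) * I)) := by
      simp only [smul_eq_mul] at hrect
      linear_combination -hrect
    calc ‖∫ y in (-R)..R, F (c + y * I)‖ = ‖I * (∫ y in (-R)..R, F (c + y * I))‖ := by
          rw [norm_mul, Complex.norm_I, one_mul]
      _ ≤ C / R ^ 2 * R + C / R ^ 2 * R + C / R ^ 2 * (2 * R) := by
          rw [hsolve]
          refine (norm_add_le _ _).trans (add_le_add ((norm_sub_le _ _).trans (add_le_add hbot htop)) ?_)
          rw [norm_mul, Complex.norm_I, one_mul]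
          exact hright
      _ = 4 * C / R := by field_simp; ring
  have h2 : Tendsto (fun R : ℝ => 4 * C / R) atTop (𝓝 0) :=
    tendsto_const_nhds.div_atTop tendsto_id
  have h3 : Tendsto (fun R : ℝ => ∫ y in (-R)..R, F (c + y * I)) atTop (𝓝 0) := by
    rw [tendsto_zero_iff_norm_tendsto_zero]
    refine squeeze_zero' (Eventually.of_forall fun R => norm_nonneg _) ?_ h2
    filter_upwards [eventually_ge_atTop R0] with R hR using hbound R hR
  exact tendsto_nhds_unique h1 h3

/-- left version, by the substitution `s ↦ 2c - s`. -/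
theorem integral_line_eq_zero_left {F : ℂ → ℂ} {c C R0 : ℝ} (hR0 : 0 < R0)
    (hd : DifferentiableOn ℂ F {s | s.re ≤ c})
    (hb : ∀ s : ℂ, s.re ≤ c → R0 ≤ ‖s - c‖ → ‖F s‖ ≤ C / ‖s - c‖ ^ 2)
    (hi : Integrable fun y : ℝ => F (c + y * I)) : ∫ y : ℝ, F (c + y * I) = 0 := by
  have h := integral_line_eq_zero_right (F := fun s => F (2 * c - s)) (c := c) (C := C) hR0 (by
      apply hd.comp (by fun_prop)
      intro s hs
      simp only [Set.mem_ofPred_eq] at hs ⊢
      simp
      linarith) (by
      intro s hs hR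
      have e : (2 * (c : ℂ) - s - c) = -(s - c) := by ring
      have := hb (2 * c - s) (by simp; linarith) (by rw [e, norm_neg]; exact hR)
      rwa [e, norm_neg] at this) (by
      have h1 := hi.comp_neg
      refine h1.congr (Eventually.of_forall fun y => ?_)
      simp only
      congr 1
      push_cast
      ring)
  rw [← h, ← integral_neg_eq_self]
  congr 1
  ext y
  congr 1
  push_cast
  ring

/-- distance estimate on a vertical line. -/
lemma one_add_abs_le {a : ℂ} {c : ℝ} (ha : a.re ≠ c) :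
    ∃ M : ℝ, 0 < M ∧ ∀ y : ℝ, 1 + |y| ≤ M * ‖a - (c + y * I)‖ := by
  have hδ : 0 < |a.re - c| := abs_pos.mpr (sub_ne_zero.mpr ha)
  refine ⟨1 + (1 + |a.im|) / |a.re - c|, by positivity, fun y => ?_⟩
  have h1 : |a.re - c| ≤ ‖a - (c + y * I)‖ := by
    have := Complex.abs_re_le_norm (a - (c + y * I))
    simpa using this
  have h2 : |a.im - y| ≤ ‖a - (c + y * I)‖ := by
    have := Complex.abs_im_le_norm (a - (c + y * I))
    simpa using this
  have h3 : |y| ≤ |a.im| + |a.im - y| := by
    have : y = a.im - (a.im - y) := by ring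
    calc |y| = |a.im - (a.im - y)| := by rw [← this]
      _ ≤ |a.im| + |a.im - y| := abs_sub _ _
  have h4 : (1 + |a.im|) ≤ (1 + |a.im|) / |a.re - c| * ‖a - (c + y * I)‖ := by
    rw [div_mul_eq_mul_div, le_div_iff₀ hδ]
    exact mul_le_mul_of_nonneg_left h1 (by positivity)
  linarith

lemma sub_line_ne_zero {a : ℂ} {c : ℝ} (ha : a.re ≠ c) (y : ℝ) : a - (c + y * I) ≠ 0 := by
  intro h
  apply ha
  have := congrArg Complex.re h
  simp at this
  linarith

/-- integrability of a bounded continuous function against the difference kernel. -/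
lemma integrable_kernel {f : ℂ → ℂ} {c C : ℝ} (hc : Continuous fun y : ℝ => f (c + y * I))
    (hb : ∀ y : ℝ, ‖f (c + y * I)‖ ≤ C) {a b : ℂ} (ha : a.re ≠ c) (hb' : b.re ≠ c) :
    Integrable fun y : ℝ => f (c + y * I) * (1 / (a - (c + y * I)) - 1 / (b - (c + y * I))) := by
  obtain ⟨Ma, hMa, hMa'⟩ := one_add_abs_le ha
  obtain ⟨Mb, hMb, hMb'⟩ := one_add_abs_le hb'
  have hC : 0 ≤ C := (norm_nonneg _).trans (hb 0)
  have hint : Integrable fun y : ℝ => (C * ‖b - a‖ * Ma * Mb) * (1 + y ^ 2)⁻¹ :=
    integrable_inv_one_add_sq.const_mul _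
  refine hint.mono' ?_ ?_
  · apply Continuous.aestronglyMeasurable
    apply hc.mul
    apply Continuous.sub
    · exact continuous_const.div (by fun_prop) (fun y => sub_line_ne_zero ha y)
    · exact continuous_const.div (by fun_prop) (fun y => sub_line_ne_zero hb' y)
  · refine Eventually.of_forall fun y => ?_
    have h1 := sub_line_ne_zero ha y
    have h2 := sub_line_ne_zero hb' y
    have e : 1 / (a - (c + y * I)) - 1 / (b - (c + y * I))
        = (b - a) / ((a - (c + y * I)) * (b - (c + y * I))) := by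
      rw [div_sub_div _ _ h1 h2]
      congr 1
      ring
    rw [norm_mul, e, norm_div, norm_mul]
    have h3 : 0 < ‖a - (c + y * I)‖ := norm_pos_iff.mpr h1
    have h4 : 0 < ‖b - (c + y * I)‖ := norm_pos_iff.mpr h2
    have h5 : (1 + y ^ 2) ≤ (Ma * ‖a - (c + y * I)‖) * (Mb * ‖b - (c + y * I)‖) := by
      have := mul_le_mul (hMa' y) (hMb' y) (by positivity) (by positivity)
      have h6 : 1 + y ^ 2 ≤ (1 + |y|) * (1 + |y|) := by
        nlinarith [abs_nonneg y, sq_abs y]
      exact h6.trans this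
    have h6 : ‖b - a‖ / (‖a - (c + y * I)‖ * ‖b - (c + y * I)‖) ≤ ‖b - a‖ * Ma * Mb * (1 + y ^ 2)⁻¹ := by
      rw [div_le_iff₀ (by positivity)]
      have h7 : 1 ≤ (Ma * ‖a - (c + y * I)‖) * (Mb * ‖b - (c + y * I)‖) * (1 + y ^ 2)⁻¹ := by
        rw [← div_eq_mul_inv, le_div_iff₀ (by positivity), one_mul]
        exact h5
      calc ‖b - a‖ = ‖b - a‖ * 1 := (mul_one _).symm
        _ ≤ ‖b - a‖ * ((Ma * ‖a - (c + y * I)‖) * (Mb * ‖b - (c + y * I)‖) * (1 + y ^ 2)⁻¹) :=
          mul_le_mul_of_nonneg_left h7 (norm_nonneg _)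
        _ = _ := by ring
    calc ‖f (c + y * I)‖ * (‖b - a‖ / (‖a - (c + y * I)‖ * ‖b - (c + y * I)‖))
        ≤ C * (‖b - a‖ * Ma * Mb * (1 + y ^ 2)⁻¹) :=
          mul_le_mul (hb y) h6 (by positivity) hC
      _ = _ := by ring

/-- bound of the kernel far away. -/
lemma kernel_bound {a b s : ℂ} {c : ℝ} (h : 2 * (‖a - c‖ + ‖b - c‖) + 1 ≤ ‖s - c‖) :
    ‖1 / (a - s) - 1 / (b - s)‖ ≤ (4 * ‖b - a‖) / ‖s - c‖ ^ 2 := by
  have hs : 0 < ‖s - c‖ := by
    have := norm_nonneg (a - c); have := norm_nonneg (b - c); linarith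
  have h1 : ‖s - c‖ / 2 ≤ ‖a - s‖ := by
    have e : s - c = (a - c) - (a - s) := by ring
    have h3 : ‖s - c‖ ≤ ‖a - c‖ + ‖a - s‖ := by rw [e]; exact norm_sub_le _ _
    have := norm_nonneg (b - c)
    linarith
  have h2 : ‖s - c‖ / 2 ≤ ‖b - s‖ := by
    have e : s - c = (b - c) - (b - s) := by ring
    have h3 : ‖s - c‖ ≤ ‖b - c‖ + ‖b - s‖ := by rw [e]; exact norm_sub_le _ _
    have := norm_nonneg (a - c)
    linarith
  have ha : a - s ≠ 0 := norm_pos_iff.mp (by linarith)
  have hb : b - s ≠ 0 := norm_pos_iff.mp (by linarith)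
  have e : 1 / (a - s) - 1 / (b - s) = (b - a) / ((a - s) * (b - s)) := by
    rw [div_sub_div _ _ ha hb]
    congr 1
    ring
  rw [e, norm_div, norm_mul, div_le_div_iff₀ (by positivity) (by positivity)]
  have h3 : ‖s - c‖ / 2 * (‖s - c‖ / 2) ≤ ‖a - s‖ * ‖b - s‖ :=
    mul_le_mul h1 h2 (by positivity) (norm_nonneg _)
  nlinarith [norm_nonneg (b - a), mul_le_mul_of_nonneg_left h3 (norm_nonneg (b - a))]

lemma line_continuous {f : ℂ → ℂ} {c : ℝ} {S : Set ℂ} (hd : DifferentiableOn ℂ f S)
    (hS : ∀ y : ℝ, (c : ℂ) + y * I ∈ S) : Continuous fun y : ℝ => f (c + y * I) :=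
  hd.continuousOn.comp_continuous (by fun_prop) hS

/-- the reflected point. -/
noncomputable def refl (c : ℝ) (z : ℂ) : ℂ := 2 * c - (starRingEnd ℂ) z

lemma refl_re (c : ℝ) (z : ℂ) : (refl c z).re = 2 * c - z.re := by simp [refl]

/-- `∫ (1/(z-s) - 1/(z*-s)) dy = 2π`. -/
lemma integral_poisson_kernel {c : ℝ} {z : ℂ} (hz : c < z.re) :
    ∫ y : ℝ, (1 / (z - (c + y * I)) - 1 / (refl c z - (c + y * I))) = 2 * Real.pi := by
  set a := z.re - c with ha
  have hapos : 0 < a := by rw [ha]; linarith
  have e : ∀ y : ℝ, (1 / (z - (c + y * I)) - 1 / (refl c z - (c + y * I)))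
      = (((2 / a) * (1 + ((y - z.im) / a) ^ 2)⁻¹ : ℝ) : ℂ) := by
    intro y
    have h1 : z - (c + y * I) ≠ 0 := sub_line_ne_zero (by linarith) y
    have h2 : refl c z - (c + y * I) ≠ 0 := sub_line_ne_zero (by rw [refl_re]; linarith) y
    have hz' : z - (c + y * I) = (a : ℂ) + ((z.im - y : ℝ) : ℂ) * I := by
      apply Complex.ext <;> simp [ha]
    have hr' : refl c z - (c + y * I) = -(a : ℂ) + ((z.im - y : ℝ) : ℂ) * I := by
      apply Complex.ext
      · simp [ha, refl]; ring
      · simp [ha, refl]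
    rw [hz'] at h1 ⊢
    rw [hr'] at h2 ⊢
    have h3 : (1 + ((y - z.im) / a) ^ 2 : ℝ) ≠ 0 := by positivity
    have h3' : ((1 + ((y - z.im) / a) ^ 2 : ℝ) : ℂ) ≠ 0 := by exact_mod_cast h3
    have ha' : (a : ℂ) ≠ 0 := by exact_mod_cast hapos.ne'
    rw [div_sub_div _ _ h1 h2]
    rw [Complex.ofReal_mul, Complex.ofReal_inv, ← div_eq_mul_inv, div_eq_div_iff (mul_ne_zero h1 h2) h3']
    push_cast
    field_simp
    ring_nf
    rw [Complex.I_sq]
    ring
  simp_rw [e]
  rw [integral_complex_ofReal]
  have h1 : ∫ y : ℝ, (2 / a) * (1 + ((y - z.im) / a) ^ 2)⁻¹ = 2 * Real.pi := by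
    rw [integral_const_mul]
    have h2 : ∫ y : ℝ, (1 + ((y - z.im) / a) ^ 2)⁻¹ = a * Real.pi := by
      have h3 := integral_sub_right_eq_self (μ := volume) (fun y : ℝ => (1 + (y / a) ^ 2)⁻¹) z.im
      rw [h3]
      have h4 := MeasureTheory.Measure.integral_comp_div (fun y : ℝ => (1 + y ^ 2)⁻¹) a
      rw [h4, integral_univ_inv_one_add_sq, abs_of_pos hapos, smul_eq_mul]
    rw [h2]
    field_simp
  rw [h1]
  push_cast
  rfl

/-- Poisson formula on the right half-plane. -/
theorem poisson_right {f : ℂ → ℂ} {c C : ℝ} (hd : DifferentiableOn ℂ f {s | c ≤ s.re})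
    (hb : ∀ s : ℂ, c ≤ s.re → ‖f s‖ ≤ C) {z : ℂ} (hz : c < z.re) :
    ∫ y : ℝ, f (c + y * I) * (1 / (z - (c + y * I)) - 1 / (refl c z - (c + y * I)))
      = 2 * Real.pi * f z := by
  have hmem : ∀ y : ℝ, (c : ℂ) + y * I ∈ {s : ℂ | c ≤ s.re} := by
    intro y; simp
  have hza : z.re ≠ c := by linarith
  have hra : (refl c z).re ≠ c := by rw [refl_re]; linarith
  have hnhds : {s : ℂ | c ≤ s.re} ∈ 𝓝 z :=
    mem_of_superset ((isOpen_lt continuous_const Complex.continuous_re).mem_nhds hz)
      (fun s hs => show c ≤ s.re from le_of_lt hs)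
  -- the function with removed singularity
  have hd2 : DifferentiableOn ℂ (dslope f z) {s : ℂ | c ≤ s.re} :=
    (Complex.differentiableOn_dslope hnhds).mpr hd
  have hC : 0 ≤ C := (norm_nonneg _).trans (hb z hz.le)
  have heq : ∀ y : ℝ, (f (c + y * I) - f z) * (1 / (z - (c + y * I)) - 1 / (refl c z - (c + y * I)))
      = -(dslope f z (c + y * I)) * ((refl c z - z) / (refl c z - (c + y * I))) := by
    intro y
    have h1 := sub_line_ne_zero hza y
    have h2 := sub_line_ne_zero hra y
    have hne : (c : ℂ) + y * I ≠ z := fun h => h1 (by rw [h, sub_self])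
    rw [dslope_of_ne _ hne, slope_def_field, div_sub_div _ _ h1 h2]
    have h3 : (c : ℂ) + y * I - z ≠ 0 := sub_ne_zero.mpr hne
    field_simp
    ring
  have h0 : ∫ y : ℝ, (f (c + y * I) - f z) *
      (1 / (z - (c + y * I)) - 1 / (refl c z - (c + y * I))) = 0 := by
    have hint : Integrable fun y : ℝ => (f (c + y * I) - f z) *
        (1 / (z - (c + y * I)) - 1 / (refl c z - (c + y * I))) :=
      integrable_kernel (f := fun s => f s - f z) (C := C + C)
        ((line_continuous hd hmem).sub continuous_const)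
        (fun y => (norm_sub_le _ _).trans (add_le_add (hb _ (hmem y)) (hb z hz.le))) hza hra
    have hI : Integrable fun y : ℝ =>
        (fun s : ℂ => -(dslope f z s) * ((refl c z - z) / (refl c z - s))) (c + y * I) :=
      hint.congr (Eventually.of_forall heq)
    rw [show (fun y : ℝ => (f (c + y * I) - f z) *
        (1 / (z - (c + y * I)) - 1 / (refl c z - (c + y * I))))
        = fun y : ℝ => (fun s : ℂ => -(dslope f z s) * ((refl c z - z) / (refl c z - s))) (c + y * I)
        from funext heq]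
    apply integral_line_eq_zero_right (F := fun s : ℂ => -(dslope f z s) *
      ((refl c z - z) / (refl c z - s))) (c := c) (C := (C + C) * (4 * ‖refl c z - z‖))
      (R0 := 2 * (‖z - c‖ + ‖refl c z - c‖) + 1) (by positivity)
    · apply hd2.neg.mul
      apply DifferentiableOn.div (by fun_prop) (by fun_prop)
      intro s hs h
      have h1 := congrArg Complex.re h
      simp only [Complex.sub_re, refl_re, Complex.zero_re] at h1
      have : c ≤ s.re := hs
      linarith
    · intro s hs hR
      have hspos : 0 < ‖s - c‖ := by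
        have := norm_nonneg (z - c); have := norm_nonneg (refl c z - c); linarith
      have hne : s ≠ z := by
        intro h
        rw [h] at hR
        have := norm_nonneg (z - c); have := norm_nonneg (refl c z - c)
        linarith
      have h2 : refl c z - s ≠ 0 := by
        intro h
        have h1 := congrArg Complex.re h
        simp only [Complex.sub_re, refl_re, Complex.zero_re] at h1
        linarith
      have h1 : z - s ≠ 0 := sub_ne_zero.mpr hne.symm
      have e1 : -(dslope f z s) * ((refl c z - z) / (refl c z - s))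
          = (f s - f z) * (1 / (z - s) - 1 / (refl c z - s)) := by
        rw [dslope_of_ne _ hne, slope_def_field, div_sub_div _ _ h1 h2]
        have h3 : s - z ≠ 0 := sub_ne_zero.mpr hne
        field_simp
        ring
      rw [e1, norm_mul]
      calc ‖f s - f z‖ * ‖1 / (z - s) - 1 / (refl c z - s)‖
          ≤ (C + C) * ((4 * ‖refl c z - z‖) / ‖s - c‖ ^ 2) :=
            mul_le_mul ((norm_sub_le _ _).trans (add_le_add (hb _ hs) (hb z hz.le)))
              (kernel_bound hR) (norm_nonneg _) (by positivity)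
        _ = _ := by ring
    · exact hI
  have hkint : Integrable fun y : ℝ => (1 / (z - (c + y * I)) - 1 / (refl c z - (c + y * I))) := by
    have := integrable_kernel (f := fun _ => (1 : ℂ)) (c := c) (C := 1) continuous_const
      (fun y => by simp) hza hra
    simpa using this
  have h1 : ∫ y : ℝ, f z * (1 / (z - (c + y * I)) - 1 / (refl c z - (c + y * I)))
      = f z * (2 * Real.pi) := by
    rw [integral_const_mul, integral_poisson_kernel hz]
  have h2 : ∫ y : ℝ, (f (c + y * I) - f z) *
      (1 / (z - (c + y * I)) - 1 / (refl c z - (c + y * I)))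
      = (∫ y : ℝ, f (c + y * I) * (1 / (z - (c + y * I)) - 1 / (refl c z - (c + y * I))))
        - ∫ y : ℝ, f z * (1 / (z - (c + y * I)) - 1 / (refl c z - (c + y * I))) := by
    rw [← integral_sub]
    · congr 1
      ext y
      ring
    · exact integrable_kernel (line_continuous hd hmem) (fun y => hb _ (hmem y)) hza hra
    · exact hkint.const_mul _
  rw [h0, h1] at h2
  linear_combination -h2

/-- bounded function holomorphic on the right, both kernel points on the left: integral `0`. -/
theorem kernel_zero_right {f : ℂ → ℂ} {c C : ℝ} (hd : DifferentiableOn ℂ f {s | c ≤ s.re})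
    (hb : ∀ s : ℂ, c ≤ s.re → ‖f s‖ ≤ C) {z w : ℂ} (hz : z.re < c) (hw : w.re < c) :
    ∫ y : ℝ, f (c + y * I) * (1 / (z - (c + y * I)) - 1 / (w - (c + y * I))) = 0 := by
  have hmem : ∀ y : ℝ, (c : ℂ) + y * I ∈ {s : ℂ | c ≤ s.re} := by
    intro y; simp
  have hC : 0 ≤ C := (norm_nonneg _).trans (hb _ (hmem 0))
  apply integral_line_eq_zero_right (F := fun s : ℂ => f s * (1 / (z - s) - 1 / (w - s)))
    (C := C * (4 * ‖w - z‖)) (R0 := 2 * (‖z - c‖ + ‖w - c‖) + 1) (by positivity)
  · apply hd.mul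
    apply DifferentiableOn.sub
    · apply DifferentiableOn.div (by fun_prop) (by fun_prop)
      intro s hs h
      have h1 := congrArg Complex.re h
      simp only [Complex.sub_re, Complex.zero_re] at h1
      have : c ≤ s.re := hs
      linarith
    · apply DifferentiableOn.div (by fun_prop) (by fun_prop)
      intro s hs h
      have h1 := congrArg Complex.re h
      simp only [Complex.sub_re, Complex.zero_re] at h1
      have : c ≤ s.re := hs
      linarith
  · intro s hs hR
    rw [norm_mul]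
    calc ‖f s‖ * ‖1 / (z - s) - 1 / (w - s)‖
        ≤ C * ((4 * ‖w - z‖) / ‖s - c‖ ^ 2) :=
          mul_le_mul (hb _ hs) (kernel_bound hR) (norm_nonneg _) (by positivity)
      _ = _ := by ring
  · exact integrable_kernel (line_continuous hd hmem) (fun y => hb _ (hmem y)) hz.ne hw.ne

/-- bounded function holomorphic on the left, both kernel points on the right: integral `0`. -/
theorem kernel_zero_left {f : ℂ → ℂ} {c C : ℝ} (hd : DifferentiableOn ℂ f {s | s.re ≤ c})
    (hb : ∀ s : ℂ, s.re ≤ c → ‖f s‖ ≤ C) {z w : ℂ} (hz : c < z.re) (hw : c < w.re) :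
    ∫ y : ℝ, f (c + y * I) * (1 / (z - (c + y * I)) - 1 / (w - (c + y * I))) = 0 := by
  have hmem : ∀ y : ℝ, (c : ℂ) + y * I ∈ {s : ℂ | s.re ≤ c} := by
    intro y; simp
  have hC : 0 ≤ C := (norm_nonneg _).trans (hb _ (hmem 0))
  apply integral_line_eq_zero_left (F := fun s : ℂ => f s * (1 / (z - s) - 1 / (w - s)))
    (C := C * (4 * ‖w - z‖)) (R0 := 2 * (‖z - c‖ + ‖w - c‖) + 1) (by positivity)
  · apply hd.mul
    apply DifferentiableOn.sub
    · apply DifferentiableOn.div (by fun_prop) (by fun_prop)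
      intro s hs h
      have h1 := congrArg Complex.re h
      simp only [Complex.sub_re, Complex.zero_re] at h1
      have : s.re ≤ c := hs
      linarith
    · apply DifferentiableOn.div (by fun_prop) (by fun_prop)
      intro s hs h
      have h1 := congrArg Complex.re h
      simp only [Complex.sub_re, Complex.zero_re] at h1
      have : s.re ≤ c := hs
      linarith
  · intro s hs hR
    rw [norm_mul]
    calc ‖f s‖ * ‖1 / (z - s) - 1 / (w - s)‖
        ≤ C * ((4 * ‖w - z‖) / ‖s - c‖ ^ 2) :=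
          mul_le_mul (hb _ hs) (kernel_bound hR) (norm_nonneg _) (by positivity)
      _ = _ := by ring
  · exact integrable_kernel (line_continuous hd hmem) (fun y => hb _ (hmem y)) hz.ne' hw.ne'

/-- Cauchy formula on the right half-plane in difference form. -/
theorem cauchy_right {f : ℂ → ℂ} {c C : ℝ} (hd : DifferentiableOn ℂ f {s | c ≤ s.re})
    (hb : ∀ s : ℂ, c ≤ s.re → ‖f s‖ ≤ C) {z w : ℂ} (hz : c < z.re) (hw : c < w.re) :
    ∫ y : ℝ, f (c + y * I) * (1 / (z - (c + y * I)) - 1 / (w - (c + y * I)))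
      = 2 * Real.pi * (f z - f w) := by
  have hmem : ∀ y : ℝ, (c : ℂ) + y * I ∈ {s : ℂ | c ≤ s.re} := by
    intro y; simp
  have hrz : (refl c z).re < c := by rw [refl_re]; linarith
  have hrw : (refl c w).re < c := by rw [refl_re]; linarith
  have hc := line_continuous hd hmem
  have hb' : ∀ y : ℝ, ‖f (c + y * I)‖ ≤ C := fun y => hb _ (hmem y)
  have h1 := poisson_right hd hb hz
  have h2 := poisson_right hd hb hw
  have h3 := kernel_zero_right hd hb hrz hrw
  have i1 := integrable_kernel hc hb' hz.ne' hrz.ne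
  have i2 := integrable_kernel hc hb' hw.ne' hrw.ne
  have i3 := integrable_kernel hc hb' hrz.ne hrw.ne
  have e : (fun y : ℝ => f (c + y * I) * (1 / (z - (c + y * I)) - 1 / (w - (c + y * I))))
      = fun y : ℝ => (f (c + y * I) * (1 / (z - (c + y * I)) - 1 / (refl c z - (c + y * I)))
        - f (c + y * I) * (1 / (w - (c + y * I)) - 1 / (refl c w - (c + y * I))))
        + f (c + y * I) * (1 / (refl c z - (c + y * I)) - 1 / (refl c w - (c + y * I))) := by
    ext y
    ring
  have hadd := integral_add (i1.sub i2) i3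
  simp only [Pi.sub_apply] at hadd
  rw [e, hadd, integral_sub i1 i2, h1, h2, h3]
  ring

/-- **Jump representation.**  `fR` bounded and holomorphic on `Re s ≥ c`, tending to `0` along the
positive reals, `fL` bounded and holomorphic on `Re s ≤ c`, and `J = fR - fL` integrable on the
line: then `fR z = (1/2π) ∫ J(c+iy)/(z-c-iy) dy` for `Re z > c`. -/
theorem jump_repr {fR fL J : ℂ → ℂ} {c C C' : ℝ}
    (hdR : DifferentiableOn ℂ fR {s | c ≤ s.re}) (hbR : ∀ s : ℂ, c ≤ s.re → ‖fR s‖ ≤ C)
    (hdL : DifferentiableOn ℂ fL {s | s.re ≤ c}) (hbL : ∀ s : ℂ, s.re ≤ c → ‖fL s‖ ≤ C')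
    (hlim : Tendsto (fun x : ℝ => fR x) atTop (𝓝 0))
    (hJ : ∀ y : ℝ, J (c + y * I) = fR (c + y * I) - fL (c + y * I))
    (hJi : Integrable fun y : ℝ => J (c + y * I)) {z : ℂ} (hz : c < z.re) :
    fR z = (1 / (2 * Real.pi)) * ∫ y : ℝ, J (c + y * I) / (z - (c + y * I)) := by
  have hmemR : ∀ y : ℝ, (c : ℂ) + y * I ∈ {s : ℂ | c ≤ s.re} := by
    intro y; simp
  have hmemL : ∀ y : ℝ, (c : ℂ) + y * I ∈ {s : ℂ | s.re ≤ c} := by
    intro y; simp
  -- integrability of `J/(a-s)`
  have hJk : ∀ a : ℂ, c < a.re → Integrable fun y : ℝ => J (c + y * I) / (a - (c + y * I)) := by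
    intro a ha
    have hpos : 0 < a.re - c := by linarith
    have : Integrable fun y : ℝ => (1 / (a - (c + y * I))) * J (c + y * I) := by
      apply hJi.bdd_mul (c := 1 / (a.re - c))
      · exact (continuous_const.div (by fun_prop)
          (fun y => sub_line_ne_zero ha.ne' y)).aestronglyMeasurable
      · refine Eventually.of_forall fun y => ?_
        rw [norm_div, norm_one]
        apply one_div_le_one_div_of_le hpos
        have := Complex.abs_re_le_norm (a - (c + y * I))
        simp at this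
        exact (le_abs_self _).trans this
    refine this.congr (Eventually.of_forall fun y => ?_)
    simp only
    ring
  have hdiff : ∀ w : ℂ, c < w.re →
      (∫ y : ℝ, J (c + y * I) / (z - (c + y * I))) - ∫ y : ℝ, J (c + y * I) / (w - (c + y * I))
        = 2 * Real.pi * (fR z - fR w) := by
    intro w hw
    have h1 := cauchy_right hdR hbR hz hw
    have h2 := kernel_zero_left hdL hbL hz hw
    have i1 := integrable_kernel (line_continuous hdR hmemR) (fun y => hbR _ (hmemR y)) hz.ne' hw.ne'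
    have i2 := integrable_kernel (line_continuous hdL hmemL) (fun y => hbL _ (hmemL y)) hz.ne' hw.ne'
    rw [← integral_sub (hJk z hz) (hJk w hw), ← h1, ← sub_zero (∫ y : ℝ, fR (c + y * I) * _), ← h2,
      ← integral_sub i1 i2]
    congr 1
    ext y
    rw [hJ y]
    ring
  -- limit `w → +∞`
  have hlimJ : Tendsto (fun x : ℝ => ∫ y : ℝ, J (c + y * I) / ((x : ℂ) - (c + y * I))) atTop (𝓝 0) := by
    rw [tendsto_zero_iff_norm_tendsto_zero]
    have hb1 : Tendsto (fun x : ℝ => (∫ y : ℝ, ‖J (c + y * I)‖) / (x - c)) atTop (𝓝 0) :=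
      tendsto_const_nhds.div_atTop (tendsto_atTop_add_const_right _ (-c) tendsto_id)
    refine squeeze_zero' (Eventually.of_forall fun x => norm_nonneg _) ?_ hb1
    filter_upwards [eventually_gt_atTop c] with x hx
    have hpos : 0 < x - c := by linarith
    refine (norm_integral_le_integral_norm _).trans ?_
    rw [div_eq_mul_inv, ← integral_mul_const]
    apply integral_mono (hJk x (by simpa using hx)).norm (hJi.norm.mul_const _)
    intro y
    simp only
    rw [norm_div, div_eq_mul_inv]
    apply mul_le_mul_of_nonneg_left _ (norm_nonneg _)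
    apply inv_anti₀ hpos
    have := Complex.abs_re_le_norm ((x : ℂ) - (c + y * I))
    simp at this
    exact (le_abs_self _).trans this
  have hfin : Tendsto (fun x : ℝ => (∫ y : ℝ, J (c + y * I) / (z - (c + y * I)))
      - ∫ y : ℝ, J (c + y * I) / ((x : ℂ) - (c + y * I))) atTop
      (𝓝 ((∫ y : ℝ, J (c + y * I) / (z - (c + y * I))) - 0)) := tendsto_const_nhds.sub hlimJ
  have hfin2 : Tendsto (fun x : ℝ => 2 * (Real.pi : ℂ) * (fR z - fR x)) atTop
      (𝓝 (2 * (Real.pi : ℂ) * (fR z - 0))) :=
    tendsto_const_nhds.mul (tendsto_const_nhds.sub hlim)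
  have heq : (fun x : ℝ => (∫ y : ℝ, J (c + y * I) / (z - (c + y * I)))
      - ∫ y : ℝ, J (c + y * I) / ((x : ℂ) - (c + y * I))) =ᶠ[atTop]
      fun x : ℝ => 2 * (Real.pi : ℂ) * (fR z - fR x) := by
    filter_upwards [eventually_gt_atTop c] with x hx
    exact hdiff x (by simpa using hx)
  have h := tendsto_nhds_unique (hfin.congr' heq) hfin2
  rw [sub_zero, sub_zero] at h
  rw [h]
  have hpi : (Real.pi : ℂ) ≠ 0 := by exact_mod_cast Real.pi_ne_zero
  field_simp

end Crest.Agent.R006.HalfPlanex186
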