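import Mathlib

/-!
# Row 6, block P3: rectangles with one pole (helper606)

`rectInt f x1 x2 y1 y2` = integral of `f` over the boundary of `[x1,x2] × [y1,y2]`
(counterclockwise).  `rectInt_pole`: for `f = h(s) (s-p)^{-k}` with `h` holomorphic on the closed
rectangle centred at `p` it equals the circle integral over `C(p,r)`.
`strip_pole`: the same for a vertical strip.
-/

set_option autoImplicit false

namespace Crest.Agent.R006.P3R

open Set Filter Topology MeasureTheory Complex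

/-- integral over the boundary of a rectangle, counterclockwise -/
noncomputable def rectInt (f : ℂ → ℂ) (x1 x2 y1 y2 : ℝ) : ℂ :=
  (∫ x in x1..x2, f (x + y1 * I)) - (∫ x in x1..x2, f (x + y2 * I)) +
    I • (∫ y in y1..y2, f (x2 + y * I)) - I • (∫ y in y1..y2, f (x1 + y * I))

/-- the boundary of the rectangle -/
def rectBd (x1 x2 y1 y2 : ℝ) : Set ℂ :=
  {s | (s.re ∈ Icc x1 x2 ∧ (s.im = y1 ∨ s.im = y2)) ∨ (s.im ∈ Icc y1 y2 ∧ (s.re = x1 ∨ s.re = x2))}

lemma mem_bd1 {x1 x2 y1 y2 x : ℝ} (h : x1 ≤ x2) (hx : x ∈ uIcc x1 x2) :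
    ((x : ℂ) + y1 * I) ∈ rectBd x1 x2 y1 y2 := by
  rw [uIcc_of_le h] at hx
  left; simpa using hx

lemma mem_bd2 {x1 x2 y1 y2 x : ℝ} (h : x1 ≤ x2) (hx : x ∈ uIcc x1 x2) :
    ((x : ℂ) + y2 * I) ∈ rectBd x1 x2 y1 y2 := by
  rw [uIcc_of_le h] at hx
  left; simpa using hx

lemma mem_bd3 {x1 x2 y1 y2 y : ℝ} (h : y1 ≤ y2) (hy : y ∈ uIcc y1 y2) :
    ((x1 : ℂ) + y * I) ∈ rectBd x1 x2 y1 y2 := by
  rw [uIcc_of_le h] at hy
  right; simpa using hy

lemma mem_bd4 {x1 x2 y1 y2 y : ℝ} (h : y1 ≤ y2) (hy : y ∈ uIcc y1 y2) :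
    ((x2 : ℂ) + y * I) ∈ rectBd x1 x2 y1 y2 := by
  rw [uIcc_of_le h] at hy
  right; simpa using hy

section
variable {f g : ℂ → ℂ} {x1 x2 y1 y2 : ℝ}

lemma rectInt_congr (hx : x1 ≤ x2) (hy : y1 ≤ y2) (h : EqOn f g (rectBd x1 x2 y1 y2)) :
    rectInt f x1 x2 y1 y2 = rectInt g x1 x2 y1 y2 := by
  unfold rectInt
  rw [intervalIntegral.integral_congr (fun x h' => h (mem_bd1 (y1 := y1) (y2 := y2) hx h')),
    intervalIntegral.integral_congr (fun x h' => h (mem_bd2 (y1 := y1) (y2 := y2) hx h')),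
    intervalIntegral.integral_congr (fun x h' => h (mem_bd3 (x1 := x1) (x2 := x2) hy h')),
    intervalIntegral.integral_congr (fun x h' => h (mem_bd4 (x1 := x1) (x2 := x2) hy h'))]

lemma side_int (hf : ContinuousOn f (rectBd x1 x2 y1 y2)) (hx : x1 ≤ x2) (hy : y1 ≤ y2) :
    IntervalIntegrable (fun x : ℝ => f (x + y1 * I)) volume x1 x2 ∧
    IntervalIntegrable (fun x : ℝ => f (x + y2 * I)) volume x1 x2 ∧
    IntervalIntegrable (fun y : ℝ => f (x2 + y * I)) volume y1 y2 ∧
    IntervalIntegrable (fun y : ℝ => f (x1 + y * I)) volume y1 y2 := by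
  refine ⟨ContinuousOn.intervalIntegrable ?_, ContinuousOn.intervalIntegrable ?_,
    ContinuousOn.intervalIntegrable ?_, ContinuousOn.intervalIntegrable ?_⟩
  · exact hf.comp (by fun_prop) fun x h => mem_bd1 hx h
  · exact hf.comp (by fun_prop) fun x h => mem_bd2 hx h
  · exact hf.comp (by fun_prop) fun x h => mem_bd4 hy h
  · exact hf.comp (by fun_prop) fun x h => mem_bd3 hy h

lemma rectInt_add (hx : x1 ≤ x2) (hy : y1 ≤ y2) (hf : ContinuousOn f (rectBd x1 x2 y1 y2))
    (hg : ContinuousOn g (rectBd x1 x2 y1 y2)) :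
    rectInt (fun s => f s + g s) x1 x2 y1 y2 = rectInt f x1 x2 y1 y2 + rectInt g x1 x2 y1 y2 := by
  obtain ⟨a1, a2, a3, a4⟩ := side_int hf hx hy
  obtain ⟨b1, b2, b3, b4⟩ := side_int hg hx hy
  unfold rectInt
  rw [intervalIntegral.integral_add a1 b1, intervalIntegral.integral_add a2 b2,
    intervalIntegral.integral_add a3 b3, intervalIntegral.integral_add a4 b4]
  simp only [smul_eq_mul]; ring

lemma rectInt_const_mul (c : ℂ) :
    rectInt (fun s => c * f s) x1 x2 y1 y2 = c * rectInt f x1 x2 y1 y2 := by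
  unfold rectInt
  simp only [intervalIntegral.integral_const_mul, smul_eq_mul]; ring

/-- Cauchy's theorem -/
lemma rectInt_zero (hx : x1 ≤ x2) (hy : y1 ≤ y2)
    (hf : DifferentiableOn ℂ f (Icc x1 x2 ×ℂ Icc y1 y2)) : rectInt f x1 x2 y1 y2 = 0 := by
  have key := Complex.integral_boundary_rect_eq_zero_of_differentiableOn f
    ((x1 : ℂ) + y1 * I) ((x2 : ℂ) + y2 * I) (by
      have e1 : ((x1 : ℂ) + y1 * I).re = x1 := by simp
      have e2 : ((x1 : ℂ) + y1 * I).im = y1 := by simp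
      have e3 : ((x2 : ℂ) + y2 * I).re = x2 := by simp
      have e4 : ((x2 : ℂ) + y2 * I).im = y2 := by simp
      rw [e1, e2, e3, e4, uIcc_of_le hx, uIcc_of_le hy]
      exact hf)
  simpa [rectInt] using key

/-- a function with a primitive on the boundary -/
lemma rectInt_deriv {F : ℂ → ℂ} (hx : x1 ≤ x2) (hy : y1 ≤ y2)
    (hf : ContinuousOn f (rectBd x1 x2 y1 y2))
    (hF : ∀ s ∈ rectBd x1 x2 y1 y2, HasDerivAt F (f s) s) : rectInt f x1 x2 y1 y2 = 0 := by
  obtain ⟨a1, a2, a3, a4⟩ := side_int hf hx hy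
  have hor : ∀ y : ℝ, (∀ x ∈ uIcc x1 x2, ((x : ℂ) + y * I) ∈ rectBd x1 x2 y1 y2) →
      IntervalIntegrable (fun x : ℝ => f (x + y * I)) volume x1 x2 →
      (∫ x in x1..x2, f (x + y * I)) = F (x2 + y * I) - F (x1 + y * I) := by
    intro y h1 h2
    refine intervalIntegral.integral_eq_sub_of_hasDerivAt (f := fun x : ℝ => F (x + y * I))
      (fun x hx' => ?_) h2
    have h3 := hF _ (h1 x hx')
    have h4 : HasDerivAt (fun x : ℝ => ((x : ℂ) + y * I)) 1 x := by
      simpa using (Complex.ofRealCLM.hasDerivAt (x := x)).add_const (y * I : ℂ)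
    have h5 := h3.comp_of_eq x h4 rfl
    rw [mul_one] at h5
    exact h5
  have ver : ∀ x : ℝ, (∀ y ∈ uIcc y1 y2, ((x : ℂ) + y * I) ∈ rectBd x1 x2 y1 y2) →
      IntervalIntegrable (fun y : ℝ => f (x + y * I)) volume y1 y2 →
      I • (∫ y in y1..y2, f (x + y * I)) = F (x + y2 * I) - F (x + y1 * I) := by
    intro x h1 h2
    rw [← intervalIntegral.integral_smul]
    refine intervalIntegral.integral_eq_sub_of_hasDerivAt (f := fun y : ℝ => F (x + y * I))
      (f' := fun y : ℝ => I • f (x + y * I)) (fun y hy' => ?_) (h2.smul I)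
    have h3 := hF _ (h1 y hy')
    have h4 : HasDerivAt (fun y : ℝ => ((x : ℂ) + y * I)) I y := by
      simpa using ((Complex.ofRealCLM.hasDerivAt (x := y)).mul_const I).const_add (x : ℂ)
    have h5 := h3.comp_of_eq y h4 rfl
    rw [smul_eq_mul, mul_comm]
    exact h5
  unfold rectInt
  rw [hor y1 (fun x h => mem_bd1 hx h) a1, hor y2 (fun x h => mem_bd2 hx h) a2,
    ver x2 (fun x h => mem_bd4 hy h) a3, ver x1 (fun x h => mem_bd3 hy h) a4]
  ring

end

/-- real integral used below -/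
lemma integral_arctan_aux {a b : ℝ} (hb : 0 < b) (c : ℝ) :
    (∫ t in (c - a)..(c + a), 2 * b / ((t - c) ^ 2 + b ^ 2)) = 4 * Real.arctan (a / b) := by
  have h := intervalIntegral.integral_eq_sub_of_hasDerivAt (a := c - a) (b := c + a)
    (f := fun t => 2 * Real.arctan ((t - c) / b)) (f' := fun t => 2 * b / ((t - c) ^ 2 + b ^ 2))
    (fun t _ => by
      have h1 : HasDerivAt (fun t : ℝ => (t - c) / b) (1 / b) t :=
        ((hasDerivAt_id t).sub_const c).div_const b
      have h2 := (h1.arctan).const_mul 2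
      have h6 : 2 * b / ((t - c) ^ 2 + b ^ 2) = 2 * (1 / (1 + ((t - c) / b) ^ 2) * (1 / b)) := by
        have : b ≠ 0 := hb.ne'
        have h5 : (t - c) ^ 2 + b ^ 2 ≠ 0 := by positivity
        field_simp
        ring
      rw [h6]; exact h2)
    (by
      apply Continuous.intervalIntegrable
      refine Continuous.div continuous_const (by fun_prop) fun t => ?_
      positivity)
  rw [h]
  have e1 : (c + a - c) / b = a / b := by ring
  have e2 : (c - a - c) / b = -(a / b) := by ring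
  rw [e1, e2, Real.arctan_neg]
  ring

lemma not_bd_center {p : ℂ} {a b : ℝ} (ha : 0 < a) (hb : 0 < b) {s : ℂ}
    (hs : s ∈ rectBd (p.re - a) (p.re + a) (p.im - b) (p.im + b)) : s - p ≠ 0 := by
  intro h
  have h1 : s.re - p.re = 0 := by simpa using congrArg Complex.re h
  have h2 : s.im - p.im = 0 := by simpa using congrArg Complex.im h
  rcases hs with ⟨_, h3 | h3⟩ | ⟨_, h3 | h3⟩ <;> linarith

lemma cont_zpow_bd {p : ℂ} {a b : ℝ} (ha : 0 < a) (hb : 0 < b) (n : ℤ) :
    ContinuousOn (fun s : ℂ => (s - p) ^ n)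
      (rectBd (p.re - a) (p.re + a) (p.im - b) (p.im + b)) := by
  refine ContinuousOn.zpow₀ (by fun_prop) n fun s hs => Or.inl ?_
  exact not_bd_center ha hb hs

lemma rectInt_zpow {p : ℂ} {a b : ℝ} (ha : 0 < a) (hb : 0 < b) {n : ℤ} (hn : n ≠ -1) :
    rectInt (fun s => (s - p) ^ n) (p.re - a) (p.re + a) (p.im - b) (p.im + b) = 0 := by
  have hn' : (n + 1 : ℂ) ≠ 0 := by
    have : n + 1 ≠ 0 := by omega
    exact_mod_cast this
  refine rectInt_deriv (F := fun s => (s - p) ^ (n + 1) / (n + 1)) (by linarith) (by linarith)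
    (cont_zpow_bd ha hb n) fun s hs => ?_
  have h0 := not_bd_center ha hb hs
  have h1 : HasDerivAt (fun s : ℂ => s - p) 1 s := (hasDerivAt_id s).sub_const p
  have h2 := (hasDerivAt_zpow (n + 1) (s - p) (Or.inl h0)).comp_of_eq s h1 rfl
  have h3 := h2.div_const (n + 1 : ℂ)
  have h4 : ((n + 1 : ℤ) : ℂ) * (s - p) ^ (n + 1 - 1) * 1 / ((n : ℂ) + 1) = (s - p) ^ n := by
    rw [add_sub_cancel_right]
    push_cast
    field_simp
  rw [h4] at h3
  exact h3

lemma rectInt_inv {p : ℂ} {a b : ℝ} (ha : 0 < a) (hb : 0 < b) :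
    rectInt (fun s => (s - p)⁻¹) (p.re - a) (p.re + a) (p.im - b) (p.im + b) =
      2 * Real.pi * I := by
  have hc : ContinuousOn (fun s : ℂ => (s - p)⁻¹)
      (rectBd (p.re - a) (p.re + a) (p.im - b) (p.im + b)) := by
    simpa using cont_zpow_bd (p := p) ha hb (-1)
  obtain ⟨a1, a2, a3, a4⟩ := side_int hc (by linarith) (by linarith)
  have hp : (p : ℂ) = p.re + p.im * I := (Complex.re_add_im p).symm
  have hI : I * I = -1 := Complex.I_mul_I
  have hor : (∫ x in (p.re - a)..(p.re + a), ((x : ℂ) + ((p.im - b : ℝ) : ℂ) * I - p)⁻¹) -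
      (∫ x in (p.re - a)..(p.re + a), ((x : ℂ) + ((p.im + b : ℝ) : ℂ) * I - p)⁻¹) =
      I * ((4 * Real.arctan (a / b) : ℝ) : ℂ) := by
    rw [← intervalIntegral.integral_sub a1 a2, ← integral_arctan_aux hb p.re,
      ← intervalIntegral.integral_ofReal, ← intervalIntegral.integral_const_mul]
    refine intervalIntegral.integral_congr fun x _ => ?_
    have e1 : (x : ℂ) + ((p.im - b : ℝ) : ℂ) * I - p = ((x - p.re : ℝ) : ℂ) - b * I := by
      apply Complex.ext <;> simp
    have e2 : (x : ℂ) + ((p.im + b : ℝ) : ℂ) * I - p = ((x - p.re : ℝ) : ℂ) + b * I := by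
      apply Complex.ext <;> simp
    simp only [e1, e2]
    have h3 : ((x - p.re : ℝ) : ℂ) - b * I ≠ 0 := by
      intro h; have := congrArg Complex.im h; simp at this; linarith
    have h4 : ((x - p.re : ℝ) : ℂ) + b * I ≠ 0 := by
      intro h; have := congrArg Complex.im h; simp at this; linarith
    have h5 : (((x - p.re) ^ 2 + b ^ 2 : ℝ) : ℂ) ≠ 0 := by
      have : (x - p.re) ^ 2 + b ^ 2 ≠ 0 := by positivity
      exact_mod_cast this
    have h6 : (((x - p.re : ℝ) : ℂ) - b * I) * (((x - p.re : ℝ) : ℂ) + b * I) =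
        (((x - p.re) ^ 2 + b ^ 2 : ℝ) : ℂ) := by
      push_cast
      linear_combination (-(b : ℂ) ^ 2) * hI
    have h7 : (2 * b / ((x - p.re) ^ 2 + b ^ 2) : ℝ) =
        (2 * (b : ℂ)) / (((x - p.re) ^ 2 + b ^ 2 : ℝ) : ℂ) := by push_cast; ring
    rw [h7, inv_sub_inv h3 h4, h6]
    ring
  have hver : (∫ y in (p.im - b)..(p.im + b), (((p.re + a : ℝ) : ℂ) + y * I - p)⁻¹) -
      (∫ y in (p.im - b)..(p.im + b), (((p.re - a : ℝ) : ℂ) + y * I - p)⁻¹) =
      ((4 * Real.arctan (b / a) : ℝ) : ℂ) := by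
    rw [← intervalIntegral.integral_sub a3 a4, ← integral_arctan_aux ha p.im,
      ← intervalIntegral.integral_ofReal]
    refine intervalIntegral.integral_congr fun y _ => ?_
    have e1 : ((p.re + a : ℝ) : ℂ) + y * I - p = a + ((y - p.im : ℝ) : ℂ) * I := by
      apply Complex.ext <;> simp
    have e2 : ((p.re - a : ℝ) : ℂ) + y * I - p = -a + ((y - p.im : ℝ) : ℂ) * I := by
      apply Complex.ext <;> simp
    simp only [e1, e2]
    have h3 : (a : ℂ) + ((y - p.im : ℝ) : ℂ) * I ≠ 0 := by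
      intro h; have := congrArg Complex.re h; simp at this; linarith
    have h4 : -(a : ℂ) + ((y - p.im : ℝ) : ℂ) * I ≠ 0 := by
      intro h; have := congrArg Complex.re h; simp at this; linarith
    have h5 : (((y - p.im) ^ 2 + a ^ 2 : ℝ) : ℂ) ≠ 0 := by
      have : (y - p.im) ^ 2 + a ^ 2 ≠ 0 := by positivity
      exact_mod_cast this
    have h6 : ((a : ℂ) + ((y - p.im : ℝ) : ℂ) * I) * (-(a : ℂ) + ((y - p.im : ℝ) : ℂ) * I) =
        -(((y - p.im) ^ 2 + a ^ 2 : ℝ) : ℂ) := by
      push_cast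
      linear_combination ((y : ℂ) - p.im) ^ 2 * hI
    have h7 : (2 * a / ((y - p.im) ^ 2 + a ^ 2) : ℝ) =
        (2 * (a : ℂ)) / (((y - p.im) ^ 2 + a ^ 2 : ℝ) : ℂ) := by push_cast; ring
    rw [h7, inv_sub_inv h3 h4, h6]
    field_simp
    ring
  have harc : Real.arctan (a / b) + Real.arctan (b / a) = Real.pi / 2 := by
    have h1 : b / a = (a / b)⁻¹ := (inv_div a b).symm
    rw [h1, Real.arctan_inv_of_pos (by positivity)]
    ring
  have hver' := congrArg (fun z : ℂ => I * z) hver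
  simp only [mul_sub] at hver'
  unfold rectInt
  simp only [smul_eq_mul]
  rw [hor, add_sub_assoc, hver', ← mul_add, ← ofReal_add, ← mul_add, harc]
  push_cast
  ring

/-- one pole of order `≤ k` in the centre -/
theorem rectInt_pole {p : ℂ} {a b r : ℝ} (hr : 0 < r) (hra : r ≤ a) (hrb : r ≤ b) (k : ℕ) :
    ∀ h : ℂ → ℂ, DifferentiableOn ℂ h
      (Icc (p.re - a) (p.re + a) ×ℂ Icc (p.im - b) (p.im + b)) →
    rectInt (fun s => h s * (s - p) ^ (-(k : ℤ))) (p.re - a) (p.re + a) (p.im - b) (p.im + b) =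
      ∮ s in C(p, r), h s * (s - p) ^ (-(k : ℤ)) := by
  have ha : 0 < a := lt_of_lt_of_le hr hra
  have hb : 0 < b := lt_of_lt_of_le hr hrb
  have hbd : rectBd (p.re - a) (p.re + a) (p.im - b) (p.im + b) ⊆
      Icc (p.re - a) (p.re + a) ×ℂ Icc (p.im - b) (p.im + b) := by
    intro s hs
    rcases hs with ⟨h1, h3 | h3⟩ | ⟨h1, h3 | h3⟩
    · exact Complex.mem_reProdIm.2 ⟨h1, by rw [h3]; exact ⟨le_rfl, by linarith⟩⟩
    · exact Complex.mem_reProdIm.2 ⟨h1, by rw [h3]; exact ⟨by linarith, le_rfl⟩⟩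
    · exact Complex.mem_reProdIm.2 ⟨by rw [h3]; exact ⟨le_rfl, by linarith⟩, h1⟩
    · exact Complex.mem_reProdIm.2 ⟨by rw [h3]; exact ⟨by linarith, le_rfl⟩, h1⟩
  have hball : Metric.closedBall p r ⊆
      Icc (p.re - a) (p.re + a) ×ℂ Icc (p.im - b) (p.im + b) := by
    intro s hs
    rw [Metric.mem_closedBall, dist_eq_norm] at hs
    have h1 := (Complex.abs_re_le_norm (s - p)).trans hs
    have h2 := (Complex.abs_im_le_norm (s - p)).trans hs
    rw [Complex.sub_re, abs_le] at h1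
    rw [Complex.sub_im, abs_le] at h2
    exact ⟨⟨by linarith [h1.1], by linarith [h1.2]⟩, ⟨by linarith [h2.1], by linarith [h2.2]⟩⟩
  have hnhds : (Icc (p.re - a) (p.re + a) ×ℂ Icc (p.im - b) (p.im + b)) ∈ 𝓝 p :=
    mem_of_superset (Metric.closedBall_mem_nhds p hr) hball
  have hsph : ∀ s ∈ Metric.sphere p r, s - p ≠ 0 := by
    intro s hs h
    rw [mem_sphere_iff_norm, h, norm_zero] at hs
    linarith
  induction k with
  | zero =>
    intro h hh
    have e : (fun s => h s * (s - p) ^ (-((0 : ℕ) : ℤ))) = h := by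
      ext s; simp
    rw [e, rectInt_zero (by linarith) (by linarith) hh]
    symm
    exact Complex.circleIntegral_eq_zero_of_differentiable_on_off_countable hr.le
      (s := ∅) countable_empty (hh.continuousOn.mono hball) (fun z hz => by
        have hz' : z ∈ Metric.ball p r := hz.1
        exact (hh z (hball (Metric.ball_subset_closedBall hz'))).differentiableAt
          (mem_of_superset (Metric.isOpen_ball.mem_nhds hz')
            (Metric.ball_subset_closedBall.trans hball)))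
  | succ k ih =>
    intro h hh
    have hd : DifferentiableOn ℂ (dslope h p)
        (Icc (p.re - a) (p.re + a) ×ℂ Icc (p.im - b) (p.im + b)) :=
      (Complex.differentiableOn_dslope hnhds).2 hh
    have hsplit : ∀ s : ℂ, s - p ≠ 0 → h s * (s - p) ^ (-((k + 1 : ℕ) : ℤ)) =
        h p * (s - p) ^ (-((k + 1 : ℕ) : ℤ)) + dslope h p s * (s - p) ^ (-(k : ℤ)) := by
      intro s hs
      have h1 : (s - p) * dslope h p s = h s - h p := by
        have := sub_smul_dslope h p s
        simpa using this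
      have h2 : (s - p) ^ (-(k : ℤ)) = (s - p) * (s - p) ^ (-((k + 1 : ℕ) : ℤ)) := by
        rw [← zpow_one_add₀ hs]
        congr 1
        push_cast; ring
      rw [h2]
      have h3 : h s = h p + (s - p) * dslope h p s := by rw [h1]; ring
      rw [h3]; ring
    have c1 : ContinuousOn (fun s : ℂ => h p * (s - p) ^ (-((k + 1 : ℕ) : ℤ)))
        (rectBd (p.re - a) (p.re + a) (p.im - b) (p.im + b)) :=
      (cont_zpow_bd ha hb _).const_mul _
    have c2 : ContinuousOn (fun s : ℂ => dslope h p s * (s - p) ^ (-(k : ℤ)))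
        (rectBd (p.re - a) (p.re + a) (p.im - b) (p.im + b)) :=
      (hd.continuousOn.mono hbd).mul (cont_zpow_bd ha hb _)
    have d0 : ∀ n : ℤ, ContinuousOn (fun s : ℂ => (s - p) ^ n) (Metric.sphere p r) := by
      intro n
      exact ContinuousOn.zpow₀ (by fun_prop) n fun s hs => Or.inl (hsph s hs)
    have d1 : ContinuousOn (fun s : ℂ => h p * (s - p) ^ (-((k + 1 : ℕ) : ℤ)))
        (Metric.sphere p r) := (d0 _).const_mul _
    have d2 : ContinuousOn (fun s : ℂ => dslope h p s * (s - p) ^ (-(k : ℤ)))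
        (Metric.sphere p r) :=
      (hd.continuousOn.mono (Metric.sphere_subset_closedBall.trans hball)).mul (d0 _)
    rw [rectInt_congr (g := fun s => h p * (s - p) ^ (-((k + 1 : ℕ) : ℤ)) +
        dslope h p s * (s - p) ^ (-(k : ℤ))) (by linarith) (by linarith)
        (fun s hs => hsplit s (not_bd_center ha hb hs)),
      rectInt_add (by linarith) (by linarith) c1 c2, rectInt_const_mul, ih _ hd,
      circleIntegral.integral_congr (g := fun s => h p * (s - p) ^ (-((k + 1 : ℕ) : ℤ)) +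
        dslope h p s * (s - p) ^ (-(k : ℤ))) hr.le (fun s hs => hsplit s (hsph s hs)),
      circleIntegral.integral_add (d1.circleIntegrable hr.le) (d2.circleIntegrable hr.le),
      circleIntegral.integral_const_mul]
    congr 2
    rcases Nat.eq_zero_or_pos k with hk | hk
    · subst hk
      have e1 : (fun s : ℂ => (s - p) ^ (-((0 + 1 : ℕ) : ℤ))) = fun s => (s - p)⁻¹ := by
        ext s; simp
      rw [e1, rectInt_inv ha hb]
      have e2 := circleIntegral.integral_sub_center_inv p (ne_of_gt hr)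
      rw [← e2]
    · have hk' : (-((k + 1 : ℕ) : ℤ)) ≠ -1 := by push_cast; omega
      rw [rectInt_zpow ha hb hk', circleIntegral.integral_sub_zpow_of_ne hk']

end Crest.Agent.R006.P3R
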