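import Crest.Agent.R006.P3_Ray_606
import Crest.Agent.R006.P3_Rect_606

/-!
# Row 6, block P3: strips with one pole, telescoping, two-ray contours (helper606)

* `h_of_div`      : `g / c^k` with a simple zero of `c` at `p` has the form `h(s) (s-p)^{-k}`.
* `strip_pole`    : right line - left line = circle integral.
* `line_tendsto`  : `∑_{l < n} ∮_{C(-1/2-(k0+l), r)} f → i ∫ f(-k0 + i y) dy`.
* `line_eq_twoRay`, `twoRay_shift` : the vertical line as two rays, and turning them.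
-/

set_option autoImplicit false

namespace Crest.Agent.R006.P3R

open Set Filter Topology MeasureTheory Complex

/-- `g / c^k` near a simple zero of `c` -/
lemma h_of_div {g c : ℂ → ℂ} {S : Set ℂ} {p : ℂ} (hS : S ∈ 𝓝 p) (hg : DifferentiableOn ℂ g S)
    (hc : DifferentiableOn ℂ c S) (hc0 : c p = 0) (hc1 : deriv c p ≠ 0)
    (hne : ∀ s ∈ S, s ≠ p → c s ≠ 0) (k : ℕ) :
    ∃ h : ℂ → ℂ, DifferentiableOn ℂ h S ∧
      ∀ s ∈ S, s ≠ p → g s / (c s) ^ k = h s * (s - p) ^ (-(k : ℤ)) := by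
  have hd : DifferentiableOn ℂ (dslope c p) S := (Complex.differentiableOn_dslope hS).2 hc
  have hmul : ∀ s, (s - p) * dslope c p s = c s := by
    intro s
    have := sub_smul_dslope c p s
    rw [hc0, sub_zero, smul_eq_mul] at this
    exact this
  have hdne : ∀ s ∈ S, dslope c p s ≠ 0 := by
    intro s hs
    by_cases h : s = p
    · subst h; rwa [dslope_same]
    · intro h0
      have := hmul s
      rw [h0, mul_zero] at this
      exact hne s hs h this.symm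
  refine ⟨fun s => g s / (dslope c p s) ^ k, hg.div (hd.pow k) fun s hs => pow_ne_zero _ (hdne s hs),
    fun s hs hsp => ?_⟩
  have h1 : s - p ≠ 0 := sub_ne_zero.2 hsp
  rw [← hmul s, mul_pow, zpow_neg, zpow_natCast]
  have h2 := hdne s hs
  field_simp

/-- a strip with one pole -/
theorem strip_pole {f h : ℂ → ℂ} {p : ℂ} {a r : ℝ} (hr : 0 < r) (hra : r ≤ a) (k : ℕ)
    (hh : DifferentiableOn ℂ h {s | |s.re - p.re| ≤ a})
    (hf : ∀ s : ℂ, |s.re - p.re| ≤ a → s ≠ p → f s = h s * (s - p) ^ (-(k : ℤ)))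
    (hdec : ∀ ε : ℝ, 0 < ε → ∃ Y : ℝ, ∀ s : ℂ, |s.re - p.re| ≤ a → Y ≤ |s.im| → ‖f s‖ ≤ ε)
    (i1 : Integrable (fun y : ℝ => f (((p.re + a : ℝ) : ℂ) + y * I)))
    (i2 : Integrable (fun y : ℝ => f (((p.re - a : ℝ) : ℂ) + y * I))) :
    I • (∫ y : ℝ, f (((p.re + a : ℝ) : ℂ) + y * I)) -
      I • (∫ y : ℝ, f (((p.re - a : ℝ) : ℂ) + y * I)) = ∮ s in C(p, r), f s := by
  have ha : 0 < a := lt_of_lt_of_le hr hra
  have hsph : ∀ s ∈ Metric.sphere p r, s - p ≠ 0 := by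
    intro s hs h
    rw [mem_sphere_iff_norm, h, norm_zero] at hs
    linarith
  have hrect : ∀ b : ℝ, r ≤ b →
      rectInt f (p.re - a) (p.re + a) (p.im - b) (p.im + b) = ∮ s in C(p, r), f s := by
    intro b hb
    have hb0 : 0 < b := lt_of_lt_of_le hr hb
    have key := rectInt_pole (p := p) hr hra hb k h (hh.mono (by
      intro s hs
      have h1 := (Complex.mem_reProdIm.1 hs).1
      change |s.re - p.re| ≤ a
      rw [abs_le]
      exact ⟨by linarith [h1.1], by linarith [h1.2]⟩))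
    rw [rectInt_congr (f := f) (g := fun s => h s * (s - p) ^ (-(k : ℤ))) (by linarith)
      (by linarith) (fun s hs => by
        refine hf s ?_ (sub_ne_zero.1 (not_bd_center ha hb0 hs))
        rw [abs_le]
        rcases hs with ⟨h1, _⟩ | ⟨_, h3 | h3⟩
        · exact ⟨by linarith [h1.1], by linarith [h1.2]⟩
        · rw [h3]; exact ⟨by linarith, by linarith⟩
        · rw [h3]; exact ⟨by linarith, by linarith⟩), key]
    refine circleIntegral.integral_congr hr.le fun s hs => ?_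
    refine (hf s ?_ (sub_ne_zero.1 (hsph s hs))).symm
    have h1 := Complex.abs_re_le_norm (s - p)
    rw [mem_sphere_iff_norm.1 hs, Complex.sub_re] at h1
    exact h1.trans hra
  have t1 : Tendsto (fun b : ℝ => ∫ y in (p.im - b)..(p.im + b),
      f (((p.re + a : ℝ) : ℂ) + y * I)) atTop
      (𝓝 (∫ y : ℝ, f (((p.re + a : ℝ) : ℂ) + y * I))) :=
    intervalIntegral_tendsto_integral i1
      (tendsto_atBot_add_const_left atTop p.im tendsto_neg_atTop_atBot |>.congr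
        fun b => by ring)
      (tendsto_atTop_add_const_left atTop p.im tendsto_id)
  have t2 : Tendsto (fun b : ℝ => ∫ y in (p.im - b)..(p.im + b),
      f (((p.re - a : ℝ) : ℂ) + y * I)) atTop
      (𝓝 (∫ y : ℝ, f (((p.re - a : ℝ) : ℂ) + y * I))) :=
    intervalIntegral_tendsto_integral i2
      (tendsto_atBot_add_const_left atTop p.im tendsto_neg_atTop_atBot |>.congr
        fun b => by ring)
      (tendsto_atTop_add_const_left atTop p.im tendsto_id)
  have hhor : ∀ u : ℝ → ℝ, Tendsto (fun b => |u b|) atTop atTop →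
      Tendsto (fun b : ℝ => ∫ x in (p.re - a)..(p.re + a), f (x + (u b) * I)) atTop (𝓝 0) := by
    intro u hu
    rw [Metric.tendsto_nhds]
    intro ε hε
    obtain ⟨Y, hY⟩ := hdec (ε / (4 * a)) (by positivity)
    filter_upwards [hu.eventually_ge_atTop Y] with b hb
    rw [dist_zero_right]
    have h1 : ‖∫ x in (p.re - a)..(p.re + a), f (x + (u b) * I)‖ ≤
        ε / (4 * a) * |(p.re + a) - (p.re - a)| := by
      refine intervalIntegral.norm_integral_le_of_norm_le_const fun x hx => ?_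
      rw [uIoc_of_le (by linarith)] at hx
      refine hY _ ?_ ?_
      · have : ((x : ℂ) + (u b) * I).re = x := by simp
        rw [this, abs_le]
        exact ⟨by linarith [hx.1], by linarith [hx.2]⟩
      · have : ((x : ℂ) + (u b) * I).im = u b := by simp
        rw [this]; exact hb
    refine lt_of_le_of_lt h1 ?_
    have e : (p.re + a) - (p.re - a) = 2 * a := by ring
    rw [e, abs_of_pos (by linarith)]
    have : ε / (4 * a) * (2 * a) = ε / 2 := by field_simp; ring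
    rw [this]; linarith
  have u1 : Tendsto (fun b : ℝ => |p.im - b|) atTop atTop :=
    tendsto_abs_atBot_atTop.comp
      (tendsto_atBot_add_const_left atTop p.im tendsto_neg_atTop_atBot |>.congr fun b => by ring)
  have u2 : Tendsto (fun b : ℝ => |p.im + b|) atTop atTop :=
    tendsto_abs_atTop_atTop.comp (tendsto_atTop_add_const_left atTop p.im tendsto_id)
  have t3 := hhor (fun b => p.im - b) u1
  have t4 := hhor (fun b => p.im + b) u2
  have tt := ((t3.sub t4).add (t1.const_smul I)).sub (t2.const_smul I)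
  have tc : Tendsto (fun b : ℝ => rectInt f (p.re - a) (p.re + a) (p.im - b) (p.im + b)) atTop
      (𝓝 (∮ s in C(p, r), f s)) := by
    refine Tendsto.congr' ?_ tendsto_const_nhds
    filter_upwards [eventually_ge_atTop r] with b hb
    exact (hrect b hb).symm
  have := tendsto_nhds_unique (f := fun b : ℝ =>
    rectInt f (p.re - a) (p.re + a) (p.im - b) (p.im + b)) tt tc
  rw [← this]
  simp

/-- **telescoping**: the vertical line at `-k0` is the sum of the circles to its left -/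
theorem line_tendsto {f : ℂ → ℂ} {r : ℝ} (hr : 0 < r) (hr2 : r ≤ 1 / 2) (k0 k : ℕ)
    (hpole : ∀ l : ℕ, k0 ≤ l → ∃ h : ℂ → ℂ,
      DifferentiableOn ℂ h {s | |s.re - (-1 / 2 - l)| ≤ 1 / 2} ∧
      ∀ s : ℂ, |s.re - (-1 / 2 - l)| ≤ 1 / 2 → s ≠ -1 / 2 - l →
        f s = h s * (s - (-1 / 2 - l)) ^ (-(k : ℤ)))
    (hdec : ∀ l : ℕ, k0 ≤ l → ∀ ε : ℝ, 0 < ε → ∃ Y : ℝ, ∀ s : ℂ,
      |s.re - (-1 / 2 - l)| ≤ 1 / 2 → Y ≤ |s.im| → ‖f s‖ ≤ ε)
    (hint : ∀ l : ℕ, k0 ≤ l → Integrable (fun y : ℝ => f (-l + y * I)))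
    (hlim : Tendsto (fun l : ℕ => ∫ y : ℝ, f (-l + y * I)) atTop (𝓝 0)) :
    Tendsto (fun n : ℕ => ∑ l ∈ Finset.range n, ∮ s in C(-1 / 2 - ((k0 + l : ℕ) : ℂ), r), f s)
      atTop (𝓝 (I • ∫ y : ℝ, f (-k0 + y * I))) := by
  have hstep : ∀ l : ℕ, k0 ≤ l → (∮ s in C(-1 / 2 - (l : ℂ), r), f s) =
      I • (∫ y : ℝ, f (-l + y * I)) - I • (∫ y : ℝ, f (-((l + 1 : ℕ) : ℂ) + y * I)) := by
    intro l hl
    obtain ⟨h, hh, hf⟩ := hpole l hl
    have hre : (-1 / 2 - (l : ℂ)).re = -1 / 2 - l := by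
      simp only [Complex.sub_re, Complex.natCast_re]
      norm_num
    have e1 : (((-1 / 2 - (l : ℂ)).re + 1 / 2 : ℝ) : ℂ) = -(l : ℂ) := by
      rw [hre]; push_cast; ring
    have e2 : (((-1 / 2 - (l : ℂ)).re - 1 / 2 : ℝ) : ℂ) = -((l + 1 : ℕ) : ℂ) := by
      rw [hre]; push_cast; ring
    have key := strip_pole (f := f) (h := h) (p := -1 / 2 - (l : ℂ)) (a := 1 / 2) hr hr2 k
      (by rw [hre]; exact hh) (by rw [hre]; exact hf) (by rw [hre]; exact hdec l hl)
      (by rw [e1]; exact hint l hl)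
      (by rw [e2]; exact hint (l + 1) (by omega))
    rw [e1, e2] at key
    exact key.symm
  have hsum : ∀ n : ℕ, ∑ l ∈ Finset.range n, (∮ s in C(-1 / 2 - ((k0 + l : ℕ) : ℂ), r), f s) =
      I • (∫ y : ℝ, f (-(k0 : ℂ) + y * I)) -
        I • (∫ y : ℝ, f (-((k0 + n : ℕ) : ℂ) + y * I)) := by
    intro n
    induction n with
    | zero => simp
    | succ n ih =>
      rw [Finset.sum_range_succ, ih, hstep (k0 + n) (by omega)]
      have : k0 + (n + 1) = k0 + n + 1 := by ring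
      rw [this]
      ring
  have h1 : Tendsto (fun n : ℕ => ∫ y : ℝ, f (-((k0 + n : ℕ) : ℂ) + y * I)) atTop (𝓝 0) :=
    hlim.comp (tendsto_add_atTop_nat k0 |>.congr fun n => add_comm n k0)
  have h2 := (tendsto_const_nhds (x := I • (∫ y : ℝ, f (-(k0 : ℂ) + y * I)))
    (f := atTop (α := ℕ))).sub (h1.const_smul I)
  rw [smul_zero, sub_zero] at h2
  exact h2.congr fun n => (hsum n).symm

/-- the contour from `-i∞` to `+i∞` made of the two rays with angles `∓θ` from the real point `x0`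
-/
noncomputable def twoRay (f : ℂ → ℂ) (x0 θ : ℝ) : ℂ := rayInt f x0 θ - rayInt f x0 (-θ)

lemma exp_half_pi : cexp (((Real.pi / 2 : ℝ) : ℂ) * I) = I := by
  push_cast; exact Complex.exp_pi_div_two_mul_I

lemma exp_neg_half_pi : cexp (((-(Real.pi / 2) : ℝ) : ℂ) * I) = -I := by
  have : ((-(Real.pi / 2) : ℝ) : ℂ) * I = -(Real.pi / 2 * I) := by push_cast; ring
  rw [this, Complex.exp_neg, Complex.exp_pi_div_two_mul_I, Complex.inv_I]

/-- the vertical line is a two-ray contour -/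
theorem line_eq_twoRay {f : ℂ → ℂ} {x0 : ℝ} (hi : Integrable (fun y : ℝ => f (x0 + y * I))) :
    I • (∫ y : ℝ, f (x0 + y * I)) = twoRay f x0 (Real.pi / 2) := by
  have e1 : rayInt f x0 (Real.pi / 2) = I * ∫ y in Ioi (0 : ℝ), f (x0 + y * I) := by
    unfold rayInt ray
    rw [exp_half_pi, ← integral_const_mul]
    refine integral_congr_ae (Eventually.of_forall fun y => ?_)
    ring
  have e2 : rayInt f x0 (-(Real.pi / 2)) = -(I * ∫ y in Iic (0 : ℝ), f (x0 + y * I)) := by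
    have h0 : (∫ y in Iic (0 : ℝ), f (x0 + y * I)) =
        ∫ y in Ioi (0 : ℝ), f (x0 + ((-y : ℝ) : ℂ) * I) := by
      have := integral_comp_neg_Ioi (0 : ℝ) (fun y : ℝ => f (x0 + y * I))
      rw [neg_zero] at this
      exact this.symm
    unfold rayInt ray
    rw [h0, exp_neg_half_pi, ← integral_const_mul, ← integral_neg]
    refine integral_congr_ae (Eventually.of_forall fun y => ?_)
    simp only
    have : (x0 : ℂ) + y * -I = x0 + ((-y : ℝ) : ℂ) * I := by push_cast; ring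
    rw [this]
    ring
  unfold twoRay
  rw [e1, e2, sub_neg_eq_add, ← mul_add, smul_eq_mul]
  congr 1
  rw [add_comm]
  exact (setIntegral_univ.symm.trans (by
    rw [← Iic_union_Ioi (a := (0 : ℝ)), setIntegral_union (Iic_disjoint_Ioi le_rfl)
      measurableSet_Ioi hi.integrableOn hi.integrableOn]))

/-- turning both rays of the contour -/
theorem twoRay_shift {f : ℂ → ℂ} {x0 θ1 θ2 : ℝ} (h12 : θ1 ≤ θ2)
    (hd : ∀ θ ∈ Icc θ1 θ2, ∀ r : ℝ, 0 < r →
      DifferentiableAt ℂ f (ray x0 θ r) ∧ DifferentiableAt ℂ f (ray x0 (-θ) r))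
    (h0 : ∀ ε : ℝ, 0 < ε → ∃ δ : ℝ, 0 < δ ∧ ∀ r : ℝ, 0 < r → r < δ → ∀ θ ∈ Icc θ1 θ2,
      r * ‖f (ray x0 θ r)‖ ≤ ε ∧ r * ‖f (ray x0 (-θ) r)‖ ≤ ε)
    (hi : ∀ ε : ℝ, 0 < ε → ∃ M : ℝ, ∀ r : ℝ, M ≤ r → ∀ θ ∈ Icc θ1 θ2,
      r * ‖f (ray x0 θ r)‖ ≤ ε ∧ r * ‖f (ray x0 (-θ) r)‖ ≤ ε)
    (hint : ∀ θ ∈ ({θ1, θ2} : Set ℝ), IntegrableOn (fun r => f (ray x0 θ r)) (Ioi 0) ∧
      IntegrableOn (fun r => f (ray x0 (-θ) r)) (Ioi 0)) :
    twoRay f x0 θ1 = twoRay f x0 θ2 := by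
  have m1 : θ1 ∈ ({θ1, θ2} : Set ℝ) := by simp
  have m2 : θ2 ∈ ({θ1, θ2} : Set ℝ) := by simp
  have neg_mem : ∀ θ ∈ Icc (-θ2) (-θ1), -θ ∈ Icc θ1 θ2 := by
    intro θ hθ; exact ⟨by linarith [hθ.2], by linarith [hθ.1]⟩
  unfold twoRay
  rw [ray_shift f x0 h12 (fun θ hθ r hr => (hd θ hθ r hr).1)
    (fun ε hε => by
      obtain ⟨δ, hδ, h⟩ := h0 ε hε
      exact ⟨δ, hδ, fun r h1 h2 θ hθ => (h r h1 h2 θ hθ).1⟩)
    (fun ε hε => by
      obtain ⟨M, h⟩ := hi ε hε
      exact ⟨M, fun r h1 θ hθ => (h r h1 θ hθ).1⟩) (hint _ m1).1 (hint _ m2).1]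
  rw [ray_shift f x0 (θ1 := -θ2) (θ2 := -θ1) (by linarith)
    (fun θ hθ r hr => by
      have := (hd (-θ) (neg_mem θ hθ) r hr).2
      rwa [neg_neg] at this)
    (fun ε hε => by
      obtain ⟨δ, hδ, h⟩ := h0 ε hε
      refine ⟨δ, hδ, fun r h1 h2 θ hθ => ?_⟩
      have := (h r h1 h2 (-θ) (neg_mem θ hθ)).2
      rwa [neg_neg] at this)
    (fun ε hε => by
      obtain ⟨M, h⟩ := hi ε hε
      refine ⟨M, fun r h1 θ hθ => ?_⟩
      have := (h r h1 (-θ) (neg_mem θ hθ)).2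
      rwa [neg_neg] at this) (hint _ m2).2 (hint _ m1).2]

end Crest.Agent.R006.P3R
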