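import Crest.Agent.R006.PsiJ1_576

/-!
# Row 6 (Catalan), block P3, analytic input (helper576), part 2

Circle functionals `L v l φ = (2πi)⁻¹ ∮_{C(-1/2-l,1/4)} J v s φ s ds`.
-/

set_option autoImplicit false

open Complex Filter Topology Metric Set
open scoped Real

namespace Crest.Agent.R006.PsiJ

/-! ### shape of the triple poles -/

/-- `sin(πe)/e`, holomorphically extended by `π` -/
noncomputable def Dd (e : ℂ) : ℂ := dslope (fun e : ℂ => Complex.sin (π * e)) 0 e

lemma Dd_of_ne {e : ℂ} (he : e ≠ 0) : Dd e = Complex.sin (π * e) / e := by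
  unfold Dd
  rw [dslope_of_ne _ he, slope_def_field]
  simp

lemma Dd_zero : Dd 0 = π := by
  unfold Dd
  rw [dslope_same]
  have h : HasDerivAt (fun e : ℂ => Complex.sin (π * e)) (Complex.cos (π * 0) * (π * 1)) 0 :=
    (hasDerivAt_id (0 : ℂ)).const_mul (π : ℂ) |>.csin
  rw [h.deriv]
  simp

lemma Dd_differentiable : Differentiable ℂ Dd := by
  have h : DifferentiableOn ℂ Dd univ := by
    unfold Dd
    rw [Complex.differentiableOn_dslope univ_mem]
    have : Differentiable ℂ (fun e : ℂ => Complex.sin (π * e)) := by fun_prop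
    exact this.differentiableOn
  exact differentiableOn_univ.mp h

lemma Dd_ne {e : ℂ} (he : ‖e‖ ≤ 1 / 4) : Dd e ≠ 0 := by
  by_cases h0 : e = 0
  · rw [h0, Dd_zero]; exact_mod_cast Real.pi_ne_zero
  · rw [Dd_of_ne h0]
    refine div_ne_zero ?_ h0
    intro h
    rw [Complex.sin_eq_zero_iff] at h
    obtain ⟨k, hk⟩ := h
    have hπ : (π : ℂ) ≠ 0 := by exact_mod_cast Real.pi_ne_zero
    have h2 : e = k := by
      have : (π : ℂ) * e = π * k := by rw [hk]; ring
      exact mul_left_cancel₀ hπ this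
    have h3 : k ≠ 0 := by
      rintro rfl; apply h0; rw [h2]; simp
    have h4 : (1 : ℝ) ≤ |(k : ℝ)| := by
      have : (1 : ℤ) ≤ |k| := Int.one_le_abs h3
      exact_mod_cast this
    rw [h2] at he
    have h5 : ‖(k : ℂ)‖ = |(k : ℝ)| := by
      rw [show (k : ℂ) = ((k : ℝ) : ℂ) by push_cast; ring]
      simp
    rw [h5] at he
    linarith

lemma cos_pi_ce (l : ℕ) (s : ℂ) :
    Complex.cos (π * s) = (-1) ^ l * Complex.sin (π * (s - ce l)) := by
  have h1 : π * s = (π * (s - ce l) - π / 2) - l * π := by unfold ce; ring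
  rw [h1, Complex.cos_antiperiodic.sub_nat_mul_eq l, Complex.cos_sub_pi_div_two]

/-- the holomorphic factor of the triple pole -/
noncomputable def U (l : ℕ) (s : ℂ) : ℂ :=
  (-1) ^ l * ((8 : ℂ) ^ s * Bt (-s) ^ 3) / Dd (s - ce l) ^ 3

lemma J_eq (v : Fin 3 → ℂ) (l : ℕ) {s : ℂ} (hs : s ≠ ce l) :
    J v s = U l s * P v s / (s - ce l) ^ 3 := by
  have he : s - ce l ≠ 0 := sub_ne_zero.mpr hs
  unfold J U
  rw [Dd_of_ne he, cos_pi_ce l s]
  have h1 : ((-1 : ℂ) ^ l) ≠ 0 := pow_ne_zero _ (by norm_num)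
  have h2 : ((-1 : ℂ) ^ l) * ((-1 : ℂ) ^ l) = 1 := by
    rw [← mul_pow]; simp
  by_cases hsin : Complex.sin (π * (s - ce l)) = 0
  · rw [hsin]; simp
  · field_simp
    have h3 : ((-1 : ℂ) ^ l) ^ 4 = 1 := by
      rw [← pow_mul, mul_comm, pow_mul]; norm_num
    try rw [h3]
    try ring

lemma U_ne (l : ℕ) {s : ℂ} (hs : ‖s - ce l‖ ≤ 1 / 4) : U l s ≠ 0 := by
  have hre : s.re ≤ -(1 / 4) := by
    have h1 : |(s - ce l).re| ≤ 1 / 4 := (Complex.abs_re_le_norm _).trans hs
    rw [Complex.sub_re, ce_re] at h1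
    have := (abs_le.mp h1).2
    have h2 : (0 : ℝ) ≤ l := Nat.cast_nonneg l
    linarith
  unfold U
  refine div_ne_zero (mul_ne_zero (pow_ne_zero _ (by norm_num)) (mul_ne_zero ?_ ?_))
    (pow_ne_zero _ (Dd_ne hs))
  · rw [Complex.cpow_def_of_ne_zero (by norm_num)]
    exact Complex.exp_ne_zero _
  · exact pow_ne_zero _ (Bt_ne (by simp; linarith))

lemma re_le_of_mem {l : ℕ} {s : ℂ} (hs : ‖s - ce l‖ ≤ 1 / 4) : s.re ≤ -(1 / 4) := by
  have h1 : |(s - ce l).re| ≤ 1 / 4 := (Complex.abs_re_le_norm _).trans hs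
  rw [Complex.sub_re, ce_re] at h1
  have := (abs_le.mp h1).2
  have h2 : (0 : ℝ) ≤ l := Nat.cast_nonneg l
  linarith

lemma U_differentiableAt (l : ℕ) {s : ℂ} (hs : ‖s - ce l‖ ≤ 1 / 4) :
    DifferentiableAt ℂ (U l) s := by
  have hre := re_le_of_mem hs
  have hB : DifferentiableAt ℂ (fun s => Bt (-s)) s := by
    have h1 : DifferentiableAt ℂ Bt (-s) := Bt_differentiableAt (by simp; linarith)
    exact DifferentiableAt.comp s h1 differentiableAt_id.neg
  have hD : DifferentiableAt ℂ (fun s => Dd (s - ce l)) s := by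
    have h1 : DifferentiableAt ℂ Dd (s - ce l) := Dd_differentiable _
    exact DifferentiableAt.comp s h1 (differentiableAt_id.sub_const _)
  unfold U
  refine DifferentiableAt.div ?_ (hD.pow 3) (pow_ne_zero _ (Dd_ne hs))
  exact ((cpow8_differentiable s).mul (hB.pow 3)).const_mul _

/-! ### distances between the poles -/

lemma ce_dist (l l' : ℕ) (h : l ≠ l') : 1 ≤ ‖ce l - ce l'‖ := by
  have h1 : ce l - ce l' = (((l' : ℤ) - l : ℤ) : ℂ) := by
    unfold ce; push_cast; ring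
  rw [h1, Complex.norm_intCast]
  have : (1 : ℤ) ≤ |(l' : ℤ) - l| := Int.one_le_abs (by omega)
  exact_mod_cast this

lemma ne_ce_of_mem {l l' : ℕ} {s : ℂ} (hs : ‖s - ce l‖ ≤ 1 / 4) (h : s ≠ ce l) : s ≠ ce l' := by
  rintro rfl
  by_cases hl : l' = l
  · subst hl; exact h rfl
  · have := ce_dist l' l hl
    linarith

lemma dist_ce_of_mem {l : ℕ} {s : ℂ} (hs : ‖s - ce l‖ = 1 / 4) (l' : ℕ) : 1 / 8 ≤ ‖s - ce l'‖ := by
  by_cases hl : l' = l
  · subst hl; rw [hs]; norm_num
  · have h1 := ce_dist l' l hl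
    have h2 : ‖ce l' - ce l‖ ≤ ‖s - ce l'‖ + ‖s - ce l‖ := by
      have : ce l' - ce l = -(s - ce l') + (s - ce l) := by ring
      rw [this]
      refine (norm_add_le _ _).trans ?_
      rw [norm_neg]
    linarith

/-! ### the functionals -/

/-- circle functional of radius `r` at the `l`-th pole -/
noncomputable def Lr (v : Fin 3 → ℂ) (r : ℝ) (l : ℕ) (φ : ℂ → ℂ) : ℂ :=
  (2 * π * I)⁻¹ * ∮ s in C(ce l, r), J v s * φ s

/-- circle functional of radius `1/4` -/
noncomputable def L (v : Fin 3 → ℂ) (l : ℕ) (φ : ℂ → ℂ) : ℂ := Lr v (1 / 4) l φ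

lemma J_diff_on (v : Fin 3 → ℂ) {l : ℕ} {s : ℂ} (hs : ‖s - ce l‖ ≤ 1 / 4) (h : s ≠ ce l) :
    DifferentiableAt ℂ (J v) s :=
  J_differentiableAt v (by linarith [re_le_of_mem hs]) (fun _ => ne_ce_of_mem hs h)

lemma J_cont_sphere (v : Fin 3 → ℂ) {r : ℝ} (hr : 0 < r) (hr' : r ≤ 1 / 4) (l : ℕ) :
    ContinuousOn (J v) (sphere (ce l) r) := by
  intro s hs
  rw [mem_sphere, dist_eq_norm] at hs
  refine (J_diff_on v (l := l) (by rw [hs]; exact hr') ?_).continuousAt.continuousWithinAt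
  intro h
  rw [h] at hs
  simp at hs
  linarith

lemma circInt (v : Fin 3 → ℂ) {r : ℝ} (hr : 0 < r) (hr' : r ≤ 1 / 4) (l : ℕ) {φ : ℂ → ℂ}
    (hφ : ContinuousOn φ (sphere (ce l) r)) :
    CircleIntegrable (fun s => J v s * φ s) (ce l) r :=
  ((J_cont_sphere v hr hr' l).mul hφ).circleIntegrable hr.le

lemma Lr_add (v : Fin 3 → ℂ) {r : ℝ} (hr : 0 < r) (hr' : r ≤ 1 / 4) (l : ℕ) {φ ψ : ℂ → ℂ}
    (hφ : ContinuousOn φ (sphere (ce l) r)) (hψ : ContinuousOn ψ (sphere (ce l) r)) :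
    Lr v r l (fun s => φ s + ψ s) = Lr v r l φ + Lr v r l ψ := by
  unfold Lr
  rw [← mul_add, ← circleIntegral.integral_add (circInt v hr hr' l hφ) (circInt v hr hr' l hψ)]
  congr 2
  funext s
  ring

lemma Lr_const_mul (v : Fin 3 → ℂ) (r : ℝ) (l : ℕ) (c : ℂ) (φ : ℂ → ℂ) :
    Lr v r l (fun s => c * φ s) = c * Lr v r l φ := by
  unfold Lr
  have : (fun s => J v s * (c * φ s)) = fun s => c * (J v s * φ s) := by funext s; ring
  rw [this, circleIntegral.integral_const_mul]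
  ring

lemma Lr_congr (v : Fin 3 → ℂ) {r : ℝ} (hr : 0 ≤ r) (l : ℕ) {φ ψ : ℂ → ℂ}
    (h : ∀ s ∈ sphere (ce l) r, φ s = ψ s) : Lr v r l φ = Lr v r l ψ := by
  unfold Lr
  congr 1
  apply circleIntegral.integral_congr hr
  intro s hs
  simp only
  rw [h s hs]

/-- independence of the radius -/
lemma Lr_eq (v : Fin 3 → ℂ) {r : ℝ} (hr : 0 < r) (hr' : r ≤ 1 / 4) (l : ℕ) {φ : ℂ → ℂ}
    (hφ : DifferentiableOn ℂ φ (closedBall (ce l) (1 / 4))) :
    Lr v r l φ = L v l φ := by
  unfold L Lr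
  congr 1
  symm
  apply Complex.circleIntegral_eq_of_differentiable_on_annulus_off_countable hr hr'
    Set.countable_empty
  · intro s hs
    have h1 : ‖s - ce l‖ ≤ 1 / 4 := by
      have := hs.1; rwa [mem_closedBall, dist_eq_norm] at this
    have h2 : s ≠ ce l := by
      rintro rfl
      exact hs.2 (mem_ball_self hr)
    refine ContinuousWithinAt.mul (J_diff_on v h1 h2).continuousAt.continuousWithinAt ?_
    exact (hφ.continuousOn s hs.1).mono sdiff_subset
  · intro s hs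
    have h1 : ‖s - ce l‖ < 1 / 4 := by
      have := hs.1.1; rwa [mem_ball, dist_eq_norm] at this
    have h2 : s ≠ ce l := by
      rintro rfl
      exact hs.1.2 (mem_closedBall_self hr.le)
    refine DifferentiableAt.mul (J_diff_on v h1.le h2) ?_
    exact hφ.differentiableAt (closedBall_mem_nhds_of_mem (by rwa [mem_ball, dist_eq_norm]))

lemma Lr_succ (v : Fin 3 → ℂ) {r : ℝ} (hr : 0 < r) (hr' : r ≤ 1 / 4) (l : ℕ) (χ : ℂ → ℂ) :
    Lr v r (l + 1) (fun s => (2 * s + 1) ^ 3 * χ (s + 1)) = -Lr v r l (fun s => s ^ 3 * χ s) := by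
  unfold Lr
  rw [← mul_neg]
  congr 1
  rw [circleIntegral, circleIntegral, ← intervalIntegral.integral_neg]
  apply intervalIntegral.integral_congr
  intro θ _
  simp only [smul_eq_mul, deriv_circleMap]
  have h1 : circleMap (ce (l + 1)) r θ = circleMap (ce l) r θ - 1 := by
    rw [ce_succ]; simp [circleMap]; ring
  have h0 : circleMap (ce (l + 1)) 0 θ = ce (l + 1) := by simp
  have h2 : circleMap 0 r θ * I = circleMap 0 r θ * I := rfl
  rw [h1]
  set s := circleMap (ce l) r θ with hs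
  have hsn : ‖s - ce l‖ ≤ 1 / 4 := by
    rw [hs]; simp [circleMap, abs_of_pos hr]; linarith
  have hre := re_le_of_mem hsn
  have hs0 : s ≠ 0 := by
    intro h; rw [h] at hre; simp at hre; linarith
  have hs1 : s ≠ 1 / 2 := by
    intro h; rw [h] at hre; simp at hre; linarith
  have := J_rec v hs0 hs1
  have e1 : s - 1 + 1 = s := by ring
  have e2 : 2 * (s - 1) + 1 = 2 * s - 1 := by ring
  rw [e1, e2]
  linear_combination (circleMap 0 r θ * I * χ s) * this

/-- holomorphic multiples of `(s - ce l)^3` are killed -/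
lemma Lr_cube (v : Fin 3 → ℂ) {r : ℝ} (hr : 0 < r) (hr' : r ≤ 1 / 4) (l : ℕ) {g : ℂ → ℂ}
    (hg : DifferentiableOn ℂ g (closedBall (ce l) r)) :
    Lr v r l (fun s => (s - ce l) ^ 3 * g s) = 0 := by
  have h1 : Lr v r l (fun s => (s - ce l) ^ 3 * g s) =
      (2 * π * I)⁻¹ * ∮ s in C(ce l, r), U l s * P v s * g s := by
    unfold Lr
    congr 1
    apply circleIntegral.integral_congr hr.le
    intro s hs
    have hne : s ≠ ce l := by
      rintro rfl
      rw [mem_sphere, dist_self] at hs; linarith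
    simp only
    rw [J_eq v l hne]
    have he : s - ce l ≠ 0 := sub_ne_zero.mpr hne
    field_simp
  rw [h1]
  have hU : ∀ s ∈ closedBall (ce l) r, DifferentiableAt ℂ (fun s => U l s * P v s) s := by
    intro s hs
    rw [mem_closedBall, dist_eq_norm] at hs
    exact (U_differentiableAt l (hs.trans hr')).mul (P_differentiable v s)
  have := Complex.circleIntegral_eq_zero_of_differentiable_on_off_countable (c := ce l) hr.le
    (f := fun s => U l s * P v s * g s) Set.countable_empty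
    (by
      intro s hs
      exact (hU s hs).continuousAt.continuousWithinAt.mul (hg.continuousOn s hs))
    (by
      intro s hs
      refine DifferentiableAt.mul (hU s (ball_subset_closedBall hs.1)) ?_
      exact hg.differentiableAt (closedBall_mem_nhds_of_mem hs.1))
  rw [this, mul_zero]

lemma Lr_zero_base (v : Fin 3 → ℂ) {r : ℝ} (hr : 0 < r) (hr' : r ≤ 1 / 4) {χ : ℂ → ℂ}
    (hχ : DifferentiableOn ℂ (fun s => χ (s + 1)) (closedBall (ce 0) r)) :
    Lr v r 0 (fun s => (2 * s + 1) ^ 3 * χ (s + 1)) = 0 := by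
  have h := Lr_cube v hr hr' 0 (g := fun s => 8 * χ (s + 1)) (hχ.const_mul 8)
  rw [← h]
  congr 1
  funext s
  simp [ce]
  ring

/-- Laurent coefficients -/
noncomputable def p (v : Fin 3 → ℂ) (l j : ℕ) : ℂ := L v l (fun s => (s - ce l) ^ j)

/-- the functional on a Cauchy kernel -/
lemma Lr_pole (v : Fin 3 → ℂ) {r : ℝ} (hr : 0 < r) (hr' : r ≤ 1 / 4) (l : ℕ) {z : ℂ}
    (hz : r < ‖z - ce l‖) :
    Lr v r l (fun s => 1 / (z - s)) = ∑ j ∈ Finset.range 3, p v l j / (z - ce l) ^ (j + 1) := by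
  have hzc : z - ce l ≠ 0 := by
    intro h; rw [h] at hz; simp at hz; linarith
  have hne : ∀ s ∈ closedBall (ce l) r, z - s ≠ 0 := by
    intro s hs h
    rw [mem_closedBall, dist_eq_norm] at hs
    have : z = s := by linear_combination h
    rw [this] at hz
    linarith
  have hne' : ∀ s ∈ sphere (ce l) r, z - s ≠ 0 := fun s hs => hne s (sphere_subset_closedBall hs)
  have hk : DifferentiableOn ℂ (fun s => (1 / (z - ce l) ^ 3) * (1 / (z - s)))
      (closedBall (ce l) r) := by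
    intro s hs
    refine DifferentiableWithinAt.const_mul ?_ _
    refine DifferentiableWithinAt.div (differentiableWithinAt_const _) ?_ (hne s hs)
    fun_prop
  have hcont : ∀ j : ℕ, ∀ a : ℂ, ContinuousOn (fun s : ℂ => a * (s - ce l) ^ j)
      (sphere (ce l) r) := by
    intro j a; fun_prop
  have hc3 : ContinuousOn (fun s => (s - ce l) ^ 3 * ((1 / (z - ce l) ^ 3) * (1 / (z - s))))
      (sphere (ce l) r) := by
    refine ContinuousOn.mul (by fun_prop) ?_
    exact hk.continuousOn.mono sphere_subset_closedBall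
  have hp : ∀ j : ℕ, Lr v r l (fun s => (s - ce l) ^ j) = p v l j := by
    intro j
    apply Lr_eq v hr hr'
    fun_prop
  have h1 : Lr v r l (fun s => 1 / (z - s)) =
      Lr v r l (fun s => (1 / (z - ce l)) * (s - ce l) ^ 0 +
        ((1 / (z - ce l) ^ 2) * (s - ce l) ^ 1 + ((1 / (z - ce l) ^ 3) * (s - ce l) ^ 2 +
          (s - ce l) ^ 3 * ((1 / (z - ce l) ^ 3) * (1 / (z - s)))))) := by
    apply Lr_congr v hr.le
    intro s hs
    have := hne' s hs
    field_simp
    ring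
  have hc2 := (hcont 2 (1 / (z - ce l) ^ 3)).add hc3
  have hc1 := (hcont 1 (1 / (z - ce l) ^ 2)).add hc2
  have e1 := Lr_add v hr hr' l (hcont 0 (1 / (z - ce l))) hc1
  have e2 := Lr_add v hr hr' l (hcont 1 (1 / (z - ce l) ^ 2)) hc2
  have e3 := Lr_add v hr hr' l (hcont 2 (1 / (z - ce l) ^ 3)) hc3
  simp only [Pi.add_apply] at e1 e2 e3
  rw [h1]
  refine (e1.trans (congrArg₂ (· + ·) rfl (e2.trans (congrArg₂ (· + ·) rfl e3)))).trans ?_
  rw [Lr_cube v hr hr' l hk, Lr_const_mul, Lr_const_mul, Lr_const_mul, hp, hp, hp]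
  simp only [Finset.sum_range_succ, Finset.sum_range_zero, zero_add]
  ring

/-! ### bounds -/

lemma norm_L_le (v : Fin 3 → ℂ) : ∃ K : ℝ, 0 < K ∧ ∀ (l : ℕ) (φ : ℂ → ℂ) (B : ℝ), 0 ≤ B →
    (∀ s ∈ sphere (ce l) (1 / 4), ‖φ s‖ ≤ B) → ‖L v l φ‖ ≤ K * (1 / 8) ^ l * B := by
  obtain ⟨K, hK, hJ⟩ := J_bound v
  refine ⟨K, hK, ?_⟩
  intro l φ B hB hφ
  have hnorm : ‖(2 * π * I : ℂ)⁻¹‖ = (2 * π)⁻¹ := by
    rw [norm_inv]; simp [abs_of_pos Real.pi_pos]
  unfold L Lr
  rw [norm_mul, hnorm]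
  have hb : ∀ s ∈ sphere (ce l) (1 / 4 : ℝ), ‖J v s * φ s‖ ≤ K * (1 / 8) ^ l * B := by
    intro s hs
    have h1 : ‖s - ce l‖ = 1 / 4 := by rwa [mem_sphere, dist_eq_norm] at hs
    have hre := re_le_of_mem h1.le
    have h2 := hJ s hre (dist_ce_of_mem h1)
    have h3 : (8 : ℝ) ^ s.re ≤ (1 / 8) ^ l := by
      have h4 : s.re ≤ -(l : ℝ) := by
        have h5 : |(s - ce l).re| ≤ 1 / 4 := (Complex.abs_re_le_norm _).trans h1.le
        rw [Complex.sub_re, ce_re] at h5
        have := (abs_le.mp h5).2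
        linarith
      calc (8 : ℝ) ^ s.re ≤ (8 : ℝ) ^ (-(l : ℝ)) :=
            Real.rpow_le_rpow_of_exponent_le (by norm_num) h4
        _ = (1 / 8) ^ l := by
            rw [Real.rpow_neg (by norm_num), Real.rpow_natCast, one_div, inv_pow]
    have h6 : Real.exp (-(π * |s.im|)) ≤ 1 := by
      rw [Real.exp_le_one_iff]
      have := Real.pi_pos
      have := abs_nonneg s.im
      nlinarith
    rw [norm_mul]
    calc ‖J v s‖ * ‖φ s‖ ≤ (K * (8 : ℝ) ^ s.re * Real.exp (-(π * |s.im|))) * B := by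
          gcongr
          exact hφ s hs
      _ ≤ (K * (1 / 8) ^ l * 1) * B := by gcongr
      _ = _ := by ring
  have h := circleIntegral.norm_integral_le_of_norm_le_const (by norm_num : (0 : ℝ) ≤ 1 / 4) hb
  have hnn : 0 ≤ K * (1 / 8) ^ l * B := by positivity
  calc (2 * π)⁻¹ * ‖∮ s in C(ce l, 1 / 4), J v s * φ s‖
      ≤ (2 * π)⁻¹ * (2 * π * (1 / 4) * (K * (1 / 8) ^ l * B)) := by
        gcongr
    _ = (1 / 4) * (K * (1 / 8) ^ l * B) := by
        have := Real.pi_ne_zero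
        field_simp
    _ ≤ _ := by linarith

end Crest.Agent.R006.PsiJ
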