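import Mathlib

/-!
Row 6: vertical contour shifts and the half-plane Cauchy formula (helper724).

* `vshift` : `∫ f(a+iy) dy = ∫ f(b+iy) dy` for `f` holomorphic in the strip, `O(1/(1+y^2))`.
* `vshift_top` : `∫ f(a+iy) dy = 0` if `f` is holomorphic right of the line and `O(1/(1+|z|)^2)`.

-/

set_option autoImplicit false

namespace Crest.Agent.R006.VShift724

open Complex MeasureTheory Filter Topology Set

lemma integrable_line {g : ℝ → ℂ} (hc : Continuous g) {C : ℝ}
    (hb : ∀ y, ‖g y‖ ≤ C / (1 + y ^ 2)) : Integrable g := by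
  have h1 : Integrable (fun y : ℝ => C * (1 + y ^ 2)⁻¹) := integrable_inv_one_add_sq.const_mul C
  refine h1.mono' hc.aestronglyMeasurable (Eventually.of_forall fun y => ?_)
  rw [← div_eq_mul_inv]
  exact hb y

lemma line_continuous {f : ℂ → ℂ} {S : Set ℂ} {a : ℝ} (hc : ContinuousOn f S)
    (h : ∀ y : ℝ, ((a : ℂ) + y * I) ∈ S) : Continuous (fun y : ℝ => f (a + y * I)) := by
  have h1 : Continuous (fun y : ℝ => ((a : ℂ) + y * I)) := by fun_prop
  exact hc.comp_continuous h1 h

theorem vshift {f : ℂ → ℂ} {a b : ℝ} (hab : a ≤ b)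
    (hc : ContinuousOn f {z | a ≤ z.re ∧ z.re ≤ b})
    (hd : ∀ z : ℂ, a < z.re → z.re < b → DifferentiableAt ℂ f z)
    {C : ℝ} (hb : ∀ z : ℂ, a ≤ z.re → z.re ≤ b → ‖f z‖ ≤ C / (1 + z.im ^ 2)) :
    ∫ y : ℝ, f (a + y * I) = ∫ y : ℝ, f (b + y * I) := by
  have hCa : ∀ y : ℝ, ‖f (a + y * I)‖ ≤ C / (1 + y ^ 2) := fun y => by
    have := hb (a + y * I) (by simp) (by simpa using hab)
    simpa using this
  have hCb : ∀ y : ℝ, ‖f (b + y * I)‖ ≤ C / (1 + y ^ 2) := fun y => by
    have := hb (b + y * I) (by simpa using hab) (by simp)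
    simpa using this
  have hia : Integrable (fun y : ℝ => f (a + y * I)) :=
    integrable_line (line_continuous hc (fun y => by simpa using hab)) hCa
  have hib : Integrable (fun y : ℝ => f (b + y * I)) :=
    integrable_line (line_continuous hc (fun y => by simpa using hab)) hCb
  have hrect : ∀ T : ℝ, 0 < T →
      (∫ x : ℝ in a..b, f (x + ((-T : ℝ) : ℂ) * I)) - (∫ x : ℝ in a..b, f (x + (T : ℂ) * I)) +
      I • (∫ y : ℝ in (-T)..T, f (b + y * I)) - I • (∫ y : ℝ in (-T)..T, f (a + y * I)) = 0 := by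
    intro T hT
    have := Complex.integral_boundary_rect_eq_zero_of_continuousOn_of_differentiableOn f
      (⟨a, -T⟩ : ℂ) (⟨b, T⟩ : ℂ) ?_ ?_
    · simpa using this
    · apply hc.mono
      intro z hz
      rw [mem_reProdIm] at hz
      have h1 := hz.1
      simp only [uIcc_of_le hab, mem_Icc] at h1
      exact h1
    · intro z hz
      rw [mem_reProdIm] at hz
      have h1 := hz.1
      simp only [min_eq_left hab, max_eq_right hab, mem_Ioo] at h1
      exact (hd z h1.1 h1.2).differentiableWithinAt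
  have hC0 : 0 ≤ C := by
    have := hCa 0
    simp at this
    exact (norm_nonneg _).trans this
  have hh : ∀ (T : ℝ), ‖∫ x : ℝ in a..b, f (x + (T : ℂ) * I)‖ ≤ C / (1 + T ^ 2) * |b - a| := by
    intro T
    apply intervalIntegral.norm_integral_le_of_norm_le_const
    intro x hx
    rw [uIoc_of_le hab] at hx
    have := hb (x + (T : ℂ) * I) (by simpa using hx.1.le) (by simpa using hx.2)
    simpa using this
  have hz : Tendsto (fun T : ℝ => C / (1 + T ^ 2) * |b - a|) atTop (𝓝 0) := by
    have h1 : Tendsto (fun T : ℝ => 1 + T ^ 2) atTop atTop :=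
      tendsto_atTop_add_const_left _ _ (tendsto_pow_atTop (by norm_num))
    have h2 := (h1.const_div_atTop C).mul_const (|b - a|)
    simpa using h2
  have t1 : Tendsto (fun T : ℝ => ∫ x : ℝ in a..b, f (x + (T : ℂ) * I)) atTop (𝓝 0) :=
    squeeze_zero_norm (fun T => hh T) hz
  have t2 : Tendsto (fun T : ℝ => ∫ x : ℝ in a..b, f (x + ((-T : ℝ) : ℂ) * I)) atTop (𝓝 0) := by
    apply squeeze_zero_norm (fun T => ?_) hz
    have := hh (-T)
    simpa using this
  have t3 : Tendsto (fun T : ℝ => ∫ y : ℝ in (-T)..T, f (b + y * I)) atTop (𝓝 (∫ y : ℝ, f (b + y * I))) :=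
    intervalIntegral_tendsto_integral hib tendsto_neg_atTop_atBot tendsto_id
  have t4 : Tendsto (fun T : ℝ => ∫ y : ℝ in (-T)..T, f (a + y * I)) atTop (𝓝 (∫ y : ℝ, f (a + y * I))) :=
    intervalIntegral_tendsto_integral hia tendsto_neg_atTop_atBot tendsto_id
  have t5 := ((t2.sub t1).add (t3.const_smul I)).sub (t4.const_smul I)
  have t6 : Tendsto (fun _ : ℝ => (0 : ℂ)) atTop (𝓝 (0 - 0 + I • (∫ y : ℝ, f (b + y * I)) - I • (∫ y : ℝ, f (a + y * I)))) := by
    refine t5.congr' ?_
    filter_upwards [eventually_gt_atTop 0] with T hT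
    exact hrect T hT
  have h7 := tendsto_nhds_unique t6 tendsto_const_nhds
  have h8 : I * ((∫ y : ℝ, f (b + y * I)) - (∫ y : ℝ, f (a + y * I))) = 0 := by
    have : I • (∫ y : ℝ, f (b + y * I)) - I • (∫ y : ℝ, f (a + y * I)) = 0 := by
      simpa using h7
    rw [mul_sub]; simpa [smul_eq_mul] using this
  have h9 : (∫ y : ℝ, f (b + y * I)) - (∫ y : ℝ, f (a + y * I)) = 0 := by
    rcases mul_eq_zero.mp h8 with h | h
    · exact absurd h I_ne_zero
    · exact h
  exact (sub_eq_zero.mp h9).symm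

theorem vshift_top {f : ℂ → ℂ} {a : ℝ}
    (hc : ContinuousOn f {z | a ≤ z.re})
    (hd : ∀ z : ℂ, a < z.re → DifferentiableAt ℂ f z)
    {C : ℝ} (hb : ∀ z : ℂ, a ≤ z.re → ‖f z‖ ≤ C / (1 + ‖z‖) ^ 2) :
    ∫ y : ℝ, f (a + y * I) = 0 := by
  have hC0 : 0 ≤ C := by
    have h := hb (a : ℂ) (by simp)
    have h2 : 0 ≤ C / (1 + ‖(a : ℂ)‖) ^ 2 := (norm_nonneg _).trans h
    by_contra hneg
    push Not at hneg
    have : C / (1 + ‖(a : ℂ)‖) ^ 2 < 0 := div_neg_of_neg_of_pos hneg (by positivity)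
    linarith
  have hb' : ∀ z : ℂ, a ≤ z.re → ‖f z‖ ≤ C / (1 + z.im ^ 2) := by
    intro z hz
    refine (hb z hz).trans ?_
    apply div_le_div_of_nonneg_left hC0 (by positivity)
    have h1 : |z.im| ≤ ‖z‖ := abs_im_le_norm z
    have h2 : z.im ^ 2 ≤ ‖z‖ ^ 2 := by
      rw [← sq_abs]; exact pow_le_pow_left₀ (abs_nonneg _) h1 2
    nlinarith [norm_nonneg z]
  have hK : ∀ K : ℝ, 0 ≤ K → ∫ y : ℝ, f (a + y * I) = ∫ y : ℝ, f (((a + K : ℝ) : ℂ) + y * I) := by
    intro K hK
    apply vshift (by linarith) (hc.mono (fun z hz => hz.1)) (fun z hz _ => hd z hz)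
      (C := C) (fun z hz _ => hb' z hz)
  have hlim : Tendsto (fun K : ℝ => ∫ y : ℝ, f (((a + K : ℝ) : ℂ) + y * I)) atTop (𝓝 (∫ _ : ℝ, (0 : ℂ))) := by
    apply tendsto_integral_filter_of_dominated_convergence (fun y : ℝ => C * (1 + y ^ 2)⁻¹)
    · filter_upwards [eventually_ge_atTop 0] with K hK
      exact (line_continuous (S := {z | a ≤ z.re}) hc (fun y => by simpa using hK)).aestronglyMeasurable
    · filter_upwards [eventually_ge_atTop 0] with K hK
      refine Eventually.of_forall fun y => ?_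
      rw [← div_eq_mul_inv]
      have := hb' (((a + K : ℝ) : ℂ) + y * I) (by simpa using hK)
      simpa using this
    · exact integrable_inv_one_add_sq.const_mul C
    · refine Eventually.of_forall fun y => ?_
      have h1 : Tendsto (fun K : ℝ => C / (1 + |a + K|) ^ 2) atTop (𝓝 0) := by
        have h2 : Tendsto (fun K : ℝ => 1 + |a + K|) atTop atTop := by
          apply tendsto_atTop_add_const_left
          exact tendsto_abs_atTop_atTop.comp (tendsto_atTop_add_const_left _ _ tendsto_id)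
        have h3 : Tendsto (fun K : ℝ => (1 + |a + K|) ^ 2) atTop atTop :=
          (tendsto_pow_atTop (by norm_num)).comp h2
        exact h3.const_div_atTop C
      apply squeeze_zero_norm' _ h1
      filter_upwards [eventually_ge_atTop 0] with K hK
      refine (hb (((a + K : ℝ) : ℂ) + y * I) (by simpa using hK)).trans ?_
      apply div_le_div_of_nonneg_left hC0 (by positivity)
      apply pow_le_pow_left₀ (by positivity)
      have := abs_re_le_norm (((a + K : ℝ) : ℂ) + y * I)
      simp only [add_re, ofReal_re, mul_re, I_re, mul_zero, ofReal_im, I_im, mul_one, sub_self, add_zero] at this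
      linarith
  have h2 : Tendsto (fun K : ℝ => ∫ y : ℝ, f (((a + K : ℝ) : ℂ) + y * I)) atTop (𝓝 (∫ y : ℝ, f (a + y * I))) := by
    apply tendsto_const_nhds.congr'
    filter_upwards [eventually_ge_atTop 0] with K hK'
    exact hK K hK'
  have := tendsto_nhds_unique h2 hlim
  simpa using this

end Crest.Agent.R006.VShift724
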