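import Crest.Agent.R006.G1Base_186
import Crest.Agent.R006.HalfPlane_186
import Crest.Agent.R006.PsiJ2_576
import Crest.Agent.R006.P3_Strip_606
import Crest.Agent.R006.VShift_724

/-!
Row 6 (Catalan's constant), g1 side (helper186): circle representation of `g1`.
-/

set_option autoImplicit false

namespace Crest.Agent.R006.G1x186

open Complex Filter Topology MeasureTheory Set Metric
open Crest.Agent.R006.PsiJ

lemma ce_eq (l : ℕ) : ce l = -1 / 2 - (l : ℂ) := by unfold ce; ring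

lemma cos_ce (l : ℕ) : Complex.cos (Real.pi * ce l) = 0 := by
  rw [Complex.cos_eq_zero_iff]
  refine ⟨-1 - (l : ℤ), ?_⟩
  unfold ce
  push_cast
  ring

lemma J1_differentiableAt {s : ℂ} (hs : s.re < 0) (hd : ∀ l : ℕ, s ≠ ce l) :
    DifferentiableAt ℂ J1 s := by
  have hc := cos_ne_zero_of_left hs hd
  unfold J1
  refine (differentiableAt_g1L hs).div ?_ (pow_ne_zero 2 hc)
  fun_prop

/-- shape of `J1 φ` near a site. -/
lemma J1_pole (l : ℕ) {a : ℝ} (ha : 0 < a) (ha' : a ≤ 1 / 2) (hneg : a < 1 / 2 + l) {φ : ℂ → ℂ}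
    (hφ : DifferentiableOn ℂ φ {s | |s.re - (-1 / 2 - l)| ≤ a}) :
    ∃ h : ℂ → ℂ, DifferentiableOn ℂ h {s | |s.re - (-1 / 2 - l)| ≤ a} ∧
      ∀ s : ℂ, |s.re - (-1 / 2 - l)| ≤ a → s ≠ ce l →
        J1 s * φ s = h s * (s - ce l) ^ (-((2 : ℕ) : ℤ)) := by
  have hre : ∀ s : ℂ, |s.re - (-1 / 2 - l)| ≤ a → s.re < 0 := by
    intro s hs
    have := (abs_le.mp hs).2
    linarith
  have hce : (ce l).re = -1 / 2 - l := by rw [ce_re]; ring
  obtain ⟨h, hh, hf⟩ := P3R.h_of_div (g := fun s => g1L s * φ s)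
    (c := fun s => Complex.cos (Real.pi * s)) (S := {s | |s.re - (-1 / 2 - l)| ≤ a}) (p := ce l)
    (by
      have : {s : ℂ | |s.re - (-1 / 2 - l)| < a} ∈ 𝓝 (ce l) := by
        apply (isOpen_lt (by fun_prop) continuous_const).mem_nhds
        simp only [Set.mem_ofPred_eq]
        rw [hce, sub_self, abs_zero]
        exact ha
      exact mem_of_superset this (fun s hs => show |s.re - (-1 / 2 - l)| ≤ a from le_of_lt hs))
    (by
      apply DifferentiableOn.mul _ hφ
      intro s hs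
      exact (differentiableAt_g1L (hre s hs)).differentiableWithinAt)
    (by fun_prop) (cos_ce l)
    (by
      have hd : HasDerivAt (fun s : ℂ => Complex.cos (Real.pi * s))
          (-Complex.sin (Real.pi * ce l) * (Real.pi * 1)) (ce l) :=
        ((hasDerivAt_id (ce l)).const_mul (Real.pi : ℂ)).ccos
      rw [hd.deriv]
      have h1 := Complex.sin_sq_add_cos_sq (Real.pi * ce l)
      rw [cos_ce] at h1
      have h2 : Complex.sin (Real.pi * ce l) ≠ 0 := by
        intro h0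
        rw [h0] at h1
        norm_num at h1
      have hpi : (Real.pi : ℂ) ≠ 0 := by exact_mod_cast Real.pi_ne_zero
      exact mul_ne_zero (neg_ne_zero.mpr h2) (mul_ne_zero hpi one_ne_zero))
    (by
      intro s hs hne
      apply cos_ne_zero_of_left (hre s hs)
      intro l' hl'
      by_cases h : l' = l
      · subst h; exact hne hl'
      · have h3 : |s.re - (-1 / 2 - l)| ≤ a := hs
        rw [hl', ce_re] at h3
        have h4 : |(l : ℝ) - l'| ≤ 1 / 2 := by
          have : -(1 / 2) - (l' : ℝ) - (-1 / 2 - l) = l - l' := by ring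
          rw [this] at h3
          exact h3.trans ha'
        have h5 : (1 : ℝ) ≤ |(l : ℝ) - l'| := by
          have : (1 : ℤ) ≤ |(l : ℤ) - l'| := Int.one_le_abs (by omega)
          exact_mod_cast this
        linarith)
    2
  refine ⟨h, hh, fun s hs hne => ?_⟩
  rw [← hf s hs hne]
  unfold J1
  ring

/-- polynomial form of the bound. -/
lemma norm_J1_le' {s : ℂ} (hs : s.re ≤ -1 / 4) (hd : ∀ l : ℕ, 1 / 8 ≤ ‖s - ce l‖) :
    ‖J1 s‖ ≤ (36 / (-s.re)) / (1 + s.im ^ 2) := by
  have h := norm_J1_le hs (fun l => by rw [← ce_eq]; exact hd l)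
  have hpos : 0 < -s.re := by linarith
  refine h.trans ?_
  rw [div_eq_mul_inv (36 / -s.re)]
  apply mul_le_mul_of_nonneg_left _ (by positivity)
  rw [Real.exp_neg]
  apply inv_anti₀ (by positivity)
  have h1 := Real.quadratic_le_exp_of_nonneg (x := 2 * Real.pi * |s.im|) (by positivity)
  have h2 : s.im ^ 2 ≤ (2 * Real.pi * |s.im|) ^ 2 / 2 := by
    have h3 : (2 * Real.pi * |s.im|) ^ 2 = 4 * Real.pi ^ 2 * s.im ^ 2 := by
      rw [mul_pow, sq_abs]; ring
    rw [h3]
    nlinarith [Real.pi_gt_three, sq_nonneg s.im, mul_nonneg (sq_nonneg s.im) (show 0 ≤ Real.pi ^ 2 - 9 by nlinarith [Real.pi_gt_three])]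
  have h4 : 0 ≤ 2 * Real.pi * |s.im| := by positivity
  linarith

/-- distance of a line point to the sites. -/
lemma dist_line {c : ℝ} (hc : ∀ l : ℕ, 1 / 8 ≤ |c - (-1 / 2 - l)|) (s : ℂ) (hs : s.re = c) (l : ℕ) :
    1 / 8 ≤ ‖s - ce l‖ := by
  have h := Complex.abs_re_le_norm (s - ce l)
  rw [Complex.sub_re, hs, ce_re] at h
  have h2 := hc l
  have : c - (-1 / 2 - (l : ℝ)) = c - (-(1 / 2) - l) := by ring
  rw [this] at h2
  exact h2.trans h

/-- distance of a point with large imaginary part. -/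
lemma dist_im (s : ℂ) (hs : 1 / 8 ≤ |s.im|) (l : ℕ) : 1 / 8 ≤ ‖s - ce l‖ := by
  have h := Complex.abs_im_le_norm (s - ce l)
  rw [Complex.sub_im, ce_im, sub_zero] at h
  exact hs.trans h

/-- integrability of `J1 φ` on a line for bounded `φ`. -/
lemma integrable_J1 {c : ℝ} (hc0 : c ≤ -1 / 4) (hc : ∀ l : ℕ, 1 / 8 ≤ |c - (-1 / 2 - l)|)
    {φ : ℂ → ℂ} {B : ℝ} (hφc : Continuous fun y : ℝ => φ (c + y * I))
    (hφ : ∀ y : ℝ, ‖φ (c + y * I)‖ ≤ B) :
    Integrable (fun y : ℝ => J1 (c + y * I) * φ (c + y * I)) ∧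
      ∀ y : ℝ, ‖J1 (c + y * I) * φ (c + y * I)‖ ≤ (36 / (-c) * B) * (1 + y ^ 2)⁻¹ := by
  have hB : 0 ≤ B := (norm_nonneg _).trans (hφ 0)
  have hre : ∀ y : ℝ, ((c : ℂ) + y * I).re = c := by intro y; simp
  have him : ∀ y : ℝ, ((c : ℂ) + y * I).im = y := by intro y; simp
  have hcpos : 0 < -c := by linarith
  have hcont : Continuous fun y : ℝ => J1 (c + y * I) := by
    rw [continuous_iff_continuousAt]
    intro y
    have h1 : DifferentiableAt ℂ J1 ((c : ℂ) + y * I) := by
      apply J1_differentiableAt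
      · rw [hre]; linarith
      · intro l h
        have := dist_line hc _ (hre y) l
        rw [h, sub_self, norm_zero] at this
        norm_num at this
    exact ContinuousAt.comp (f := fun y : ℝ => (c : ℂ) + y * I) h1.continuousAt (by fun_prop)
  have hbd : ∀ y : ℝ, ‖J1 (c + y * I) * φ (c + y * I)‖ ≤ (36 / (-c) * B) * (1 + y ^ 2)⁻¹ := by
    intro y
    rw [norm_mul]
    have h1 := norm_J1_le' (s := (c : ℂ) + y * I) (by rw [hre]; linarith) (dist_line hc _ (hre y))
    rw [hre, him] at h1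
    calc ‖J1 (c + y * I)‖ * ‖φ (c + y * I)‖ ≤ (36 / (-c)) / (1 + y ^ 2) * B :=
          mul_le_mul h1 (hφ y) (norm_nonneg _) (by positivity)
      _ = _ := by rw [div_eq_mul_inv]; ring
  exact ⟨(integrable_inv_one_add_sq.const_mul (36 / (-c) * B)).mono'
    (hcont.mul hφc).aestronglyMeasurable (Eventually.of_forall hbd), hbd⟩

/-- `(x+1/2)/x^2`-bound of `g1` on the line. -/
lemma norm_g1_le' {z : ℂ} (hz : -1 / 4 ≤ z.re) : ‖g1 z‖ ≤ (z.re + 1) / (z.re + 1 / 2) ^ 2 := by
  have h1 := norm_g1_le (z := z) (by linarith)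
  have h2 := grR_sq_le (x := z.re + 1 / 2) (by linarith)
  refine h1.trans ?_
  have h3 : grR (z.re + 1 / 2) ^ 2 / Real.pi ≤ grR (z.re + 1 / 2) ^ 2 :=
    div_le_self (sq_nonneg _) (by linarith [Real.pi_gt_three])
  refine h3.trans (h2.trans (le_of_eq ?_))
  congr 1
  ring

lemma norm_g1L_le' {z : ℂ} (hz : z.re ≤ -1 / 4) : ‖g1L z‖ ≤ 12 := by
  have h1 := norm_g1L_le (z := z) (by linarith)
  have h2 := grR_sq_le (x := -z.re) (by linarith)
  refine h1.trans ?_
  have h3 : grR (-z.re) ^ 2 / Real.pi ≤ grR (-z.re) ^ 2 :=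
    div_le_self (sq_nonneg _) (by linarith [Real.pi_gt_three])
  refine h3.trans (h2.trans ?_)
  have hpos : 0 < -z.re := by linarith
  rw [div_le_iff₀ (by positivity)]
  nlinarith

/-- the line representation at `Re s = -1/4`. -/
theorem g1_line {z : ℂ} (hz : -1 / 4 < z.re) :
    g1 z = (1 / (2 * Real.pi)) * ∫ y : ℝ, J1 (((-1 / 4 : ℝ) : ℂ) + y * I) /
      (z - (((-1 / 4 : ℝ) : ℂ) + y * I)) := by
  have hc : ∀ l : ℕ, 1 / 8 ≤ |(-1 / 4 : ℝ) - (-1 / 2 - l)| := by
    intro l
    have h : (0 : ℝ) ≤ l := Nat.cast_nonneg l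
    rw [abs_of_nonneg (by linarith)]
    linarith
  apply HalfPlanex186.jump_repr (fR := g1) (fL := fun s => -g1L s) (J := J1) (c := -1 / 4)
    (C := 12) (C' := 12)
  · intro s hs
    apply (differentiableAt_g1 _).differentiableWithinAt
    intro l h
    have h1 := congrArg Complex.re h
    have hs' : (-1 / 4 : ℝ) ≤ s.re := hs
    have h2 : (-1 / 2 - (l : ℂ)).re = -1 / 2 - l := by
      rw [← ce_eq, ce_re]; ring
    rw [h2] at h1
    have h3 : (0 : ℝ) ≤ l := Nat.cast_nonneg l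
    linarith
  · intro s hs
    refine (norm_g1_le' hs).trans ?_
    have hs' : (-1 / 4 : ℝ) ≤ s.re := hs
    have hpos : 0 < s.re + 1 / 2 := by linarith
    rw [div_le_iff₀ (by positivity)]
    nlinarith
  · intro s hs
    have hs' : s.re ≤ (-1 / 4 : ℝ) := hs
    exact (differentiableAt_g1L (by linarith)).neg.differentiableWithinAt
  · intro s hs
    rw [norm_neg]
    exact norm_g1L_le' hs
  · rw [tendsto_zero_iff_norm_tendsto_zero]
    have h1 : Tendsto (fun x : ℝ => 4 / (x + 1 / 2)) atTop (𝓝 0) :=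
      tendsto_const_nhds.div_atTop (tendsto_atTop_add_const_right _ _ tendsto_id)
    refine squeeze_zero' (Eventually.of_forall fun x => norm_nonneg _) ?_ h1
    filter_upwards [eventually_ge_atTop (0 : ℝ)] with x hx
    have h2 := norm_g1_le' (z := (x : ℂ)) (by simp; linarith)
    rw [Complex.ofReal_re] at h2
    refine h2.trans ?_
    rw [div_le_div_iff₀ (by positivity) (by positivity)]
    nlinarith
  · intro y
    have h1 : ((((-1 / 4 : ℝ) : ℂ)) + y * I).re < 0 := by simp; norm_num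
    rw [J1_eq h1]
    · ring
    · apply cos_ne_zero_of_left h1
      intro l h
      have := dist_line hc ((((-1 / 4 : ℝ) : ℂ)) + y * I) (by simp) l
      rw [h, sub_self, norm_zero] at this
      norm_num at this
  · have h := (integrable_J1 (c := -1 / 4) le_rfl hc (φ := fun _ => 1) (B := 1) continuous_const
      (fun y => by simp)).1
    simpa using h
  · exact hz

/-- circle functional for `J1` at the `l`-th site. -/
noncomputable def Lg (l : ℕ) (φ : ℂ → ℂ) : ℂ :=
  (2 * Real.pi * I)⁻¹ * ∮ s in C(ce l, 1 / 4), J1 s * φ s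

lemma norm_J1_sphere {l : ℕ} {s : ℂ} (hs : ‖s - ce l‖ = 1 / 4) : ‖J1 s‖ ≤ 36 / ((l : ℝ) + 1 / 4) := by
  have h1 : |(s - ce l).re| ≤ 1 / 4 := by rw [← hs]; exact Complex.abs_re_le_norm _
  rw [Complex.sub_re, ce_re] at h1
  have h2 := (abs_le.mp h1).2
  have hl : (0 : ℝ) ≤ l := Nat.cast_nonneg l
  have h3 := norm_J1_le' (s := s) (by linarith) (fun l' => dist_ce_of_mem hs l')
  refine h3.trans ?_
  rw [div_div]
  apply div_le_div_of_nonneg_left (by norm_num) (by positivity)
  have h4 : (l : ℝ) + 1 / 4 ≤ -s.re := by linarith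
  have h5 : 0 ≤ s.im ^ 2 := sq_nonneg _
  nlinarith

lemma norm_Lg_le (l : ℕ) {φ : ℂ → ℂ} {B : ℝ}
    (hφ : ∀ s, ‖s - ce l‖ = 1 / 4 → ‖φ s‖ ≤ B) : ‖Lg l φ‖ ≤ 9 / ((l : ℝ) + 1 / 4) * B := by
  unfold Lg
  have h := circleIntegral.norm_two_pi_i_inv_smul_integral_le_of_norm_le_const
    (f := fun s => J1 s * φ s) (c := ce l) (R := 1 / 4) (C := 36 / ((l : ℝ) + 1 / 4) * B)
    (by norm_num) (by
      intro s hs
      rw [mem_sphere, dist_eq_norm] at hs
      rw [norm_mul]
      exact mul_le_mul (norm_J1_sphere hs) (hφ s hs) (norm_nonneg _) (by positivity))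
  rw [smul_eq_mul] at h
  refine h.trans (le_of_eq ?_)
  ring

lemma kernel_norm {z s : ℂ} (hz : -1 / 4 < z.re) (hs : s.re ≤ -1 / 4) :
    ‖1 / (z - s)‖ ≤ 1 / (z.re + 1 / 4) := by
  rw [norm_div, norm_one]
  apply one_div_le_one_div_of_le (by linarith)
  have h := Complex.abs_re_le_norm (z - s)
  rw [Complex.sub_re] at h
  have := (le_abs_self (z.re - s.re)).trans h
  linarith

lemma kernel_ne {z s : ℂ} (hz : -1 / 4 < z.re) (hs : s.re ≤ -1 / 4) : z - s ≠ 0 := by
  intro h
  have := congrArg Complex.re h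
  rw [Complex.sub_re, Complex.zero_re] at this
  linarith

lemma norm_J1k_le {z s : ℂ} (hz : -1 / 4 < z.re) (hs : s.re ≤ -1 / 4)
    (hd : ∀ l : ℕ, 1 / 8 ≤ ‖s - ce l‖) :
    ‖J1 s * (1 / (z - s))‖ ≤ (144 * (1 / (z.re + 1 / 4))) / (1 + s.im ^ 2) := by
  have h1 := norm_J1_le' hs hd
  have h2 := kernel_norm hz hs
  have hpos : 0 < -s.re := by linarith
  have hz' : 0 < z.re + 1 / 4 := by linarith
  rw [norm_mul]
  have h3 : 36 / (-s.re) ≤ 144 := by
    rw [div_le_iff₀ hpos]; linarith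
  calc ‖J1 s‖ * ‖1 / (z - s)‖ ≤ (144 / (1 + s.im ^ 2)) * (1 / (z.re + 1 / 4)) := by
        apply mul_le_mul _ h2 (norm_nonneg _) (by positivity)
        refine h1.trans ?_
        exact div_le_div_of_nonneg_right h3 (by positivity)
    _ = _ := by ring

lemma J1k_dec {z : ℂ} (hz : -1 / 4 < z.re) {ε : ℝ} (hε : 0 < ε) :
    ∃ Y : ℝ, ∀ s : ℂ, s.re ≤ -1 / 4 → Y ≤ |s.im| → ‖J1 s * (1 / (z - s))‖ ≤ ε := by
  have hz' : 0 < z.re + 1 / 4 := by linarith
  refine ⟨max 1 ((144 * (1 / (z.re + 1 / 4))) / ε), fun s hs hY => ?_⟩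
  have h1 : 1 ≤ |s.im| := (le_max_left _ _).trans hY
  have h2 : (144 * (1 / (z.re + 1 / 4))) / ε ≤ |s.im| := (le_max_right _ _).trans hY
  refine (norm_J1k_le hz hs (fun l => dist_im s (by linarith) l)).trans ?_
  rw [div_le_iff₀ (by positivity)]
  rw [div_le_iff₀ hε] at h2
  have h3 : |s.im| ≤ 1 + s.im ^ 2 := by
    rw [← sq_abs]; nlinarith [sq_nonneg (|s.im| - 1)]
  nlinarith

lemma hc_line (l : ℕ) (l' : ℕ) : 1 / 8 ≤ |(-(l : ℝ)) - (-1 / 2 - l')| := by
  have h : (-(l : ℝ)) - (-1 / 2 - l') = (((2 * ((l' : ℤ) - l) + 1 : ℤ) : ℝ)) / 2 := by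
    push_cast; ring
  rw [h, abs_div]
  have h1 : (1 : ℝ) ≤ |((2 * ((l' : ℤ) - l) + 1 : ℤ) : ℝ)| := by
    have : (1 : ℤ) ≤ |2 * ((l' : ℤ) - l) + 1| := Int.one_le_abs (by omega)
    exact_mod_cast this
  rw [abs_of_pos (by norm_num : (0 : ℝ) < 2)]
  linarith

/-- integrability and size of `J1(s)/(z-s)` on `Re s = c`. -/
lemma J1k_line {z : ℂ} (hz : -1 / 4 < z.re) {c : ℝ} (hc0 : c ≤ -1 / 4)
    (hc : ∀ l : ℕ, 1 / 8 ≤ |c - (-1 / 2 - l)|) :
    Integrable (fun y : ℝ => J1 (c + y * I) * (1 / (z - (c + y * I)))) ∧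
      ∀ y : ℝ, ‖J1 (c + y * I) * (1 / (z - (c + y * I)))‖ ≤
        (36 / (-c) * (1 / (z.re + 1 / 4))) * (1 + y ^ 2)⁻¹ := by
  have hre : ∀ y : ℝ, ((c : ℂ) + y * I).re = c := by intro y; simp
  apply integrable_J1 hc0 hc (φ := fun s => 1 / (z - s))
  · exact continuous_const.div (by fun_prop) (fun y => kernel_ne hz (by rw [hre]; exact hc0))
  · intro y
    exact kernel_norm hz (by rw [hre]; exact hc0)

/-- the integrand `J1(s)/(z-s)` shifted over the first site. -/
theorem g1_step {z : ℂ} (hz : -1 / 4 < z.re) :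
    I • (∫ y : ℝ, J1 (((-1 / 4 : ℝ) : ℂ) + y * I) * (1 / (z - (((-1 / 4 : ℝ) : ℂ) + y * I)))) =
      (∮ s in C(ce 0, 1 / 4), J1 s * (1 / (z - s))) +
      I • (∫ y : ℝ, J1 (((-1 : ℝ) : ℂ) + y * I) * (1 / (z - (((-1 : ℝ) : ℂ) + y * I)))) := by
  have hp : (ce 0).re = -1 / 2 - ((0 : ℕ) : ℝ) := by rw [ce_re]; ring
  have hcl : ∀ c : ℝ, |c - (-1 / 2)| = 1 / 4 ∨ c = -1 → ∀ l : ℕ, 1 / 8 ≤ |c - (-1 / 2 - l)| := by
    intro c hc l
    rcases hc with hc | hc
    · rcases Nat.eq_zero_or_pos l with h | h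
      · subst h
        have : c - (-1 / 2 - ((0 : ℕ) : ℝ)) = c - (-1 / 2) := by push_cast; ring
        rw [this, hc]; norm_num
      · have hl : (1 : ℝ) ≤ l := by exact_mod_cast h
        have h2 := (abs_le.mp hc.le).1
        have : 1 / 4 ≤ c - (-1 / 2 - (l : ℝ)) := by linarith
        exact (by linarith : (1 : ℝ) / 8 ≤ c - (-1 / 2 - (l : ℝ))).trans (le_abs_self _)
    · rw [hc]
      have := hc_line 1 l
      simpa using this
  obtain ⟨h, hh, hf⟩ := J1_pole 0 (a := 1 / 4) (by norm_num) (by norm_num) (by norm_num)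
    (φ := fun s => 1 / (z - s)) (by
      intro s hs
      have h1 : |s.re - (-1 / 2 - ((0 : ℕ) : ℝ))| ≤ 1 / 4 := hs
      have h2 := (abs_le.mp h1).2
      push_cast at h2
      apply DifferentiableAt.differentiableWithinAt
      exact (differentiableAt_const _).div (by fun_prop) (kernel_ne hz (by linarith)))
  have key := P3R.strip_pole (f := fun s => J1 s * (1 / (z - s))) (h := h) (p := ce 0)
    (a := 1 / 4) (r := 1 / 4) (by norm_num) le_rfl 2
    (by rw [hp]; exact hh) (by rw [hp]; exact hf)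
    (by
      rw [hp]
      intro ε hε
      obtain ⟨Y, hY⟩ := J1k_dec hz hε
      refine ⟨Y, fun s hs hsY => hY s ?_ hsY⟩
      have h2 := (abs_le.mp hs).2
      push_cast at h2
      linarith)
    (by
      have e : (ce 0).re + 1 / 4 = -1 / 4 := by rw [hp]; norm_num
      rw [e]
      exact (J1k_line hz (by norm_num) (hcl _ (Or.inl (by norm_num)))).1)
    (by
      have e : (ce 0).re - 1 / 4 = -3 / 4 := by rw [hp]; norm_num
      rw [e]
      exact (J1k_line hz (by norm_num) (hcl _ (Or.inl (by norm_num [abs_of_neg])))).1)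
  have e1 : (ce 0).re + 1 / 4 = -1 / 4 := by rw [hp]; norm_num
  have e2 : (ce 0).re - 1 / 4 = -3 / 4 := by rw [hp]; norm_num
  rw [e1, e2] at key
  have hsh := VShift724.vshift (f := fun s => J1 s * (1 / (z - s))) (a := -1) (b := -3 / 4)
    (C := 144 * (1 / (z.re + 1 / 4))) (by norm_num)
    (by
      intro s hs
      obtain ⟨h1, h2⟩ := hs
      apply ContinuousAt.continuousWithinAt
      apply DifferentiableAt.continuousAt (𝕜 := ℂ)
      apply DifferentiableAt.mul
      · apply J1_differentiableAt (by linarith)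
        intro l hl
        rw [hl, ce_re] at h1 h2
        have h3 : (l : ℝ) ≤ 1 / 2 := by linarith
        have h4 : l = 0 := by
          by_contra h0
          have : (1 : ℝ) ≤ l := by exact_mod_cast Nat.one_le_iff_ne_zero.mpr h0
          linarith
        subst h4
        norm_num at h2
      · exact (differentiableAt_const _).div (by fun_prop) (kernel_ne hz (by linarith)))
    (by
      intro s h1 h2
      apply DifferentiableAt.mul
      · apply J1_differentiableAt (by linarith)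
        intro l hl
        rw [hl, ce_re] at h1 h2
        have h3 : (l : ℝ) ≤ 1 / 2 := by linarith
        have h4 : l = 0 := by
          by_contra h0
          have : (1 : ℝ) ≤ l := by exact_mod_cast Nat.one_le_iff_ne_zero.mpr h0
          linarith
        subst h4
        norm_num at h2
      · exact (differentiableAt_const _).div (by fun_prop) (kernel_ne hz (by linarith)))
    (by
      intro s h1 h2
      apply norm_J1k_le hz (by linarith)
      intro l
      have h := Complex.abs_re_le_norm (s - ce l)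
      rw [Complex.sub_re, ce_re] at h
      rcases Nat.eq_zero_or_pos l with h0 | h0
      · subst h0
        have := neg_le_abs (s.re - (-(1 / 2) - ((0 : ℕ) : ℝ)))
        push_cast at this h
        linarith
      · have hl : (1 : ℝ) ≤ l := by exact_mod_cast h0
        have := le_abs_self (s.re - (-(1 / 2) - (l : ℝ)))
        linarith)
  rw [hsh]
  linear_combination key

/-- Tendsto form of the circle representation for `Re z > -1/4`. -/
theorem g1_tendsto {z : ℂ} (hz : -1 / 4 < z.re) :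
    Tendsto (fun n : ℕ => ∑ l ∈ Finset.range n, Lg l (fun s => 1 / (z - s))) atTop (𝓝 (g1 z)) := by
  have hlt := P3R.line_tendsto (f := fun s => J1 s * (1 / (z - s))) (r := 1 / 4) (by norm_num)
    (by norm_num) 1 2
    (by
      intro l hl
      have hl' : (1 : ℝ) ≤ l := by exact_mod_cast hl
      obtain ⟨h, hh, hf⟩ := J1_pole l (a := 1 / 2) (by norm_num) le_rfl (by linarith)
        (φ := fun s => 1 / (z - s)) (by
          intro s hs
          have h1 : |s.re - (-1 / 2 - (l : ℝ))| ≤ 1 / 2 := hs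
          have h2 := (abs_le.mp h1).2
          apply DifferentiableAt.differentiableWithinAt
          exact (differentiableAt_const _).div (by fun_prop) (kernel_ne hz (by linarith)))
      refine ⟨h, hh, fun s hs hne => ?_⟩
      rw [← ce_eq] at hne ⊢
      exact hf s hs hne)
    (by
      intro l hl ε hε
      have hl' : (1 : ℝ) ≤ l := by exact_mod_cast hl
      obtain ⟨Y, hY⟩ := J1k_dec hz hε
      refine ⟨Y, fun s hs hsY => hY s ?_ hsY⟩
      have h2 := (abs_le.mp hs).2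
      linarith)
    (by
      intro l hl
      have hl' : (1 : ℝ) ≤ l := by exact_mod_cast hl
      have h := (J1k_line hz (c := -(l : ℝ)) (by linarith) (hc_line l)).1
      have e : (((-(l : ℝ)) : ℝ) : ℂ) = -(l : ℂ) := by push_cast; ring
      rw [e] at h
      exact h)
    (by
      rw [tendsto_zero_iff_norm_tendsto_zero]
      have h1 : Tendsto (fun l : ℕ => (36 * (1 / (z.re + 1 / 4)) * Real.pi) / (l : ℝ)) atTop (𝓝 0) :=
        tendsto_const_nhds.div_atTop tendsto_natCast_atTop_atTop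
      refine squeeze_zero' (Eventually.of_forall fun x => norm_nonneg _) ?_ h1
      filter_upwards [eventually_ge_atTop 1] with l hl
      have hl' : (1 : ℝ) ≤ l := by exact_mod_cast hl
      obtain ⟨_, h2⟩ := (J1k_line hz (c := -(l : ℝ)) (by linarith) (hc_line l))
      have e : (((-(l : ℝ)) : ℝ) : ℂ) = -(l : ℂ) := by push_cast; ring
      rw [e] at h2
      refine (norm_integral_le_of_norm_le (integrable_inv_one_add_sq.const_mul
        (36 / (- -(l : ℝ)) * (1 / (z.re + 1 / 4)))) (Eventually.of_forall h2)).trans ?_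
      rw [integral_const_mul, integral_univ_inv_one_add_sq, neg_neg]
      apply le_of_eq
      ring)
  have h1 := g1_line hz
  have h2 := g1_step hz
  have hpi : (Real.pi : ℂ) ≠ 0 := by exact_mod_cast Real.pi_ne_zero
  have h3 : (∫ y : ℝ, J1 (((-1 / 4 : ℝ) : ℂ) + y * I) /
      (z - (((-1 / 4 : ℝ) : ℂ) + y * I))) =
      ∫ y : ℝ, J1 (((-1 / 4 : ℝ) : ℂ) + y * I) * (1 / (z - (((-1 / 4 : ℝ) : ℂ) + y * I))) := by
    congr 1
    ext y
    rw [mul_one_div]
  rw [h3] at h1
  -- partial sums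
  have h4 : Tendsto (fun n : ℕ => (2 * Real.pi * I)⁻¹ * ((∮ s in C(ce 0, 1 / 4), J1 s * (1 / (z - s))) +
      ∑ l ∈ Finset.range n, ∮ s in C(-1 / 2 - ((1 + l : ℕ) : ℂ), 1 / 4), J1 s * (1 / (z - s))))
      atTop (𝓝 ((2 * Real.pi * I)⁻¹ * ((∮ s in C(ce 0, 1 / 4), J1 s * (1 / (z - s))) +
        I • ∫ y : ℝ, J1 (-((1 : ℕ) : ℂ) + y * I) * (1 / (z - (-((1 : ℕ) : ℂ) + y * I)))))) :=
    (tendsto_const_nhds.add hlt).const_mul _
  have e5 : (-((1 : ℕ) : ℂ)) = ((-1 : ℝ) : ℂ) := by push_cast; ring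
  rw [e5, ← h2] at h4
  have h6 : (2 * Real.pi * I)⁻¹ * (I • ∫ y : ℝ, J1 (((-1 / 4 : ℝ) : ℂ) + y * I) *
      (1 / (z - (((-1 / 4 : ℝ) : ℂ) + y * I)))) = g1 z := by
    rw [h1, smul_eq_mul]
    field_simp
  rw [h6] at h4
  rw [← tendsto_add_atTop_iff_nat 1]
  refine h4.congr (fun n => ?_)
  rw [Finset.sum_range_succ', add_comm (∑ l ∈ Finset.range n, _) (Lg 0 _), mul_add, Finset.mul_sum]
  congr 1
  apply Finset.sum_congr rfl
  intro l _
  unfold Lg
  rw [ce_eq, add_comm 1 l]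

end Crest.Agent.R006.G1x186
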