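import Crest.Agent.R006.PsiJ2_576

/-!
# Row 6 (Catalan), block P3, analytic input (helper576), part 3

The function `psiF v z = ∑ (polar parts)`, moments, recurrence.
-/

set_option autoImplicit false

open Complex Filter Topology Metric Set
open scoped Real

namespace Crest.Agent.R006.PsiJ

/-- polar part at the `l`-th pole -/
noncomputable def pol (v : Fin 3 → ℂ) (l : ℕ) (z : ℂ) : ℂ :=
  ∑ j ∈ Finset.range 3, p v l j / (z - ce l) ^ (j + 1)

/-- sum of the polar parts -/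
noncomputable def psiF (v : Fin 3 → ℂ) (z : ℂ) : ℂ := ∑' l, pol v l z

/-- moments -/
noncomputable def M (v : Fin 3 → ℂ) (j : ℕ) : ℂ := ∑' l, L v l (fun s => s ^ j)

lemma norm_p_le (v : Fin 3 → ℂ) : ∃ K : ℝ, 0 < K ∧ ∀ l j : ℕ, ‖p v l j‖ ≤ K * (1 / 8) ^ l := by
  obtain ⟨K, hK, h⟩ := norm_L_le v
  refine ⟨K, hK, fun l j => ?_⟩
  have := h l (fun s => (s - ce l) ^ j) 1 zero_le_one ?_
  · simpa [p] using this
  · intro s hs
    rw [mem_sphere, dist_eq_norm] at hs
    rw [norm_pow, hs]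
    exact pow_le_one₀ (by norm_num) (by norm_num)

lemma norm_pol_le (v : Fin 3 → ℂ) : ∃ K : ℝ, 0 < K ∧ ∀ (l : ℕ) (z : ℂ) (δ : ℝ), 0 < δ → δ ≤ 1 →
    δ ≤ ‖z - ce l‖ → ‖pol v l z‖ ≤ K * (1 / 8) ^ l / δ ^ 3 := by
  obtain ⟨K, hK, h⟩ := norm_p_le v
  refine ⟨3 * K, by positivity, ?_⟩
  intro l z δ hδ hδ1 hz
  unfold pol
  refine (norm_sum_le _ _).trans ?_
  have hterm : ∀ j ∈ Finset.range 3, ‖p v l j / (z - ce l) ^ (j + 1)‖ ≤ K * (1 / 8) ^ l / δ ^ 3 := by
    intro j hj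
    rw [norm_div, norm_pow]
    have h1 : δ ^ 3 ≤ ‖z - ce l‖ ^ (j + 1) := by
      calc δ ^ 3 ≤ δ ^ (j + 1) := by
            apply pow_le_pow_of_le_one hδ.le hδ1
            have := Finset.mem_range.mp hj; omega
        _ ≤ _ := by gcongr
    have h2 : 0 < δ ^ 3 := by positivity
    calc ‖p v l j‖ / ‖z - ce l‖ ^ (j + 1) ≤ (K * (1 / 8) ^ l) / δ ^ 3 := by
          gcongr
          exact h l j
      _ = _ := rfl
  refine (Finset.sum_le_sum hterm).trans ?_
  simp
  ring_nf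
  rfl

/-- positive distance to all poles -/
lemma exists_dist (z : ℂ) (hz : ∀ l, z ≠ ce l) : ∃ δ : ℝ, 0 < δ ∧ δ ≤ 1 / 4 ∧
    ∀ l, δ < ‖z - ce l‖ := by
  -- for large l the distance is > 1
  obtain ⟨N, hN⟩ := exists_nat_gt (‖z‖ + 1)
  have hlarge : ∀ l : ℕ, N ≤ l → 1 < ‖z - ce l‖ := by
    intro l hl
    have h1 : (N : ℝ) ≤ l := by exact_mod_cast hl
    have h2 : ‖ce l‖ ≥ l := by
      have : |(ce l).re| ≤ ‖ce l‖ := Complex.abs_re_le_norm _
      rw [ce_re] at this
      have h3 : |-(1 / 2) - (l : ℝ)| = 1 / 2 + l := by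
        rw [abs_of_nonpos (by have : (0 : ℝ) ≤ l := Nat.cast_nonneg l; linarith)]; ring
      rw [h3] at this
      linarith
    have h4 : ‖ce l‖ - ‖z‖ ≤ ‖z - ce l‖ := by
      rw [norm_sub_rev]; exact norm_sub_norm_le _ _
    linarith
  have hsmall : ∀ n : ℕ, ∃ δ : ℝ, 0 < δ ∧ δ ≤ 1 / 4 ∧ ∀ l < n, δ < ‖z - ce l‖ := by
    intro n
    induction n with
    | zero => exact ⟨1 / 4, by norm_num, le_rfl, fun l hl => absurd hl (by omega)⟩
    | succ n ih =>
      obtain ⟨δ, h1, h2, h3⟩ := ih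
      have hpos : 0 < ‖z - ce n‖ := norm_pos_iff.mpr (sub_ne_zero.mpr (hz n))
      refine ⟨min δ (‖z - ce n‖ / 2), lt_min h1 (by positivity), (min_le_left _ _).trans h2, ?_⟩
      intro l hl
      rcases Nat.lt_succ_iff_lt_or_eq.mp hl with h | h
      · exact lt_of_le_of_lt (min_le_left _ _) (h3 l h)
      · rw [h]
        exact lt_of_le_of_lt (min_le_right _ _) (by linarith)
  obtain ⟨δ, h1, h2, h3⟩ := hsmall N
  refine ⟨δ, h1, h2, fun l => ?_⟩
  rcases lt_or_ge l N with h | h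
  · exact h3 l h
  · have := hlarge l h
    linarith

lemma summable_geo8 : Summable (fun l : ℕ => ((1 : ℝ) / 8) ^ l) :=
  summable_geometric_of_lt_one (by norm_num) (by norm_num)

lemma summable_pol (v : Fin 3 → ℂ) {z : ℂ} (hz : ∀ l, z ≠ ce l) : Summable (fun l => pol v l z) := by
  obtain ⟨K, hK, h⟩ := norm_pol_le v
  obtain ⟨δ, h1, h2, h3⟩ := exists_dist z hz
  refine Summable.of_norm_bounded (g := fun l => K / δ ^ 3 * (1 / 8) ^ l)
    (summable_geo8.mul_left _) ?_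
  intro l
  refine (h l z δ h1 (by linarith) (h3 l).le).trans (le_of_eq ?_)
  ring

lemma summable_poly (j : ℕ) : Summable (fun l : ℕ => ((1 : ℝ) / 8) ^ l * ((l : ℝ) + 1) ^ j) := by
  have h := summable_pow_mul_geometric_of_norm_lt_one (R := ℝ) j (r := 1 / 8) (by norm_num)
  have h2 := (summable_nat_add_iff 1).mpr h
  have h3 := h2.mul_left 8
  refine h3.congr ?_
  intro l
  push_cast
  rw [pow_succ]
  ring

lemma norm_Lpow_le (v : Fin 3 → ℂ) : ∃ K : ℝ, 0 < K ∧ ∀ l j : ℕ,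
    ‖L v l (fun s => s ^ j)‖ ≤ K * ((1 / 8) ^ l * ((l : ℝ) + 1) ^ j) := by
  obtain ⟨K, hK, h⟩ := norm_L_le v
  refine ⟨K, hK, fun l j => ?_⟩
  have := h l (fun s => s ^ j) (((l : ℝ) + 1) ^ j) (by positivity) ?_
  · rw [← mul_assoc]; exact this
  · intro s hs
    rw [mem_sphere, dist_eq_norm] at hs
    rw [norm_pow]
    have h1 : ‖s‖ ≤ ‖s - ce l‖ + ‖ce l‖ := by
      have : s = (s - ce l) + ce l := by ring
      conv_lhs => rw [this]
      exact norm_add_le _ _
    have h2 : ‖ce l‖ = 1 / 2 + l := by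
      have : ce l = -((1 / 2 + l : ℝ) : ℂ) := by unfold ce; push_cast; ring
      rw [this, norm_neg, Complex.norm_real, Real.norm_eq_abs, abs_of_nonneg (by positivity)]
    gcongr
    linarith

lemma summable_Lpow (v : Fin 3 → ℂ) (j : ℕ) : Summable (fun l => L v l (fun s => s ^ j)) := by
  obtain ⟨K, hK, h⟩ := norm_Lpow_le v
  exact Summable.of_norm_bounded ((summable_poly j).mul_left K) (fun l => h l j)

lemma hasSum_M (v : Fin 3 → ℂ) (j : ℕ) : HasSum (fun l => L v l (fun s => s ^ j)) (M v j) :=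
  (summable_Lpow v j).hasSum

lemma hasSum_psiF (v : Fin 3 → ℂ) {z : ℂ} (hz : ∀ l, z ≠ ce l) :
    HasSum (fun l => pol v l z) (psiF v z) := (summable_pol v hz).hasSum

lemma Lr_pol (v : Fin 3 → ℂ) {r : ℝ} (hr : 0 < r) (hr' : r ≤ 1 / 4) (l : ℕ) {z : ℂ}
    (hz : r < ‖z - ce l‖) : Lr v r l (fun s => 1 / (z - s)) = pol v l z :=
  Lr_pole v hr hr' l hz

/-- **MAIN shape**: off the closed discs -/
theorem hasSum_circle (v : Fin 3 → ℂ) {z : ℂ} (hz : ∀ l, 1 / 4 < ‖z - ce l‖) :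
    HasSum (fun l => L v l (fun s => 1 / (z - s))) (psiF v z) := by
  have h1 : ∀ l, z ≠ ce l := by
    intro l h
    have := hz l
    rw [h] at this
    simp at this
    linarith
  have h2 : (fun l => L v l (fun s => 1 / (z - s))) = fun l => pol v l z := by
    funext l
    exact Lr_pol v (by norm_num) le_rfl l (hz l)
  rw [h2]
  exact hasSum_psiF v h1

lemma Lr_pow (v : Fin 3 → ℂ) {r : ℝ} (hr : 0 < r) (hr' : r ≤ 1 / 4) (l j : ℕ) :
    Lr v r l (fun s => s ^ j) = L v l (fun s => s ^ j) := by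
  apply Lr_eq v hr hr'
  fun_prop

/-- the polynomial of the recurrence -/
noncomputable def qv (v : Fin 3 → ℂ) (z : ℂ) : ℂ :=
  9 * M v 0 * z ^ 2 + (9 * M v 1 - 4 * M v 0) * z + (9 * M v 2 + 4 * M v 1 + 2 * M v 0)

theorem psiF_rec (v : Fin 3 → ℂ) {z : ℂ} (hz : ∀ l, z ≠ ce l) (hz1 : ∀ l, z - 1 ≠ ce l) :
    z ^ 3 * psiF v z + (2 * z - 1) ^ 3 * psiF v (z - 1) = qv v z := by
  obtain ⟨δ1, ha1, hb1, hc1⟩ := exists_dist z hz
  obtain ⟨δ2, ha2, hb2, hc2⟩ := exists_dist (z - 1) hz1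
  set r := min δ1 δ2 with hr
  have hr0 : 0 < r := lt_min ha1 ha2
  have hr4 : r ≤ 1 / 4 := (min_le_left _ _).trans hb1
  have hd1 : ∀ l, r < ‖z - ce l‖ := fun l => lt_of_le_of_lt (min_le_left _ _) (hc1 l)
  have hd2 : ∀ l, r < ‖z - 1 - ce l‖ := fun l => lt_of_le_of_lt (min_le_right _ _) (hc2 l)
  -- kernels are fine on the circles
  have hs1 : ∀ l, ∀ s ∈ closedBall (ce l) r, z - s ≠ 0 := by
    intro l s hs h
    rw [mem_closedBall, dist_eq_norm] at hs
    have : z = s := by linear_combination h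
    have := hd1 l
    rw [‹z = s›] at this
    linarith
  have hs2 : ∀ l, ∀ s ∈ closedBall (ce l) r, z - (s + 1) ≠ 0 := by
    intro l s hs h
    rw [mem_closedBall, dist_eq_norm] at hs
    have h3 : z - 1 = s := by linear_combination h
    have := hd2 l
    rw [h3] at this
    linarith
  set χ : ℂ → ℂ := fun s => 1 / (z - s) with hχ
  set a : ℕ → ℂ := fun l => Lr v r l (fun s => s ^ 3 * χ s) with ha
  set b : ℕ → ℂ := fun l => Lr v r l (fun s => (2 * s + 1) ^ 3 * χ (s + 1)) with hb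
  have hb0 : b 0 = 0 := by
    apply Lr_zero_base v hr0 hr4
    intro s hs
    refine DifferentiableWithinAt.div (differentiableWithinAt_const _) ?_ (hs2 0 s hs)
    fun_prop
  have hbs : ∀ l, b (l + 1) = -a l := fun l => Lr_succ v hr0 hr4 l χ
  -- first relation
  have hA : ∀ l, z ^ 3 * pol v l z = (z ^ 2 * L v l (fun s => s ^ 0) + z * L v l (fun s => s ^ 1) +
      L v l (fun s => s ^ 2)) + a l := by
    intro l
    rw [← Lr_pol v hr0 hr4 l (hd1 l), ← Lr_const_mul]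
    have hcp : ∀ (c : ℂ) (j : ℕ), ContinuousOn (fun s : ℂ => c * s ^ j) (sphere (ce l) r) := by
      intro c j; fun_prop
    have hca : ContinuousOn (fun s : ℂ => s ^ 3 * χ s) (sphere (ce l) r) := by
      refine ContinuousOn.mul (by fun_prop) ?_
      intro s hs
      refine ContinuousWithinAt.div continuousWithinAt_const (by fun_prop) ?_
      exact hs1 l s (sphere_subset_closedBall hs)
    have e0 : Lr v r l (fun s => z ^ 3 * (1 / (z - s))) =
        Lr v r l (fun s => z ^ 2 * s ^ 0 + (z * s ^ 1 + (1 * s ^ 2 + s ^ 3 * χ s))) := by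
      apply Lr_congr v hr0.le
      intro s hs
      have := hs1 l s (sphere_subset_closedBall hs)
      simp only [hχ]
      field_simp
      ring
    rw [e0]
    have g2 := (hcp 1 2).add hca
    have g1 := (hcp z 1).add g2
    have f0 := Lr_add v hr0 hr4 l (hcp (z ^ 2) 0) g1
    have f1 := Lr_add v hr0 hr4 l (hcp z 1) g2
    have f2 := Lr_add v hr0 hr4 l (hcp 1 2) hca
    refine (f0.trans (congrArg₂ (· + ·) rfl (f1.trans (congrArg₂ (· + ·) rfl f2)))).trans ?_
    rw [Lr_const_mul, Lr_const_mul, Lr_const_mul, Lr_pow v hr0 hr4, Lr_pow v hr0 hr4,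
      Lr_pow v hr0 hr4]
    ring
  -- second relation
  have hB : ∀ l, (2 * z - 1) ^ 3 * pol v l (z - 1) =
      ((8 * z ^ 2 - 4 * z + 2) * L v l (fun s => s ^ 0) + (8 * z + 4) * L v l (fun s => s ^ 1) +
      8 * L v l (fun s => s ^ 2)) + b l := by
    intro l
    rw [← Lr_pol v hr0 hr4 l (hd2 l), ← Lr_const_mul]
    have hcp : ∀ (c : ℂ) (j : ℕ), ContinuousOn (fun s : ℂ => c * s ^ j) (sphere (ce l) r) := by
      intro c j; fun_prop
    have hca : ContinuousOn (fun s : ℂ => (2 * s + 1) ^ 3 * χ (s + 1)) (sphere (ce l) r) := by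
      refine ContinuousOn.mul (by fun_prop) ?_
      intro s hs
      refine ContinuousWithinAt.div continuousWithinAt_const (by fun_prop) ?_
      exact hs2 l s (sphere_subset_closedBall hs)
    have e0 : Lr v r l (fun s => (2 * z - 1) ^ 3 * (1 / (z - 1 - s))) =
        Lr v r l (fun s => (8 * z ^ 2 - 4 * z + 2) * s ^ 0 + ((8 * z + 4) * s ^ 1 +
          (8 * s ^ 2 + (2 * s + 1) ^ 3 * χ (s + 1)))) := by
      apply Lr_congr v hr0.le
      intro s hs
      have h1 := hs2 l s (sphere_subset_closedBall hs)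
      have h2 : z - 1 - s ≠ 0 := by
        intro h; apply h1; linear_combination h
      simp only [hχ]
      have e1 : z - (s + 1) = z - 1 - s := by ring
      rw [e1]
      field_simp
      ring
    rw [e0]
    have g2 := (hcp 8 2).add hca
    have g1 := (hcp (8 * z + 4) 1).add g2
    have f0 := Lr_add v hr0 hr4 l (hcp (8 * z ^ 2 - 4 * z + 2) 0) g1
    have f1 := Lr_add v hr0 hr4 l (hcp (8 * z + 4) 1) g2
    have f2 := Lr_add v hr0 hr4 l (hcp 8 2) hca
    refine (f0.trans (congrArg₂ (· + ·) rfl (f1.trans (congrArg₂ (· + ·) rfl f2)))).trans ?_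
    rw [Lr_const_mul, Lr_const_mul, Lr_const_mul, Lr_pow v hr0 hr4, Lr_pow v hr0 hr4,
      Lr_pow v hr0 hr4]
    ring
  -- sums
  have hM0 := hasSum_M v 0
  have hM1 := hasSum_M v 1
  have hM2 := hasSum_M v 2
  have hpz := (hasSum_psiF v hz).mul_left (z ^ 3)
  have hpz1 := (hasSum_psiF v hz1).mul_left ((2 * z - 1) ^ 3)
  have hpolA := ((hM0.mul_left (z ^ 2)).add (hM1.mul_left z)).add hM2
  have hpolB := ((hM0.mul_left (8 * z ^ 2 - 4 * z + 2)).add (hM1.mul_left (8 * z + 4))).add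
    (hM2.mul_left 8)
  have hasum : HasSum a (z ^ 3 * psiF v z - (z ^ 2 * M v 0 + z * M v 1 + M v 2)) := by
    have h := hpz.sub hpolA
    have e : (fun l => z ^ 3 * pol v l z - (z ^ 2 * L v l (fun s => s ^ 0) +
        z * L v l (fun s => s ^ 1) + L v l (fun s => s ^ 2))) = a := by
      funext l; rw [hA l]; ring
    rwa [e] at h
  have hbsum : HasSum b ((2 * z - 1) ^ 3 * psiF v (z - 1) -
      ((8 * z ^ 2 - 4 * z + 2) * M v 0 + (8 * z + 4) * M v 1 + 8 * M v 2)) := by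
    have h := hpz1.sub hpolB
    have e : (fun l => (2 * z - 1) ^ 3 * pol v l (z - 1) -
        ((8 * z ^ 2 - 4 * z + 2) * L v l (fun s => s ^ 0) + (8 * z + 4) * L v l (fun s => s ^ 1) +
        8 * L v l (fun s => s ^ 2))) = b := by
      funext l; rw [hB l]; ring
    rwa [e] at h
  have hb2 : HasSum b (-(z ^ 3 * psiF v z - (z ^ 2 * M v 0 + z * M v 1 + M v 2))) := by
    have h := hasum.neg
    have e : (fun l => -a l) = fun l => b (l + 1) := by funext l; rw [hbs l]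
    rw [e] at h
    have h2 := (hasSum_nat_add_iff 1).mp h
    simpa [hb0] using h2
  have hfin := hbsum.unique hb2
  unfold qv
  linear_combination hfin

/-! ### uniqueness of the bounded solution -/

lemma eq_zero_of_ratio (f ρ : ℕ → ℂ) (hf : ∀ n, f (n + 1) = ρ n * f n) (hρ : ∀ n, ρ n ≠ 0)
    (hρ2 : ∀ᶠ n in atTop, 2 ≤ ‖ρ n‖) (B : ℝ) (hB : ∀ᶠ n in atTop, ‖f n‖ ≤ B) : ∀ n, f n = 0 := by
  obtain ⟨N, hN⟩ := eventually_atTop.mp (hρ2.and hB)
  have hgrow : ∀ k, 2 ^ k * ‖f N‖ ≤ ‖f (N + k)‖ := by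
    intro k
    induction k with
    | zero => simp
    | succ k ih =>
      rw [← add_assoc, hf, norm_mul]
      have h1 := (hN (N + k) (by omega)).1
      calc 2 ^ (k + 1) * ‖f N‖ = 2 * (2 ^ k * ‖f N‖) := by ring
        _ ≤ ‖ρ (N + k)‖ * ‖f (N + k)‖ := by gcongr
  have hfN : f N = 0 := by
    by_contra hne
    have hpos : 0 < ‖f N‖ := norm_pos_iff.mpr hne
    obtain ⟨k, hk⟩ := pow_unbounded_of_one_lt (B / ‖f N‖) (by norm_num : (1 : ℝ) < 2)
    have h1 := hgrow k
    have h2 := (hN (N + k) (by omega)).2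
    rw [div_lt_iff₀ hpos] at hk
    linarith
  -- backwards
  have hback : ∀ k, k ≤ N → f (N - k) = 0 := by
    intro k
    induction k with
    | zero => intro _; simpa using hfN
    | succ k ih =>
      intro hk
      have h1 := ih (by omega)
      have h2 := hf (N - (k + 1))
      rw [show N - (k + 1) + 1 = N - k by omega, h1] at h2
      rcases mul_eq_zero.mp h2.symm with h3 | h3
      · exact absurd h3 (hρ _)
      · exact h3
  have hfwd : ∀ k, f (N + k) = 0 := by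
    intro k
    induction k with
    | zero => simpa using hfN
    | succ k ih => rw [← add_assoc, hf, ih, mul_zero]
  intro n
  rcases le_or_gt n N with h | h
  · have := hback (N - n) (by omega)
    rwa [show N - (N - n) = n by omega] at this
  · have := hfwd (n - N)
    rwa [show N + (n - N) = n by omega] at this

/-- boundedness to the right -/
lemma psiF_bounded (v : Fin 3 → ℂ) : ∃ B : ℝ, ∀ z : ℂ, 1 / 2 ≤ z.re → ‖psiF v z‖ ≤ B := by
  obtain ⟨K, hK, h⟩ := norm_pol_le v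
  refine ⟨∑' l : ℕ, K * (1 / 8) ^ l, ?_⟩
  intro z hz
  have hb : ∀ l, ‖pol v l z‖ ≤ K * (1 / 8) ^ l := by
    intro l
    have h1 : (1 : ℝ) ≤ ‖z - ce l‖ := by
      have h2 : |(z - ce l).re| ≤ ‖z - ce l‖ := Complex.abs_re_le_norm _
      rw [Complex.sub_re, ce_re] at h2
      have h3 : (0 : ℝ) ≤ l := Nat.cast_nonneg l
      have := le_abs_self (z.re - (-(1 / 2) - (l : ℝ)))
      linarith
    have := h l z 1 one_pos le_rfl h1
    simpa using this
  unfold psiF
  exact tsum_of_norm_bounded (summable_geo8.mul_left K).hasSum hb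

lemma ratio_eventually (z : ℂ) :
    ∀ᶠ n : ℕ in atTop, 2 ≤ ‖-((2 * (z + n) + 1) ^ 3 / (z + n + 1) ^ 3)‖ := by
  have h1 : Tendsto (fun n : ℕ => ‖(n : ℂ)‖) atTop atTop := by
    simpa using tendsto_natCast_atTop_atTop (R := ℝ)
  have hev : ∀ᶠ n : ℕ in atTop, 10 * (‖z‖ + 1) ≤ (n : ℝ) :=
    tendsto_natCast_atTop_atTop.eventually_ge_atTop _
  filter_upwards [hev] with n hn
  have hz0 := norm_nonneg z
  have hu : ‖z + n + 1‖ ≤ 11 / 10 * n := by
    calc ‖z + n + 1‖ ≤ ‖z‖ + ‖(n : ℂ)‖ + ‖(1 : ℂ)‖ := norm_add₃_le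
      _ = ‖z‖ + n + 1 := by simp
      _ ≤ _ := by linarith
  have hl : 9 / 10 * n ≤ ‖z + n + 1‖ := by
    have : ‖(n : ℂ)‖ ≤ ‖z + n + 1‖ + ‖z + 1‖ := by
      have e : (n : ℂ) = (z + n + 1) - (z + 1) := by ring
      conv_lhs => rw [e]
      exact norm_sub_le _ _
    have h3 : ‖z + 1‖ ≤ ‖z‖ + 1 := by simpa using norm_add_le z 1
    rw [Complex.norm_natCast] at this
    linarith
  have hw : 9 / 5 * n ≤ ‖2 * (z + n) + 1‖ := by
    have : ‖(2 * n : ℂ)‖ ≤ ‖2 * (z + n) + 1‖ + ‖2 * z + 1‖ := by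
      have e : (2 * n : ℂ) = (2 * (z + n) + 1) - (2 * z + 1) := by ring
      conv_lhs => rw [e]
      exact norm_sub_le _ _
    have h3 : ‖2 * z + 1‖ ≤ 2 * ‖z‖ + 1 := by
      refine (norm_add_le _ _).trans ?_
      simp
    rw [norm_mul, Complex.norm_natCast] at this
    simp at this
    linarith
  have hnpos : (0 : ℝ) < n := by linarith
  have hpos : 0 < ‖z + n + 1‖ := by
    have : (0 : ℝ) < 9 / 10 * n := by positivity
    linarith
  rw [norm_neg, norm_div, norm_pow, norm_pow, le_div_iff₀ (by positivity)]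
  calc 2 * ‖z + n + 1‖ ^ 3 ≤ 2 * (11 / 10 * (n : ℝ)) ^ 3 := by gcongr
    _ ≤ (9 / 5 * (n : ℝ)) ^ 3 := by
        have : (0 : ℝ) ≤ (n : ℝ) ^ 3 := by positivity
        rw [mul_pow, mul_pow]
        nlinarith
    _ ≤ _ := by gcongr

/-- the homogeneous bounded solution vanishes -/
lemma psiF_eq_zero (v : Fin 3 → ℂ) (hq : ∀ z, qv v z = 0) {z : ℂ} (hz : ∀ l, z ≠ ce l)
    (hz1 : ∀ n : ℕ, z ≠ -(n + 1)) : psiF v z = 0 := by
  have hzn : ∀ n l : ℕ, z + n ≠ ce l := by
    intro n l h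
    apply hz (l + n)
    unfold ce at *
    push_cast
    linear_combination h
  set f : ℕ → ℂ := fun n => psiF v (z + n) with hf
  set ρ : ℕ → ℂ := fun n => -((2 * (z + n) + 1) ^ 3 / (z + n + 1) ^ 3) with hρ
  have hne : ∀ n : ℕ, z + n + 1 ≠ 0 := by
    intro n h
    apply hz1 n
    linear_combination h
  have hrec : ∀ n, f (n + 1) = ρ n * f n := by
    intro n
    have h := psiF_rec v (z := z + n + 1) (fun l => by
      have := hzn (n + 1) l
      push_cast at this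
      rwa [← add_assoc] at this) (fun l => by
      have := hzn n l
      rwa [add_sub_cancel_right])
    rw [hq, add_sub_cancel_right] at h
    have h3 : (z + n + 1) ^ 3 ≠ 0 := pow_ne_zero _ (hne n)
    simp only [hf, hρ]
    push_cast
    rw [← add_assoc, eq_comm, neg_mul, div_mul_eq_mul_div, ← neg_div, div_eq_iff h3]
    linear_combination -h
  have hρ0 : ∀ n, ρ n ≠ 0 := by
    intro n
    simp only [hρ]
    rw [neg_ne_zero]
    refine div_ne_zero (pow_ne_zero _ ?_) (pow_ne_zero _ (hne n))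
    intro h
    apply hz n
    unfold ce
    linear_combination h / 2
  obtain ⟨B, hB⟩ := psiF_bounded v
  have hfB : ∀ᶠ n in atTop, ‖f n‖ ≤ B := by
    have hev : ∀ᶠ n : ℕ in atTop, 1 / 2 - z.re ≤ (n : ℝ) :=
      tendsto_natCast_atTop_atTop.eventually_ge_atTop _
    filter_upwards [hev] with n hn
    apply hB
    simp
    linarith
  have := eq_zero_of_ratio f ρ hrec hρ0 (ratio_eventually z) B hfB 0
  simpa [hf] using this

end Crest.Agent.R006.PsiJ
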