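import Crest.Agent.R006.G1Main_186
import Crest.Agent.R006.PsiJ3_576

/-!
Row 6 (Catalan's constant), g1 side (helper186): residue formula for the circle functionals,
polar form of the representation of `g1`, valid off the sites, and its derivatives.
-/

set_option autoImplicit false

namespace Crest.Agent.R006.G1x186

open Complex Filter Topology MeasureTheory Set Metric
open Crest.Agent.R006.PsiJ

/-! ### the circle functional -/

lemma J1_cont_sphere (l : ℕ) : ContinuousOn J1 (sphere (ce l) (1 / 4)) := by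
  intro s hs
  rw [mem_sphere, dist_eq_norm] at hs
  apply ContinuousAt.continuousWithinAt
  apply DifferentiableAt.continuousAt (𝕜 := ℂ)
  apply J1_differentiableAt (by linarith [re_le_of_mem hs.le])
  intro l' h
  have := dist_ce_of_mem hs l'
  rw [h, sub_self, norm_zero] at this
  norm_num at this

lemma circInt_g (l : ℕ) {φ : ℂ → ℂ} (hφ : ContinuousOn φ (sphere (ce l) (1 / 4))) :
    CircleIntegrable (fun s => J1 s * φ s) (ce l) (1 / 4) :=
  ((J1_cont_sphere l).mul hφ).circleIntegrable (by norm_num)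

lemma Lg_add (l : ℕ) {φ ψ : ℂ → ℂ} (hφ : ContinuousOn φ (sphere (ce l) (1 / 4)))
    (hψ : ContinuousOn ψ (sphere (ce l) (1 / 4))) :
    Lg l (fun s => φ s + ψ s) = Lg l φ + Lg l ψ := by
  unfold Lg
  rw [← mul_add, ← circleIntegral.integral_add (circInt_g l hφ) (circInt_g l hψ)]
  congr 2
  funext s
  ring

lemma Lg_const_mul (l : ℕ) (c : ℂ) (φ : ℂ → ℂ) : Lg l (fun s => c * φ s) = c * Lg l φ := by
  unfold Lg
  have : (fun s => J1 s * (c * φ s)) = fun s => c * (J1 s * φ s) := by funext s; ring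
  rw [this, circleIntegral.integral_const_mul]
  ring

lemma Lg_congr (l : ℕ) {φ ψ : ℂ → ℂ} (h : ∀ s ∈ sphere (ce l) (1 / 4), φ s = ψ s) :
    Lg l φ = Lg l ψ := by
  unfold Lg
  congr 1
  apply circleIntegral.integral_congr (by norm_num)
  intro s hs
  simp only
  rw [h s hs]

/-- holomorphic multiples of `(s - ce l)^2` are killed. -/
lemma Lg_kill (l : ℕ) {φ : ℂ → ℂ} (hφ : DifferentiableOn ℂ φ (closedBall (ce l) (1 / 4))) :
    Lg l (fun s => (s - ce l) ^ 2 * φ s) = 0 := by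
  obtain ⟨h, hh, hf⟩ := J1_pole l (a := 1 / 4) (by norm_num) (by norm_num)
    (by have : (0 : ℝ) ≤ l := Nat.cast_nonneg l; linarith)
    (φ := fun _ => 1) (differentiableOn_const _)
  have hsub : closedBall (ce l) (1 / 4) ⊆ {s : ℂ | |s.re - (-1 / 2 - l)| ≤ 1 / 4} := by
    intro s hs
    rw [mem_closedBall, dist_eq_norm] at hs
    have h1 := Complex.abs_re_le_norm (s - ce l)
    rw [Complex.sub_re, ce_re] at h1
    show |s.re - (-1 / 2 - l)| ≤ 1 / 4
    have e : s.re - (-1 / 2 - (l : ℝ)) = s.re - (-(1 / 2) - l) := by ring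
    rw [e]
    exact h1.trans hs
  have e : (∮ s in C(ce l, 1 / 4), J1 s * ((s - ce l) ^ 2 * φ s)) =
      ∮ s in C(ce l, 1 / 4), h s * φ s := by
    apply circleIntegral.integral_congr (by norm_num)
    intro s hs
    have hs' : ‖s - ce l‖ = 1 / 4 := by rwa [mem_sphere, dist_eq_norm] at hs
    have hne : s ≠ ce l := by
      intro h0
      rw [h0, sub_self, norm_zero] at hs'
      norm_num at hs'
    have h1 := hf s (hsub (sphere_subset_closedBall hs)) hne
    simp only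
    rw [mul_one] at h1
    rw [h1]
    have h2 : s - ce l ≠ 0 := sub_ne_zero.mpr hne
    rw [zpow_neg, zpow_natCast]
    field_simp
  unfold Lg
  rw [e]
  have hd : DifferentiableOn ℂ (fun s => h s * φ s) (closedBall (ce l) (1 / 4)) :=
    (hh.mono hsub).mul hφ
  have := Complex.circleIntegral_eq_zero_of_differentiable_on_off_countable
    (f := fun s => h s * φ s) (c := ce l) (R := 1 / 4) (by norm_num) Set.countable_empty
    hd.continuousOn (fun z hz => hd.differentiableAt (closedBall_mem_nhds_of_mem hz.1))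
  rw [this, mul_zero]

/-- residue coefficients -/
noncomputable def aL (l : ℕ) : ℂ := Lg l (fun _ => 1)
noncomputable def bL (l : ℕ) : ℂ := Lg l (fun s => s - ce l)

/-- **Residue formula.** -/
theorem Lg_eq (l : ℕ) {φ : ℂ → ℂ} (hφ : DifferentiableOn ℂ φ (closedBall (ce l) (1 / 4))) :
    Lg l φ = φ (ce l) * aL l + deriv φ (ce l) * bL l := by
  have hn : closedBall (ce l) (1 / 4) ∈ 𝓝 (ce l) := closedBall_mem_nhds _ (by norm_num)
  have h1 : DifferentiableOn ℂ (dslope φ (ce l)) (closedBall (ce l) (1 / 4)) :=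
    (Complex.differentiableOn_dslope hn).2 hφ
  have h2 : DifferentiableOn ℂ (dslope (dslope φ (ce l)) (ce l)) (closedBall (ce l) (1 / 4)) :=
    (Complex.differentiableOn_dslope hn).2 h1
  have e : φ = fun s => (φ (ce l) * 1 + deriv φ (ce l) * (s - ce l)) +
      (s - ce l) ^ 2 * dslope (dslope φ (ce l)) (ce l) s := by
    funext s
    have e1 := sub_smul_dslope φ (ce l) s
    have e2 := sub_smul_dslope (dslope φ (ce l)) (ce l) s
    rw [dslope_same] at e2
    simp only [smul_eq_mul] at e1 e2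
    linear_combination -e1 - (s - ce l) * e2
  have hc : ∀ (f : ℂ → ℂ), DifferentiableOn ℂ f (closedBall (ce l) (1 / 4)) →
      ContinuousOn f (sphere (ce l) (1 / 4)) :=
    fun f hf => hf.continuousOn.mono sphere_subset_closedBall
  have c1 : ContinuousOn (fun s : ℂ => φ (ce l) * 1) (sphere (ce l) (1 / 4)) := continuousOn_const
  have c2 : ContinuousOn (fun s : ℂ => deriv φ (ce l) * (s - ce l)) (sphere (ce l) (1 / 4)) := by
    fun_prop
  have c3 : ContinuousOn (fun s : ℂ => (s - ce l) ^ 2 * dslope (dslope φ (ce l)) (ce l) s)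
      (sphere (ce l) (1 / 4)) := by
    apply ContinuousOn.mul (by fun_prop) (hc _ h2)
  calc Lg l φ = Lg l (fun s => (φ (ce l) * 1 + deriv φ (ce l) * (s - ce l)) +
      (s - ce l) ^ 2 * dslope (dslope φ (ce l)) (ce l) s) := by rw [← e]
    _ = φ (ce l) * aL l + deriv φ (ce l) * bL l := by
      have c12 : ContinuousOn (fun s : ℂ => φ (ce l) * 1 + deriv φ (ce l) * (s - ce l))
        (sphere (ce l) (1 / 4)) := c1.add c2
      rw [Lg_add l c12 c3, Lg_add l c1 c2, Lg_const_mul, Lg_const_mul, Lg_kill l h2, add_zero]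
      rfl

lemma norm_aL_le (l : ℕ) : ‖aL l‖ ≤ 36 / ((l : ℝ) + 1) := by
  have h := norm_Lg_le l (φ := fun _ => 1) (B := 1) (fun s _ => by simp)
  refine h.trans ?_
  have hl : (0 : ℝ) ≤ l := Nat.cast_nonneg l
  rw [mul_one, div_le_div_iff₀ (by positivity) (by positivity)]
  linarith

lemma norm_bL_le (l : ℕ) : ‖bL l‖ ≤ 9 / ((l : ℝ) + 1) := by
  have h := norm_Lg_le l (φ := fun s => s - ce l) (B := 1 / 4) (fun s hs => hs.le)
  refine h.trans ?_
  have hl : (0 : ℝ) ≤ l := Nat.cast_nonneg l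
  rw [div_mul_eq_mul_div, div_le_div_iff₀ (by positivity) (by positivity)]
  linarith

/-! ### the polar sums -/

/-- `j`-th jet (up to sign) of the polar part at the site `l` -/
noncomputable def gk (j l : ℕ) (z : ℂ) : ℂ :=
  aL l * ((z - ce l) ^ (j + 1))⁻¹ + ((j : ℂ) + 1) * bL l * ((z - ce l) ^ (j + 2))⁻¹

lemma dist_lower {z : ℂ} (hz : ∀ l, z ≠ ce l) :
    ∃ δ : ℝ, 0 < δ ∧ ∀ l : ℕ, δ * ((l : ℝ) + 1) ≤ ‖z - ce l‖ := by
  obtain ⟨δ, h0, h1, h2⟩ := exists_dist z hz
  have hM : 0 < 2 * ‖z‖ + 3 := by positivity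
  refine ⟨δ / (2 * ‖z‖ + 3), by positivity, fun l => ?_⟩
  have hl : (0 : ℝ) ≤ l := Nat.cast_nonneg l
  rcases le_or_gt ((l : ℝ) + 1) (2 * ‖z‖ + 3) with h | h
  · calc δ / (2 * ‖z‖ + 3) * ((l : ℝ) + 1) ≤ δ / (2 * ‖z‖ + 3) * (2 * ‖z‖ + 3) :=
          mul_le_mul_of_nonneg_left h (by positivity)
      _ = δ := by field_simp
      _ ≤ _ := (h2 l).le
  · have h3 : (l : ℝ) + 1 / 2 ≤ ‖ce l‖ := by
      have : |(ce l).re| ≤ ‖ce l‖ := Complex.abs_re_le_norm _
      rw [ce_re] at this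
      have h3 : |-(1 / 2) - (l : ℝ)| = 1 / 2 + l := by
        rw [abs_of_nonpos (by linarith)]; ring
      rw [h3] at this
      linarith
    have h4 : ‖ce l‖ - ‖z‖ ≤ ‖z - ce l‖ := by
      rw [norm_sub_rev]; exact norm_sub_norm_le _ _
    have h5 : δ / (2 * ‖z‖ + 3) ≤ 1 / 2 := by
      rw [div_le_iff₀ hM]
      nlinarith [norm_nonneg z]
    have h6 : δ / (2 * ‖z‖ + 3) * ((l : ℝ) + 1) ≤ 1 / 2 * ((l : ℝ) + 1) :=
      mul_le_mul_of_nonneg_right h5 (by linarith)
    linarith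

/-- the majorant -/
noncomputable def maj (j : ℕ) (δ : ℝ) (l : ℕ) : ℝ :=
  (36 * (δ ^ (j + 1))⁻¹ + ((j : ℝ) + 1) * 9 * (δ ^ (j + 2))⁻¹) * (1 / ((l : ℝ) + 1) ^ 2)

lemma summable_maj (j : ℕ) (δ : ℝ) : Summable (maj j δ) := by
  unfold maj
  apply Summable.mul_left
  have h := (summable_nat_add_iff 1).2 (Real.summable_one_div_nat_pow.2 (by norm_num : 1 < 2))
  refine h.congr (fun l => ?_)
  push_cast
  rfl

lemma norm_gk_le {δ : ℝ} (hδ : 0 < δ) (j l : ℕ) {w : ℂ} (h : δ * ((l : ℝ) + 1) ≤ ‖w - ce l‖) :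
    ‖gk j l w‖ ≤ maj j δ l := by
  have hl : (0 : ℝ) ≤ l := Nat.cast_nonneg l
  have hl1 : (0 : ℝ) < (l : ℝ) + 1 := by linarith
  have hpow : ∀ n : ℕ, ‖((w - ce l) ^ (n + 1))⁻¹‖ ≤ (δ ^ (n + 1))⁻¹ * (1 / ((l : ℝ) + 1)) := by
    intro n
    rw [norm_inv, norm_pow]
    have h1 : (δ * ((l : ℝ) + 1)) ^ (n + 1) ≤ ‖w - ce l‖ ^ (n + 1) :=
      pow_le_pow_left₀ (by positivity) h _
    refine (inv_anti₀ (by positivity) h1).trans ?_
    rw [mul_pow, mul_inv]
    apply mul_le_mul_of_nonneg_left _ (by positivity)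
    rw [one_div]
    apply inv_anti₀ hl1
    calc (l : ℝ) + 1 = ((l : ℝ) + 1) ^ 1 := (pow_one _).symm
      _ ≤ ((l : ℝ) + 1) ^ (n + 1) := pow_le_pow_right₀ (by linarith) (by omega)
  unfold gk maj
  refine (norm_add_le _ _).trans ?_
  rw [norm_mul, norm_mul, norm_mul]
  have e1 : ‖(j : ℂ) + 1‖ = (j : ℝ) + 1 := by
    have : (j : ℂ) + 1 = ((j + 1 : ℕ) : ℂ) := by push_cast; ring
    rw [this, Complex.norm_natCast]; push_cast; ring
  rw [e1]
  have a1 := norm_aL_le l
  have b1 := norm_bL_le l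
  have p1 := hpow j
  have p2 := hpow (j + 1)
  have t1 : ‖aL l‖ * ‖((w - ce l) ^ (j + 1))⁻¹‖ ≤
      36 / ((l : ℝ) + 1) * ((δ ^ (j + 1))⁻¹ * (1 / ((l : ℝ) + 1))) :=
    mul_le_mul a1 p1 (norm_nonneg _) (by positivity)
  have t2 : ((j : ℝ) + 1) * ‖bL l‖ * ‖((w - ce l) ^ (j + 2))⁻¹‖ ≤
      ((j : ℝ) + 1) * (9 / ((l : ℝ) + 1)) * ((δ ^ (j + 2))⁻¹ * (1 / ((l : ℝ) + 1))) :=
    mul_le_mul (mul_le_mul_of_nonneg_left b1 (by positivity)) p2 (norm_nonneg _) (by positivity)
  refine (add_le_add t1 t2).trans (le_of_eq ?_)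
  field_simp

lemma dist_ball {z : ℂ} {δ : ℝ} (hδ : 0 < δ) (h : ∀ l : ℕ, δ * ((l : ℝ) + 1) ≤ ‖z - ce l‖)
    {w : ℂ} (hw : w ∈ ball z (δ / 2)) (l : ℕ) : δ / 2 * ((l : ℝ) + 1) ≤ ‖w - ce l‖ := by
  rw [mem_ball, dist_eq_norm] at hw
  have h1 : ‖z - ce l‖ ≤ ‖w - ce l‖ + ‖w - z‖ := by
    have : z - ce l = (w - ce l) - (w - z) := by ring
    rw [this]; exact norm_sub_le _ _
  have hl : (0 : ℝ) ≤ l := Nat.cast_nonneg l
  have := h l
  nlinarith

lemma summable_gk (j : ℕ) {z : ℂ} (hz : ∀ l, z ≠ ce l) : Summable (fun l => gk j l z) := by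
  obtain ⟨δ, hδ, h⟩ := dist_lower hz
  exact Summable.of_norm_bounded (summable_maj j δ) (fun l => norm_gk_le hδ j l (h l))

lemma hasDerivAt_gk (j l : ℕ) {z : ℂ} (hz : z ≠ ce l) :
    HasDerivAt (gk j l) (-((j : ℂ) + 1) * gk (j + 1) l z) z := by
  have hne : z - ce l ≠ 0 := sub_ne_zero.mpr hz
  have hp : ∀ n : ℕ, HasDerivAt (fun w : ℂ => ((w - ce l) ^ (n + 1))⁻¹)
      (-((n : ℂ) + 1) * ((z - ce l) ^ (n + 2))⁻¹) z := by
    intro n
    have h1 : HasDerivAt (fun w : ℂ => (w - ce l) ^ (n + 1)) (((n + 1 : ℕ) : ℂ) * (z - ce l) ^ n * 1) z :=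
      ((hasDerivAt_id z).sub_const (ce l)).pow (n + 1)
    have h2 := h1.inv (pow_ne_zero _ hne)
    refine h2.congr_deriv ?_
    push_cast
    have h3 : (z - ce l) ^ (n + 1) ≠ 0 := pow_ne_zero _ hne
    have h4 : (z - ce l) ^ (n + 2) ≠ 0 := pow_ne_zero _ hne
    rw [div_eq_iff (pow_ne_zero 2 h3)]
    have h5 : ((z - ce l) ^ (n + 1)) ^ 2 = (z - ce l) ^ (n + 2) * (z - ce l) ^ n := by
      rw [← pow_mul, ← pow_add]; congr 1; ring
    rw [h5]
    have h6 := inv_mul_cancel₀ h4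
    linear_combination ((n : ℂ) + 1) * (z - ce l) ^ n * h6
  have h := ((hp j).const_mul (aL l)).add ((hp (j + 1)).const_mul (((j : ℂ) + 1) * bL l))
  refine h.congr_deriv ?_
  unfold gk
  push_cast
  ring

/-- the sum of the jets -/
noncomputable def Sg (j : ℕ) (z : ℂ) : ℂ := ∑' l, gk j l z

theorem hasDerivAt_Sg (j : ℕ) {z : ℂ} (hz : ∀ l, z ≠ ce l) :
    HasDerivAt (Sg j) (-((j : ℂ) + 1) * Sg (j + 1) z) z := by
  obtain ⟨δ, hδ, h⟩ := dist_lower hz
  have hδ2 : 0 < δ / 2 := by positivity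
  have hball : ∀ w ∈ ball z (δ / 2), ∀ l : ℕ, w ≠ ce l := by
    intro w hw l hl
    have := dist_ball hδ h hw l
    rw [hl, sub_self, norm_zero] at this
    have hl' : (0 : ℝ) ≤ l := Nat.cast_nonneg l
    have : 0 < δ / 2 * ((l : ℝ) + 1) := by positivity
    linarith
  have key := hasDerivAt_tsum_of_isPreconnected (𝕜 := ℂ) (F := ℂ)
    (u := fun l => ((j : ℝ) + 1) * maj (j + 1) (δ / 2) l)
    (g := fun l w => gk j l w) (g' := fun l w => -((j : ℂ) + 1) * gk (j + 1) l w)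
    (t := ball z (δ / 2)) ((summable_maj (j + 1) (δ / 2)).mul_left _) isOpen_ball
    (convex_ball z (δ / 2)).isPreconnected
    (fun l w hw => hasDerivAt_gk j l (hball w hw l))
    (fun l w hw => by
      rw [norm_mul]
      have e1 : ‖-((j : ℂ) + 1)‖ = (j : ℝ) + 1 := by
        have : (j : ℂ) + 1 = ((j + 1 : ℕ) : ℂ) := by push_cast; ring
        rw [norm_neg, this, Complex.norm_natCast]; push_cast; ring
      rw [e1]
      exact mul_le_mul_of_nonneg_left (norm_gk_le hδ2 (j + 1) l (dist_ball hδ h hw l)) (by positivity))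
    (mem_ball_self hδ2) (summable_gk j hz) (mem_ball_self hδ2)
  have e2 : (∑' l, -((j : ℂ) + 1) * gk (j + 1) l z) = -((j : ℂ) + 1) * Sg (j + 1) z := by
    unfold Sg
    rw [tsum_mul_left]
  rw [e2] at key
  exact key

/-- off the sites -/
def OffU : Set ℂ := {z | ∀ l, z ≠ ce l}

lemma isOpen_OffU : IsOpen OffU := by
  rw [Metric.isOpen_iff]
  intro z hz
  obtain ⟨δ, hδ, h⟩ := dist_lower hz
  refine ⟨δ / 2, by positivity, fun w hw l hl => ?_⟩
  have := dist_ball hδ h hw l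
  rw [hl, sub_self, norm_zero] at this
  have hl' : (0 : ℝ) ≤ l := Nat.cast_nonneg l
  have : 0 < δ / 2 * ((l : ℝ) + 1) := by positivity
  linarith

lemma isPreconnected_OffU : IsPreconnected OffU := by
  have e : OffU = (Set.range ce)ᶜ := by
    ext z
    simp only [OffU, Set.mem_ofPred_eq, Set.mem_compl_iff, Set.mem_range, not_exists]
    constructor
    · intro h l hl; exact h l hl.symm
    · intro h l hl; exact h l hl.symm
  rw [e]
  have hr : 1 < Module.rank ℝ ℂ := by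
    rw [Complex.rank_real_complex]
    exact_mod_cast (by norm_num : (1 : ℕ) < 2)
  exact ((Set.countable_range ce).isPathConnected_compl_of_one_lt_rank hr).isConnected.isPreconnected

lemma Lg_kernel (l : ℕ) {z : ℂ} (hz : 1 / 4 < ‖z - ce l‖) :
    Lg l (fun s => 1 / (z - s)) = gk 0 l z := by
  have hne : z - ce l ≠ 0 := by
    intro h; rw [h, norm_zero] at hz; norm_num at hz
  have hd : DifferentiableOn ℂ (fun s => 1 / (z - s)) (closedBall (ce l) (1 / 4)) := by
    intro s hs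
    apply DifferentiableAt.differentiableWithinAt
    apply (differentiableAt_const _).div (by fun_prop)
    intro h0
    rw [mem_closedBall, dist_eq_norm] at hs
    rw [sub_eq_zero] at h0
    rw [h0] at hz
    linarith
  rw [Lg_eq l hd]
  have h1 : HasDerivAt (fun s : ℂ => 1 / (z - s)) ((0 * (z - ce l) - 1 * (-1)) / (z - ce l) ^ 2) (ce l) := by
    apply (hasDerivAt_const (ce l) (1 : ℂ)).div _ hne
    simpa using (hasDerivAt_id (ce l)).const_sub z
  rw [h1.deriv]
  unfold gk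
  push_cast
  field_simp
  ring

/-- the circle representation for `Re z > -1/4` in polar form -/
lemma Sg_zero_right {z : ℂ} (hz : 0 ≤ z.re) : Sg 0 z = g1 z := by
  have hz' : -1 / 4 < z.re := by linarith
  have hoff : ∀ l, z ≠ ce l := by
    intro l h
    rw [h, ce_re] at hz
    have hl : (0 : ℝ) ≤ l := Nat.cast_nonneg l
    linarith
  have h1 := g1_tendsto hz'
  have h2 := (summable_gk 0 hoff).hasSum.tendsto_sum_nat
  refine tendsto_nhds_unique h2 (h1.congr fun n => ?_)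
  apply Finset.sum_congr rfl
  intro l _
  apply Lg_kernel
  have h := Complex.abs_re_le_norm (z - ce l)
  rw [Complex.sub_re, ce_re] at h
  have hl : (0 : ℝ) ≤ l := Nat.cast_nonneg l
  have := le_abs_self (z.re - (-(1 / 2) - (l : ℝ)))
  linarith

/-- **`g1` is the sum of its polar parts, everywhere off the sites.** -/
theorem Sg_zero {z : ℂ} (hz : ∀ l, z ≠ ce l) : Sg 0 z = g1 z := by
  have hA : AnalyticOnNhd ℂ (Sg 0) OffU :=
    DifferentiableOn.analyticOnNhd
      (fun w hw => (hasDerivAt_Sg 0 hw).differentiableAt.differentiableWithinAt) isOpen_OffU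
  have hB : AnalyticOnNhd ℂ g1 OffU :=
    DifferentiableOn.analyticOnNhd
      (fun w hw => (differentiableAt_g1 (fun l => by rw [← ce_eq]; exact hw l)).differentiableWithinAt)
      isOpen_OffU
  have h1 : (1 : ℂ) ∈ OffU := by
    intro l h
    have := congrArg Complex.re h
    rw [ce_re, Complex.one_re] at this
    have hl : (0 : ℝ) ≤ l := Nat.cast_nonneg l
    linarith
  have hev : Sg 0 =ᶠ[𝓝 (1 : ℂ)] g1 := by
    have : ∀ᶠ w in 𝓝 (1 : ℂ), 0 < w.re :=
      (isOpen_lt continuous_const Complex.continuous_re).mem_nhds (by simp)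
    filter_upwards [this] with w hw
    exact Sg_zero_right hw.le
  exact hA.eqOn_of_preconnected_of_eventuallyEq hB isPreconnected_OffU h1 hev hz

theorem hasSum_polar {z : ℂ} (hz : ∀ l, z ≠ ce l) : HasSum (fun l => gk 0 l z) (g1 z) := by
  rw [← Sg_zero hz]
  exact (summable_gk 0 hz).hasSum

theorem hasSum_circle_g {z : ℂ} (hz : ∀ l, 1 / 4 < ‖z - ce l‖) :
    HasSum (fun l => Lg l (fun s => 1 / (z - s))) (g1 z) := by
  have hoff : ∀ l, z ≠ ce l := by
    intro l h
    have := hz l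
    rw [h, sub_self, norm_zero] at this
    norm_num at this
  have h := hasSum_polar hoff
  have e : (fun l => Lg l (fun s => 1 / (z - s))) = fun l => gk 0 l z :=
    funext fun l => Lg_kernel l (hz l)
  rw [e]
  exact h

end Crest.Agent.R006.G1x186
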