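import Crest.Agent.R006.EntR1_724
import Crest.Agent.R006.Lam_89

/-!
Row 6 (helper724): the residue functional `Lam.lam` on an `R`-column.

`lamR`: nodes `z i` with multiplicities `m i`; `W` = set of simple nodes at sites `-1/2-l` where
`R = (∏_{i ∈ W} (X - z i)) R'` vanishes. If the entries of the column are
`mu (R(s)(s-z_i)^(-1-j)) - coeff j (gm R * κ_i)` then
`lam p F = mu (R' p / NS') - ∑_i Res_{z_i} (κ_i R p / NS)`, `NS' = ∏_{i ∉ W} (X - z i)^(m i)`.
-/

set_option autoImplicit false

namespace Crest.Agent.R006.Base724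

open Polynomial Filter Topology
open Crest.Agent.R006.NV Crest.Agent.R006.Germ724

lemma germ_eq_gm (x : ℂ) (p : ℂ[X]) : Lam.germ x p = gm x p := rfl

section mu_sum

variable {α : Type*}

lemma Good.sum (s : Finset α) {f : α → ℂ → ℂ} (h : ∀ a ∈ s, Good (f a)) :
    Good (fun x => ∑ a ∈ s, f a x) := by
  induction s using Finset.cons_induction with
  | empty => simpa using Good.const 0
  | cons a s ha ih =>
    have h1 := (h a (Finset.mem_cons_self a s)).add
      (ih fun b hb => h b (Finset.mem_cons_of_mem hb))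
    simpa [Finset.sum_cons] using h1

lemma mu_zero_fun (K0 : PowerSeries ℂ) : mu K0 (fun _ => 0) = 0 := by
  have := mu_smul (Good.const 0) 0 K0
  simpa using this

lemma mu_sum (K0 : PowerSeries ℂ) (s : Finset α) {f : α → ℂ → ℂ} (h : ∀ a ∈ s, Good (f a)) :
    mu K0 (fun x => ∑ a ∈ s, f a x) = ∑ a ∈ s, mu K0 (f a) := by
  induction s using Finset.cons_induction with
  | empty => simpa using mu_zero_fun K0
  | cons a s ha ih =>
    have h1 := mu_add (h a (Finset.mem_cons_self a s))
      (Good.sum s fun b hb => h b (Finset.mem_cons_of_mem hb)) K0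
    rw [Finset.sum_cons, ← ih fun b hb => h b (Finset.mem_cons_of_mem hb), ← h1]
    simp [Finset.sum_cons]

end mu_sum

lemma Good.prod {α : Type*} (s : Finset α) {f : α → ℂ → ℂ} (h : ∀ a ∈ s, Good (f a)) :
    Good (fun x => ∏ a ∈ s, f a x) := by
  induction s using Finset.cons_induction with
  | empty => simpa using Good.const 1
  | cons a s ha ih =>
    have h1 := (h a (Finset.mem_cons_self a s)).mul
      (ih fun b hb => h b (Finset.mem_cons_of_mem hb))
    simpa [Finset.prod_cons] using h1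

/-- eventual equality at a site from equality off a finite set -/
lemma eventuallyEq_of_off_finite {f g : ℂ → ℂ} {x : ℂ} (hf : AnalyticAt ℂ f x)
    (hg : AnalyticAt ℂ g x) {S : Set ℂ} (hS : S.Finite) (h : ∀ s, s ∉ S → f s = g s) :
    f =ᶠ[𝓝 x] g := by
  have h1 : ∀ᶠ s in 𝓝[≠] x, f s = g s := by
    have h2 : ∀ᶠ s in 𝓝[≠] x, s ∉ S \ {x} := by
      apply eventually_nhdsWithin_of_eventually_nhds
      exact (hS.subset Set.sdiff_subset).isClosed.isOpen_compl.mem_nhds (by simp)
    filter_upwards [h2, self_mem_nhdsWithin] with s hs hx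
    exact h s fun hh => hs ⟨hh, hx⟩
  exact (hf.frequently_eq_iff_eventually_eq hg).mp h1.frequently

section

variable {ι : Type*} [Fintype ι] [DecidableEq ι] (z : ι → ℂ) (m : ι → ℕ)

/-- partial fractions of `p / NS` -/
lemma partial_fractions (hz : Function.Injective z) {p : ℂ[X]}
    (hp : p.degree < (∑ l, m l : ℕ)) {s : ℂ} (hs : ∀ i, s ≠ z i) :
    ∑ i, ∑ j : Fin (m i), Lam.u z m p ⟨i, j⟩ * (s - z i) ^ (-1 - (j : ℤ)) =
      p.eval s / (Lam.NS z m).eval s := by
  have hne : ∀ i, s - z i ≠ 0 := fun i => sub_ne_zero.mpr (hs i)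
  have hNS : (Lam.NS z m).eval s ≠ 0 := by
    rw [Lam.NS, eval_prod, Finset.prod_ne_zero_iff]
    intro i _
    rw [eval_pow, eval_sub, eval_X, eval_C]
    exact pow_ne_zero _ (hne i)
  rw [eq_div_iff hNS]
  conv_rhs => rw [Lam.eq_sum_Phi m hz hp]
  rw [eval_finsetSum, Fintype.sum_sigma, Finset.sum_mul]
  refine Finset.sum_congr rfl fun i _ => ?_
  rw [Finset.sum_mul, ← Equiv.sum_comp Fin.revPerm]
  refine Finset.sum_congr rfl fun j _ => ?_
  rw [Lam.u, Lam.Phi, Lam.bb, Fin.revPerm_apply, Fin.val_rev]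
  have hj := j.2
  have e1 : m i - 1 - (m i - (↑j + 1)) = j := by omega
  simp only [e1]
  rw [eval_mul, eval_C, eval_mul, eval_pow, eval_sub, eval_X, eval_C, Lam.NS_eq z m i, eval_mul,
    eval_pow, eval_sub, eval_X, eval_C]
  have e2 : (s - z i) ^ (-1 - ((m i - (↑j + 1) : ℕ) : ℤ)) * (s - z i) ^ (m i) = (s - z i) ^ (j : ℕ) := by
    rw [← zpow_natCast (s - z i) (m i), ← zpow_add₀ (hne i), ← zpow_natCast]
    congr 1
    omega
  linear_combination (PowerSeries.coeff (j : ℕ) (Lam.wt z m p i) * eval s (Lam.Nhat z m i)) * e2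

/-- node polynomial without the nodes in `W` -/
noncomputable def NSoff (W : Finset ι) : ℂ[X] := ∏ i ∈ Finset.univ \ W, (X - C (z i)) ^ (m i)

/-- THE RESIDUE FUNCTIONAL ON AN `R`-COLUMN. -/
theorem lamR (hz : Function.Injective z) (K0 : PowerSeries ℂ) (W : Finset ι)
    (hW : ∀ i ∈ W, m i = 1) (hoff : ∀ i, i ∉ W → Off (z i))
    (R R' p : ℂ[X]) (hR : R = (∏ i ∈ W, (X - C (z i))) * R')
    (hp : p.degree < (∑ l, m l : ℕ)) (κ : ι → PowerSeries ℂ) (F : ι → PowerSeries ℂ)
    (h1 : ∀ i, i ∉ W → ∀ j < m i, PowerSeries.coeff j (F i) =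
      mu K0 (fun s => R.eval s * (s - z i) ^ (-1 - (j : ℤ))) -
        PowerSeries.coeff j (gm (z i) R * κ i))
    (h2 : ∀ i ∈ W, PowerSeries.coeff 0 (F i) = mu K0 (fun s => (R /ₘ (X - C (z i))).eval s)) :
    Lam.lam z m p F = mu K0 (fun s => R'.eval s * p.eval s / (NSoff z m W).eval s) -
      ∑ i ∈ Finset.univ \ W, if m i = 0 then 0 else
        PowerSeries.coeff (m i - 1) (gm (z i) R * κ i * Lam.wt z m p i) := by
  classical
  set G : Lam.Row m → ℂ → ℂ := fun r s =>
    if r.1 ∈ W then (R /ₘ (X - C (z r.1))).eval s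
    else R.eval s * (s - z r.1) ^ (-1 - ((r.2 : ℕ) : ℤ)) with hG
  set c : Lam.Row m → ℂ := fun r =>
    if r.1 ∈ W then 0 else PowerSeries.coeff (r.2 : ℕ) (gm (z r.1) R * κ r.1) with hc
  have hGood : ∀ r, Good (G r) := by
    intro r
    by_cases hr : r.1 ∈ W
    · have : G r = fun s => (R /ₘ (X - C (z r.1))).eval s := by
        ext s; simp [hG, hr]
      rw [this]; exact Good.eval _
    · have : G r = fun s => R.eval s * (s - z r.1) ^ (-1 - ((r.2 : ℕ) : ℤ)) := by
        ext s; simp [hG, hr]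
      rw [this]; exact (Good.eval R).mul (Good.zpow (hoff _ hr) _)
  have hF : ∀ r : Lam.Row m, PowerSeries.coeff (r.2 : ℕ) (F r.1) = mu K0 (G r) - c r := by
    intro r
    by_cases hr : r.1 ∈ W
    · have e : G r = fun s => (R /ₘ (X - C (z r.1))).eval s := by
        ext s; simp [hG, hr]
      have e0 : (r.2 : ℕ) = 0 := by
        have := r.2.2
        have := hW _ hr
        omega
      rw [e, e0, h2 _ hr]
      simp [hc, hr]
    · have e : G r = fun s => R.eval s * (s - z r.1) ^ (-1 - ((r.2 : ℕ) : ℤ)) := by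
        ext s; simp [hG, hr]
      rw [e, h1 _ hr _ r.2.2]
      simp [hc, hr]
  have hlam : Lam.lam z m p F = ∑ r, (Lam.u z m p r * mu K0 (G r)) - ∑ r, Lam.u z m p r * c r := by
    rw [Lam.lam, ← Finset.sum_sub_distrib]
    refine Finset.sum_congr rfl fun r _ => ?_
    rw [hF r]
    simp only [Algebra.algebraMap_self, RingHom.id_apply]
    ring
  have hmu : ∑ r, (Lam.u z m p r * mu K0 (G r)) =
      mu K0 (fun s => R'.eval s * p.eval s / (NSoff z m W).eval s) := by
    have e1 : ∑ r, (Lam.u z m p r * mu K0 (G r)) =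
        mu K0 (fun s => ∑ r, Lam.u z m p r * G r s) := by
      rw [mu_sum K0 Finset.univ (f := fun r s => Lam.u z m p r * G r s)
        (fun r _ => (hGood r).smul _)]
      refine Finset.sum_congr rfl fun r _ => ?_
      rw [mu_smul (hGood r)]
    rw [e1]
    have hgood2 : Good (fun s => R'.eval s * p.eval s / (NSoff z m W).eval s) := by
      have e : (fun s => R'.eval s * p.eval s / (NSoff z m W).eval s) = fun s =>
          (R' * p).eval s * ∏ i ∈ Finset.univ \ W, (s - z i) ^ (-(m i : ℤ)) := by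
        ext s
        rw [eval_mul, NSoff, eval_prod, div_eq_mul_inv, ← Finset.prod_inv_distrib]
        congr 1
        refine Finset.prod_congr rfl fun i _ => ?_
        rw [eval_pow, eval_sub, eval_X, eval_C, zpow_neg, zpow_natCast]
      rw [e]
      refine (Good.eval _).mul (Good.prod _ fun i hi => ?_)
      exact Good.zpow (hoff i (Finset.mem_sdiff.mp hi).2) _
    apply mu_congr
    intro l
    refine eventuallyEq_of_off_finite ((Good.sum _ fun r _ => (hGood r).smul _).1 l)
      (hgood2.1 l) (Set.finite_range z) fun s hs => ?_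
    have hs' : ∀ i, s ≠ z i := fun i h => hs ⟨i, h.symm⟩
    have hne : ∀ i, s - z i ≠ 0 := fun i => sub_ne_zero.mpr (hs' i)
    have e2 : ∀ r, G r s = R.eval s * (s - z r.1) ^ (-1 - ((r.2 : ℕ) : ℤ)) := by
      intro r
      by_cases hr : r.1 ∈ W
      · have e0 : (r.2 : ℕ) = 0 := by
          have := r.2.2
          have := hW _ hr
          omega
        have hroot : R.IsRoot (z r.1) := by
          rw [IsRoot, hR, eval_mul, eval_prod, Finset.prod_eq_zero hr, zero_mul]
          simp
        have h3 := (mul_divByMonic_eq_iff_isRoot (a := z r.1) (p := R)).mpr hroot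
        have h4 := congrArg (eval s) h3
        rw [eval_mul, eval_sub, eval_X, eval_C] at h4
        have h5 : G r s = (R /ₘ (X - C (z r.1))).eval s := by simp [hG, hr]
        rw [h5, e0, ← h4]
        have h6 : (s - z r.1) ^ (-1 - ((0 : ℕ) : ℤ)) = (s - z r.1)⁻¹ := by simp
        rw [h6]
        field_simp [hne r.1]
      · simp [hG, hr]
    have e3 : ∑ r, Lam.u z m p r * G r s = R.eval s *
        ∑ i, ∑ j : Fin (m i), Lam.u z m p ⟨i, j⟩ * (s - z i) ^ (-1 - (j : ℤ)) := by
      rw [Fintype.sum_sigma, Finset.mul_sum]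
      refine Finset.sum_congr rfl fun i _ => ?_
      rw [Finset.mul_sum]
      refine Finset.sum_congr rfl fun j _ => ?_
      rw [e2]; ring
    rw [e3, partial_fractions z m hz hp hs']
    have e4 : (Lam.NS z m).eval s = (∏ i ∈ W, (s - z i)) * (NSoff z m W).eval s := by
      rw [Lam.NS, NSoff, eval_prod, eval_prod, ← Finset.prod_sdiff (Finset.subset_univ W), mul_comm]
      congr 1
      refine Finset.prod_congr rfl fun i hi => ?_
      rw [hW i hi, pow_one, eval_sub, eval_X, eval_C]
    have e5 : R.eval s = (∏ i ∈ W, (s - z i)) * R'.eval s := by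
      rw [hR, eval_mul, eval_prod]
      simp
    have e6 : ∏ i ∈ W, (s - z i) ≠ 0 := Finset.prod_ne_zero_iff.mpr fun i _ => hne i
    have e7 : (NSoff z m W).eval s ≠ 0 := by
      rw [NSoff, eval_prod, Finset.prod_ne_zero_iff]
      intro i _
      rw [eval_pow, eval_sub, eval_X, eval_C]
      exact pow_ne_zero _ (hne i)
    rw [e4, e5]
    field_simp
  have hcs : ∑ r, Lam.u z m p r * c r = ∑ i ∈ Finset.univ \ W, if m i = 0 then 0 else
        PowerSeries.coeff (m i - 1) (gm (z i) R * κ i * Lam.wt z m p i) := by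
    rw [Fintype.sum_sigma, ← Finset.sum_sdiff (Finset.subset_univ W)]
    have e1 : ∑ x ∈ W, ∑ y : Fin (m x), Lam.u z m p ⟨x, y⟩ * c ⟨x, y⟩ = 0 := by
      refine Finset.sum_eq_zero fun i hi => Finset.sum_eq_zero fun j _ => ?_
      simp [hc, hi]
    rw [e1, add_zero]
    refine Finset.sum_congr rfl fun i hi => ?_
    have hi' : i ∉ W := (Finset.mem_sdiff.mp hi).2
    split_ifs with h0
    · apply Finset.sum_eq_zero
      intro j _
      exact absurd j.2 (by omega)
    · rw [← Lam.sum_u_mul m i h0 p (gm (z i) R * κ i)]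
      refine Finset.sum_congr rfl fun j _ => ?_
      simp [hc, hi']
  rw [hlam, hmu, hcs]

end

end Crest.Agent.R006.Base724
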