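import Crest.Agent.R006.G1Germ_186
import Crest.Agent.R006.LamR_724

/-!
Row 6 (Catalan's constant), g1 side (helper186): the circle sums of `1/(s - ce l)`
(a node on a site), residues at a node as circle integrals.
-/

set_option autoImplicit false

namespace Crest.Agent.R006.G1x186

open Complex Filter Topology Set Metric
open Crest.Agent.R006.PsiJ Crest.Agent.R006.Germ724 Crest.Agent.R006.NV

/-! ### `J1` near a site -/

lemma closedBall_sub_strip (l : ℕ) :
    closedBall (ce l) (1 / 4) ⊆ {s : ℂ | |s.re - (-1 / 2 - l)| ≤ 1 / 4} := by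
  intro s hs
  rw [mem_closedBall, dist_eq_norm] at hs
  have h1 := Complex.abs_re_le_norm (s - ce l)
  rw [Complex.sub_re, ce_re] at h1
  show |s.re - (-1 / 2 - l)| ≤ 1 / 4
  have e : s.re - (-1 / 2 - (l : ℝ)) = s.re - (-(1 / 2) - l) := by ring
  rw [e]
  exact h1.trans hs

/-- the regular numerator of `J1` at the site `l` -/
lemma exists_num (l : ℕ) : ∃ h : ℂ → ℂ, DifferentiableOn ℂ h (closedBall (ce l) (1 / 4)) ∧
    ∀ s ∈ closedBall (ce l) (1 / 4), s ≠ ce l → J1 s = h s / (s - ce l) ^ 2 := by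
  obtain ⟨h, hh, hf⟩ := J1_pole l (a := 1 / 4) (by norm_num) (by norm_num)
    (by have : (0 : ℝ) ≤ l := Nat.cast_nonneg l; linarith)
    (φ := fun _ => 1) (differentiableOn_const _)
  refine ⟨h, hh.mono (closedBall_sub_strip l), fun s hs hne => ?_⟩
  have h1 := hf s (closedBall_sub_strip l hs) hne
  rw [mul_one] at h1
  rw [h1, zpow_neg, zpow_natCast, div_eq_mul_inv]

/-- circle integrals with the numerator -/
lemma Lg_num (l : ℕ) {h : ℂ → ℂ} (hh : DifferentiableOn ℂ h (closedBall (ce l) (1 / 4)))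
    (hJ : ∀ s ∈ closedBall (ce l) (1 / 4), s ≠ ce l → J1 s = h s / (s - ce l) ^ 2) {φ : ℂ → ℂ}
    (n : ℕ) (hφ : ∀ s, s ≠ ce l → φ s / (s - ce l) ^ 2 = ((s - ce l) ^ (n + 1))⁻¹) :
    Lg l φ = PowerSeries.coeff n (T h (ce l)) := by
  have e : (∮ s in C(ce l, 1 / 4), J1 s * φ s) = ∮ s in C(ce l, 1 / 4), h s / (s - ce l) ^ (n + 1) := by
    apply circleIntegral.integral_congr (by norm_num)
    intro s hs
    have hne : s ≠ ce l := by
      intro h0
      rw [h0, mem_sphere, dist_self] at hs
      norm_num at hs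
    simp only
    rw [hJ s (sphere_subset_closedBall hs) hne, div_mul_eq_mul_div, mul_div_assoc, hφ s hne,
      div_eq_mul_inv]
  unfold Lg
  rw [e, circle_eq (by norm_num) hh]
  have hpi : (2 * Real.pi * I : ℂ) ≠ 0 := Complex.two_pi_I_ne_zero
  rw [← mul_assoc, inv_mul_cancel₀ hpi, one_mul]

lemma sub_cube_ne {s c : ℂ} (h : s ≠ c) : s - c ≠ 0 := sub_ne_zero.mpr h

/-- finite part of `J1` at the site -/
noncomputable def fp (l : ℕ) : ℂ := Lg l (fun s => (s - ce l)⁻¹)

lemma J1_fp (l : ℕ) : Tendsto (fun z => J1 z - gk 0 l z) (𝓝[≠] (ce l)) (𝓝 (fp l)) := by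
  obtain ⟨h, hh, hJ⟩ := exists_num l
  have hn : closedBall (ce l) (1 / 4) ∈ 𝓝 (ce l) := closedBall_mem_nhds _ (by norm_num)
  have hh1 : DifferentiableOn ℂ (dslope h (ce l)) (closedBall (ce l) (1 / 4)) :=
    (Complex.differentiableOn_dslope hn).2 hh
  have hh2 : DifferentiableOn ℂ (dslope (dslope h (ce l)) (ce l)) (closedBall (ce l) (1 / 4)) :=
    (Complex.differentiableOn_dslope hn).2 hh1
  set h1 := dslope h (ce l) with hh1def
  set h2 := dslope h1 (ce l) with hh2def
  have an1 : AnalyticAt ℂ h1 (ce l) := hh1.analyticAt hn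
  have an2 : AnalyticAt ℂ h2 (ce l) := hh2.analyticAt hn
  have hid : AnalyticAt ℂ (fun s : ℂ => s - ce l) (ce l) := analyticAt_id.sub analyticAt_const
  have e1 : h = fun s => h (ce l) + (s - ce l) * h1 s := by
    funext s
    have := sub_smul_dslope h (ce l) s
    simp only [smul_eq_mul] at this
    linear_combination -this
  have e2 : h1 = fun s => h1 (ce l) + (s - ce l) * h2 s := by
    funext s
    have := sub_smul_dslope h1 (ce l) s
    simp only [smul_eq_mul] at this
    linear_combination -this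
  have tX : T (fun s : ℂ => s - ce l) (ce l) = PowerSeries.X := by
    have h3 := Base724.T_sub_const (ce l) (ce l)
    rw [h3, sub_self, pt, map_zero, add_zero]
  have t1 : T h (ce l) = PowerSeries.C (h (ce l)) + PowerSeries.X * T h1 (ce l) := by
    conv_lhs => rw [e1]
    rw [T_add analyticAt_const (hid.fun_mul an1), T_const, T_mul hid an1, tX]
  have t2 : T h1 (ce l) = PowerSeries.C (h1 (ce l)) + PowerSeries.X * T h2 (ce l) := by
    conv_lhs => rw [e2]
    rw [T_add analyticAt_const (hid.fun_mul an2), T_const, T_mul hid an2, tX]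
  have hb : bL l = h (ce l) := by
    unfold bL
    rw [Lg_num l hh hJ 0 (fun s hs => by
      have := sub_cube_ne hs
      rw [zero_add, pow_one]
      field_simp)]
    rw [PowerSeries.coeff_zero_eq_constantCoeff_apply, constantCoeff_T]
  have ha : aL l = h1 (ce l) := by
    unfold aL
    rw [Lg_num l hh hJ 1 (fun s hs => by
      have := sub_cube_ne hs
      field_simp)]
    rw [t1, map_add, PowerSeries.coeff_succ_X_mul, PowerSeries.coeff_C, if_neg (by norm_num), zero_add,
      PowerSeries.coeff_zero_eq_constantCoeff_apply, constantCoeff_T]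
  have hf : fp l = h2 (ce l) := by
    unfold fp
    rw [Lg_num l hh hJ 2 (fun s hs => by
      have := sub_cube_ne hs
      field_simp)]
    rw [t1, map_add, PowerSeries.coeff_succ_X_mul, PowerSeries.coeff_C, if_neg (by norm_num), zero_add,
      t2, map_add, PowerSeries.coeff_succ_X_mul, PowerSeries.coeff_C, if_neg (by norm_num), zero_add,
      PowerSeries.coeff_zero_eq_constantCoeff_apply, constantCoeff_T]
  rw [hf]
  have hlim : Tendsto h2 (𝓝[≠] (ce l)) (𝓝 (h2 (ce l))) :=
    an2.continuousAt.tendsto.mono_left nhdsWithin_le_nhds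
  refine hlim.congr' ?_
  have hev : ∀ᶠ z in 𝓝[≠] (ce l), z ∈ closedBall (ce l) (1 / 4) :=
    eventually_nhdsWithin_of_eventually_nhds hn
  filter_upwards [hev, self_mem_nhdsWithin] with z hz hne
  have hne' : z ≠ ce l := hne
  have h3 : z - ce l ≠ 0 := sub_cube_ne hne'
  rw [hJ z hz hne']
  unfold gk
  rw [ha, hb]
  have e3 : h z = h (ce l) + (z - ce l) * (h1 (ce l) + (z - ce l) * h2 z) := by
    have a1 : h z = h (ce l) + (z - ce l) * h1 z := congrFun e1 z
    have a2 : h1 z = h1 (ce l) + (z - ce l) * h2 z := congrFun e2 z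
    rw [a1]
    linear_combination (z - ce l) * a2
  rw [e3]
  push_cast
  field_simp
  ring

/-! ### the sum with the node on a site -/

/-- the other polar parts -/
noncomputable def gko (l l' : ℕ) (z : ℂ) : ℂ := if l' = l then 0 else gk 0 l' z

lemma dist_other {l l' : ℕ} (h : l' ≠ l) {z : ℂ} (hz : z ∈ ball (ce l) (1 / 4)) :
    1 / (2 * ((l : ℝ) + 2)) * ((l' : ℝ) + 1) ≤ ‖z - ce l'‖ := by
  rw [mem_ball, dist_eq_norm] at hz
  have h1 : ce l - ce l' = (((l' : ℤ) - l : ℤ) : ℂ) := by
    unfold ce; push_cast; ring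
  have h2 : ‖ce l - ce l'‖ = |(l' : ℝ) - l| := by
    rw [h1, Complex.norm_intCast]
    push_cast
    rfl
  have h3 : ‖ce l - ce l'‖ ≤ ‖z - ce l'‖ + ‖z - ce l‖ := by
    have : ce l - ce l' = (z - ce l') - (z - ce l) := by ring
    rw [this]; exact norm_sub_le _ _
  have h4 : (1 : ℝ) ≤ |(l' : ℝ) - l| := by
    have : (1 : ℤ) ≤ |(l' : ℤ) - l| := Int.one_le_abs (by omega)
    exact_mod_cast this
  have hl : (0 : ℝ) ≤ l := Nat.cast_nonneg l
  have h5 : (l' : ℝ) + 1 ≤ ((l : ℝ) + 2) * |(l' : ℝ) - l| := by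
    have := le_abs_self ((l' : ℝ) - l)
    nlinarith
  rw [h2] at h3
  have h6 : 1 / (2 * ((l : ℝ) + 2)) * ((l' : ℝ) + 1) ≤ 1 / 2 * |(l' : ℝ) - l| := by
    rw [div_mul_eq_mul_div, one_mul, div_le_iff₀ (by positivity)]
    linarith
  linarith

lemma norm_gko_le (l l' : ℕ) {z : ℂ} (hz : z ∈ ball (ce l) (1 / 4)) :
    ‖gko l l' z‖ ≤ maj 0 (1 / (2 * ((l : ℝ) + 2))) l' := by
  unfold gko
  have hpos : (0 : ℝ) < 1 / (2 * ((l : ℝ) + 2)) := by positivity
  split_ifs with h
  · rw [norm_zero]
    unfold maj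
    positivity
  · exact norm_gk_le hpos 0 l' (dist_other h hz)

lemma continuousOn_gko (l : ℕ) : ContinuousOn (fun z => ∑' l', gko l l' z) (ball (ce l) (1 / 4)) := by
  apply continuousOn_tsum (u := fun l' => maj 0 (1 / (2 * ((l : ℝ) + 2))) l')
  · intro l' z hz
    unfold gko
    split_ifs with h
    · exact continuousWithinAt_const
    · have hne : z ≠ ce l' := by
        intro h0
        have := dist_other h hz
        rw [h0, sub_self, norm_zero] at this
        have hl : (0 : ℝ) ≤ l' := Nat.cast_nonneg l'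
        have : 0 < 1 / (2 * ((l : ℝ) + 2)) * ((l' : ℝ) + 1) := by positivity
        linarith
      exact (hasDerivAt_gk 0 l' hne).continuousAt.continuousWithinAt
  · exact summable_maj _ _
  · intro l' z hz
    exact norm_gko_le l l' hz

lemma ball_off {l : ℕ} {z : ℂ} (hz : z ∈ ball (ce l) (1 / 4)) (hne : z ≠ ce l) (l' : ℕ) :
    z ≠ ce l' := by
  by_cases h : l' = l
  · rw [h]; exact hne
  · intro h0
    have := dist_other h hz
    rw [h0, sub_self, norm_zero] at this
    have hl : (0 : ℝ) ≤ l' := Nat.cast_nonneg l'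
    have : 0 < 1 / (2 * ((l : ℝ) + 2)) * ((l' : ℝ) + 1) := by positivity
    linarith

lemma tsum_gko {l : ℕ} {z : ℂ} (hz : z ∈ ball (ce l) (1 / 4)) (hne : z ≠ ce l) :
    ∑' l', gko l l' z = g1 z - gk 0 l z := by
  have hoff := ball_off hz hne
  have h1 := hasSum_polar hoff
  have h2 : HasSum (fun l' => if l' = l then gk 0 l z else 0) (gk 0 l z) := hasSum_ite_eq l _
  have h3 := h1.sub h2
  have e : (fun l' => gk 0 l' z - if l' = l then gk 0 l z else 0) = fun l' => gko l l' z := by
    funext l'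
    unfold gko
    split_ifs with h
    · rw [h, sub_self]
    · rw [sub_zero]
  rw [e] at h3
  exact h3.tsum_eq

/-- the regular sum at the site -/
lemma tsum_gko_site (l : ℕ) : ∑' l', gko l l' (ce l) = fp l - g1L (ce l) := by
  have hmem : ce l ∈ ball (ce l) (1 / 4) := mem_ball_self (by norm_num)
  have h1 : Tendsto (fun z => ∑' l', gko l l' z) (𝓝[≠] (ce l)) (𝓝 (∑' l', gko l l' (ce l))) :=
    (((continuousOn_gko l).continuousAt (ball_mem_nhds _ (by norm_num))).tendsto).mono_left
      nhdsWithin_le_nhds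
  have hre : (ce l).re < 0 := by
    rw [ce_re]; have : (0 : ℝ) ≤ l := Nat.cast_nonneg l; linarith
  have h2 : Tendsto (fun z => (J1 z - gk 0 l z) - g1L z) (𝓝[≠] (ce l)) (𝓝 (fp l - g1L (ce l))) :=
    (J1_fp l).sub ((differentiableAt_g1L hre).continuousAt.tendsto.mono_left nhdsWithin_le_nhds)
  refine tendsto_nhds_unique h1 (h2.congr' ?_)
  have hev : ∀ᶠ z in 𝓝[≠] (ce l), z ∈ ball (ce l) (1 / 4) :=
    eventually_nhdsWithin_of_eventually_nhds (ball_mem_nhds _ (by norm_num))
  filter_upwards [hev, self_mem_nhdsWithin] with z hz hne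
  have hne' : z ≠ ce l := hne
  have hoff := ball_off hz hne'
  have hzre : z.re < 0 := by
    have := re_le_of_mem (l := l) (s := z) (by
      rw [mem_ball, dist_eq_norm] at hz; exact hz.le)
    linarith
  rw [tsum_gko hz hne', J1_eq hzre (cos_ne_zero_of_left hzre hoff)]
  ring

/-- **node on a site**: `∑_{l'} Lg l' (1/(s - ce l)) = g1L (ce l)`. -/
theorem hasSum_site (l : ℕ) :
    HasSum (fun l' => Lg l' (fun s => (s - ce l)⁻¹)) (g1L (ce l)) := by
  have hmem : ce l ∈ ball (ce l) (1 / 4) := mem_ball_self (by norm_num)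
  have hsum : Summable (fun l' => gko l l' (ce l)) :=
    Summable.of_norm_bounded (summable_maj _ _) (fun l' => norm_gko_le l l' hmem)
  have h1 := hsum.hasSum
  rw [tsum_gko_site] at h1
  have h2 : HasSum (fun l' => if l' = l then fp l else 0) (fp l) := hasSum_ite_eq l _
  have h3 := h2.sub h1
  have e : (fun l' => (if l' = l then fp l else 0) - gko l l' (ce l)) =
      fun l' => Lg l' (fun s => (s - ce l)⁻¹) := by
    funext l'
    unfold gko
    split_ifs with h
    · rw [h, sub_zero]; rfl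
    · rw [zero_sub]
      have hd : 1 / 4 < ‖ce l - ce l'‖ := by
        have := ce_dist l l' (Ne.symm h)
        linarith
      have := Lg_pow l' 0 hd
      simp only [zero_add, pow_one] at this
      rw [this]
      ring
  rw [e] at h3
  have e2 : fp l - (fp l - g1L (ce l)) = g1L (ce l) := by ring
  rw [e2] at h3
  exact h3

end Crest.Agent.R006.G1x186
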