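import Mathlib

set_option autoImplicit false

/-!
# Row 6 (Catalan): generic lower bound for the valuation of a determinant (helper674)

Filtered commutative ring `A` (think `A = ℚ[X]`, `L e` = polynomials whose coefficients all have
`p`-adic valuation `≥ e`).  If every row of `M` is a combination `M i = ∑ k, α i k • C k` then
`det M = ∑_f (∏ i, α i (f i)) det (C ∘ f)`, only injective `f : ι → κ` contribute, and the
valuation of `det M` is at least the minimum over injective `f` of the valuations of the terms.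
-/

namespace Crest.Agent.R006.GL674

open Polynomial

variable {A : Type*} [CommRing A]

/-- decreasing filtration of a commutative ring, indexed by `ℤ`, multiplicative -/
structure Filt (A : Type*) [CommRing A] where
  L : ℤ → AddSubgroup A
  anti : ∀ {a b : ℤ}, a ≤ b → L b ≤ L a
  one_mem : (1 : A) ∈ L 0
  mul_mem : ∀ {a b : ℤ} {x y : A}, x ∈ L a → y ∈ L b → x * y ∈ L (a + b)

namespace Filt

variable (F : Filt A)

theorem sum_mem {ι : Type*} (s : Finset ι) (x : ι → A) (e : ℤ) (h : ∀ i ∈ s, x i ∈ F.L e) :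
    ∑ i ∈ s, x i ∈ F.L e :=
  AddSubgroup.sum_mem _ h

theorem prod_mem {ι : Type*} (s : Finset ι) (x : ι → A) (v : ι → ℤ)
    (h : ∀ i ∈ s, x i ∈ F.L (v i)) : ∏ i ∈ s, x i ∈ F.L (∑ i ∈ s, v i) := by
  classical
  induction s using Finset.induction_on with
  | empty => simpa using F.one_mem
  | insert a s ha ih =>
    rw [Finset.prod_insert ha, Finset.sum_insert ha]
    exact F.mul_mem (h a (Finset.mem_insert_self _ _))
      (ih fun i hi => h i (Finset.mem_insert_of_mem hi))

theorem neg_mem' {e : ℤ} {x : A} (h : x ∈ F.L e) : -x ∈ F.L e := (F.L e).neg_mem h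

theorem pow_mem {e : ℤ} {x : A} (h : x ∈ F.L e) (n : ℕ) : x ^ n ∈ F.L (n * e) := by
  have := F.prod_mem (Finset.range n) (fun _ => x) (fun _ => e) (fun _ _ => h)
  simpa using this

theorem intCast_mem (z : ℤ) : (z : A) ∈ F.L 0 := by
  have := (F.L 0).zsmul_mem F.one_mem z
  simpa using this

/-- the determinant of a matrix with entries in `L 0` is in `L 0` -/
theorem det_mem_zero {ι : Type*} [Fintype ι] [DecidableEq ι] (M : Matrix ι ι A)
    (h : ∀ i j, M i j ∈ F.L 0) : M.det ∈ F.L 0 := by
  rw [Matrix.det_apply]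
  refine F.sum_mem _ _ _ fun σ _ => ?_
  have h1 : ∏ i, M (σ i) i ∈ F.L (∑ _i : ι, (0 : ℤ)) :=
    F.prod_mem _ _ _ fun i _ => h _ _
  simp only [Finset.sum_const_zero] at h1
  rcases Int.units_eq_one_or (Equiv.Perm.sign σ) with hs | hs
  · rw [hs, one_smul]; exact h1
  · rw [hs]
    have : (-1 : ℤˣ) • ∏ i, M (σ i) i = -∏ i, M (σ i) i := by
      rw [Units.smul_def]; simp
    rw [this]; exact F.neg_mem' h1

/-- entries of valuation `≥ r i + c j` -/
theorem det_mem_of_entries {ι : Type*} [Fintype ι] [DecidableEq ι] (M : Matrix ι ι A)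
    (r c : ι → ℤ) (h : ∀ i j, M i j ∈ F.L (r i + c j)) :
    M.det ∈ F.L (∑ i, r i + ∑ j, c j) := by
  rw [Matrix.det_apply]
  refine F.sum_mem _ _ _ fun σ _ => ?_
  have h1 : ∏ i, M (σ i) i ∈ F.L (∑ i, (r (σ i) + c i)) :=
    F.prod_mem _ _ _ fun i _ => h _ _
  have h2 : ∑ i, (r (σ i) + c i) = ∑ i, r i + ∑ j, c j := by
    rw [Finset.sum_add_distrib, Equiv.sum_comp σ r]
  rw [h2] at h1
  rcases Int.units_eq_one_or (Equiv.Perm.sign σ) with hs | hs
  · rw [hs, one_smul]; exact h1
  · rw [hs]
    have : (-1 : ℤˣ) • ∏ i, M (σ i) i = -∏ i, M (σ i) i := by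
      rw [Units.smul_def]; simp
    rw [this]; exact F.neg_mem' h1

end Filt

/-- Expansion of a determinant whose rows are combinations of vectors `C k`. -/
theorem det_eq_sum_fun {ι κ : Type*} [Fintype ι] [DecidableEq ι] [Fintype κ]
    (M : Matrix ι ι A) (α : ι → κ → A) (C : κ → ι → A)
    (hM : ∀ i j, M i j = ∑ k, α i k * C k j) :
    M.det = ∑ f : ι → κ, (∏ i, α i (f i)) * Matrix.det (Matrix.of fun i j => C (f i) j) := by
  classical
  have h1 : M = fun i => ∑ k, α i k • C k := by
    funext i j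
    rw [hM i j, Finset.sum_apply]
    rfl
  have h2 : M.det = (Matrix.detRowAlternating : (ι → A) [⋀^ι]→ₗ[A] A).toMultilinearMap
      (fun i => ∑ k, α i k • C k) := by
    rw [h1]; rfl
  rw [h2, MultilinearMap.map_sum]
  refine Finset.sum_congr rfl fun f _ => ?_
  rw [MultilinearMap.map_smul_univ]
  rfl

/-- **Generalised Leibniz bound.** -/
theorem Filt.det_mem (F : Filt A) {ι κ : Type*} [Fintype ι] [DecidableEq ι] [Fintype κ]
    (M : Matrix ι ι A) (α : ι → κ → A) (C : κ → ι → A)
    (hM : ∀ i j, M i j = ∑ k, α i k * C k j)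
    (v : ι → κ → ℤ) (hv : ∀ i k, α i k ∈ F.L (v i k)) (m : ℤ)
    (h : ∀ f : ι → κ, Function.Injective f → (∀ i, α i (f i) ≠ 0) →
      Matrix.det (Matrix.of fun i j => C (f i) j) ≠ 0 →
      ∃ c : ℤ, Matrix.det (Matrix.of fun i j => C (f i) j) ∈ F.L c ∧
        m ≤ ∑ i, v i (f i) + c) :
    M.det ∈ F.L m := by
  classical
  rw [det_eq_sum_fun M α C hM]
  refine F.sum_mem _ _ _ fun f _ => ?_
  by_cases hinj : Function.Injective f
  · by_cases hne : ∀ i, α i (f i) ≠ 0
    · by_cases hd : Matrix.det (Matrix.of fun i j => C (f i) j) = 0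
      · rw [hd, mul_zero]; exact (F.L m).zero_mem
      · obtain ⟨c, hc, hm⟩ := h f hinj hne hd
        exact F.anti hm (F.mul_mem (F.prod_mem _ _ _ fun i _ => hv i (f i)) hc)
    · push Not at hne
      obtain ⟨i, hi⟩ := hne
      rw [Finset.prod_eq_zero (Finset.mem_univ i) hi, zero_mul]
      exact (F.L m).zero_mem
  · obtain ⟨i, j, hij, hne⟩ : ∃ i j, f i = f j ∧ i ≠ j := by
      simpa [Function.Injective] using hinj
    have : Matrix.det (Matrix.of fun i j => C (f i) j) = 0 :=
      Matrix.det_zero_of_row_eq hne (by funext k; simp [hij])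
    rw [this, mul_zero]; exact (F.L m).zero_mem

/-- the sum over an injective choice of indices of a function on `ℕ` which is monotone is at least
the sum of the first values -/
theorem sum_le_sum_of_injective (β : ℕ → ℤ) (hβ : Monotone β) {ι : Type*} (s : Finset ι)
    (f : ι → ℕ) (hf : Set.InjOn f s) :
    ∑ k ∈ Finset.range s.card, β k ≤ ∑ i ∈ s, β (f i) := by
  classical
  have h1 : ∑ i ∈ s, β (f i) = ∑ k ∈ s.image f, β k := by
    rw [Finset.sum_image hf]
  rw [h1, ← Finset.card_image_of_injOn hf]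
  generalize s.image f = t
  -- t : Finset ℕ
  have key : ∀ n : ℕ, ∀ t : Finset ℕ, t.card = n →
      ∑ k ∈ Finset.range n, β k ≤ ∑ k ∈ t, β k := by
    intro n
    induction n with
    | zero => intro t ht; rw [Finset.card_eq_zero.mp ht]; simp
    | succ n ih =>
      intro t ht
      have hne : t.Nonempty := Finset.card_pos.mp (by omega)
      set x := t.max' hne with hx
      have hxt : x ∈ t := Finset.max'_mem _ _
      have hxn : n ≤ x := by
        by_contra hcon
        push Not at hcon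
        have hsub : t ⊆ Finset.range n := by
          intro y hy
          have : y ≤ x := Finset.le_max' _ _ hy
          exact Finset.mem_range.mpr (by omega)
        have := Finset.card_le_card hsub
        rw [Finset.card_range] at this
        omega
      rw [Finset.sum_range_succ, ← Finset.sum_erase_add t _ hxt]
      exact add_le_add (ih _ (by rw [Finset.card_erase_of_mem hxt]; omega)) (hβ hxn)
  exact key _ t rfl

/-! ### The Gauss filtration on `ℚ[X]` -/

/-- `p`-adic norm of a finite sum -/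
theorem padicNorm_sum_le (p : ℕ) [Fact p.Prime] {ι : Type*} (s : Finset ι) (f : ι → ℚ) (t : ℚ)
    (ht : 0 ≤ t) (h : ∀ i ∈ s, padicNorm p (f i) ≤ t) : padicNorm p (∑ i ∈ s, f i) ≤ t := by
  classical
  induction s using Finset.induction_on with
  | empty => simpa using ht
  | insert a s ha ih =>
    rw [Finset.sum_insert ha]
    refine (padicNorm.nonarchimedean).trans (max_le (h a (Finset.mem_insert_self _ _)) ?_)
    exact ih fun i hi => h i (Finset.mem_insert_of_mem hi)

/-- polynomials over `ℚ` with all coefficients of `p`-adic valuation `≥ e` -/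
def gaussL (p : ℕ) [Fact p.Prime] (e : ℤ) : AddSubgroup ℚ[X] where
  carrier := {f | ∀ i, padicNorm p (f.coeff i) ≤ (p : ℚ) ^ (-e)}
  zero_mem' := by
    intro i
    simp only [coeff_zero, padicNorm.zero]
    exact zpow_nonneg (by exact_mod_cast Nat.zero_le p) _
  add_mem' := by
    intro f g hf hg i
    rw [coeff_add]
    exact (padicNorm.nonarchimedean).trans (max_le (hf i) (hg i))
  neg_mem' := by
    intro f hf i
    rw [coeff_neg, padicNorm.neg]
    exact hf i

theorem mem_gaussL {p : ℕ} [Fact p.Prime] {e : ℤ} {f : ℚ[X]} :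
    f ∈ gaussL p e ↔ ∀ i, padicNorm p (f.coeff i) ≤ (p : ℚ) ^ (-e) := Iff.rfl

theorem padicNorm_le_iff {p : ℕ} [Fact p.Prime] {e : ℤ} {x : ℚ} (hx : x ≠ 0) :
    padicNorm p x ≤ (p : ℚ) ^ (-e) ↔ e ≤ padicValRat p x := by
  have hp : (1 : ℚ) < p := by exact_mod_cast (Fact.out : p.Prime).one_lt
  rw [padicNorm.eq_zpow_of_nonzero hx, zpow_le_zpow_iff_right₀ hp]
  exact neg_le_neg_iff

theorem mem_gaussL_iff {p : ℕ} [Fact p.Prime] {e : ℤ} {f : ℚ[X]} :
    f ∈ gaussL p e ↔ ∀ i, f.coeff i ≠ 0 → e ≤ padicValRat p (f.coeff i) := by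
  constructor
  · intro h i hi
    exact (padicNorm_le_iff hi).mp (h i)
  · intro h i
    by_cases hi : f.coeff i = 0
    · rw [hi, padicNorm.zero]
      exact zpow_nonneg (by exact_mod_cast Nat.zero_le p) _
    · exact (padicNorm_le_iff hi).mpr (h i hi)

/-- the Gauss filtration -/
def gauss (p : ℕ) [Fact p.Prime] : Filt ℚ[X] where
  L := gaussL p
  anti := by
    intro a b hab f hf i
    refine (hf i).trans ?_
    have hp : (1 : ℚ) < p := by exact_mod_cast (Fact.out : p.Prime).one_lt
    exact (zpow_le_zpow_iff_right₀ hp).mpr (by omega)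
  one_mem := by
    intro i
    rw [coeff_one]
    split_ifs <;> simp
  mul_mem := by
    intro a b f g hf hg i
    have hp0 : (p : ℚ) ≠ 0 := by exact_mod_cast (Fact.out : p.Prime).ne_zero
    rw [coeff_mul]
    refine padicNorm_sum_le p _ _ _ (zpow_nonneg (by exact_mod_cast Nat.zero_le p) _) ?_
    intro x _
    rw [padicNorm.mul]
    have h1 := hf x.1
    have h2 := hg x.2
    calc padicNorm p (f.coeff x.1) * padicNorm p (g.coeff x.2)
        ≤ (p : ℚ) ^ (-a) * (p : ℚ) ^ (-b) :=
          mul_le_mul h1 h2 (padicNorm.nonneg _) (zpow_nonneg (by exact_mod_cast Nat.zero_le p) _)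
      _ = (p : ℚ) ^ (-(a + b)) := by rw [← zpow_add₀ hp0]; congr 1; ring

theorem C_mem_gauss {p : ℕ} [Fact p.Prime] {e : ℤ} {x : ℚ} (h : x = 0 ∨ e ≤ padicValRat p x) :
    (C x : ℚ[X]) ∈ (gauss p).L e := by
  refine mem_gaussL_iff.mpr fun i hi => ?_
  rw [coeff_C] at hi ⊢
  split_ifs at hi ⊢ with h0
  · rcases h with h | h
    · exact absurd h hi
    · exact h
  · exact absurd rfl hi

theorem X_mem_gauss {p : ℕ} [Fact p.Prime] : (X : ℚ[X]) ∈ (gauss p).L 0 := by
  refine mem_gaussL_iff.mpr fun i hi => ?_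
  rw [coeff_X] at hi ⊢
  split_ifs at hi ⊢ with h0
  · simp
  · exact absurd rfl hi

end Crest.Agent.R006.GL674
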