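import Crest.Agent.R006.Toll_814
import Crest.Agent.R006.ProdBound_481

/-!
# Row 6, block P4: the class bound as one abstract theorem in toll form (helper961)

Network (349's decomposition, 814's toll lemma), columns `jR ⊕ jT ⊕ jQ ⊕ jU`:
`row i = Σ A_i(l) rho(c,l) + Σ B_i(s) X(c,s) + Σ C_i(u) q(c,u) + err` (`c = cls i`),
`X(c,s) = th0(c,s) + Σ near · rho(c,·) + Σ far · beta(c',k) + err`,
`beta(c,k) = Σ Lam(c,k,l) rho(c,l) + err`.

Main result: `Net.det_mem`.
-/

set_option autoImplicit false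
set_option synthInstance.maxSize 1000
set_option synthInstance.maxHeartbeats 200000
set_option linter.unusedSectionVars false
set_option linter.unusedSimpArgs false

namespace Crest.Agent.R006.P4Toll961

open Finset Matrix Tollx814

/-- the columns: `R`-columns, `T`-columns, `Q`-columns, bordering (unit) columns -/
abbrev Col (jR jT jQ jU : Type*) := jR ⊕ (jT ⊕ (jQ ⊕ jU))


section

variable {jR jT jQ jU : Type*}

/-- kind of a column -/
def kd : Col jR jT jQ jU → Fin 4
  | .inl _ => 0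
  | .inr (.inl _) => 1
  | .inr (.inr (.inl _)) => 2
  | .inr (.inr (.inr _)) => 3

end

/-- state vectors and transition coefficients between the states -/
structure Net (A : Type*) [CommRing A] (Cl : Type*) (jR jT jQ : Type*) (N : ℕ) where
  rho : Cl → Fin N → jR → A
  th0 : Cl → Fin N → jT → A
  q : Cl → Fin N → jQ → A
  near : Cl → Fin N → Fin N → A
  far : Cl → Fin N → Cl → Fin N → A
  Lam : Cl → Fin N → Fin N → A
  errX : Cl → Fin N → jR → A
  errB : Cl → Fin N → jR → A

/-- the coefficients of the rows -/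
structure Rows (A : Type*) [CommRing A] (Cl : Type*) (jR jT jQ jU : Type*) (N : ℕ)
    (ι : Type*) where
  cls : ι → Cl
  cA : ι → Fin N → A
  cB : ι → Fin N → A
  cC : ι → Fin N → A
  err : ι → Col jR jT jQ jU → A

/-- potentials and tolls -/
structure Cert (Cl : Type*) (N : ℕ) (ι : Type*) where
  lam : ℤ
  mu : ℤ
  nu : ℤ
  D0 : ι → ℤ
  DX : Cl → Fin N → ℤ
  DB : Cl → Fin N → ℤ
  sR : Cl → Fin N → ℤ
  sX : Cl → Fin N → ℤ
  sQ : Cl → Fin N → ℤ
  sB : Cl → Fin N → ℤ

variable {A : Type*} [CommRing A]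
variable {Cl : Type*} [Fintype Cl] [DecidableEq Cl]
variable {jR jT jQ jU : Type*} [Fintype jR] [DecidableEq jR] [Fintype jT] [DecidableEq jT]
  [Fintype jQ] [DecidableEq jQ] [Fintype jU] [DecidableEq jU]
variable {N : ℕ}
variable {ι : Type*} [Fintype ι] [DecidableEq ι]

namespace Net

variable (W : Net A Cl jR jT jQ N)

/-- `beta(c,k)` on the `R`-columns -/
def beta (c : Cl) (k : Fin N) (j : jR) : A := ∑ l, W.Lam c k l * W.rho c l j + W.errB c k j

/-- `X(c,s)` on the `R`-columns (on the `T`-columns it is `th0`) -/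
def X (c : Cl) (s : Fin N) (j : jR) : A :=
  ∑ l, W.near c s l * W.rho c l j + ∑ c', ∑ k, W.far c s c' k * W.beta c' k j + W.errX c s j

/-- the matrix -/
def mat (W : Net A Cl jR jT jQ N) (r : Rows A Cl jR jT jQ jU N ι) :
    ι → Col jR jT jQ jU → A
  | i, .inl j => ∑ l, r.cA i l * W.rho (r.cls i) l j + ∑ s, r.cB i s * W.X (r.cls i) s j
      + r.err i (.inl j)
  | i, .inr (.inl j) => ∑ s, r.cB i s * W.th0 (r.cls i) s j + r.err i (.inr (.inl j))
  | i, .inr (.inr (.inl j)) => ∑ u, r.cC i u * W.q (r.cls i) u j + r.err i (.inr (.inr (.inl j)))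
  | i, .inr (.inr (.inr j)) => r.err i (.inr (.inr (.inr j)))

end Net

/-- base states: `rho`, `th0`, `q`, unit vectors of columns -/
abbrev S3 (Cl : Type*) (N : ℕ) (C : Type*) :=
  (Cl × Fin N) ⊕ ((Cl × Fin N) ⊕ ((Cl × Fin N) ⊕ C))

/-- states of the levels 1 and 2: base states and `X` resp. `beta` -/
abbrev S2 (Cl : Type*) (N : ℕ) (C : Type*) := S3 Cl N C ⊕ (Cl × Fin N)

section build

variable (W : Net A Cl jR jT jQ N)

/-- vectors of the base states -/
def v3 : S3 Cl N (Col jR jT jQ jU) → Col jR jT jQ jU → A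
  | .inl x, .inl j => W.rho x.1 x.2 j
  | .inl _, .inr _ => 0
  | .inr (.inl x), .inr (.inl j) => W.th0 x.1 x.2 j
  | .inr (.inl _), .inl _ => 0
  | .inr (.inl _), .inr (.inr _) => 0
  | .inr (.inr (.inl x)), .inr (.inr (.inl j)) => W.q x.1 x.2 j
  | .inr (.inr (.inl _)), .inl _ => 0
  | .inr (.inr (.inl _)), .inr (.inl _) => 0
  | .inr (.inr (.inl _)), .inr (.inr (.inr _)) => 0
  | .inr (.inr (.inr d)), j => if d = j then 1 else 0

/-- coefficients of `beta(c,k)` -/
def xB (x : Cl × Fin N) : S3 Cl N (Col jR jT jQ jU) → A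
  | .inl y => if x.1 = y.1 then W.Lam x.1 x.2 y.2 else 0
  | .inr (.inl _) => 0
  | .inr (.inr (.inl _)) => 0
  | .inr (.inr (.inr (.inl j))) => W.errB x.1 x.2 j
  | .inr (.inr (.inr (.inr _))) => 0

/-- coefficients of level 3 -/
def x3 : S2 Cl N (Col jR jT jQ jU) → S3 Cl N (Col jR jT jQ jU) → A
  | .inl s, t => if s = t then 1 else 0
  | .inr x, t => xB W x t

/-- coefficients of `X(c,s)` -/
def xX (x : Cl × Fin N) : S2 Cl N (Col jR jT jQ jU) → A
  | .inl (.inl y) => if x.1 = y.1 then W.near x.1 x.2 y.2 else 0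
  | .inl (.inr (.inl y)) => if x = y then 1 else 0
  | .inl (.inr (.inr (.inl _))) => 0
  | .inl (.inr (.inr (.inr (.inl j)))) => W.errX x.1 x.2 j
  | .inl (.inr (.inr (.inr (.inr _)))) => 0
  | .inr y => W.far x.1 x.2 y.1 y.2

/-- coefficients of level 2 -/
def x2 : S2 Cl N (Col jR jT jQ jU) → S2 Cl N (Col jR jT jQ jU) → A
  | .inl s, t => if Sum.inl s = t then 1 else 0
  | .inr x, t => xX W x t

/-- coefficients of level 1 -/
def x1 (r : Rows A Cl jR jT jQ jU N ι) (i : ι) : S2 Cl N (Col jR jT jQ jU) → A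
  | .inl (.inl y) => if r.cls i = y.1 then r.cA i y.2 else 0
  | .inl (.inr (.inl _)) => 0
  | .inl (.inr (.inr (.inl y))) => if r.cls i = y.1 then r.cC i y.2 else 0
  | .inl (.inr (.inr (.inr d))) => r.err i d
  | .inr y => if r.cls i = y.1 then r.cB i y.2 else 0

/-- vectors of level 2 -/
def v2 (t : S2 Cl N (Col jR jT jQ jU)) (j : Col jR jT jQ jU) : A := ∑ u, x3 W t u * v3 W u j

/-- vectors of level 1 -/
def v1 (t : S2 Cl N (Col jR jT jQ jU)) (j : Col jR jT jQ jU) : A := ∑ u, x2 W t u * v2 W u j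

lemma v2_inl (s : S3 Cl N (Col jR jT jQ jU)) (j : Col jR jT jQ jU) :
    v2 W (.inl s) j = v3 W s j := by
  simp only [v2, x3, ite_mul, one_mul, zero_mul]
  rw [Finset.sum_ite_eq]
  simp

lemma sum_cls {f : Cl → Fin N → A} (c : Cl) :
    ∑ y : Cl × Fin N, (if c = y.1 then f y.1 y.2 else 0) = ∑ l, f c l := by
  rw [Fintype.sum_prod_type]
  rw [Finset.sum_eq_single c]
  · simp
  · intro b _ hb
    simp [Ne.symm hb]
  · simp

lemma v2_beta (x : Cl × Fin N) (j : jR) :
    v2 W (.inr x) (.inl j : Col jR jT jQ jU) = W.beta x.1 x.2 j := by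
  simp only [v2, x3]
  rw [Fintype.sum_sum_type, Fintype.sum_sum_type, Fintype.sum_sum_type, Fintype.sum_sum_type]
  simp only [xB, v3, zero_mul, Finset.sum_const_zero, zero_add, add_zero, ite_mul, mul_ite,
    mul_one, mul_zero]
  rw [sum_cls (f := fun c l => W.Lam x.1 x.2 l * W.rho c l j)]
  simp only [Sum.inl.injEq]
  rw [Finset.sum_ite_eq']
  simp [Net.beta]

lemma v2_beta' (x : Cl × Fin N) (j : jT ⊕ (jQ ⊕ jU)) :
    v2 W (.inr x) (.inr j : Col jR jT jQ jU) = 0 := by
  simp only [v2, x3]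
  rw [Fintype.sum_sum_type, Fintype.sum_sum_type, Fintype.sum_sum_type, Fintype.sum_sum_type]
  simp [xB, v3]

lemma v1_inl (s : S3 Cl N (Col jR jT jQ jU)) (j : Col jR jT jQ jU) :
    v1 W (.inl s) j = v3 W s j := by
  simp only [v1, x2, ite_mul, one_mul, zero_mul]
  rw [Finset.sum_ite_eq]
  simp [v2_inl]

lemma v1_X (x : Cl × Fin N) (j : jR) :
    v1 W (.inr x) (.inl j : Col jR jT jQ jU) = W.X x.1 x.2 j := by
  simp only [v1, x2]
  rw [Fintype.sum_sum_type, Fintype.sum_sum_type, Fintype.sum_sum_type, Fintype.sum_sum_type,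
    Fintype.sum_sum_type]
  simp only [xX, v2_inl, v2_beta, v3, zero_mul, Finset.sum_const_zero, zero_add, add_zero,
    ite_mul, mul_ite, mul_one, mul_zero]
  rw [sum_cls (f := fun c l => W.near x.1 x.2 l * W.rho c l j)]
  simp only [Sum.inl.injEq]
  rw [Finset.sum_ite_eq', Fintype.sum_prod_type]
  simp only [Finset.mem_univ, if_true, ite_self, Finset.sum_const_zero, Net.X, zero_add]
  ring

lemma v1_T (x : Cl × Fin N) (j : jT) :
    v1 W (.inr x) (.inr (.inl j) : Col jR jT jQ jU) = W.th0 x.1 x.2 j := by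
  simp only [v1, x2]
  rw [Fintype.sum_sum_type, Fintype.sum_sum_type, Fintype.sum_sum_type, Fintype.sum_sum_type,
    Fintype.sum_sum_type]
  simp [xX, v2_inl, v2_beta', v3]

lemma v1_QU (x : Cl × Fin N) (j : jQ ⊕ jU) :
    v1 W (.inr x) (.inr (.inr j) : Col jR jT jQ jU) = 0 := by
  simp only [v1, x2]
  rw [Fintype.sum_sum_type, Fintype.sum_sum_type, Fintype.sum_sum_type, Fintype.sum_sum_type,
    Fintype.sum_sum_type]
  simp [xX, v2_inl, v2_beta', v3]

lemma mat_eq (r : Rows A Cl jR jT jQ jU N ι) (i : ι) (j : Col jR jT jQ jU) :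
    W.mat r i j = ∑ s, x1 r i s * v1 W s j := by
  rw [Fintype.sum_sum_type, Fintype.sum_sum_type, Fintype.sum_sum_type, Fintype.sum_sum_type]
  rcases j with j | j | j | j
  · simp only [Net.mat, x1, v1_inl, v1_X, v3, zero_mul, Finset.sum_const_zero, zero_add,
      add_zero, ite_mul, mul_ite, mul_one, mul_zero]
    rw [sum_cls (f := fun c l => r.cA i l * W.rho c l j),
      sum_cls (f := fun c l => r.cB i l * W.X c l j), Finset.sum_ite_eq']
    simp only [Finset.mem_univ, if_true, ite_self, Finset.sum_const_zero, zero_add]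
    ring
  · simp only [Net.mat, x1, v1_inl, v1_T, v3, zero_mul, Finset.sum_const_zero, zero_add,
      add_zero, ite_mul, mul_ite, mul_one, mul_zero]
    rw [sum_cls (f := fun c l => r.cB i l * W.th0 c l j), Finset.sum_ite_eq']
    simp only [Finset.mem_univ, if_true, ite_self, Finset.sum_const_zero, zero_add]
    ring
  · simp only [Net.mat, x1, v1_inl, v1_QU, v3, zero_mul, Finset.sum_const_zero, zero_add,
      add_zero, ite_mul, mul_ite, mul_one, mul_zero]
    rw [sum_cls (f := fun c l => r.cC i l * W.q c l j), Finset.sum_ite_eq']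
    simp only [Finset.mem_univ, if_true, ite_self, Finset.sum_const_zero, zero_add]
  · simp only [Net.mat, x1, v1_inl, v1_QU, v3, zero_mul, Finset.sum_const_zero, zero_add,
      add_zero, ite_mul, mul_ite, mul_one, mul_zero]
    rw [Finset.sum_ite_eq']
    simp

end build

/-! ### potentials -/

/-- potential of a kind of column -/
def Cert.lk (K : Cert Cl N ι) : Fin 4 → ℤ := ![K.lam, 0, K.mu, K.nu]

/-- kinds of the base states -/
def kd3 : S3 Cl N (Col jR jT jQ jU) → Fin 4
  | .inl _ => 0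
  | .inr (.inl _) => 1
  | .inr (.inr (.inl _)) => 2
  | .inr (.inr (.inr d)) => kd d

/-- hypotheses of the certificate -/
structure Valid (Fil : ZFil A) (W : Net A Cl jR jT jQ N) (r : Rows A Cl jR jT jQ jU N ι)
    (K : Cert Cl N ι) : Prop where
  sR0 : ∀ c l, 0 ≤ K.sR c l
  sX0 : ∀ c l, 0 ≤ K.sX c l
  sQ0 : ∀ c l, 0 ≤ K.sQ c l
  sB0 : ∀ c l, 0 ≤ K.sB c l
  rho : ∀ c l j, W.rho c l j ∈ Fil.F 0
  th0 : ∀ c l j, W.th0 c l j ∈ Fil.F 0
  q : ∀ c l j, W.q c l j ∈ Fil.F 0
  A : ∀ i l, r.cA i l ∈ Fil.F (K.D0 i + K.lam - K.sR (r.cls i) l)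
  B : ∀ i s, r.cB i s ∈ Fil.F (K.D0 i - K.DX (r.cls i) s - K.sX (r.cls i) s)
  C : ∀ i u, r.cC i u ∈ Fil.F (K.D0 i + K.mu - K.sQ (r.cls i) u)
  err : ∀ i d, r.err i d ∈ Fil.F (K.D0 i + K.lk (kd d))
  DX0 : ∀ c s, K.DX c s ≤ 0
  near : ∀ c s l, W.near c s l ∈ Fil.F (K.DX c s + K.lam - K.sR c l)
  far : ∀ c s c' k, W.far c s c' k ∈ Fil.F (K.DX c s - K.DB c' k - K.sB c' k)
  errX : ∀ c s j, W.errX c s j ∈ Fil.F (K.DX c s + K.lam)
  Lam : ∀ c k l, W.Lam c k l ∈ Fil.F (K.DB c k + K.lam - K.sR c l)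
  errB : ∀ c k j, W.errB c k j ∈ Fil.F (K.DB c k + K.lam)

/-- potentials and tolls on the base states: level 3 -/
def D3 (K : Cert Cl N ι) (t : S3 Cl N (Col jR jT jQ jU)) : ℤ := - K.lk (kd3 t)

/-- tolls of level 3 -/
def t3 (K : Cert Cl N ι) : S3 Cl N (Col jR jT jQ jU) → ℤ
  | .inl x => K.sR x.1 x.2
  | .inr _ => 0

/-- potentials of level 2 -/
def D2 (K : Cert Cl N ι) : S2 Cl N (Col jR jT jQ jU) → ℤ
  | .inl t => D3 K t + t3 K t
  | .inr x => K.DB x.1 x.2

/-- tolls of level 2 -/
def t2 (K : Cert Cl N ι) : S2 Cl N (Col jR jT jQ jU) → ℤ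
  | .inl _ => 0
  | .inr x => K.sB x.1 x.2

/-- potentials of level 1 -/
def D1 (K : Cert Cl N ι) : S2 Cl N (Col jR jT jQ jU) → ℤ
  | .inl t => D3 K t + t3 K t
  | .inr x => K.DX x.1 x.2

/-- tolls of level 1 -/
def t1 (K : Cert Cl N ι) : S2 Cl N (Col jR jT jQ jU) → ℤ
  | .inl (.inr (.inr (.inl x))) => K.sQ x.1 x.2
  | .inl _ => 0
  | .inr x => K.sX x.1 x.2


section steps

variable {Fil : ZFil A} {W : Net A Cl jR jT jQ N} {r : Rows A Cl jR jT jQ jU N ι} {K : Cert Cl N ι}

lemma zmem (a : ℤ) : (0 : A) ∈ Fil.F a := AddSubgroup.zero_mem _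

lemma x3_mem (h : Valid Fil W r K) (t : S2 Cl N (Col jR jT jQ jU))
    (u : S3 Cl N (Col jR jT jQ jU)) : x3 W t u ∈ Fil.F (D2 K t - D3 K u - t3 K u) := by
  rcases t with s | x
  · simp only [x3]
    split_ifs with hs
    · subst hs
      have : D2 K (.inl s) - D3 K s - t3 K s = 0 := by simp [D2]
      rw [this]
      exact Fil.one_mem
    · exact zmem _
  · simp only [x3]
    rcases u with y | y | y | d
    · simp only [xB]
      split_ifs with hs
      · refine Fil.mono (le_of_eq ?_) (h.Lam x.1 x.2 y.2)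
        obtain ⟨a, b⟩ := x
        obtain ⟨a', b'⟩ := y
        simp only at hs
        subst hs
        simp [D2, D3, t3, kd3, Cert.lk]
      · exact zmem _
    · exact zmem _
    · exact zmem _
    · rcases d with j | d
      · simp only [xB]
        refine Fil.mono (le_of_eq ?_) (h.errB x.1 x.2 j)
        simp [D2, D3, t3, kd3, Cert.lk, kd]
      · exact zmem _

lemma x2_mem (h : Valid Fil W r K) (t u : S2 Cl N (Col jR jT jQ jU)) :
    x2 W t u ∈ Fil.F (D1 K t - D2 K u - t2 K u) := by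
  rcases t with s | x
  · simp only [x2]
    split_ifs with hs
    · subst hs
      have : D1 K (.inl s) - D2 K (.inl s) - t2 K (.inl s) = 0 := by simp [D2, D1, t2]
      rw [this]
      exact Fil.one_mem
    · exact zmem _
  · simp only [x2]
    rcases u with (y | y | y | d) | y
    · simp only [xX]
      split_ifs with hs
      · refine Fil.mono (le_of_eq ?_) (h.near x.1 x.2 y.2)
        obtain ⟨a, b⟩ := x
        obtain ⟨a', b'⟩ := y
        simp only at hs
        subst hs
        simp only [D1, D2, t2, D3, t3, kd3, Cert.lk, Matrix.cons_val_zero]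
        ring
      · exact zmem _
    · simp only [xX]
      split_ifs with hs
      · refine Fil.mono ?_ Fil.one_mem
        have := h.DX0 x.1 x.2
        simpa [D1, D2, t2, D3, t3, kd3, Cert.lk] using this
      · exact zmem _
    · exact zmem _
    · rcases d with j | d
      · simp only [xX]
        refine Fil.mono (le_of_eq ?_) (h.errX x.1 x.2 j)
        simp [D1, D2, D3, t2, t3, kd3, Cert.lk, kd]
      · exact zmem _
    · simp only [xX]
      exact h.far x.1 x.2 y.1 y.2

lemma x1_mem (h : Valid Fil W r K) (i : ι) (t : S2 Cl N (Col jR jT jQ jU)) :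
    x1 r i t ∈ Fil.F (K.D0 i - D1 K t - t1 K t) := by
  rcases t with (y | y | y | d) | y
  · simp only [x1]
    split_ifs with hs
    · refine Fil.mono (le_of_eq ?_) (h.A i y.2)
      rw [hs]
      simp only [D1, D3, t1, t3, kd3, Cert.lk, Matrix.cons_val_zero]
      ring
    · exact zmem _
  · exact zmem _
  · simp only [x1]
    split_ifs with hs
    · refine Fil.mono (le_of_eq ?_) (h.C i y.2)
      rw [hs]
      simp [D1, D3, t1, t3, kd3, Cert.lk]
    · exact zmem _
  · simp only [x1]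
    refine Fil.mono (le_of_eq ?_) (h.err i d)
    simp [D1, D3, t1, t3, kd3]
  · simp only [x1]
    split_ifs with hs
    · refine Fil.mono (le_of_eq ?_) (h.B i y.2)
      rw [hs]
      simp [D1, t1]
    · exact zmem _

lemma sum_t3 : ∑ u : S3 Cl N (Col jR jT jQ jU), t3 K u = ∑ c, ∑ l, K.sR c l := by
  rw [Fintype.sum_sum_type]
  simp [t3, Fintype.sum_prod_type]

lemma sum_t2 : ∑ u : S2 Cl N (Col jR jT jQ jU), t2 K u = ∑ c, ∑ l, K.sB c l := by
  rw [Fintype.sum_sum_type]
  simp [t2, Fintype.sum_prod_type]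

lemma sum_t1 : ∑ u : S2 Cl N (Col jR jT jQ jU), t1 K u
    = ∑ c, ∑ l, K.sQ c l + ∑ c, ∑ l, K.sX c l := by
  rw [Fintype.sum_sum_type, Fintype.sum_sum_type, Fintype.sum_sum_type, Fintype.sum_sum_type]
  simp [t1, Fintype.sum_prod_type]

/-- **The toll bound.** -/
theorem det_mem (h : Valid Fil W r K) (e : ι → Col jR jT jQ jU) :
    Matrix.det (Matrix.of fun i j => W.mat r i (e j)) ∈
      Fil.F (∑ j, K.lk (kd (e j)) + ∑ i, K.D0 i
        - ∑ c, ∑ l, (K.sR c l + K.sX c l + K.sQ c l + K.sB c l)) := by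
  have h3 : ∀ ψ : ι → S2 Cl N (Col jR jT jQ jU),
      Matrix.det (Matrix.of fun i j => v2 W (ψ i) (e j)) ∈
        Fil.F ((∑ j, K.lk (kd (e j)) - ∑ u : S3 Cl N (Col jR jT jQ jU), t3 K u)
          + ∑ i, D2 K (ψ i)) := by
    intro ψ
    refine det_step Fil (D2 K) (D3 K) (t3 K) ?_ (x3 W) (fun u j => v3 W u (e j))
      (∑ j, K.lk (kd (e j))) (x3_mem h) ?_ ψ
    · rintro (x | x)
      · exact h.sR0 _ _
      · exact le_rfl
    · intro φ _
      refine det_final Fil kd3 (fun j => kd (e j)) K.lk (fun u j => v3 W u (e j)) ?_ ?_ φ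
      · rintro (y | y | y | d) j
        · rcases he : e j with k | k
          · simp only [v3]; exact h.rho _ _ _
          · simp only [v3]; exact zmem _
        · rcases he : e j with k | k | k
          · simp only [v3]; exact zmem _
          · simp only [v3]; exact h.th0 _ _ _
          · simp only [v3]; exact zmem _
        · rcases he : e j with k | k | k | k
          · simp only [v3]; exact zmem _
          · simp only [v3]; exact zmem _
          · simp only [v3]; exact h.q _ _ _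
          · simp only [v3]; exact zmem _
        · simp only [v3]
          split_ifs
          · exact Fil.one_mem
          · exact zmem _
      · rintro (y | y | y | d) j hk
        · rcases he : e j with k | k
          · simp [he, kd3, kd] at hk
          · simp only [v3]
        · rcases he : e j with k | k | k
          · simp only [v3]
          · simp [he, kd3, kd] at hk
          · simp only [v3]
        · rcases he : e j with k | k | k | k
          · simp only [v3]
          · simp only [v3]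
          · simp [he, kd3, kd] at hk
          · simp only [v3]
        · simp only [v3]
          rw [if_neg]
          rintro rfl
          exact hk rfl
  have h2 : ∀ ψ : ι → S2 Cl N (Col jR jT jQ jU),
      Matrix.det (Matrix.of fun i j => v1 W (ψ i) (e j)) ∈
        Fil.F ((∑ j, K.lk (kd (e j)) - ∑ u : S3 Cl N (Col jR jT jQ jU), t3 K u
          - ∑ u : S2 Cl N (Col jR jT jQ jU), t2 K u) + ∑ i, D1 K (ψ i)) := by
    intro ψ
    refine det_step Fil (D1 K) (D2 K) (t2 K) ?_ (x2 W) (fun u j => v2 W u (e j))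
      _ (x2_mem h) (fun φ _ => h3 φ) ψ
    rintro (x | x)
    · exact le_rfl
    · exact h.sB0 _ _
  have h1 := det_toll_one Fil K.D0 (D1 K) (t1 K) (by
      rintro ((x | x | x | x) | x)
      · exact le_rfl
      · exact le_rfl
      · exact h.sQ0 _ _
      · exact le_rfl
      · exact h.sX0 _ _) (x1 r) (fun u j => v1 W u (e j)) _ (x1_mem h) (fun φ _ => h2 φ)
  have h0 : (Matrix.of fun i j => W.mat r i (e j))
      = Matrix.of fun i j => ∑ s, x1 r i s * v1 W s (e j) := by
    ext i j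
    simp only [Matrix.of_apply]
    exact mat_eq W r i (e j)
  rw [h0]
  refine Fil.mono (le_of_eq ?_) h1
  rw [sum_t1, sum_t2, sum_t3]
  simp only [Finset.sum_add_distrib]
  ring

end steps


/-- **The toll bound**, square case: `e : ι ≃ columns`. -/
theorem det_mem_equiv {Fil : ZFil A} {W : Net A Cl jR jT jQ N}
    {r : Rows A Cl jR jT jQ jU N ι} {K : Cert Cl N ι} (h : Valid Fil W r K)
    (e : ι ≃ Col jR jT jQ jU) :
    Matrix.det (Matrix.of fun i j => W.mat r i (e j)) ∈
      Fil.F (K.lam * Fintype.card jR + K.mu * Fintype.card jQ + K.nu * Fintype.card jU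
        + ∑ i, K.D0 i - ∑ c, ∑ l, (K.sR c l + K.sX c l + K.sQ c l + K.sB c l)) := by
  refine Fil.mono (le_of_eq ?_) (det_mem h e)
  have h1 : ∑ j, K.lk (kd (e j)) = ∑ d : Col jR jT jQ jU, K.lk (kd d) :=
    Equiv.sum_comp e (fun d => K.lk (kd d))
  rw [h1, Fintype.sum_sum_type, Fintype.sum_sum_type, Fintype.sum_sum_type]
  simp only [kd, Cert.lk, Finset.sum_const, Finset.card_univ, nsmul_eq_mul]
  simp only [Matrix.cons_val]
  ring

/-- the filtration of `ℚ[X]` by the `p`-adic Gauss norm -/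
def pbFil (p : ℕ) [Fact p.Prime] : ZFil (Polynomial ℚ) where
  F v :=
    { carrier := {P | ProdBound481.PB p v P}
      add_mem' := fun h1 h2 => h1.add h2
      zero_mem' := ProdBound481.PB.zero v
      neg_mem' := fun h => h.neg }
  anti := fun h _ hx => ProdBound481.PB.mono hx h
  mul_mem := fun h1 h2 => ProdBound481.PB.mul h1 h2
  one_mem := ProdBound481.PB.one

lemma mem_pbFil {p : ℕ} [Fact p.Prime] {v : ℤ} {P : Polynomial ℚ} :
    P ∈ (pbFil p).F v ↔ ProdBound481.PB p v P := Iff.rfl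

end Crest.Agent.R006.P4Toll961
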