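import Crest.Agent.R006.BasisConst_555
import Crest.Agent.R006.ClsCount_764
import Crest.Agent.R006.P4Toll_961

/-!
# Row 6, block P4: the gauge polynomial at a prime (P-state form of 961)

* `polRM S u l = gaugeF S u * bl S u l`, `bl S u l = (descPochhammer l).comp (X - a1 u)`;
* `gaugeF_eq` : `gaugeF` as the product over its zeros;
* `zc S u p c` : the number of zeros of `gaugeF` in the class `c`, `zc_eq` : as `jst` differences;
* `taylor_gaugeF` : the `m`-th Taylor coefficient of `gaugeF` at `c` is in `F (max 0 (zc - m))`;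
* `taylor_bl`, `taylor_desc` : integral;
* `taylor_polRM` : `R^[t](c) = ∑ γ_{t-l} P^[l](c)`.
-/

set_option autoImplicit false
set_option linter.unusedSectionVars false

namespace Crest.Agent.R006.GaugeP555

open Polynomial Finset Crest.Agent.R006.NV Crest.Agent.R006.D Crest.Agent.R006.P8
  Crest.Agent.R006.ProdBound481 Crest.Agent.R006.P4Toll961

/-! ### Taylor bounds at a class -/

section TB

variable {p : ℕ} [hp : Fact p.Prime]

/-- `v_p (coeff_m P) ≥ max 0 (w - m)` for all `m` -/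
def TB (p : ℕ) (w : ℤ) (P : ℚ[X]) : Prop :=
  ∀ m : ℕ, padicNorm p (P.coeff m) ≤ (p : ℚ) ^ (-(max 0 (w - m)))

lemma TB.mono {w w' : ℤ} {P : ℚ[X]} (h : TB p w P) (hw : w' ≤ w) : TB p w' P := by
  intro m
  refine (h m).trans ?_
  refine zpow_le_zpow_right₀ (by exact_mod_cast hp.out.one_lt.le) ?_
  have : max 0 (w' - (m : ℤ)) ≤ max 0 (w - m) := max_le_max le_rfl (by linarith)
  linarith

lemma TB.one : TB p 0 (1 : ℚ[X]) := by
  intro m
  rw [coeff_one]
  have h0 : max 0 ((0 : ℤ) - m) = 0 := max_eq_left (by simp)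
  rw [h0, neg_zero, zpow_zero]
  split_ifs
  · rw [padicNorm.one]
  · rw [padicNorm.zero]; exact zero_le_one

lemma TB.mul {v w : ℤ} {P Q : ℚ[X]} (h1 : TB p v P) (h2 : TB p w Q) : TB p (v + w) (P * Q) := by
  intro m
  rw [coeff_mul]
  have key : ∀ s : Finset (ℕ × ℕ), (∀ x ∈ s, x.1 + x.2 = m) →
      padicNorm p (∑ x ∈ s, P.coeff x.1 * Q.coeff x.2) ≤ (p : ℚ) ^ (-(max 0 (v + w - m))) := by
    intro s
    classical
    induction s using Finset.induction_on with
    | empty =>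
      intro _
      rw [Finset.sum_empty, padicNorm.zero]
      exact (zpow_pos p_pos _).le
    | insert a s ha ih =>
      intro hs
      rw [Finset.sum_insert ha]
      refine padicNorm.nonarchimedean.trans
        (max_le ?_ (ih fun x hx => hs x (Finset.mem_insert_of_mem hx)))
      have ham : ((a.1 : ℕ) : ℤ) + a.2 = m := by
        exact_mod_cast hs a (Finset.mem_insert_self _ _)
      rw [padicNorm.mul]
      calc padicNorm p (P.coeff a.1) * padicNorm p (Q.coeff a.2)
          ≤ (p : ℚ) ^ (-(max 0 (v - a.1))) * (p : ℚ) ^ (-(max 0 (w - a.2))) :=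
            mul_le_mul (h1 _) (h2 _) (padicNorm.nonneg _) (zpow_pos p_pos _).le
        _ = (p : ℚ) ^ (-(max 0 (v - a.1)) + -(max 0 (w - a.2))) := by
            rw [zpow_add₀ p_pos.ne']
        _ ≤ (p : ℚ) ^ (-(max 0 (v + w - m))) := by
            refine zpow_le_zpow_right₀ (by exact_mod_cast hp.out.one_lt.le) ?_
            have e1 := le_max_left (0 : ℤ) (v - a.1)
            have e2 := le_max_right (0 : ℤ) (v - a.1)
            have e3 := le_max_left (0 : ℤ) (w - a.2)
            have e4 := le_max_right (0 : ℤ) (w - a.2)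
            have e5 : max 0 (v + w - m) ≤ max 0 (v - a.1) + max 0 (w - (a.2 : ℤ)) :=
              max_le (by linarith) (by linarith)
            linarith
  exact key _ fun x hx => by simpa using hx

lemma TB.prod {ι : Type*} (s : Finset ι) (w : ι → ℤ) (f : ι → ℚ[X])
    (h : ∀ i ∈ s, TB p (w i) (f i)) : TB p (∑ i ∈ s, w i) (∏ i ∈ s, f i) := by
  classical
  induction s using Finset.induction_on with
  | empty => simpa using TB.one
  | insert a s ha ih =>
    rw [Finset.sum_insert ha, Finset.prod_insert ha]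
    exact (h a (Finset.mem_insert_self _ _)).mul
      (ih fun i hi => h i (Finset.mem_insert_of_mem hi))

/-- a linear factor with a `p`-integral zero -/
lemma TB.linear {w : ℤ} (hw : w ≤ 1) {a : ℚ} (ha : padicNorm p a ≤ (p : ℚ) ^ (-(max 0 w))) :
    TB p w (X + C a) := by
  intro m
  rcases Nat.eq_zero_or_pos m with rfl | hm
  · simpa using ha
  · have hm1 : (1 : ℤ) ≤ m := by exact_mod_cast hm
    have h0 : max 0 (w - m) = 0 := max_eq_left (by linarith)
    rw [h0, neg_zero, zpow_zero, coeff_add, coeff_C, if_neg hm.ne', add_zero, coeff_X]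
    split_ifs
    · rw [padicNorm.one]
    · rw [padicNorm.zero]; exact zero_le_one

/-- `C (coeff_m P)` in the filtration -/
lemma TB.mem {w : ℤ} {P : ℚ[X]} (h : TB p w P) (m : ℕ) :
    C (P.coeff m) ∈ (pbFil p).F (max 0 (w - m)) := by
  rw [mem_pbFil]
  exact PB.C (h m)

end TB

/-! ### windows -/

/-- the product over a window of sites (`h = 0` integers, `h = 1` half-integers) -/
noncomputable def winP (s : Finset ℤ) (h : ℤ) : ℚ[X] := ∏ n ∈ s, (X - C ((n : ℚ) + h / 2))

section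

variable {p : ℕ} [hp : Fact p.Prime]

lemma norm_half (hp2 : p ≠ 2) (a : ℤ) : padicNorm p ((a : ℚ) / 2) ≤ 1 := by
  have h2 : padicNorm p (2 : ℚ) = 1 := by
    have := padicNorm.nat_eq_one_iff (p := p) 2
    rw [Nat.cast_ofNat] at this
    rw [this]
    intro hd
    exact hp2 ((Nat.prime_dvd_prime_iff_eq hp.out Nat.prime_two).mp hd)
  rw [padicNorm.div, h2, div_one]
  exact padicNorm.of_int a

lemma norm_half_dvd (hp2 : p ≠ 2) (a : ℤ) (h : (p : ℤ) ∣ a) :
    padicNorm p ((a : ℚ) / 2) ≤ (p : ℚ) ^ (-1 : ℤ) := by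
  obtain ⟨b, rfl⟩ := h
  have h1 : (((p * b : ℤ) : ℚ)) / 2 = p * ((b : ℚ) / 2) := by push_cast; ring
  rw [h1, padicNorm.mul, padicNorm.padicNorm_p hp.out.one_lt, zpow_neg_one]
  have := norm_half hp2 b
  have hp0 : (0 : ℚ) < (p : ℚ)⁻¹ := inv_pos.mpr p_pos
  nlinarith

/-- Taylor expansion at `c` of a window product -/
theorem taylor_winP (hp2 : p ≠ 2) (s : Finset ℤ) (h c : ℤ) :
    TB p ((s.filter (fun n => (p : ℤ) ∣ 2 * n + h - 2 * c)).card : ℤ)
      (taylor (c : ℚ) (winP s h)) := by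
  have h1 : taylor (c : ℚ) (winP s h) = ∏ n ∈ s, (X + C ((c : ℚ) - ((n : ℚ) + h / 2))) := by
    unfold winP
    rw [← taylorAlgHom_apply, map_prod]
    refine Finset.prod_congr rfl fun n _ => ?_
    rw [taylorAlgHom_apply, map_sub, taylor_X, taylor_C]
    rw [C_sub]; ring
  have h2 : ((s.filter (fun n => (p : ℤ) ∣ 2 * n + h - 2 * c)).card : ℤ)
      = ∑ n ∈ s, if (p : ℤ) ∣ 2 * n + h - 2 * c then (1 : ℤ) else 0 := by
    rw [Finset.sum_boole]
  rw [h1, h2]
  refine TB.prod s _ _ fun n _ => ?_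
  have h3 : (c : ℚ) - ((n : ℚ) + h / 2) = ((-(2 * n + h - 2 * c) : ℤ) : ℚ) / 2 := by
    push_cast; ring
  rw [h3]
  split_ifs with hd
  · refine TB.linear le_rfl ?_
    have := norm_half_dvd hp2 (-(2 * n + h - 2 * c)) ((dvd_neg).mpr hd)
    simpa using this
  · refine TB.linear zero_le_one ?_
    have := norm_half hp2 (-(2 * n + h - 2 * c))
    simpa using this

end

lemma desc_eq_prod (m : ℕ) : descPochhammer ℚ m = ∏ j ∈ range m, (X - C (j : ℚ)) := by
  induction m with
  | zero => simp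
  | succ m ih =>
    rw [descPochhammer_succ_right, ih, Finset.prod_range_succ]
    simp

/-- integer window starting at `0` -/
lemma desc_eq_winP (m : ℕ) : descPochhammer ℚ m = winP (Ico 0 (m : ℤ)) 0 := by
  rw [desc_eq_prod, winP]
  refine Finset.prod_bij (fun j _ => (j : ℤ)) ?_ ?_ ?_ ?_
  · intro j hj
    rw [Finset.mem_range] at hj
    rw [Finset.mem_Ico]
    omega
  · intro a _ b _ hab
    exact_mod_cast hab
  · intro b hb
    rw [Finset.mem_Ico] at hb
    exact ⟨b.toNat, by rw [Finset.mem_range]; omega, by omega⟩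
  · intro j _
    simp

/-- window ending at `0`, from the shifted falling factorial -/
lemma desc_comp_eq_winP (m : ℕ) (h : ℤ) :
    (descPochhammer ℚ m).comp (X + C ((m : ℚ) - h / 2)) = winP (Ico (-(m : ℤ)) 0) h := by
  rw [desc_eq_prod, Polynomial.prod_comp, winP]
  refine Finset.prod_bij (fun j _ => (j : ℤ) - m) ?_ ?_ ?_ ?_
  · intro j hj
    rw [Finset.mem_range] at hj
    rw [Finset.mem_Ico]
    omega
  · intro a _ b _ hab
    have : (a : ℤ) = b := by linarith
    exact_mod_cast this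
  · intro b hb
    rw [Finset.mem_Ico] at hb
    exact ⟨(b + m).toNat, by rw [Finset.mem_range]; omega, by omega⟩
  · intro j _
    rw [sub_comp, X_comp, C_comp, add_sub_assoc, sub_eq_add_neg X, ← C_sub, ← C_neg]
    congr 2
    push_cast
    ring

/-! ### the gauge -/

/-- the full gauge: all zeros of `R` -/
noncomputable def gaugeF (S : Shape) (u : ℕ) : ℚ[X] :=
  gaugeM S u * descPochhammer ℚ (S.a1 * u)

/-- the `R`-basis behind the gauge -/
noncomputable def bl (S : Shape) (u l : ℕ) : ℚ[X] :=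
  (descPochhammer ℚ l).comp (X - C ((S.a1 * u : ℕ) : ℚ))

lemma desc_add (m l : ℕ) :
    descPochhammer ℚ (m + l) = descPochhammer ℚ m * (descPochhammer ℚ l).comp (X - C (m : ℚ)) := by
  rw [desc_eq_prod, desc_eq_prod, desc_eq_prod, Finset.prod_range_add, Polynomial.prod_comp]
  congr 1
  refine Finset.prod_congr rfl fun j _ => ?_
  rw [sub_comp, X_comp, C_comp]
  push_cast
  rw [C_add]; ring

theorem polRM_eq (S : Shape) (u l : ℕ) : polRM S u l = gaugeF S u * bl S u l := by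
  unfold polRM gaugeF bl
  rw [desc_add, mul_assoc]

theorem gaugeF_eq (S : Shape) (u : ℕ) :
    gaugeF S u = (winP (Ico 0 (S.a2 * u : ℤ)) 0 * winP (Ico (-(S.i1 * u : ℤ)) 0) 1
      * winP (Ico (-(S.r1 * u : ℤ)) 0) 0) * winP (Ico 0 (S.a1 * u : ℤ)) 0 := by
  unfold gaugeF gaugeM
  have h1 := desc_comp_eq_winP (S.i1 * u) 1
  have h2 := desc_comp_eq_winP (S.r1 * u) 0
  have h3 := desc_eq_winP (S.a2 * u)
  have h4 := desc_eq_winP (S.a1 * u)
  push_cast at h1 h2 h3 h4 ⊢
  rw [h3, h4]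
  congr 2
  · congr 1
  · rw [← h2]
    congr 2
    simp

/-- the number of zeros of the gauge in the class `c` -/
noncomputable def zc (S : Shape) (u p : ℕ) (c : ℤ) : ℕ :=
  ((Ico (0 : ℤ) (S.a2 * u : ℤ)).filter (fun n => (p : ℤ) ∣ 2 * n + 0 - 2 * c)).card
  + ((Ico (-(S.i1 * u : ℤ)) 0).filter (fun n => (p : ℤ) ∣ 2 * n + 1 - 2 * c)).card
  + ((Ico (-(S.r1 * u : ℤ)) 0).filter (fun n => (p : ℤ) ∣ 2 * n + 0 - 2 * c)).card
  + ((Ico (0 : ℤ) (S.a1 * u : ℤ)).filter (fun n => (p : ℤ) ∣ 2 * n + 0 - 2 * c)).card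

lemma jst_zero (u p c : ℤ) (h0 : 0 ≤ c) (h1 : c < p) : jst 0 0 u p c = 0 := by
  have hp : 0 < p := by linarith
  apply le_antisymm
  · rw [ClsCountx764.jst_le_iff 0 0 u p c 0 hp]; nlinarith
  · by_contra h
    have h2 : jst 0 0 u p c ≤ -1 := by omega
    rw [ClsCountx764.jst_le_iff 0 0 u p c (-1) hp] at h2
    nlinarith

/-- **the number of gauge zeros of a class as `jst` differences** -/
theorem zc_eq (S : Shape) (u p : ℕ) (c : ℤ) (h0 : 0 ≤ c) (h1 : c < p) (hodd : p % 2 = 1) :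
    (zc S u p c : ℤ) = jst S.a2 0 u p c + (jst 0 1 u p c - jst (-(S.i1 : ℤ)) 1 u p c)
      - jst (-(S.r1 : ℤ)) 0 u p c + jst S.a1 0 u p c := by
  have hp : (0 : ℤ) < p := by linarith
  have ho : (p : ℤ) % 2 = 1 := by omega
  have hu : (0 : ℤ) ≤ u := by positivity
  have hz := jst_zero u p c h0 h1
  have e1 := ClsCountx764.card_cls' 0 S.a2 0 u p c hp ho (Or.inl rfl) (by
    have : (0 : ℤ) ≤ S.a2 * u := by positivity
    linarith)
  have e2 := ClsCountx764.card_cls' (-(S.i1 : ℤ)) 0 1 u p c hp ho (Or.inr rfl) (by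
    have : (0 : ℤ) ≤ S.i1 * u := by positivity
    linarith)
  have e3 := ClsCountx764.card_cls' (-(S.r1 : ℤ)) 0 0 u p c hp ho (Or.inl rfl) (by
    have : (0 : ℤ) ≤ S.r1 * u := by positivity
    linarith)
  have e4 := ClsCountx764.card_cls' 0 S.a1 0 u p c hp ho (Or.inl rfl) (by
    have : (0 : ℤ) ≤ S.a1 * u := by positivity
    linarith)
  rw [zero_mul] at e1 e2 e3 e4
  rw [neg_mul] at e2 e3
  unfold zc
  push_cast
  rw [e1, e2, e3, e4, hz]
  ring

section main

variable {p : ℕ} [hp : Fact p.Prime]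

/-- **the gauge vanishes to order `zc` on the class `c`** -/
theorem TB_gaugeF (hp2 : p ≠ 2) (S : Shape) (u : ℕ) (c : ℤ) :
    TB p (zc S u p c) (taylor (c : ℚ) (gaugeF S u)) := by
  rw [gaugeF_eq, taylor_mul, taylor_mul, taylor_mul]
  have h := (((taylor_winP hp2 (Ico (0 : ℤ) (S.a2 * u : ℤ)) 0 c).mul
    (taylor_winP hp2 (Ico (-(S.i1 * u : ℤ)) 0) 1 c)).mul
    (taylor_winP hp2 (Ico (-(S.r1 * u : ℤ)) 0) 0 c)).mul
    (taylor_winP hp2 (Ico (0 : ℤ) (S.a1 * u : ℤ)) 0 c)
  refine h.mono (le_of_eq ?_)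
  unfold zc
  push_cast
  ring

theorem taylor_gaugeF_mem (hp2 : p ≠ 2) (S : Shape) (u : ℕ) (c : ℤ) (m : ℕ) :
    C ((taylor (c : ℚ) (gaugeF S u)).coeff m) ∈ (pbFil p).F (max 0 ((zc S u p c : ℤ) - m)) :=
  (TB_gaugeF hp2 S u c).mem m

lemma int_winP_TB (s : Finset ℤ) (c : ℤ) : TB p 0 (taylor (c : ℚ) (winP s 0)) := by
  have h1 : taylor (c : ℚ) (winP s 0) = ∏ n ∈ s, (X + C (((c - n : ℤ) : ℚ))) := by
    unfold winP
    rw [← taylorAlgHom_apply, map_prod]
    refine Finset.prod_congr rfl fun n _ => ?_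
    rw [taylorAlgHom_apply, map_sub, taylor_X, taylor_C]
    push_cast
    rw [zero_div, add_zero, C_sub]; ring
  rw [h1]
  have := TB.prod (p := p) s (fun _ => 0) (fun n => X + C (((c - n : ℤ) : ℚ))) fun n _ =>
    TB.linear zero_le_one (by simpa using padicNorm.of_int (p := p) (c - n))
  simpa using this

theorem taylor_desc_mem (l : ℕ) (c : ℤ) (m : ℕ) :
    C ((taylor (c : ℚ) (descPochhammer ℚ l)).coeff m) ∈ (pbFil p).F 0 := by
  rw [desc_eq_winP]
  have := (int_winP_TB (p := p) (Ico 0 (l : ℤ)) c).mem m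
  simpa using this

theorem taylor_bl_mem (S : Shape) (u l : ℕ) (c : ℤ) (m : ℕ) :
    C ((taylor (c : ℚ) (bl S u l)).coeff m) ∈ (pbFil p).F 0 := by
  have h : taylor (c : ℚ) (bl S u l)
      = taylor (((c - (S.a1 * u : ℕ) : ℤ)) : ℚ) (descPochhammer ℚ l) := by
    unfold bl
    rw [taylor_apply, taylor_apply, comp_assoc]
    congr 1
    simp only [sub_comp, X_comp, C_comp]
    push_cast
    rw [C_sub]; ring
  rw [h]
  exact taylor_desc_mem l _ m

/-- the Taylor coefficients of the monic `R`-basis through the `P`-states -/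
theorem taylor_polRM (S : Shape) (u l : ℕ) (c : ℚ) (t : ℕ) :
    (taylor c (polRM S u l)).coeff t = ∑ x ∈ antidiagonal t,
      (taylor c (gaugeF S u)).coeff x.1 * (taylor c (bl S u l)).coeff x.2 := by
  rw [polRM_eq, taylor_mul, coeff_mul]

end main

end Crest.Agent.R006.GaugeP555
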