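import Mathlib

/-!
# Row 6, block P6, lemma (H2): divided differences at `0, 1, .., m-1` (helper909)

`dd m H` = coefficient of `X^(m-1)` in `H mod X (X-1) .. (X-m+1)` = divided difference
`[H; 0, 1, .., m-1]`, a linear functional over an arbitrary commutative ring.
-/

set_option autoImplicit false

namespace Crest.Agent.R006.H2x909

open Polynomial Finset

variable {A B : Type*} [CommRing A] [CommRing B]

/-- `X (X-1) .. (X-m+1)` -/
noncomputable def nd (A : Type*) [CommRing A] (m : ℕ) : A[X] := ∏ i ∈ range m, (X - C (i : A))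

theorem nd_zero : nd A 0 = 1 := by simp [nd]

theorem nd_succ (m : ℕ) : nd A (m + 1) = nd A m * (X - C (m : A)) := by
  rw [nd, prod_range_succ, nd]

theorem nd_succ' (m : ℕ) : nd A (m + 1) = X * (nd A m).comp (X - 1) := by
  rw [nd, prod_range_succ', nd, Polynomial.prod_comp, mul_comm]
  congr 1
  · simp
  · refine prod_congr rfl fun i _ => ?_
    rw [sub_comp, X_comp, C_comp]
    push_cast
    rw [C_add, C_1]; ring

theorem nd_monic (m : ℕ) : (nd A m).Monic :=
  monic_prod_of_monic _ _ fun _ _ => monic_X_sub_C _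

theorem nd_natDegree [Nontrivial A] (m : ℕ) : (nd A m).natDegree = m := by
  rw [nd, natDegree_prod_of_monic _ _ fun _ _ => monic_X_sub_C _]
  simp only [natDegree_X_sub_C, sum_const, card_range, smul_eq_mul, mul_one]

theorem nd_degree [Nontrivial A] (m : ℕ) : (nd A m).degree = m := by
  rw [degree_eq_natDegree (nd_monic m).ne_zero, nd_natDegree]

theorem nd_map (φ : A →+* B) (m : ℕ) : (nd A m).map φ = nd B m := by
  rw [nd, Polynomial.map_prod, nd]
  refine prod_congr rfl fun i _ => ?_
  simp

/-- the divided difference `[H; 0, 1, .., m-1]` -/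
noncomputable def dd (m : ℕ) : A[X] →ₗ[A] A :=
  (lcoeff A (m - 1)).comp (modByMonicHom (nd A m))

theorem dd_apply (m : ℕ) (H : A[X]) : dd m H = (H %ₘ nd A m).coeff (m - 1) := rfl

theorem dd_of_eq [Nontrivial A] {m : ℕ} {H Q r : A[X]} (h : r + nd A m * Q = H)
    (hr : r.degree < m) : dd m H = r.coeff (m - 1) := by
  rw [dd_apply]
  rw [(div_modByMonic_unique Q r (nd_monic m) ⟨h, by rwa [nd_degree]⟩).2]

theorem dd_map [Nontrivial A] [Nontrivial B] (φ : A →+* B) (m : ℕ) (H : A[X]) :
    dd m (H.map φ) = φ (dd m H) := by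
  rw [dd_apply, dd_apply, ← nd_map φ, ← map_modByMonic φ (nd_monic m), coeff_map]

theorem dd_C_mul (m : ℕ) (c : A) (H : A[X]) : dd m (C c * H) = c * dd m H := by
  rw [← smul_eq_C_mul, map_smul, smul_eq_mul]

theorem dd_zero_left (H : A[X]) : dd 0 H = 0 := by
  rw [dd_apply, nd_zero, modByMonic_one]; simp

theorem dd_eq_zero [Nontrivial A] {m : ℕ} {H : A[X]} (h : H.natDegree + 1 < m) : dd m H = 0 := by
  have h1 : dd m H = H.coeff (m - 1) := by
    refine dd_of_eq (Q := 0) (by simp) ?_
    refine degree_le_natDegree.trans_lt ?_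
    exact_mod_cast (by omega : H.natDegree < m)
  rw [h1]
  exact coeff_eq_zero_of_natDegree_lt (by omega)

theorem dd_eq_coeff [Nontrivial A] {m : ℕ} {H : A[X]} (h : H.natDegree + 1 = m) :
    dd m H = H.coeff (m - 1) := by
  refine dd_of_eq (Q := 0) (by simp) ?_
  refine degree_le_natDegree.trans_lt ?_
  exact_mod_cast (by omega : H.natDegree < m)

theorem dd_eq_coeff' [Nontrivial A] {m : ℕ} {H : A[X]} (h : H.natDegree < m) :
    dd m H = H.coeff (m - 1) := by
  refine dd_of_eq (Q := 0) (by simp) ?_
  refine degree_le_natDegree.trans_lt ?_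
  exact_mod_cast h

/-- top coefficient of a shifted polynomial -/
theorem coeff_comp_sub_one [Nontrivial A] {n : ℕ} {r : A[X]} (h : r.natDegree ≤ n) (c : A) :
    (r.comp (X + C c)).coeff n = r.coeff n := by
  have h1 : (X + C c : A[X]).Monic := monic_X_add_C c
  have e : r.comp (X + C c) = ∑ i ∈ range (n + 1), C (r.coeff i) * (X + C c) ^ i := by
    conv_lhs => rw [comp, eval₂_eq_sum_range' C (Nat.lt_succ_of_le h)]
  rw [e, finsetSum_coeff, sum_range_succ, sum_eq_zero, zero_add, coeff_C_mul]
  · have : ((X + C c : A[X]) ^ n).coeff n = 1 := by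
      have h2 : ((X + C c : A[X]) ^ n).natDegree = n := by
        rw [h1.natDegree_pow, natDegree_X_add_C, mul_one]
      have h3 := (h1.pow n).coeff_natDegree
      rwa [h2] at h3
    rw [this, mul_one]
  · intro i hi
    rw [mem_range] at hi
    rw [coeff_C_mul]
    have : ((X + C c : A[X]) ^ i).coeff n = 0 := by
      apply coeff_eq_zero_of_natDegree_lt
      rw [h1.natDegree_pow, natDegree_X_add_C, mul_one]
      exact hi
    rw [this, mul_zero]

theorem dd_last [Nontrivial A] (m : ℕ) (H : A[X]) :
    dd (m + 1) ((X - C (m : A)) * H) = dd m H := by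
  rcases Nat.eq_zero_or_pos m with h0 | h0
  · subst h0
    rw [dd_zero_left]
    rw [dd_of_eq (r := 0) (Q := H) (m := 1)]
    · simp
    · rw [nd_succ, nd_zero]; simp
    · rw [degree_zero]; exact WithBot.bot_lt_coe _
  · set r := H %ₘ nd A m with hr
    have hdeg : r.degree < m := by
      rw [hr, ← nd_degree (A := A) m]; exact degree_modByMonic_lt _ (nd_monic m)
    have e : (X - C (m : A)) * r + nd A (m + 1) * (H /ₘ nd A m) = (X - C (m : A)) * H := by
      rw [nd_succ]
      have := modByMonic_add_div H (nd A m)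
      linear_combination (X - C (m : A)) * this
    rw [dd_of_eq e, dd_apply, ← hr]
    · obtain ⟨k, rfl⟩ : ∃ k, m = k + 1 := ⟨m - 1, by omega⟩
      have h2 : r.coeff (k + 1) = 0 := coeff_eq_zero_of_degree_lt hdeg
      simp only [Nat.add_sub_cancel]
      rw [sub_mul, coeff_sub, coeff_X_mul, coeff_C_mul, h2, mul_zero, sub_zero]
    · by_cases hr0 : r = 0
      · rw [hr0, mul_zero, degree_zero]; exact WithBot.bot_lt_coe _
      · refine (degree_mul_le _ _).trans_lt ?_
        rw [degree_X_sub_C]
        rw [degree_eq_natDegree hr0] at hdeg ⊢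
        have : r.natDegree < m := by exact_mod_cast hdeg
        exact_mod_cast (by omega : 1 + r.natDegree < m + 1)

theorem dd_first [Nontrivial A] (m : ℕ) (H : A[X]) :
    dd (m + 1) (X * H) = dd m (H.comp (X + 1)) := by
  set G := H.comp (X + 1) with hG
  have hH : H = G.comp (X - 1) := by
    rw [hG, comp_assoc]; simp
  rcases Nat.eq_zero_or_pos m with h0 | h0
  · subst h0
    rw [dd_zero_left]
    rw [dd_of_eq (r := 0) (Q := H) (m := 1)]
    · simp
    · rw [nd_succ, nd_zero]; simp
    · rw [degree_zero]; exact WithBot.bot_lt_coe _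
  · set r := G %ₘ nd A m with hr
    have hdeg : r.degree < m := by
      rw [hr, ← nd_degree (A := A) m]; exact degree_modByMonic_lt _ (nd_monic m)
    have hnat : r.natDegree < m := by
      by_cases hr0 : r = 0
      · rw [hr0, natDegree_zero]; exact h0
      · rw [degree_eq_natDegree hr0] at hdeg; exact_mod_cast hdeg
    have e : X * r.comp (X - 1) + nd A (m + 1) * (G /ₘ nd A m).comp (X - 1) = X * H := by
      rw [nd_succ', hH]
      have := congrArg (fun p : A[X] => p.comp (X - 1)) (modByMonic_add_div G (nd A m))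
      simp only [add_comp, mul_comp] at this
      rw [hr]
      linear_combination X * this
    have hn : (r.comp (X - 1)).natDegree ≤ m - 1 := by
      refine natDegree_comp_le.trans ?_
      have : (X - 1 : A[X]).natDegree ≤ 1 := by
        have := natDegree_X_sub_C (R := A) (1 : A)
        rw [C_1] at this
        exact this.le
      calc r.natDegree * (X - 1 : A[X]).natDegree ≤ r.natDegree * 1 := Nat.mul_le_mul_left _ this
        _ ≤ m - 1 := by omega
    rw [dd_of_eq e, dd_apply, ← hr]
    · obtain ⟨k, rfl⟩ : ∃ k, m = k + 1 := ⟨m - 1, by omega⟩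
      simp only [Nat.add_sub_cancel]
      rw [coeff_X_mul]
      have := coeff_comp_sub_one (A := A) (n := k) (r := r) (by omega) (-1)
      rw [C_neg, C_1, ← sub_eq_add_neg] at this
      exact this
    · refine degree_le_natDegree.trans_lt ?_
      have : (X * r.comp (X - 1)).natDegree ≤ 1 + (m - 1) := by
        refine natDegree_mul_le.trans ?_
        have := natDegree_X_le (R := A)
        omega
      exact_mod_cast (by omega : (X * r.comp (X - 1)).natDegree < m + 1)

/-- `[X (X-1) H; 0..m+1] = [H(X+2); 0..m-1]` -/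
theorem dd_two [Nontrivial A] (m : ℕ) (H : A[X]) :
    dd (m + 2) (X * (X - 1) * H) = dd m (H.comp (X + 2)) := by
  rw [mul_assoc, dd_first, mul_comp, sub_comp, X_comp, one_comp]
  rw [show (X + 1 - 1 : A[X]) = X by ring, dd_first, comp_assoc]
  congr 2
  simp only [add_comp, X_comp, one_comp]
  ring

theorem dd_nd_two (H : A[X]) [Nontrivial A] : dd 2 (X * (X - 1) * H) = 0 := by
  rw [dd_two, dd_zero_left]

end Crest.Agent.R006.H2x909
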