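import Mathlib
import Crest.Agent.R006.H2_DD_909

/-!
# Row 6, block P6, lemma (H2): the truncated functionals `LK K a` (helper909)

`LK K a F = ∑_{k<K} [F U_k^a; 0..2k+1]`, `U_k^a = ∏_{i=1}^k (2s+1-2i+a)^2`.
* `LK_two` : `LK (K+1) a (X (X-1) P) = LK K (a+2) ((2X+3+a)^2 P(X+2))`;
* `LK_wz` : `LK K 0 (X^3 P + (2X+1)^3 P(X+1))` is a boundary term (WZ certificate);
* `LK_tail`, `pow_two_dvd_dd` : 2-adic smallness.
-/

set_option autoImplicit false

namespace Crest.Agent.R006.H2x909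

open Polynomial Finset

variable {A : Type*} [CommRing A]

/-- coefficient of `X^m` divisible by `2^(m-j)` -/
def TP (G : A[X]) (j : ℕ) : Prop := ∀ m, (2 : A) ^ (m - j) ∣ G.coeff m

theorem TP.of_natDegree_le {G : A[X]} {j : ℕ} (h : G.natDegree ≤ j) : TP G j := by
  intro m
  rcases le_or_gt m j with h1 | h1
  · rw [Nat.sub_eq_zero_of_le h1, pow_zero]; exact one_dvd _
  · rw [coeff_eq_zero_of_natDegree_lt (by omega)]; exact dvd_zero _

theorem TP.mono {G : A[X]} {j j' : ℕ} (h : TP G j) (hj : j ≤ j') : TP G j' := fun m =>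
  (pow_dvd_pow _ (by omega)).trans (h m)

theorem TP.add {G H : A[X]} {j : ℕ} (h : TP G j) (h' : TP H j) : TP (G + H) j := fun m => by
  rw [coeff_add]; exact dvd_add (h m) (h' m)

theorem TP.sub {G H : A[X]} {j : ℕ} (h : TP G j) (h' : TP H j) : TP (G - H) j := fun m => by
  rw [coeff_sub]; exact dvd_sub (h m) (h' m)

theorem TP.mul {G H : A[X]} {j j' : ℕ} (h : TP G j) (h' : TP H j') : TP (G * H) (j + j') := by
  intro m
  rw [coeff_mul]
  refine dvd_sum fun x hx => ?_
  rw [HasAntidiagonal.mem_antidiagonal] at hx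
  have h1 : (2 : A) ^ ((x.1 - j) + (x.2 - j')) ∣ G.coeff x.1 * H.coeff x.2 := by
    rw [pow_add]; exact mul_dvd_mul (h _) (h' _)
  exact (pow_dvd_pow _ (by omega)).trans h1

theorem TP.one : TP (1 : A[X]) 0 := TP.of_natDegree_le (by simp)

theorem TP.pow {G : A[X]} (h : TP G 0) (n : ℕ) : TP (G ^ n) 0 := by
  induction n with
  | zero => rw [pow_zero]; exact TP.one
  | succ n ih => rw [pow_succ]; exact ih.mul h

theorem TP.prod {ι : Type*} (s : Finset ι) (G : ι → A[X]) (h : ∀ i ∈ s, TP (G i) 0) :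
    TP (∏ i ∈ s, G i) 0 := by
  classical
  induction s using Finset.induction_on with
  | empty => rw [prod_empty]; exact TP.one
  | insert i s hi ih =>
    rw [prod_insert hi]
    exact (h i (mem_insert_self _ _)).mul (ih fun k hk => h k (mem_insert_of_mem hk))

/-- `2 X + c` -/
theorem TP.lin (c : A) : TP (C 2 * X + C c) 0 := by
  intro m
  rcases m with _ | _ | m
  · simp
  · simp [coeff_C]
  · have : (C 2 * X + C c : A[X]).coeff (m + 2) = 0 := by
      apply coeff_eq_zero_of_natDegree_lt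
      have h1 : (C 2 * X + C c : A[X]).natDegree ≤ 1 := by compute_degree
      omega
    rw [this]; exact dvd_zero _

/-- `U_k^a = ∏_{i<k} (2X + a - 1 - 2i)^2` -/
noncomputable def U (k : ℕ) (a : A) : A[X] := ∏ i ∈ range k, (C 2 * X + C (a - 1 - 2 * (i : A))) ^ 2

theorem U_zero (a : A) : U 0 a = 1 := by simp [U]

theorem U_succ (k : ℕ) (a : A) :
    U (k + 1) a = U k a * (C 2 * X + C (a - 1 - 2 * (k : A))) ^ 2 := by
  rw [U, prod_range_succ, U]

theorem U_succ' (k : ℕ) (a : A) :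
    U (k + 1) a = (C 2 * X + C (a - 1)) ^ 2 * (U k a).comp (X - 1) := by
  rw [U, prod_range_succ', U, Polynomial.prod_comp, mul_comm]
  congr 1
  · simp
  · refine prod_congr rfl fun i _ => ?_
    rw [pow_comp, add_comp, mul_comp, C_comp, X_comp, C_comp]
    congr 1
    push_cast
    simp only [C_sub, C_mul, C_add, C_1]
    ring

theorem U_comp_two (k : ℕ) (a : A) :
    (U (k + 1) a).comp (X + 2) = (C 2 * X + C (a + 3)) ^ 2 * U k (a + 2) := by
  have h2 : (C (2 : A) : A[X]) = 2 := map_ofNat C 2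
  rw [U, prod_range_succ', U, mul_comp, Polynomial.prod_comp, mul_comm]
  congr 1
  · rw [pow_comp, add_comp, mul_comp, C_comp, X_comp, C_comp]
    congr 1
    push_cast
    simp only [C_sub, C_mul, C_add, C_1, C_0, h2, map_ofNat]
    ring
  · refine prod_congr rfl fun i _ => ?_
    rw [pow_comp, add_comp, mul_comp, C_comp, X_comp, C_comp]
    congr 1
    push_cast
    simp only [C_sub, C_mul, C_add, C_1, h2]
    ring

theorem U_TP (k : ℕ) (a : A) : TP (U k a) 0 :=
  TP.prod _ _ fun _ _ => (TP.lin _).pow 2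

theorem U_natDegree_le (k : ℕ) (a : A) : (U k a).natDegree ≤ 2 * k := by
  unfold U
  refine (natDegree_prod_le _ _).trans ?_
  calc ∑ i ∈ range k, ((C 2 * X + C (a - 1 - 2 * (i : A))) ^ 2 : A[X]).natDegree
      ≤ ∑ _i ∈ range k, 2 := by
        refine sum_le_sum fun i _ => ?_
        refine natDegree_pow_le.trans ?_
        have : (C 2 * X + C (a - 1 - 2 * (i : A)) : A[X]).natDegree ≤ 1 := by compute_degree
        omega
    _ = 2 * k := by simp [mul_comm]

/-- 2-adic smallness of a divided difference -/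
theorem pow_two_dvd_dd [Nontrivial A] {m j : ℕ} {H : A[X]} (h : TP H j) :
    (2 : A) ^ (m - 1 - j) ∣ dd m H := by
  rcases Nat.lt_or_ge m 2 with hm | hm
  · have : m - 1 - j = 0 := by omega
    rw [this, pow_zero]; exact one_dvd _
  · have e : dd m H = ∑ i ∈ range (H.natDegree + 1), H.coeff i * dd m (X ^ i) := by
      conv_lhs => rw [H.as_sum_range_C_mul_X_pow]
      rw [map_sum]
      refine sum_congr rfl fun i _ => ?_
      rw [dd_C_mul]
    rw [e]
    refine dvd_sum fun i _ => ?_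
    rcases Nat.lt_or_ge i (m - 1) with hi | hi
    · have : dd m (X ^ i : A[X]) = 0 := by
        apply dd_eq_zero
        rw [natDegree_X_pow]; omega
      rw [this, mul_zero]; exact dvd_zero _
    · apply Dvd.dvd.mul_right
      exact (pow_dvd_pow _ (by omega)).trans (h i)

/-- the truncated functional -/
noncomputable def LK (K : ℕ) (a : A) : A[X] →ₗ[A] A :=
  ∑ k ∈ range K, (dd (2 * k + 2)).comp (LinearMap.mulRight A (U k a))

theorem LK_apply (K : ℕ) (a : A) (F : A[X]) :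
    LK K a F = ∑ k ∈ range K, dd (2 * k + 2) (F * U k a) := by
  simp [LK, LinearMap.sum_apply]

theorem LK_C_mul (K : ℕ) (a c : A) (F : A[X]) : LK K a (C c * F) = c * LK K a F := by
  rw [← smul_eq_C_mul, map_smul, smul_eq_mul]

/-- the two-step identity -/
theorem LK_two [Nontrivial A] (K : ℕ) (a : A) (P : A[X]) :
    LK (K + 1) a (X * (X - 1) * P) = LK K (a + 2) ((C 2 * X + C (a + 3)) ^ 2 * P.comp (X + 2)) := by
  rw [LK_apply, LK_apply, sum_range_succ']
  have h0 : dd (2 * 0 + 2) (X * (X - 1) * P * U 0 a) = 0 := by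
    rw [mul_assoc]; exact dd_nd_two _
  rw [h0, add_zero]
  refine sum_congr rfl fun k _ => ?_
  rw [show 2 * (k + 1) + 2 = 2 * k + 2 + 2 by ring, mul_assoc, dd_two, mul_comp, U_comp_two]
  congr 1
  ring

/-- change of truncation -/
theorem LK_tail [Nontrivial A] {K K' : ℕ} (h : K ≤ K') (a : A) {F : A[X]} {j : ℕ} (hF : TP F j) :
    (2 : A) ^ (2 * K + 1 - j) ∣ LK K' a F - LK K a F := by
  obtain ⟨i, rfl⟩ := Nat.exists_eq_add_of_le h
  rw [LK_apply, LK_apply, sum_range_add, add_sub_cancel_left]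
  refine dvd_sum fun k _ => ?_
  have := pow_two_dvd_dd (m := 2 * (K + k) + 2) (hF.mul (U_TP (K + k) a))
  exact (pow_dvd_pow _ (by omega)).trans this

/-- the WZ step -/
theorem wz_step [Nontrivial A] (k : ℕ) (P : A[X]) :
    dd (2 * k + 2) ((X ^ 3 * P + (2 * X + 1) ^ 3 * P.comp (X + 1)) * U k 0)
      = dd (2 * (k + 1) + 1) (X * (P * (3 * X - 1 - C (2 * ((k + 1 : ℕ) : A)))) * U (k + 1) 0)
        - dd (2 * k + 1) (X * (P * (3 * X - 1 - C (2 * (k : A)))) * U k 0) := by
  have h2 : (C (2 : A) : A[X]) = 2 := map_ofNat C 2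
  -- first part
  have e1 : dd (2 * k + 2) (X ^ 3 * P * U k 0)
      = dd (2 * k + 3) ((X - C ((2 * k + 2 : ℕ) : A)) * (X ^ 3 * P * U k 0)) := by
    rw [dd_last]
  -- second part
  have e2 : dd (2 * k + 2) ((2 * X + 1) ^ 3 * P.comp (X + 1) * U k 0)
      = dd (2 * k + 3) (X * ((2 * X - 1) ^ 3 * P * (U k 0).comp (X - 1))) := by
    rw [dd_first]
    congr 1
    simp only [mul_comp, pow_comp, sub_comp, X_comp, ofNat_comp, one_comp, comp_assoc]
    rw [show (X + 1 - 1 : A[X]) = X by ring, comp_X]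
    ring
  have e3 : dd (2 * k + 1) (X * (P * (3 * X - 1 - C (2 * (k : A)))) * U k 0)
      = dd (2 * k + 3) ((X - C ((2 * k + 2 : ℕ) : A)) * ((X - C ((2 * k + 1 : ℕ) : A)) *
          (X * (P * (3 * X - 1 - C (2 * (k : A)))) * U k 0))) := by
    rw [dd_last, dd_last]
  have u1 := U_succ (A := A) k 0
  have u2 := U_succ' (A := A) k 0
  rw [add_mul, map_add, e1, e2, e3, show 2 * (k + 1) + 1 = 2 * k + 3 by ring, ← map_add, ← map_sub]
  congr 1
  rw [u1]
  have u3 : (2 * X - 1 : A[X]) ^ 2 * (U k 0).comp (X - 1)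
      = U k 0 * (2 * X - 1 - C (2 * (k : A))) ^ 2 := by
    rw [u1] at u2
    simp only [C_sub, C_neg, C_1, h2, zero_sub] at u2 ⊢
    linear_combination -u2
  have u4 : (C 2 * X + C (0 - 1 - 2 * (k : A)) : A[X]) = 2 * X - 1 - C (2 * (k : A)) := by
    simp only [C_sub, C_neg, C_1, h2, zero_sub]; ring
  rw [u4]
  have c1 : (C ((2 * k + 2 : ℕ) : A) : A[X]) = C (2 * (k : A)) + 2 := by
    push_cast; rw [C_add, h2]
  have c2 : (C ((2 * k + 1 : ℕ) : A) : A[X]) = C (2 * (k : A)) + 1 := by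
    push_cast; rw [C_add, C_1]
  have c3 : (C (2 * ((k + 1 : ℕ) : A)) : A[X]) = C (2 * (k : A)) + 2 := by
    push_cast; rw [mul_add, C_add, mul_one, h2]
  rw [c1, c2, c3]
  linear_combination X * (2 * X - 1) * P * u3

theorem LK_wz [Nontrivial A] (K : ℕ) (P : A[X]) :
    LK K 0 (X ^ 3 * P + (2 * X + 1) ^ 3 * P.comp (X + 1))
      = dd (2 * K + 1) (X * (P * (3 * X - 1 - C (2 * (K : A)))) * U K 0) := by
  rw [LK_apply]
  induction K with
  | zero =>
    rw [range_zero, sum_empty, mul_assoc, show 2 * 0 + 1 = 0 + 1 by ring, dd_first, dd_zero_left]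
  | succ K ih =>
    rw [sum_range_succ, ih, wz_step]
    ring

end Crest.Agent.R006.H2x909
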