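import Mathlib
import Crest.Agent.R006.H2_LK_909
import Crest.Agent.R006.FuncL_170

/-!
# Row 6, block P6, lemma (H2): the functional of `psi_oo` is the 2-adic limit of `LK K 0` (helper909)

`a` = moments of `2 psi_oo`: key identity and `a 0 = 0`, `3 a 1 = -1`, `27 a 2 = 7`.
-/

set_option autoImplicit false

namespace Crest.Agent.R006.H2x909

open Polynomial Finset Crest.Agent.R006.FuncLx170

variable {A : Type*} [CommRing A]

theorem coeff_U_top (k : ℕ) : (U k (0 : A)).coeff (2 * k) = 4 ^ k ∧
    (X * U k (0 : A)).coeff (2 * k) = -((k : A) ^ 2) * 4 ^ k := by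
  have h2 : (C (2 : A) : A[X]) = 2 := map_ofNat C 2
  induction k with
  | zero => simp [U_zero]
  | succ k ih =>
    obtain ⟨h1, h3⟩ := ih
    have hd : (U k (0 : A)).natDegree ≤ 2 * k := U_natDegree_le k 0
    have z1 : (U k (0 : A)).coeff (2 * k + 1) = 0 := coeff_eq_zero_of_natDegree_lt (by omega)
    have z2 : (U k (0 : A)).coeff (2 * k + 2) = 0 := coeff_eq_zero_of_natDegree_lt (by omega)
    have e : U (k + 1) (0 : A) = C 4 * (X * (X * U k 0)) + C (4 * (-1 - 2 * (k : A))) * (X * U k 0)
        + C ((-1 - 2 * (k : A)) ^ 2) * U k 0 := by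
      rw [U_succ]
      have : (C (4 : A) : A[X]) = 2 * 2 := by rw [← h2, ← C_mul]; norm_num
      simp only [C_sub, C_mul, C_neg, C_1, h2, zero_sub, C_pow, this]
      ring
    constructor
    · rw [e, show 2 * (k + 1) = 2 * k + 1 + 1 by ring]
      simp only [coeff_add, coeff_C_mul, coeff_X_mul, h1, z1, z2]
      ring
    · rw [e, show 2 * (k + 1) = 2 * k + 1 + 1 by ring]
      have e2 : X * (C 4 * (X * (X * U k 0)) + C (4 * (-1 - 2 * (k : A))) * (X * U k 0)
        + C ((-1 - 2 * (k : A)) ^ 2) * U k 0) = C 4 * (X * (X * (X * U k 0)))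
          + C (4 * (-1 - 2 * (k : A))) * (X * (X * U k 0))
          + C ((-1 - 2 * (k : A)) ^ 2) * (X * U k 0) := by ring
      rw [e2]
      rw [coeff_add, coeff_add, coeff_C_mul, coeff_C_mul, coeff_C_mul, coeff_X_mul, coeff_X_mul,
        h3, coeff_X_mul, coeff_X_mul, h1, coeff_X_mul, z1]
      push_cast
      ring

theorem dd_top [Nontrivial A] {m : ℕ} (hm : 0 < m) {H : A[X]} (h : H.natDegree ≤ m) :
    dd m H = H.coeff (m - 1) + H.coeff m * ∑ i ∈ range m, (i : A) := by
  have h1 : (nd A m).coeff (m - 1) = -∑ i ∈ range m, (i : A) := by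
    have := prod_X_sub_C_coeff_card_pred (range m) (fun i => (i : A)) (by simpa using hm)
    rwa [card_range] at this
  have h2 : (nd A m).coeff m = 1 := by
    have := (nd_monic (A := A) m).coeff_natDegree
    rwa [nd_natDegree] at this
  have e : (H - C (H.coeff m) * nd A m) + nd A m * C (H.coeff m) = H := by ring
  rw [dd_of_eq e, coeff_sub, coeff_C_mul, h1]
  · ring
  · rw [degree_lt_iff_coeff_zero]
    intro k hk
    rw [coeff_sub, coeff_C_mul]
    rcases Nat.eq_or_lt_of_le hk with hk | hk
    · rw [← hk, h2]; ring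
    · have z1 : H.coeff k = 0 := coeff_eq_zero_of_natDegree_lt (by omega)
      have z2 : (nd A m).coeff k = 0 := coeff_eq_zero_of_natDegree_lt (by
        rw [nd_natDegree]; exact hk)
      rw [z1, z2]; ring

theorem LK_one [Nontrivial A] (K : ℕ) : LK K (0 : A) 1 = 0 := by
  rw [LK_apply]
  refine sum_eq_zero fun k _ => ?_
  apply dd_eq_zero
  rw [one_mul]
  have := U_natDegree_le k (0 : A)
  omega

theorem LK_X [Nontrivial A] (K : ℕ) : 3 * LK K (0 : A) X = 4 ^ K - 1 := by
  have h : ∀ k, dd (2 * k + 2) (X * U k (0 : A)) = 4 ^ k := by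
    intro k
    rw [dd_eq_coeff']
    · rw [show 2 * k + 2 - 1 = 2 * k + 1 by omega, coeff_X_mul]; exact (coeff_U_top k).1
    · have := U_natDegree_le k (0 : A)
      have h1 : (X * U k (0 : A)).natDegree ≤ 1 + 2 * k :=
        natDegree_mul_le.trans (Nat.add_le_add natDegree_X_le this)
      omega
  rw [LK_apply]
  induction K with
  | zero => simp
  | succ K ih => rw [sum_range_succ, mul_add, ih, h]; ring

theorem LK_X2 [Nontrivial A] (K : ℕ) :
    27 * LK K (0 : A) (X ^ 2) = 4 ^ K * (9 * (K : A) ^ 2 + 3 * K - 7) + 7 := by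
  have hs : ∀ k : ℕ, ∑ i ∈ range (2 * k + 2), (i : A) = (k + 1) * (2 * k + 1) := by
    intro k
    induction k with
    | zero => simp [sum_range_succ]
    | succ k ih =>
      rw [show 2 * (k + 1) + 2 = 2 * k + 2 + 1 + 1 by ring, sum_range_succ, sum_range_succ, ih]
      push_cast; ring
  have h : ∀ k, dd (2 * k + 2) (X ^ 2 * U k (0 : A)) = 4 ^ k * ((k : A) ^ 2 + 3 * k + 1) := by
    intro k
    have hd := U_natDegree_le k (0 : A)
    rw [pow_two, mul_assoc, dd_top (by omega), hs]
    · rw [show 2 * k + 2 - 1 = 2 * k + 1 by omega, show 2 * k + 2 = 2 * k + 1 + 1 by ring]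
      rw [coeff_X_mul, coeff_X_mul, coeff_X_mul, (coeff_U_top k).1, (coeff_U_top k).2]
      ring
    · have h1 : (X * U k (0 : A)).natDegree ≤ 1 + 2 * k :=
        natDegree_mul_le.trans (Nat.add_le_add natDegree_X_le hd)
      have h2 : (X * (X * U k (0 : A))).natDegree ≤ 1 + (1 + 2 * k) :=
        natDegree_mul_le.trans (Nat.add_le_add natDegree_X_le h1)
      omega
  rw [LK_apply]
  induction K with
  | zero => simp
  | succ K ih => rw [sum_range_succ, mul_add, ih, h]; push_cast; ring

/-- data of the moments of `2 psi_oo` -/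
structure Mom (a : ℕ → A) : Prop where
  key : Key a
  a0 : a 0 = 0
  a1 : 3 * a 1 = -1
  a2 : 27 * a 2 = 7

/-- `E ≡ 0` to 2-adic order `2K - C` -/
def Small (E : ℕ → A) : Prop := ∃ C : ℕ, ∀ K, (2 : A) ^ (2 * K - C) ∣ E K

theorem Small.add {E E' : ℕ → A} (h : Small E) (h' : Small E') : Small fun K => E K + E' K := by
  obtain ⟨C1, h⟩ := h
  obtain ⟨C2, h'⟩ := h'
  refine ⟨max C1 C2, fun K => dvd_add ?_ ?_⟩
  · exact (pow_dvd_pow _ (by omega)).trans (h K)
  · exact (pow_dvd_pow _ (by omega)).trans (h' K)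

theorem Small.mul {E : ℕ → A} (h : Small E) (c : A) : Small fun K => c * E K := by
  obtain ⟨C1, h⟩ := h
  exact ⟨C1, fun K => (h K).mul_left _⟩

theorem Small.zero : Small fun _ => (0 : A) := ⟨0, fun _ => dvd_zero _⟩

theorem Small.sum {ι : Type*} (s : Finset ι) (E : ι → ℕ → A) (h : ∀ i ∈ s, Small (E i)) :
    Small fun K => ∑ i ∈ s, E i K := by
  classical
  induction s using Finset.induction_on with
  | empty => simpa using Small.zero
  | insert i s hi ih =>
    simp only [sum_insert hi]
    exact (h i (mem_insert_self _ _)).add (ih fun k hk => h k (mem_insert_of_mem hk))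

theorem Small.of_unit {E : ℕ → A} {c : A} (hc : IsUnit c) (h : Small fun K => c * E K) :
    Small E := by
  obtain ⟨C1, h⟩ := h
  exact ⟨C1, fun K => (IsUnit.dvd_mul_left hc).1 (h K)⟩

theorem small_monomial [Nontrivial A] (h3 : IsUnit (3 : A)) {a : ℕ → A} (h : Mom a) (j : ℕ) :
    Small fun K => a j - LK K 0 (X ^ j) := by
  have h9 : IsUnit (9 : A) := by
    have : (9 : A) = 3 * 3 := by norm_num
    rw [this]; exact h3.mul h3
  have h27 : IsUnit (27 : A) := by
    have : (27 : A) = 9 * 3 := by norm_num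
    rw [this]; exact h9.mul h3
  have p4 : ∀ K : ℕ, (4 : A) ^ K = 2 ^ (2 * K) := by
    intro K
    rw [pow_mul]; norm_num
  induction j using Nat.strong_induction_on with
  | _ j ih =>
    match j, ih with
    | 0, _ =>
      refine ⟨0, fun K => ?_⟩
      simp only [pow_zero, LK_one, h.a0, sub_zero]
      exact dvd_zero _
    | 1, _ =>
      apply Small.of_unit h3
      refine ⟨0, fun K => ?_⟩
      simp only [pow_one]
      rw [mul_sub, LK_X, h.a1, p4]
      exact ⟨-1, by rw [Nat.sub_zero]; ring⟩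
    | 2, _ =>
      apply Small.of_unit h27
      refine ⟨0, fun K => ?_⟩
      simp only
      rw [mul_sub, LK_X2, h.a2, p4]
      exact ⟨-(9 * (K : A) ^ 2 + 3 * K - 7), by rw [Nat.sub_zero]; ring⟩
    | j + 3, ih =>
      apply Small.of_unit h9
      have hk := h.key (X ^ j)
      have hQ : (X ^ 3 * X ^ j + (2 * X + 1) ^ 3 * ((X : A[X]) ^ j).comp (X + 1)) = Qp A j := by
        simp [Qp]
      rw [hQ] at hk
      have hw : ∀ K, LK K 0 (Qp A j)
          = dd (2 * K + 1) (X * (X ^ j * (3 * X - 1 - C (2 * (K : A)))) * U K 0) := by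
        intro K
        rw [← hQ, LK_wz]
      have hdec : Qp A j = C 9 * X ^ (j + 3) + ∑ i ∈ range (j + 3), C ((Qp A j).coeff i) * X ^ i := by
        conv_lhs => rw [(Qp A j).as_sum_range_C_mul_X_pow' (n := j + 3 + 1)
          (Nat.lt_succ_of_le (Qp_natDegree_le j))]
        rw [sum_range_succ, Qp_coeff, add_comm]
      have e : ∀ K, 9 * (a (j + 3) - LK K 0 (X ^ (j + 3)))
          = (-1) * dd (2 * K + 1) (X * (X ^ j * (3 * X - 1 - C (2 * (K : A)))) * U K 0)
            + (-1) * ∑ i ∈ range (j + 3), (Qp A j).coeff i * (a i - LK K 0 (X ^ i)) := by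
        intro K
        rw [← hw]
        have h1 : 9 * a (j + 3) = - ∑ i ∈ range (j + 3), (Qp A j).coeff i * a i := by
          rw [hdec, map_add, Lam_C_mul, Lam_X_pow, map_sum] at hk
          simp only [Lam_C_mul, Lam_X_pow] at hk
          linear_combination hk
        have h2 : LK K 0 (Qp A j) = 9 * LK K 0 (X ^ (j + 3))
            + ∑ i ∈ range (j + 3), (Qp A j).coeff i * LK K 0 (X ^ i) := by
          conv_lhs => rw [hdec]
          rw [map_add, LK_C_mul, map_sum]
          simp only [LK_C_mul]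
        rw [h2, mul_sub, h1]
        simp only [mul_sub, sum_sub_distrib]
        ring
      simp only [e]
      refine Small.add (Small.mul ?_ _) (Small.mul ?_ _)
      · refine ⟨j + 2, fun K => ?_⟩
        have hT : TP (X * (X ^ j * (3 * X - 1 - C (2 * (K : A)))) : A[X]) (j + 2) := by
          apply TP.of_natDegree_le
          have h1 : (3 * X - 1 - C (2 * (K : A)) : A[X]).natDegree ≤ 1 := by compute_degree
          have h2 : (X ^ j * (3 * X - 1 - C (2 * (K : A))) : A[X]).natDegree ≤ j + 1 :=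
            natDegree_mul_le.trans (Nat.add_le_add (natDegree_X_pow_le j) h1)
          exact (natDegree_mul_le.trans (Nat.add_le_add natDegree_X_le h2)).trans (by omega)
        have := pow_two_dvd_dd (m := 2 * K + 1) (hT.mul (U_TP K (0 : A)))
        exact (pow_dvd_pow _ (by omega)).trans this
      · exact Small.sum _ _ fun i hi => (ih i (by simpa using hi)).mul _

/-- **the functional of `2 psi_oo` is the 2-adic limit of the truncated functionals** -/
theorem small [Nontrivial A] (h3 : IsUnit (3 : A)) {a : ℕ → A} (h : Mom a) (F : A[X]) :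
    Small fun K => Lam a F - LK K 0 F := by
  have e : ∀ K, Lam a F - LK K 0 F
      = ∑ i ∈ range (F.natDegree + 1), F.coeff i * (a i - LK K 0 (X ^ i)) := by
    intro K
    have h1 : Lam a F = ∑ i ∈ range (F.natDegree + 1), F.coeff i * a i :=
      Lam_eq_sum_range a F _ (Nat.lt_succ_self _)
    have h2 : LK K 0 F = ∑ i ∈ range (F.natDegree + 1), F.coeff i * LK K 0 (X ^ i) := by
      conv_lhs => rw [F.as_sum_range_C_mul_X_pow]
      rw [map_sum]
      simp only [LK_C_mul]
    rw [h1, h2, ← sum_sub_distrib]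
    simp only [mul_sub]
  simp only [e]
  exact Small.sum _ _ fun i _ => (small_monomial h3 h i).mul _

end Crest.Agent.R006.H2x909
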