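import Mathlib
import Crest.Agent.R006.H2_Lim_909

/-!
# Row 6, block P6, lemma (H2): the Rodrigues formula (helper909)

`Pn n ≡ (X^2+X+1)^n mod 2` and `2^n n!` divides (2-adically) `Lam a (Pn n * F)` for all `F`,
`a` = moments of `2 psi_oo`.
-/

set_option autoImplicit false

namespace Crest.Agent.R006.H2x909

open Polynomial Finset Crest.Agent.R006.FuncLx170

variable {A B : Type*} [CommRing A] [CommRing B]

/-! ### finite differences of step two -/

theorem fd_rep (p : A[X]) : ∃ c : ℕ → A, ∀ i N : ℕ, i ≤ N →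
    p.eval (2 * (i : A)) = ∑ m ∈ range (N + 1), c m * (2 ^ m * (m.factorial : A) * (i.choose m : A)) := by
  induction p using Polynomial.induction_on' with
  | add p q hp hq =>
    obtain ⟨c, hc⟩ := hp
    obtain ⟨d, hd⟩ := hq
    refine ⟨fun m => c m + d m, fun i N h => ?_⟩
    rw [eval_add, hc i N h, hd i N h, ← sum_add_distrib]
    exact sum_congr rfl fun m _ => by ring
  | monomial n x =>
    induction n with
    | zero =>
      refine ⟨fun m => if m = 0 then x else 0, fun i N _ => ?_⟩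
      rw [sum_range_succ']
      simp
    | succ n ih =>
      obtain ⟨c, hc⟩ := ih
      refine ⟨fun m => (if m = 0 then 0 else c (m - 1)) + 2 * m * c m, fun i N h => ?_⟩
      have e1 : (monomial (n + 1) x : A[X]) = X * monomial n x := by
        rw [← C_mul_X_pow_eq_monomial, ← C_mul_X_pow_eq_monomial]; ring
      rw [e1, eval_mul, eval_X, hc i N h, mul_sum]
      set g : ℕ → A := fun m => (if m = 0 then 0 else c (m - 1)) *
        (2 ^ m * (m.factorial : A) * (i.choose m : A)) with hg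
      have h1 : ∑ m ∈ range (N + 1), g m = ∑ m ∈ range (N + 1), g (m + 1) := by
        have a1 := sum_range_succ g (N + 1)
        have a2 := sum_range_succ' g (N + 1)
        have a3 : g (N + 1) = 0 := by
          simp only [hg]
          rw [Nat.choose_eq_zero_of_lt (by omega)]; simp
        have a4 : g 0 = 0 := by simp [hg]
        rw [a3, add_zero] at a1
        rw [a4, add_zero] at a2
        rw [← a1, a2]
      have h2 : ∑ m ∈ range (N + 1), ((if m = 0 then 0 else c (m - 1)) + 2 * m * c m) *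
          (2 ^ m * (m.factorial : A) * (i.choose m : A))
          = ∑ m ∈ range (N + 1), g m + ∑ m ∈ range (N + 1),
            2 * m * c m * (2 ^ m * (m.factorial : A) * (i.choose m : A)) := by
        rw [← sum_add_distrib]
        exact sum_congr rfl fun m _ => by simp only [hg]; ring
      rw [h2, h1, ← sum_add_distrib]
      refine sum_congr rfl fun m _ => ?_
      simp only [hg, Nat.add_sub_cancel, Nat.succ_ne_zero, if_false]
      have h3 : ((i : A)) * (i.choose m : A) = (m + 1) * (i.choose (m + 1) : A) + m * (i.choose m : A) := by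
        have := Nat.choose_succ_right_eq i m
        rcases Nat.lt_or_ge i m with hm | hm
        · rw [Nat.choose_eq_zero_of_lt hm, Nat.choose_eq_zero_of_lt (by omega)]; simp
        · have h4 : ((i.choose (m + 1) * (m + 1) : ℕ) : A) = ((i.choose m * (i - m) : ℕ) : A) := by
            rw [this]
          push_cast [Nat.cast_sub hm] at h4
          linear_combination -h4
      rw [Nat.factorial_succ]
      push_cast
      linear_combination 2 * c m * 2 ^ m * (m.factorial : A) * h3

theorem alt_choose (n m : ℕ) (h : m < n) :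
    ∑ i ∈ range (n + 1), (-1 : A) ^ (n - i) * (n.choose i : A) * (i.choose m : A) = 0 := by
  have h1 := add_pow (X + 1 : A[X]) (-1) n
  rw [show (X + 1 + -1 : A[X]) = X by ring] at h1
  have h2 := congrArg (fun q : A[X] => q.coeff m) h1
  simp only [coeff_X_pow, finsetSum_coeff] at h2
  rw [if_neg (by omega)] at h2
  rw [h2]
  refine sum_congr rfl fun i _ => ?_
  have e : ((X + 1 : A[X]) ^ i * (-1) ^ (n - i) * (n.choose i : A[X]))
      = C ((-1) ^ (n - i) * (n.choose i : A)) * (X + 1) ^ i := by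
    simp only [C_mul, C_pow, C_neg, C_1, map_natCast]; ring
  rw [e, coeff_C_mul, coeff_X_add_one_pow]

/-- `2^n n!` divides the `n`-th difference with step `2` of a polynomial -/
theorem fd_dvd (p : A[X]) (n : ℕ) : (2 ^ n * (n.factorial : A)) ∣
    ∑ i ∈ range (n + 1), (-1 : A) ^ (n - i) * (n.choose i : A) * p.eval (2 * (i : A)) := by
  obtain ⟨c, hc⟩ := fd_rep p
  have e : ∑ i ∈ range (n + 1), (-1 : A) ^ (n - i) * (n.choose i : A) * p.eval (2 * (i : A))
      = ∑ m ∈ range (n + 1), c m * (2 ^ m * (m.factorial : A)) *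
        ∑ i ∈ range (n + 1), (-1 : A) ^ (n - i) * (n.choose i : A) * (i.choose m : A) := by
    have : ∀ i ∈ range (n + 1), (-1 : A) ^ (n - i) * (n.choose i : A) * p.eval (2 * (i : A))
        = ∑ m ∈ range (n + 1), c m * (2 ^ m * (m.factorial : A)) *
          ((-1 : A) ^ (n - i) * (n.choose i : A) * (i.choose m : A)) := by
      intro i hi
      rw [hc i n (by have := mem_range.1 hi; omega), mul_sum]
      exact sum_congr rfl fun m _ => by ring
    rw [sum_congr rfl this, sum_comm]
    exact sum_congr rfl fun m _ => by rw [mul_sum]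
  rw [e]
  refine dvd_sum fun m hm => ?_
  rcases Nat.eq_or_lt_of_le (Nat.lt_succ_iff.1 (mem_range.1 hm)) with h | h
  · subst h
    exact ⟨c m * ∑ i ∈ range (m + 1), (-1 : A) ^ (m - i) * (m.choose i : A) * (i.choose m : A),
      by ring⟩
  · rw [alt_choose n m h, mul_zero]; exact dvd_zero _

/-! ### iteration of the two-step identity -/

/-- odd offsets `2i+1, .., 4i-1` (for `a = 0`) -/
noncomputable def DI (i : ℕ) (a : A) : A[X] :=
  ∏ j ∈ range i, (C 2 * X + C (a + 2 * (i : A) + 1 + 2 * (j : A))) ^ 2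

theorem DI_succ (i : ℕ) (a : A) : DI (i + 1) a
    = DI i (a + 2) * ((C 2 * X + C (a + 3)) ^ 2).comp (X + C (2 * (i : A))) := by
  have e1 : ∀ j : ℕ, (C 2 * X + C (a + 2 * ((i + 1 : ℕ) : A) + 1 + 2 * (j : A)) : A[X]) ^ 2
      = (C 2 * X + C (a + 2 + 2 * (i : A) + 1 + 2 * (j : A))) ^ 2 := by
    intro j
    have : a + 2 * ((i + 1 : ℕ) : A) + 1 + 2 * (j : A) = a + 2 + 2 * (i : A) + 1 + 2 * (j : A) := by
      push_cast; ring
    rw [this]
  have e2 : (((C 2 * X + C (a + 3)) ^ 2 : A[X])).comp (X + C (2 * (i : A)))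
      = (C 2 * X + C (a + 2 * ((i + 1 : ℕ) : A) + 1 + 2 * (i : A))) ^ 2 := by
    rw [pow_comp, add_comp, mul_comp, C_comp, X_comp, C_comp]
    have : a + 2 * ((i + 1 : ℕ) : A) + 1 + 2 * (i : A) = 2 * (2 * (i : A)) + (a + 3) := by
      push_cast; ring
    rw [this, C_add (a := 2 * (2 * (i : A)))]
    simp only [C_mul]
    ring
  rw [e2, DI, prod_range_succ, DI]
  rw [prod_congr rfl fun j _ => e1 j]

theorem nd_two_succ (m : ℕ) : nd A (m + 2) = X * (X - 1) * (nd A m).comp (X - 2) := by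
  rw [nd_succ', nd_succ', mul_comp, X_comp, comp_assoc]
  rw [show (X - 1 : A[X]).comp (X - 1) = X - 2 by
    simp only [sub_comp, X_comp, one_comp]; ring]
  ring

theorem LK_iter [Nontrivial A] (i : ℕ) : ∀ (a : A) (K : ℕ) (P : A[X]),
    LK (K + i) a (nd A (2 * i) * P)
      = LK K (a + 2 * (i : A)) (DI i a * P.comp (X + C (2 * (i : A)))) := by
  induction i with
  | zero => intro a K P; simp [nd_zero, DI]
  | succ i ih =>
    intro a K P
    rw [show 2 * (i + 1) = 2 * i + 2 by ring, nd_two_succ, mul_assoc,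
      show K + (i + 1) = K + i + 1 by ring, LK_two]
    have e1 : (C 2 * X + C (a + 3)) ^ 2 * ((nd A (2 * i)).comp (X - 2) * P).comp (X + 2)
        = nd A (2 * i) * ((C 2 * X + C (a + 3)) ^ 2 * P.comp (X + 2)) := by
      rw [mul_comp, comp_assoc]
      rw [show (X - 2 : A[X]).comp (X + 2) = X by
        simp only [sub_comp, X_comp, ofNat_comp]; ring, comp_X]
      ring
    have e2 : (X + 2 : A[X]).comp (X + C (2 * (i : A))) = X + C (2 * ((i + 1 : ℕ) : A)) := by
      have h2 : (C (2 : A) : A[X]) = 2 := map_ofNat C 2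
      simp only [add_comp, X_comp, ofNat_comp]
      push_cast
      rw [mul_add, C_add, mul_one, h2]; ring
    have e3 : DI i (a + 2) * ((C 2 * X + C (a + 3)) ^ 2 * P.comp (X + 2)).comp (X + C (2 * (i : A)))
        = DI (i + 1) a * P.comp (X + C (2 * ((i + 1 : ℕ) : A))) := by
      rw [DI_succ, mul_comp, comp_assoc, e2]; ring
    have e4 : a + 2 + 2 * (i : A) = a + 2 * ((i + 1 : ℕ) : A) := by push_cast; ring
    rw [e1, ih, e3, e4]

/-! ### naturality -/

theorem U_map (φ : A →+* B) (k : ℕ) (a : A) : (U k a).map φ = U k (φ a) := by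
  rw [U, Polynomial.map_prod, U]
  refine prod_congr rfl fun i _ => ?_
  have e : φ (a - 1 - 2 * (i : A)) = φ a - 1 - 2 * (i : B) := by
    rw [map_sub, map_sub, map_mul, map_natCast, map_one, map_ofNat]
  rw [Polynomial.map_pow, Polynomial.map_add, Polynomial.map_mul, Polynomial.map_C,
    Polynomial.map_C, Polynomial.map_X, e, map_ofNat]

theorem DI_map (φ : A →+* B) (i : ℕ) (a : A) : (DI i a).map φ = DI i (φ a) := by
  rw [DI, Polynomial.map_prod, DI]
  refine prod_congr rfl fun j _ => ?_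
  have e : φ (a + 2 * (i : A) + 1 + 2 * (j : A)) = φ a + 2 * (i : B) + 1 + 2 * (j : B) := by
    rw [map_add, map_add, map_add, map_mul, map_mul, map_natCast, map_natCast, map_one, map_ofNat]
  rw [Polynomial.map_pow, Polynomial.map_add, Polynomial.map_mul, Polynomial.map_C,
    Polynomial.map_C, Polynomial.map_X, e, map_ofNat]

theorem LK_map [Nontrivial A] [Nontrivial B] (φ : A →+* B) (K : ℕ) (a : A) (F : A[X]) :
    LK K (φ a) (F.map φ) = φ (LK K a F) := by
  rw [LK_apply, LK_apply, map_sum]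
  refine sum_congr rfl fun k _ => ?_
  rw [← dd_map, Polynomial.map_mul, U_map]

/-! ### the polynomials `Pn` -/

/-- common multiple -/
noncomputable def WW (A : Type*) [CommRing A] (n : ℕ) : A[X] := ∏ i ∈ range (n + 1), DI i (0 : A)

/-- cofactor -/
noncomputable def VV (A : Type*) [CommRing A] (n i : ℕ) : A[X] :=
  ∏ j ∈ (range (n + 1)).erase i, DI j (0 : A)

theorem DI_mul_VV {n i : ℕ} (h : i ≤ n) : DI i (0 : A) * VV A n i = WW A n := by
  have h1 : i ∈ range (n + 1) := mem_range.2 (Nat.lt_succ_of_le h)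
  exact mul_prod_erase (range (n + 1)) (fun j => DI j (0 : A)) h1

/-- the Rodrigues polynomials -/
noncomputable def Pn (A : Type*) [CommRing A] (n : ℕ) : A[X] :=
  ∑ i ∈ range (n + 1), C ((-1 : A) ^ (n - i) * (n.choose i : A)) *
    (nd A (2 * i) * (VV A n i).comp (X - C (2 * (i : A))))

theorem LK_shift [Nontrivial A] {n i : ℕ} (h : i ≤ n) (K : ℕ) (F : A[X]) :
    LK (K + i) (0 : A) (nd A (2 * i) * (VV A n i).comp (X - C (2 * (i : A))) * F)
      = LK K (2 * (i : A)) (WW A n * F.comp (X + C (2 * (i : A)))) := by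
  have e : (X - C (2 * (i : A)) : A[X]).comp (X + C (2 * (i : A))) = X := by
    rw [sub_comp, X_comp, C_comp]; ring
  have e2 : ((VV A n i).comp (X - C (2 * (i : A))) * F).comp (X + C (2 * (i : A)))
      = VV A n i * F.comp (X + C (2 * (i : A))) := by
    rw [mul_comp, comp_assoc, e, comp_X]
  have e3 := LK_iter i (0 : A) K ((VV A n i).comp (X - C (2 * (i : A))) * F)
  rw [e2, ← mul_assoc, ← mul_assoc, DI_mul_VV h, zero_add] at e3
  exact e3

/-- `f(b) = LK K b (W F(X+b))` is a polynomial in `b` -/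
theorem exists_poly [Nontrivial A] (n K : ℕ) (F : A[X]) : ∃ p : A[X], ∀ b : A,
    p.eval b = LK K b (WW A n * F.comp (X + C b)) := by
  refine ⟨LK K (X : A[X]) (WW A[X] n * (F.map C).comp (X + C X)), fun b => ?_⟩
  have h := LK_map (evalRingHom b) K (X : A[X]) (WW A[X] n * (F.map C).comp (X + C X))
  rw [coe_evalRingHom] at h
  rw [← h, eval_X]
  congr 1
  rw [Polynomial.map_mul, map_comp, Polynomial.map_map, Polynomial.map_add, map_X, map_C]
  congr 1
  · rw [WW, WW, Polynomial.map_prod]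
    refine prod_congr rfl fun i _ => ?_
    rw [DI_map, map_zero]
  · have : (evalRingHom b).comp (C : A →+* A[X]) = RingHom.id A := by
      ext x; simp
    rw [this, Polynomial.map_id]
    simp

/-- **Rodrigues**: every power of `2` dividing `2^n n!` divides `Lam a (Pn n * F)` -/
theorem rodrigues [Nontrivial A] (h3 : IsUnit (3 : A)) {a : ℕ → A} (h : Mom a) (n : ℕ) (F : A[X])
    {t : ℕ} (ht : (2 : A) ^ t ∣ 2 ^ n * (n.factorial : A)) : (2 : A) ^ t ∣ Lam a (Pn A n * F) := by
  set T : ℕ → A[X] := fun i => nd A (2 * i) * (VV A n i).comp (X - C (2 * (i : A))) * F with hT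
  have e1 : Lam a (Pn A n * F)
      = ∑ i ∈ range (n + 1), (-1 : A) ^ (n - i) * (n.choose i : A) * Lam a (T i) := by
    rw [Pn, sum_mul, map_sum]
    refine sum_congr rfl fun i _ => ?_
    rw [mul_assoc, Lam_C_mul]
  choose C1 hC1 using fun i => small h3 h (T i)
  obtain ⟨K, hK⟩ : ∃ K : ℕ, ∀ i ∈ range (n + 1), t ≤ 2 * K - C1 i := by
    refine ⟨t + ∑ i ∈ range (n + 1), C1 i, fun i hi => ?_⟩
    have := single_le_sum (f := C1) (fun i _ => Nat.zero_le _) hi
    omega
  obtain ⟨p, hp⟩ := exists_poly (A := A) n K F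
  have e2 : ∑ i ∈ range (n + 1), (-1 : A) ^ (n - i) * (n.choose i : A) * LK (K + i) 0 (T i)
      = ∑ i ∈ range (n + 1), (-1 : A) ^ (n - i) * (n.choose i : A) * p.eval (2 * (i : A)) := by
    refine sum_congr rfl fun i hi => ?_
    rw [hp, hT, LK_shift (by have := mem_range.1 hi; omega)]
  have e3 : Lam a (Pn A n * F) = ∑ i ∈ range (n + 1), (-1 : A) ^ (n - i) * (n.choose i : A) *
      (Lam a (T i) - LK (K + i) 0 (T i))
      + ∑ i ∈ range (n + 1), (-1 : A) ^ (n - i) * (n.choose i : A) * p.eval (2 * (i : A)) := by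
    rw [← e2, e1, ← sum_add_distrib]
    exact sum_congr rfl fun i _ => by ring
  rw [e3]
  refine dvd_add (dvd_sum fun i hi => ?_) (ht.trans (fd_dvd p n))
  apply Dvd.dvd.mul_left
  exact (pow_dvd_pow _ (by have := hK i hi; omega)).trans (hC1 i (K + i))

/-! ### reduction mod 2 -/

/-- `G ≡ 1 mod 2` -/
def One2 (G : A[X]) : Prop := ∃ H : A[X], G = 1 + C 2 * H

theorem One2.one : One2 (1 : A[X]) := ⟨0, by simp⟩

theorem One2.mul {G G' : A[X]} (h : One2 G) (h' : One2 G') : One2 (G * G') := by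
  obtain ⟨H, rfl⟩ := h
  obtain ⟨H', rfl⟩ := h'
  exact ⟨H + H' + C 2 * H * H', by ring⟩

theorem One2.pow {G : A[X]} (h : One2 G) (n : ℕ) : One2 (G ^ n) := by
  induction n with
  | zero => rw [pow_zero]; exact One2.one
  | succ n ih => rw [pow_succ]; exact ih.mul h

theorem One2.prod {ι : Type*} (s : Finset ι) (G : ι → A[X]) (h : ∀ i ∈ s, One2 (G i)) :
    One2 (∏ i ∈ s, G i) := by
  classical
  induction s using Finset.induction_on with
  | empty => rw [prod_empty]; exact One2.one
  | insert i s hi ih =>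
    rw [prod_insert hi]
    exact (h i (mem_insert_self _ _)).mul (ih fun k hk => h k (mem_insert_of_mem hk))

theorem One2.comp {G : A[X]} (h : One2 G) (q : A[X]) : One2 (G.comp q) := by
  obtain ⟨H, rfl⟩ := h
  exact ⟨H.comp q, by simp⟩

theorem DI_one2 (i : ℕ) : One2 (DI i (0 : A)) := by
  refine One2.prod _ _ fun j _ => One2.pow ?_ 2
  refine ⟨X + C ((i : A) + j), ?_⟩
  simp only [C_add, C_mul, C_0, C_1, map_natCast]
  ring

theorem nd_mod2 (i : ℕ) : ∃ G : A[X], nd A (2 * i) = (X ^ 2 + X) ^ i + C 2 * G := by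
  have h2 : (C (2 : A) : A[X]) = 2 := map_ofNat C 2
  induction i with
  | zero => exact ⟨0, by simp [nd_zero]⟩
  | succ i ih =>
    obtain ⟨G, hG⟩ := ih
    refine ⟨(X ^ 2 + X) ^ i * (-(2 * (i : A[X]) + 1) * X + (i : A[X]) * (2 * (i : A[X]) + 1))
      + G * ((X - 2 * (i : A[X])) * (X - (2 * (i : A[X]) + 1))), ?_⟩
    rw [show 2 * (i + 1) = 2 * i + 1 + 1 by ring, nd_succ, nd_succ, hG]
    push_cast
    simp only [C_add, C_mul, C_1, map_natCast, h2]
    ring

theorem Pn_mod2 (n : ℕ) : ∃ G : A[X], Pn A n = (X ^ 2 + X + 1) ^ n + C 2 * G := by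
  have h2 : (C (2 : A) : A[X]) = 2 := map_ofNat C 2
  choose G hG using nd_mod2 (A := A)
  have hV : ∀ i, ∃ H : A[X], (VV A n i).comp (X - C (2 * (i : A))) = 1 + C 2 * H := fun i =>
    (One2.prod _ _ fun j _ => DI_one2 (A := A) j).comp _
  choose H hH using hV
  -- `(y - 1)^n = (y + 1)^n + 2 G`
  have hy : ∃ G' : A[X], (X ^ 2 + X + -1 : A[X]) ^ n = (X ^ 2 + X + 1) ^ n + C 2 * G' := by
    have h1 : (X ^ 2 + X + -1 : A[X]) - (X ^ 2 + X + 1) ∣ (X ^ 2 + X + -1) ^ n - (X ^ 2 + X + 1) ^ n :=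
      sub_dvd_pow_sub_pow _ _ n
    obtain ⟨q, hq⟩ := h1
    refine ⟨-q, ?_⟩
    rw [h2]
    linear_combination hq
  obtain ⟨G', hG'⟩ := hy
  refine ⟨G' + ∑ i ∈ range (n + 1), C ((-1 : A) ^ (n - i) * (n.choose i : A)) *
    ((X ^ 2 + X) ^ i * H i + G i * (1 + C 2 * H i)), ?_⟩
  rw [mul_add, ← add_assoc, ← hG', add_pow, Pn, mul_sum, ← sum_add_distrib]
  refine sum_congr rfl fun i _ => ?_
  rw [hG, hH]
  simp only [C_mul, C_pow, C_neg, C_1, map_natCast]
  ring

end Crest.Agent.R006.H2x909
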