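import Mathlib

set_option autoImplicit false

/-!
# Row 6, blocks P4/P8: closed form lower bounds for the local (class) problem (helper757)

The cost of a class with `m` R-rows, `r` T-rows, `g` Q-rows and `k` particles is
`C(m,2) + C(r,2) + C(g,2) + a m + c g + max (k ν₀) (k (k-1) + k (m-r) + k ν₁)`, with `a = ν₁ - 1`
(`a = -2, c = 0, ν₀ = 0` in polar classes, `a = 1, c = 2, ν₀ = 2` in regular classes).
With `s = m + k` the second branch of the maximum gives the quadratic polynomial
`s² + s g + g² - (n-a) s - (n-c) g + n(n-1)/2`, whose integral minimum after subtracting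
`λ s + μ g` is `n(n-1)/2 - ⌊(α² - αβ + β²)/3⌋`, `α = n - a + λ`, `β = n - c + μ`.
-/

namespace Crest.Agent.R006.HexMin757

/-- integral minimum of the hexagonal form (lower bound; it is attained) -/
theorem hex_ge (al be s g : ℤ) :
    -((al ^ 2 - al * be + be ^ 2) / 3) ≤ s ^ 2 + s * g + g ^ 2 - al * s - be * g := by
  have h : 0 ≤ 3 * (s ^ 2 + s * g + g ^ 2 - al * s - be * g) + (al ^ 2 - al * be + be ^ 2) := by
    nlinarith [sq_nonneg (2 * s + g - al), sq_nonneg (s + 2 * g - be),
      sq_nonneg ((2 * s + g - al) - (s + 2 * g - be))]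
  have h2 : (al ^ 2 - al * be + be ^ 2) % 3 ≤ 2 := by omega
  omega

/-- one species: integral minimum of `s² - al s` -/
theorem sq_ge (al s : ℤ) : -(al ^ 2 / 4) ≤ s ^ 2 - al * s := by
  have h : 0 ≤ 4 * (s ^ 2 - al * s) + al ^ 2 := by nlinarith [sq_nonneg (2 * s - al)]
  omega

/-- `t (t-1) / 2` on integers -/
def ch (t : ℤ) : ℤ := t * (t - 1) / 2

lemma two_ch (t : ℤ) : 2 * ch t = t * (t - 1) := by
  unfold ch
  have : 2 ∣ t * (t - 1) := by
    rcases Int.even_or_odd t with h | h
    · obtain ⟨u, hu⟩ := h; exact ⟨u * (t - 1), by rw [hu]; ring⟩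
    · obtain ⟨u, hu⟩ := h; exact ⟨t * u, by rw [hu]; ring⟩
  omega

lemma ch_natCast (t : ℕ) : ch (t : ℤ) = (t.choose 2 : ℤ) := by
  have h := two_ch (t : ℤ)
  have h2 : (2 : ℤ) * (t.choose 2 : ℤ) = (t : ℤ) * (t - 1) := by
    have := Nat.choose_two_right t
    have h3 : 2 ∣ t * (t - 1) := (Nat.even_mul_pred_self t).two_dvd
    rcases Nat.eq_zero_or_pos t with h0 | h0
    · subst h0; simp
    · have h4 : 2 * (t * (t - 1) / 2) = t * (t - 1) := Nat.mul_div_cancel' h3
      rw [← this] at h4
      have h5 : ((2 * t.choose 2 : ℕ) : ℤ) = ((t * (t - 1) : ℕ) : ℤ) := by rw [h4]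
      push_cast [Nat.cast_sub h0] at h5
      exact h5
  linarith

/-- the closed form value -/
def hexVal (n a c lam mu : ℤ) : ℤ :=
  ch n - (((n - a + lam) ^ 2 - (n - a + lam) * (n - c + mu) + (n - c + mu) ^ 2) / 3)

/-- **closed form bound of the class problem** (second branch of the particle cost). -/
theorem class_ge (n m r g k a c lam mu : ℤ) (hn : m + r + g = n) :
    hexVal n a c lam mu ≤
      ch m + ch r + ch g + a * m + c * g + (k * (k - 1) + k * (m - r) + k * (a + 1))
        - lam * (m + k) - mu * g := by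
  have h := hex_ge (n - a + lam) (n - c + mu) (m + k) g
  have hm := two_ch m
  have hr := two_ch r
  have hg := two_ch g
  have hN := two_ch n
  unfold hexVal
  subst hn
  nlinarith

/-- the same with the maximum of the two branches -/
theorem class_ge_max (n m r g k a c ν0 lam mu : ℤ) (hn : m + r + g = n) :
    hexVal n a c lam mu ≤
      ch m + ch r + ch g + a * m + c * g +
        max (k * ν0) (k * (k - 1) + k * (m - r) + k * (a + 1)) - lam * (m + k) - mu * g := by
  have h := class_ge n m r g k a c lam mu hn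
  have h2 := le_max_right (k * ν0) (k * (k - 1) + k * (m - r) + k * (a + 1))
  linarith

/-- no Q-rows possible in the class (`g = 0`) -/
theorem class1_ge (n m r k a lam : ℤ) (hn : m + r = n) :
    ch n - (n - a + lam) ^ 2 / 4 ≤
      ch m + ch r + a * m + (k * (k - 1) + k * (m - r) + k * (a + 1)) - lam * (m + k) := by
  have h := sq_ge (n - a + lam) (m + k)
  have hm := two_ch m
  have hr := two_ch r
  have hN := two_ch n
  subst hn
  nlinarith

end Crest.Agent.R006.HexMin757
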