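import Mathlib

/-!
# Row 6: the final numerical inequality from rational bounds (helper57)

`hneg_of` : rational upper bounds of the four exponents give the hypothesis `hneg` of `D.main`.
-/

set_option autoImplicit false

namespace Crest.Agent.R006.Hneg57

open Real

/-- `log 3 ≤ 1.09861229` -/
theorem log_three_le : Real.log 3 ≤ 1.09861229 := by
  rw [Real.log_le_iff_le_exp (by norm_num)]
  have he := Real.exp_one_gt_d9
  have hs : Real.exp 1.09861229 = Real.exp 1 * Real.exp (1.09861229 - 1) := by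
    rw [← Real.exp_add]; norm_num
  rw [hs]
  have hl : (1.1036383249 : ℝ) ≤ Real.exp (1.09861229 - 1) := by
    have h3 := Real.sum_le_exp_of_nonneg (x := (1.09861229 - 1 : ℝ)) (by norm_num) 12
    refine le_trans ?_ h3
    norm_num [Finset.sum_range_succ, Nat.factorial]
  have : (3 : ℝ) ≤ 2.7182818283 * 1.1036383249 := by norm_num
  calc (3 : ℝ) ≤ 2.7182818283 * 1.1036383249 := this
    _ ≤ Real.exp 1 * Real.exp (1.09861229 - 1) := by
        refine mul_le_mul he.le hl (by norm_num) (Real.exp_pos _).le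

/-- rational upper bounds of the four exponents give `hneg` of `D.main` -/
theorem hneg_of {αa α2 α3 αo : ℝ} (ra r2 r3 ro : ℝ) (ha : αa ≤ ra) (h2 : α2 ≤ r2)
    (h3 : α3 ≤ r3) (ho : αo ≤ ro) (p2 : 0 ≤ r2) (p3 : 0 ≤ r3)
    (h : ra + r2 * 0.6931471808 + r3 * 1.09861229 + ro < 0) :
    αa + α2 * Real.log 2 + α3 * Real.log 3 + αo < 0 := by
  have l2 : 0 ≤ Real.log 2 := Real.log_nonneg (by norm_num)
  have l3 : 0 ≤ Real.log 3 := Real.log_nonneg (by norm_num)
  have e2 : α2 * Real.log 2 ≤ r2 * 0.6931471808 :=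
    (mul_le_mul_of_nonneg_right h2 l2).trans
      (mul_le_mul_of_nonneg_left Real.log_two_lt_d9.le p2)
  have e3 : α3 * Real.log 3 ≤ r3 * 1.09861229 :=
    (mul_le_mul_of_nonneg_right h3 l3).trans (mul_le_mul_of_nonneg_left log_three_le p3)
  linarith

/-- the numerical inequality for the frozen shape `SN` in the form of `D.irr_of` -/
theorem SN_hneg {aA a2 aO : ℝ} (h2 : a2 ≤ 2909 / 2) (h : aA + aO ≤ -1187) :
    aA + a2 * Real.log 2 + 162 * Real.log 3 + aO < 0 := by
  have := hneg_of (αa := aA + aO) (α2 := a2) (α3 := 162) (αo := 0) (-1187) (2909 / 2) 162 0 h h2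
    le_rfl le_rfl (by norm_num) (by norm_num) (by norm_num)
  linarith

end Crest.Agent.R006.Hneg57
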