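import Crest.Agent.R006.Defs

/-!
# Row 6: integrality at a prime `p` (toolkit, helper672)

* `Zp p : Subring ℚ` (p-integral rationals), `PP p : Subring ℚ[X]`, `PI p : Subring ℚ⟦X⟧`
  (all coefficients p-integral);
* inverses (`PI_inv`), composition (`PP_comp`), germs of polynomials (`gm_mem`), binomial
  polynomials of degree `< p` (`bin_mem`), `TR mu` (`TR_mem`, `p ≥ 5`);
* the germs of `ψ`, `ψ_hom`, `g` at the sites (`psi0_Z_mem` ...).
-/

set_option autoImplicit false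
set_option linter.unusedSectionVars false
set_option linter.unusedVariables false

namespace Crest.Agent.R006.Int672

open Polynomial Crest.Agent.R006.NV Crest.Agent.R006.PsiInf Crest.Agent.R006.D

section basic

variable (p : ℕ) [hp : Fact p.Prime]

/-- the `p`-integral rationals -/
def Zp : Subring ℚ where
  carrier := {x | padicNorm p x ≤ 1}
  mul_mem' := fun {a b} ha hb => by
    change padicNorm p (a * b) ≤ 1
    rw [padicNorm.mul]; exact mul_le_one₀ ha (padicNorm.nonneg b) hb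
  one_mem' := by simp
  add_mem' := fun {a b} ha hb => (padicNorm.nonarchimedean).trans (max_le ha hb)
  zero_mem' := by simp
  neg_mem' := fun {a} ha => by simpa using ha

lemma mem_Zp {x : ℚ} : x ∈ Zp p ↔ padicNorm p x ≤ 1 := Iff.rfl

lemma int_mem (z : ℤ) : (z : ℚ) ∈ Zp p := padicNorm.of_int z

lemma norm_inv (x : ℚ) : padicNorm p x⁻¹ = (padicNorm p x)⁻¹ := by
  have := padicNorm.div (p := p) 1 x
  simpa using this

/-- `p`-adic units -/
def U (x : ℚ) : Prop := padicNorm p x = 1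

variable {p}

lemma U.mem {x : ℚ} (hx : U p x) : x ∈ Zp p := le_of_eq hx

lemma U.inv {x : ℚ} (hx : U p x) : U p x⁻¹ := by
  unfold U at *; rw [norm_inv, hx, inv_one]

lemma U.inv_mem {x : ℚ} (hx : U p x) : x⁻¹ ∈ Zp p := hx.inv.mem

lemma U.ne_zero {x : ℚ} (hx : U p x) : x ≠ 0 := by
  rintro rfl; unfold U at hx; simp at hx

lemma U.mul {x y : ℚ} (hx : U p x) (hy : U p y) : U p (x * y) := by
  unfold U at *; rw [padicNorm.mul, hx, hy, one_mul]

lemma U.pow {x : ℚ} (hx : U p x) (n : ℕ) : U p (x ^ n) := by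
  induction n with
  | zero => unfold U; simp
  | succ n ih => rw [pow_succ]; exact ih.mul hx

lemma U.neg {x : ℚ} (hx : U p x) : U p (-x) := by
  unfold U at *; rw [padicNorm.neg]; exact hx

lemma U.int {z : ℤ} (hz : ¬ (p : ℤ) ∣ z) : U p (z : ℚ) :=
  (padicNorm.int_eq_one_iff (p := p) z).mpr hz

lemma U.nat {n : ℕ} (hz : ¬ p ∣ n) : U p (n : ℚ) := by
  have : U p (((n : ℕ) : ℤ) : ℚ) := U.int (by exact_mod_cast hz)
  exact_mod_cast this

lemma U.two (h : 3 ≤ p) : U p 2 := by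
  have : U p ((2 : ℕ) : ℚ) := U.nat (fun hd => by
    have := Nat.le_of_dvd (by norm_num) hd; omega)
  exact_mod_cast this

lemma U.three (h : 5 ≤ p) : U p 3 := by
  have : U p ((3 : ℕ) : ℚ) := U.nat (fun hd => by
    have := Nat.le_of_dvd (by norm_num) hd; omega)
  exact_mod_cast this

lemma half_mem (h : 3 ≤ p) : (1 / 2 : ℚ) ∈ Zp p := by
  rw [one_div]; exact (U.two h).inv_mem

lemma nat_mem (n : ℕ) : (n : ℚ) ∈ Zp p := by
  have := int_mem p (n : ℤ)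
  exact_mod_cast this

lemma ofNat_mem' (n : ℕ) [n.AtLeastTwo] : (OfNat.ofNat n : ℚ) ∈ Zp p := by
  have := nat_mem (p := p) n
  exact_mod_cast this

lemma U.factorial {l : ℕ} (h : l < p) : U p (l.factorial : ℚ) :=
  U.nat (fun hd => by
    have := (hp.out.dvd_factorial).mp hd; omega)

variable (p)

/-- power series with `p`-integral coefficients -/
def PI : Subring (PowerSeries ℚ) where
  carrier := {f | ∀ n, PowerSeries.coeff n f ∈ Zp p}
  mul_mem' := fun {a b} ha hb n => by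
    rw [PowerSeries.coeff_mul]
    exact (Zp p).sum_mem fun x _ => (Zp p).mul_mem (ha _) (hb _)
  one_mem' := fun n => by
    rw [PowerSeries.coeff_one]; split_ifs
    · exact (Zp p).one_mem
    · exact (Zp p).zero_mem
  add_mem' := fun {a b} ha hb n => by
    rw [map_add]; exact (Zp p).add_mem (ha n) (hb n)
  zero_mem' := fun n => by simp [(Zp p).zero_mem]
  neg_mem' := fun {a} ha n => by
    rw [map_neg]; exact (Zp p).neg_mem (ha n)

variable {p}

lemma mem_PI {f : PowerSeries ℚ} : f ∈ PI p ↔ ∀ n, PowerSeries.coeff n f ∈ Zp p := Iff.rfl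

lemma PI_C {a : ℚ} (h : a ∈ Zp p) : PowerSeries.C a ∈ PI p := fun n => by
  rw [PowerSeries.coeff_C]; split_ifs
  · exact h
  · exact (Zp p).zero_mem

lemma PI_X : (PowerSeries.X : PowerSeries ℚ) ∈ PI p := fun n => by
  rw [PowerSeries.coeff_X]; split_ifs
  · exact (Zp p).one_mem
  · exact (Zp p).zero_mem

lemma PI_pt {s : ℚ} (h : s ∈ Zp p) : pt s ∈ PI p := (PI p).add_mem PI_X (PI_C h)

lemma PI_inv {f : PowerSeries ℚ} (hf : f ∈ PI p) (h0 : U p (PowerSeries.constantCoeff f)) :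
    f⁻¹ ∈ PI p := by
  intro n
  induction n using Nat.strong_induction_on with
  | _ n ih =>
    rw [PowerSeries.coeff_inv]
    split_ifs with hn
    · exact h0.inv_mem
    · refine (Zp p).mul_mem ((Zp p).neg_mem h0.inv_mem) ((Zp p).sum_mem fun x _ => ?_)
      split_ifs with hx
      · exact (Zp p).mul_mem (hf _) (ih _ hx)
      · exact (Zp p).zero_mem

variable (p)

/-- polynomials with `p`-integral coefficients -/
def PP : Subring ℚ[X] where
  carrier := {f | ∀ n, f.coeff n ∈ Zp p}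
  mul_mem' := fun {a b} ha hb n => by
    rw [coeff_mul]
    exact (Zp p).sum_mem fun x _ => (Zp p).mul_mem (ha _) (hb _)
  one_mem' := fun n => by
    rw [coeff_one]; split_ifs
    · exact (Zp p).one_mem
    · exact (Zp p).zero_mem
  add_mem' := fun {a b} ha hb n => by
    rw [coeff_add]; exact (Zp p).add_mem (ha n) (hb n)
  zero_mem' := fun n => by simp [(Zp p).zero_mem]
  neg_mem' := fun {a} ha n => by
    rw [coeff_neg]; exact (Zp p).neg_mem (ha n)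

variable {p}

lemma mem_PP {f : ℚ[X]} : f ∈ PP p ↔ ∀ n, f.coeff n ∈ Zp p := Iff.rfl

lemma PP_C {a : ℚ} (h : a ∈ Zp p) : C a ∈ PP p := fun n => by
  rw [coeff_C]; split_ifs
  · exact h
  · exact (Zp p).zero_mem

lemma PP_X : (X : ℚ[X]) ∈ PP p := fun n => by
  rw [coeff_X]; split_ifs
  · exact (Zp p).one_mem
  · exact (Zp p).zero_mem

lemma PP_comp {P Q : ℚ[X]} (hP : P ∈ PP p) (hQ : Q ∈ PP p) : P.comp Q ∈ PP p := by
  rw [comp_eq_sum_left, Polynomial.sum_def]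
  exact (PP p).sum_mem fun i _ => (PP p).mul_mem (PP_C (hP i)) ((PP p).pow_mem hQ i)

lemma gm_mem {P : ℚ[X]} {x : ℚ} (hP : P ∈ PP p) (hx : x ∈ Zp p) : gm x P ∈ PI p := by
  intro n
  unfold gm
  rw [Polynomial.coeff_coe, taylor_apply]
  exact PP_comp hP ((PP p).add_mem PP_X (PP_C hx)) n

lemma desc_mem (l : ℕ) : descPochhammer ℚ l ∈ PP p := by
  induction l with
  | zero => simp [(PP p).one_mem]
  | succ l ih =>
    rw [descPochhammer_succ_right]
    refine (PP p).mul_mem ih ((PP p).sub_mem PP_X ?_)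
    have := PP_C (p := p) (nat_mem l)
    rwa [C_eq_natCast] at this

lemma bin_mem {l : ℕ} (h : l < p) : bin l ∈ PP p :=
  (PP p).mul_mem (PP_C (U.factorial h).inv_mem) (desc_mem l)

lemma shp_mem (j : ℕ) : shp ℚ j ∈ PP p := by
  unfold shp
  have h2 : (2 : ℚ[X]) ∈ PP p := by
    have := PP_C (p := p) (nat_mem 2)
    simpa using this
  exact (PP p).mul_mem ((PP p).pow_mem ((PP p).add_mem ((PP p).mul_mem h2 PP_X) (PP p).one_mem) _)
    ((PP p).pow_mem ((PP p).add_mem PP_X (PP p).one_mem) _)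

lemma mu_mem (h5 : 5 ≤ p) (k : ℕ) : mu k ∈ Zp p := by
  induction k using Nat.strong_induction_on with
  | _ k ih =>
    have h3 : U p (3 : ℚ) := U.three h5
    have h2 : U p (2 : ℚ) := U.two (by omega)
    match k, ih with
    | 0, _ => rw [mu_zero]; exact (Zp p).zero_mem
    | 1, _ =>
      rw [mu_one]
      have e : (-1 / 6 : ℚ) = -((2 * 3)⁻¹) := by norm_num
      rw [e]; exact (Zp p).neg_mem (h2.mul h3).inv_mem
    | 2, _ =>
      rw [mu_two]
      have e : (7 / 54 : ℚ) = ((7 : ℕ) : ℚ) * ((2 * (3 ^ 3))⁻¹) := by norm_num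
      rw [e]; exact (Zp p).mul_mem (nat_mem 7) (h2.mul (h3.pow 3)).inv_mem
    | j + 3, ih =>
      rw [mu_rec]
      refine (Zp p).mul_mem ?_ ((Zp p).sum_mem fun i hi => ?_)
      · have e : (-(1 / 9) : ℚ) = -((3 ^ 2)⁻¹) := by norm_num
        rw [e]; exact (Zp p).neg_mem (h3.pow 2).inv_mem
      · exact (Zp p).mul_mem (shp_mem j i) (ih i (Finset.mem_range.mp hi))

lemma TR_mem (h5 : 5 ≤ p) {R : ℚ[X]} (hR : R ∈ PP p) : TR mu R ∈ PP p := by
  rw [TR_apply, Polynomial.sum_def]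
  refine (PP p).sum_mem fun k _ => (PP p).mul_mem (PP_C (hR k)) ((PP p).sum_mem fun i _ => ?_)
  exact (PP p).mul_mem (PP_C (mu_mem h5 i)) ((PP p).pow_mem PP_X _)

/-! ### the chains -/

lemma bi_mem_nat {a b c : ℤ → PowerSeries ℚ} {init : PowerSeries ℚ} (h0 : init ∈ PI p) {n : ℕ}
    (ha : ∀ i : ℕ, i < n → a i ∈ PI p ∧ U p (PowerSeries.constantCoeff (a i)))
    (hb : ∀ i : ℕ, i < n → b i ∈ PI p) (hc : ∀ i : ℕ, i < n → c i ∈ PI p) :
    bi a b c init n ∈ PI p := by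
  induction n with
  | zero => exact h0
  | succ n ih =>
    have ih' := ih (fun i hi => ha i (by omega)) (fun i hi => hb i (by omega))
      (fun i hi => hc i (by omega))
    rw [bi_succ]
    exact (PI p).mul_mem ((PI p).sub_mem (hc n (by omega)) ((PI p).mul_mem (hb n (by omega)) ih'))
      (PI_inv (ha n (by omega)).1 (ha n (by omega)).2)

lemma bi_mem_neg {a b c : ℤ → PowerSeries ℚ} {init : PowerSeries ℚ} (h0 : init ∈ PI p) {n : ℕ}
    (hb : ∀ i : ℕ, i < n → b (-(i : ℤ) - 1) ∈ PI p ∧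
      U p (PowerSeries.constantCoeff (b (-(i : ℤ) - 1))))
    (ha : ∀ i : ℕ, i < n → a (-(i : ℤ) - 1) ∈ PI p)
    (hc : ∀ i : ℕ, i < n → c (-(i : ℤ) - 1) ∈ PI p) :
    bi a b c init (-(n : ℤ)) ∈ PI p := by
  cases n with
  | zero =>
    rw [Nat.cast_zero, neg_zero, bi_zero]; exact h0
  | succ n =>
    have e : (-((n + 1 : ℕ) : ℤ)) = Int.negSucc n := by
      rw [Int.negSucc_eq]; push_cast; ring
    rw [e]
    induction n with
    | zero =>
      rw [show Int.negSucc 0 = (-1 : ℤ) from rfl, bi_negOne]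
      have hb0 := hb 0 (by omega)
      have ha0 := ha 0 (by omega)
      have hc0 := hc 0 (by omega)
      simp only [Nat.cast_zero, neg_zero, zero_sub] at hb0 ha0 hc0
      exact (PI p).mul_mem ((PI p).sub_mem hc0 ((PI p).mul_mem ha0 h0)) (PI_inv hb0.1 hb0.2)
    | succ n ih =>
      rw [bi_negSucc]
      have ih' := ih (fun i hi => hb i (by omega)) (fun i hi => ha i (by omega))
        (fun i hi => hc i (by omega)) (by rw [Int.negSucc_eq]; push_cast; ring)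
      have hb0 := hb (n + 1) (by omega)
      have ha0 := ha (n + 1) (by omega)
      have hc0 := hc (n + 1) (by omega)
      have e2 : (-((n + 1 : ℕ) : ℤ) - 1) = -(n : ℤ) - 2 := by push_cast; ring
      rw [e2] at hb0 ha0 hc0
      exact (PI p).mul_mem ((PI p).sub_mem hc0 ((PI p).mul_mem ha0 ih')) (PI_inv hb0.1 hb0.2)


/-! ### the germs -/

lemma PI_ofNat (n : ℕ) [n.AtLeastTwo] : (OfNat.ofNat n : PowerSeries ℚ) ∈ PI p := by
  have := PI_C (p := p) (nat_mem n)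
  simpa using this

lemma U_zint {x : ℚ} (z : ℤ) (h : x = z) (hz : z ≠ 0) (hlt : |z| < p) : U p x := by
  rw [h]
  refine U.int fun hd => ?_
  have := Int.le_of_dvd (abs_pos.mpr hz) ((dvd_abs _ _).mpr hd)
  omega

lemma cc_lin (x : ℚ) : PowerSeries.constantCoeff (2 * pt x + 1) = 2 * x + 1 := by
  rw [map_add, map_mul, constantCoeff_pt, constantCoeff_two, map_one]

lemma lin_mem {x : ℚ} (hx : x ∈ Zp p) : 2 * pt x + 1 ∈ PI p :=
  (PI p).add_mem ((PI p).mul_mem (PI_ofNat 2) (PI_pt hx)) (PI p).one_mem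

lemma c_mem (h3 : 3 ≤ p) {x : ℚ} (hx : x ∈ Zp p) :
    -(PowerSeries.C (1 / 2) * (3 * pt x + 2)) ∈ PI p :=
  (PI p).neg_mem ((PI p).mul_mem (PI_C (half_mem h3))
    ((PI p).add_mem ((PI p).mul_mem (PI_ofNat 3) (PI_pt hx)) (PI_ofNat 2)))

lemma quarter_mem (h3 : 3 ≤ p) : (1 / 4 : ℚ) ∈ Zp p := by
  have e : (1 / 4 : ℚ) = (2 ^ 2)⁻¹ := by norm_num
  rw [e]; exact ((U.two h3).pow 2).inv_mem

lemma U_quarter (h3 : 3 ≤ p) : U p (1 / 4 : ℚ) := by
  have e : (1 / 4 : ℚ) = (2 ^ 2)⁻¹ := by norm_num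
  rw [e]; exact ((U.two h3).pow 2).inv

lemma q_mem (h3 : 3 ≤ p) {x : ℚ} (hx : x ∈ Zp p) :
    -(PowerSeries.C (1 / 4) * (2 * pt x + 1) ^ 2) ∈ PI p :=
  (PI p).neg_mem ((PI p).mul_mem (PI_C (quarter_mem h3)) ((PI p).pow_mem (lin_mem hx) 2))

lemma cc_q (h3 : 3 ≤ p) {x : ℚ} (hU : U p (2 * x + 1)) :
    U p (PowerSeries.constantCoeff (-(PowerSeries.C (1 / 4) * (2 * pt x + 1) ^ 2))) := by
  rw [map_neg, map_mul, map_pow, cc_lin, PowerSeries.constantCoeff_C]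
  exact ((U_quarter h3).mul (hU.pow 2)).neg

lemma zi (z : ℤ) : (z : ℚ) ∈ Zp p := int_mem p z

lemma zh (h3 : 3 ≤ p) (z : ℤ) : ((z : ℚ) - 1 / 2) ∈ Zp p :=
  (Zp p).sub_mem (zi z) (half_mem h3)

/-- general statement for the integer chains of third order -/
lemma chainZ_mem (h3 : 3 ≤ p) {c : ℤ → PowerSeries ℚ} {init : PowerSeries ℚ} (h0 : init ∈ PI p)
    (hc : ∀ i, c i ∈ PI p) {n : ℕ} (hn : n < p) :
    bi (fun i => pt ((i : ℚ) + 1) ^ 3) (fun i => (2 * pt (i : ℚ) + 1) ^ 3) c init n ∈ PI p := by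
  refine bi_mem_nat h0 (fun i hi => ⟨?_, ?_⟩) (fun i hi => ?_) (fun i hi => hc _)
  · exact (PI p).pow_mem (PI_pt ((Zp p).add_mem (zi _) (Zp p).one_mem)) 3
  · rw [map_pow, constantCoeff_pt]
    exact (U_zint ((i : ℤ) + 1) (by push_cast; ring) (by omega) (by
      rw [abs_of_pos (by omega)]; omega)).pow 3
  · exact (PI p).pow_mem (lin_mem (zi _)) 3

lemma chainZ_neg_mem (h3 : 3 ≤ p) {c : ℤ → PowerSeries ℚ} {init : PowerSeries ℚ}
    (h0 : init ∈ PI p) (hc : ∀ i, c i ∈ PI p) {m : ℕ} (hm : 2 * m ≤ p) :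
    bi (fun i => pt ((i : ℚ) + 1) ^ 3) (fun i => (2 * pt (i : ℚ) + 1) ^ 3) c init (-(m : ℤ))
      ∈ PI p := by
  refine bi_mem_neg h0 (fun i hi => ⟨?_, ?_⟩) (fun i hi => ?_) (fun i hi => hc _)
  · exact (PI p).pow_mem (lin_mem (zi _)) 3
  · rw [map_pow, cc_lin]
    refine (U_zint (-(2 * (i : ℤ) + 1)) (by push_cast; ring) (by omega) ?_).pow 3
    rw [abs_neg, abs_of_pos (by omega)]; omega
  · exact (PI p).pow_mem (PI_pt ((Zp p).add_mem (zi _) (Zp p).one_mem)) 3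

lemma PsiZ_mem (h3 : 3 ≤ p) {n : ℕ} (hn : n < p) : (PsiZ 0 (n : ℤ) : PowerSeries ℚ) ∈ PI p :=
  chainZ_mem h3 (PI_C (Zp p).zero_mem) (fun i => c_mem h3 (zi i)) hn

lemma PsiZ_neg_mem (h3 : 3 ≤ p) {m : ℕ} (hm : 2 * m ≤ p) :
    (PsiZ 0 (-(m : ℤ)) : PowerSeries ℚ) ∈ PI p :=
  chainZ_neg_mem h3 (PI_C (Zp p).zero_mem) (fun i => c_mem h3 (zi i)) hm

lemma HomZ_mem (h3 : 3 ≤ p) {n : ℕ} (hn : n < p) : HomZ (n : ℤ) ∈ PI p :=
  chainZ_mem h3 (PI p).one_mem (fun _ => (PI p).zero_mem) hn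

lemma HomZ_neg_mem (h3 : 3 ≤ p) {m : ℕ} (hm : 2 * m ≤ p) : HomZ (-(m : ℤ)) ∈ PI p :=
  chainZ_neg_mem h3 (PI p).one_mem (fun _ => (PI p).zero_mem) hm

lemma GamZ_mem (h3 : 3 ≤ p) {n : ℕ} (hn : n < p) : (GamZ (n : ℤ) : PowerSeries ℚ) ∈ PI p := by
  refine bi_mem_nat (PI p).one_mem (fun i hi => ⟨?_, ?_⟩) (fun i hi => ?_)
    (fun i hi => (PI p).zero_mem)
  · exact (PI p).pow_mem (PI_pt ((Zp p).add_mem (zi _) (Zp p).one_mem)) 2
  · rw [map_pow, constantCoeff_pt]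
    exact (U_zint ((i : ℤ) + 1) (by push_cast; ring) (by omega) (by
      rw [abs_of_pos (by omega)]; omega)).pow 2
  · exact q_mem h3 (zi _)

lemma GamZ_neg_mem (h3 : 3 ≤ p) {m : ℕ} (hm : 2 * m ≤ p) :
    (GamZ (-(m : ℤ)) : PowerSeries ℚ) ∈ PI p := by
  refine bi_mem_neg (PI p).one_mem (fun i hi => ⟨?_, ?_⟩) (fun i hi => ?_)
    (fun i hi => (PI p).zero_mem)
  · exact q_mem h3 (zi _)
  · refine cc_q h3 (U_zint (-(2 * (i : ℤ) + 1)) (by push_cast; ring) (by omega) ?_)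
    rw [abs_neg, abs_of_pos (by omega)]; omega
  · exact (PI p).pow_mem (PI_pt ((Zp p).add_mem (zi _) (Zp p).one_mem)) 2

lemma ph_mem (h3 : 3 ≤ p) (z : ℤ) : pt ((z : ℚ) - 1 / 2 + 1) ∈ PI p :=
  PI_pt ((Zp p).add_mem (zh h3 z) (Zp p).one_mem)

lemma U_half (h3 : 3 ≤ p) {i n : ℕ} (hi : i < n) (hn : 2 * n ≤ p) :
    U p (((i : ℤ) : ℚ) - 1 / 2 + 1) := by
  have e : (((i : ℤ) : ℚ) - 1 / 2 + 1) = ((2 * (i : ℤ) + 1 : ℤ) : ℚ) * (2 : ℚ)⁻¹ := by
    push_cast; ring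
  rw [e]
  refine (U_zint (2 * (i : ℤ) + 1) rfl (by omega) ?_).mul (U.two h3).inv
  rw [abs_of_pos (by omega)]; omega

lemma PsiH_mem (h3 : 3 ≤ p) {i : ℕ} (hn : 2 * i + 2 ≤ p) :
    (PsiH (i : ℤ) : PowerSeries ℚ) ∈ PI p := by
  have e : (PsiH (i : ℤ) : PowerSeries ℚ) = PsiH0 ((i + 1 : ℕ) : ℤ) := by
    unfold PsiH; push_cast; rfl
  rw [e]
  refine bi_mem_nat (PI p).zero_mem (fun j hj => ⟨?_, ?_⟩) (fun j hj => ?_) (fun j hj => ?_)
  · exact (PI p).pow_mem (ph_mem h3 _) 3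
  · rw [map_pow, constantCoeff_pt]
    exact (U_half h3 hj (by omega)).pow 3
  · exact (PI p).pow_mem (lin_mem (zh h3 _)) 3
  · exact c_mem h3 (zh h3 _)

lemma GamH_mem (h3 : 3 ≤ p) {i : ℕ} (hn : 2 * i + 2 ≤ p) : D.GamH (i : ℤ) ∈ PI p := by
  have e : D.GamH (i : ℤ) = D.GamH0 ((i + 1 : ℕ) : ℤ) := by
    unfold D.GamH; push_cast; rfl
  rw [e]
  refine bi_mem_nat (PI p).one_mem (fun j hj => ⟨?_, ?_⟩) (fun j hj => ?_)
    (fun j hj => (PI p).zero_mem)
  · exact (PI p).pow_mem (ph_mem h3 _) 2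
  · rw [map_pow, constantCoeff_pt]
    exact (U_half h3 hj (by omega)).pow 2
  · exact q_mem h3 (zh h3 _)

lemma U_negint (h3 : 3 ≤ p) {i m : ℕ} (hi : i < m) (hm : m < p) :
    U p (2 * (((-(i : ℤ) - 1 : ℤ) : ℚ) - 1 / 2) + 1) := by
  have e : (2 * (((-(i : ℤ) - 1 : ℤ) : ℚ) - 1 / 2) + 1) = -(2 * ((i + 1 : ℕ) : ℚ)) := by
    push_cast; ring
  rw [e]
  refine ((U.two h3).mul (U.nat fun hd => ?_)).neg
  have := Nat.le_of_dvd (by omega) hd
  omega

lemma PsiH_neg_mem (h3 : 3 ≤ p) {m : ℕ} (hm : m < p) :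
    (PsiH (-(m : ℤ) - 1) : PowerSeries ℚ) ∈ PI p := by
  have e : (PsiH (-(m : ℤ) - 1) : PowerSeries ℚ) = PsiH0 (-(m : ℤ)) := by
    unfold PsiH; congr 1; ring
  rw [e]
  refine bi_mem_neg (PI p).zero_mem (fun j hj => ⟨?_, ?_⟩) (fun j hj => ?_) (fun j hj => ?_)
  · exact (PI p).pow_mem (lin_mem (zh h3 _)) 3
  · rw [map_pow, cc_lin]
    exact (U_negint h3 hj hm).pow 3
  · exact (PI p).pow_mem (ph_mem h3 _) 3
  · exact c_mem h3 (zh h3 _)

lemma GamH_neg_mem (h3 : 3 ≤ p) {m : ℕ} (hm : m < p) : D.GamH (-(m : ℤ) - 1) ∈ PI p := by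
  have e : D.GamH (-(m : ℤ) - 1) = D.GamH0 (-(m : ℤ)) := by
    unfold D.GamH; congr 1; ring
  rw [e]
  refine bi_mem_neg (PI p).one_mem (fun j hj => ⟨?_, ?_⟩) (fun j hj => ?_)
    (fun j hj => (PI p).zero_mem)
  · exact q_mem h3 (zh h3 _)
  · exact cc_q h3 (U_negint h3 hj hm)
  · exact (PI p).pow_mem (ph_mem h3 _) 2

end basic

end Crest.Agent.R006.Int672
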