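import Crest.Agent.R006.CellDefs_365

set_option autoImplicit false

/-!
# Row 6, block P8: the computable class cost `kap` for any cost table (helper305)

Toll network of 961 (note 2742) in a class: tolls `(sR - l)^+`, `(sX - s)^+`, `(sQ - u)^+`,
`tB k` (`k ≥ 1`) with three free integers `sR, sX, sQ` per class, `tB k = (lam - (sR^+ + k - 2)^+)^+`
(polar), `tB k = (lam - sR^+ - k - 1)^+` (regular).
Every option of a row has the cost `a + (index - b)^+`.
-/

namespace Crest.Agent.R006.P8

/-- `x (x+1) / 2` for `x ≥ 0`, else `0` -/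
def tri (x : ℤ) : ℤ := ((x.toNat * (x.toNat + 1) / 2 : ℕ) : ℤ)

/-- the positive part -/
def pos (x : ℤ) : ℤ := (x.toNat : ℤ)

/-- the cost `a + (index - b)^+` of an option (forbidden: `a = 10 ^ 6`) -/
structure Cst where
  a : ℤ
  b : ℤ

/-- the costs of the three options of a row; `z0`: the `X` option has the index `0` only -/
structure Row3 where
  R : Cst
  X : Cst
  Q : Cst
  z0 : Bool := false

/-- `a + (s - b)^+` -/
def Cst.val (c : Cst) (s : ℤ) : ℤ := c.a + pos (s - c.b)

/-- the potential of a row (decomposition A) -/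
def Row3.D (r : Row3) (lam mu sR sX sQ : ℤ) : ℤ :=
  min (r.R.val sR - lam) (min (r.X.val sX) (r.Q.val sQ - mu))

/-- the potential of a row (decomposition B1: an `X` state may be resolved into an `R` state of its
own class) -/
def Row3.DB (r : Row3) (lam mu sR sX sQ : ℤ) : ℤ :=
  min (r.D lam mu sR sX sQ)
    ((if r.z0 then r.X.val (pos sX) + (pos sR + 1) else r.X.val (max sX (pos sR + 1))) - lam)

/-- a kind of rows: the nodes `j` of the class with `js[ia] ≤ j < js[ib]`; `j0` is the special one;
it uses `polC` instead of `polS` if `js[ca] ≤ cj < js[cb]` -/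
structure Kind where
  ia : ℕ
  ib : ℕ
  j0 : ℤ
  ca : ℕ
  cb : ℕ
  cj : ℤ
  pol : Row3
  polS : Row3
  polC : Row3
  reg : Row3
  regS : Row3
  regB : Row3
  regBS : Row3

/-- class type and decomposition: polar; regular, decomposition A; regular, decomposition B1 -/
inductive Mode
  | pol
  | rA
  | rB
  deriving DecidableEq

/-- the condition for `polC` -/
def Kind.cond (k : Kind) (js : List ℤ) : Bool :=
  decide (js.getD k.ca 0 ≤ k.cj) && decide (k.cj < js.getD k.cb 0)

/-- the cost record of the node `j` of the kind `k` in the class with the counts `js` -/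
def Kind.row3 (md : Mode) (js : List ℤ) (k : Kind) (j : ℤ) : Row3 :=
  match md with
  | .pol => if j = k.j0 then (if k.cond js then k.polC else k.polS) else k.pol
  | .rA => if j = k.j0 then k.regS else k.reg
  | .rB => if j = k.j0 then k.regBS else k.regB

/-- the potential of a row -/
def Row3.Dm (md : Mode) (r : Row3) (lam mu sR sX sQ : ℤ) : ℤ :=
  match md with
  | .rB => r.DB lam mu sR sX sQ
  | _ => r.D lam mu sR sX sQ

/-- `∑` over the kinds of `(number of ordinary rows) * o + (number of special rows) * (s or c)` -/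
def kindSum (js : List ℤ) (o s c : Kind → ℤ) : List Kind → ℤ
  | [] => 0
  | k :: ks =>
    let u := js.getD k.ia 0
    let v := js.getD k.ib 0
    if v ≤ u then kindSum js o s c ks
    else if u ≤ k.j0 ∧ k.j0 < v then
      (v - u - 1) * o k + ((if k.cond js then c k else s k) + kindSum js o s c ks)
    else (v - u) * o k + kindSum js o s c ks

/-- maximum of `f` over the listed triples and `(0,0,0)` -/
def bestOf (f : ℤ → ℤ → ℤ → ℤ) : List ℤ → ℤ
  | p :: r :: q :: L => max (f p r q) (bestOf f L)
  | _ => f 0 0 0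

/-- the sum of the beta tolls of a polar class -/
def bePol (lam sR : ℤ) : ℤ :=
  if sR ≤ 0 then pos lam + tri lam else tri (lam + 1 - sR)

/-- value of a polar class -/
def polVal (ks : List Kind) (js : List ℤ) (lam mu sR sX sQ : ℤ) : ℤ :=
  kindSum js (fun k => k.pol.D lam mu sR sX sQ) (fun k => k.polS.D lam mu sR sX sQ)
      (fun k => k.polC.D lam mu sR sX sQ) ks
    - (tri sR + (tri sX + (tri sQ + bePol lam sR)))

/-- value of a regular class, decomposition A -/
def regVal (ks : List Kind) (js : List ℤ) (lam mu sR sX sQ : ℤ) : ℤ :=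
  kindSum js (fun k => k.reg.D lam mu sR sX sQ) (fun k => k.regS.D lam mu sR sX sQ)
      (fun k => k.regS.D lam mu sR sX sQ) ks
    - (tri sR + (tri sX + (tri sQ + tri (lam - 2 - pos sR))))

/-- value of a regular class, decomposition B1 -/
def regValB (ks : List Kind) (js : List ℤ) (lam mu sR sX sQ : ℤ) : ℤ :=
  kindSum js (fun k => k.regB.DB lam mu sR sX sQ) (fun k => k.regBS.DB lam mu sR sX sQ)
      (fun k => k.regBS.DB lam mu sR sX sQ) ks
    - (tri sR + (tri sX + (tri sQ + tri (lam - 2 - pos sR))))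

/-- number of nodes of the class in the windows of the list -/
def cntSum (js : List ℤ) : List (ℕ × ℕ) → ℤ
  | [] => 0
  | q :: L => (js.getD q.2 0 - js.getD q.1 0) + cntSum js L

/-- the reference: `∑ s * C(cnt, 2)` -/
def refSum (js : List ℤ) : List (ℤ × List (ℕ × ℕ)) → ℤ
  | [] => 0
  | q :: L => q.1 * tri (cntSum js q.2 - 1) + refSum js L

/-- the class cost; `t = [lam, mu, pi, dR, dQ, pi, dR, dQ, ...]`, `ip` = number of the boundary
`(0, 1)` (polar iff its entry is `0`) -/
def kapK (ks : List Kind) (refs : List (ℤ × List (ℕ × ℕ))) (ip : ℕ) :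
    List ℤ → List ℤ → ℤ
  | lam :: mu :: L, js =>
    (if js.getD ip 0 = 0 then
      bestOf (fun p r q => polVal ks js lam mu (p + lam + 2 + r) p (p + mu + q)) L
    else
      max (bestOf (fun p r q => regVal ks js lam mu (p + lam - 1 + r) p (p + mu - 2 + q)) L)
        (bestOf (fun p r q => regValB ks js lam mu (p + lam - 1 + r) p (p + mu - 2 + q)) L))
      - refSum js refs
  | _, _ => 0

/-- sum of the beta tolls -/
def Mode.be (md : Mode) (lam a : ℤ) : ℤ :=
  match md with
  | .pol => bePol lam a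
  | _ => tri (lam - 2 - pos a)

/-- the value of a class -/
def classVal (md : Mode) (ks : List Kind) (js : List ℤ) (lam mu sR sX sQ : ℤ) : ℤ :=
  match md with
  | .pol => polVal ks js lam mu sR sX sQ
  | .rA => regVal ks js lam mu sR sX sQ
  | .rB => regValB ks js lam mu sR sX sQ

/-! ### properties -/

theorem pos_eq (x : ℤ) : pos x = max x 0 := by
  rw [pos]; omega

theorem pos_nonneg (x : ℤ) : 0 ≤ pos x := by rw [pos_eq]; exact le_max_right _ _

theorem tri_nonneg (x : ℤ) : 0 ≤ tri x := by rw [tri]; positivity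

theorem two_tri {x : ℤ} (hx : -1 ≤ x) : 2 * tri x = x * (x + 1) := by
  have h2 : 2 * (x.toNat * (x.toNat + 1) / 2) = x.toNat * (x.toNat + 1) :=
    Nat.mul_div_cancel' (Nat.even_mul_succ_self _).two_dvd
  have h3 : (2 : ℤ) * tri x = (x.toNat : ℤ) * ((x.toNat : ℤ) + 1) := by
    rw [tri]; exact_mod_cast h2
  rw [h3]
  rcases (by omega : x = -1 ∨ 0 ≤ x) with h | h
  · subst h; decide
  · rw [Int.toNat_of_nonneg h]

theorem tri_of_nonpos {x : ℤ} (hx : x ≤ 0) : tri x = 0 := by
  rw [tri, Int.toNat_of_nonpos hx]; rfl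

/-- the sum of the tolls `(s - l)^+`, `l < n`, is at most `tri s` -/
theorem sum_pos_le (s : ℤ) (n : ℕ) : ∑ l ∈ Finset.range n, pos (s - l) ≤ tri s := by
  have key : ∀ m : ℕ, ∑ l ∈ Finset.range n, pos ((m : ℤ) - l) ≤ tri m := by
    intro m
    induction m generalizing n with
    | zero =>
      rw [tri_of_nonpos (by simp)]
      refine Finset.sum_nonpos fun l _ => ?_
      rw [pos_eq]; push_cast; omega
    | succ m ih =>
      cases n with
      | zero => simpa using tri_nonneg _
      | succ n =>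
        rw [Finset.sum_range_succ']
        have h1 : ∑ l ∈ Finset.range n, pos (((m + 1 : ℕ) : ℤ) - ((l + 1 : ℕ) : ℤ)) ≤ tri m := by
          refine le_trans (le_of_eq ?_) (ih n)
          refine Finset.sum_congr rfl fun l _ => ?_
          congr 1; push_cast; ring
        have h2 : pos (((m + 1 : ℕ) : ℤ) - ((0 : ℕ) : ℤ)) = m + 1 := by
          rw [pos_eq]; push_cast; omega
        have h3 := two_tri (x := (m : ℤ)) (by omega)
        have h4 := two_tri (x := ((m + 1 : ℕ) : ℤ)) (by push_cast; omega)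
        have h5 : 2 * tri ((m + 1 : ℕ) : ℤ) = 2 * tri (m : ℤ) + 2 * (m + 1) := by
          rw [h3, h4]; push_cast; ring
        rw [h2]; linarith
  rcases le_total 0 s with hs | hs
  · obtain ⟨m, rfl⟩ := Int.eq_ofNat_of_zero_le hs
    exact key m
  · refine le_trans (Finset.sum_nonpos fun l _ => ?_) (tri_nonneg _)
    rw [pos_eq]; omega

/-- the sum of the tolls `(be - k)^+`, `1 ≤ k ≤ n`, is at most `tri (be - 1)` -/
theorem sum_pos_succ_le (s : ℤ) (n : ℕ) :
    ∑ l ∈ Finset.range n, pos (s - (l + 1 : ℕ)) ≤ tri (s - 1) := by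
  refine le_trans (le_of_eq ?_) (sum_pos_le (s - 1) n)
  refine Finset.sum_congr rfl fun l _ => ?_
  congr 1; push_cast; ring

/-- cost + toll `≥` the value of the option -/
theorem Cst.val_le (c : Cst) (s l : ℤ) : c.val s ≤ c.a + pos (l - c.b) + pos (s - l) := by
  simp only [Cst.val, pos_eq]; omega

theorem D_le_R (r : Row3) (lam mu sR sX sQ l : ℤ) :
    r.D lam mu sR sX sQ ≤ r.R.a + pos (l - r.R.b) + pos (sR - l) - lam := by
  have := r.R.val_le sR l
  exact (min_le_left _ _).trans (by linarith)

theorem D_le_X (r : Row3) (lam mu sR sX sQ l : ℤ) :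
    r.D lam mu sR sX sQ ≤ r.X.a + pos (l - r.X.b) + pos (sX - l) :=
  ((min_le_right _ _).trans (min_le_left _ _)).trans (r.X.val_le sX l)

theorem D_le_Q (r : Row3) (lam mu sR sX sQ l : ℤ) :
    r.D lam mu sR sX sQ ≤ r.Q.a + pos (l - r.Q.b) + pos (sQ - l) - mu := by
  have := r.Q.val_le sQ l
  exact ((min_le_right _ _).trans (min_le_right _ _)).trans (by linarith)

theorem DB_le_D (r : Row3) (lam mu sR sX sQ : ℤ) :
    r.DB lam mu sR sX sQ ≤ r.D lam mu sR sX sQ := min_le_left _ _

/-- the potential of the state `X s` in decomposition B1 -/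
def DX (lam sR s : ℤ) : ℤ := min 0 (pos (pos sR + 1 - s) - lam)

theorem DX_nonpos (lam sR s : ℤ) : DX lam sR s ≤ 0 := min_le_left _ _

/-- near states: `v(near s l) ≥ (l - s + 1)^+` -/
theorem DX_le (lam sR s l : ℤ) (hl : 0 ≤ l) :
    DX lam sR s ≤ pos (l - s + 1) + pos (sR - l) - lam := by
  refine (min_le_right _ _).trans ?_
  simp only [pos_eq]; omega

theorem DB_le_X (r : Row3) (lam mu sR sX sQ s : ℤ) (hz : r.z0 = true → s = 0) :
    r.DB lam mu sR sX sQ ≤ r.X.a + pos (s - r.X.b) + pos (sX - s) + DX lam sR s := by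
  rcases le_total 0 (pos (pos sR + 1 - s) - lam) with h | h
  · rw [DX, min_eq_left h, add_zero]
    exact (DB_le_D _ _ _ _ _ _).trans (D_le_X _ _ _ _ _ _ _)
  · rw [DX, min_eq_right h]
    refine (min_le_right _ _).trans ?_
    cases hz0 : r.z0 with
    | true =>
      have hs := hz hz0
      subst hs
      simp only [if_true]
      have h1 := r.X.val_le (pos sX) 0
      simp only [Cst.val, pos_eq] at h1 ⊢
      omega
    | false =>
      simp only [Bool.false_eq_true, if_false]
      have h1 := r.X.val_le (max sX (pos sR + 1)) s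
      have h2 : pos (max sX (pos sR + 1) - s) ≤ pos (sX - s) + pos (pos sR + 1 - s) := by
        simp only [pos_eq]; omega
      linarith

/-- the beta toll of a polar class -/
def tBp (lam sR k : ℤ) : ℤ := pos (lam - pos (pos sR + k - 2))

/-- the beta toll of a regular class -/
def tBr (lam sR k : ℤ) : ℤ := pos (lam - pos sR - k - 1)

/-- the beta states of a polar class: `v(Lam k l) ≥ (k + l - 2)^+` -/
theorem beta_polar (lam sR k l : ℤ) (hl : 0 ≤ l) :
    lam ≤ pos (k + l - 2) + pos (sR - l) + tBp lam sR k := by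
  simp only [tBp, pos_eq]; omega

/-- the beta states of a regular class: `v(Lam k l) ≥ k + l + 1` -/
theorem beta_regular (lam sR k l : ℤ) (hl : 0 ≤ l) :
    lam ≤ (k + l + 1) + pos (sR - l) + tBr lam sR k := by
  simp only [tBr, pos_eq]; omega

/-- sum of the beta tolls of a polar class -/
theorem sum_tBp_le (lam sR : ℤ) (n : ℕ) :
    ∑ k ∈ Finset.range n, tBp lam sR (k + 1) ≤ bePol lam sR := by
  rw [bePol]
  split_ifs with h
  · cases n with
    | zero => simpa using add_nonneg (pos_nonneg lam) (tri_nonneg lam)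
    | succ n =>
      rw [Finset.sum_range_succ']
      have h1 : tBp lam sR (((0 : ℕ) : ℤ) + 1) = pos lam := by
        simp only [tBp, pos_eq]; push_cast; omega
      have h2 : ∑ k ∈ Finset.range n, tBp lam sR (((k + 1 : ℕ) : ℤ) + 1) ≤ tri lam := by
        refine le_trans (le_of_eq ?_) (sum_pos_le lam n)
        refine Finset.sum_congr rfl fun k _ => ?_
        simp only [tBp, pos_eq]; push_cast; omega
      rw [h1]; linarith
  · refine le_trans (Finset.sum_le_sum fun k _ => ?_) (sum_pos_le (lam + 1 - sR) n)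
    simp only [tBp, pos_eq]; omega

/-- sum of the beta tolls of a regular class -/
theorem sum_tBr_le (lam sR : ℤ) (n : ℕ) :
    ∑ k ∈ Finset.range n, tBr lam sR (k + 1) ≤ tri (lam - 2 - pos sR) := by
  refine le_trans (Finset.sum_le_sum fun k _ => ?_) (sum_pos_le (lam - 2 - pos sR) n)
  simp only [tBr, pos_eq]; omega

theorem tBp_nonneg (lam sR k : ℤ) : 0 ≤ tBp lam sR k := pos_nonneg _

theorem tBr_nonneg (lam sR k : ℤ) : 0 ≤ tBr lam sR k := pos_nonneg _

/-- `bestOf` is attained -/
theorem bestOf_mem (f : ℤ → ℤ → ℤ → ℤ) : ∀ L : List ℤ, ∃ p r q, bestOf f L = f p r q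
  | p :: r :: q :: L => by
    rcases bestOf_mem f L with ⟨p', r', q', h⟩
    rcases le_total (f p r q) (bestOf f L) with h1 | h1
    · exact ⟨p', r', q', by rw [bestOf, max_eq_right h1, h]⟩
    · exact ⟨p, r, q, by rw [bestOf, max_eq_left h1]⟩
  | [] => ⟨0, 0, 0, rfl⟩
  | [_] => ⟨0, 0, 0, rfl⟩
  | [_, _] => ⟨0, 0, 0, rfl⟩

/-- the meaning of `kapK`: in every class it is the value of an admissible certificate -/
theorem kapK_spec (ks : List Kind) (refs : List (ℤ × List (ℕ × ℕ))) (ip : ℕ) (lam mu : ℤ)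
    (L js : List ℤ) :
    ∃ md : Mode, (md = .pol ↔ js.getD ip 0 = 0) ∧ ∃ sR sX sQ,
      kapK ks refs ip (lam :: mu :: L) js
        = classVal md ks js lam mu sR sX sQ - refSum js refs := by
  by_cases h : js.getD ip 0 = 0
  · obtain ⟨p, r, q, h1⟩ := bestOf_mem
      (fun p r q => polVal ks js lam mu (p + lam + 2 + r) p (p + mu + q)) L
    exact ⟨.pol, ⟨fun _ => h, fun _ => rfl⟩, _, _, _, by rw [kapK, if_pos h, h1, classVal]⟩
  · obtain ⟨p, r, q, h1⟩ := bestOf_mem
      (fun p r q => regVal ks js lam mu (p + lam - 1 + r) p (p + mu - 2 + q)) L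
    obtain ⟨p', r', q', h2⟩ := bestOf_mem
      (fun p r q => regValB ks js lam mu (p + lam - 1 + r) p (p + mu - 2 + q)) L
    rcases le_total (regVal ks js lam mu (p + lam - 1 + r) p (p + mu - 2 + q))
      (regValB ks js lam mu (p' + lam - 1 + r') p' (p' + mu - 2 + q')) with h3 | h3
    · exact ⟨.rB, ⟨(fun hh => Mode.noConfusion hh), fun hh => absurd hh h⟩, _, _, _, by
        rw [kapK, if_neg h, h1, h2, max_eq_right h3, classVal]⟩
    · exact ⟨.rA, ⟨(fun hh => Mode.noConfusion hh), fun hh => absurd hh h⟩, _, _, _, by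
        rw [kapK, if_neg h, h1, h2, max_eq_left h3, classVal]⟩

end Crest.Agent.R006.P8
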