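import Crest.Agent.R006.KapVal_305

set_option autoImplicit false

/-!
# Row 6, blocks P4/P8: `kapK_spec` with a bound for the tolls (helper305)
-/

namespace Crest.Agent.R006.P8

/-- `bestOf` is attained at entries of the list (or `0`) -/
theorem bestOf_mem' (f : ℤ → ℤ → ℤ → ℤ) : ∀ L : List ℤ, ∃ p r q, bestOf f L = f p r q ∧
    (p = 0 ∨ p ∈ L) ∧ (r = 0 ∨ r ∈ L) ∧ (q = 0 ∨ q ∈ L)
  | p :: r :: q :: L => by
    rcases bestOf_mem' f L with ⟨p', r', q', h, hp, hr, hq⟩
    rcases le_total (f p r q) (bestOf f L) with h1 | h1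
    · refine ⟨p', r', q', by rw [bestOf, max_eq_right h1, h], ?_, ?_, ?_⟩
      · rcases hp with h | h
        · exact Or.inl h
        · exact Or.inr (by simp [h])
      · rcases hr with h | h
        · exact Or.inl h
        · exact Or.inr (by simp [h])
      · rcases hq with h | h
        · exact Or.inl h
        · exact Or.inr (by simp [h])
    · exact ⟨p, r, q, by rw [bestOf, max_eq_left h1], by simp, by simp, by simp⟩
  | [] => ⟨0, 0, 0, rfl, Or.inl rfl, Or.inl rfl, Or.inl rfl⟩
  | [_] => ⟨0, 0, 0, rfl, Or.inl rfl, Or.inl rfl, Or.inl rfl⟩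
  | [_, _] => ⟨0, 0, 0, rfl, Or.inl rfl, Or.inl rfl, Or.inl rfl⟩

/-- the meaning of `kapK`, with `sX` an entry of the list of candidates (or `0`) -/
theorem kapK_spec' (ks : List Kind) (refs : List (ℤ × List (ℕ × ℕ))) (ip : ℕ) (lam mu : ℤ)
    (L js : List ℤ) :
    ∃ md : Mode, (md = .pol ↔ js.getD ip 0 = 0) ∧ ∃ sR sX sQ,
      kapK ks refs ip (lam :: mu :: L) js
        = classVal md ks js lam mu sR sX sQ - refSum js refs ∧ (sX = 0 ∨ sX ∈ L) := by
  by_cases h : js.getD ip 0 = 0
  · obtain ⟨p, r, q, h1, hp, _, _⟩ := bestOf_mem'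
      (fun p r q => polVal ks js lam mu (p + lam + 2 + r) p (p + mu + q)) L
    exact ⟨.pol, ⟨fun _ => h, fun _ => rfl⟩, _, _, _,
      by rw [kapK, if_pos h, h1, classVal], hp⟩
  · obtain ⟨p, r, q, h1, hp, _, _⟩ := bestOf_mem'
      (fun p r q => regVal ks js lam mu (p + lam - 1 + r) p (p + mu - 2 + q)) L
    obtain ⟨p', r', q', h2, hp', _, _⟩ := bestOf_mem'
      (fun p r q => regValB ks js lam mu (p + lam - 1 + r) p (p + mu - 2 + q)) L
    rcases le_total (regVal ks js lam mu (p + lam - 1 + r) p (p + mu - 2 + q))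
      (regValB ks js lam mu (p' + lam - 1 + r') p' (p' + mu - 2 + q')) with h3 | h3
    · exact ⟨.rB, ⟨(fun hh => Mode.noConfusion hh), fun hh => absurd hh h⟩, _, _, _, by
        rw [kapK, if_neg h, h1, h2, max_eq_right h3, classVal], hp'⟩
    · exact ⟨.rA, ⟨(fun hh => Mode.noConfusion hh), fun hh => absurd hh h⟩, _, _, _, by
        rw [kapK, if_neg h, h1, h2, max_eq_left h3, classVal], hp⟩

/-- sum of the absolute values of the entries -/
def absSum : List ℤ → ℤ
  | [] => 0
  | a :: L => |a| + absSum L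

theorem absSum_nonneg : ∀ L : List ℤ, 0 ≤ absSum L
  | [] => le_rfl
  | a :: L => add_nonneg (abs_nonneg a) (absSum_nonneg L)

theorem le_absSum {x : ℤ} : ∀ {L : List ℤ}, (x = 0 ∨ x ∈ L) → x ≤ absSum L
  | [], h => by rcases h with h | h; · rw [h]; exact le_rfl
                · simp at h
  | a :: L, h => by
    rcases h with h | h
    · rw [h]; exact absSum_nonneg _
    · rcases List.mem_cons.mp h with h | h
      · rw [h, absSum]; linarith [le_abs_self a, absSum_nonneg L]
      · rw [absSum]; linarith [abs_nonneg a, le_absSum (Or.inr h : x = 0 ∨ x ∈ L)]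

end Crest.Agent.R006.P8
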