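import Crest.Agent.R006.CellSum_757

set_option autoImplicit false

/-!
# Row 6, blocks P4/P8: counting the nodes of a window class by class (helper757)

Nodes are given in doubled coordinates `s : ℤ` (position `s/2`), `p` is odd.  Every `s` is uniquely
`s = 2 c + (2 j + h) p` with `0 ≤ c < p`, `h = s % 2`: `c = cls p s` is the residue class of `s/2`
mod `p` and `j = jdx p s`.  The nodes of type `h` in the window `[A N, B N)` lying in the class `c`
are those with `jst A h N p c ≤ j < jst B h N p c`.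

Main results: `sum_window` (any summand), `sum_window_class` (summand depending on the class),
`card_window_class`, and the versions for integer nodes (`sum_int`, `card_int`) and for half integer
nodes `l + 1/2` (`sum_half`, `card_half`).
-/

namespace Crest.Agent.R006.P8

open CellSumx757

lemma jst_le_iff {A h N p c j : ℤ} (hp : 0 < p) :
    jst A h N p c ≤ j ↔ 2 * A * N ≤ 2 * c + (2 * j + h) * p := by
  obtain ⟨h1, h2⟩ := (jst_eq_iff (A := A) (h := h) (N := N) (c := c) hp).mp rfl
  constructor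
  · intro hj
    have : (2 * jst A h N p c + h) * p ≤ (2 * j + h) * p :=
      mul_le_mul_of_nonneg_right (by linarith) hp.le
    linarith
  · intro hj
    by_contra hcon
    push Not at hcon
    have : (2 * j + h) * p ≤ (2 * jst A h N p c - 2 + h) * p :=
      mul_le_mul_of_nonneg_right (by linarith) hp.le
    linarith

lemma lt_jst_iff {A h N p c j : ℤ} (hp : 0 < p) :
    j < jst A h N p c ↔ 2 * c + (2 * j + h) * p < 2 * A * N := by
  rw [← not_le, jst_le_iff hp, not_le]

lemma jst_mono {A B h N p c : ℤ} (hp : 0 < p) (hN : 0 ≤ N) (hAB : A ≤ B) :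
    jst A h N p c ≤ jst B h N p c := by
  rw [jst_le_iff hp]
  have h1 := ((jst_le_iff (A := B) (h := h) (N := N) (c := c) hp).mp le_rfl)
  have : 2 * A * N ≤ 2 * B * N := by nlinarith
  linarith

/-- class of the node at `s/2` -/
def cls (p s : ℤ) : ℤ := if s % 2 = 0 then (s / 2) % p else ((s + p) / 2) % p

/-- index of the node at `s/2` in its class -/
def jdx (p s : ℤ) : ℤ := if s % 2 = 0 then (s / 2) / p else ((s + p) / 2) / p - 1

lemma cls_nonneg {p s : ℤ} (hp : 0 < p) : 0 ≤ cls p s := by
  unfold cls; split_ifs <;> exact Int.emod_nonneg _ hp.ne'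

lemma cls_lt {p s : ℤ} (hp : 0 < p) : cls p s < p := by
  unfold cls; split_ifs <;> exact Int.emod_lt_of_pos _ hp

/-- the decomposition of a node -/
lemma node_eq {p s : ℤ} (hodd : p % 2 = 1) :
    s = 2 * cls p s + (2 * jdx p s + s % 2) * p := by
  unfold cls jdx
  split_ifs with h
  · have h1 := Int.emod_add_mul_ediv (s / 2) p
    have h2 : 2 * (s / 2) = s := by omega
    rw [h]; nlinarith
  · have h3 : s % 2 = 1 := by omega
    have h1 := Int.emod_add_mul_ediv ((s + p) / 2) p
    have h2 : 2 * ((s + p) / 2) = s + p := by omega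
    rw [h3]; nlinarith

/-- uniqueness of the decomposition -/
lemma node_unique {p c j h s : ℤ} (hp : 0 < p) (hodd : p % 2 = 1) (hc0 : 0 ≤ c) (hcp : c < p)
    (hh : h = 0 ∨ h = 1) (hs : s = 2 * c + (2 * j + h) * p) :
    s % 2 = h ∧ cls p s = c ∧ jdx p s = j := by
  obtain ⟨q, hq⟩ : ∃ q, p = 2 * q + 1 := ⟨p / 2, by omega⟩
  have hpar : s % 2 = h := by
    rcases hh with rfl | rfl
    · have : s = 2 * (c + j * p) := by rw [hs]; ring
      omega
    · have : s = 2 * (c + j * p + q) + 1 := by rw [hs, hq]; ring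
      omega
  refine ⟨hpar, ?_, ?_⟩
  · unfold cls
    rcases hh with rfl | rfl
    · rw [if_pos hpar]
      have : s / 2 = c + p * j := by
        have : s = 2 * (c + p * j) := by rw [hs]; ring
        omega
      rw [this, Int.add_mul_emod_self_left, Int.emod_eq_of_lt hc0 hcp]
    · rw [if_neg (by omega)]
      have : (s + p) / 2 = c + p * (j + 1) := by
        have : s + p = 2 * (c + p * (j + 1)) := by rw [hs]; ring
        omega
      rw [this, Int.add_mul_emod_self_left, Int.emod_eq_of_lt hc0 hcp]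
  · unfold jdx
    rcases hh with rfl | rfl
    · rw [if_pos hpar]
      have : s / 2 = c + p * j := by
        have : s = 2 * (c + p * j) := by rw [hs]; ring
        omega
      rw [this, Int.add_mul_ediv_left _ _ hp.ne', Int.ediv_eq_zero_of_lt hc0 hcp]
      ring
    · rw [if_neg (by omega)]
      have : (s + p) / 2 = c + p * (j + 1) := by
        have : s + p = 2 * (c + p * (j + 1)) := by rw [hs]; ring
        omega
      rw [this, Int.add_mul_ediv_left _ _ hp.ne', Int.ediv_eq_zero_of_lt hc0 hcp]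
      ring

/-- the nodes of type `h` (doubled coordinates) in the window `[A N, B N)` -/
noncomputable def win (A B h N : ℤ) : Finset ℤ := (Finset.Ico (2 * A * N) (2 * B * N)).filter fun s => s % 2 = h

lemma mem_win {A B h N s : ℤ} :
    s ∈ win A B h N ↔ (2 * A * N ≤ s ∧ s < 2 * B * N) ∧ s % 2 = h := by
  simp [win]

/-- the window, class by class: the classes are `0 ≤ c < p` (as natural numbers) -/
lemma win_eq_biUnion {A B h N : ℤ} {p : ℕ} (hp : 0 < p) (hodd : p % 2 = 1)
    (hh : h = 0 ∨ h = 1) :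
    win A B h N = (Finset.range p).biUnion fun c =>
      (Finset.Ico (jst A h N p c) (jst B h N p c)).image fun j => 2 * (c : ℤ) + (2 * j + h) * p := by
  have hp' : (0 : ℤ) < p := by exact_mod_cast hp
  have hodd' : (p : ℤ) % 2 = 1 := by omega
  ext s
  rw [mem_win, Finset.mem_biUnion]
  constructor
  · rintro ⟨⟨h1, h2⟩, h3⟩
    have e := node_eq (s := s) hodd'
    rw [h3] at e
    have hc0 := cls_nonneg (s := s) hp'
    have hcp := cls_lt (s := s) hp'
    refine ⟨(cls p s).toNat, Finset.mem_range.mpr (by omega), ?_⟩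
    rw [Int.toNat_of_nonneg hc0]
    refine Finset.mem_image.mpr ⟨jdx p s, ?_, e.symm⟩
    rw [Finset.mem_Ico, jst_le_iff hp', lt_jst_iff hp']
    exact ⟨by linarith, by linarith⟩
  · rintro ⟨c, hc, hs⟩
    obtain ⟨j, hj, rfl⟩ := Finset.mem_image.mp hs
    rw [Finset.mem_Ico, jst_le_iff hp', lt_jst_iff hp'] at hj
    have hcp : (c : ℤ) < p := by exact_mod_cast Finset.mem_range.mp hc
    have := node_unique (c := c) (j := j) (h := h) hp' hodd' (by positivity) hcp hh rfl
    exact ⟨⟨hj.1, hj.2⟩, this.1⟩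

/-- **Sum over a window, class by class.** -/
theorem sum_window {M : Type*} [AddCommMonoid M] {A B h N : ℤ} {p : ℕ} (hp : 0 < p)
    (hodd : p % 2 = 1) (hh : h = 0 ∨ h = 1) (F : ℤ → M) :
    ∑ s ∈ win A B h N, F s = ∑ c ∈ Finset.range p,
      ∑ j ∈ Finset.Ico (jst A h N p c) (jst B h N p c), F (2 * (c : ℤ) + (2 * j + h) * p) := by
  have hp' : (0 : ℤ) < p := by exact_mod_cast hp
  have hodd' : (p : ℤ) % 2 = 1 := by omega
  rw [win_eq_biUnion hp hodd hh, Finset.sum_biUnion]
  · refine Finset.sum_congr rfl fun c hc => ?_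
    rw [Finset.sum_image]
    intro j _ j' _ hjj
    have h1 : (2 * j + h) * (p : ℤ) = (2 * j' + h) * p := by simpa using hjj
    have h2 := mul_right_cancel₀ hp'.ne' h1
    linarith
  · intro c hc c' hc' hne
    rw [Function.onFun, Finset.disjoint_left]
    intro s hs hs'
    obtain ⟨j, _, rfl⟩ := Finset.mem_image.mp hs
    obtain ⟨j', _, hj'⟩ := Finset.mem_image.mp hs'
    have hcp : (c : ℤ) < p := by exact_mod_cast Finset.mem_range.mp hc
    have hcp' : (c' : ℤ) < p := by exact_mod_cast Finset.mem_range.mp hc'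
    have e1 := node_unique (c := c) (j := j) (h := h) hp' hodd' (by positivity) hcp hh rfl
    have e2 := node_unique (c := c') (j := j') (h := h) hp' hodd' (by positivity) hcp' hh rfl
    rw [hj'] at e2
    apply hne
    have : (c : ℤ) = c' := e1.2.1.symm.trans e2.2.1
    exact_mod_cast this

/-- **Sum over a window of a function of the class.** -/
theorem sum_window_class {A B h N : ℤ} {p : ℕ} (hp : 0 < p) (hodd : p % 2 = 1)
    (hh : h = 0 ∨ h = 1) (hN : 0 ≤ N) (hAB : A ≤ B) (f : ℤ → ℤ) :
    ∑ s ∈ win A B h N, f (cls p s) =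
      ∑ c ∈ Finset.range p, (jst B h N p c - jst A h N p c) * f c := by
  have hp' : (0 : ℤ) < p := by exact_mod_cast hp
  have hodd' : (p : ℤ) % 2 = 1 := by omega
  rw [sum_window hp hodd hh]
  refine Finset.sum_congr rfl fun c hc => ?_
  have hcp : (c : ℤ) < p := by exact_mod_cast Finset.mem_range.mp hc
  have h1 : ∀ j ∈ Finset.Ico (jst A h N p c) (jst B h N p c),
      f (cls p (2 * (c : ℤ) + (2 * j + h) * p)) = f c := by
    intro j _
    rw [(node_unique (c := c) (j := j) (h := h) hp' hodd' (by positivity) hcp hh rfl).2.1]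
  rw [Finset.sum_congr rfl h1, Finset.sum_const, Int.card_Ico, nsmul_eq_mul,
    Int.toNat_of_nonneg (by have := jst_mono (h := h) (c := (c : ℤ)) hp' hN hAB; linarith)]

/-- the nodes of the window in the class `c` -/
theorem win_filter_class {A B h N : ℤ} {p : ℕ} (hp : 0 < p) (hodd : p % 2 = 1)
    (hh : h = 0 ∨ h = 1) {c : ℕ} (hc : c < p) :
    (win A B h N).filter (fun s => cls p s = c) =
      (Finset.Ico (jst A h N p c) (jst B h N p c)).image
        fun j => 2 * (c : ℤ) + (2 * j + h) * p := by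
  have hp' : (0 : ℤ) < p := by exact_mod_cast hp
  have hodd' : (p : ℤ) % 2 = 1 := by omega
  have hcp : (c : ℤ) < p := by exact_mod_cast hc
  ext s
  rw [Finset.mem_filter, mem_win, Finset.mem_image]
  constructor
  · rintro ⟨⟨⟨h1, h2⟩, h3⟩, h4⟩
    have e := node_eq (s := s) hodd'
    rw [h3, h4] at e
    refine ⟨jdx p s, ?_, e.symm⟩
    rw [Finset.mem_Ico, jst_le_iff hp', lt_jst_iff hp']
    exact ⟨by linarith, by linarith⟩
  · rintro ⟨j, hj, rfl⟩
    rw [Finset.mem_Ico, jst_le_iff hp', lt_jst_iff hp'] at hj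
    have := node_unique (c := c) (j := j) (h := h) hp' hodd' (by positivity) hcp hh rfl
    exact ⟨⟨⟨hj.1, hj.2⟩, this.1⟩, this.2.1⟩

/-- number of nodes of the window in the class `c` -/
theorem card_window_class {A B h N : ℤ} {p : ℕ} (hp : 0 < p) (hodd : p % 2 = 1)
    (hh : h = 0 ∨ h = 1) {c : ℕ} (hc : c < p) :
    ((win A B h N).filter (fun s => cls p s = c)).card =
      (jst B h N p c - jst A h N p c).toNat := by
  have hp' : (0 : ℤ) < p := by exact_mod_cast hp
  rw [win_filter_class hp hodd hh hc, Finset.card_image_of_injective _ ?_, Int.card_Ico]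
  intro j j' hjj
  have h1 : (2 * j + h) * (p : ℤ) = (2 * j' + h) * p := by simpa using hjj
  have h2 := mul_right_cancel₀ hp'.ne' h1
  linarith

/-! ### integer nodes and half integer nodes in their own coordinates -/

lemma cls_two_mul (p n : ℤ) : cls p (2 * n) = n % p := by
  unfold cls
  rw [if_pos (by omega)]
  congr 1
  omega

lemma cls_two_mul_add_one {p l : ℤ} (hodd : p % 2 = 1) :
    cls p (2 * l + 1) = (l + (p + 1) / 2) % p := by
  unfold cls
  rw [if_neg (by omega)]
  congr 1
  omega

lemma win_int (A B N : ℤ) :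
    win A B 0 N = (Finset.Ico (A * N) (B * N)).image fun n => 2 * n := by
  ext s
  rw [mem_win, Finset.mem_image]
  constructor
  · rintro ⟨⟨h1, h2⟩, h3⟩
    have h4 : s = 2 * (s / 2) := by omega
    refine ⟨s / 2, ?_, h4.symm⟩
    rw [Finset.mem_Ico]
    constructor <;> nlinarith
  · rintro ⟨n, hn, rfl⟩
    rw [Finset.mem_Ico] at hn
    refine ⟨⟨by nlinarith, by nlinarith⟩, by omega⟩

lemma win_half (A B N : ℤ) :
    win A B 1 N = (Finset.Ico (A * N) (B * N)).image fun l => 2 * l + 1 := by
  ext s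
  rw [mem_win, Finset.mem_image]
  constructor
  · rintro ⟨⟨h1, h2⟩, h3⟩
    have h4 : s = 2 * (s / 2) + 1 := by omega
    refine ⟨s / 2, ?_, h4.symm⟩
    rw [Finset.mem_Ico]
    have h5 : 2 * A * N = 2 * (A * N) := by ring
    have h6 : 2 * B * N = 2 * (B * N) := by ring
    constructor <;> omega
  · rintro ⟨n, hn, rfl⟩
    rw [Finset.mem_Ico] at hn
    have h5 : 2 * A * N = 2 * (A * N) := by ring
    have h6 : 2 * B * N = 2 * (B * N) := by ring
    refine ⟨⟨by omega, by omega⟩, by omega⟩

/-- integer nodes: any summand -/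
theorem sum_int {M : Type*} [AddCommMonoid M] {A B N : ℤ} {p : ℕ} (hp : 0 < p)
    (hodd : p % 2 = 1) (F : ℤ → M) :
    ∑ n ∈ Finset.Ico (A * N) (B * N), F n = ∑ c ∈ Finset.range p,
      ∑ j ∈ Finset.Ico (jst A 0 N p c) (jst B 0 N p c), F ((c : ℤ) + j * p) := by
  have h := sum_window (A := A) (B := B) (N := N) hp hodd (Or.inl rfl) (fun s => F (s / 2))
  rw [win_int, Finset.sum_image (by intro a _ b _ hab; simpa using hab)] at h
  have e1 : ∀ n ∈ Finset.Ico (A * N) (B * N), F (2 * n / 2) = F n := by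
    intro n _; congr 1; omega
  rw [Finset.sum_congr rfl e1] at h
  rw [h]
  refine Finset.sum_congr rfl fun c _ => Finset.sum_congr rfl fun j _ => ?_
  congr 1
  have : 2 * (c : ℤ) + (2 * j + 0) * p = 2 * (c + j * p) := by ring
  omega

/-- half integer nodes `l + 1/2`: any summand (of `l`) -/
theorem sum_half {M : Type*} [AddCommMonoid M] {A B N : ℤ} {p : ℕ} (hp : 0 < p)
    (hodd : p % 2 = 1) (F : ℤ → M) :
    ∑ l ∈ Finset.Ico (A * N) (B * N), F l = ∑ c ∈ Finset.range p,
      ∑ j ∈ Finset.Ico (jst A 1 N p c) (jst B 1 N p c), F ((c : ℤ) + j * p + (p - 1) / 2) := by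
  have h := sum_window (A := A) (B := B) (N := N) hp hodd (Or.inr rfl) (fun s => F (s / 2))
  rw [win_half, Finset.sum_image (by intro a _ b _ hab; simpa using hab)] at h
  have e1 : ∀ n ∈ Finset.Ico (A * N) (B * N), F ((2 * n + 1) / 2) = F n := by
    intro n _; congr 1; omega
  rw [Finset.sum_congr rfl e1] at h
  rw [h]
  refine Finset.sum_congr rfl fun c _ => Finset.sum_congr rfl fun j _ => ?_
  congr 1
  have : 2 * (c : ℤ) + (2 * j + 1) * p = 2 * (c + j * p) + p := by ring
  omega

/-- integer nodes: function of the class -/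
theorem sum_int_class {A B N : ℤ} {p : ℕ} (hp : 0 < p) (hodd : p % 2 = 1) (hN : 0 ≤ N)
    (hAB : A ≤ B) (f : ℤ → ℤ) :
    ∑ n ∈ Finset.Ico (A * N) (B * N), f (n % p) =
      ∑ c ∈ Finset.range p, (jst B 0 N p c - jst A 0 N p c) * f c := by
  rw [← sum_window_class hp hodd (Or.inl rfl) hN hAB, win_int,
    Finset.sum_image (by intro a _ b _ hab; simpa using hab)]
  refine Finset.sum_congr rfl fun n _ => ?_
  rw [cls_two_mul]

/-- half integer nodes `l + 1/2`: function of the class -/
theorem sum_half_class {A B N : ℤ} {p : ℕ} (hp : 0 < p) (hodd : p % 2 = 1) (hN : 0 ≤ N)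
    (hAB : A ≤ B) (f : ℤ → ℤ) :
    ∑ l ∈ Finset.Ico (A * N) (B * N), f ((l + (p + 1) / 2) % p) =
      ∑ c ∈ Finset.range p, (jst B 1 N p c - jst A 1 N p c) * f c := by
  have hodd' : (p : ℤ) % 2 = 1 := by omega
  rw [← sum_window_class hp hodd (Or.inr rfl) hN hAB, win_half,
    Finset.sum_image (by intro a _ b _ hab; simpa using hab)]
  refine Finset.sum_congr rfl fun n _ => ?_
  rw [cls_two_mul_add_one hodd']

/-- the flag `polar/regular` and the base node in terms of `jst` -/
lemma jst_zero_one {N p c : ℤ} (hp : 0 < p) (hc0 : 0 ≤ c) (hcp : c < p) :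
    jst 0 1 N p c = if 2 * c < p then 0 else -1 := by
  split_ifs with h
  · rw [jst_eq_iff hp]; constructor <;> linarith
  · rw [jst_eq_iff hp]; constructor <;> linarith

lemma jst_zero_zero {N p c : ℤ} (hp : 0 < p) (hc0 : 0 ≤ c) (hcp : c < p) :
    jst 0 0 N p c = 0 := by
  rw [jst_eq_iff hp]; constructor <;> linarith

/-- the base node `n = c` lies in the window `[0, B N)` iff `1 ≤ jst B 0` -/
lemma base_mem_iff {B N p c : ℤ} (hp : 0 < p) : 0 < jst B 0 N p c ↔ c < B * N := by
  rw [lt_jst_iff hp]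
  constructor <;> intro h <;> nlinarith

end Crest.Agent.R006.P8
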