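import Crest.Agent.R006.KapVal_305
import Crest.Agent.R006.RowCount_757

set_option autoImplicit false

/-!
# Row 6, blocks P4/P8: the sum of `kindSum` over the classes is the sum over the rows (helper305)
-/

namespace Crest.Agent.R006.P8

open Finset

/-- an entry of `jvec` -/
theorem jvec_getD (bd : List (ℤ × ℤ)) (N p c : ℤ) {i : ℕ} (hi : i < bd.length) :
    (jvec bd N p c).getD i 0 = jst (bd.getD i (0, 0)).1 (bd.getD i (0, 0)).2 N p c := by
  rw [jvec, List.getD_eq_getElem _ _ (by simpa using hi), List.getElem_map,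
    List.getD_eq_getElem _ _ hi]

/-- the window of the kind `k` -/
structure IsWin (bd : List (ℤ × ℤ)) (k : Kind) (A B h : ℤ) : Prop where
  ia : k.ia < bd.length
  ib : k.ib < bd.length
  ea : bd.getD k.ia (0, 0) = (A, h)
  eb : bd.getD k.ib (0, 0) = (B, h)
  hh : h = 0 ∨ h = 1
  AB : A ≤ B

theorem IsWin.le {bd : List (ℤ × ℤ)} {k : Kind} {A B h : ℤ} (w : IsWin bd k A B h) {N p c : ℤ}
    (hp : 0 < p) (hN : 0 ≤ N) : (jvec bd N p c).getD k.ia 0 ≤ (jvec bd N p c).getD k.ib 0 := by
  rw [jvec_getD _ _ _ _ w.ia, jvec_getD _ _ _ _ w.ib, w.ea, w.eb]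
  exact jst_mono hp hN w.AB

/-- one kind: sum over the classes = sum over the window -/
theorem sum_kind {bd : List (ℤ × ℤ)} {k : Kind} {A B h : ℤ} (w : IsWin bd k A B h) {N : ℤ} {p : ℕ}
    (hp : 0 < p) (hodd : p % 2 = 1) (o s : ℤ → ℤ) :
    ∑ c ∈ range p, ∑ j ∈ Finset.Ico ((jvec bd N p c).getD k.ia 0) ((jvec bd N p c).getD k.ib 0),
        (if j = k.j0 then s c else o c)
      = ∑ x ∈ win A B h N, if jdx p x = k.j0 then s (cls p x) else o (cls p x) := by
  have hp' : (0 : ℤ) < p := by exact_mod_cast hp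
  have hodd' : (p : ℤ) % 2 = 1 := by omega
  rw [sum_window hp hodd w.hh]
  refine Finset.sum_congr rfl fun c hc => ?_
  have hcp : (c : ℤ) < p := by exact_mod_cast Finset.mem_range.mp hc
  rw [jvec_getD _ _ _ _ w.ia, jvec_getD _ _ _ _ w.ib, w.ea, w.eb]
  refine Finset.sum_congr rfl fun j _ => ?_
  obtain ⟨_, h2, h3⟩ := node_unique (c := c) (j := j) (h := h) hp' hodd' (by positivity) hcp w.hh rfl
  rw [h2, h3]

/-- **Sum of `kindSum` over the classes = sum over all rows of the windows.** -/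
theorem sum_kindSum (bd : List (ℤ × ℤ)) (o s s' : ℤ → Kind → ℤ) {N : ℤ} (hN : 0 ≤ N) {p : ℕ}
    (hp : 0 < p) (hodd : p % 2 = 1) (wA wB wh : Kind → ℤ) : ∀ ks : List Kind,
    (∀ k ∈ ks, IsWin bd k (wA k) (wB k) (wh k)) →
    ∑ c ∈ range p, kindSum (jvec bd N p c) (o c) (s c) (s' c) ks
      = (ks.map fun k => ∑ x ∈ win (wA k) (wB k) (wh k) N,
          if jdx p x = k.j0 then (if k.cond (jvec bd N p (cls p x)) then s' (cls p x) k
            else s (cls p x) k) else o (cls p x) k).sum := by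
  intro ks h
  have hp' : (0 : ℤ) < p := by exact_mod_cast hp
  have h1 : ∀ c ∈ range p, kindSum (jvec bd N p c) (o c) (s c) (s' c) ks =
      (ks.map fun k => ∑ j ∈ Finset.Ico ((jvec bd N p c).getD k.ia 0)
        ((jvec bd N p c).getD k.ib 0), if j = k.j0 then
          (if k.cond (jvec bd N p c) then s' c k else s c k) else o c k).sum := fun c _ =>
    kindSum_eq _ _ _ _ _ fun k hk => (h k hk).le hp' hN
  rw [Finset.sum_congr rfl h1]
  clear h1
  induction ks with
  | nil => simp
  | cons k ks ih =>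
    simp only [List.map_cons, List.sum_cons]
    rw [Finset.sum_add_distrib, ih fun k' hk' => h k' (List.mem_cons_of_mem _ hk')]
    congr 1
    exact sum_kind (h k List.mem_cons_self) hp hodd (fun c => o c k)
      (fun c => if k.cond (jvec bd N p c) then s' c k else s c k)

/-- the number of nodes of the class in windows with multipliers: linear part -/
theorem sum_cnt {bd : List (ℤ × ℤ)} {k : Kind} {A B h : ℤ} (w : IsWin bd k A B h) {N : ℤ}
    (hN : 0 ≤ N) {p : ℕ} (hp : 0 < p) (hodd : p % 2 = 1) :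
    ∑ c ∈ range p, ((jvec bd N p c).getD k.ib 0 - (jvec bd N p c).getD k.ia 0) = (B - A) * N := by
  have h1 := sum_window_class hp hodd w.hh hN w.AB (fun _ => 1)
  have h2 : ∀ c ∈ range p, ((jvec bd N p c).getD k.ib 0 - (jvec bd N p c).getD k.ia 0)
      = (jst B h N p c - jst A h N p c) * 1 := by
    intro c _
    rw [jvec_getD _ _ _ _ w.ia, jvec_getD _ _ _ _ w.ib, w.ea, w.eb, mul_one]
  rw [Finset.sum_congr rfl h2, ← h1, Finset.sum_const, nsmul_eq_mul, mul_one]
  rcases w.hh with rfl | rfl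
  · rw [win_int, Finset.card_image_of_injective _ (fun a b hab => by simpa using hab),
      Int.card_Ico, Int.toNat_of_nonneg (by nlinarith [w.AB])]
    ring
  · rw [win_half, Finset.card_image_of_injective _ (fun a b hab => by simpa using hab),
      Int.card_Ico, Int.toNat_of_nonneg (by nlinarith [w.AB])]
    ring

end Crest.Agent.R006.P8
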