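import Crest.Agent.R006.KapKinds_305

set_option autoImplicit false

/-!
# Row 6, blocks P4/P8: the value of a class as a sum over its nodes (helper305)
-/

namespace Crest.Agent.R006.P8

/-- `kindSum` as a sum over the nodes of the class -/
theorem kindSum_eq (js : List ℤ) (o s c : Kind → ℤ) : ∀ ks : List Kind,
    (∀ k ∈ ks, js.getD k.ia 0 ≤ js.getD k.ib 0) →
    kindSum js o s c ks = (ks.map fun k => ∑ j ∈ Finset.Ico (js.getD k.ia 0) (js.getD k.ib 0),
      if j = k.j0 then (if k.cond js then c k else s k) else o k).sum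
  | [], _ => rfl
  | k :: ks, h => by
    have h0 := h k List.mem_cons_self
    have ih := kindSum_eq js o s c ks fun k' hk' => h k' (List.mem_cons_of_mem _ hk')
    rw [List.map_cons, List.sum_cons, ← ih, kindSum]
    generalize (if k.cond js then c k else s k) = w
    have hcard : (((Finset.Ico (js.getD k.ia 0) (js.getD k.ib 0)).card : ℕ) : ℤ)
        = js.getD k.ib 0 - js.getD k.ia 0 := by
      rw [Int.card_Ico, Int.toNat_of_nonneg (by linarith)]
    split_ifs with h1 h2
    · have : js.getD k.ia 0 = js.getD k.ib 0 := le_antisymm h0 h1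
      rw [this]; simp
    · have hmem : k.j0 ∈ Finset.Ico (js.getD k.ia 0) (js.getD k.ib 0) := Finset.mem_Ico.mpr h2
      rw [← Finset.add_sum_erase _ _ hmem, if_pos rfl]
      have h3 : ∑ j ∈ (Finset.Ico (js.getD k.ia 0) (js.getD k.ib 0)).erase k.j0,
          (if j = k.j0 then w else o k) = (js.getD k.ib 0 - js.getD k.ia 0 - 1) * o k := by
        rw [Finset.sum_congr rfl fun j hj => if_neg (Finset.ne_of_mem_erase hj),
          Finset.sum_const, Finset.card_erase_of_mem hmem, nsmul_eq_mul]
        have h4 : 1 ≤ (Finset.Ico (js.getD k.ia 0) (js.getD k.ib 0)).card :=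
          Finset.card_pos.mpr ⟨_, hmem⟩
        rw [Nat.cast_sub h4, hcard]; norm_num
      rw [h3]; ring
    · have hnm : k.j0 ∉ Finset.Ico (js.getD k.ia 0) (js.getD k.ib 0) := fun hm =>
        h2 (Finset.mem_Ico.mp hm)
      have h3 : ∑ j ∈ Finset.Ico (js.getD k.ia 0) (js.getD k.ib 0),
          (if j = k.j0 then w else o k) = (js.getD k.ib 0 - js.getD k.ia 0) * o k := by
        rw [Finset.sum_congr rfl fun j hj => if_neg (fun hh : j = k.j0 => hnm (hh ▸ hj)),
          Finset.sum_const, nsmul_eq_mul, hcard]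
      rw [h3]

/-- the value of a class as a sum over its nodes, minus the tolls -/
theorem classVal_eq (md : Mode) (ks : List Kind) (js : List ℤ) (lam mu sR sX sQ : ℤ)
    (h : ∀ k ∈ ks, js.getD k.ia 0 ≤ js.getD k.ib 0) :
    classVal md ks js lam mu sR sX sQ =
      (ks.map fun k => ∑ j ∈ Finset.Ico (js.getD k.ia 0) (js.getD k.ib 0),
        (k.row3 md js j).Dm md lam mu sR sX sQ).sum
        - (tri sR + (tri sX + (tri sQ + md.be lam sR))) := by
  cases md with
  | pol =>
    rw [classVal, polVal, kindSum_eq _ _ _ _ _ h]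
    congr 1
    refine congrArg List.sum (List.map_congr_left fun k _ => Finset.sum_congr rfl fun j _ => ?_)
    simp only [Kind.row3, Row3.Dm]
    split_ifs <;> rfl
  | rA =>
    rw [classVal, regVal, kindSum_eq _ _ _ _ _ h]
    congr 1
    refine congrArg List.sum (List.map_congr_left fun k _ => Finset.sum_congr rfl fun j _ => ?_)
    simp only [Kind.row3, Row3.Dm]
    split_ifs <;> rfl
  | rB =>
    rw [classVal, regValB, kindSum_eq _ _ _ _ _ h]
    congr 1
    refine congrArg List.sum (List.map_congr_left fun k _ => Finset.sum_congr rfl fun j _ => ?_)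
    simp only [Kind.row3, Row3.Dm]
    split_ifs <;> rfl

end Crest.Agent.R006.P8
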