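import Crest.Agent.R006.KapVal_305
import Crest.Agent.R006.P4Toll_961

set_option autoImplicit false
set_option linter.unusedSectionVars false

/-!
# Row 6, blocks P4/P8: from the toll network (961) to the computable class values (helper305)

Gauge form: the `R`-columns are `ρ * b_l`, `z c` = number of zeros of the gauge `ρ` in the class `c`;
all `R`-costs are shifted by `z c`.

* `certOf` : the certificate with `sR = (sg - l)^+`, `sX`, `sQ`, beta tolls; `a' = sg + z`;
* `Tables` : the coefficients satisfy the (shifted) cost tables, errors of level `M`;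
* `valid_certOf`, `det_mem_tables` : the bound for the determinant;
* `row_le_gauge` : the class value of the gauge form is at least the row form value
  (`R`-zeros as rows, `kapK`) `- C(z,2) + lam z`.
-/

namespace Crest.Agent.R006.P8

open Finset Crest.Agent.R006.Tollx814 Crest.Agent.R006.P4Toll961

/-- potential of the `X` states -/
def Mode.dX (d : Mode) (lam a s : ℤ) : ℤ :=
  match d with
  | .rB => DX lam a s
  | _ => 0

/-- tolls of the beta states -/
def Mode.tB (d : Mode) (lam a k : ℤ) : ℤ :=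
  match d with
  | .pol => tBp lam a k
  | _ => tBr lam a k

theorem Dm_le_R (d : Mode) (r : Row3) (lam mu sR sX sQ l : ℤ) :
    r.Dm d lam mu sR sX sQ ≤ r.R.a + pos (l - r.R.b) + pos (sR - l) - lam := by
  cases d with
  | rB => exact (DB_le_D _ _ _ _ _ _).trans (D_le_R _ _ _ _ _ _ _)
  | _ => exact D_le_R _ _ _ _ _ _ _

theorem Dm_le_X (d : Mode) (r : Row3) (lam mu sR sX sQ s : ℤ) (hz : r.z0 = true → s = 0) :
    r.Dm d lam mu sR sX sQ ≤ r.X.a + pos (s - r.X.b) + pos (sX - s) + d.dX lam sR s := by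
  cases d with
  | rB => exact DB_le_X _ _ _ _ _ _ _ hz
  | _ => simpa [Row3.Dm, Mode.dX] using D_le_X _ _ _ _ _ _ _

theorem Dm_le_Q (d : Mode) (r : Row3) (lam mu sR sX sQ l : ℤ) :
    r.Dm d lam mu sR sX sQ ≤ r.Q.a + pos (l - r.Q.b) + pos (sQ - l) - mu := by
  cases d with
  | rB => exact (DB_le_D _ _ _ _ _ _).trans (D_le_Q _ _ _ _ _ _ _)
  | _ => exact D_le_Q _ _ _ _ _ _ _

theorem Mode.dX_nonpos (d : Mode) (lam a s : ℤ) : d.dX lam a s ≤ 0 := by
  cases d with
  | rB => exact DX_nonpos _ _ _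
  | _ => exact le_rfl

theorem Mode.neg_dX_le (d : Mode) (lam a s : ℤ) : -d.dX lam a s ≤ max lam 0 := by
  cases d with
  | rB =>
    simp only [Mode.dX, DX, pos_eq]; omega
  | _ => simp [Mode.dX]

theorem Mode.tB_nonneg (d : Mode) (lam a k : ℤ) : 0 ≤ d.tB lam a k := by
  cases d <;> exact pos_nonneg _

theorem Mode.sum_tB_le (d : Mode) (lam a : ℤ) (n : ℕ) :
    ∑ k ∈ range n, d.tB lam a (k + 1) ≤ d.be lam a := by
  cases d with
  | pol => exact sum_tBp_le _ _ _
  | rA => exact sum_tBr_le _ _ _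
  | rB => exact sum_tBr_le _ _ _

section cert

variable {Cl : Type*} {ι : Type*} {N : ℕ}

/-- the certificate: `sg` the `R`-toll, `z` the number of gauge zeros -/
def certOf (N : ℕ) (cls : ι → Cl) (dec : Cl → Mode) (tab : ι → Row3) (z : Cl → ℕ) (lam mu nu : ℤ)
    (sg sX sQ : Cl → ℤ) : Cert Cl N ι where
  lam := lam
  mu := mu
  nu := nu
  D0 i := (tab i).Dm (dec (cls i)) lam mu (sg (cls i) + z (cls i)) (sX (cls i)) (sQ (cls i))
  DX c s := (dec c).dX lam (sg c + z c) ((s : ℕ) : ℤ)
  DB c k := -(dec c).tB lam (sg c + z c) ((k : ℕ) + 1)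
  sR c l := pos (sg c - (l : ℕ))
  sX c s := pos (sX c - (s : ℕ))
  sQ c u := pos (sQ c - (u : ℕ))
  sB c k := (dec c).tB lam (sg c + z c) ((k : ℕ) + 1)

end cert

section valid

variable {A : Type*} [CommRing A]
variable {Cl : Type*} [Fintype Cl] [DecidableEq Cl]
variable {jR jT jQ jU : Type*} [Fintype jR] [DecidableEq jR] [Fintype jT] [DecidableEq jT]
  [Fintype jQ] [DecidableEq jQ] [Fintype jU] [DecidableEq jU]
variable {N : ℕ}
variable {ι : Type*} [Fintype ι] [DecidableEq ι]

/-- the coefficients of the network and of the rows satisfy the (shifted) cost tables; `M` is the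
(large) level of the error terms -/
structure Tables (Fil : ZFil A) (W : Net A Cl jR jT jQ N) (r : Rows A Cl jR jT jQ jU N ι)
    (dec : Cl → Mode) (tab : ι → Row3) (z : Cl → ℕ) (M : ℤ) : Prop where
  rho : ∀ c l j, W.rho c l j ∈ Fil.F 0
  th0 : ∀ c l j, W.th0 c l j ∈ Fil.F 0
  q : ∀ c l j, W.q c l j ∈ Fil.F 0
  A : ∀ i (l : Fin N), r.cA i l ∈
    Fil.F ((tab i).R.a + pos (((l : ℕ) : ℤ) + z (r.cls i) - (tab i).R.b))
  B : ∀ i (s : Fin N), r.cB i s ∈ Fil.F ((tab i).X.a + pos (((s : ℕ) : ℤ) - (tab i).X.b))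
  B0 : ∀ i (s : Fin N), (tab i).z0 = true → (s : ℕ) ≠ 0 → r.cB i s ∈ Fil.F M
  C : ∀ i (u : Fin N), r.cC i u ∈ Fil.F ((tab i).Q.a + pos (((u : ℕ) : ℤ) - (tab i).Q.b))
  near : ∀ c (s l : Fin N), dec c = .rB →
    W.near c s l ∈ Fil.F (pos (((l : ℕ) : ℤ) + z c - (s : ℕ) + 1))
  near0 : ∀ c s l, dec c ≠ .rB → W.near c s l ∈ Fil.F M
  far : ∀ c s c' k, W.far c s c' k ∈ Fil.F 0
  Lamp : ∀ c (k l : Fin N), dec c = .pol →
    W.Lam c k l ∈ Fil.F (pos (((k : ℕ) : ℤ) + 1 + (l : ℕ) + z c - 2))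
  Lamr : ∀ c (k l : Fin N), dec c ≠ .pol →
    W.Lam c k l ∈ Fil.F (((k : ℕ) : ℤ) + 1 + (l : ℕ) + z c + 1)
  err : ∀ i d, kd d ≠ 3 → r.err i d ∈ Fil.F M
  errU : ∀ i t, r.err i (.inr (.inr (.inr t))) ∈ Fil.F 0
  errX : ∀ c s j, W.errX c s j ∈ Fil.F M
  errB : ∀ c k j, W.errB c k j ∈ Fil.F M

/-- **The certificate is valid**, if the error level `M` is large and `D0 + nu ≤ 0` for all rows. -/
theorem valid_certOf {Fil : ZFil A} {W : Net A Cl jR jT jQ N} {r : Rows A Cl jR jT jQ jU N ι}
    {dec : Cl → Mode} {tab : ι → Row3} {z : Cl → ℕ} {M : ℤ} (h : Tables Fil W r dec tab z M)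
    (lam mu nu : ℤ) (sg sX sQ : Cl → ℤ) (hM : lam ≤ M)
    (hD : ∀ i, (certOf N r.cls dec tab z lam mu nu sg sX sQ).D0 i + nu ≤ 0)
    (hE : ∀ i, (certOf N r.cls dec tab z lam mu nu sg sX sQ).D0 i + max lam (max 0 mu) ≤ M) :
    Valid Fil W r (certOf N r.cls dec tab z lam mu nu sg sX sQ) where
  sR0 _ _ := pos_nonneg _
  sX0 _ _ := pos_nonneg _
  sQ0 _ _ := pos_nonneg _
  sB0 _ _ := Mode.tB_nonneg _ _ _ _
  rho := h.rho
  th0 := h.th0
  q := h.q
  A i l := by
    refine Fil.mono ?_ (h.A i l)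
    have := Dm_le_R (dec (r.cls i)) (tab i) lam mu (sg (r.cls i) + z (r.cls i)) (sX (r.cls i))
      (sQ (r.cls i)) ((l : ℕ) + z (r.cls i))
    have e : sg (r.cls i) + (z (r.cls i) : ℤ) - (((l : ℕ) : ℤ) + z (r.cls i))
        = sg (r.cls i) - (l : ℕ) := by ring
    rw [e] at this
    simp only [certOf]
    linarith
  B i s := by
    by_cases hs : (tab i).z0 = true ∧ (s : ℕ) ≠ 0
    · refine Fil.mono ?_ (h.B0 i s hs.1 hs.2)
      have h1 := hE i
      have h2 := pos_nonneg (sX (r.cls i) - (s : ℕ))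
      have h3 := (dec (r.cls i)).neg_dX_le lam (sg (r.cls i) + z (r.cls i)) (s : ℕ)
      have h4 : max lam 0 ≤ max lam (max 0 mu) := max_le_max le_rfl (le_max_left _ _)
      simp only [certOf] at h1 ⊢
      linarith
    · refine Fil.mono ?_ (h.B i s)
      have := Dm_le_X (dec (r.cls i)) (tab i) lam mu (sg (r.cls i) + z (r.cls i)) (sX (r.cls i))
        (sQ (r.cls i)) (s : ℕ) (fun h1 => by
          have : (s : ℕ) = 0 := by
            by_contra h2; exact hs ⟨h1, h2⟩
          exact_mod_cast this)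
      simp only [certOf]
      linarith
  C i u := by
    refine Fil.mono ?_ (h.C i u)
    have := Dm_le_Q (dec (r.cls i)) (tab i) lam mu (sg (r.cls i) + z (r.cls i)) (sX (r.cls i))
      (sQ (r.cls i)) (u : ℕ)
    simp only [certOf]
    linarith
  err i d := by
    have h1 := hD i
    have hE1 := hE i
    have hm1 : lam ≤ max lam (max 0 mu) := le_max_left _ _
    have hm2 : 0 ≤ max lam (max 0 mu) := (le_max_left 0 mu).trans (le_max_right _ _)
    have hm3 : mu ≤ max lam (max 0 mu) := (le_max_right 0 mu).trans (le_max_right _ _)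
    have e3 : (certOf N r.cls dec tab z lam mu nu sg sX sQ).lk 3 = nu := rfl
    have e0 : (certOf N r.cls dec tab z lam mu nu sg sX sQ).lk 0 = lam := rfl
    have e1 : (certOf N r.cls dec tab z lam mu nu sg sX sQ).lk 1 = 0 := rfl
    have e2 : (certOf N r.cls dec tab z lam mu nu sg sX sQ).lk 2 = mu := rfl
    rcases d with j | j | j | t
    · refine Fil.mono ?_ (h.err i (.inl j) (by simp [kd]))
      rw [kd, e0]; linarith
    · refine Fil.mono ?_ (h.err i (.inr (.inl j)) (by simp [kd]))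
      rw [kd, e1]; linarith
    · refine Fil.mono ?_ (h.err i (.inr (.inr (.inl j))) (by simp [kd]))
      rw [kd, e2]; linarith
    · refine Fil.mono ?_ (h.errU i t)
      rw [kd, e3]; linarith
  DX0 _ _ := Mode.dX_nonpos _ _ _ _
  near c s l := by
    by_cases hd : dec c = .rB
    · refine Fil.mono ?_ (h.near c s l hd)
      have := DX_le lam (sg c + z c) (s : ℕ) ((l : ℕ) + z c) (by positivity)
      have e : sg c + (z c : ℤ) - (((l : ℕ) : ℤ) + z c) = sg c - (l : ℕ) := by ring
      rw [e] at this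
      simp only [certOf, hd, Mode.dX]
      linarith
    · refine Fil.mono ?_ (h.near0 c s l hd)
      have h1 := (dec c).dX_nonpos lam (sg c + z c) (s : ℕ)
      have h2 := pos_nonneg (sg c - (l : ℕ))
      simp only [certOf]
      linarith
  far c s c' k := by
    refine Fil.mono ?_ (h.far c s c' k)
    have := (dec c).dX_nonpos lam (sg c + z c) (s : ℕ)
    simp only [certOf]
    linarith
  errX c s j := by
    refine Fil.mono ?_ (h.errX c s j)
    have := (dec c).dX_nonpos lam (sg c + z c) (s : ℕ)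
    simp only [certOf]
    linarith
  Lam c k l := by
    by_cases hd : dec c = .pol
    · refine Fil.mono ?_ (h.Lamp c k l hd)
      have := beta_polar lam (sg c + z c) ((k : ℕ) + 1) ((l : ℕ) + z c) (by positivity)
      have e : sg c + (z c : ℤ) - (((l : ℕ) : ℤ) + z c) = sg c - (l : ℕ) := by ring
      have e2 : ((k : ℕ) : ℤ) + 1 + (((l : ℕ) : ℤ) + z c) - 2
          = ((k : ℕ) : ℤ) + 1 + (l : ℕ) + z c - 2 := by ring
      rw [e, e2] at this
      simp only [certOf, hd, Mode.tB]
      linarith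
    · refine Fil.mono ?_ (h.Lamr c k l hd)
      have := beta_regular lam (sg c + z c) ((k : ℕ) + 1) ((l : ℕ) + z c) (by positivity)
      have e : sg c + (z c : ℤ) - (((l : ℕ) : ℤ) + z c) = sg c - (l : ℕ) := by ring
      rw [e] at this
      have h2 : (dec c).tB lam (sg c + z c) ((k : ℕ) + 1) = tBr lam (sg c + z c) ((k : ℕ) + 1) := by
        cases hc : dec c with
        | pol => exact absurd hc hd
        | rA => rfl
        | rB => rfl
      simp only [certOf]
      rw [h2]
      linarith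
  errB c k j := by
    refine Fil.mono ?_ (h.errB c k j)
    have := (dec c).tB_nonneg lam (sg c + z c) ((k : ℕ) + 1)
    simp only [certOf]
    linarith

/-- the sum of all tolls of a class -/
theorem tolls_le (dec : Mode) (lam a sg sX sQ : ℤ) (N : ℕ) :
    ∑ l : Fin N, (pos (sg - (l : ℕ)) + pos (sX - (l : ℕ)) + pos (sQ - (l : ℕ))
      + dec.tB lam a ((l : ℕ) + 1)) ≤ tri sg + (tri sX + (tri sQ + dec.be lam a)) := by
  rw [Fin.sum_univ_eq_sum_range (fun l : ℕ => pos (sg - l) + pos (sX - l) + pos (sQ - l)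
    + dec.tB lam a (l + 1)) N]
  rw [sum_add_distrib, sum_add_distrib, sum_add_distrib]
  have h1 := sum_pos_le sg N
  have h2 := sum_pos_le sX N
  have h3 := sum_pos_le sQ N
  have h4 := dec.sum_tB_le lam a N
  linarith

/-- **The determinant bound in closed form.** -/
theorem det_mem_tables {Fil : ZFil A} {W : Net A Cl jR jT jQ N} {r : Rows A Cl jR jT jQ jU N ι}
    {dec : Cl → Mode} {tab : ι → Row3} {z : Cl → ℕ} {M : ℤ} (h : Tables Fil W r dec tab z M)
    (lam mu nu : ℤ) (sg sX sQ : Cl → ℤ) (hM : lam ≤ M)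
    (hD : ∀ i, (certOf N r.cls dec tab z lam mu nu sg sX sQ).D0 i + nu ≤ 0)
    (hE : ∀ i, (certOf N r.cls dec tab z lam mu nu sg sX sQ).D0 i + max lam (max 0 mu) ≤ M)
    (e : ι ≃ Col jR jT jQ jU) :
    Matrix.det (Matrix.of fun i j => W.mat r i (e j)) ∈
      Fil.F (lam * Fintype.card jR + mu * Fintype.card jQ + nu * Fintype.card jU
        + ∑ i, (tab i).Dm (dec (r.cls i)) lam mu (sg (r.cls i) + z (r.cls i)) (sX (r.cls i))
            (sQ (r.cls i))
        - ∑ c, (tri (sg c) + (tri (sX c) + (tri (sQ c) + (dec c).be lam (sg c + z c))))) := by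
  refine Fil.mono ?_ (det_mem_equiv (valid_certOf h lam mu nu sg sX sQ hM hD hE) e)
  have h1 : ∑ c, ∑ l : Fin N, ((certOf N r.cls dec tab z lam mu nu sg sX sQ).sR c l
      + (certOf N r.cls dec tab z lam mu nu sg sX sQ).sX c l
      + (certOf N r.cls dec tab z lam mu nu sg sX sQ).sQ c l
      + (certOf N r.cls dec tab z lam mu nu sg sX sQ).sB c l)
      ≤ ∑ c, (tri (sg c) + (tri (sX c) + (tri (sQ c) + (dec c).be lam (sg c + z c)))) :=
    Finset.sum_le_sum fun c _ => tolls_le (dec c) lam (sg c + z c) (sg c) (sX c) (sQ c) N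
  have h2 : ∑ i, (certOf N r.cls dec tab z lam mu nu sg sX sQ).D0 i =
    ∑ i, (tab i).Dm (dec (r.cls i)) lam mu (sg (r.cls i) + z (r.cls i)) (sX (r.cls i))
            (sQ (r.cls i)) := rfl
  have h3 : (certOf N r.cls dec tab z lam mu nu sg sX sQ).lam = lam := rfl
  have h4 : (certOf N r.cls dec tab z lam mu nu sg sX sQ).mu = mu := rfl
  have h5 : (certOf N r.cls dec tab z lam mu nu sg sX sQ).nu = nu := rfl
  rw [h2, h3, h4, h5]
  linarith

end valid

/-! ### monotonicity, row form -/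

theorem pos_mono {x y : ℤ} (h : x ≤ y) : pos x ≤ pos y := by simp only [pos_eq]; omega

theorem Cst.val_mono (c : Cst) {s t : ℤ} (h : s ≤ t) : c.val s ≤ c.val t := by
  have := pos_mono (show s - c.b ≤ t - c.b by linarith)
  simp only [Cst.val]; linarith

theorem Dm_mono (d : Mode) (r : Row3) (lam mu sX sQ : ℤ) {s t : ℤ} (h : s ≤ t) :
    r.Dm d lam mu s sX sQ ≤ r.Dm d lam mu t sX sQ := by
  have h1 := r.R.val_mono h
  have h2 : r.D lam mu s sX sQ ≤ r.D lam mu t sX sQ := by
    simp only [Row3.D]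
    exact min_le_min (by linarith) le_rfl
  cases d with
  | rB =>
    simp only [Row3.Dm, Row3.DB]
    refine min_le_min h2 ?_
    have h3 : max sX (pos s + 1) ≤ max sX (pos t + 1) :=
      max_le_max le_rfl (by have := pos_mono h; linarith)
    have h4 := r.X.val_mono h3
    have h5 := pos_mono h
    split_ifs <;> linarith
  | _ => exact h2

theorem tri_mono {x y : ℤ} (h : x ≤ y) : tri x ≤ tri y := by
  have h1 : x.toNat ≤ y.toNat := by omega
  have h2 : x.toNat * (x.toNat + 1) / 2 ≤ y.toNat * (y.toNat + 1) / 2 :=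
    Nat.div_le_div_right (Nat.mul_le_mul h1 (by omega))
  simp only [tri]; exact_mod_cast h2

theorem tri_pos (x : ℤ) : tri (pos x) = tri x := by
  simp only [tri, pos, Int.toNat_natCast]

theorem Mode.be_anti (d : Mode) (lam : ℤ) {s t : ℤ} (h : s ≤ t) : d.be lam t ≤ d.be lam s := by
  have hr : tri (lam - 2 - pos t) ≤ tri (lam - 2 - pos s) :=
    tri_mono (by have := pos_mono h; linarith)
  cases d with
  | pol =>
    simp only [Mode.be, bePol]
    split_ifs with h1 h2 h2
    · exact le_rfl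
    · omega
    · have : tri (lam + 1 - t) ≤ tri lam := tri_mono (by omega)
      have := pos_nonneg lam
      linarith
    · exact tri_mono (by omega)
  | rA => exact hr
  | rB => exact hr

/-- **Row form `≤` gauge form**: `a' = max(sR^+, z)`, `sg = a' - z`. -/
theorem row_le_gauge {ι : Type*} (d : Mode) (I : Finset ι) (tab : ι → Row3)
    (lam mu sR sX sQ : ℤ) (z : ℕ) :
    ∑ i ∈ I, (tab i).Dm d lam mu sR sX sQ + z * (pos sR - lam)
        - (tri sR + (tri sX + (tri sQ + d.be lam sR)))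
      ≤ ∑ i ∈ I, (tab i).Dm d lam mu ((max (pos sR) z - z) + z) sX sQ
        - (tri (max (pos sR) z - z) + (tri sX + (tri sQ + d.be lam ((max (pos sR) z - z) + z))))
        + tri (z - 1) - lam * z := by
  set a : ℤ := max (pos sR) z with ha
  have ha0 : 0 ≤ a := le_max_of_le_left (pos_nonneg _)
  have haz : (z : ℤ) ≤ a := le_max_right _ _
  have hsa : sR ≤ a := by
    have : sR ≤ pos sR := by simp only [pos_eq]; omega
    exact this.trans (le_max_left _ _)
  rw [sub_add_cancel]
  have h1 : ∑ i ∈ I, (tab i).Dm d lam mu sR sX sQ ≤ ∑ i ∈ I, (tab i).Dm d lam mu a sX sQ :=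
    Finset.sum_le_sum fun i _ => Dm_mono _ _ _ _ _ _ hsa
  have h2 : d.be lam a ≤ d.be lam sR := d.be_anti lam hsa
  have h3 := two_tri (x := a) (by linarith)
  have h4 := two_tri (x := a - z) (by linarith)
  have h5 := two_tri (x := (z : ℤ) - 1) (by omega)
  have h6 : (z : ℤ) * pos sR - tri sR ≤ z * a - tri a := by
    rcases le_total (z : ℤ) (pos sR) with h | h
    · rw [ha, max_eq_left h, tri_pos]
    · rw [ha, max_eq_right h]
      have h7 := two_tri (x := pos sR) (by have := pos_nonneg sR; linarith)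
      have h8 := two_tri (x := (z : ℤ)) (by omega)
      rw [tri_pos] at h7
      have h9 : 0 ≤ ((z : ℤ) - pos sR) * ((z : ℤ) - pos sR - 1) := by
        rcases (by omega : (z : ℤ) = pos sR ∨ 1 ≤ (z : ℤ) - pos sR) with h10 | h10
        · rw [h10]; simp
        · exact mul_nonneg (by linarith) (by linarith)
      nlinarith
  nlinarith

/-- the value of a gauge zero row is at most `sR^+ - lam` -/
theorem Dm_zero_le (d : Mode) (r : Row3) (hr : r.R = ⟨0, 0⟩) (lam mu sR sX sQ : ℤ) :
    r.Dm d lam mu sR sX sQ ≤ pos sR - lam := by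
  have h1 : r.D lam mu sR sX sQ ≤ pos sR - lam := by
    refine (min_le_left _ _).trans ?_
    simp only [Cst.val, hr, sub_zero, zero_add]
    exact le_rfl
  cases d with
  | rB => exact (DB_le_D _ _ _ _ _ _).trans h1
  | _ => exact h1

end Crest.Agent.R006.P8
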