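import Crest.Agent.R006.Toll_814

set_option autoImplicit false

/-!
# Kernel-friendly class values from tolls (helper814), row 6, block P4 -> P8

Cost tables are `(init, tail)`: `cost l = init[l]` for `l < init.length`, then slope `1` starting with
`tail`.  Tolls are lists of natural numbers (`0` beyond the list).  All other data of the certificate
(`D0` of a row kind, `DX`, the tolls `sB` of the particles) are computed, so that *every* choice of the
lists `sR sX sQ` gives a valid bound.
-/

namespace Crest.Agent.R006.Kapx814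

/-- cost of the slot `l` -/
def costL : List ℤ → ℤ → ℕ → ℤ
  | [], t, l => t + l
  | a :: _, _, 0 => a
  | _ :: as, t, l + 1 => costL as t l

/-- value of a list with the constant tail `c` -/
def getL : List ℤ → ℤ → ℕ → ℤ
  | [], c, _ => c
  | a :: _, _, 0 => a
  | _ :: as, c, l + 1 => getL as c l

/-- `min_l (cost l + toll l)` over all `l : ℕ` -/
def minL : List ℤ → ℤ → List ℤ → ℤ → ℤ
  | [], t, [], c => t + c
  | [], t, s :: ss, c => min (t + s) (minL [] (t + 1) ss c)
  | a :: as, t, [], c => min (a + c) (minL as t [] c)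
  | a :: as, t, s :: ss, c => min (a + s) (minL as t ss c)

theorem minL_le (init : List ℤ) (t : ℤ) (ts : List ℤ) (c : ℤ) (l : ℕ) :
    minL init t ts c ≤ costL init t l + getL ts c l := by
  induction init, t, ts, c using minL.induct generalizing l with
  | case1 t c => simp only [minL, costL, getL]; omega
  | case2 t s ss c ih =>
    cases l with
    | zero => simp only [minL, costL, getL]; omega
    | succ l =>
      have h := ih l
      simp only [minL, costL, getL] at h ⊢
      have : min (t + s) (minL [] (t + 1) ss c) ≤ minL [] (t + 1) ss c := min_le_right _ _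
      push_cast
      omega
  | case3 a as t c ih =>
    cases l with
    | zero => simp only [minL, costL, getL]; exact min_le_left _ _
    | succ l =>
      have h := ih l
      simp only [minL, costL, getL] at h ⊢
      exact le_trans (min_le_right _ _) h
  | case4 a as t s ss c ih =>
    cases l with
    | zero => simp only [minL, costL, getL]; exact min_le_left _ _
    | succ l =>
      have h := ih l
      simp only [minL, costL, getL] at h ⊢
      exact le_trans (min_le_right _ _) h

/-- natural tolls as integers -/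
def toZ : List ℕ → List ℤ
  | [] => []
  | s :: ss => (s : ℤ) :: toZ ss

/-- sum of a list of naturals -/
def sumN : List ℕ → ℕ
  | [] => 0
  | s :: ss => s + sumN ss

lemma getL_toZ_nonneg (s : List ℕ) (l : ℕ) : 0 ≤ getL (toZ s) 0 l := by
  induction s generalizing l with
  | nil => simp [toZ, getL]
  | cons a s ih =>
    cases l with
    | zero => simp [toZ, getL]
    | succ l => simpa [toZ, getL] using ih l

lemma sum_getL_toZ_le (s : List ℕ) (n : ℕ) :
    ∑ l ∈ Finset.range n, getL (toZ s) 0 l ≤ (sumN s : ℤ) := by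
  induction s generalizing n with
  | nil => simp [toZ, getL, sumN]
  | cons a s ih =>
    cases n with
    | zero => simp [sumN]; positivity
    | succ n =>
      rw [Finset.sum_range_succ']
      simp only [toZ, getL, sumN]
      have := ih n
      push_cast
      linarith

/-- the three decompositions -/
inductive Dec where
  | pol
  | rA
  | rB
deriving DecidableEq

/-- cost table of the moment `Lam (k, ·)`, `k ≥ 1` -/
def lamI : Dec → ℕ → List ℤ
  | Dec.pol, 1 => [0]
  | _, _ => []

/-- tail of the cost table of `Lam (k, ·)` -/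
def lamT : Dec → ℕ → ℤ
  | Dec.pol, 0 => 0
  | Dec.pol, 1 => 0
  | Dec.pol, k + 2 => k
  | _, k => k + 1

lemma lam_pol (k l : ℕ) (hk : 1 ≤ k) :
    costL (lamI Dec.pol k) (lamT Dec.pol k) l = max 0 ((k : ℤ) + l - 2) := by
  rcases k with _ | _ | k
  · omega
  · cases l with
    | zero => simp [lamI, lamT, costL]
    | succ l => simp [lamI, lamT, costL]; omega
  · simp [lamI, lamT, costL]; omega

lemma lam_reg (d : Dec) (hd : d ≠ Dec.pol) (k l : ℕ) :
    costL (lamI d k) (lamT d k) l = (k : ℤ) + l + 1 := by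
  cases d with
  | pol => exact absurd rfl hd
  | rA => simp [lamI, lamT, costL]; ring
  | rB => simp [lamI, lamT, costL]; ring

/-- the toll of the particle `k ≥ 1` -/
def sBv (d : Dec) (lam : ℤ) (sR : List ℤ) (k : ℕ) : ℤ :=
  max 0 (lam - minL (lamI d k) (lamT d k) sR 0)

lemma sBv_nonneg (d : Dec) (lam : ℤ) (sR : List ℤ) (k : ℕ) : 0 ≤ sBv d lam sR k :=
  le_max_left _ _

lemma sBv_ge (d : Dec) (lam : ℤ) (sR : List ℤ) (k l : ℕ) :
    0 ≤ costL (lamI d k) (lamT d k) l + getL sR 0 l + sBv d lam sR k - lam := by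
  have h1 := minL_le (lamI d k) (lamT d k) sR 0 l
  have h2 : lam - minL (lamI d k) (lamT d k) sR 0 ≤ sBv d lam sR k := le_max_right _ _
  linarith

/-- sum of the particle tolls for `k = 1..n` -/
def sumB (d : Dec) (lam : ℤ) (sR : List ℤ) : ℕ → ℤ
  | 0 => 0
  | n + 1 => sBv d lam sR (n + 1) + sumB d lam sR n

lemma le_minL_nonneg (t : ℤ) (s : List ℕ) : t ≤ minL [] t (toZ s) 0 := by
  induction s generalizing t with
  | nil => simp [toZ, minL]
  | cons a s ih =>
    simp only [toZ, minL]
    refine le_min ?_ ?_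
    · have : (0 : ℤ) ≤ a := Int.natCast_nonneg a
      omega
    · have := ih (t + 1)
      omega

lemma sBv_eq_zero (d : Dec) (lam : ℤ) (s : List ℕ) (k : ℕ) (hk : 2 ≤ k) (h : lam + 2 ≤ k) :
    sBv d lam (toZ s) k = 0 := by
  have h1 : lamI d k = [] := by
    rcases k with _ | _ | k
    · omega
    · omega
    · cases d <;> rfl
  have h2 : (k : ℤ) - 2 ≤ lamT d k := by
    rcases k with _ | _ | k
    · omega
    · omega
    · cases d <;> simp [lamT] <;> omega
  have h3 := le_minL_nonneg (lamT d k) s
  rw [sBv, h1]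
  apply max_eq_left
  linarith

/-- number of particles with a possibly nonzero toll -/
def kMax (lam : ℤ) : ℕ := (lam + 1).toNat + 1

lemma sum_sBv_le (d : Dec) (lam : ℤ) (s : List ℕ) (n : ℕ) :
    ∑ k ∈ Finset.range n, sBv d lam (toZ s) (k + 1) ≤ sumB d lam (toZ s) (kMax lam) := by
  have key : ∀ m : ℕ, ∑ k ∈ Finset.range m, sBv d lam (toZ s) (k + 1) = sumB d lam (toZ s) m := by
    intro m
    induction m with
    | zero => rfl
    | succ m ih => rw [Finset.sum_range_succ, ih, sumB, add_comm]
  rw [← key (kMax lam)]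
  rcases le_total n (kMax lam) with h | h
  · exact Finset.sum_le_sum_of_subset_of_nonneg (Finset.range_subset_range.2 h)
      fun k _ _ => sBv_nonneg _ _ _ _
  · rw [← Finset.sum_range_add_sum_Ico _ h]
    have : ∑ k ∈ Finset.Ico (kMax lam) n, sBv d lam (toZ s) (k + 1) = 0 := by
      refine Finset.sum_eq_zero fun k hk => ?_
      rw [Finset.mem_Ico] at hk
      have h1 := hk.1
      unfold kMax at h1
      refine sBv_eq_zero d lam s (k + 1) (by omega) ?_
      push_cast
      omega
    rw [this, add_zero]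

/-- `DX s` for the decomposition `B1`: `near (s,l) = 0` (`l < s`), `l - s + 1` (`l ≥ s`) -/
def dxv (lam : ℤ) (sR : List ℤ) (s : ℕ) : ℤ :=
  min 0 (minL (List.replicate s 0) 1 sR 0 - lam)

/-- cost of `near` in the decomposition `B1` -/
lemma costL_replicate (s l : ℕ) :
    costL (List.replicate s 0) 1 l = if l < s then 0 else (l : ℤ) - s + 1 := by
  induction s generalizing l with
  | zero => simp [costL]; ring
  | succ s ih =>
    cases l with
    | zero => simp [costL, List.replicate_succ]
    | succ l =>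
      simp only [List.replicate_succ, costL, ih]
      by_cases h : l < s
      · simp [h]
      · simp [h]

/-- the list `DX s, ..., DX (s+n-1)` -/
def dxL (lam : ℤ) (sR : List ℤ) : ℕ → ℕ → List ℤ
  | _, 0 => []
  | s, n + 1 => dxv lam sR s :: dxL lam sR (s + 1) n

lemma getL_dxL_lt (lam : ℤ) (sR : List ℤ) (s n i : ℕ) (c : ℤ) (h : i < n) :
    getL (dxL lam sR s n) c i = dxv lam sR (s + i) := by
  induction n generalizing s i with
  | zero => omega
  | succ n ih =>
    cases i with
    | zero => simp [dxL, getL]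
    | succ i =>
      simp only [dxL, getL]
      rw [ih (s + 1) i (by omega)]
      congr 1
      omega

lemma getL_dxL_ge (lam : ℤ) (sR : List ℤ) (s n i : ℕ) (c : ℤ) (h : n ≤ i) :
    getL (dxL lam sR s n) c i = c := by
  induction n generalizing s i with
  | zero => simp [dxL, getL]
  | succ n ih =>
    cases i with
    | zero => omega
    | succ i =>
      simp only [dxL, getL]
      exact ih (s + 1) i (by omega)

/-- the list of the `DX` -/
def dxI : Dec → ℤ → List ℤ → List ℤ
  | Dec.rB, lam, sR => dxL lam sR 0 (sR.length + 1)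
  | _, _, _ => []

/-- the constant tail of the `DX` -/
def dxC : Dec → ℤ → ℤ
  | Dec.rB, lam => min 0 (-lam)
  | _, _ => 0

/-- the potential `DX s ≤ 0` of the `X`-slot `s` -/
def dx (d : Dec) (lam : ℤ) (sR : List ℤ) (s : ℕ) : ℤ := getL (dxI d lam sR) (dxC d lam) s

lemma dxv_nonpos (lam : ℤ) (sR : List ℤ) (s : ℕ) : dxv lam sR s ≤ 0 := min_le_left _ _

lemma dx_nonpos (d : Dec) (lam : ℤ) (sR : List ℤ) (s : ℕ) : dx d lam sR s ≤ 0 := by
  cases d with
  | pol => simp [dx, dxI, dxC, getL]
  | rA => simp [dx, dxI, dxC, getL]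
  | rB =>
    simp only [dx, dxI, dxC]
    rcases lt_or_ge s (sR.length + 1) with h | h
    · rw [getL_dxL_lt _ _ _ _ _ _ h]; exact dxv_nonpos _ _ _
    · rw [getL_dxL_ge _ _ _ _ _ _ h]; exact min_le_left _ _

/-- cost of the coefficient `near (s,l)` in the decomposition `B1` -/
def nearC (s l : ℕ) : ℤ := if l < s then 0 else (l : ℤ) - s + 1

lemma nearC_nonneg (s l : ℕ) : 0 ≤ nearC s l := by
  unfold nearC
  split_ifs with h
  · exact le_rfl
  · omega

lemma dx_near (lam : ℤ) (sR : List ℕ) (s l : ℕ) :
    dx Dec.rB lam (toZ sR) s ≤ nearC s l + getL (toZ sR) 0 l - lam := by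
  simp only [dx, dxI, dxC]
  rcases lt_or_ge s ((toZ sR).length + 1) with h | h
  · rw [getL_dxL_lt _ _ _ _ _ _ h, zero_add]
    have h1 := minL_le (List.replicate s 0) 1 (toZ sR) 0 l
    rw [costL_replicate] at h1
    have h2 : dxv lam (toZ sR) s ≤ minL (List.replicate s 0) 1 (toZ sR) 0 - lam := min_le_right _ _
    unfold nearC
    linarith
  · rw [getL_dxL_ge _ _ _ _ _ _ h]
    have h1 := getL_toZ_nonneg sR l
    have h2 := nearC_nonneg s l
    have h3 : min (0 : ℤ) (-lam) ≤ -lam := min_le_right _ _
    linarith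

/-- sum of two lists, the first with the tail `0`, the second with the tail `c` -/
def addL : List ℤ → List ℤ → ℤ → List ℤ
  | [], ys, _ => ys
  | x :: xs, [], c => (x + c) :: addL xs [] c
  | x :: xs, y :: ys, c => (x + y) :: addL xs ys c

lemma getL_addL (xs ys : List ℤ) (c : ℤ) (s : ℕ) :
    getL (addL xs ys c) c s = getL xs 0 s + getL ys c s := by
  induction xs, ys, c using addL.induct generalizing s with
  | case1 ys c => simp [addL, getL]
  | case2 x xs c ih =>
    cases s with
    | zero => simp [addL, getL]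
    | succ s => simpa [addL, getL] using ih s
  | case3 x xs y ys c ih =>
    cases s with
    | zero => simp [addL, getL]
    | succ s => simpa [addL, getL] using ih s

/-- cost tables of a row kind: `R`-slots, `X`-slots, `Q`-slots -/
structure RowTab where
  R : List ℤ
  r : ℤ
  X : List ℤ
  x : ℤ
  Q : List ℤ
  q : ℤ

/-- the three toll lists of a class -/
structure Tolls where
  sR : List ℕ
  sX : List ℕ
  sQ : List ℕ

/-- the computed lists which are common to all rows of a class -/
structure Pre where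
  tR : List ℤ
  tX : List ℤ
  cX : ℤ
  tQ : List ℤ

/-- the effective tolls -/
def pre (d : Dec) (lam : ℤ) (t : Tolls) : Pre :=
  ⟨toZ t.sR, addL (toZ t.sX) (dxI d lam (toZ t.sR)) (dxC d lam), dxC d lam, toZ t.sQ⟩

/-- the row potential of a row kind -/
def D0p (lam mu : ℤ) (P : Pre) (T : RowTab) : ℤ :=
  min (minL T.R T.r P.tR 0 - lam) (min (minL T.X T.x P.tX P.cX) (minL T.Q T.q P.tQ 0 - mu))

/-- the row potential of a row kind -/
def D0 (d : Dec) (lam mu : ℤ) (t : Tolls) (T : RowTab) : ℤ := D0p lam mu (pre d lam t) T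

lemma D0_le_R (d : Dec) (lam mu : ℤ) (t : Tolls) (T : RowTab) (l : ℕ) :
    D0 d lam mu t T ≤ costL T.R T.r l + getL (toZ t.sR) 0 l - lam := by
  have h := minL_le T.R T.r (toZ t.sR) 0 l
  have h2 : D0 d lam mu t T ≤ minL T.R T.r (toZ t.sR) 0 - lam := min_le_left _ _
  linarith

lemma D0_le_X (d : Dec) (lam mu : ℤ) (t : Tolls) (T : RowTab) (s : ℕ) :
    D0 d lam mu t T ≤ costL T.X T.x s + getL (toZ t.sX) 0 s + dx d lam (toZ t.sR) s := by
  have h := minL_le T.X T.x (pre d lam t).tX (pre d lam t).cX s
  have h2 : D0 d lam mu t T ≤ minL T.X T.x (pre d lam t).tX (pre d lam t).cX :=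
    (min_le_right _ _).trans (min_le_left _ _)
  have h3 : getL (pre d lam t).tX (pre d lam t).cX s
      = getL (toZ t.sX) 0 s + dx d lam (toZ t.sR) s := getL_addL _ _ _ _
  linarith

lemma D0_le_Q (d : Dec) (lam mu : ℤ) (t : Tolls) (T : RowTab) (u : ℕ) :
    D0 d lam mu t T ≤ costL T.Q T.q u + getL (toZ t.sQ) 0 u - mu := by
  have h := minL_le T.Q T.q (toZ t.sQ) 0 u
  have h2 : D0 d lam mu t T ≤ minL T.Q T.q (toZ t.sQ) 0 - mu :=
    (min_le_right _ _).trans (min_le_right _ _)
  linarith

/-- `∑ count * D0` -/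
def rowSum (lam mu : ℤ) (P : Pre) : List (ℤ × RowTab) → ℤ
  | [] => 0
  | x :: L => (if x.1 = 0 then 0 else x.1 * D0p lam mu P x.2) + rowSum lam mu P L

/-- total toll of a class -/
def tollSum (d : Dec) (lam : ℤ) (t : Tolls) : ℤ :=
  (sumN t.sR : ℤ) + sumN t.sX + sumN t.sQ + sumB d lam (toZ t.sR) (kMax lam)

/-- the value of a class -/
def kapC (d : Dec) (lam mu : ℤ) (t : Tolls) (rows : List (ℤ × RowTab)) : ℤ :=
  rowSum lam mu (pre d lam t) rows - tollSum d lam t

lemma rowSum_eq (d : Dec) (lam mu : ℤ) (t : Tolls) (rows : List (ℤ × RowTab)) :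
    rowSum lam mu (pre d lam t) rows = (rows.map fun x => x.1 * D0 d lam mu t x.2).sum := by
  induction rows with
  | nil => rfl
  | cons x L ih =>
    rw [rowSum, List.map_cons, List.sum_cons, ih]
    by_cases h : x.1 = 0
    · simp [h]
    · simp [h, D0]

/-- all tolls of a class (`n` slots of every sort) are bounded by `tollSum` -/
lemma sum_tolls_le (d : Dec) (lam : ℤ) (t : Tolls) (n : ℕ) :
    ∑ l ∈ Finset.range n, getL (toZ t.sR) 0 l + ∑ l ∈ Finset.range n, getL (toZ t.sX) 0 l
      + ∑ l ∈ Finset.range n, getL (toZ t.sQ) 0 l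
      + ∑ k ∈ Finset.range n, sBv d lam (toZ t.sR) (k + 1) ≤ tollSum d lam t := by
  have h1 := sum_getL_toZ_le t.sR n
  have h2 := sum_getL_toZ_le t.sX n
  have h3 := sum_getL_toZ_le t.sQ n
  have h4 := sum_sBv_le d lam t.sR n
  unfold tollSum
  linarith

end Crest.Agent.R006.Kapx814
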