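import Mathlib

/-!
Row 6 (Catalan), block P5/P7 input, part 1: the discrete arcsine weights, divided differences of
polynomials and the telescoping identity.
-/

set_option autoImplicit false

open Polynomial Finset

namespace Crest.Agent.R006.LB537

noncomputable section

/-- `g i = C(2i,i)/4^i`. -/
def g (i : ℕ) : ℚ := (Nat.centralBinom i : ℚ) / 4 ^ i

lemma g_zero : g 0 = 1 := by simp [g]

lemma g_succ (i : ℕ) : ((i : ℚ) + 1) * g (i + 1) = ((i : ℚ) + 1 / 2) * g i := by
  have h := Nat.succ_mul_centralBinom_succ i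
  have h' : ((i : ℚ) + 1) * (Nat.centralBinom (i + 1) : ℚ)
      = 2 * (2 * (i : ℚ) + 1) * (Nat.centralBinom i : ℚ) := by exact_mod_cast h
  unfold g
  rw [pow_succ]
  have h4 : (4 : ℚ) ^ i ≠ 0 := by positivity
  field_simp
  linarith

/-- weights -/
def be (J i : ℕ) : ℚ := g i * g (J - i)

/-- the functional `E_J F = ∑_{i ≤ J} g(i) g(J-i) F(i)` -/
def E (J : ℕ) (F : ℕ → ℚ) : ℚ := ∑ i ∈ range (J + 1), be J i * F i

lemma E_add (J : ℕ) (F G : ℕ → ℚ) : E J (fun i => F i + G i) = E J F + E J G := by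
  simp [E, mul_add, sum_add_distrib]

lemma E_sub (J : ℕ) (F G : ℕ → ℚ) : E J (fun i => F i - G i) = E J F - E J G := by
  simp [E, mul_sub, sum_sub_distrib]

lemma E_mul (J : ℕ) (c : ℚ) (F : ℕ → ℚ) : E J (fun i => c * F i) = c * E J F := by
  simp only [E, mul_sum]
  exact sum_congr rfl fun i _ => by ring

lemma E_mul' (J : ℕ) (c : ℚ) (F : ℕ → ℚ) : E J (fun i => F i * c) = E J F * c := by
  simp only [E, sum_mul]
  exact sum_congr rfl fun i _ => by ring

lemma E_sum {ι : Type*} (J : ℕ) (s : Finset ι) (F : ι → ℕ → ℚ) :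
    E J (fun i => ∑ x ∈ s, F x i) = ∑ x ∈ s, E J (F x) := by
  simp only [E, mul_sum]
  exact sum_comm

lemma be_succ_succ (J i : ℕ) :
    ((i : ℚ) + 1) * be (J + 1) (i + 1) = ((i : ℚ) + 1 / 2) * be J i := by
  unfold be
  rw [Nat.add_sub_add_right, ← mul_assoc, g_succ, mul_assoc]

lemma be_succ_left (J i : ℕ) (h : i ≤ J) :
    ((J : ℚ) + 1 - i) * be (J + 1) i = ((J : ℚ) - i + 1 / 2) * be J i := by
  unfold be
  obtain ⟨m, rfl⟩ := Nat.exists_eq_add_of_le h
  have e1 : i + m + 1 - i = m + 1 := by omega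
  have e2 : i + m - i = m := by omega
  rw [e1, e2]
  have := g_succ m
  push_cast
  linear_combination (g i) * this

/-- shift identity -/
lemma E_shift (J : ℕ) (F : ℕ → ℚ) :
    E (J + 1) (fun i => (i : ℚ) * F i) = E J (fun i => ((i : ℚ) + 1 / 2) * F (i + 1)) := by
  unfold E
  rw [sum_range_succ']
  simp only [Nat.cast_zero, zero_mul, mul_zero, add_zero]
  refine sum_congr rfl fun i _ => ?_
  have := be_succ_succ J i
  push_cast
  linear_combination (F (i + 1)) * this

lemma E_left (J : ℕ) (F : ℕ → ℚ) :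
    E (J + 1) (fun i => ((J : ℚ) + 1 - i) * F i)
      = E J (fun i => ((J : ℚ) - i + 1 / 2) * F i) := by
  unfold E
  rw [sum_range_succ _ (J + 1)]
  have : be (J + 1) (J + 1) * (((J : ℚ) + 1 - ((J + 1 : ℕ) : ℚ)) * F (J + 1)) = 0 := by
    push_cast; ring
  rw [this, add_zero]
  refine sum_congr rfl fun i hi => ?_
  have hi' : i ≤ J := by have := mem_range.1 hi; omega
  have := be_succ_left J i hi'
  linear_combination (F i) * this

lemma E_rec (J : ℕ) (F : ℕ → ℚ) :
    ((J : ℚ) + 1) * E (J + 1) F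
      = E J (fun i => ((i : ℚ) + 1 / 2) * F (i + 1) + ((J : ℚ) - i + 1 / 2) * F i) := by
  rw [E_add, ← E_shift, ← E_left, ← E_add, ← E_mul]
  congr 1
  funext i
  ring

lemma choose_id1 (n r : ℕ) : (n : ℚ) * (n.choose r : ℚ)
    = ((r : ℚ) + 1) * (n.choose (r + 1) : ℚ) + (r : ℚ) * (n.choose r : ℚ) := by
  rcases le_or_gt r n with h | h
  · have := Nat.choose_succ_right_eq n r
    have h2 : ((n.choose (r + 1) : ℚ)) * ((r : ℚ) + 1) = (n.choose r : ℚ) * ((n : ℚ) - r) := by
      have h3 : ((n - r : ℕ) : ℚ) = (n : ℚ) - r := by push_cast [h]; ring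
      rw [← h3]
      exact_mod_cast this
    linarith
  · rw [Nat.choose_eq_zero_of_lt h, Nat.choose_eq_zero_of_lt (by omega)]; simp

/-- moments of the arcsine weights -/
lemma E_choose (J : ℕ) : ∀ r : ℕ, E J (fun i => (i.choose r : ℚ)) = g r * (J.choose r : ℚ) := by
  induction J with
  | zero =>
    intro r
    simp only [E, be, zero_add, range_one, sum_singleton, Nat.sub_zero, g_zero, one_mul, mul_one]
    rcases r with _ | r
    · simp [g_zero]
    · simp
  | succ J ih =>
    intro r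
    have hJ : ((J : ℚ) + 1) ≠ 0 := by positivity
    apply mul_left_cancel₀ hJ
    rw [E_rec]
    rcases r with _ | r
    · have : (fun i : ℕ => ((i : ℚ) + 1 / 2) * (((i + 1).choose 0 : ℕ) : ℚ)
          + ((J : ℚ) - i + 1 / 2) * ((i.choose 0 : ℕ) : ℚ))
          = fun i : ℕ => ((J : ℚ) + 1) * ((i.choose 0 : ℕ) : ℚ) := by
        funext i; simp; ring
      rw [this, E_mul, ih 0]
      simp
    · have : (fun i : ℕ => ((i : ℚ) + 1 / 2) * (((i + 1).choose (r + 1) : ℕ) : ℚ)
          + ((J : ℚ) - i + 1 / 2) * ((i.choose (r + 1) : ℕ) : ℚ))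
          = fun i : ℕ => ((J : ℚ) + 1 + (r + 1)) * ((i.choose (r + 1) : ℕ) : ℚ)
            + ((r : ℚ) + 1 / 2) * ((i.choose r : ℕ) : ℚ) := by
        funext i
        have h1 := choose_id1 i r
        rw [Nat.choose_succ_succ]
        push_cast
        linarith
      rw [this, E_add, E_mul, E_mul, ih, ih]
      have h2 := g_succ r
      have h3 : (((J + 1).choose (r + 1) : ℕ) : ℚ) = (J.choose r : ℚ) + (J.choose (r + 1) : ℚ) := by
        rw [Nat.choose_succ_succ]; push_cast; ring
      have h4 := choose_id1 J r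
      rw [h3]
      linear_combination (-(J.choose r : ℚ)) * h2 - g (r + 1) * h4

lemma E_one (J : ℕ) : E J (fun _ => 1) = 1 := by
  have := E_choose J 0
  simpa [g_zero] using this

lemma E_const (J : ℕ) (c : ℚ) : E J (fun _ => c) = c := by
  have := E_mul J c (fun _ => 1)
  simpa [E_one] using this

end

end Crest.Agent.R006.LB537
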