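import Crest.Agent.R006.LB1_537

/-!
Row 6 (Catalan), block P5/P7 input, part 2: divided differences of polynomials, the triple
functional `T J` and the telescoping identity.
-/

set_option autoImplicit false

open Polynomial Finset

namespace Crest.Agent.R006.LB537

noncomputable section

/-- `D a f = (f - f(a)) / (X - a)` -/
def D (a : ℚ) (f : ℚ[X]) : ℚ[X] := f /ₘ (X - C a)

lemma D_spec (a : ℚ) (f : ℚ[X]) : (X - C a) * D a f = f - C (f.eval a) := by
  have h := modByMonic_add_div f (X - C a)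
  rw [modByMonic_X_sub_C_eq_C_eval] at h
  unfold D
  linear_combination h

lemma D_unique {a : ℚ} {f q : ℚ[X]} (h : (X - C a) * q = f - C (f.eval a)) : D a f = q := by
  have := D_spec a f
  exact mul_left_cancel₀ (X_sub_C_ne_zero a) (this.trans h.symm)

lemma D_add (a : ℚ) (f h : ℚ[X]) : D a (f + h) = D a f + D a h := by
  apply D_unique
  rw [mul_add, D_spec, D_spec, eval_add, C_add]; ring

lemma D_smul (a c : ℚ) (f : ℚ[X]) : D a (C c * f) = C c * D a f := by
  apply D_unique
  rw [eval_mul, eval_C, C_mul]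
  linear_combination (C c) * D_spec a f

lemma D_C (a c : ℚ) : D a (C c) = 0 := by
  apply D_unique; simp

lemma D_zero (a : ℚ) : D a 0 = 0 := by
  have := D_C a 0
  simpa using this

lemma D_X_mul (a : ℚ) (f : ℚ[X]) : D a (X * f) = f + C a * D a f := by
  apply D_unique
  rw [eval_mul, eval_X, C_mul]
  linear_combination (C a) * D_spec a f

lemma D_sum {ι : Type*} (a : ℚ) (s : Finset ι) (f : ι → ℚ[X]) :
    D a (∑ i ∈ s, f i) = ∑ i ∈ s, D a (f i) := by
  classical
  induction s using Finset.induction_on with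
  | empty => simp [D_zero]
  | insert i s hi ih => rw [sum_insert hi, sum_insert hi, D_add, ih]

lemma D_comm (a b : ℚ) (f : ℚ[X]) : D a (D b f) = D b (D a f) := by
  -- both are the quotient by `(X-a)(X-b)`
  have h1 := D_spec a (D b f)
  have h2 := D_spec b f
  have h3 := D_spec b (D a f)
  have h4 := D_spec a f
  have key : (X - C a) * (X - C b) * (D a (D b f) - D b (D a f))
      = C (f.eval a) - C (f.eval b) - (X - C b) * C ((D b f).eval a)
        + (X - C a) * C ((D a f).eval b) := by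
    linear_combination (X - C b) * h1 + h2 - (X - C a) * h3 - h4
  have hm : ((X - C a) * (X - C b) : ℚ[X]).Monic := (monic_X_sub_C a).mul (monic_X_sub_C b)
  by_contra hne
  have hne' : D a (D b f) - D b (D a f) ≠ 0 := sub_ne_zero.2 hne
  have hdeg : ((X - C a) * (X - C b) * (D a (D b f) - D b (D a f)) : ℚ[X]).degree
      = 2 + (D a (D b f) - D b (D a f)).degree := by
    rw [degree_mul, degree_mul, degree_X_sub_C, degree_X_sub_C]
    rfl
  have hlow : (C (f.eval a) - C (f.eval b) - (X - C b) * C ((D b f).eval a)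
        + (X - C a) * C ((D a f).eval b) : ℚ[X]).degree ≤ 1 := by
    refine (degree_add_le _ _).trans (max_le ((degree_sub_le _ _).trans (max_le
      ((degree_sub_le _ _).trans (max_le ?_ ?_)) ?_)) ?_)
    · exact degree_C_le.trans (by norm_num)
    · exact degree_C_le.trans (by norm_num)
    · exact (degree_mul_le _ _).trans (by
        rw [degree_X_sub_C]
        calc (1 : WithBot ℕ) + degree (C ((D b f).eval a)) ≤ 1 + 0 := by gcongr; exact degree_C_le
          _ = 1 := by norm_num)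
    · exact (degree_mul_le _ _).trans (by
        rw [degree_X_sub_C]
        calc (1 : WithBot ℕ) + degree (C ((D a f).eval b)) ≤ 1 + 0 := by gcongr; exact degree_C_le
          _ = 1 := by norm_num)
  rw [key] at hdeg
  rw [hdeg] at hlow
  have h0 : (0 : WithBot ℕ) ≤ (D a (D b f) - D b (D a f)).degree :=
    zero_le_degree_iff.2 hne'
  have : (2 : WithBot ℕ) ≤ 1 := by
    calc (2 : WithBot ℕ) = 2 + 0 := by norm_num
      _ ≤ 2 + (D a (D b f) - D b (D a f)).degree := by gcongr
      _ ≤ 1 := hlow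
  exact absurd this (by decide)

/-- second divided difference `f[a,b]` -/
def dd2 (f : ℚ[X]) (a b : ℚ) : ℚ := (D a f).eval b

/-- third divided difference `f[a,b,c]` -/
def dd3 (f : ℚ[X]) (a b c : ℚ) : ℚ := (D b (D a f)).eval c

lemma dd2_symm (f : ℚ[X]) (a b : ℚ) : dd2 f a b = dd2 f b a := by
  rcases eq_or_ne a b with rfl | h
  · rfl
  have h1 := congrArg (eval b) (D_spec a f)
  have h2 := congrArg (eval a) (D_spec b f)
  simp only [eval_mul, eval_sub, eval_X, eval_C] at h1 h2
  have hab : b - a ≠ 0 := sub_ne_zero.2 h.symm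
  apply mul_left_cancel₀ hab
  unfold dd2
  linear_combination h1 + h2

lemma dd3_symm_bc (f : ℚ[X]) (a b c : ℚ) : dd3 f a b c = dd3 f a c b := dd2_symm (D a f) b c

lemma dd3_symm_ab (f : ℚ[X]) (a b c : ℚ) : dd3 f a b c = dd3 f b a c := by
  unfold dd3; rw [D_comm]

lemma dd2_X_mul (f : ℚ[X]) (a b : ℚ) : dd2 (X * f) a b = f.eval b + a * dd2 f a b := by
  unfold dd2; rw [D_X_mul]; simp

lemma dd2_X_mul' (f : ℚ[X]) (a b : ℚ) : dd2 (X * f) a b = f.eval a + b * dd2 f a b := by
  rw [dd2_symm, dd2_X_mul, dd2_symm]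

lemma dd3_X_mul_a (f : ℚ[X]) (a b c : ℚ) :
    dd3 (X * f) a b c = dd2 f b c + a * dd3 f a b c := by
  unfold dd3 dd2; rw [D_X_mul, D_add, D_smul]; simp

lemma dd3_X_mul_b (f : ℚ[X]) (a b c : ℚ) :
    dd3 (X * f) a b c = dd2 f a c + b * dd3 f a b c := by
  rw [dd3_symm_ab, dd3_X_mul_a, dd3_symm_ab]

lemma dd3_X_mul_c (f : ℚ[X]) (a b c : ℚ) :
    dd3 (X * f) a b c = dd2 f a b + c * dd3 f a b c := by
  rw [dd3_symm_bc, dd3_X_mul_b, dd3_symm_bc]

/-- the symmetric Leibniz rule for `X^3 f` -/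
lemma dd3_X3 (f : ℚ[X]) (a b c : ℚ) :
    dd3 (X ^ 3 * f) a b c = a * b * c * dd3 f a b c + a * b * dd2 f a b + a * c * dd2 f a c
      + b * c * dd2 f b c + a * f.eval a + b * f.eval b + c * f.eval c := by
  have e : (X ^ 3 * f : ℚ[X]) = X * (X * (X * f)) := by ring
  rw [e, dd3_X_mul_a, dd3_X_mul_b, dd3_X_mul_c, dd2_X_mul, dd2_X_mul', dd2_X_mul', eval_mul, eval_X]
  ring

lemma D_comp (a s : ℚ) (f : ℚ[X]) : D a (f.comp (X + C s)) = (D (a + s) f).comp (X + C s) := by
  apply D_unique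
  have h := congrArg (fun q : ℚ[X] => q.comp (X + C s)) (D_spec (a + s) f)
  simp only [mul_comp, sub_comp, X_comp, C_comp] at h
  rw [eval_comp, eval_add, eval_X, eval_C, ← h]
  rw [C_add]; ring

lemma dd2_comp (f : ℚ[X]) (a b s : ℚ) :
    dd2 (f.comp (X + C s)) a b = dd2 f (a + s) (b + s) := by
  unfold dd2; rw [D_comp, eval_comp]; simp

lemma dd3_comp (f : ℚ[X]) (a b c s : ℚ) :
    dd3 (f.comp (X + C s)) a b c = dd3 f (a + s) (b + s) (c + s) := by
  unfold dd3; rw [D_comp, D_comp, eval_comp]; simp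

lemma dd3_half (f : ℚ[X]) (a b c : ℚ) :
    dd3 ((X + C (1 / 2)) ^ 3 * f.comp (X + C 1)) a b c
      = (a + 1 / 2) * (b + 1 / 2) * (c + 1 / 2) * dd3 f (a + 1) (b + 1) (c + 1)
        + (a + 1 / 2) * (b + 1 / 2) * dd2 f (a + 1) (b + 1)
        + (a + 1 / 2) * (c + 1 / 2) * dd2 f (a + 1) (c + 1)
        + (b + 1 / 2) * (c + 1 / 2) * dd2 f (b + 1) (c + 1)
        + (a + 1 / 2) * f.eval (a + 1) + (b + 1 / 2) * f.eval (b + 1)
        + (c + 1 / 2) * f.eval (c + 1) := by
  have e : ((X + C (1 / 2)) ^ 3 * f.comp (X + C 1) : ℚ[X])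
      = (X ^ 3 * f.comp (X + C (1 / 2))).comp (X + C (1 / 2)) := by
    rw [mul_comp, pow_comp, X_comp, comp_assoc]
    congr 2
    rw [add_comp, X_comp, C_comp, add_assoc, ← C_add]
    norm_num
  have h2 : ∀ x : ℚ, x + 1 / 2 + 1 / 2 = x + 1 := fun x => by ring
  rw [e, dd3_comp, dd3_X3, dd3_comp, dd2_comp, dd2_comp, dd2_comp]
  simp only [eval_comp, eval_add, eval_X, eval_C, h2]

/-- triple functional -/
def T (J : ℕ) (f : ℚ[X]) : ℚ :=
  E J (fun a => E J (fun b => E J (fun c => dd3 f a b c)))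

lemma dd3_add (f h : ℚ[X]) (a b c : ℚ) : dd3 (f + h) a b c = dd3 f a b c + dd3 h a b c := by
  unfold dd3; rw [D_add, D_add, eval_add]

lemma dd3_smul (r : ℚ) (f : ℚ[X]) (a b c : ℚ) : dd3 (C r * f) a b c = r * dd3 f a b c := by
  unfold dd3; rw [D_smul, D_smul, eval_mul, eval_C]

lemma T_add (J : ℕ) (f h : ℚ[X]) : T J (f + h) = T J f + T J h := by
  unfold T
  simp only [dd3_add, E_add]

lemma T_smul (J : ℕ) (r : ℚ) (f : ℚ[X]) : T J (C r * f) = r * T J f := by
  unfold T
  simp only [dd3_smul, E_mul]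

lemma T_zero (J : ℕ) : T J 0 = 0 := by
  have := T_smul J 0 0
  simpa using this

lemma T_sum {ι : Type*} (J : ℕ) (s : Finset ι) (f : ι → ℚ[X]) :
    T J (∑ i ∈ s, f i) = ∑ i ∈ s, T J (f i) := by
  classical
  induction s using Finset.induction_on with
  | empty => simp [T_zero]
  | insert i s hi ih => rw [sum_insert hi, sum_insert hi, T_add, ih]

/-- THE TELESCOPING IDENTITY -/
theorem T_succ (J : ℕ) (f : ℚ[X]) :
    T (J + 1) (X ^ 3 * f) = T J ((X + C (1 / 2)) ^ 3 * f.comp (X + C 1)) := by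
  unfold T
  simp only [dd3_X3, dd3_half]
  -- abbreviations
  have S : ∀ F : ℕ → ℚ, E (J + 1) (fun i => (i : ℚ) * F i)
      = E J (fun i => ((i : ℚ) + 1 / 2) * F (i + 1)) := E_shift J
  have e3 : E (J + 1) (fun a => E (J + 1) (fun b => E (J + 1) (fun c =>
      (a : ℚ) * b * c * dd3 f a b c)))
      = E J (fun a => E J (fun b => E J (fun c =>
      ((a : ℚ) + 1 / 2) * (b + 1 / 2) * (c + 1 / 2) * dd3 f (a + 1) (b + 1) (c + 1)))) := by
    have h1 : ∀ a b : ℕ, E (J + 1) (fun c => (a : ℚ) * b * c * dd3 f a b c)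
        = (a : ℚ) * (b * E J (fun c => ((c : ℚ) + 1 / 2) * dd3 f a b (c + 1))) := by
      intro a b
      have := S (fun c => dd3 f a b c)
      push_cast at this
      rw [← this, ← E_mul, ← E_mul]
      congr 1; funext c; ring
    simp only [h1]
    have h2 : ∀ a : ℕ, E (J + 1) (fun b => (a : ℚ) * (b * E J (fun c => ((c : ℚ) + 1 / 2)
        * dd3 f a b (c + 1))))
        = (a : ℚ) * E J (fun b => ((b : ℚ) + 1 / 2) * E J (fun c => ((c : ℚ) + 1 / 2)
        * dd3 f a (b + 1) (c + 1))) := by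
      intro a
      rw [E_mul]
      have := S (fun b => E J (fun c => ((c : ℚ) + 1 / 2) * dd3 f a b (c + 1)))
      push_cast at this
      rw [this]
    simp only [h2]
    have := S (fun a => E J (fun b => ((b : ℚ) + 1 / 2) * E J (fun c => ((c : ℚ) + 1 / 2)
        * dd3 f a (b + 1) (c + 1))))
    push_cast at this
    rw [this]
    congr 1; funext a
    rw [← E_mul]
    congr 1; funext b
    rw [← E_mul, ← E_mul]
    congr 1; funext c
    ring
  have e2 : E (J + 1) (fun a => E (J + 1) (fun b => (a : ℚ) * b * dd2 f a b))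
      = E J (fun a => E J (fun b =>
      ((a : ℚ) + 1 / 2) * (b + 1 / 2) * dd2 f (a + 1) (b + 1))) := by
    have h2 : ∀ a : ℕ, E (J + 1) (fun b => (a : ℚ) * b * dd2 f a b)
        = (a : ℚ) * E J (fun b => ((b : ℚ) + 1 / 2) * dd2 f a (b + 1)) := by
      intro a
      have := S (fun b => dd2 f a b)
      push_cast at this
      rw [← this, ← E_mul]
      congr 1; funext b; ring
    simp only [h2]
    have := S (fun a => E J (fun b => ((b : ℚ) + 1 / 2) * dd2 f a (b + 1)))
    push_cast at this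
    rw [this]
    congr 1; funext a
    rw [← E_mul]
    congr 1; funext b
    ring
  have e1 : E (J + 1) (fun a => (a : ℚ) * f.eval (a : ℚ))
      = E J (fun a => ((a : ℚ) + 1 / 2) * f.eval ((a : ℚ) + 1)) := by
    have := S (fun a => f.eval (a : ℚ))
    push_cast at this
    exact this
  simp only [E_add, E_const]
  rw [e3, e2, e1]

end

end Crest.Agent.R006.LB537
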