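import Crest.Agent.R006.LB2_537

/-!
Row 6 (Catalan), block P5/P7 input, part 3: Newton differences, polynomiality in `J`, the
functional `Lp` and its identification with the moment functional.
-/

set_option autoImplicit false

open Polynomial Finset

namespace Crest.Agent.R006.LB537

noncomputable section

/-- Newton coefficients at 0 -/
def nd (h : ℕ → ℚ) (i : ℕ) : ℚ := (fwdDiff 1)^[i] h 0

lemma nd_zero_idx (h : ℕ → ℚ) : nd h 0 = h 0 := rfl

lemma nd_eq_sum (h : ℕ → ℚ) (i : ℕ) :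
    nd h i = ∑ k ∈ range (i + 1), ((-1 : ℤ) ^ (i - k) * i.choose k) • h k := by
  unfold nd
  rw [fwdDiff_iter_eq_sum_shift]
  simp

lemma nd_add (h k : ℕ → ℚ) (i : ℕ) : nd (fun n => h n + k n) i = nd h i + nd k i := by
  simp only [nd_eq_sum, smul_add, sum_add_distrib]

lemma nd_smul (c : ℚ) (h : ℕ → ℚ) (i : ℕ) : nd (fun n => c * h n) i = c * nd h i := by
  simp only [nd_eq_sum, mul_sum]
  refine sum_congr rfl fun k _ => ?_
  simp only [zsmul_eq_mul]; ring

lemma nd_shift (h : ℕ → ℚ) (i : ℕ) : nd (fun n => h (n + 1)) i = nd h (i + 1) + nd h i := by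
  unfold nd
  rw [Function.iterate_succ_apply']
  have := fwdDiff_iter_comp_add (1 : ℕ) h 1 i 0
  rw [this]
  unfold fwdDiff
  ring

lemma nd_congr {h k : ℕ → ℚ} (H : ∀ n, h n = k n) (i : ℕ) : nd h i = nd k i := by
  have : h = k := funext H
  rw [this]

/-- polynomial functions of degree `≤ n` -/
def PN (h : ℕ → ℚ) (n : ℕ) : Prop := ∃ Q : ℚ[X], Q.natDegree ≤ n ∧ ∀ J : ℕ, h J = Q.eval (J : ℚ)

lemma iter_eval (Q : ℚ[X]) (i J : ℕ) :
    (fwdDiff 1)^[i] (fun n : ℕ => Q.eval (n : ℚ)) J = (fwdDiff (1 : ℚ))^[i] Q.eval (J : ℚ) := by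
  rw [fwdDiff_iter_eq_sum_shift, fwdDiff_iter_eq_sum_shift]
  refine sum_congr rfl fun k _ => ?_
  simp

lemma PN.nd_eq_zero {h : ℕ → ℚ} {n : ℕ} (H : PN h n) {i : ℕ} (hi : n < i) : nd h i = 0 := by
  obtain ⟨Q, hQ, hQ'⟩ := H
  have : h = fun m : ℕ => Q.eval (m : ℚ) := funext hQ'
  rw [this]
  unfold nd
  rw [iter_eval, Polynomial.fwdDiff_iter_eq_zero_of_degree_lt (lt_of_le_of_lt hQ hi)]
  rfl

lemma PN.mono {h : ℕ → ℚ} {n m : ℕ} (H : PN h n) (hnm : n ≤ m) : PN h m := by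
  obtain ⟨Q, hQ, hQ'⟩ := H
  exact ⟨Q, hQ.trans hnm, hQ'⟩

lemma PN.add {h k : ℕ → ℚ} {n : ℕ} (H : PN h n) (K : PN k n) : PN (fun J => h J + k J) n := by
  obtain ⟨Q, hQ, hQ'⟩ := H
  obtain ⟨R, hR, hR'⟩ := K
  exact ⟨Q + R, (natDegree_add_le _ _).trans (max_le hQ hR), fun J => by
    simp only [hQ', hR', eval_add]⟩

lemma PN.mul {h k : ℕ → ℚ} {n m : ℕ} (H : PN h n) (K : PN k m) :
    PN (fun J => h J * k J) (n + m) := by
  obtain ⟨Q, hQ, hQ'⟩ := H
  obtain ⟨R, hR, hR'⟩ := K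
  exact ⟨Q * R, natDegree_mul_le.trans (add_le_add hQ hR), fun J => by
    simp only [hQ', hR', eval_mul]⟩

lemma PN_const (c : ℚ) (n : ℕ) : PN (fun _ => c) n := ⟨C c, by simp, fun J => by simp⟩

lemma PN.smul {h : ℕ → ℚ} {n : ℕ} (c : ℚ) (H : PN h n) : PN (fun J => c * h J) n := by
  have := (PN_const c 0).mul H
  rwa [zero_add] at this

lemma PN_sum {ι : Type*} (s : Finset ι) (h : ι → ℕ → ℚ) (n : ℕ) (H : ∀ i ∈ s, PN (h i) n) :
    PN (fun J => ∑ i ∈ s, h i J) n := by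
  classical
  induction s using Finset.induction_on with
  | empty => simpa using PN_const 0 n
  | insert i s hi ih =>
    simp only [sum_insert hi]
    exact (H i (mem_insert_self _ _)).add (ih fun j hj => H j (mem_insert_of_mem hj))

lemma PN_choose (r : ℕ) : PN (fun J => (J.choose r : ℚ)) r := by
  refine ⟨C ((r.factorial : ℚ)⁻¹) * descPochhammer ℚ r, ?_, fun J => ?_⟩
  · refine natDegree_mul_le.trans ?_
    rw [natDegree_C, descPochhammer_natDegree, zero_add]
  · rw [eval_mul, eval_C, descPochhammer_eval_eq_descFactorial,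
      Nat.descFactorial_eq_factorial_mul_choose]
    have : (r.factorial : ℚ) ≠ 0 := by exact_mod_cast r.factorial_ne_zero
    push_cast
    field_simp

/-- Newton expansion of a polynomial at the naturals -/
lemma newton (F : ℚ[X]) (u : ℕ) (hF : F.natDegree ≤ u) (i : ℕ) :
    F.eval (i : ℚ) = ∑ k ∈ range (u + 1), (nd (fun n : ℕ => F.eval (n : ℚ)) k) * (i.choose k : ℚ) := by
  have h := shift_eq_sum_fwdDiff_iter (1 : ℕ) (fun n : ℕ => F.eval (n : ℚ)) i 0
  simp only [smul_eq_mul, mul_one, zero_add] at h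
  rw [h]
  have hz : ∀ k, u < k → nd (fun n : ℕ => F.eval (n : ℚ)) k = 0 := fun k hk =>
    PN.nd_eq_zero (n := u) ⟨F, hF, fun _ => rfl⟩ hk
  have e1 : ∑ k ∈ range (i + 1), i.choose k • (fwdDiff 1)^[k] (fun n : ℕ => F.eval (n : ℚ)) 0
      = ∑ k ∈ range (i + u + 1), (nd (fun n : ℕ => F.eval (n : ℚ)) k) * (i.choose k : ℚ) := by
    have e2 : ∑ k ∈ range (i + 1), i.choose k • (fwdDiff 1)^[k] (fun n : ℕ => F.eval (n : ℚ)) 0
      = ∑ k ∈ range (i + 1), (nd (fun n : ℕ => F.eval (n : ℚ)) k) * (i.choose k : ℚ) := by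
      refine sum_congr rfl fun k _ => ?_
      rw [nsmul_eq_mul, mul_comm]
      rfl
    rw [e2]
    refine sum_subset (range_subset_range.2 (by omega)) fun k _ hk => ?_
    have : i < k := by
      have := mt mem_range.2 hk
      omega
    rw [Nat.choose_eq_zero_of_lt this]
    simp
  rw [e1]
  symm
  refine sum_subset (range_subset_range.2 (by omega)) fun k _ hk => ?_
  have : u < k := by
    have := mt mem_range.2 hk
    omega
  rw [hz k this, zero_mul]

end

end Crest.Agent.R006.LB537
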