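import Crest.Agent.R006.LB3_537

/-!
Row 6 (Catalan), block P5/P7 input, part 4: `T J F` is polynomial in `J`; the functional `Lp`,
its functional equation and its initial values.
-/

set_option autoImplicit false

open Polynomial Finset

namespace Crest.Agent.R006.LB537

noncomputable section

lemma E_PN (F : ℚ[X]) (u : ℕ) (hF : F.natDegree ≤ u) :
    PN (fun J => E J (fun i => F.eval (i : ℚ))) u := by
  have h : ∀ J, E J (fun i => F.eval (i : ℚ))
      = ∑ k ∈ range (u + 1), (nd (fun n : ℕ => F.eval (n : ℚ)) k * g k) * (J.choose k : ℚ) := by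
    intro J
    have : (fun i : ℕ => F.eval (i : ℚ)) = fun i : ℕ =>
        ∑ k ∈ range (u + 1), (nd (fun n : ℕ => F.eval (n : ℚ)) k) * (i.choose k : ℚ) :=
      funext fun i => newton F u hF i
    rw [this, E_sum]
    refine sum_congr rfl fun k _ => ?_
    rw [E_mul, E_choose]
    have h2 : (fun i : ℕ =>
        ∑ k ∈ range (u + 1), (nd (fun n : ℕ => F.eval (n : ℚ)) k) * (i.choose k : ℚ))
        = (fun i : ℕ => F.eval (i : ℚ)) := this.symm
    rw [h2]
    ring
  have h' : (fun J => E J (fun i => F.eval (i : ℚ))) = fun J =>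
      ∑ k ∈ range (u + 1), (nd (fun n : ℕ => F.eval (n : ℚ)) k * g k) * (J.choose k : ℚ) :=
    funext h
  rw [h']
  refine PN_sum _ _ _ fun k hk => ?_
  exact ((PN_choose k).smul _).mono (by have := mem_range.1 hk; omega)

/-- moments -/
def M (J r : ℕ) : ℚ := E J (fun i => (i : ℚ) ^ r)

lemma M_PN (r : ℕ) : PN (fun J => M J r) r := by
  have := E_PN (X ^ r) r (natDegree_X_pow_le r)
  simpa [M] using this

lemma M_zero (J : ℕ) : M J 0 = 1 := by simp [M, E_one]

lemma D_X_pow (a : ℚ) (m : ℕ) :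
    D a (X ^ m) = ∑ i ∈ range m, C (a ^ (m - 1 - i)) * X ^ i := by
  apply D_unique
  have h := (Commute.all (X : ℚ[X]) (C a)).mul_geom_sum₂ m
  rw [eval_pow, eval_X, C_pow, ← h]
  congr 1
  refine sum_congr rfl fun i _ => ?_
  rw [C_pow, mul_comm]

lemma dd3_X_pow (a b c : ℚ) (m : ℕ) :
    dd3 (X ^ m) a b c
      = ∑ i ∈ range m, ∑ l ∈ range i, a ^ (m - 1 - i) * (b ^ (i - 1 - l) * c ^ l) := by
  unfold dd3
  rw [D_X_pow, D_sum, eval_finsetSum]
  refine sum_congr rfl fun i _ => ?_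
  rw [D_smul, D_X_pow, eval_mul, eval_C, eval_finsetSum, mul_sum]
  refine sum_congr rfl fun l _ => ?_
  simp

lemma T_X_pow (J m : ℕ) :
    T J (X ^ m) = ∑ i ∈ range m, ∑ l ∈ range i, M J (m - 1 - i) * (M J (i - 1 - l) * M J l) := by
  unfold T
  simp only [dd3_X_pow, E_sum, E_mul, E_mul']
  rfl

lemma T_X_pow_PN (m : ℕ) : PN (fun J => T J (X ^ m)) (m - 2) := by
  simp only [T_X_pow]
  refine PN_sum _ _ _ fun i hi => PN_sum _ _ _ fun l hl => ?_
  have hi' := mem_range.1 hi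
  have hl' := mem_range.1 hl
  exact ((M_PN _).mul ((M_PN _).mul (M_PN _))).mono (by omega)

lemma T_eq_sum (J : ℕ) (F : ℚ[X]) (k : ℕ) (hF : F.natDegree ≤ k) :
    T J F = ∑ m ∈ range (k + 1), F.coeff m * T J (X ^ m) := by
  conv_lhs => rw [F.as_sum_range_C_mul_X_pow' (Nat.lt_succ_of_le hF)]
  rw [T_sum]
  refine sum_congr rfl fun m _ => ?_
  rw [T_smul]

lemma T_PN (F : ℚ[X]) (k : ℕ) (hF : F.natDegree ≤ k) : PN (fun J => T J F) (k - 2) := by
  have : (fun J => T J F) = fun J => ∑ m ∈ range (k + 1), F.coeff m * T J (X ^ m) :=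
    funext fun J => T_eq_sum J F k hF
  rw [this]
  refine PN_sum _ _ _ fun m hm => ?_
  have hm' := mem_range.1 hm
  exact ((T_X_pow_PN m).smul _).mono (by omega)

lemma T_zero_of_le_one (J : ℕ) (F : ℚ[X]) (hF : F.natDegree ≤ 1) : T J F = 0 := by
  rw [T_eq_sum J F 1 hF]
  refine sum_eq_zero fun m hm => ?_
  have hm' := mem_range.1 hm
  rw [T_X_pow]
  have : ∑ i ∈ range m, ∑ l ∈ range i, M J (m - 1 - i) * (M J (i - 1 - l) * M J l) = 0 := by
    refine sum_eq_zero fun i hi => ?_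
    have hi' := mem_range.1 hi
    have : i = 0 := by omega
    subst this
    simp
  rw [this, mul_zero]

/-- the linear weight -/
def W (J : ℕ) : ℚ[X] := C ((6 * (J : ℚ) + 1) / 4) - C (3 / 2) * X

lemma W_shift (J : ℕ) : (W (J + 1)).comp (X + C 1) = W J := by
  unfold W
  rw [sub_comp, C_comp, mul_comp, C_comp, X_comp]
  have e : (6 * (((J + 1 : ℕ)) : ℚ) + 1) / 4 = (6 * (J : ℚ) + 1) / 4 + 3 / 2 := by
    push_cast; ring
  rw [e, C_add, mul_add, ← C_mul]
  simp

/-- the sequence attached to `F` -/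
def q (F : ℚ[X]) (J : ℕ) : ℚ := T J (F * W J)

lemma q_eq (F : ℚ[X]) (J : ℕ) :
    q F J = ((6 * (J : ℚ) + 1) / 4) * T J F + (-(3 / 2)) * T J (X * F) := by
  unfold q W
  have : F * (C ((6 * (J : ℚ) + 1) / 4) - C (3 / 2) * X)
      = C ((6 * (J : ℚ) + 1) / 4) * F + C (-(3 / 2)) * (X * F) := by
    rw [C_neg]; ring
  rw [this, T_add, T_smul, T_smul]

lemma q_add (F G : ℚ[X]) (J : ℕ) : q (F + G) J = q F J + q G J := by
  unfold q; rw [add_mul, T_add]

lemma q_smul (c : ℚ) (F : ℚ[X]) (J : ℕ) : q (C c * F) J = c * q F J := by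
  unfold q; rw [mul_assoc, T_smul]

lemma q_shift (F : ℚ[X]) (J : ℕ) :
    q ((X + C (1 / 2)) ^ 3 * F.comp (X + C 1)) J = q (X ^ 3 * F) (J + 1) := by
  unfold q
  rw [mul_assoc (X ^ 3), T_succ, mul_comp, W_shift, mul_assoc]

lemma q_X3_zero (F : ℚ[X]) : q (X ^ 3 * F) 0 = 0 := by
  unfold q T
  rw [mul_assoc]
  simp only [E, be, zero_add, range_one, sum_singleton, Nat.sub_zero, g_zero, one_mul,
    Nat.cast_zero, dd3_X3]
  ring

lemma natDegree_X_mul_le' (F : ℚ[X]) (k : ℕ) (hF : F.natDegree ≤ k) :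
    (X * F).natDegree ≤ k + 1 := by
  refine natDegree_mul_le.trans ?_
  have : (X : ℚ[X]).natDegree ≤ 1 := natDegree_X_le
  omega

lemma q_zero (F : ℚ[X]) (hF : F.natDegree ≤ 0) (J : ℕ) : q F J = 0 := by
  rw [q_eq, T_zero_of_le_one J F (by omega),
    T_zero_of_le_one J (X * F) (natDegree_X_mul_le' F 0 hF)]
  ring

lemma q_PN (F : ℚ[X]) (k : ℕ) (hF : F.natDegree ≤ k) : PN (q F) (k - 1) := by
  rcases Nat.eq_zero_or_pos k with rfl | hk
  · have : q F = fun _ => 0 := funext fun J => q_zero F hF J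
    rw [this]
    exact PN_const 0 _
  have h2 : PN (fun J => (-(3 / 2)) * T J (X * F)) (k - 1) :=
    ((T_PN (X * F) (k + 1) (natDegree_X_mul_le' F k hF)).smul _).mono (by omega)
  have h3 : PN (fun J : ℕ => (6 * (J : ℚ) + 1) / 4) 1 := by
    refine ⟨C (3 / 2) * X + C (1 / 4), ?_, fun J => ?_⟩
    · exact natDegree_linear_le
    · simp; ring
  have h1 : PN (fun J => ((6 * (J : ℚ) + 1) / 4) * T J F) (k - 1) := by
    rcases Nat.lt_or_ge k 2 with h | h
    · have : (fun J : ℕ => ((6 * (J : ℚ) + 1) / 4) * T J F) = fun _ => 0 := by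
        funext J
        rw [T_zero_of_le_one J F (by omega), mul_zero]
      rw [this]
      exact PN_const 0 _
    · exact (h3.mul (T_PN F k hF)).mono (by omega)
  have : q F = fun J : ℕ => ((6 * (J : ℚ) + 1) / 4) * T J F + (-(3 / 2)) * T J (X * F) :=
    funext fun J => q_eq F J
  rw [this]
  exact h1.add h2

/-- truncated sum -/
def S (d : ℕ) (h : ℕ → ℚ) : ℚ := ∑ i ∈ range d, nd h i * (-1 / 9) ^ (i + 1)

lemma S_shift (d : ℕ) (h : ℕ → ℚ) (hd : nd h d = 0) :
    S d (fun n => h (n + 1)) = -8 * S d h - h 0 := by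
  have e1 : S (d + 1) h = S d h := by
    unfold S; rw [sum_range_succ, hd]; simp
  have e2 : S (d + 1) h = (∑ i ∈ range d, nd h (i + 1) * (-1 / 9) ^ (i + 1 + 1)) + h 0 * (-1 / 9) := by
    unfold S; rw [sum_range_succ']; simp [nd_zero_idx]
  have e3 : S d (fun n => h (n + 1))
      = -9 * (∑ i ∈ range d, nd h (i + 1) * (-1 / 9) ^ (i + 1 + 1)) + S d h := by
    unfold S
    rw [mul_sum, ← sum_add_distrib]
    refine sum_congr rfl fun i _ => ?_
    rw [nd_shift, pow_succ _ (i + 1)]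
    ring
  rw [e3]
  linear_combination 9 * e2 - 9 * e1

/-- the functional -/
def Lp (F : ℚ[X]) : ℚ := S F.natDegree (q F)

lemma nd_q_zero (F : ℚ[X]) (i : ℕ) (hi : F.natDegree ≤ i) : nd (q F) i = 0 := by
  rcases Nat.eq_zero_or_pos F.natDegree with h0 | h0
  · rw [nd_congr (k := fun _ => 0) (fun J => q_zero F h0.le J)]
    rw [nd_eq_sum]; simp
  · exact (q_PN F _ le_rfl).nd_eq_zero (by omega)

lemma Lp_eq (F : ℚ[X]) (d : ℕ) (hd : F.natDegree ≤ d) : Lp F = S d (q F) := by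
  unfold Lp S
  refine sum_subset (range_subset_range.2 hd) fun i _ hi => ?_
  have : F.natDegree ≤ i := by
    have := mt mem_range.2 hi
    omega
  rw [nd_q_zero F i this, zero_mul]

lemma Lp_add (F G : ℚ[X]) : Lp (F + G) = Lp F + Lp G := by
  set d := max F.natDegree G.natDegree
  rw [Lp_eq (F + G) d (natDegree_add_le _ _), Lp_eq F d (le_max_left _ _),
    Lp_eq G d (le_max_right _ _)]
  unfold S
  rw [← sum_add_distrib]
  refine sum_congr rfl fun i _ => ?_
  rw [nd_congr (fun J => q_add F G J), nd_add]; ring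

lemma Lp_smul (c : ℚ) (F : ℚ[X]) : Lp (C c * F) = c * Lp F := by
  rw [Lp_eq (C c * F) F.natDegree (natDegree_C_mul_le _ _)]
  unfold Lp S
  rw [mul_sum]
  refine sum_congr rfl fun i _ => ?_
  rw [nd_congr (fun J => q_smul c F J), nd_smul]; ring

/-- functional equation -/
lemma Lp_fe (F : ℚ[X]) :
    Lp ((X + C (1 / 2)) ^ 3 * F.comp (X + C 1)) + 8 * Lp (X ^ 3 * F) = 0 := by
  set d := max ((X + C (1 / 2)) ^ 3 * F.comp (X + C 1)).natDegree (X ^ 3 * F).natDegree
  rw [Lp_eq _ d (le_max_left _ _), Lp_eq (X ^ 3 * F) d (le_max_right _ _)]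
  have h1 : S d (q ((X + C (1 / 2)) ^ 3 * F.comp (X + C 1))) = S d (fun n => q (X ^ 3 * F) (n + 1)) := by
    unfold S
    refine sum_congr rfl fun i _ => ?_
    rw [nd_congr (fun J => q_shift F J)]
  rw [h1, S_shift d _ (nd_q_zero _ _ (le_max_right _ _)), q_X3_zero]
  ring

lemma M_zero_pos (r : ℕ) (hr : 0 < r) : M 0 r = 0 := by
  simp [M, E, be, g_zero, hr.ne']

lemma Lp_one : Lp 1 = 0 := by
  simp [Lp, S]

lemma Lp_X : Lp X = 1 / 6 := by
  rw [Lp_eq X 1 natDegree_X_le]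
  unfold S
  rw [sum_range_one, nd_zero_idx, q_eq, T_zero_of_le_one 0 X natDegree_X_le]
  have : (X * X : ℚ[X]) = X ^ 2 := by ring
  rw [this, T_X_pow]
  simp [sum_range_succ, M_zero]
  norm_num

lemma M_one_one : M 1 1 = 1 / 2 := by
  have := E_choose 1 1
  simp only [Nat.choose_one_right, Nat.cast_one, mul_one] at this
  simp only [M, pow_one]
  rw [this]
  have := g_succ 0
  rw [g_zero] at this
  simp at this
  linarith

lemma Lp_X2 : Lp (X ^ 2) = -1 / 27 := by
  rw [Lp_eq (X ^ 2) 2 (natDegree_X_pow_le 2)]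
  unfold S
  have q0 : q (X ^ 2) 0 = 1 / 4 := by
    rw [q_eq]
    have : (X * X ^ 2 : ℚ[X]) = X ^ 3 := by ring
    rw [this, T_X_pow, T_X_pow]
    simp [sum_range_succ, M_zero, M_zero_pos]
  have q1 : q (X ^ 2) 1 = -1 / 2 := by
    rw [q_eq]
    have : (X * X ^ 2 : ℚ[X]) = X ^ 3 := by ring
    rw [this, T_X_pow, T_X_pow]
    simp [sum_range_succ, M_zero, M_one_one]
    norm_num
  have n1 : nd (q (X ^ 2)) 1 = q (X ^ 2) 1 - q (X ^ 2) 0 := by
    unfold nd
    simp [fwdDiff]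
  rw [sum_range_succ, sum_range_one, nd_zero_idx, n1, q0, q1]
  norm_num

end

end Crest.Agent.R006.LB537
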