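import Crest.Agent.R006.LB4_537

/-!
Row 6 (Catalan), block P5/P7 input, part 5: uniqueness of the functional.
-/

set_option autoImplicit false

open Polynomial Finset

namespace Crest.Agent.R006.LB537

noncomputable section

/-- `Lp` as a linear map -/
def LpL : ℚ[X] →ₗ[ℚ] ℚ where
  toFun := Lp
  map_add' := Lp_add
  map_smul' c F := by
    rw [smul_eq_C_mul, Lp_smul]; rfl

lemma LpL_apply (F : ℚ[X]) : LpL F = Lp F := rfl

lemma lm_C (Δ : ℚ[X] →ₗ[ℚ] ℚ) (c : ℚ) (F : ℚ[X]) : Δ (C c * F) = c * Δ F := by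
  rw [← smul_eq_C_mul, map_smul, smul_eq_mul]

/-- uniqueness -/
lemma uniq (Δ : ℚ[X] →ₗ[ℚ] ℚ) (h0 : Δ 1 = 0) (h1 : Δ X = 0) (h2 : Δ (X ^ 2) = 0)
    (hfe : ∀ F : ℚ[X], Δ ((X + C (1 / 2)) ^ 3 * F.comp (X + C 1)) + 8 * Δ (X ^ 3 * F) = 0) :
    ∀ F : ℚ[X], Δ F = 0 := by
  have key : ∀ n : ℕ, ∀ F : ℚ[X], F.natDegree ≤ n → Δ F = 0 := by
    intro n
    induction n using Nat.strong_induction_on with
    | _ n ih =>
      intro F hF
      rcases Nat.lt_or_ge n 3 with hn | hn
      · have e : F = C (F.coeff 0) * 1 + C (F.coeff 1) * X + C (F.coeff 2) * X ^ 2 := by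
          conv_lhs => rw [F.as_sum_range_C_mul_X_pow' (n := 3) (by omega)]
          simp [sum_range_succ]
        rw [e, map_add, map_add, lm_C, lm_C, lm_C, h0, h1, h2]
        ring
      · obtain ⟨m, rfl⟩ : ∃ m, n = m + 3 := ⟨n - 3, by omega⟩
        set A : ℚ[X] := (X + C (1 / 2)) ^ 3 * (X ^ m : ℚ[X]).comp (X + C 1) with hA
        have hAm : A.Monic := by
          rw [hA, X_pow_comp]
          exact ((monic_X_add_C _).pow 3).mul ((monic_X_add_C _).pow m)
        have hAd : A.natDegree = m + 3 := by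
          rw [hA, X_pow_comp, Monic.natDegree_mul ((monic_X_add_C _).pow 3)
            ((monic_X_add_C _).pow m), (monic_X_add_C _).natDegree_pow,
            (monic_X_add_C _).natDegree_pow, natDegree_X_add_C, natDegree_X_add_C]
          omega
        have hfe' := hfe (X ^ m)
        rw [← hA, ← pow_add] at hfe'
        -- subtract the right multiple
        set c := F.coeff (m + 3) with hc
        have hG : (C (9 : ℚ) * F - C c * (A + C 8 * X ^ (3 + m))).natDegree ≤ m + 2 := by
          rw [natDegree_le_iff_coeff_eq_zero]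
          intro N hN
          rcases Nat.lt_or_ge (m + 3) N with h | h
          · have z1 : F.coeff N = 0 := coeff_eq_zero_of_natDegree_lt (by omega)
            have z2 : A.coeff N = 0 := coeff_eq_zero_of_natDegree_lt (by omega)
            have z3 : (X ^ (3 + m) : ℚ[X]).coeff N = 0 := by
              rw [coeff_X_pow, if_neg (by omega)]
            simp only [coeff_sub, coeff_C_mul, coeff_add, z1, z2, z3]
            ring
          · have hN' : N = m + 3 := by omega
            subst hN'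
            have z2 : A.coeff (m + 3) = 1 := by
              have := hAm.coeff_natDegree
              rwa [hAd] at this
            have z3 : (X ^ (3 + m) : ℚ[X]).coeff (m + 3) = 1 := by
              rw [coeff_X_pow, if_pos (by omega)]
            simp only [coeff_sub, coeff_C_mul, coeff_add, z2, z3, ← hc]
            ring
        have hz := ih (m + 2) (by omega) _ hG
        rw [map_sub, lm_C, lm_C, map_add, lm_C, hfe'] at hz
        linarith
  exact fun F => key _ F le_rfl

/-- the reflection `-1/2 - X` -/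
def io : ℚ[X] := C (-1 / 2) - X

lemma io_comp : io.comp io = X := by
  unfold io; rw [sub_comp, C_comp, X_comp]; ring

lemma comp_io_io (f : ℚ[X]) : (f.comp io).comp io = f := by
  rw [comp_assoc, io_comp, comp_X]

/-- precomposition -/
def compL (P : ℚ[X]) : ℚ[X] →ₗ[ℚ] ℚ[X] where
  toFun F := F.comp P
  map_add' F G := add_comp
  map_smul' c F := by rw [smul_comp]; rfl

lemma compL_apply (P F : ℚ[X]) : compL P F = F.comp P := rfl

lemma io_fe (F : ℚ[X]) :
    ((X + C (1 / 2)) ^ 3 * F.comp (X + C 1)).comp io + C 8 * (X ^ 3 * F).comp io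
      = - (X ^ 3 * (F.comp (C (1 / 2) - X))
        + (2 * X + 1) ^ 3 * (F.comp (C (1 / 2) - X)).comp (X + 1)) := by
  have a1 : (X + C 1 : ℚ[X]).comp io = C (1 / 2) - X := by
    unfold io
    rw [add_comp, X_comp, C_comp, sub_add_eq_add_sub, ← C_add]
    norm_num
  have a2 : (C (1 / 2) - X : ℚ[X]).comp (X + 1) = io := by
    unfold io
    rw [sub_comp, C_comp, X_comp]
    have : (C (-1 / 2) : ℚ[X]) = C (1 / 2) - 1 := by
      rw [← C_1, ← C_sub]; norm_num
    rw [this]; ring
  have a3 : (X + C (1 / 2) : ℚ[X]).comp io = - X := by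
    unfold io
    rw [add_comp, X_comp, C_comp, sub_add_eq_add_sub, ← C_add]
    norm_num
  have a4 : C 8 * io ^ 3 = - (2 * X + 1) ^ 3 := by
    have e : (2 * X + 1 : ℚ[X]) = - (C 2 * io) := by
      unfold io
      rw [mul_sub, ← C_mul]
      have : (C ((2 : ℚ) * (-1 / 2)) : ℚ[X]) = -1 := by
        rw [← C_1, ← C_neg]; norm_num
      rw [this]
      have : (C (2 : ℚ) : ℚ[X]) = 2 := map_ofNat C 2
      rw [this]; ring
    have : (C 8 : ℚ[X]) = C 2 ^ 3 := by rw [← C_pow]; norm_num
    rw [e, this]; ring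
  rw [mul_comp, mul_comp, pow_comp, pow_comp, X_comp, comp_assoc, comp_assoc, a1, a2, a3]
  linear_combination (F.comp io) * a4

theorem Lam_eq (Λ : ℚ[X] →ₗ[ℚ] ℚ) (h0 : Λ 1 = 0) (h1 : Λ X = -1 / 6) (h2 : Λ (X ^ 2) = 7 / 54)
    (hK : ∀ P : ℚ[X], Λ (X ^ 3 * P + (2 * X + 1) ^ 3 * P.comp (X + 1)) = 0) (f : ℚ[X]) :
    Λ f = Lp (f.comp io) := by
  have e1 : (X : ℚ[X]).comp io = C (-1 / 2) * 1 + C (-1) * X := by
    unfold io; rw [X_comp, C_neg]; simp; ring
  have e2 : (X ^ 2 : ℚ[X]).comp io = C (1 / 4) * 1 + C 1 * X + X ^ 2 := by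
    unfold io
    rw [X_pow_comp]
    have : (C (1 / 4) : ℚ[X]) = C (-1 / 2) ^ 2 := by rw [← C_pow]; norm_num
    have h3 : (C (-1 / 2) : ℚ[X]) * 2 = - 1 := by
      have : (2 : ℚ[X]) = C 2 := (map_ofNat C 2).symm
      rw [this, ← C_mul, ← C_1, ← C_neg]; norm_num
    rw [this, C_1]
    linear_combination (-X) * h3
  have hu := uniq (Λ.comp (compL io) - LpL) ?_ ?_ ?_ ?_ (f.comp io)
  · rw [LinearMap.sub_apply, LinearMap.comp_apply, compL_apply, LpL_apply, comp_io_io] at hu
    linarith
  · rw [LinearMap.sub_apply, LinearMap.comp_apply, compL_apply, LpL_apply, one_comp, h0, Lp_one]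
    ring
  · rw [LinearMap.sub_apply, LinearMap.comp_apply, compL_apply, LpL_apply, e1, map_add, lm_C, lm_C,
      h0, h1, Lp_X]
    ring
  · rw [LinearMap.sub_apply, LinearMap.comp_apply, compL_apply, LpL_apply, e2, map_add, map_add,
      lm_C, lm_C, h0, h1, h2, Lp_X2]
    ring
  · intro F
    have := hK (F.comp (C (1 / 2) - X))
    have e := congrArg Λ (io_fe F)
    rw [map_neg, this, map_add, lm_C] at e
    have l := Lp_fe F
    simp only [LinearMap.sub_apply, LinearMap.comp_apply, compL_apply, LpL_apply]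
    linarith

end

end Crest.Agent.R006.LB537
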