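import Crest.Agent.R006.LB5_537

/-!
Row 6 (Catalan), block P5/P7 input, part 6: p-adic bounds of divided differences.
-/

set_option autoImplicit false

open Polynomial Finset

namespace Crest.Agent.R006.LB537

noncomputable section

variable (p : ℕ) [hp : Fact p.Prime]

lemma pn_nat_le (n : ℕ) : padicNorm p (n : ℚ) ≤ 1 := padicNorm.of_nat n

lemma one_le_p : (1 : ℚ) ≤ (p : ℚ) := by exact_mod_cast hp.out.one_lt.le

lemma pn_inv_nat (i k : ℕ) (hi : 1 ≤ i) (hik : i ≤ k) :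
    padicNorm p ((i : ℚ)⁻¹) ≤ (p : ℚ) ^ (Nat.log p k) := by
  have hi0 : (i : ℚ) ≠ 0 := by exact_mod_cast (by omega : i ≠ 0)
  have h1 : padicNorm p ((i : ℚ)⁻¹) = (padicNorm p (i : ℚ))⁻¹ := by
    have := padicNorm.mul (p := p) (i : ℚ) ((i : ℚ)⁻¹)
    rw [mul_inv_cancel₀ hi0, padicNorm.one] at this
    exact eq_inv_of_mul_eq_one_right this.symm
  rw [h1, padicNorm.eq_zpow_of_nonzero hi0, ← zpow_neg, neg_neg, padicValRat.of_nat]
  have : padicValNat p i ≤ Nat.log p k :=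
    (padicValNat_le_nat_log i).trans (Nat.log_mono_right hik)
  rw [zpow_natCast]
  exact pow_le_pow_right₀ (one_le_p p) this

lemma pn_mul_le {x y a b : ℚ} (hx : padicNorm p x ≤ a) (hy : padicNorm p y ≤ b) (ha : 0 ≤ a) :
    padicNorm p (x * y) ≤ a * b := by
  rw [padicNorm.mul]
  exact mul_le_mul hx hy (padicNorm.nonneg _) ha

lemma pn_sub_le {x y a : ℚ} (hx : padicNorm p x ≤ a) (hy : padicNorm p y ≤ a) :
    padicNorm p (x - y) ≤ a := padicNorm.sub.trans (max_le hx hy)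

lemma pn_add_le {x y a : ℚ} (hx : padicNorm p x ≤ a) (hy : padicNorm p y ≤ a) :
    padicNorm p (x + y) ≤ a := padicNorm.nonarchimedean.trans (max_le hx hy)

/-- iterated differences of a bounded function are bounded -/
lemma pn_fwd {h : ℕ → ℚ} {e : ℚ} (he : 0 ≤ e) (hh : ∀ n, padicNorm p (h n) ≤ e) (i n : ℕ) :
    padicNorm p ((fwdDiff 1)^[i] h n) ≤ e := by
  rw [fwdDiff_iter_eq_sum_shift]
  refine padicNorm.sum_le' (fun k _ => ?_) he
  rw [zsmul_eq_mul, padicNorm.mul]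
  calc _ ≤ 1 * e := mul_le_mul (padicNorm.of_int _) (hh _) (padicNorm.nonneg _) zero_le_one
    _ = e := one_mul e

lemma pn_nd {h : ℕ → ℚ} {e : ℚ} (he : 0 ≤ e) (hh : ∀ n, padicNorm p (h n) ≤ e) (i : ℕ) :
    padicNorm p (nd h i) ≤ e := pn_fwd p he hh i 0

lemma natDegree_D_le (a : ℚ) (F : ℚ[X]) : (D a F).natDegree ≤ F.natDegree := by
  unfold D
  rw [natDegree_divByMonic _ (monic_X_sub_C a)]
  omega

lemma natDegree_D_lt (a : ℚ) (F : ℚ[X]) (k : ℕ) (hF : F.natDegree ≤ k) (hk : 0 < k) :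
    (D a F).natDegree < k := by
  unfold D
  rw [natDegree_divByMonic _ (monic_X_sub_C a), natDegree_X_sub_C]
  omega

lemma choose_div (m i : ℕ) :
    ((m + 1).choose (i + 1) : ℚ) = ((m : ℚ) + 1) * ((m.choose i : ℚ) * ((i : ℚ) + 1)⁻¹) := by
  have h := Nat.add_one_mul_choose_eq m i
  have h' : ((m : ℚ) + 1) * (m.choose i : ℚ) = ((m + 1).choose (i + 1) : ℚ) * ((i : ℚ) + 1) := by
    exact_mod_cast h
  have : ((i : ℚ) + 1) ≠ 0 := by positivity
  field_simp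
  linarith

/-- divided differences to the right -/
lemma dd2_right (F : ℚ[X]) (k : ℕ) (hF : F.natDegree ≤ k) {e : ℚ} (he : 0 ≤ e)
    (hh : ∀ n : ℕ, padicNorm p (F.eval (n : ℚ)) ≤ e) (a m : ℕ) :
    padicNorm p (dd2 F (a : ℚ) ((a + (m + 1) : ℕ) : ℚ)) ≤ e * (p : ℚ) ^ (Nat.log p k) := by
  set h : ℕ → ℚ := fun n => F.eval (n : ℚ) with hh'
  have hsum := shift_eq_sum_fwdDiff_iter (1 : ℕ) h (m + 1) a
  simp only [smul_eq_mul, mul_one] at hsum
  rw [sum_range_succ'] at hsum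
  simp only [Nat.choose_zero_right, one_smul, Function.iterate_zero, id] at hsum
  have hspec := congrArg (eval (((a + (m + 1) : ℕ)) : ℚ)) (D_spec (a : ℚ) F)
  simp only [eval_mul, eval_sub, eval_X, eval_C] at hspec
  have hm : ((m : ℚ) + 1) ≠ 0 := by positivity
  have key : dd2 F (a : ℚ) ((a + (m + 1) : ℕ) : ℚ)
      = ∑ i ∈ range (m + 1), (m.choose i : ℚ) * (((i + 1 : ℕ) : ℚ)⁻¹ * (fwdDiff 1)^[i + 1] h a) := by
    apply mul_left_cancel₀ hm
    have e1 : ((m : ℚ) + 1) * dd2 F (a : ℚ) ((a + (m + 1) : ℕ) : ℚ) = h (a + (m + 1)) - h a := by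
      unfold dd2
      rw [hh']
      simp only
      rw [← hspec]
      push_cast; ring
    rw [e1, hsum, add_sub_cancel_right, mul_sum]
    refine sum_congr rfl fun i _ => ?_
    rw [nsmul_eq_mul, choose_div]
    push_cast
    ring
  rw [key]
  have hP : (0 : ℚ) ≤ (p : ℚ) ^ (Nat.log p k) := by positivity
  refine padicNorm.sum_le' (fun i _ => ?_) (mul_nonneg he hP)
  rcases Nat.lt_or_ge k (i + 1) with hi | hi
  · have : (fwdDiff 1)^[i + 1] h a = 0 := by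
      rw [hh', iter_eval, Polynomial.fwdDiff_iter_eq_zero_of_degree_lt (lt_of_le_of_lt hF hi)]
      rfl
    rw [this]
    simp only [mul_zero, padicNorm.zero]
    exact mul_nonneg he hP
  · have b1 := pn_inv_nat p (i + 1) k (by omega) hi
    have b2 := pn_fwd p he hh (i + 1) a
    have b3 := pn_mul_le p b1 b2 hP
    have b4 := pn_mul_le p (pn_nat_le p (m.choose i)) b3 zero_le_one
    calc _ ≤ _ := b4
      _ = _ := by ring

/-- all divided differences at naturals -/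
lemma dd2_bound (F : ℚ[X]) (k : ℕ) (hF : F.natDegree ≤ k) {e : ℚ} (he : 0 ≤ e)
    (hh : ∀ n : ℕ, padicNorm p (F.eval (n : ℚ)) ≤ e) (a b : ℕ) :
    padicNorm p (dd2 F (a : ℚ) (b : ℚ)) ≤ e * (p : ℚ) ^ (Nat.log p k) := by
  have hP : (0 : ℚ) ≤ (p : ℚ) ^ (Nat.log p k) := by positivity
  rcases lt_trichotomy a b with h | h | h
  · obtain ⟨m, rfl⟩ : ∃ m, b = a + (m + 1) := ⟨b - a - 1, by omega⟩
    exact dd2_right p F k hF he hh a m
  · subst h
    rcases Nat.eq_zero_or_pos k with hk | hk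
    · have : D (a : ℚ) F = 0 := by
        rw [eq_C_of_natDegree_le_zero (hF.trans hk.le), D_C]
      unfold dd2
      rw [this]
      simp only [eval_zero, padicNorm.zero]
      exact mul_nonneg he hP
    -- the `k`-th difference of `D a F` at `a` vanishes
    have hz : (fwdDiff 1)^[k] (fun n : ℕ => (D (a : ℚ) F).eval (n : ℚ)) a = 0 := by
      rw [iter_eval, Polynomial.fwdDiff_iter_eq_zero_of_degree_lt (natDegree_D_lt _ F k hF hk)]
      rfl
    rw [fwdDiff_iter_eq_sum_shift, sum_range_succ'] at hz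
    simp only [Nat.sub_zero, Nat.choose_zero_right, Nat.cast_one, mul_one, add_zero,
      smul_eq_mul] at hz
    have hsum : padicNorm p (∑ i ∈ range k, ((-1 : ℤ) ^ (k - (i + 1)) * (k.choose (i + 1) : ℕ))
        • (D (a : ℚ) F).eval ((a + (i + 1) : ℕ) : ℚ)) ≤ e * (p : ℚ) ^ (Nat.log p k) := by
      refine padicNorm.sum_le' (fun i _ => ?_) (mul_nonneg he hP)
      rw [zsmul_eq_mul, padicNorm.mul]
      have := dd2_right p F k hF he hh a i
      calc _ ≤ 1 * (e * (p : ℚ) ^ (Nat.log p k)) :=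
            mul_le_mul (padicNorm.of_int _) this (padicNorm.nonneg _) zero_le_one
        _ = _ := one_mul _
    have h2 : (((-1 : ℤ) ^ k) : ℤ) • (D (a : ℚ) F).eval (a : ℚ)
        = - ∑ i ∈ range k, ((-1 : ℤ) ^ (k - (i + 1)) * (k.choose (i + 1) : ℕ))
        • (D (a : ℚ) F).eval ((a + (i + 1) : ℕ) : ℚ) := by
      linear_combination hz
    have h3 : padicNorm p ((((-1 : ℤ) ^ k) : ℤ) • (D (a : ℚ) F).eval (a : ℚ))
        = padicNorm p ((D (a : ℚ) F).eval (a : ℚ)) := by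
      rcases neg_one_pow_eq_or ℤ k with h | h <;> rw [h] <;> simp
    unfold dd2
    rw [← h3, h2, padicNorm.neg]
    exact hsum
  · obtain ⟨m, rfl⟩ : ∃ m, a = b + (m + 1) := ⟨a - b - 1, by omega⟩
    rw [dd2_symm]
    exact dd2_right p F k hF he hh b m

lemma dd3_bound (F : ℚ[X]) (k : ℕ) (hF : F.natDegree ≤ k) {e : ℚ} (he : 0 ≤ e)
    (hh : ∀ n : ℕ, padicNorm p (F.eval (n : ℚ)) ≤ e) (a b c : ℕ) :
    padicNorm p (dd3 F (a : ℚ) (b : ℚ) (c : ℚ)) ≤ e * (p : ℚ) ^ (2 * Nat.log p k) := by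
  have hP : (0 : ℚ) ≤ (p : ℚ) ^ (Nat.log p k) := by positivity
  have := dd2_bound p (D (a : ℚ) F) k ((natDegree_D_le _ _).trans hF) (mul_nonneg he hP)
    (fun n => dd2_bound p F k hF he hh a n) b c
  calc _ ≤ _ := this
    _ = _ := by rw [two_mul, pow_add]; ring

variable {p}

lemma pn_pow_eq_one {c : ℚ} (hc : padicNorm p c = 1) (i : ℕ) : padicNorm p (c ^ i) = 1 := by
  induction i with
  | zero => simp
  | succ i ih => rw [pow_succ, padicNorm.mul, ih, hc, one_mul]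

lemma pn_div_one {x y : ℚ} (hx : padicNorm p x ≤ 1) (hy : padicNorm p y = 1) :
    padicNorm p (x / y) ≤ 1 := by
  rw [padicNorm.div, hy, div_one]; exact hx

lemma pn_two (hp2 : p ≠ 2) : padicNorm p (2 : ℚ) = 1 := by
  have := padicNorm.nat_eq_one_iff (p := p) 2
  rw [show ((2 : ℕ) : ℚ) = 2 by norm_num] at this
  rw [this]
  intro h
  exact hp2 ((Nat.prime_dvd_prime_iff_eq hp.out Nat.prime_two).1 h)

lemma pn_four (hp2 : p ≠ 2) : padicNorm p (4 : ℚ) = 1 := by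
  have : (4 : ℚ) = 2 * 2 := by norm_num
  rw [this, padicNorm.mul, pn_two hp2, one_mul]

lemma pn_g (hp2 : p ≠ 2) (i : ℕ) : padicNorm p (g i) ≤ 1 :=
  pn_div_one (padicNorm.of_nat _) (pn_pow_eq_one (pn_four hp2) i)

lemma pn_be (hp2 : p ≠ 2) (J i : ℕ) : padicNorm p (be J i) ≤ 1 := by
  have := pn_mul_le p (pn_g hp2 i) (pn_g hp2 (J - i)) zero_le_one
  rwa [one_mul] at this

lemma pn_E (hp2 : p ≠ 2) {F : ℕ → ℚ} {e : ℚ} (he : 0 ≤ e) (hF : ∀ n, padicNorm p (F n) ≤ e)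
    (J : ℕ) : padicNorm p (E J F) ≤ e := by
  unfold E
  refine padicNorm.sum_le' (fun i _ => ?_) he
  have := pn_mul_le p (pn_be hp2 J i) (hF i) zero_le_one
  rwa [one_mul] at this

lemma pn_T (hp2 : p ≠ 2) (F : ℚ[X]) (k : ℕ) (hF : F.natDegree ≤ k) {e : ℚ} (he : 0 ≤ e)
    (hh : ∀ n : ℕ, padicNorm p (F.eval (n : ℚ)) ≤ e) (J : ℕ) :
    padicNorm p (T J F) ≤ e * (p : ℚ) ^ (2 * Nat.log p k) := by
  have hP : (0 : ℚ) ≤ e * (p : ℚ) ^ (2 * Nat.log p k) := by positivity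
  exact pn_E hp2 hP (fun a => pn_E hp2 hP (fun b => pn_E hp2 hP
    (fun c => dd3_bound p F k hF he hh a b c) J) J) J

lemma W_natDegree (J : ℕ) : (W J).natDegree ≤ 1 := by
  unfold W
  refine (natDegree_sub_le _ _).trans (max_le (by simp) ?_)
  exact (natDegree_C_mul_le _ _).trans natDegree_X_le

lemma pn_W (hp2 : p ≠ 2) (J n : ℕ) : padicNorm p ((W J).eval (n : ℚ)) ≤ 1 := by
  unfold W
  simp only [eval_sub, eval_mul, eval_C, eval_X]
  refine pn_sub_le p (pn_div_one ?_ (pn_four hp2)) ?_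
  · have : (6 * (J : ℚ) + 1) = ((6 * J + 1 : ℕ) : ℚ) := by push_cast; ring
    rw [this]
    exact padicNorm.of_nat _
  · have : (3 / 2 * (n : ℚ)) = ((3 * n : ℕ) : ℚ) / 2 := by push_cast; ring
    rw [this]
    exact pn_div_one (padicNorm.of_nat _) (pn_two hp2)

lemma pn_q (hp2 : p ≠ 2) (F : ℚ[X]) (k : ℕ) (hF : F.natDegree ≤ k) {e : ℚ} (he : 0 ≤ e)
    (hh : ∀ n : ℕ, padicNorm p (F.eval (n : ℚ)) ≤ e) (J : ℕ) :
    padicNorm p (q F J) ≤ e * (p : ℚ) ^ (2 * Nat.log p (k + 1)) := by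
  refine pn_T hp2 (F * W J) (k + 1) ?_ he ?_ J
  · exact natDegree_mul_le.trans (add_le_add hF (W_natDegree J))
  · intro n
    rw [eval_mul]
    have := pn_mul_le p (hh n) (pn_W hp2 J n) he
    rwa [mul_one] at this

lemma pn_Lp (hp2 : p ≠ 2) (F : ℚ[X]) (k : ℕ) (hF : F.natDegree ≤ k) {e : ℚ} (he : 0 ≤ e)
    (hh : ∀ n : ℕ, padicNorm p (F.eval (n : ℚ)) ≤ e) :
    padicNorm p (Lp F) ≤ e * (p : ℚ) ^ (2 * Nat.log p (k + 1)) * ((padicNorm p 9)⁻¹) ^ k := by
  have h9 : padicNorm p (9 : ℚ) ≤ 1 := by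
    have := padicNorm.of_nat (p := p) 9
    exact_mod_cast this
  have h9' : padicNorm p (9 : ℚ) ≠ 0 := padicNorm.nonzero (by norm_num)
  have h9pos : 0 < padicNorm p (9 : ℚ) := lt_of_le_of_ne (padicNorm.nonneg _) h9'.symm
  have hinv : 1 ≤ (padicNorm p (9 : ℚ))⁻¹ := (one_le_inv₀ h9pos).2 h9
  have hP : (0 : ℚ) ≤ e * (p : ℚ) ^ (2 * Nat.log p (k + 1)) := by positivity
  have hn : padicNorm p (-1 / 9 : ℚ) = (padicNorm p (9 : ℚ))⁻¹ := by
    rw [padicNorm.div, padicNorm.neg, padicNorm.one, one_div]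
  have hpow : ∀ i : ℕ, padicNorm p ((-1 / 9 : ℚ) ^ i) = ((padicNorm p (9 : ℚ))⁻¹) ^ i := by
    intro i
    induction i with
    | zero => simp
    | succ i ih => rw [pow_succ, padicNorm.mul, ih, hn, pow_succ]
  rw [Lp_eq F k hF]
  unfold S
  refine padicNorm.sum_le' (fun i hi => ?_) (by positivity)
  rw [padicNorm.mul, hpow]
  refine mul_le_mul (pn_nd p hP (fun n => pn_q hp2 F k hF he hh n) i) ?_ (by positivity) hP
  exact pow_le_pow_right₀ hinv (by have := mem_range.1 hi; omega)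

end

end Crest.Agent.R006.LB537
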