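import Crest.Agent.R006.G1W_186

/-!
Row 6 (Catalan's constant), g1 side (helper186): the residue functional `Lam.lam` on a `Q`-column.

Nodes: `W` (simple nodes on the first `k0` sites, germ value `g1L`), `St` (stars, germs of `g1L`),
the others carry the germs of `g1`. `Jw = g1 - g1L`.
`lam p G = -(1/2πi) (∑_{l<k0} ∮_{C(ce l,1/4)} Jw p/NS + ∑_{l≥k0} ∮_{C(ce l,1/4)} J1 p/NS)
  - ∑_{i ∈ St} (1/2πi) ∮_{C(z i,1/4)} Jw p/NS`.
-/

set_option autoImplicit false

namespace Crest.Agent.R006.G1x186

open Complex Filter Topology Set Metric Polynomial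
open Crest.Agent.R006.PsiJ Crest.Agent.R006.Germ724 Crest.Agent.R006.NV

/-- the jump seen by the stars and by the nodes on the sites -/
noncomputable def Jw (s : ℂ) : ℂ := g1 s - g1L s

section

variable {ι : Type*} [Fintype ι] [DecidableEq ι] (z : ι → ℂ) (m : ι → ℕ)

/-- the density `p/NS` -/
noncomputable def dens (p : ℂ[X]) (s : ℂ) : ℂ := p.eval s / (Lam.NS z m).eval s

variable {z m}

omit [DecidableEq ι] in
lemma NS_eval_ne {s : ℂ} (hs : ∀ i, s ≠ z i) : (Lam.NS z m).eval s ≠ 0 := by
  rw [Lam.NS, eval_prod, Finset.prod_ne_zero_iff]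
  intro i _
  rw [eval_pow, eval_sub, eval_X, eval_C]
  exact pow_ne_zero _ (sub_ne_zero.mpr (hs i))

lemma Nhat_eval_ne' {i : ι} {s : ℂ} (hs : ∀ j, j ≠ i → s ≠ z j) : (Lam.Nhat z m i).eval s ≠ 0 := by
  rw [Lam.Nhat, eval_prod, Finset.prod_ne_zero_iff]
  intro j hj
  rw [eval_pow, eval_sub, eval_X, eval_C]
  exact pow_ne_zero _ (sub_ne_zero.mpr (hs j (Finset.mem_erase.mp hj).1))

/-- residue at a node as a circle integral -/
theorem residue_circle {i : ι} (hi : m i ≠ 0) (hsep : ∀ j, j ≠ i → 1 / 4 < ‖z i - z j‖)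
    {h : ℂ → ℂ} (hh : DifferentiableOn ℂ h (closedBall (z i) (1 / 4))) (p : ℂ[X]) :
    (2 * Real.pi * I)⁻¹ * (∮ s in C(z i, 1 / 4), h s * dens z m p s) =
      PowerSeries.coeff (m i - 1) (T h (z i) * Lam.wt z m p i) := by
  have hne : ∀ s ∈ closedBall (z i) (1 / 4), ∀ j, j ≠ i → s ≠ z j := by
    intro s hs j hj h0
    have h1 := hsep j hj
    rw [mem_closedBall, dist_eq_norm] at hs
    rw [h0, norm_sub_rev] at hs
    linarith
  have hN : ∀ s ∈ closedBall (z i) (1 / 4), (Lam.Nhat z m i).eval s ≠ 0 :=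
    fun s hs => Nhat_eval_ne' (hne s hs)
  have hn : closedBall (z i) (1 / 4) ∈ 𝓝 (z i) := closedBall_mem_nhds _ (by norm_num)
  have hF : DifferentiableOn ℂ (fun s => h s * (p.eval s / (Lam.Nhat z m i).eval s))
      (closedBall (z i) (1 / 4)) := by
    apply hh.mul
    exact DifferentiableOn.div p.differentiable.differentiableOn
      (Lam.Nhat z m i).differentiable.differentiableOn hN
  have e : (∮ s in C(z i, 1 / 4), h s * dens z m p s) =
      ∮ s in C(z i, 1 / 4), (h s * (p.eval s / (Lam.Nhat z m i).eval s)) / (s - z i) ^ (m i - 1 + 1) := by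
    apply circleIntegral.integral_congr (by norm_num)
    intro s hs
    have hs' : s ≠ z i := by
      intro h0
      rw [h0, mem_sphere, dist_self] at hs
      norm_num at hs
    have h1 := hN s (sphere_subset_closedBall hs)
    have h2 : s - z i ≠ 0 := sub_ne_zero.mpr hs'
    have e1 : m i - 1 + 1 = m i := by omega
    simp only
    rw [e1, dens, Lam.NS_eq z m i, eval_mul, eval_pow, eval_sub, eval_X, eval_C]
    field_simp
  have hcen : z i ∈ closedBall (z i) (1 / 4) := mem_closedBall_self (by norm_num)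
  rw [e, circle_eq (by norm_num) hF, ← mul_assoc, inv_mul_cancel₀ Complex.two_pi_I_ne_zero, one_mul,
    T_mul (hh.analyticAt hn) ((analyticAt_eval p _).fun_div (analyticAt_eval _ _) (hN _ hcen)),
    T_div (analyticAt_eval p _) (analyticAt_eval _ _) (hN _ hcen), T_eval, T_eval]
  rfl

omit [DecidableEq ι] in
/-- no node in the disc: the circle integral vanishes -/
theorem circle_zero {c : ℂ} (hsep : ∀ j, 1 / 4 < ‖c - z j‖)
    {h : ℂ → ℂ} (hh : DifferentiableOn ℂ h (closedBall c (1 / 4))) (p : ℂ[X]) :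
    (∮ s in C(c, 1 / 4), h s * dens z m p s) = 0 := by
  have hne : ∀ s ∈ closedBall c (1 / 4), ∀ j, s ≠ z j := by
    intro s hs j h0
    have h1 := hsep j
    rw [mem_closedBall, dist_eq_norm] at hs
    rw [h0, norm_sub_rev] at hs
    linarith
  have hd : DifferentiableOn ℂ (fun s => h s * dens z m p s) (closedBall c (1 / 4)) := by
    apply hh.mul
    exact DifferentiableOn.div p.differentiable.differentiableOn
      (Lam.NS z m).differentiable.differentiableOn (fun s hs => NS_eval_ne (hne s hs))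
  exact Complex.circleIntegral_eq_zero_of_differentiable_on_off_countable
    (f := fun s => h s * dens z m p s) (c := c) (R := 1 / 4) (by norm_num) Set.countable_empty
    hd.continuousOn (fun z hz => hd.differentiableAt (closedBall_mem_nhds_of_mem hz.1))

lemma zpow_eq_inv (s : ℂ) (j : ℕ) : s ^ (-1 - (j : ℤ)) = (s ^ (j + 1))⁻¹ := by
  have : (-1 - (j : ℤ)) = -((j + 1 : ℕ) : ℤ) := by push_cast; ring
  rw [this, zpow_neg, zpow_natCast]

omit [Fintype ι] [DecidableEq ι] in
lemma Lg_finset_sum {α : Type*} (l : ℕ) (s : Finset α) {f : α → ℂ → ℂ}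
    (h : ∀ a ∈ s, ContinuousOn (f a) (sphere (ce l) (1 / 4))) :
    Lg l (fun x => ∑ a ∈ s, f a x) = ∑ a ∈ s, Lg l (f a) := by
  induction s using Finset.cons_induction with
  | empty =>
    simp only [Finset.sum_empty]
    unfold Lg
    simp [circleIntegral]
  | cons a s ha ih =>
    have h1 : ContinuousOn (f a) (sphere (ce l) (1 / 4)) := h a (Finset.mem_cons_self a s)
    have h2 : ∀ b ∈ s, ContinuousOn (f b) (sphere (ce l) (1 / 4)) :=
      fun b hb => h b (Finset.mem_cons_of_mem hb)
    have h3 : ContinuousOn (fun x => ∑ b ∈ s, f b x) (sphere (ce l) (1 / 4)) :=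
      continuousOn_finsetSum s h2
    simp only [Finset.sum_cons]
    rw [Lg_add l h1 h3, ih h2]

/-- the circle of a node -/
noncomputable def circ (z : ι → ℂ) (m : ι → ℕ) (h : ℂ → ℂ) (p : ℂ[X]) (i : ι) : ℂ :=
  (2 * Real.pi * I)⁻¹ * ∮ s in C(z i, 1 / 4), h s * dens z m p s

omit [Fintype ι] [DecidableEq ι] in
lemma sphere_ne {i : ι} {s c : ℂ} (hs : s ∈ sphere c (1 / 4 : ℝ)) (h : z i = c ∨ 1 / 4 < ‖z i - c‖) :
    s ≠ z i := by
  rintro rfl
  rw [mem_sphere, dist_eq_norm] at hs
  rcases h with h | h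
  · rw [h, sub_self, norm_zero] at hs
    norm_num at hs
  · linarith

omit [Fintype ι] [DecidableEq ι] in
lemma zpow_contOn {i : ι} {c : ℂ} (h : z i = c ∨ 1 / 4 < ‖z i - c‖) (j : ℕ) :
    ContinuousOn (fun s : ℂ => (s - z i) ^ (-1 - (j : ℤ))) (sphere c (1 / 4)) := by
  intro s hs
  have h1 : s - z i ≠ 0 := sub_ne_zero.mpr (sphere_ne hs h)
  exact ((continuousAt_id.sub continuousAt_const).zpow₀ _ (Or.inl h1)).continuousWithinAt

/-- **THE RESIDUE FUNCTIONAL ON A `Q`-COLUMN** (all nodes, germs of `g1` / `g1L`). -/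
theorem lamG (hz : Function.Injective z) (hsep : ∀ i j, j ≠ i → 1 / 4 < ‖z i - z j‖)
    (W St : Finset ι) (lW : ι → ℕ) (hW : ∀ i ∈ W, z i = ce (lW i)) (hWm : ∀ i ∈ W, m i = 1)
    (hoff : ∀ i, i ∉ W → ∀ l, 1 / 4 < ‖z i - ce l‖) (hdis : ∀ i ∈ St, i ∉ W)
    (hSt : ∀ i ∈ St, m i ≠ 0 ∧ DifferentiableOn ℂ g1 (closedBall (z i) (1 / 4)) ∧
      DifferentiableOn ℂ g1L (closedBall (z i) (1 / 4)))
    (F : ι → PowerSeries ℂ)
    (hF0 : ∀ i, i ∉ W → i ∉ St → ∀ j < m i,
      PowerSeries.coeff j (F i) = PowerSeries.coeff j (T g1 (z i)))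
    (hF1 : ∀ i ∈ St, ∀ j < m i, PowerSeries.coeff j (F i) = PowerSeries.coeff j (T g1L (z i)))
    (hF2 : ∀ i ∈ W, PowerSeries.coeff 0 (F i) = g1L (z i))
    {p : ℂ[X]} (hp : p.degree < (∑ l, m l : ℕ)) :
    HasSum (fun l => if l ∈ W.image lW then
        (2 * Real.pi * I)⁻¹ * ∮ s in C(ce l, 1 / 4), Jw s * dens z m p s
        else Lg l (dens z m p))
      (-Lam.lam z m p F - ∑ i ∈ St, circ z m Jw p i) := by
  classical
  -- every node is at a site or far from it
  have hfar : ∀ i l, z i = ce l ∨ 1 / 4 < ‖z i - ce l‖ := by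
    intro i l
    by_cases hi : i ∈ W
    · by_cases h : lW i = l
      · left; rw [hW i hi, h]
      · right
        rw [hW i hi]
        have := ce_dist (lW i) l h
        linarith
    · exact Or.inr (hoff i hi l)
  set a : Lam.Row m → ℂ := fun r =>
    if r.1 ∈ W then g1L (z r.1) else -PowerSeries.coeff (r.2 : ℕ) (T g1 (z r.1)) with ha
  have hrow : ∀ r : Lam.Row m,
      HasSum (fun l => Lg l (fun s => (s - z r.1) ^ (-1 - ((r.2 : ℕ) : ℤ)))) (a r) := by
    intro r
    by_cases hr : r.1 ∈ W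
    · have e0 : (r.2 : ℕ) = 0 := by
        have := r.2.2
        have := hWm _ hr
        omega
      have e1 : a r = g1L (ce (lW r.1)) := by
        simp only [ha, if_pos hr]; rw [hW _ hr]
      rw [e1, e0, hW _ hr]
      have e2 : (fun s : ℂ => (s - ce (lW r.1)) ^ (-1 - ((0 : ℕ) : ℤ))) =
          fun s => (s - ce (lW r.1))⁻¹ := by
        funext s
        rw [zpow_eq_inv, zero_add, pow_one]
      rw [e2]
      exact hasSum_site _
    · have e1 : a r = -PowerSeries.coeff (r.2 : ℕ) (T g1 (z r.1)) := by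
        simp only [ha, if_neg hr]
      rw [e1]
      have e2 : (fun s : ℂ => (s - z r.1) ^ (-1 - ((r.2 : ℕ) : ℤ))) =
          fun s => ((s - z r.1) ^ ((r.2 : ℕ) + 1))⁻¹ := by
        funext s
        rw [zpow_eq_inv]
      rw [e2]
      exact hasSum_circle_g_pow _ (hoff _ hr)
  -- sum over the rows
  have hsum : HasSum (fun l => Lg l (dens z m p)) (∑ r, Lam.u z m p r * a r) := by
    have h1 : HasSum (fun l => ∑ r : Lam.Row m, Lam.u z m p r *
        Lg l (fun s => (s - z r.1) ^ (-1 - ((r.2 : ℕ) : ℤ)))) (∑ r, Lam.u z m p r * a r) :=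
      hasSum_sum fun r _ => (hrow r).mul_left _
    convert h1 using 2 with l
    have h2 : Lg l (dens z m p) = Lg l (fun s => ∑ r : Lam.Row m,
        (fun (r : Lam.Row m) (s : ℂ) => Lam.u z m p r * (s - z r.1) ^ (-1 - ((r.2 : ℕ) : ℤ))) r s) := by
      apply Lg_congr
      intro s hs
      have hne : ∀ i, s ≠ z i := fun i => sphere_ne hs (hfar i l)
      rw [dens, ← Base724.partial_fractions z m hz hp hne, Fintype.sum_sigma]
    rw [h2, Lg_finset_sum]
    · refine Finset.sum_congr rfl fun r _ => ?_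
      rw [Lg_const_mul]
    · intro r _
      exact continuousOn_const.mul (zpow_contOn (hfar _ _) _)
  -- values of the functional
  have hcoef : ∀ r : Lam.Row m, PowerSeries.coeff (r.2 : ℕ) (F r.1) = -a r -
      (if r.1 ∈ St then PowerSeries.coeff (r.2 : ℕ) (T Jw (z r.1)) else 0) +
      (if r.1 ∈ W then PowerSeries.coeff (r.2 : ℕ) (T (fun s => 2 * g1L s) (z r.1)) else 0) := by
    intro r
    by_cases hr : r.1 ∈ W
    · have hs : r.1 ∉ St := fun h => hdis _ h hr
      have e0 : (r.2 : ℕ) = 0 := by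
        have := r.2.2
        have := hWm _ hr
        omega
      rw [if_neg hs, if_pos hr, e0, hF2 _ hr]
      have : PowerSeries.coeff 0 (T (fun s => 2 * g1L s) (z r.1)) = 2 * g1L (z r.1) := by
        rw [PowerSeries.coeff_zero_eq_constantCoeff_apply, constantCoeff_T]
      rw [this]
      simp only [ha, if_pos hr]
      ring
    · by_cases hs : r.1 ∈ St
      · rw [if_pos hs, if_neg hr, hF1 _ hs _ r.2.2]
        simp only [ha, if_neg hr]
        have hn : closedBall (z r.1) (1 / 4) ∈ 𝓝 (z r.1) := closedBall_mem_nhds _ (by norm_num)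
        have : T Jw (z r.1) = T g1 (z r.1) - T g1L (z r.1) := by
          unfold Jw
          exact T_sub ((hSt _ hs).2.1.analyticAt hn) ((hSt _ hs).2.2.analyticAt hn)
        rw [this, map_sub]
        ring
      · rw [if_neg hs, if_neg hr, hF0 _ hr hs _ r.2.2]
        simp only [ha, if_neg hr]
        ring
  have hWdiff : ∀ i ∈ W, DifferentiableOn ℂ (fun s => 2 * g1L s) (closedBall (z i) (1 / 4)) := by
    intro i hi s hs
    have hre : s.re < 0 := by
      rw [mem_closedBall, dist_eq_norm, hW i hi] at hs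
      have := re_le_of_mem (l := lW i) (s := s) hs
      linarith
    exact ((differentiableAt_g1L hre).const_mul 2).differentiableWithinAt
  have hlam : Lam.lam z m p F = -(∑ r, Lam.u z m p r * a r) - ∑ i ∈ St, circ z m Jw p i +
      ∑ i ∈ W, circ z m (fun s => 2 * g1L s) p i := by
    have e1 : Lam.lam z m p F = ∑ r : Lam.Row m, Lam.u z m p r * PowerSeries.coeff (r.2 : ℕ) (F r.1) := by
      rw [Lam.lam]
      rfl
    have e2 : ∀ (A : Finset ι) (h : ℂ → ℂ), (∀ i ∈ A, m i ≠ 0) →
        (∀ i ∈ A, DifferentiableOn ℂ h (closedBall (z i) (1 / 4))) →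
        ∑ r : Lam.Row m, Lam.u z m p r *
          (if r.1 ∈ A then PowerSeries.coeff (r.2 : ℕ) (T h (z r.1)) else 0) =
        ∑ i ∈ A, circ z m h p i := by
      intro A h hA hd
      rw [Fintype.sum_sigma, ← Finset.sum_subset (Finset.subset_univ A)]
      · refine Finset.sum_congr rfl fun i hi => ?_
        rw [circ, residue_circle (hA i hi) (hsep i) (hd i hi), ← Lam.sum_u_mul m i (hA i hi)]
        refine Finset.sum_congr rfl fun j _ => ?_
        rw [if_pos hi]
      · intro i _ hi
        apply Finset.sum_eq_zero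
        intro j _
        rw [if_neg hi, mul_zero]
    have hStd : ∀ i ∈ St, DifferentiableOn ℂ Jw (closedBall (z i) (1 / 4)) := by
      intro i hi
      unfold Jw
      exact (hSt i hi).2.1.sub (hSt i hi).2.2
    rw [e1, ← e2 St Jw (fun i hi => (hSt i hi).1) hStd,
      ← e2 W (fun s => 2 * g1L s) (fun i hi => by rw [hWm i hi]; norm_num) hWdiff,
      ← Finset.sum_neg_distrib, ← Finset.sum_sub_distrib, ← Finset.sum_add_distrib]
    refine Finset.sum_congr rfl fun r _ => ?_
    rw [hcoef r]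
    ring
  have hlWinj : Set.InjOn lW W := by
    intro i hi j hj hij
    apply hz
    rw [hW i hi, hW j hj, hij]
  have hWs : HasSum (fun l => ∑ i ∈ W, if l = lW i then circ z m (fun s => 2 * g1L s) p i else 0)
      (∑ i ∈ W, circ z m (fun s => 2 * g1L s) p i) :=
    hasSum_sum fun i _ => hasSum_ite_eq _ _
  have hfin := hsum.sub hWs
  have e3 : (∑ r, Lam.u z m p r * a r) - ∑ i ∈ W, circ z m (fun s => 2 * g1L s) p i =
      -Lam.lam z m p F - ∑ i ∈ St, circ z m Jw p i := by
    rw [hlam]; ring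
  rw [e3] at hfin
  have hcg : ∀ {f g : ℕ → ℂ} {x : ℂ}, (∀ l, f l = g l) → HasSum g x → HasSum f x := by
    intro f g x h hg
    rwa [show f = g from funext h]
  refine hcg (fun l => ?_) hfin
  by_cases hl : l ∈ W.image lW
  · rw [if_pos hl]
    obtain ⟨i, hi, rfl⟩ := Finset.mem_image.mp hl
    have e4 : ∑ k ∈ W, (if lW i = lW k then circ z m (fun s => 2 * g1L s) p k else 0) =
        circ z m (fun s => 2 * g1L s) p i := by
      rw [Finset.sum_eq_single i]
      · rw [if_pos rfl]
      · intro k hk hki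
        rw [if_neg]
        intro h
        exact hki (hlWinj hk hi h.symm)
      · intro h; exact absurd hi h
    rw [e4, circ, hW i hi, Lg, ← mul_sub]
    congr 1
    have hcont : ContinuousOn (dens z m p) (sphere (ce (lW i)) (1 / 4)) := by
      intro s hs
      exact (p.continuousAt.div (Lam.NS z m).continuousAt
        (NS_eval_ne fun k => sphere_ne hs (hfar k _))).continuousWithinAt
    have hg1L : ContinuousOn (fun s => 2 * g1L s) (sphere (ce (lW i)) (1 / 4)) := by
      have := (hWdiff i hi).continuousOn.mono sphere_subset_closedBall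
      rwa [hW i hi] at this
    have hci : CircleIntegrable (fun s => 2 * g1L s * dens z m p s) (ce (lW i)) (1 / 4) := by
      have h5 : ContinuousOn (fun s => 2 * g1L s * dens z m p s) (sphere (ce (lW i)) (1 / 4)) :=
        hg1L.mul hcont
      exact h5.circleIntegrable (by norm_num)
    rw [← circleIntegral.integral_sub (circInt_g _ hcont) hci]
    apply circleIntegral.integral_congr (by norm_num)
    intro s hs
    have hs' : ‖s - ce (lW i)‖ = 1 / 4 := by rwa [mem_sphere, dist_eq_norm] at hs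
    have hre : s.re < 0 := by
      have := re_le_of_mem (l := lW i) (s := s) hs'.le
      linarith
    have hoffs : ∀ l : ℕ, s ≠ ce l := by
      intro l h
      have := dist_ce_of_mem hs' l
      rw [h, sub_self, norm_zero] at this
      norm_num at this
    simp only
    rw [J1_eq hre (cos_ne_zero_of_left hre hoffs), Jw]
    ring
  · rw [if_neg hl]
    have e4 : ∑ k ∈ W, (if l = lW k then circ z m (fun s => 2 * g1L s) p k else 0) = 0 := by
      apply Finset.sum_eq_zero
      intro k hk
      rw [if_neg]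
      rintro rfl
      exact hl (Finset.mem_image_of_mem _ hk)
    rw [e4, sub_zero]

end

end Crest.Agent.R006.G1x186
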