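import Mathlib

/-!
Row 6, block P3 (helper257, note 2596 (1),(3),(5)): change of basis to Lagrange-Hermite bases at
arbitrary reference multisets, and the Leibniz bound.

* `lag w m x`, `x = ⟨k,i⟩` : `∏_{l ≠ k} (X - w l)^(m l) * (X - w k)^i`, `i < m k`.
* `V w m = ∏_k ∏_{l > k} (w k - w l)^(m k * m l)`  (confluent Vandermonde, up to sign).
* `det_jets` : the determinant of the jets of the monomials (confluent Vandermonde evaluation).
* `det_coef_lag` : the coefficient matrix of the `lag` basis has determinant `V w m`.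
* `base_change` : rows `X^i -> lag W`, columns of species `t` `X^j -> lag (Z t)`.
* `leibniz_bound` : `‖det D'‖ * ‖V W‖ * ∏ ‖V (Z t)‖ ≤ card! * ∏ r * ∏ c`.
-/

set_option autoImplicit false

namespace Crest.Agent.R006.Leib257

open Polynomial Matrix Finset

section field

variable {K : Type*} [Field K]

/-- Lagrange–Hermite basis polynomial at the slot `x = ⟨k,i⟩`. -/
noncomputable def lag {s : ℕ} (w : Fin s → K) (m : Fin s → ℕ) (x : Σ k : Fin s, Fin (m k)) : K[X] :=
  (∏ l ∈ univ.erase x.1, (X - C (w l)) ^ (m l)) * (X - C (w x.1)) ^ (x.2 : ℕ)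

/-- Newton basis polynomial at the slot `x = ⟨k,i⟩`. -/
noncomputable def newt {s : ℕ} (w : Fin s → K) (m : Fin s → ℕ) (x : Σ k : Fin s, Fin (m k)) : K[X] :=
  (∏ l ∈ Iio x.1, (X - C (w l)) ^ (m l)) * (X - C (w x.1)) ^ (x.2 : ℕ)

/-- `i`-th Taylor coefficient at `w k`, `x = ⟨k,i⟩`. -/
noncomputable def jet {s : ℕ} (w : Fin s → K) (m : Fin s → ℕ) (x : Σ k : Fin s, Fin (m k))
    (f : K[X]) : K := (taylor (w x.1) f).coeff x.2

/-- confluent Vandermonde (the sign normalised as it comes out of `det_coef_lag`). -/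
noncomputable def V {s : ℕ} (w : Fin s → K) (m : Fin s → ℕ) : K :=
  ∏ k, ∏ l ∈ Ioi k, (w k - w l) ^ (m k * m l)

variable {s : ℕ} (w : Fin s → K) (m : Fin s → ℕ)

lemma coeff_taylor_mul_pow (r : K) (A : K[X]) (j i : ℕ) :
    (taylor r (A * (X - C r) ^ j)).coeff i = if j ≤ i then (taylor r A).coeff (i - j) else 0 := by
  have h : taylor r (A * (X - C r) ^ j) = taylor r A * X ^ j := by
    simp [taylor_apply]
  rw [h, coeff_mul_X_pow']

lemma fsf_val (x : Σ k : Fin s, Fin (m k)) :
    (finSigmaFinEquiv x : ℕ) = ∑ l ∈ Iio x.1, m l + x.2 := by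
  rw [finSigmaFinEquiv_apply]
  congr 1
  refine Finset.sum_bij (fun i _ => Fin.castLE x.1.2.le i) ?_ ?_ ?_ ?_
  · intro i _
    simp only [mem_Iio, Fin.lt_def, Fin.val_castLE]
    exact i.2
  · intro i _ j _ h
    simpa [Fin.ext_iff] using h
  · intro l hl
    rw [mem_Iio, Fin.lt_def] at hl
    exact ⟨⟨l, hl⟩, mem_univ _, by ext; simp⟩
  · intro i _; rfl

lemma lt_iff_lex (x y : Σ k : Fin s, Fin (m k)) (h : finSigmaFinEquiv x < finSigmaFinEquiv y) :
    x.1 < y.1 ∨ (x.1 = y.1 ∧ (x.2 : ℕ) < y.2) := by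
  by_contra hc
  push Not at hc
  obtain ⟨h1, h2⟩ := hc
  rw [Fin.lt_def, fsf_val, fsf_val] at h
  rcases eq_or_lt_of_le h1 with h3 | h3
  · have h4 := h2 h3.symm
    have h5 : ∑ l ∈ Iio x.1, m l = ∑ l ∈ Iio y.1, m l := by rw [h3]
    omega
  · have h4 : ∑ l ∈ Iio x.1, m l ≥ ∑ l ∈ Iio y.1, m l + m y.1 := by
      have : insert y.1 (Iio y.1) ⊆ Iio x.1 := by
        intro a ha
        rw [mem_insert, mem_Iio] at ha
        rw [mem_Iio]
        rcases ha with ha | ha
        · rw [ha]; exact h3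
        · exact lt_trans ha h3
      calc ∑ l ∈ Iio y.1, m l + m y.1 = ∑ l ∈ insert y.1 (Iio y.1), m l := by
            rw [sum_insert (by simp), add_comm]
        _ ≤ _ := sum_le_sum_of_subset this
    have h5 := y.2.2
    omega

lemma newt_monic (x : Σ k : Fin s, Fin (m k)) : (newt w m x).Monic := by
  unfold newt
  exact (monic_prod_of_monic _ _ fun l _ => (monic_X_sub_C _).pow _).mul ((monic_X_sub_C _).pow _)

lemma newt_natDegree (x : Σ k : Fin s, Fin (m k)) :
    (newt w m x).natDegree = (finSigmaFinEquiv x : ℕ) := by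
  unfold newt
  rw [Monic.natDegree_mul (monic_prod_of_monic _ _ fun l _ => (monic_X_sub_C _).pow _)
    ((monic_X_sub_C _).pow _), fsf_val,
    natDegree_prod_of_monic _ _ fun l _ => (monic_X_sub_C _).pow _]
  congr 1
  · refine sum_congr rfl fun l _ => ?_
    rw [(monic_X_sub_C _).natDegree_pow, natDegree_X_sub_C, mul_one]
  · rw [(monic_X_sub_C _).natDegree_pow, natDegree_X_sub_C, mul_one]

lemma lag_natDegree_lt (x : Σ k : Fin s, Fin (m k)) :
    (lag w m x).natDegree < ∑ k, m k := by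
  unfold lag
  rw [Monic.natDegree_mul (monic_prod_of_monic _ _ fun l _ => (monic_X_sub_C _).pow _)
    ((monic_X_sub_C _).pow _),
    natDegree_prod_of_monic _ _ fun l _ => (monic_X_sub_C _).pow _]
  have h1 : ∑ l ∈ univ.erase x.1, ((X - C (w l)) ^ m l).natDegree = ∑ l ∈ univ.erase x.1, m l := by
    refine sum_congr rfl fun l _ => ?_
    rw [(monic_X_sub_C _).natDegree_pow, natDegree_X_sub_C, mul_one]
  rw [h1, (monic_X_sub_C _).natDegree_pow, natDegree_X_sub_C, mul_one,
    ← sum_erase_add univ m (mem_univ x.1)]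
  have := x.2.2
  omega

lemma newt_natDegree_lt (x : Σ k : Fin s, Fin (m k)) :
    (newt w m x).natDegree < ∑ k, m k := by
  rw [newt_natDegree]; exact (finSigmaFinEquiv x).2

/-- linear expansion of a linear functional on polynomials of degree `< n`. -/
lemma lin_expand {n : ℕ} {M : Type*} [AddCommGroup M] [Module K M] (φ : K[X] →ₗ[K] M) (f : K[X])
    (hf : f.natDegree < n) : φ f = ∑ j : Fin n, f.coeff j • φ (X ^ (j : ℕ)) := by
  conv_lhs => rw [as_sum_range' f n hf]
  rw [map_sum, Finset.sum_range fun i => φ (monomial i (f.coeff i))]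
  refine sum_congr rfl fun j _ => ?_
  rw [← map_smul, smul_eq_C_mul, C_mul_X_pow_eq_monomial]

/-- the jet functional as a linear map -/
noncomputable def jetL (x : Σ k : Fin s, Fin (m k)) : K[X] →ₗ[K] K :=
  (lcoeff K (x.2 : ℕ)).comp (taylor (w x.1))

lemma jetL_apply (x : Σ k : Fin s, Fin (m k)) (f : K[X]) : jetL w m x f = jet w m x f := rfl

/-- the matrix of jets of the monomials -/
noncomputable def jets : Matrix (Fin (∑ k, m k)) (Fin (∑ k, m k)) K :=
  Matrix.of fun a j => jet w m (finSigmaFinEquiv.symm a) (X ^ (j : ℕ))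

/-- coefficient matrix of a family of polynomials -/
noncomputable def coefM {n : ℕ} (p : Fin n → K[X]) : Matrix (Fin n) (Fin n) K :=
  Matrix.of fun i j => (p j).coeff i

lemma jets_mul_coefM (p : Fin (∑ k, m k) → K[X]) (hp : ∀ b, (p b).natDegree < ∑ k, m k) :
    jets w m * coefM p = Matrix.of fun a b => jet w m (finSigmaFinEquiv.symm a) (p b) := by
  ext a b
  rw [Matrix.mul_apply]
  simp only [jets, coefM, Matrix.of_apply]
  rw [← jetL_apply, lin_expand (jetL w m _) (p b) (hp b)]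
  refine sum_congr rfl fun j _ => ?_
  rw [jetL_apply, smul_eq_mul, mul_comm]

lemma det_coefM_newt :
    (coefM fun b => newt w m (finSigmaFinEquiv.symm b)).det = 1 := by
  apply Matrix.det_matrixOfPolynomials
  · intro i; rw [newt_natDegree, Equiv.apply_symm_apply]
  · intro i; exact newt_monic w m _

lemma jet_newt_zero (x y : Σ k : Fin s, Fin (m k))
    (h : x.1 < y.1 ∨ (x.1 = y.1 ∧ (x.2 : ℕ) < y.2)) : jet w m x (newt w m y) = 0 := by
  obtain ⟨k, i⟩ := x
  obtain ⟨l, j⟩ := y
  simp only at h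
  unfold jet newt
  simp only
  rcases h with h | ⟨h1, h2⟩
  · have hd : (∏ l ∈ Iio l, (X - C (w l)) ^ (m l)) =
        (∏ l ∈ (Iio l).erase k, (X - C (w l)) ^ (m l)) * (X - C (w k)) ^ (m k) :=
      (prod_erase_mul _ _ (mem_Iio.2 h)).symm
    rw [hd, mul_right_comm, coeff_taylor_mul_pow, if_neg (not_le.2 i.2)]
  · subst h1
    rw [coeff_taylor_mul_pow, if_neg (not_le.2 h2)]

lemma jet_newt_self (x : Σ k : Fin s, Fin (m k)) :
    jet w m x (newt w m x) = ∏ l ∈ Iio x.1, (w x.1 - w l) ^ (m l) := by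
  unfold jet newt
  rw [coeff_taylor_mul_pow, if_pos le_rfl, Nat.sub_self, taylor_coeff_zero, eval_prod]
  simp

lemma jet_lag_ne (x y : Σ k : Fin s, Fin (m k)) (h : x.1 ≠ y.1) :
    jet w m x (lag w m y) = 0 := by
  unfold jet lag
  have hd : (∏ l ∈ univ.erase y.1, (X - C (w l)) ^ (m l)) =
      (∏ l ∈ (univ.erase y.1).erase x.1, (X - C (w l)) ^ (m l)) * (X - C (w x.1)) ^ (m x.1) :=
    (prod_erase_mul _ _ (mem_erase.2 ⟨h, mem_univ _⟩)).symm
  rw [hd, mul_right_comm, coeff_taylor_mul_pow, if_neg (not_le.2 x.2.2)]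

lemma jet_lag_lt (x y : Σ k : Fin s, Fin (m k)) (h1 : x.1 = y.1) (h2 : (x.2 : ℕ) < y.2) :
    jet w m x (lag w m y) = 0 := by
  obtain ⟨k, i⟩ := x
  obtain ⟨l, j⟩ := y
  simp only at h1 h2
  subst h1
  unfold jet lag
  simp only
  rw [coeff_taylor_mul_pow, if_neg (not_le.2 h2)]

lemma jet_lag_self (x : Σ k : Fin s, Fin (m k)) :
    jet w m x (lag w m x) = ∏ l ∈ univ.erase x.1, (w x.1 - w l) ^ (m l) := by
  unfold jet lag
  rw [coeff_taylor_mul_pow, if_pos le_rfl, Nat.sub_self, taylor_coeff_zero, eval_prod]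
  simp

lemma prod_slots (f : Fin s → K) :
    ∏ a : Fin (∑ k, m k), f (finSigmaFinEquiv.symm a).1 = ∏ k, f k ^ (m k) := by
  rw [Equiv.prod_comp (finSigmaFinEquiv (n := m)).symm (fun x => f x.1), Fintype.prod_sigma]
  simp

/-- confluent Vandermonde evaluation. -/
theorem det_jets : (jets w m).det = ∏ k, ∏ l ∈ Iio k, (w k - w l) ^ (m k * m l) := by
  have h1 : (jets w m).det = (jets w m * coefM fun b => newt w m (finSigmaFinEquiv.symm b)).det := by
    rw [det_mul, det_coefM_newt, mul_one]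
  rw [h1, jets_mul_coefM w m _ fun b => newt_natDegree_lt w m _]
  rw [Matrix.det_of_isLowerTriangular]
  · simp only [Matrix.of_apply, jet_newt_self]
    rw [prod_slots m fun k => ∏ l ∈ Iio k, (w k - w l) ^ (m l)]
    refine prod_congr rfl fun k _ => ?_
    rw [← prod_pow]
    refine prod_congr rfl fun l _ => ?_
    rw [← pow_mul, mul_comm]
  · intro a b hab
    rw [Matrix.of_apply]
    refine jet_newt_zero w m _ _ (lt_iff_lex m _ _ ?_)
    rw [Equiv.apply_symm_apply, Equiv.apply_symm_apply]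
    exact hab

theorem det_jets_ne_zero (hw : Function.Injective w) : (jets w m).det ≠ 0 := by
  rw [det_jets]
  refine prod_ne_zero_iff.2 fun k _ => prod_ne_zero_iff.2 fun l hl => pow_ne_zero _ ?_
  rw [sub_ne_zero]
  intro h
  exact (ne_of_gt (mem_Iio.1 hl)) (hw h)

theorem V_ne_zero (hw : Function.Injective w) : V w m ≠ 0 := by
  unfold V
  refine prod_ne_zero_iff.2 fun k _ => prod_ne_zero_iff.2 fun l hl => pow_ne_zero _ ?_
  rw [sub_ne_zero]
  intro h
  exact (ne_of_lt (mem_Ioi.1 hl)) (hw h)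

/-- The coefficient matrix of the Lagrange–Hermite basis has determinant `V w m`. -/
theorem det_coef_lag (hw : Function.Injective w) :
    (coefM fun b => lag w m (finSigmaFinEquiv.symm b)).det = V w m := by
  have h1 := congrArg Matrix.det
    (jets_mul_coefM w m (fun b => lag w m (finSigmaFinEquiv.symm b)) fun b => lag_natDegree_lt w m _)
  have htri : (Matrix.of fun a b => jet w m (finSigmaFinEquiv.symm a)
      (lag w m (finSigmaFinEquiv.symm b))).det =
      ∏ a, jet w m (finSigmaFinEquiv.symm a) (lag w m (finSigmaFinEquiv.symm a)) := by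
    rw [Matrix.det_of_isLowerTriangular]
    · simp only [Matrix.of_apply]
    · intro a b hab
      rw [Matrix.of_apply]
      have h := lt_iff_lex m (finSigmaFinEquiv.symm a) (finSigmaFinEquiv.symm b) (by
        rw [Equiv.apply_symm_apply, Equiv.apply_symm_apply]; exact hab)
      rcases h with h | ⟨h1, h2⟩
      · exact jet_lag_ne w m _ _ (ne_of_lt h)
      · exact jet_lag_lt w m _ _ h1 h2
  rw [det_mul, htri] at h1
  · simp only [jet_lag_self] at h1
    rw [prod_slots m fun k => ∏ l ∈ univ.erase k, (w k - w l) ^ (m l)] at h1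
    have h2 : ∏ k, (∏ l ∈ univ.erase k, (w k - w l) ^ (m l)) ^ (m k) =
        (∏ k, ∏ l ∈ Iio k, (w k - w l) ^ (m k * m l)) * V w m := by
      unfold V
      rw [← prod_mul_distrib]
      refine prod_congr rfl fun k _ => ?_
      have h3 : univ.erase k = (Iio k).disjUnion (Ioi k) (by
          rw [Finset.disjoint_left]
          intro a ha hb
          rw [mem_Iio] at ha
          rw [mem_Ioi] at hb
          exact lt_asymm ha hb) := by
        ext a
        simp only [mem_erase, mem_univ, and_true, mem_disjUnion, mem_Iio, mem_Ioi]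
        exact lt_or_lt_iff_ne.symm
      rw [h3, prod_disjUnion, mul_pow, ← prod_pow, ← prod_pow]
      congr 1 <;>
      · refine prod_congr rfl fun l _ => ?_
        rw [← pow_mul, mul_comm]
    rw [h2, det_jets] at h1
    have h0 := det_jets_ne_zero w m hw
    rw [det_jets] at h0
    exact mul_left_cancel₀ h0 h1

lemma det_bd {τ : Type} [Fintype τ] [DecidableEq τ] {m' : τ → Type} [∀ t, Fintype (m' t)]
    [∀ t, DecidableEq (m' t)] (d : ∀ t, Matrix (m' t) (m' t) K) :
    (blockDiagonal' d).det = ∏ t, (d t).det := by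
  let _ : LinearOrder τ := LinearOrder.lift' (Fintype.equivFin τ) (Equiv.injective _)
  rw [(blockTriangular_blockDiagonal' d).det_fintype]
  refine prod_congr rfl fun t _ => ?_
  let e : m' t ≃ {x : Σ t, m' t // x.1 = t} :=
    { toFun := fun i => ⟨⟨t, i⟩, rfl⟩
      invFun := fun x => x.2 ▸ x.1.2
      left_inv := fun i => rfl
      right_inv := by rintro ⟨⟨t', i⟩, rfl⟩; rfl }
  rw [← det_submatrix_equiv_self e]
  congr 1
  ext i j
  simp [toSquareBlock_def, e, blockDiagonal'_apply_eq]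

/-! ### Base change -/

section base

variable {sW sZ : ℕ} (W : Fin sW → K) (mW : Fin sW → ℕ) (Z : Fin sZ → K) (mZ : Fin sZ → ℕ)
variable {τ : Type} [Fintype τ] [DecidableEq τ] (sY : τ → ℕ) (Y : ∀ t, Fin (sY t) → K)
  (mY : ∀ t, Fin (sY t) → ℕ) {c : ℕ}

/-- column index: `R`-columns, columns of the other species, unit columns. -/
abbrev Col (mZ : Fin sZ → ℕ) (mY : ∀ t, Fin (sY t) → ℕ) (c : ℕ) : Type :=
  Fin (∑ k, mZ k) ⊕ ((Σ t, Fin (∑ k, mY t k)) ⊕ Fin c)

variable (LR : K[X] →ₗ[K] K[X] →ₗ[K] K) (LQ : τ → K[X] →ₗ[K] K[X] →ₗ[K] K)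
  (u : Fin c → K[X] →ₗ[K] K)

/-- the columns in the monomial bases, applied to the test polynomial `P`. -/
noncomputable def colM (P : K[X]) : Col sY mZ mY c → K :=
  Sum.elim (fun j => LR P (X ^ (j : ℕ)))
    (Sum.elim (fun tj => LQ tj.1 P (X ^ (tj.2 : ℕ))) (fun o => u o P))

/-- the columns in the Lagrange–Hermite bases; to the column `(t,j)` one may add the `R`-column of any
polynomial `r (t,j)` of degree `< a`. -/
noncomputable def colL (r : (Σ t, Fin (∑ k, mY t k)) → K[X]) (P : K[X]) : Col sY mZ mY c → K :=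
  Sum.elim (fun j => LR P (lag Z mZ (finSigmaFinEquiv.symm j)))
    (Sum.elim (fun tj => LQ tj.1 P (lag (Y tj.1) (mY tj.1) (finSigmaFinEquiv.symm tj.2)) +
        LR P (r tj)) (fun o => u o P))

theorem base_change (hW : Function.Injective W) (hZ : Function.Injective Z)
    (hY : ∀ t, Function.Injective (Y t)) (ε : Col sY mZ mY c ≃ Fin (∑ k, mW k))
    (r : (Σ t, Fin (∑ k, mY t k)) → K[X]) (hr : ∀ x, (r x).natDegree < ∑ k, mZ k) :
    (Matrix.of fun i j => colL Z mZ sY Y mY LR LQ u r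
        (lag W mW (finSigmaFinEquiv.symm (ε i))) j).det =
      V W mW * (V Z mZ * ∏ t, V (Y t) (mY t)) *
        (Matrix.of fun i j => colM mZ sY mY LR LQ u (X ^ (ε i : ℕ)) j).det := by
  classical
  set A : Matrix (Col sY mZ mY c) (Col sY mZ mY c) K :=
    (coefM fun b => lag W mW (finSigmaFinEquiv.symm b)).submatrix ε ε with hA
  set D : Matrix (Col sY mZ mY c) (Col sY mZ mY c) K :=
    Matrix.of fun i j => colM mZ sY mY LR LQ u (X ^ (ε i : ℕ)) j with hD
  set B : Matrix (Col sY mZ mY c) (Col sY mZ mY c) K :=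
    Matrix.fromBlocks (coefM fun b => lag Z mZ (finSigmaFinEquiv.symm b))
      (Matrix.of fun i j => Sum.elim (fun tj => (r tj).coeff i) (fun _ => 0) j) 0
      (Matrix.fromBlocks (Matrix.blockDiagonal' fun t =>
        coefM fun b => lag (Y t) (mY t) (finSigmaFinEquiv.symm b)) 0 0 1) with hB
  have hdA : A.det = V W mW := by
    rw [hA, det_submatrix_equiv_self, det_coef_lag W mW hW]
  have hdB : B.det = V Z mZ * ∏ t, V (Y t) (mY t) := by
    rw [hB, det_fromBlocks_zero₂₁, det_fromBlocks_zero₂₁, det_coef_lag Z mZ hZ, det_one, mul_one,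
      det_bd]
    congr 1
    exact prod_congr rfl fun t _ => det_coef_lag (Y t) (mY t) (hY t)
  have key : (Matrix.of fun i j => colL Z mZ sY Y mY LR LQ u r
        (lag W mW (finSigmaFinEquiv.symm (ε i))) j) = Aᵀ * (D * B) := by
    -- first the columns, for any fixed test polynomial
    have hcol : ∀ P : K[X], ∀ j, colL Z mZ sY Y mY LR LQ u r P j =
        ∑ k, colM mZ sY mY LR LQ u P k * B k j := by
      intro P j
      rcases j with j | (⟨t, j⟩ | o)
      · simp only [colL, Sum.elim_inl, Fintype.sum_sum_type, hB, fromBlocks_apply₁₁,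
          fromBlocks_apply₂₁, Matrix.zero_apply, mul_zero, sum_const_zero, add_zero, colM,
          coefM, Matrix.of_apply]
        rw [lin_expand (LR P) _ (lag_natDegree_lt Z mZ _)]
        refine sum_congr rfl fun k _ => ?_
        rw [smul_eq_mul, mul_comm]
      · simp only [colL, Sum.elim_inr, Sum.elim_inl, Fintype.sum_sum_type, hB, fromBlocks_apply₁₂,
          fromBlocks_apply₂₂, fromBlocks_apply₁₁, fromBlocks_apply₂₁, Matrix.zero_apply, mul_zero,
          sum_const_zero, add_zero, colM, Matrix.of_apply]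
        rw [add_comm]
        congr 1
        · rw [lin_expand (LR P) _ (hr ⟨t, j⟩)]
          refine sum_congr rfl fun k _ => ?_
          rw [smul_eq_mul, mul_comm]
        · rw [Fintype.sum_sigma, Finset.sum_eq_single t]
          · rw [lin_expand (LQ t P) _ (lag_natDegree_lt (Y t) (mY t) _)]
            refine sum_congr rfl fun k _ => ?_
            rw [blockDiagonal'_apply_eq, smul_eq_mul, mul_comm]
            rfl
          · intro t' _ ht'
            refine sum_eq_zero fun k _ => ?_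
            rw [blockDiagonal'_apply_ne _ _ _ ht', mul_zero]
          · intro h; exact absurd (mem_univ _) h
      · simp only [colL, Sum.elim_inr, Fintype.sum_sum_type, hB, fromBlocks_apply₁₂,
          fromBlocks_apply₂₂, Matrix.zero_apply, mul_zero, sum_const_zero, zero_add, colM,
          Matrix.of_apply]
        rw [Finset.sum_eq_single o]
        · simp
        · intro o' _ ho'; rw [Matrix.one_apply_ne ho', mul_zero]
        · intro h; exact absurd (mem_univ _) h
    ext i j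
    rw [Matrix.mul_apply]
    simp only [Matrix.of_apply, Matrix.transpose_apply, Matrix.mul_apply]
    rw [hcol]
    have hrow : ∀ k, colM mZ sY mY LR LQ u (lag W mW (finSigmaFinEquiv.symm (ε i))) k =
        ∑ l, A l i * D l k := by
      intro k
      have hexp : ∀ φ : K[X] →ₗ[K] K, φ (lag W mW (finSigmaFinEquiv.symm (ε i))) =
          ∑ l, A l i * φ (X ^ (ε l : ℕ)) := by
        intro φ
        rw [lin_expand φ _ (lag_natDegree_lt W mW _), ← Equiv.sum_comp ε]
        refine sum_congr rfl fun l _ => ?_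
        rw [smul_eq_mul]
        rfl
      rcases k with k | (k | k)
      · have h := hexp (LR.flip (X ^ (k : ℕ)))
        simpa [colM, hD] using h
      · have h := hexp ((LQ k.1).flip (X ^ (k.2 : ℕ)))
        simpa [colM, hD] using h
      · have h := hexp (u k)
        simpa [colM, hD] using h
    simp only [hrow, Finset.sum_mul, Finset.mul_sum]
    rw [Finset.sum_comm]
    refine sum_congr rfl fun l _ => sum_congr rfl fun k _ => ?_
    ring
  rw [key, det_mul, det_transpose, det_mul, hdA, hdB]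
  ring

end base

end field

/-! ### Leibniz -/

section norm

variable {K : Type*} [NormedField K]

theorem norm_det_le {ι : Type*} [Fintype ι] [DecidableEq ι] (M : Matrix ι ι K) (ρ γ : ι → ℝ)
    (_hρ : ∀ i, 0 ≤ ρ i) (h : ∀ i j, ‖M i j‖ ≤ ρ i * γ j) :
    ‖M.det‖ ≤ (Fintype.card ι).factorial * ((∏ i, ρ i) * ∏ j, γ j) := by
  rw [Matrix.det_apply]
  refine (norm_sum_le _ _).trans ?_
  have hterm : ∀ σ : Equiv.Perm ι, ‖Equiv.Perm.sign σ • ∏ i, M (σ i) i‖ ≤
      (∏ i, ρ i) * ∏ j, γ j := by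
    intro σ
    have h1 : ‖Equiv.Perm.sign σ • ∏ i, M (σ i) i‖ = ∏ i, ‖M (σ i) i‖ := by
      rw [← norm_prod]
      rcases Int.units_eq_one_or (Equiv.Perm.sign σ) with h | h <;> simp [h]
    rw [h1]
    calc ∏ i, ‖M (σ i) i‖ ≤ ∏ i, ρ (σ i) * γ i :=
          prod_le_prod (fun i _ => norm_nonneg _) fun i _ => h (σ i) i
      _ = (∏ i, ρ i) * ∏ j, γ j := by rw [prod_mul_distrib, Equiv.prod_comp σ ρ]
  refine (sum_le_card_nsmul _ _ _ fun σ _ => hterm σ).trans ?_
  rw [card_univ, Fintype.card_perm, nsmul_eq_mul]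

/-- Leibniz bound for the determinant of the moments, in terms of the entries in the Lagrange–Hermite
bases. -/
theorem leibniz_bound {sW sZ : ℕ} (W : Fin sW → K) (mW : Fin sW → ℕ) (Z : Fin sZ → K)
    (mZ : Fin sZ → ℕ) {τ : Type} [Fintype τ] [DecidableEq τ] (sY : τ → ℕ)
    (Y : ∀ t, Fin (sY t) → K) (mY : ∀ t, Fin (sY t) → ℕ) {c : ℕ}
    (LR : K[X] →ₗ[K] K[X] →ₗ[K] K) (LQ : τ → K[X] →ₗ[K] K[X] →ₗ[K] K)
    (u : Fin c → K[X] →ₗ[K] K)
    (hW : Function.Injective W) (hZ : Function.Injective Z)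
    (hY : ∀ t, Function.Injective (Y t)) (ε : Col sY mZ mY c ≃ Fin (∑ k, mW k))
    (r : (Σ t, Fin (∑ k, mY t k)) → K[X]) (hr : ∀ x, (r x).natDegree < ∑ k, mZ k)
    (ρ : (Σ k : Fin sW, Fin (mW k)) → ℝ) (hρ : ∀ x, 0 ≤ ρ x)
    (γR : (Σ k : Fin sZ, Fin (mZ k)) → ℝ)
    (γQ : ∀ t, (Σ k : Fin (sY t), Fin (mY t k)) → ℝ) (γU : Fin c → ℝ)
    (hR : ∀ x z, ‖LR (lag W mW x) (lag Z mZ z)‖ ≤ ρ x * γR z)
    (hQ : ∀ x t y, ‖LQ t (lag W mW x) (lag (Y t) (mY t) y) +
      LR (lag W mW x) (r ⟨t, finSigmaFinEquiv y⟩)‖ ≤ ρ x * γQ t y)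
    (hU : ∀ x o, ‖u o (lag W mW x)‖ ≤ ρ x * γU o) :
    ‖(Matrix.of fun i j => colM mZ sY mY LR LQ u (X ^ (ε i : ℕ)) j).det‖ *
      (‖V W mW‖ * (‖V Z mZ‖ * ∏ t, ‖V (Y t) (mY t)‖)) ≤
    (∑ k, mW k).factorial * ((∏ x, ρ x) * ((∏ z, γR z) * ((∏ t, ∏ y, γQ t y) * ∏ o, γU o))) := by
  classical
  have h1 := base_change W mW Z mZ sY Y mY LR LQ u hW hZ hY ε r hr
  have h2 : ‖(Matrix.of fun i j => colL Z mZ sY Y mY LR LQ u r
        (lag W mW (finSigmaFinEquiv.symm (ε i))) j).det‖ ≤
      (Fintype.card (Col sY mZ mY c)).factorial *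
        ((∏ i : Col sY mZ mY c, ρ (finSigmaFinEquiv.symm (ε i))) *
          ∏ j, Sum.elim (fun j => γR (finSigmaFinEquiv.symm j))
            (Sum.elim (fun tj : (Σ t, Fin (∑ k, mY t k)) =>
              γQ tj.1 (finSigmaFinEquiv.symm tj.2)) γU) j) := by
    refine norm_det_le _ _ _ (fun i => hρ _) ?_
    intro i j
    rw [Matrix.of_apply]
    rcases j with j | (⟨t, j⟩ | o)
    · exact hR _ _
    · have h := hQ (finSigmaFinEquiv.symm (ε i)) t (finSigmaFinEquiv.symm j)
      rw [Equiv.apply_symm_apply] at h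
      exact h
    · exact hU _ _
  rw [h1, norm_mul, norm_mul, norm_mul, norm_prod] at h2
  have hcard : Fintype.card (Col sY mZ mY c) = ∑ k, mW k := by
    rw [Fintype.card_congr ε, Fintype.card_fin]
  have hrow : ∏ i : Col sY mZ mY c, ρ (finSigmaFinEquiv.symm (ε i)) = ∏ x, ρ x := by
    rw [Equiv.prod_comp ε fun a => ρ (finSigmaFinEquiv.symm a),
      Equiv.prod_comp (finSigmaFinEquiv (n := mW)).symm ρ]
  have hcols : ∏ j, Sum.elim (fun j => γR (finSigmaFinEquiv.symm j))
            (Sum.elim (fun tj : (Σ t, Fin (∑ k, mY t k)) =>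
              γQ tj.1 (finSigmaFinEquiv.symm tj.2)) γU) j =
      (∏ z, γR z) * ((∏ t, ∏ y, γQ t y) * ∏ o, γU o) := by
    rw [Fintype.prod_sum_type, Fintype.prod_sum_type, Fintype.prod_sigma]
    simp only [Sum.elim_inl, Sum.elim_inr]
    rw [Equiv.prod_comp (finSigmaFinEquiv (n := mZ)).symm γR]
    congr 2
    refine prod_congr rfl fun t _ => ?_
    rw [Equiv.prod_comp (finSigmaFinEquiv (n := mY t)).symm (γQ t)]
  rw [hcard, hrow, hcols] at h2
  calc _ = _ := by ring
    _ ≤ _ := h2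

end norm

end Crest.Agent.R006.Leib257
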