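import Crest.Agent.R006.LemLc_170

/-!
Row 6 (S0006), block P4 (helper170): **LEMMA L**.

`A` a commutative ring with a ring homomorphism `π : A → ZMod p` whose kernel is `(p)`
(`A = ℤ_[p]`, or `A = Z_(p)`), `p ≥ 5`, `a : ℕ → A` moments with the key identity and
`a 0 = 0`, `6 a 1 = -1`, `54 a 2 = 7`.  With `I = (p, theta)`, `theta = X(X-1)...(X-p+1)`:

* `Lam_mem_pow` : `f ∈ I^k → p^(k-1) ∣ Lam a f`;
* `lemL` : `p^(k-1) ∣ Lam a (theta^k Q)`;
* `exists_moments` : the moments exist over `ℤ_[p]`;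
* `lemL_padic`, `lemL_rat` : the same for functionals over `ℚ_[p]` and over `ℚ`.
-/

set_option autoImplicit false

open Polynomial Finset

namespace Crest.Agent.R006.LemLx170

open Crest.Agent.R006.FuncLx170

variable {A : Type*} [CommRing A]

/-- the ideal `(p, theta)`. -/
noncomputable def II (A : Type*) [CommRing A] (p : ℕ) : Ideal A[X] :=
  Ideal.span {((p : ℕ) : A[X]), theta A p}

theorem p_mem (p : ℕ) : ((p : ℕ) : A[X]) ∈ II A p :=
  Ideal.subset_span (by simp)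

theorem theta_mem (p : ℕ) : theta A p ∈ II A p :=
  Ideal.subset_span (by simp)

theorem mem_pow_succ (p : ℕ) (k : ℕ) : ∀ f ∈ II A p ^ (k + 1),
    ∃ g ∈ II A p ^ k, ∃ h : A[X], f = (p : A[X]) * g + theta A p ^ (k + 1) * h := by
  induction k with
  | zero =>
    intro f hf
    rw [zero_add, pow_one] at hf
    unfold II at hf
    rw [Ideal.mem_span_pair] at hf
    obtain ⟨α, β, rfl⟩ := hf
    exact ⟨α, by simp, β, by ring⟩
  | succ k ih =>
    intro f hf
    rw [pow_succ'] at hf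
    refine Submodule.mul_induction_on hf ?_ ?_
    · intro x hx y hy
      obtain ⟨g, hg, h, rfl⟩ := ih y hy
      have hx' := hx
      unfold II at hx'
      rw [Ideal.mem_span_pair] at hx'
      obtain ⟨α, β, rfl⟩ := hx'
      refine ⟨α * ((p : A[X]) * g + theta A p ^ (k + 1) * h) + β * (theta A p * g), ?_, β * h, ?_⟩
      · apply Ideal.add_mem
        · exact Ideal.mul_mem_left _ _ hy
        · apply Ideal.mul_mem_left
          rw [pow_succ']
          exact Ideal.mul_mem_mul (theta_mem p) hg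
      · ring
    · intro x y hx hy
      obtain ⟨g, hg, h, rfl⟩ := hx
      obtain ⟨g', hg', h', rfl⟩ := hy
      exact ⟨g + g', Ideal.add_mem _ hg hg', h + h', by ring⟩

theorem shift_aux (p : ℕ) (η η₁ : A[X]) (n : ℕ) :
    ∃ r ∈ II A p ^ (n + 2), (2 * theta A p + (p : A[X]) * η) ^ 3
        * (theta A p + (p : A[X]) * η₁) ^ n
      = 8 * theta A p ^ (n + 3) + (p : A[X]) * r := by
  induction n with
  | zero =>
    have h1 : (2 * theta A p + (p : A[X]) * η) ∈ II A p :=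
      Ideal.add_mem _ (Ideal.mul_mem_left _ _ (theta_mem p)) (Ideal.mul_mem_right _ _ (p_mem p))
    have h2 : (2 * theta A p) ∈ II A p := Ideal.mul_mem_left _ _ (theta_mem p)
    refine ⟨η * ((2 * theta A p + (p : A[X]) * η) ^ 2
      + (2 * theta A p + (p : A[X]) * η) * (2 * theta A p) + (2 * theta A p) ^ 2), ?_, by ring⟩
    apply Ideal.mul_mem_left
    have h3 : (2 * theta A p + (p : A[X]) * η) * (2 * theta A p) ∈ II A p ^ (0 + 2) := by
      rw [zero_add, pow_two]; exact Ideal.mul_mem_mul h1 h2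
    exact Ideal.add_mem _ (Ideal.add_mem _ (Ideal.pow_mem_pow h1 2) h3) (Ideal.pow_mem_pow h2 2)
  | succ n ih =>
    obtain ⟨r, hr, e⟩ := ih
    refine ⟨r * theta A p + 8 * theta A p ^ (n + 3) * η₁ + (p : A[X]) * r * η₁, ?_, ?_⟩
    · have e3 : n + 1 + 2 = (n + 2) + 1 := by ring
      rw [e3, pow_succ]
      apply Ideal.add_mem
      · apply Ideal.add_mem
        · exact Ideal.mul_mem_mul hr (theta_mem p)
        · apply Ideal.mul_mem_right
          apply Ideal.mul_mem_left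
          rw [← pow_succ]
          exact Ideal.pow_mem_pow (theta_mem p) _
      · apply Ideal.mul_mem_right
        rw [mul_comm ((p : ℕ) : A[X]) r]
        exact Ideal.mul_mem_mul hr (p_mem p)
    · rw [pow_succ _ n, ← mul_assoc, e]
      ring

variable (p : ℕ) [hp : Fact p.Prime] (π : A →+* ZMod p) (hker : ∀ x : A, π x = 0 → (p : A) ∣ x)

include hker in
theorem dvd_theta_sq (hp5 : 5 ≤ p) {a : ℕ → A} (ha : Key a) (ha0 : a 0 = 0) (h1 : 6 * a 1 = -1)
    (h2 : 54 * a 2 = 7) (Q : A[X]) : (p : A) ∣ Lam a (theta A p ^ 2 * Q) := by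
  apply hker
  rw [← Lam_map, Polynomial.map_mul, Polynomial.map_pow, theta_map]
  apply Lam_theta_sq p hp5 (ha.map π)
  · change π (a 0) = 0
    rw [ha0, map_zero]
  · have := congrArg π h1
    rw [map_mul, map_neg, map_one, map_ofNat] at this
    exact this
  · have := congrArg π h2
    rw [map_mul, map_ofNat, map_ofNat] at this
    exact this

include hker in
/-- **Lemma L, ideal form.** -/
theorem Lam_mem_pow (hp5 : 5 ≤ p) {a : ℕ → A} (ha : Key a) (ha0 : a 0 = 0) (h1 : 6 * a 1 = -1)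
    (h2 : 54 * a 2 = 7) (k : ℕ) : ∀ f ∈ II A p ^ k, (p : A) ^ (k - 1) ∣ Lam a f := by
  have hp2 : p ≠ 2 := by omega
  have h9 : 9 * (4 * a 1 ^ 2) = 1 := by linear_combination (6 * a 1 - 1) * h1
  induction k with
  | zero => intro f _; simp
  | succ k ih =>
    intro f hf
    obtain ⟨g, hg, h, rfl⟩ := mem_pow_succ p k f hf
    rw [map_add, Lam_natCast_mul, Nat.add_sub_cancel]
    apply dvd_add
    · match k, ih, hg with
      | 0, _, _ => simp
      | (k + 1), ih, hg =>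
        have := ih g hg
        rw [Nat.add_sub_cancel] at this
        rw [pow_succ']
        exact mul_dvd_mul_left _ this
    · match k, ih with
      | 0, _ => simp
      | 1, _ =>
        rw [pow_one]
        exact dvd_theta_sq p π hker hp5 ha ha0 h1 h2 h
      | (n + 2), ih =>
        obtain ⟨η, hη⟩ := thetap_eq (A := A) p hp2
        obtain ⟨η₁, hη₁⟩ := comp_add_natCast p (theta A p)
        obtain ⟨η₂, hη₂⟩ := comp_add_natCast p h
        obtain ⟨r, hr, hre⟩ := shift_aux p η η₁ n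
        have hi := ha.iter p (theta A p ^ n * h)
        rw [mul_comp, pow_comp, hη₁, hη₂, hη, (hp.out.odd_of_ne_two hp2).neg_one_pow] at hi
        have e1 : theta A p ^ 3 * (theta A p ^ n * h) = theta A p ^ (n + 3) * h := by ring
        have e2 : (2 * theta A p + (p : A[X]) * η) ^ 3 * ((theta A p + (p : A[X]) * η₁) ^ n
              * (h + (p : A[X]) * η₂))
            = C 8 * (theta A p ^ (n + 3) * h)
              + (p : A[X]) * (r * h + 8 * theta A p ^ (n + 3) * η₂ + (p : A[X]) * r * η₂) := by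
          have : (C 8 : A[X]) = 8 := rfl
          rw [← mul_assoc, hre, this]
          ring
        rw [e1, e2, map_add, Lam_C_mul, Lam_natCast_mul] at hi
        have hmem : (r * h + 8 * theta A p ^ (n + 3) * η₂ + (p : A[X]) * r * η₂)
            ∈ II A p ^ (n + 2) := by
          apply Ideal.add_mem
          · apply Ideal.add_mem
            · exact Ideal.mul_mem_right _ _ hr
            · apply Ideal.mul_mem_right
              apply Ideal.mul_mem_left
              exact Ideal.pow_le_pow_right (by omega : n + 2 ≤ n + 3)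
                (Ideal.pow_mem_pow (theta_mem p) _)
          · apply Ideal.mul_mem_right
            exact Ideal.mul_mem_left _ _ hr
        have hd := ih _ hmem
        obtain ⟨c, hc⟩ := hd
        rw [hc] at hi
        refine ⟨-(4 * a 1 ^ 2) * c, ?_⟩
        have e4 : n + 2 + 1 = n + 3 := rfl
        have e5 : n + 2 - 1 = n + 1 := by omega
        rw [e5] at hi
        rw [e4]
        linear_combination (4 * a 1 ^ 2) * hi - Lam a (theta A p ^ (n + 3) * h) * h9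

include hker in
/-- **LEMMA L.** -/
theorem lemL (hp5 : 5 ≤ p) {a : ℕ → A} (ha : Key a) (ha0 : a 0 = 0) (h1 : 6 * a 1 = -1)
    (h2 : 54 * a 2 = 7) (k : ℕ) (Q : A[X]) :
    (p : A) ^ (k - 1) ∣ Lam a (theta A p ^ k * Q) :=
  Lam_mem_pow p π hker hp5 ha ha0 h1 h2 k _
    (Ideal.mul_mem_right _ _ (Ideal.pow_mem_pow (theta_mem p) k))

/-! ### `ℤ_[p]`, `ℚ_[p]`, `ℚ` -/

theorem isUnit_natCast (m : ℕ) (hm : ¬ p ∣ m) : IsUnit ((m : ℕ) : ℤ_[p]) := by
  rw [PadicInt.isUnit_iff]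
  by_contra h
  have h1 : ‖((m : ℕ) : ℤ_[p])‖ < 1 := lt_of_le_of_ne (PadicInt.norm_le_one _) h
  have h2 : ‖((m : ℤ) : ℤ_[p])‖ < 1 := by simpa using h1
  rw [PadicInt.norm_int_lt_one_iff_dvd] at h2
  exact hm (by exact_mod_cast h2)

theorem not_dvd (hp5 : 5 ≤ p) (m n : ℕ) : ¬ p ∣ 2 ^ m * 3 ^ n := by
  intro h
  rcases (hp.out.dvd_mul).1 h with h | h
  · have := Nat.le_of_dvd (by norm_num) (hp.out.dvd_of_dvd_pow h)
    omega
  · have := Nat.le_of_dvd (by norm_num) (hp.out.dvd_of_dvd_pow h)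
    omega

/-- the moments of `psi_oo` exist over `ℤ_[p]`, `p ≥ 5`. -/
theorem exists_moments (hp5 : 5 ≤ p) :
    ∃ a : ℕ → ℤ_[p], Key a ∧ a 0 = 0 ∧ 6 * a 1 = -1 ∧ 54 * a 2 = 7 := by
  obtain ⟨u, hu⟩ := (isUnit_natCast p 6 (by simpa using not_dvd p hp5 1 1)).exists_right_inv
  have hu' : (6 : ℤ_[p]) * u = 1 := by simpa using hu
  obtain ⟨v, hv⟩ := (isUnit_natCast p 54 (by simpa using not_dvd p hp5 1 3)).exists_right_inv
  have hv' : (54 : ℤ_[p]) * v = 1 := by simpa using hv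
  obtain ⟨a, ha, h0, h1, h2⟩ := exists_key (6 * v) (0 : ℤ_[p]) (-u) (7 * v)
    (by linear_combination hv')
  refine ⟨a, ha, h0, ?_, ?_⟩
  · rw [h1]; linear_combination -hu'
  · rw [h2]; linear_combination 7 * hv'

/-- Lemma L over `ℤ_[p]` (ideal form). -/
theorem Lam_mem_pow_int (hp5 : 5 ≤ p) {a : ℕ → ℤ_[p]} (ha : Key a) (ha0 : a 0 = 0)
    (h1 : 6 * a 1 = -1) (h2 : 54 * a 2 = 7) (k : ℕ) (f : ℤ_[p][X]) (hf : f ∈ II ℤ_[p] p ^ k) :
    (p : ℤ_[p]) ^ (k - 1) ∣ Lam a f := by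
  apply Lam_mem_pow p (PadicInt.toZMod (p := p)) _ hp5 ha ha0 h1 h2 k f hf
  intro x hx
  have h : x ∈ RingHom.ker (PadicInt.toZMod (p := p)) := hx
  rw [PadicInt.ker_toZMod, PadicInt.maximalIdeal_eq_span_p, Ideal.mem_span_singleton] at h
  exact h

/-- Lemma L over `ℤ_[p]`. -/
theorem lemL_int (hp5 : 5 ≤ p) {a : ℕ → ℤ_[p]} (ha : Key a) (ha0 : a 0 = 0)
    (h1 : 6 * a 1 = -1) (h2 : 54 * a 2 = 7) (k : ℕ) (Q : ℤ_[p][X]) :
    (p : ℤ_[p]) ^ (k - 1) ∣ Lam a (theta ℤ_[p] p ^ k * Q) :=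
  Lam_mem_pow_int p hp5 ha ha0 h1 h2 k _
    (Ideal.mul_mem_right _ _ (Ideal.pow_mem_pow (theta_mem p) k))

/-- every functional over `ℚ_[p]` with the key identity and the right first moments comes from
`ℤ_[p]`. -/
theorem eq_of_padic (hp5 : 5 ≤ p) {a : ℕ → ℚ_[p]} (ha : Key a) (ha0 : a 0 = 0)
    (h1 : 6 * a 1 = -1) (h2 : 54 * a 2 = 7) :
    ∃ b : ℕ → ℤ_[p], Key b ∧ b 0 = 0 ∧ 6 * b 1 = -1 ∧ 54 * b 2 = 7 ∧
      a = fun i => (PadicInt.Coe.ringHom (p := p)) (b i) := by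
  obtain ⟨b, hb, hb0, hb1, hb2⟩ := exists_moments p hp5
  refine ⟨b, hb, hb0, hb1, hb2, ?_⟩
  apply key_unique ha (hb.map _)
  · intro x hx
    exact (mul_eq_zero.1 hx).resolve_left (by norm_num)
  · rw [ha0, hb0, map_zero]
  · have := congrArg (PadicInt.Coe.ringHom (p := p)) hb1
    rw [map_mul, map_neg, map_one, map_ofNat] at this
    have h6 : (6 : ℚ_[p]) ≠ 0 := by norm_num
    apply mul_left_cancel₀ h6
    rw [h1, this]
  · have := congrArg (PadicInt.Coe.ringHom (p := p)) hb2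
    rw [map_mul, map_ofNat, map_ofNat] at this
    have h6 : (54 : ℚ_[p]) ≠ 0 := by norm_num
    apply mul_left_cancel₀ h6
    rw [h2, this]

/-- **Lemma L over `ℚ_[p]`**, in terms of norms. -/
theorem lemL_padic (hp5 : 5 ≤ p) {a : ℕ → ℚ_[p]} (ha : Key a) (ha0 : a 0 = 0)
    (h1 : 6 * a 1 = -1) (h2 : 54 * a 2 = 7) (k : ℕ) (Q : ℚ_[p][X])
    (hQ : ∀ i, ‖Q.coeff i‖ ≤ 1) :
    ‖Lam a (theta ℚ_[p] p ^ k * Q)‖ ≤ (p : ℝ) ^ (-((k - 1 : ℕ) : ℤ)) := by
  obtain ⟨b, hb, hb0, hb1, hb2, rfl⟩ := eq_of_padic p hp5 ha ha0 h1 h2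
  have hQ' : Q ∈ Polynomial.lifts (PadicInt.Coe.ringHom (p := p)) := by
    rw [Polynomial.lifts_iff_coeff_lifts]
    intro n
    exact ⟨⟨Q.coeff n, hQ n⟩, rfl⟩
  rw [Polynomial.mem_lifts] at hQ'
  obtain ⟨Q', rfl⟩ := hQ'
  rw [← theta_map (PadicInt.Coe.ringHom (p := p)), ← Polynomial.map_pow, ← Polynomial.map_mul,
    Lam_map]
  have h := lemL_int p hp5 hb hb0 hb1 hb2 k Q'
  obtain ⟨c, hc⟩ := h
  have h3 : ‖Lam b (theta ℤ_[p] p ^ k * Q')‖ ≤ (p : ℝ) ^ (-((k - 1 : ℕ) : ℤ)) := by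
    rw [PadicInt.norm_le_pow_iff_mem_span_pow, Ideal.mem_span_singleton]
    exact ⟨c, hc⟩
  exact h3

/-- **Lemma L over `ℚ`**: for a functional `Lam a : ℚ[X] → ℚ` and a prime `p ≥ 5`. -/
theorem lemL_rat (hp5 : 5 ≤ p) {a : ℕ → ℚ} (ha : Key a) (ha0 : a 0 = 0)
    (h1 : 6 * a 1 = -1) (h2 : 54 * a 2 = 7) (k : ℕ) (Q : ℚ[X])
    (hQ : ∀ i, ‖((Q.coeff i : ℚ) : ℚ_[p])‖ ≤ 1) :
    ‖((Lam a (theta ℚ p ^ k * Q) : ℚ) : ℚ_[p])‖ ≤ (p : ℝ) ^ (-((k - 1 : ℕ) : ℤ)) := by
  have h := lemL_padic p hp5 (a := fun i => (Rat.castHom ℚ_[p]) (a i)) (ha.map _)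
    (by simp [ha0]) (by
      have := congrArg (Rat.castHom ℚ_[p]) h1
      rw [map_mul, map_neg, map_one, map_ofNat] at this
      exact this) (by
      have := congrArg (Rat.castHom ℚ_[p]) h2
      rw [map_mul, map_ofNat, map_ofNat] at this
      exact this) k (Q.map (Rat.castHom ℚ_[p])) (by
      intro i
      rw [coeff_map]
      exact hQ i)
  rw [← theta_map (Rat.castHom ℚ_[p]), ← Polynomial.map_pow, ← Polynomial.map_mul,
    Lam_map] at h
  exact h

end Crest.Agent.R006.LemLx170
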