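import Crest.Agent.R006.FuncL_170
import Crest.Agent.R006.Cong_826

/-!
Row 6 (S0006), block P4 (helper170): Lemma L, part a: reduction modulo `p`.

`theta p = X(X-1)...(X-p+1)`.  Facts in characteristic `p` and the explicit formula
`9 N(y) = S_p(y)` for `N(y) = Lam ((Theta(y) - Theta(X))/(y - X))`, `Theta = theta^3`.
-/

set_option autoImplicit false

open Polynomial Finset

namespace Crest.Agent.R006.LemLx170

open Crest.Agent.R006.FuncLx170

variable {A : Type*} [CommRing A]

/-! ### 1. `theta` and `thetap` modulo `p` -/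

theorem theta_comp_add_one (p : ℕ) (hp : 0 < p) (h0 : (p : A) = 0) :
    (theta A p).comp (X + 1) = theta A p := by
  obtain ⟨m, rfl⟩ : ∃ m, p = m + 1 := ⟨p - 1, by omega⟩
  have hm : ((m : ℕ) : A[X]) = -1 := by
    have : ((m : ℕ) : A) = -1 := by
      push_cast at h0
      exact eq_neg_of_add_eq_zero_left h0
    have h2 : ((m : ℕ) : A[X]) = C ((m : ℕ) : A) := by simp
    rw [h2, this]; simp
  unfold theta
  rw [Polynomial.prod_comp, Finset.prod_range_succ', Finset.prod_range_succ]
  congr 1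
  · apply Finset.prod_congr rfl
    intro j _
    simp only [sub_comp, X_comp, natCast_comp]
    push_cast
    ring
  · simp only [sub_comp, X_comp, natCast_comp, hm]
    push_cast
    ring

theorem prod_range_zmod (p : ℕ) [hp : Fact p.Prime] {M : Type*} [CommMonoid M] (F : ZMod p → M) :
    ∏ j ∈ range p, F (j : ZMod p) = ∏ c : ZMod p, F c := by
  apply Finset.prod_bij' (fun (j : ℕ) _ => (j : ZMod p)) (fun (c : ZMod p) _ => c.val)
  · intro j _; exact Finset.mem_univ _
  · intro c _; exact Finset.mem_range.2 (ZMod.val_lt c)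
  · intro j hj; exact ZMod.val_cast_of_lt (Finset.mem_range.1 hj)
  · intro c _; exact ZMod.natCast_zmod_val c
  · intro j _; rfl

theorem thetap_zmod (p : ℕ) [hp : Fact p.Prime] (hp2 : p ≠ 2) :
    thetap (ZMod p) p = 2 * theta (ZMod p) p := by
  have h2 : (2 : ZMod p) ≠ 0 := by
    intro h
    have h' : ((2 : ℕ) : ZMod p) = 0 := by simpa using h
    rw [ZMod.natCast_eq_zero_iff] at h'
    exact hp2 ((Nat.prime_dvd_prime_iff_eq hp.out Nat.prime_two).1 h')
  let F : ZMod p → (ZMod p)[X] := fun c => 2 * X + C c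
  have e1 : thetap (ZMod p) p = ∏ c : ZMod p, F (2 * c + 1) := by
    rw [← prod_range_zmod p (fun c => F (2 * c + 1))]
    unfold thetap
    apply Finset.prod_congr rfl
    intro j _
    simp only [F, map_add, map_mul, map_natCast, map_one]
    rfl
  have e2 : (2 : (ZMod p)[X]) * theta (ZMod p) p = ∏ c : ZMod p, F (-2 * c) := by
    have h2p : (2 : (ZMod p)[X]) = ∏ _c : ZMod p, (2 : (ZMod p)[X]) := by
      rw [Finset.prod_const, Finset.card_univ, ZMod.card]
      have : (2 : (ZMod p)[X]) = C (2 : ZMod p) := rfl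
      rw [this, ← C_pow, ZMod.pow_card]
    have h3 : theta (ZMod p) p = ∏ c : ZMod p, (X - C c) := by
      rw [← prod_range_zmod p (fun c => (X - C c : (ZMod p)[X]))]
      unfold theta
      apply Finset.prod_congr rfl
      intro j _
      simp
    rw [h3]
    nth_rewrite 1 [h2p]
    rw [← Finset.prod_mul_distrib]
    apply Finset.prod_congr rfl
    intro c _
    have : (C (-2 * c) : (ZMod p)[X]) = -2 * C c := by
      rw [C_mul, C_neg]; rfl
    simp only [F, this]
    ring
  rw [e1, e2]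
  have b1 : Function.Bijective (fun c : ZMod p => 2 * c + 1) := by
    rw [← Finite.injective_iff_bijective]
    intro c d h
    have : 2 * c = 2 * d := by simpa using h
    exact mul_left_cancel₀ h2 this
  have b2 : Function.Bijective (fun c : ZMod p => -2 * c) := by
    rw [← Finite.injective_iff_bijective]
    intro c d h
    have : 2 * c = 2 * d := by
      have h' : -2 * c = -2 * d := h
      linear_combination -h'
    exact mul_left_cancel₀ h2 this
  rw [b1.prod_comp F, b2.prod_comp F]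

/-- `thetap p = 2 theta p + p * eta` over every commutative ring. -/
theorem thetap_eq (p : ℕ) [hp : Fact p.Prime] (hp2 : p ≠ 2) :
    ∃ η : A[X], thetap A p = 2 * theta A p + (p : A[X]) * η := by
  have hd : (C (p : ℤ)) ∣ thetap ℤ p - 2 * theta ℤ p := by
    rw [C_dvd_iff_dvd_coeff]
    intro i
    rw [← ZMod.intCast_zmod_eq_zero_iff_dvd]
    have h1 : (thetap ℤ p - 2 * theta ℤ p).map (Int.castRingHom (ZMod p)) = 0 := by
      rw [Polynomial.map_sub, Polynomial.map_mul, thetap_map, theta_map, thetap_zmod p hp2]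
      simp
    have h2 := congrArg (fun f => f.coeff i) h1
    simpa using h2
  obtain ⟨η, hη⟩ := hd
  refine ⟨η.map (Int.castRingHom A), ?_⟩
  have h3 := congrArg (Polynomial.map (Int.castRingHom A)) hη
  rw [Polynomial.map_sub, Polynomial.map_mul, Polynomial.map_mul, thetap_map, theta_map] at h3
  have h4 : (2 : ℤ[X]).map (Int.castRingHom A) = 2 := by simp
  have h5 : (C (p : ℤ)).map (Int.castRingHom A) = (p : A[X]) := by simp
  rw [h4, h5] at h3
  linear_combination h3

/-- `Q(X + p) = Q + p * eta`. -/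
theorem comp_add_natCast (p : ℕ) (Q : A[X]) :
    ∃ η : A[X], Q.comp (X + (p : A[X])) = Q + (p : A[X]) * η := by
  have h := Polynomial.sub_dvd_eval_sub (X + (p : A[X])) X (Q.map C)
  rw [Polynomial.eval_map, Polynomial.eval_map] at h
  obtain ⟨η, hη⟩ := h
  refine ⟨η, ?_⟩
  have h1 : Q.eval₂ C (X + (p : A[X])) = Q.comp (X + (p : A[X])) := rfl
  have h2 : Q.eval₂ C (X : A[X]) = Q := Polynomial.eval₂_C_X
  rw [h1, h2] at hη
  linear_combination hη

/-! ### 2. vanishing on multiples of `theta ^ 3` in characteristic `p` -/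

theorem thetap_of_zero (p : ℕ) [hp : Fact p.Prime] (hp2 : p ≠ 2) (h0 : (p : A) = 0) :
    thetap A p = 2 * theta A p := by
  obtain ⟨η, hη⟩ := thetap_eq (A := A) p hp2
  have : ((p : ℕ) : A[X]) = 0 := by
    have h2 : ((p : ℕ) : A[X]) = C ((p : ℕ) : A) := by simp
    rw [h2, h0, C_0]
  rw [hη, this]
  ring

theorem Lam_theta_cube (p : ℕ) [hp : Fact p.Prime] (hp2 : p ≠ 2) (h0 : (p : A) = 0)
    (h9 : ∀ x : A, 9 * x = 0 → x = 0) {a : ℕ → A} (ha : Key a) (P : A[X]) :
    Lam a (theta A p ^ 3 * P) = 0 := by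
  have h := ha.iter p P
  have hx : (X + ((p : ℕ) : A[X])) = X := by
    have h2 : ((p : ℕ) : A[X]) = C ((p : ℕ) : A) := by simp
    rw [h2, h0, C_0, add_zero]
  rw [hx, comp_X, thetap_of_zero p hp2 h0, (hp.out.odd_of_ne_two hp2).neg_one_pow] at h
  have e : (2 * theta A p) ^ 3 * P = C 8 * (theta A p ^ 3 * P) := by
    have : (C 8 : A[X]) = 8 := rfl
    rw [this]; ring
  rw [e, Lam_C_mul] at h
  apply h9
  linear_combination h

/-! ### 3. the functional equation of `nn` -/

/-- `nn a T y = Lam ((T(X) - T(y))/(X - y))`. -/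
noncomputable def nn (a : ℕ → A) (T : A[X]) (y : A) : A :=
  Lam a ((T - C (T.eval y)) /ₘ (X - C y))

theorem dd_mul (T : A[X]) (y : A) :
    (X - C y) * ((T - C (T.eval y)) /ₘ (X - C y)) = T - C (T.eval y) := by
  rw [mul_divByMonic_eq_iff_isRoot]
  simp [IsRoot]

theorem dd_unique (T : A[X]) (y : A) (D : A[X]) (h : (X - C y) * D = T - C (T.eval y)) :
    D = (T - C (T.eval y)) /ₘ (X - C y) := by
  rw [← h, mul_divByMonic_cancel_left _ (monic_X_sub_C y)]

theorem dd_comp (T : A[X]) (hT : T.comp (X + 1) = T) (y : A) :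
    ((T - C (T.eval y)) /ₘ (X - C y)).comp (X + 1)
      = (T - C (T.eval (y - 1))) /ₘ (X - C (y - 1)) := by
  apply dd_unique
  have h := congrArg (fun f => f.comp (X + 1)) (dd_mul T y)
  have hy : T.eval (y - 1) = T.eval y := by
    have h1 : (T.comp (X + 1)).eval (y - 1) = T.eval y := by
      rw [eval_comp]; simp
    rw [← h1, hT]
  simp only [mul_comp, sub_comp, X_comp, C_comp, hT] at h
  rw [hy]
  refine Eq.trans ?_ h
  rw [C_sub, C_1]
  ring

/-- the weight `w y = 9 a_2 + (9 y + 4) a_1` (`= -(3y-1)/2` for the moments of `psi`). -/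
def ww (a : ℕ → A) (y : A) : A := 9 * a 2 + (9 * y + 4) * a 1

theorem nn_fe {a : ℕ → A} (ha : Key a) (ha0 : a 0 = 0) (T : A[X]) (hT : T.comp (X + 1) = T)
    (hL : ∀ P : A[X], Lam a (T * P) = 0) (y : A) :
    y ^ 3 * nn a T y = T.eval y * ww a y - (2 * y - 1) ^ 3 * nn a T (y - 1) := by
  have hk := ha ((T - C (T.eval y)) /ₘ (X - C y))
  rw [dd_comp T hT y, map_add] at hk
  have hy : T.eval (y - 1) = T.eval y := by
    have h1 : (T.comp (X + 1)).eval (y - 1) = T.eval y := by
      rw [eval_comp]; simp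
    rw [← h1, hT]
  have m0 : Lam a (1 : A[X]) = 0 := by rw [Lam_one, ha0]
  -- first term
  have e1 : Lam a (X ^ 3 * ((T - C (T.eval y)) /ₘ (X - C y)))
      = y ^ 3 * nn a T y - T.eval y * (a 2 + y * a 1) := by
    have h1 : X ^ 3 * ((T - C (T.eval y)) /ₘ (X - C y))
        = C (y ^ 3) * ((T - C (T.eval y)) /ₘ (X - C y))
          + (T * (X ^ 2 + C y * X + C (y ^ 2))
            - C (T.eval y) * (X ^ 2 + C y * X ^ 1 + C (y ^ 2) * 1)) := by
      have := dd_mul T y
      simp only [C_pow]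
      linear_combination (X ^ 2 + C y * X + C y ^ 2) * this
    rw [h1, (Lam a).map_add, (Lam a).map_sub, Lam_C_mul, hL, Lam_C_mul, (Lam a).map_add,
      (Lam a).map_add, Lam_X_pow, Lam_C_mul,
      Lam_X_pow, Lam_C_mul, m0]
    unfold nn
    ring
  have e2 : Lam a ((2 * X + 1) ^ 3 * ((T - C (T.eval (y - 1))) /ₘ (X - C (y - 1))))
      = (2 * y - 1) ^ 3 * nn a T (y - 1)
        - T.eval y * (2 * (4 * a 2 + (4 + 2 * (2 * y - 1)) * a 1)) := by
    have h1 : (2 * X + 1) ^ 3 * ((T - C (T.eval (y - 1))) /ₘ (X - C (y - 1)))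
        = C ((2 * y - 1) ^ 3) * ((T - C (T.eval (y - 1))) /ₘ (X - C (y - 1)))
          + (T * (2 * ((2 * X + 1) ^ 2 + (2 * X + 1) * C (2 * y - 1) + C ((2 * y - 1) ^ 2)))
            - C (T.eval (y - 1) * 2) * (C 4 * X ^ 2 + C (4 + 2 * (2 * y - 1)) * X ^ 1
                + C (1 + (2 * y - 1) + (2 * y - 1) ^ 2) * 1)) := by
      have := dd_mul T (y - 1)
      simp only [C_pow, C_sub, C_mul, C_add, C_1, show (C (2 : A) : A[X]) = 2 from rfl,
        show (C (4 : A) : A[X]) = 4 from rfl] at this ⊢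
      linear_combination (2 * ((2 * X + 1) ^ 2 + (2 * X + 1) * (2 * C y - 1)
        + (2 * C y - 1) ^ 2)) * this
    rw [h1, (Lam a).map_add, (Lam a).map_sub, Lam_C_mul, hL, Lam_C_mul, (Lam a).map_add,
      (Lam a).map_add, Lam_C_mul, Lam_X_pow,
      Lam_C_mul, Lam_X_pow, Lam_C_mul, m0]
    unfold nn
    rw [hy]
    ring
  rw [e1, e2] at hk
  unfold ww
  linear_combination hk

end Crest.Agent.R006.LemLx170
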