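import Crest.Agent.R006.LemLa_170

/-!
Row 6 (S0006), block P4 (helper170): Lemma L, part b: the case `k = 2` modulo `p`:
`Lam (theta^2 Q) = 0` over `ZMod p`.
-/

set_option autoImplicit false

open Polynomial Finset

namespace Crest.Agent.R006.LemLx170

open Crest.Agent.R006.FuncLx170

variable {A : Type*} [CommRing A]

/-- the recursive sums `S_m(y)`. -/
def SS (a : ℕ → A) (y : A) : ℕ → A
  | 0 => 0
  | m + 1 => SS a y m * (y - m) ^ 3
      + (-1) ^ m * ww a (y - m) * (∏ j ∈ range m, (2 * y - (2 * (j : A) + 1))) ^ 3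

theorem eval_shift (T : A[X]) (hT : T.comp (X + 1) = T) (y : A) (m : ℕ) :
    T.eval (y - m) = T.eval y := by
  induction m with
  | zero => simp
  | succ m ih =>
    rw [← ih]
    have h1 : (T.comp (X + 1)).eval (y - ((m + 1 : ℕ) : A)) = T.eval (y - m) := by
      rw [eval_comp]
      congr 1
      simp only [eval_add, eval_X, eval_one]
      push_cast
      ring
    rw [hT] at h1
    exact h1

theorem nn_iter {a : ℕ → A} (ha : Key a) (ha0 : a 0 = 0) (T : A[X]) (hT : T.comp (X + 1) = T)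
    (hL : ∀ P : A[X], Lam a (T * P) = 0) (y : A) (m : ℕ) :
    (∏ j ∈ range m, (y - (j : A))) ^ 3 * nn a T y = T.eval y * SS a y m
      + (-1) ^ m * (∏ j ∈ range m, (2 * y - (2 * (j : A) + 1))) ^ 3 * nn a T (y - m) := by
  induction m with
  | zero => simp [SS]
  | succ m ih =>
    have hfe := nn_fe ha ha0 T hT hL (y - m)
    rw [eval_shift T hT] at hfe
    have e : y - (m : A) - 1 = y - ((m + 1 : ℕ) : A) := by push_cast; ring
    rw [e] at hfe
    rw [Finset.prod_range_succ, Finset.prod_range_succ, SS]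
    linear_combination (y - m) ^ 3 * ih
      + ((-1) ^ m * (∏ j ∈ range m, (2 * y - (2 * (j : A) + 1))) ^ 3) * hfe

theorem SS_map {B : Type*} [CommRing B] (φ : A →+* B) (a : ℕ → A) (y : A) (m : ℕ) :
    SS (fun i => φ (a i)) (φ y) m = φ (SS a y m) := by
  induction m with
  | zero => simp [SS]
  | succ m ih =>
    rw [SS, SS, ih]
    simp only [ww, map_add, map_mul, map_pow, map_sub, map_neg, map_one, map_natCast, map_prod,
      map_ofNat]

theorem theta_eval (m : ℕ) (y : A) : (theta A m).eval y = ∏ j ∈ range m, (y - (j : A)) := by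
  unfold theta
  rw [Polynomial.eval_prod]
  apply Finset.prod_congr rfl
  intro j _
  simp

theorem theta_neg (p : ℕ) [hp : Fact p.Prime] (hp2 : p ≠ 2) (h0 : (p : A) = 0) (y : A) :
    (theta A p).eval (-y) = - (theta A p).eval y := by
  have h1 := eval_shift (theta A p) (theta_comp_add_one p hp.out.pos h0) y 1
  rw [← h1, theta_eval, theta_eval, ← Finset.prod_range_reflect]
  have : ∀ j ∈ range p, (-y - ((p - 1 - j : ℕ) : A)) = (-1) * (y - ((1 : ℕ) : A) - (j : A)) := by
    intro j hj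
    have hj' := Finset.mem_range.1 hj
    have e : (p - 1 - j) + (1 + j) = p := by omega
    have e2 : ((p - 1 - j : ℕ) : A) + (1 + (j : A)) = 0 := by
      rw [← h0]
      conv_rhs => rw [← e]
      push_cast
      ring
    push_cast
    linear_combination -e2
  rw [Finset.prod_congr rfl this, Finset.prod_mul_distrib, Finset.prod_const,
    Finset.card_range, (hp.out.odd_of_ne_two hp2).neg_one_pow]
  ring

/-- the explicit formula `9 nn(y) = S_p(y)` in characteristic `p`. -/
theorem nn_formula (p : ℕ) [hp : Fact p.Prime] (hp2 : p ≠ 2) (h0 : (p : A) = 0)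
    {a : ℕ → A} (ha : Key a) (ha0 : a 0 = 0) (hL : ∀ P : A[X], Lam a (theta A p ^ 3 * P) = 0)
    (y : A) :
    (theta A p ^ 3).eval y * (9 * nn a (theta A p ^ 3) y - SS a y p) = 0 := by
  have hT : (theta A p ^ 3).comp (X + 1) = theta A p ^ 3 := by
    rw [pow_comp, theta_comp_add_one p hp.out.pos h0]
  have h := nn_iter ha ha0 _ hT hL y p
  have e1 : (∏ j ∈ range p, (y - (j : A))) = (theta A p).eval y := (theta_eval p y).symm
  have e2 : (∏ j ∈ range p, (2 * y - (2 * (j : A) + 1))) = 2 * (theta A p).eval y := by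
    have h3 := congrArg (Polynomial.eval (-y)) (thetap_of_zero (A := A) p hp2 h0)
    have h4 : (thetap A p).eval (-y) = - (∏ j ∈ range p, (2 * y - (2 * (j : A) + 1))) := by
      unfold thetap
      rw [Polynomial.eval_prod]
      have : ∀ j ∈ range p, eval (-y) (2 * X + (2 * (j : A[X]) + 1))
          = (-1) * (2 * y - (2 * (j : A) + 1)) := by
        intro j _
        simp only [eval_add, eval_mul, eval_X, eval_one, eval_natCast, eval_ofNat]
        ring
      rw [Finset.prod_congr rfl this, Finset.prod_mul_distrib, Finset.prod_const,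
        Finset.card_range, (hp.out.odd_of_ne_two hp2).neg_one_pow]
      ring
    have h5 := theta_neg (A := A) p hp2 h0 y
    rw [h4] at h3
    simp only [eval_mul, eval_ofNat] at h3
    rw [h5] at h3
    linear_combination -h3
  rw [e1, e2, h0, sub_zero, (hp.out.odd_of_ne_two hp2).neg_one_pow] at h
  rw [eval_pow] at h ⊢
  linear_combination h

/-! ### the value at `0` -/

/-- `(2m-1)!! 2^m = C(2m,m) m!`. -/
theorem odd_prod (m : ℕ) :
    (∏ j ∈ range m, (2 * j + 1)) * 2 ^ m = Nat.centralBinom m * m.factorial := by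
  induction m with
  | zero => simp
  | succ m ih =>
    have h := Nat.succ_mul_centralBinom_succ m
    rw [Finset.prod_range_succ, Nat.factorial_succ, pow_succ]
    calc (∏ j ∈ range m, (2 * j + 1)) * (2 * m + 1) * (2 ^ m * 2)
        = ((∏ j ∈ range m, (2 * j + 1)) * 2 ^ m) * (2 * (2 * m + 1)) := by ring
      _ = (2 * (2 * m + 1) * Nat.centralBinom m) * m.factorial := by rw [ih]; ring
      _ = _ := by rw [← h]; ring

section zmod

variable (p : ℕ) [hp : Fact p.Prime]

theorem natCast_ne_zero_of_lt {m : ℕ} (h0 : 0 < m) (h : m < p) : (m : ZMod p) ≠ 0 := by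
  rw [Ne, ZMod.natCast_eq_zero_iff]
  exact Nat.not_dvd_of_pos_of_lt h0 h

theorem two_ne (hp5 : 5 ≤ p) : (2 : ZMod p) ≠ 0 := by
  have := natCast_ne_zero_of_lt p (m := 2) (by norm_num) (by omega)
  simpa using this

theorem three_ne (hp5 : 5 ≤ p) : (3 : ZMod p) ≠ 0 := by
  have := natCast_ne_zero_of_lt p (m := 3) (by norm_num) (by omega)
  simpa using this

theorem nine_ne (hp5 : 5 ≤ p) : (9 : ZMod p) ≠ 0 := by
  have h := three_ne p hp5
  have : (9 : ZMod p) = 3 * 3 := by norm_num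
  rw [this]; exact mul_ne_zero h h

theorem SS_zero {a : ℕ → ZMod p} (hp5 : 5 ≤ p) (h1 : 6 * a 1 = -1) (h2 : 54 * a 2 = 7) (m : ℕ) :
    2 * SS a 0 (m + 1) = (-1) ^ m * (m.factorial : ZMod p) ^ 3 *
      ∑ i ∈ range (m + 1), (3 * (i : ZMod p) + 1) * ((Nat.centralBinom i : ℕ) : ZMod p) ^ 3
        * ((-8 : ZMod p)⁻¹) ^ i := by
  have h3 := three_ne p hp5
  have h20 := two_ne p hp5
  have hw : ∀ m : ℕ, 2 * ww a (0 - (m : ZMod p)) = 3 * (m : ZMod p) + 1 := by
    intro m
    apply mul_left_cancel₀ h3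
    unfold ww
    linear_combination h2 + (4 - 9 * (m : ZMod p)) * h1
  have hprod : ∀ m : ℕ, (∏ j ∈ range m, (2 * (0 : ZMod p) - (2 * (j : ZMod p) + 1))) ^ 3 * 8 ^ m
      = (-1) ^ m * ((Nat.centralBinom m : ℕ) : ZMod p) ^ 3 * (m.factorial : ZMod p) ^ 3 := by
    intro m
    have e1 : (∏ j ∈ range m, (2 * (0 : ZMod p) - (2 * (j : ZMod p) + 1)))
        = (-1) ^ m * ((∏ j ∈ range m, (2 * j + 1) : ℕ) : ZMod p) := by
      rw [Nat.cast_prod]
      have : ∀ j ∈ range m, (2 * (0 : ZMod p) - (2 * (j : ZMod p) + 1))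
          = (-1) * ((2 * j + 1 : ℕ) : ZMod p) := by
        intro j _
        push_cast
        ring
      rw [Finset.prod_congr rfl this, Finset.prod_mul_distrib, Finset.prod_const,
        Finset.card_range]
    have e2 : ((∏ j ∈ range m, (2 * j + 1) : ℕ) : ZMod p) * 2 ^ m
        = ((Nat.centralBinom m : ℕ) : ZMod p) * (m.factorial : ZMod p) := by
      have := congrArg (fun n : ℕ => (n : ZMod p)) (odd_prod m)
      simpa using this
    have e8 : (8 : ZMod p) ^ m = (2 ^ m) ^ 3 := by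
      rw [← pow_mul, mul_comm m 3, pow_mul]; norm_num
    have e9 : ((-1 : ZMod p) ^ m) ^ 3 = (-1) ^ m := by
      rw [← pow_mul, mul_comm m 3, pow_mul]; norm_num
    rw [e1, e8]
    calc ((-1) ^ m * ((∏ j ∈ range m, (2 * j + 1) : ℕ) : ZMod p)) ^ 3 * (2 ^ m) ^ 3
        = ((-1) ^ m) ^ 3 * (((∏ j ∈ range m, (2 * j + 1) : ℕ) : ZMod p) * 2 ^ m) ^ 3 := by ring
      _ = _ := by rw [e2, e9]; ring
  have h8 : (-8 : ZMod p) ≠ 0 := by
    have : (-8 : ZMod p) = -(2 ^ 3) := by norm_num
    rw [this]; exact neg_ne_zero.2 (pow_ne_zero _ h20)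
  have h88 : (8 : ZMod p) ≠ 0 := by
    have : (8 : ZMod p) = (2 ^ 3) := by norm_num
    rw [this]; exact (pow_ne_zero _ h20)
  have hterm : ∀ m : ℕ, (∏ j ∈ range m, (2 * (0 : ZMod p) - (2 * (j : ZMod p) + 1))) ^ 3
      = ((Nat.centralBinom m : ℕ) : ZMod p) ^ 3 * (m.factorial : ZMod p) ^ 3
        * ((-8 : ZMod p)⁻¹) ^ m := by
    intro m
    have h := hprod m
    apply mul_right_cancel₀ (pow_ne_zero m h88)
    rw [h]
    have : ((-8 : ZMod p)⁻¹) ^ m * 8 ^ m = (-1) ^ m := by
      rw [← mul_pow]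
      congr 1
      field_simp
    linear_combination (-((Nat.centralBinom m : ℕ) : ZMod p) ^ 3
      * (m.factorial : ZMod p) ^ 3) * this
  induction m with
  | zero =>
    rw [SS, SS]
    have := hw 0
    simp at this ⊢
    exact this
  | succ m ih =>
    rw [SS, Finset.sum_range_succ, mul_add, Nat.factorial_succ]
    have e1 : 2 * (SS a 0 (m + 1) * (0 - ((m + 1 : ℕ) : ZMod p)) ^ 3)
        = (2 * SS a 0 (m + 1)) * (-((m + 1 : ℕ) : ZMod p) ^ 3) := by ring
    have e2 : 2 * ((-1) ^ (m + 1) * ww a (0 - ((m + 1 : ℕ) : ZMod p)) *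
          (∏ j ∈ range (m + 1), (2 * (0 : ZMod p) - (2 * (j : ZMod p) + 1))) ^ 3)
        = (-1) ^ (m + 1) * (2 * ww a (0 - ((m + 1 : ℕ) : ZMod p))) *
          (∏ j ∈ range (m + 1), (2 * (0 : ZMod p) - (2 * (j : ZMod p) + 1))) ^ 3 := by ring
    rw [e1, e2, ih, hw, hterm, Nat.factorial_succ]
    push_cast
    ring

end zmod

end Crest.Agent.R006.LemLx170
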