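import Crest.Agent.R006.LemL_170

/-!
Row 6 (S0006), block P4 (helper170): base change of Lemma L: `φ : A → B` any ring homomorphism
(`B = A[[τ]]`, `A[G]`, ...).
-/

set_option autoImplicit false

open Polynomial Finset

namespace Crest.Agent.R006.LemLx170

open Crest.Agent.R006.FuncLx170

variable {A B : Type*} [CommRing A] [CommRing B]

/-- elements of `(p, theta)^k` are combinations of the `p^j theta^(k-j)`. -/
theorem mem_pow_sum (p k : ℕ) : ∀ f ∈ II B p ^ k,
    ∃ g : ℕ → B[X], f = ∑ j ∈ range (k + 1), (p : B[X]) ^ j * theta B p ^ (k - j) * g j := by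
  induction k with
  | zero => intro f _; exact ⟨fun _ => f, by simp⟩
  | succ k ih =>
    intro f hf
    obtain ⟨g, hg, h, rfl⟩ := mem_pow_succ p k f hf
    obtain ⟨u, hu⟩ := ih g hg
    refine ⟨fun j => if j = 0 then h else u (j - 1), ?_⟩
    rw [Finset.sum_range_succ', hu, Finset.mul_sum]
    congr 1
    · apply Finset.sum_congr rfl
      intro j hj
      have : k + 1 - (j + 1) = k - j := by omega
      rw [this]
      simp only [Nat.add_eq_zero_iff, one_ne_zero, and_false, if_false, Nat.add_sub_cancel]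
      ring
    · simp

/-- a bound for the monomials gives the bound for all polynomials after base change. -/
theorem dvd_baseChange (φ : A →+* B) (a : ℕ → A) (F : A[X]) (d : A)
    (h : ∀ i : ℕ, d ∣ Lam a (F * X ^ i)) (Q : B[X]) :
    φ d ∣ Lam (fun i => φ (a i)) (F.map φ * Q) := by
  induction Q using Polynomial.induction_on' with
  | add u v hu hv =>
    rw [mul_add, map_add]
    exact dvd_add hu hv
  | monomial n c =>
    have e : F.map φ * monomial n c = C c * (F * X ^ n).map φ := by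
      rw [← C_mul_X_pow_eq_monomial, Polynomial.map_mul, Polynomial.map_pow, map_X]
      ring
    rw [e, Lam_C_mul, Lam_map]
    exact Dvd.dvd.mul_left (map_dvd φ (h n)) c

variable (p : ℕ) [hp : Fact p.Prime] (π : A →+* ZMod p) (hker : ∀ x : A, π x = 0 → (p : A) ∣ x)

include hker in
/-- **Lemma L after base change.** -/
theorem lemL_baseChange (φ : A →+* B) (hp5 : 5 ≤ p) {a : ℕ → A} (ha : Key a) (ha0 : a 0 = 0)
    (h1 : 6 * a 1 = -1) (h2 : 54 * a 2 = 7) (k : ℕ) (Q : B[X]) :
    (p : B) ^ (k - 1) ∣ Lam (fun i => φ (a i)) (theta B p ^ k * Q) := by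
  have h := dvd_baseChange φ a (theta A p ^ k) ((p : A) ^ (k - 1))
    (fun i => lemL p π hker hp5 ha ha0 h1 h2 k (X ^ i)) Q
  rwa [map_pow, map_natCast, Polynomial.map_pow, theta_map] at h

include hker in
/-- **Lemma L after base change, ideal form.** -/
theorem Lam_mem_pow_baseChange (φ : A →+* B) (hp5 : 5 ≤ p) {a : ℕ → A} (ha : Key a)
    (ha0 : a 0 = 0) (h1 : 6 * a 1 = -1) (h2 : 54 * a 2 = 7) (k : ℕ) (f : B[X])
    (hf : f ∈ II B p ^ k) : (p : B) ^ (k - 1) ∣ Lam (fun i => φ (a i)) f := by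
  obtain ⟨g, rfl⟩ := mem_pow_sum p k f hf
  rw [map_sum]
  apply Finset.dvd_sum
  intro j hj
  have hjk : j ≤ k := Nat.lt_succ_iff.1 (Finset.mem_range.1 hj)
  have e : (p : B[X]) ^ j * theta B p ^ (k - j) * g j
      = C ((p : B) ^ j) * (theta B p ^ (k - j) * g j) := by
    rw [C_pow, ← map_natCast (C : B →+* B[X])]
    ring
  rw [e, Lam_C_mul]
  have h3 := lemL_baseChange p π hker φ hp5 ha ha0 h1 h2 (k - j) (g j)
  calc (p : B) ^ (k - 1) ∣ (p : B) ^ j * (p : B) ^ (k - j - 1) := by
        rw [← pow_add]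
        exact pow_dvd_pow _ (by omega)
    _ ∣ _ := mul_dvd_mul_left _ h3

end Crest.Agent.R006.LemLx170
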