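import Crest.Agent.R006.LemLb_170

/-!
Row 6 (S0006), block P4 (helper170): Lemma L, part c: `Lam (theta^2 Q) = 0` over `ZMod p`, and
the final statement `p^(k-1) ∣ Lam (theta^k Q)`.
-/

set_option autoImplicit false

open Polynomial Finset

namespace Crest.Agent.R006.LemLx170

open Crest.Agent.R006.FuncLx170

section zmod

variable (p : ℕ) [hp : Fact p.Prime]

theorem SS_p_zero {a : ℕ → ZMod p} (hp5 : 5 ≤ p) (h1 : 6 * a 1 = -1) (h2 : 54 * a 2 = 7) :
    SS a 0 p = 0 := by
  have hodd := hp.out.odd_of_ne_two (by omega : p ≠ 2)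
  obtain ⟨h, hh⟩ : ∃ h, p = 2 * h + 1 := hodd
  have h20 := two_ne p hp5
  -- `S_{h+1} = 0`
  have key : ∀ n : ℕ, SS a 0 (h + 1 + n) = 0 := by
    intro n
    induction n with
    | zero =>
      rw [add_zero]
      apply mul_left_cancel₀ h20
      rw [SS_zero p hp5 h1 h2, mul_zero]
      have hc : ∑ i ∈ range (h + 1), (3 * (i : ZMod p) + 1)
          * ((Nat.centralBinom i : ℕ) : ZMod p) ^ 3 * ((-8 : ZMod p)⁻¹) ^ i = 0 := by
        subst hh
        exact Cong826.cong_central h (by omega)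
      rw [hc, mul_zero]
    | succ n ih =>
      rw [← add_assoc, SS, ih, zero_mul, zero_add]
      have hz : (∏ j ∈ range (h + 1 + n), (2 * (0 : ZMod p) - (2 * (j : ZMod p) + 1))) = 0 := by
        apply Finset.prod_eq_zero (i := h) (Finset.mem_range.2 (by omega))
        have : ((2 * h + 1 : ℕ) : ZMod p) = 0 := by rw [← hh]; exact ZMod.natCast_self p
        push_cast at this
        linear_combination -this
      rw [hz]
      ring
  have := key (p - (h + 1))
  rwa [show h + 1 + (p - (h + 1)) = p by omega] at this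

/-- naturality of `nn`. -/
theorem nn_map {A B : Type*} [CommRing A] [CommRing B] (φ : A →+* B) (a : ℕ → A) (T : A[X])
    (y : A) : nn (fun i => φ (a i)) (T.map φ) (φ y) = φ (nn a T y) := by
  unfold nn
  rw [← Lam_map, Polynomial.map_divByMonic _ (monic_X_sub_C y)]
  simp only [Polynomial.map_sub, map_C, map_X]
  congr 3
  rw [Polynomial.eval_map, Polynomial.eval₂_at_apply]

theorem nn_zero {a : ℕ → ZMod p} (hp5 : 5 ≤ p) (ha : Key a) (ha0 : a 0 = 0) (h1 : 6 * a 1 = -1)
    (h2 : 54 * a 2 = 7) : nn a (theta (ZMod p) p ^ 3) 0 = 0 := by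
  have hp2 : p ≠ 2 := by omega
  -- work over `B = (ZMod p)[X]`
  let b : ℕ → (ZMod p)[X] := fun i => C (a i)
  have hb : Key b := ha.map C
  have hb0 : b 0 = 0 := by simp [b, ha0]
  have hBp : ((p : ℕ) : (ZMod p)[X]) = 0 := by
    have h2 : ((p : ℕ) : (ZMod p)[X]) = C ((p : ℕ) : ZMod p) := by simp
    rw [h2, ZMod.natCast_self, C_0]
  have h9 : (9 : (ZMod p)[X]) ≠ 0 := by
    have : (9 : (ZMod p)[X]) = C 9 := rfl
    rw [this]
    exact fun h => nine_ne p hp5 (C_eq_zero.1 h)
  have hL : ∀ P : (ZMod p)[X][X], Lam b (theta ((ZMod p)[X]) p ^ 3 * P) = 0 := by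
    intro P
    apply Lam_theta_cube p hp2 hBp _ hb
    intro x hx
    exact (mul_eq_zero.1 hx).resolve_left h9
  have hform := nn_formula p hp2 hBp hb hb0 hL (X : (ZMod p)[X])
  have hne : (theta ((ZMod p)[X]) p ^ 3).eval (X : (ZMod p)[X]) ≠ 0 := by
    rw [eval_pow, theta_eval]
    apply pow_ne_zero
    have : ∏ j ∈ range p, ((X : (ZMod p)[X]) - ((j : ℕ) : (ZMod p)[X])) = theta (ZMod p) p := rfl
    rw [this]
    exact (theta_monic p).ne_zero
  have hf := (mul_eq_zero.1 hform).resolve_left hne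
  -- evaluate at zero
  have hev := congrArg (evalRingHom (0 : ZMod p)) hf
  rw [map_sub, map_mul, ← nn_map, ← SS_map, map_zero] at hev
  have e1 : (fun i => (evalRingHom (0 : ZMod p)) (b i)) = a := by
    funext i
    simp [b]
  have e2 : (evalRingHom (0 : ZMod p)) X = 0 := by simp
  have e3 : (theta ((ZMod p)[X]) p ^ 3).map (evalRingHom (0 : ZMod p)) = theta (ZMod p) p ^ 3 := by
    rw [Polynomial.map_pow, theta_map]
  rw [e1, e2, e3, SS_p_zero p hp5 h1 h2, sub_zero, map_ofNat] at hev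
  exact (mul_eq_zero.1 hev).resolve_left (nine_ne p hp5)

theorem nn_nat {a : ℕ → ZMod p} (hp5 : 5 ≤ p) (ha : Key a) (ha0 : a 0 = 0) (h1 : 6 * a 1 = -1)
    (h2 : 54 * a 2 = 7) (j : ℕ) (hj : j < p) : nn a (theta (ZMod p) p ^ 3) (j : ZMod p) = 0 := by
  have hp2 : p ≠ 2 := by omega
  have hT : (theta (ZMod p) p ^ 3).comp (X + 1) = theta (ZMod p) p ^ 3 := by
    rw [pow_comp, theta_comp_add_one p hp.out.pos (ZMod.natCast_self p)]
  have hL : ∀ P : (ZMod p)[X], Lam a (theta (ZMod p) p ^ 3 * P) = 0 := by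
    intro P
    apply Lam_theta_cube p hp2 (ZMod.natCast_self p) _ ha
    intro x hx
    exact (mul_eq_zero.1 hx).resolve_left (nine_ne p hp5)
  induction j with
  | zero => simpa using nn_zero p hp5 ha ha0 h1 h2
  | succ j ih =>
    have hfe := nn_fe ha ha0 _ hT hL ((j + 1 : ℕ) : ZMod p)
    have e1 : (((j + 1 : ℕ) : ZMod p) - 1) = (j : ZMod p) := by push_cast; ring
    have e2 : (theta (ZMod p) p ^ 3).eval ((j + 1 : ℕ) : ZMod p) = 0 := by
      rw [eval_pow, theta_eval,
        Finset.prod_eq_zero (i := j + 1) (Finset.mem_range.2 hj) (by simp)]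
      norm_num
    rw [e1, e2, ih (by omega)] at hfe
    have h3 : ((j + 1 : ℕ) : ZMod p) ^ 3 * nn a (theta (ZMod p) p ^ 3) ((j + 1 : ℕ) : ZMod p)
        = 0 := by
      rw [hfe]; ring
    exact (mul_eq_zero.1 h3).resolve_left
      (pow_ne_zero _ (natCast_ne_zero_of_lt p (Nat.succ_pos j) hj))

/-- **Lemma L modulo `p`, `k = 2`**. -/
theorem Lam_theta_sq {a : ℕ → ZMod p} (hp5 : 5 ≤ p) (ha : Key a) (ha0 : a 0 = 0)
    (h1 : 6 * a 1 = -1) (h2 : 54 * a 2 = 7) (Q : (ZMod p)[X]) :
    Lam a (theta (ZMod p) p ^ 2 * Q) = 0 := by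
  have hp2 : p ≠ 2 := by omega
  have hL : ∀ P : (ZMod p)[X], Lam a (theta (ZMod p) p ^ 3 * P) = 0 := by
    intro P
    apply Lam_theta_cube p hp2 (ZMod.natCast_self p) _ ha
    intro x hx
    exact (mul_eq_zero.1 hx).resolve_left (nine_ne p hp5)
  let v : ℕ → ZMod p := fun j => (j : ZMod p)
  have hinj : Set.InjOn v (range p : Set ℕ) := by
    intro i hi j hj hij
    have hi' : i < p := by simpa using hi
    have hj' : j < p := by simpa using hj
    have h := congrArg ZMod.val (hij : (i : ZMod p) = (j : ZMod p))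
    rwa [ZMod.val_cast_of_lt hi', ZMod.val_cast_of_lt hj'] at h
  have hsum := Lagrange.sum_basis hinj ⟨0, Finset.mem_range.2 hp.out.pos⟩
  have hnod : Lagrange.nodal (range p) v = theta (ZMod p) p := by
    unfold Lagrange.nodal theta
    apply Finset.prod_congr rfl
    intro j _
    simp [v]
  have hQ : theta (ZMod p) p ^ 2 * Q
      = ∑ j ∈ range p, theta (ZMod p) p ^ 2 * Lagrange.basis (range p) v j * Q := by
    rw [← Finset.sum_mul, ← Finset.mul_sum, hsum, mul_one]
  rw [hQ, map_sum]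
  apply Finset.sum_eq_zero
  intro j hj
  have hjp := Finset.mem_range.1 hj
  rw [Lagrange.basis_eq_prod_sub_inv_mul_nodal_div hj, ← Lagrange.nodal_erase_eq_nodal_div hj]
  set w := Lagrange.nodalWeight (range p) v j
  set D := theta (ZMod p) p ^ 2 * Lagrange.nodal ((range p).erase j) v with hD
  have hDm : (X - C (v j)) * D = theta (ZMod p) p ^ 3 - C ((theta (ZMod p) p ^ 3).eval (v j)) := by
    have e2 : (theta (ZMod p) p ^ 3).eval (v j) = 0 := by
      rw [eval_pow, theta_eval, Finset.prod_eq_zero (i := j) hj (by simp [v])]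
      norm_num
    have e3 := Lagrange.nodal_eq_mul_nodal_erase (v := v) hj
    rw [hnod] at e3
    rw [e2, C_0, sub_zero, hD]
    calc (X - C (v j)) * (theta (ZMod p) p ^ 2 * Lagrange.nodal ((range p).erase j) v)
        = theta (ZMod p) p ^ 2 * ((X - C (v j)) * Lagrange.nodal ((range p).erase j) v) := by ring
      _ = _ := by rw [← e3]; ring
  have hD0 : Lam a D = 0 := by
    rw [dd_unique _ _ D hDm]
    exact nn_nat p hp5 ha ha0 h1 h2 j hjp
  have hQd : Q = C (Q.eval (v j)) + (X - C (v j)) * (Q /ₘ (X - C (v j))) := by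
    have h := modByMonic_add_div Q (X - C (v j))
    rw [modByMonic_X_sub_C_eq_C_eval] at h
    exact h.symm
  have hfin : theta (ZMod p) p ^ 2 * (C w * Lagrange.nodal ((range p).erase j) v) * Q
      = C (w * Q.eval (v j)) * D + C w * (theta (ZMod p) p ^ 3 * (Q /ₘ (X - C (v j)))) := by
    have e2 : (theta (ZMod p) p ^ 3).eval (v j) = 0 := by
      rw [eval_pow, theta_eval, Finset.prod_eq_zero (i := j) hj (by simp [v])]
      norm_num
    rw [e2, C_0, sub_zero] at hDm
    rw [← hDm]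
    nth_rewrite 1 [hQd]
    rw [C_mul, hD]
    ring
  rw [hfin, map_add, Lam_C_mul, Lam_C_mul, hD0, hL]
  ring

end zmod

end Crest.Agent.R006.LemLx170
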