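import Crest.Agent.R006.Link_724

/-!
Row 6 (helper724): the jump `J v` near the star points `l + 1/2`.

`Jst v l` is holomorphic on `‖s - (l+1/2)‖ ≤ 1/4`, equal to `J v` off the centre, with Taylor germ
`Kr (K0J v) l` at the centre; circle form of the star term.
-/

set_option autoImplicit false

namespace Crest.Agent.R006.Base724

open Polynomial Filter Topology
open Crest.Agent.R006.NV Crest.Agent.R006.Germ724

/-- `J v` near `l + 1/2`, with the removable singularity removed -/
noncomputable def Jst (v : Fin 3 → ℂ) : ℕ → ℂ → ℂ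
  | 0 => fun s => -8 * UP v 0 (s - 1) / s ^ 3
  | l + 1 => fun s => -((2 * s - 1) ^ 3) * Jst v l (s - 1) / s ^ 3

/-- star point -/
noncomputable def star (l : ℕ) : ℂ := (l : ℂ) + 1 / 2

lemma star_succ (l : ℕ) : star (l + 1) = star l + 1 := by
  unfold star; push_cast; ring

lemma re_star (l : ℕ) : (star l).re = l + 1 / 2 := by
  unfold star; simp

lemma ne_of_near {l : ℕ} {s a : ℂ} (hs : ‖s - star l‖ ≤ 1 / 4) (ha : a.re + 1 / 4 < l + 1 / 2) :
    s ≠ a := by
  rintro rfl
  have h1 : |(s - star l).re| ≤ 1 / 4 := (Complex.abs_re_le_norm _).trans hs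
  rw [Complex.sub_re, re_star] at h1
  have := (abs_le.mp h1).1
  linarith

lemma near_pred {l : ℕ} {s : ℂ} (hs : ‖s - star (l + 1)‖ ≤ 1 / 4) : ‖(s - 1) - star l‖ ≤ 1 / 4 := by
  rw [star_succ] at hs
  have e : (s - 1) - star l = s - (star l + 1) := by ring
  rw [e]; exact hs

lemma near_zero {s : ℂ} (hs : ‖s - star 0‖ ≤ 1 / 4) : ‖(s - 1) - site 0‖ ≤ 1 / 4 := by
  have e : (s - 1) - site 0 = s - star 0 := by
    rw [site_zero]; unfold star; push_cast; ring
  rw [e]; exact hs

lemma ne_zero_near {l : ℕ} {s : ℂ} (hs : ‖s - star l‖ ≤ 1 / 4) : s ≠ 0 := by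
  apply ne_of_near hs
  have : (0 : ℝ) ≤ l := Nat.cast_nonneg l
  simp
  linarith

lemma Jst_differentiableAt (v : Fin 3 → ℂ) (l : ℕ) {s : ℂ} (hs : ‖s - star l‖ ≤ 1 / 4) :
    DifferentiableAt ℂ (Jst v l) s := by
  induction l generalizing s with
  | zero =>
    have h0 : s ≠ 0 := ne_zero_near hs
    have h1 : DifferentiableAt ℂ (fun s => UP v 0 (s - 1)) s := by
      have h2 : DifferentiableAt ℂ (UP v 0) (s - 1) := UP_differentiableAt v 0 (near_zero hs)
      exact DifferentiableAt.comp s h2 (differentiableAt_id.sub_const 1)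
    unfold Jst
    exact (h1.const_mul (-8)).div (differentiableAt_id.pow 3) (pow_ne_zero 3 h0)
  | succ l ih =>
    have h0 : s ≠ 0 := ne_zero_near hs
    have h1 : DifferentiableAt ℂ (fun s => Jst v l (s - 1)) s :=
      DifferentiableAt.comp s (ih (near_pred hs)) (differentiableAt_id.sub_const 1)
    unfold Jst
    refine DifferentiableAt.div ?_ (differentiableAt_id.pow 3) (pow_ne_zero 3 h0)
    refine DifferentiableAt.mul ?_ h1
    exact ((((differentiableAt_id.const_mul 2).sub_const 1)).pow 3).neg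

lemma Jst_eq (v : Fin 3 → ℂ) (l : ℕ) {s : ℂ} (hs : ‖s - star l‖ ≤ 1 / 4) (hne : s ≠ star l) :
    PsiJ.J v s = Jst v l s := by
  induction l generalizing s with
  | zero =>
    have h0 : s ≠ 0 := ne_zero_near hs
    have h1 : s ≠ 1 / 2 := by
      intro h; apply hne; rw [h]; unfold star; simp
    have hr := PsiJ.J_rec v h0 h1
    have hs1 : s - 1 ≠ site 0 := by
      rw [site_zero]; intro h; apply h1; linear_combination h
    rw [PsiJ.J_eq v 0 hs1] at hr
    have e : s - 1 - PsiJ.ce 0 = s - 1 / 2 := by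
      rw [ce_eq_site, site_zero]; ring
    rw [e] at hr
    have h2 : s - 1 / 2 ≠ 0 := sub_ne_zero.mpr h1
    have h3 : (2 * s - 1) ^ 3 * (PsiJ.U 0 (s - 1) * PsiJ.P v (s - 1) / (s - 1 / 2) ^ 3) =
        8 * UP v 0 (s - 1) := by
      have : (2 * s - 1) = 2 * (s - 1 / 2) := by ring
      rw [this]
      unfold UP
      generalize s - 1 / 2 = t at h2
      generalize PsiJ.U 0 (s - 1) * PsiJ.P v (s - 1) = A
      field_simp
      ring
    rw [h3] at hr
    show PsiJ.J v s = -8 * UP v 0 (s - 1) / s ^ 3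
    rw [eq_div_iff (pow_ne_zero 3 h0)]
    linear_combination hr
  | succ l ih =>
    have h0 : s ≠ 0 := ne_zero_near hs
    have h1 : s ≠ 1 / 2 := by
      apply ne_of_near hs
      have : (0 : ℝ) ≤ l := Nat.cast_nonneg l
      have e : ((1 / 2 : ℂ)).re = 1 / 2 := by norm_num
      rw [e]; push_cast; linarith
    have hr := PsiJ.J_rec v h0 h1
    rw [ih (near_pred hs) (by
      intro h; apply hne; rw [star_succ, ← h]; ring)] at hr
    show PsiJ.J v s = -((2 * s - 1) ^ 3) * Jst v l (s - 1) / s ^ 3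
    rw [eq_div_iff (pow_ne_zero 3 h0)]
    linear_combination hr

lemma Jst_analyticAt (v : Fin 3 → ℂ) (l : ℕ) : AnalyticAt ℂ (Jst v l) (star l) := by
  apply DifferentiableOn.analyticAt (s := Metric.ball (star l) (1 / 4))
  · intro s hs
    rw [Metric.mem_ball, dist_eq_norm] at hs
    exact (Jst_differentiableAt v l hs.le).differentiableWithinAt
  · exact Metric.ball_mem_nhds _ (by norm_num)

lemma star_ne_zero (l : ℕ) : star l ≠ 0 := ne_zero_near (l := l) (by simp)

theorem T_Jst (v : Fin 3 → ℂ) (l : ℕ) : T (Jst v l) (star l) = Kr (K0J v) l := by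
  have hid : ∀ z : ℂ, AnalyticAt ℂ (fun s : ℂ => s) z := fun z => analyticAt_id
  induction l with
  | zero =>
    have hU : AnalyticAt ℂ (fun s => UP v 0 (s + -1)) (star 0) := by
      have h1 : AnalyticAt ℂ (UP v 0) (star 0 + -1) := by
        have := UP_analyticAt v 0
        have e : star 0 + -1 = site 0 := by rw [site_zero]; unfold star; push_cast; ring
        rw [e]; exact this
      exact AnalyticAt.fun_comp h1 ((hid _).fun_add analyticAt_const)
    have e : Jst v 0 = fun s => (-8 * UP v 0 (s + -1)) / s ^ 3 := by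
      ext s; rfl
    rw [e, T_div (analyticAt_const.fun_mul hU) ((hid _).fun_pow 3) (pow_ne_zero 3 (star_ne_zero 0)),
      T_mul analyticAt_const hU, T_const, T_pow (hid _), T_id, T_shift (UP v 0) (star 0) (-1)]
    have e1 : star 0 + -1 = site 0 := by rw [site_zero]; unfold star; push_cast; ring
    have e2 : star 0 = 1 / 2 := by unfold star; simp
    rw [e1, e2]
    show PowerSeries.C (-8) * T (UP v 0) (site 0) * (pt (1 / 2) ^ 3)⁻¹ =
      -8 * (pt (1 / 2 : ℂ) ^ 3)⁻¹ * K0J v
    have h8 : PowerSeries.C (-8 : ℂ) = -8 := by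
      rw [map_neg, map_ofNat]
    rw [h8]
    unfold K0J KJ
    ring
  | succ l ih =>
    have hJ : AnalyticAt ℂ (fun s => Jst v l (s + -1)) (star (l + 1)) := by
      have h1 : AnalyticAt ℂ (Jst v l) (star (l + 1) + -1) := by
        have := Jst_analyticAt v l
        have e : star (l + 1) + -1 = star l := by rw [star_succ]; ring
        rw [e]; exact this
      exact AnalyticAt.fun_comp h1 ((hid _).fun_add analyticAt_const)
    have hd := ((analyticAt_two_mul_sub_one (star (l + 1))).fun_pow 3)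
    have e : Jst v (l + 1) = fun s => (-((2 * s - 1) ^ 3) * Jst v l (s + -1)) / s ^ 3 := by
      ext s; rfl
    rw [e, T_div (hd.fun_neg.fun_mul hJ) ((hid _).fun_pow 3)
      (pow_ne_zero 3 (star_ne_zero (l + 1))), T_mul hd.fun_neg hJ, T_neg,
      T_pow (analyticAt_two_mul_sub_one _), T_two_mul_sub_one, T_pow (hid _), T_id,
      T_shift (Jst v l) (star (l + 1)) (-1)]
    have e1 : star (l + 1) + -1 = star l := by rw [star_succ]; ring
    have e2 : star (l + 1) = (l : ℂ) + 3 / 2 := by unfold star; push_cast; ring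
    rw [e1, ih, e2]
    show -den ((l : ℂ) + 3 / 2) ^ 3 * Kr (K0J v) l * (pt ((l : ℂ) + 3 / 2) ^ 3)⁻¹ =
      -(den ((l : ℂ) + 3 / 2) ^ 3) * (pt ((l : ℂ) + 3 / 2) ^ 3)⁻¹ * Kr (K0J v) l
    ring

/-- circle form of a star term -/
theorem circle_star (v : Fin 3 → ℂ) (l n : ℕ) {h : ℂ → ℂ} {r : ℝ} (hr : 0 < r) (hr' : r ≤ 1 / 4)
    (hh : DifferentiableOn ℂ h (Metric.closedBall (star l) r)) :
    (∮ s in C(star l, r), PsiJ.J v s * (h s / (s - star l) ^ (n + 1))) =
      2 * Real.pi * Complex.I * PowerSeries.coeff n (Kr (K0J v) l * T h (star l)) := by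
  have hha : AnalyticAt ℂ h (star l) := hh.analyticAt (Metric.closedBall_mem_nhds _ hr)
  have hd : DifferentiableOn ℂ (fun s => Jst v l s * h s) (Metric.closedBall (star l) r) := by
    intro s hs
    have hs' : ‖s - star l‖ ≤ 1 / 4 := by
      rw [Metric.mem_closedBall, dist_eq_norm] at hs; linarith
    exact (Jst_differentiableAt v l hs').differentiableWithinAt.mul (hh s hs)
  have hc := circle_eq hr hd n
  rw [T_mul (Jst_analyticAt v l) hha, T_Jst] at hc
  rw [← hc]
  apply circleIntegral.integral_congr hr.le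
  intro s hs
  have hs' : ‖s - star l‖ = r := by rwa [Metric.mem_sphere, dist_eq_norm] at hs
  have hne : s ≠ star l := by
    rintro rfl
    simp at hs'
    linarith
  simp only
  rw [Jst_eq v l (by rw [hs']; exact hr') hne]
  ring

end Crest.Agent.R006.Base724
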