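import Crest.Agent.R006.PsiJ3_576

/-!
# Row 6 (Catalan), block P3, analytic input (helper576), part 4

Existence (and choice) of the three parameters `v` with moments `0, -1/6, 7/54`.
-/

set_option autoImplicit false

open Complex Filter Topology Metric Set
open scoped Real

namespace Crest.Agent.R006.PsiJ

/-! ### linearity in the parameters -/

lemma P_add (v w : Fin 3 → ℂ) (s : ℂ) : P (v + w) s = P v s + P w s := by
  unfold P; simp only [Pi.add_apply]; ring

lemma P_smul (c : ℂ) (v : Fin 3 → ℂ) (s : ℂ) : P (c • v) s = c * P v s := by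
  unfold P; simp only [Pi.smul_apply, smul_eq_mul]; ring

lemma J_add (v w : Fin 3 → ℂ) (s : ℂ) : J (v + w) s = J v s + J w s := by
  unfold J; rw [P_add]; ring

lemma J_smul (c : ℂ) (v : Fin 3 → ℂ) (s : ℂ) : J (c • v) s = c * J v s := by
  unfold J; rw [P_smul]; ring

lemma L_add_param (v w : Fin 3 → ℂ) (l : ℕ) {φ : ℂ → ℂ}
    (hφ : ContinuousOn φ (sphere (ce l) (1 / 4))) : L (v + w) l φ = L v l φ + L w l φ := by
  unfold L Lr
  rw [← mul_add, ← circleIntegral.integral_add (circInt v (by norm_num) le_rfl l hφ)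
    (circInt w (by norm_num) le_rfl l hφ)]
  congr 2
  funext s
  rw [J_add]; ring

lemma L_smul_param (c : ℂ) (v : Fin 3 → ℂ) (l : ℕ) (φ : ℂ → ℂ) :
    L (c • v) l φ = c * L v l φ := by
  unfold L Lr
  have : (fun s => J (c • v) s * φ s) = fun s => c * (J v s * φ s) := by
    funext s; rw [J_smul]; ring
  rw [this, circleIntegral.integral_const_mul]
  ring

lemma M_add (v w : Fin 3 → ℂ) (j : ℕ) : M (v + w) j = M v j + M w j := by
  unfold M
  rw [← (summable_Lpow v j).tsum_add (summable_Lpow w j)]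
  congr 1
  funext l
  exact L_add_param v w l (by fun_prop)

lemma M_smul (c : ℂ) (v : Fin 3 → ℂ) (j : ℕ) : M (c • v) j = c * M v j := by
  unfold M
  rw [← tsum_mul_left]
  congr 1
  funext l
  exact L_smul_param c v l _

/-- the moment map -/
noncomputable def T : (Fin 3 → ℂ) →ₗ[ℂ] (Fin 3 → ℂ) where
  toFun v := fun i => M v i
  map_add' v w := by funext i; exact M_add v w i
  map_smul' c v := by funext i; exact M_smul c v i

/-! ### injectivity -/

lemma poly_zero (a b c : ℂ) (K : ℝ)
    (h : ∀ t : ℝ, 0 < t → t ≤ 1 / 4 → ‖a + b * t + c * t ^ 2‖ ≤ K * t ^ 3) :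
    a = 0 ∧ b = 0 ∧ c = 0 := by
  have key : ∀ (f : ℝ → ℂ) (g : ℝ → ℝ), Continuous f → Continuous g → g 0 = 0 →
      (∀ t : ℝ, 0 < t → t ≤ 1 / 4 → ‖f t‖ ≤ g t) → f 0 = 0 := by
    intro f g hf hg hg0 hle
    have h1 : Tendsto f (𝓝[>] 0) (𝓝 (f 0)) := hf.continuousAt.tendsto.mono_left nhdsWithin_le_nhds
    have h2 : Tendsto g (𝓝[>] 0) (𝓝 0) := by
      have := hg.continuousAt.tendsto (x := (0 : ℝ)) |>.mono_left (nhdsWithin_le_nhds (s := Ioi 0))
      rwa [hg0] at this
    have h3 : Tendsto f (𝓝[>] 0) (𝓝 0) := by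
      refine squeeze_zero_norm' ?_ h2
      have : Ioc (0 : ℝ) (1 / 4) ∈ 𝓝[>] (0 : ℝ) := Ioc_mem_nhdsGT (by norm_num)
      filter_upwards [this] with t ht
      exact hle t ht.1 ht.2
    exact tendsto_nhds_unique h1 h3
  have ha : a = 0 := by
    have := key (fun t => a + b * t + c * t ^ 2) (fun t => K * t ^ 3) (by fun_prop) (by fun_prop)
      (by simp) h
    simpa using this
  subst ha
  have hb : b = 0 := by
    have := key (fun t => b + c * t) (fun t => K * t ^ 2) (by fun_prop) (by fun_prop)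
      (by simp) (by
        intro t ht ht2
        have h1 := h t ht ht2
        have e : (0 : ℂ) + b * t + c * t ^ 2 = t * (b + c * t) := by ring
        rw [e, norm_mul, Complex.norm_real, Real.norm_eq_abs, abs_of_pos ht] at h1
        have e2 : K * t ^ 3 = t * (K * t ^ 2) := by ring
        rw [e2] at h1
        exact le_of_mul_le_mul_left h1 ht)
    simpa using this
  subst hb
  refine ⟨rfl, rfl, ?_⟩
  have := key (fun _ => c) (fun t => K * t) (by fun_prop) (by fun_prop)
    (by simp) (by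
      intro t ht ht2
      have h1 := h t ht ht2
      have e : (0 : ℂ) + 0 * t + c * t ^ 2 = t ^ 2 * c := by ring
      rw [e, norm_mul, norm_pow, Complex.norm_real, Real.norm_eq_abs, abs_of_pos ht] at h1
      have e2 : K * t ^ 3 = t ^ 2 * (K * t) := by ring
      rw [e2] at h1
      exact le_of_mul_le_mul_left h1 (by positivity))
  exact this

lemma P_at (v : Fin 3 → ℂ) : P v (ce 0) = v 0 - v 1 - v 2 := by
  unfold P ce
  have h1 : cexp (2 * π * I * (-(1 / 2) - ((0 : ℕ) : ℂ))) = -1 := by
    rw [show 2 * (π : ℂ) * I * (-(1 / 2) - ((0 : ℕ) : ℂ)) = -(π * I) by push_cast; ring,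
      Complex.exp_neg, Complex.exp_pi_mul_I]
    norm_num
  have h2 : cexp (-(2 * π * I * (-(1 / 2) - ((0 : ℕ) : ℂ)))) = -1 := by
    rw [show -(2 * (π : ℂ) * I * (-(1 / 2) - ((0 : ℕ) : ℂ))) = π * I by push_cast; ring,
      Complex.exp_pi_mul_I]
  rw [h1, h2]; ring

lemma P_hasDeriv (v : Fin 3 → ℂ) (s : ℂ) :
    HasDerivAt (P v) (P ![0, 2 * π * I * v 1, -(2 * π * I) * v 2] s) s := by
  unfold P
  have h1 : HasDerivAt (fun s : ℂ => cexp (2 * π * I * s)) (cexp (2 * π * I * s) * (2 * π * I * 1)) s :=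
    ((hasDerivAt_id s).const_mul (2 * π * I)).cexp
  have h2 : HasDerivAt (fun s : ℂ => cexp (-(2 * π * I * s)))
      (cexp (-(2 * π * I * s)) * (-(2 * π * I * 1))) s :=
    ((hasDerivAt_id s).const_mul (2 * π * I)).neg.cexp
  have h3 := ((hasDerivAt_const s (v 0)).add (h1.const_mul (v 1))).add (h2.const_mul (v 2))
  refine h3.congr_deriv ?_
  simp
  ring

lemma v_zero_of_jets (v : Fin 3 → ℂ) (h0 : P v (ce 0) = 0) (h1 : deriv (P v) (ce 0) = 0)
    (h2 : deriv (deriv (P v)) (ce 0) = 0) : v = 0 := by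
  have hd : deriv (P v) = P ![0, 2 * π * I * v 1, -(2 * π * I) * v 2] := by
    funext s; exact (P_hasDeriv v s).deriv
  rw [hd] at h1 h2
  rw [(P_hasDeriv _ _).deriv] at h2
  rw [P_at] at h0 h1 h2
  simp at h1 h2
  have hπ : (2 * π * I : ℂ) ≠ 0 := Complex.two_pi_I_ne_zero
  have e1 : v 2 = v 1 := by
    have : (2 * π * I : ℂ) * (v 2 - v 1) = 0 := by linear_combination h1
    rcases mul_eq_zero.mp this with h | h
    · exact absurd h hπ
    · linear_combination h
  have e2 : v 2 = -v 1 := by
    have : (2 * π * I : ℂ) * ((2 * π * I : ℂ) * (v 2 + v 1)) = 0 := by linear_combination -h2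
    rcases mul_eq_zero.mp this with h | h
    · exact absurd h hπ
    · rcases mul_eq_zero.mp h with h | h
      · exact absurd h hπ
      · linear_combination h
  have e3 : v 1 = 0 := by
    have : (2 : ℂ) * v 1 = 0 := by linear_combination e2 - e1
    simpa using this
  funext i
  fin_cases i
  · simp; rw [e1, e3] at h0; linear_combination h0
  · simpa using e3
  · simp; rw [e1, e3]

/-- the polar coefficients at `-1/2` are the Taylor coefficients of `U P` -/
lemma p_zero_eq (v : Fin 3 → ℂ) {n : ℕ} (hn : n ≤ 2) :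
    p v 0 (2 - n) = (n.factorial : ℂ)⁻¹ * iteratedDeriv n (fun s => U 0 s * P v s) (ce 0) := by
  have hd : DifferentiableOn ℂ (fun s => U 0 s * P v s) (closedBall (ce 0) (1 / 4)) := by
    intro s hs
    rw [mem_closedBall, dist_eq_norm] at hs
    exact ((U_differentiableAt 0 hs).mul (P_differentiable v s)).differentiableWithinAt
  have h := hd.circleIntegral_one_div_sub_center_pow_smul (by norm_num : (0 : ℝ) < 1 / 4) n
  unfold p L Lr
  have e : (∮ s in C(ce 0, 1 / 4), J v s * (s - ce 0) ^ (2 - n)) =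
      ∮ s in C(ce 0, 1 / 4), (1 / (s - ce 0) ^ (n + 1)) • (U 0 s * P v s) := by
    apply circleIntegral.integral_congr (by norm_num)
    intro s hs
    have hne : s ≠ ce 0 := by
      rintro rfl
      rw [mem_sphere, dist_self] at hs; norm_num at hs
    have he : s - ce 0 ≠ 0 := sub_ne_zero.mpr hne
    simp only [smul_eq_mul]
    rw [J_eq v 0 hne]
    have e3 : (s - ce 0) ^ 3 = (s - ce 0) ^ (n + 1) * (s - ce 0) ^ (2 - n) := by
      rw [← pow_add]; congr 1; omega
    rw [e3]
    field_simp
  rw [e, h, smul_eq_mul]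
  have := Complex.two_pi_I_ne_zero
  have hf : (n.factorial : ℂ) ≠ 0 := by exact_mod_cast n.factorial_ne_zero
  field_simp

lemma v_zero_of_p (v : Fin 3 → ℂ) (h : ∀ j < 3, p v 0 j = 0) : v = 0 := by
  have hU0 : U 0 (ce 0) ≠ 0 := U_ne 0 (by simp)
  have hnear : ∀ᶠ s in 𝓝 (ce 0), ‖s - ce 0‖ < 1 / 4 := by
    have := ball_mem_nhds (ce 0) (by norm_num : (0 : ℝ) < 1 / 4)
    filter_upwards [this] with s hs
    rwa [mem_ball, dist_eq_norm] at hs
  have hder : deriv (fun s => U 0 s * P v s) =ᶠ[𝓝 (ce 0)]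
      fun s => deriv (U 0) s * P v s + U 0 s * deriv (P v) s := by
    filter_upwards [hnear] with s hs
    exact deriv_fun_mul (U_differentiableAt 0 hs.le) (P_differentiable v s)
  have hUd : DifferentiableAt ℂ (deriv (U 0)) (ce 0) := by
    have h1 : DifferentiableOn ℂ (U 0) (ball (ce 0) (1 / 4)) := by
      intro s hs
      rw [mem_ball, dist_eq_norm] at hs
      exact (U_differentiableAt 0 hs.le).differentiableWithinAt
    exact (h1.deriv isOpen_ball).differentiableAt (ball_mem_nhds _ (by norm_num))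
  have hPd : DifferentiableAt ℂ (deriv (P v)) (ce 0) := by
    have hd : deriv (P v) = P ![0, 2 * π * I * v 1, -(2 * π * I) * v 2] := by
      funext s; exact (P_hasDeriv v s).deriv
    rw [hd]
    exact P_differentiable _ _
  have hP0 : P v (ce 0) = 0 := by
    have h1 := p_zero_eq v (n := 0) (by norm_num)
    rw [h 2 (by norm_num)] at h1
    simp at h1
    rcases h1 with h1 | h1
    · exact absurd h1 hU0
    · exact h1
  have hP1 : deriv (P v) (ce 0) = 0 := by
    have h1 := p_zero_eq v (n := 1) (by norm_num)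
    rw [h 1 (by norm_num), iteratedDeriv_one, hder.eq_of_nhds, hP0] at h1
    simp at h1
    rcases h1 with h1 | h1
    · exact absurd h1 hU0
    · exact h1
  have hP2 : deriv (deriv (P v)) (ce 0) = 0 := by
    have h1 := p_zero_eq v (n := 2) (by norm_num)
    have e : iteratedDeriv 2 (fun s => U 0 s * P v s) (ce 0) =
        deriv (fun s => deriv (U 0) s * P v s + U 0 s * deriv (P v) s) (ce 0) := by
      rw [show (2 : ℕ) = 1 + 1 from rfl, iteratedDeriv_succ, iteratedDeriv_one]
      exact hder.deriv_eq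
    rw [h 0 (by norm_num), e, deriv_fun_add (hUd.fun_mul (P_differentiable v _))
      ((U_differentiableAt 0 (by simp)).fun_mul hPd),
      deriv_fun_mul hUd (P_differentiable v _), deriv_fun_mul (U_differentiableAt 0 (by simp)) hPd,
      hP0, hP1] at h1
    simp at h1
    rcases h1 with h1 | h1
    · exact absurd h1 hU0
    · exact h1
  exact v_zero_of_jets v hP0 hP1 hP2

lemma T_injective : Function.Injective T := by
  rw [← LinearMap.ker_eq_bot, LinearMap.ker_eq_bot']
  intro v hv
  have hM : ∀ i : Fin 3, M v i = 0 := fun i => congrFun hv i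
  have hM0 : M v 0 = 0 := hM 0
  have hM1 : M v 1 = 0 := hM 1
  have hM2 : M v 2 = 0 := hM 2
  have hq : ∀ z, qv v z = 0 := by
    intro z; unfold qv; rw [hM0, hM1, hM2]; ring
  obtain ⟨K, hK, hpol⟩ := norm_pol_le v
  -- near -1/2 the function vanishes, so the polar part is bounded
  set K' : ℝ := ∑' l : ℕ, K * (1 / 8) ^ (l + 1) / (3 / 4) ^ 3 with hK'
  have hbound : ∀ t : ℝ, 0 < t → t ≤ 1 / 4 →
      ‖p v 0 2 + p v 0 1 * t + p v 0 0 * t ^ 2‖ ≤ K' * t ^ 3 := by
    intro t ht ht4
    set z : ℂ := ce 0 + t with hz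
    have hzre : z.re = -(1 / 2) + t := by rw [hz]; simp [ce]
    have hzce : ∀ l, z ≠ ce l := by
      intro l h
      have h1 := congrArg Complex.re h
      rw [hzre, ce_re] at h1
      have h2 : (0 : ℝ) ≤ l := Nat.cast_nonneg l
      linarith
    have hzn : ∀ n : ℕ, z ≠ -(n + 1) := by
      intro n h
      have h1 := congrArg Complex.re h
      rw [hzre] at h1
      simp at h1
      have h2 : (0 : ℝ) ≤ n := Nat.cast_nonneg n
      linarith
    have h0 := psiF_eq_zero v hq hzce hzn
    have hsum := hasSum_psiF v hzce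
    rw [h0] at hsum
    have h1 : pol v 0 z + ∑' l, pol v (l + 1) z = 0 := by
      have := hsum.summable.sum_add_tsum_nat_add 1
      rw [hsum.tsum_eq] at this
      simpa using this
    have hb : ∀ l : ℕ, ‖pol v (l + 1) z‖ ≤ K * (1 / 8) ^ (l + 1) / (3 / 4) ^ 3 := by
      intro l
      apply hpol (l + 1) z (3 / 4) (by norm_num) (by norm_num)
      have h2 : |(z - ce (l + 1)).re| ≤ ‖z - ce (l + 1)‖ := Complex.abs_re_le_norm _
      rw [Complex.sub_re, hzre, ce_re] at h2
      have h3 : (0 : ℝ) ≤ l := Nat.cast_nonneg l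
      have h4 := le_abs_self (-(1 / 2) + t - (-(1 / 2) - ((l + 1 : ℕ) : ℝ)))
      push_cast at h4 h2
      linarith
    have hsm : Summable (fun l : ℕ => K * (1 / 8) ^ (l + 1) / (3 / 4) ^ 3) := by
      have := (summable_geo8.mul_left (K * (1 / 8) / (3 / 4) ^ 3))
      refine this.congr ?_
      intro l; rw [pow_succ]; ring
    have h3 : ‖∑' l, pol v (l + 1) z‖ ≤ K' := tsum_of_norm_bounded hsm.hasSum hb
    have h4 : ‖pol v 0 z‖ ≤ K' := by
      have : pol v 0 z = -∑' l, pol v (l + 1) z := by linear_combination h1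
      rw [this, norm_neg]; exact h3
    have h5 : pol v 0 z * t ^ 3 = p v 0 2 + p v 0 1 * t + p v 0 0 * t ^ 2 := by
      unfold pol
      have : z - ce 0 = t := by rw [hz]; ring
      rw [this]
      have ht0 : (t : ℂ) ≠ 0 := by exact_mod_cast ht.ne'
      simp only [Finset.sum_range_succ, Finset.sum_range_zero, zero_add]
      field_simp
      ring
    rw [← h5, norm_mul, norm_pow, Complex.norm_real, Real.norm_eq_abs, abs_of_pos ht]
    gcongr
  obtain ⟨e2, e1, e0⟩ := poly_zero _ _ _ K' hbound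
  apply v_zero_of_p
  intro j hj
  interval_cases j
  · exact e0
  · exact e1
  · exact e2

lemma T_surjective : Function.Surjective T :=
  (LinearMap.injective_iff_surjective (f := T)).mp T_injective

/-- the parameters of the jump of `psi` -/
noncomputable def vv : Fin 3 → ℂ := Classical.choose (T_surjective ![0, -1 / 6, 7 / 54])

lemma T_vv : T vv = ![0, -1 / 6, 7 / 54] := Classical.choose_spec (T_surjective _)

lemma M_zero : M vv 0 = 0 := by
  have := congrFun T_vv 0
  simpa [T] using this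

lemma M_one : M vv 1 = -1 / 6 := by
  have := congrFun T_vv 1
  simpa [T] using this

lemma M_two : M vv 2 = 7 / 54 := by
  have := congrFun T_vv 2
  simpa [T] using this

/-- uniqueness of the parameters -/
lemma vv_unique (v : Fin 3 → ℂ) (h0 : M v 0 = 0) (h1 : M v 1 = -1 / 6) (h2 : M v 2 = 7 / 54) :
    v = vv := by
  apply T_injective
  rw [T_vv]
  funext i
  fin_cases i
  · simpa [T] using h0
  · simpa [T] using h1
  · simpa [T] using h2

/-- the analytic function `ψ` -/
noncomputable def psi : ℂ → ℂ := psiF vv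

theorem psi_rec {z : ℂ} (hz : ∀ l, z ≠ ce l) (hz1 : ∀ l, z - 1 ≠ ce l) :
    z ^ 3 * psi z + (2 * z - 1) ^ 3 * psi (z - 1) = -(3 * z - 1) / 2 := by
  have h := psiF_rec vv hz hz1
  unfold qv at h
  rw [M_zero, M_one, M_two] at h
  unfold psi
  rw [h]
  ring

end Crest.Agent.R006.PsiJ
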