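import Crest.Agent.R006.EntR2_724
import Crest.Agent.R006.PsiJ4_576

/-!
Row 6 (helper724): the discrete weights `K` are the Laurent germs of helper576's jump `J v`.

* `K_JJ : K (K0J v) l = T (U l * P v) (ce l)`;
* `L_eq_term : L v l f = term (K0J v) f l`;
* `adm_vv : Adm (K0J vv)`;
* `Jst v l` analytic near `l + 1/2`, equal to `J v` off the point, `T (Jst v l) = Kr (K0J v) l`.
-/

set_option autoImplicit false

namespace Crest.Agent.R006.Base724

open Polynomial Filter Topology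
open Crest.Agent.R006.NV Crest.Agent.R006.Germ724

lemma ce_eq_site (l : ℕ) : PsiJ.ce l = site l := rfl

/-- `(s - ce l)^3 J v s` -/
noncomputable def UP (v : Fin 3 → ℂ) (l : ℕ) (s : ℂ) : ℂ := PsiJ.U l s * PsiJ.P v s

lemma UP_differentiableAt (v : Fin 3 → ℂ) (l : ℕ) {s : ℂ} (hs : ‖s - site l‖ ≤ 1 / 4) :
    DifferentiableAt ℂ (UP v l) s :=
  (PsiJ.U_differentiableAt l hs).mul (PsiJ.P_differentiable v s)

lemma UP_analyticAt (v : Fin 3 → ℂ) (l : ℕ) : AnalyticAt ℂ (UP v l) (site l) := by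
  apply DifferentiableOn.analyticAt (s := Metric.ball (site l) (1 / 4))
  · intro s hs
    rw [Metric.mem_ball, dist_eq_norm] at hs
    exact (UP_differentiableAt v l hs.le).differentiableWithinAt
  · exact Metric.ball_mem_nhds _ (by norm_num)

/-- germs of `(s - ce l)^3 J v s` -/
noncomputable def KJ (v : Fin 3 → ℂ) (l : ℕ) : PowerSeries ℂ := T (UP v l) (site l)

/-- starting weight -/
noncomputable def K0J (v : Fin 3 → ℂ) : PowerSeries ℂ := KJ v 0

lemma UP_rec (v : Fin 3 → ℂ) (l : ℕ) {s : ℂ} (hs : s ≠ site l) (h0 : s ≠ 0) (h1 : s ≠ 1 / 2) :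
    (2 * s - 1) ^ 3 * UP v (l + 1) (s - 1) = -(s ^ 3 * UP v l s) := by
  have h := PsiJ.J_rec v h0 h1
  have e1 := PsiJ.J_eq v l hs
  have hs1 : s - 1 ≠ site (l + 1) := by
    rw [site_succ]; intro h; exact hs (sub_left_injective h)
  have e2 := PsiJ.J_eq v (l + 1) hs1
  rw [e1, e2] at h
  have e3 : s - 1 - PsiJ.ce (l + 1) = s - PsiJ.ce l := by
    rw [PsiJ.ce_succ]; ring
  rw [e3] at h
  have hne : (s - PsiJ.ce l) ^ 3 ≠ 0 := pow_ne_zero _ (sub_ne_zero.mpr hs)
  unfold UP
  rw [mul_div_assoc', neg_mul, mul_div_assoc', ← neg_div, div_left_inj' hne] at h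
  linear_combination h

lemma eventually_punctured {x : ℂ} {q : ℂ → Prop} (h : ∀ᶠ s in 𝓝[≠] x, q s) : ∃ᶠ s in 𝓝[≠] x, q s :=
  h.frequently

lemma site_ne_zero (l : ℕ) : site l ≠ 0 := by
  intro h
  have := congrArg Complex.re h
  rw [re_site] at this
  have hl : (0 : ℝ) ≤ l := Nat.cast_nonneg l
  simp at this
  linarith

lemma site_ne_half (l : ℕ) : site l ≠ 1 / 2 := by
  intro h
  have := congrArg Complex.re h
  rw [re_site] at this
  have hl : (0 : ℝ) ≤ l := Nat.cast_nonneg l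
  have e : ((1 / 2 : ℂ)).re = 1 / 2 := by norm_num
  rw [e] at this
  linarith

lemma T_two_mul_sub_one (z : ℂ) : T (fun s => 2 * s - 1) z = den z := by
  have hid : AnalyticAt ℂ (fun s : ℂ => s) z := analyticAt_id
  have h0 : AnalyticAt ℂ (fun s : ℂ => 2 * s) z := analyticAt_const.fun_mul hid
  rw [T_sub h0 analyticAt_const, T_mul analyticAt_const hid, T_const, T_const, T_id, map_ofNat,
    map_one]
  rfl

lemma analyticAt_two_mul_sub_one (z : ℂ) : AnalyticAt ℂ (fun s : ℂ => 2 * s - 1) z := by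
  have hid : AnalyticAt ℂ (fun s : ℂ => s) z := analyticAt_id
  exact (analyticAt_const.fun_mul hid).fun_sub analyticAt_const

lemma KJ_step (v : Fin 3 → ℂ) (l : ℕ) :
    den (site l) ^ 3 * KJ v (l + 1) = -(pt (site l) ^ 3 * KJ v l) := by
  have hid : AnalyticAt ℂ (fun s : ℂ => s) (site l) := analyticAt_id
  have hU := UP_analyticAt v l
  have hU1 : AnalyticAt ℂ (fun s => UP v (l + 1) (s + -1)) (site l) := by
    have h1 : AnalyticAt ℂ (UP v (l + 1)) (site l + -1) := by
      have := UP_analyticAt v (l + 1)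
      rw [site_succ] at this
      exact this
    exact AnalyticAt.fun_comp h1 (hid.fun_add analyticAt_const)
  have hA : AnalyticAt ℂ (fun s => (2 * s - 1) ^ 3 * UP v (l + 1) (s + -1)) (site l) :=
    ((analyticAt_two_mul_sub_one _).fun_pow 3).fun_mul hU1
  have hB : AnalyticAt ℂ (fun s => -(s ^ 3 * UP v l s)) (site l) :=
    ((hid.fun_pow 3).fun_mul hU).fun_neg
  have hfr : ∀ᶠ s in 𝓝[≠] (site l), (2 * s - 1) ^ 3 * UP v (l + 1) (s + -1) =
      -(s ^ 3 * UP v l s) := by
    have c1 : ∀ᶠ s in 𝓝[≠] (site l), s ≠ 0 :=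
      eventually_nhdsWithin_of_eventually_nhds (isOpen_ne.mem_nhds (site_ne_zero l))
    have c2 : ∀ᶠ s in 𝓝[≠] (site l), s ≠ 1 / 2 :=
      eventually_nhdsWithin_of_eventually_nhds (isOpen_ne.mem_nhds (site_ne_half l))
    filter_upwards [c1, c2, self_mem_nhdsWithin] with s h0 h1 h2
    have := UP_rec v l h2 h0 h1
    rw [← sub_eq_add_neg]
    exact this
  have hev := (hA.frequently_eq_iff_eventually_eq hB).mp hfr.frequently
  have hT := T_congr hev
  rw [T_mul ((analyticAt_two_mul_sub_one _).fun_pow 3) hU1, T_pow (analyticAt_two_mul_sub_one _),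
    T_two_mul_sub_one, T_neg, T_mul (hid.fun_pow 3) hU, T_pow hid, T_id,
    T_shift (UP v (l + 1)) (site l) (-1)] at hT
  unfold KJ
  rw [site_succ, sub_eq_add_neg]
  exact hT

lemma den_site_unit (l : ℕ) : PowerSeries.constantCoeff (den (site l) ^ 3) ≠ 0 := by
  rw [map_pow, den_const]
  exact pow_ne_zero _ (site_den_ne l)

theorem K_K0J (v : Fin 3 → ℂ) (l : ℕ) : K (K0J v) l = KJ v l := by
  induction l with
  | zero => rfl
  | succ l ih =>
    have h1 := K_step (K0J v) l
    have h2 := KJ_step v l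
    rw [ih, ← h2] at h1
    have hu := PowerSeries.inv_mul_cancel _ (den_site_unit l)
    calc K (K0J v) (l + 1) = ((den (site l) ^ 3)⁻¹ * den (site l) ^ 3) * K (K0J v) (l + 1) := by
          rw [hu, one_mul]
      _ = (den (site l) ^ 3)⁻¹ * (den (site l) ^ 3 * K (K0J v) (l + 1)) := by ring
      _ = (den (site l) ^ 3)⁻¹ * (den (site l) ^ 3 * KJ v (l + 1)) := by rw [h1]
      _ = ((den (site l) ^ 3)⁻¹ * den (site l) ^ 3) * KJ v (l + 1) := by ring
      _ = KJ v (l + 1) := by rw [hu, one_mul]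

/-- the circle functional is the discrete one -/
theorem L_eq_term (v : Fin 3 → ℂ) (l : ℕ) {f : ℂ → ℂ}
    (hf : DifferentiableOn ℂ f (Metric.closedBall (site l) (1 / 4))) :
    PsiJ.L v l f = term (K0J v) f l := by
  have hfa : AnalyticAt ℂ f (site l) :=
    hf.analyticAt (Metric.closedBall_mem_nhds _ (by norm_num))
  have hd : DifferentiableOn ℂ (fun s => UP v l s * f s) (Metric.closedBall (site l) (1 / 4)) := by
    intro s hs
    have hs' : ‖s - site l‖ ≤ 1 / 4 := by rwa [Metric.mem_closedBall, dist_eq_norm] at hs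
    exact (UP_differentiableAt v l hs').differentiableWithinAt.mul (hf s hs)
  have hc := circle_eq (by norm_num : (0 : ℝ) < 1 / 4) hd 2
  unfold PsiJ.L PsiJ.Lr term
  rw [K_K0J]
  have e1 : (∮ s in C(PsiJ.ce l, 1 / 4), PsiJ.J v s * f s) =
      ∮ w in C(site l, 1 / 4), UP v l w * f w / (w - site l) ^ (2 + 1) := by
    apply circleIntegral.integral_congr (by norm_num)
    intro s hs
    have hne : s ≠ PsiJ.ce l := by
      rintro rfl
      simp at hs
    simp only
    rw [PsiJ.J_eq v l hne]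
    unfold UP
    rw [ce_eq_site]
    ring
  rw [e1, hc, T_mul (UP_analyticAt v l) hfa]
  have hpi : (2 * (Real.pi : ℂ) * Complex.I) ≠ 0 := Complex.two_pi_I_ne_zero
  rw [← mul_assoc, inv_mul_cancel₀ hpi, one_mul]
  rfl

lemma mom_K0J (v : Fin 3 → ℂ) (k : ℕ) : mom (K0J v) k = -PsiJ.M v k := by
  unfold mom mu PsiJ.M
  congr 1
  refine tsum_congr fun l => ?_
  rw [L_eq_term v l ((differentiable_pow k).differentiableOn)]

theorem adm_vv : Adm (K0J PsiJ.vv) := by
  constructor
  · rw [mom_K0J, PsiJ.M_zero, neg_zero]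
  · rw [mom_K0J, PsiJ.M_one]; norm_num
  · rw [mom_K0J, PsiJ.M_two]

/-- `mu` as a sum of circle integrals -/
theorem hasSum_L (v : Fin 3 → ℂ) {f : ℂ → ℂ} (hf : Good f)
    (hd : ∀ l, DifferentiableOn ℂ f (Metric.closedBall (site l) (1 / 4))) :
    HasSum (fun l => PsiJ.L v l f) (-mu (K0J v) f) := by
  have h := hf.hasSum (K0J v)
  refine h.congr_fun ?_ |> fun x => x
  intro l
  exact L_eq_term v l (hd l)

end Crest.Agent.R006.Base724
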