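import Crest.Agent.R006.Defs
import Crest.Agent.R006.Ded

/-!
# Row 6: the final deduction from the frozen block statements (helper378)

`main`: P2 (`NV`), P3 (`Arch`), P6/P7 (`AtPrime` 2, 3) and P4+P5+P8 (`Odd`) with a negative total
give the irrationality of Catalan's constant.
-/

set_option autoImplicit false

namespace Crest.Agent.R006.D

open Polynomial Filter

/-- every entry has degree at most one -/
theorem natDegree_entry_le (S : Shape) (u : ℕ) (ρ : Row) (j : Col S u) :
    (entry S u ρ j).natDegree ≤ 1 := by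
  rcases j with l | l | l
  · have e : entry S u ρ (Sum.inl l) = C (-(ent1 (polR S u l) ρ)) * X + C (ent0 (polR S u l) ρ) := by
      simp only [entry, C_neg]
      ring
    rw [e]
    exact natDegree_linear_le
  · simp [entry]
  · simp [entry]

theorem natDegree_Minor_le (S : Shape) (u : ℕ) (r : Col S u → Row) :
    (Minor S u r).natDegree ≤ (S.k + S.q + S.g) * u := by
  have hcard : Fintype.card (Col S u) = (S.k + S.q + S.g) * u := by
    simp only [Col, Fintype.card_sum, Fintype.card_fin]
    ring
  rw [Minor, Matrix.det_apply, ← hcard]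
  refine natDegree_sum_le_of_forall_le _ _ fun σ _ => ?_
  have h1 : (∏ i, Mat S u r (σ i) i).natDegree ≤ Fintype.card (Col S u) := by
    refine (natDegree_prod_le _ _).trans ?_
    refine (Finset.sum_le_card_nsmul _ _ 1 fun i _ => natDegree_entry_le S u _ _).trans ?_
    simp
  rcases Int.units_eq_one_or (Equiv.Perm.sign σ) with hs | hs
  · rw [hs, one_smul]; exact h1
  · rw [hs, Units.neg_smul, one_smul, natDegree_neg]; exact h1

theorem aeval_ratCast (γ : ℚ) (P : ℚ[X]) : aeval (γ : ℝ) P = ((P.eval γ : ℚ) : ℝ) := by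
  have h := Polynomial.aeval_algebraMap_apply ℝ γ P
  simpa using h

/-- **The final deduction.** -/
theorem main (S : Shape) (c : ℕ) {αa α2 α3 αo : ℝ}
    (hneg : αa + α2 * Real.log 2 + α3 * Real.log 3 + αo < 0)
    (hNV : NV S c) (hA : Arch S c αa) (h2 : AtPrime S c 2 α2) (h3 : AtPrime S c 3 α3)
    (ho : Odd S c αo) : Irrational GG := by
  set T : ℝ := αa + α2 * Real.log 2 + α3 * Real.log 3 + αo with hT
  have hl2 : 0 < Real.log 2 := Real.log_pos (by norm_num)
  have hl3 : 0 < Real.log 3 := Real.log_pos (by norm_num)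
  set s : ℝ := 2 + Real.log 2 + Real.log 3 with hs
  have hspos : 0 < s := by positivity
  set δ : ℝ := -T / (2 * s) with hδ
  have hδpos : 0 < δ := div_pos (by linarith) (by linarith)
  have hδs : δ * s = -T / 2 := by rw [hδ]; field_simp
  refine Crest.Agent.R006.irrational_of_rat_polys GG ((S.k + S.q + S.g : ℕ) : ℝ) (-T / 2)
    (by linarith) fun γ hγ D0 => ?_
  obtain ⟨u, ⟨⟨⟨⟨hu1, huA⟩, hu2⟩, hu3⟩, huo⟩, huD⟩ :=
    ((((((hNV γ).and (hA δ hδpos)).and (h2 δ hδpos)).and (h3 δ hδpos)).and
      (ho δ hδpos)).and (eventually_ge_atTop D0)).exists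
  obtain ⟨r, hr, hne⟩ := hu1
  obtain ⟨A, E, hAp, hE, hsum⟩ := huo r hr
  have hbA := huA r hr
  have hb2 := hu2 r hr
  have hb3 := hu3 r hr
  have h2A : 2 ∉ A := fun h => by have := (hAp 2 h).2; omega
  have h3A : 3 ∉ A := fun h => by have := (hAp 3 h).2; omega
  have h23A : 2 ∉ insert 3 A := by
    intro h
    rcases Finset.mem_insert.mp h with h | h
    · omega
    · exact h2A h
  set E' : ℕ → ℝ := fun p => if p = 2 then (α2 + δ) * (u : ℝ) ^ 2
    else if p = 3 then (α3 + δ) * (u : ℝ) ^ 2 else E p with hE'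
  have key : ∀ (P : ℚ[X]) (p : ℕ) (x : ℝ), Loss p P x → ∀ i, P.coeff i ≠ 0 →
      -⌊x⌋ ≤ padicValRat p (P.coeff i) := by
    intro P p x h i hi
    have h1 := h i hi
    have h2 : ((-padicValRat p (P.coeff i) : ℤ) : ℝ) ≤ x := by push_cast; linarith
    have h3 := Int.le_floor.mpr h2
    linarith
  refine ⟨u, huD, Minor S u r, insert 2 (insert 3 A), fun p => ⌊E' p⌋, ?_, ?_, ?_, ?_, ?_⟩
  · intro p hp
    rcases Finset.mem_insert.mp hp with rfl | hp
    · exact Nat.prime_two
    rcases Finset.mem_insert.mp hp with rfl | hp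
    · exact Nat.prime_three
    exact (hAp p hp).1
  · intro p hp i hi
    by_cases hp2 : p = 2
    · subst hp2
      rw [if_pos (Finset.mem_insert_self _ _)]
      have : E' 2 = (α2 + δ) * (u : ℝ) ^ 2 := by simp [hE']
      simp only [this]
      exact key _ _ _ hb2 i hi
    by_cases hp3 : p = 3
    · subst hp3
      rw [if_pos (Finset.mem_insert_of_mem (Finset.mem_insert_self _ _))]
      have : E' 3 = (α3 + δ) * (u : ℝ) ^ 2 := by simp [hE']
      simp only [this]
      exact key _ _ _ hb3 i hi
    have hp5 : 5 ≤ p := by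
      have h2p := hp.two_le
      by_contra hcon
      have : p = 4 := by omega
      subst this
      exact absurd hp (by norm_num)
    have h1 := hE p hp hp5
    by_cases hpA : p ∈ A
    · rw [if_pos (Finset.mem_insert_of_mem (Finset.mem_insert_of_mem hpA))]
      rw [if_pos hpA] at h1
      have : E' p = E p := by simp [hE', hp2, hp3]
      simp only [this]
      exact key _ _ _ h1 i hi
    · have hn : p ∉ insert 2 (insert 3 A) := by
        simp [hp2, hp3, hpA]
      rw [if_neg hn]
      rw [if_neg hpA] at h1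
      have := key _ _ _ h1 i hi
      simpa using this
  · have h1 := natDegree_Minor_le S u r
    have h2 : ((Minor S u r).natDegree : ℝ) ≤ (((S.k + S.q + S.g) * u : ℕ) : ℝ) := by
      exact_mod_cast h1
    rw [Nat.cast_mul] at h2
    exact h2
  · rw [← hγ, aeval_ratCast]
    exact_mod_cast hne
  · have hu0 : (0 : ℝ) ≤ (u : ℝ) ^ 2 := by positivity
    have hne' : aeval GG (Minor S u r) ≠ 0 := by
      rw [← hγ, aeval_ratCast]
      exact_mod_cast hne
    have hlog : Real.log |aeval GG (Minor S u r)| ≤ (αa + δ) * (u : ℝ) ^ 2 := by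
      rw [Real.log_le_iff_le_exp (abs_pos.mpr hne')]
      exact hbA
    have hfl : ∑ p ∈ insert 2 (insert 3 A), ((⌊E' p⌋ : ℤ) : ℝ) * Real.log p
        ≤ ∑ p ∈ insert 2 (insert 3 A), E' p * Real.log p := by
      refine Finset.sum_le_sum fun p hp => ?_
      refine mul_le_mul_of_nonneg_right (Int.floor_le _) (Real.log_nonneg ?_)
      have hpp : p.Prime := by
        rcases Finset.mem_insert.mp hp with rfl | hp
        · exact Nat.prime_two
        rcases Finset.mem_insert.mp hp with rfl | hp
        · exact Nat.prime_three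
        exact (hAp p hp).1
      exact_mod_cast hpp.one_lt.le
    have hsum' : ∑ p ∈ A, E' p * Real.log p = ∑ p ∈ A, E p * Real.log p := by
      refine Finset.sum_congr rfl fun p hp => ?_
      have h5 := (hAp p hp).2
      have : E' p = E p := by
        simp only [hE']
        rw [if_neg (by omega), if_neg (by omega)]
      rw [this]
    have hexp : ∑ p ∈ insert 2 (insert 3 A), E' p * Real.log p =
        E' 2 * Real.log 2 + (E' 3 * Real.log 3 + ∑ p ∈ A, E p * Real.log p) := by
      rw [Finset.sum_insert h23A, Finset.sum_insert h3A, hsum']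
      norm_num
    rw [hexp] at hfl
    have e2 : E' 2 = (α2 + δ) * (u : ℝ) ^ 2 := by simp [hE']
    have e3 : E' 3 = (α3 + δ) * (u : ℝ) ^ 2 := by simp [hE']
    rw [e2, e3] at hfl
    have e4 : (αa + δ) * (u : ℝ) ^ 2 + ((α2 + δ) * (u : ℝ) ^ 2 * Real.log 2
        + ((α3 + δ) * (u : ℝ) ^ 2 * Real.log 3 + (αo + δ) * (u : ℝ) ^ 2))
        = (T + δ * s) * (u : ℝ) ^ 2 := by
      rw [hT, hs]; ring
    have e5 : (T + δ * s) = -(-T / 2) := by rw [hδs]; ring
    rw [e5] at e4
    linarith

end Crest.Agent.R006.D
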