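import Crest.Agent.R006.Toll_814
import Crest.Agent.R006.P9_SF_481

set_option autoImplicit false

/-!
# Row 6, blocks P5/P8: the middle range `√(C b) < p ≤ ε b` in closed form (helper757)

* `vsf_eq`: `v_p (sf m) = t m - p t (t+1)/2`, `t = ⌊m/p⌋`, for `m ≤ p²`.
* `bulk_ge`: choice of the multipliers `λ, μ` and of the row potentials `π` (`P` in polar classes,
  `P + 2` in regular classes) in the toll inequality: the result is
  `v ≥ v_p(sf A) + v_p(sf q) + v_p(sf K) - A/2 + K + (N_reg - N_pol) + D - (3/4) p - (A/p + 1)/2`.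
-/

namespace Crest.Agent.R006.Midx757

open Finset Tollx814

/-- `⌊m/p⌋ m - p ⌊m/p⌋ (⌊m/p⌋+1)/2` (doubled) -/
lemma two_sum_div (p m : ℕ) (hp : 0 < p) :
    2 * (∑ k ∈ range m, ((k / p : ℕ) : ℤ)) =
      2 * ((m / p : ℕ) : ℤ) * m - p * (((m / p : ℕ) : ℤ) * ((m / p : ℕ) + 1)) := by
  induction m with
  | zero => simp
  | succ m ih =>
    rw [Finset.sum_range_succ, mul_add, ih]
    have h1 : (m + 1) / p = m / p + if p ∣ m + 1 then 1 else 0 := Nat.succ_div
    by_cases h : p ∣ m + 1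
    · rw [if_pos h] at h1
      have h2 : (m + 1) / p * p = m + 1 := Nat.div_mul_cancel h
      rw [h1] at h2 ⊢
      have h3 : (((m / p : ℕ) : ℤ) + 1) * p = m + 1 := by exact_mod_cast h2
      push_cast
      nlinarith
    · rw [if_neg h, add_zero] at h1
      rw [h1]
      push_cast
      ring

/-- valuation of the superfactorial for `m ≤ p²` -/
theorem vsf_eq (p m : ℕ) [hp : Fact p.Prime] (hm : m ≤ p ^ 2) :
    2 * ((padicValNat p (sf m) : ℕ) : ℤ) =
      2 * ((m / p : ℕ) : ℤ) * m - p * (((m / p : ℕ) : ℤ) * ((m / p : ℕ) + 1)) := by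
  rw [← two_sum_div p m hp.out.pos]
  congr 1
  have h1 : padicValNat p (sf m) = ∑ k ∈ range m, padicValNat p k.factorial := by
    unfold sf
    have key : ∀ s : Finset ℕ, padicValNat p (∏ k ∈ s, k.factorial) =
        ∑ k ∈ s, padicValNat p k.factorial := by
      intro s
      induction s using Finset.induction_on with
      | empty => simp
      | insert a s ha ih =>
        rw [Finset.prod_insert ha, Finset.sum_insert ha,
          padicValNat.mul (Nat.factorial_ne_zero a)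
            (Finset.prod_ne_zero_iff.mpr fun k _ => Nat.factorial_ne_zero k), ih]
    exact key _
  rw [h1, Nat.cast_sum]
  refine Finset.sum_congr rfl fun k hk => ?_
  have hk' : k < p ^ 2 := lt_of_lt_of_le (Finset.mem_range.mp hk) hm
  have h2 : padicValNat p k.factorial = k / p := by
    rcases Nat.eq_zero_or_pos k with rfl | hk0
    · simp
    · have hlog : Nat.log p k < 2 := Nat.log_lt_of_lt_pow hk0.ne' hk'
      rw [padicValNat_factorial hlog]
      simp
  rw [h2]

lemma tri_le (x : ℤ) : 2 * tri x ≤ x * (x + 1) := by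
  rcases le_total 0 x with h | h
  · exact (tri_two_mul h).le
  · rw [tri_of_nonpos h]
    rcases eq_or_lt_of_le h with h0 | h0
    · rw [h0]; norm_num
    · nlinarith

/-- the doubled polynomial value of the superfactorial valuation -/
def vv (p : ℕ) (m : ℕ) : ℤ := 2 * ((m / p : ℕ) : ℤ) * m - p * (((m / p : ℕ) : ℤ) * ((m / p : ℕ) + 1))

/-- **The bulk estimate.** `hp` odd number of classes: `(p+1)/2` polar, `(p-1)/2` regular ones. -/
theorem bulk_ge (p A q K : ℕ) (Npol Nreg D V : ℤ) (hodd : p % 2 = 1)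
    (hN : Npol + Nreg = A + q + K)
    (H : ∀ P lam mu : ℤ, -1 ≤ P → lam * A + mu * K + P * Npol + (P + 2) * Nreg + D
      - ((p + 1) / 2 : ℕ) * (tri (P + lam + 2) + tri P + tri (P + mu))
      - ((p - 1) / 2 : ℕ) * (tri (P + lam + 1) + tri (P + 2) + tri (P + mu)) ≤ V) :
    (vv p A + vv p q + vv p K : ℝ) / 2 - A / 2 + K + (Nreg - Npol) + D
      - 3 / 4 * p - ((A / p : ℕ) + 1) / 2 ≤ (V : ℝ) := by
  obtain ⟨n, hn⟩ : ∃ n, p = 2 * n + 1 := ⟨p / 2, by omega⟩
  have hp1 : (p + 1) / 2 = n + 1 := by omega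
  have hp2 : (p - 1) / 2 = n := by omega
  rw [hp1, hp2] at H
  have hp0 : 0 < p := by omega
  set t1 : ℤ := ((A / p : ℕ) : ℤ) with ht1
  set t2 : ℤ := ((q / p : ℕ) : ℤ) with ht2
  set t3 : ℤ := ((K / p : ℕ) : ℤ) with ht3
  have h10 : 0 ≤ t1 := by positivity
  have h20 : 0 ≤ t2 := by positivity
  have h30 : 0 ≤ t3 := by positivity
  -- remainder of `A`
  have hA : (A : ℤ) = p * t1 + (A % p : ℕ) := by
    have := Nat.div_add_mod A p
    have h' : ((p * (A / p) + A % p : ℕ) : ℤ) = (A : ℤ) := by rw [this]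
    push_cast at h'
    rw [ht1]; push_cast; linarith
  have hr0 : (0 : ℤ) ≤ (A % p : ℕ) := by positivity
  have hrp : ((A % p : ℕ) : ℤ) < p := by exact_mod_cast Nat.mod_lt A hp0
  have hpn : (p : ℤ) = 2 * n + 1 := by exact_mod_cast hn
  have hvA : vv p A = 2 * t1 * A - p * (t1 * (t1 + 1)) := rfl
  have hvq : vv p q = 2 * t2 * q - p * (t2 * (t2 + 1)) := rfl
  have hvK : vv p K = 2 * t3 * K - p * (t3 * (t3 + 1)) := rfl
  have key : 4 * V ≥ 2 * (vv p A + vv p q + vv p K) - 2 * A + 4 * K + 4 * (Nreg - Npol) + 4 * D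
      - 3 * p - 2 * (t1 + 1) := by
    rcases le_total (2 * ((A % p : ℕ) : ℤ)) p with hc | hc
    · -- `lam = t1 - t2 - 1`
      have h := H (t2 - 1) (t1 - t2 - 1) (t3 - t2 + 1) (by linarith)
      have e1 : t2 - 1 + (t1 - t2 - 1) + 2 = t1 := by ring
      have e2 : t2 - 1 + (t3 - t2 + 1) = t3 := by ring
      have e3 : t2 - 1 + (t1 - t2 - 1) + 1 = t1 - 1 := by ring
      have e4 : t2 - 1 + 2 = t2 + 1 := by ring
      rw [e1, e2, e3, e4] at h
      have f1 := tri_le t1
      have f2 := tri_le (t2 - 1)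
      have f3 := tri_le t3
      have f4 := tri_le (t1 - 1)
      have f5 := tri_le (t2 + 1)
      have hn0 : (0 : ℤ) ≤ n := by positivity
      have g1 : ((n : ℤ) + 1) * (2 * (tri t1 + tri (t2 - 1) + tri t3)) ≤
          (n + 1) * (t1 * (t1 + 1) + (t2 - 1) * (t2 - 1 + 1) + t3 * (t3 + 1)) :=
        mul_le_mul_of_nonneg_left (by linarith) (by linarith)
      have g2 : (n : ℤ) * (2 * (tri (t1 - 1) + tri (t2 + 1) + tri t3)) ≤
          n * ((t1 - 1) * (t1 - 1 + 1) + (t2 + 1) * (t2 + 1 + 1) + t3 * (t3 + 1)) :=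
        mul_le_mul_of_nonneg_left (by linarith) hn0
      push_cast at h
      rw [hvA, hvq, hvK, hpn] at *
      nlinarith
    · have h := H (t2 - 1) (t1 - t2) (t3 - t2 + 1) (by linarith)
      have e1 : t2 - 1 + (t1 - t2) + 2 = t1 + 1 := by ring
      have e2 : t2 - 1 + (t3 - t2 + 1) = t3 := by ring
      have e3 : t2 - 1 + (t1 - t2) + 1 = t1 := by ring
      have e4 : t2 - 1 + 2 = t2 + 1 := by ring
      rw [e1, e2, e3, e4] at h
      have f1 := tri_le (t1 + 1)
      have f2 := tri_le (t2 - 1)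
      have f3 := tri_le t3
      have f4 := tri_le t1
      have f5 := tri_le (t2 + 1)
      have hn0 : (0 : ℤ) ≤ n := by positivity
      have g1 : ((n : ℤ) + 1) * (2 * (tri (t1 + 1) + tri (t2 - 1) + tri t3)) ≤
          (n + 1) * ((t1 + 1) * (t1 + 1 + 1) + (t2 - 1) * (t2 - 1 + 1) + t3 * (t3 + 1)) :=
        mul_le_mul_of_nonneg_left (by linarith) (by linarith)
      have g2 : (n : ℤ) * (2 * (tri t1 + tri (t2 + 1) + tri t3)) ≤
          n * (t1 * (t1 + 1) + (t2 + 1) * (t2 + 1 + 1) + t3 * (t3 + 1)) :=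
        mul_le_mul_of_nonneg_left (by linarith) hn0
      push_cast at h
      rw [hvA, hvq, hvK, hpn] at *
      nlinarith
  have key' : (4 * (V : ℝ)) ≥ 2 * (vv p A + vv p q + vv p K) - 2 * A + 4 * K
      + 4 * (Nreg - Npol) + 4 * D - 3 * p - 2 * ((A / p : ℕ) + 1) := by
    have := key
    have h2 : ((2 * (vv p A + vv p q + vv p K) - 2 * A + 4 * K + 4 * (Nreg - Npol) + 4 * D
      - 3 * p - 2 * (t1 + 1) : ℤ) : ℝ) ≤ ((4 * V : ℤ) : ℝ) := by exact_mod_cast this
    have e : ((t1 : ℤ) : ℝ) = ((A / p : ℕ) : ℝ) := by rw [ht1]; exact Int.cast_natCast _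
    simp only [Int.cast_add, Int.cast_sub, Int.cast_mul, Int.cast_ofNat, Int.cast_natCast,
      Int.cast_one, e] at h2
    linarith
  linarith

end Crest.Agent.R006.Midx757
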