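import Crest.Agent.R006.CauchyEnergy_41

/-!
# Row 6, P3 (helper254): the mixed Cauchy bound (650, note 2786 (3))

Points `x` (number `|ι|`), `y` (number `|κ|`), references `X : ι'`, `Y : κ'` with
`|ι| + |κ'| = |ι'| + |κ| =: n`.  The Cauchy matrix with rows `x ∪ Y` and columns `X ∪ y` is
square, so (with mutual distances `≥ δ` between rows and columns)

  `V(x) V(y) / ∏|x - y| ≤ (n/δ)^n · ∏|x - X| ∏|y - Y| ∏|X - Y| / (V(X) V(Y) ∏|x - Y| ∏|y - X|)`.

`dd x = |V(x)|²`, `mm x y = ∏∏ |x_i - y_j|`, `en = log dd`, `me = log mm` (`CauchyEnergy_41`).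

* `mix_cauchy`      product form (squared, no division);
* `mix_cauchy_div`  quotient form;
* `mix_cauchy_log`  logarithmic form.
-/

set_option linter.unusedSectionVars false

open Finset

namespace Crest.Agent.R006.MixCauchyx254

open Crest.Agent.R006.CauchyEnergyx41

section

variable {ι κ ι' κ' : Type*} [Fintype ι] [DecidableEq ι] [Fintype κ] [DecidableEq κ]
  [Fintype ι'] [DecidableEq ι'] [Fintype κ'] [DecidableEq κ']

lemma mm_comm (x : ι → ℂ) (y : κ → ℂ) : mm x y = mm y x := by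
  unfold mm
  rw [prod_comm]
  exact prod_congr rfl fun i _ => prod_congr rfl fun j _ => by rw [norm_sub_rev]

lemma me_comm (x : ι → ℂ) (y : κ → ℂ) : me x y = me y x := by
  unfold me
  rw [sum_comm]
  exact sum_congr rfl fun i _ => sum_congr rfl fun j _ => by rw [norm_sub_rev]

lemma dd_elim (x : ι → ℂ) (y : κ → ℂ) :
    dd (Sum.elim x y) = dd x * dd y * mm x y ^ 2 := by
  classical
  have hl : ∀ i : ι, ∏ j ∈ univ.erase (Sum.inl i : ι ⊕ κ),
      ‖Sum.elim x y (Sum.inl i) - Sum.elim x y j‖ =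
      (∏ j ∈ univ.erase i, ‖x i - x j‖) * ∏ j, ‖x i - y j‖ := by
    intro i
    have h1 : (univ.erase (Sum.inl i : ι ⊕ κ)) =
        ((univ.erase i).map Function.Embedding.inl) ∪ (univ.map Function.Embedding.inr) := by
      ext a
      rcases a with a | a <;> simp [eq_comm]
    rw [h1, prod_union, prod_map, prod_map]
    · simp
    · rw [Finset.disjoint_left]
      intro a ha hb
      simp only [mem_map, mem_erase, mem_univ, and_true, true_and] at ha hb
      obtain ⟨b, _, hb'⟩ := ha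
      obtain ⟨c, hc'⟩ := hb
      rw [← hb'] at hc'
      simp at hc'
  have hr : ∀ i : κ, ∏ j ∈ univ.erase (Sum.inr i : ι ⊕ κ),
      ‖Sum.elim x y (Sum.inr i) - Sum.elim x y j‖ =
      (∏ j ∈ univ.erase i, ‖y i - y j‖) * ∏ j, ‖y i - x j‖ := by
    intro i
    have h1 : (univ.erase (Sum.inr i : ι ⊕ κ)) =
        ((univ.erase i).map Function.Embedding.inr) ∪ (univ.map Function.Embedding.inl) := by
      ext a
      rcases a with a | a <;> simp [eq_comm]
    rw [h1, prod_union, prod_map, prod_map]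
    · simp
    · rw [Finset.disjoint_left]
      intro a ha hb
      simp only [mem_map, mem_erase, mem_univ, and_true, true_and] at ha hb
      obtain ⟨b, _, hb'⟩ := ha
      obtain ⟨c, hc'⟩ := hb
      rw [← hb'] at hc'
      simp at hc'
  have hc : ∏ i : κ, ∏ j : ι, ‖y i - x j‖ = mm x y := by
    rw [mm_comm]; rfl
  have hd : ∏ i : ι, ∏ j : κ, ‖x i - y j‖ = mm x y := rfl
  unfold dd
  rw [Fintype.prod_sum_type, prod_congr rfl fun i _ => hl i, prod_congr rfl fun i _ => hr i,
    prod_mul_distrib, prod_mul_distrib, hc, hd]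
  ring

lemma mm_elim (x : ι → ℂ) (x' : κ → ℂ) (t : ι' → ℂ) (t' : κ' → ℂ) :
    mm (Sum.elim x x') (Sum.elim t t') = mm x t * mm x t' * mm x' t * mm x' t' := by
  unfold mm
  rw [Fintype.prod_sum_type]
  simp only [Sum.elim_inl, Sum.elim_inr, Fintype.prod_sum_type, prod_mul_distrib]
  ring

lemma me_elim' (x : ι → ℂ) (x' : κ → ℂ) (t : ι' → ℂ) (t' : κ' → ℂ) :
    me (Sum.elim x x') (Sum.elim t t') = me x t + me x t' + me x' t + me x' t' := by
  unfold me
  rw [Fintype.sum_sum_type]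
  simp only [Sum.elim_inl, Sum.elim_inr, Fintype.sum_sum_type, sum_add_distrib]
  ring

lemma mm_comp_equiv {α : Type*} [Fintype α] (e : α ≃ κ) (x : ι → ℂ) (y : κ → ℂ) :
    mm x (y ∘ e) = mm x y := by
  unfold mm
  exact prod_congr rfl fun i _ => e.prod_comp (fun j => ‖x i - y j‖)

/-- **Mixed Cauchy bound**, squared product form. -/
theorem mix_cauchy (x : ι → ℂ) (y : κ → ℂ) (X : ι' → ℂ) (Y : κ' → ℂ)
    (hcard : Fintype.card ι + Fintype.card κ' = Fintype.card ι' + Fintype.card κ)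
    {δ : ℝ} (hδ : 0 < δ) (h : ∀ i j, δ ≤ ‖Sum.elim x Y i - Sum.elim X y j‖) :
    dd x * dd y * (dd X * dd Y) * (mm x Y * mm y X) ^ 2 ≤
      (mm x y * (mm x X * mm y Y * mm X Y)) ^ 2 *
        ((Fintype.card ι + Fintype.card κ' : ℝ) / δ) ^
          (2 * (Fintype.card ι + Fintype.card κ')) := by
  classical
  have hc : Fintype.card (ι ⊕ κ') = Fintype.card (ι' ⊕ κ) := by
    rw [Fintype.card_sum, Fintype.card_sum, hcard]
  let e : (ι ⊕ κ') ≃ (ι' ⊕ κ) := Fintype.equivOfCardEq hc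
  have key := dd_mul_dd_le_sep (Sum.elim x Y) (Sum.elim X y ∘ e) hδ (fun i j => h i (e j))
  rw [dd_comp_equiv e, mm_comp_equiv e, dd_elim, dd_elim, mm_elim, Fintype.card_sum] at key
  push_cast at key
  rw [mm_comm X y, mm_comm Y X, mm_comm Y y] at key
  calc dd x * dd y * (dd X * dd Y) * (mm x Y * mm y X) ^ 2
      = dd x * dd Y * mm x Y ^ 2 * (dd X * dd y * mm y X ^ 2) := by ring
    _ ≤ _ := key
    _ = _ := by ring

/-- **Mixed Cauchy bound**, quotient form: `(V(x) V(y) / ∏|x-y|)²` is at most a product of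
one-point functions. -/
theorem mix_cauchy_div (x : ι → ℂ) (y : κ → ℂ) {X : ι' → ℂ} {Y : κ' → ℂ}
    (hX : Function.Injective X) (hY : Function.Injective Y)
    (hxY : ∀ i j, x i ≠ Y j) (hyX : ∀ i j, y i ≠ X j)
    (hcard : Fintype.card ι + Fintype.card κ' = Fintype.card ι' + Fintype.card κ)
    {δ : ℝ} (hδ : 0 < δ) (h : ∀ i j, δ ≤ ‖Sum.elim x Y i - Sum.elim X y j‖) :
    dd x * dd y / mm x y ^ 2 ≤
      (mm x X * mm y Y * mm X Y) ^ 2 / (dd X * dd Y * (mm x Y * mm y X) ^ 2) *
        ((Fintype.card ι + Fintype.card κ' : ℝ) / δ) ^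
          (2 * (Fintype.card ι + Fintype.card κ')) := by
  have hxy : ∀ i j, x i ≠ y j := fun i j hij => by
    have := h (Sum.inl i) (Sum.inr j)
    simp only [Sum.elim_inl, Sum.elim_inr, hij, sub_self, norm_zero] at this
    linarith
  have p1 : 0 < mm x y := mm_pos hxy
  have p2 : 0 < dd X * dd Y * (mm x Y * mm y X) ^ 2 :=
    mul_pos (mul_pos (dd_pos hX) (dd_pos hY)) (pow_pos (mul_pos (mm_pos hxY) (mm_pos hyX)) 2)
  have key := mix_cauchy x y X Y hcard hδ h
  rw [div_le_iff₀ (pow_pos p1 2)]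
  have : (mm x X * mm y Y * mm X Y) ^ 2 / (dd X * dd Y * (mm x Y * mm y X) ^ 2) *
        ((Fintype.card ι + Fintype.card κ' : ℝ) / δ) ^
          (2 * (Fintype.card ι + Fintype.card κ')) * mm x y ^ 2 =
      ((mm x y * (mm x X * mm y Y * mm X Y)) ^ 2 *
        ((Fintype.card ι + Fintype.card κ' : ℝ) / δ) ^
          (2 * (Fintype.card ι + Fintype.card κ'))) /
        (dd X * dd Y * (mm x Y * mm y X) ^ 2) := by
    field_simp
  rw [this, le_div_iff₀ p2]
  refine le_trans (le_of_eq ?_) key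
  ring

/-- **Mixed Cauchy bound**, logarithmic form. -/
theorem mix_cauchy_log {x : ι → ℂ} {y : κ → ℂ} {X : ι' → ℂ} {Y : κ' → ℂ}
    (hx : Function.Injective x) (hy : Function.Injective y)
    (hX : Function.Injective X) (hY : Function.Injective Y)
    (hxY : ∀ i j, x i ≠ Y j) (hyX : ∀ i j, y i ≠ X j)
    (hcard : Fintype.card ι + Fintype.card κ' = Fintype.card ι' + Fintype.card κ)
    {δ : ℝ} (hδ : 0 < δ) (h : ∀ i j, δ ≤ ‖Sum.elim x Y i - Sum.elim X y j‖) :
    en x + en y - 2 * me x y ≤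
      (∑ i, (2 * (∑ j, Real.log ‖x i - X j‖) - 2 * ∑ j, Real.log ‖x i - Y j‖)) +
      (∑ i, (2 * (∑ j, Real.log ‖y i - Y j‖) - 2 * ∑ j, Real.log ‖y i - X j‖)) -
      (en X + en Y - 2 * me X Y) +
      2 * (Fintype.card ι + Fintype.card κ' : ℝ) *
        Real.log ((Fintype.card ι + Fintype.card κ' : ℝ) / δ) := by
  classical
  have hc : Fintype.card (ι ⊕ κ') = Fintype.card (ι' ⊕ κ) := by
    rw [Fintype.card_sum, Fintype.card_sum, hcard]
  let e : (ι ⊕ κ') ≃ (ι' ⊕ κ) := Fintype.equivOfCardEq hc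
  have hl : Function.Injective (Sum.elim x Y) := by
    rintro (a | a) (b | b) hab
    · exact congrArg Sum.inl (hx hab)
    · exact absurd hab (hxY a b)
    · exact absurd hab.symm (hxY b a)
    · exact congrArg Sum.inr (hY hab)
  have hr : Function.Injective (Sum.elim X y) := by
    rintro (a | a) (b | b) hab
    · exact congrArg Sum.inl (hX hab)
    · exact absurd hab.symm (hyX b a)
    · exact absurd hab (hyX a b)
    · exact congrArg Sum.inr (hy hab)
  have key := en_add_en_le hl (hr.comp e.injective) hδ (fun i j => h i (e j))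
  have e1 : en (Sum.elim X y ∘ e) = en (Sum.elim X y) := by
    rw [← log_dd (hr.comp e.injective), ← log_dd hr, dd_comp_equiv e]
  have e2 : me (Sum.elim x Y) (Sum.elim X y ∘ e) = me (Sum.elim x Y) (Sum.elim X y) := by
    unfold me
    exact sum_congr rfl fun i _ => e.sum_comp (fun j => Real.log ‖_ - Sum.elim X y j‖)
  rw [e1, e2, en_elim, en_elim, me_elim', Fintype.card_sum] at key
  push_cast at key
  rw [me_comm X y, me_comm Y X, me_comm Y y] at key
  have b1 : ∑ i, (2 * (∑ j, Real.log ‖x i - X j‖) - 2 * ∑ j, Real.log ‖x i - Y j‖) =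
      2 * me x X - 2 * me x Y := by
    unfold me; rw [sum_sub_distrib, mul_sum, mul_sum]
  have b2 : ∑ i, (2 * (∑ j, Real.log ‖y i - Y j‖) - 2 * ∑ j, Real.log ‖y i - X j‖) =
      2 * me y Y - 2 * me y X := by
    unfold me; rw [sum_sub_distrib, mul_sum, mul_sum]
  rw [b1, b2]
  linarith

end

end Crest.Agent.R006.MixCauchyx254
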