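import Mathlib

/-!
Row 6, block P2 (nonvanishing): vanishing of a Casoratian for a triangular semilinear system
of any rank gives an eigenfunctional.
-/

set_option autoImplicit false

namespace Crest.Agent.R006.NV

open Matrix

variable {L : Type*} [Field L] (τ : L →+* L) {n : ℕ}

/-- the semilinear map `σ(v)_j = ∑_i τ(v_i) A i j` -/
def sg (A : Matrix (Fin n) (Fin n) L) (v : Fin n → L) : Fin n → L :=
  fun j => ∑ i, τ (v i) * A i j

lemma sg_add (A : Matrix (Fin n) (Fin n) L) (u v : Fin n → L) :
    sg τ A (u + v) = sg τ A u + sg τ A v := by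
  funext j
  simp [sg, add_mul, Finset.sum_add_distrib]

lemma sg_smul (A : Matrix (Fin n) (Fin n) L) (c : L) (v : Fin n → L) :
    sg τ A (c • v) = τ c • sg τ A v := by
  funext j
  simp [sg, Finset.mul_sum, mul_assoc]

lemma sg_zero (A : Matrix (Fin n) (Fin n) L) : sg τ A (0 : Fin n → L) = 0 := by
  funext j
  simp [sg]

/-- the orbit `σ^k v` -/
def orb (A : Matrix (Fin n) (Fin n) L) (v : Fin n → L) : ℕ → (Fin n → L)
  | 0 => v
  | k + 1 => sg τ A (orb A v k)

lemma exists_mem_span (A : Matrix (Fin n) (Fin n) L) (v : Fin n → L)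
    (W : Matrix.det (Matrix.of (fun i : Fin n => orb τ A v i)) = 0) :
    ∃ r < n, orb τ A v r ∈ Submodule.span L (orb τ A v '' {k | k < r}) := by
  by_contra hcon
  push Not at hcon
  have key : ∀ m ≤ n, LinearIndependent L (fun k : Fin m => orb τ A v k) := by
    intro m
    induction m with
    | zero => intro _; exact linearIndependent_empty_type
    | succ m ih =>
      intro hm
      have h1 := ih (by omega)
      have h2 := hcon m (by omega)
      have e : (fun k : Fin (m + 1) => orb τ A v k) =
          Fin.snoc (α := fun _ => Fin n → L) (fun k : Fin m => orb τ A v k) (orb τ A v m) := by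
        funext k
        refine Fin.lastCases ?_ ?_ k
        · simp
        · intro i; simp
      rw [e, linearIndependent_finSnoc]
      refine ⟨h1, ?_⟩
      have e2 : Set.range (fun k : Fin m => orb τ A v k) = orb τ A v '' {k | k < m} := by
        ext x
        constructor
        · rintro ⟨k, rfl⟩
          exact ⟨k, k.2, rfl⟩
        · rintro ⟨k, hk, rfl⟩
          exact ⟨⟨k, hk⟩, rfl⟩
      rw [e2]
      exact h2
  have h := key n le_rfl
  have h2 : LinearIndependent L (Matrix.of (fun i : Fin n => orb τ A v i)).row := h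
  rw [Matrix.linearIndependent_rows_iff_isUnit] at h2
  rw [Matrix.isUnit_iff_isUnit_det, W] at h2
  exact not_isUnit_zero h2

theorem exists_stable (A : Matrix (Fin n) (Fin n) L) (v : Fin n → L)
    (W : Matrix.det (Matrix.of (fun i : Fin n => orb τ A v i)) = 0) :
    ∃ V : Submodule L (Fin n → L), V ≠ ⊤ ∧ v ∈ V ∧ ∀ u ∈ V, sg τ A u ∈ V := by
  obtain ⟨r, hr, hmem⟩ := exists_mem_span τ A v W
  rcases Nat.eq_zero_or_pos r with h0 | hpos
  · subst h0
    have hv : v = 0 := by
      simpa [orb] using hmem
    subst hv
    refine ⟨⊥, ?_, Submodule.zero_mem _, ?_⟩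
    · intro h
      have h1 : Module.finrank L (⊥ : Submodule L (Fin n → L)) = n := by
        rw [h, finrank_top]; simp
      rw [finrank_bot] at h1
      omega
    · intro u hu
      rw [Submodule.mem_bot] at hu ⊢
      rw [hu, sg_zero]
  · refine ⟨Submodule.span L (orb τ A v '' {k | k < r}), ?_, ?_, ?_⟩
    · intro h
      have h1 : Module.finrank L (Submodule.span L (orb τ A v '' {k | k < r})) = n := by
        rw [h, finrank_top]; simp
      have e2 : orb τ A v '' {k | k < r} = Set.range (fun k : Fin r => orb τ A v k) := by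
        ext x
        constructor
        · rintro ⟨k, hk, rfl⟩
          exact ⟨⟨k, hk⟩, rfl⟩
        · rintro ⟨k, rfl⟩
          exact ⟨k, k.2, rfl⟩
      rw [e2] at h1
      have h2 := finrank_range_le_card (R := L) (fun k : Fin r => orb τ A v k)
      rw [Set.finrank, h1, Fintype.card_fin] at h2
      omega
    · exact Submodule.subset_span ⟨0, hpos, rfl⟩
    · intro u hu
      induction hu using Submodule.span_induction with
      | mem x hx =>
        obtain ⟨k, hk, rfl⟩ := hx
        have hk' : k < r := hk
        have e : sg τ A (orb τ A v k) = orb τ A v (k + 1) := rfl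
        rw [e]
        rcases Nat.lt_or_ge (k + 1) r with h | h
        · exact Submodule.subset_span ⟨k + 1, h, rfl⟩
        · have : k + 1 = r := by omega
          rw [this]; exact hmem
      | zero => rw [sg_zero]; exact Submodule.zero_mem _
      | add x y _ _ hx hy => rw [sg_add]; exact Submodule.add_mem _ hx hy
      | smul c x _ hx => rw [sg_smul]; exact Submodule.smul_mem _ _ hx

/-- the flag `M i = {u | u_j = 0 for j ≥ i}` -/
def flag (L : Type*) [Field L] (n i : ℕ) : Submodule L (Fin n → L) where
  carrier := {u | ∀ j : Fin n, i ≤ j → u j = 0}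
  add_mem' := by
    intro a b ha hb j hj
    simp [ha j hj, hb j hj]
  zero_mem' := by intro j _; rfl
  smul_mem' := by
    intro c a ha j hj
    simp [ha j hj]

/-- **Casoratian theorem** for triangular semilinear systems. -/
theorem casoratian_flag (A : Matrix (Fin n) (Fin n) L) (hA : ∀ i j, i < j → A i j = 0)
    (v : Fin n → L) (W : Matrix.det (Matrix.of (fun i : Fin n => orb τ A v i)) = 0) :
    ∃ i : Fin n, ∃ l : Fin n → L, l i = 1 ∧ (∀ j < i, l j = 0) ∧ ∑ j, l j * v j = 0 ∧
      ∀ j, ∑ k, A j k * l k = A i i * τ (l j) := by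
  obtain ⟨V, hV, hv, hst⟩ := exists_stable τ A v W
  have hex : ∃ m, V ⊔ flag L n m = ⊤ := by
    refine ⟨n, ?_⟩
    have : flag L n n = ⊤ := by
      rw [eq_top_iff]
      intro u _ j hj
      exact absurd j.2 (by omega)
    rw [this, sup_top_eq]
  classical
  have h1 := Nat.find_spec hex
  have h2 : ∀ m < Nat.find hex, V ⊔ flag L n m ≠ ⊤ := fun m hm => Nat.find_min hex hm
  have hpos : 0 < Nat.find hex := by
    rcases Nat.eq_zero_or_pos (Nat.find hex) with h | h
    · exfalso
      rw [h] at h1
      apply hV
      have : flag L n 0 = ⊥ := by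
        rw [eq_bot_iff]
        intro u hu
        rw [Submodule.mem_bot]
        funext j
        exact hu j (Nat.zero_le _)
      rwa [this, sup_bot_eq] at h1
    · exact h
  obtain ⟨p, hp⟩ : ∃ p, Nat.find hex = p + 1 := ⟨Nat.find hex - 1, by omega⟩
  rw [hp] at h1 h2
  have hpn : p < n := by
    by_contra hcon
    apply h2 p (by omega)
    have : flag L n p = ⊤ := by
      rw [eq_top_iff]
      intro u _ j hj
      exact absurd j.2 (by omega)
    rw [this, sup_top_eq]
  have hproper := h2 p (by omega)
  clear h2
  set i : Fin n := ⟨p, hpn⟩ with hi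
  obtain ⟨f, hf0, hf⟩ := Submodule.exists_le_ker_of_lt_top _ (lt_top_iff_ne_top.mpr hproper)
  -- decomposition of elements of the flag
  have hdec : ∀ m ∈ flag L n (p + 1), m - m i • (Pi.single i 1 : Fin n → L) ∈ flag L n p := by
    intro m hm j hj
    rcases eq_or_ne j i with h | h
    · subst h; simp
    · have : p ≠ (j : ℕ) := by
        intro hc
        apply h
        apply Fin.ext
        simp [hi, hc]
      have h3 := hm j (by omega)
      simp [h3, h]
  have hfi : f (Pi.single i 1) ≠ 0 := by
    intro h0
    apply hf0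
    apply LinearMap.ext
    intro u
    have hu : u ∈ V ⊔ flag L n (p + 1) := by rw [h1]; exact Submodule.mem_top
    obtain ⟨x, hx, m, hm, rfl⟩ := Submodule.mem_sup.mp hu
    have e1 : f x = 0 := hf (Submodule.mem_sup_left hx)
    have e2 : f (m - m i • (Pi.single i 1 : Fin n → L)) = 0 :=
      hf (Submodule.mem_sup_right (hdec m hm))
    rw [map_sub, map_smul, h0, smul_zero, sub_zero] at e2
    rw [map_add, e1, e2]; simp
  set g : (Fin n → L) →ₗ[L] L := (f (Pi.single i 1))⁻¹ • f with hg
  have hgi : g (Pi.single i 1) = 1 := by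
    simp [hg, hfi]
  have hgk : ∀ u ∈ V ⊔ flag L n p, g u = 0 := by
    intro u hu
    have : f u = 0 := hf hu
    simp [hg, this]
  have hker : ∀ u, g u = 0 → u ∈ V ⊔ flag L n p := by
    intro u hu
    have hu' : u ∈ V ⊔ flag L n (p + 1) := by rw [h1]; exact Submodule.mem_top
    obtain ⟨x, hx, m, hm, rfl⟩ := Submodule.mem_sup.mp hu'
    have e1 : g x = 0 := hgk x (Submodule.mem_sup_left hx)
    have e2 : g (m - m i • (Pi.single i 1 : Fin n → L)) = 0 :=
      hgk _ (Submodule.mem_sup_right (hdec m hm))
    rw [map_sub, map_smul, hgi, smul_eq_mul, mul_one] at e2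
    rw [map_add, e1, zero_add] at hu
    rw [hu, zero_sub, neg_eq_zero] at e2
    apply Submodule.add_mem
    · exact Submodule.mem_sup_left hx
    · have := hdec m hm
      rw [e2, zero_smul, sub_zero] at this
      exact Submodule.mem_sup_right this
  have hst' : ∀ u ∈ V ⊔ flag L n p, sg τ A u ∈ V ⊔ flag L n p := by
    intro u hu
    obtain ⟨x, hx, m, hm, rfl⟩ := Submodule.mem_sup.mp hu
    rw [sg_add]
    apply Submodule.add_mem
    · exact Submodule.mem_sup_left (hst x hx)
    · apply Submodule.mem_sup_right
      intro j hj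
      unfold sg
      apply Finset.sum_eq_zero
      intro k _
      rcases Nat.lt_or_ge k p with h | h
      · have : A k j = 0 := hA k j (by
          rw [Fin.lt_def]; omega)
        rw [this, mul_zero]
      · rw [hm k h, map_zero, zero_mul]
  have hgsum : ∀ u, g u = ∑ k, u k * g (Pi.single k 1) := by
    intro u
    conv_lhs => rw [← Finset.univ_sum_single u]
    rw [map_sum]
    apply Finset.sum_congr rfl
    intro k _
    have : (Pi.single k (u k) : Fin n → L) = u k • Pi.single k 1 := by
      rw [← Pi.single_smul, smul_eq_mul, mul_one]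
    rw [this, map_smul, smul_eq_mul]
  have hlow : ∀ j < i, g (Pi.single j 1) = 0 := by
    intro j hj
    apply hgk
    apply Submodule.mem_sup_right
    intro k hk
    have : k ≠ j := by
      intro hc
      rw [hc] at hk
      rw [Fin.lt_def] at hj
      simp [hi] at hj
      omega
    simp [this]
  have hdiag : ∑ k, A i k * g (Pi.single k 1) = A i i := by
    rw [Finset.sum_eq_single i]
    · rw [hgi, mul_one]
    · intro k _ hk
      rcases lt_or_gt_of_ne hk with h | h
      · rw [hlow k h, mul_zero]
      · rw [hA i k h, zero_mul]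
    · intro h; exact absurd (Finset.mem_univ i) h
  refine ⟨i, fun j => g (Pi.single j 1), hgi, hlow, ?_, ?_⟩
  · have := hgk v (Submodule.mem_sup_left hv)
    rw [hgsum] at this
    rw [← this]
    apply Finset.sum_congr rfl
    intro k _
    ring
  · intro j
    have h3 : g (Pi.single j 1 - g (Pi.single j 1) • (Pi.single i 1 : Fin n → L)) = 0 := by
      rw [map_sub, map_smul, hgi, smul_eq_mul, mul_one, sub_self]
    have h4 := hgk _ (hst' _ (hker _ h3))
    have e1 : sg τ A (Pi.single j 1 - g (Pi.single j 1) • (Pi.single i 1 : Fin n → L)) =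
        A j - τ (g (Pi.single j 1)) • A i := by
      have hs : ∀ k : Fin n, sg τ A (Pi.single k 1) = A k := by
        intro k
        funext l
        unfold sg
        rw [Finset.sum_eq_single k]
        · simp
        · intro b _ hb
          simp [hb]
        · intro h; exact absurd (Finset.mem_univ k) h
      rw [sub_eq_add_neg, sg_add, ← neg_one_smul L (g (Pi.single j 1) • Pi.single i 1), sg_smul,
        sg_smul, hs, hs, map_neg, map_one, neg_one_smul, ← sub_eq_add_neg]
    rw [e1, map_sub, map_smul, smul_eq_mul, hgsum (A j), hgsum (A i), hdiag] at h4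
    linear_combination h4

end Crest.Agent.R006.NV
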