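import Mathlib

/-!
Row 6, block P2 (nonvanishing): scalar first-order difference equations have no rational
solutions (except the trivial ones).
-/

set_option autoImplicit false

namespace Crest.Agent.R006.NV

open Polynomial

variable {K : Type*} [Field K]

lemma eval_taylor_one (p : K[X]) (z : K) : (taylor 1 p).eval z = p.eval (z + 1) := by
  rw [taylor_eval]

/-- chain to the right -/
lemma chain_right {q b : K[X]} (h : q ∣ b * taylor 1 q) {z : K} (hz : q.eval z = 0)
    (hfree : ∀ n : ℕ, b.eval (z + n) ≠ 0) (n : ℕ) : q.eval (z + n) = 0 := by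
  induction n with
  | zero => simpa using hz
  | succ n ih =>
    obtain ⟨r, hr⟩ := h
    have h1 := congrArg (fun p : K[X] => p.eval (z + n)) hr
    simp only [eval_mul, ih, zero_mul, eval_taylor_one] at h1
    rcases mul_eq_zero.mp h1 with h2 | h2
    · exact absurd h2 (hfree n)
    · rw [← h2]; push_cast; ring_nf

/-- chain to the left -/
lemma chain_left {q a : K[X]} (h : taylor 1 q ∣ a * q) {z : K} (hz : q.eval z = 0)
    (hfree : ∀ n : ℕ, a.eval (z - n - 1) ≠ 0) (n : ℕ) : q.eval (z - n) = 0 := by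
  induction n with
  | zero => simpa using hz
  | succ n ih =>
    obtain ⟨r, hr⟩ := h
    have h1 := congrArg (fun p : K[X] => p.eval (z - n - 1)) hr
    have e : (taylor 1 q).eval (z - n - 1) = 0 := by
      rw [eval_taylor_one, sub_add_cancel, ih]
    simp only [eval_mul, e, zero_mul] at h1
    rcases mul_eq_zero.mp h1 with h2 | h2
    · exact absurd h2 (hfree n)
    · rw [← h2]; push_cast; ring_nf

variable [CharZero K]

lemma zero_of_right {q : K[X]} {z : K} (h : ∀ n : ℕ, q.eval (z + n) = 0) : q = 0 := by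
  apply Polynomial.eq_zero_of_infinite_isRoot
  apply Set.infinite_of_injective_forall_mem (f := fun n : ℕ => z + (n : K))
  · intro a b hab
    simpa using hab
  · intro n
    exact h n

lemma zero_of_left {q : K[X]} {z : K} (h : ∀ n : ℕ, q.eval (z - n) = 0) : q = 0 := by
  apply Polynomial.eq_zero_of_infinite_isRoot
  apply Set.infinite_of_injective_forall_mem (f := fun n : ℕ => z - (n : K))
  · intro a b hab
    simpa using hab
  · intro n
    exact h n

/-- no poles: if `q ∣ b q(s+1)` and `q(s+1) ∣ a q` and no root of `b` lies in `α + 1 + ℕ` for a root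
`α` of `a`, then `q` has no root. -/
lemma no_root {q a b : K[X]} (hq : q ≠ 0) (h1 : q ∣ b * taylor 1 q) (h2 : taylor 1 q ∣ a * q)
    (hab : ∀ α β : K, a.eval α = 0 → b.eval β = 0 → ∀ n : ℕ, β ≠ α + 1 + n) (z : K) :
    q.eval z ≠ 0 := by
  intro hz
  have hb : ∃ n : ℕ, b.eval (z + n) = 0 := by
    by_contra hcon
    push Not at hcon
    exact hq (zero_of_right (chain_right h1 hz hcon))
  have ha : ∃ n : ℕ, a.eval (z - n - 1) = 0 := by
    by_contra hcon
    push Not at hcon
    exact hq (zero_of_left (chain_left h2 hz hcon))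
  obtain ⟨n, hn⟩ := hb
  obtain ⟨m, hm⟩ := ha
  apply hab _ _ hm hn (n + m)
  push_cast
  ring

omit [CharZero K] in
/-- coprime numerator and denominator: divisibilities from `a τ(p)/τ(q) + b p/q = c` -/
lemma dvd_of_eq {p q a b c : K[X]} (hpq : IsCoprime p q)
    (h : a * taylor 1 p * q + b * p * taylor 1 q = c * q * taylor 1 q) :
    q ∣ b * taylor 1 q ∧ taylor 1 q ∣ a * q := by
  have hpq' : IsCoprime (taylor 1 p) (taylor 1 q) := by
    obtain ⟨u, v, huv⟩ := hpq
    refine ⟨taylor 1 u, taylor 1 v, ?_⟩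
    rw [← taylor_mul, ← taylor_mul, ← map_add, huv, taylor_one, C_1]
  constructor
  · have h1 : q ∣ p * (b * taylor 1 q) :=
      ⟨c * taylor 1 q - a * taylor 1 p, by linear_combination h⟩
    exact hpq.symm.dvd_of_dvd_mul_left h1
  · have h1 : taylor 1 q ∣ taylor 1 p * (a * q) :=
      ⟨c * q - b * p, by linear_combination h⟩
    exact hpq'.symm.dvd_of_dvd_mul_left h1

omit [CharZero K] in
/-- degree computation -/
lemma leading_aux (p : K[X]) :
    ((X + 1) ^ 3 * taylor 1 p + (2 * X + 1) ^ 3 * p).coeff (3 + p.natDegree) = 9 * p.leadingCoeff := by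
  have e1 : natDegree (X + 1 : K[X]) ≤ 1 := by
    have : (X + 1 : K[X]) = X + C 1 := by rw [C_1]
    rw [this]; exact (natDegree_X_add_C (1 : K)).le
  have e2 : natDegree (2 * X + 1 : K[X]) ≤ 1 := by
    have : (2 * X + 1 : K[X]) = C 2 * X + C 1 := by rw [map_ofNat, C_1]
    rw [this]; exact natDegree_linear_le
  have c1 : (X + 1 : K[X]).coeff 1 = 1 := by
    rw [coeff_add, coeff_X_one, coeff_one]; norm_num
  have c2 : (2 * X + 1 : K[X]).coeff 1 = 2 := by
    have : (2 : K[X]) = C 2 := (map_ofNat C 2).symm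
    rw [this, coeff_add, coeff_C_mul, coeff_X_one, coeff_one]; norm_num
  have d1 : natDegree ((X + 1 : K[X]) ^ 3) ≤ 3 := natDegree_pow_le_of_le 3 e1
  have d2 : natDegree ((2 * X + 1 : K[X]) ^ 3) ≤ 3 := natDegree_pow_le_of_le 3 e2
  have f1 : ((X + 1 : K[X]) ^ 3).coeff 3 = 1 := by
    have := coeff_pow_of_natDegree_le (m := 3) e1
    rw [mul_one] at this
    rw [this, c1, one_pow]
  have f2 : ((2 * X + 1 : K[X]) ^ 3).coeff 3 = 8 := by
    have := coeff_pow_of_natDegree_le (m := 3) e2
    rw [mul_one] at this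
    rw [this, c2]; norm_num
  rw [coeff_add, coeff_mul_add_eq_of_natDegree_le d1 (natDegree_taylor p 1).le,
    coeff_mul_add_eq_of_natDegree_le d2 le_rfl, f1, f2, ← leadingCoeff]
  have : (taylor 1 p).coeff p.natDegree = p.leadingCoeff := coeff_taylor_natDegree 1 p
  rw [this]
  ring

/-- (S1), polynomial form: `ψ` has no rational solution. -/
theorem no_rational_psi [IsAlgClosed K] {p q : K[X]} (hq : q ≠ 0) (hpq : IsCoprime p q) :
    (X + 1) ^ 3 * taylor 1 p * q + (2 * X + 1) ^ 3 * p * taylor 1 q ≠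
      C (1 / 2) * (3 * X + 2) * q * taylor 1 q := by
  intro h
  obtain ⟨h1, h2⟩ := dvd_of_eq hpq h
  have hroot : ∀ z, q.eval z ≠ 0 := by
    apply no_root hq h1 h2
    intro α β hα hβ n hn
    simp only [eval_pow, eval_add, eval_X, eval_one, eval_mul, eval_ofNat] at hα hβ
    have hα' : α + 1 = 0 := pow_eq_zero_iff (by norm_num) |>.mp hα
    have hβ' : 2 * β + 1 = 0 := pow_eq_zero_iff (by norm_num) |>.mp hβ
    have : ((2 * n + 1 : ℕ) : K) = 0 := by
      push_cast
      linear_combination (-2) * hα' + hβ' - 2 * hn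
    exact absurd this (by exact_mod_cast (by omega : 2 * n + 1 ≠ 0))
  have hdeg : q.natDegree = 0 := by
    by_contra hne
    have hd : q.degree ≠ 0 := fun hc => hne (natDegree_eq_of_degree_eq_some hc)
    obtain ⟨z, hz⟩ := IsAlgClosed.exists_root q hd
    exact hroot z hz
  obtain ⟨c, rfl⟩ : ∃ c, q = C c := ⟨_, eq_C_of_natDegree_eq_zero hdeg⟩
  have hc : c ≠ 0 := by
    intro hc; apply hq; rw [hc, C_0]
  rw [taylor_C] at h
  have h3 : (X + 1) ^ 3 * taylor 1 p + (2 * X + 1) ^ 3 * p = C (1 / 2) * (3 * X + 2) * C c := by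
    have hCc : (C c : K[X]) ≠ 0 := hq
    apply mul_right_cancel₀ hCc
    linear_combination h
  have hp : p ≠ 0 := by
    rintro rfl
    simp only [map_zero, mul_zero, add_zero] at h3
    have h4 := congrArg (fun f : K[X] => f.eval 0) h3
    simp only [eval_zero, eval_mul, eval_C, eval_add, eval_X, mul_zero, eval_ofNat,
      zero_add] at h4
    have : (1 / 2 * 2 * c : K) = 0 := h4.symm
    apply hc
    linear_combination this
  have h5 := leading_aux p
  rw [h3] at h5
  have h6 : (C (1 / 2) * (3 * X + 2) * C c : K[X]).coeff (3 + p.natDegree) = 0 := by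
    have e : (C (1 / 2) * (3 * X + 2) * C c : K[X]) = C (3 / 2 * c) * X + C c := by
      have t3 : (3 : K[X]) = C 3 := (map_ofNat C 3).symm
      have t2 : (2 : K[X]) = C 2 := (map_ofNat C 2).symm
      rw [t3, t2]
      have : (C (3 / 2 * c) : K[X]) = C (1 / 2) * C 3 * C c := by
        rw [← C_mul, ← C_mul]; congr 1; ring
      rw [this]
      have : (C c : K[X]) = C (1 / 2) * C 2 * C c := by
        rw [← C_mul, ← C_mul]; congr 1; ring
      linear_combination (-1 : K[X]) * this
    rw [e]
    apply coeff_eq_zero_of_natDegree_lt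
    exact lt_of_le_of_lt natDegree_linear_le (by omega)
  rw [h6] at h5
  have h9 : (9 : K) ≠ 0 := by norm_num
  exact (mul_ne_zero h9 (leadingCoeff_ne_zero.mpr hp)) h5.symm

/-- (S2), polynomial form: the ratio of the `ψ`- and the `g`-character is not a coboundary. -/
theorem no_rational_ratio {p q : K[X]} (hq : q ≠ 0)
    (h : -((2 * X + 1) ^ 3) * p * taylor 1 q =
      C (1 / 4) * (X + 1) * (2 * X + 1) ^ 2 * taylor 1 p * q) : p = 0 := by
  by_contra hp
  have e1 : natDegree (X + 1 : K[X]) ≤ 1 := by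
    have : (X + 1 : K[X]) = X + C 1 := by rw [C_1]
    rw [this]; exact (natDegree_X_add_C (1 : K)).le
  have e2 : natDegree (2 * X + 1 : K[X]) ≤ 1 := by
    have : (2 * X + 1 : K[X]) = C 2 * X + C 1 := by rw [map_ofNat, C_1]
    rw [this]; exact natDegree_linear_le
  have c1 : (X + 1 : K[X]).coeff 1 = 1 := by
    rw [coeff_add, coeff_X_one, coeff_one]; norm_num
  have c2 : (2 * X + 1 : K[X]).coeff 1 = 2 := by
    have : (2 : K[X]) = C 2 := (map_ofNat C 2).symm
    rw [this, coeff_add, coeff_C_mul, coeff_X_one, coeff_one]; norm_num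
  have dp : (taylor 1 p).coeff p.natDegree = p.leadingCoeff := coeff_taylor_natDegree 1 p
  have dq : (taylor 1 q).coeff q.natDegree = q.leadingCoeff := coeff_taylor_natDegree 1 q
  have k2 : ∀ k : ℕ, ((2 * X + 1 : K[X]) ^ k).coeff k = 2 ^ k := by
    intro k
    have := coeff_pow_of_natDegree_le (m := k) e2
    rw [mul_one] at this
    rw [this, c2]
  have n2 : ∀ k : ℕ, natDegree ((2 * X + 1 : K[X]) ^ k) ≤ k := fun k =>
    (natDegree_pow_le_of_le k e2).trans (by omega)
  have L1 : ((2 * X + 1) ^ 3 * p * taylor 1 q).coeff (3 + p.natDegree + q.natDegree) =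
      8 * p.leadingCoeff * q.leadingCoeff := by
    rw [coeff_mul_add_eq_of_natDegree_le
      ((natDegree_mul_le_of_le (n2 3) le_rfl)) (natDegree_taylor q 1).le,
      coeff_mul_add_eq_of_natDegree_le (n2 3) le_rfl, k2, dq, leadingCoeff]
    norm_num
  have L2 : (C (1 / 4) * (X + 1) * (2 * X + 1) ^ 2 * taylor 1 p * q).coeff
      (3 + p.natDegree + q.natDegree) = p.leadingCoeff * q.leadingCoeff := by
    have m1 : natDegree (C (1 / 4) * (X + 1) : K[X]) ≤ 1 := (natDegree_C_mul_le _ _).trans e1
    have m2 : natDegree (C (1 / 4) * (X + 1) * (2 * X + 1) ^ 2 : K[X]) ≤ 1 + 2 :=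
      natDegree_mul_le_of_le m1 (n2 2)
    have m3 : natDegree (C (1 / 4) * (X + 1) * (2 * X + 1) ^ 2 * taylor 1 p : K[X]) ≤
        1 + 2 + p.natDegree := natDegree_mul_le_of_le m2 (natDegree_taylor p 1).le
    rw [show 3 + p.natDegree + q.natDegree = 1 + 2 + p.natDegree + q.natDegree by ring,
      coeff_mul_add_eq_of_natDegree_le m3 le_rfl,
      coeff_mul_add_eq_of_natDegree_le m2 (natDegree_taylor p 1).le,
      coeff_mul_add_eq_of_natDegree_le m1 (n2 2), k2, dp, coeff_C_mul, c1, ← leadingCoeff]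
    ring
  have h3 := congrArg (fun f : K[X] => f.coeff (3 + p.natDegree + q.natDegree)) h
  have e3 : -((2 * X + 1) ^ 3) * p * taylor 1 q = -((2 * X + 1) ^ 3 * p * taylor 1 q) := by ring
  simp only [e3, coeff_neg, L1, L2] at h3
  have h4 : (9 : K) * (p.leadingCoeff * q.leadingCoeff) = 0 := by linear_combination -h3
  have h9 : (9 : K) ≠ 0 := by norm_num
  exact (mul_ne_zero h9 (mul_ne_zero (leadingCoeff_ne_zero.mpr hp)
    (leadingCoeff_ne_zero.mpr hq))) h4

/-- (S3), polynomial form: `g` is not rational. -/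
theorem no_rational_g [IsAlgClosed K] {p q : K[X]} (hq : q ≠ 0) (hpq : IsCoprime p q)
    (h : C (1 / 4) * (X + 1) * (2 * X + 1) ^ 2 * p * taylor 1 q =
      (X + 1) ^ 3 * taylor 1 p * q) : p = 0 := by
  have hX : (X + 1 : K[X]) ≠ 0 := by
    intro h0
    have h1 := congrArg (fun f : K[X] => f.eval 0) h0
    simp at h1
  have h' : (X + 1) ^ 2 * taylor 1 p * q + (-(C (1 / 4) * (2 * X + 1) ^ 2)) * p * taylor 1 q =
      0 * q * taylor 1 q := by
    apply mul_left_cancel₀ hX
    linear_combination -h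
  obtain ⟨h1, h2⟩ := dvd_of_eq hpq h'
  have hroot : ∀ z, q.eval z ≠ 0 := by
    apply no_root hq h1 h2
    intro α β hα hβ n hn
    simp only [eval_pow, eval_add, eval_X, eval_one, eval_mul, eval_ofNat, eval_neg, eval_C,
      neg_eq_zero] at hα hβ
    have hα' : α + 1 = 0 := pow_eq_zero_iff (by norm_num) |>.mp hα
    have h4 : (1 / 4 : K) ≠ 0 := by norm_num
    have hβ' : 2 * β + 1 = 0 :=
      pow_eq_zero_iff (by norm_num) |>.mp ((mul_eq_zero.mp hβ).resolve_left h4)
    have : ((2 * n + 1 : ℕ) : K) = 0 := by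
      push_cast
      linear_combination (-2) * hα' + hβ' - 2 * hn
    exact absurd this (by exact_mod_cast (by omega : 2 * n + 1 ≠ 0))
  have hdeg : q.natDegree = 0 := by
    by_contra hne
    have hd : q.degree ≠ 0 := fun hc => hne (natDegree_eq_of_degree_eq_some hc)
    obtain ⟨z, hz⟩ := IsAlgClosed.exists_root q hd
    exact hroot z hz
  obtain ⟨c, rfl⟩ : ∃ c, q = C c := ⟨_, eq_C_of_natDegree_eq_zero hdeg⟩
  rw [taylor_C] at h'
  have h3 : (X + 1) ^ 2 * taylor 1 p = C (1 / 4) * (2 * X + 1) ^ 2 * p := by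
    apply mul_right_cancel₀ hq
    linear_combination h'
  have key : ∀ n : ℕ, p.eval ((1 / 2 : K) + (n : K)) = 0 := by
    intro n
    induction n with
    | zero =>
      have h5 := congrArg (fun f : K[X] => f.eval (-1 / 2 : K)) h3
      simp only [eval_pow, eval_add, eval_X, eval_one, eval_mul, eval_ofNat, eval_C,
        eval_taylor_one] at h5
      have e : (-1 / 2 + 1 : K) = 1 / 2 := by norm_num
      rw [e] at h5
      have e2 : (2 * (-1 / 2) + 1 : K) = 0 := by norm_num
      rw [e2] at h5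
      have h6 : (1 / 4 : K) * p.eval (1 / 2) = 0 := by linear_combination h5
      have h4 : (1 / 4 : K) ≠ 0 := by norm_num
      simpa using (mul_eq_zero.mp h6).resolve_left h4
    | succ n ih =>
      have h5 := congrArg (fun f : K[X] => f.eval ((1 / 2 : K) + (n : K))) h3
      simp only [eval_pow, eval_add, eval_X, eval_one, eval_mul, eval_ofNat, eval_C,
        eval_taylor_one, ih, mul_zero] at h5
      have h6 : (1 / 2 + (n : K) + 1) ≠ 0 := by
        have : ((2 * n + 3 : ℕ) : K) ≠ 0 := by exact_mod_cast (by omega : 2 * n + 3 ≠ 0)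
        intro hc
        apply this
        push_cast
        linear_combination 2 * hc
      have h7 := (mul_eq_zero.mp h5).resolve_left (pow_ne_zero 2 h6)
      push_cast
      rw [← h7]; ring_nf
  exact zero_of_right key

end Crest.Agent.R006.NV
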