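import Crest.Agent.R006.NVDefs_664
import Crest.Agent.R006.NVFlag_664
import Crest.Agent.R006.NVScalar_664

/-!
Row 6, block P2 (nonvanishing): the three Casoratians do not vanish.
-/

set_option autoImplicit false

namespace Crest.Agent.R006.NV

open Polynomial

section frac

variable {K : Type*} [Field K]

/-- the field of rational functions -/
abbrev RF (K : Type*) [Field K] := FractionRing K[X]

/-- the shift on rational functions -/
noncomputable def shf (K : Type*) [Field K] : RF K →+* RF K :=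
  ((IsFractionRing.ringEquivOfRingEquiv (K := RF K) (L := RF K)
    ((taylorEquiv (1 : K)).toRingEquiv) : RF K ≃+* RF K) : RF K →+* RF K)

lemma shf_algebraMap (p : K[X]) :
    shf K (algebraMap K[X] (RF K) p) = algebraMap K[X] (RF K) (taylor 1 p) := by
  have h := IsFractionRing.ringEquivOfRingEquiv_algebraMap (K := RF K) (L := RF K)
    ((taylorEquiv (1 : K)).toRingEquiv) p
  exact h

lemma exists_frac (x : RF K) : ∃ p q : K[X], q ≠ 0 ∧ IsCoprime p q ∧
    x * algebraMap K[X] (RF K) q = algebraMap K[X] (RF K) p := by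
  obtain ⟨a, b, hab, hx⟩ := IsFractionRing.exists_reduced_fraction (A := K[X]) x
  refine ⟨a, b, nonZeroDivisors.coe_ne_zero b, hab.isCoprime, ?_⟩
  rw [← hx]
  exact IsLocalization.mk'_spec _ _ _

lemma am_inj {p q : K[X]} (h : algebraMap K[X] (RF K) p = algebraMap K[X] (RF K) q) : p = q :=
  IsFractionRing.injective K[X] (RF K) h

lemma frac_eq {x : RF K} {p q : K[X]} (h : x * algebraMap K[X] (RF K) q = algebraMap K[X] (RF K) p) :
    shf K x * algebraMap K[X] (RF K) (taylor 1 q) = algebraMap K[X] (RF K) (taylor 1 p) := by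
  have := congrArg (shf K) h
  rwa [map_mul, shf_algebraMap, shf_algebraMap] at this

variable [CharZero K] [IsAlgClosed K]

/-- (S1) -/
theorem S1 (x : RF K) : algebraMap K[X] (RF K) ((X + 1) ^ 3) * shf K x
    + algebraMap K[X] (RF K) ((2 * X + 1) ^ 3) * x ≠
      algebraMap K[X] (RF K) (C (1 / 2) * (3 * X + 2)) := by
  intro h
  obtain ⟨p, q, hq, hpq, hx⟩ := exists_frac x
  have hx' := frac_eq hx
  apply no_rational_psi hq hpq
  apply am_inj
  simp only [map_add, map_mul] at h ⊢
  linear_combination (algebraMap K[X] (RF K) q * algebraMap K[X] (RF K) (taylor 1 q)) * h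
    - algebraMap K[X] (RF K) ((X + 1) ^ 3) * algebraMap K[X] (RF K) q * hx'
    - algebraMap K[X] (RF K) ((2 * X + 1) ^ 3) * algebraMap K[X] (RF K) (taylor 1 q) * hx

omit [IsAlgClosed K] in
/-- (S2) -/
theorem S2 (x : RF K) (h : algebraMap K[X] (RF K) (-((2 * X + 1) ^ 3)) * x =
    algebraMap K[X] (RF K) (C (1 / 4) * (X + 1) * (2 * X + 1) ^ 2) * shf K x) : x = 0 := by
  obtain ⟨p, q, hq, hpq, hx⟩ := exists_frac x
  have hx' := frac_eq hx
  have hp : p = 0 := by
    apply no_rational_ratio hq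
    apply am_inj
    simp only [map_mul] at h ⊢
    linear_combination (algebraMap K[X] (RF K) q * algebraMap K[X] (RF K) (taylor 1 q)) * h
      + algebraMap K[X] (RF K) (C (1 / 4)) * algebraMap K[X] (RF K) (X + 1) *
          algebraMap K[X] (RF K) ((2 * X + 1) ^ 2) * algebraMap K[X] (RF K) q * hx'
      - algebraMap K[X] (RF K) (-((2 * X + 1) ^ 3)) * algebraMap K[X] (RF K) (taylor 1 q) * hx
  rw [hp, map_zero] at hx
  rcases mul_eq_zero.mp hx with h0 | h0
  · exact h0
  · exfalso
    apply hq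
    apply am_inj
    rw [h0, map_zero]

/-- (S3) -/
theorem S3 (x : RF K) (h : algebraMap K[X] (RF K) (C (1 / 4) * (X + 1) * (2 * X + 1) ^ 2) * x =
    algebraMap K[X] (RF K) ((X + 1) ^ 3) * shf K x) : x = 0 := by
  obtain ⟨p, q, hq, hpq, hx⟩ := exists_frac x
  have hx' := frac_eq hx
  have hp : p = 0 := by
    apply no_rational_g hq hpq
    apply am_inj
    simp only [map_mul] at h ⊢
    linear_combination (algebraMap K[X] (RF K) q * algebraMap K[X] (RF K) (taylor 1 q)) * h
      + algebraMap K[X] (RF K) ((X + 1) ^ 3) * algebraMap K[X] (RF K) q * hx'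
      - algebraMap K[X] (RF K) (C (1 / 4)) * algebraMap K[X] (RF K) (X + 1) *
          algebraMap K[X] (RF K) ((2 * X + 1) ^ 2) * algebraMap K[X] (RF K) (taylor 1 q) * hx
  rw [hp, map_zero] at hx
  rcases mul_eq_zero.mp hx with h0 | h0
  · exact h0
  · exfalso
    apply hq
    apply am_inj
    rw [h0, map_zero]

/-! ### rank 3 -/

/-- matrix of the system `(T, Q, R)` -/
noncomputable def A3 (K : Type*) [Field K] : Matrix (Fin 3) (Fin 3) (RF K) :=
  !![algebraMap K[X] (RF K) ((X + 1) ^ 3), 0, 0;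
     0, algebraMap K[X] (RF K) (C (1 / 4) * (X + 1) * (2 * X + 1) ^ 2), 0;
     algebraMap K[X] (RF K) (C (1 / 2) * (3 * X + 2)), 0,
       algebraMap K[X] (RF K) (-((2 * X + 1) ^ 3))]

omit [CharZero K] [IsAlgClosed K] in
lemma sg_A3 (R T Q : K[X]) :
    sg (shf K) (A3 K) ![algebraMap K[X] (RF K) T, algebraMap K[X] (RF K) Q,
      algebraMap K[X] (RF K) R] =
    ![algebraMap K[X] (RF K) (sT R T), algebraMap K[X] (RF K) (sQ Q),
      algebraMap K[X] (RF K) (sR R)] := by
  funext j
  fin_cases j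
  · simp [sg, A3, Fin.sum_univ_three, shf_algebraMap, sT]
    ring
  · simp [sg, A3, Fin.sum_univ_three, shf_algebraMap, sQ]
    ring
  · simp [sg, A3, Fin.sum_univ_three, shf_algebraMap, sR]
    ring

omit [CharZero K] [IsAlgClosed K] in
lemma A3_tri : ∀ i j, i < j → A3 K i j = 0 := by
  intro i j hij
  fin_cases i <;> fin_cases j <;> first | rfl | (exfalso; revert hij; decide)

omit [CharZero K] [IsAlgClosed K] in
lemma det_orb3 (R T Q : K[X]) :
    Matrix.det (Matrix.of (fun i : Fin 3 => orb (shf K) (A3 K)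
      ![algebraMap K[X] (RF K) T, algebraMap K[X] (RF K) Q, algebraMap K[X] (RF K) R] i)) =
    algebraMap K[X] (RF K) (DD R T Q) := by
  have e0 : orb (shf K) (A3 K) ![algebraMap K[X] (RF K) T, algebraMap K[X] (RF K) Q,
      algebraMap K[X] (RF K) R] 0 = ![algebraMap K[X] (RF K) T, algebraMap K[X] (RF K) Q,
      algebraMap K[X] (RF K) R] := rfl
  have e1 : orb (shf K) (A3 K) ![algebraMap K[X] (RF K) T, algebraMap K[X] (RF K) Q,
      algebraMap K[X] (RF K) R] 1 = ![algebraMap K[X] (RF K) (sT R T),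
        algebraMap K[X] (RF K) (sQ Q), algebraMap K[X] (RF K) (sR R)] := sg_A3 R T Q
  have e2 : orb (shf K) (A3 K) ![algebraMap K[X] (RF K) T, algebraMap K[X] (RF K) Q,
      algebraMap K[X] (RF K) R] 2 = ![algebraMap K[X] (RF K) (sT (sR R) (sT R T)),
        algebraMap K[X] (RF K) (sQ (sQ Q)), algebraMap K[X] (RF K) (sR (sR R))] := by
    have : orb (shf K) (A3 K) ![algebraMap K[X] (RF K) T, algebraMap K[X] (RF K) Q,
      algebraMap K[X] (RF K) R] 2 = sg (shf K) (A3 K) (orb (shf K) (A3 K)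
        ![algebraMap K[X] (RF K) T, algebraMap K[X] (RF K) Q,
      algebraMap K[X] (RF K) R] 1) := rfl
    rw [this, e1, sg_A3]
  rw [Matrix.det_fin_three]
  simp only [Matrix.of_apply, Fin.val_zero, Fin.val_one, Fin.val_two, e0, e1, e2]
  simp only [DD, det3, map_add, map_sub, map_mul, Matrix.cons_val_zero, Matrix.cons_val_one,
    Matrix.cons_val]
  ring

theorem DD_ne_zero_of_isAlgClosed {R T Q : K[X]} (hR : R ≠ 0) (hQ : Q ≠ 0) : DD R T Q ≠ 0 := by
  intro h
  have hdet := det_orb3 R T Q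
  rw [h, map_zero] at hdet
  obtain ⟨i, l, hi, hlow, hsum, heig⟩ := casoratian_flag (shf K) (A3 K) A3_tri _ hdet
  have h2 := heig 2
  have e20 : A3 K 2 0 = algebraMap K[X] (RF K) (C (1 / 2) * (3 * X + 2)) := rfl
  have e21 : A3 K 2 1 = 0 := rfl
  have e22 : A3 K 2 2 = algebraMap K[X] (RF K) (-((2 * X + 1) ^ 3)) := rfl
  have e00 : A3 K 0 0 = algebraMap K[X] (RF K) ((X + 1) ^ 3) := rfl
  have e11 : A3 K 1 1 = algebraMap K[X] (RF K) (C (1 / 4) * (X + 1) * (2 * X + 1) ^ 2) := rfl
  fin_cases i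
  · -- `l_T = 1`
    have hi' : l 0 = 1 := hi
    have h2' : ∑ k, A3 K 2 k * l k = A3 K 0 0 * shf K (l 2) := h2
    rw [Fin.sum_univ_three, e20, e21, e22, e00, hi'] at h2'
    apply S1 (l 2)
    rw [map_neg] at h2'
    linear_combination -h2'
  · have hl0 : l 0 = 0 := hlow 0 (by decide)
    have hi' : l 1 = 1 := hi
    have h2' : ∑ k, A3 K 2 k * l k = A3 K 1 1 * shf K (l 2) := h2
    rw [Fin.sum_univ_three, e20, e21, e22, e11, hl0] at h2'
    have hl2 : l 2 = 0 := by
      apply S2
      linear_combination h2'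
    simp [Fin.sum_univ_three, hi', hl0, hl2] at hsum
    exact hQ hsum
  · have hl0 : l 0 = 0 := hlow 0 (by decide)
    have hl1 : l 1 = 0 := hlow 1 (by decide)
    simp [Fin.sum_univ_three] at hi hsum
    simp [hi, hl0, hl1] at hsum
    exact hR hsum

/-! ### rank 2, `(T, R)` -/

/-- matrix of the system `(T, R)` -/
noncomputable def A2 (K : Type*) [Field K] : Matrix (Fin 2) (Fin 2) (RF K) :=
  !![algebraMap K[X] (RF K) ((X + 1) ^ 3), 0;
     algebraMap K[X] (RF K) (C (1 / 2) * (3 * X + 2)), algebraMap K[X] (RF K) (-((2 * X + 1) ^ 3))]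

theorem DRT_ne_zero_of_isAlgClosed {R T : K[X]} (hR : R ≠ 0) : DRT R T ≠ 0 := by
  intro h
  have htri : ∀ i j, i < j → A2 K i j = 0 := by
    intro i j hij
    fin_cases i <;> fin_cases j <;> first | rfl | (exfalso; revert hij; decide)
  have hsg : sg (shf K) (A2 K) ![algebraMap K[X] (RF K) T, algebraMap K[X] (RF K) R] =
      ![algebraMap K[X] (RF K) (sT R T), algebraMap K[X] (RF K) (sR R)] := by
    funext j
    fin_cases j
    · simp [sg, A2, Fin.sum_univ_two, shf_algebraMap, sT]
      ring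
    · simp [sg, A2, Fin.sum_univ_two, shf_algebraMap, sR]
      ring
  have hdet : Matrix.det (Matrix.of (fun i : Fin 2 => orb (shf K) (A2 K)
      ![algebraMap K[X] (RF K) T, algebraMap K[X] (RF K) R] i)) = 0 := by
    have e0 : orb (shf K) (A2 K) ![algebraMap K[X] (RF K) T, algebraMap K[X] (RF K) R] 0 =
      ![algebraMap K[X] (RF K) T, algebraMap K[X] (RF K) R] := rfl
    have e1 : orb (shf K) (A2 K) ![algebraMap K[X] (RF K) T, algebraMap K[X] (RF K) R] 1 =
      ![algebraMap K[X] (RF K) (sT R T), algebraMap K[X] (RF K) (sR R)] := hsg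
    rw [Matrix.det_fin_two]
    simp only [Matrix.of_apply, Fin.val_zero, Fin.val_one, e0, e1]
    simp only [Matrix.cons_val_zero, Matrix.cons_val_one]
    have h' := congrArg (algebraMap K[X] (RF K)) h
    simp only [DRT, map_sub, map_mul, map_zero] at h'
    linear_combination -h'
  obtain ⟨i, l, hi, hlow, hsum, heig⟩ := casoratian_flag (shf K) (A2 K) htri _ hdet
  have h1 := heig 1
  have e10 : A2 K 1 0 = algebraMap K[X] (RF K) (C (1 / 2) * (3 * X + 2)) := rfl
  have e11 : A2 K 1 1 = algebraMap K[X] (RF K) (-((2 * X + 1) ^ 3)) := rfl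
  have e00 : A2 K 0 0 = algebraMap K[X] (RF K) ((X + 1) ^ 3) := rfl
  fin_cases i
  · have hi' : l 0 = 1 := hi
    have h1' : ∑ k, A2 K 1 k * l k = A2 K 0 0 * shf K (l 1) := h1
    rw [Fin.sum_univ_two, e10, e11, e00, hi'] at h1'
    apply S1 (l 1)
    rw [map_neg] at h1'
    linear_combination -h1'
  · have hl0 : l 0 = 0 := hlow 0 (by decide)
    have hi' : l 1 = 1 := hi
    simp [Fin.sum_univ_two, hi', hl0] at hsum
    exact hR hsum

/-! ### rank 2, `(T, Q)` -/

/-- matrix of the system `(T, Q)` -/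
noncomputable def A2' (K : Type*) [Field K] : Matrix (Fin 2) (Fin 2) (RF K) :=
  !![algebraMap K[X] (RF K) ((X + 1) ^ 3), 0;
     0, algebraMap K[X] (RF K) (C (1 / 4) * (X + 1) * (2 * X + 1) ^ 2)]

theorem DTQ_ne_zero_of_isAlgClosed {T Q : K[X]} (hT : T ≠ 0) (hQ : Q ≠ 0) : DTQ T Q ≠ 0 := by
  intro h
  have htri : ∀ i j, i < j → A2' K i j = 0 := by
    intro i j hij
    fin_cases i <;> fin_cases j <;> first | rfl | (exfalso; revert hij; decide)
  have hsg : sg (shf K) (A2' K) ![algebraMap K[X] (RF K) T, algebraMap K[X] (RF K) Q] =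
      ![algebraMap K[X] (RF K) (sT 0 T), algebraMap K[X] (RF K) (sQ Q)] := by
    funext j
    fin_cases j
    · simp [sg, A2', Fin.sum_univ_two, shf_algebraMap, sT]
      ring
    · simp [sg, A2', Fin.sum_univ_two, shf_algebraMap, sQ]
      ring
  have hdet : Matrix.det (Matrix.of (fun i : Fin 2 => orb (shf K) (A2' K)
      ![algebraMap K[X] (RF K) T, algebraMap K[X] (RF K) Q] i)) = 0 := by
    have e0 : orb (shf K) (A2' K) ![algebraMap K[X] (RF K) T, algebraMap K[X] (RF K) Q] 0 =
      ![algebraMap K[X] (RF K) T, algebraMap K[X] (RF K) Q] := rfl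
    have e1 : orb (shf K) (A2' K) ![algebraMap K[X] (RF K) T, algebraMap K[X] (RF K) Q] 1 =
      ![algebraMap K[X] (RF K) (sT 0 T), algebraMap K[X] (RF K) (sQ Q)] := hsg
    rw [Matrix.det_fin_two]
    simp only [Matrix.of_apply, Fin.val_zero, Fin.val_one, e0, e1]
    simp only [Matrix.cons_val_zero, Matrix.cons_val_one]
    have h' := congrArg (algebraMap K[X] (RF K)) h
    simp only [DTQ, map_sub, map_mul, map_zero] at h'
    linear_combination h'
  obtain ⟨i, l, hi, hlow, hsum, heig⟩ := casoratian_flag (shf K) (A2' K) htri _ hdet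
  have h1 := heig 1
  have e10 : A2' K 1 0 = 0 := rfl
  have e11 : A2' K 1 1 = algebraMap K[X] (RF K) (C (1 / 4) * (X + 1) * (2 * X + 1) ^ 2) := rfl
  have e00 : A2' K 0 0 = algebraMap K[X] (RF K) ((X + 1) ^ 3) := rfl
  fin_cases i
  · have hi' : l 0 = 1 := hi
    have h1' : ∑ k, A2' K 1 k * l k = A2' K 0 0 * shf K (l 1) := h1
    rw [Fin.sum_univ_two, e10, e11, e00] at h1'
    have hl1 : l 1 = 0 := by
      apply S3
      linear_combination h1'
    simp [Fin.sum_univ_two, hi', hl1] at hsum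
    exact hT hsum
  · have hl0 : l 0 = 0 := hlow 0 (by decide)
    have hi' : l 1 = 1 := hi
    simp [Fin.sum_univ_two, hi', hl0] at hsum
    exact hQ hsum

end frac

/-! ### descent to any field of characteristic zero -/

section descent

variable {K L : Type*} [Field K] [Field L] (f : K →+* L)

lemma map_two' : (2 : K[X]).map f = 2 := by
  have : (2 : K[X]) = C 2 := (map_ofNat C 2).symm
  rw [this, Polynomial.map_C, map_ofNat, map_ofNat]

lemma map_three' : (3 : K[X]).map f = 3 := by
  have : (3 : K[X]) = C 3 := (map_ofNat C 3).symm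
  rw [this, Polynomial.map_C, map_ofNat, map_ofNat]

lemma map_half : (C (1 / 2) : K[X]).map f = C (1 / 2) := by
  rw [Polynomial.map_C, map_div₀, map_one, map_ofNat]

lemma map_quarter : (C (1 / 4) : K[X]).map f = C (1 / 4) := by
  rw [Polynomial.map_C, map_div₀, map_one, map_ofNat]

lemma map_taylor_one (p : K[X]) : (taylor 1 p).map f = taylor 1 (p.map f) := by
  rw [Polynomial.map_taylor, map_one]

lemma map_sR (R : K[X]) : (sR R).map f = sR (R.map f) := by
  simp only [sR, Polynomial.map_neg, Polynomial.map_mul, Polynomial.map_pow, Polynomial.map_add,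
    map_two', Polynomial.map_X, Polynomial.map_one, map_taylor_one]

lemma map_sT (R T : K[X]) : (sT R T).map f = sT (R.map f) (T.map f) := by
  simp only [sT, Polynomial.map_mul, Polynomial.map_pow, Polynomial.map_add, map_half,
    map_two', map_three', Polynomial.map_X, Polynomial.map_one, map_taylor_one]

lemma map_sQ (Q : K[X]) : (sQ Q).map f = sQ (Q.map f) := by
  simp only [sQ, Polynomial.map_mul, Polynomial.map_pow, Polynomial.map_add, map_quarter,
    map_two', Polynomial.map_X, Polynomial.map_one, map_taylor_one]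

lemma map_DD (R T Q : K[X]) : (DD R T Q).map f = DD (R.map f) (T.map f) (Q.map f) := by
  simp only [DD, det3, Polynomial.map_add, Polynomial.map_sub, Polynomial.map_mul, map_sR, map_sT,
    map_sQ]

lemma map_DRT (R T : K[X]) : (DRT R T).map f = DRT (R.map f) (T.map f) := by
  simp only [DRT, Polynomial.map_sub, Polynomial.map_mul, map_sR, map_sT]

lemma map_DTQ (T Q : K[X]) : (DTQ T Q).map f = DTQ (T.map f) (Q.map f) := by
  simp only [DTQ, Polynomial.map_sub, Polynomial.map_mul, map_sQ, map_sT, Polynomial.map_zero]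

end descent

variable {K : Type*} [Field K] [CharZero K]

theorem DD_ne_zero {R T Q : K[X]} (hR : R ≠ 0) (hQ : Q ≠ 0) : DD R T Q ≠ 0 := by
  intro h
  have h1 := map_DD (algebraMap K (AlgebraicClosure K)) R T Q
  rw [h, Polynomial.map_zero] at h1
  refine DD_ne_zero_of_isAlgClosed ?_ ?_ h1.symm
  · exact (Polynomial.map_ne_zero_iff (algebraMap K (AlgebraicClosure K)).injective).mpr hR
  · exact (Polynomial.map_ne_zero_iff (algebraMap K (AlgebraicClosure K)).injective).mpr hQ

theorem DRT_ne_zero {R T : K[X]} (hR : R ≠ 0) : DRT R T ≠ 0 := by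
  intro h
  have h1 := map_DRT (algebraMap K (AlgebraicClosure K)) R T
  rw [h, Polynomial.map_zero] at h1
  refine DRT_ne_zero_of_isAlgClosed ?_ h1.symm
  exact (Polynomial.map_ne_zero_iff (algebraMap K (AlgebraicClosure K)).injective).mpr hR

theorem DTQ_ne_zero {T Q : K[X]} (hT : T ≠ 0) (hQ : Q ≠ 0) : DTQ T Q ≠ 0 := by
  intro h
  have h1 := map_DTQ (algebraMap K (AlgebraicClosure K)) T Q
  rw [h, Polynomial.map_zero] at h1
  refine DTQ_ne_zero_of_isAlgClosed ?_ ?_ h1.symm
  · exact (Polynomial.map_ne_zero_iff (algebraMap K (AlgebraicClosure K)).injective).mpr hT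
  · exact (Polynomial.map_ne_zero_iff (algebraMap K (AlgebraicClosure K)).injective).mpr hQ

end Crest.Agent.R006.NV
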