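import Mathlib

/-!
Row 6, block P2 (nonvanishing), definitions.

`(R,T,Q)` is a triple of polynomials over a field, `F = R ψ - T - Q g`, where
`(s+1)^3 ψ(s+1) + (2s+1)^3 ψ(s) = -(3s+2)/2` and `4 (s+1)^2 g(s+1) = (2s+1)^2 g(s)`.
`(sR R, sT R T, sQ Q)` is the cleared shift: its `F` is `(s+1)^3 F(s+1)`.
`DD` is the 3x3 Casoratian, `DRT`, `DTQ` the two 2x2 ones.
-/

set_option autoImplicit false

namespace Crest.Agent.R006.NV

open Polynomial

variable {K : Type*} [Field K]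

/-- cleared shift, `R`-component: `-(2s+1)^3 R(s+1)` -/
noncomputable def sR (R : K[X]) : K[X] := -((2 * X + 1) ^ 3 * taylor 1 R)

/-- cleared shift, `T`-component: `(s+1)^3 T(s+1) + (3s+2)/2 R(s+1)` -/
noncomputable def sT (R T : K[X]) : K[X] :=
  (X + 1) ^ 3 * taylor 1 T + C (1 / 2) * (3 * X + 2) * taylor 1 R

/-- cleared shift, `Q`-component: `(1/4) (s+1) (2s+1)^2 Q(s+1)` -/
noncomputable def sQ (Q : K[X]) : K[X] := C (1 / 4) * (X + 1) * (2 * X + 1) ^ 2 * taylor 1 Q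

/-- determinant of three triples -/
def det3 {A : Type*} [CommRing A] (r0 t0 q0 r1 t1 q1 r2 t2 q2 : A) : A :=
  r0 * (t1 * q2 - t2 * q1) - t0 * (r1 * q2 - r2 * q1) + q0 * (r1 * t2 - r2 * t1)

/-- the Casoratian of `(R,T,Q)` -/
noncomputable def DD (R T Q : K[X]) : K[X] :=
  det3 R T Q (sR R) (sT R T) (sQ Q) (sR (sR R)) (sT (sR R) (sT R T)) (sQ (sQ Q))

/-- the Casoratian of `(R,T)` -/
noncomputable def DRT (R T : K[X]) : K[X] := R * sT R T - T * sR R

/-- the Casoratian of `(T,Q)` -/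
noncomputable def DTQ (T Q : K[X]) : K[X] := T * sQ Q - Q * sT 0 T

end Crest.Agent.R006.NV
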