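import Mathlib
import Crest.Agent.R006.NVDefs_664

/-!
Row 6, block P2 (nonvanishing), the three algebraic leaves (helper793):
`DD_ne_zero`, `DRT_ne_zero`, `DTQ_ne_zero` (definitions in `NVDefs_664`).

* `no_C` : `(X+1)^2 y τz = (1/4)(2X+1)^2 z τy` is impossible for `y, z ≠ 0`
  (orders along the class `-1/2 + ℤ`);
* `no_AB` : `(X+1)^3 f(X+1) + (2X+1)^3 f(X) + (3X+2)/2 = 0` has no rational solution `f = T/R`
  (poles propagate; leading coefficient `1 + 8`).
-/

set_option autoImplicit false

namespace Crest.Agent.R006.NVCasx793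

open Polynomial Crest.Agent.R006.NV

section general

variable {K : Type*} [Field K]

lemma rootMult_taylor (P : K[X]) (s : K) :
    rootMultiplicity s (taylor 1 P) = rootMultiplicity (s + 1) P := by
  rw [rootMultiplicity_eq_rootMultiplicity (p := taylor 1 P),
    rootMultiplicity_eq_rootMultiplicity (p := P)]
  congr 1
  rw [taylor_apply, comp_assoc]
  congr 1
  simp only [add_comp, X_comp, C_comp, C_add]
  ring

lemma taylor_ne_zero {P : K[X]} (h : P ≠ 0) : taylor 1 P ≠ 0 := by
  intro h0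
  exact h (taylor_injective 1 (by rw [h0, map_zero]))

variable [CharZero K]

/-- far to the right there is no root -/
lemma exists_right {P : K[X]} (h : P ≠ 0) (s : K) : ∃ k : ℕ, rootMultiplicity (s + k) P = 0 := by
  by_contra hcon
  push Not at hcon
  apply h
  apply Polynomial.eq_zero_of_infinite_isRoot
  apply Set.Infinite.mono (s := Set.range (fun k : ℕ => s + (k : K)))
  · rintro _ ⟨k, rfl⟩
    have := hcon k
    rw [← Nat.pos_iff_ne_zero, rootMultiplicity_pos h] at this
    exact this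
  · apply Set.infinite_range_of_injective
    intro a b hab
    have : (a : K) = b := by simpa using hab
    exact_mod_cast this

lemma exists_left {P : K[X]} (h : P ≠ 0) (s : K) : ∃ k : ℕ, rootMultiplicity (s - k) P = 0 := by
  by_contra hcon
  push Not at hcon
  apply h
  apply Polynomial.eq_zero_of_infinite_isRoot
  apply Set.Infinite.mono (s := Set.range (fun k : ℕ => s - (k : K)))
  · rintro _ ⟨k, rfl⟩
    have := hcon k
    rw [← Nat.pos_iff_ne_zero, rootMultiplicity_pos h] at this
    exact this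
  · apply Set.infinite_range_of_injective
    intro a b hab
    have : (a : K) = b := by simpa using hab
    exact_mod_cast this

omit [CharZero K] in
lemma rm_pow_ne {s a : K} (h : s ≠ a) (n : ℕ) : rootMultiplicity s ((X - C a) ^ n) = 0 := by
  apply rootMultiplicity_eq_zero
  intro h0
  rw [IsRoot.def, eval_pow, eval_sub, eval_X, eval_C] at h0
  exact h (sub_eq_zero.mp (eq_zero_of_pow_eq_zero h0))

/-- `f(n+1) = ((n+1/2)/(n+1))^2 f(n)` has no nonzero rational solution -/
lemma no_C {y z : K[X]} (hy : y ≠ 0) (hz : z ≠ 0) :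
    (X - C (-1)) ^ 2 * (y * taylor 1 z) ≠ (X - C (-1 / 2 : K)) ^ 2 * (z * taylor 1 y) := by
  intro h
  have hyt := taylor_ne_zero hy
  have hzt := taylor_ne_zero hz
  have h1 : (X - C (-1 : K)) ^ 2 ≠ 0 := pow_ne_zero _ (X_sub_C_ne_zero _)
  have h2 : (X - C (-1 / 2 : K)) ^ 2 ≠ 0 := pow_ne_zero _ (X_sub_C_ne_zero _)
  have key : ∀ s : K, s ≠ -1 → (rootMultiplicity s y + rootMultiplicity (s + 1) z
      = rootMultiplicity s ((X - C (-1 / 2 : K)) ^ 2) + rootMultiplicity s z
        + rootMultiplicity (s + 1) y) := by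
    intro s hs
    have h3 := congrArg (rootMultiplicity s) h
    rw [rootMultiplicity_mul (mul_ne_zero h1 (mul_ne_zero hy hzt)),
      rootMultiplicity_mul (mul_ne_zero hy hzt),
      rootMultiplicity_mul (mul_ne_zero h2 (mul_ne_zero hz hyt)),
      rootMultiplicity_mul (mul_ne_zero hz hyt), rm_pow_ne hs, rootMult_taylor,
      rootMult_taylor] at h3
    omega
  -- left part
  have hl : ∀ k : ℕ, (rootMultiplicity (-1 / 2 : K) z : ℤ) - rootMultiplicity (-1 / 2 : K) y
      = rootMultiplicity (-1 / 2 - k : K) z - rootMultiplicity (-1 / 2 - k : K) y := by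
    intro k
    induction k with
    | zero => simp
    | succ k ih =>
      rw [ih]
      have hne : (-1 / 2 - ((k + 1 : ℕ) : K)) ≠ -1 := by
        intro h4
        have : ((2 * (k + 1) : ℕ) : K) = ((1 : ℕ) : K) := by
          push_cast at h4 ⊢
          linear_combination -2 * h4
        have h5 : 2 * (k + 1) = 1 := by exact_mod_cast this
        omega
      have hne2 : (-1 / 2 - ((k + 1 : ℕ) : K)) ≠ -1 / 2 := by
        intro h4
        have : ((k + 1 : ℕ) : K) = ((0 : ℕ) : K) := by
          push_cast at h4 ⊢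
          linear_combination - h4
        have h5 : k + 1 = 0 := by exact_mod_cast this
        omega
      have h3 := key _ hne
      rw [rm_pow_ne hne2] at h3
      have e : (-1 / 2 - ((k + 1 : ℕ) : K)) + 1 = -1 / 2 - k := by push_cast; ring
      rw [e] at h3
      omega
  have hr : ∀ k : ℕ, (rootMultiplicity (1 / 2 : K) z : ℤ) - rootMultiplicity (1 / 2 : K) y
      = rootMultiplicity (1 / 2 + k : K) z - rootMultiplicity (1 / 2 + k : K) y := by
    intro k
    induction k with
    | zero => simp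
    | succ k ih =>
      rw [ih]
      have hne : (1 / 2 + (k : K)) ≠ -1 := by
        intro h4
        have : ((2 * k + 3 : ℕ) : K) = ((0 : ℕ) : K) := by
          push_cast
          linear_combination 2 * h4
        have h5 : 2 * k + 3 = 0 := by exact_mod_cast this
        omega
      have hne2 : (1 / 2 + (k : K)) ≠ -1 / 2 := by
        intro h4
        have : ((k + 1 : ℕ) : K) = ((0 : ℕ) : K) := by
          push_cast at h4 ⊢
          linear_combination h4
        have h5 : k + 1 = 0 := by exact_mod_cast this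
        omega
      have h3 := key _ hne
      rw [rm_pow_ne hne2] at h3
      have e : (1 / 2 + (k : K)) + 1 = 1 / 2 + ((k + 1 : ℕ) : K) := by push_cast; ring
      rw [e] at h3
      omega
  have h0 : (-1 / 2 : K) ≠ -1 := by
    intro h4
    have : ((1 : ℕ) : K) = ((0 : ℕ) : K) := by
      push_cast
      linear_combination 2 * h4
    have h5 : (1 : ℕ) = 0 := by exact_mod_cast this
    omega
  have h6 := key _ h0
  rw [rootMultiplicity_X_sub_C_pow] at h6
  have e : (-1 / 2 : K) + 1 = 1 / 2 := by ring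
  rw [e] at h6
  obtain ⟨k, hk⟩ := exists_left (mul_ne_zero hy hz) (-1 / 2 : K)
  obtain ⟨l, hl'⟩ := exists_right (mul_ne_zero hy hz) (1 / 2 : K)
  rw [rootMultiplicity_mul (mul_ne_zero hy hz)] at hk hl'
  have h7 := hl k
  have h8 := hr l
  omega

/-- `(X+1)^3 f(X+1) + (2X+1)^3 f(X) + (3X+2)/2 = 0` has no rational solution `f = T/R`,
algebraically closed case. -/
lemma no_AB_closed [IsAlgClosed K] {R T : K[X]} (hR : R ≠ 0) :
    (X - C (-1)) ^ 3 * (R * taylor 1 T) + C 8 * (X - C (-1 / 2 : K)) ^ 3 * (T * taylor 1 R)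
      + C (3 / 2) * (X - C (-2 / 3 : K)) * (R * taylor 1 R) ≠ 0 := by
  intro h
  have hRt := taylor_ne_zero hR
  have h8 : (8 : K) ≠ 0 := by norm_num
  -- propagation
  by_cases hT : T = 0
  · rw [hT, map_zero, mul_zero, mul_zero, zero_mul, mul_zero, zero_add, zero_add] at h
    have h32 : (3 / 2 : K) ≠ 0 := by norm_num
    exact mul_ne_zero (mul_ne_zero (C_ne_zero.mpr h32) (X_sub_C_ne_zero _))
      (mul_ne_zero hR hRt) h
  have hTt := taylor_ne_zero hT
  have dvdmul : ∀ (s : K) (P Q : K[X]) (a b : ℕ), P ≠ 0 → Q ≠ 0 → a ≤ rootMultiplicity s P →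
      b ≤ rootMultiplicity s Q → (X - C s) ^ (a + b) ∣ P * Q := by
    intro s P Q a b hP hQ ha hb
    rw [pow_add]
    exact mul_dvd_mul ((le_rootMultiplicity_iff hP).mp ha) ((le_rootMultiplicity_iff hQ).mp hb)
  have right : ∀ s : K, s ≠ -1 / 2 → rootMultiplicity s T < rootMultiplicity s R →
      rootMultiplicity (s + 1) T < rootMultiplicity (s + 1) R := by
    intro s hs hlt
    by_contra hcon
    push Not at hcon
    rw [← rootMult_taylor, ← rootMult_taylor] at hcon
    have d1 := dvdmul s R (taylor 1 T) _ _ hR hTt le_rfl hcon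
    have d3 := dvdmul s R (taylor 1 R) _ _ hR hRt le_rfl le_rfl
    have d2 : (X - C s) ^ (rootMultiplicity s R + rootMultiplicity s (taylor 1 R)) ∣
        C 8 * (X - C (-1 / 2 : K)) ^ 3 * (T * taylor 1 R) := by
      have e : C 8 * (X - C (-1 / 2 : K)) ^ 3 * (T * taylor 1 R)
          = -((X - C (-1)) ^ 3 * (R * taylor 1 T)
            + C (3 / 2) * (X - C (-2 / 3 : K)) * (R * taylor 1 R)) := by
        linear_combination h
      rw [e, dvd_neg]
      exact dvd_add (d1.mul_left _) (d3.mul_left _)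
    have hne : C 8 * (X - C (-1 / 2 : K)) ^ 3 * (T * taylor 1 R) ≠ 0 :=
      mul_ne_zero (mul_ne_zero (C_ne_zero.mpr h8) (pow_ne_zero _ (X_sub_C_ne_zero _)))
        (mul_ne_zero hT hRt)
    have d4 := (le_rootMultiplicity_iff hne).mpr d2
    rw [rootMultiplicity_mul hne, rootMultiplicity_mul (left_ne_zero_of_mul hne),
      rootMultiplicity_mul (right_ne_zero_of_mul hne), rm_pow_ne hs, rootMultiplicity_C] at d4
    omega
  have left : ∀ s : K, s ≠ -1 → rootMultiplicity (s + 1) T < rootMultiplicity (s + 1) R →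
      rootMultiplicity s T < rootMultiplicity s R := by
    intro s hs hlt
    by_contra hcon
    push Not at hcon
    rw [← rootMult_taylor, ← rootMult_taylor] at hlt
    have d1 := dvdmul s T (taylor 1 R) _ _ hT hRt hcon le_rfl
    have d3 := dvdmul s R (taylor 1 R) _ _ hR hRt le_rfl le_rfl
    have d2 : (X - C s) ^ (rootMultiplicity s R + rootMultiplicity s (taylor 1 R)) ∣
        (X - C (-1)) ^ 3 * (R * taylor 1 T) := by
      have e : (X - C (-1)) ^ 3 * (R * taylor 1 T)
          = -(C 8 * (X - C (-1 / 2 : K)) ^ 3 * (T * taylor 1 R)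
            + C (3 / 2) * (X - C (-2 / 3 : K)) * (R * taylor 1 R)) := by
        linear_combination h
      rw [e, dvd_neg]
      exact dvd_add (d1.mul_left _) (d3.mul_left _)
    have hne : (X - C (-1)) ^ 3 * (R * taylor 1 T) ≠ 0 :=
      mul_ne_zero (pow_ne_zero _ (X_sub_C_ne_zero _)) (mul_ne_zero hR hTt)
    have d4 := (le_rootMultiplicity_iff hne).mpr d2
    rw [rootMultiplicity_mul hne,
      rootMultiplicity_mul (right_ne_zero_of_mul hne), rm_pow_ne hs] at d4
    omega
  -- no poles
  have nopole : ∀ s : K, rootMultiplicity s R ≤ rootMultiplicity s T := by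
    intro s
    by_contra hlt
    push Not at hlt
    by_cases hc : ∃ k : ℕ, s + k = -1 / 2
    · -- go left
      obtain ⟨k₀, hk₀⟩ := hc
      have hall : ∀ k : ℕ, rootMultiplicity (s - k) T < rootMultiplicity (s - k) R := by
        intro k
        induction k with
        | zero => simpa using hlt
        | succ k ih =>
          apply left
          · intro h4
            have h5 : (-1 / 2 : K) = -1 + (k + 1 : ℕ) + k₀ := by
              linear_combination (-1 : K) * hk₀ + h4
            have h6 : ((1 : ℕ) : K) = ((2 * (k + 1) + 2 * k₀ : ℕ) : K) := by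
              push_cast at h5 ⊢
              linear_combination 2 * h5
            have h7 : 1 = 2 * (k + 1) + 2 * k₀ := by exact_mod_cast h6
            omega
          · have e : s - ((k + 1 : ℕ) : K) + 1 = s - k := by push_cast; ring
            rw [e]
            exact ih
      obtain ⟨k, hk⟩ := exists_left hR s
      have := hall k
      omega
    · push Not at hc
      have hall : ∀ k : ℕ, rootMultiplicity (s + k) T < rootMultiplicity (s + k) R := by
        intro k
        induction k with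
        | zero => simpa using hlt
        | succ k ih =>
          have := right _ (hc k) ih
          have e : s + ((k + 1 : ℕ) : K) = s + k + 1 := by push_cast; ring
          rw [e]
          exact this
      obtain ⟨k, hk⟩ := exists_right hR s
      have := hall k
      omega
  have hdvd : R ∣ T := by
    classical
    rw [(IsAlgClosed.splits R).dvd_iff_roots_le_roots hR hT]
    rw [Multiset.le_iff_count]
    intro s
    rw [count_roots, count_roots]
    exact nopole s
  obtain ⟨P, rfl⟩ := hdvd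
  have hP : P ≠ 0 := right_ne_zero_of_mul hT
  rw [taylor_mul] at h
  have h9 : (X - C (-1)) ^ 3 * taylor 1 P + C 8 * (X - C (-1 / 2 : K)) ^ 3 * P
      + C (3 / 2) * (X - C (-2 / 3 : K)) = 0 := by
    have : (R * taylor 1 R) * ((X - C (-1)) ^ 3 * taylor 1 P
        + C 8 * (X - C (-1 / 2 : K)) ^ 3 * P + C (3 / 2) * (X - C (-2 / 3 : K))) = 0 := by
      linear_combination h
    exact (mul_eq_zero.mp this).resolve_left (mul_ne_zero hR hRt)
  have h10 := congrArg (fun q => coeff q (3 + natDegree P)) h9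
  have c1 : coeff ((X - C (-1)) ^ 3 * taylor 1 P) (3 + natDegree P) = leadingCoeff P := by
    have hm : ((X - C (-1 : K)) ^ 3).Monic := (monic_X_sub_C _).pow 3
    have hd : natDegree ((X - C (-1 : K)) ^ 3) = 3 := by rw [natDegree_pow, natDegree_X_sub_C]
    have : natDegree ((X - C (-1)) ^ 3 * taylor 1 P) = 3 + natDegree P := by
      rw [hm.natDegree_mul' (taylor_ne_zero hP), hd, natDegree_taylor]
    rw [← this, coeff_natDegree, leadingCoeff_mul, hm.leadingCoeff, one_mul, leadingCoeff_taylor]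
  have c2 : coeff (C 8 * (X - C (-1 / 2 : K)) ^ 3 * P) (3 + natDegree P)
      = 8 * leadingCoeff P := by
    have hm : ((X - C (-1 / 2 : K)) ^ 3).Monic := (monic_X_sub_C _).pow 3
    have hd : natDegree ((X - C (-1 / 2 : K)) ^ 3) = 3 := by rw [natDegree_pow, natDegree_X_sub_C]
    have : natDegree ((X - C (-1 / 2 : K)) ^ 3 * P) = 3 + natDegree P := by
      rw [hm.natDegree_mul' hP, hd]
    rw [mul_assoc, coeff_C_mul, ← this, coeff_natDegree, leadingCoeff_mul, hm.leadingCoeff, one_mul]
  have c3 : coeff (C (3 / 2) * (X - C (-2 / 3 : K))) (3 + natDegree P) = 0 := by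
    apply coeff_eq_zero_of_natDegree_lt
    refine (natDegree_C_mul_le _ _).trans_lt ?_
    rw [natDegree_X_sub_C]
    omega
  simp only [coeff_add, coeff_zero] at h10
  rw [c1, c2, c3] at h10
  have h11 : (9 : K) * leadingCoeff P = 0 := by linear_combination h10
  have h12 : (9 : K) ≠ 0 := by norm_num
  exact (mul_ne_zero h12 (leadingCoeff_ne_zero.mpr hP)) h11

/-- general field -/
lemma no_AB {R T : K[X]} (hR : R ≠ 0) :
    (X - C (-1)) ^ 3 * (R * taylor 1 T) + C 8 * (X - C (-1 / 2 : K)) ^ 3 * (T * taylor 1 R)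
      + C (3 / 2) * (X - C (-2 / 3 : K)) * (R * taylor 1 R) ≠ 0 := by
  intro h
  obtain ⟨φ, hφ⟩ : ∃ φ : K →+* AlgebraicClosure K, Function.Injective φ :=
    ⟨algebraMap K (AlgebraicClosure K), (algebraMap K (AlgebraicClosure K)).injective⟩
  have hR' : R.map φ ≠ 0 := (Polynomial.map_ne_zero_iff hφ).mpr hR
  have ht : ∀ P : K[X], (taylor 1 P).map φ = taylor 1 (P.map φ) := by
    intro P
    rw [taylor_apply, taylor_apply, Polynomial.map_comp]
    simp
  apply no_AB_closed (T := T.map φ) hR'
  have h2 := congrArg (Polynomial.map φ) h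
  simp only [Polynomial.map_add, Polynomial.map_mul, Polynomial.map_pow, Polynomial.map_sub,
    Polynomial.map_X, Polynomial.map_C, Polynomial.map_zero, ht] at h2
  have n2 : φ 2 = 2 := map_ofNat φ 2
  have n3 : φ 3 = 3 := map_ofNat φ 3
  have e1 : φ (-1) = -1 := by rw [map_neg, map_one]
  have e2 : φ (-1 / 2) = -1 / 2 := by rw [map_div₀, map_neg, map_one, n2]
  have e3 : φ (-2 / 3) = -2 / 3 := by rw [map_div₀, map_neg, n2, n3]
  have e4 : φ (3 / 2) = 3 / 2 := by rw [map_div₀, n2, n3]
  have e5 : φ 8 = 8 := map_ofNat φ 8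
  rw [e1, e2, e3, e4, e5] at h2
  exact h2

lemma poly_eqs : (X - C (-1 : K)) = X + 1 ∧ C (8 : K) * (X - C (-1 / 2 : K)) ^ 3 = (2 * X + 1) ^ 3 ∧
    C (3 / 2 : K) * (X - C (-2 / 3 : K)) = C (1 / 2) * (3 * X + 2) ∧
    (X - C (-1 / 2 : K)) ^ 2 = C (1 / 4) * (2 * X + 1) ^ 2 := by
  have h2 : (2 : K[X]) = C 2 := rfl
  have h3 : (3 : K[X]) = C 3 := rfl
  have h8 : C (8 : K) = C 2 ^ 3 := by rw [← C_pow]; norm_num
  have h4 : C (1 / 4 : K) * C 2 ^ 2 = 1 := by rw [← C_pow, ← C_mul, ← C_1]; norm_num
  have a1 : C (2 : K) * C (-1 / 2) = -1 := by rw [← C_mul, ← C_1, ← C_neg]; norm_num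
  have a2 : C (3 / 2 : K) = C (1 / 2) * C 3 := by rw [← C_mul]; norm_num
  have a3 : C (3 : K) * C (-2 / 3) = - C 2 := by rw [← C_mul, ← C_neg]; norm_num
  refine ⟨?_, ?_, ?_, ?_⟩
  · rw [C_neg, C_1]; ring
  · rw [h8, ← mul_pow, mul_sub, a1, h2]; ring
  · rw [a2, mul_assoc, mul_sub, a3, h3, h2]; ring
  · have : C (1 / 4 : K) * (2 * X + 1) ^ 2 = C (1 / 4 : K) * C 2 ^ 2 * (X - C (-1 / 2 : K)) ^ 2 := by
      rw [mul_assoc, ← mul_pow, mul_sub, a1, h2]; ring
    rw [this, h4, one_mul]

theorem DRT_ne_zero {R T : K[X]} (hR : R ≠ 0) : DRT R T ≠ 0 := by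
  intro h
  obtain ⟨e1, e2, e3, _⟩ := poly_eqs (K := K)
  apply no_AB (T := T) hR
  rw [e1, e2, e3]
  unfold DRT sT sR at h
  linear_combination h

theorem DTQ_ne_zero {T Q : K[X]} (hT : T ≠ 0) (hQ : Q ≠ 0) : DTQ T Q ≠ 0 := by
  intro h
  obtain ⟨e1, _, _, e4⟩ := poly_eqs (K := K)
  apply no_C hQ hT
  rw [e1, e4]
  have h1 : (X + 1 : K[X]) ≠ 0 := by rw [← e1]; exact X_sub_C_ne_zero _
  apply mul_left_cancel₀ h1
  unfold DTQ sT sQ at h
  rw [map_zero] at h
  linear_combination -h

/-- `R`, `Q` coordinates are independent: `-8 ≠ 1` -/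
lemma RQ_ne {R Q : K[X]} (hR : R ≠ 0) (hQ : Q ≠ 0) : Q * sR R - R * sQ Q ≠ 0 := by
  intro h
  obtain ⟨e1, e2, _, e4⟩ := poly_eqs (K := K)
  have h1 : C 8 * (X - C (-1 / 2 : K)) ^ 3 * (Q * taylor 1 R)
      + (X - C (-1)) * (X - C (-1 / 2 : K)) ^ 2 * (R * taylor 1 Q) = 0 := by
    rw [e2, e1, e4]
    unfold sR sQ at h
    linear_combination -h
  have hRt := taylor_ne_zero hR
  have hQt := taylor_ne_zero hQ
  have h10 := congrArg (fun q => coeff q (3 + (natDegree R + natDegree Q))) h1
  have c1 : coeff (C 8 * (X - C (-1 / 2 : K)) ^ 3 * (Q * taylor 1 R))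
      (3 + (natDegree R + natDegree Q)) = 8 * (leadingCoeff Q * leadingCoeff R) := by
    have hm : ((X - C (-1 / 2 : K)) ^ 3).Monic := (monic_X_sub_C _).pow 3
    have hd : natDegree ((X - C (-1 / 2 : K)) ^ 3) = 3 := by rw [natDegree_pow, natDegree_X_sub_C]
    have : natDegree ((X - C (-1 / 2 : K)) ^ 3 * (Q * taylor 1 R))
        = 3 + (natDegree R + natDegree Q) := by
      rw [hm.natDegree_mul' (mul_ne_zero hQ hRt), hd, natDegree_mul hQ hRt, natDegree_taylor]
      ring
    rw [mul_assoc, coeff_C_mul, ← this, coeff_natDegree, leadingCoeff_mul, hm.leadingCoeff, one_mul,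
      leadingCoeff_mul, leadingCoeff_taylor]
  have c2 : coeff ((X - C (-1)) * (X - C (-1 / 2 : K)) ^ 2 * (R * taylor 1 Q))
      (3 + (natDegree R + natDegree Q)) = leadingCoeff R * leadingCoeff Q := by
    have hm : ((X - C (-1)) * (X - C (-1 / 2 : K)) ^ 2).Monic :=
      (monic_X_sub_C _).mul ((monic_X_sub_C _).pow 2)
    have hd : natDegree ((X - C (-1)) * (X - C (-1 / 2 : K)) ^ 2) = 3 := by
      rw [natDegree_mul (X_sub_C_ne_zero _) (pow_ne_zero _ (X_sub_C_ne_zero _)), natDegree_pow,
        natDegree_X_sub_C, natDegree_X_sub_C]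
    have : natDegree ((X - C (-1)) * (X - C (-1 / 2 : K)) ^ 2 * (R * taylor 1 Q))
        = 3 + (natDegree R + natDegree Q) := by
      rw [hm.natDegree_mul' (mul_ne_zero hR hQt), hd, natDegree_mul hR hQt, natDegree_taylor]
    rw [← this, coeff_natDegree, leadingCoeff_mul, hm.leadingCoeff, one_mul,
      leadingCoeff_mul, leadingCoeff_taylor]
  simp only [coeff_add, coeff_zero] at h10
  rw [c1, c2] at h10
  have h11 : (9 : K) * (leadingCoeff R * leadingCoeff Q) = 0 := by linear_combination h10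
  have h12 : (9 : K) ≠ 0 := by norm_num
  exact (mul_ne_zero h12 (mul_ne_zero (leadingCoeff_ne_zero.mpr hR)
    (leadingCoeff_ne_zero.mpr hQ))) h11

theorem DD_ne_zero {R T Q : K[X]} (hR : R ≠ 0) (hQ : Q ≠ 0) : DD R T Q ≠ 0 := by
  intro h
  have hy := RQ_ne hR hQ
  have hz : DRT R T ≠ 0 := DRT_ne_zero hR
  obtain ⟨e1, _, _, e4⟩ := poly_eqs (K := K)
  have h1 : (X + 1 : K[X]) ≠ 0 := by rw [← e1]; exact X_sub_C_ne_zero _
  have h2 : (2 * X + 1 : K[X]) ≠ 0 := by
    intro h0
    have := congrArg (eval 0) h0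
    simp at this
  apply no_C hy hz
  rw [e1, e4]
  apply mul_left_cancel₀ (mul_ne_zero h1 (pow_ne_zero 3 h2))
  have hτ : ∀ P : K[X], taylor 1 P = taylorAlgHom (1 : K) P := fun _ => rfl
  have hτX : taylorAlgHom (1 : K) X = X + 1 := by
    rw [← hτ, taylor_X, C_1]
  have hτC : ∀ a : K, taylorAlgHom (1 : K) (C a) = C a := fun a => by rw [← hτ, taylor_C]
  unfold DD det3 at h
  unfold DRT
  simp only [sR, sT, sQ, hτ, map_mul, map_add, map_sub, map_neg, map_pow, map_ofNat, map_one,
    hτX, hτC] at h ⊢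
  linear_combination ((2 * X + 1) ^ 3 * taylorAlgHom (1 : K) R) * h

end general

end Crest.Agent.R006.NVCasx793

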