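import Crest.Agent.R006.NVChain_664
import Crest.Agent.R006.NVInf_664

/-!
Row 6, block P2 (nonvanishing): the count of zeros, and the zero estimate
(assuming the three nonvanishing statements for the Casoratians).
-/

set_option autoImplicit false

namespace Crest.Agent.R006.NV

open Polynomial

/-- number of intervals `[u,v)` of the list containing `i` -/
def cnt (L : List (ℤ × ℤ)) (i : ℤ) : ℕ := L.countP (fun l => decide (l.1 ≤ i ∧ i < l.2))

/-- number of intervals containing `i, ..., i+k` -/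
def cntk (k : ℕ) (L : List (ℤ × ℤ)) (i : ℤ) : ℕ :=
  L.countP (fun l => decide (l.1 ≤ i ∧ i + k < l.2))

lemma cntk_le {k j : ℕ} (hj : j ≤ k) (L : List (ℤ × ℤ)) (i : ℤ) : cntk k L i ≤ cnt L (i + j) := by
  unfold cntk cnt
  apply List.countP_mono_left
  intro l _ hl
  simp only [decide_eq_true_eq] at hl ⊢
  have : (j : ℤ) ≤ k := by exact_mod_cast hj
  omega

/-- `∑ (length - k)` over the intervals (truncated) -/
def tot (k : ℕ) (L : List (ℤ × ℤ)) : ℕ := (L.map (fun l => (l.2 - l.1 - (k : ℤ)).toNat)).sum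

/-- all sites of a list of intervals -/
noncomputable def sites (L : List (ℤ × ℤ)) : Finset ℤ := L.foldr (fun l s => Finset.Ico l.1 l.2 ∪ s) ∅

lemma sites_cons (l : ℤ × ℤ) (L : List (ℤ × ℤ)) : sites (l :: L) = Finset.Ico l.1 l.2 ∪ sites L := rfl

lemma tot_cons (k : ℕ) (l : ℤ × ℤ) (L : List (ℤ × ℤ)) :
    tot k (l :: L) = (l.2 - l.1 - k).toNat + tot k L := by
  simp [tot]

lemma tot_le_sum (k : ℕ) (L : List (ℤ × ℤ)) (S : Finset ℤ) (hS : sites L ⊆ S) :
    tot k L ≤ ∑ i ∈ S, cntk k L i := by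
  induction L with
  | nil => simp [tot]
  | cons l L ih =>
    rw [sites_cons] at hS
    have h1 := ih (Finset.union_subset_right hS)
    have h2 : Finset.Ico l.1 l.2 ⊆ S := Finset.union_subset_left hS
    rw [tot_cons]
    have e : ∀ i, cntk k (l :: L) i = (if l.1 ≤ i ∧ i + k < l.2 then 1 else 0) + cntk k L i := by
      intro i
      unfold cntk
      rw [List.countP_cons]
      simp only [decide_eq_true_eq]
      ring
    simp_rw [e]
    rw [Finset.sum_add_distrib]
    have h3 : (l.2 - l.1 - k).toNat ≤ ∑ i ∈ S, (if l.1 ≤ i ∧ i + k < l.2 then 1 else 0) := by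
      rw [← Finset.card_filter]
      have h4 : Finset.Ico l.1 (l.2 - k) ⊆ S.filter (fun i => l.1 ≤ i ∧ i + k < l.2) := by
        intro i hi
        rw [Finset.mem_Ico] at hi
        rw [Finset.mem_filter]
        refine ⟨h2 ?_, by omega, by omega⟩
        rw [Finset.mem_Ico]
        omega
      have h5 := Finset.card_le_card h4
      rw [Int.card_Ico] at h5
      have : (l.2 - l.1 - k).toNat = (l.2 - k - l.1).toNat := by congr 1; ring
      omega
    omega

lemma cntk_append (k : ℕ) (L M : List (ℤ × ℤ)) (i : ℤ) :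
    cntk k (L ++ M) i = cntk k L i + cntk k M i := by
  unfold cntk
  exact List.countP_append

lemma tot_append (k : ℕ) (L M : List (ℤ × ℤ)) : tot k (L ++ M) = tot k L + tot k M := by
  simp [tot]

variable {K : Type*} [Field K] [CharZero K]

/-- the sites of the plane: `inl i ↦ i`, `inr i ↦ i + 1/2` -/
noncomputable def site (K : Type*) [Field K] : ℤ ⊕ ℤ → K
  | Sum.inl i => (i : K)
  | Sum.inr i => (i : K) + 1 / 2

lemma site_injective : Function.Injective (site K) := by
  intro x y h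
  rcases x with i | i <;> rcases y with j | j
  · simp only [site] at h
    have : i = j := by exact_mod_cast h
    rw [this]
  · exfalso
    simp only [site] at h
    have h2 : ((2 * i : ℤ) : K) = ((2 * j + 1 : ℤ) : K) := by
      push_cast
      linear_combination 2 * h
    have h3 : (2 * i : ℤ) = 2 * j + 1 := by exact_mod_cast h2
    omega
  · exfalso
    simp only [site] at h
    have h2 : ((2 * i + 1 : ℤ) : K) = ((2 * j : ℤ) : K) := by
      push_cast
      linear_combination 2 * h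
    have h3 : (2 * i + 1 : ℤ) = 2 * j := by exact_mod_cast h2
    omega
  · simp only [site] at h
    have h1 : (i : K) = (j : K) := by linear_combination h
    have : i = j := by exact_mod_cast h1
    rw [this]

omit [CharZero K] in
/-- sum of multiplicities is at most the degree -/
lemma sum_le_natDegree {ι : Type*} (S : Finset ι) (s : ι → K)
    (hs : Function.Injective s) (k : ι → ℕ) {P : K[X]} (hP : P ≠ 0)
    (h : ∀ i ∈ S, (X - C (s i)) ^ k i ∣ P) : ∑ i ∈ S, k i ≤ natDegree P := by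
  have h1 : ∏ i ∈ S, (X - C (s i)) ^ k i ∣ P := by
    apply Finset.prod_dvd_of_coprime
    · intro i _ j _ hij
      apply IsCoprime.pow
      exact isCoprime_X_sub_C_of_isUnit_sub (sub_ne_zero.mpr (fun h => hij (hs h))).isUnit
    · exact h
  have h2 := natDegree_le_of_dvd h1 hP
  rw [natDegree_prod_of_monic _ _ (fun i _ => (monic_X_sub_C (s i)).pow (k i))] at h2
  simpa [natDegree_pow] using h2

lemma count_aux (k : ℕ) (A A' : List (ℤ × ℤ)) {P : K[X]} {N : ℕ}
    (hN : natDegree P ≤ N)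
    (h : ∀ i : ℤ, (X - C (i : K)) ^ cntk k A i ∣ P)
    (h' : ∀ i : ℤ, (X - C ((i : K) + 1 / 2)) ^ cntk k A' i ∣ P)
    (hlt : N < tot k A + tot k A') : P = 0 := by
  by_contra hP
  have h1 := sum_le_natDegree ((sites A).disjSum (sites A')) (site K) site_injective
    (Sum.elim (cntk k A) (cntk k A')) hP ?_
  · rw [Finset.sum_disjSum] at h1
    simp only [Sum.elim_inl, Sum.elim_inr] at h1
    have h2 := tot_le_sum k A (sites A) (Finset.Subset.refl _)
    have h3 := tot_le_sum k A' (sites A') (Finset.Subset.refl _)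
    omega
  · intro x _
    rcases x with i | i
    · exact h i
    · exact h' i

/-- The data of a triple `(R,T,Q)`: orders given by lists of intervals of sites
(`LR, LF, LQ` : integers, `HR, HF, HQ` : half-integers `i + 1/2`); an interval occurring several
times (or overlapping intervals) means higher order. `lam = 0`: no second germ at the
half-integers. -/
structure Orders (c lam : K) (R T Q : K[X]) (LR LF LQ HR HF HQ : List (ℤ × ℤ)) : Prop where
  zR : ∀ i : ℤ, PowerSeries.X ^ cnt LR i ∣ gm (i : K) R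
  zF : ∀ i : ℤ, PowerSeries.X ^ cnt LF i ∣ FF (i : K) R T Q (PsiZ c i) (GamZ i)
  zQ : ∀ i : ℤ, PowerSeries.X ^ cnt LQ i ∣ gm (i : K) Q
  hR : ∀ i : ℤ, PowerSeries.X ^ cnt HR i ∣ gm ((i : K) + 1 / 2) R
  hF : ∀ i : ℤ, PowerSeries.X ^ cnt HF i ∣ FF ((i : K) + 1 / 2) R T Q (PsiH i) (GamH lam i)
  hQ : ∀ i : ℤ, PowerSeries.X ^ cnt HQ i ∣ gm ((i : K) + 1 / 2) Q

omit [CharZero K] in
lemma pow_dvd_of_le {x y : PowerSeries K} {a b : ℕ} (h : a ≤ b) (hy : x ^ b ∣ y) : x ^ a ∣ y :=
  (pow_dvd_pow x h).trans hy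

lemma GamZ_unit (n : ℕ) : PowerSeries.constantCoeff (GamZ (n : ℤ) : PowerSeries K) ≠ 0 := by
  induction n with
  | zero =>
    have : (GamZ ((0 : ℕ) : ℤ) : PowerSeries K) = 1 := GamZ_zero
    rw [this, map_one]
    exact one_ne_zero
  | succ n ih =>
    have h := congrArg PowerSeries.constantCoeff (step_Z (0 : K) (n : ℤ)).gam
    rw [map_mul, map_mul, map_mul, map_pow, map_pow, map_add, map_mul, constantCoeff_pt,
      constantCoeff_pt, constantCoeff_two, map_one, PowerSeries.constantCoeff_C] at h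
    intro h0
    have e : ((n + 1 : ℕ) : ℤ) = (n : ℤ) + 1 := by push_cast; rfl
    rw [e] at h0
    rw [h0, mul_zero] at h
    have h1 : (2 * ((n : ℤ) : K) + 1) ≠ 0 := by
      have : ((2 * n + 1 : ℕ) : K) ≠ 0 := by exact_mod_cast (by omega : 2 * n + 1 ≠ 0)
      push_cast at this ⊢
      exact this
    have h2 : (1 / 4 : K) ≠ 0 := by norm_num
    exact (mul_ne_zero (mul_ne_zero h2 (pow_ne_zero 2 h1)) ih) h.symm

theorem DD_dvd {c lam : K} {R T Q : K[X]} {LR LF LQ HR HF HQ : List (ℤ × ℤ)}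
    (o : Orders c lam R T Q LR LF LQ HR HF HQ) (i : ℤ) :
    (X - C (i : K)) ^ cntk 2 (LR ++ LF ++ LQ) i ∣ DD R T Q := by
  have e : cntk 2 (LR ++ LF ++ LQ) i = cntk 2 LR i + cntk 2 LF i + cntk 2 LQ i := by
    simp only [cntk_append]
  rw [e]
  have s1 : ((i + 1 : ℤ) : K) = (i : K) + 1 := by push_cast; rfl
  have s2 : ((i + 2 : ℤ) : K) = (i : K) + 1 + 1 := by push_cast; ring
  have st1 := step_Z c i
  have st2 := step_Z c (i + 1)
  rw [s1] at st2
  have e2 : i + 1 + 1 = i + 2 := by ring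
  rw [e2] at st2
  apply local_DD st1 st2
  · exact pow_dvd_of_le (by simpa using cntk_le (k := 2) (j := 0) (by norm_num) LR i) (o.zR i)
  · rw [← s1]; exact pow_dvd_of_le (cntk_le (k := 2) (j := 1) (by norm_num) LR i) (o.zR (i + 1))
  · rw [← s2]; exact pow_dvd_of_le (cntk_le (k := 2) (j := 2) (by norm_num) LR i) (o.zR (i + 2))
  · exact pow_dvd_of_le (by simpa using cntk_le (k := 2) (j := 0) (by norm_num) LF i) (o.zF i)
  · rw [← s1]; exact pow_dvd_of_le (cntk_le (k := 2) (j := 1) (by norm_num) LF i) (o.zF (i + 1))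
  · rw [← s2]; exact pow_dvd_of_le (cntk_le (k := 2) (j := 2) (by norm_num) LF i) (o.zF (i + 2))
  · exact pow_dvd_of_le (by simpa using cntk_le (k := 2) (j := 0) (by norm_num) LQ i) (o.zQ i)
  · rw [← s1]; exact pow_dvd_of_le (cntk_le (k := 2) (j := 1) (by norm_num) LQ i) (o.zQ (i + 1))
  · rw [← s2]; exact pow_dvd_of_le (cntk_le (k := 2) (j := 2) (by norm_num) LQ i) (o.zQ (i + 2))

theorem DD_dvd' {c lam : K} {R T Q : K[X]} {LR LF LQ HR HF HQ : List (ℤ × ℤ)}
    (o : Orders c lam R T Q LR LF LQ HR HF HQ) (i : ℤ) :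
    (X - C ((i : K) + 1 / 2)) ^ cntk 2 (HR ++ HF ++ HQ) i ∣ DD R T Q := by
  have e : cntk 2 (HR ++ HF ++ HQ) i = cntk 2 HR i + cntk 2 HF i + cntk 2 HQ i := by
    simp only [cntk_append]
  rw [e]
  have s1 : ((i + 1 : ℤ) : K) + 1 / 2 = (i : K) + 1 / 2 + 1 := by push_cast; ring
  have s2 : ((i + 2 : ℤ) : K) + 1 / 2 = (i : K) + 1 / 2 + 1 + 1 := by push_cast; ring
  have st1 := step_HG lam i
  have st2 := step_HG lam (i + 1)
  rw [s1] at st2
  have e2 : i + 1 + 1 = i + 2 := by ring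
  rw [e2] at st2
  apply local_DD st1 st2
  · exact pow_dvd_of_le (by simpa using cntk_le (k := 2) (j := 0) (by norm_num) HR i) (o.hR i)
  · rw [← s1]; exact pow_dvd_of_le (cntk_le (k := 2) (j := 1) (by norm_num) HR i) (o.hR (i + 1))
  · rw [← s2]; exact pow_dvd_of_le (cntk_le (k := 2) (j := 2) (by norm_num) HR i) (o.hR (i + 2))
  · exact pow_dvd_of_le (by simpa using cntk_le (k := 2) (j := 0) (by norm_num) HF i) (o.hF i)
  · rw [← s1]; exact pow_dvd_of_le (cntk_le (k := 2) (j := 1) (by norm_num) HF i) (o.hF (i + 1))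
  · rw [← s2]; exact pow_dvd_of_le (cntk_le (k := 2) (j := 2) (by norm_num) HF i) (o.hF (i + 2))
  · exact pow_dvd_of_le (by simpa using cntk_le (k := 2) (j := 0) (by norm_num) HQ i) (o.hQ i)
  · rw [← s1]; exact pow_dvd_of_le (cntk_le (k := 2) (j := 1) (by norm_num) HQ i) (o.hQ (i + 1))
  · rw [← s2]; exact pow_dvd_of_le (cntk_le (k := 2) (j := 2) (by norm_num) HQ i) (o.hQ (i + 2))

theorem DRT_dvd {c lam : K} {R T : K[X]} {LR LF LQ HR HF HQ : List (ℤ × ℤ)}
    (o : Orders c lam R T 0 LR LF LQ HR HF HQ) (i : ℤ) :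
    (X - C (i : K)) ^ cntk 1 (LR ++ LF) i ∣ DRT R T := by
  have e : cntk 1 (LR ++ LF) i = cntk 1 LR i + cntk 1 LF i := by
    simp only [cntk_append]
  rw [e]
  have s1 : ((i + 1 : ℤ) : K) = (i : K) + 1 := by push_cast; rfl
  apply local_DRT (step_Z c i)
  · exact pow_dvd_of_le (by simpa using cntk_le (k := 1) (j := 0) (by norm_num) LR i) (o.zR i)
  · rw [← s1]; exact pow_dvd_of_le (cntk_le (k := 1) (j := 1) (by norm_num) LR i) (o.zR (i + 1))
  · exact pow_dvd_of_le (by simpa using cntk_le (k := 1) (j := 0) (by norm_num) LF i) (o.zF i)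
  · rw [← s1]; exact pow_dvd_of_le (cntk_le (k := 1) (j := 1) (by norm_num) LF i) (o.zF (i + 1))

theorem DRT_dvd' {c lam : K} {R T : K[X]} {LR LF LQ HR HF HQ : List (ℤ × ℤ)}
    (o : Orders c lam R T 0 LR LF LQ HR HF HQ) (i : ℤ) :
    (X - C ((i : K) + 1 / 2)) ^ cntk 1 (HR ++ HF) i ∣ DRT R T := by
  have e : cntk 1 (HR ++ HF) i = cntk 1 HR i + cntk 1 HF i := by
    simp only [cntk_append]
  rw [e]
  have s1 : ((i + 1 : ℤ) : K) + 1 / 2 = (i : K) + 1 / 2 + 1 := by push_cast; ring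
  apply local_DRT (step_HG lam i)
  · exact pow_dvd_of_le (by simpa using cntk_le (k := 1) (j := 0) (by norm_num) HR i) (o.hR i)
  · rw [← s1]; exact pow_dvd_of_le (cntk_le (k := 1) (j := 1) (by norm_num) HR i) (o.hR (i + 1))
  · exact pow_dvd_of_le (by simpa using cntk_le (k := 1) (j := 0) (by norm_num) HF i) (o.hF i)
  · rw [← s1]; exact pow_dvd_of_le (cntk_le (k := 1) (j := 1) (by norm_num) HF i) (o.hF (i + 1))

theorem DTQ_dvd {c lam : K} {T Q : K[X]} {LR LF LQ HR HF HQ : List (ℤ × ℤ)}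
    (o : Orders c lam 0 T Q LR LF LQ HR HF HQ) (i : ℤ) :
    (X - C (i : K)) ^ cntk 1 (LF ++ LQ) i ∣ DTQ T Q := by
  have e : cntk 1 (LF ++ LQ) i = cntk 1 LF i + cntk 1 LQ i := by
    simp only [cntk_append]
  rw [e]
  have s1 : ((i + 1 : ℤ) : K) = (i : K) + 1 := by push_cast; rfl
  apply local_DTQ (step_Z c i)
  · exact pow_dvd_of_le (by simpa using cntk_le (k := 1) (j := 0) (by norm_num) LF i) (o.zF i)
  · rw [← s1]; exact pow_dvd_of_le (cntk_le (k := 1) (j := 1) (by norm_num) LF i) (o.zF (i + 1))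
  · exact pow_dvd_of_le (by simpa using cntk_le (k := 1) (j := 0) (by norm_num) LQ i) (o.zQ i)
  · rw [← s1]; exact pow_dvd_of_le (cntk_le (k := 1) (j := 1) (by norm_num) LQ i) (o.zQ (i + 1))

theorem DTQ_dvd' {c lam : K} {T Q : K[X]} {LR LF LQ HR HF HQ : List (ℤ × ℤ)}
    (o : Orders c lam 0 T Q LR LF LQ HR HF HQ) (i : ℤ) :
    (X - C ((i : K) + 1 / 2)) ^ cntk 1 (HF ++ HQ) i ∣ DTQ T Q := by
  have e : cntk 1 (HF ++ HQ) i = cntk 1 HF i + cntk 1 HQ i := by
    simp only [cntk_append]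
  rw [e]
  have s1 : ((i + 1 : ℤ) : K) + 1 / 2 = (i : K) + 1 / 2 + 1 := by push_cast; ring
  apply local_DTQ (step_HG lam i)
  · exact pow_dvd_of_le (by simpa using cntk_le (k := 1) (j := 0) (by norm_num) HF i) (o.hF i)
  · rw [← s1]; exact pow_dvd_of_le (cntk_le (k := 1) (j := 1) (by norm_num) HF i) (o.hF (i + 1))
  · exact pow_dvd_of_le (by simpa using cntk_le (k := 1) (j := 0) (by norm_num) HQ i) (o.hQ i)
  · rw [← s1]; exact pow_dvd_of_le (cntk_le (k := 1) (j := 1) (by norm_num) HQ i) (o.hQ (i + 1))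

omit [CharZero K] in
lemma Finf_zero_left (M : ℕ) (T : K[X]) : Finf M 0 T = -(X ^ M * T) := by
  simp [Finf]

omit [CharZero K] in
lemma natDegree_T_of_R_zero {M δ : ℕ} {T : K[X]} (h : natDegree (Finf M 0 T) ≤ M + δ) :
    natDegree T ≤ δ := by
  rw [Finf_zero_left, natDegree_neg] at h
  by_cases hT : T = 0
  · rw [hT]; simp
  rw [natDegree_mul (pow_ne_zero _ X_ne_zero) hT, natDegree_X_pow] at h
  omega

/-- **Zero estimate**, assuming the nonvanishing of the Casoratians. -/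
theorem zero_estimate_aux
    (N3 : ∀ R T Q : K[X], R ≠ 0 → Q ≠ 0 → DD R T Q ≠ 0)
    (N2 : ∀ R T : K[X], R ≠ 0 → DRT R T ≠ 0)
    (N2' : ∀ T Q : K[X], T ≠ 0 → Q ≠ 0 → DTQ T Q ≠ 0)
    {c lam : K} {R T Q : K[X]} {LR LF LQ HR HF HQ : List (ℤ × ℤ)}
    (o : Orders c lam R T Q LR LF LQ HR HF HQ) {M ρ δ κ : ℕ} (hM : ρ ≤ M + δ)
    (hR : natDegree R ≤ ρ) (hF : natDegree (Finf M R T) ≤ M + δ) (hQ : natDegree Q ≤ κ)
    (H3 : ρ + δ + κ + 9 < tot 2 (LR ++ LF ++ LQ) + tot 2 (HR ++ HF ++ HQ))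
    (H2 : ρ + δ + 3 < tot 1 (LR ++ LF) + tot 1 (HR ++ HF))
    (H2' : δ + κ + 3 < tot 1 (LF ++ LQ) + tot 1 (HF ++ HQ))
    (H1 : δ < tot 0 LF + tot 0 HF) {b : ℕ} (Hb : (0, (b : ℤ)) ∈ LF) (H1' : κ < b) :
    R = 0 ∧ T = 0 ∧ Q = 0 := by
  have hDD : DD R T Q = 0 :=
    count_aux 2 _ _ (natDegree_DD_le hM hR hF hQ) (DD_dvd o) (DD_dvd' o) H3
  by_cases hR0 : R = 0
  · subst hR0
    have hT : natDegree T ≤ δ := natDegree_T_of_R_zero hF
    have hDTQ : DTQ T Q = 0 :=
      count_aux 1 _ _ (natDegree_DTQ_le hT hQ) (DTQ_dvd o) (DTQ_dvd' o) H2'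
    by_cases hT0 : T = 0
    · subst hT0
      refine ⟨rfl, rfl, ?_⟩
      by_contra hQ0
      have h1 := sum_le_natDegree (Finset.range b) (fun n : ℕ => (n : K)) Nat.cast_injective
        (fun _ => 1) hQ0 ?_
      · simp at h1
        omega
      · intro n hn
        apply dvd_of_gm_dvd
        have hn' : n < b := Finset.mem_range.mp hn
        have h2 : PowerSeries.X ^ cnt LF (n : ℤ) ∣ gm ((n : ℤ) : K) Q * GamZ (n : ℤ) := by
          have h3 := o.zF (n : ℤ)
          have e : FF ((n : ℤ) : K) 0 0 Q (PsiZ c n) (GamZ n) = -(gm ((n : ℤ) : K) Q * GamZ n) := by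
            simp [FF, gm_zero]
          rw [e, dvd_neg] at h3
          exact h3
        have h4 : 1 ≤ cnt LF (n : ℤ) := by
          unfold cnt
          apply List.countP_pos_iff.mpr
          refine ⟨(0, (b : ℤ)), Hb, ?_⟩
          simp only [decide_eq_true_eq]
          omega
        have h5 : PowerSeries.X ^ 1 ∣ gm ((n : ℤ) : K) Q * GamZ (n : ℤ) := pow_dvd_of_le h4 h2
        rw [pow_one, PowerSeries.X_dvd_iff, map_mul] at h5
        rw [pow_one, PowerSeries.X_dvd_iff]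
        rcases mul_eq_zero.mp h5 with h6 | h6
        · simpa using h6
        · exact absurd h6 (GamZ_unit n)
    · by_cases hQ0 : Q = 0
      · subst hQ0
        exfalso
        apply hT0
        refine count_aux 0 LF HF hT ?_ ?_ H1
        · intro i
          apply dvd_of_gm_dvd
          have h1 := o.zF i
          have e : FF (i : K) 0 T 0 (PsiZ c i) (GamZ i) = -gm (i : K) T := by
            simp [FF, gm_zero]
          rw [e, dvd_neg] at h1
          exact pow_dvd_of_le (by simpa using cntk_le (k := 0) (j := 0) le_rfl LF i) h1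
        · intro i
          apply dvd_of_gm_dvd
          have h1 := o.hF i
          have e : FF ((i : K) + 1 / 2) 0 T 0 (PsiH i) (GamH lam i) = -gm ((i : K) + 1 / 2) T := by
            simp [FF, gm_zero]
          rw [e, dvd_neg] at h1
          exact pow_dvd_of_le (by simpa using cntk_le (k := 0) (j := 0) le_rfl HF i) h1
      · exact absurd hDTQ (N2' T Q hT0 hQ0)
  · exfalso
    by_cases hQ0 : Q = 0
    · subst hQ0
      exact N2 R T hR0 (count_aux 1 _ _ (natDegree_DRT_le hM hR hF) (DRT_dvd o) (DRT_dvd' o) H2)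
    · exact N3 R T Q hR0 hQ0 hDD

end Crest.Agent.R006.NV
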