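import Crest.Agent.R006.NVCount_664
import Crest.Agent.R006.NVCas_664

/-!
Row 6, block P2 (nonvanishing): the zero estimate.
-/

set_option autoImplicit false

namespace Crest.Agent.R006.NV

open Polynomial

variable {K : Type*} [Field K] [CharZero K]

/-- **Zero estimate** (block P2).  `tot k L = ∑ (length - k)` over the intervals of `L`. -/
theorem zero_estimate {c lam : K} {R T Q : K[X]} {LR LF LQ HR HF HQ : List (ℤ × ℤ)}
    (o : Orders c lam R T Q LR LF LQ HR HF HQ) {M ρ δ κ : ℕ} (hM : ρ ≤ M + δ)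
    (hR : natDegree R ≤ ρ) (hF : natDegree (Finf M R T) ≤ M + δ) (hQ : natDegree Q ≤ κ)
    (H3 : ρ + δ + κ + 9 < tot 2 (LR ++ LF ++ LQ) + tot 2 (HR ++ HF ++ HQ))
    (H2 : ρ + δ + 3 < tot 1 (LR ++ LF) + tot 1 (HR ++ HF))
    (H2' : δ + κ + 3 < tot 1 (LF ++ LQ) + tot 1 (HF ++ HQ))
    (H1 : δ < tot 0 LF + tot 0 HF) {b : ℕ} (Hb : (0, (b : ℤ)) ∈ LF) (H1' : κ < b) :
    R = 0 ∧ T = 0 ∧ Q = 0 :=
  zero_estimate_aux (fun _ _ _ => DD_ne_zero) (fun _ _ => DRT_ne_zero)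
    (fun _ _ => DTQ_ne_zero) o hM hR hF hQ H3 H2 H2' H1 Hb H1'

end Crest.Agent.R006.NV
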