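import Crest.Agent.R006.PsiInf_294

/-!
Row 6 (Catalan).  Block P1, residues at infinity of rational functions (helper294).

* `resInf P N = [s^{-1}] (P/N)` for `N` monic;
* `divByMonic_X_pow_mul`: `(X^k p) /ₘ N = ∑_{i<k} res(X^(k-1-i) p, N) X^i` for `deg p < deg N`;
* `lin_mul_divByMonic`: `[s^{-1}] (R ψ p/N) = [s^{-1}] (T_R p/N)` for `deg p < deg N`;
* `key_rational`: the key identity of `[s^{-1}] (· ψ_∞)` on rational functions.
-/

set_option autoImplicit false

namespace Crest.Agent.R006.PsiInf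

open Polynomial Finset

variable {K : Type*} [Field K]

/-- `[s^{-1}] (P/N)`, `N` monic. -/
noncomputable def resInf (P N : K[X]) : K := (P %ₘ N).coeff (N.natDegree - 1)

theorem resInf_add (P Q N : K[X]) : resInf (P + Q) N = resInf P N + resInf Q N := by
  rw [resInf, add_modByMonic, coeff_add]; rfl

theorem resInf_C_mul (c : K) (P N : K[X]) : resInf (C c * P) N = c * resInf P N := by
  rw [resInf, ← smul_eq_C_mul, smul_modByMonic, coeff_smul, smul_eq_mul]; rfl

theorem resInf_sum {ι : Type*} (s : Finset ι) (f : ι → K[X]) (N : K[X]) :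
    resInf (∑ i ∈ s, f i) N = ∑ i ∈ s, resInf (f i) N := by
  classical
  induction s using Finset.induction_on with
  | empty => simp [resInf]
  | insert a s ha ih => rw [Finset.sum_insert ha, Finset.sum_insert ha, resInf_add, ih]

theorem resInf_mul_self (P N : K[X]) (hN : N.Monic) : resInf (N * P) N = 0 := by
  rw [resInf, (modByMonic_eq_zero_iff_dvd hN).mpr (dvd_mul_right N P), coeff_zero]

/-- one step of the long division -/
theorem div_mod_X_mul (S N : K[X]) (hN : N.Monic) (hS : S.degree < N.degree) :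
    (X * S) /ₘ N = C (S.coeff (N.natDegree - 1)) ∧
      (X * S) %ₘ N = X * S - N * C (S.coeff (N.natDegree - 1)) := by
  have hd : N.natDegree ≠ 0 ∨ S = 0 := by
    by_cases h : N.natDegree = 0
    · right
      have h1 : N = 1 := (Polynomial.Monic.natDegree_eq_zero hN).mp h
      rw [h1, degree_one] at hS
      by_contra h0
      exact absurd (zero_le_degree_iff.mpr h0) (not_le.mpr hS)
    · left; exact h
  rcases hd with hd | hS0
  · have key := div_modByMonic_unique (f := X * S) (g := N) (C (S.coeff (N.natDegree - 1)))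
      (X * S - N * C (S.coeff (N.natDegree - 1))) hN ⟨by ring, ?_⟩
    · exact ⟨key.1, key.2⟩
    · -- the degree of the remainder
      rw [degree_eq_natDegree hN.ne_zero, degree_lt_iff_coeff_zero]
      intro j hj
      rw [coeff_sub]
      have hSn : ∀ i, N.natDegree ≤ i → S.coeff i = 0 := by
        intro i hi
        apply coeff_eq_zero_of_degree_lt
        refine hS.trans_le ?_
        rw [degree_eq_natDegree hN.ne_zero]
        exact_mod_cast hi
      rcases Nat.lt_or_ge N.natDegree j with h | h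
      · have e1 : (X * S).coeff j = 0 := by
          obtain ⟨i, rfl⟩ : ∃ i, j = i + 1 := ⟨j - 1, by omega⟩
          rw [coeff_X_mul]; exact hSn i (by omega)
        have e2 : (N * C (S.coeff (N.natDegree - 1))).coeff j = 0 := by
          rw [coeff_mul_C, coeff_eq_zero_of_natDegree_lt h, zero_mul]
        rw [e1, e2, sub_zero]
      · have hj' : j = N.natDegree := le_antisymm h hj
        subst hj'
        have e1 : (X * S).coeff N.natDegree = S.coeff (N.natDegree - 1) := by
          obtain ⟨i, hi⟩ : ∃ i, N.natDegree = i + 1 := ⟨N.natDegree - 1, by omega⟩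
          rw [hi, coeff_X_mul, Nat.add_sub_cancel]
        have e2 : (N * C (S.coeff (N.natDegree - 1))).coeff N.natDegree
            = S.coeff (N.natDegree - 1) := by
          rw [coeff_mul_C, show N.coeff N.natDegree = 1 from hN, one_mul]
        rw [e1, e2, sub_self]
  · subst hS0
    simp

theorem modByMonic_X_mul (P N : K[X]) : (X * P) %ₘ N = (X * (P %ₘ N)) %ₘ N := by
  rcases Classical.em (N.Monic) with hN | hN
  · have h := modByMonic_add_div P N
    have e : X * P = X * (P %ₘ N) + N * (X * (P /ₘ N)) := by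
      conv_lhs => rw [← h]
      ring
    rw [e, add_modByMonic, (modByMonic_eq_zero_iff_dvd hN).mpr (dvd_mul_right N _), add_zero]
  · rw [modByMonic_eq_of_not_monic _ hN, modByMonic_eq_of_not_monic _ hN,
      modByMonic_eq_of_not_monic _ hN]

/-- step for the quotient -/
theorem divByMonic_X_mul (P N : K[X]) (hN : N.Monic) :
    (X * P) /ₘ N = X * (P /ₘ N) + C (resInf P N) := by
  have h := modByMonic_add_div P N
  have hlt : (P %ₘ N).degree < N.degree := degree_modByMonic_lt P hN
  obtain ⟨h1, h2⟩ := div_mod_X_mul (P %ₘ N) N hN hlt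
  refine (div_modByMonic_unique (f := X * P) (g := N) (X * (P /ₘ N) + C (resInf P N))
    ((X * (P %ₘ N)) %ₘ N) hN ⟨?_, degree_modByMonic_lt _ hN⟩).1
  rw [h2, resInf]
  linear_combination (X : K[X]) * h

/-- **expansion of `p/N` at infinity** -/
theorem divByMonic_X_pow_mul (p N : K[X]) (hN : N.Monic) (hp : p.degree < N.degree) (k : ℕ) :
    (X ^ k * p) /ₘ N = ∑ i ∈ range k, C (resInf (X ^ (k - 1 - i) * p) N) * X ^ i := by
  induction k with
  | zero =>
    rw [pow_zero, one_mul, range_zero, sum_empty]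
    exact (divByMonic_eq_zero_iff hN).mpr hp
  | succ k ih =>
    have e : (X : K[X]) ^ (k + 1) * p = X * (X ^ k * p) := by ring
    rw [e, divByMonic_X_mul _ _ hN, ih, sum_range_succ', mul_sum, pow_zero, mul_one]
    have e0 : k + 1 - 1 - 0 = k := by omega
    rw [e0]
    congr 1
    refine sum_congr rfl (fun i _ => ?_)
    have e1 : k + 1 - 1 - (i + 1) = k - 1 - i := by omega
    rw [e1, pow_succ]; ring

/-- `[s^{-1}] (R ψ p/N) = [s^{-1}] (T_R p/N)` when `deg p < deg N`. -/
theorem lin_mul_divByMonic (m : ℕ → K) (R p N : K[X]) (hN : N.Monic) (hp : p.degree < N.degree) :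
    lin m ((R * p) /ₘ N) = resInf (TR m R * p) N := by
  induction R using Polynomial.induction_on' with
  | add P Q hP hQ =>
    rw [add_mul, add_divByMonic' _ _ _ hN, map_add, hP, hQ, map_add, add_mul, resInf_add]
  | monomial k c =>
    have e1 : (monomial k c : K[X]) * p = C c * (X ^ k * p) := by
      rw [← C_mul_X_pow_eq_monomial]; ring
    have e2 : TR m (monomial k c) * p
        = C c * ∑ i ∈ range k, C (m i) * (X ^ (k - 1 - i) * p) := by
      rw [TR_monomial, mul_assoc, sum_mul]
      congr 1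
      exact sum_congr rfl (fun i _ => by ring)
    rw [e1, C_mul_divByMonic _ _ _ hN, lin_C_mul, divByMonic_X_pow_mul p N hN hp k, map_sum, e2,
      resInf_C_mul, resInf_sum]
    congr 1
    refine sum_congr rfl (fun i _ => ?_)
    rw [lin_C_mul, lin_X_pow, resInf_C_mul]; ring

/-- division commutes with the shift -/
theorem comp_divByMonic (P N : K[X]) (hN : N.Monic) (a : K) :
    (P.comp (X + C a)) /ₘ (N.comp (X + C a)) = (P /ₘ N).comp (X + C a) ∧
      (P.comp (X + C a)) %ₘ (N.comp (X + C a)) = (P %ₘ N).comp (X + C a) := by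
  have hN' : (N.comp (X + C a)).Monic := hN.comp_X_add_C a
  have h := modByMonic_add_div P N
  refine div_modByMonic_unique _ _ hN' ⟨?_, ?_⟩
  · conv_rhs => rw [← h]
    rw [add_comp, mul_comp]
  · have hd : ∀ Q : K[X], (Q.comp (X + C a)).degree = Q.degree := fun Q => by
      have := degree_taylor Q a
      rwa [taylor_apply] at this
    rw [hd, hd]
    exact degree_modByMonic_lt P hN

/-- **The key identity for rational functions** `P/N` (residue at infinity). -/
theorem key_rational (m : ℕ → K) (hk : Key m) (h0 : m 0 = 0) (c1 : 9 * m 1 = -3 / 2)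
    (c2 : 9 * m 2 + 13 * m 1 = -1) (h2 : (2 : K) ≠ 0) (P N : K[X]) (hN : N.Monic) :
    lin m ((X ^ 3 * P) /ₘ N) + lin m (((2 * X + 1) ^ 3 * P.comp (X + 1)) /ₘ N.comp (X + 1))
      = -resInf (C (1 / 2) * (3 * X - 1) * P) N := by
  have hX1 : (X + 1 : K[X]) = X + C 1 := by simp
  -- rewrite the second term
  have hcomp : ((2 * X + 1) ^ 3 * P.comp (X + 1)) /ₘ N.comp (X + 1)
      = (((2 * X - 1) ^ 3 * P) /ₘ N).comp (X + 1) := by
    have e : (2 * X + 1) ^ 3 * P.comp (X + 1) = ((2 * X - 1) ^ 3 * P).comp (X + C 1) := by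
      rw [mul_comp, pow_comp, sub_comp, mul_comp, X_comp, hX1]
      simp
      left; ring
    rw [e, hX1]
    exact (comp_divByMonic _ N hN 1).1
  rw [hcomp]
  -- decompose P
  set Q := P /ₘ N with hQ
  set S0 := P %ₘ N with hS0
  have hP : P = S0 + N * Q := (modByMonic_add_div P N).symm
  have hlt0 : S0.degree < N.degree := degree_modByMonic_lt P hN
  set S1 := (X * S0) %ₘ N with hS1
  have hlt1 : S1.degree < N.degree := degree_modByMonic_lt _ hN
  set S2 := (X * S1) %ₘ N with hS2
  have hlt2 : S2.degree < N.degree := degree_modByMonic_lt _ hN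
  set a0 := S0.coeff (N.natDegree - 1) with ha0
  set a1 := S1.coeff (N.natDegree - 1) with ha1
  set a2 := S2.coeff (N.natDegree - 1) with ha2
  have e1 : X * S0 = S1 + N * C a0 := by
    rw [hS1, (div_mod_X_mul S0 N hN hlt0).2]; ring
  have e2 : X * S1 = S2 + N * C a1 := by
    rw [hS2, (div_mod_X_mul S1 N hN hlt1).2]; ring
  obtain ⟨S3, hS3⟩ : ∃ S3, S3 = (X * S2) %ₘ N := ⟨_, rfl⟩
  have hlt3 : S3.degree < N.degree := hS3 ▸ degree_modByMonic_lt _ hN
  have e3 : X * S2 = S3 + N * C a2 := by
    rw [hS3, (div_mod_X_mul S2 N hN hlt2).2]; ring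
  have q1 : (X ^ 3 * P) /ₘ N = X ^ 3 * Q + (C a0 * X ^ 2 + C a1 * X + C a2) := by
    refine (div_modByMonic_unique (f := X ^ 3 * P) (g := N) _ S3 hN ⟨?_, hlt3⟩).1
    rw [hP]
    linear_combination (-(X : K[X]) ^ 2) * e1 - X * e2 - e3
  have q2 : ((2 * X - 1) ^ 3 * P) /ₘ N = (2 * X - 1) ^ 3 * Q
      + (8 * (C a0 * X ^ 2 + C a1 * X + C a2) - 12 * (C a0 * X + C a1) + 6 * C a0) := by
    refine (div_modByMonic_unique (f := (2 * X - 1) ^ 3 * P) (g := N) _
      (8 * S3 - 12 * S2 + 6 * S1 - S0) hN ⟨?_, ?_⟩).1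
    · rw [hP]
      linear_combination (-8 * (X : K[X]) ^ 2 + 12 * X - 6) * e1 + (-8 * (X : K[X]) + 12) * e2
        - 8 * e3
    · have hsm : ∀ (c : K) (S : K[X]), S.degree < N.degree → (C c * S).degree < N.degree := by
        intro c S hS
        by_cases hc : c = 0
        · subst hc
          rw [C_0, zero_mul, degree_zero]
          exact bot_lt_iff_ne_bot.mpr (by rw [Ne, degree_eq_bot]; exact hN.ne_zero)
        · rw [degree_C_mul hc]; exact hS
      have c8 : (8 : K[X]) = C 8 := (map_ofNat C 8).symm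
      have c12 : (12 : K[X]) = C 12 := (map_ofNat C 12).symm
      have c6 : (6 : K[X]) = C 6 := (map_ofNat C 6).symm
      rw [c8, c12, c6]
      refine (degree_sub_le _ _).trans_lt (max_lt ?_ hlt0)
      refine (degree_add_le _ _).trans_lt (max_lt ?_ (hsm _ _ hlt1))
      exact (degree_sub_le _ _).trans_lt (max_lt (hsm _ _ hlt3) (hsm _ _ hlt2))
  -- the residue on the right
  have r1 : resInf (C (1 / 2) * (3 * X - 1) * P) N = 3 / 2 * a1 - 1 / 2 * a0 := by
    have e : C (1 / 2) * (3 * X - 1) * P = N * (C (1 / 2) * (3 * X - 1) * Q + C (3 / 2) * C a0)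
        + (C (3 / 2) * S1 + C (-(1 / 2)) * S0) := by
      have h3 : (C (1 / 2) * 3 : K[X]) = C (3 / 2) := by
        rw [show (3 : K[X]) = C 3 from (map_ofNat C 3).symm, ← C_mul]; congr 1; ring
      have hneg : (C (-(1 / 2)) : K[X]) = - C (1 / 2) := by rw [C_neg]
      rw [hP, hneg]
      linear_combination (C (3 / 2) : K[X]) * e1 + (X * S0) * h3
    rw [e, resInf_add, resInf_mul_self _ _ hN, zero_add, resInf_add, resInf_C_mul, resInf_C_mul]
    have m1 : resInf S1 N = a1 := by
      rw [resInf, (modByMonic_eq_self_iff hN).mpr hlt1]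
    have m0 : resInf S0 N = a0 := by
      rw [resInf, (modByMonic_eq_self_iff hN).mpr hlt0]
    rw [m1, m0]; ring
  rw [q1, q2, r1]
  -- the `Q` part is the polynomial key identity
  have kQ := hk Q
  have hc2 : ((2 * X - 1) ^ 3 * Q + (8 * (C a0 * X ^ 2 + C a1 * X + C a2)
      - 12 * (C a0 * X + C a1) + 6 * C a0)).comp (X + 1)
      = (2 * X + 1) ^ 3 * Q.comp (X + 1) + (C (8 * a0) * X ^ 2 + C (4 * a0 + 8 * a1) * X
        + C (2 * a0 - 4 * a1 + 8 * a2)) := by
    have c8 : (8 : K[X]) = C 8 := (map_ofNat C 8).symm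
    have c12 : (12 : K[X]) = C 12 := (map_ofNat C 12).symm
    have c6 : (6 : K[X]) = C 6 := (map_ofNat C 6).symm
    simp only [add_comp, sub_comp, mul_comp, pow_comp, X_comp, C_comp, ofNat_comp, one_comp]
    simp only [map_add, map_sub, map_mul, map_ofNat]
    ring
  rw [hc2, map_add (lin m) (X ^ 3 * Q), map_add (lin m) ((2 * X + 1) ^ 3 * Q.comp (X + 1))]
  have l1 : lin m (C a0 * X ^ 2 + C a1 * X + C a2) = a0 * m 2 + a1 * m 1 + a2 * m 0 := by
    have : (C a2 : K[X]) = C a2 * X ^ 0 := by simp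
    rw [this, map_add, map_add, lin_C_mul, lin_C_mul, lin_C_mul, lin_X_pow, lin_X_pow]
    have h1 : lin m (X : K[X]) = m 1 := by
      have := lin_X_pow m 1; rwa [pow_one] at this
    rw [h1]
  have l2 : lin m (C (8 * a0) * X ^ 2 + C (4 * a0 + 8 * a1) * X + C (2 * a0 - 4 * a1 + 8 * a2))
      = 8 * a0 * m 2 + (4 * a0 + 8 * a1) * m 1 + (2 * a0 - 4 * a1 + 8 * a2) * m 0 := by
    have : (C (2 * a0 - 4 * a1 + 8 * a2) : K[X]) = C (2 * a0 - 4 * a1 + 8 * a2) * X ^ 0 := by simp
    rw [this, map_add, map_add, lin_C_mul, lin_C_mul, lin_C_mul, lin_X_pow, lin_X_pow]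
    have h1 : lin m (X : K[X]) = m 1 := by
      have := lin_X_pow m 1; rwa [pow_one] at this
    rw [h1]
  rw [l1, l2, h0]
  rw [map_add] at kQ
  have h22 : (2 : K) * 2⁻¹ = 1 := mul_inv_cancel₀ h2
  linear_combination kQ + a0 * c2 + a1 * c1 - a0 * c1 + a0 * h22

end Crest.Agent.R006.PsiInf
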