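import Crest.Agent.R006.NVTau_938
import Crest.Agent.R006.PsiInfKey_294

/-!
Row 6, block P2 (nonvanishing): the moments `mu` of `PsiInf_294` are the coefficients `cinf`
of the formal solution at infinity of `NVInf_664`; degree of `Finf M R (TR mu R)`.
-/

set_option autoImplicit false

namespace Crest.Agent.R006.NV

open Polynomial Crest.Agent.R006.PsiInf

section residues

variable {K : Type*} [Field K]

lemma resInf_X_pow (A : K[X]) {M : ℕ} (hM : 0 < M) : resInf A (X ^ M) = A.coeff (M - 1) := by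
  have h := modByMonic_add_div A (X ^ M : K[X])
  have h2 := congrArg (fun p => coeff p (M - 1)) h
  simp only [coeff_add] at h2
  rw [coeff_X_pow_mul', if_neg (by omega), add_zero] at h2
  rw [resInf, natDegree_X_pow, h2]

lemma coeff_taylor_of_le {B : K[X]} {n : ℕ} (h : B.natDegree ≤ n) (a : K) :
    (taylor a B).coeff n = B.coeff n := by
  rcases Nat.lt_or_ge B.natDegree n with h1 | h1
  · rw [coeff_eq_zero_of_natDegree_lt h1,
      coeff_eq_zero_of_natDegree_lt (by rwa [natDegree_taylor])]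
  · have : n = B.natDegree := le_antisymm h1 h
    subst this
    rw [coeff_taylor_natDegree]
    rfl

lemma resInf_comp (A N : K[X]) (hN : N.Monic) (hd : 0 < N.natDegree) (a : K) :
    resInf (A.comp (X + C a)) (N.comp (X + C a)) = resInf A N := by
  have h1 := (comp_divByMonic A N hN a).2
  have h2 : (N.comp (X + C a)).natDegree = N.natDegree := by
    have := natDegree_taylor N a
    rwa [taylor_apply] at this
  rw [resInf, resInf, h1, h2, ← taylor_apply]
  apply coeff_taylor_of_le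
  have h3 := natDegree_modByMonic_lt A hN (by rintro rfl; simp at hd)
  omega

lemma resInf_mul_right (A N D : K[X]) (hN : N.Monic) (hD : D.Monic) (hd : 0 < N.natDegree) :
    resInf (A * D) (N * D) = resInf A N := by
  have h := modByMonic_add_div A N
  have hN1 : N ≠ 1 := by rintro rfl; simp at hd
  have h3 := natDegree_modByMonic_lt A hN hN1
  have h4 : (N * D).natDegree = N.natDegree + D.natDegree := hN.natDegree_mul hD
  have e : (A * D) %ₘ (N * D) = (A %ₘ N) * D := by
    refine (div_modByMonic_unique (A /ₘ N) ((A %ₘ N) * D) (hN.mul hD) ⟨?_, ?_⟩).2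
    · linear_combination D * h
    · by_cases h0 : A %ₘ N = 0
      · rw [h0, zero_mul, degree_zero, bot_lt_iff_ne_bot, Ne, degree_eq_bot]
        exact (hN.mul hD).ne_zero
      · rw [degree_eq_natDegree (mul_ne_zero h0 hD.ne_zero),
          degree_eq_natDegree (hN.mul hD).ne_zero, natDegree_mul h0 hD.ne_zero, h4]
        exact_mod_cast (by omega)
  rw [resInf, resInf, e, h4,
    show N.natDegree + D.natDegree - 1 = (N.natDegree - 1) + D.natDegree by omega,
    coeff_mul_add_eq_of_natDegree_le (by omega) le_rfl]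
  have : D.coeff D.natDegree = 1 := hD
  rw [this, mul_one]

lemma resInf_of_natDegree_lt (A N : K[X]) (hN : N.Monic) (h : A.natDegree < N.natDegree - 1) :
    resInf A N = 0 := by
  rw [resInf, (modByMonic_eq_self_iff hN).mpr, coeff_eq_zero_of_natDegree_lt h]
  rw [degree_eq_natDegree hN.ne_zero]
  exact (degree_le_natDegree).trans_lt (by exact_mod_cast (by omega))

/-- `lin` with the moments `cinf (k+1)` through `pinf` -/
lemma lin_cinf (P : K[X]) {M : ℕ} (hM : P.natDegree < M) :
    lin (fun k => (cinf (k + 1) : K)) P = (P * pinf M).coeff (M - 1) := by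
  rw [lin_eq_sum _ P hM, coeff_mul, Finset.Nat.sum_antidiagonal_eq_sum_range_succ_mk]
  rw [Nat.succ_eq_add_one, show M - 1 + 1 = M by omega]
  refine Finset.sum_congr rfl fun k hk => ?_
  rw [Finset.mem_range] at hk
  rw [pinf_coeff, if_pos (by omega)]
  congr 2
  omega

end residues

section key

variable {K : Type*} [Field K] [CharZero K]

theorem key_cinf : Key (fun k => (cinf (k + 1) : K)) := by
  intro P
  obtain ⟨M, hM⟩ : ∃ M, M = P.natDegree + 10 := ⟨_, rfl⟩
  have hX1 : (X + 1 : K[X]) = X + C 1 := by simp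
  have hX1m : (X + 1 : K[X]).Monic := by rw [hX1]; exact monic_X_add_C 1
  have hPc : (P.comp (X + 1)).natDegree = P.natDegree := by
    have := natDegree_taylor P (1 : K)
    rwa [taylor_apply, ← hX1] at this
  -- degrees
  have d1 : (X ^ 3 * P).natDegree < M := by
    refine (natDegree_mul_le).trans_lt ?_
    rw [natDegree_X_pow]; omega
  have d2 : ((2 * X + 1) ^ 3 * P.comp (X + 1)).natDegree < M := by
    refine (natDegree_mul_le).trans_lt ?_
    have h1 : ((2 * X + 1 : K[X]) ^ 3).natDegree ≤ 3 := nd_pow 3 natDegree_two_X_add_one le_rfl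
    omega
  rw [map_add, lin_cinf _ d1, lin_cinf _ d2]
  rw [← resInf_X_pow _ (by omega : 0 < M), ← resInf_X_pow _ (by omega : 0 < M)]
  have mX : (X ^ M : K[X]).Monic := monic_X_pow M
  have mX1 : ((X + 1) ^ M : K[X]).Monic := hX1m.pow M
  have nX : 0 < (X ^ M : K[X]).natDegree := by rw [natDegree_X_pow]; omega
  have nX1 : ((X + 1) ^ M : K[X]).natDegree = M := by
    rw [hX1m.natDegree_pow, natDegree_X_add_one, mul_one]
  -- first term: shift
  have e1 : resInf (X ^ 3 * P * pinf M) (X ^ M) =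
      resInf (((X + 1) ^ 3 * P.comp (X + 1) * taylor 1 (pinf M)) * X ^ M)
        ((X + 1) ^ M * X ^ M) := by
    rw [resInf_mul_right _ _ _ mX1 mX (by rw [nX1]; omega)]
    have := resInf_comp (X ^ 3 * P * pinf M) (X ^ M) mX nX 1
    rw [← this]
    simp only [mul_comp, pow_comp, X_comp, taylor_apply, hX1]
  have e2 : resInf ((2 * X + 1) ^ 3 * P.comp (X + 1) * pinf M) (X ^ M) =
      resInf (((2 * X + 1) ^ 3 * P.comp (X + 1) * pinf M) * (X + 1) ^ M)
        ((X + 1) ^ M * X ^ M) := by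
    rw [mul_comm ((X + 1) ^ M : K[X]) (X ^ M), resInf_mul_right _ _ _ mX mX1 nX]
  rw [e1, e2, ← resInf_add]
  have e3 : (X + 1) ^ 3 * P.comp (X + 1) * taylor 1 (pinf M) * X ^ M +
      (2 * X + 1) ^ 3 * P.comp (X + 1) * pinf M * (X + 1) ^ M =
      P.comp (X + 1) * EE M (pinf M) +
        ((X + 1) ^ M * X ^ M) * (-(C (1 / 2) * (3 * X + 2)) * P.comp (X + 1)) := by
    unfold EE
    ring
  rw [e3, resInf_add, resInf_mul_self _ _ (mX1.mul mX), add_zero]
  apply resInf_of_natDegree_lt _ _ (mX1.mul mX)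
  have h1 := EE_pinf_natDegree (K := K) M
  have h2 : ((X + 1) ^ M * X ^ M : K[X]).natDegree = M + M := by
    rw [mX1.natDegree_mul mX, nX1, natDegree_X_pow]
  rw [h2]
  refine (natDegree_mul_le).trans_lt ?_
  omega

lemma cinf_one : (cinf 1 : K) = 0 := by
  have : (cinf 1 : K) = -(1 / 9) * (EE 0 (pinf 0)).coeff 2 := rfl
  rw [this]
  have e : (EE 0 (pinf 0) : K[X]) = C (3 / 2) * X + C 1 := by
    unfold EE pinf
    have h1 : (C (1 / 2) * 2 : K[X]) = C 1 := by
      rw [two_eq_C, ← C_mul]; norm_num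
    have h2 : (C (1 / 2) * 3 : K[X]) = C (3 / 2) := by
      rw [three_eq_C, ← C_mul]; norm_num
    simp only [map_zero, mul_zero, pow_zero, mul_one, zero_add]
    linear_combination h1 + X * h2
  rw [e]
  simp [coeff_X, coeff_one]

lemma cinf_two : (cinf 2 : K) = -1 / 6 := by
  have h0 : (cinf 2 : K) = -(1 / 9) * (EE 1 (pinf 1)).coeff 3 := rfl
  have hp : (pinf 1 : K[X]) = 0 := by
    have := pinf_succ (K := K) 0
    rw [zero_add, cinf_one] at this
    rw [this]
    have : (pinf 0 : K[X]) = 0 := rfl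
    rw [this]; simp
  rw [h0, hp]
  have e : (EE 1 0 : K[X]) = C (3 / 2) * X ^ 3 + C (5 / 2) * X ^ 2 + C 1 * X := by
    unfold EE
    have h1 : (C (1 / 2) * 2 : K[X]) = C 1 := by
      rw [two_eq_C, ← C_mul]; norm_num
    have h2 : (C (1 / 2) * 3 : K[X]) = C (3 / 2) := by
      rw [three_eq_C, ← C_mul]; norm_num
    have h3 : (C (5 / 2) : K[X]) = C (3 / 2) + C 1 := by
      rw [← C_add]; norm_num
    simp only [map_zero, mul_zero, pow_one, zero_add]
    rw [h3]
    linear_combination (X ^ 2 + X) * h1 + (X ^ 3 + X ^ 2) * h2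
  rw [e]
  simp [coeff_X, coeff_X_pow]
  norm_num

lemma cinf_three : (cinf 3 : K) = 7 / 54 := by
  have h0 : (cinf 3 : K) = -(1 / 9) * (EE 2 (pinf 2)).coeff 4 := rfl
  have hp : (pinf 2 : K[X]) = C (-1 / 6) := by
    have h1 := pinf_succ (K := K) 1
    have h2 := pinf_succ (K := K) 0
    rw [zero_add, cinf_one] at h2
    have h3 : (pinf 0 : K[X]) = 0 := rfl
    rw [h3] at h2
    rw [h2, show (1 + 1 : ℕ) = 2 from rfl, cinf_two] at h1
    rw [h1]; simp
  rw [h0, hp]
  have e : (EE 2 (C (-1 / 6)) : K[X]) = C (-1 / 6) *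
      (9 * X ^ 5 + 31 * X ^ 4 + 41 * X ^ 3 + 26 * X ^ 2 + 8 * X + 1)
      + C (3 / 2) * (X ^ 5 + 2 * X ^ 4 + X ^ 3) + (X ^ 4 + 2 * X ^ 3 + X ^ 2) := by
    unfold EE
    have h1 : (C (1 / 2) * 2 : K[X]) = 1 := by
      rw [two_eq_C, ← C_mul]; norm_num
    have h2 : (C (1 / 2) * 3 : K[X]) = C (3 / 2) := by
      rw [three_eq_C, ← C_mul]; norm_num
    rw [taylor_C]
    linear_combination (X ^ 4 + 2 * X ^ 3 + X ^ 2) * h1 + (X ^ 5 + 2 * X ^ 4 + X ^ 3) * h2
  rw [e]
  have c9 : (9 : K[X]) = C 9 := (map_ofNat C 9).symm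
  have c31 : (31 : K[X]) = C 31 := (map_ofNat C 31).symm
  have c41 : (41 : K[X]) = C 41 := (map_ofNat C 41).symm
  have c26 : (26 : K[X]) = C 26 := (map_ofNat C 26).symm
  have c8 : (8 : K[X]) = C 8 := (map_ofNat C 8).symm
  have c2 : (2 : K[X]) = C 2 := (map_ofNat C 2).symm
  rw [c9, c31, c41, c26, c8, c2]
  simp only [coeff_add, coeff_C_mul, coeff_X_pow, coeff_X, coeff_one]
  norm_num

/-- **the moments `mu` are the coefficients `cinf`.** -/
theorem cinf_eq_mu (k : ℕ) : (cinf (k + 1) : K) = ((mu k : ℚ) : K) := by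
  have := mu_unique (K := K) key_cinf ?_ ?_ ?_
  · exact congrFun this k
  · simp only [zero_add, cinf_one, mul_zero]
  · simp only [zero_add, cinf_one, mul_zero, add_zero]
    rw [show (1 + 1 : ℕ) = 2 from rfl, cinf_two]; norm_num
  · simp only [zero_add, cinf_one, mul_zero, add_zero]
    rw [show (1 + 1 : ℕ) = 2 from rfl, show (2 + 1 : ℕ) = 3 from rfl, cinf_two, cinf_three]
    norm_num

end key

/-- `TR mu (X ^ l)` is `tau l` -/
theorem TR_mu_X_pow (l : ℕ) : TR mu (X ^ l : ℚ[X]) = tau l := by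
  rw [X_pow_eq_monomial, TR_monomial, map_one, one_mul, tau]
  rw [← Finset.sum_range_reflect]
  refine Finset.sum_congr rfl fun d hd => ?_
  rw [Finset.mem_range] at hd
  have h := cinf_eq_mu (K := ℚ) (l - 1 - d)
  rw [show l - 1 - d + 1 = l - d by omega] at h
  rw [h, show l - 1 - (l - 1 - d) = d by omega]
  simp

/-- the forced part removes all the polynomial part -/
theorem Finf_TR_coeff (R : ℚ[X]) {M : ℕ} (hM : R.natDegree ≤ M) (d : ℕ) :
    (Finf M R (TR mu R)).coeff (M + d) = 0 := by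
  have e : R = ∑ l ∈ Finset.range (M + 1), C (R.coeff l) * X ^ l := by
    conv_lhs => rw [R.as_sum_range_C_mul_X_pow' (n := M + 1) (by omega)]
  have e2 : TR mu R = ∑ l ∈ Finset.range (M + 1), C (R.coeff l) * tau l := by
    conv_lhs => rw [e]
    rw [map_sum]
    refine Finset.sum_congr rfl fun l _ => ?_
    rw [← smul_eq_C_mul, map_smul, TR_mu_X_pow, smul_eq_C_mul]
  rw [e2]
  have h := Finf_comb_coeff (K := ℚ) (M := M) (k := M + 1) (q := 0) le_rfl R.coeff (fun _ => 0) d
  rw [Finset.range_zero, Finset.sum_empty, add_zero, add_zero, ← e] at h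
  exact h

theorem Finf_TR_natDegree (R : ℚ[X]) {M : ℕ} (hM : R.natDegree ≤ M) :
    (Finf M R (TR mu R)).natDegree ≤ M := by
  rw [natDegree_le_iff_coeff_eq_zero]
  intro N hN
  obtain ⟨d, rfl⟩ : ∃ d, N = M + d := ⟨N - M, by omega⟩
  exact Finf_TR_coeff R hM d

end Crest.Agent.R006.NV
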