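import Crest.Agent.R006.Defs
import Crest.Agent.R006.NVMain_664
import Crest.Agent.R006.NVMu_938

/-!
Row 6, block P2 (nonvanishing): from a kernel vector of the frozen matrix (`Defs`) to the
data `Orders` of the zero estimate (`NVMain_664`).
-/

set_option autoImplicit false

namespace Crest.Agent.R006.D

open Polynomial Crest.Agent.R006.NV Crest.Agent.R006.PsiInf

/-! ### germs -/

lemma bi_add_smul {K : Type*} [Field K] (a b c : ℤ → PowerSeries K) (x y : PowerSeries K) (κ : K)
    (i : ℤ) : bi a b c (x + PowerSeries.C κ * y) i =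
      bi a b c x i + PowerSeries.C κ * bi a b (fun _ => 0) y i := by
  rcases i with n | n
  · have : ∀ n : ℕ, bi a b c (x + PowerSeries.C κ * y) (n : ℤ) =
      bi a b c x (n : ℤ) + PowerSeries.C κ * bi a b (fun _ => 0) y (n : ℤ) := by
      intro n
      induction n with
      | zero => rfl
      | succ n ih =>
        rw [bi_succ, bi_succ, bi_succ, ih]; ring
    exact this n
  · induction n with
    | zero =>
      have e : (Int.negSucc 0 : ℤ) = -1 := rfl
      rw [e, bi_negOne, bi_negOne, bi_negOne]; ring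
    | succ n ih =>
      rw [bi_negSucc, bi_negSucc, bi_negSucc, ih]; ring

/-- superposition: the germ of `ψ` with value `-γ` at `0` -/
theorem PsiZ_eq (γ : ℚ) (i : ℤ) :
    PsiZ (-γ) i = PsiZ 0 i - PowerSeries.C γ * HomZ i := by
  have h := bi_add_smul (K := ℚ) (fun i => pt ((i : ℚ) + 1) ^ 3)
    (fun i => (2 * pt (i : ℚ) + 1) ^ 3) (fun i => -(PowerSeries.C (1 / 2) * (3 * pt (i : ℚ) + 2)))
    (PowerSeries.C 0) 1 (-γ) i
  have e1 : (PowerSeries.C (0 : ℚ) + PowerSeries.C (-γ) * 1 : PowerSeries ℚ) =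
      PowerSeries.C (-γ) := by rw [map_zero, zero_add, mul_one]
  rw [e1] at h
  have e2 : PowerSeries.C (-γ) = -PowerSeries.C γ := by rw [map_neg]
  have h' : PsiZ (-γ) i = PsiZ 0 i + PowerSeries.C (-γ) * HomZ i := h
  rw [h', e2]; ring

theorem GamH_eq (i : ℤ) : GamH i = NV.GamH (1 : ℚ) i := by
  unfold GamH NV.GamH GamH0 NV.GamH0
  rw [map_one]

/-- the germ of `ψ` at a site for the value `γ` of `X` -/
noncomputable def psi (γ : ℚ) (z : Site) : PowerSeries ℚ := psi0 z - PowerSeries.C γ * psi1 z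

lemma psi_Z (γ : ℚ) (i : ℤ) : psi γ (.Z i) = PsiZ (-γ) i := by rw [PsiZ_eq]; rfl

lemma psi_H (γ : ℚ) (i : ℤ) : psi γ (.H i) = PsiH i := by
  simp [psi, psi0, psi1]

/-! ### the polynomials of a kernel vector -/

section ker

variable (S : Shape) (u : ℕ) (x : Col S u → ℚ)

/-- the cofactor of the gauge in `R` -/
noncomputable def kP : ℚ[X] := ∑ l : Fin (S.k * u), C (x (.inl l)) * bin (S.a1 * u + l)

noncomputable def kR : ℚ[X] := ∑ l : Fin (S.k * u), C (x (.inl l)) * polR S u l

noncomputable def kY : ℚ[X] := ∑ l : Fin (S.q * u), C (x (.inr (.inl l))) * bin l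

noncomputable def kZ : ℚ[X] := ∑ l : Fin (S.g * u), C (x (.inr (.inr l))) * bin l

lemma kR_eq : kR S u x = gauge S u * kP S u x := by
  unfold kR kP polR
  rw [Finset.mul_sum]
  exact Finset.sum_congr rfl fun l _ => by ring

lemma tau_kR : tau (kR S u x) = ∑ l : Fin (S.k * u), C (x (.inl l)) * tau (polR S u l) := by
  unfold kR tau
  rw [map_sum]
  refine Finset.sum_congr rfl fun l _ => ?_
  rw [← smul_eq_C_mul, map_smul, smul_eq_C_mul]

lemma gm_sum {ι : Type*} (s : Finset ι) (a : ℚ) (f : ι → ℚ[X]) :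
    gm a (∑ i ∈ s, f i) = ∑ i ∈ s, gm a (f i) := by
  classical
  induction s using Finset.induction_on with
  | empty => simp [gm_zero]
  | insert b s hb ih => rw [Finset.sum_insert hb, Finset.sum_insert hb, gm_add, ih]

/-- the row of a kernel vector is a coefficient of the germ of `F` -/
theorem sum_entry (γ : ℚ) (ρ : Row) :
    ∑ j : Col S u, (entry S u ρ j).eval γ * x j =
      PowerSeries.coeff ρ.2 (FF ρ.1.val (kR S u x) (tau (kR S u x) - kY S u x) (-kZ S u x)
        (psi γ ρ.1) (gam ρ.1)) := by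
  have hR : ∑ l : Fin (S.k * u), (entry S u ρ (.inl l)).eval γ * x (.inl l) =
      PowerSeries.coeff ρ.2 (gm ρ.1.val (kR S u x) * psi γ ρ.1 - gm ρ.1.val (tau (kR S u x))) := by
    rw [tau_kR, gm_sum]
    unfold kR
    rw [gm_sum, Finset.sum_mul, ← Finset.sum_sub_distrib, map_sum]
    refine Finset.sum_congr rfl fun l _ => ?_
    rw [gm_mul, gm_mul, gm_C]
    have e : (entry S u ρ (.inl l)).eval γ =
        PowerSeries.coeff ρ.2 (gm ρ.1.val (polR S u l) * psi γ ρ.1
          - gm ρ.1.val (tau (polR S u l))) := by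
      simp only [entry, eval_sub, eval_mul, eval_C, eval_X, ent0, ent1]
      have : gm ρ.1.val (polR S u l) * psi γ ρ.1 - gm ρ.1.val (tau (polR S u l)) =
          (gm ρ.1.val (polR S u l) * psi0 ρ.1 - gm ρ.1.val (tau (polR S u l)))
          - PowerSeries.C γ * (gm ρ.1.val (polR S u l) * psi1 ρ.1) := by
        unfold psi; ring
      rw [this]
      simp only [map_sub, PowerSeries.coeff_C_mul]
    rw [e]
    have : PowerSeries.C (x (.inl l)) * gm ρ.1.val (polR S u l) * psi γ ρ.1 -
        PowerSeries.C (x (.inl l)) * gm ρ.1.val (tau (polR S u l)) =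
        PowerSeries.C (x (.inl l)) * (gm ρ.1.val (polR S u l) * psi γ ρ.1
          - gm ρ.1.val (tau (polR S u l))) := by ring
    rw [this, PowerSeries.coeff_C_mul]; ring
  have hT : ∑ l : Fin (S.q * u), (entry S u ρ (.inr (.inl l))).eval γ * x (.inr (.inl l)) =
      PowerSeries.coeff ρ.2 (gm ρ.1.val (kY S u x)) := by
    unfold kY
    rw [gm_sum, map_sum]
    refine Finset.sum_congr rfl fun l _ => ?_
    rw [gm_mul, gm_C, PowerSeries.coeff_C_mul]
    simp only [entry, eval_C, entT]; ring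
  have hQ : ∑ l : Fin (S.g * u), (entry S u ρ (.inr (.inr l))).eval γ * x (.inr (.inr l)) =
      PowerSeries.coeff ρ.2 (gm ρ.1.val (kZ S u x) * gam ρ.1) := by
    unfold kZ
    rw [gm_sum, Finset.sum_mul, map_sum]
    refine Finset.sum_congr rfl fun l _ => ?_
    rw [gm_mul, gm_C, mul_assoc, PowerSeries.coeff_C_mul]
    simp only [entry, eval_C, entQ]; ring
  rw [Fintype.sum_sum_type, Fintype.sum_sum_type, hR, hT, hQ, ← map_add, ← map_add]
  congr 1
  unfold FF
  rw [gm_sub, gm_neg]
  ring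

/-- kernel vectors: order of vanishing of `F` at the sites -/
theorem dvd_of_ker {γ : ℚ} {c : ℕ}
    (hx : ∀ ρ : Row, IsRow S u c ρ → ∑ j : Col S u, (entry S u ρ j).eval γ * x j = 0) (z : Site) :
    PowerSeries.X ^ S.mult u c z ∣
      FF z.val (kR S u x) (tau (kR S u x) - kY S u x) (-kZ S u x) (psi γ z) (gam z) := by
  rw [PowerSeries.X_pow_dvd_iff]
  intro j hj
  have := hx (z, j) hj
  rw [sum_entry] at this
  exact this

end ker

/-! ### binomials -/

lemma bin_ne_zero (l : ℕ) : bin l ≠ 0 := by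
  unfold bin
  apply mul_ne_zero
  · rw [Ne, C_eq_zero, inv_eq_zero]
    exact_mod_cast l.factorial_ne_zero
  · exact (monic_descPochhammer ℚ l).ne_zero

lemma natDegree_bin (l : ℕ) : (bin l).natDegree = l := by
  unfold bin
  rw [natDegree_C_mul (inv_ne_zero (by exact_mod_cast l.factorial_ne_zero)),
    descPochhammer_natDegree]

lemma degree_bin (l : ℕ) : (bin l).degree = l := by
  rw [degree_eq_natDegree (bin_ne_zero l), natDegree_bin]

/-- the binomials as a polynomial sequence -/
noncomputable def binSeq : Polynomial.Sequence ℚ := ⟨bin, degree_bin⟩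

lemma bin_indep {n a : ℕ} (x : Fin n → ℚ) (h : ∑ l : Fin n, C (x l) * bin (a + l) = 0) (l : Fin n) :
    x l = 0 := by
  have h1 := binSeq.linearIndependent
  have h2 : LinearIndependent ℚ (fun l : Fin n => bin (a + l)) :=
    h1.comp (fun l : Fin n => a + (l : ℕ)) (fun i j hij => by
      have : a + (i : ℕ) = a + (j : ℕ) := hij
      ext; omega)
  rw [Fintype.linearIndependent_iff] at h2
  apply h2
  rw [← h]
  exact Finset.sum_congr rfl fun l _ => by rw [smul_eq_C_mul]

lemma gauge_ne_zero (S : Shape) (u : ℕ) : gauge S u ≠ 0 := by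
  have hc : ∀ (l : ℕ) (a : ℚ), (bin l).comp (X + C a) ≠ 0 := by
    intro l a h
    rw [← taylor_apply] at h
    exact bin_ne_zero l ((taylor_injective a) (by rw [h, map_zero]))
  unfold gauge
  exact mul_ne_zero (mul_ne_zero (bin_ne_zero _) (hc _ _)) (hc _ _)

lemma natDegree_gauge (S : Shape) (u : ℕ) :
    (gauge S u).natDegree ≤ S.a2 * u + S.i1 * u + S.r1 * u := by
  have hc : ∀ (l : ℕ) (a : ℚ), ((bin l).comp (X + C a)).natDegree = l := by
    intro l a
    rw [← taylor_apply, natDegree_taylor, natDegree_bin]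
  unfold gauge
  refine natDegree_mul_le.trans ?_
  have h1 := natDegree_mul_le (p := bin (S.a2 * u))
    (q := (bin (S.i1 * u)).comp (X + C ((S.i1 * u : ℕ) - 1 / 2 : ℚ)))
  rw [hc, natDegree_bin] at h1
  rw [hc]
  omega

/-- zero kernel data: the vector is zero -/
theorem eq_zero_of_k (S : Shape) (u : ℕ) (x : Col S u → ℚ) (hR : kR S u x = 0)
    (hT : tau (kR S u x) - kY S u x = 0) (hQ : -kZ S u x = 0) : x = 0 := by
  have hP : kP S u x = 0 := by
    rw [kR_eq] at hR
    exact (mul_eq_zero.mp hR).resolve_left (gauge_ne_zero S u)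
  have hY : kY S u x = 0 := by
    rw [hR] at hT
    have : tau (0 : ℚ[X]) = 0 := by unfold tau; rw [map_zero]
    rw [this, zero_sub, neg_eq_zero] at hT
    exact hT
  have hZ : kZ S u x = 0 := neg_eq_zero.mp hQ
  funext j
  rcases j with l | l | l
  · exact bin_indep (fun l => x (.inl l)) hP l
  · refine bin_indep (a := 0) (fun l => x (.inr (.inl l))) ?_ l
    rw [← hY]; unfold kY
    exact Finset.sum_congr rfl fun l _ => by rw [zero_add]
  · refine bin_indep (a := 0) (fun l => x (.inr (.inr l))) ?_ l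
    rw [← hZ]; unfold kZ
    exact Finset.sum_congr rfl fun l _ => by rw [zero_add]

/-! ### zeros of the polynomials `R` -/

lemma bin_eval_zero {n : ℕ} {j : ℕ} (h : j < n) : (bin n).eval (j : ℚ) = 0 := by
  unfold bin
  rw [eval_mul, descPochhammer_eval_eq_descFactorial, Nat.descFactorial_eq_zero_iff_lt.mpr h]
  simp

lemma X_dvd_gm {s : ℚ} {p : ℚ[X]} (h : p.eval s = 0) : PowerSeries.X ∣ gm s p := by
  rw [PowerSeries.X_dvd_iff]
  unfold gm
  rw [← PowerSeries.coeff_zero_eq_constantCoeff_apply, Polynomial.coeff_coe, taylor_coeff_zero, h]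

lemma gm_bin_dvd (n : ℕ) (i : ℤ) :
    PowerSeries.X ^ (if 0 ≤ i ∧ i < n then 1 else 0) ∣ gm (i : ℚ) (bin n) := by
  split_ifs with h
  · rw [pow_one]
    apply X_dvd_gm
    obtain ⟨j, rfl⟩ := Int.eq_ofNat_of_zero_le h.1
    have := bin_eval_zero (n := n) (j := j) (by omega)
    simpa using this
  · rw [pow_zero]; exact one_dvd _

end Crest.Agent.R006.D
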