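import Crest.Agent.R006.NVDefs_664

/-!
Row 6, block P2 (nonvanishing), local part: orders of the Casoratian at a point `s`,
via germs in `K⟦X⟧` (`X` = local parameter at `s`).
-/

set_option autoImplicit false

namespace Crest.Agent.R006.NV

open Polynomial

variable {K : Type*} [Field K]

/-- germ of a polynomial at `s` : `p(s + ε)` as a power series in `ε` -/
noncomputable def gm (s : K) (p : K[X]) : PowerSeries K := ((taylor s p : K[X]) : PowerSeries K)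

/-- the germ `s + ε` -/
noncomputable def pt (s : K) : PowerSeries K := PowerSeries.X + PowerSeries.C s

lemma gm_add (s : K) (p q : K[X]) : gm s (p + q) = gm s p + gm s q := by
  simp [gm]

lemma gm_sub (s : K) (p q : K[X]) : gm s (p - q) = gm s p - gm s q := by
  simp [gm]

lemma gm_neg (s : K) (p : K[X]) : gm s (-p) = -gm s p := by
  simp [gm]

lemma gm_mul (s : K) (p q : K[X]) : gm s (p * q) = gm s p * gm s q := by
  simp [gm, taylor_mul]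

lemma gm_pow (s : K) (p : K[X]) (n : ℕ) : gm s (p ^ n) = gm s p ^ n := by
  simp [gm, taylor_pow]

lemma gm_C (s a : K) : gm s (C a) = PowerSeries.C a := by
  simp [gm]

lemma gm_zero (s : K) : gm s 0 = 0 := by
  simp [gm]

lemma gm_one (s : K) : gm s 1 = 1 := by
  have := gm_C s 1
  simpa using this

lemma gm_X (s : K) : gm s X = pt s := by
  simp [gm, pt]

lemma gm_two (s : K) : gm s 2 = 2 := by
  have h : (2 : K[X]) = 1 + 1 := by norm_num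
  rw [h, gm_add, gm_one]; norm_num

lemma gm_three (s : K) : gm s 3 = 3 := by
  have h : (3 : K[X]) = 1 + 1 + 1 := by norm_num
  rw [h, gm_add, gm_add, gm_one]; norm_num

lemma gm_taylor_one (s : K) (p : K[X]) : gm s (taylor 1 p) = gm (s + 1) p := by
  simp [gm, taylor_taylor]

lemma pt_add_one (s : K) : pt s + 1 = pt (s + 1) := by
  simp [pt, add_assoc]

lemma dvd_of_gm_dvd {s : K} {k : ℕ} {p : K[X]} (h : (PowerSeries.X : PowerSeries K) ^ k ∣ gm s p) :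
    (X - C s) ^ k ∣ p := by
  have h1 : (X : K[X]) ^ k ∣ taylor s p := by
    rw [Polynomial.X_pow_dvd_iff]
    rw [PowerSeries.X_pow_dvd_iff] at h
    intro d hd
    have := h d hd
    simpa [gm] using this
  obtain ⟨q, hq⟩ := h1
  refine ⟨taylor (-s) q, ?_⟩
  have h2 : p = taylor (-s) (taylor s p) := by
    rw [taylor_taylor]; simp
  rw [h2, hq, taylor_mul, taylor_pow, taylor_X, C_neg, sub_eq_add_neg]

lemma gm_dvd_of_dvd {s : K} {k : ℕ} {p : K[X]} (h : (X - C s) ^ k ∣ p) :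
    (PowerSeries.X : PowerSeries K) ^ k ∣ gm s p := by
  obtain ⟨q, rfl⟩ := h
  rw [gm_mul, gm_pow, gm_sub, gm_X, gm_C]
  have : pt s - PowerSeries.C s = (PowerSeries.X : PowerSeries K) := by simp [pt]
  rw [this]
  exact Dvd.intro _ rfl

lemma gm_dvd_iff {s : K} {k : ℕ} {p : K[X]} :
    (PowerSeries.X : PowerSeries K) ^ k ∣ gm s p ↔ (X - C s) ^ k ∣ p :=
  ⟨dvd_of_gm_dvd, gm_dvd_of_dvd⟩

/-- one step of the germs: `(ψ0,g0)` at `s`, `(ψ1,g1)` at `s+1`. -/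
structure Step (s : K) (ψ0 g0 ψ1 g1 : PowerSeries K) : Prop where
  psi : pt (s + 1) ^ 3 * ψ1 + (2 * pt s + 1) ^ 3 * ψ0 = -(PowerSeries.C (1 / 2) * (3 * pt s + 2))
  gam : pt (s + 1) ^ 2 * g1 = PowerSeries.C (1 / 4) * (2 * pt s + 1) ^ 2 * g0

/-- germ of `F = R ψ - T - Q g` at `s` -/
noncomputable def FF (s : K) (R T Q : K[X]) (ψ g : PowerSeries K) : PowerSeries K :=
  gm s R * ψ - gm s T - gm s Q * g

lemma gm_sR (s : K) (R : K[X]) : gm s (sR R) = -((2 * pt s + 1) ^ 3 * gm (s + 1) R) := by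
  simp only [sR, gm_neg, gm_mul, gm_pow, gm_add, gm_X, gm_one, gm_taylor_one, gm_two]

lemma gm_sT (s : K) (R T : K[X]) : gm s (sT R T) =
    pt (s + 1) ^ 3 * gm (s + 1) T + PowerSeries.C (1 / 2) * (3 * pt s + 2) * gm (s + 1) R := by
  simp only [sT, gm_mul, gm_pow, gm_add, gm_X, gm_one, gm_taylor_one, gm_two, gm_three, gm_C,
    pt_add_one]

lemma gm_sQ (s : K) (Q : K[X]) : gm s (sQ Q) =
    PowerSeries.C (1 / 4) * pt (s + 1) * (2 * pt s + 1) ^ 2 * gm (s + 1) Q := by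
  simp only [sQ, gm_mul, gm_pow, gm_add, gm_X, gm_one, gm_taylor_one, gm_two, gm_C,
    pt_add_one]

lemma FF_shift {s : K} {ψ0 g0 ψ1 g1 : PowerSeries K} (h : Step s ψ0 g0 ψ1 g1) (R T Q : K[X]) :
    FF s (sR R) (sT R T) (sQ Q) ψ0 g0 = pt (s + 1) ^ 3 * FF (s + 1) R T Q ψ1 g1 := by
  unfold FF
  rw [gm_sR, gm_sT, gm_sQ]
  have e1 := h.psi
  have e2 := h.gam
  linear_combination (-gm (s + 1) R) * e1 + (pt (s + 1) * gm (s + 1) Q) * e2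

lemma gm_det3 (s : K) (r0 t0 q0 r1 t1 q1 r2 t2 q2 : K[X]) :
    gm s (det3 r0 t0 q0 r1 t1 q1 r2 t2 q2) =
      det3 (gm s r0) (gm s t0) (gm s q0) (gm s r1) (gm s t1) (gm s q1)
        (gm s r2) (gm s t2) (gm s q2) := by
  simp only [det3, gm_add, gm_sub, gm_mul]

/-- column operation -/
lemma det3_col {A : Type*} [CommRing A] (r0 t0 q0 r1 t1 q1 r2 t2 q2 ψ g : A) :
    det3 r0 t0 q0 r1 t1 q1 r2 t2 q2 =
      -det3 r0 (r0 * ψ - t0 - q0 * g) q0 r1 (r1 * ψ - t1 - q1 * g) q1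
        r2 (r2 * ψ - t2 - q2 * g) q2 := by
  unfold det3
  ring

lemma dvd_det3 {A : Type*} [CommRing A] {x : A} {a b c : ℕ} {r0 t0 q0 r1 t1 q1 r2 t2 q2 : A}
    (h0 : x ^ a ∣ r0) (h1 : x ^ a ∣ r1) (h2 : x ^ a ∣ r2)
    (k0 : x ^ b ∣ t0) (k1 : x ^ b ∣ t1) (k2 : x ^ b ∣ t2)
    (l0 : x ^ c ∣ q0) (l1 : x ^ c ∣ q1) (l2 : x ^ c ∣ q2) :
    x ^ (a + b + c) ∣ det3 r0 t0 q0 r1 t1 q1 r2 t2 q2 := by
  obtain ⟨r0, rfl⟩ := h0
  obtain ⟨r1, rfl⟩ := h1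
  obtain ⟨r2, rfl⟩ := h2
  obtain ⟨t0, rfl⟩ := k0
  obtain ⟨t1, rfl⟩ := k1
  obtain ⟨t2, rfl⟩ := k2
  obtain ⟨q0, rfl⟩ := l0
  obtain ⟨q1, rfl⟩ := l1
  obtain ⟨q2, rfl⟩ := l2
  refine ⟨det3 r0 t0 q0 r1 t1 q1 r2 t2 q2, ?_⟩
  unfold det3
  ring

/-- **local estimate** for the 3x3 Casoratian. -/
theorem local_DD {s : K} {ψ0 g0 ψ1 g1 ψ2 g2 : PowerSeries K}
    (h01 : Step s ψ0 g0 ψ1 g1) (h12 : Step (s + 1) ψ1 g1 ψ2 g2) (R T Q : K[X]) {a b c : ℕ}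
    (r0 : PowerSeries.X ^ a ∣ gm s R) (r1 : PowerSeries.X ^ a ∣ gm (s + 1) R)
    (r2 : PowerSeries.X ^ a ∣ gm (s + 1 + 1) R)
    (f0 : PowerSeries.X ^ b ∣ FF s R T Q ψ0 g0) (f1 : PowerSeries.X ^ b ∣ FF (s + 1) R T Q ψ1 g1)
    (f2 : PowerSeries.X ^ b ∣ FF (s + 1 + 1) R T Q ψ2 g2)
    (q0 : PowerSeries.X ^ c ∣ gm s Q) (q1 : PowerSeries.X ^ c ∣ gm (s + 1) Q)
    (q2 : PowerSeries.X ^ c ∣ gm (s + 1 + 1) Q) :
    (X - C s) ^ (a + b + c) ∣ DD R T Q := by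
  apply dvd_of_gm_dvd
  unfold DD
  rw [gm_det3, det3_col _ _ _ _ _ _ _ _ _ ψ0 g0, dvd_neg]
  have F1 : gm s (sR R) * ψ0 - gm s (sT R T) - gm s (sQ Q) * g0
      = pt (s + 1) ^ 3 * FF (s + 1) R T Q ψ1 g1 := FF_shift h01 R T Q
  have F2 : gm s (sR (sR R)) * ψ0 - gm s (sT (sR R) (sT R T)) - gm s (sQ (sQ Q)) * g0
      = pt (s + 1) ^ 3 * (pt (s + 1 + 1) ^ 3 * FF (s + 1 + 1) R T Q ψ2 g2) := by
    have e1 := FF_shift h01 (sR R) (sT R T) (sQ Q)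
    have e2 := FF_shift h12 R T Q
    rw [e2] at e1
    exact e1
  have F0 : gm s R * ψ0 - gm s T - gm s Q * g0 = FF s R T Q ψ0 g0 := rfl
  rw [F0, F1, F2]
  apply dvd_det3
  · exact r0
  · rw [gm_sR]; exact (dvd_neg.mpr (Dvd.dvd.mul_left r1 _))
  · rw [gm_sR, gm_sR]
    rw [dvd_neg]
    apply Dvd.dvd.mul_left
    rw [dvd_neg]
    exact Dvd.dvd.mul_left r2 _
  · exact f0
  · exact Dvd.dvd.mul_left f1 _
  · exact Dvd.dvd.mul_left (Dvd.dvd.mul_left f2 _) _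
  · exact q0
  · rw [gm_sQ]; exact Dvd.dvd.mul_left q1 _
  · rw [gm_sQ, gm_sQ]
    exact Dvd.dvd.mul_left (Dvd.dvd.mul_left q2 _) _

lemma dvd_det2 {A : Type*} [CommRing A] {x : A} {a b : ℕ} {r0 t0 r1 t1 : A}
    (h0 : x ^ a ∣ r0) (h1 : x ^ a ∣ r1) (k0 : x ^ b ∣ t0) (k1 : x ^ b ∣ t1) :
    x ^ (a + b) ∣ r0 * t1 - t0 * r1 := by
  obtain ⟨r0, rfl⟩ := h0
  obtain ⟨r1, rfl⟩ := h1
  obtain ⟨t0, rfl⟩ := k0
  obtain ⟨t1, rfl⟩ := k1
  refine ⟨r0 * t1 - t0 * r1, ?_⟩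
  ring

/-- local estimate for the 2x2 Casoratian of `(R,T)` (case `Q = 0`). -/
theorem local_DRT {s : K} {ψ0 g0 ψ1 g1 : PowerSeries K}
    (h01 : Step s ψ0 g0 ψ1 g1) (R T : K[X]) {a b : ℕ}
    (r0 : PowerSeries.X ^ a ∣ gm s R) (r1 : PowerSeries.X ^ a ∣ gm (s + 1) R)
    (f0 : PowerSeries.X ^ b ∣ FF s R T 0 ψ0 g0) (f1 : PowerSeries.X ^ b ∣ FF (s + 1) R T 0 ψ1 g1) :
    (X - C s) ^ (a + b) ∣ DRT R T := by
  apply dvd_of_gm_dvd
  have F1 : gm s (sR R) * ψ0 - gm s (sT R T)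
      = pt (s + 1) ^ 3 * FF (s + 1) R T 0 ψ1 g1 := by
    have := FF_shift h01 R T 0
    have h0 : sQ (0 : K[X]) = 0 := by simp [sQ]
    rw [h0] at this
    rw [← this]
    simp [FF, gm_zero]
  have F0 : gm s R * ψ0 - gm s T = FF s R T 0 ψ0 g0 := by
    simp [FF, gm_zero]
  have e : gm s (DRT R T) = -(gm s R * (gm s (sR R) * ψ0 - gm s (sT R T))
      - (gm s R * ψ0 - gm s T) * gm s (sR R)) := by
    simp only [DRT, gm_sub, gm_mul]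
    ring
  rw [e, F0, F1, dvd_neg]
  apply dvd_det2
  · exact r0
  · rw [gm_sR]; exact (dvd_neg.mpr (Dvd.dvd.mul_left r1 _))
  · exact f0
  · exact Dvd.dvd.mul_left f1 _

/-- local estimate for the 2x2 Casoratian of `(T,Q)` (case `R = 0`). -/
theorem local_DTQ {s : K} {ψ0 g0 ψ1 g1 : PowerSeries K}
    (h01 : Step s ψ0 g0 ψ1 g1) (T Q : K[X]) {b c : ℕ}
    (f0 : PowerSeries.X ^ b ∣ FF s 0 T Q ψ0 g0) (f1 : PowerSeries.X ^ b ∣ FF (s + 1) 0 T Q ψ1 g1)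
    (q0 : PowerSeries.X ^ c ∣ gm s Q) (q1 : PowerSeries.X ^ c ∣ gm (s + 1) Q) :
    (X - C s) ^ (b + c) ∣ DTQ T Q := by
  apply dvd_of_gm_dvd
  have F1 : - gm s (sT 0 T) - gm s (sQ Q) * g0
      = pt (s + 1) ^ 3 * FF (s + 1) 0 T Q ψ1 g1 := by
    have := FF_shift h01 0 T Q
    have h0 : sR (0 : K[X]) = 0 := by simp [sR]
    rw [h0] at this
    rw [← this]
    simp [FF, gm_zero]
  have F0 : - gm s T - gm s Q * g0 = FF s 0 T Q ψ0 g0 := by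
    simp [FF, gm_zero]
  have e : gm s (DTQ T Q) = -((- gm s T - gm s Q * g0) * gm s (sQ Q)
      - gm s Q * (- gm s (sT 0 T) - gm s (sQ Q) * g0)) := by
    simp only [DTQ, gm_sub, gm_mul]
    ring
  rw [e, F0, F1, dvd_neg]
  apply dvd_det2
  · exact f0
  · exact Dvd.dvd.mul_left f1 _
  · exact q0
  · rw [gm_sQ]; exact Dvd.dvd.mul_left q1 _

end Crest.Agent.R006.NV
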