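import Crest.Agent.R006.NVTau_938
import Crest.Agent.R006.PsiInf_294

/-!
Row 6, block P2: the two normal forms of the formal solution at infinity agree.

* `star` : `TR mu ((2X+1)^3 P(X+1)) + (TR mu (X^3 P))(X+1) = -(3X+2)/2 * P(X+1)`;
* `cinf_succ` : `cinf (k+1) = mu k` (helper664's coefficients = helper294's moments);
* `TR_X_pow` : `TR mu (X^l) = NV.tau l`;
* `Finf_TR` : `natDegree (Finf M R (TR mu R - T)) ≤ M + d` for `deg R ≤ M + 1`, `deg T ≤ d`.
-/

set_option autoImplicit false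

namespace Crest.Agent.R006.NVMux793

open Polynomial Crest.Agent.R006.NV Crest.Agent.R006.PsiInf

section general

variable {K : Type*} [Field K]

lemma TR_X_mul (m : ℕ → K) (R : K[X]) : TR m (X * R) = X * TR m R + C (lin m R) := by
  induction R using Polynomial.induction_on' with
  | add P Q hP hQ =>
    rw [mul_add, map_add, hP, hQ, map_add, map_add, C_add]; ring
  | monomial k c =>
    rw [X_mul_monomial, TR_monomial, TR_monomial, lin_monomial, Finset.sum_range_succ,
      Nat.add_sub_cancel, Nat.sub_self, pow_zero, mul_one, mul_add, C_mul]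
    congr 1
    rw [mul_comm X, mul_assoc (C c)]
    congr 1
    rw [Finset.sum_mul]
    apply Finset.sum_congr rfl
    intro i hi
    rw [Finset.mem_range] at hi
    have e : k - i = (k - 1 - i) + 1 := by omega
    rw [e, pow_succ]
    ring

/-- `TR m (A R) = A * TR m R + O(deg A - 1)` -/
lemma TR_mul_deg (m : ℕ → K) (A R : K[X]) (d : ℕ) (hA : A.natDegree ≤ d + 1) :
    (TR m (A * R) - A * TR m R).natDegree ≤ d := by
  have h1 : ∀ k : ℕ, (TR m (X ^ (k + 1) * R) - X ^ (k + 1) * TR m R).natDegree ≤ k := by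
    intro k
    induction k with
    | zero =>
      have e : TR m (X ^ (0 + 1) * R) - X ^ (0 + 1) * TR m R = C (lin m R) := by
        rw [zero_add, pow_one, TR_X_mul]; ring
      rw [e, natDegree_C]
    | succ k ih =>
      have e : TR m (X ^ (k + 1 + 1) * R) - X ^ (k + 1 + 1) * TR m R
          = X * (TR m (X ^ (k + 1) * R) - X ^ (k + 1) * TR m R)
            + C (lin m (X ^ (k + 1) * R)) := by
        rw [pow_succ' X (k + 1), mul_assoc, TR_X_mul]; ring
      rw [e]
      apply natDegree_add_le_of_degree_le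
      · exact (natDegree_mul_le_of_le natDegree_X_le ih).trans (by omega)
      · rw [natDegree_C]; omega
  have h2 : ∀ k : ℕ, k ≤ d + 1 → (TR m (X ^ k * R) - X ^ k * TR m R).natDegree ≤ d := by
    intro k hk
    cases k with
    | zero => simp
    | succ k => exact (h1 k).trans (by omega)
  have e : TR m (A * R) - A * TR m R
      = ∑ k ∈ Finset.range (d + 2), C (A.coeff k) * (TR m (X ^ k * R) - X ^ k * TR m R) := by
    conv_lhs => rw [A.as_sum_range_C_mul_X_pow' (n := d + 2) (by omega)]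
    rw [Finset.sum_mul, map_sum, Finset.sum_mul, ← Finset.sum_sub_distrib]
    apply Finset.sum_congr rfl
    intro k _
    rw [mul_assoc, ← smul_eq_C_mul, map_smul, smul_eq_C_mul]; ring
  rw [e]
  apply natDegree_sum_le_of_forall_le
  intro k hk
  rw [Finset.mem_range] at hk
  exact (natDegree_C_mul_le _ _).trans (h2 k (by omega))

end general

lemma lin_quad (a b d : ℚ) : lin mu (C a * X ^ 2 + C b * X + C d) = a * (7 / 54) + b * (-1 / 6) := by
  rw [map_add, map_add, lin_C_mul, lin_C_mul, lin_X_pow]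
  have h1 : lin mu X = -1 / 6 := by
    have := lin_X_pow mu 1
    rw [pow_one, mu_one] at this
    exact this
  have h0 : lin mu (C d) = 0 := by
    have := lin_monomial mu 0 d
    rw [monomial_zero_left, mu_zero, mul_zero] at this
    exact this
  rw [h1, h0, mu_two, add_zero]

theorem star (P : ℚ[X]) :
    TR mu ((2 * X + 1) ^ 3 * P.comp (X + 1)) + (TR mu (X ^ 3 * P)).comp (X + 1)
      = -(C (1 / 2) * (3 * X + 2)) * P.comp (X + 1) := by
  apply Polynomial.funext
  intro x
  have two : (2 : ℚ[X]) = C 2 := (map_ofNat C 2).symm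
  set c : ℚ := P.eval (x + 1) with hc
  set P₁ : ℚ[X] := P /ₘ (X - C (x + 1)) with hP1
  have hP : P = C c + (X - C (x + 1)) * P₁ := by
    have h := modByMonic_add_div P (X - C (x + 1))
    rw [modByMonic_X_sub_C_eq_C_eval] at h
    exact h.symm
  have hPc : P.comp (X + 1) = C c + (X - C x) * P₁.comp (X + 1) := by
    conv_lhs => rw [hP]
    simp only [add_comp, mul_comp, sub_comp, X_comp, C_comp, one_comp, C_add, C_1]
    ring
  have hA : ((2 * X + 1) ^ 3 * P.comp (X + 1)) /ₘ (X - C x)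
      = (2 * X + 1) ^ 3 * P₁.comp (X + 1)
        + C c * (C 8 * X ^ 2 + C (8 * x + 12) * X + C (8 * x ^ 2 + 12 * x + 6)) := by
    apply (div_modByMonic_unique (f := (2 * X + 1) ^ 3 * P.comp (X + 1)) (g := X - C x) _
      (C (c * (2 * x + 1) ^ 3)) (monic_X_sub_C x) ⟨?_, ?_⟩).1
    · rw [hPc, two]
      simp only [C_add, C_mul, C_pow, C_1]
      have h8 : (C 8 : ℚ[X]) = 8 := map_ofNat C 8
      have h12 : (C 12 : ℚ[X]) = 12 := map_ofNat C 12
      have h6 : (C 6 : ℚ[X]) = 6 := map_ofNat C 6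
      have h2 : (C 2 : ℚ[X]) = 2 := map_ofNat C 2
      rw [h8, h12, h6, h2]
      ring
    · rw [degree_X_sub_C]
      exact degree_C_le.trans_lt (by norm_num)
  have hB : (X ^ 3 * P) /ₘ (X - C (x + 1))
      = X ^ 3 * P₁ + C c * (C 1 * X ^ 2 + C (x + 1) * X + C ((x + 1) ^ 2)) := by
    apply (div_modByMonic_unique (f := X ^ 3 * P) (g := X - C (x + 1)) _
      (C (c * (x + 1) ^ 3)) (monic_X_sub_C (x + 1)) ⟨?_, ?_⟩).1
    · conv_rhs => rw [hP]
      simp only [C_add, C_mul, C_pow, C_1]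
      ring
    · rw [degree_X_sub_C]
      exact degree_C_le.trans_lt (by norm_num)
  have hk := key_mu P₁
  rw [eval_add, eval_comp, eval_TR, hA]
  have e1 : eval x (X + 1 : ℚ[X]) = x + 1 := by simp
  rw [e1, eval_TR, hB, LinearMap.map_add, LinearMap.map_add, lin_C_mul, lin_C_mul, lin_quad,
    lin_quad]
  rw [LinearMap.map_add] at hk
  have e2 : eval x (-(C (1 / 2) * (3 * X + 2)) * P.comp (X + 1)) = -(1 / 2) * (3 * x + 2) * c := by
    rw [eval_mul, eval_comp, e1, ← hc]
    congr 1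
    simp
  rw [e2]
  linear_combination hk

/-- `p_M = TR mu (X^M)` satisfies the truncated recurrence. -/
theorem EE_TR (M : ℕ) : (EE M (TR mu (X ^ M : ℚ[X]))).natDegree ≤ M + 2 := by
  have d1 : natDegree (2 * X + 1 : ℚ[X]) ≤ 1 := natDegree_two_X_add_one
  have d2 : natDegree (X + 1 : ℚ[X]) ≤ 1 := natDegree_X_add_one.le
  -- first piece
  have h1 : (TR mu (((2 * X + 1) ^ 3 * (X + 1) ^ M) * X ^ M)
      - ((2 * X + 1) ^ 3 * (X + 1) ^ M) * TR mu (X ^ M : ℚ[X])).natDegree ≤ M + 2 := by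
    apply TR_mul_deg
    exact nd_mul (nd_pow 3 d1 le_rfl) (nd_pow M d2 le_rfl) (by omega)
  -- second piece
  have h2 : (TR mu ((X ^ 3 * (X - 1) ^ M) * X ^ M)
      - (X ^ 3 * (X - 1) ^ M) * TR mu (X ^ M : ℚ[X])).natDegree ≤ M + 2 := by
    apply TR_mul_deg
    have d3 : natDegree (X - 1 : ℚ[X]) ≤ 1 := by
      have : (X - 1 : ℚ[X]) = X - C 1 := by rw [C_1]
      rw [this]; exact (natDegree_X_sub_C (1 : ℚ)).le
    exact nd_mul (natDegree_X_pow_le 3) (nd_pow M d3 le_rfl) (by omega)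
  have hs := star ((X - 1) ^ M * X ^ M)
  have e3 : ((X - 1) ^ M * X ^ M : ℚ[X]).comp (X + 1) = X ^ M * (X + 1) ^ M := by
    simp only [mul_comp, pow_comp, sub_comp, X_comp, one_comp, add_sub_cancel_right]
  rw [e3] at hs
  have e4 : EE M (TR mu (X ^ M : ℚ[X]))
      = -(TR mu (((2 * X + 1) ^ 3 * (X + 1) ^ M) * X ^ M)
      - ((2 * X + 1) ^ 3 * (X + 1) ^ M) * TR mu (X ^ M : ℚ[X]))
      - (TR mu ((X ^ 3 * (X - 1) ^ M) * X ^ M)
      - (X ^ 3 * (X - 1) ^ M) * TR mu (X ^ M : ℚ[X])).comp (X + 1) := by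
    unfold EE
    have a1 : ((2 * X + 1) ^ 3 * (X + 1) ^ M) * X ^ M = (2 * X + 1) ^ 3 * (X ^ M * (X + 1) ^ M : ℚ[X]) := by
      ring
    have a2 : (X ^ 3 * (X - 1) ^ M) * X ^ M = X ^ 3 * ((X - 1) ^ M * X ^ M : ℚ[X]) := by ring
    rw [a1, a2, sub_comp, mul_comp, mul_comp, pow_comp, X_comp, pow_comp, sub_comp, X_comp,
      one_comp, add_sub_cancel_right]
    have a3 : taylor 1 (TR mu (X ^ M : ℚ[X])) = (TR mu (X ^ M : ℚ[X])).comp (X + 1) := by
      rw [taylor_apply, C_1]
    rw [a3]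
    linear_combination hs
  rw [e4]
  apply nd_sub
  · rw [natDegree_neg]; exact h1
  · refine natDegree_comp_le.trans ?_
    calc _ ≤ (M + 2) * 1 := Nat.mul_le_mul h2 d2
      _ = M + 2 := mul_one _

lemma TR_X_pow_succ (M : ℕ) : TR mu (X ^ (M + 1) : ℚ[X]) = X * TR mu (X ^ M) + C (mu M) := by
  rw [pow_succ', TR_X_mul, lin_X_pow]

theorem pinf_eq (M : ℕ) : (pinf M : ℚ[X]) = TR mu (X ^ M) := by
  induction M with
  | zero =>
    have := TR_monomial mu 0 1
    rw [Finset.range_zero, Finset.sum_empty, mul_zero] at this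
    rw [pow_zero, ← monomial_zero_one, this]
    rfl
  | succ M ih =>
    rw [pinf_succ, TR_X_pow_succ, ih]
    congr 2
    have h := EE_TR (M + 1)
    rw [TR_X_pow_succ, EE_succ] at h
    have hc : (X * (X + 1) * EE M (TR mu (X ^ M)) + C (mu M) * ((2 * X + 1) ^ 3 * (X + 1) ^ (M + 1)
        + X ^ (M + 1) * (X + 1) ^ 3) : ℚ[X]).coeff (M + 4) = 0 :=
      coeff_eq_zero_of_natDegree_lt (by omega)
    have h1 : natDegree (X + 1 : ℚ[X]) ≤ 1 := natDegree_X_add_one.le
    have hX : natDegree (X * (X + 1) : ℚ[X]) ≤ 2 := (natDegree_mul_le_of_le natDegree_X_le h1)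
    have cX : (X * (X + 1) : ℚ[X]).coeff 2 = 1 := by
      have : (X * (X + 1) : ℚ[X]) = X ^ 2 + X := by ring
      rw [this]; simp [coeff_X]
    rw [coeff_add, coeff_C_mul, bracket_coeff, show M + 4 = 2 + (M + 2) by ring,
      coeff_mul_add_eq_of_natDegree_le hX (EE_TR M), cX] at hc
    rw [cinf, ih]
    linear_combination (-1 / 9 : ℚ) * hc

theorem cinf_succ (M : ℕ) : (cinf (M + 1) : ℚ) = mu M := by
  have h1 := pinf_eq (M + 1)
  rw [pinf_succ, TR_X_pow_succ, pinf_eq] at h1
  have h2 := add_left_cancel h1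
  exact C_injective h2

theorem TR_X_pow (l : ℕ) : TR mu (X ^ l : ℚ[X]) = NV.tau l := by
  rw [← pinf_eq]
  ext d
  rw [pinf_coeff, tau_coeff]

/-- degree at infinity of a kernel vector. -/
theorem Finf_TR {M d : ℕ} {R T : ℚ[X]} (hR : R.natDegree ≤ M) (hT : T.natDegree ≤ d) :
    (Finf M R (TR mu R - T)).natDegree ≤ M + d := by
  have e : Finf M R (TR mu R - T) = (∑ k ∈ Finset.range (M + 1), C (R.coeff k) *
      Finf M (X ^ k) (tau k)) + X ^ M * T := by
    have h1 : R = ∑ k ∈ Finset.range (M + 1), C (R.coeff k) * X ^ k :=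
      R.as_sum_range_C_mul_X_pow' (by omega)
    have h2 : TR mu R = ∑ k ∈ Finset.range (M + 1), C (R.coeff k) * tau k := by
      conv_lhs => rw [h1]
      rw [map_sum]
      apply Finset.sum_congr rfl
      intro k _
      rw [← smul_eq_C_mul, map_smul, smul_eq_C_mul, TR_X_pow]
    have h3 : Finf M R (TR mu R) = ∑ k ∈ Finset.range (M + 1), C (R.coeff k) *
        Finf M (X ^ k) (tau k) := by
      rw [h2]
      generalize hc : (fun k => R.coeff k) = f at h1
      have hf : ∀ k, R.coeff k = f k := fun k => congrFun hc k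
      simp only [hf] at h1 ⊢
      rw [h1, Finf_sum]
      apply Finset.sum_congr rfl
      intro k _
      rw [Finf_smul]
    rw [← h3]
    unfold Finf
    ring
  rw [e]
  apply natDegree_add_le_of_degree_le
  · apply natDegree_sum_le_of_forall_le
    intro k hk
    rw [Finset.mem_range] at hk
    exact (natDegree_C_mul_le _ _).trans ((Finf_tau_natDegree_le (by omega)).trans (by omega))
  · exact nd_mul (natDegree_X_pow_le _) hT le_rfl

end Crest.Agent.R006.NVMux793
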