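import Crest.Agent.R006.Defs
import Crest.Agent.R006.NVMain_664
import Crest.Agent.R006.NVMu_793

/-!
Row 6, block P2: the zero estimate for a `Shape` (frozen definitions).

`shape_zero` : a triple `(R, tau R - T0, Q)` with `R` in the span of the `R`-columns, whose germs
vanish to the order `mult` at every site, is zero (`c ≥ 34` extra rows).
-/

set_option autoImplicit false
set_option linter.unusedSimpArgs false

namespace Crest.Agent.R006.NVShapex793

open Polynomial Crest.Agent.R006.NV Crest.Agent.R006.D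

section chains

variable {K : Type*} [Field K]

lemma bi_affine (a b c : ℤ → PowerSeries K) (i1 i2 y : PowerSeries K) (i : ℤ) :
    bi a b c (i1 + y * i2) i = bi a b c i1 i + y * bi a b (fun _ => 0) i2 i := by
  cases i with
  | ofNat n =>
    have h : ∀ n : ℕ, bi a b c (i1 + y * i2) (n : ℤ) = bi a b c i1 (n : ℤ)
        + y * bi a b (fun _ => 0) i2 (n : ℤ) := by
      intro n
      induction n with
      | zero => rfl
      | succ n ih => rw [bi_succ, bi_succ, bi_succ, ih]; ring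
    exact h n
  | negSucc n =>
    induction n with
    | zero =>
      have e : (Int.negSucc 0 : ℤ) = -1 := rfl
      rw [e, bi_negOne, bi_negOne, bi_negOne]; ring
    | succ n ih => rw [bi_negSucc, bi_negSucc, bi_negSucc, ih]; ring

end chains

lemma psi_Z (γ : ℚ) (i : ℤ) :
    psi0 (Site.Z i) - PowerSeries.C γ * psi1 (Site.Z i) = PsiZ (-γ) i := by
  have h := bi_affine (K := ℚ) (fun i => pt ((i : ℚ) + 1) ^ 3) (fun i => (2 * pt (i : ℚ) + 1) ^ 3)
    (fun i => -(PowerSeries.C (1 / 2) * (3 * pt (i : ℚ) + 2))) (PowerSeries.C 0) 1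
    (-PowerSeries.C γ) i
  have e : PowerSeries.C (0 : ℚ) + -PowerSeries.C γ * 1 = PowerSeries.C (-γ) := by
    rw [map_neg, map_zero]; ring
  rw [e] at h
  show PsiZ 0 i - PowerSeries.C γ * HomZ i = PsiZ (-γ) i
  unfold PsiZ HomZ
  rw [h]; ring

lemma psi_H (γ : ℚ) (i : ℤ) :
    psi0 (Site.H i) - PowerSeries.C γ * psi1 (Site.H i) = PsiH i := by
  show PsiH i - PowerSeries.C γ * 0 = PsiH i
  rw [mul_zero, sub_zero]

lemma gam_H (i : ℤ) : gam (Site.H i) = NV.GamH 1 i := by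
  show D.GamH i = NV.GamH 1 i
  unfold D.GamH NV.GamH D.GamH0 NV.GamH0
  rw [map_one]

/-! ### the lists of intervals -/

variable (S : Shape) (u c : ℕ)

def LF : List (ℤ × ℤ) :=
  [(0, ((S.B * u + c : ℕ) : ℤ)), (-((S.e1 * u : ℕ) : ℤ), 0), (-((S.e2 * u : ℕ) : ℤ), 0),
    (-((S.e3 * u : ℕ) : ℤ), 0)]

def HF : List (ℤ × ℤ) :=
  [(0, ((S.h1 * u : ℕ) : ℤ)), (0, ((S.h2 * u : ℕ) : ℤ)), (0, ((S.h3 * u : ℕ) : ℤ)),
    (-((S.w * u : ℕ) : ℤ), 0)]

def LR : List (ℤ × ℤ) :=
  [(0, ((S.a1 * u : ℕ) : ℤ)), (0, ((S.a2 * u : ℕ) : ℤ)), (-((S.r1 * u : ℕ) : ℤ), 0)]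

def HR : List (ℤ × ℤ) := [(-((S.i1 * u : ℕ) : ℤ), 0)]

lemma cnt_LF (i : ℤ) : cnt (LF S u c) i = S.mult u c (Site.Z i) := by
  unfold cnt LF Shape.mult
  simp only [List.countP_cons, List.countP_nil, decide_eq_true_eq]
  push_cast
  split_ifs <;> omega

lemma cnt_HF (i : ℤ) : cnt (HF S u) i = S.mult u c (Site.H i) := by
  unfold cnt HF Shape.mult
  simp only [List.countP_cons, List.countP_nil, decide_eq_true_eq]
  push_cast
  split_ifs <;> omega

lemma cnt_LR (i : ℤ) : cnt (LR S u) i = (if 0 ≤ i ∧ i < ((S.a1 * u : ℕ) : ℤ) then 1 else 0)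
    + (if 0 ≤ i ∧ i < ((S.a2 * u : ℕ) : ℤ) then 1 else 0)
    + (if -((S.r1 * u : ℕ) : ℤ) ≤ i ∧ i < 0 then 1 else 0) := by
  unfold cnt LR
  simp only [List.countP_cons, List.countP_nil, decide_eq_true_eq]
  omega

lemma cnt_HR (i : ℤ) :
    cnt (HR S u) i = (if -((S.i1 * u : ℕ) : ℤ) ≤ i ∧ i < 0 then 1 else 0) := by
  unfold cnt HR
  simp only [List.countP_cons, List.countP_nil, decide_eq_true_eq]
  omega

/-! ### zeros of the `R`-columns -/

lemma xd (s : ℚ) (P : ℚ[X]) (δ : Prop) [Decidable δ] (h : δ → P.eval s = 0) :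
    (PowerSeries.X : PowerSeries ℚ) ^ (if δ then 1 else 0) ∣ gm s P := by
  split_ifs with hd
  · apply gm_dvd_of_dvd
    rw [pow_one, dvd_iff_isRoot]
    exact h hd
  · rw [pow_zero]; exact one_dvd _

lemma bin_root {l : ℕ} {i : ℤ} (h0 : 0 ≤ i) (h1 : i < l) : (bin l).eval (i : ℚ) = 0 := by
  obtain ⟨n, rfl⟩ := Int.eq_ofNat_of_zero_le h0
  have hn : n < l := by exact_mod_cast h1
  unfold bin
  rw [eval_mul, Int.cast_natCast, descPochhammer_eval_eq_descFactorial,
    Nat.descFactorial_eq_zero_iff_lt.mpr hn, Nat.cast_zero, mul_zero]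

lemma natDegree_bin (l : ℕ) : (bin l).natDegree ≤ l := by
  unfold bin
  refine (natDegree_C_mul_le _ _).trans ?_
  rw [descPochhammer_natDegree]

/-- the common part of the `R`-columns -/
lemma R_eq (a : Fin (S.k * u) → ℚ) : (∑ l, C (a l) * polR S u l)
    = D.gauge S u * ∑ l : Fin (S.k * u), C (a l) * bin (S.a1 * u + l) := by
  rw [Finset.mul_sum]
  apply Finset.sum_congr rfl
  intro l _
  unfold polR
  ring

lemma sum_root (a : Fin (S.k * u) → ℚ) {i : ℤ} (h0 : 0 ≤ i) (h1 : i < ((S.a1 * u : ℕ) : ℤ)) :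
    (∑ l : Fin (S.k * u), C (a l) * bin (S.a1 * u + l)).eval (i : ℚ) = 0 := by
  rw [eval_finsetSum]
  apply Finset.sum_eq_zero
  intro l _
  rw [eval_mul, bin_root h0 (by push_cast at h1 ⊢; omega), mul_zero]

lemma zR (a : Fin (S.k * u) → ℚ) (i : ℤ) :
    PowerSeries.X ^ cnt (LR S u) i ∣ gm (i : ℚ) (∑ l, C (a l) * polR S u l) := by
  rw [cnt_LR, R_eq, pow_add, pow_add]
  unfold D.gauge
  rw [gm_mul, gm_mul, gm_mul]
  have h1 := xd (i : ℚ) (∑ l : Fin (S.k * u), C (a l) * bin (S.a1 * u + l))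
    (0 ≤ i ∧ i < ((S.a1 * u : ℕ) : ℤ)) (fun h => sum_root S u a h.1 h.2)
  have h2 := xd (i : ℚ) (bin (S.a2 * u))
    (0 ≤ i ∧ i < ((S.a2 * u : ℕ) : ℤ)) (fun h => bin_root h.1 h.2)
  have h3 := xd (i : ℚ) ((bin (S.r1 * u)).comp (X + C ((S.r1 * u : ℕ) : ℚ)))
    (-((S.r1 * u : ℕ) : ℤ) ≤ i ∧ i < 0) (fun h => by
      rw [eval_comp, eval_add, eval_X, eval_C]
      have e : (i : ℚ) + ((S.r1 * u : ℕ) : ℚ) = ((i + ((S.r1 * u : ℕ) : ℤ) : ℤ) : ℚ) := by
        push_cast; ring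
      rw [e]
      exact bin_root (by omega) (by omega))
  have h4 := mul_dvd_mul (mul_dvd_mul h1 h2) h3
  refine h4.trans ?_
  refine ⟨gm (i : ℚ) ((bin (S.i1 * u)).comp (X + C (((S.i1 * u : ℕ) : ℚ) - 1 / 2))), ?_⟩
  ring

lemma zHR (a : Fin (S.k * u) → ℚ) (i : ℤ) :
    PowerSeries.X ^ cnt (HR S u) i ∣ gm ((i : ℚ) + 1 / 2) (∑ l, C (a l) * polR S u l) := by
  rw [cnt_HR, R_eq]
  unfold D.gauge
  rw [gm_mul, gm_mul, gm_mul]
  have h3 := xd ((i : ℚ) + 1 / 2) ((bin (S.i1 * u)).comp (X + C (((S.i1 * u : ℕ) : ℚ) - 1 / 2)))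
    (-((S.i1 * u : ℕ) : ℤ) ≤ i ∧ i < 0) (fun h => by
      rw [eval_comp, eval_add, eval_X, eval_C]
      have e : (i : ℚ) + 1 / 2 + (((S.i1 * u : ℕ) : ℚ) - 1 / 2)
          = ((i + ((S.i1 * u : ℕ) : ℤ) : ℤ) : ℚ) := by
        push_cast; ring
      rw [e]
      exact bin_root (by omega) (by omega))
  refine h3.trans ?_
  refine ⟨gm ((i : ℚ) + 1 / 2) (bin (S.a2 * u))
    * gm ((i : ℚ) + 1 / 2) ((bin (S.r1 * u)).comp (X + C ((S.r1 * u : ℕ) : ℚ)))
    * gm ((i : ℚ) + 1 / 2) (∑ l : Fin (S.k * u), C (a l) * bin (S.a1 * u + l)), ?_⟩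
  ring

lemma natDegree_comp_bin (n : ℕ) (x : ℚ) : ((bin n).comp (X + C x)).natDegree ≤ n := by
  refine natDegree_comp_le.trans ?_
  rw [natDegree_X_add_C, mul_one]
  exact natDegree_bin n

lemma natDegree_R (a : Fin (S.k * u) → ℚ) : (∑ l, C (a l) * polR S u l).natDegree
    ≤ S.a2 * u + S.i1 * u + S.r1 * u + (S.a1 * u + S.k * u) := by
  rw [R_eq]
  apply nd_mul (m := S.a2 * u + S.i1 * u + S.r1 * u) (n := S.a1 * u + S.k * u) _ _ le_rfl
  · unfold D.gauge
    exact nd_mul (nd_mul (natDegree_bin _) (natDegree_comp_bin _ _) le_rfl)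
      (natDegree_comp_bin _ _) le_rfl
  · apply natDegree_sum_le_of_forall_le
    intro l _
    refine (natDegree_C_mul_le _ _).trans ((natDegree_bin _).trans ?_)
    have := l.2
    omega

/-! ### the zero estimate -/

lemma tot_ge (k : ℕ) (L : List (ℤ × ℤ)) :
    (L.map (fun l => l.2 - l.1 - (k : ℤ))).sum ≤ (tot k L : ℤ) := by
  induction L with
  | nil => simp [tot]
  | cons l L ih =>
    rw [tot_cons, List.map_cons, List.sum_cons]
    push_cast
    have := Int.self_le_toNat (l.2 - l.1 - (k : ℤ))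
    linarith

theorem shape_zero (hS : S.Good) (hc : 34 ≤ c) (γ : ℚ)
    (a : Fin (S.k * u) → ℚ) (T0 Q : ℚ[X]) (hT0 : T0.natDegree ≤ S.q * u)
    (hQ : Q.natDegree ≤ S.g * u)
    (hF : ∀ z : Site, PowerSeries.X ^ (S.mult u c z) ∣
      FF z.val (∑ l, C (a l) * polR S u l) (D.tau (∑ l, C (a l) * polR S u l) - T0) Q
        (psi0 z - PowerSeries.C γ * psi1 z) (gam z)) :
    (∑ l, C (a l) * polR S u l) = 0 ∧ T0 = 0 ∧ Q = 0 := by
  have hk : S.k * u + S.q * u + S.g * u = S.B * u + (S.e1 * u + S.e2 * u + S.e3 * u)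
      + (S.h1 * u + S.h2 * u + S.h3 * u) + S.w * u := by
    have h1 : S.k + S.q + S.g = S.rows := by
      have := hS.kpos
      unfold Shape.k
      omega
    have h2 : (S.k + S.q + S.g) * u = S.rows * u := by rw [h1]
    unfold Shape.rows at h2
    linarith
  have hgB : S.g * u ≤ S.B * u := Nat.mul_le_mul_right u (by have := hS.gq; have := hS.qB; omega)
  have hqB : S.q * u ≤ S.B * u := Nat.mul_le_mul_right u (by have := hS.qB; omega)
  have o : Orders (-γ) 1 (∑ l, C (a l) * polR S u l)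
      (D.tau (∑ l, C (a l) * polR S u l) - T0) Q (LR S u) (LF S u c) [] (HR S u) (HF S u) [] := by
    constructor
    · exact zR S u a
    · intro i
      rw [cnt_LF, ← psi_Z]
      exact hF (Site.Z i)
    · intro i
      simp [cnt]
    · exact zHR S u a
    · intro i
      rw [cnt_HF, ← psi_H γ, ← gam_H]
      exact hF (Site.H i)
    · intro i
      simp [cnt]
  have h := zero_estimate o (M := S.a2 * u + S.i1 * u + S.r1 * u + (S.a1 * u + S.k * u))
    (ρ := S.a2 * u + S.i1 * u + S.r1 * u + (S.a1 * u + S.k * u)) (δ := S.q * u) (κ := S.g * u)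
    (by omega) (natDegree_R S u a) (NVMux793.Finf_TR (natDegree_R S u a) hT0) hQ ?_ ?_ ?_ ?_
    (b := S.B * u + c) (by simp [LF]) (by omega)
  · obtain ⟨h1, h2, h3⟩ := h
    refine ⟨h1, ?_, h3⟩
    rw [h1] at h2
    have h4 : D.tau (0 : ℚ[X]) = 0 := by unfold D.tau; rw [map_zero]
    rw [h4, zero_sub, neg_eq_zero] at h2
    exact h2
  · have t1 := tot_ge 2 (LR S u ++ LF S u c ++ [])
    have t2 := tot_ge 2 (HR S u ++ HF S u ++ [])
    generalize tot 2 (LR S u ++ LF S u c ++ []) = x1 at t1 ⊢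
    generalize tot 2 (HR S u ++ HF S u ++ []) = x2 at t2 ⊢
    simp only [LR, LF, HR, HF, List.append_nil, List.cons_append, List.nil_append,
      List.map_cons, List.map_nil, List.sum_cons, List.sum_nil] at t1 t2
    zify
    zify at hk hgB hqB hc
    push_cast at t1 t2 hk ⊢
    have n1 : (0 : ℤ) ≤ S.k * u := by positivity
    have n2 : (0 : ℤ) ≤ S.g * u := by positivity
    linarith
  · have t1 := tot_ge 1 (LR S u ++ LF S u c)
    have t2 := tot_ge 1 (HR S u ++ HF S u)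
    generalize tot 1 (LR S u ++ LF S u c) = x1 at t1 ⊢
    generalize tot 1 (HR S u ++ HF S u) = x2 at t2 ⊢
    simp only [LR, LF, HR, HF, List.append_nil, List.cons_append, List.nil_append,
      List.map_cons, List.map_nil, List.sum_cons, List.sum_nil] at t1 t2
    zify
    zify at hk hgB hqB hc
    push_cast at t1 t2 hk ⊢
    have n1 : (0 : ℤ) ≤ S.k * u := by positivity
    have n2 : (0 : ℤ) ≤ S.g * u := by positivity
    linarith
  · have t1 := tot_ge 1 (LF S u c ++ [])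
    have t2 := tot_ge 1 (HF S u ++ [])
    generalize tot 1 (LF S u c ++ []) = x1 at t1 ⊢
    generalize tot 1 (HF S u ++ []) = x2 at t2 ⊢
    simp only [LR, LF, HR, HF, List.append_nil, List.cons_append, List.nil_append,
      List.map_cons, List.map_nil, List.sum_cons, List.sum_nil] at t1 t2
    zify
    zify at hk hgB hqB hc
    push_cast at t1 t2 hk ⊢
    have n1 : (0 : ℤ) ≤ S.k * u := by positivity
    have n2 : (0 : ℤ) ≤ S.g * u := by positivity
    linarith
  · have t1 := tot_ge 0 (LF S u c)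
    have t2 := tot_ge 0 (HF S u)
    generalize tot 0 (LF S u c) = x1 at t1 ⊢
    generalize tot 0 (HF S u) = x2 at t2 ⊢
    simp only [LR, LF, HR, HF, List.append_nil, List.cons_append, List.nil_append,
      List.map_cons, List.map_nil, List.sum_cons, List.sum_nil] at t1 t2
    zify
    zify at hk hgB hqB hc
    push_cast at t1 t2 hk ⊢
    have n1 : (0 : ℤ) ≤ S.k * u := by positivity
    have n2 : (0 : ℤ) ≤ S.g * u := by positivity
    linarith

end Crest.Agent.R006.NVShapex793
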