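import Crest.Agent.R006.NVInf_664

/-!
Row 6, block P2 (nonvanishing): the forced part at infinity of the columns `R = X ^ l`.
-/

set_option autoImplicit false

namespace Crest.Agent.R006.NV

open Polynomial

variable {K : Type*} [Field K]

/-- polynomial part of `s^l ψ_∞(s)` -/
noncomputable def tau (l : ℕ) : K[X] := ∑ d ∈ Finset.range l, C (cinf (l - d)) * X ^ d

/-- the coefficients of `pinf M`: `pinf M = ∑_{k=1}^{M} cinf k X^{M-k}` -/
lemma pinf_coeff (M d : ℕ) : (pinf M : K[X]).coeff d = if d < M then cinf (M - d) else 0 := by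
  induction M generalizing d with
  | zero => simp [pinf]
  | succ M ih =>
    rw [pinf_succ, coeff_add]
    cases d with
    | zero => simp
    | succ d =>
      rw [coeff_X_mul, ih, coeff_C, if_neg (Nat.succ_ne_zero d), add_zero]
      by_cases h : d < M
      · rw [if_pos h, if_pos (by omega)]
        congr 1
        omega
      · rw [if_neg h, if_neg (by omega)]

lemma tau_coeff (l d : ℕ) : (tau l : K[X]).coeff d = if d < l then cinf (l - d) else 0 := by
  unfold tau
  rw [finsetSum_coeff]
  simp only [coeff_C_mul, coeff_X_pow]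
  by_cases h : d < l
  · rw [if_pos h, Finset.sum_eq_single d]
    · simp
    · intro b _ hb
      rw [if_neg (fun h => hb h.symm), mul_zero]
    · intro hd
      exact absurd (Finset.mem_range.mpr h) hd
  · rw [if_neg h]
    apply Finset.sum_eq_zero
    intro b hb
    rw [Finset.mem_range] at hb
    rw [if_neg (by omega), mul_zero]

lemma tau_natDegree_lt {l : ℕ} (hl : 0 < l) : (tau l : K[X]).natDegree < l := by
  apply lt_of_le_of_lt (b := l - 1)
  · rw [natDegree_le_iff_coeff_eq_zero]
    intro N hN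
    rw [tau_coeff, if_neg (by omega)]
  · omega

/-- `R = X^l` with its forced part: `R ψ_∞ - τ_l` has no polynomial part. -/
theorem Finf_tau_coeff {M l : ℕ} (hl : l ≤ M) (d : ℕ) :
    (Finf M (X ^ l) (tau l) : K[X]).coeff (M + d) = 0 := by
  unfold Finf
  have h1 : (X ^ M * tau l : K[X]).coeff (M + d) = if d < l then cinf (l - d) else 0 := by
    rw [mul_comm, add_comm M d, coeff_mul_X_pow, tau_coeff]
  rw [coeff_sub, h1, show M + d = (M + d - l) + l by omega, coeff_mul_X_pow, pinf_coeff]
  by_cases h : d < l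
  · rw [if_pos (by omega), if_pos h, sub_eq_zero]
    congr 1
    omega
  · rw [if_neg (by omega), if_neg h, sub_zero]

/-- `R = X^l` with its forced part, degree form. -/
theorem Finf_tau_natDegree {M l : ℕ} (hl : l ≤ M) (hM : 0 < M) :
    (Finf M (X ^ l) (tau l) : K[X]).natDegree < M := by
  apply lt_of_le_of_lt (b := M - 1)
  · rw [natDegree_le_iff_coeff_eq_zero]
    intro N hN
    obtain ⟨d, rfl⟩ : ∃ d, N = M + d := ⟨N - M, by omega⟩
    exact Finf_tau_coeff hl d
  · omega

/-- weak degree form without hypothesis on `M`. -/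
theorem Finf_tau_natDegree_le {M l : ℕ} (hl : l ≤ M) :
    (Finf M (X ^ l) (tau l) : K[X]).natDegree ≤ M := by
  rw [natDegree_le_iff_coeff_eq_zero]
  intro N hN
  obtain ⟨d, rfl⟩ : ∃ d, N = M + d := ⟨N - M, by omega⟩
  exact Finf_tau_coeff hl d

/-- `T`-columns -/
theorem Finf_T_column (M l : ℕ) : (Finf M 0 (X ^ l) : K[X]) = -X ^ (M + l) := by
  unfold Finf
  rw [mul_zero, zero_sub, ← pow_add]

/-- `Finf` is additive. -/
theorem Finf_add (M : ℕ) (R R' T T' : K[X]) :
    Finf M (R + R') (T + T') = Finf M R T + Finf M R' T' := by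
  unfold Finf; ring

theorem Finf_smul (M : ℕ) (c : K) (R T : K[X]) :
    Finf M (C c * R) (C c * T) = C c * Finf M R T := by
  unfold Finf; ring

theorem Finf_sum {ι : Type*} (s : Finset ι) (M : ℕ) (R T : ι → K[X]) :
    Finf M (∑ i ∈ s, R i) (∑ i ∈ s, T i) = ∑ i ∈ s, Finf M (R i) (T i) := by
  unfold Finf
  rw [Finset.sum_sub_distrib, Finset.mul_sum, Finset.mul_sum]

/-- A combination of `R`-columns `X^l` (`l < k ≤ M + 1`) and `T`-columns `X^l` (`l < q`) satisfies
`deg (R ψ_∞ - T) ≤ q - 1`, i.e. `natDegree Finf ≤ M + q - 1` (here: all coefficients from `M + q`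
on vanish). -/
theorem Finf_comb_coeff {M k q : ℕ} (hk : k ≤ M + 1) (a b : ℕ → K) (d : ℕ) :
    (Finf M (∑ l ∈ Finset.range k, C (a l) * X ^ l)
      (∑ l ∈ Finset.range k, C (a l) * tau l + ∑ l ∈ Finset.range q, C (b l) * X ^ l) : K[X]).coeff
        (M + q + d) = 0 := by
  have e : (Finf M (∑ l ∈ Finset.range k, C (a l) * X ^ l)
      (∑ l ∈ Finset.range k, C (a l) * tau l + ∑ l ∈ Finset.range q, C (b l) * X ^ l) : K[X]) =
      ∑ l ∈ Finset.range k, C (a l) * Finf M (X ^ l) (tau l)
        + ∑ l ∈ Finset.range q, C (b l) * (-X ^ (M + l)) := by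
    have h1 := Finf_add (K := K) M (∑ l ∈ Finset.range k, C (a l) * X ^ l) 0
      (∑ l ∈ Finset.range k, C (a l) * tau l) (∑ l ∈ Finset.range q, C (b l) * X ^ l)
    rw [add_zero] at h1
    rw [h1, Finf_sum]
    congr 1
    · exact Finset.sum_congr rfl fun l _ => Finf_smul M (a l) _ _
    · unfold Finf
      rw [mul_zero, zero_sub, Finset.mul_sum, ← Finset.sum_neg_distrib]
      exact Finset.sum_congr rfl fun l _ => by rw [pow_add]; ring
  rw [e, coeff_add, finsetSum_coeff, finsetSum_coeff]
  have z1 : ∀ l ∈ Finset.range k,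
      (C (a l) * Finf M (X ^ l) (tau l) : K[X]).coeff (M + q + d) = 0 := by
    intro l hl
    rw [Finset.mem_range] at hl
    rw [coeff_C_mul, add_assoc, Finf_tau_coeff (by omega), mul_zero]
  have z2 : ∀ l ∈ Finset.range q, (C (b l) * (-X ^ (M + l)) : K[X]).coeff (M + q + d) = 0 := by
    intro l hl
    rw [Finset.mem_range] at hl
    rw [coeff_C_mul, coeff_neg, coeff_X_pow, if_neg (by omega), neg_zero, mul_zero]
  rw [Finset.sum_eq_zero z1, Finset.sum_eq_zero z2, add_zero]

end Crest.Agent.R006.NV
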