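import Mathlib

/-!
Row 6 (helper475), leaf L2, integral part.

* `det_integral_columns` : the determinant is multilinear in its columns, so the integrals of the
  columns `l ∈ δ` (each with its own measure) can be taken out; the columns `κ` are arbitrary.
* `andreief_mixed` : **Andréief's identity with extra columns**: entries of the columns `l ∈ δ`
  are `∫ f i t * g l t dμ`, the others arbitrary:
  `(card δ)! det = ∫ det[f i (t l) | B] * det[g l (t l')] dμ^δ`.
* `norm_det_andreief_le` : the resulting upper bound.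
-/

set_option autoImplicit false
set_option linter.unusedSectionVars false

namespace Crest.Agent.R006.Andreief475

open Finset Matrix MeasureTheory

variable {ι δ κ : Type*} [Fintype ι] [DecidableEq ι] [Fintype δ] [DecidableEq δ]
  [Fintype κ] [DecidableEq κ] {𝕜 : Type*} [RCLike 𝕜]

/-- product over the columns split into the two blocks -/
lemma prod_split {R : Type*} [CommMonoid R] (e : ι ≃ δ ⊕ κ) (F : ι → R) :
    ∏ j, F j = (∏ l : δ, F (e.symm (Sum.inl l))) * ∏ m : κ, F (e.symm (Sum.inr m)) := by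
  rw [← Equiv.prod_comp e.symm F, Fintype.prod_sum_type]

/-- **the integrals of some columns can be taken out of a determinant.** -/
theorem det_integral_columns (e : ι ≃ δ ⊕ κ) {E : δ → Type*} [∀ l, MeasurableSpace (E l)]
    (μ : ∀ l : δ, Measure (E l)) [∀ l, SigmaFinite (μ l)]
    (F : ι → ∀ l : δ, E l → 𝕜) (B : ι → κ → 𝕜) (hF : ∀ i l, Integrable (F i l) (μ l)) :
    (Matrix.of fun i j => Sum.elim (fun l => ∫ t, F i l t ∂(μ l)) (B i) (e j) :
        Matrix ι ι 𝕜).det =
      ∫ t : (l : δ) → E l, (Matrix.of fun i j => Sum.elim (fun l => F i l (t l)) (B i) (e j) :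
        Matrix ι ι 𝕜).det ∂(Measure.pi μ) := by
  have hint : ∀ σ : Equiv.Perm ι, Integrable
      (fun t : (l : δ) → E l => ∏ l, F (σ (e.symm (Sum.inl l))) l (t l)) (Measure.pi μ) :=
    fun σ => Integrable.fintype_prod_dep (f := fun l => F (σ (e.symm (Sum.inl l))) l)
      (fun l => hF _ _)
  have h1 : ∀ t : (l : δ) → E l,
      (Matrix.of fun i j => Sum.elim (fun l => F i l (t l)) (B i) (e j) : Matrix ι ι 𝕜).det =
      ∑ σ : Equiv.Perm ι, ((Equiv.Perm.sign σ : ℤ) : 𝕜) *
        ((∏ l, F (σ (e.symm (Sum.inl l))) l (t l)) *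
          ∏ m, B (σ (e.symm (Sum.inr m))) m) := by
    intro t
    rw [det_apply']
    refine Finset.sum_congr rfl fun σ _ => ?_
    rw [prod_split e]
    simp
  simp only [h1]
  rw [integral_finsetSum _ fun σ _ => ((hint σ).mul_const _).const_mul _, det_apply']
  refine Finset.sum_congr rfl fun σ _ => ?_
  rw [integral_const_mul, integral_mul_const, prod_split e,
    integral_fintype_prod_eq_prod (f := fun l => F (σ (e.symm (Sum.inl l))) l)]
  simp

/-- integrability of the integrand of `det_integral_columns`. -/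
theorem integrable_det_columns (e : ι ≃ δ ⊕ κ) {E : δ → Type*} [∀ l, MeasurableSpace (E l)]
    (μ : ∀ l : δ, Measure (E l)) [∀ l, SigmaFinite (μ l)]
    (F : ι → ∀ l : δ, E l → 𝕜) (B : ι → κ → 𝕜) (hF : ∀ i l, Integrable (F i l) (μ l)) :
    Integrable (fun t : (l : δ) → E l =>
      (Matrix.of fun i j => Sum.elim (fun l => F i l (t l)) (B i) (e j) :
        Matrix ι ι 𝕜).det) (Measure.pi μ) := by
  have hint : ∀ σ : Equiv.Perm ι, Integrable
      (fun t : (l : δ) → E l => ∏ l, F (σ (e.symm (Sum.inl l))) l (t l)) (Measure.pi μ) :=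
    fun σ => Integrable.fintype_prod_dep (f := fun l => F (σ (e.symm (Sum.inl l))) l)
      (fun l => hF _ _)
  have h1 : ∀ t : (l : δ) → E l,
      (Matrix.of fun i j => Sum.elim (fun l => F i l (t l)) (B i) (e j) : Matrix ι ι 𝕜).det =
      ∑ σ : Equiv.Perm ι, ((Equiv.Perm.sign σ : ℤ) : 𝕜) *
        ((∏ l, F (σ (e.symm (Sum.inl l))) l (t l)) *
          ∏ m, B (σ (e.symm (Sum.inr m))) m) := by
    intro t
    rw [det_apply']
    refine Finset.sum_congr rfl fun σ _ => ?_
    rw [prod_split e]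
    simp
  simp only [h1]
  exact integrable_finsetSum _ fun σ _ => ((hint σ).mul_const _).const_mul _

variable {E : Type*} [MeasurableSpace E]

/-- Andréief, unsymmetrised. -/
theorem andreief_mixed_raw (e : ι ≃ δ ⊕ κ) (μ : Measure E) [SigmaFinite μ]
    (f : ι → E → 𝕜) (g : δ → E → 𝕜) (B : ι → κ → 𝕜)
    (hF : ∀ i l, Integrable (fun t => f i t * g l t) μ) :
    (Matrix.of fun i j => Sum.elim (fun l => ∫ t, f i t * g l t ∂μ) (B i) (e j) :
        Matrix ι ι 𝕜).det =
      ∫ t : δ → E, (Matrix.of fun i j => Sum.elim (fun l => f i (t l)) (B i) (e j) :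
        Matrix ι ι 𝕜).det * ∏ l, g l (t l) ∂(Measure.pi fun _ => μ) := by
  rw [det_integral_columns e (fun _ => μ) (fun i l t => f i t * g l t) B hF]
  congr 1
  funext t
  have h1 : (Matrix.of fun i j => Sum.elim (fun l => f i (t l) * g l (t l)) (B i) (e j) :
        Matrix ι ι 𝕜) = Matrix.of fun i j =>
          (Sum.elim (fun l => g l (t l)) (fun _ => 1) (e j)) *
          (Matrix.of fun i j => Sum.elim (fun l => f i (t l)) (B i) (e j)) i j := by
    ext i j
    simp only [of_apply]
    rcases e j with l | m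
    · simp [mul_comm]
    · simp
  rw [h1, det_mul_row, prod_split e]
  simp [mul_comm]

/-- the permutation of the rows/columns `ι` induced by a permutation of `δ`. -/
def liftPerm (e : ι ≃ δ ⊕ κ) (π : Equiv.Perm δ) : Equiv.Perm ι :=
  (e.trans (Equiv.sumCongr π (Equiv.refl κ))).trans e.symm

lemma sign_liftPerm (e : ι ≃ δ ⊕ κ) (π : Equiv.Perm δ) :
    Equiv.Perm.sign (liftPerm e π) = Equiv.Perm.sign π := by
  have h : liftPerm e π = e.symm.permCongr (Equiv.Perm.sumCongr π (Equiv.refl κ)) := by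
    ext i
    simp [liftPerm, Equiv.permCongr_apply]
  rw [h, Equiv.Perm.sign_permCongr, Equiv.Perm.sign_sumCongr]
  simp [← Equiv.Perm.one_def]

lemma det_perm_columns (e : ι ≃ δ ⊕ κ) (π : Equiv.Perm δ) (f : ι → E → 𝕜) (B : ι → κ → 𝕜)
    (t : δ → E) :
    (Matrix.of fun i j => Sum.elim (fun l => f i (t (π l))) (B i) (e j) : Matrix ι ι 𝕜).det =
      ((Equiv.Perm.sign π : ℤ) : 𝕜) *
        (Matrix.of fun i j => Sum.elim (fun l => f i (t l)) (B i) (e j) : Matrix ι ι 𝕜).det := by
  have h := Matrix.det_permute' (liftPerm e π)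
    (Matrix.of fun i j => Sum.elim (fun l => f i (t l)) (B i) (e j) : Matrix ι ι 𝕜)
  rw [sign_liftPerm] at h
  rw [← h]
  congr 1
  ext i j
  simp only [of_apply, submatrix_apply, id, liftPerm, Equiv.trans_apply, Equiv.apply_symm_apply]
  rcases e j with l | m <;> simp

/-- **Andréief's identity with extra columns.** -/
theorem andreief_mixed (e : ι ≃ δ ⊕ κ) (μ : Measure E) [SigmaFinite μ]
    (f : ι → E → 𝕜) (g : δ → E → 𝕜) (B : ι → κ → 𝕜)
    (hF : ∀ i l, Integrable (fun t => f i t * g l t) μ) :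
    ((Fintype.card δ).factorial : 𝕜) *
      (Matrix.of fun i j => Sum.elim (fun l => ∫ t, f i t * g l t ∂μ) (B i) (e j) :
        Matrix ι ι 𝕜).det =
      ∫ t : δ → E, (Matrix.of fun i j => Sum.elim (fun l => f i (t l)) (B i) (e j) :
        Matrix ι ι 𝕜).det * (Matrix.of fun l l' => g l' (t l) : Matrix δ δ 𝕜).det
          ∂(Measure.pi fun _ => μ) := by
  set D : (δ → E) → 𝕜 := fun t =>
    (Matrix.of fun i j => Sum.elim (fun l => f i (t l)) (B i) (e j) : Matrix ι ι 𝕜).det with hD
  have hintD : Integrable (fun t => D t * ∏ l, g l (t l)) (Measure.pi fun _ : δ => μ) := by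
    have h0 := integrable_det_columns e (fun _ => μ) (fun i l t => f i t * g l t) B hF
    refine h0.congr (Filter.Eventually.of_forall fun t => ?_)
    have h1 : (Matrix.of fun i j => Sum.elim (fun l => f i (t l) * g l (t l)) (B i) (e j) :
          Matrix ι ι 𝕜) = Matrix.of fun i j =>
            (Sum.elim (fun l => g l (t l)) (fun _ => 1) (e j)) *
            (Matrix.of fun i j => Sum.elim (fun l => f i (t l)) (B i) (e j)) i j := by
      ext i j
      simp only [of_apply]
      rcases e j with l | m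
      · simp [mul_comm]
      · simp
    change (Matrix.of fun i j => Sum.elim (fun l => f i (t l) * g l (t l)) (B i) (e j) :
          Matrix ι ι 𝕜).det = D t * ∏ l, g l (t l)
    rw [h1, det_mul_row, prod_split e]
    simp [mul_comm, hD]
  -- change of variables `t ↦ t ∘ π`
  have hmp : ∀ π : Equiv.Perm δ, MeasurePreserving (fun t : δ → E => t ∘ π)
      (Measure.pi fun _ : δ => μ) (Measure.pi fun _ : δ => μ) := by
    intro π
    have h := measurePreserving_piCongrLeft (fun _ : δ => μ) π.symm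
    have hfun : (MeasurableEquiv.piCongrLeft (fun _ : δ => E) π.symm : (δ → E) → (δ → E)) =
        fun t : δ → E => t ∘ π := by
      funext t l
      rw [MeasurableEquiv.coe_piCongrLeft]
      have := Equiv.piCongrLeft_apply_apply (fun _ : δ => E) π.symm t (π l)
      simpa using this
    rw [hfun] at h
    exact h
  have hcv : ∀ π : Equiv.Perm δ, ∀ H : (δ → E) → 𝕜,
      ∫ t, H (t ∘ π) ∂(Measure.pi fun _ : δ => μ) = ∫ t, H t ∂(Measure.pi fun _ : δ => μ) := by
    intro π H
    have h := measurePreserving_piCongrLeft (fun _ : δ => μ) π.symm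
    have hfun : (MeasurableEquiv.piCongrLeft (fun _ : δ => E) π.symm : (δ → E) → (δ → E)) =
        fun t : δ → E => t ∘ π := by
      funext t l
      rw [MeasurableEquiv.coe_piCongrLeft]
      have := Equiv.piCongrLeft_apply_apply (fun _ : δ => E) π.symm t (π l)
      simpa using this
    have h2 := h.integral_comp' (g := H)
    rw [hfun] at h2
    exact h2
  have hterm : ∀ π : Equiv.Perm δ,
      ∫ t, D t * (((Equiv.Perm.sign π : ℤ) : 𝕜) * ∏ l, g l (t (π l)))
        ∂(Measure.pi fun _ : δ => μ) =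
      ∫ t, D t * ∏ l, g l (t l) ∂(Measure.pi fun _ : δ => μ) := by
    intro π
    rw [← hcv π (fun t => D t * ∏ l, g l (t l))]
    congr 1
    funext t
    have : D (t ∘ π) = ((Equiv.Perm.sign π : ℤ) : 𝕜) * D t := by
      simpa [hD] using det_perm_columns e π f B t
    rw [this]
    simp only [Function.comp]
    ring
  have hint2 : ∀ π : Equiv.Perm δ, Integrable
      (fun t => D t * (((Equiv.Perm.sign π : ℤ) : 𝕜) * ∏ l, g l (t (π l))))
      (Measure.pi fun _ : δ => μ) := by
    intro π
    have h3 := (hmp π).integrable_comp hintD.aestronglyMeasurable |>.mpr hintD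
    refine h3.congr (Filter.Eventually.of_forall fun t => ?_)
    have : D (t ∘ π) = ((Equiv.Perm.sign π : ℤ) : 𝕜) * D t := by
      simpa [hD] using det_perm_columns e π f B t
    simp only [Function.comp] at this ⊢
    rw [this]
    ring
  have hdet : ∀ t : δ → E, D t * (Matrix.of fun l l' => g l' (t l) : Matrix δ δ 𝕜).det =
      ∑ π : Equiv.Perm δ, D t * (((Equiv.Perm.sign π : ℤ) : 𝕜) * ∏ l, g l (t (π l))) := by
    intro t
    rw [det_apply', Finset.mul_sum]
    rfl
  calc ((Fintype.card δ).factorial : 𝕜) *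
      (Matrix.of fun i j => Sum.elim (fun l => ∫ t, f i t * g l t ∂μ) (B i) (e j) :
        Matrix ι ι 𝕜).det
      = ((Fintype.card δ).factorial : 𝕜) *
          ∫ t, D t * ∏ l, g l (t l) ∂(Measure.pi fun _ : δ => μ) := by
        rw [andreief_mixed_raw e μ f g B hF]
    _ = ∑ π : Equiv.Perm δ, ∫ t, D t * (((Equiv.Perm.sign π : ℤ) : 𝕜) * ∏ l, g l (t (π l)))
          ∂(Measure.pi fun _ : δ => μ) := by
        rw [Finset.sum_congr rfl fun π _ => hterm π,
          Finset.sum_const, Finset.card_univ, Fintype.card_perm, nsmul_eq_mul]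
    _ = ∫ t, ∑ π : Equiv.Perm δ, D t * (((Equiv.Perm.sign π : ℤ) : 𝕜) * ∏ l, g l (t (π l)))
          ∂(Measure.pi fun _ : δ => μ) := (integral_finsetSum _ fun π _ => hint2 π).symm
    _ = _ := by
        refine integral_congr_ae (Filter.Eventually.of_forall fun t => ?_)
        exact (hdet t).symm

/-- bound for one family: the integrand is bounded by `C` times a product of weights. -/
theorem norm_det_le_one_family (e : ι ≃ δ ⊕ κ) (μ : Measure E) [SigmaFinite μ]
    (f : ι → E → 𝕜) (g : δ → E → 𝕜) (B : ι → κ → 𝕜)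
    (hF : ∀ i l, Integrable (fun t => f i t * g l t) μ)
    (C : ℝ) (w : E → ℝ) (hw : Integrable w μ)
    (hb : ∀ t : δ → E, ‖(Matrix.of fun i j => Sum.elim (fun l => f i (t l)) (B i) (e j) :
        Matrix ι ι 𝕜).det‖ * ‖(Matrix.of fun l l' => g l' (t l) : Matrix δ δ 𝕜).det‖ ≤
          C * ∏ l, w (t l)) :
    ((Fintype.card δ).factorial : ℝ) *
      ‖(Matrix.of fun i j => Sum.elim (fun l => ∫ t, f i t * g l t ∂μ) (B i) (e j) :
        Matrix ι ι 𝕜).det‖ ≤ C * (∫ t, w t ∂μ) ^ (Fintype.card δ) := by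
  have h := congrArg norm (andreief_mixed e μ f g B hF)
  rw [norm_mul, RCLike.norm_natCast] at h
  rw [h]
  have hint : Integrable (fun t : δ → E => C * ∏ l, w (t l)) (Measure.pi fun _ : δ => μ) :=
    (Integrable.fintype_prod (f := fun _ : δ => w) (fun _ => hw)).const_mul C
  calc ‖∫ t : δ → E, (Matrix.of fun i j => Sum.elim (fun l => f i (t l)) (B i) (e j) :
        Matrix ι ι 𝕜).det * (Matrix.of fun l l' => g l' (t l) : Matrix δ δ 𝕜).det
          ∂(Measure.pi fun _ => μ)‖
      ≤ ∫ t : δ → E, C * ∏ l, w (t l) ∂(Measure.pi fun _ => μ) := by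
        refine norm_integral_le_of_norm_le hint (Filter.Eventually.of_forall fun t => ?_)
        rw [norm_mul]
        exact hb t
    _ = C * (∫ t, w t ∂μ) ^ (Fintype.card δ) := by
        rw [integral_const_mul, integral_fintype_prod_eq_prod (f := fun _ : δ => w)]
        simp

/-- regrouping of the columns: the second family first. -/
def regroup {δ' : Type*} (e : ι ≃ δ ⊕ (δ' ⊕ κ)) : ι ≃ δ' ⊕ (δ ⊕ κ) :=
  e.trans ⟨Sum.elim (fun l => Sum.inr (Sum.inl l))
      (Sum.elim (fun l' => Sum.inl l') (fun m => Sum.inr (Sum.inr m))),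
    Sum.elim (fun l' => Sum.inr (Sum.inl l'))
      (Sum.elim (fun l => Sum.inl l) (fun m => Sum.inr (Sum.inr m))),
    by rintro (l | l' | m) <;> rfl, by rintro (l | l' | m) <;> rfl⟩

/-- **bound for two families of integral columns and arbitrary remaining columns.**
Entries: `∫ f i t * g l t dμ` (`l ∈ δ`), `∫ f' i t * g' l t dν` (`l ∈ δ'`), `B i m` (`m ∈ κ`). -/
theorem norm_det_le_two_families {δ' : Type*} [Fintype δ'] [DecidableEq δ']
    {E' : Type*} [MeasurableSpace E']
    (e : ι ≃ δ ⊕ (δ' ⊕ κ)) (μ : Measure E) [SigmaFinite μ] (ν : Measure E') [SigmaFinite ν]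
    (f : ι → E → 𝕜) (g : δ → E → 𝕜) (f' : ι → E' → 𝕜) (g' : δ' → E' → 𝕜) (B : ι → κ → 𝕜)
    (hF : ∀ i l, Integrable (fun t => f i t * g l t) μ)
    (hF' : ∀ i l, Integrable (fun t => f' i t * g' l t) ν)
    (C : ℝ) (hC : 0 ≤ C) (w : E → ℝ) (hw : Integrable w μ) (hw0 : ∀ t, 0 ≤ w t)
    (w' : E' → ℝ) (hw' : Integrable w' ν) (hw0' : ∀ t, 0 ≤ w' t)
    (hb : ∀ (t : δ → E) (s : δ' → E'),
      ‖(Matrix.of fun i j => Sum.elim (fun l => f i (t l))
          (Sum.elim (fun l' => f' i (s l')) (B i)) (e j) : Matrix ι ι 𝕜).det‖ *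
        ‖(Matrix.of fun l l' => g l' (t l) : Matrix δ δ 𝕜).det‖ *
        ‖(Matrix.of fun l l' => g' l' (s l) : Matrix δ' δ' 𝕜).det‖ ≤
          C * (∏ l, w (t l)) * ∏ l, w' (s l)) :
    ((Fintype.card δ).factorial : ℝ) * ((Fintype.card δ').factorial : ℝ) *
      ‖(Matrix.of fun i j => Sum.elim (fun l => ∫ t, f i t * g l t ∂μ)
        (Sum.elim (fun l' => ∫ s, f' i s * g' l' s ∂ν) (B i)) (e j) : Matrix ι ι 𝕜).det‖ ≤
      C * (∫ t, w t ∂μ) ^ (Fintype.card δ) * (∫ s, w' s ∂ν) ^ (Fintype.card δ') := by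
  set W' : ℝ := (∫ s, w' s ∂ν) ^ (Fintype.card δ') with hW'
  have hW'0 : 0 ≤ W' := pow_nonneg (integral_nonneg hw0') _
  have hpos : (0 : ℝ) < ((Fintype.card δ').factorial : ℝ) := by
    exact_mod_cast Nat.factorial_pos _
  -- first the inner family for fixed `t`
  have hin : ∀ t : δ → E,
      ((Fintype.card δ').factorial : ℝ) *
      (‖(Matrix.of fun i j => Sum.elim (fun l => f i (t l))
        (Sum.elim (fun l' => ∫ s, f' i s * g' l' s ∂ν) (B i)) (e j) : Matrix ι ι 𝕜).det‖ *
        ‖(Matrix.of fun l l' => g l' (t l) : Matrix δ δ 𝕜).det‖) ≤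
      C * W' * ∏ l, w (t l) := by
    intro t
    set G : 𝕜 := (Matrix.of fun l l' => g l' (t l) : Matrix δ δ 𝕜).det with hG
    have hre : ∀ X : ι → δ' → 𝕜, (Matrix.of fun i j => Sum.elim (fun l => f i (t l))
        (Sum.elim (X i) (B i)) (e j) : Matrix ι ι 𝕜) =
        Matrix.of fun i j => Sum.elim (X i)
          (Sum.elim (fun l => f i (t l)) (B i)) (regroup e j) := by
      intro X
      ext i j
      simp only [of_apply, regroup, Equiv.trans_apply, Equiv.coe_fn_mk]
      rcases e j with l | l' | m <;> rfl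
    rcases eq_or_ne G 0 with hG0 | hG0
    · rw [hG0, norm_zero, mul_zero, mul_zero]
      exact mul_nonneg (mul_nonneg hC hW'0) (Finset.prod_nonneg fun l _ => hw0 _)
    have hGpos : 0 < ‖G‖ := norm_pos_iff.mpr hG0
    have h1 := norm_det_le_one_family (regroup e) ν f' g'
      (fun i => Sum.elim (fun l => f i (t l)) (B i)) hF'
      (C * (∏ l, w (t l)) / ‖G‖) w' hw' (by
        intro s
        have h2 := hb t s
        rw [hre (fun i l' => f' i (s l'))] at h2
        rw [div_mul_eq_mul_div, le_div_iff₀ hGpos]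
        calc _ = ‖(Matrix.of fun i j => Sum.elim (fun l' => f' i (s l'))
                (Sum.elim (fun l => f i (t l)) (B i)) (regroup e j) : Matrix ι ι 𝕜).det‖ *
              ‖G‖ * ‖(Matrix.of fun l l' => g' l' (s l) : Matrix δ' δ' 𝕜).det‖ := by ring
          _ ≤ _ := h2)
    rw [hre (fun i l' => ∫ s, f' i s * g' l' s ∂ν)]
    rw [div_mul_eq_mul_div, le_div_iff₀ hGpos] at h1
    calc _ = ((Fintype.card δ').factorial : ℝ) *
          ‖(Matrix.of fun i j => Sum.elim (fun l' => ∫ s, f' i s * g' l' s ∂ν)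
                (Sum.elim (fun l => f i (t l)) (B i)) (regroup e j) : Matrix ι ι 𝕜).det‖ *
            ‖G‖ := by ring
      _ ≤ C * (∏ l, w (t l)) * W' := h1
      _ = _ := by ring
  -- now the outer family
  have hout := norm_det_le_one_family e μ f g
    (fun i => Sum.elim (fun l' => ∫ s, f' i s * g' l' s ∂ν) (B i)) hF
    (C * W' / ((Fintype.card δ').factorial : ℝ)) w hw (by
      intro t
      rw [div_mul_eq_mul_div, le_div_iff₀ hpos]
      calc _ = _ := by ring
        _ ≤ _ := hin t)
  rw [div_mul_eq_mul_div, le_div_iff₀ hpos] at hout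
  calc _ = _ := by ring
    _ ≤ _ := hout
    _ = _ := by ring

end Crest.Agent.R006.Andreief475
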