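import Crest.Agent.R006.CauchyDualSigned_475
import Crest.Agent.R006.Pre_Andreief_475

/-!
Row 6, block P3 (helper475): the column side of the Nikishin form (883, note 2741).

Positions `z : Fin (a+K) → ℂ` of the `X`-particles are fixed.  Columns: `R l (z i)` (`l < a`) and
`∫_Γ Q k (y) r(y) / (y - z i)` (`k < K`).  `norm_det_nik_le` bounds the determinant by a product of
one-particle weights `ω_Z(z i)/ω_{Y0}(z i)` times `(∫_Γ ω_{Y0}² |r| / ω_Z)^K`.
-/

set_option autoImplicit false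

namespace Crest.Agent.R006.NikBound475

open scoped Nat
open Finset Matrix MeasureTheory CauchyDual324 Crest.Agent.R006.DualSigned475

/-- `ω_Z(s) = ∏_j ‖s - Z j‖`. -/
noncomputable def om {k : ℕ} (Z : Fin k → ℂ) (s : ℂ) : ℝ := ∏ j, ‖s - Z j‖

theorem om_nonneg {k : ℕ} (Z : Fin k → ℂ) (s : ℂ) : 0 ≤ om Z s := by
  unfold om; positivity

theorem om_pos {k : ℕ} (Z : Fin k → ℂ) (s : ℂ) (h : ∀ j, s ≠ Z j) : 0 < om Z s :=
  Finset.prod_pos fun j _ => norm_pos_iff.mpr (sub_ne_zero.mpr (h j))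

variable {a K : ℕ} {Γ : Type*} [MeasurableSpace Γ]

/-- the constant of `norm_det_nik_le`. -/
noncomputable def nikC (a K : ℕ) (d : ℝ) (Z : Fin (a + K) → ℂ) (Y0 : Fin K → ℂ) : ℝ :=
  ((a + K + K)! : ℝ) * d⁻¹ ^ (a + K + K) * d⁻¹ ^ K / (sV Z Y0 * nV Y0)

/-- **column side of the Nikishin form.** -/
theorem norm_det_nik_le (η : Measure Γ) [SigmaFinite η] (yy rr : Γ → ℂ)
    (R : Fin a → ℂ → ℂ) (Q : Fin K → ℂ → ℂ) (z Z : Fin (a + K) → ℂ) (Y0 : Fin K → ℂ)
    {d : ℝ} (hd : 0 < d)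
    (hzZ : ∀ i j, d ≤ ‖z i - Z j‖) (hzy : ∀ i t, d ≤ ‖z i - yy t‖)
    (hYZ : ∀ i j, d ≤ ‖Y0 i - Z j‖) (hYy : ∀ i t, d ≤ ‖yy t - Y0 i‖)
    (hzY : ∀ i j, z i ≠ Y0 j) (hyZ : ∀ t j, yy t ≠ Z j)
    (href : 0 < sV Z Y0) (href' : 0 < nV Y0)
    (CR CQ : ℝ) (hCR : 0 ≤ CR) (hCQ : 0 ≤ CQ)
    (HR : ∀ t : Fin K → Γ, ‖(Matrix.of fun i j : Fin (a + K) =>
      Sum.elim (fun k => 1 / (yy (t k) - z i)) (fun l => R l (z i))
        ((finSumFinEquiv.symm.trans (Equiv.sumComm (Fin a) (Fin K))) j) :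
          Matrix (Fin (a + K)) (Fin (a + K)) ℂ).det‖ ≤ CR * sV z (fun k => yy (t k)))
    (HQ : ∀ y : Fin K → ℂ, ‖(Matrix.of fun k k' => Q k' (y k) : Matrix (Fin K) (Fin K) ℂ).det‖ ≤
      CQ * nV y)
    (w : Γ → ℝ) (hw : Integrable w η)
    (hwb : ∀ t, om Y0 (yy t) ^ 2 / om Z (yy t) * ‖rr t‖ ≤ w t)
    (hint : ∀ i k, Integrable (fun t => 1 / (yy t - z i) * (Q k (yy t) * rr t)) η) :
    ‖(Matrix.of fun i j : Fin (a + K) =>
      Sum.elim (fun k => ∫ t, 1 / (yy t - z i) * (Q k (yy t) * rr t) ∂η) (fun l => R l (z i))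
        ((finSumFinEquiv.symm.trans (Equiv.sumComm (Fin a) (Fin K))) j) :
          Matrix (Fin (a + K)) (Fin (a + K)) ℂ).det‖ ≤
      CR * CQ * nikC a K d Z Y0 * (∏ i, om Z (z i) / om Y0 (z i)) * (∫ t, w t ∂η) ^ K := by
  classical
  set e : Fin (a + K) ≃ Fin K ⊕ Fin a :=
    finSumFinEquiv.symm.trans (Equiv.sumComm (Fin a) (Fin K)) with he
  set P : ℝ := ∏ i, om Z (z i) / om Y0 (z i) with hP
  have hP0 : 0 ≤ P := Finset.prod_nonneg fun i _ => div_nonneg (om_nonneg _ _) (om_nonneg _ _)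
  have hKpos : (0 : ℝ) < (K ! : ℝ) := by exact_mod_cast Nat.factorial_pos K
  -- the pointwise bound
  have hpt : ∀ t : Fin K → Γ,
      ‖(Matrix.of fun i j : Fin (a + K) =>
        Sum.elim (fun k => 1 / (yy (t k) - z i)) (fun l => R l (z i)) (e j) :
          Matrix (Fin (a + K)) (Fin (a + K)) ℂ).det‖ *
        ‖(Matrix.of fun l l' => Q l' (yy (t l)) * rr (t l) : Matrix (Fin K) (Fin K) ℂ).det‖ ≤
      ((K ! : ℝ) * (CR * CQ * nikC a K d Z Y0 * P)) * ∏ l, w (t l) := by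
    intro t
    have h1 := HR t
    have h2 : ‖(Matrix.of fun l l' => Q l' (yy (t l)) * rr (t l) :
        Matrix (Fin K) (Fin K) ℂ).det‖ ≤ CQ * nV (fun k => yy (t k)) * ∏ l, ‖rr (t l)‖ := by
      have hm : (Matrix.of fun l l' => Q l' (yy (t l)) * rr (t l) : Matrix (Fin K) (Fin K) ℂ) =
          Matrix.of fun l l' => rr (t l) *
            (Matrix.of fun k k' => Q k' (yy (t k)) : Matrix (Fin K) (Fin K) ℂ) l l' := by
        ext l l'; simp [mul_comm]
      rw [hm, Matrix.det_mul_column, norm_mul, norm_prod]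
      have := HQ (fun k => yy (t k))
      calc _ ≤ (∏ l, ‖rr (t l)‖) * (CQ * nV (fun k => yy (t k))) :=
            mul_le_mul_of_nonneg_left this (by positivity)
        _ = _ := by ring
    have h3 := sV_le z Z (fun k => yy (t k)) Y0 hd hzZ (fun i j => hzy i (t j)) hYZ
      (fun i j => by rw [norm_sub_rev]; exact hYy i (t j)) hzY (fun i j => hyZ (t i) j) href
    have h4 := nV_dual (fun k => yy (t k)) Y0 hd (fun i j => hYy j (t i))
    have h4' : nV (fun k => yy (t k)) ≤ (K ! : ℝ) * d⁻¹ ^ K / nV Y0 * ∏ l, om Y0 (yy (t l)) := by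
      rw [div_mul_eq_mul_div, le_div_iff₀ href']
      simpa [om] using h4
    have hsv0 : 0 ≤ ((a + K + K)! : ℝ) * d⁻¹ ^ (a + K + K) / sV Z Y0 := by positivity
    have hB : (0 : ℝ) ≤ (∏ l, om Y0 (yy (t l)) / om Z (yy (t l))) :=
      Finset.prod_nonneg fun i _ => div_nonneg (om_nonneg _ _) (om_nonneg _ _)
    have h3' : sV z (fun k => yy (t k)) ≤ ((a + K + K)! : ℝ) * d⁻¹ ^ (a + K + K) / sV Z Y0 *
        (P * ∏ l, om Y0 (yy (t l)) / om Z (yy (t l))) := h3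
    calc _ ≤ (CR * sV z (fun k => yy (t k))) *
          (CQ * nV (fun k => yy (t k)) * ∏ l, ‖rr (t l)‖) := by
          refine mul_le_mul h1 h2 (norm_nonneg _) (mul_nonneg hCR (sV_nonneg _ _))
      _ ≤ (CR * (((a + K + K)! : ℝ) * d⁻¹ ^ (a + K + K) / sV Z Y0 *
            (P * ∏ l, om Y0 (yy (t l)) / om Z (yy (t l))))) *
          (CQ * ((K ! : ℝ) * d⁻¹ ^ K / nV Y0 * ∏ l, om Y0 (yy (t l))) * ∏ l, ‖rr (t l)‖) := by
          refine mul_le_mul (mul_le_mul_of_nonneg_left h3' hCR)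
            (mul_le_mul_of_nonneg_right (mul_le_mul_of_nonneg_left h4' hCQ) (by positivity))
            (mul_nonneg (mul_nonneg hCQ (nV_nonneg _)) (by positivity))
            (mul_nonneg hCR (mul_nonneg hsv0 (mul_nonneg hP0 hB)))
      _ = ((K ! : ℝ) * (CR * CQ * nikC a K d Z Y0 * P)) *
          ∏ l, (om Y0 (yy (t l)) ^ 2 / om Z (yy (t l)) * ‖rr (t l)‖) := by
          have hne1 : sV Z Y0 ≠ 0 := href.ne'
          have hne2 : nV Y0 ≠ 0 := href'.ne'
          simp only [Finset.prod_mul_distrib, Finset.prod_div_distrib, Finset.prod_pow, nikC]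
          field_simp
      _ ≤ _ := by
          refine mul_le_mul_of_nonneg_left ?_ ?_
          · exact Finset.prod_le_prod (fun l _ => mul_nonneg (div_nonneg (sq_nonneg _)
              (om_nonneg _ _)) (norm_nonneg _)) (fun l _ => hwb _)
          · have : 0 ≤ nikC a K d Z Y0 := by unfold nikC; positivity
            positivity
  have h := Crest.Agent.R006.Andreief475.norm_det_le_one_family (𝕜 := ℂ) e η
    (fun i t => 1 / (yy t - z i)) (fun k t => Q k (yy t) * rr t) (fun i l => R l (z i))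
    hint ((K ! : ℝ) * (CR * CQ * nikC a K d Z Y0 * P)) w hw hpt
  rw [Fintype.card_fin] at h
  have h5 : (K ! : ℝ) * ‖(Matrix.of fun i j : Fin (a + K) =>
      Sum.elim (fun k => ∫ t, 1 / (yy t - z i) * (Q k (yy t) * rr t) ∂η) (fun l => R l (z i))
        (e j) : Matrix (Fin (a + K)) (Fin (a + K)) ℂ).det‖ ≤
      (K ! : ℝ) * (CR * CQ * nikC a K d Z Y0 * P * (∫ t, w t ∂η) ^ K) := by
    calc _ ≤ _ := h
      _ = _ := by ring
  exact le_of_mul_le_mul_left h5 hKpos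

end Crest.Agent.R006.NikBound475
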