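import Crest.Agent.R006.Num_482

/-!
Kernel-fast certified `arctan` (row 6, design independent), helper482.
-/

set_option autoImplicit false

namespace Num482

open Real

theorem two_arctan_lt (x : ℝ) (h0 : 0 ≤ x) (h1 : x < 1) :
    2 * arctan x = arctan (2 * x / (1 - x ^ 2)) :=
  Real.two_mul_arctan (by linarith) h1

theorem two_arctan_ge (x : ℝ) (h1 : 1 ≤ x) :
    2 * arctan x = π / 2 + arctan ((x ^ 2 - 1) / (2 * x)) := by
  rcases eq_or_lt_of_le h1 with h | h
  · subst h
    simp [Real.arctan_one]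
    ring
  · rw [Real.two_mul_arctan_add_pi h]
    have hx : 0 < x ^ 2 - 1 := by nlinarith
    have h2 : 2 * x / (1 - x ^ 2) = -(((x ^ 2 - 1) / (2 * x))⁻¹) := by
      rw [inv_div]
      rw [← neg_div_neg_eq, neg_sub, neg_div]
    rw [h2, Real.arctan_neg, Real.arctan_inv_of_pos (by positivity)]
    ring

/-- lower angle doubling loop; state: `2^j * arctan x ≥ B π/2 + arctan (t / 2^s)` -/
def atLoopLo (s : ℕ) : ℕ → ℕ → ℕ → ℕ
  | 0, B, _ => B
  | k + 1, B, t =>
      bif Nat.ble (2 ^ s) t then atLoopLo s k (2 * B + 1) ((t * t - 2 ^ (2 * s)) / (2 * t))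
      else atLoopLo s k (2 * B) ((2 * t * 2 ^ (2 * s)) / (2 ^ (2 * s) - t * t))

/-- upper angle doubling loop -/
def atLoopHi (s : ℕ) : ℕ → ℕ → ℕ → ℕ
  | 0, B, _ => B + 1
  | k + 1, B, t =>
      bif Nat.ble (2 ^ s) t then atLoopHi s k (2 * B + 1) ((t * t - 2 ^ (2 * s)) / (2 * t) + 1)
      else atLoopHi s k (2 * B) ((2 * t * 2 ^ (2 * s)) / (2 ^ (2 * s) - t * t) + 1)

theorem atLoopLo_spec (s : ℕ) : ∀ (k B t : ℕ) (θ : ℝ),
    (B : ℝ) * (π / 2) + arctan ((t : ℝ) / 2 ^ s) ≤ θ →
    (atLoopLo s k B t : ℝ) * (π / 2) ≤ 2 ^ k * θ := by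
  intro k
  induction k with
  | zero =>
    intro B t θ h
    simp only [atLoopLo, pow_zero, one_mul]
    have : 0 ≤ arctan ((t : ℝ) / 2 ^ s) := by
      rw [← Real.arctan_zero]; exact Real.arctan_strictMono.monotone (by positivity)
    linarith
  | succ k ih =>
    intro B t θ h
    have hs : (0 : ℝ) < (2 : ℝ) ^ s := by positivity
    have hpow : (2 : ℝ) ^ (k + 1) * θ = 2 ^ k * (2 * θ) := by ring
    rw [hpow]
    simp only [atLoopLo]
    set x : ℝ := (t : ℝ) / 2 ^ s with hx
    cases hb : Nat.ble (2 ^ s) t with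
    | true =>
      simp only [cond_true]
      have hb' : 2 ^ s ≤ t := Nat.le_of_ble_eq_true hb
      have ht : 0 < t := lt_of_lt_of_le (by positivity) hb'
      have htR : (0 : ℝ) < (t : ℝ) := by exact_mod_cast ht
      have hx1 : 1 ≤ x := by
        rw [hx, le_div_iff₀ hs]
        have : ((2 ^ s : ℕ) : ℝ) ≤ (t : ℝ) := by exact_mod_cast hb'
        push_cast at this; linarith
      apply ih
      have h2 := two_arctan_ge x hx1
      have hsub : ((t * t - 2 ^ (2 * s) : ℕ) : ℝ) = (t : ℝ) * t - 2 ^ (2 * s) := by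
        have h22 : 2 ^ (2 * s) ≤ t * t := by
          have : 2 ^ (2 * s) = 2 ^ s * 2 ^ s := by rw [two_mul, pow_add]
          rw [this]; exact Nat.mul_le_mul hb' hb'
        rw [Nat.cast_sub h22]; push_cast; ring
      have h3 : (((t * t - 2 ^ (2 * s)) / (2 * t) : ℕ) : ℝ) ≤ ((t : ℝ) * t - 2 ^ (2 * s)) / (2 * t) := by
        rw [le_div_iff₀ (by positivity), ← hsub]
        have := Nat.div_mul_le_self (t * t - 2 ^ (2 * s)) (2 * t)
        exact_mod_cast this
      have h4 : (((t * t - 2 ^ (2 * s)) / (2 * t) : ℕ) : ℝ) / 2 ^ s ≤ (x ^ 2 - 1) / (2 * x) := by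
        refine le_trans (div_le_div_of_nonneg_right h3 hs.le) (le_of_eq ?_)
        rw [hx]
        have : (2 : ℝ) ^ (2 * s) = 2 ^ s * 2 ^ s := by rw [two_mul, pow_add]
        rw [this]
        field_simp
      have h5 := Real.arctan_strictMono.monotone h4
      push_cast
      push_cast at h5
      nlinarith
    | false =>
      simp only [cond_false]
      have hb' : t < 2 ^ s := by
        by_contra hcon
        rw [Nat.ble_eq_true_of_le (not_lt.1 hcon)] at hb
        exact absurd hb (by decide)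
      have hx0 : 0 ≤ x := by positivity
      have hx1 : x < 1 := by
        rw [hx, div_lt_one hs]
        have : (t : ℝ) < ((2 ^ s : ℕ) : ℝ) := by exact_mod_cast hb'
        push_cast at this; exact this
      apply ih
      have h2 := two_arctan_lt x hx0 hx1
      have h22 : t * t < 2 ^ (2 * s) := by
        have : 2 ^ (2 * s) = 2 ^ s * 2 ^ s := by rw [two_mul, pow_add]
        rw [this]; exact Nat.mul_lt_mul'' hb' hb'
      have hsub : ((2 ^ (2 * s) - t * t : ℕ) : ℝ) = 2 ^ (2 * s) - (t : ℝ) * t := by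
        rw [Nat.cast_sub h22.le]; push_cast; ring
      have hpos : (0 : ℝ) < 2 ^ (2 * s) - (t : ℝ) * t := by
        rw [← hsub]; exact_mod_cast Nat.sub_pos_of_lt h22
      have h3 : (((2 * t * 2 ^ (2 * s)) / (2 ^ (2 * s) - t * t) : ℕ) : ℝ) ≤
          (2 * (t : ℝ) * 2 ^ (2 * s)) / (2 ^ (2 * s) - (t : ℝ) * t) := by
        rw [le_div_iff₀ hpos, ← hsub]
        have := Nat.div_mul_le_self (2 * t * 2 ^ (2 * s)) (2 ^ (2 * s) - t * t)
        exact_mod_cast this
      have h4 : (((2 * t * 2 ^ (2 * s)) / (2 ^ (2 * s) - t * t) : ℕ) : ℝ) / 2 ^ s ≤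
          2 * x / (1 - x ^ 2) := by
        refine le_trans (div_le_div_of_nonneg_right h3 hs.le) (le_of_eq ?_)
        rw [hx]
        have h22' : (2 : ℝ) ^ (2 * s) = 2 ^ s * 2 ^ s := by rw [two_mul, pow_add]
        rw [h22'] at hpos ⊢
        have hne : (1 - ((t : ℝ) / 2 ^ s) ^ 2) ≠ 0 := by
          have : (1 - ((t : ℝ) / 2 ^ s) ^ 2) = (2 ^ s * 2 ^ s - (t : ℝ) * t) / (2 ^ s * 2 ^ s) := by
            field_simp
          rw [this]; positivity
        have hne2 : (2 ^ s * 2 ^ s - (t : ℝ) * t) ≠ 0 := hpos.ne'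
        rw [div_div, div_eq_div_iff (by positivity) hne]
        field_simp
      have h5 := Real.arctan_strictMono.monotone h4
      push_cast
      push_cast at h5
      nlinarith

theorem atLoopHi_spec (s : ℕ) : ∀ (k B t : ℕ) (θ : ℝ),
    θ ≤ (B : ℝ) * (π / 2) + arctan ((t : ℝ) / 2 ^ s) →
    2 ^ k * θ ≤ (atLoopHi s k B t : ℝ) * (π / 2) := by
  intro k
  induction k with
  | zero =>
    intro B t θ h
    simp only [atLoopHi, pow_zero, one_mul]
    have := Real.arctan_lt_pi_div_two ((t : ℝ) / 2 ^ s)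
    push_cast
    linarith
  | succ k ih =>
    intro B t θ h
    have hs : (0 : ℝ) < (2 : ℝ) ^ s := by positivity
    have hpow : (2 : ℝ) ^ (k + 1) * θ = 2 ^ k * (2 * θ) := by ring
    rw [hpow]
    simp only [atLoopHi]
    set x : ℝ := (t : ℝ) / 2 ^ s with hx
    cases hb : Nat.ble (2 ^ s) t with
    | true =>
      simp only [cond_true]
      have hb' : 2 ^ s ≤ t := Nat.le_of_ble_eq_true hb
      have ht : 0 < t := lt_of_lt_of_le (by positivity) hb'
      have htR : (0 : ℝ) < (t : ℝ) := by exact_mod_cast ht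
      have hx1 : 1 ≤ x := by
        rw [hx, le_div_iff₀ hs]
        have : ((2 ^ s : ℕ) : ℝ) ≤ (t : ℝ) := by exact_mod_cast hb'
        push_cast at this; linarith
      apply ih
      have h2 := two_arctan_ge x hx1
      have hsub : ((t * t - 2 ^ (2 * s) : ℕ) : ℝ) = (t : ℝ) * t - 2 ^ (2 * s) := by
        have h22 : 2 ^ (2 * s) ≤ t * t := by
          have : 2 ^ (2 * s) = 2 ^ s * 2 ^ s := by rw [two_mul, pow_add]
          rw [this]; exact Nat.mul_le_mul hb' hb'
        rw [Nat.cast_sub h22]; push_cast; ring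
      have h3 : ((t : ℝ) * t - 2 ^ (2 * s)) / (2 * t) ≤
          (((t * t - 2 ^ (2 * s)) / (2 * t) + 1 : ℕ) : ℝ) := by
        rw [div_le_iff₀ (by positivity), ← hsub]
        have := Nat.lt_div_mul_add (a := t * t - 2 ^ (2 * s)) (b := 2 * t) (by omega)
        have h' : (t * t - 2 ^ (2 * s)) ≤ ((t * t - 2 ^ (2 * s)) / (2 * t) + 1) * (2 * t) := by
          rw [Nat.add_mul, one_mul]; exact this.le
        exact_mod_cast h'
      have h4 : (x ^ 2 - 1) / (2 * x) ≤
          (((t * t - 2 ^ (2 * s)) / (2 * t) + 1 : ℕ) : ℝ) / 2 ^ s := by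
        refine le_trans (le_of_eq ?_) (div_le_div_of_nonneg_right h3 hs.le)
        rw [hx]
        have : (2 : ℝ) ^ (2 * s) = 2 ^ s * 2 ^ s := by rw [two_mul, pow_add]
        rw [this]
        field_simp
      have h5 := Real.arctan_strictMono.monotone h4
      push_cast
      push_cast at h5
      nlinarith
    | false =>
      simp only [cond_false]
      have hb' : t < 2 ^ s := by
        by_contra hcon
        rw [Nat.ble_eq_true_of_le (not_lt.1 hcon)] at hb
        exact absurd hb (by decide)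
      have hx0 : 0 ≤ x := by positivity
      have hx1 : x < 1 := by
        rw [hx, div_lt_one hs]
        have : (t : ℝ) < ((2 ^ s : ℕ) : ℝ) := by exact_mod_cast hb'
        push_cast at this; exact this
      apply ih
      have h2 := two_arctan_lt x hx0 hx1
      have h22 : t * t < 2 ^ (2 * s) := by
        have : 2 ^ (2 * s) = 2 ^ s * 2 ^ s := by rw [two_mul, pow_add]
        rw [this]; exact Nat.mul_lt_mul'' hb' hb'
      have hsub : ((2 ^ (2 * s) - t * t : ℕ) : ℝ) = 2 ^ (2 * s) - (t : ℝ) * t := by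
        rw [Nat.cast_sub h22.le]; push_cast; ring
      have hpos : (0 : ℝ) < 2 ^ (2 * s) - (t : ℝ) * t := by
        rw [← hsub]; exact_mod_cast Nat.sub_pos_of_lt h22
      have h3 : (2 * (t : ℝ) * 2 ^ (2 * s)) / (2 ^ (2 * s) - (t : ℝ) * t) ≤
          (((2 * t * 2 ^ (2 * s)) / (2 ^ (2 * s) - t * t) + 1 : ℕ) : ℝ) := by
        rw [div_le_iff₀ hpos, ← hsub]
        have := Nat.lt_div_mul_add (a := 2 * t * 2 ^ (2 * s)) (b := 2 ^ (2 * s) - t * t)
          (Nat.sub_pos_of_lt h22)
        have h' : (2 * t * 2 ^ (2 * s)) ≤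
            ((2 * t * 2 ^ (2 * s)) / (2 ^ (2 * s) - t * t) + 1) * (2 ^ (2 * s) - t * t) := by
          rw [Nat.add_mul, one_mul]; exact this.le
        exact_mod_cast h'
      have h4 : 2 * x / (1 - x ^ 2) ≤
          (((2 * t * 2 ^ (2 * s)) / (2 ^ (2 * s) - t * t) + 1 : ℕ) : ℝ) / 2 ^ s := by
        refine le_trans (le_of_eq ?_) (div_le_div_of_nonneg_right h3 hs.le)
        rw [hx]
        have h22' : (2 : ℝ) ^ (2 * s) = 2 ^ s * 2 ^ s := by rw [two_mul, pow_add]
        rw [h22'] at hpos ⊢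
        have hne : (1 - ((t : ℝ) / 2 ^ s) ^ 2) ≠ 0 := by
          have : (1 - ((t : ℝ) / 2 ^ s) ^ 2) = (2 ^ s * 2 ^ s - (t : ℝ) * t) / (2 ^ s * 2 ^ s) := by
            field_simp
          rw [this]; positivity
        have hne2 : (2 ^ s * 2 ^ s - (t : ℝ) * t) ≠ 0 := hpos.ne'
        rw [div_div, div_eq_div_iff hne (by positivity)]
        field_simp
      have h5 := Real.arctan_strictMono.monotone h4
      push_cast
      push_cast at h5
      nlinarith

/-- `k` binary digits of `arctan (p/q) / (π/2)` -/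
def atLo (s k p q : ℕ) : ℕ := atLoopLo s k 0 (p * 2 ^ s / q)
def atHi (s k p q : ℕ) : ℕ := atLoopHi s k 0 (p * 2 ^ s / q + 1)

theorem atLo_le (s k p q : ℕ) (hq : q ≠ 0) :
    (atLo s k p q : ℝ) / 2 ^ k * (π / 2) ≤ arctan ((p : ℝ) / q) := by
  have hqR : (0 : ℝ) < q := by exact_mod_cast Nat.pos_of_ne_zero hq
  have h := atLoopLo_spec s k 0 (p * 2 ^ s / q) (arctan ((p : ℝ) / q)) (by
    simp only [Nat.cast_zero, zero_mul, zero_add]
    apply Real.arctan_strictMono.monotone
    rw [div_le_iff₀ (by positivity)]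
    have h1 : (p * 2 ^ s / q) * q ≤ p * 2 ^ s := Nat.div_mul_le_self _ _
    have h2 : ((p * 2 ^ s / q : ℕ) : ℝ) * q ≤ (p : ℝ) * 2 ^ s := by exact_mod_cast h1
    rw [div_mul_eq_mul_div, le_div_iff₀ hqR]
    exact h2)
  unfold atLo
  rw [div_mul_eq_mul_div, div_le_iff₀ (by positivity)]
  linarith

theorem le_atHi (s k p q : ℕ) (hq : q ≠ 0) :
    arctan ((p : ℝ) / q) ≤ (atHi s k p q : ℝ) / 2 ^ k * (π / 2) := by
  have hqR : (0 : ℝ) < q := by exact_mod_cast Nat.pos_of_ne_zero hq
  have h := atLoopHi_spec s k 0 (p * 2 ^ s / q + 1) (arctan ((p : ℝ) / q)) (by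
    simp only [Nat.cast_zero, zero_mul, zero_add]
    apply Real.arctan_strictMono.monotone
    rw [le_div_iff₀ (by positivity), div_mul_eq_mul_div, div_le_iff₀ hqR]
    have h1 := Nat.lt_div_mul_add (a := p * 2 ^ s) (b := q) (Nat.pos_of_ne_zero hq)
    have h1' : p * 2 ^ s ≤ (p * 2 ^ s / q + 1) * q := by rw [Nat.add_mul, one_mul]; exact h1.le
    exact_mod_cast h1')
  unfold atHi
  rw [div_mul_eq_mul_div, le_div_iff₀ (by positivity)]
  linarith

end Num482
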