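import Mathlib

/-!
# Row 6: kernel-fast certified logarithms (helper179)

`lnN n : ℕ` with `lnN n ≤ 2^48 * log n ≤ lnN n + 20 * (log2 n + 1)` for `1 ≤ n`.
Only `Nat.mul`, `Nat.div`, `Nat.add`, `Nat.sub`, `Nat.log2`, `Nat.shiftLeft` on literals, so everything
reduces quickly with `decide +kernel`.
-/

set_option autoImplicit false

namespace Crest.Agent.R006.NumLogx179

open Finset

/-- scale `2^48` -/
abbrev S : ℕ := 281474976710656

/-- Horner chain for `Σ_{i<m} y^i/(2(j+i)+1)`, scaled. -/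
def hor (V : ℕ) : ℕ → ℕ → ℕ
  | 0, _ => 0
  | (m+1), j => 281474976710656 / (2*j+1) + V * hor V m (j+1) / 281474976710656

/-- real Horner chain -/
noncomputable def hr (y : ℝ) : ℕ → ℕ → ℝ
  | 0, _ => 0
  | (m+1), j => 1 / (2*(j:ℝ)+1) + y * hr y m (j+1)

/-- unrolled version (14 terms) -/
def at14 (V : ℕ) : ℕ :=
  281474976710656 + V * (93824992236885 + V * (56294995342131 + V * (40210710958665 +
  V * (31274997412295 + V * (25588634246423 + V * (21651921285435 + V * (18764998447377 +
  V * (16557351571215 + V * (14814472458455 + V * (13403570319555 + V * (12238042465680 +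
  V * (11258999068426 + V * (10424999137431 + V * 0 / 281474976710656)
  / 281474976710656) / 281474976710656) / 281474976710656) / 281474976710656) / 281474976710656)
  / 281474976710656) / 281474976710656) / 281474976710656) / 281474976710656) / 281474976710656)
  / 281474976710656) / 281474976710656) / 281474976710656

lemma at14_eq (V : ℕ) : at14 V = hor V 14 0 := by
  simp only [hor, at14]

lemma hr_nonneg {y : ℝ} (hy : 0 ≤ y) : ∀ m j, 0 ≤ hr y m j
  | 0, _ => le_rfl
  | (m+1), j => by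
    have := hr_nonneg hy m (j+1)
    unfold hr
    positivity

lemma hr_le {y : ℝ} (hy : 0 ≤ y) (hy9 : y ≤ 1/9) : ∀ m j, hr y m j ≤ 9/8
  | 0, _ => by norm_num [hr]
  | (m+1), j => by
    have h1 := hr_le hy hy9 m (j+1)
    have h2 := hr_nonneg hy m (j+1)
    have h3 : (1:ℝ) / (2*(j:ℝ)+1) ≤ 1 := by
      rw [div_le_one (by positivity)]
      have : (0:ℝ) ≤ j := Nat.cast_nonneg j
      linarith
    unfold hr
    nlinarith

lemma hr_eq (y : ℝ) : ∀ m j, hr y m j = ∑ i ∈ range m, y ^ i / (2*((j:ℝ)+i)+1)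
  | 0, _ => by simp [hr]
  | (m+1), j => by
    rw [sum_range_succ', hr, hr_eq y m (j+1), mul_sum, add_comm]
    congr 1
    · apply sum_congr rfl
      intro i _
      push_cast
      rw [pow_succ]
      have : (2*((j:ℝ)+1+i)+1) = (2*((j:ℝ)+(i+1))+1) := by ring
      rw [this]
      ring
    · simp

/-- floor facts -/
lemma div_le' (a b : ℕ) : ((a / b : ℕ) : ℝ) ≤ (a:ℝ) / b := Nat.cast_div_le

lemma lt_div' (a b : ℕ) (hb : 0 < b) : (a:ℝ) / b < ((a / b : ℕ) : ℝ) + 1 := by
  rw [div_lt_iff₀ (by exact_mod_cast hb)]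
  have := Nat.lt_div_mul_add (a := a) hb
  have h2 : a < (a / b + 1) * b := by nlinarith
  exact_mod_cast h2

lemma hor_bound {V : ℕ} {y : ℝ} (hy : 0 ≤ y) (hy9 : y ≤ 1/9) (h1 : (V:ℝ) ≤ y * 281474976710656)
    (h2 : y * 281474976710656 ≤ V + 2) : ∀ m j,
    (hor V m j : ℝ) ≤ 281474976710656 * hr y m j ∧
      281474976710656 * hr y m j ≤ hor V m j + 5
  | 0, _ => by simp [hor, hr]
  | (m+1), j => by
    obtain ⟨ih1, ih2⟩ := hor_bound hy hy9 h1 h2 m (j+1)
    have hn := hr_nonneg hy m (j+1)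
    have hl := hr_le hy hy9 m (j+1)
    have hV0 : (0:ℝ) ≤ V := Nat.cast_nonneg V
    have hh0 : (0:ℝ) ≤ hor V m (j+1) := Nat.cast_nonneg _
    have a1 := div_le' 281474976710656 (2*j+1)
    have a2 := lt_div' 281474976710656 (2*j+1) (by omega)
    have b1 := div_le' (V * hor V m (j+1)) 281474976710656
    have b2 := lt_div' (V * hor V m (j+1)) 281474976710656 (by norm_num)
    have e1 : (281474976710656:ℝ) * hr y (m+1) j =
        281474976710656 / (2*(j:ℝ)+1) + 281474976710656 * y * hr y m (j+1) := by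
      rw [hr]; ring
    rw [e1]
    simp only [hor]
    push_cast at *
    constructor
    · have : (V:ℝ) * (hor V m (j+1)) / 281474976710656 ≤ 281474976710656 * y * hr y m (j+1) := by
        rw [div_le_iff₀ (by norm_num)]
        nlinarith [mul_le_mul h1 ih1 hh0 (by positivity)]
      linarith
    · have : 281474976710656 * y * hr y m (j+1) ≤
          (V:ℝ) * (hor V m (j+1)) / 281474976710656 + 3 := by
        rw [← sub_le_iff_le_add, le_div_iff₀ (by norm_num)]
        nlinarith [mul_le_mul h2 ih2 (by positivity) (by positivity)]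
      linarith

/-- `lg p q ≈ 2^48 * log (p/q)` for `q ≤ p ≤ 2q`. -/
def lg (p q : ℕ) : ℕ :=
  (fun U => 2 * U * at14 (U * U / 281474976710656) / 281474976710656)
    ((p - q) * 281474976710656 / (p + q))

lemma lg_bound {p q : ℕ} (hq : 0 < q) (h1 : q ≤ p) (h2 : p ≤ 2 * q) :
    (lg p q : ℝ) ≤ 281474976710656 * Real.log ((p:ℝ)/q) ∧
      281474976710656 * Real.log ((p:ℝ)/q) ≤ lg p q + 20 := by
  set U : ℕ := (p - q) * 281474976710656 / (p + q) with hU
  set V : ℕ := U * U / 281474976710656 with hV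
  have hlg : lg p q = 2 * U * hor V 14 0 / 281474976710656 := by
    rw [← at14_eq, hV, hU]; rfl
  have hq' : (0:ℝ) < q := by exact_mod_cast hq
  have h1' : (q:ℝ) ≤ p := by exact_mod_cast h1
  have h2' : (p:ℝ) ≤ 2 * q := by exact_mod_cast h2
  set u : ℝ := ((p:ℝ) - q) / (p + q) with hu
  have hu0 : 0 ≤ u := div_nonneg (by linarith) (by linarith)
  have hu3 : u ≤ 1/3 := by
    rw [hu, div_le_iff₀ (by linarith)]; linarith
  have hpq : (p:ℝ)/q = (1+u)/(1-u) := by
    have h3 : (p:ℝ) + q ≠ 0 := by positivity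
    have h4 : 1 - u ≠ 0 := by linarith
    rw [div_eq_div_iff hq'.ne' h4, hu]
    field_simp
    ring
  have hU1 : (U:ℝ) ≤ u * 281474976710656 := by
    have := div_le' ((p - q) * 281474976710656) (p + q)
    rw [← hU] at this
    push_cast [Nat.cast_sub h1] at this
    rw [hu, div_mul_eq_mul_div]; exact this
  have hU2 : u * 281474976710656 ≤ U + 1 := by
    have := (lt_div' ((p - q) * 281474976710656) (p + q) (by omega)).le
    rw [← hU] at this
    push_cast [Nat.cast_sub h1] at this
    rw [hu, div_mul_eq_mul_div]; exact this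
  have hU0 : (0:ℝ) ≤ U := Nat.cast_nonneg U
  have hV1 : (V:ℝ) ≤ u^2 * 281474976710656 := by
    have := div_le' (U * U) 281474976710656
    rw [← hV] at this
    push_cast at this
    refine this.trans ?_
    rw [div_le_iff₀ (by norm_num)]
    nlinarith [mul_le_mul hU1 hU1 hU0 (by positivity)]
  have hV2 : u^2 * 281474976710656 ≤ V + 2 := by
    have := (lt_div' (U * U) 281474976710656 (by norm_num)).le
    rw [← hV] at this
    push_cast at this
    have h5 : u^2 * 281474976710656 ≤ (U:ℝ) * U / 281474976710656 + 1 := by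
      rw [← sub_le_iff_le_add, le_div_iff₀ (by norm_num)]
      nlinarith [mul_le_mul hU2 hU2 (by positivity) (by positivity)]
    linarith
  have hy9 : u^2 ≤ 1/9 := by nlinarith
  obtain ⟨c1, c2⟩ := hor_bound (sq_nonneg u) hy9 hV1 hV2 14 0
  have hn := hr_nonneg (sq_nonneg u) 14 0
  have hl := hr_le (sq_nonneg u) hy9 14 0
  have hsum : u * hr (u^2) 14 0 = ∑ i ∈ range 14, u ^ (2*i+1) / (2*(i:ℝ)+1) := by
    rw [hr_eq, mul_sum]
    apply sum_congr rfl
    intro i _
    rw [pow_add, pow_mul, pow_one]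
    push_cast
    rw [zero_add]
    ring
  have L1 := Real.sum_range_le_log_div hu0 (by linarith) 14
  have L2 := Real.log_div_le_sum_range_add hu0 (by linarith : u < 1) 14
  rw [← hpq] at L1 L2
  have hrem : u ^ (2*14+1) / (1 - u^2) ≤ 1 / 60000000000000 := by
    rw [div_le_iff₀ (by nlinarith)]
    have : u ^ (2*14+1) ≤ (1/3)^(2*14+1) := pow_le_pow_left₀ hu0 hu3 _
    have h6 : (1:ℝ)/60000000000000 * (8/9) ≤ 1 / 60000000000000 * (1 - u^2) := by
      apply mul_le_mul_of_nonneg_left _ (by norm_num); linarith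
    refine this.trans (le_trans ?_ h6)
    norm_num
  have d1 := div_le' (2 * U * hor V 14 0) 281474976710656
  have d2 := (lt_div' (2 * U * hor V 14 0) 281474976710656 (by norm_num)).le
  rw [← hlg] at d1 d2
  push_cast at d1 d2
  have hh0 : (0:ℝ) ≤ hor V 14 0 := Nat.cast_nonneg _
  constructor
  · have : 2 * (U:ℝ) * (hor V 14 0) / 281474976710656 ≤ 2 * (281474976710656 * (u * hr (u^2) 14 0)) := by
      rw [div_le_iff₀ (by norm_num)]
      nlinarith [mul_le_mul hU1 c1 hh0 (by positivity)]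
    rw [hsum] at this
    linarith
  · have : 2 * (281474976710656 * (u * hr (u^2) 14 0)) ≤
        2 * (U:ℝ) * (hor V 14 0) / 281474976710656 + 8 := by
      rw [← sub_le_iff_le_add, le_div_iff₀ (by norm_num)]
      nlinarith [mul_le_mul hU2 c2 (by positivity) (by positivity)]
    rw [hsum] at this
    linarith

lemma log2_bound : (195103586505165 : ℝ) ≤ 281474976710656 * Real.log 2 ∧
    281474976710656 * Real.log 2 ≤ 195103586505165 + 20 := by
  have h := lg_bound (p := 2) (q := 1) (by norm_num) (by norm_num) (by norm_num)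
  have e : lg 2 1 = 195103586505165 := by decide +kernel
  rw [e] at h
  norm_num at h ⊢
  exact h

/-- `lnN n ≈ 2^48 * log n`. -/
def lnN (n : ℕ) : ℕ := n.log2 * 195103586505165 + lg n (2 ^ n.log2)

theorem lnN_bound {n : ℕ} (hn : 0 < n) :
    (lnN n : ℝ) ≤ 281474976710656 * Real.log n ∧
      281474976710656 * Real.log n ≤ lnN n + 20 * ((n.log2 : ℝ) + 1) := by
  have h1 : 2 ^ n.log2 ≤ n := Nat.log2_self_le hn.ne'
  have h2 : n < 2 ^ (n.log2 + 1) := Nat.lt_log2_self
  have hb := lg_bound (p := n) (q := 2 ^ n.log2) (by positivity) h1 (by rw [pow_succ] at h2; omega)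
  obtain ⟨l1, l2⟩ := log2_bound
  have hn' : (0:ℝ) < n := by exact_mod_cast hn
  have e : Real.log n = n.log2 * Real.log 2 + Real.log ((n:ℝ) / ((2 ^ n.log2 : ℕ) : ℝ)) := by
    rw [Real.log_div hn'.ne' (by positivity)]
    push_cast
    rw [Real.log_pow]
    ring
  rw [e, lnN]
  push_cast at hb ⊢
  have hk : (0:ℝ) ≤ n.log2 := Nat.cast_nonneg _
  constructor
  · nlinarith [mul_le_mul_of_nonneg_left l1 hk]
  · nlinarith [mul_le_mul_of_nonneg_left l2 hk]

end Crest.Agent.R006.NumLogx179
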