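import Mathlib
import Crest.Agent.R006.NumLog_179

/-!
# Row 6: fast certified arctan of integer ratios (helper179), scale `2^48`, one value + error bound.
`|2^48 * arctan(p/q) - atN p q| ≤ 12` for `0 ≤ p ≤ q`, and `atI U V` for all integers `V ≠ 0`.
15-term Horner, about as fast as `lnN`.
-/

set_option autoImplicit false

namespace Crest.Agent.R006.NumAtanx179

open Finset Crest.Agent.R006.NumLogx179

/-- alternating Horner chain -/
def hat (V : ℕ) : ℕ → ℕ → ℕ
  | 0, _ => 0
  | (m+1), j => 281474976710656 / (2*j+1) - V * hat V m (j+1) / 281474976710656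

/-- real alternating Horner chain -/
noncomputable def ga (y : ℝ) : ℕ → ℕ → ℝ
  | 0, _ => 0
  | (m+1), j => 1 / (2*(j:ℝ)+1) - y * ga y m (j+1)

/-- unrolled version (15 terms) -/
def at15 (V : ℕ) : ℕ :=
  281474976710656 - V * (93824992236885 - V * (56294995342131 - V * (40210710958665 -
  V * (31274997412295 - V * (25588634246423 - V * (21651921285435 - V * (18764998447377 -
  V * (16557351571215 - V * (14814472458455 - V * (13403570319555 - V * (12238042465680 -
  V * (11258999068426 - V * (10424999137431 - V * (9706033679677 - V * 0 / 281474976710656)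
  / 281474976710656) / 281474976710656) / 281474976710656) / 281474976710656) / 281474976710656)
  / 281474976710656) / 281474976710656) / 281474976710656) / 281474976710656) / 281474976710656)
  / 281474976710656) / 281474976710656) / 281474976710656) / 281474976710656

lemma at15_eq (V : ℕ) : at15 V = hat V 15 0 := by
  simp only [hat, at15]

lemma ga_mem {y : ℝ} (hy : 0 ≤ y) (hy9 : y ≤ 1/9) : ∀ m j, 0 ≤ ga y m j ∧ ga y m j ≤ 1 / (2*(j:ℝ)+1)
  | 0, j => by
    simp only [ga]
    exact ⟨le_rfl, by positivity⟩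
  | (m+1), j => by
    obtain ⟨h1, h2⟩ := ga_mem hy hy9 m (j+1)
    have hj : (0:ℝ) ≤ j := Nat.cast_nonneg j
    have h3 : (1:ℝ) / (2*((j+1:ℕ):ℝ)+1) ≤ 1 / (2*(j:ℝ)+1) := by
      apply one_div_le_one_div_of_le (by positivity)
      push_cast; linarith
    have h4 : ga y m (j+1) ≤ 1 / (2*(j:ℝ)+1) := h2.trans h3
    have h5 : (0:ℝ) < 1 / (2*(j:ℝ)+1) := by positivity
    have h6 : y * ga y m (j+1) ≤ 1 * (1 / (2*(j:ℝ)+1)) :=
      mul_le_mul (by linarith) h4 h1 (by norm_num)
    have h7 : 0 ≤ y * ga y m (j+1) := mul_nonneg hy h1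
    simp only [ga]
    constructor <;> linarith

lemma ga_eq (y : ℝ) : ∀ m j, ga y m j = ∑ i ∈ range m, (-1)^i * y ^ i / (2*((j:ℝ)+i)+1)
  | 0, _ => by simp [ga]
  | (m+1), j => by
    rw [sum_range_succ', ga, ga_eq y m (j+1), mul_sum]
    rw [sub_eq_add_neg, add_comm, ← Finset.sum_neg_distrib]
    congr 1
    · apply sum_congr rfl
      intro i _
      push_cast
      rw [pow_succ, pow_succ]
      have : (2*((j:ℝ)+1+i)+1) = (2*((j:ℝ)+(i+1))+1) := by ring
      rw [this]
      ring
    · simp

lemma hat_bound {V : ℕ} {y : ℝ} (hy : 0 ≤ y) (hy9 : y ≤ 1/9) (h1 : (V:ℝ) ≤ y * 281474976710656)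
    (h2 : y * 281474976710656 ≤ V + 2) : ∀ m j, j + m ≤ 20 →
    (hat V m j : ℝ) ≤ 281474976710656 * ga y m j + 5 ∧
      281474976710656 * ga y m j ≤ hat V m j + 5
  | 0, _, _ => by simp [hat, ga]
  | (m+1), j, hjm => by
    obtain ⟨ih1, ih2⟩ := hat_bound hy hy9 h1 h2 m (j+1) (by omega)
    obtain ⟨hn, hl⟩ := ga_mem hy hy9 m (j+1)
    have hV0 : (0:ℝ) ≤ V := Nat.cast_nonneg V
    have hN0 : (0:ℝ) ≤ hat V m (j+1) := Nat.cast_nonneg _
    have hj : (0:ℝ) ≤ j := Nat.cast_nonneg j
    have hj20 : (j:ℝ) ≤ 20 := by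
      have : j ≤ 20 := by omega
      exact_mod_cast this
    have a1 := div_le' 281474976710656 (2*j+1)
    have a2 := lt_div' 281474976710656 (2*j+1) (by omega)
    have b1 := div_le' (V * hat V m (j+1)) 281474976710656
    have b2 := lt_div' (V * hat V m (j+1)) 281474976710656 (by norm_num)
    -- no truncation
    have h3 : (1:ℝ) / (2*((j+1:ℕ):ℝ)+1) ≤ 1 / (2*(j:ℝ)+1) := by
      apply one_div_le_one_div_of_le (by positivity)
      push_cast; linarith
    have h4 : ga y m (j+1) ≤ 1 / (2*(j:ℝ)+1) := hl.trans h3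
    have hbig : (281474976710656:ℝ) / 41 ≤ 281474976710656 / (2*(j:ℝ)+1) := by
      apply div_le_div_of_nonneg_left (by norm_num) (by positivity) (by linarith)
    have hY : (V:ℝ) * hat V m (j+1) / 281474976710656 ≤ y * hat V m (j+1) := by
      rw [div_le_iff₀ (by norm_num)]
      nlinarith
    have hY2 : y * hat V m (j+1) ≤ (V:ℝ) * hat V m (j+1) / 281474976710656 + 2.1 := by
      rw [← sub_le_iff_le_add, le_div_iff₀ (by norm_num)]
      have : (hat V m (j+1) : ℝ) ≤ 281474976710656 * 1 + 5 := by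
        have : ga y m (j+1) ≤ 1 := by
          refine h4.trans ?_
          rw [div_le_one (by positivity)]; linarith
        nlinarith
      nlinarith
    have hle : V * hat V m (j+1) / 281474976710656 ≤ 281474976710656 / (2*j+1) := by
      have : (((V * hat V m (j+1) / 281474976710656 : ℕ)) : ℝ) ≤ ((281474976710656 / (2*j+1) : ℕ) : ℝ) := by
        push_cast at a1 a2 b1 b2 ⊢
        have e1 : y * hat V m (j+1) ≤ 1/9 * (281474976710656 * (1 / (2*(j:ℝ)+1)) + 5) := by
          apply mul_le_mul hy9 _ hN0 (by norm_num)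
          nlinarith
        have e2 : (281474976710656:ℝ) * (1 / (2*(j:ℝ)+1)) = 281474976710656 / (2*(j:ℝ)+1) := by ring
        rw [e2] at e1
        linarith
      exact_mod_cast this
    have e1 : (281474976710656:ℝ) * ga y (m+1) j =
        281474976710656 / (2*(j:ℝ)+1) - y * (281474976710656 * ga y m (j+1)) := by
      rw [ga]; ring
    rw [e1]
    simp only [hat]
    rw [Nat.cast_sub hle]
    push_cast at a1 a2 b1 b2 ⊢
    have c1 : y * (281474976710656 * ga y m (j+1)) ≤ y * hat V m (j+1) + 5/9 := by nlinarith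
    have c2 : y * hat V m (j+1) ≤ y * (281474976710656 * ga y m (j+1)) + 5/9 := by nlinarith
    constructor <;> linarith

/-- Taylor remainder of arctan -/
lemma arctan_taylor {x : ℝ} (h0 : 0 ≤ x) (K : ℕ) :
    |Real.arctan x - ∑ i ∈ range K, (-1)^i * x^(2*i+1) / (2*(i:ℝ)+1)| ≤ x^(2*K+1) := by
  let F (x : ℝ) : ℝ := Real.arctan x - ∑ i ∈ range K, (-1)^i * x^(2*i+1) / (2*(i:ℝ)+1)
  let F' (y : ℝ) : ℝ := (-y^2)^K / (1 + y^2)
  have A : ∀ y, HasDerivAt F (F' y) y := by
    intro y
    have h1 : ∀ i ∈ range K, HasDerivAt (fun x : ℝ => (-1)^i * x^(2*i+1) / (2*(i:ℝ)+1))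
        ((-1)^i * (((2*i+1:ℕ):ℝ) * y^(2*i)) / (2*(i:ℝ)+1)) y := by
      intro i _
      have := ((hasDerivAt_pow (2*i+1) y).const_mul ((-1:ℝ)^i)).div_const (2*(i:ℝ)+1)
      simpa using this
    have h2 := HasDerivAt.fun_sum h1
    refine ((Real.hasDerivAt_arctan y).sub h2).congr_deriv ?_
    have h3 : (∑ i ∈ range K, (-1)^i * (((2*i+1:ℕ):ℝ) * y^(2*i)) / (2*(i:ℝ)+1)) =
        ∑ i ∈ range K, (-y^2)^i := by
      apply sum_congr rfl
      intro i _
      have e0 : (-y^2)^i = (-1)^i * y^(2*i) := by rw [neg_pow, ← pow_mul]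
      rw [e0]
      push_cast
      field_simp
    rw [h3, geom_sum_eq (by nlinarith [sq_nonneg y])]
    have h4 : (1 + y^2) ≠ 0 := by positivity
    have h5 : -y^2 - 1 ≠ 0 := by nlinarith [sq_nonneg y]
    simp only [F']
    field_simp
    ring
  have B : ∀ y ∈ Set.Icc (0:ℝ) x, ‖F' y‖ ≤ x^(2*K) := by
    intro y hy
    simp only [F']
    rw [norm_div, norm_pow, norm_neg, Real.norm_of_nonneg (sq_nonneg y),
      Real.norm_of_nonneg (by positivity : (0:ℝ) ≤ 1 + y^2), ← pow_mul]
    rw [div_le_iff₀ (by positivity)]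
    have h6 : y^(2*K) ≤ x^(2*K) := pow_le_pow_left₀ hy.1 hy.2 _
    have h7 : 0 ≤ x^(2*K) := by positivity
    nlinarith [sq_nonneg y, mul_nonneg h7 (sq_nonneg y)]
  have C : ‖F x - F 0‖ ≤ x^(2*K) * ‖x - 0‖ :=
    (convex_Icc (0:ℝ) x).norm_image_sub_le_of_norm_hasDerivWithin_le
      (fun y _ ↦ (A y).hasDerivWithinAt) B ⟨le_rfl, h0⟩ ⟨h0, le_rfl⟩
  have F0 : F 0 = 0 := by simp [F]
  rw [F0, sub_zero, sub_zero, Real.norm_of_nonneg h0, ← pow_succ] at C
  exact C

lemma arctan_le_self' {x : ℝ} (h0 : 0 ≤ x) : Real.arctan x ≤ x := by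
  have := arctan_taylor h0 0
  simp only [range_zero, sum_empty, sub_zero, mul_zero, zero_add, pow_one] at this
  exact (le_abs_self _).trans this

/-- `2^48 arctan (p/q)` for `3p ≤ q` -/
def at0 (p q : ℕ) : ℕ :=
  (fun U => U * at15 (U * U / 281474976710656) / 281474976710656) (p * 281474976710656 / q)

lemma at0_bound {p q : ℕ} (hq : 0 < q) (h3 : 3 * p ≤ q) :
    |281474976710656 * Real.arctan ((p:ℝ)/q) - at0 p q| ≤ 5 := by
  set U : ℕ := p * 281474976710656 / q with hU
  set V : ℕ := U * U / 281474976710656 with hV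
  have hat0 : at0 p q = U * hat V 15 0 / 281474976710656 := by
    rw [← at15_eq, hV, hU]; rfl
  have hq' : (0:ℝ) < q := by exact_mod_cast hq
  have h3' : 3 * (p:ℝ) ≤ q := by exact_mod_cast h3
  have hp0 : (0:ℝ) ≤ p := Nat.cast_nonneg p
  set u : ℝ := (p:ℝ)/q with hu
  have hu0 : 0 ≤ u := by positivity
  have hu3 : u ≤ 1/3 := by
    rw [hu, div_le_iff₀ hq']; linarith
  have hU1 : (U:ℝ) ≤ u * 281474976710656 := by
    have := div_le' (p * 281474976710656) q
    rw [← hU] at this
    push_cast at this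
    rw [hu, div_mul_eq_mul_div]; exact this
  have hU2 : u * 281474976710656 ≤ U + 1 := by
    have := (lt_div' (p * 281474976710656) q hq).le
    rw [← hU] at this
    push_cast at this
    rw [hu, div_mul_eq_mul_div]; exact this
  have hU0 : (0:ℝ) ≤ U := Nat.cast_nonneg U
  have hV1 : (V:ℝ) ≤ u^2 * 281474976710656 := by
    have := div_le' (U * U) 281474976710656
    rw [← hV] at this
    push_cast at this
    refine this.trans ?_
    rw [div_le_iff₀ (by norm_num)]
    nlinarith [mul_le_mul hU1 hU1 hU0 (by positivity)]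
  have hV2 : u^2 * 281474976710656 ≤ V + 2 := by
    have := (lt_div' (U * U) 281474976710656 (by norm_num)).le
    rw [← hV] at this
    push_cast at this
    have h5 : u^2 * 281474976710656 ≤ (U:ℝ) * U / 281474976710656 + 1 := by
      rw [← sub_le_iff_le_add, le_div_iff₀ (by norm_num)]
      nlinarith [mul_le_mul hU2 hU2 (by positivity) (by positivity)]
    linarith
  have hy9 : u^2 ≤ 1/9 := by nlinarith
  obtain ⟨c1, c2⟩ := hat_bound (sq_nonneg u) hy9 hV1 hV2 15 0 (by norm_num)
  obtain ⟨hn, hl⟩ := ga_mem (sq_nonneg u) hy9 15 0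
  have hl' : ga (u^2) 15 0 ≤ 1 := by simpa using hl
  have hsum : u * ga (u^2) 15 0 = ∑ i ∈ range 15, (-1)^i * u ^ (2*i+1) / (2*(i:ℝ)+1) := by
    rw [ga_eq, mul_sum]
    apply sum_congr rfl
    intro i _
    rw [pow_add, pow_mul, pow_one]
    push_cast
    rw [zero_add]
    ring
  have T := arctan_taylor hu0 15
  rw [← hsum] at T
  have hrem : u ^ (2*15+1) ≤ 1 / 281474976710656 := by
    have : u ^ (2*15+1) ≤ (1/3)^(2*15+1) := pow_le_pow_left₀ hu0 hu3 _
    refine this.trans ?_
    norm_num
  have T' := T.trans hrem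
  rw [abs_le] at T'
  have d1 := div_le' (U * hat V 15 0) 281474976710656
  have d2 := (lt_div' (U * hat V 15 0) 281474976710656 (by norm_num)).le
  rw [← hat0] at d1 d2
  push_cast at d1 d2
  have hh0 : (0:ℝ) ≤ hat V 15 0 := Nat.cast_nonneg _
  have f1 : (U:ℝ) * hat V 15 0 / 281474976710656 ≤ 281474976710656 * (u * ga (u^2) 15 0) + 2 := by
    rw [div_le_iff₀ (by norm_num)]
    nlinarith [mul_le_mul hU1 c1 hh0 (by positivity)]
  have f2 : 281474976710656 * (u * ga (u^2) 15 0) ≤ (U:ℝ) * hat V 15 0 / 281474976710656 + 3 := by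
    rw [← sub_le_iff_le_add, le_div_iff₀ (by norm_num)]
    nlinarith [mul_le_mul hU2 c2 (by positivity) (by positivity)]
  rw [abs_le]
  obtain ⟨t1, t2⟩ := T'
  constructor
  · linarith
  · linarith

/-- `2^48 arctan (p/q)` for `p ≤ q` -/
def atN (p q : ℕ) : ℕ :=
  bif Nat.ble (3 * p) q then at0 p q
  else bif Nat.ble (2 * p) q then 130505199945453 - at0 (q - 2 * p) (2 * q + p)
  else 130505199945453 + at0 (2 * p - q) (2 * q + p)

lemma pi4_bound : |281474976710656 * (Real.pi / 4) - 221069929750888.75| ≤ 1 := by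
  have h1 := Real.pi_gt_d20
  have h2 := Real.pi_lt_d20
  rw [abs_le]
  constructor <;> linarith

lemma half_bound : |281474976710656 * Real.arctan (1/2) - 130505199945453| ≤ 7 := by
  have h := at0_bound (p := 1) (q := 3) (by norm_num) (by norm_num)
  have e : at0 1 3 = 90564729805435 := by decide +kernel
  rw [e] at h
  have h2 := Real.arctan_inv_2_add_arctan_inv_3
  have h3 := pi4_bound
  have e1 : ((1:ℕ):ℝ)/((3:ℕ):ℝ) = 3⁻¹ := by norm_num
  rw [e1] at h
  have e2 : (1/2:ℝ) = 2⁻¹ := by norm_num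
  rw [e2]
  rw [abs_le] at *
  push_cast at *
  constructor <;> linarith [h.1, h.2, h3.1, h3.2]

lemma ble_false {a b : ℕ} (h : Nat.ble a b = false) : b < a := by
  by_contra hc
  rw [Nat.ble_eq_true_of_le (not_lt.1 hc)] at h
  exact absurd h (by decide)

lemma atN_bound {p q : ℕ} (hq : 0 < q) (h : p ≤ q) :
    |281474976710656 * Real.arctan ((p:ℝ)/q) - atN p q| ≤ 12 := by
  have hq' : (0:ℝ) < q := by exact_mod_cast hq
  have hp0 : (0:ℝ) ≤ p := Nat.cast_nonneg p
  have hh := half_bound
  rw [abs_le] at hh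
  obtain ⟨hh1, hh2⟩ := hh
  unfold atN
  cases h1 : Nat.ble (3 * p) q with
  | true =>
    rw [cond_true]
    exact (at0_bound hq (Nat.le_of_ble_eq_true h1)).trans (by norm_num)
  | false =>
    rw [cond_false]
    have h1' : q < 3 * p := ble_false h1
    have h1r : (q:ℝ) < 3 * p := by exact_mod_cast h1'
    cases h2 : Nat.ble (2 * p) q with
    | true =>
      rw [cond_true]
      have h2' : 2 * p ≤ q := Nat.le_of_ble_eq_true h2
      have h2r : 2 * (p:ℝ) ≤ q := by exact_mod_cast h2'
      have hb := at0_bound (p := q - 2 * p) (q := 2 * q + p) (by omega) (by omega)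
      generalize at0 (q - 2 * p) (2 * q + p) = A at *
      have hc1 : (((q - 2*p : ℕ)):ℝ) = q - 2 * p := by
        rw [Nat.cast_sub h2']; push_cast; ring
      have hc2 : ((2*q+p : ℕ):ℝ) = 2 * q + p := by push_cast; ring
      rw [hc1, hc2] at hb
      have hk : Real.arctan ((p:ℝ)/q) + Real.arctan (((q:ℝ) - 2 * p)/(2 * q + p)) =
          Real.arctan (1/2) := by
        rw [Real.arctan_add]
        · congr 1
          have : (2 * (q:ℝ) + p) ≠ 0 := by positivity
          rw [div_add_div _ _ hq'.ne' this, div_mul_div_comm, one_sub_div (by positivity),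
            div_div_div_cancel_right₀ (by positivity)]
          rw [div_eq_div_iff (by nlinarith) (by norm_num)]
          ring
        · rw [div_mul_div_comm, div_lt_one (by positivity)]
          nlinarith
      have h6 : Real.arctan (((q:ℝ) - 2 * p)/(2 * q + p)) ≤ 1/5 := by
        refine (arctan_le_self' (div_nonneg (by linarith) (by positivity))).trans ?_
        rw [div_le_iff₀ (by positivity)]
        linarith
      rw [abs_le] at hb
      obtain ⟨hb1, hb2⟩ := hb
      have hle : A ≤ 130505199945453 := by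
        have : (A : ℝ) ≤ 130505199945453 := by linarith
        exact_mod_cast this
      have hc3 : ((130505199945453 - A : ℕ) : ℝ) = 130505199945453 - A := by
        rw [Nat.cast_sub hle]; norm_num
      rw [hc3, abs_le]
      constructor <;> linarith
    | false =>
      rw [cond_false]
      have h2' : q < 2 * p := ble_false h2
      have h2r : (q:ℝ) < 2 * p := by exact_mod_cast h2'
      have hr : (p:ℝ) ≤ q := by exact_mod_cast h
      have hb := at0_bound (p := 2 * p - q) (q := 2 * q + p) (by omega) (by omega)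
      generalize at0 (2 * p - q) (2 * q + p) = A at *
      have hc1 : (((2*p - q : ℕ)):ℝ) = 2 * p - q := by
        rw [Nat.cast_sub h2'.le]; push_cast; ring
      have hc2 : ((2*q+p : ℕ):ℝ) = 2 * q + p := by push_cast; ring
      rw [hc1, hc2] at hb
      have hk : Real.arctan (1/2) + Real.arctan ((2 * (p:ℝ) - q)/(2 * q + p)) =
          Real.arctan ((p:ℝ)/q) := by
        rw [Real.arctan_add]
        · congr 1
          have : (2 * (q:ℝ) + p) ≠ 0 := by positivity
          rw [div_add_div _ _ (by norm_num) this, div_mul_div_comm, one_sub_div (by positivity),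
            div_div_div_cancel_right₀ (by positivity)]
          rw [div_eq_div_iff (by nlinarith) hq'.ne']
          ring
        · rw [div_mul_div_comm, div_lt_one (by positivity)]
          nlinarith
      rw [abs_le] at hb
      obtain ⟨hb1, hb2⟩ := hb
      have hc3 : ((130505199945453 + A : ℕ) : ℝ) = 130505199945453 + A := by push_cast; ring
      rw [hc3, abs_le]
      constructor <;> linarith

/-- first quadrant -/
def atQ (u v : ℕ) : ℕ := bif Nat.ble u v then atN u v else 442139859501777 - atN v u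

lemma atQ_bound {u v : ℕ} (hv : 0 < v) :
    |281474976710656 * Real.arctan ((u:ℝ)/v) - atQ u v| ≤ 15 := by
  unfold atQ
  cases h1 : Nat.ble u v with
  | true =>
    rw [cond_true]
    exact (atN_bound hv (Nat.le_of_ble_eq_true h1)).trans (by norm_num)
  | false =>
    rw [cond_false]
    have h1' : v < u := ble_false h1
    have hu : 0 < u := by omega
    have hb := atN_bound hu h1'.le
    generalize atN v u = A at *
    have hv' : (0:ℝ) < v := by exact_mod_cast hv
    have hu' : (0:ℝ) < u := by exact_mod_cast hu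
    have hk : Real.arctan ((u:ℝ)/v) = Real.pi/2 - Real.arctan ((v:ℝ)/u) := by
      rw [← inv_div (v:ℝ) u, Real.arctan_inv_of_pos (by positivity)]
    have h3 := pi4_bound
    rw [abs_le] at hb h3
    obtain ⟨hb1, hb2⟩ := hb
    obtain ⟨h31, h32⟩ := h3
    have h6 : Real.arctan ((v:ℝ)/u) ≤ 1 := by
      refine (arctan_le_self' (by positivity)).trans ?_
      rw [div_le_one hu']
      exact_mod_cast h1'.le
    have hle : A ≤ 442139859501777 := by
      have : (A : ℝ) ≤ 442139859501777 := by linarith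
      exact_mod_cast this
    have hc3 : ((442139859501777 - A : ℕ) : ℝ) = 442139859501777 - A := by
      rw [Nat.cast_sub hle]; norm_num
    rw [hk, hc3, abs_le]
    constructor <;> linarith

end Crest.Agent.R006.NumAtanx179
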