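import Crest.Agent.R006.P3_Pot2_943

/-! Row 6, block P3, leaf POT, part 3 (helper943): closed forms of the mutual energies
`∫_0^m Iseg a' d' m' (a + t d) dt` of two segments. -/

namespace Crest.Agent.R006.Potx943

open MeasureTheory Set

/-- second primitive of the logarithm -/
noncomputable def G2 (w : ℂ) : ℂ := w ^ 2 / 2 * Complex.log w - w ^ 2 / 4

theorem tendsto_norm_mul_log : Filter.Tendsto (fun w : ℂ => ‖w‖ * |Real.log ‖w‖|) (nhds 0) (nhds 0) := by
  have h1 : Filter.Tendsto (fun x : ℝ => |x * Real.log x|) (nhds 0) (nhds 0) := by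
    have := (Real.continuous_mul_log.abs).tendsto 0
    simpa using this
  have h2 : Filter.Tendsto (fun w : ℂ => ‖w‖) (nhds 0) (nhds 0) := by
    simpa using (continuous_norm (E := ℂ)).tendsto 0
  have h3 := h1.comp h2
  refine h3.congr (fun w => ?_)
  simp only [Function.comp]
  rw [abs_mul, abs_norm]

theorem norm_log_le (w : ℂ) : ‖Complex.log w‖ ≤ |Real.log ‖w‖| + Real.pi := by
  calc ‖Complex.log w‖ ≤ |(Complex.log w).re| + |(Complex.log w).im| := Complex.norm_le_abs_re_add_abs_im _
    _ ≤ _ := by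
      rw [Complex.log_re, Complex.log_im]
      gcongr
      exact Complex.abs_arg_le_pi w

theorem continuousAt_mul_log_zero : ContinuousAt (fun w : ℂ => w * Complex.log w) 0 := by
  unfold ContinuousAt
  simp only [zero_mul]
  rw [tendsto_zero_iff_norm_tendsto_zero]
  have h1 : Filter.Tendsto (fun w : ℂ => ‖w‖ * |Real.log ‖w‖| + ‖w‖ * Real.pi) (nhds 0) (nhds 0) := by
    have h2 : Filter.Tendsto (fun w : ℂ => ‖w‖ * Real.pi) (nhds 0) (nhds 0) := by
      have : Continuous (fun w : ℂ => ‖w‖ * Real.pi) := by fun_prop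
      simpa using this.tendsto 0
    simpa using tendsto_norm_mul_log.add h2
  refine squeeze_zero (fun _ => norm_nonneg _) (fun w => ?_) h1
  rw [norm_mul]
  have := norm_log_le w
  nlinarith [norm_nonneg w]

theorem continuousAt_G2 {w : ℂ} (h : w ∈ Complex.slitPlane ∨ w = 0) : ContinuousAt G2 w := by
  rcases h with h | h
  · unfold G2
    have := continuousAt_clog h
    fun_prop
  · subst h
    have e : G2 = fun w => w / 2 * (w * Complex.log w) - w ^ 2 / 4 := by
      ext w; unfold G2; ring
    rw [e]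
    have := continuousAt_mul_log_zero
    fun_prop

theorem hasDerivAt_G2 {w : ℂ} (h : w ∈ Complex.slitPlane) : HasDerivAt G2 (w * Complex.log w) w := by
  have hne : w ≠ 0 := Complex.slitPlane_ne_zero h
  have h1 : HasDerivAt (fun w : ℂ => w ^ 2 / 2) w w := by
    have := (hasDerivAt_pow 2 w).div_const 2
    simpa using this
  have h2 : HasDerivAt (fun w : ℂ => w ^ 2 / 4) (w / 2) w := by
    have := (hasDerivAt_pow 2 w).div_const 4
    have e : ((2 : ℕ) : ℂ) * w ^ (2 - 1) / 4 = w / 2 := by push_cast; ring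
    rw [e] at this
    exact this
  have h3 := (h1.mul (Complex.hasDerivAt_log h)).sub h2
  have e : w * Complex.log w + w ^ 2 / 2 * w⁻¹ - w / 2 = w * Complex.log w := by
    field_simp; ring
  rw [e] at h3
  exact h3

/-- one line integral of `Re (w Log w)` along a segment inside the slit plane (end points may be
the branch point) -/
theorem integral_line {w0 ρ : ℂ} (hρ : ρ ≠ 0) {m : ℝ} (hm : 0 ≤ m)
    (h : ∀ t ∈ Set.Icc (0 : ℝ) m, w0 + t * ρ ∈ Complex.slitPlane ∨ w0 + t * ρ = 0)
    (h' : ∀ t ∈ Set.Ioo (0 : ℝ) m, w0 + t * ρ ∈ Complex.slitPlane) :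
    IntervalIntegrable (fun t : ℝ => ((w0 + t * ρ) * Complex.log (w0 + t * ρ)).re) volume 0 m ∧
    ∫ t in (0 : ℝ)..m, ((w0 + t * ρ) * Complex.log (w0 + t * ρ)).re
      = ((G2 (w0 + m * ρ) - G2 w0) / ρ).re := by
  have hcont : ContinuousOn (fun t : ℝ => ((w0 + t * ρ) * Complex.log (w0 + t * ρ)).re)
      (Set.uIcc 0 m) := by
    rw [Set.uIcc_of_le hm]
    intro t ht
    apply ContinuousAt.continuousWithinAt
    have h1 : ContinuousAt (fun w : ℂ => w * Complex.log w) (w0 + t * ρ) := by
      rcases h t ht with h | h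
      · have := continuousAt_clog h
        fun_prop
      · rw [h]; exact continuousAt_mul_log_zero
    have h2 : ContinuousAt (fun t : ℝ => w0 + (t : ℂ) * ρ) t := by fun_prop
    have h3 : ContinuousAt ((fun w : ℂ => w * Complex.log w) ∘ fun t : ℝ => w0 + (t : ℂ) * ρ) t :=
      ContinuousAt.comp (f := fun t : ℝ => w0 + (t : ℂ) * ρ) h1 h2
    exact Complex.continuous_re.continuousAt.comp h3
  refine ⟨hcont.intervalIntegrable, ?_⟩
  have hc : ContinuousOn (fun t : ℝ => (G2 (w0 + t * ρ) / ρ).re) (Set.Icc 0 m) := by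
    intro t ht
    apply ContinuousAt.continuousWithinAt
    have h2 : ContinuousAt (fun t : ℝ => w0 + (t : ℂ) * ρ) t := by fun_prop
    have h3 : ContinuousAt (G2 ∘ fun t : ℝ => w0 + (t : ℂ) * ρ) t :=
      ContinuousAt.comp (f := fun t : ℝ => w0 + (t : ℂ) * ρ) (continuousAt_G2 (h t ht)) h2
    exact Complex.continuous_re.continuousAt.comp (h3.div_const ρ)
  have hd : ∀ t ∈ Set.Ioo (0 : ℝ) m, HasDerivAt (fun t : ℝ => (G2 (w0 + t * ρ) / ρ).re)
      (((w0 + t * ρ) * Complex.log (w0 + t * ρ)).re) t := by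
    intro t ht
    have h1 := hasDerivAt_G2 (h' t ht)
    have h2 : HasDerivAt (fun t : ℝ => w0 + (t : ℂ) * ρ) ρ t := by
      have := ((hasDerivAt_id t).ofReal_comp.mul_const ρ).const_add w0
      simpa using this
    have h3 : HasDerivAt (fun t : ℝ => G2 (w0 + (t : ℂ) * ρ))
        (((w0 + t * ρ) * Complex.log (w0 + t * ρ)) * ρ) t := by
      have := HasDerivAt.comp_of_eq (h₂ := G2) t h1 h2 rfl
      exact this
    have h4 := h3.div_const ρ
    rw [mul_div_assoc, div_self hρ, mul_one] at h4
    exact Complex.reCLM.hasFDerivAt.comp_hasDerivAt t h4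
  rw [intervalIntegral.integral_eq_sub_of_hasDerivAt_of_le hm hc hd hcont.intervalIntegrable]
  simp [sub_div]

/-- reversing the orientation of a family does not change its potential -/
theorem Iseg_reverse (a d s : ℂ) (m : ℝ) : Iseg (a + m * d) (-d) m s = Iseg a d m s := by
  unfold Iseg
  have h := intervalIntegral.integral_comp_sub_left (a := 0) (b := m)
    (fun t : ℝ => Real.log ‖s - (a + (t : ℂ) * d)‖) m
  simp only [sub_self, sub_zero] at h
  rw [← h]
  apply intervalIntegral.integral_congr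
  intro t _
  simp only
  congr 2
  push_cast
  ring

/-- mutual energy of two segments -/
noncomputable def mutE (a d : ℂ) (m : ℝ) (a' d' : ℂ) (m' : ℝ) : ℝ :=
  ∫ t in (0 : ℝ)..m, Iseg a' d' m' (a + t * d)

/-- closed form, transversal case: `w0 = (a-a')/d'`, `ρ = d/d'` -/
theorem mut_closed {a d a' d' : ℂ} (hd : d ≠ 0) (hd' : d' ≠ 0) {m m' : ℝ} (hm : 0 ≤ m)
    (h1 : ∀ t ∈ Set.Icc (0 : ℝ) m,
      (a - a') / d' + t * (d / d') ∈ Complex.slitPlane ∨ (a - a') / d' + t * (d / d') = 0)
    (h1' : ∀ t ∈ Set.Ioo (0 : ℝ) m, (a - a') / d' + t * (d / d') ∈ Complex.slitPlane)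
    (h2 : ∀ t ∈ Set.Icc (0 : ℝ) m,
      ((a - a') / d' - m') + t * (d / d') ∈ Complex.slitPlane ∨
        ((a - a') / d' - m') + t * (d / d') = 0)
    (h2' : ∀ t ∈ Set.Ioo (0 : ℝ) m, ((a - a') / d' - m') + t * (d / d') ∈ Complex.slitPlane) :
    mutE a d m a' d' m' = m * m' * Real.log ‖d'‖ - m * m'
      + ((G2 ((a - a') / d' + m * (d / d')) - G2 ((a - a') / d')) / (d / d')).re
      - ((G2 ((a - a') / d' - m' + m * (d / d')) - G2 ((a - a') / d' - m')) / (d / d')).re := by
  have hρ : d / d' ≠ 0 := div_ne_zero hd hd'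
  obtain ⟨i1, e1⟩ := integral_line hρ hm h1 h1'
  obtain ⟨i2, e2⟩ := integral_line hρ hm h2 h2'
  unfold mutE
  have hcongr : ∫ t in (0 : ℝ)..m, Iseg a' d' m' (a + t * d)
      = ∫ t in (0 : ℝ)..m, ((m' * Real.log ‖d'‖ - m')
        + (((a - a') / d' + t * (d / d')) * Complex.log ((a - a') / d' + t * (d / d'))).re
        - ((((a - a') / d' - m') + t * (d / d'))
            * Complex.log (((a - a') / d' - m') + t * (d / d'))).re) := by
    apply intervalIntegral.integral_congr
    intro t _
    simp only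
    rw [Iseg_closed hd']
    have e3 : (a + t * d - a') / d' = (a - a') / d' + t * (d / d') := by field_simp; ring
    rw [e3]
    have e4 : (a - a') / d' + t * (d / d') - m' = ((a - a') / d' - m') + t * (d / d') := by ring
    rw [e4]
    ring
  rw [hcongr, intervalIntegral.integral_sub, intervalIntegral.integral_add, e1, e2]
  · simp; ring
  · simp
  · exact i1
  · exact IntervalIntegrable.add (by simp) i1
  · exact i2

/-- real second primitive -/
noncomputable def G2r (x : ℝ) : ℝ := x ^ 2 / 2 * Real.log x - x ^ 2 / 4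

theorem hasDerivAt_G2r {x : ℝ} (h : x ≠ 0) : HasDerivAt G2r (x * Real.log x) x := by
  have h1 : HasDerivAt (fun w : ℝ => w ^ 2 / 2) x x := by
    have := (hasDerivAt_pow 2 x).div_const 2
    simpa using this
  have h2 : HasDerivAt (fun w : ℝ => w ^ 2 / 4) (x / 2) x := by
    have := (hasDerivAt_pow 2 x).div_const 4
    have e : ((2 : ℕ) : ℝ) * x ^ (2 - 1) / 4 = x / 2 := by push_cast; ring
    rw [e] at this
    exact this
  have h3 := (h1.mul (Real.hasDerivAt_log h)).sub h2
  have e : x * Real.log x + x ^ 2 / 2 * x⁻¹ - x / 2 = x * Real.log x := by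
    field_simp; ring
  rw [e] at h3
  exact h3

theorem continuous_G2r : Continuous G2r := by
  have e : G2r = fun x => x / 2 * (x * Real.log x) - x ^ 2 / 4 := by
    ext x; unfold G2r; ring
  rw [e]
  have := Real.continuous_mul_log
  fun_prop

theorem integral_mul_log (α β : ℝ) : ∫ x in α..β, x * Real.log x = G2r β - G2r α := by
  have key : ∀ β : ℝ, ∫ x in (0 : ℝ)..β, x * Real.log x = G2r β - G2r 0 := by
    intro β
    rcases le_or_gt 0 β with h | h
    · apply intervalIntegral.integral_eq_sub_of_hasDerivAt_of_le h continuous_G2r.continuousOn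
      · intro x hx; exact hasDerivAt_G2r (ne_of_gt hx.1)
      · exact Real.continuous_mul_log.intervalIntegrable _ _
    · have := intervalIntegral.integral_eq_sub_of_hasDerivAt_of_le h.le continuous_G2r.continuousOn
        (fun x hx => hasDerivAt_G2r (ne_of_lt hx.2)) (Real.continuous_mul_log.intervalIntegrable β 0)
      rw [intervalIntegral.integral_symm, this]
      ring
  have h := intervalIntegral.integral_add_adjacent_intervals (μ := volume)
    (Real.continuous_mul_log.intervalIntegrable 0 α) (Real.continuous_mul_log.intervalIntegrable α β)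
  rw [key, key] at h
  linarith

/-- closed form, collinear case: `(a-a')/d' = x0`, `d/d' = ρ` real -/
theorem mut_closed_real {a d a' d' : ℂ} {x0 ρ : ℝ} (hρ0 : ρ ≠ 0) (hd' : d' ≠ 0) {m m' : ℝ}
    (hx0 : (a - a') / d' = x0) (hρ : d / d' = ρ) :
    mutE a d m a' d' m' = m * m' * Real.log ‖d'‖ - m * m'
      + (G2r (x0 + m * ρ) - G2r x0) / ρ - (G2r (x0 - m' + m * ρ) - G2r (x0 - m')) / ρ := by
  unfold mutE
  have e1 : ∀ y : ℝ, ((y : ℂ) * Complex.log y).re = y * Real.log y := by
    intro y
    rw [Complex.re_ofReal_mul, Complex.log_re, Complex.norm_real, Real.norm_eq_abs, Real.log_abs]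
  have hcongr : ∫ t in (0 : ℝ)..m, Iseg a' d' m' (a + t * d)
      = ∫ t in (0 : ℝ)..m, ((m' * Real.log ‖d'‖ - m')
        + (x0 + ρ * t) * Real.log (x0 + ρ * t) - (x0 - m' + ρ * t) * Real.log (x0 - m' + ρ * t)) := by
    apply intervalIntegral.integral_congr
    intro t _
    simp only
    rw [Iseg_closed hd']
    have e3 : (a + t * d - a') / d' = ((x0 + ρ * t : ℝ) : ℂ) := by
      have : (a + t * d - a') / d' = (a - a') / d' + t * (d / d') := by field_simp; ring
      rw [this, hx0, hρ]; push_cast; ring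
    have e4 : (a + t * d - a') / d' - m' = ((x0 - m' + ρ * t : ℝ) : ℂ) := by
      rw [e3]; push_cast; ring
    rw [e4, e3, e1, e1]
    ring
  have hi : ∀ c : ℝ, IntervalIntegrable (fun t : ℝ => (c + ρ * t) * Real.log (c + ρ * t)) volume 0 m := by
    intro c
    have : Continuous (fun t : ℝ => (c + ρ * t) * Real.log (c + ρ * t)) :=
      Real.continuous_mul_log.comp (f := fun t : ℝ => c + ρ * t) (by fun_prop)
    exact this.intervalIntegrable _ _
  have hv : ∀ c : ℝ, ∫ t in (0 : ℝ)..m, (c + ρ * t) * Real.log (c + ρ * t)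
      = (G2r (c + m * ρ) - G2r c) / ρ := by
    intro c
    have := intervalIntegral.integral_comp_add_mul (a := 0) (b := m) (fun x => x * Real.log x) hρ0 c
    rw [this, integral_mul_log]
    rw [smul_eq_mul, mul_zero, add_zero, mul_comm ρ m]
    field_simp
  rw [hcongr, intervalIntegral.integral_sub, intervalIntegral.integral_add, hv, hv]
  · simp; ring
  · simp
  · exact hi x0
  · exact IntervalIntegrable.add (by simp) (hi x0)
  · exact hi (x0 - m')

/-- scaling of mutual energies -/
theorem mut_scale {a d a' d' : ℂ} (m m' : ℝ) {N : ℝ} (hN : 0 < N) (hd' : d' ≠ 0) :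
    mutE (N * a) d (N * m) (N * a') d' (N * m')
      = N ^ 2 * (m * m' * Real.log N + mutE a d m a' d' m') := by
  unfold mutE
  have h1 := intervalIntegral.integral_comp_mul_left (a := 0) (b := m)
    (fun t : ℝ => Iseg (N * a') d' (N * m') (N * a + t * d)) hN.ne'
  simp only [mul_zero] at h1
  have h2 : ∫ t in (0 : ℝ)..(N * m), Iseg (N * a') d' (N * m') (N * a + t * d)
      = N * ∫ t in (0 : ℝ)..m, Iseg (N * a') d' (N * m') (N * a + (N * t : ℝ) * d) := by
    rw [h1, smul_eq_mul, ← mul_assoc, mul_inv_cancel₀ hN.ne', one_mul]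
  rw [h2]
  have h3 : ∫ t in (0 : ℝ)..m, Iseg (N * a') d' (N * m') (N * a + (N * t : ℝ) * d)
      = ∫ t in (0 : ℝ)..m, (N * (m' * Real.log N) + N * Iseg a' d' m' (a + t * d)) := by
    apply intervalIntegral.integral_congr
    intro t _
    simp only
    have e : (N : ℂ) * a + (N * t : ℝ) * d = N * (a + t * d) := by push_cast; ring
    rw [e, Iseg_scale m' hN hd']
    ring
  rw [h3, intervalIntegral.integral_add (by simp)
    ((intervalIntegrable_Iseg_line hd' m' 0 m).const_mul _)]
  rw [intervalIntegral.integral_const_mul]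
  simp
  ring

end Crest.Agent.R006.Potx943
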