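import Crest.Agent.R006.NumSum_464
import Crest.Agent.R006.P3_Pot3_943

/-!
# Row 6: bridge between the reference densities of `P3_Pot*_943` and the NUM kit (helper464)

`Iseg`, `mutE` of 943 in terms of `pot`, `segE` at Gaussian integers over a common denominator `Q`,
and their certified enclosures.
-/

set_option autoImplicit false

namespace Crest.Agent.R006.NumSegx464

open Real MeasureTheory Num482 Crest.Agent.R006.Potx943

theorem Iseg_eq_pot (a d s : ℂ) (m : ℝ) : Iseg a d m s = m * pot a (a + m * d) s := by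
  unfold Iseg pot
  by_cases hm : m = 0
  · subst hm; simp
  · have h1 := intervalIntegral.integral_comp_mul_left (a := 0) (b := 1)
      (fun t : ℝ => Real.log ‖s - (a + t * d)‖) (c := m) hm
    simp only [mul_zero, mul_one, smul_eq_mul] at h1
    have h2 : ∫ t in (0:ℝ)..m, Real.log ‖s - (a + t * d)‖ =
        m * ∫ x in (0:ℝ)..1, Real.log ‖s - (a + ((m * x : ℝ) : ℂ) * d)‖ := by
      rw [h1, ← mul_assoc, mul_inv_cancel₀ hm, one_mul]
    rw [h2]
    congr 2; funext κ; congr 3
    push_cast; ring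

theorem mutE_eq_segE (a d : ℂ) (m : ℝ) (a' d' : ℂ) (m' : ℝ) :
    Potx943.mutE a d m a' d' m' = m * m' * segE a' (a' + m' * d') a (a + m * d) := by
  unfold Potx943.mutE segE
  simp only [Iseg_eq_pot]
  by_cases hm : m = 0
  · subst hm; simp
  · have h1 := intervalIntegral.integral_comp_mul_left (a := 0) (b := 1)
      (fun t : ℝ => m' * pot a' (a' + m' * d') (a + t * d)) (c := m) hm
    simp only [mul_zero, mul_one, smul_eq_mul] at h1
    have h2 : ∫ t in (0:ℝ)..m, m' * pot a' (a' + m' * d') (a + t * d) =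
        m * ∫ x in (0:ℝ)..1, m' * pot a' (a' + m' * d') (a + ((m * x : ℝ) : ℂ) * d) := by
      rw [h1, ← mul_assoc, mul_inv_cancel₀ hm, one_mul]
    rw [h2, intervalIntegral.integral_const_mul, mul_assoc]
    unfold pot
    congr 3; funext τ
    have e : ∀ κ : ℝ, (a + ((m * τ : ℝ) : ℂ) * d - (a' + κ * (a' + m' * d' - a'))) =
        (a + τ * (a + m * d - a) - (a' + κ * (a' + m' * d' - a'))) := by
      intro κ; push_cast; ring
    simp only [e]

theorem pot_scale {A B : ℂ} (hAB : B - A ≠ 0) (s : ℂ) {r : ℝ} (hr : 0 < r) :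
    pot (A / r) (B / r) (s / r) = pot A B s - Real.log r := inner_scale hAB s hr

/-- 943's segment potential at rational points with common denominator `Q`. -/
theorem enc_Iseg {a d s : ℂ} {m : ℝ} {A B S : ℤ × ℤ} {Q : ℕ} (hQ : 0 < Q)
    (hA : a = gc A / ((Q : ℝ) : ℂ)) (hB : a + m * d = gc B / ((Q : ℝ) : ℂ))
    (hS : s = gc S / ((Q : ℝ) : ℂ)) (h : sqN (B.1 - A.1) (B.2 - A.2) ≠ 0) {p : ℤ} {q : ℕ}
    (hq : 0 < q) (hm : m = (p : ℝ) / q) :
    Enc (Iseg a d m s) (mulQ p q (subI (potI A B S) (logN Q))) := by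
  have hAB : gc B - gc A ≠ 0 := by
    rw [Ne, ← Complex.normSq_eq_zero]
    have : Complex.normSq (gc B - gc A) = ((sqN (B.1 - A.1) (B.2 - A.2) : ℕ) : ℝ) := by
      rw [sqN_cast, Complex.normSq_apply]; simp; ring
    rw [this]; exact_mod_cast h
  have hQr : (0 : ℝ) < Q := by exact_mod_cast hQ
  rw [Iseg_eq_pot, hB, hA, hS, pot_scale hAB _ hQr, hm]
  exact ((enc_pot S h).sub (enc_logN hQ)).mulQ p hq

/-- 943's mutual energy at rational points with common denominator `Q`
(first segment `[C,D]`, second segment `[A,B]`). -/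
theorem enc_mutE943 {a d a' d' : ℂ} {m m' : ℝ} {A B C D : ℤ × ℤ} {Q : ℕ} (hQ : 0 < Q)
    (hA : a' = gc A / ((Q : ℝ) : ℂ)) (hB : a' + m' * d' = gc B / ((Q : ℝ) : ℂ))
    (hC : a = gc C / ((Q : ℝ) : ℂ)) (hD : a + m * d = gc D / ((Q : ℝ) : ℂ))
    (h : segOK A B C D = true) {p : ℤ} {q : ℕ} (hq : 0 < q) (hm : m * m' = (p : ℝ) / q) :
    Enc (Potx943.mutE a d m a' d' m') (mulQ p q (subI (segI A B C D) (logN Q))) := by
  have hQr : (0 : ℝ) < Q := by exact_mod_cast hQ
  have hAB : gc B - gc A ≠ 0 := by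
    have h' := h
    unfold segOK at h'
    simp only [Bool.and_eq_true, decide_eq_true_eq] at h'
    rw [Ne, ← Complex.normSq_eq_zero]
    have : Complex.normSq (gc B - gc A) = ((sqN (B.1 - A.1) (B.2 - A.2) : ℕ) : ℝ) := by
      rw [sqN_cast, Complex.normSq_apply]; simp; ring
    rw [this]; exact_mod_cast h'.1.1
  rw [mutE_eq_segE, hB, hD, hA, hC, segE_scale _ _ hQr hAB, hm]
  exact ((enc_segE h).sub (enc_logN hQ)).mulQ p hq

end Crest.Agent.R006.NumSegx464
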