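import Mathlib

/-!
# Row 6: the segment potential `Phi` along lines (helper179)

`Phi u v = u/2 log(u²+v²) + v arctan(u/v) - u`; `∫_0^1 log|ζ - t| dt = Phi ξ η - Phi (ξ-1) η`.
Derivatives along affine lines, continuity, second order Taylor bound, singular end points.
-/

set_option autoImplicit false

namespace Crest.Agent.R006.NumPhix179

open Set

/-- antiderivative of `log |u + i v|` in `u` -/
noncomputable def Phi (u v : ℝ) : ℝ :=
  u / 2 * Real.log (u ^ 2 + v ^ 2) + v * Real.arctan (u / v) - u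

lemma Phi_even (u v : ℝ) : Phi u (-v) = Phi u v := by
  unfold Phi
  rw [div_neg, Real.arctan_neg]; ring

lemma Phi_odd (u v : ℝ) : Phi (-u) v = - Phi u v := by
  unfold Phi
  rw [neg_div v u, Real.arctan_neg]; ring

/-- first derivative of `t ↦ Phi (a+b t) (c + d t)` -/
noncomputable def D1 (a b c d t : ℝ) : ℝ :=
  b * (1 / 2 * Real.log ((a + b * t) ^ 2 + (c + d * t) ^ 2)) +
    d * Real.arctan ((a + b * t) / (c + d * t))

/-- second derivative -/
noncomputable def D2 (a b c d t : ℝ) : ℝ :=
  (b ^ 2 * (a + b * t) + 2 * b * d * (c + d * t) - d ^ 2 * (a + b * t)) /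
    ((a + b * t) ^ 2 + (c + d * t) ^ 2)

lemma hasDerivAt_Phi {a b c d t : ℝ} (h : c + d * t ≠ 0 ∨ (c = 0 ∧ d = 0 ∧ a + b * t ≠ 0)) :
    HasDerivAt (fun t => Phi (a + b * t) (c + d * t)) (D1 a b c d t) t := by
  have hu : HasDerivAt (fun t : ℝ => a + b * t) b t := by
    simpa using ((hasDerivAt_id t).const_mul b).const_add a
  have hv : HasDerivAt (fun t : ℝ => c + d * t) d t := by
    simpa using ((hasDerivAt_id t).const_mul d).const_add c
  have hne : (a + b * t) ^ 2 + (c + d * t) ^ 2 ≠ 0 := by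
    rcases h with h | ⟨_, _, h⟩ <;> positivity
  have hs : HasDerivAt (fun t : ℝ => (a + b * t) ^ 2 + (c + d * t) ^ 2)
      (2 * (a + b * t) * b + 2 * (c + d * t) * d) t := by
    refine ((hu.fun_pow 2).fun_add (hv.fun_pow 2)).congr_deriv ?_
    push_cast; ring
  have hl := hs.log hne
  rcases h with h | ⟨hc, hd, h⟩
  · have hq : HasDerivAt (fun t : ℝ => (a + b * t) / (c + d * t))
        ((b * (c + d * t) - (a + b * t) * d) / (c + d * t) ^ 2) t := hu.div hv h
    have hat := hq.arctan
    have := (((hu.div_const 2).fun_mul hl).fun_add (hv.fun_mul hat)).fun_sub hu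
    refine this.congr_deriv ?_
    unfold D1
    clear this hat hq hl hs hu hv
    generalize a + b * t = u at *
    generalize c + d * t = v at *
    have h1 : 1 + (u / v) ^ 2 = (u ^ 2 + v ^ 2) / v ^ 2 := by
      field_simp; ring
    rw [h1]
    field_simp
    ring
  · subst hc hd
    have := ((hu.div_const 2).fun_mul hl).fun_sub hu
    have e : (fun t : ℝ => Phi (a + b * t) (0 + 0 * t)) =
        fun t => (a + b * t) / 2 * Real.log ((a + b * t) ^ 2 + (0 + 0 * t) ^ 2) - (a + b * t) := by
      funext t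
      unfold Phi
      simp
    rw [e]
    refine this.congr_deriv ?_
    unfold D1
    clear this hl hs hu hv e
    simp only [zero_mul, add_zero] at *
    generalize a + b * t = u at *
    field_simp
    ring

lemma hasDerivAt_D1 {a b c d t : ℝ} (h : c + d * t ≠ 0 ∨ (c = 0 ∧ d = 0 ∧ a + b * t ≠ 0)) :
    HasDerivAt (D1 a b c d) (D2 a b c d t) t := by
  have hu : HasDerivAt (fun t : ℝ => a + b * t) b t := by
    simpa using ((hasDerivAt_id t).const_mul b).const_add a
  have hv : HasDerivAt (fun t : ℝ => c + d * t) d t := by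
    simpa using ((hasDerivAt_id t).const_mul d).const_add c
  have hne : (a + b * t) ^ 2 + (c + d * t) ^ 2 ≠ 0 := by
    rcases h with h | ⟨_, _, h⟩ <;> positivity
  have hs : HasDerivAt (fun t : ℝ => (a + b * t) ^ 2 + (c + d * t) ^ 2)
      (2 * (a + b * t) * b + 2 * (c + d * t) * d) t := by
    refine ((hu.fun_pow 2).fun_add (hv.fun_pow 2)).congr_deriv ?_
    push_cast; ring
  have hl := (hs.log hne).const_mul (1/2 : ℝ) |>.const_mul b
  rcases h with h | ⟨hc, hd, h⟩
  · have hq : HasDerivAt (fun t : ℝ => (a + b * t) / (c + d * t))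
        ((b * (c + d * t) - (a + b * t) * d) / (c + d * t) ^ 2) t := hu.div hv h
    have hat := hq.arctan.const_mul d
    have := hl.fun_add hat
    refine this.congr_deriv ?_
    unfold D2
    clear this hat hq hl hs hu hv
    generalize a + b * t = u at *
    generalize c + d * t = v at *
    have h1 : 1 + (u / v) ^ 2 = (u ^ 2 + v ^ 2) / v ^ 2 := by
      field_simp; ring
    rw [h1]
    field_simp
    ring
  · subst hc hd
    have e : D1 a b 0 0 = fun t => b * (1/2 * Real.log ((a + b * t) ^ 2 + (0 + 0 * t) ^ 2)) := by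
      funext t
      unfold D1
      simp
    rw [e]
    refine hl.congr_deriv ?_
    unfold D2
    clear hl hs hu hv e
    simp only [zero_mul, add_zero] at *
    generalize a + b * t = u at *
    field_simp
    ring

lemma abs_D2_le {a b c d t R : ℝ} (hR : 0 < R) (h : R ^ 2 ≤ (a + b * t) ^ 2 + (c + d * t) ^ 2) :
    |D2 a b c d t| ≤ (b ^ 2 + d ^ 2) / R := by
  set u := a + b * t
  set v := c + d * t
  have hpos : 0 < u ^ 2 + v ^ 2 := lt_of_lt_of_le (by positivity) h
  unfold D2
  rw [abs_div, abs_of_pos hpos, div_le_div_iff₀ hpos hR]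
  change |b ^ 2 * u + 2 * b * d * v - d ^ 2 * u| * R ≤ (b ^ 2 + d ^ 2) * (u ^ 2 + v ^ 2)
  have h1 : (b ^ 2 * u + 2 * b * d * v - d ^ 2 * u) ^ 2 ≤ (b ^ 2 + d ^ 2) ^ 2 * (u ^ 2 + v ^ 2) := by
    nlinarith [sq_nonneg ((b ^ 2 - d ^ 2) * v - 2 * b * d * u)]
  have h2 : |b ^ 2 * u + 2 * b * d * v - d ^ 2 * u| * R ≤
      Real.sqrt ((b ^ 2 + d ^ 2) ^ 2 * (u ^ 2 + v ^ 2)) * Real.sqrt (u ^ 2 + v ^ 2) := by
    apply mul_le_mul
    · exact Real.abs_le_sqrt h1
    · exact Real.le_sqrt_of_sq_le h
    · exact hR.le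
    · positivity
  refine h2.trans (le_of_eq ?_)
  rw [← Real.sqrt_mul (by positivity)]
  rw [show (b ^ 2 + d ^ 2) ^ 2 * (u ^ 2 + v ^ 2) * (u ^ 2 + v ^ 2) =
    ((b ^ 2 + d ^ 2) * (u ^ 2 + v ^ 2)) ^ 2 by ring]
  exact Real.sqrt_sq (by positivity)

/-- continuity of `v arctan (u/v)` (at `v = 0` too) -/
lemma continuous_vatan {f g : ℝ → ℝ} {t : ℝ} (hf : ContinuousAt f t) (hg : ContinuousAt g t) :
    ContinuousAt (fun t => g t * Real.arctan (f t / g t)) t := by
  by_cases h : g t = 0
  · have e : g t * Real.arctan (f t / g t) = 0 := by rw [h]; simp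
    unfold ContinuousAt
    show Filter.Tendsto _ _ (nhds (g t * Real.arctan (f t / g t)))
    rw [e]
    have hb : ∀ s, |g s * Real.arctan (f s / g s)| ≤ |g s| * 2 := by
      intro s
      rw [abs_mul]
      apply mul_le_mul_of_nonneg_left _ (abs_nonneg _)
      have h1 := Real.arctan_lt_pi_div_two (f s / g s)
      have h2 := Real.neg_pi_div_two_lt_arctan (f s / g s)
      have h3 := Real.pi_lt_d2
      rw [abs_le]
      constructor <;> linarith
    have hz : Filter.Tendsto (fun s => |g s| * 2) (nhds t) (nhds 0) := by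
      have := (hg.abs.mul_const 2)
      unfold ContinuousAt at this
      simpa [h] using this
    exact squeeze_zero_norm (fun s => by rw [Real.norm_eq_abs]; exact hb s) hz
  · exact hg.mul (Real.continuous_arctan.continuousAt.comp (hf.div hg h))

lemma continuousAt_Phi {a b c d t : ℝ} (h : (a + b * t) ^ 2 + (c + d * t) ^ 2 ≠ 0) :
    ContinuousAt (fun t => Phi (a + b * t) (c + d * t)) t := by
  unfold Phi
  have hu : ContinuousAt (fun t : ℝ => a + b * t) t := by fun_prop
  have hv : ContinuousAt (fun t : ℝ => c + d * t) t := by fun_prop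
  have hl : ContinuousAt (fun t : ℝ => Real.log ((a + b * t) ^ 2 + (c + d * t) ^ 2)) t :=
    ContinuousAt.log (by fun_prop) h
  exact (((hu.div_const 2).mul hl).add (continuous_vatan hu hv)).sub hu

/-- second order Taylor upper bound from the inside of a cell -/
lemma taylor2 {f f1 f2 : ℝ → ℝ} {l r m M : ℝ} (hlm : l < m) (hmr : m < r)
    (hc : ContinuousOn f (Icc l r)) (h1 : ∀ t ∈ Ioo l r, HasDerivAt f (f1 t) t)
    (h2 : ∀ t ∈ Ioo l r, HasDerivAt f1 (f2 t) t) (hM : ∀ t ∈ Ioo l r, f2 t ≤ M) :
    ∀ t ∈ Icc l r, f t ≤ f m + f1 m * (t - m) + M / 2 * (t - m) ^ 2 := by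
  -- `f1 t - M t` is antitone on the open interval
  have hm : m ∈ Ioo l r := ⟨hlm, hmr⟩
  have hA : AntitoneOn (fun t => f1 t - M * t) (Ioo l r) := by
    apply antitoneOn_of_deriv_nonpos (convex_Ioo l r)
    · intro t ht
      exact ((h2 t ht).continuousAt.sub (by fun_prop)).continuousWithinAt
    · intro t ht
      rw [interior_Ioo] at ht
      exact ((h2 t ht).sub ((hasDerivAt_id t).const_mul M)).differentiableAt.differentiableWithinAt
    · intro t ht
      rw [interior_Ioo] at ht
      have := ((h2 t ht).sub ((hasDerivAt_id t).const_mul M)).deriv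
      simp only [id, mul_one] at this
      have e : (fun t => f1 t - M * t) = f1 - fun y => M * y := rfl
      rw [e, this]
      linarith [hM t ht]
  set g : ℝ → ℝ := fun t => f t - (f m + f1 m * (t - m) + M / 2 * (t - m) ^ 2) with hg
  have hgd : ∀ t ∈ Ioo l r, HasDerivAt g (f1 t - (f1 m + M * (t - m))) t := by
    intro t ht
    have e1 : HasDerivAt (fun t : ℝ => f m + f1 m * (t - m) + M / 2 * (t - m) ^ 2)
        (f1 m + M * (t - m)) t := by
      have ht1 : HasDerivAt (fun t : ℝ => t - m) 1 t := (hasDerivAt_id t).sub_const m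
      have := ((ht1.const_mul (f1 m)).const_add (f m)).add ((ht1.pow 2).const_mul (M/2))
      refine this.congr_deriv ?_
      push_cast; ring
    exact (h1 t ht).sub e1
  have hgc : ContinuousOn g (Icc l r) := by
    apply hc.sub
    fun_prop
  have hgm : g m = 0 := by simp [hg]
  intro t ht
  suffices g t ≤ 0 by
    have : g t = f t - (f m + f1 m * (t - m) + M / 2 * (t - m) ^ 2) := rfl
    linarith
  rcases le_total t m with htm | htm
  · -- monotone on [l, m]
    have hmon : MonotoneOn g (Icc l m) := by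
      apply monotoneOn_of_deriv_nonneg (convex_Icc l m)
        (hgc.mono (Icc_subset_Icc le_rfl hmr.le))
      · intro s hs
        rw [interior_Icc] at hs
        exact (hgd s ⟨hs.1, hs.2.trans hmr⟩).differentiableAt.differentiableWithinAt
      · intro s hs
        rw [interior_Icc] at hs
        rw [(hgd s ⟨hs.1, hs.2.trans hmr⟩).deriv]
        have := hA ⟨hs.1, hs.2.trans hmr⟩ hm hs.2.le
        simp only at this
        linarith
    have := hmon ⟨ht.1, htm⟩ ⟨hlm.le, le_rfl⟩ htm
    linarith
  · have hmon : AntitoneOn g (Icc m r) := by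
      apply antitoneOn_of_deriv_nonpos (convex_Icc m r)
        (hgc.mono (Icc_subset_Icc hlm.le le_rfl))
      · intro s hs
        rw [interior_Icc] at hs
        exact (hgd s ⟨hlm.trans hs.1, hs.2⟩).differentiableAt.differentiableWithinAt
      · intro s hs
        rw [interior_Icc] at hs
        rw [(hgd s ⟨hlm.trans hs.1, hs.2⟩).deriv]
        have := hA hm ⟨hlm.trans hs.1, hs.2⟩ hs.1.le
        simp only at this
        linarith
    have := hmon ⟨le_rfl, hmr.le⟩ ⟨htm, ht.2⟩ htm
    linarith

end Crest.Agent.R006.NumPhix179
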