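import Mathlib
import Crest.Agent.R006.NumLog_179
import Crest.Agent.R006.NumAtan_179
import Crest.Agent.R006.NumPhi_179

/-!
# Row 6: THE CELL CHECKER (helper179)

`G α β ts T = α + β T + Σ c Φ(a + b T, p + q T)`. `checkCells` (kernel, `decide +kernel`) implies
`2^49 * G T ≤ B` for all real `T` in the covered interval.
-/

set_option autoImplicit false

namespace Crest.Agent.R006.NumCellx179

open Set Crest.Agent.R006.NumLogx179 Crest.Agent.R006.NumAtanx179 Crest.Agent.R006.NumPhix179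

/-- a term `c Φ(a + b T, p + q T)` -/
structure Tm where
  c : ℤ
  a : ℤ
  b : ℤ
  p : ℤ
  q : ℤ

/-- real value of a term -/
noncomputable def Tm.val (t : Tm) (T : ℝ) : ℝ :=
  t.c * Phi (t.a + t.b * T) (t.p + t.q * T)

lemma nn_pos {U : ℤ} (h : 0 ≤ U) : ((U.natAbs : ℕ) : ℝ) = U := by
  rw [Nat.cast_natAbs, Int.cast_abs, abs_of_nonneg]
  exact_mod_cast h

lemma nn_neg {U : ℤ} (h : U ≤ 0) : ((U.natAbs : ℕ) : ℝ) = -(U:ℝ) := by
  rw [Nat.cast_natAbs, Int.cast_abs, abs_of_nonpos]
  exact_mod_cast h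

/-- signed arctan -/
def atZ (U V : ℤ) : ℤ := U.sign * V.sign * (atQ U.natAbs V.natAbs : ℤ)

lemma atZ_bound (U V : ℤ) :
    |281474976710656 * Real.arctan ((U:ℝ)/V) - atZ U V| ≤ 15 := by
  unfold atZ
  rcases lt_trichotomy V 0 with hV | hV | hV
  · have h1 : 0 < V.natAbs := Int.natAbs_pos.2 hV.ne
    have hb := atQ_bound (u := U.natAbs) h1
    have hVr : ((V.natAbs : ℕ) : ℝ) = -(V:ℝ) := nn_neg hV.le
    generalize atQ U.natAbs V.natAbs = A at *
    rw [hVr] at hb
    rw [Int.sign_eq_neg_one_of_neg hV]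
    rcases lt_trichotomy U 0 with hU | hU | hU
    · have hUr : ((U.natAbs : ℕ) : ℝ) = -(U:ℝ) := nn_neg hU.le
      rw [hUr, neg_div_neg_eq] at hb
      rw [Int.sign_eq_neg_one_of_neg hU]
      simpa using hb
    · subst hU
      simp
    · have hUr : ((U.natAbs : ℕ) : ℝ) = (U:ℝ) := nn_pos hU.le
      rw [hUr, div_neg, Real.arctan_neg] at hb
      rw [Int.sign_eq_one_of_pos hU]
      rw [abs_le] at hb ⊢
      push_cast
      constructor <;> linarith [hb.1, hb.2]
  · subst hV
    simp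
  · have h1 : 0 < V.natAbs := Int.natAbs_pos.2 hV.ne'
    have hb := atQ_bound (u := U.natAbs) h1
    have hVr : ((V.natAbs : ℕ) : ℝ) = (V:ℝ) := nn_pos hV.le
    generalize atQ U.natAbs V.natAbs = A at *
    rw [hVr] at hb
    rw [Int.sign_eq_one_of_pos hV]
    rcases lt_trichotomy U 0 with hU | hU | hU
    · have hUr : ((U.natAbs : ℕ) : ℝ) = -(U:ℝ) := nn_neg hU.le
      rw [hUr, neg_div, Real.arctan_neg] at hb
      rw [Int.sign_eq_neg_one_of_neg hU]
      rw [abs_le] at hb ⊢
      push_cast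
      constructor <;> linarith [hb.1, hb.2]
    · subst hU
      simp
    · have hUr : ((U.natAbs : ℕ) : ℝ) = (U:ℝ) := nn_pos hU.le
      rw [hUr] at hb
      rw [Int.sign_eq_one_of_pos hU]
      simpa using hb

/-- quadratic majorant with integer data: `A` value at the midpoint, `B` slope, `K` curvature,
all scaled by `2^49`, errors `eA`, `eB`. -/
def TB (f : ℝ → ℝ) (l m r : ℝ) (A B : ℤ) (K eA eB : ℕ) : Prop :=
  ∃ A' B' M' : ℝ, (∀ T ∈ Icc l r, f T ≤ A' + B' * (T - m) + M' * (T - m) ^ 2) ∧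
    |562949953421312 * A' - A| ≤ eA ∧ |562949953421312 * B' - B| ≤ eB ∧ 0 ≤ M' ∧
    562949953421312 * M' ≤ K

lemma TB.add {f g : ℝ → ℝ} {l m r : ℝ} {A B A2 B2 : ℤ} {K eA eB K2 eA2 eB2 : ℕ}
    (h : TB f l m r A B K eA eB) (h' : TB g l m r A2 B2 K2 eA2 eB2) :
    TB (fun T => f T + g T) l m r (A + A2) (B + B2) (K + K2) (eA + eA2) (eB + eB2) := by
  obtain ⟨a, b, M, h1, h2, h3, h4, h5⟩ := h
  obtain ⟨a', b', M', h1', h2', h3', h4', h5'⟩ := h'
  refine ⟨a + a', b + b', M + M', ?_, ?_, ?_, by linarith, ?_⟩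
  · intro T hT
    have := h1 T hT
    have := h1' T hT
    nlinarith
  · rw [abs_le] at *
    push_cast
    constructor <;> linarith [h2.1, h2.2, h2'.1, h2'.2]
  · rw [abs_le] at *
    push_cast
    constructor <;> linarith [h3.1, h3.2, h3'.1, h3'.2]
  · push_cast
    linarith

lemma TB.final {f : ℝ → ℝ} {l m r : ℝ} {A B : ℤ} {K eA eB h : ℕ}
    (H : TB f l m r A B K eA eB) (hl : l = m - h) (hr : r = m + h) {T : ℝ} (hT : T ∈ Icc l r) :
    562949953421312 * f T ≤ ((A + eA + (B.natAbs + eB : ℕ) * h + (K * h ^ 2 : ℕ) : ℤ) : ℝ) := by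
  obtain ⟨a, b, M, h1, h2, h3, h4, h5⟩ := H
  have h6 := h1 T hT
  subst hl hr
  have hT1 : |T - m| ≤ h := by
    rw [abs_le]; constructor <;> linarith [hT.1, hT.2]
  have hh : (0:ℝ) ≤ h := Nat.cast_nonneg h
  have h7 : b * (T - m) ≤ |b| * h := by
    calc b * (T - m) ≤ |b * (T - m)| := le_abs_self _
      _ = |b| * |T - m| := abs_mul _ _
      _ ≤ |b| * h := mul_le_mul_of_nonneg_left hT1 (abs_nonneg _)
  have h8 : (T - m) ^ 2 ≤ (h:ℝ) ^ 2 := by
    rw [← sq_abs]
    exact pow_le_pow_left₀ (abs_nonneg _) hT1 2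
  have h9 : M * (T - m) ^ 2 ≤ M * (h:ℝ) ^ 2 := mul_le_mul_of_nonneg_left h8 h4
  have h10 : 562949953421312 * |b| ≤ (B.natAbs : ℝ) + eB := by
    have e1 : |562949953421312 * b| ≤ |(B:ℝ)| + eB := by
      calc |562949953421312 * b| = |(562949953421312 * b - B) + B| := by ring_nf
        _ ≤ |562949953421312 * b - B| + |(B:ℝ)| := abs_add_le _ _
        _ ≤ |(B:ℝ)| + eB := by linarith
    rw [abs_mul, abs_of_pos (by norm_num : (0:ℝ) < 562949953421312)] at e1
    have e2 : |(B:ℝ)| = (B.natAbs : ℝ) := by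
      rw [Nat.cast_natAbs, Int.cast_abs]
    rw [e2] at e1
    exact e1
  have h11 : 562949953421312 * |b| * h ≤ ((B.natAbs : ℝ) + eB) * h :=
    mul_le_mul_of_nonneg_right h10 hh
  have h12 : 562949953421312 * M * (h:ℝ)^2 ≤ K * (h:ℝ)^2 :=
    mul_le_mul_of_nonneg_right h5 (by positivity)
  rw [abs_le] at h2
  have h13 : 562949953421312 * f T ≤ 562949953421312 * a + 562949953421312 * |b| * h +
      562949953421312 * M * (h:ℝ)^2 := by nlinarith
  rw [Int.cast_add, Int.cast_add, Int.cast_add, Int.cast_mul]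
  push_cast
  simp only [Nat.cast_natAbs, Int.cast_abs] at *
  linarith [h2.1, h2.2]

/-- radius: lower bound for the distance to the singularity on the cell -/
def rad (h : ℕ) (b q U V : ℤ) : ℕ :=
  bif Nat.ble (U.natAbs - h * b.natAbs) (V.natAbs - h * q.natAbs)
    then V.natAbs - h * q.natAbs else U.natAbs - h * b.natAbs

/-- regularity test -/
def regOK (h : ℕ) (b q U V : ℤ) : Bool :=
  (bif V.natAbs == 0 then q.natAbs == 0 else Nat.ble (h * q.natAbs) V.natAbs) &&
    !(rad h b q U V == 0)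

/-- `2^49 Φ(U,V)` -/
def phiZ (U V : ℤ) : ℤ :=
  U * (lnN (U.natAbs * U.natAbs + V.natAbs * V.natAbs) : ℤ) + 2 * (V * atZ U V)
    - 562949953421312 * U

/-- error of `2^48 log(U²+V²)` -/
def eL (n : ℕ) : ℕ := 20 * (n.log2 + 1)

lemma cast_sq_natAbs (U : ℤ) : ((U.natAbs * U.natAbs : ℕ) : ℝ) = (U:ℝ)^2 := by
  rw [Nat.cast_mul, Nat.cast_natAbs, Int.cast_abs, ← sq, sq_abs]

lemma lnZ_bound {U V : ℤ} (h : 0 < U.natAbs * U.natAbs + V.natAbs * V.natAbs) :
    |281474976710656 * Real.log ((U:ℝ)^2 + (V:ℝ)^2) -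
      (lnN (U.natAbs * U.natAbs + V.natAbs * V.natAbs) : ℕ)| ≤
      eL (U.natAbs * U.natAbs + V.natAbs * V.natAbs) := by
  have hb := lnN_bound h
  have e : ((U.natAbs * U.natAbs + V.natAbs * V.natAbs : ℕ) : ℝ) = (U:ℝ)^2 + (V:ℝ)^2 := by
    rw [Nat.cast_add, cast_sq_natAbs, cast_sq_natAbs]
  rw [e] at hb
  generalize lnN (U.natAbs * U.natAbs + V.natAbs * V.natAbs) = A at *
  unfold eL
  push_cast at hb ⊢
  rw [abs_le]
  constructor <;> linarith [hb.1, hb.2]

lemma phiZ_bound {U V : ℤ} (h : 0 < U.natAbs * U.natAbs + V.natAbs * V.natAbs) :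
    |562949953421312 * Phi U V - phiZ U V| ≤
      (U.natAbs * eL (U.natAbs * U.natAbs + V.natAbs * V.natAbs) + 30 * V.natAbs : ℕ) := by
  have h1 := lnZ_bound h
  have h2 := atZ_bound U V
  unfold phiZ Phi
  generalize lnN (U.natAbs * U.natAbs + V.natAbs * V.natAbs) = X at *
  generalize eL (U.natAbs * U.natAbs + V.natAbs * V.natAbs) = E at *
  generalize atZ U V = Y at *
  have e : 562949953421312 * ((U:ℝ) / 2 * Real.log ((U:ℝ)^2 + (V:ℝ)^2) + V * Real.arctan ((U:ℝ)/V) - U) -
      ((U * (X:ℤ) + 2 * (V * Y) - 562949953421312 * U : ℤ) : ℝ) =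
      U * (281474976710656 * Real.log ((U:ℝ)^2 + (V:ℝ)^2) - X) +
        2 * V * (281474976710656 * Real.arctan ((U:ℝ)/V) - Y) := by
    push_cast; ring
  rw [e]
  refine (abs_add_le _ _).trans ?_
  rw [abs_mul, abs_mul, abs_mul]
  have hU : |(U:ℝ)| = U.natAbs := by rw [Nat.cast_natAbs, Int.cast_abs]
  have hV : |(V:ℝ)| = V.natAbs := by rw [Nat.cast_natAbs, Int.cast_abs]
  rw [hU, hV, abs_of_pos (by norm_num : (0:ℝ) < 2)]
  have hU0 : (0:ℝ) ≤ U.natAbs := Nat.cast_nonneg _
  have hV0 : (0:ℝ) ≤ V.natAbs := Nat.cast_nonneg _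
  have m1 := mul_le_mul_of_nonneg_left h1 hU0
  have m2 := mul_le_mul_of_nonneg_left h2 hV0
  push_cast
  push_cast at m1 m2
  simp only [Nat.cast_natAbs, Int.cast_abs] at *
  linarith

/-- `2^49 D1` at a point with coordinates `U, V`: `b log(U²+V²) + 2 q arctan(U/V)` -/
def dZ (b q U V : ℤ) : ℤ :=
  b * (lnN (U.natAbs * U.natAbs + V.natAbs * V.natAbs) : ℤ) + 2 * (q * atZ U V)

lemma dZ_bound {b q U V : ℤ} (h : 0 < U.natAbs * U.natAbs + V.natAbs * V.natAbs) :
    |562949953421312 * (b * (1 / 2 * Real.log ((U:ℝ)^2 + (V:ℝ)^2)) + q * Real.arctan ((U:ℝ)/V))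
      - dZ b q U V| ≤
      (b.natAbs * eL (U.natAbs * U.natAbs + V.natAbs * V.natAbs) + 30 * q.natAbs : ℕ) := by
  have h1 := lnZ_bound h
  have h2 := atZ_bound U V
  unfold dZ
  generalize lnN (U.natAbs * U.natAbs + V.natAbs * V.natAbs) = X at *
  generalize eL (U.natAbs * U.natAbs + V.natAbs * V.natAbs) = E at *
  generalize atZ U V = Y at *
  have e : 562949953421312 * (b * (1 / 2 * Real.log ((U:ℝ)^2 + (V:ℝ)^2)) + q * Real.arctan ((U:ℝ)/V)) -
      ((b * (X:ℤ) + 2 * (q * Y) : ℤ) : ℝ) =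
      b * (281474976710656 * Real.log ((U:ℝ)^2 + (V:ℝ)^2) - X) +
        2 * q * (281474976710656 * Real.arctan ((U:ℝ)/V) - Y) := by
    push_cast; ring
  rw [e]
  refine (abs_add_le _ _).trans ?_
  rw [abs_mul, abs_mul, abs_mul]
  have hU : |(b:ℝ)| = b.natAbs := by rw [Nat.cast_natAbs, Int.cast_abs]
  have hV : |(q:ℝ)| = q.natAbs := by rw [Nat.cast_natAbs, Int.cast_abs]
  rw [hU, hV, abs_of_pos (by norm_num : (0:ℝ) < 2)]
  have hU0 : (0:ℝ) ≤ b.natAbs := Nat.cast_nonneg _
  have hV0 : (0:ℝ) ≤ q.natAbs := Nat.cast_nonneg _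
  have m1 := mul_le_mul_of_nonneg_left h1 hU0
  have m2 := mul_le_mul_of_nonneg_left h2 hV0
  push_cast
  push_cast at m1 m2
  simp only [Nat.cast_natAbs, Int.cast_abs] at *
  linarith

lemma natAbs_cast_abs (U : ℤ) : ((U.natAbs : ℕ) : ℝ) = |(U:ℝ)| := by
  rw [Nat.cast_natAbs, Int.cast_abs]

/-- regular term -/
lemma reg_TB {c a b p q m : ℤ} {h : ℕ} (hh : 0 < h)
    (hok : regOK h b q (a + b * m) (p + q * m) = true) :
    TB (Tm.val ⟨c, a, b, p, q⟩) (m - h) m (m + h)
      (c * phiZ (a + b * m) (p + q * m)) (c * dZ b q (a + b * m) (p + q * m))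
      (c.natAbs * (b.natAbs * b.natAbs + q.natAbs * q.natAbs) * 281474976710656 /
        rad h b q (a + b * m) (p + q * m) + 1)
      (c.natAbs * ((a + b * m).natAbs * eL ((a + b * m).natAbs * (a + b * m).natAbs +
        (p + q * m).natAbs * (p + q * m).natAbs) + 30 * (p + q * m).natAbs))
      (c.natAbs * (b.natAbs * eL ((a + b * m).natAbs * (a + b * m).natAbs +
        (p + q * m).natAbs * (p + q * m).natAbs) + 30 * q.natAbs)) := by
  set U := a + b * m with hU
  set V := p + q * m with hV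
  have hUr : (U:ℝ) = a + b * m := by rw [hU]; push_cast; ring
  have hVr : (V:ℝ) = p + q * m := by rw [hV]; push_cast; ring
  have hhr : (0:ℝ) < h := by exact_mod_cast hh
  unfold regOK at hok
  rw [Bool.and_eq_true] at hok
  obtain ⟨ok1, ok2⟩ := hok
  set R := rad h b q U V with hR
  have hR0 : 0 < R := by
    rcases Nat.eq_zero_or_pos R with h0 | h0
    · rw [h0] at ok2; simp at ok2
    · exact h0
  have hRr : (0:ℝ) < R := by exact_mod_cast hR0
  -- the v-condition
  have hv : (∀ T : ℝ, |T - m| < h → (p:ℝ) + q * T ≠ 0) ∨ ((p:ℝ) = 0 ∧ (q:ℝ) = 0) := by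
    by_cases hV0 : V = 0
    · have : q = 0 := by
        simp [hV0] at ok1
        exact ok1
      right
      rw [hV0, this] at hVr
      rw [this]
      push_cast at hVr ⊢
      constructor
      · linarith
      · rfl
    · left
      have hne : ¬ (V.natAbs == 0) = true := by simpa using hV0
      rw [Bool.not_eq_true] at hne
      rw [hne, cond_false] at ok1
      have h1 := Nat.le_of_ble_eq_true ok1
      have h1r : (h:ℝ) * |(q:ℝ)| ≤ |(V:ℝ)| := by
        rw [← natAbs_cast_abs, ← natAbs_cast_abs]; exact_mod_cast h1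
      have hVpos : 0 < |(V:ℝ)| := abs_pos.2 (by exact_mod_cast hV0)
      intro T hT hz
      have e1 : (V:ℝ) = -(q * (T - m)) := by rw [hVr]; linarith
      have e2 : |(V:ℝ)| = |(q:ℝ)| * |T - m| := by rw [e1, abs_neg, abs_mul]
      rcases eq_or_lt_of_le (abs_nonneg (q:ℝ)) with hq0 | hq0
      · rw [← hq0] at e2; linarith [e2 ▸ hVpos]
      · nlinarith
  -- the radius
  have hrad : ∀ T : ℝ, |T - m| ≤ h → (R:ℝ)^2 ≤ (a + b * T)^2 + (p + q * T)^2 := by
    intro T hT
    have hcase : R = U.natAbs - h * b.natAbs ∨ R = V.natAbs - h * q.natAbs := by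
      rw [hR]; unfold rad
      cases Nat.ble (U.natAbs - h * b.natAbs) (V.natAbs - h * q.natAbs)
      · left; rfl
      · right; rfl
    rcases hcase with hc | hc
    · have h1 : (R:ℝ) + h * |(b:ℝ)| ≤ |(U:ℝ)| := by
        rw [← natAbs_cast_abs, ← natAbs_cast_abs]
        have : R + h * b.natAbs ≤ U.natAbs := by omega
        exact_mod_cast this
      have e1 : (a:ℝ) + b * T = U + b * (T - m) := by rw [hUr]; ring
      have h2 : (R:ℝ) ≤ |(a:ℝ) + b * T| := by
        rw [e1]
        have h3 := abs_sub_abs_le_abs_sub (U:ℝ) (-(b * (T - m)))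
        rw [abs_neg, abs_mul, sub_neg_eq_add] at h3
        have : |(b:ℝ)| * |T - m| ≤ h * |(b:ℝ)| := by
          rw [mul_comm]; exact mul_le_mul_of_nonneg_right hT (abs_nonneg _)
        linarith
      have h4 : (R:ℝ)^2 ≤ |(a:ℝ) + b * T|^2 := pow_le_pow_left₀ hRr.le h2 2
      rw [sq_abs] at h4
      nlinarith [sq_nonneg ((p:ℝ) + q * T)]
    · have h1 : (R:ℝ) + h * |(q:ℝ)| ≤ |(V:ℝ)| := by
        rw [← natAbs_cast_abs, ← natAbs_cast_abs]
        have : R + h * q.natAbs ≤ V.natAbs := by omega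
        exact_mod_cast this
      have e1 : (p:ℝ) + q * T = V + q * (T - m) := by rw [hVr]; ring
      have h2 : (R:ℝ) ≤ |(p:ℝ) + q * T| := by
        rw [e1]
        have h3 := abs_sub_abs_le_abs_sub (V:ℝ) (-(q * (T - m)))
        rw [abs_neg, abs_mul, sub_neg_eq_add] at h3
        have : |(q:ℝ)| * |T - m| ≤ h * |(q:ℝ)| := by
          rw [mul_comm]; exact mul_le_mul_of_nonneg_right hT (abs_nonneg _)
        linarith
      have h4 : (R:ℝ)^2 ≤ |(p:ℝ) + q * T|^2 := pow_le_pow_left₀ hRr.le h2 2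
      rw [sq_abs] at h4
      nlinarith [sq_nonneg ((a:ℝ) + b * T)]
  have hn : 0 < U.natAbs * U.natAbs + V.natAbs * V.natAbs := by
    have h1 := hrad m (by simp)
    rw [← hUr, ← hVr] at h1
    have h2 : (0:ℝ) < ((U.natAbs * U.natAbs + V.natAbs * V.natAbs : ℕ) : ℝ) := by
      rw [Nat.cast_add, cast_sq_natAbs, cast_sq_natAbs]
      have : (0:ℝ) < (R:ℝ)^2 := by positivity
      linarith
    exact_mod_cast h2
  -- Taylor
  set M : ℝ := |(c:ℝ)| * (((b:ℝ)^2 + (q:ℝ)^2) / R) with hM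
  have hM0 : 0 ≤ M := by positivity
  have hcond : ∀ T ∈ Ioo ((m:ℝ) - h) (m + h), ((p:ℝ) + q * T ≠ 0 ∨ ((p:ℝ) = 0 ∧ (q:ℝ) = 0 ∧ (a:ℝ) + b * T ≠ 0)) := by
    intro T hT
    have hT' : |T - m| < h := by
      rw [abs_lt]; constructor <;> linarith [hT.1, hT.2]
    rcases hv with hv | ⟨hp, hq⟩
    · exact Or.inl (hv T hT')
    · right
      refine ⟨hp, hq, ?_⟩
      intro hz
      have := hrad T hT'.le
      rw [hz, hp, hq] at this
      have h5 : (0:ℝ) < (R:ℝ)^2 := by positivity
      nlinarith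
  have key := taylor2 (f := Tm.val ⟨c, a, b, p, q⟩) (f1 := fun T => c * D1 a b p q T)
    (f2 := fun T => c * D2 a b p q T) (l := (m:ℝ) - h) (r := m + h) (m := m) (M := M)
    (by linarith) (by linarith)
    (by
      intro T hT
      have hT' : |T - m| ≤ h := by
        rw [abs_le]; constructor <;> linarith [hT.1, hT.2]
      have hne : ((a:ℝ) + b * T)^2 + (p + q * T)^2 ≠ 0 := by
        have := hrad T hT'
        have h5 : (0:ℝ) < (R:ℝ)^2 := by positivity
        linarith
      exact ((continuousAt_Phi hne).const_mul (c:ℝ)).continuousWithinAt)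
    (by
      intro T hT
      exact (hasDerivAt_Phi (hcond T hT)).const_mul (c:ℝ))
    (by
      intro T hT
      exact (hasDerivAt_D1 (hcond T hT)).const_mul (c:ℝ))
    (by
      intro T hT
      have hT' : |T - m| ≤ h := by
        rw [abs_le]; constructor <;> linarith [hT.1, hT.2]
      refine (le_abs_self _).trans ?_
      rw [abs_mul, hM]
      exact mul_le_mul_of_nonneg_left (abs_D2_le hRr (hrad T hT')) (abs_nonneg _))
  refine ⟨c * Phi U V, c * (b * (1 / 2 * Real.log ((U:ℝ)^2 + (V:ℝ)^2)) + q * Real.arctan ((U:ℝ)/V)),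
    M / 2, ?_, ?_, ?_, by positivity, ?_⟩
  · intro T hT
    have := key T hT
    simp only [Tm.val, D1] at this ⊢
    rw [← hUr, ← hVr] at this
    exact this
  · have h1 := phiZ_bound hn
    have e : 562949953421312 * ((c:ℝ) * Phi U V) - ((c * phiZ U V : ℤ) : ℝ) =
        c * (562949953421312 * Phi U V - phiZ U V) := by push_cast; ring
    rw [e, abs_mul, ← natAbs_cast_abs, Nat.cast_mul]
    exact mul_le_mul_of_nonneg_left h1 (Nat.cast_nonneg _)
  · have h1 := dZ_bound (b := b) (q := q) hn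
    have e : 562949953421312 * ((c:ℝ) * (b * (1 / 2 * Real.log ((U:ℝ)^2 + (V:ℝ)^2)) + q * Real.arctan ((U:ℝ)/V)))
        - ((c * dZ b q U V : ℤ) : ℝ) =
        c * (562949953421312 * (b * (1 / 2 * Real.log ((U:ℝ)^2 + (V:ℝ)^2)) + q * Real.arctan ((U:ℝ)/V))
          - dZ b q U V) := by push_cast; ring
    rw [e, abs_mul, ← natAbs_cast_abs, Nat.cast_mul]
    exact mul_le_mul_of_nonneg_left h1 (Nat.cast_nonneg _)
  · have h1 := (lt_div' (c.natAbs * (b.natAbs * b.natAbs + q.natAbs * q.natAbs) * 281474976710656) R hR0).le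
    rw [Nat.cast_add, Nat.cast_one]
    refine le_trans (le_of_eq ?_) h1
    rw [hM]
    rw [Nat.cast_mul, Nat.cast_mul, Nat.cast_add, cast_sq_natAbs, cast_sq_natAbs, natAbs_cast_abs]
    push_cast
    ring

/-- singular term at the left end (`σ = 1`) or right end (`σ = -1`), real computation -/
lemma Phi_scale {b q t : ℝ} (ht : 0 < t) (hbq : b ^ 2 + q ^ 2 ≠ 0) :
    Phi (b * t) (q * t) = t * Phi b q + b * (t * Real.log t) := by
  unfold Phi
  have e1 : (b * t) ^ 2 + (q * t) ^ 2 = t ^ 2 * (b ^ 2 + q ^ 2) := by ring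
  rw [e1, Real.log_mul (by positivity) hbq, Real.log_pow]
  have e2 : b * t / (q * t) = b / q := by
    rw [mul_div_mul_right _ _ ht.ne']
  rw [e2]
  push_cast
  ring

/-- chord and tangent bounds for `t log t` on `[0, 2h]` -/
lemma tlog_chord {t h : ℝ} (ht : 0 ≤ t) (ht2 : t ≤ 2 * h) :
    t * Real.log t ≤ t * Real.log (2 * h) := by
  rcases eq_or_lt_of_le ht with h1 | h1
  · rw [← h1]; simp
  · exact mul_le_mul_of_nonneg_left (Real.log_le_log h1 ht2) ht

lemma tlog_tangent {t h : ℝ} (h0 : 0 < h) (ht : 0 ≤ t) :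
    h * Real.log h + (Real.log h + 1) * (t - h) ≤ t * Real.log t := by
  rcases eq_or_lt_of_le ht with h1 | h1
  · rw [← h1]; simp; linarith
  · have h2 := Real.log_le_sub_one_of_pos (div_pos h0 h1)
    rw [Real.log_div h0.ne' h1.ne'] at h2
    have h3 : t * (Real.log h - Real.log t) ≤ t * (h / t - 1) := mul_le_mul_of_nonneg_left h2 ht
    have h4 : t * (h / t - 1) = h - t := by field_simp
    rw [h4] at h3
    nlinarith

/-- which logarithm is used -/
def svL (s : Bool) (h : ℕ) : ℤ := bif s then (lnN (2 * h) : ℤ) else (lnN h : ℤ)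
def ssL (s : Bool) (h : ℕ) : ℤ := bif s then (lnN (2 * h) : ℤ) else (lnN h + 281474976710656 : ℤ)

noncomputable def rvL (s : Bool) (h : ℕ) : ℝ := bif s then Real.log (2 * h) else Real.log h
noncomputable def rsL (s : Bool) (h : ℕ) : ℝ := bif s then Real.log (2 * h) else Real.log h + 1

lemma svL_bound (s : Bool) {h : ℕ} (hh : 0 < h) :
    |281474976710656 * rvL s h - svL s h| ≤ eL (2 * h) := by
  have h1 := lnN_bound (n := 2 * h) (by omega)
  have h2 := lnN_bound hh
  have h3 : h.log2 ≤ (2 * h).log2 := by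
    rw [Nat.log2_eq_log_two, Nat.log2_eq_log_two]
    exact Nat.log_mono_right (by omega)
  have h3r : (h.log2 : ℝ) ≤ (2 * h).log2 := by exact_mod_cast h3
  unfold rvL svL eL
  cases s
  · simp only [cond_false]
    generalize lnN h = A at *
    generalize lnN (2 * h) = A2 at *
    push_cast at h1 ⊢
    rw [abs_le]
    constructor <;> linarith [h2.1, h2.2]
  · simp only [cond_true]
    generalize lnN h = A at *
    generalize lnN (2 * h) = A2 at *
    push_cast at h1 ⊢
    rw [abs_le]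
    constructor <;> linarith [h1.1, h1.2]

lemma ssL_bound (s : Bool) {h : ℕ} (hh : 0 < h) :
    |281474976710656 * rsL s h - ssL s h| ≤ eL (2 * h) := by
  have h1 := svL_bound s hh
  have e1 : rsL s h = rvL s h + (bif s then 0 else 1) := by
    unfold rsL rvL; cases s <;> simp
  have e2 : (ssL s h : ℝ) = svL s h + 281474976710656 * (bif s then 0 else 1) := by
    unfold ssL svL; cases s <;> simp
  rw [e1, e2]
  have : 281474976710656 * (rvL s h + (bif s then 0 else 1)) -
      ((svL s h : ℝ) + 281474976710656 * (bif s then 0 else 1)) =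
      281474976710656 * rvL s h - svL s h := by ring
  rw [this]
  exact h1

lemma tlog_lin {t lam : ℝ} {h : ℕ} (hh : 0 < h) (ht : 0 ≤ t) (ht2 : t ≤ 2 * h) {s : Bool}
    (hs : bif s then 0 ≤ lam else lam ≤ 0) :
    lam * (t * Real.log t) ≤ lam * (h * rvL s h + rsL s h * (t - h)) := by
  have hhr : (0:ℝ) < h := by exact_mod_cast hh
  cases s
  · simp only [cond_false] at hs
    unfold rvL rsL
    simp only [cond_false]
    have := tlog_tangent hhr ht
    nlinarith
  · simp only [cond_true] at hs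
    unfold rvL rsL
    simp only [cond_true]
    have := tlog_chord ht ht2
    apply mul_le_mul_of_nonneg_left _ hs
    linarith

/-- singular term, `σ = ±1`, `t = σ (T - end)` -/
lemma sing_TB {c a b p q m σ : ℤ} {h : ℕ} (hh : 0 < h) (hσ : σ = 1 ∨ σ = -1)
    (ha : a + b * (m - σ * h) = 0) (hp : p + q * (m - σ * h) = 0)
    (hbq : 0 < b.natAbs * b.natAbs + q.natAbs * q.natAbs) {s : Bool}
    (hs : bif s then 0 ≤ c * σ * b else c * σ * b ≤ 0) :
    TB (Tm.val ⟨c, a, b, p, q⟩) (m - h) m (m + h)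
      (σ * c * h * phiZ b q + 2 * (σ * c * b * h * svL s h))
      (c * phiZ b q + 2 * (c * b * ssL s h)) 0
      (c.natAbs * h * (b.natAbs * eL (b.natAbs * b.natAbs + q.natAbs * q.natAbs) +
        30 * q.natAbs) + 2 * (c.natAbs * b.natAbs * h * eL (2 * h)))
      (c.natAbs * (b.natAbs * eL (b.natAbs * b.natAbs + q.natAbs * q.natAbs) +
        30 * q.natAbs) + 2 * (c.natAbs * b.natAbs * eL (2 * h))) := by
  have hhr : (0:ℝ) < h := by exact_mod_cast hh
  have hσr : (σ:ℝ) = 1 ∨ (σ:ℝ) = -1 := by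
    rcases hσ with h1 | h1
    · left; rw [h1]; norm_num
    · right; rw [h1]; norm_num
  have hσ2 : (σ:ℝ) * σ = 1 := by rcases hσr with h1 | h1 <;> rw [h1] <;> norm_num
  have har : (a:ℝ) + b * (m - σ * h) = 0 := by exact_mod_cast ha
  have hpr : (p:ℝ) + q * (m - σ * h) = 0 := by exact_mod_cast hp
  have hbqr : (b:ℝ)^2 + (q:ℝ)^2 ≠ 0 := by
    have : (0:ℝ) < ((b.natAbs * b.natAbs + q.natAbs * q.natAbs : ℕ) : ℝ) := by exact_mod_cast hbq
    rw [Nat.cast_add, cast_sq_natAbs, cast_sq_natAbs] at this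
    exact this.ne'
  have hsr : bif s then 0 ≤ (c:ℝ) * σ * b else (c:ℝ) * σ * b ≤ 0 := by
    cases s
    · simp only [cond_false] at hs ⊢; exact_mod_cast hs
    · simp only [cond_true] at hs ⊢; exact_mod_cast hs
  -- value of the term
  have hval : ∀ T ∈ Icc ((m:ℝ) - h) (m + h), Tm.val ⟨c, a, b, p, q⟩ T =
      c * σ * ((σ * (T - m) + h) * Phi b q + b * ((σ * (T - m) + h) * Real.log (σ * (T - m) + h))) := by
    intro T hT
    set t : ℝ := σ * (T - m) + h with ht
    have ht0 : 0 ≤ t := by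
      rcases hσr with h1 | h1 <;> rw [ht, h1] <;> linarith [hT.1, hT.2]
    have e1 : (a:ℝ) + b * T = σ * (b * t) := by
      have : T = m - σ * h + σ * t := by
        rw [ht]; linear_combination (-(T - m)) * hσ2
      rw [this]; linear_combination har
    have e2 : (p:ℝ) + q * T = σ * (q * t) := by
      have : T = m - σ * h + σ * t := by
        rw [ht]; linear_combination (-(T - m)) * hσ2
      rw [this]; linear_combination hpr
    simp only [Tm.val]
    rw [e1, e2]
    have e3 : Phi (σ * (b * t)) (σ * (q * t)) = σ * Phi (b * t) (q * t) := by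
      rcases hσr with h1 | h1 <;> rw [h1]
      · simp
      · rw [neg_one_mul, neg_one_mul, Phi_even, Phi_odd]; ring
    rw [e3]
    rcases eq_or_lt_of_le ht0 with h0 | h0
    · rw [← h0]; simp [Phi]
    · rw [Phi_scale h0 hbqr]; ring
  refine ⟨σ * c * h * Phi b q + σ * c * b * h * rvL s h, c * Phi b q + c * b * rsL s h, 0,
    ?_, ?_, ?_, le_rfl, by simp⟩
  · intro T hT
    rw [hval T hT]
    set t : ℝ := σ * (T - m) + h with ht
    have ht0 : 0 ≤ t := by
      rcases hσr with h1 | h1 <;> rw [ht, h1] <;> linarith [hT.1, hT.2]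
    have ht2 : t ≤ 2 * h := by
      rcases hσr with h1 | h1 <;> rw [ht, h1] <;> linarith [hT.1, hT.2]
    have h1 := tlog_lin hh ht0 ht2 hsr
    have e4 : t - h = σ * (T - m) := by rw [ht]; ring
    rw [e4] at h1
    have e5 : (c:ℝ) * σ * (t * Phi b q + b * (t * Real.log t)) =
        c * σ * b * (t * Real.log t) + c * σ * t * Phi b q := by ring
    have e6 : (c:ℝ) * σ * t * Phi b q = σ * c * h * Phi b q + c * (T - m) * Phi b q := by
      rw [ht]; linear_combination (c * (T - m) * Phi b q) * hσ2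
    have e7 : (c:ℝ) * σ * b * (h * rvL s h + rsL s h * (σ * (T - m))) =
        σ * c * b * h * rvL s h + c * b * rsL s h * (T - m) := by
      linear_combination (c * b * rsL s h * (T - m)) * hσ2
    rw [e5, e6]
    rw [e7] at h1
    linarith
  · have h1 := phiZ_bound hbq
    have h2 := svL_bound s hh
    have e : 562949953421312 * ((σ:ℝ) * c * h * Phi b q + σ * c * b * h * rvL s h) -
        ((σ * c * h * phiZ b q + 2 * (σ * c * b * h * svL s h) : ℤ) : ℝ) =
        (σ * (c * h)) * (562949953421312 * Phi b q - phiZ b q) +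
        (σ * (2 * (c * b * h))) * (281474976710656 * rvL s h - svL s h) := by push_cast; ring
    rw [e]
    have hσa : |(σ:ℝ)| = 1 := by rcases hσr with h1 | h1 <;> rw [h1] <;> norm_num
    refine (abs_add_le _ _).trans ?_
    simp only [abs_mul, hσa, one_mul, abs_of_pos hhr, abs_of_pos (by norm_num : (0:ℝ) < 2)]
    rw [← natAbs_cast_abs c, ← natAbs_cast_abs b]
    rw [Nat.cast_add]
    apply add_le_add
    · rw [Nat.cast_mul, Nat.cast_mul]
      exact mul_le_mul_of_nonneg_left h1 (by positivity)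
    · have := mul_le_mul_of_nonneg_left h2 (by positivity : (0:ℝ) ≤ 2 * ((c.natAbs : ℝ) * b.natAbs * h))
      refine this.trans (le_of_eq ?_)
      push_cast
      ring
  · have h1 := phiZ_bound hbq
    have h2 := ssL_bound s hh
    have e : 562949953421312 * ((c:ℝ) * Phi b q + c * b * rsL s h) -
        ((c * phiZ b q + 2 * (c * b * ssL s h) : ℤ) : ℝ) =
        c * (562949953421312 * Phi b q - phiZ b q) +
        (2 * (c * b)) * (281474976710656 * rsL s h - ssL s h) := by push_cast; ring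
    rw [e]
    refine (abs_add_le _ _).trans ?_
    simp only [abs_mul, abs_of_pos (by norm_num : (0:ℝ) < 2)]
    rw [← natAbs_cast_abs c, ← natAbs_cast_abs b]
    rw [Nat.cast_add]
    apply add_le_add
    · rw [Nat.cast_mul]
      exact mul_le_mul_of_nonneg_left h1 (by positivity)
    · have := mul_le_mul_of_nonneg_left h2 (by positivity : (0:ℝ) ≤ 2 * ((c.natAbs : ℝ) * b.natAbs))
      refine this.trans (le_of_eq ?_)
      push_cast
      ring

/-- result record -/
structure Res where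
  ok : Bool
  A : ℤ
  B : ℤ
  K : ℕ
  eA : ℕ
  eB : ℕ

/-- nonnegativity as a Bool -/
def nnB (z : ℤ) : Bool :=
  match z with
  | .ofNat _ => true
  | .negSucc _ => false

lemma nnB_spec (z : ℤ) : bif nnB z then 0 ≤ z else z ≤ 0 := by
  cases z with
  | ofNat n => exact Int.natCast_nonneg n
  | negSucc n => exact (Int.negSucc_lt_zero n).le

/-- zero test -/
def z0 (z : ℤ) : Bool := Nat.beq z.natAbs 0

lemma z0_spec {z : ℤ} (h : z0 z = true) : z = 0 :=
  Int.natAbs_eq_zero.1 (Nat.eq_of_beq_eq_true h)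

def evR (h : ℕ) (c b q U V : ℤ) : Res :=
  ⟨true, c * phiZ U V, c * dZ b q U V,
    c.natAbs * (b.natAbs * b.natAbs + q.natAbs * q.natAbs) * 281474976710656 / rad h b q U V + 1,
    c.natAbs * (U.natAbs * eL (U.natAbs * U.natAbs + V.natAbs * V.natAbs) + 30 * V.natAbs),
    c.natAbs * (b.natAbs * eL (U.natAbs * U.natAbs + V.natAbs * V.natAbs) + 30 * q.natAbs)⟩

def evS (h : ℕ) (c b q σ : ℤ) (s : Bool) : Res :=
  ⟨true, σ * c * h * phiZ b q + 2 * (σ * c * b * h * svL s h),
    c * phiZ b q + 2 * (c * b * ssL s h), 0,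
    c.natAbs * h * (b.natAbs * eL (b.natAbs * b.natAbs + q.natAbs * q.natAbs) +
        30 * q.natAbs) + 2 * (c.natAbs * b.natAbs * h * eL (2 * h)),
    c.natAbs * (b.natAbs * eL (b.natAbs * b.natAbs + q.natAbs * q.natAbs) +
        30 * q.natAbs) + 2 * (c.natAbs * b.natAbs * eL (2 * h))⟩

/-- evaluate one term on the cell `[m-h, m+h]` -/
def evT (m : ℤ) (h : ℕ) (t : Tm) : Res :=
  bif regOK h t.b t.q (t.a + t.b * m) (t.p + t.q * m) then
    evR h t.c t.b t.q (t.a + t.b * m) (t.p + t.q * m)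
  else bif z0 (t.b) && z0 (t.q) then ⟨false, 0, 0, 0, 0, 0⟩
  else bif z0 (t.a + t.b * (m - 1 * h)) && z0 (t.p + t.q * (m - 1 * h)) then
    evS h t.c t.b t.q 1 (nnB (t.c * 1 * t.b))
  else bif z0 (t.a + t.b * (m - (-1) * h)) && z0 (t.p + t.q * (m - (-1) * h)) then
    evS h t.c t.b t.q (-1) (nnB (t.c * (-1) * t.b))
  else ⟨false, 0, 0, 0, 0, 0⟩

lemma evT_TB {m : ℤ} {h : ℕ} (hh : 0 < h) (t : Tm) (hok : (evT m h t).ok = true) :
    TB t.val (m - h) m (m + h) (evT m h t).A (evT m h t).B (evT m h t).K (evT m h t).eA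
      (evT m h t).eB := by
  obtain ⟨c, a, b, p, q⟩ := t
  unfold evT at hok ⊢
  simp only at hok ⊢
  cases h1 : regOK h b q (a + b * m) (p + q * m) with
  | true =>
    simp only [cond_true]
    exact reg_TB hh h1
  | false =>
    rw [h1] at hok
    simp only [cond_false] at hok ⊢
    cases h2 : (z0 b && z0 q) with
    | true =>
      rw [h2] at hok
      simp at hok
    | false =>
      rw [h2] at hok
      simp only [cond_false] at hok ⊢
      have hbq : 0 < b.natAbs * b.natAbs + q.natAbs * q.natAbs := by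
        rcases Nat.eq_zero_or_pos (b.natAbs * b.natAbs + q.natAbs * q.natAbs) with h0 | h0
        · exfalso
          have hb : b.natAbs = 0 := by
            have : b.natAbs * b.natAbs = 0 := by omega
            exact mul_self_eq_zero.1 this
          have hq : q.natAbs = 0 := by
            have : q.natAbs * q.natAbs = 0 := by omega
            exact mul_self_eq_zero.1 this
          simp [z0, hb, hq] at h2
        · exact h0
      cases h3 : (z0 (a + b * (m - 1 * h)) && z0 (p + q * (m - 1 * h))) with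
      | true =>
        simp only [cond_true]
        rw [Bool.and_eq_true] at h3
        exact sing_TB hh (Or.inl rfl) (z0_spec h3.1) (z0_spec h3.2) hbq (nnB_spec _)
      | false =>
        rw [h3] at hok
        simp only [cond_false] at hok ⊢
        cases h4 : (z0 (a + b * (m - (-1) * h)) && z0 (p + q * (m - (-1) * h))) with
        | true =>
          simp only [cond_true]
          rw [Bool.and_eq_true] at h4
          exact sing_TB hh (Or.inr rfl) (z0_spec h4.1) (z0_spec h4.2) hbq (nnB_spec _)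
        | false =>
          rw [h4] at hok
          simp at hok

def Res.add (r s : Res) : Res :=
  ⟨r.ok && s.ok, r.A + s.A, r.B + s.B, r.K + s.K, r.eA + s.eA, r.eB + s.eB⟩

/-- sum of all terms on a cell -/
def evL (m : ℤ) (h : ℕ) : List Tm → Res
  | [] => ⟨true, 0, 0, 0, 0, 0⟩
  | t :: ts => (evT m h t).add (evL m h ts)

/-- real sum -/
noncomputable def valL : List Tm → ℝ → ℝ
  | [], _ => 0
  | t :: ts, T => t.val T + valL ts T

lemma evL_TB {m : ℤ} {h : ℕ} (hh : 0 < h) : ∀ ts : List Tm, (evL m h ts).ok = true →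
    TB (valL ts) (m - h) m (m + h) (evL m h ts).A (evL m h ts).B (evL m h ts).K (evL m h ts).eA
      (evL m h ts).eB
  | [], _ => by
    refine ⟨0, 0, 0, ?_, ?_, ?_, le_rfl, ?_⟩
    · intro T _; simp [valL]
    · simp [evL]
    · simp [evL]
    · simp [evL]
  | t :: ts, hok => by
    simp only [evL, Res.add, Bool.and_eq_true] at hok
    have h1 := evT_TB hh t hok.1
    have h2 := evL_TB hh ts hok.2
    exact h1.add h2

/-- check one cell: `2^49 (α + β T + Σ) ≤ D` -/
def checkCell (ts : List Tm) (A0 B0 : ℤ) (eA0 eB0 : ℕ) (D : ℤ) (m : ℤ) (h : ℕ) : Bool :=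
  (fun r : Res => r.ok && nnB (D - ((r.A + (A0 + B0 * m)) + ((r.eA + (eA0 + eB0 * m.natAbs) : ℕ) : ℤ) +
    (((r.B + B0).natAbs + (r.eB + eB0) : ℕ) : ℤ) * h + ((r.K * h ^ 2 : ℕ) : ℤ)))) (evL m h ts)

lemma nnB_true {z : ℤ} (h : nnB z = true) : 0 ≤ z := by
  have := nnB_spec z
  rw [h] at this
  exact this

theorem checkCell_sound {ts : List Tm} {A0 B0 : ℤ} {eA0 eB0 : ℕ} {D m : ℤ} {h : ℕ} (hh : 0 < h)
    {α β : ℝ} (hα : |562949953421312 * α - A0| ≤ eA0) (hβ : |562949953421312 * β - B0| ≤ eB0)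
    (hc : checkCell ts A0 B0 eA0 eB0 D m h = true) :
    ∀ T ∈ Icc ((m:ℝ) - h) (m + h), 562949953421312 * (α + β * T + valL ts T) ≤ D := by
  unfold checkCell at hc
  simp only [Bool.and_eq_true] at hc
  have h1 := evL_TB hh ts hc.1
  have h2 : TB (fun T => α + β * T) ((m:ℝ) - h) m (m + h) (A0 + B0 * m) B0 0
      (eA0 + eB0 * m.natAbs) eB0 := by
    refine ⟨α + β * m, β, 0, ?_, ?_, hβ, le_rfl, by simp⟩
    · intro T _; linarith
    · have e : 562949953421312 * (α + β * m) - ((A0 + B0 * m : ℤ) : ℝ) =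
        (562949953421312 * α - A0) + (562949953421312 * β - B0) * m := by push_cast; ring
      rw [e]
      refine (abs_add_le _ _).trans ?_
      rw [abs_mul, ← natAbs_cast_abs]
      rw [Nat.cast_add, Nat.cast_mul]
      exact add_le_add hα (mul_le_mul_of_nonneg_right hβ (Nat.cast_nonneg _))
  have h3 := h1.add h2
  intro T hT
  have h4 := h3.final rfl rfl hT
  have h5 := nnB_true hc.2
  have h6 : (0:ℝ) ≤ ((D - ((((evL m h ts).A + (A0 + B0 * m)) +
    (((evL m h ts).eA + (eA0 + eB0 * m.natAbs) : ℕ) : ℤ) +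
    ((((evL m h ts).B + B0).natAbs + ((evL m h ts).eB + eB0) : ℕ) : ℤ) * h +
      (((evL m h ts).K * h ^ 2 : ℕ) : ℤ))) : ℤ) : ℝ) := by
    exact_mod_cast h5
  rw [Int.cast_sub] at h6
  simp only [add_zero] at h4
  have e : α + β * T + valL ts T = valL ts T + (α + β * T) := by ring
  rw [e]
  linarith

/-- cells `[x, x+2h₁], [x+2h₁, x+2h₁+2h₂], …` -/
def checkCells (ts : List Tm) (A0 B0 : ℤ) (eA0 eB0 : ℕ) (D : ℤ) : ℤ → List ℕ → Bool
  | _, [] => true
  | x, h :: hs => Nat.blt 0 h && checkCell ts A0 B0 eA0 eB0 D (x + h) h &&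
      checkCells ts A0 B0 eA0 eB0 D (x + 2 * h) hs

theorem checkCells_sound {ts : List Tm} {A0 B0 : ℤ} {eA0 eB0 : ℕ} {D : ℤ}
    {α β : ℝ} (hα : |562949953421312 * α - A0| ≤ eA0) (hβ : |562949953421312 * β - B0| ≤ eB0) :
    ∀ (hs : List ℕ) (x : ℤ), hs ≠ [] → checkCells ts A0 B0 eA0 eB0 D x hs = true →
    ∀ T : ℝ, (x:ℝ) ≤ T → T ≤ x + 2 * (hs.sum : ℕ) →
      562949953421312 * (α + β * T + valL ts T) ≤ D
  | [], _, hne, _, _, _, _ => absurd rfl hne
  | h :: hs, x, _, hc, T, hT1, hT2 => by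
    simp only [checkCells, Bool.and_eq_true] at hc
    obtain ⟨⟨hc1, hc2⟩, hc3⟩ := hc
    have hh : 0 < h := by
      have := Nat.le_of_ble_eq_true hc1
      exact this
    rcases le_total T ((x:ℝ) + 2 * h) with h1 | h1
    · apply checkCell_sound hh hα hβ hc2 T
      constructor
      · push_cast; linarith
      · push_cast; linarith
    · rcases eq_or_ne hs [] with h0 | h0
      · subst h0
        apply checkCell_sound hh hα hβ hc2 T
        simp only [List.sum_cons, List.sum_nil, add_zero] at hT2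
        constructor
        · push_cast; linarith
        · push_cast; linarith
      · apply checkCells_sound hα hβ hs (x + 2 * h) h0 hc3 T
        · push_cast; exact h1
        · rw [List.sum_cons] at hT2
          push_cast at hT2 ⊢
          linarith

end Crest.Agent.R006.NumCellx179
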