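import Mathlib
import Crest.Agent.R006.NumCell_179

/-!
# Row 6: fast version of the cell checker (helper179)

Same mathematics as `NumCell_179`, but all arithmetic is raw `Nat` arithmetic with sign bits
(about 6 times faster in the kernel). Positions `T ≥ 0`.
-/

set_option autoImplicit false

namespace Crest.Agent.R006.NumFastx179

open Set Crest.Agent.R006.NumLogx179 Crest.Agent.R006.NumAtanx179 Crest.Agent.R006.NumPhix179
  Crest.Agent.R006.NumCellx179

/-! raw copies -/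

def at14r (V : ℕ) : ℕ :=
  Nat.add 281474976710656 (Nat.div (Nat.mul V (Nat.add 93824992236885 (Nat.div (Nat.mul V
  (Nat.add 56294995342131 (Nat.div (Nat.mul V (Nat.add 40210710958665 (Nat.div (Nat.mul V
  (Nat.add 31274997412295 (Nat.div (Nat.mul V (Nat.add 25588634246423 (Nat.div (Nat.mul V
  (Nat.add 21651921285435 (Nat.div (Nat.mul V (Nat.add 18764998447377 (Nat.div (Nat.mul V
  (Nat.add 16557351571215 (Nat.div (Nat.mul V (Nat.add 14814472458455 (Nat.div (Nat.mul V
  (Nat.add 13403570319555 (Nat.div (Nat.mul V (Nat.add 12238042465680 (Nat.div (Nat.mul V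
  (Nat.add 11258999068426 (Nat.div (Nat.mul V (Nat.add 10424999137431 (Nat.div (Nat.mul V 0)
  281474976710656))) 281474976710656))) 281474976710656))) 281474976710656))) 281474976710656)))
  281474976710656))) 281474976710656))) 281474976710656))) 281474976710656))) 281474976710656)))
  281474976710656))) 281474976710656))) 281474976710656))) 281474976710656)

lemma at14r_eq (V : ℕ) : at14r V = at14 V := rfl

def lgr (p q : ℕ) : ℕ :=
  (fun U => Nat.div (Nat.mul (Nat.mul 2 U) (at14r (Nat.div (Nat.mul U U) 281474976710656)))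
    281474976710656) (Nat.div (Nat.mul (Nat.sub p q) 281474976710656) (Nat.add p q))

lemma lgr_eq (p q : ℕ) : lgr p q = lg p q := rfl

def lnNr (n : ℕ) : ℕ :=
  Nat.add (Nat.mul (Nat.log2 n) 195103586505165) (lgr n (Nat.pow 2 (Nat.log2 n)))

lemma lnNr_eq (n : ℕ) : lnNr n = lnN n := rfl

def at15r (V : ℕ) : ℕ :=
  Nat.sub 281474976710656 (Nat.div (Nat.mul V (Nat.sub 93824992236885 (Nat.div (Nat.mul V
  (Nat.sub 56294995342131 (Nat.div (Nat.mul V (Nat.sub 40210710958665 (Nat.div (Nat.mul V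
  (Nat.sub 31274997412295 (Nat.div (Nat.mul V (Nat.sub 25588634246423 (Nat.div (Nat.mul V
  (Nat.sub 21651921285435 (Nat.div (Nat.mul V (Nat.sub 18764998447377 (Nat.div (Nat.mul V
  (Nat.sub 16557351571215 (Nat.div (Nat.mul V (Nat.sub 14814472458455 (Nat.div (Nat.mul V
  (Nat.sub 13403570319555 (Nat.div (Nat.mul V (Nat.sub 12238042465680 (Nat.div (Nat.mul V
  (Nat.sub 11258999068426 (Nat.div (Nat.mul V (Nat.sub 10424999137431 (Nat.div (Nat.mul V
  (Nat.sub 9706033679677 (Nat.div (Nat.mul V 0)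
  281474976710656))) 281474976710656))) 281474976710656))) 281474976710656))) 281474976710656)))
  281474976710656))) 281474976710656))) 281474976710656))) 281474976710656))) 281474976710656)))
  281474976710656))) 281474976710656))) 281474976710656))) 281474976710656))) 281474976710656)

lemma at15r_eq (V : ℕ) : at15r V = at15 V := rfl

def at0r (p q : ℕ) : ℕ :=
  (fun U => Nat.div (Nat.mul U (at15r (Nat.div (Nat.mul U U) 281474976710656))) 281474976710656)
    (Nat.div (Nat.mul p 281474976710656) q)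

lemma at0r_eq (p q : ℕ) : at0r p q = at0 p q := rfl

def atNr (p q : ℕ) : ℕ :=
  bif Nat.ble (Nat.mul 3 p) q then at0r p q
  else bif Nat.ble (Nat.mul 2 p) q then
    Nat.sub 130505199945453 (at0r (Nat.sub q (Nat.mul 2 p)) (Nat.add (Nat.mul 2 q) p))
  else Nat.add 130505199945453 (at0r (Nat.sub (Nat.mul 2 p) q) (Nat.add (Nat.mul 2 q) p))

lemma atNr_eq (p q : ℕ) : atNr p q = atN p q := rfl

def atQr (u v : ℕ) : ℕ := bif Nat.ble u v then atNr u v else Nat.sub 442139859501777 (atNr v u)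

lemma atQr_eq (u v : ℕ) : atQr u v = atQ u v := rfl

/-- a term with natural data: `c = ± c`, `U = (a0 + b0 T) - (a1 + b1 T)`,
`V = (p0 + q0 T) - (p1 + q1 T)`; `sc = true` means `+`. -/
structure NT where
  sc : Bool
  c : ℕ
  a0 : ℕ
  b0 : ℕ
  a1 : ℕ
  b1 : ℕ
  p0 : ℕ
  q0 : ℕ
  p1 : ℕ
  q1 : ℕ

def NT.tm (t : NT) : Tm :=
  ⟨bif t.sc then (t.c : ℤ) else -(t.c : ℤ), (t.a0 : ℤ) - t.a1, (t.b0 : ℤ) - t.b1,
    (t.p0 : ℤ) - t.p1, (t.q0 : ℤ) - t.q1⟩

/-- `|x - y|` -/
def absd (x y : ℕ) : ℕ := Nat.add (Nat.sub x y) (Nat.sub y x)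

lemma absd_eq (x y : ℕ) : absd x y = ((x : ℤ) - y).natAbs := by
  unfold absd
  show (x - y) + (y - x) = _
  omega

structure RN where
  ok : Bool
  Ap : ℕ
  An : ℕ
  Bp : ℕ
  Bn : ℕ
  K : ℕ
  eA : ℕ
  eB : ℕ

def xn (a b : Bool) : Bool := bif a then b else !b

def radN (h ab aq aU aV : ℕ) : ℕ :=
  bif Nat.ble (Nat.sub aU (Nat.mul h ab)) (Nat.sub aV (Nat.mul h aq))
    then Nat.sub aV (Nat.mul h aq) else Nat.sub aU (Nat.mul h ab)

def regN (h ab aq aU aV : ℕ) : Bool :=
  (bif Nat.beq aV 0 then Nat.beq aq 0 else Nat.ble (Nat.mul h aq) aV) &&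
    !(Nat.beq (radN h ab aq aU aV) 0)

/-- regular term, `X ≈ 2^48 log n`, `Y ≈ 2^48 arctan(|U|/|V|)`, `E` = error of `X`, `R` = radius -/
def coreXY (c : ℕ) (sc sU sV sb sq : Bool) (aU aV ab aq X Y E R : ℕ) : RN :=
  RN.mk true
    (bif xn sc sU then Nat.mul c (Nat.add (Nat.mul aU X) (Nat.mul 2 (Nat.mul aV Y)))
      else Nat.mul c (Nat.mul 562949953421312 aU))
    (bif xn sc sU then Nat.mul c (Nat.mul 562949953421312 aU)
      else Nat.mul c (Nat.add (Nat.mul aU X) (Nat.mul 2 (Nat.mul aV Y))))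
    (Nat.add (bif xn sc sb then Nat.mul c (Nat.mul ab X) else 0)
      (bif xn (xn sc sq) (xn sU sV) then Nat.mul c (Nat.mul 2 (Nat.mul aq Y)) else 0))
    (Nat.add (bif xn sc sb then 0 else Nat.mul c (Nat.mul ab X))
      (bif xn (xn sc sq) (xn sU sV) then 0 else Nat.mul c (Nat.mul 2 (Nat.mul aq Y))))
    (Nat.add (Nat.div (Nat.mul (Nat.mul c (Nat.add (Nat.mul ab ab) (Nat.mul aq aq)))
      281474976710656) R) 1)
    (Nat.mul c (Nat.add (Nat.mul aU E) (Nat.mul 30 aV)))
    (Nat.mul c (Nat.add (Nat.mul ab E) (Nat.mul 30 aq)))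

lemma coreXY_A (c : ℕ) (sc sU sV sb sq : Bool) (aU aV ab aq X Y E R : ℕ) :
    (((coreXY c sc sU sV sb sq aU aV ab aq X Y E R).Ap : ℤ) -
      (coreXY c sc sU sV sb sq aU aV ab aq X Y E R).An) =
      (bif sc then 1 else -1) * (c:ℤ) * ((bif sU then 1 else -1) *
        ((aU:ℤ) * X + 2 * ((aV:ℤ) * Y) - 562949953421312 * aU)) := by
  unfold coreXY
  cases sc <;> cases sU <;> simp [xn] <;> ring

lemma coreXY_B (c : ℕ) (sc sU sV sb sq : Bool) (aU aV ab aq X Y E R : ℕ) :
    (((coreXY c sc sU sV sb sq aU aV ab aq X Y E R).Bp : ℤ) -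
      (coreXY c sc sU sV sb sq aU aV ab aq X Y E R).Bn) =
      (bif sc then 1 else -1) * (c:ℤ) * ((bif sb then 1 else -1) * ((ab:ℤ) * X) +
        ((bif sq then 1 else -1) * (bif sU then 1 else -1) * (bif sV then 1 else -1)) *
          (2 * ((aq:ℤ) * Y))) := by
  unfold coreXY
  cases sc <;> cases sU <;> cases sV <;> cases sb <;> cases sq <;> simp [xn] <;> ring

def core (h c : ℕ) (sc sU sV sb sq : Bool) (aU aV ab aq : ℕ) : RN :=
  coreXY c sc sU sV sb sq aU aV ab aq (lnNr (Nat.add (Nat.mul aU aU) (Nat.mul aV aV)))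
    (atQr aU aV) (Nat.mul 20 (Nat.add (Nat.log2 (Nat.add (Nat.mul aU aU) (Nat.mul aV aV))) 1))
    (radN h ab aq aU aV)

def ofRes (r : Res) : RN :=
  ⟨r.ok, r.A.toNat, (-r.A).toNat, r.B.toNat, (-r.B).toNat, r.K, r.eA, r.eB⟩

def evN (m h : ℕ) (t : NT) : RN :=
  (fun (up un vp vn : ℕ) =>
    (fun (aU aV ab aq : ℕ) =>
      bif regN h ab aq aU aV then
        core h t.c t.sc (Nat.ble un up) (Nat.ble vn vp) (Nat.ble t.b1 t.b0) (Nat.ble t.q1 t.q0)
          aU aV ab aq
      else ofRes (evT (m : ℤ) h t.tm))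
    (absd up un) (absd vp vn) (absd t.b0 t.b1) (absd t.q0 t.q1))
  (Nat.add t.a0 (Nat.mul t.b0 m)) (Nat.add t.a1 (Nat.mul t.b1 m))
  (Nat.add t.p0 (Nat.mul t.q0 m)) (Nat.add t.p1 (Nat.mul t.q1 m))

lemma at0_zero (v : ℕ) : at0 0 v = 0 := by
  unfold at0
  simp only [Nat.zero_mul, Nat.zero_div]

lemma atN_zero (v : ℕ) : atN 0 v = 0 := by
  rw [atN, Nat.mul_zero]
  have h2 : Nat.ble 0 v = true := Nat.ble_eq_true_of_le (Nat.zero_le v)
  rw [h2, cond_true, at0_zero]

lemma atQ_zero (v : ℕ) : atQ 0 v = 0 := by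
  have h1 : Nat.ble 0 v = true := Nat.ble_eq_true_of_le (Nat.zero_le v)
  rw [atQ, h1, cond_true, atN_zero]

/-- sign bookkeeping: `s x = ± |x|` -/
lemma sgn_abs {x y : ℕ} : ((x : ℤ) - y) = (bif Nat.ble y x then 1 else -1) * (absd x y : ℤ) := by
  rw [absd_eq]
  cases h : Nat.ble y x with
  | true =>
    have := Nat.le_of_ble_eq_true h
    simp only [cond_true]
    omega
  | false =>
    have := ble_false h
    simp only [cond_false]
    omega

lemma sign_eq {x y : ℕ} (h : x ≠ y) : ((x : ℤ) - y).sign = (bif Nat.ble y x then 1 else -1) := by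
  cases h1 : Nat.ble y x with
  | true =>
    have := Nat.le_of_ble_eq_true h1
    simp only [cond_true]
    exact Int.sign_eq_one_of_pos (by omega)
  | false =>
    have := ble_false h1
    simp only [cond_false]
    exact Int.sign_eq_neg_one_of_neg (by omega)

lemma xn_mul (a b : Bool) : (bif xn a b then (1:ℤ) else -1) =
    (bif a then 1 else -1) * (bif b then 1 else -1) := by
  cases a <;> cases b <;> rfl

lemma absd_self (x : ℕ) : absd x x = 0 := by
  rw [absd_eq]; simp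

lemma phiZ_eq (up un vp vn : ℕ) :
    phiZ ((up:ℤ) - un) ((vp:ℤ) - vn) = (bif Nat.ble un up then 1 else -1) *
      ((absd up un : ℤ) * (lnN (absd up un * absd up un + absd vp vn * absd vp vn) : ℤ) +
        2 * ((absd vp vn : ℤ) * (atQ (absd up un) (absd vp vn) : ℤ)) -
        562949953421312 * (absd up un : ℤ)) := by
  unfold phiZ atZ
  rw [← absd_eq, ← absd_eq]
  by_cases hu : up = un
  · subst hu
    rw [absd_self, atQ_zero]
    simp
  · by_cases hv : vp = vn
    · subst hv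
      rw [absd_self]
      rw [sgn_abs (x := up)]
      generalize lnN (absd up un * absd up un + 0 * 0) = X
      simp
      ring
    · rw [sign_eq hu, sign_eq hv, sgn_abs (x := up), sgn_abs (x := vp)]
      generalize lnN (absd up un * absd up un + absd vp vn * absd vp vn) = X
      generalize atQ (absd up un) (absd vp vn) = Y
      generalize absd up un = aU
      generalize absd vp vn = aV
      cases Nat.ble vn vp <;> cases Nat.ble un up <;> simp <;> ring

lemma dZ_eq {up un vp vn b0 b1 q0 q1 : ℕ} (hq : vp = vn → q0 = q1) :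
    dZ ((b0:ℤ) - b1) ((q0:ℤ) - q1) ((up:ℤ) - un) ((vp:ℤ) - vn) =
      (bif Nat.ble b1 b0 then 1 else -1) * ((absd b0 b1 : ℤ) *
        (lnN (absd up un * absd up un + absd vp vn * absd vp vn) : ℤ)) +
      ((bif Nat.ble q1 q0 then 1 else -1) * (bif Nat.ble un up then 1 else -1) *
        (bif Nat.ble vn vp then 1 else -1)) *
        (2 * ((absd q0 q1 : ℤ) * (atQ (absd up un) (absd vp vn) : ℤ))) := by
  unfold dZ atZ
  rw [← absd_eq, ← absd_eq]
  rw [sgn_abs (x := b0), sgn_abs (x := q0)]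
  by_cases hu : up = un
  · subst hu
    rw [absd_self, atQ_zero]
    generalize lnN (0 * 0 + absd vp vn * absd vp vn) = X
    simp
    ring
  · by_cases hv : vp = vn
    · have h0 := hq hv
      subst hv
      subst h0
      rw [absd_self, absd_self]
      generalize lnN (absd up un * absd up un + 0 * 0) = X
      simp
      ring
    · rw [sign_eq hu, sign_eq hv]
      generalize lnN (absd up un * absd up un + absd vp vn * absd vp vn) = X
      generalize atQ (absd up un) (absd vp vn) = Y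
      ring

lemma natAbs_c (sc : Bool) (c : ℕ) : (bif sc then (c:ℤ) else -(c:ℤ)).natAbs = c := by
  cases sc <;> simp

lemma radN_eq (h : ℕ) (b q U V : ℤ) :
    radN h b.natAbs q.natAbs U.natAbs V.natAbs = rad h b q U V := rfl

lemma beq_nat (a b : ℕ) : (a == b) = Nat.beq a b := by
  cases h : Nat.beq a b with
  | true => rw [Nat.eq_of_beq_eq_true h]; simp
  | false =>
    have := Nat.ne_of_beq_eq_false h
    simpa using this

lemma regN_eq (h : ℕ) (b q U V : ℤ) :
    regN h b.natAbs q.natAbs U.natAbs V.natAbs = regOK h b q U V := by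
  unfold regN regOK
  rw [radN_eq, beq_nat, beq_nat, beq_nat, Nat.mul_eq]

lemma coreXY_K (c : ℕ) (sc sU sV sb sq : Bool) (aU aV ab aq X Y E R : ℕ) :
    (coreXY c sc sU sV sb sq aU aV ab aq X Y E R).K =
      c * (ab * ab + aq * aq) * 281474976710656 / R + 1 := rfl

lemma coreXY_eA (c : ℕ) (sc sU sV sb sq : Bool) (aU aV ab aq X Y E R : ℕ) :
    (coreXY c sc sU sV sb sq aU aV ab aq X Y E R).eA = c * (aU * E + 30 * aV) := rfl

lemma coreXY_eB (c : ℕ) (sc sU sV sb sq : Bool) (aU aV ab aq X Y E R : ℕ) :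
    (coreXY c sc sU sV sb sq aU aV ab aq X Y E R).eB = c * (ab * E + 30 * aq) := rfl

lemma evN_TB {m h : ℕ} (hh : 0 < h) (t : NT) (hok : (evN m h t).ok = true) :
    TB t.tm.val (((m:ℤ):ℝ) - h) ((m:ℤ):ℝ) (((m:ℤ):ℝ) + h) (((evN m h t).Ap : ℤ) - (evN m h t).An)
      (((evN m h t).Bp : ℤ) - (evN m h t).Bn) (evN m h t).K (evN m h t).eA (evN m h t).eB := by
  obtain ⟨sc, c, a0, b0, a1, b1, p0, q0, p1, q1⟩ := t
  have hU : ((a0 + b0 * m : ℕ) : ℤ) - ((a1 + b1 * m : ℕ) : ℤ) =
      ((a0:ℤ) - a1) + ((b0:ℤ) - b1) * m := by push_cast; ring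
  have hV : ((p0 + q0 * m : ℕ) : ℤ) - ((p1 + q1 * m : ℕ) : ℤ) =
      ((p0:ℤ) - p1) + ((q0:ℤ) - q1) * m := by push_cast; ring
  have hev : evN m h ⟨sc, c, a0, b0, a1, b1, p0, q0, p1, q1⟩ =
      bif regN h (absd b0 b1) (absd q0 q1) (absd (a0 + b0 * m) (a1 + b1 * m))
        (absd (p0 + q0 * m) (p1 + q1 * m)) then
        core h c sc (Nat.ble (a1 + b1 * m) (a0 + b0 * m)) (Nat.ble (p1 + q1 * m) (p0 + q0 * m))
          (Nat.ble b1 b0) (Nat.ble q1 q0) (absd (a0 + b0 * m) (a1 + b1 * m))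
          (absd (p0 + q0 * m) (p1 + q1 * m)) (absd b0 b1) (absd q0 q1)
      else ofRes (evT (m : ℤ) h (NT.tm ⟨sc, c, a0, b0, a1, b1, p0, q0, p1, q1⟩)) := rfl
  rw [hev] at hok ⊢
  generalize hup : a0 + b0 * m = up at *
  generalize hun : a1 + b1 * m = un at *
  generalize hvp : p0 + q0 * m = vp at *
  generalize hvn : p1 + q1 * m = vn at *
  cases h1 : regN h (absd b0 b1) (absd q0 q1) (absd up un) (absd vp vn) with
  | true =>
    rw [cond_true]
    have h2 : regOK h ((b0:ℤ) - b1) ((q0:ℤ) - q1) ((up:ℤ) - un) ((vp:ℤ) - vn) = true := by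
      rw [← regN_eq, ← absd_eq, ← absd_eq, ← absd_eq, ← absd_eq]; exact h1
    have hq : vp = vn → q0 = q1 := by
      intro hv
      subst hv
      unfold regN at h1
      rw [absd_self] at h1
      simp only [Bool.and_eq_true] at h1
      have h3 := h1.1
      have : Nat.beq 0 0 = true := rfl
      rw [this, cond_true] at h3
      have h4 := Nat.eq_of_beq_eq_true h3
      rw [absd_eq] at h4
      omega
    rw [hU, hV] at h2
    have key := reg_TB (c := bif sc then (c:ℤ) else -(c:ℤ)) hh h2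
    rw [← hU, ← hV] at key
    rw [phiZ_eq, dZ_eq hq, natAbs_c] at key
    rw [← radN_eq] at key
    simp only [← absd_eq] at key
    have hA := coreXY_A c sc (Nat.ble un up) (Nat.ble vn vp) (Nat.ble b1 b0) (Nat.ble q1 q0)
      (absd up un) (absd vp vn) (absd b0 b1) (absd q0 q1)
      (lnN (absd up un * absd up un + absd vp vn * absd vp vn)) (atQ (absd up un) (absd vp vn))
      (eL (absd up un * absd up un + absd vp vn * absd vp vn))
      (radN h (absd b0 b1) (absd q0 q1) (absd up un) (absd vp vn))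
    have hB := coreXY_B c sc (Nat.ble un up) (Nat.ble vn vp) (Nat.ble b1 b0) (Nat.ble q1 q0)
      (absd up un) (absd vp vn) (absd b0 b1) (absd q0 q1)
      (lnN (absd up un * absd up un + absd vp vn * absd vp vn)) (atQ (absd up un) (absd vp vn))
      (eL (absd up un * absd up un + absd vp vn * absd vp vn))
      (radN h (absd b0 b1) (absd q0 q1) (absd up un) (absd vp vn))
    have hsc : (bif sc then (c:ℤ) else -(c:ℤ)) = (bif sc then 1 else -1) * (c:ℤ) := by
      cases sc <;> simp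
    have htm : NT.tm ⟨sc, c, a0, b0, a1, b1, p0, q0, p1, q1⟩ =
        ⟨(bif sc then 1 else -1) * (c:ℤ), (a0:ℤ) - a1, (b0:ℤ) - b1, (p0:ℤ) - p1, (q0:ℤ) - q1⟩ := by
      simp only [NT.tm]; rw [hsc]
    have hE : Nat.mul 20 (Nat.add (Nat.log2 (absd up un * absd up un + absd vp vn * absd vp vn)) 1) =
        eL (absd up un * absd up un + absd vp vn * absd vp vn) := rfl
    rw [hsc] at key
    rw [htm]
    unfold core
    rw [lnNr_eq, atQr_eq]
    have e1 : Nat.add (Nat.mul (absd up un) (absd up un)) (Nat.mul (absd vp vn) (absd vp vn)) =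
      absd up un * absd up un + absd vp vn * absd vp vn := rfl
    rw [e1, hE, coreXY_K, coreXY_eA, coreXY_eB, hA, hB]
    exact key
  | false =>
    rw [h1, cond_false] at hok
    rw [cond_false]
    have hok' : (evT (m : ℤ) h (NT.tm ⟨sc, c, a0, b0, a1, b1, p0, q0, p1, q1⟩)).ok = true := hok
    have key := evT_TB hh _ hok'
    generalize evT (m : ℤ) h (NT.tm ⟨sc, c, a0, b0, a1, b1, p0, q0, p1, q1⟩) = r at *
    have e1 : (((ofRes r).Ap : ℤ) - (ofRes r).An) = r.A := by
      simp only [ofRes]; omega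
    have e2 : (((ofRes r).Bp : ℤ) - (ofRes r).Bn) = r.B := by
      simp only [ofRes]; omega
    rw [e1, e2]
    exact key

def RN.add (r s : RN) : RN :=
  ⟨r.ok && s.ok, Nat.add r.Ap s.Ap, Nat.add r.An s.An, Nat.add r.Bp s.Bp, Nat.add r.Bn s.Bn,
    Nat.add r.K s.K, Nat.add r.eA s.eA, Nat.add r.eB s.eB⟩

def evLN (m h : ℕ) : List NT → RN
  | [] => ⟨true, 0, 0, 0, 0, 0, 0, 0⟩
  | t :: ts => (evN m h t).add (evLN m h ts)

noncomputable def valN (ts : List NT) (T : ℝ) : ℝ := (ts.map fun t => t.tm.val T).sum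

lemma evLN_TB {m h : ℕ} (hh : 0 < h) : ∀ ts : List NT, (evLN m h ts).ok = true →
    TB (valN ts) (((m:ℤ):ℝ) - h) ((m:ℤ):ℝ) (((m:ℤ):ℝ) + h)
      (((evLN m h ts).Ap : ℤ) - (evLN m h ts).An)
      (((evLN m h ts).Bp : ℤ) - (evLN m h ts).Bn) (evLN m h ts).K (evLN m h ts).eA
      (evLN m h ts).eB
  | [], _ => by
    refine ⟨0, 0, 0, ?_, ?_, ?_, le_rfl, ?_⟩
    · intro T _; simp [valN]
    · simp [evLN]
    · simp [evLN]
    · simp [evLN]
  | t :: ts, hok => by
    simp only [evLN, RN.add, Bool.and_eq_true] at hok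
    have h1 := evN_TB hh t hok.1
    have h2 := evLN_TB hh ts hok.2
    have h3 := h1.add h2
    have e : valN (t :: ts) = fun T => t.tm.val T + valN ts T := by
      funext T; simp [valN]
    rw [e]
    simp only [evLN, RN.add]
    generalize evN m h t = r at *
    generalize evLN m h ts = s at *
    have e1 : ((Nat.add r.Ap s.Ap : ℕ) : ℤ) - (Nat.add r.An s.An : ℕ) =
        (r.Ap : ℤ) - r.An + ((s.Ap : ℤ) - s.An) := by
      simp only [Nat.add_eq]; push_cast; ring
    have e2 : ((Nat.add r.Bp s.Bp : ℕ) : ℤ) - (Nat.add r.Bn s.Bn : ℕ) =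
        (r.Bp : ℤ) - r.Bn + ((s.Bp : ℤ) - s.Bn) := by
      simp only [Nat.add_eq]; push_cast; ring
    rw [e1, e2]
    exact h3

/-- data of the linear part and the bound: `|2^49 α - (A0p - A0n)| ≤ eA0`, etc.; bound `Dp - Dn` -/
structure Lin where
  A0p : ℕ
  A0n : ℕ
  B0p : ℕ
  B0n : ℕ
  eA0 : ℕ
  eB0 : ℕ
  Dp : ℕ
  Dn : ℕ

def chkR (L : Lin) (m h : ℕ) (r : RN) : Bool :=
  r.ok && Nat.ble
    (Nat.add (Nat.add (Nat.add r.Ap (Nat.add L.A0p (Nat.mul L.B0p m)))
      (Nat.add r.eA (Nat.add L.eA0 (Nat.mul L.eB0 m))))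
      (Nat.add (Nat.mul (Nat.add (absd (Nat.add r.Bp L.B0p) (Nat.add r.Bn L.B0n))
        (Nat.add r.eB L.eB0)) h) (Nat.add (Nat.mul r.K (Nat.mul h h)) L.Dn)))
    (Nat.add (Nat.add r.An (Nat.add L.A0n (Nat.mul L.B0n m))) L.Dp)

def checkCellN (ts : List NT) (L : Lin) (m h : ℕ) : Bool := chkR L m h (evLN m h ts)

/-- admissible linear part -/
def Lin.OK (L : Lin) (α β : ℝ) : Prop :=
  |562949953421312 * α - ((L.A0p:ℝ) - L.A0n)| ≤ L.eA0 ∧
  |562949953421312 * β - ((L.B0p:ℝ) - L.B0n)| ≤ L.eB0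

theorem checkCellN_sound {ts : List NT} {L : Lin} {m h : ℕ} (hh : 0 < h)
    {α β : ℝ} (hL : L.OK α β) (hc : checkCellN ts L m h = true) :
    ∀ T ∈ Icc ((m:ℝ) - h) (m + h),
      562949953421312 * (α + β * T + valN ts T) ≤ (L.Dp:ℝ) - L.Dn := by
  obtain ⟨hα, hβ⟩ := hL
  unfold checkCellN chkR at hc
  simp only [Bool.and_eq_true] at hc
  obtain ⟨hc1, hc2⟩ := hc
  have h1 := evLN_TB hh ts hc1
  have h5 := Nat.le_of_ble_eq_true hc2
  generalize evLN m h ts = r at *
  have h2 : TB (fun T => α + β * T) (((m:ℤ):ℝ) - h) ((m:ℤ):ℝ) (((m:ℤ):ℝ) + h)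
      (((L.A0p:ℤ) - L.A0n) + ((L.B0p:ℤ) - L.B0n) * m) ((L.B0p:ℤ) - L.B0n) 0
      (L.eA0 + L.eB0 * m) L.eB0 := by
    refine ⟨α + β * m, β, 0, ?_, ?_, ?_, le_rfl, by simp⟩
    · intro T _; push_cast; linarith
    · have e : 562949953421312 * (α + β * m) -
        ((((L.A0p:ℤ) - L.A0n) + ((L.B0p:ℤ) - L.B0n) * m : ℤ) : ℝ) =
        (562949953421312 * α - ((L.A0p:ℝ) - L.A0n)) +
          (562949953421312 * β - ((L.B0p:ℝ) - L.B0n)) * m := by push_cast; ring
      rw [e]
      refine (abs_add_le _ _).trans ?_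
      rw [abs_mul, Nat.cast_add, Nat.cast_mul, abs_of_nonneg (Nat.cast_nonneg m : (0:ℝ) ≤ m)]
      exact add_le_add hα (mul_le_mul_of_nonneg_right hβ (Nat.cast_nonneg _))
    · push_cast; exact hβ
  have h3 := h1.add h2
  intro T hT
  have hT' : T ∈ Icc (((m:ℤ):ℝ) - h) (((m:ℤ):ℝ) + h) := by push_cast; exact hT
  have h4 := h3.final rfl rfl hT'
  have e0 : (α + β * T + valN ts T) = valN ts T + (α + β * T) := by ring
  rw [e0]
  refine h4.trans ?_
  have habs : ((((r.Bp : ℤ) - r.Bn + ((L.B0p:ℤ) - L.B0n)).natAbs : ℕ)) =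
      absd (r.Bp + L.B0p) (r.Bn + L.B0n) := by
    rw [absd_eq]; congr 1; push_cast; ring
  rw [habs]
  simp only [Nat.add_eq, Nat.mul_eq] at h5
  generalize absd (r.Bp + L.B0p) (r.Bn + L.B0n) = W at *
  have h5r : (((r.Ap + (L.A0p + L.B0p * m)) + (r.eA + (L.eA0 + L.eB0 * m)) +
      ((W + (r.eB + L.eB0)) * h + (r.K * (h * h) + L.Dn)) : ℕ) : ℝ) ≤
      ((r.An + (L.A0n + L.B0n * m) + L.Dp : ℕ) : ℝ) := by exact_mod_cast h5
  push_cast at h5r ⊢
  nlinarith

/-- cells `[x, x+2h₁], …` -/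
def checkCellsN (ts : List NT) (L : Lin) : ℕ → List ℕ → Bool
  | _, [] => true
  | x, h :: hs => Nat.blt 0 h && checkCellN ts L (Nat.add x h) h &&
      checkCellsN ts L (Nat.add x (Nat.mul 2 h)) hs

theorem checkCellsN_sound {ts : List NT} {L : Lin} {α β : ℝ} (hL : L.OK α β) :
    ∀ (hs : List ℕ) (x : ℕ), hs ≠ [] → checkCellsN ts L x hs = true →
    ∀ T : ℝ, (x:ℝ) ≤ T → T ≤ x + 2 * (hs.sum : ℕ) →
      562949953421312 * (α + β * T + valN ts T) ≤ (L.Dp:ℝ) - L.Dn
  | [], _, hne, _, _, _, _ => absurd rfl hne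
  | h :: hs, x, _, hc, T, hT1, hT2 => by
    simp only [checkCellsN, Bool.and_eq_true] at hc
    obtain ⟨⟨hc1, hc2⟩, hc3⟩ := hc
    have hh : 0 < h := Nat.le_of_ble_eq_true hc1
    simp only [Nat.add_eq, Nat.mul_eq] at hc2 hc3
    rcases le_total T ((x:ℝ) + 2 * h) with h1 | h1
    · apply checkCellN_sound hh hL hc2 T
      constructor
      · push_cast; linarith
      · push_cast; linarith
    · rcases eq_or_ne hs [] with h0 | h0
      · subst h0
        apply checkCellN_sound hh hL hc2 T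
        simp only [List.sum_cons, List.sum_nil, add_zero] at hT2
        constructor
        · push_cast; linarith
        · push_cast; linarith
      · apply checkCellsN_sound hL hs (x + 2 * h) h0 hc3 T
        · push_cast; exact h1
        · rw [List.sum_cons] at hT2
          push_cast at hT2 ⊢
          linarith

end Crest.Agent.R006.NumFastx179
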