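import Crest.Agent.R006.NumBr_464
import Crest.Agent.R006.NumFast_179

/-!
# Row 6: dictionary between `potL` (weighted segments) and helper179's fast cell checker (helper464)

`potL_line_le` : `potL L (gc P + t gc δ) + a + b t ≤ cl / 2^48` for all real `t` with
`x ≤ 2 t ≤ x + 2 Σ hs`, from `checkCellsN` on a literal term list `ts` (`NumFast_179`).
-/

set_option autoImplicit false

namespace Crest.Agent.R006.NumDictx464

open Real Num482 NumPhix179 NumCellx179 NumFastx179 NumSegx464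

/-- the term `c Φ((P - X) conj d + T δ conj d)` -/
def term (c : ℤ) (P δ X d : ℤ × ℤ) : Tm :=
  ⟨c, (P.1 - X.1) * d.1 + (P.2 - X.2) * d.2, δ.1 * d.1 + δ.2 * d.2,
    (P.2 - X.2) * d.1 - (P.1 - X.1) * d.2, δ.2 * d.1 - δ.1 * d.2⟩

theorem term_val (c : ℤ) (P δ X d : ℤ × ℤ) (t : ℝ) :
    (term c P δ X d).val t = c *
      Phi ((gc P + t * gc δ - gc X) * (starRingEnd ℂ) (gc d)).re
        ((gc P + t * gc δ - gc X) * (starRingEnd ℂ) (gc d)).im := by
  unfold term Tm.val
  congr 2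
  · simp; ring
  · simp; ring

theorem pot_line {A B d : ℤ × ℤ} {g n0 : ℕ} (hg : 0 < g)
    (h1 : B.1 - A.1 = g * d.1) (h2 : B.2 - A.2 = g * d.2)
    (hn : (n0 : ℤ) = d.1 * d.1 + d.2 * d.2) (hn0 : 0 < n0) (s : ℂ) :
    pot (gc A) (gc B) s = -(1 / 2) * Real.log n0 +
      (Phi ((s - gc A) * (starRingEnd ℂ) (gc d)).re ((s - gc A) * (starRingEnd ℂ) (gc d)).im -
        Phi ((s - gc B) * (starRingEnd ℂ) (gc d)).re ((s - gc B) * (starRingEnd ℂ) (gc d)).im) /
      ((g * n0 : ℕ) : ℝ) := by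
  have hgr : (0 : ℝ) < g := by exact_mod_cast hg
  have hnr : (0 : ℝ) < n0 := by exact_mod_cast hn0
  have hnsq : (n0 : ℝ) = Complex.normSq (gc d) := by
    rw [Complex.normSq_apply]; simp only [gc_re, gc_im]; exact_mod_cast hn
  have hd0 : gc d ≠ 0 := by
    rw [Ne, ← Complex.normSq_eq_zero, ← hnsq]; exact hnr.ne'
  have he : gc B - gc A = ((g : ℝ) : ℂ) * gc d := by
    apply Complex.ext
    · simp; exact_mod_cast h1
    · simp; exact_mod_cast h2
  have hgc : ((g : ℝ) : ℂ) ≠ 0 := by exact_mod_cast hgr.ne'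
  have he0 : gc B - gc A ≠ 0 := by rw [he]; exact mul_ne_zero hgc hd0
  have hNr : (0 : ℝ) < ((g * n0 : ℕ) : ℝ) := by push_cast; positivity
  have hconj : (starRingEnd ℂ) (gc d) ≠ 0 := (map_ne_zero _).2 hd0
  have hden : ∀ X : ℂ, X / (gc B - gc A) =
      (X * (starRingEnd ℂ) (gc d)) / (((g * n0 : ℕ) : ℝ) : ℂ) := by
    intro X
    rw [he, ← mul_div_mul_right _ _ hconj, mul_assoc, Complex.mul_conj, ← hnsq]
    congr 1
    push_cast; ring
  unfold pot
  rw [inner_eq he0]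
  have hw1 : (s - gc A) / (gc B - gc A) - 1 = (s - gc B) / (gc B - gc A) := by
    field_simp; ring
  have hlog : Real.log ‖gc B - gc A‖ = Real.log g + 1 / 2 * Real.log n0 := by
    rw [he, norm_mul, Real.log_mul (by simpa using hgr.ne') (by simpa using hd0),
      Complex.norm_of_nonneg hgr.le, hnsq, ← Complex.sq_norm, Real.log_pow]
    push_cast; ring
  have hlogN : Real.log ((g * n0 : ℕ) : ℝ) = Real.log g + Real.log n0 := by
    push_cast; exact Real.log_mul hgr.ne' hnr.ne'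
  have hdiff : ((s - gc A) * (starRingEnd ℂ) (gc d)).re -
      ((s - gc B) * (starRingEnd ℂ) (gc d)).re = ((g * n0 : ℕ) : ℝ) := by
    rw [← Complex.sub_re, ← sub_mul]
    have : s - gc A - (s - gc B) = ((g : ℝ) : ℂ) * gc d := by rw [← he]; ring
    rw [this, mul_assoc, Complex.mul_conj, ← hnsq, ← Complex.ofReal_mul, Complex.ofReal_re]
    push_cast; ring
  rw [hw1, hden, hden, hlog]
  generalize (s - gc A) * (starRingEnd ℂ) (gc d) = YA at *
  generalize (s - gc B) * (starRingEnd ℂ) (gc d) = YB at *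
  rw [Complex.div_ofReal_re, Complex.div_ofReal_im, Complex.div_ofReal_re, Complex.div_ofReal_im,
    Phi_div hNr, Phi_div hNr, hlogN]
  field_simp
  rw [← hdiff]
  ring

/-! ### the term list of a weighted list -/

def gg (p : WSeg) : ℕ := Nat.gcd (p.2.1.1 - p.1.1).natAbs (p.2.1.2 - p.1.2).natAbs
def dd (p : WSeg) : ℤ × ℤ := ((p.2.1.1 - p.1.1) / (gg p : ℤ), (p.2.1.2 - p.1.2) / (gg p : ℤ))
def nn (p : WSeg) : ℕ := ((dd p).1 * (dd p).1 + (dd p).2 * (dd p).2).natAbs
def cc (Dc : ℕ) (p : WSeg) : ℤ := (Dc : ℤ) * p.2.2 / ((gg p * nn p : ℕ) : ℤ)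

def ok1 (Dc : ℕ) (p : WSeg) : Bool :=
  decide (0 < gg p) && decide (p.2.1.1 - p.1.1 = gg p * (dd p).1) &&
    decide (p.2.1.2 - p.1.2 = gg p * (dd p).2) && (decide (nn p = 1) || decide (nn p = 2)) &&
    decide (cc Dc p * ((gg p * nn p : ℕ) : ℤ) = Dc * p.2.2)

def gen1 (Dc : ℕ) (P δ : ℤ × ℤ) (p : WSeg) : List Tm :=
  [term (cc Dc p) P δ p.1 (dd p), term (-cc Dc p) P δ p.2.1 (dd p)]

/-- mass, if the direction has norm `√2` -/
def m2 (p : WSeg) : ℤ := bif Nat.beq (nn p) 2 then p.2.2 else 0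

theorem pot_gen1 {Dc : ℕ} {p : WSeg} (h : ok1 Dc p = true) (P δ : ℤ × ℤ) (t : ℝ) :
    (Dc : ℝ) * ((p.2.2 : ℝ) * pot (gc p.1) (gc p.2.1) (gc P + t * gc δ)) =
      -((Dc : ℝ) * (m2 p : ℝ) / 2) * Real.log 2 + valL (gen1 Dc P δ p) t := by
  unfold ok1 at h
  simp only [Bool.and_eq_true, Bool.or_eq_true, decide_eq_true_eq] at h
  obtain ⟨⟨⟨⟨hg, h1⟩, h2⟩, hn⟩, hc⟩ := h
  have hn' : ((nn p : ℕ) : ℤ) = (dd p).1 * (dd p).1 + (dd p).2 * (dd p).2 := by
    unfold nn
    rw [Int.natCast_natAbs, abs_of_nonneg (add_nonneg (mul_self_nonneg _) (mul_self_nonneg _))]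
  have hn0 : 0 < nn p := by omega
  rw [pot_line hg h1 h2 hn' hn0]
  unfold gen1
  simp only [valL, term_val, add_zero]
  have hNr : (0 : ℝ) < ((gg p * nn p : ℕ) : ℝ) := by
    have : 0 < gg p * nn p := Nat.mul_pos hg hn0
    exact_mod_cast this
  have hc' : (cc Dc p : ℝ) * ((gg p * nn p : ℕ) : ℝ) = Dc * p.2.2 := by exact_mod_cast hc
  have hm2 : (p.2.2 : ℝ) * Real.log (nn p) = (m2 p : ℝ) * Real.log 2 := by
    unfold m2
    rcases hn with hn | hn
    · rw [hn]
      have e0 : Nat.beq 1 2 = false := rfl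
      rw [e0]; simp
    · rw [hn]
      have e0 : Nat.beq 2 2 = true := rfl
      rw [e0]; simp
  generalize Phi ((gc P + t * gc δ - gc p.1) * (starRingEnd ℂ) (gc (dd p))).re
    ((gc P + t * gc δ - gc p.1) * (starRingEnd ℂ) (gc (dd p))).im = FA
  generalize Phi ((gc P + t * gc δ - gc p.2.1) * (starRingEnd ℂ) (gc (dd p))).re
    ((gc P + t * gc δ - gc p.2.1) * (starRingEnd ℂ) (gc (dd p))).im = FB
  generalize ((gg p * nn p : ℕ) : ℝ) = N at *
  have e : (Dc : ℝ) * ((p.2.2 : ℝ) * (-(1 / 2) * Real.log (nn p) + (FA - FB) / N)) =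
      -(Dc : ℝ) / 2 * ((p.2.2 : ℝ) * Real.log (nn p)) + (Dc * p.2.2) / N * (FA - FB) := by
    ring
  rw [e, hm2, ← hc', mul_div_assoc, div_self hNr.ne']
  push_cast
  ring

def okL (Dc : ℕ) : List WSeg → Bool
  | [] => true
  | p :: L => ok1 Dc p && okL Dc L

def genL (Dc : ℕ) (P δ : ℤ × ℤ) : List WSeg → List Tm
  | [] => []
  | p :: L => gen1 Dc P δ p ++ genL Dc P δ L

def mass2 : List WSeg → ℤ
  | [] => 0
  | p :: L => m2 p + mass2 L

def mass : List WSeg → ℤ
  | [] => 0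
  | p :: L => p.2.2 + mass L

theorem valL_append (L L' : List Tm) (t : ℝ) : valL (L ++ L') t = valL L t + valL L' t := by
  induction L with
  | nil => simp [valL]
  | cons x L ih => simp only [List.cons_append, valL, ih]; ring

theorem potL_genL {Dc : ℕ} (P δ : ℤ × ℤ) (t : ℝ) : ∀ L : List WSeg, okL Dc L = true →
    (Dc : ℝ) * potL L (gc P + t * gc δ) =
      -((Dc : ℝ) * (mass2 L : ℝ) / 2) * Real.log 2 + valL (genL Dc P δ L) t
  | [], _ => by simp [potL, mass2, genL, valL]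
  | p :: L, h => by
    simp only [okL, Bool.and_eq_true] at h
    have h1 := pot_gen1 h.1 P δ t
    have h2 := potL_genL P δ t L h.2
    simp only [potL, mass2, genL, valL_append]
    rw [mul_add, h1, h2]
    push_cast; ring

/-! ### comparison of term lists -/

def key (t x : Tm) : Bool :=
  decide (t.a = x.a) && decide (t.b = x.b) &&
    ((decide (t.p = x.p) && decide (t.q = x.q)) || (decide (t.p = -x.p) && decide (t.q = -x.q)))

theorem key_phi {t x : Tm} (h : key t x = true) (T : ℝ) :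
    Phi (t.a + t.b * T) (t.p + t.q * T) = Phi (x.a + x.b * T) (x.p + x.q * T) := by
  unfold key at h
  simp only [Bool.and_eq_true, Bool.or_eq_true, decide_eq_true_eq] at h
  obtain ⟨⟨h1, h2⟩, h3⟩ := h
  rw [h1, h2]
  rcases h3 with ⟨h3, h4⟩ | ⟨h3, h4⟩
  · rw [h3, h4]
  · rw [h3, h4]
    have e : (((-x.p : ℤ) : ℝ) + ((-x.q : ℤ) : ℝ) * T) = -((x.p : ℝ) + x.q * T) := by
      push_cast; ring
    rw [e, Phi_even]

/-- insert a term, adding the coefficients of equal terms -/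
def addT (t : Tm) : List Tm → List Tm
  | [] => [t]
  | x :: L => bif key t x then ⟨x.c + t.c, x.a, x.b, x.p, x.q⟩ :: L else x :: addT t L

theorem valL_addT (t : Tm) (T : ℝ) : ∀ L : List Tm, valL (addT t L) T = t.val T + valL L T
  | [] => by simp [addT, valL]
  | x :: L => by
    unfold addT
    cases h : key t x with
    | true =>
      rw [cond_true]
      simp only [valL, Tm.val]
      rw [key_phi h T]
      push_cast; ring
    | false =>
      rw [cond_false]
      simp only [valL]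
      rw [valL_addT t T L]; ring

def accT (acc : List Tm) : List Tm → List Tm
  | [] => acc
  | t :: L => accT (addT t acc) L

theorem valL_accT (T : ℝ) : ∀ (L acc : List Tm), valL (accT acc L) T = valL acc T + valL L T
  | [], acc => by simp [accT, valL]
  | t :: L, acc => by
    simp only [accT, valL]
    rw [valL_accT T L, valL_addT]; ring

def subN (acc : List Tm) : List NT → List Tm
  | [] => acc
  | t :: L => subN (addT ⟨-t.tm.c, t.tm.a, t.tm.b, t.tm.p, t.tm.q⟩ acc) L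

theorem valL_subN (T : ℝ) : ∀ (L : List NT) (acc : List Tm),
    valL (subN acc L) T = valL acc T - valN L T
  | [], acc => by simp [subN, valN]
  | t :: L, acc => by
    simp only [subN]
    rw [valL_subN T L, valL_addT]
    unfold valN
    rw [List.map_cons, List.sum_cons]
    simp only [Tm.val]
    push_cast; ring

def zeroT : List Tm → Bool
  | [] => true
  | t :: L => decide (t.c = 0) && zeroT L

theorem valL_zeroT (T : ℝ) : ∀ L : List Tm, zeroT L = true → valL L T = 0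
  | [], _ => by simp [valL]
  | t :: L, h => by
    simp only [zeroT, Bool.and_eq_true, decide_eq_true_eq] at h
    simp only [valL, Tm.val, h.1, valL_zeroT T L h.2]
    simp

/-- the literal list `ts` is the term list `gen`, up to order and merging -/
def same (ts : List NT) (gen : List Tm) : Bool := zeroT (subN (accT [] gen) ts)

theorem valN_eq {ts : List NT} {gen : List Tm} (h : same ts gen = true) (T : ℝ) :
    valN ts T = valL gen T := by
  have := valL_zeroT T _ h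
  rw [valL_subN, valL_accT] at this
  simp only [valL] at this
  linarith

/-! ### doubling -/

def dbl (p : WSeg) : WSeg := ((2 * p.1.1, 2 * p.1.2), (2 * p.2.1.1, 2 * p.2.1.2), p.2.2)

def dblL (L : List WSeg) : List WSeg := L.map dbl

def ne1 (p : WSeg) : Bool := decide (sqN (p.2.1.1 - p.1.1) (p.2.1.2 - p.1.2) ≠ 0)

theorem gc_dbl (z : ℤ × ℤ) : gc (2 * z.1, 2 * z.2) = 2 * gc z := by
  apply Complex.ext <;> simp

theorem potL_dbl (s : ℂ) : ∀ L : List WSeg, potOK L = true →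
    potL (dblL L) (2 * s) = potL L s + (mass L : ℝ) * Real.log 2
  | [], _ => by simp [dblL, potL, mass]
  | p :: L, h => by
    simp only [potOK, Bool.and_eq_true, decide_eq_true_eq] at h
    have ih := potL_dbl s L h.2
    simp only [dblL, List.map_cons, potL, mass] at ih ⊢
    rw [ih]
    have hAB : gc p.2.1 - gc p.1 ≠ 0 := by
      rw [Ne, ← Complex.normSq_eq_zero]
      have : Complex.normSq (gc p.2.1 - gc p.1) =
          ((sqN (p.2.1.1 - p.1.1) (p.2.1.2 - p.1.2) : ℕ) : ℝ) := by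
        rw [sqN_cast, Complex.normSq_apply]; simp; ring
      rw [this]; exact_mod_cast h.1
    have hs : pot (gc (dbl p).1) (gc (dbl p).2.1) (2 * s) =
        pot (gc p.1) (gc p.2.1) s + Real.log 2 := by
      have h2 : (2 * gc p.2.1) - (2 * gc p.1) ≠ 0 := by
        rw [← mul_sub]; exact mul_ne_zero two_ne_zero hAB
      have := pot_scale h2 (2 * s) (r := 2) (by norm_num)
      have e : ∀ z : ℂ, 2 * z / ((2 : ℝ) : ℂ) = z := by
        intro z; push_cast; field_simp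
      rw [e, e, e] at this
      unfold dbl
      simp only
      rw [gc_dbl, gc_dbl, this]; ring
    rw [hs]
    unfold dbl
    simp only
    push_cast; ring

/-! ### the linear part -/

def mkLin (Dh : ℕ) (M M2 : ℤ) (IA IB : ℤ × ℤ) (cl : ℤ) : Lin :=
  (fun (I J : ℤ × ℤ) (D : ℤ) =>
    ⟨(2 * I.1).toNat, (-(2 * I.1)).toNat, (2 * J.1).toNat, (-(2 * J.1)).toNat,
      (2 * (I.2 - I.1)).toNat, (2 * (J.2 - J.1)).toNat, D.toNat, (-D).toNat⟩)
  (subI (smulI (2 * Dh) IA) (smulI (Dh * (2 * M + M2)) ln2I)) (smulI Dh IB) (4 * Dh * cl)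

theorem toNat_sub (z : ℤ) : ((z.toNat : ℕ) : ℝ) - ((-z).toNat : ℕ) = z := by
  have h : ((z.toNat : ℤ)) - ((-z).toNat : ℤ) = z := by omega
  exact_mod_cast h

theorem enc_abs {r : ℝ} {I : ℤ × ℤ} (h : Enc r I) :
    |562949953421312 * r - ((((2 * I.1).toNat : ℕ) : ℝ) - ((-(2 * I.1)).toNat : ℕ))| ≤
      (((2 * (I.2 - I.1)).toNat : ℕ) : ℝ) := by
  obtain ⟨h1, h2⟩ := h
  have h3 : (I.1 : ℝ) ≤ I.2 := h1.trans h2
  have h4 : I.1 ≤ I.2 := by exact_mod_cast h3
  have h5 : (((2 * (I.2 - I.1)).toNat : ℕ) : ℤ) = 2 * (I.2 - I.1) :=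
    Int.toNat_of_nonneg (by omega)
  have h6 : (((2 * (I.2 - I.1)).toNat : ℕ) : ℝ) = 2 * ((I.2 : ℝ) - I.1) := by exact_mod_cast h5
  rw [toNat_sub, h6, abs_le]
  push_cast
  constructor <;> linarith

theorem mkLin_OK {Dh : ℕ} {M M2 : ℤ} {IA IB : ℤ × ℤ} {cl : ℤ} {a b : ℝ} (ha : Enc a IA)
    (hb : Enc b IB) : (mkLin Dh M M2 IA IB cl).OK
      (2 * Dh * a - Dh * (2 * M + M2) * Real.log 2) (Dh * b) := by
  have e1 := (ha.smul (2 * (Dh : ℤ))).sub (enc_ln2.smul ((Dh : ℤ) * (2 * M + M2)))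
  have e2 := hb.smul (Dh : ℤ)
  push_cast at e1 e2
  exact ⟨enc_abs e1, enc_abs e2⟩

/-- **the dictionary theorem** -/
theorem potL_line_le {L : List WSeg} {P δ : ℤ × ℤ} {Dh : ℕ} (hDh : 0 < Dh) {ts : List NT}
    {IA IB : ℤ × ℤ} {cl : ℤ} {a b : ℝ} (ha : Enc a IA) (hb : Enc b IB)
    (hpot : potOK L = true) (hok : okL (2 * Dh) (dblL L) = true)
    (hsame : same ts (genL (2 * Dh) (2 * P.1, 2 * P.2) δ (dblL L)) = true)
    {x : ℕ} {hs : List ℕ} (hne : hs ≠ [])
    (hc : checkCellsN ts (mkLin Dh (mass L) (mass2 (dblL L)) IA IB cl) x hs = true) :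
    ∀ t : ℝ, (x : ℝ) ≤ 2 * t → 2 * t ≤ x + 2 * (hs.sum : ℕ) →
      potL L (gc P + t * gc δ) + a + b * t ≤ (cl : ℝ) / 281474976710656 := by
  intro t ht1 ht2
  have h1 := checkCellsN_sound (mkLin_OK (Dh := Dh) (M := mass L) (M2 := mass2 (dblL L))
    (cl := cl) ha hb) hs x hne hc (2 * t) ht1 ht2
  have h2 := potL_genL (Dc := 2 * Dh) (2 * P.1, 2 * P.2) δ (2 * t) (dblL L) hok
  have h3 := potL_dbl (gc P + t * gc δ) L hpot
  have e : gc (2 * P.1, 2 * P.2) + ((2 * t : ℝ) : ℂ) * gc δ = 2 * (gc P + t * gc δ) := by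
    rw [gc_dbl]; push_cast; ring
  rw [e, h3, ← valN_eq hsame] at h2
  have hD : ((mkLin Dh (mass L) (mass2 (dblL L)) IA IB cl).Dp : ℝ) -
      (mkLin Dh (mass L) (mass2 (dblL L)) IA IB cl).Dn = ((4 * Dh * cl : ℤ) : ℝ) :=
    toNat_sub (4 * Dh * cl)
  rw [hD] at h1
  have hDr : (0 : ℝ) < Dh := by exact_mod_cast hDh
  push_cast at h1 h2
  rw [le_div_iff₀ (by norm_num)]
  have h4 : valN ts (2 * t) = 2 * Dh * (potL L (gc P + t * gc δ) + (mass L : ℝ) * Real.log 2) +
      (2 * Dh * (mass2 (dblL L) : ℝ) / 2) * Real.log 2 := by linarith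
  rw [h4] at h1
  have h5 : 562949953421312 * (2 * (Dh : ℝ) * a - Dh * (2 * (mass L : ℝ) + mass2 (dblL L)) *
      Real.log 2 + Dh * b * (2 * t) + (2 * Dh * (potL L (gc P + t * gc δ) +
      (mass L : ℝ) * Real.log 2) + (2 * Dh * (mass2 (dblL L) : ℝ) / 2) * Real.log 2)) =
      (4 * Dh) * ((potL L (gc P + t * gc δ) + a + b * t) * 281474976710656) := by ring
  rw [h5] at h1
  exact le_of_mul_le_mul_left h1 (by positivity)

end Crest.Agent.R006.NumDictx464
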