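import Crest.Agent.R006.NumSeg_464

/-!
# Row 6, certified numerics: mutual energies of segments, real side (helper464)

`segE A B C D` = mutual logarithmic energy of the uniform probability measures on `[A,B]`, `[C,D]`;
`segE_eq` closed form, `segE_scale`, `segE_conj`, `segE_rev_left`, continuity of potentials.
-/

set_option autoImplicit false

namespace Crest.Agent.R006.NumSegx464

open Real MeasureTheory Crest.Agent.R006.NumPhix179

/-- mutual logarithmic energy of the uniform probability measures on `[A,B]` and `[C,D]`. -/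
noncomputable def segE (A B C D : ℂ) : ℝ :=
  ∫ τ in (0:ℝ)..1, ∫ κ in (0:ℝ)..1, Real.log ‖(C + τ * (D - C)) - (A + κ * (B - A))‖

/-- the angle `arctan (re/im)` (`= ±π/2` on the real axis). -/
noncomputable def ang (W : ℂ) : ℝ := -Complex.arg (-Complex.I * W)

theorem ang_of_pos {W : ℂ} (h : 0 < W.im) : ang W = Real.arctan (W.re / W.im) := by
  unfold ang; rw [arg_negI h]; ring

/-- corner contribution -/
noncomputable def kor (M W : ℂ) : ℝ :=
  ((starRingEnd ℂ) M * W ^ 2).re * (1 / 2 * Real.log (W.re ^ 2 + W.im ^ 2)) +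
    ((starRingEnd ℂ) M * W ^ 2).im * ang W

theorem Gc_div_re {N : ℝ} (hN : 0 < N) {M : ℂ} (hM : M ≠ 0) (W : ℂ) :
    (Gc (W / N) / (M / N)).re = (1 / (2 * N * Complex.normSq M)) *
      (kor M W - ((starRingEnd ℂ) M * W ^ 2).re * (Real.log N + 3 / 2)) := by
  have hNc : (N : ℂ) ≠ 0 := by exact_mod_cast hN.ne'
  have hsq : Complex.normSq M ≠ 0 := by
    rw [Ne, Complex.normSq_eq_zero]; exact hM
  by_cases hW : W = 0
  · subst hW
    simp [Gc, kor]
  have hlog : Complex.log (-Complex.I * (W / N)) =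
      Complex.log (-Complex.I * W) - (Real.log N : ℂ) := by
    have e1 : -Complex.I * (W / N) = ((N⁻¹ : ℝ) : ℂ) * (-Complex.I * W) := by
      push_cast; field_simp
    have hne : -Complex.I * W ≠ 0 := mul_ne_zero (neg_ne_zero.2 Complex.I_ne_zero) hW
    rw [e1, Complex.log_ofReal_mul (inv_pos.2 hN) hne, Real.log_inv]
    push_cast; ring
  have e2 : Gc (W / N) / (M / N) = ((starRingEnd ℂ) M * W ^ 2) *
      (Complex.log (-Complex.I * W) - (Real.log N : ℂ) - ((3 / 2 : ℝ) : ℂ)) *
        (((1 / (2 * N * Complex.normSq M) : ℝ)) : ℂ) := by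
    unfold Gc
    rw [hlog]
    have hmul : (starRingEnd ℂ) M = (Complex.normSq M : ℂ) / M := by
      rw [eq_div_iff hM, mul_comm, Complex.mul_conj]
    rw [hmul]
    have hsq' : (Complex.normSq M : ℂ) ≠ 0 := by exact_mod_cast hsq
    push_cast
    field_simp
    ring
  rw [e2, Complex.re_mul_ofReal]
  have hn : ‖-Complex.I * W‖ = ‖W‖ := by simp
  have e3 : (((starRingEnd ℂ) M * W ^ 2) *
      (Complex.log (-Complex.I * W) - (Real.log N : ℂ) - ((3 / 2 : ℝ) : ℂ))).re =
      kor M W - ((starRingEnd ℂ) M * W ^ 2).re * (Real.log N + 3 / 2) := by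
    unfold kor ang
    rw [Complex.mul_re]
    simp only [Complex.sub_re, Complex.sub_im, Complex.ofReal_re, Complex.ofReal_im,
      Complex.log_re, Complex.log_im, hn, ← log_sq_eq]
    ring
  rw [e3]; ring

/-- **closed form of the mutual energy** of two segments (`C, D` on the closed left side of
the line `AB`). -/
theorem segE_eq {A B C D : ℂ} (hAB : B - A ≠ 0) (hCD : D - C ≠ 0)
    {M Z : ℂ} {N : ℝ} (hN : N = Complex.normSq (B - A))
    (hM : M = (D - C) * (starRingEnd ℂ) (B - A)) (hZ : Z = (C - A) * (starRingEnd ℂ) (B - A))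
    (h1 : 0 ≤ Z.im) (h2 : 0 ≤ (Z + M).im) :
    segE A B C D = -(3 / 2) - 1 / 2 * Real.log N + (1 / (2 * N * Complex.normSq M)) *
      (kor M (Z + M) - kor M Z - kor M (Z + M - N) + kor M (Z - N)) := by
  have hN0 : 0 < N := by rw [hN]; exact Complex.normSq_pos.2 hAB
  have hNc : (N : ℂ) ≠ 0 := by exact_mod_cast hN0.ne'
  have hM0 : M ≠ 0 := by
    rw [hM]; exact mul_ne_zero hCD ((map_ne_zero _).2 hAB)
  have hconj : (starRingEnd ℂ) (B - A) = (N : ℂ) / (B - A) := by
    rw [eq_div_iff hAB, mul_comm, Complex.mul_conj, hN]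
  have hζ : ∀ τ : ℝ, ((C + τ * (D - C)) - A) / (B - A) = Z / N + τ * (M / N) := by
    intro τ
    rw [hZ, hM, hconj]
    field_simp
    ring
  have hinner : ∀ τ : ℝ, ∫ κ in (0:ℝ)..1,
      Real.log ‖(C + τ * (D - C)) - (A + κ * (B - A))‖ =
      Real.log ‖B - A‖ + Phi (Z / N + τ * (M / N)).re (Z / N + τ * (M / N)).im -
        Phi (Z / N - 1 + τ * (M / N)).re (Z / N - 1 + τ * (M / N)).im := by
    intro τ
    rw [integral_log_norm_seg A (B - A) (C + τ * (D - C)) hAB 0 1, hζ]
    have e1 : (Z / N - 1 + τ * (M / N)).re = (Z / N + τ * (M / N)).re - 1 := by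
      simp only [Complex.add_re, Complex.sub_re, Complex.one_re]; ring
    have e2 : (Z / N - 1 + τ * (M / N)).im = (Z / N + τ * (M / N)).im := by
      simp only [Complex.add_im, Complex.sub_im, Complex.one_im]; ring
    rw [e1, e2]; simp only [sub_zero]; ring
  have hdiv : ∀ X : ℂ, (X / (N : ℂ)).im = X.im / N := fun X => Complex.div_ofReal_im X N
  have i1 := integral_Phi_line (Z / N) (M / N) (div_ne_zero hM0 hNc)
    (by rw [hdiv]; exact div_nonneg h1 hN0.le)
    (by rw [← add_div, hdiv]; exact div_nonneg h2 hN0.le)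
  have i2 := integral_Phi_line (Z / N - 1) (M / N) (div_ne_zero hM0 hNc)
    (by rw [Complex.sub_im, hdiv]; simpa using div_nonneg h1 hN0.le)
    (by
      have e : Z / N - 1 + M / N = (Z + M) / N - 1 := by ring
      rw [e, Complex.sub_im, hdiv]
      simpa using div_nonneg h2 hN0.le)
  have hE : segE A B C D = Real.log ‖B - A‖ + ((Gc (Z / N + M / N) - Gc (Z / N)) / (M / N)).re -
      ((Gc (Z / N - 1 + M / N) - Gc (Z / N - 1)) / (M / N)).re := by
    unfold segE
    simp only [hinner]
    rw [intervalIntegral.integral_sub ((by simp : IntervalIntegrable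
      (fun _ : ℝ => Real.log ‖B - A‖) volume 0 1).add i1.1) i2.1,
      intervalIntegral.integral_add (by simp) i1.1, i1.2, i2.2]
    simp
  have c1 : Z / N + M / N = (Z + M) / N := by ring
  have c2 : Z / N - 1 + M / N = (Z + M - N) / N := by field_simp; ring
  have c3 : Z / N - 1 = (Z - N) / N := by field_simp
  have hlogN : Real.log ‖B - A‖ = 1 / 2 * Real.log N := by
    rw [hN, ← Complex.sq_norm, Real.log_pow]; push_cast; ring
  rw [hE, c1, c2, c3, sub_div, sub_div, Complex.sub_re, Complex.sub_re, Gc_div_re hN0 hM0,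
    Gc_div_re hN0 hM0, Gc_div_re hN0 hM0, Gc_div_re hN0 hM0, hlogN]
  have hquad : ((starRingEnd ℂ) M * (Z + M) ^ 2).re - ((starRingEnd ℂ) M * Z ^ 2).re -
      ((starRingEnd ℂ) M * (Z + M - N) ^ 2).re + ((starRingEnd ℂ) M * (Z - N) ^ 2).re =
      2 * N * Complex.normSq M := by
    have e : (starRingEnd ℂ) M * (Z + M) ^ 2 - (starRingEnd ℂ) M * Z ^ 2 -
        (starRingEnd ℂ) M * (Z + M - N) ^ 2 + (starRingEnd ℂ) M * (Z - N) ^ 2 =
        ((2 * N * Complex.normSq M : ℝ) : ℂ) := by
      push_cast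
      rw [← Complex.mul_conj]; ring
    have := congrArg Complex.re e
    simpa only [Complex.add_re, Complex.sub_re, Complex.ofReal_re] using this
  have hsq : Complex.normSq M ≠ 0 := by
    rw [Ne, Complex.normSq_eq_zero]; exact hM0
  have hP : (2 * N * Complex.normSq M) ≠ 0 := by positivity
  generalize 2 * N * Complex.normSq M = P at hquad hP ⊢
  generalize ((starRingEnd ℂ) M * (Z + M) ^ 2).re = r1 at hquad ⊢
  generalize ((starRingEnd ℂ) M * Z ^ 2).re = r2 at hquad ⊢
  generalize ((starRingEnd ℂ) M * (Z + M - N) ^ 2).re = r3 at hquad ⊢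
  generalize ((starRingEnd ℂ) M * (Z - N) ^ 2).re = r4 at hquad ⊢
  generalize kor M (Z + M) = k1
  generalize kor M Z = k2
  generalize kor M (Z + M - N) = k3
  generalize kor M (Z - N) = k4
  generalize Real.log N = lN
  field_simp
  linear_combination (-(2 * lN) - 3) * hquad

/-- reflection: the closed right side. -/
theorem segE_conj (A B C D : ℂ) : segE ((starRingEnd ℂ) A) ((starRingEnd ℂ) B)
    ((starRingEnd ℂ) C) ((starRingEnd ℂ) D) = segE A B C D := by
  unfold segE
  congr 1; funext τ; congr 1; funext κ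
  rw [← Complex.norm_conj]
  congr 2
  simp

/-- reversal of the first segment. -/
theorem segE_rev_left (A B C D : ℂ) : segE B A C D = segE A B C D := by
  unfold segE
  congr 1; funext τ
  have h := intervalIntegral.integral_comp_sub_left
    (fun κ : ℝ => Real.log ‖(C + τ * (D - C)) - (A + κ * (B - A))‖) (a := 0) (b := 1) 1
  simp only [sub_self, sub_zero] at h
  rw [← h]
  congr 1; funext κ; congr 2
  push_cast; ring

theorem continuous_Phi : Continuous (fun w : ℂ => Phi w.re w.im) := by
  have e : (fun w : ℂ => Phi w.re w.im) = fun w : ℂ => (Fc ⟨w.re, |w.im|⟩).re := by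
    funext w
    rw [Fc_re (by simp)]
    rcases abs_choice w.im with h | h
    · simp only [h]
    · simp only [h]; rw [Phi_even]
  rw [e]
  have hc : Continuous (fun w : ℂ => (⟨w.re, |w.im|⟩ : ℂ)) := by
    have h : (fun w : ℂ => (⟨w.re, |w.im|⟩ : ℂ)) =
        fun w : ℂ => ((w.re : ℂ) + (|w.im| : ℝ) * Complex.I) := by
      funext w; apply Complex.ext <;> simp
    rw [h]
    have h1 : Continuous (fun w : ℂ => |w.im|) := Complex.continuous_im.abs
    exact (Complex.continuous_ofReal.comp Complex.continuous_re).add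
      ((Complex.continuous_ofReal.comp h1).mul continuous_const)
  refine Complex.continuous_re.comp ?_
  rw [continuous_iff_continuousAt]
  intro w
  exact ContinuousAt.comp (f := fun w : ℂ => (⟨w.re, |w.im|⟩ : ℂ))
    (continuousAt_Fc (by simp)) hc.continuousAt

/-- the inner integral, any position -/
theorem inner_eq {A B : ℂ} (hAB : B - A ≠ 0) (s : ℂ) :
    ∫ κ in (0:ℝ)..1, Real.log ‖s - (A + κ * (B - A))‖ = Real.log ‖B - A‖ +
      (Phi ((s - A) / (B - A)).re ((s - A) / (B - A)).im -
        Phi ((s - A) / (B - A) - 1).re ((s - A) / (B - A) - 1).im) := by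
  rw [integral_log_norm_seg A (B - A) s hAB 0 1]
  simp

theorem continuous_inner {A B : ℂ} (hAB : B - A ≠ 0) :
    Continuous (fun s : ℂ => ∫ κ in (0:ℝ)..1, Real.log ‖s - (A + κ * (B - A))‖) := by
  simp only [inner_eq hAB]
  refine continuous_const.add (Continuous.sub ?_ ?_)
  · exact continuous_Phi.comp (by fun_prop)
  · exact continuous_Phi.comp (by fun_prop)

/-- scaling of a potential -/
theorem inner_scale {A B : ℂ} (hAB : B - A ≠ 0) (s : ℂ) {r : ℝ} (hr : 0 < r) :
    ∫ κ in (0:ℝ)..1, Real.log ‖s / r - (A / r + κ * (B / r - A / r))‖ =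
      (∫ κ in (0:ℝ)..1, Real.log ‖s - (A + κ * (B - A))‖) - Real.log r := by
  have hrc : (r : ℂ) ≠ 0 := by exact_mod_cast hr.ne'
  have hAB' : B / r - A / r ≠ 0 := by rw [← sub_div]; exact div_ne_zero hAB hrc
  have e1 : (s / r - A / r) / (B / r - A / r) = (s - A) / (B - A) := by field_simp
  have e2 : ‖B / r - A / r‖ = ‖B - A‖ / r := by
    rw [← sub_div, norm_div, Complex.norm_of_nonneg hr.le]
  rw [inner_eq hAB, inner_eq hAB', e1, e2, Real.log_div (norm_ne_zero_iff.2 hAB) hr.ne']
  ring

/-- scaling of the mutual energy -/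
theorem segE_scale {A B : ℂ} (C D : ℂ) {r : ℝ} (hr : 0 < r) (hAB : B - A ≠ 0) :
    segE (A / r) (B / r) (C / r) (D / r) = segE A B C D - Real.log r := by
  have hrc : (r : ℂ) ≠ 0 := by exact_mod_cast hr.ne'
  unfold segE
  have e : ∀ τ : ℝ, ∫ κ in (0:ℝ)..1,
      Real.log ‖(C / r + τ * (D / r - C / r)) - (A / r + κ * (B / r - A / r))‖ =
      (∫ κ in (0:ℝ)..1, Real.log ‖(C + τ * (D - C)) - (A + κ * (B - A))‖) - Real.log r := by
    intro τ
    rw [← inner_scale hAB _ hr]
    congr 1; funext κ; congr 3; field_simp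
  simp only [e]
  rw [intervalIntegral.integral_sub _ (by simp)]
  · simp
  · exact ((continuous_inner hAB).comp (by fun_prop)).intervalIntegrable _ _

end Crest.Agent.R006.NumSegx464
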