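import Crest.Agent.R006.NumIv_482
import Crest.Agent.R006.NumAtan_179
import Crest.Agent.R006.NumEn_464

/-!
# Row 6, certified numerics: interval side of potentials and energies (helper464)

All coordinates are Gaussian integers `z : ℤ × ℤ`, `gc z : ℂ`.
* `enc_segE` : mutual energy of `[A,B]`, `[C,D]` when `segOK A B C D = true`
-/

set_option autoImplicit false

namespace Crest.Agent.R006.NumSegx464

open Real Num482 Crest.Agent.R006.NumPhix179 Crest.Agent.R006.NumAtanx179

/-- the complex number of an integer pair -/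
def gc (z : ℤ × ℤ) : ℂ := ⟨(z.1 : ℝ), (z.2 : ℝ)⟩

@[simp] theorem gc_re (z : ℤ × ℤ) : (gc z).re = z.1 := rfl
@[simp] theorem gc_im (z : ℤ × ℤ) : (gc z).im = z.2 := rfl

/-- `½ log n` (`0` for `n = 0`) -/
def hlN (n : ℕ) : ℤ × ℤ := bif Nat.beq n 0 then (0, 0) else divI (logN n) 2

theorem enc_zero : Enc 0 (0, 0) := by constructor <;> simp

theorem enc_hlN (n : ℕ) : Enc (1 / 2 * Real.log n) (hlN n) := by
  unfold hlN
  cases h : Nat.beq n 0 with
  | true =>
    have : n = 0 := Nat.eq_of_beq_eq_true h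
    subst this
    simpa using enc_zero
  | false =>
    have hn : 0 < n := by
      rcases Nat.eq_zero_or_pos n with h0 | h0
      · subst h0; simp at h
      · exact h0
    have := (enc_logN hn).divN (q := 2) (by norm_num)
    rw [cond_false]
    have e : 1 / 2 * Real.log n = Real.log n / (2 : ℕ) := by push_cast; ring
    rw [e]; exact this

def sqN (a b : ℤ) : ℕ := a.natAbs * a.natAbs + b.natAbs * b.natAbs

theorem sqN_cast (a b : ℤ) : ((sqN a b : ℕ) : ℝ) = (a : ℝ) ^ 2 + (b : ℝ) ^ 2 := by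
  unfold sqN
  have h : ∀ x : ℤ, ((x.natAbs : ℕ) : ℝ) * ((x.natAbs : ℕ) : ℝ) = (x : ℝ) ^ 2 := by
    intro x
    rw [← pow_two, Nat.cast_natAbs, Int.cast_abs, sq_abs]
  push_cast
  rw [← h a, ← h b]

/-- `arctan (a/q)` (`0` for `q = 0`) -/
def atnI (a : ℤ) (q : ℕ) : ℤ × ℤ :=
  bif Nat.beq q 0 then (0, 0) else
    match a with
    | Int.ofNat p => ((atQ p q : ℤ) - 15, (atQ p q : ℤ) + 15)
    | Int.negSucc p => (-(atQ (p + 1) q : ℤ) - 15, -(atQ (p + 1) q : ℤ) + 15)

theorem enc_atnI (a : ℤ) (q : ℕ) : Enc (Real.arctan ((a : ℝ) / q)) (atnI a q) := by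
  unfold atnI
  cases h : Nat.beq q 0 with
  | true =>
    have : q = 0 := Nat.eq_of_beq_eq_true h
    subst this
    simpa using enc_zero
  | false =>
    have hq : 0 < q := by
      rcases Nat.eq_zero_or_pos q with h0 | h0
      · subst h0; simp at h
      · exact h0
    rw [cond_false]
    cases a with
    | ofNat p =>
      have hb := abs_le.1 (atQ_bound (u := p) hq)
      constructor
      · simp only [Int.ofNat_eq_natCast, Int.cast_natCast]; push_cast; linarith [hb.1, hb.2]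
      · simp only [Int.ofNat_eq_natCast, Int.cast_natCast]; push_cast; linarith [hb.1, hb.2]
    | negSucc p =>
      have hb := abs_le.1 (atQ_bound (u := p + 1) hq)
      have e : Real.arctan (((Int.negSucc p : ℤ) : ℝ) / q) =
          -(Real.arctan (((p + 1 : ℕ) : ℝ) / q)) := by
        rw [← Real.arctan_neg, Int.cast_negSucc, neg_div]
      rw [e]
      constructor
      · push_cast; push_cast at hb; linarith [hb.1, hb.2]
      · push_cast; push_cast at hb; linarith [hb.1, hb.2]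

theorem enc_pi2 : Enc (Real.pi / 2) (442139859501777, 442139859501778) := by
  obtain ⟨h1, h2⟩ := enc_pi
  simp only [piI] at h1 h2
  constructor
  · push_cast at *; linarith
  · push_cast at *; linarith

/-- `ang (a + i b)` for `b ≥ 0` -/
def angI (a : ℤ) (q : ℕ) : ℤ × ℤ :=
  bif Nat.beq q 0 then
    match a with
    | Int.ofNat p => bif Nat.beq p 0 then (0, 0) else (442139859501777, 442139859501778)
    | Int.negSucc _ => (-442139859501778, -442139859501777)
  else atnI a q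

theorem enc_ang (a : ℤ) (q : ℕ) : Enc (ang (gc (a, (q : ℤ)))) (angI a q) := by
  unfold angI
  cases h : Nat.beq q 0 with
  | true =>
    have : q = 0 := Nat.eq_of_beq_eq_true h
    subst this
    rw [cond_true]
    have e0 : -Complex.I * gc (a, ((0 : ℕ) : ℤ)) = ((-(a : ℝ) : ℝ) : ℂ) * Complex.I := by
      apply Complex.ext <;> simp [gc]
    cases a with
    | ofNat p =>
      cases h2 : Nat.beq p 0 with
      | true =>
        have : p = 0 := Nat.eq_of_beq_eq_true h2
        subst this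
        unfold ang
        rw [e0]
        simpa using enc_zero
      | false =>
        have hp : (0 : ℝ) < p := by
          rcases Nat.eq_zero_or_pos p with h0 | h0
          · subst h0; simp at h2
          · exact_mod_cast h0
        have e : ang (gc (Int.ofNat p, ((0 : ℕ) : ℤ))) = Real.pi / 2 := by
          unfold ang
          have e1 : ((-((Int.ofNat p : ℤ) : ℝ) : ℝ) : ℂ) * Complex.I =
              ((p : ℝ) : ℂ) * (-Complex.I) := by
            simp only [Int.ofNat_eq_natCast, Int.cast_natCast]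
            push_cast; ring
          rw [e0, e1, Complex.arg_real_mul _ hp, Complex.arg_neg_I]
          ring
        rw [e]
        simp only [h2, cond_false]
        exact enc_pi2
    | negSucc p =>
      have hp : (0 : ℝ) < -((Int.negSucc p : ℤ) : ℝ) := by
        rw [Int.cast_negSucc]; push_cast; have : (0 : ℝ) ≤ p := Nat.cast_nonneg p; linarith
      have e : ang (gc (Int.negSucc p, ((0 : ℕ) : ℤ))) = -(Real.pi / 2) := by
        unfold ang
        rw [e0, Complex.arg_real_mul _ hp, Complex.arg_I]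
      rw [e]; exact enc_pi2.neg
  | false =>
    have hq : 0 < q := by
      rcases Nat.eq_zero_or_pos q with h0 | h0
      · subst h0; simp at h
      · exact h0
    rw [cond_false, ang_of_pos (by simpa using hq)]
    simpa using enc_atnI a q

/-- interval of `kor M W`, `W.im = q ≥ 0` -/
def korI (m1 m2 a : ℤ) (q : ℕ) : ℤ × ℤ :=
  addI (smulI (m1 * (a * a - (q : ℤ) * q) + 2 * m2 * a * q) (hlN (sqN a q)))
    (smulI (2 * m1 * a * q - m2 * (a * a - (q : ℤ) * q)) (angI a q))

theorem enc_kor (m1 m2 a : ℤ) (q : ℕ) :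
    Enc (kor (gc (m1, m2)) (gc (a, (q : ℤ)))) (korI m1 m2 a q) := by
  unfold korI kor
  refine Enc.add ?_ ?_
  · have e1 : ((starRingEnd ℂ) (gc (m1, m2)) * gc (a, (q : ℤ)) ^ 2).re =
        ((m1 * (a * a - (q : ℤ) * q) + 2 * m2 * a * q : ℤ) : ℝ) := by
      rw [pow_two, Complex.mul_re, Complex.mul_re, Complex.mul_im, Complex.conj_re,
        Complex.conj_im]
      simp only [gc_re, gc_im]; push_cast; ring
    have e2 : 1 / 2 * Real.log ((gc (a, (q : ℤ))).re ^ 2 + (gc (a, (q : ℤ))).im ^ 2) =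
        1 / 2 * Real.log ((sqN a q : ℕ) : ℝ) := by
      rw [sqN_cast]; simp
    rw [e1, e2]
    exact (enc_hlN _).smul _
  · have e1 : ((starRingEnd ℂ) (gc (m1, m2)) * gc (a, (q : ℤ)) ^ 2).im =
        ((2 * m1 * a * q - m2 * (a * a - (q : ℤ) * q) : ℤ) : ℝ) := by
      rw [pow_two, Complex.mul_im, Complex.mul_re, Complex.mul_im, Complex.conj_re,
        Complex.conj_im]
      simp only [gc_re, gc_im]; push_cast; ring
    rw [e1]
    exact (enc_ang a q).smul _

/-- the closed form, `Z.im = y`, `(Z+M).im = y'` naturals (both `≥ 0`), `Z.re = x`,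
`M = (m1, m2)`, `m2 = y' - y`. -/
def segI0 (N : ℕ) (m1 : ℤ) (x : ℤ) (y y' : ℕ) : ℤ × ℤ :=
  (fun m2 : ℤ =>
    addI (-422212465065984, -422212465065984)
      (subI (divI (addI (subI (korI m1 m2 (x + m1) y') (korI m1 m2 x y))
          (subI (korI m1 m2 (x - N) y) (korI m1 m2 (x + m1 - N) y')))
        (2 * N * sqN m1 m2)) (hlN N))) ((y' : ℤ) - y)

def segI (A B C D : ℤ × ℤ) : ℤ × ℤ :=
  (fun e1 e2 d1 d2 c1 c2 : ℤ =>
    (fun (N : ℕ) (m1 m2 x y : ℤ) =>
      bif (decide (0 ≤ y) && decide (0 ≤ y + m2)) then segI0 N m1 x y.toNat (y + m2).toNat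
      else segI0 N m1 x (-y).toNat (-(y + m2)).toNat)
    (sqN e1 e2) (d1 * e1 + d2 * e2) (d2 * e1 - d1 * e2) (c1 * e1 + c2 * e2) (c2 * e1 - c1 * e2))
  (B.1 - A.1) (B.2 - A.2) (D.1 - C.1) (D.2 - C.2) (C.1 - A.1) (C.2 - A.2)

/-- admissible position: `A ≠ B`, `C ≠ D`, `C` and `D` on one closed side of the line `AB` -/
def segOK (A B C D : ℤ × ℤ) : Bool :=
  (fun e1 e2 d1 d2 c1 c2 : ℤ =>
    (decide (sqN e1 e2 ≠ 0) && decide (sqN d1 d2 ≠ 0)) &&
      (fun (m2 y : ℤ) =>
        (decide (0 ≤ y) && decide (0 ≤ y + m2)) || (decide (y ≤ 0) && decide (y + m2 ≤ 0)))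
      (d2 * e1 - d1 * e2) (c2 * e1 - c1 * e2))
  (B.1 - A.1) (B.2 - A.2) (D.1 - C.1) (D.2 - C.2) (C.1 - A.1) (C.2 - A.2)

theorem enc_segI0 {A B C D : ℂ} (hAB : B - A ≠ 0) (hCD : D - C ≠ 0) {N : ℕ}
    {m1 x : ℤ} {y y' : ℕ} (hN : (N : ℝ) = Complex.normSq (B - A))
    (hM : gc (m1, (y' : ℤ) - y) = (D - C) * (starRingEnd ℂ) (B - A))
    (hZ : gc (x, (y : ℤ)) = (C - A) * (starRingEnd ℂ) (B - A)) :
    Enc (segE A B C D) (segI0 N m1 x y y') := by
  have e1 : gc (x, (y : ℤ)) + gc (m1, (y' : ℤ) - y) = gc (x + m1, (y' : ℤ)) := by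
    apply Complex.ext <;> simp
  have e2 : gc (x + m1, (y' : ℤ)) - ((N : ℝ) : ℂ) = gc (x + m1 - N, (y' : ℤ)) := by
    apply Complex.ext <;> simp
  have e3 : gc (x, (y : ℤ)) - ((N : ℝ) : ℂ) = gc (x - N, (y : ℤ)) := by
    apply Complex.ext <;> simp
  have h := segE_eq hAB hCD hN hM hZ (by simp) (by rw [e1]; simp)
  rw [e1, e2, e3] at h
  have hN0 : 0 < N := by
    have : (0 : ℝ) < N := by rw [hN]; exact Complex.normSq_pos.2 hAB
    exact_mod_cast this
  have hMn : ((sqN m1 ((y' : ℤ) - y) : ℕ) : ℝ) = Complex.normSq (gc (m1, (y' : ℤ) - y)) := by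
    rw [sqN_cast, Complex.normSq_apply]; simp; ring
  have hMpos : 0 < sqN m1 ((y' : ℤ) - y) := by
    have h0 : gc (m1, (y' : ℤ) - y) ≠ 0 := by
      rw [hM]; exact mul_ne_zero hCD ((map_ne_zero _).2 hAB)
    have : (0 : ℝ) < ((sqN m1 ((y' : ℤ) - y) : ℕ) : ℝ) := by
      rw [hMn]; exact Complex.normSq_pos.2 h0
    exact_mod_cast this
  rw [h, ← hMn]
  unfold segI0
  have hk := (((enc_kor m1 ((y' : ℤ) - y) (x + m1) y').sub
    (enc_kor m1 ((y' : ℤ) - y) x y)).add
    ((enc_kor m1 ((y' : ℤ) - y) (x - N) y).sub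
    (enc_kor m1 ((y' : ℤ) - y) (x + m1 - N) y'))).divN
      (q := 2 * N * sqN m1 ((y' : ℤ) - y)) (by positivity)
  have hc : Enc (-(3 / 2) : ℝ) (-422212465065984, -422212465065984) := by
    constructor <;> norm_num
  have := hc.add (hk.sub (enc_hlN N))
  refine (Eq.subst (motive := fun r : ℝ => Enc r _) ?_ this)
  push_cast
  ring

theorem enc_segE {A B C D : ℤ × ℤ} (h : segOK A B C D = true) :
    Enc (segE (gc A) (gc B) (gc C) (gc D)) (segI A B C D) := by
  obtain ⟨a1, a2⟩ := A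
  obtain ⟨b1, b2⟩ := B
  obtain ⟨c1, c2⟩ := C
  obtain ⟨d1, d2⟩ := D
  unfold segOK at h
  simp only [Bool.and_eq_true, Bool.or_eq_true, decide_eq_true_eq] at h
  obtain ⟨⟨hN, hD⟩, hs⟩ := h
  have hNr : ((sqN (b1 - a1) (b2 - a2) : ℕ) : ℝ) = Complex.normSq (gc (b1, b2) - gc (a1, a2)) := by
    rw [sqN_cast, Complex.normSq_apply]; simp; ring
  have hDr : ((sqN (d1 - c1) (d2 - c2) : ℕ) : ℝ) = Complex.normSq (gc (d1, d2) - gc (c1, c2)) := by
    rw [sqN_cast, Complex.normSq_apply]; simp; ring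
  have hAB : gc (b1, b2) - gc (a1, a2) ≠ 0 := by
    rw [Ne, ← Complex.normSq_eq_zero, ← hNr]; exact_mod_cast hN
  have hCD : gc (d1, d2) - gc (c1, c2) ≠ 0 := by
    rw [Ne, ← Complex.normSq_eq_zero, ← hDr]; exact_mod_cast hD
  unfold segI
  simp only
  generalize hy : (c2 - a2) * (b1 - a1) - (c1 - a1) * (b2 - a2) = y at hs ⊢
  generalize hm2 : (d2 - c2) * (b1 - a1) - (d1 - c1) * (b2 - a2) = m2 at hs ⊢
  have hyr : (y : ℝ) = (c2 - a2) * (b1 - a1) - (c1 - a1) * (b2 - a2) := by
    rw [← hy]; push_cast; ring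
  have hmr : (m2 : ℝ) = (d2 - c2) * (b1 - a1) - (d1 - c1) * (b2 - a2) := by
    rw [← hm2]; push_cast; ring
  cases hb : (decide (0 ≤ y) && decide (0 ≤ y + m2)) with
  | true =>
    simp only [Bool.and_eq_true, decide_eq_true_eq] at hb
    obtain ⟨p1, p2⟩ := hb
    simp only [cond_true]
    have q1 : ((y.toNat : ℕ) : ℤ) = y := Int.toNat_of_nonneg p1
    have q2 : (((y + m2).toNat : ℕ) : ℤ) = y + m2 := Int.toNat_of_nonneg p2
    refine enc_segI0 hAB hCD hNr ?_ ?_
    · rw [q1, q2]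
      apply Complex.ext
      · simp; ring
      · simp [hmr]; ring
    · rw [q1]
      apply Complex.ext
      · simp; ring
      · simp [hyr]; ring
  | false =>
    have hs' : y ≤ 0 ∧ y + m2 ≤ 0 := by
      rcases hs with hs | hs
      · simp only [Bool.and_eq_false_iff, decide_eq_false_iff_not, not_le] at hb
        omega
      · exact hs
    obtain ⟨p1, p2⟩ := hs'
    simp only [cond_false]
    have q1 : (((-y).toNat : ℕ) : ℤ) = -y := Int.toNat_of_nonneg (by omega)
    have q2 : (((-(y + m2)).toNat : ℕ) : ℤ) = -(y + m2) := Int.toNat_of_nonneg (by omega)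
    rw [← segE_conj]
    have hAB' : (starRingEnd ℂ) (gc (b1, b2)) - (starRingEnd ℂ) (gc (a1, a2)) ≠ 0 := by
      rw [← map_sub]; exact (map_ne_zero _).2 hAB
    have hCD' : (starRingEnd ℂ) (gc (d1, d2)) - (starRingEnd ℂ) (gc (c1, c2)) ≠ 0 := by
      rw [← map_sub]; exact (map_ne_zero _).2 hCD
    refine enc_segI0 hAB' hCD' ?_ ?_ ?_
    · rw [hNr, ← map_sub, Complex.normSq_conj]
    · rw [q1, q2]
      apply Complex.ext
      · simp; ring
      · simp [hmr]; ring
    · rw [q1]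
      apply Complex.ext
      · simp; ring
      · simp [hyr]; ring

end Crest.Agent.R006.NumSegx464
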