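import Crest.Agent.R006.NumAtan_179

/-!
# Row 6: fast kernel versions of `Nat.log2`, `lnN`, `atQ` (helper464)

`Nat.log2` is not accelerated by the kernel and instance notation costs five times more than raw
`Nat` functions.  `l2f n = n.log2`, `lnF n = lnN n`, `atF u v = atQ u v` (all `n`, `u`, `v`).
-/

set_option autoImplicit false

namespace Crest.Agent.R006.NumFastx464

open Crest.Agent.R006.NumLogx179 Crest.Agent.R006.NumAtanx179

def l1 (n k : ℕ) : ℕ := bif Nat.ble 2 n then Nat.add k 1 else k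
def l2 (n k : ℕ) : ℕ := bif Nat.ble 4 n then l1 (Nat.div n 4) (Nat.add k 2) else l1 n k
def l4 (n k : ℕ) : ℕ := bif Nat.ble 16 n then l2 (Nat.div n 16) (Nat.add k 4) else l2 n k
def l8 (n k : ℕ) : ℕ := bif Nat.ble 256 n then l4 (Nat.div n 256) (Nat.add k 8) else l4 n k
def l16 (n k : ℕ) : ℕ := bif Nat.ble 65536 n then l8 (Nat.div n 65536) (Nat.add k 16) else l8 n k
def l32 (n k : ℕ) : ℕ :=
  bif Nat.ble 4294967296 n then l16 (Nat.div n 4294967296) (Nat.add k 32) else l16 n k
def l64 (n k : ℕ) : ℕ :=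
  bif Nat.ble 18446744073709551616 n then l32 (Nat.div n 18446744073709551616) (Nat.add k 64)
  else l32 n k

/-- `log2`, fast for `n < 2^128` -/
def l2f (n : ℕ) : ℕ :=
  bif Nat.ble 340282366920938463463374607431768211456 n then Nat.log2 n else l64 n 0

theorem ble_true {a b : ℕ} (h : Nat.ble a b = true) : a ≤ b := Nat.le_of_ble_eq_true h

theorem log2_div {n j : ℕ} (h : 2 ^ j ≤ n) : (n / 2 ^ j).log2 + j = n.log2 := by
  have hn : n ≠ 0 := by
    have : 0 < 2 ^ j := by positivity
    omega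
  have hd : n / 2 ^ j ≠ 0 := by
    have := Nat.div_pos h (by positivity)
    omega
  symm
  rw [Nat.log2_eq_iff hn]
  have h1 := Nat.log2_self_le hd
  have h2 : n / 2 ^ j < 2 ^ ((n / 2 ^ j).log2 + 1) := Nat.lt_log2_self
  constructor
  · rw [pow_add]
    calc 2 ^ (n / 2 ^ j).log2 * 2 ^ j ≤ (n / 2 ^ j) * 2 ^ j := Nat.mul_le_mul_right _ h1
      _ ≤ n := Nat.div_mul_le_self _ _
  · have h3 : (n / 2 ^ j).log2 + j + 1 = ((n / 2 ^ j).log2 + 1) + j := by ring
    rw [h3, pow_add]
    exact (Nat.div_lt_iff_lt_mul (by positivity)).1 h2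

/-- one level of the search -/
theorem lvl {f : ℕ → ℕ → ℕ} {B j : ℕ} (hf : ∀ n k, n ≠ 0 → n < 2 ^ B → f n k = n.log2 + k)
    (n k : ℕ) (hn : n ≠ 0) (hlt : n < 2 ^ (B + j)) :
    (2 ^ j ≤ n → f (n / 2 ^ j) (k + j) = n.log2 + k) ∧ (n < 2 ^ B → f n k = n.log2 + k) := by
  constructor
  · intro h
    have hd : n / 2 ^ j ≠ 0 := by
      have := Nat.div_pos h (by positivity)
      omega
    rw [hf _ _ hd ((Nat.div_lt_iff_lt_mul (by positivity)).2 (by rw [← pow_add]; exact hlt)),
      ← log2_div h]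
    ring
  · intro h
    exact hf n k hn h

theorem l1_eq (n k : ℕ) (hn : n ≠ 0) (h : n < 2 ^ 2) : l1 n k = n.log2 + k := by
  have h' : n = 1 ∨ n = 2 ∨ n = 3 := by omega
  rcases h' with h | h | h <;> subst h
  · have : Nat.log2 1 = 0 := by decide +kernel
    rw [this, show l1 1 k = k from rfl]; omega
  · have : Nat.log2 2 = 1 := by decide +kernel
    rw [this, show l1 2 k = k + 1 from rfl]; omega
  · have : Nat.log2 3 = 1 := by decide +kernel
    rw [this, show l1 3 k = k + 1 from rfl]; omega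

theorem l2_eq (n k : ℕ) (hn : n ≠ 0) (h : n < 2 ^ 4) : l2 n k = n.log2 + k := by
  have hl := lvl (B := 2) (j := 2) l1_eq n k hn h
  unfold l2
  cases hb : Nat.ble 4 n with
  | true => exact hl.1 (ble_true hb)
  | false => exact hl.2 (ble_false hb)

theorem l4_eq (n k : ℕ) (hn : n ≠ 0) (h : n < 2 ^ 8) : l4 n k = n.log2 + k := by
  have hl := lvl (B := 4) (j := 4) l2_eq n k hn h
  unfold l4
  cases hb : Nat.ble 16 n with
  | true => exact hl.1 (ble_true hb)
  | false => exact hl.2 (ble_false hb)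

theorem l8_eq (n k : ℕ) (hn : n ≠ 0) (h : n < 2 ^ 16) : l8 n k = n.log2 + k := by
  have hl := lvl (B := 8) (j := 8) l4_eq n k hn h
  unfold l8
  cases hb : Nat.ble 256 n with
  | true => exact hl.1 (ble_true hb)
  | false => exact hl.2 (ble_false hb)

theorem l16_eq (n k : ℕ) (hn : n ≠ 0) (h : n < 2 ^ 32) : l16 n k = n.log2 + k := by
  have hl := lvl (B := 16) (j := 16) l8_eq n k hn h
  unfold l16
  cases hb : Nat.ble 65536 n with
  | true => exact hl.1 (ble_true hb)
  | false => exact hl.2 (ble_false hb)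

theorem l32_eq (n k : ℕ) (hn : n ≠ 0) (h : n < 2 ^ 64) : l32 n k = n.log2 + k := by
  have hl := lvl (B := 32) (j := 32) l16_eq n k hn h
  unfold l32
  cases hb : Nat.ble 4294967296 n with
  | true => exact hl.1 (ble_true hb)
  | false => exact hl.2 (ble_false hb)

theorem l64_eq (n k : ℕ) (hn : n ≠ 0) (h : n < 2 ^ 128) : l64 n k = n.log2 + k := by
  have hl := lvl (B := 64) (j := 64) l32_eq n k hn h
  unfold l64
  cases hb : Nat.ble 18446744073709551616 n with
  | true => exact hl.1 (ble_true hb)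
  | false => exact hl.2 (ble_false hb)

theorem l2f_eq (n : ℕ) : l2f n = n.log2 := by
  unfold l2f
  cases hb : Nat.ble 340282366920938463463374607431768211456 n with
  | true => rfl
  | false =>
    rw [cond_false]
    rcases Nat.eq_zero_or_pos n with h | h
    · subst h; decide +kernel
    · rw [l64_eq n 0 (by omega) (ble_false hb), add_zero]

/-! ### logarithm -/

def at14f (V : ℕ) : ℕ :=
  Nat.add 281474976710656 (Nat.div (Nat.mul V (Nat.add 93824992236885 (Nat.div (Nat.mul V
  (Nat.add 56294995342131 (Nat.div (Nat.mul V (Nat.add 40210710958665 (Nat.div (Nat.mul V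
  (Nat.add 31274997412295 (Nat.div (Nat.mul V (Nat.add 25588634246423 (Nat.div (Nat.mul V
  (Nat.add 21651921285435 (Nat.div (Nat.mul V (Nat.add 18764998447377 (Nat.div (Nat.mul V
  (Nat.add 16557351571215 (Nat.div (Nat.mul V (Nat.add 14814472458455 (Nat.div (Nat.mul V
  (Nat.add 13403570319555 (Nat.div (Nat.mul V (Nat.add 12238042465680 (Nat.div (Nat.mul V
  (Nat.add 11258999068426 (Nat.div (Nat.mul V (Nat.add 10424999137431 (Nat.div (Nat.mul V 0)
  281474976710656))) 281474976710656))) 281474976710656))) 281474976710656)))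
  281474976710656))) 281474976710656))) 281474976710656))) 281474976710656)))
  281474976710656))) 281474976710656))) 281474976710656))) 281474976710656)))
  281474976710656))) 281474976710656)

theorem at14f_eq (V : ℕ) : at14f V = at14 V := rfl

def lgf (p q : ℕ) : ℕ :=
  (fun U => Nat.div (Nat.mul (Nat.mul 2 U) (at14f (Nat.div (Nat.mul U U) 281474976710656)))
    281474976710656) (Nat.div (Nat.mul (Nat.sub p q) 281474976710656) (Nat.add p q))

theorem lgf_eq (p q : ℕ) : lgf p q = lg p q := rfl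

/-- fast `lnN` -/
def lnF (n : ℕ) : ℕ :=
  (fun k => Nat.add (Nat.mul k 195103586505165) (lgf n (Nat.pow 2 k))) (l2f n)

theorem lnF_eq (n : ℕ) : lnF n = lnN n := by
  unfold lnF lnN
  rw [l2f_eq]
  rfl

/-! ### arctangent -/

def at15f (V : ℕ) : ℕ :=
  Nat.sub 281474976710656 (Nat.div (Nat.mul V (Nat.sub 93824992236885 (Nat.div (Nat.mul V
  (Nat.sub 56294995342131 (Nat.div (Nat.mul V (Nat.sub 40210710958665 (Nat.div (Nat.mul V
  (Nat.sub 31274997412295 (Nat.div (Nat.mul V (Nat.sub 25588634246423 (Nat.div (Nat.mul V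
  (Nat.sub 21651921285435 (Nat.div (Nat.mul V (Nat.sub 18764998447377 (Nat.div (Nat.mul V
  (Nat.sub 16557351571215 (Nat.div (Nat.mul V (Nat.sub 14814472458455 (Nat.div (Nat.mul V
  (Nat.sub 13403570319555 (Nat.div (Nat.mul V (Nat.sub 12238042465680 (Nat.div (Nat.mul V
  (Nat.sub 11258999068426 (Nat.div (Nat.mul V (Nat.sub 10424999137431 (Nat.div (Nat.mul V
  (Nat.sub 9706033679677 (Nat.div (Nat.mul V 0) 281474976710656))) 281474976710656)))
  281474976710656))) 281474976710656))) 281474976710656))) 281474976710656)))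
  281474976710656))) 281474976710656))) 281474976710656))) 281474976710656)))
  281474976710656))) 281474976710656))) 281474976710656))) 281474976710656))) 281474976710656)

theorem at15f_eq (V : ℕ) : at15f V = at15 V := rfl

def at0f (p q : ℕ) : ℕ :=
  (fun U => Nat.div (Nat.mul U (at15f (Nat.div (Nat.mul U U) 281474976710656))) 281474976710656)
    (Nat.div (Nat.mul p 281474976710656) q)

theorem at0f_eq (p q : ℕ) : at0f p q = at0 p q := rfl

def atNf (p q : ℕ) : ℕ :=
  bif Nat.ble (Nat.mul 3 p) q then at0f p q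
  else bif Nat.ble (Nat.mul 2 p) q then
    Nat.sub 130505199945453 (at0f (Nat.sub q (Nat.mul 2 p)) (Nat.add (Nat.mul 2 q) p))
  else Nat.add 130505199945453 (at0f (Nat.sub (Nat.mul 2 p) q) (Nat.add (Nat.mul 2 q) p))

theorem atNf_eq (p q : ℕ) : atNf p q = atN p q := rfl

/-- fast `atQ` -/
def atF (u v : ℕ) : ℕ := bif Nat.ble u v then atNf u v else Nat.sub 442139859501777 (atNf v u)

theorem atF_eq (u v : ℕ) : atF u v = atQ u v := rfl

end Crest.Agent.R006.NumFastx464
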