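import Crest.Agent.R006.NumLog_179
import Crest.Agent.R006.NumAt_482

/-!
# Row 6, certified numerics: interval core (helper482)

`Enc r I` : the real `r` lies in the interval `I` (integers, scale `2^48`).
Everything is computed with `Int`/`Nat` operations, closed instances go by `decide +kernel`.
-/

set_option autoImplicit false

namespace Num482

open Real Crest.Agent.R006.NumLogx179

/-- `I` encloses `r` at scale `2^48 = 281474976710656`. -/
def Enc (r : ℝ) (I : ℤ × ℤ) : Prop :=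
  (I.1 : ℝ) ≤ r * 281474976710656 ∧ r * 281474976710656 ≤ (I.2 : ℝ)

def addI (I J : ℤ × ℤ) : ℤ × ℤ := (I.1 + J.1, I.2 + J.2)
def negI (I : ℤ × ℤ) : ℤ × ℤ := (-I.2, -I.1)
def subI (I J : ℤ × ℤ) : ℤ × ℤ := (I.1 - J.2, I.2 - J.1)

/-- multiplication by a nonnegative integer -/
def nsmulI (n : ℕ) (I : ℤ × ℤ) : ℤ × ℤ := ((n : ℤ) * I.1, (n : ℤ) * I.2)

/-- multiplication by an integer -/
def smulI (c : ℤ) (I : ℤ × ℤ) : ℤ × ℤ :=
  match c with
  | Int.ofNat n => nsmulI n I
  | Int.negSucc n => negI (nsmulI (n + 1) I)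

/-- division by a positive natural (outward rounding) -/
def divI (I : ℤ × ℤ) (q : ℕ) : ℤ × ℤ := (I.1 / (q : ℤ), -((-I.2) / (q : ℤ)))

/-- multiplication by the rational `p/q` -/
def mulQ (p : ℤ) (q : ℕ) (I : ℤ × ℤ) : ℤ × ℤ := divI (smulI p I) q

/-- product of intervals -/
def mulI (I J : ℤ × ℤ) : ℤ × ℤ :=
  let a := I.1 * J.1
  let b := I.1 * J.2
  let c := I.2 * J.1
  let d := I.2 * J.2
  let lo := min (min a b) (min c d)
  let hi := max (max a b) (max c d)
  (lo / 281474976710656, -((-hi) / 281474976710656))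

/-- the rational `p/q` -/
def ofQ (p : ℤ) (q : ℕ) : ℤ × ℤ :=
  ((p * 281474976710656) / (q : ℤ), -((-(p * 281474976710656)) / (q : ℤ)))

/-- logarithm of a natural -/
def logN (n : ℕ) : ℤ × ℤ := ((lnN n : ℤ), ((lnN n + 20 * (n.log2 + 1) : ℕ) : ℤ))

/-- logarithm of a positive rational `p/q` -/
def logQ (p q : ℕ) : ℤ × ℤ := subI (logN p) (logN q)

/-- `π` -/
def piI : ℤ × ℤ := (884279719003555, 884279719003556)

/-- `log 2` -/
def ln2I : ℤ × ℤ := (195103586505165, 195103586505185)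

/-- `arctan (p/q)`, `p ≥ 0` -/
def atanN (p q : ℕ) : ℤ × ℤ :=
  ((((atLo 80 44 p q) * 884279719003555 / (2 * 2 ^ 44) : ℕ) : ℤ),
    (((atHi 80 44 p q) * 884279719003556 / (2 * 2 ^ 44) + 1 : ℕ) : ℤ))

/-- `arctan (p/q)` -/
def atanQ (p : ℤ) (q : ℕ) : ℤ × ℤ :=
  match p with
  | Int.ofNat n => atanN n q
  | Int.negSucc n => negI (atanN (n + 1) q)

theorem Enc.add {r s : ℝ} {I J : ℤ × ℤ} (h : Enc r I) (h' : Enc s J) : Enc (r + s) (addI I J) := by
  obtain ⟨h1, h2⟩ := h
  obtain ⟨h3, h4⟩ := h'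
  constructor
  · simp only [addI]; push_cast; linarith
  · simp only [addI]; push_cast; linarith

theorem Enc.neg {r : ℝ} {I : ℤ × ℤ} (h : Enc r I) : Enc (-r) (negI I) := by
  obtain ⟨h1, h2⟩ := h
  constructor
  · simp only [negI]; push_cast; linarith
  · simp only [negI]; push_cast; linarith

theorem Enc.sub {r s : ℝ} {I J : ℤ × ℤ} (h : Enc r I) (h' : Enc s J) : Enc (r - s) (subI I J) := by
  obtain ⟨h1, h2⟩ := h
  obtain ⟨h3, h4⟩ := h'
  constructor
  · simp only [subI]; push_cast; linarith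
  · simp only [subI]; push_cast; linarith

theorem Enc.nsmul {r : ℝ} {I : ℤ × ℤ} (n : ℕ) (h : Enc r I) : Enc ((n : ℝ) * r) (nsmulI n I) := by
  obtain ⟨h1, h2⟩ := h
  have hn : (0 : ℝ) ≤ n := Nat.cast_nonneg n
  constructor
  · simp only [nsmulI]; push_cast
    have := mul_le_mul_of_nonneg_left h1 hn
    linarith
  · simp only [nsmulI]; push_cast
    have := mul_le_mul_of_nonneg_left h2 hn
    linarith

theorem Enc.smul {r : ℝ} {I : ℤ × ℤ} (c : ℤ) (h : Enc r I) : Enc ((c : ℝ) * r) (smulI c I) := by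
  cases c with
  | ofNat n =>
    have := Enc.nsmul n h
    simpa [smulI] using this
  | negSucc n =>
    have := (Enc.nsmul (n + 1) h).neg
    have e : ((Int.negSucc n : ℤ) : ℝ) * r = -(((n + 1 : ℕ) : ℝ) * r) := by
      rw [Int.cast_negSucc]; ring
    rw [e]
    exact this

theorem Enc.divN {r : ℝ} {I : ℤ × ℤ} {q : ℕ} (hq : 0 < q) (h : Enc r I) :
    Enc (r / q) (divI I q) := by
  obtain ⟨h1, h2⟩ := h
  have hq' : (0 : ℝ) < q := by exact_mod_cast hq
  have hqZ : (0 : ℤ) < (q : ℤ) := by exact_mod_cast hq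
  constructor
  · simp only [divI]
    have h3 : (I.1 / (q : ℤ)) * (q : ℤ) ≤ I.1 := Int.ediv_mul_le _ hqZ.ne'
    have h4 : ((I.1 / (q : ℤ) : ℤ) : ℝ) * q ≤ (I.1 : ℝ) := by exact_mod_cast h3
    rw [div_mul_eq_mul_div, le_div_iff₀ hq']
    linarith
  · simp only [divI]
    have h3 : ((-I.2) / (q : ℤ)) * (q : ℤ) ≤ -I.2 := Int.ediv_mul_le _ hqZ.ne'
    have h4 : (((-I.2) / (q : ℤ) : ℤ) : ℝ) * q ≤ -(I.2 : ℝ) := by exact_mod_cast h3
    rw [div_mul_eq_mul_div, div_le_iff₀ hq']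
    push_cast
    linarith

theorem Enc.mulQ {r : ℝ} {I : ℤ × ℤ} (p : ℤ) {q : ℕ} (hq : 0 < q) (h : Enc r I) :
    Enc ((p : ℝ) / q * r) (Num482.mulQ p q I) := by
  have := (h.smul p).divN hq
  rw [div_mul_eq_mul_div]
  exact this

theorem enc_ofQ (p : ℤ) {q : ℕ} (hq : 0 < q) : Enc ((p : ℝ) / q) (ofQ p q) := by
  have hq' : (0 : ℝ) < q := by exact_mod_cast hq
  have hqZ : (0 : ℤ) < (q : ℤ) := by exact_mod_cast hq
  constructor
  · simp only [ofQ]
    have h3 : ((p * 281474976710656) / (q : ℤ)) * (q : ℤ) ≤ p * 281474976710656 :=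
      Int.ediv_mul_le _ hqZ.ne'
    have h4 : (((p * 281474976710656) / (q : ℤ) : ℤ) : ℝ) * q ≤ (p : ℝ) * 281474976710656 := by
      exact_mod_cast h3
    rw [div_mul_eq_mul_div, le_div_iff₀ hq']
    linarith
  · simp only [ofQ]
    have h3 : ((-(p * 281474976710656)) / (q : ℤ)) * (q : ℤ) ≤ -(p * 281474976710656) :=
      Int.ediv_mul_le _ hqZ.ne'
    have h4 : (((-(p * 281474976710656)) / (q : ℤ) : ℤ) : ℝ) * q ≤
        -((p : ℝ) * 281474976710656) := by exact_mod_cast h3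
    rw [div_mul_eq_mul_div, div_le_iff₀ hq']
    push_cast at h4 ⊢
    linarith

theorem Enc.mul {r s : ℝ} {I J : ℤ × ℤ} (h : Enc r I) (h' : Enc s J) :
    Enc (r * s) (mulI I J) := by
  obtain ⟨h1, h2⟩ := h
  obtain ⟨h3, h4⟩ := h'
  set R : ℝ := r * 281474976710656 with hR
  set T : ℝ := s * 281474976710656 with hT
  have hlo : (min (min ((I.1 : ℝ) * J.1) ((I.1 : ℝ) * J.2)) (min ((I.2 : ℝ) * J.1) ((I.2 : ℝ) * J.2)))
      ≤ R * T := by
    rcases le_or_gt 0 R with hR0 | hR0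
    · -- R * T ≥ R * J.1
      have e1 : R * J.1 ≤ R * T := mul_le_mul_of_nonneg_left h3 hR0
      rcases le_or_gt 0 (J.1 : ℝ) with hJ | hJ
      · have e2 : (I.1 : ℝ) * J.1 ≤ R * J.1 := mul_le_mul_of_nonneg_right h1 hJ
        exact le_trans (le_trans (min_le_left _ _) (min_le_left _ _)) (e2.trans e1)
      · have e2 : (I.2 : ℝ) * J.1 ≤ R * J.1 := mul_le_mul_of_nonpos_right h2 hJ.le
        exact le_trans (le_trans (min_le_right _ _) (min_le_left _ _)) (e2.trans e1)
    · have e1 : R * J.2 ≤ R * T := mul_le_mul_of_nonpos_left h4 hR0.le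
      rcases le_or_gt 0 (J.2 : ℝ) with hJ | hJ
      · have e2 : (I.1 : ℝ) * J.2 ≤ R * J.2 := mul_le_mul_of_nonneg_right h1 hJ
        exact le_trans (le_trans (min_le_left _ _) (min_le_right _ _)) (e2.trans e1)
      · have e2 : (I.2 : ℝ) * J.2 ≤ R * J.2 := mul_le_mul_of_nonpos_right h2 hJ.le
        exact le_trans (le_trans (min_le_right _ _) (min_le_right _ _)) (e2.trans e1)
  have hhi : R * T ≤
      (max (max ((I.1 : ℝ) * J.1) ((I.1 : ℝ) * J.2)) (max ((I.2 : ℝ) * J.1) ((I.2 : ℝ) * J.2))) := by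
    rcases le_or_gt 0 R with hR0 | hR0
    · have e1 : R * T ≤ R * J.2 := mul_le_mul_of_nonneg_left h4 hR0
      rcases le_or_gt 0 (J.2 : ℝ) with hJ | hJ
      · have e2 : R * J.2 ≤ (I.2 : ℝ) * J.2 := mul_le_mul_of_nonneg_right h2 hJ
        exact (e1.trans e2).trans (le_trans (le_max_right _ _) (le_max_right _ _))
      · have e2 : R * J.2 ≤ (I.1 : ℝ) * J.2 := mul_le_mul_of_nonpos_right h1 hJ.le
        exact (e1.trans e2).trans (le_trans (le_max_right _ _) (le_max_left _ _))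
    · have e1 : R * T ≤ R * J.1 := mul_le_mul_of_nonpos_left h3 hR0.le
      rcases le_or_gt 0 (J.1 : ℝ) with hJ | hJ
      · have e2 : R * J.1 ≤ (I.2 : ℝ) * J.1 := mul_le_mul_of_nonneg_right h2 hJ
        exact (e1.trans e2).trans (le_trans (le_max_left _ _) (le_max_right _ _))
      · have e2 : R * J.1 ≤ (I.1 : ℝ) * J.1 := mul_le_mul_of_nonpos_right h1 hJ.le
        exact (e1.trans e2).trans (le_trans (le_max_left _ _) (le_max_left _ _))
  have hRT : R * T = (r * s * 281474976710656) * 281474976710656 := by rw [hR, hT]; ring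
  have hpos : (0 : ℤ) < 281474976710656 := by norm_num
  constructor
  · simp only [mulI]
    set lo : ℤ := min (min (I.1 * J.1) (I.1 * J.2)) (min (I.2 * J.1) (I.2 * J.2)) with hlo'
    have hloR : (lo : ℝ) ≤ R * T := by rw [hlo']; push_cast; exact hlo
    have h5 : (lo / 281474976710656) * 281474976710656 ≤ lo := Int.ediv_mul_le _ hpos.ne'
    have h6 : ((lo / 281474976710656 : ℤ) : ℝ) * 281474976710656 ≤ (lo : ℝ) := by exact_mod_cast h5
    rw [hRT] at hloR
    nlinarith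
  · simp only [mulI]
    set hi : ℤ := max (max (I.1 * J.1) (I.1 * J.2)) (max (I.2 * J.1) (I.2 * J.2)) with hhi'
    have hhiR : R * T ≤ (hi : ℝ) := by rw [hhi']; push_cast; exact hhi
    have h5 : ((-hi) / 281474976710656) * 281474976710656 ≤ -hi := Int.ediv_mul_le _ hpos.ne'
    have h6 : (((-hi) / 281474976710656 : ℤ) : ℝ) * 281474976710656 ≤ -(hi : ℝ) := by
      exact_mod_cast h5
    rw [hRT] at hhiR
    push_cast
    nlinarith

theorem enc_logN {n : ℕ} (hn : 0 < n) : Enc (Real.log n) (logN n) := by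
  obtain ⟨h1, h2⟩ := lnN_bound hn
  constructor
  · simp only [logN]; push_cast; linarith
  · simp only [logN]; push_cast; linarith

theorem enc_logQ {p q : ℕ} (hp : 0 < p) (hq : 0 < q) : Enc (Real.log ((p : ℝ) / q)) (logQ p q) := by
  rw [Real.log_div (by positivity) (by positivity)]
  exact (enc_logN hp).sub (enc_logN hq)

theorem enc_ln2 : Enc (Real.log 2) ln2I := by
  obtain ⟨h1, h2⟩ := lnN_bound (n := 2) (by norm_num)
  have e : lnN 2 = 195103586505165 := by decide +kernel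
  have e2 : Nat.log2 2 = 1 := by decide +kernel
  obtain ⟨l1, l2⟩ := log2_bound
  constructor
  · simp only [ln2I]; push_cast; linarith
  · simp only [ln2I]; push_cast; linarith

theorem enc_pi : Enc Real.pi piI := by
  have h1 := Real.pi_gt_d20
  have h2 := Real.pi_lt_d20
  constructor
  · simp only [piI]; push_cast; linarith
  · simp only [piI]; push_cast; linarith

theorem enc_atanN (p : ℕ) {q : ℕ} (hq : 0 < q) : Enc (Real.arctan ((p : ℝ) / q)) (atanN p q) := by
  obtain ⟨hp1, hp2⟩ := enc_pi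
  simp only [piI] at hp1 hp2
  push_cast at hp1 hp2
  have h1 := atLo_le 80 44 p q hq.ne'
  have h2 := le_atHi 80 44 p q hq.ne'
  generalize hA : atLo 80 44 p q = A at h1
  generalize hB : atHi 80 44 p q = B at h2
  have hA0 : (0 : ℝ) ≤ A := Nat.cast_nonneg A
  have hB0 : (0 : ℝ) ≤ B := Nat.cast_nonneg B
  constructor
  · simp only [atanN, hA]
    have h3 : (((A * 884279719003555 / (2 * 2 ^ 44) : ℕ) : ℝ)) ≤
        (A : ℝ) * 884279719003555 / (2 * 2 ^ 44) := by
      rw [le_div_iff₀ (by norm_num)]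
      have h := Nat.div_mul_le_self (A * 884279719003555) (2 * 2 ^ 44)
      have h'' : (((A * 884279719003555 / (2 * 2 ^ 44)) * (2 * 2 ^ 44) : ℕ) : ℝ) ≤
          ((A * 884279719003555 : ℕ) : ℝ) := by exact_mod_cast h
      simpa only [Nat.cast_mul, Nat.cast_ofNat, Nat.cast_pow] using h''
    have h4 : (A : ℝ) * 884279719003555 ≤ A * (Real.pi * 281474976710656) :=
      mul_le_mul_of_nonneg_left hp1 hA0
    calc ((((A * 884279719003555 / (2 * 2 ^ 44) : ℕ) : ℤ)) : ℝ)
        = (((A * 884279719003555 / (2 * 2 ^ 44) : ℕ) : ℝ)) := by push_cast; rfl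
      _ ≤ (A : ℝ) * 884279719003555 / (2 * 2 ^ 44) := h3
      _ ≤ (A * (Real.pi * 281474976710656)) / (2 * 2 ^ 44) :=
          div_le_div_of_nonneg_right h4 (by positivity)
      _ = ((A : ℝ) / 2 ^ 44 * (Real.pi / 2)) * 281474976710656 := by ring
      _ ≤ _ := mul_le_mul_of_nonneg_right h1 (by norm_num)
  · simp only [atanN, hB]
    have h3 : (B : ℝ) * 884279719003556 / (2 * 2 ^ 44) ≤
        (((B * 884279719003556 / (2 * 2 ^ 44) : ℕ) : ℝ)) + 1 := by
      have h := Nat.lt_div_mul_add (a := B * 884279719003556) (b := 2 * 2 ^ 44) (by norm_num)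
      have h' : B * 884279719003556 ≤
          (B * 884279719003556 / (2 * 2 ^ 44) + 1) * (2 * 2 ^ 44) := by
        rw [Nat.add_mul, one_mul]; exact h.le
      rw [div_le_iff₀ (by norm_num)]
      have h'' : ((B * 884279719003556 : ℕ) : ℝ) ≤
          (((B * 884279719003556 / (2 * 2 ^ 44) + 1) * (2 * 2 ^ 44) : ℕ) : ℝ) := by
        exact_mod_cast h'
      simpa only [Nat.cast_mul, Nat.cast_add, Nat.cast_one, Nat.cast_ofNat, Nat.cast_pow] using h''
    have h4 : B * (Real.pi * 281474976710656) ≤ (B : ℝ) * 884279719003556 :=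
      mul_le_mul_of_nonneg_left hp2 hB0
    calc Real.arctan ((p : ℝ) / q) * 281474976710656
        ≤ ((B : ℝ) / 2 ^ 44 * (Real.pi / 2)) * 281474976710656 :=
          mul_le_mul_of_nonneg_right h2 (by norm_num)
      _ = (B * (Real.pi * 281474976710656)) / (2 * 2 ^ 44) := by ring
      _ ≤ (B : ℝ) * 884279719003556 / (2 * 2 ^ 44) := div_le_div_of_nonneg_right h4 (by positivity)
      _ ≤ (((B * 884279719003556 / (2 * 2 ^ 44) : ℕ) : ℝ)) + 1 := h3
      _ = _ := by push_cast; rfl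

theorem enc_atanQ (p : ℤ) {q : ℕ} (hq : 0 < q) : Enc (Real.arctan ((p : ℝ) / q)) (atanQ p q) := by
  cases p with
  | ofNat n =>
    have := enc_atanN n hq
    simpa [atanQ] using this
  | negSucc n =>
    have := (enc_atanN (n + 1) hq).neg
    have e : Real.arctan (((Int.negSucc n : ℤ) : ℝ) / q) =
        -(Real.arctan (((n + 1 : ℕ) : ℝ) / q)) := by
      rw [← Real.arctan_neg, Int.cast_negSucc, neg_div]
    rw [e]
    exact this

/-- final step: from an enclosure to an inequality -/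
theorem Enc.le_of {r : ℝ} {I : ℤ × ℤ} (h : Enc r I) {p : ℤ} {q : ℕ} (hq : 0 < q)
    (hc : I.2 * q ≤ p * 281474976710656) : r ≤ (p : ℝ) / q := by
  have hq' : (0 : ℝ) < q := by exact_mod_cast hq
  have hc' : (I.2 : ℝ) * q ≤ (p : ℝ) * 281474976710656 := by exact_mod_cast hc
  rw [le_div_iff₀ hq']
  nlinarith [h.2]

theorem Enc.ge_of {r : ℝ} {I : ℤ × ℤ} (h : Enc r I) {p : ℤ} {q : ℕ} (hq : 0 < q)
    (hc : p * 281474976710656 ≤ I.1 * q) : (p : ℝ) / q ≤ r := by
  have hq' : (0 : ℝ) < q := by exact_mod_cast hq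
  have hc' : (p : ℝ) * 281474976710656 ≤ (I.1 : ℝ) * q := by exact_mod_cast hc
  rw [div_le_iff₀ hq']
  nlinarith [h.1]

/-- widening -/
theorem Enc.mono {r : ℝ} {I J : ℤ × ℤ} (h : Enc r I) (h1 : J.1 ≤ I.1) (h2 : I.2 ≤ J.2) :
    Enc r J := by
  constructor
  · exact le_trans (by exact_mod_cast h1) h.1
  · exact le_trans h.2 (by exact_mod_cast h2)

example : (2 : ℝ) / 3 ≤ Real.log 2 := by
  have h := enc_ln2
  have := h.ge_of (p := 2) (q := 3) (by norm_num) (by decide +kernel)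
  simpa using this

example : Real.arctan ((7 : ℝ) / 5) ≤ 9505468409 / 10000000000 := by
  have h := enc_atanQ 7 (q := 5) (by norm_num)
  have := h.le_of (p := 9505468409) (q := 10000000000) (by norm_num) (by decide +kernel)
  simpa using this

end Num482
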