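import Crest.Agent.R006.NumEnI_464

/-!
# Row 6, certified numerics: interval side of segment potentials (helper464)

* `enc_Phi`  : `Enc (Phi a b) (PhiI a b)`
* `enc_pot`  : potential of the uniform probability measure on `[A,B]` at `s`, any position
-/

set_option autoImplicit false

namespace Crest.Agent.R006.NumSegx464

open Real Num482 Crest.Agent.R006.NumPhix179 Crest.Agent.R006.NumAtanx179

/-! ### potentials -/

def PhiI (a : ℤ) (q : ℕ) : ℤ × ℤ :=
  subI (addI (smulI a (hlN (sqN a q))) (nsmulI q (atnI a q)))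
    (a * 281474976710656, a * 281474976710656)

theorem enc_Phi (a : ℤ) (q : ℕ) : Enc (Phi a q) (PhiI a q) := by
  have h1 := (enc_hlN (sqN a q)).smul a
  have h2 := (enc_atnI a q).nsmul q
  have h3 : Enc (a : ℝ) (a * 281474976710656, a * 281474976710656) := by
    constructor <;> push_cast <;> exact le_rfl
  have := (h1.add h2).sub h3
  unfold PhiI
  refine (Eq.subst (motive := fun r : ℝ => Enc r _) ?_ this)
  rw [sqN_cast]
  unfold Phi
  push_cast
  ring

theorem Phi_div {N : ℝ} (hN : 0 < N) (u v : ℝ) :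
    Phi (u / N) (v / N) = (Phi u v - u * Real.log N) / N := by
  unfold Phi
  have e1 : u / N / (v / N) = u / v := by
    by_cases hv : v = 0
    · subst hv; simp
    · field_simp
  rw [e1]
  by_cases h : u ^ 2 + v ^ 2 = 0
  · have hu : u = 0 := by nlinarith [sq_nonneg u, sq_nonneg v]
    have hv : v = 0 := by nlinarith [sq_nonneg u, sq_nonneg v]
    subst hu hv; simp
  · have e2 : (u / N) ^ 2 + (v / N) ^ 2 = (u ^ 2 + v ^ 2) / N ^ 2 := by
      field_simp
    rw [e2, Real.log_div h (by positivity), Real.log_pow]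
    push_cast
    field_simp
    ring

/-- potential of the uniform probability measure on `[A,B]` at `s` -/
noncomputable def pot (A B s : ℂ) : ℝ :=
  ∫ κ in (0:ℝ)..1, Real.log ‖s - (A + κ * (B - A))‖

def potI (A B s : ℤ × ℤ) : ℤ × ℤ :=
  (fun e1 e2 c1 c2 : ℤ =>
    (fun (N : ℕ) (x : ℤ) (q : ℕ) =>
      subI (divI (subI (PhiI x q) (PhiI (x - N) q)) N) (hlN N))
    (sqN e1 e2) (c1 * e1 + c2 * e2) (c2 * e1 - c1 * e2).natAbs)
  (B.1 - A.1) (B.2 - A.2) (s.1 - A.1) (s.2 - A.2)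

theorem enc_pot {A B : ℤ × ℤ} (s : ℤ × ℤ) (h : sqN (B.1 - A.1) (B.2 - A.2) ≠ 0) :
    Enc (pot (gc A) (gc B) (gc s)) (potI A B s) := by
  obtain ⟨a1, a2⟩ := A
  obtain ⟨b1, b2⟩ := B
  obtain ⟨s1, s2⟩ := s
  simp only at h
  have hNr : ((sqN (b1 - a1) (b2 - a2) : ℕ) : ℝ) = Complex.normSq (gc (b1, b2) - gc (a1, a2)) := by
    rw [sqN_cast, Complex.normSq_apply]; simp; ring
  have hAB : gc (b1, b2) - gc (a1, a2) ≠ 0 := by
    rw [Ne, ← Complex.normSq_eq_zero, ← hNr]; exact_mod_cast h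
  unfold pot potI
  simp only
  generalize hN : sqN (b1 - a1) (b2 - a2) = N at h hNr ⊢
  have hN0 : 0 < N := Nat.pos_of_ne_zero h
  have hNR : (0 : ℝ) < N := by exact_mod_cast hN0
  have hlogN : Real.log ‖gc (b1, b2) - gc (a1, a2)‖ = 1 / 2 * Real.log N := by
    rw [hNr, ← Complex.sq_norm, Real.log_pow]; push_cast; ring
  have hz : (gc (s1, s2) - gc (a1, a2)) / (gc (b1, b2) - gc (a1, a2)) =
      gc ((s1 - a1) * (b1 - a1) + (s2 - a2) * (b2 - a2),
        (s2 - a2) * (b1 - a1) - (s1 - a1) * (b2 - a2)) / ((N : ℝ) : ℂ) := by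
    rw [hNr, ← Complex.mul_conj, mul_comm (gc (b1, b2) - gc (a1, a2)),
      ← mul_div_mul_left _ _ ((map_ne_zero (starRingEnd ℂ)).2 hAB)]
    congr 1
    apply Complex.ext
    · simp; ring
    · simp; ring
  rw [inner_eq hAB, hlogN, hz]
  generalize hx : (s1 - a1) * (b1 - a1) + (s2 - a2) * (b2 - a2) = x
  generalize hy : (s2 - a2) * (b1 - a1) - (s1 - a1) * (b2 - a2) = y
  have hre : (gc (x, y) / ((N : ℝ) : ℂ)).re = x / N := by rw [Complex.div_ofReal_re]; simp
  have him : (gc (x, y) / ((N : ℝ) : ℂ)).im = y / N := by rw [Complex.div_ofReal_im]; simp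
  have hre2 : (gc (x, y) / ((N : ℝ) : ℂ) - 1).re = ((x - N : ℤ) : ℝ) / N := by
    rw [Complex.sub_re, hre]; push_cast; field_simp; simp
  have him2 : (gc (x, y) / ((N : ℝ) : ℂ) - 1).im = y / N := by
    rw [Complex.sub_im, him]; simp
  rw [hre, him, hre2, him2, Phi_div hNR, Phi_div hNR]
  have habs : ∀ u : ℝ, Phi u y = Phi u ((y.natAbs : ℕ) : ℝ) := by
    intro u
    have hc : ((y.natAbs : ℕ) : ℝ) = |(y : ℝ)| := by rw [Nat.cast_natAbs, Int.cast_abs]
    rw [hc]
    rcases abs_choice (y : ℝ) with h | h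
    · rw [h]
    · rw [h, Phi_even]
  rw [habs, habs]
  have := (((enc_Phi x y.natAbs).sub (enc_Phi (x - N) y.natAbs)).divN hN0).sub (enc_hlN N)
  refine (Eq.subst (motive := fun r : ℝ => Enc r _) ?_ this)
  push_cast
  field_simp
  ring

end Crest.Agent.R006.NumSegx464
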