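import Crest.Agent.R006.NumPhi_179

/-!
# Row 6, certified numerics: segment potentials and mutual energies, real side (helper464)

* `integral_log_norm_seg`: potential of a segment at any point, through `Phi` of `NumPhi_179`;
* `integral_Phi_line`: line integral of `Phi`, complex antiderivative `Gc`;
* `segE_eq`: closed form of the mutual logarithmic energy of two segments.
-/

set_option autoImplicit false

namespace Crest.Agent.R006.NumSegx464

open Real MeasureTheory Crest.Agent.R006.NumPhix179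

theorem log_sq_eq (z : ℂ) : 1 / 2 * Real.log (z.re ^ 2 + z.im ^ 2) = Real.log ‖z‖ := by
  have h : z.re ^ 2 + z.im ^ 2 = ‖z‖ ^ 2 := by
    rw [Complex.sq_norm, Complex.normSq_apply]; ring
  rw [h, Real.log_pow]
  push_cast; ring

theorem Phi_zero_right (u : ℝ) : Phi u 0 = u * Real.log u - u := by
  unfold Phi
  rw [zero_pow two_ne_zero, add_zero, Real.log_pow]; push_cast; ring

theorem hasDerivAt_Phi_left (u : ℝ) {v : ℝ} (hv : v ≠ 0) :
    HasDerivAt (fun u => Phi u v) (1 / 2 * Real.log (u ^ 2 + v ^ 2)) u := by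
  have h := hasDerivAt_Phi (a := 0) (b := 1) (c := v) (d := 0) (t := u) (Or.inl (by simpa using hv))
  simpa [D1] using h

theorem continuous_hlog {v : ℝ} (hv : v ≠ 0) :
    Continuous (fun u : ℝ => 1 / 2 * Real.log (u ^ 2 + v ^ 2)) := by
  refine Continuous.mul continuous_const (Continuous.log (by fun_prop) ?_)
  intro u; positivity

theorem intervalIntegrable_hlog (a b v : ℝ) :
    IntervalIntegrable (fun u : ℝ => 1 / 2 * Real.log (u ^ 2 + v ^ 2)) volume a b := by
  by_cases hv : v = 0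
  · subst hv
    have h : (fun u : ℝ => 1 / 2 * Real.log (u ^ 2 + 0 ^ 2)) = fun u => Real.log u := by
      funext u
      rw [zero_pow two_ne_zero, add_zero, Real.log_pow]; push_cast; ring
    rw [h]
    exact intervalIntegral.intervalIntegrable_log'
  · exact (continuous_hlog hv).intervalIntegrable _ _

/-- `∫_a^b log|u+iv| du = Φ(b,v) − Φ(a,v)` (all `v`, including `v = 0`). -/
theorem integral_hlog (a b v : ℝ) :
    ∫ u in a..b, 1 / 2 * Real.log (u ^ 2 + v ^ 2) = Phi b v - Phi a v := by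
  by_cases hv : v = 0
  · subst hv
    have h : (fun u : ℝ => 1 / 2 * Real.log (u ^ 2 + 0 ^ 2)) = fun u => Real.log u := by
      funext u
      rw [zero_pow two_ne_zero, add_zero, Real.log_pow]; push_cast; ring
    rw [h, Phi_zero_right, Phi_zero_right, integral_log]; ring
  · exact intervalIntegral.integral_eq_sub_of_hasDerivAt
      (fun u _ => hasDerivAt_Phi_left u hv) ((continuous_hlog hv).intervalIntegrable _ _)

/-- potential of the segment `{A + κ e : k ≤ κ ≤ l}` (density `1` in `κ`) at `s`, any position. -/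
theorem integral_log_norm_seg (A e s : ℂ) (he : e ≠ 0) (k l : ℝ) :
    ∫ κ in k..l, Real.log ‖s - (A + κ * e)‖ =
      (l - k) * Real.log ‖e‖ +
        (Phi (((s - A) / e).re - k) ((s - A) / e).im -
          Phi (((s - A) / e).re - l) ((s - A) / e).im) := by
  set ζ : ℂ := (s - A) / e with hζ
  have hval : ∀ κ : ℝ, s - (A + κ * e) = e * (ζ - κ) := by
    intro κ; rw [hζ]; field_simp; ring
  have hae : ∀ᵐ κ : ℝ ∂volume, κ ∈ Set.uIoc k l →
      Real.log ‖s - (A + κ * e)‖ =
        Real.log ‖e‖ + 1 / 2 * Real.log ((ζ.re - κ) ^ 2 + ζ.im ^ 2) := by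
    have hne : ∀ᵐ κ : ℝ ∂volume, κ ≠ ζ.re := by
      rw [ae_iff]; simp
    filter_upwards [hne] with κ hκ _
    have h0 : ζ - κ ≠ 0 := by
      intro h
      apply hκ
      have := congrArg Complex.re h
      simp at this
      linarith
    rw [hval, norm_mul, Real.log_mul (norm_ne_zero_iff.2 he) (norm_ne_zero_iff.2 h0)]
    congr 1
    rw [← log_sq_eq]
    simp
  have hint : ∫ κ in k..l, 1 / 2 * Real.log ((ζ.re - κ) ^ 2 + ζ.im ^ 2) =
      Phi (ζ.re - k) ζ.im - Phi (ζ.re - l) ζ.im := by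
    rw [intervalIntegral.integral_comp_sub_left
      (fun u => 1 / 2 * Real.log (u ^ 2 + ζ.im ^ 2)) ζ.re, integral_hlog]
  have hi2 := (intervalIntegrable_hlog (ζ.re - k) (ζ.re - l) ζ.im).comp_sub_left ζ.re
  rw [sub_sub_cancel, sub_sub_cancel] at hi2
  rw [intervalIntegral.integral_congr_ae hae, intervalIntegral.integral_add (by simp) hi2, hint]
  simp

/-! ### the second antiderivative -/

/-- `w log(-iw) - w`, an antiderivative of `log(-iw)`; its real part is `Phi` on `im ≥ 0`. -/
noncomputable def Fc (w : ℂ) : ℂ := w * Complex.log (-Complex.I * w) - w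

/-- antiderivative of `Fc` -/
noncomputable def Gc (w : ℂ) : ℂ := w ^ 2 / 2 * Complex.log (-Complex.I * w) - 3 * w ^ 2 / 4

theorem negI_mul_re (w : ℂ) : (-Complex.I * w).re = w.im := by simp
theorem negI_mul_im (w : ℂ) : (-Complex.I * w).im = -w.re := by simp

theorem negI_mem_slit {w : ℂ} (h : 0 ≤ w.im) (h0 : w ≠ 0) : -Complex.I * w ∈ Complex.slitPlane := by
  rw [Complex.mem_slitPlane_iff, negI_mul_re, negI_mul_im]
  rcases h.lt_or_eq with h | h
  · exact Or.inl h
  · right
    intro h1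
    apply h0
    apply Complex.ext
    · simpa using h1
    · simpa using h.symm

theorem hasDerivAt_Gc {w : ℂ} (h : 0 ≤ w.im) (h0 : w ≠ 0) : HasDerivAt Gc (Fc w) w := by
  have h1 : HasDerivAt (fun w : ℂ => -Complex.I * w) (-Complex.I) w := by
    simpa using (hasDerivAt_id w).const_mul (-Complex.I)
  have h2 := h1.clog (negI_mem_slit h h0)
  have h3 : HasDerivAt (fun w : ℂ => w ^ 2 / 2) (2 * w / 2) w := by
    simpa using (hasDerivAt_pow 2 w).div_const 2
  have h4 : HasDerivAt (fun w : ℂ => 3 * w ^ 2 / 4) (3 * (2 * w) / 4) w := by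
    simpa using ((hasDerivAt_pow 2 w).const_mul 3).div_const 4
  refine ((h3.mul h2).sub h4).congr_deriv ?_
  unfold Fc
  have hI := Complex.I_ne_zero
  field_simp
  ring


theorem tendsto_wlog : ContinuousAt (fun w : ℂ => w * Complex.log (-Complex.I * w)) 0 := by
  have h0 : (fun w : ℂ => w * Complex.log (-Complex.I * w)) 0 = 0 := by simp
  unfold ContinuousAt
  rw [h0, tendsto_zero_iff_norm_tendsto_zero]
  have hb : Filter.Tendsto (fun w : ℂ => |‖w‖ * Real.log ‖w‖| + Real.pi * ‖w‖)
      (nhds 0) (nhds 0) := by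
    have hc : Continuous (fun w : ℂ => |‖w‖ * Real.log ‖w‖| + Real.pi * ‖w‖) := by
      refine Continuous.add ?_ (by fun_prop)
      exact (Real.continuous_mul_log.comp continuous_norm).abs
    have := hc.tendsto 0
    simpa using this
  refine squeeze_zero (fun w => norm_nonneg _) (fun w => ?_) hb
  rw [norm_mul]
  have h1 : ‖Complex.log (-Complex.I * w)‖ ≤ |Real.log ‖w‖| + Real.pi := by
    refine (Complex.norm_le_abs_re_add_abs_im _).trans ?_
    rw [Complex.log_re, Complex.log_im]
    have : ‖-Complex.I * w‖ = ‖w‖ := by simp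
    rw [this]
    gcongr
    exact Complex.abs_arg_le_pi _
  calc ‖w‖ * ‖Complex.log (-Complex.I * w)‖ ≤ ‖w‖ * (|Real.log ‖w‖| + Real.pi) :=
        mul_le_mul_of_nonneg_left h1 (norm_nonneg _)
    _ = |‖w‖ * Real.log ‖w‖| + Real.pi * ‖w‖ := by
        rw [abs_mul, abs_of_nonneg (norm_nonneg w)]; ring

theorem continuousAt_wlog {w : ℂ} (h : 0 ≤ w.im) :
    ContinuousAt (fun w : ℂ => w * Complex.log (-Complex.I * w)) w := by
  by_cases h0 : w = 0
  · rw [h0]; exact tendsto_wlog
  · refine continuousAt_id.mul (ContinuousAt.clog (by fun_prop) (negI_mem_slit h h0))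

theorem continuousAt_Fc {w : ℂ} (h : 0 ≤ w.im) : ContinuousAt Fc w :=
  (continuousAt_wlog h).sub continuousAt_id

theorem continuousAt_Gc {w : ℂ} (h : 0 ≤ w.im) : ContinuousAt Gc w := by
  have e : Gc = fun w : ℂ => w / 2 * (w * Complex.log (-Complex.I * w)) - 3 * w ^ 2 / 4 := by
    funext w; unfold Gc; ring
  rw [e]
  refine ContinuousAt.sub (ContinuousAt.mul (by fun_prop) (continuousAt_wlog h)) (by fun_prop)

theorem arg_negI {w : ℂ} (h : 0 < w.im) :
    Complex.arg (-Complex.I * w) = -Real.arctan (w.re / w.im) := by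
  have h1 : |Complex.arg (-Complex.I * w)| < Real.pi / 2 := by
    rw [Complex.abs_arg_lt_pi_div_two_iff, negI_mul_re]; exact Or.inl h
  rw [abs_lt] at h1
  rw [← Real.arctan_tan h1.1 h1.2, Complex.tan_arg, negI_mul_re, negI_mul_im, neg_div,
    Real.arctan_neg]

theorem Fc_re {w : ℂ} (h : 0 ≤ w.im) : (Fc w).re = Phi w.re w.im := by
  have hn : ‖-Complex.I * w‖ = ‖w‖ := by simp
  unfold Fc Phi
  rw [Complex.sub_re, Complex.mul_re, Complex.log_re, Complex.log_im, hn, ← log_sq_eq]
  rcases h.lt_or_eq with h | h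
  · rw [arg_negI h]; ring
  · rw [← h]; ring

/-- the line integral of `Phi` in the closed upper half plane. -/
theorem integral_Phi_line (w0 μ : ℂ) (hμ : μ ≠ 0) (h0 : 0 ≤ w0.im) (h1 : 0 ≤ (w0 + μ).im) :
    IntervalIntegrable (fun τ : ℝ => Phi (w0 + τ * μ).re (w0 + τ * μ).im) volume 0 1 ∧
    ∫ τ in (0:ℝ)..1, Phi (w0 + τ * μ).re (w0 + τ * μ).im = ((Gc (w0 + μ) - Gc w0) / μ).re := by
  have him : ∀ τ ∈ Set.Icc (0:ℝ) 1, 0 ≤ (w0 + τ * μ).im := by
    intro τ hτ
    have e1 : (w0 + τ * μ).im = (1 - τ) * w0.im + τ * (w0 + μ).im := by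
      simp; ring
    rw [e1]
    have := hτ.1; have := hτ.2
    have h3 : 0 ≤ 1 - τ := by linarith
    positivity
  have hcF : ContinuousOn (fun τ : ℝ => Fc (w0 + τ * μ)) (Set.Icc (0:ℝ) 1) := by
    intro τ hτ
    refine ContinuousAt.continuousWithinAt ?_
    have hg : ContinuousAt (fun τ : ℝ => w0 + (τ : ℂ) * μ) τ := by fun_prop
    exact ContinuousAt.comp (f := fun τ : ℝ => w0 + (τ : ℂ) * μ) (continuousAt_Fc (him τ hτ)) hg
  have hcG : ContinuousOn (fun τ : ℝ => Gc (w0 + τ * μ) / μ) (Set.Icc (0:ℝ) 1) := by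
    intro τ hτ
    refine ContinuousAt.continuousWithinAt ?_
    have hg : ContinuousAt (fun τ : ℝ => w0 + (τ : ℂ) * μ) τ := by fun_prop
    exact (ContinuousAt.comp (f := fun τ : ℝ => w0 + (τ : ℂ) * μ)
      (continuousAt_Gc (him τ hτ)) hg).div_const μ
  have hII : IntervalIntegrable (fun τ : ℝ => Fc (w0 + τ * μ)) volume 0 1 := by
    apply ContinuousOn.intervalIntegrable
    rw [Set.uIcc_of_le zero_le_one]
    exact hcF
  have hcount : ({τ : ℝ | w0 + (τ : ℂ) * μ = 0}).Countable := by
    apply Set.Subsingleton.countable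
    intro x hx y hy
    simp only [Set.mem_ofPred_eq] at hx hy
    have : ((x : ℂ) - y) * μ = 0 := by linear_combination hx - hy
    rcases mul_eq_zero.1 this with h | h
    · have := sub_eq_zero.1 h
      exact_mod_cast this
    · exact absurd h hμ
  have hd : ∀ τ ∈ Set.Ioo (0:ℝ) 1 \ {τ : ℝ | w0 + (τ : ℂ) * μ = 0},
      HasDerivAt (fun τ : ℝ => Gc (w0 + τ * μ) / μ) (Fc (w0 + τ * μ)) τ := by
    intro τ hτ
    have hin : HasDerivAt (fun τ : ℝ => w0 + (τ : ℂ) * μ) μ τ := by
      have := ((Complex.ofRealCLM.hasDerivAt (x := τ)).mul_const μ).const_add w0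
      simpa using this
    have h4 := (hasDerivAt_Gc (him τ ⟨hτ.1.1.le, hτ.1.2.le⟩) hτ.2).comp τ hin
    refine (h4.div_const μ).congr_deriv ?_
    field_simp
  have hFTC := integral_eq_of_hasDerivAt_off_countable_of_le _ _ zero_le_one hcount hcG hd hII
  have hre : Set.EqOn (fun τ : ℝ => Phi (w0 + τ * μ).re (w0 + τ * μ).im)
      (fun τ : ℝ => (Fc (w0 + τ * μ)).re) (Set.uIcc (0:ℝ) 1) := by
    intro τ hτ
    rw [Set.uIcc_of_le zero_le_one] at hτ
    exact (Fc_re (him τ hτ)).symm
  constructor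
  · apply ContinuousOn.intervalIntegrable
    refine ContinuousOn.congr ?_ hre
    rw [Set.uIcc_of_le zero_le_one]
    exact Complex.continuous_re.comp_continuousOn hcF
  · rw [intervalIntegral.integral_congr hre]
    have h5 := Complex.reCLM.intervalIntegral_comp_comm hII
    simp only [Complex.reCLM_apply] at h5
    rw [h5, hFTC]
    simp only [Complex.ofReal_one, one_mul, Complex.ofReal_zero, zero_mul, add_zero]
    rw [← sub_div]


end Crest.Agent.R006.NumSegx464
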