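import Mathlib
import Crest.Agent.R006.NumPhi_179

/-!
# Row 6: tails of segment potentials along a line (helper322)

`S(T) = Phi (a + b T) (c + d T) - Phi (a - ℓ + b T) (c + d T) = ∫_0^ℓ log |ζ(T) - x| dx`,
`ζ(T) = (a + b T) + i (c + d T)`.  Then `|S'(T)| ≤ ℓ √(b² + d²) / dist(ζ(T), [0, ℓ])`.
Abstract consequence: a sum `α + β T + Σ m_j S_j(T)` is antitone on `[R, ∞)` as soon as
`β + Σ |m_j| ℓ_j √(b_j² + d_j²) / δ_j ≤ 0`, `δ_j` a lower bound of the distance for all `T ≥ R`.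
-/

set_option autoImplicit false

namespace Crest.Agent.R006.NumTailx322

open Set Crest.Agent.R006.NumPhix179

/-- first derivative as a function of the horizontal coordinate `u` -/
noncomputable def Dv (b d v u : ℝ) : ℝ :=
  b * (1 / 2 * Real.log (u ^ 2 + v ^ 2)) + d * Real.arctan (u / v)

lemma D1_eq (a b c d t : ℝ) : D1 a b c d t = Dv b d (c + d * t) (a + b * t) := rfl

lemma hasDerivAt_Dv {b d v u : ℝ} (h : v ≠ 0 ∨ (d = 0 ∧ u ≠ 0)) :
    HasDerivAt (Dv b d v) ((b * u + d * v) / (u ^ 2 + v ^ 2)) u := by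
  have hne : u ^ 2 + v ^ 2 ≠ 0 := by
    rcases h with h | ⟨_, h⟩ <;> positivity
  have hs : HasDerivAt (fun u : ℝ => u ^ 2 + v ^ 2) (2 * u) u := by
    simpa using ((hasDerivAt_id u).fun_pow 2).add_const (v ^ 2)
  have hl := ((hs.log hne).const_mul (1 / 2 : ℝ)).const_mul b
  rcases h with h | ⟨hd, hu⟩
  · have hq : HasDerivAt (fun u : ℝ => u / v) (1 / v) u := (hasDerivAt_id u).div_const v
    have hat := hq.arctan.const_mul d
    refine (hl.fun_add hat).congr_deriv ?_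
    have h1 : 1 + (u / v) ^ 2 = (u ^ 2 + v ^ 2) / v ^ 2 := by
      field_simp; ring
    rw [h1]
    field_simp
  · subst hd
    have e : Dv b 0 v = fun u => b * (1 / 2 * Real.log (u ^ 2 + v ^ 2)) := by
      funext u; simp [Dv]
    rw [e]
    refine hl.congr_deriv ?_
    field_simp
    ring

lemma abs_dot_le {b d u v δ : ℝ} (hδ : 0 < δ) (h : δ ^ 2 ≤ u ^ 2 + v ^ 2) :
    |(b * u + d * v) / (u ^ 2 + v ^ 2)| ≤ Real.sqrt (b ^ 2 + d ^ 2) / δ := by
  have hpos : 0 < u ^ 2 + v ^ 2 := lt_of_lt_of_le (by positivity) h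
  rw [abs_div, abs_of_pos hpos, div_le_div_iff₀ hpos hδ]
  have h1 : |b * u + d * v| ≤ Real.sqrt (b ^ 2 + d ^ 2) * Real.sqrt (u ^ 2 + v ^ 2) := by
    rw [← Real.sqrt_mul (by positivity)]
    apply Real.abs_le_sqrt
    nlinarith [sq_nonneg (b * v - d * u)]
  have h2 : δ ≤ Real.sqrt (u ^ 2 + v ^ 2) := Real.le_sqrt_of_sq_le h
  calc |b * u + d * v| * δ
      ≤ (Real.sqrt (b ^ 2 + d ^ 2) * Real.sqrt (u ^ 2 + v ^ 2)) * Real.sqrt (u ^ 2 + v ^ 2) :=
        mul_le_mul h1 h2 hδ.le (by positivity)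
    _ = Real.sqrt (b ^ 2 + d ^ 2) * (u ^ 2 + v ^ 2) := by
        rw [mul_assoc, Real.mul_self_sqrt hpos.le]

/-- derivative of one segment potential along a line -/
lemma seg_deriv_bound {a b c d ℓ δ t : ℝ} (hℓ : 0 ≤ ℓ) (hδ : 0 < δ)
    (hcd : c + d * t ≠ 0 ∨ d = 0)
    (h : ∀ x ∈ Icc (0 : ℝ) ℓ, δ ^ 2 ≤ (a + b * t - x) ^ 2 + (c + d * t) ^ 2) :
    |D1 a b c d t - D1 (a - ℓ) b c d t| ≤ ℓ * Real.sqrt (b ^ 2 + d ^ 2) / δ := by
  set v := c + d * t with hv
  set u := a + b * t with hu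
  have hder : ∀ x ∈ Icc (0 : ℝ) ℓ, HasDerivWithinAt (fun x : ℝ => Dv b d v (u - x))
      (-((b * (u - x) + d * v) / ((u - x) ^ 2 + v ^ 2))) (Icc 0 ℓ) x := by
    intro x hx
    have hh : v ≠ 0 ∨ (d = 0 ∧ u - x ≠ 0) := by
      rcases hcd with h1 | h1
      · exact Or.inl h1
      · by_cases hv0 : v = 0
        · refine Or.inr ⟨h1, ?_⟩
          intro h0
          have := h x hx
          rw [h0, hv0] at this
          nlinarith [pow_pos hδ 2]
        · exact Or.inl hv0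
    have h1 := hasDerivAt_Dv (b := b) (d := d) hh
    have h2 : HasDerivAt (fun x : ℝ => u - x) (-1) x := by
      simpa using (hasDerivAt_id x).const_sub u
    have h3 := h1.comp x h2
    have h4 : HasDerivAt (fun x : ℝ => Dv b d v (u - x))
        (-((b * (u - x) + d * v) / ((u - x) ^ 2 + v ^ 2))) x := by
      refine (h3.congr_deriv ?_)
      ring
    exact h4.hasDerivWithinAt
  have hbd : ∀ x ∈ Icc (0 : ℝ) ℓ,
      ‖-((b * (u - x) + d * v) / ((u - x) ^ 2 + v ^ 2))‖ ≤ Real.sqrt (b ^ 2 + d ^ 2) / δ := by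
    intro x hx
    rw [norm_neg, Real.norm_eq_abs]
    exact abs_dot_le hδ (h x hx)
  have hm := (convex_Icc (0 : ℝ) ℓ).norm_image_sub_le_of_norm_hasDerivWithin_le hder hbd
    (right_mem_Icc.mpr hℓ) (left_mem_Icc.mpr hℓ)
  have e1 : D1 a b c d t = Dv b d v (u - 0) := by rw [D1_eq, sub_zero]
  have e2 : D1 (a - ℓ) b c d t = Dv b d v (u - ℓ) := by
    rw [D1_eq]; congr 1; rw [hu]; ring
  rw [e1, e2]
  rw [Real.norm_eq_abs, Real.norm_eq_abs, zero_sub, abs_neg, abs_of_nonneg hℓ] at hm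
  calc |Dv b d v (u - 0) - Dv b d v (u - ℓ)| ≤ Real.sqrt (b ^ 2 + d ^ 2) / δ * ℓ := hm
    _ = ℓ * Real.sqrt (b ^ 2 + d ^ 2) / δ := by ring

/-- one segment seen from a moving point -/
structure Seg where
  /-- mass density (any sign) -/
  m : ℝ
  /-- horizontal coordinate `a + b T` -/
  a : ℝ
  /-- slope of the horizontal coordinate -/
  b : ℝ
  /-- vertical coordinate `c + d T` -/
  c : ℝ
  /-- slope of the vertical coordinate -/
  d : ℝ
  /-- length of the segment `[0, ℓ]` -/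
  l : ℝ

/-- `∫_0^ℓ log |ζ(T) - x| dx` times the density -/
noncomputable def Seg.val (s : Seg) (T : ℝ) : ℝ :=
  s.m * (Phi (s.a + s.b * T) (s.c + s.d * T) - Phi (s.a - s.l + s.b * T) (s.c + s.d * T))

/-- squared distance is at least `δ²` and the vertical coordinate is admissible -/
def Seg.Far (s : Seg) (δ T : ℝ) : Prop :=
  0 ≤ s.l ∧ 0 < δ ∧ (s.c + s.d * T ≠ 0 ∨ (s.c = 0 ∧ s.d = 0)) ∧
    ∀ x ∈ Icc (0 : ℝ) s.l, δ ^ 2 ≤ (s.a + s.b * T - x) ^ 2 + (s.c + s.d * T) ^ 2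

/-- derivative of `Seg.val` -/
noncomputable def Seg.der (s : Seg) (T : ℝ) : ℝ :=
  s.m * (D1 s.a s.b s.c s.d T - D1 (s.a - s.l) s.b s.c s.d T)

lemma Seg.hasDerivAt {s : Seg} {δ T : ℝ} (h : s.Far δ T) : HasDerivAt s.val (s.der T) T := by
  obtain ⟨hl, hδ, hc, hd⟩ := h
  have hδ2 : 0 < δ ^ 2 := by positivity
  have h1 : s.c + s.d * T ≠ 0 ∨ (s.c = 0 ∧ s.d = 0 ∧ s.a + s.b * T ≠ 0) := by
    rcases hc with h | ⟨h, h'⟩
    · exact Or.inl h
    · refine Or.inr ⟨h, h', ?_⟩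
      intro h0
      have := hd 0 (left_mem_Icc.mpr hl)
      rw [h0, h, h'] at this
      norm_num at this
      nlinarith
  have h2 : s.c + s.d * T ≠ 0 ∨ (s.c = 0 ∧ s.d = 0 ∧ s.a - s.l + s.b * T ≠ 0) := by
    rcases hc with h | ⟨h, h'⟩
    · exact Or.inl h
    · refine Or.inr ⟨h, h', ?_⟩
      intro h0
      have := hd s.l (right_mem_Icc.mpr hl)
      have e : s.a + s.b * T - s.l = 0 := by linarith
      rw [e, h, h'] at this
      norm_num at this
      nlinarith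
  exact ((hasDerivAt_Phi h1).fun_sub (hasDerivAt_Phi h2)).const_mul s.m

lemma Seg.abs_der_le {s : Seg} {δ T : ℝ} (h : s.Far δ T) :
    |s.der T| ≤ |s.m| * (s.l * Real.sqrt (s.b ^ 2 + s.d ^ 2) / δ) := by
  obtain ⟨hl, hδ, hc, hd⟩ := h
  unfold Seg.der
  rw [abs_mul]
  apply mul_le_mul_of_nonneg_left _ (abs_nonneg _)
  apply seg_deriv_bound hl hδ _ hd
  rcases hc with h | ⟨_, h⟩
  · exact Or.inl h
  · exact Or.inr h

/-- TAIL LEMMA: `α + β T + Σ segments` is antitone on `[R, ∞)` -/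
theorem antitoneOn_tail (α β R : ℝ) (L : List (Seg × ℝ))
    (hfar : ∀ p ∈ L, ∀ T, R ≤ T → p.1.Far p.2 T)
    (hneg : β + (L.map (fun p => |p.1.m| *
      (p.1.l * Real.sqrt (p.1.b ^ 2 + p.1.d ^ 2) / p.2))).sum ≤ 0) :
    AntitoneOn (fun T => α + β * T + (L.map (fun p => p.1.val T)).sum) (Ici R) := by
  have hder : ∀ T, R ≤ T → HasDerivAt (fun T => α + β * T + (L.map (fun p => p.1.val T)).sum)
      (β + (L.map (fun p => p.1.der T)).sum) T := by
    intro T hT
    have hsum : ∀ (M : List (Seg × ℝ)), (∀ p ∈ M, p.1.Far p.2 T) →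
        HasDerivAt (fun T => (M.map (fun p => p.1.val T)).sum)
          ((M.map (fun p => p.1.der T)).sum) T := by
      intro M
      induction M with
      | nil => intro _; simpa using hasDerivAt_const T (0 : ℝ)
      | cons p M ih =>
        intro hM
        have h1 := Seg.hasDerivAt (hM p (by simp))
        have h2 := ih (fun q hq => hM q (by simp [hq]))
        simpa using h1.fun_add h2
    have h0 : HasDerivAt (fun T : ℝ => α + β * T) β T := by
      simpa using ((hasDerivAt_id T).const_mul β).const_add α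
    exact h0.fun_add (hsum L (fun p hp => hfar p hp T hT))
  have hle : ∀ T, R ≤ T → β + (L.map (fun p => p.1.der T)).sum ≤ 0 := by
    intro T hT
    have hs : ∀ (M : List (Seg × ℝ)), (∀ p ∈ M, p.1.Far p.2 T) →
        (M.map (fun p => p.1.der T)).sum ≤ (M.map (fun p => |p.1.m| *
          (p.1.l * Real.sqrt (p.1.b ^ 2 + p.1.d ^ 2) / p.2))).sum := by
      intro M
      induction M with
      | nil => intro _; simp
      | cons p M ih =>
        intro hM
        have h1 := (le_abs_self _).trans (Seg.abs_der_le (hM p (by simp)))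
        have h2 := ih (fun q hq => hM q (by simp [hq]))
        simp only [List.map_cons, List.sum_cons]
        linarith
    have := hs L (fun p hp => hfar p hp T hT)
    linarith
  apply antitoneOn_of_deriv_nonpos (convex_Ici R)
  · intro T hT
    exact (hder T hT).continuousAt.continuousWithinAt
  · intro T hT
    rw [interior_Ici] at hT
    exact (hder T (le_of_lt hT)).differentiableAt.differentiableWithinAt
  · intro T hT
    rw [interior_Ici] at hT
    rw [(hder T (le_of_lt hT)).deriv]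
    exact hle T (le_of_lt hT)

/-- sufficient condition A for `Far`: the vertical coordinate stays above `δ` -/
lemma far_of_vert {s : Seg} {R : ℝ} (hl : 0 ≤ s.l) (hd : 0 ≤ s.d) (hδ : 0 < s.c + s.d * R) :
    ∀ T, R ≤ T → s.Far (s.c + s.d * R) T := by
  intro T hT
  have h1 : s.c + s.d * R ≤ s.c + s.d * T := by nlinarith
  refine ⟨hl, hδ, Or.inl (by linarith), fun x _ => ?_⟩
  nlinarith [sq_nonneg (s.a + s.b * T - x)]

/-- sufficient condition A' for `Far`: the vertical coordinate stays below `-δ` -/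
lemma far_of_vert_neg {s : Seg} {R : ℝ} (hl : 0 ≤ s.l) (hd : s.d ≤ 0)
    (hδ : s.c + s.d * R < 0) : ∀ T, R ≤ T → s.Far (-(s.c + s.d * R)) T := by
  intro T hT
  have h1 : s.c + s.d * T ≤ s.c + s.d * R := by nlinarith
  refine ⟨hl, by linarith, Or.inl (by linarith), fun x _ => ?_⟩
  nlinarith [sq_nonneg (s.a + s.b * T - x)]

/-- sufficient condition B for `Far`: the horizontal coordinate stays to the left of the segment
(`δ ≤ -(a + b T)`, `b ≤ 0`) -/
lemma far_of_left {s : Seg} {R : ℝ} (hl : 0 ≤ s.l) (hb : s.b ≤ 0) (hδ : s.a + s.b * R < 0)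
    (hv : ∀ T, R ≤ T → s.c + s.d * T ≠ 0 ∨ (s.c = 0 ∧ s.d = 0)) :
    ∀ T, R ≤ T → s.Far (-(s.a + s.b * R)) T := by
  intro T hT
  have h1 : s.a + s.b * T ≤ s.a + s.b * R := by nlinarith
  refine ⟨hl, by linarith, hv T hT, fun x hx => ?_⟩
  have hx0 := hx.1
  have h2 : -(s.a + s.b * R) ≤ -(s.a + s.b * T - x) := by linarith
  nlinarith [sq_nonneg (s.c + s.d * T)]

/-- sufficient condition B' for `Far`: the horizontal coordinate stays to the right of the
segment -/
lemma far_of_right {s : Seg} {R : ℝ} (hl : 0 ≤ s.l) (hb : 0 ≤ s.b)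
    (hδ : 0 < s.a + s.b * R - s.l)
    (hv : ∀ T, R ≤ T → s.c + s.d * T ≠ 0 ∨ (s.c = 0 ∧ s.d = 0)) :
    ∀ T, R ≤ T → s.Far (s.a + s.b * R - s.l) T := by
  intro T hT
  have h1 : s.a + s.b * R ≤ s.a + s.b * T := by nlinarith
  refine ⟨hl, hδ, hv T hT, fun x hx => ?_⟩
  have hx0 := hx.2
  have h2 : s.a + s.b * R - s.l ≤ s.a + s.b * T - x := by linarith
  nlinarith [sq_nonneg (s.c + s.d * T)]

end Crest.Agent.R006.NumTailx322
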