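import Mathlib

/-!
Kernel-fast certified numerics (row 6, design independent), helper482.

`lg s k n` / `lgU s k n`: naturals with `2^(lg) ≤ n^(2^k) ≤ 2^(lgU)`, i.e. binary digits of `log₂ n`,
computed by repeated squaring with `s` bit mantissas.  Only `Nat` operations that the kernel
evaluates with GMP are used, so closed instances are decided by `decide`-free `rfl` proofs.
-/

set_option autoImplicit false

namespace Num482

open Real

/-- lower digit loop -/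
def loopLo (s : ℕ) : ℕ → ℕ → ℕ → ℕ
  | 0, B, _ => B
  | k + 1, B, m =>
      let y := (m * m) / 2 ^ s
      bif Nat.ble (2 ^ (s + 1)) y then loopLo s k (2 * B + 1) (y / 2) else loopLo s k (2 * B) y

/-- upper digit loop -/
def loopHi (s : ℕ) : ℕ → ℕ → ℕ → ℕ
  | 0, B, _ => B + 1
  | k + 1, B, m =>
      let y := (m * m + (2 ^ s - 1)) / 2 ^ s
      bif Nat.ble (2 ^ (s + 1)) y then loopHi s k (2 * B + 1) ((y + 1) / 2)
      else loopHi s k (2 * B) y

theorem loopLo_spec (s : ℕ) : ∀ (k B m : ℕ) (x : ℝ), 2 ^ s ≤ m →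
    (2 : ℝ) ^ B * ((m : ℝ) / 2 ^ s) ≤ x → (2 : ℝ) ^ (loopLo s k B m) ≤ x ^ (2 ^ k) := by
  intro k
  induction k with
  | zero =>
    intro B m x hm hx
    simp only [loopLo, pow_zero, pow_one]
    refine le_trans ?_ hx
    have h1 : (1 : ℝ) ≤ (m : ℝ) / 2 ^ s := by
      rw [le_div_iff₀ (by positivity)]
      have : ((2 ^ s : ℕ) : ℝ) ≤ (m : ℝ) := by exact_mod_cast hm
      push_cast at this; linarith
    nlinarith [show (0 : ℝ) < (2 : ℝ) ^ B by positivity]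
  | succ k ih =>
    intro B m x hm hx
    have hs : (0 : ℝ) < (2 : ℝ) ^ s := by positivity
    have hB : (0 : ℝ) < (2 : ℝ) ^ B := by positivity
    have hm0 : (0 : ℝ) ≤ (m : ℝ) := by positivity
    set y : ℕ := (m * m) / 2 ^ s with hy
    have hy1 : (y : ℝ) ≤ (m : ℝ) * m / 2 ^ s := by
      have h1 : y * 2 ^ s ≤ m * m := Nat.div_mul_le_self _ _
      rw [le_div_iff₀ hs]
      exact_mod_cast h1
    have hy2 : 2 ^ s ≤ y := by
      rw [hy, Nat.le_div_iff_mul_le (by positivity)]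
      exact Nat.mul_le_mul hm hm
    have hx0 : (0 : ℝ) ≤ x := le_trans (by positivity) hx
    have hsq : (2 : ℝ) ^ (2 * B) * ((y : ℝ) / 2 ^ s) ≤ x ^ 2 := by
      have h2 : ((2 : ℝ) ^ B * ((m : ℝ) / 2 ^ s)) ^ 2 ≤ x ^ 2 :=
        pow_le_pow_left₀ (by positivity) hx 2
      refine le_trans ?_ h2
      rw [mul_pow, ← pow_mul, mul_comm B 2]
      refine mul_le_mul_of_nonneg_left ?_ (by positivity)
      rw [div_pow, div_le_div_iff₀ hs (by positivity)]
      calc (y : ℝ) * (2 ^ s) ^ 2 ≤ ((m : ℝ) * m / 2 ^ s) * (2 ^ s) ^ 2 := by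
            exact mul_le_mul_of_nonneg_right hy1 (by positivity)
        _ = (m : ℝ) ^ 2 * 2 ^ s := by field_simp
    have hpow : x ^ (2 ^ (k + 1)) = (x ^ 2) ^ (2 ^ k) := by
      rw [← pow_mul, pow_succ, mul_comm]
    rw [hpow]
    simp only [loopLo]
    rw [← hy]
    cases hb : Nat.ble (2 ^ (s + 1)) y with
    | false =>
      simp only [cond_false]
      exact ih _ _ _ hy2 hsq
    | true =>
      simp only [cond_true]
      have hb' : 2 ^ (s + 1) ≤ y := Nat.le_of_ble_eq_true hb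
      apply ih
      · rw [Nat.le_div_iff_mul_le (by norm_num)]
        rw [pow_succ] at hb'; exact hb'
      · refine le_trans ?_ hsq
        have h3 : ((y / 2 : ℕ) : ℝ) ≤ (y : ℝ) / 2 := by
          have : (y / 2) * 2 ≤ y := Nat.div_mul_le_self _ _
          rw [le_div_iff₀ (by norm_num)]
          exact_mod_cast this
        rw [pow_succ]
        have h4 : ((y / 2 : ℕ) : ℝ) / 2 ^ s ≤ (y : ℝ) / 2 / 2 ^ s :=
          div_le_div_of_nonneg_right h3 hs.le
        calc (2 : ℝ) ^ (2 * B) * 2 * (((y / 2 : ℕ) : ℝ) / 2 ^ s)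
            ≤ (2 : ℝ) ^ (2 * B) * 2 * ((y : ℝ) / 2 / 2 ^ s) :=
              mul_le_mul_of_nonneg_left h4 (by positivity)
          _ = (2 : ℝ) ^ (2 * B) * ((y : ℝ) / 2 ^ s) := by ring

theorem loopHi_spec (s : ℕ) : ∀ (k B m : ℕ) (x : ℝ), m ≤ 2 ^ (s + 1) → 0 ≤ x →
    x ≤ (2 : ℝ) ^ B * ((m : ℝ) / 2 ^ s) → x ^ (2 ^ k) ≤ (2 : ℝ) ^ (loopHi s k B m) := by
  intro k
  induction k with
  | zero =>
    intro B m x hm hx0 hx
    simp only [loopHi, pow_zero, pow_one]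
    refine le_trans hx ?_
    rw [pow_succ]
    refine mul_le_mul_of_nonneg_left ?_ (by positivity)
    rw [div_le_iff₀ (by positivity)]
    have : ((m : ℕ) : ℝ) ≤ ((2 ^ (s + 1) : ℕ) : ℝ) := by exact_mod_cast hm
    push_cast at this; rw [pow_succ] at this; linarith
  | succ k ih =>
    intro B m x hm hx0 hx
    have hs : (0 : ℝ) < (2 : ℝ) ^ s := by positivity
    have hB : (0 : ℝ) < (2 : ℝ) ^ B := by positivity
    have hm0 : (0 : ℝ) ≤ (m : ℝ) := by positivity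
    set y : ℕ := (m * m + (2 ^ s - 1)) / 2 ^ s with hy
    have h2s : 1 ≤ 2 ^ s := Nat.one_le_two_pow
    have hy0 : m * m ≤ y * 2 ^ s := by
      have := Nat.lt_div_mul_add (a := m * m + (2 ^ s - 1)) (b := 2 ^ s) (by positivity)
      rw [← hy] at this
      omega
    have hy1 : (m : ℝ) * m / 2 ^ s ≤ (y : ℝ) := by
      rw [div_le_iff₀ hs]
      exact_mod_cast hy0
    have hsq : x ^ 2 ≤ (2 : ℝ) ^ (2 * B) * ((y : ℝ) / 2 ^ s) := by
      have h2 : x ^ 2 ≤ ((2 : ℝ) ^ B * ((m : ℝ) / 2 ^ s)) ^ 2 :=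
        pow_le_pow_left₀ hx0 hx 2
      refine le_trans h2 ?_
      rw [mul_pow, ← pow_mul, mul_comm B 2]
      refine mul_le_mul_of_nonneg_left ?_ (by positivity)
      rw [div_pow, div_le_div_iff₀ (by positivity) hs]
      calc (m : ℝ) ^ 2 * 2 ^ s = ((m : ℝ) * m / 2 ^ s) * (2 ^ s) ^ 2 := by field_simp
        _ ≤ (y : ℝ) * (2 ^ s) ^ 2 := mul_le_mul_of_nonneg_right hy1 (by positivity)
    have hpow : x ^ (2 ^ (k + 1)) = (x ^ 2) ^ (2 ^ k) := by
      rw [← pow_mul, pow_succ, mul_comm]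
    rw [hpow]
    simp only [loopHi]
    rw [← hy]
    have hyU : y ≤ 2 ^ (s + 2) := by
      have h1 : m * m ≤ 2 ^ (s + 1) * 2 ^ (s + 1) := Nat.mul_le_mul hm hm
      have h3 : 2 ^ (s + 1) * 2 ^ (s + 1) = 2 ^ s * 2 ^ (s + 2) := by ring
      have h2 : y < 2 ^ (s + 2) + 1 := by
        rw [hy, Nat.div_lt_iff_lt_mul (by positivity)]
        calc m * m + (2 ^ s - 1) < 2 ^ s * 2 ^ (s + 2) + 2 ^ s := by omega
          _ = (2 ^ (s + 2) + 1) * 2 ^ s := by ring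
      omega
    have hp2 : 2 ^ (s + 2) = 2 * 2 ^ (s + 1) := by ring
    cases hb : Nat.ble (2 ^ (s + 1)) y with
    | false =>
      simp only [cond_false]
      have hb' : ¬ 2 ^ (s + 1) ≤ y := fun h => by
        rw [Nat.ble_eq_true_of_le h] at hb; exact absurd hb (by decide)
      exact ih _ _ _ (by omega) (by positivity) hsq
    | true =>
      simp only [cond_true]
      apply ih _ _ _ (by omega) (by positivity)
      refine le_trans hsq ?_
      have h3 : (y : ℝ) / 2 ≤ (((y + 1) / 2 : ℕ) : ℝ) := by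
        have : y ≤ ((y + 1) / 2) * 2 := by omega
        rw [div_le_iff₀ (by norm_num)]
        exact_mod_cast this
      rw [pow_succ]
      have h4 : (y : ℝ) / 2 / 2 ^ s ≤ (((y + 1) / 2 : ℕ) : ℝ) / 2 ^ s :=
        div_le_div_of_nonneg_right h3 hs.le
      calc (2 : ℝ) ^ (2 * B) * ((y : ℝ) / 2 ^ s) = (2 : ℝ) ^ (2 * B) * 2 * ((y : ℝ) / 2 / 2 ^ s) := by
            ring
        _ ≤ _ := mul_le_mul_of_nonneg_left h4 (by positivity)

/-- `2 ^ lgLo s k n ≤ n ^ (2^k)` : `k` binary digits of `log₂ n`, from below (`n ≥ 1`). -/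
def lgLo (s k n : ℕ) : ℕ :=
  loopLo s k (Nat.log2 n) ((n * 2 ^ s) / 2 ^ (Nat.log2 n))

/-- `n ^ (2^k) ≤ 2 ^ lgHi s k n`, from above. -/
def lgHi (s k n : ℕ) : ℕ :=
  loopHi s k (Nat.log2 n) ((n * 2 ^ s + (2 ^ (Nat.log2 n) - 1)) / 2 ^ (Nat.log2 n))

theorem lgLo_pow (s k n : ℕ) (hn : n ≠ 0) : (2 : ℝ) ^ (lgLo s k n) ≤ (n : ℝ) ^ (2 ^ k) := by
  unfold lgLo
  set b := Nat.log2 n with hb
  have hb1 : 2 ^ b ≤ n := (Nat.le_log2 hn).1 le_rfl
  apply loopLo_spec
  · rw [Nat.le_div_iff_mul_le (by positivity), mul_comm]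
    exact Nat.mul_le_mul_right _ hb1
  · have h1 : (((n * 2 ^ s) / 2 ^ b : ℕ) : ℝ) ≤ (n : ℝ) * 2 ^ s / 2 ^ b := by
      have : ((n * 2 ^ s) / 2 ^ b) * 2 ^ b ≤ n * 2 ^ s := Nat.div_mul_le_self _ _
      rw [le_div_iff₀ (by positivity)]
      exact_mod_cast this
    calc (2 : ℝ) ^ b * ((((n * 2 ^ s) / 2 ^ b : ℕ) : ℝ) / 2 ^ s)
        ≤ (2 : ℝ) ^ b * (((n : ℝ) * 2 ^ s / 2 ^ b) / 2 ^ s) := by
          refine mul_le_mul_of_nonneg_left ?_ (by positivity)
          exact div_le_div_of_nonneg_right h1 (by positivity)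
      _ = (n : ℝ) := by field_simp

theorem lgHi_pow (s k n : ℕ) (hn : n ≠ 0) : (n : ℝ) ^ (2 ^ k) ≤ (2 : ℝ) ^ (lgHi s k n) := by
  unfold lgHi
  set b := Nat.log2 n with hb
  have hb1 : n < 2 ^ (b + 1) := (Nat.log2_lt hn).1 (Nat.lt_succ_self _)
  have h2b : 1 ≤ 2 ^ b := Nat.one_le_two_pow
  apply loopHi_spec
  · have : (n * 2 ^ s + (2 ^ b - 1)) / 2 ^ b < 2 ^ (s + 1) + 1 := by
      rw [Nat.div_lt_iff_lt_mul (by positivity)]
      have h3 : n * 2 ^ s < 2 ^ (b + 1) * 2 ^ s := Nat.mul_lt_mul_of_pos_right hb1 (by positivity)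
      have h4 : 2 ^ (b + 1) * 2 ^ s = 2 ^ (s + 1) * 2 ^ b := by ring
      have h5 : (2 ^ (s + 1) + 1) * 2 ^ b = 2 ^ (s + 1) * 2 ^ b + 2 ^ b := by ring
      rw [h5]; omega
    omega
  · positivity
  · have h1 : (n : ℝ) * 2 ^ s / 2 ^ b ≤ (((n * 2 ^ s + (2 ^ b - 1)) / 2 ^ b : ℕ) : ℝ) := by
      have h := Nat.lt_div_mul_add (a := n * 2 ^ s + (2 ^ b - 1)) (b := 2 ^ b) (by positivity)
      have h' : n * 2 ^ s ≤ ((n * 2 ^ s + (2 ^ b - 1)) / 2 ^ b) * 2 ^ b := by omega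
      rw [div_le_iff₀ (by positivity)]
      exact_mod_cast h'
    calc (n : ℝ) = (2 : ℝ) ^ b * (((n : ℝ) * 2 ^ s / 2 ^ b) / 2 ^ s) := by field_simp
      _ ≤ _ := by
          refine mul_le_mul_of_nonneg_left ?_ (by positivity)
          exact div_le_div_of_nonneg_right h1 (by positivity)

/-- digits of `log₂` from below -/
theorem lgLo_le (s k n : ℕ) (hn : n ≠ 0) :
    (lgLo s k n : ℝ) / 2 ^ k * Real.log 2 ≤ Real.log n := by
  have h := lgLo_pow s k n hn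
  have h2 := Real.log_le_log (by positivity) h
  rw [Real.log_pow, Real.log_pow] at h2
  push_cast at h2
  rw [div_mul_eq_mul_div, div_le_iff₀ (by positivity)]
  linarith

theorem le_lgHi (s k n : ℕ) (hn : n ≠ 0) :
    Real.log n ≤ (lgHi s k n : ℝ) / 2 ^ k * Real.log 2 := by
  have h := lgHi_pow s k n hn
  have hn' : (0 : ℝ) < n := by exact_mod_cast Nat.pos_of_ne_zero hn
  have h2 := Real.log_le_log (by positivity) h
  rw [Real.log_pow, Real.log_pow] at h2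
  push_cast at h2
  rw [div_mul_eq_mul_div, le_div_iff₀ (by positivity)]
  linarith


end Num482
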