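import Crest.Agent.R006.OKRay_464
import Crest.Agent.R006.OKReal_464

/-!
# Row 6, block P3: the certificate `datN` is correct (helper464)
-/

set_option autoImplicit false

namespace Crest.Agent.R006.Cert

open D

/-- **the certificate holds** -/
theorem OK_datN : OK SN datN :=
  OK_mk wf_N wf2_N (R := 2000) (R' := 2000) (Q := 1400) (Q' := 1400) (C := stdC) (C' := stdC)
    (by exact_mod_cast rayR_datN) (by decide +kernel) le_rfl
    (by exact_mod_cast rayQ_datN) (by decide +kernel) le_rfl real_datN

end Crest.Agent.R006.Cert
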