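import Crest.Agent.R006.OKNdat_746

/-! # Row 6, block P3: cells, part 0 (helper746, generated) -/

set_option autoImplicit false

namespace Crest.Agent.R006.OKN746

open D NumSegx464 Num482 NumTail2x322 Chk746 Cert

theorem cells_0_chk : cC LR LQ (5079198) (-4897407) 1000
    [⟨-600, -575, 21625, 36⟩,
     ⟨-575, -550, 118827, 205⟩,
     ⟨-550, -538, 209710, 371⟩,
     ⟨-538, -525, -96166, -201⟩]
    [([11, 25], [1, 3, 7, 12, 18, 25]),
     ([13, 23, 25], [8, 16, 24, 25]),
     ([7, 12], [8, 12]),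
     ([5, 9, 11, 12, 13], [7, 12, 13])] = true := by decide +kernel

theorem cells_0 : CellsOK SN datN746
    [⟨-600, -575, 21625, 36⟩,
     ⟨-575, -550, 118827, 205⟩,
     ⟨-550, -538, 209710, 371⟩,
     ⟨-538, -525, -96166, -201⟩] :=
  cells_lit D_pos LR_eq LQ_eq rfl rfl rfl cells_0_chk

theorem cells_1_chk : cC LR LQ (5079198) (-4897407) 1000
    [⟨-525, -513, -148236, -289⟩,
     ⟨-513, -500, 37217, 72⟩,
     ⟨-500, -488, 525520, 1051⟩,
     ⟨-488, -475, 807588, 1629⟩,
     ⟨-475, -463, 989519, 2012⟩]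
    [([2, 6, 11, 12], [4, 12]),
     ([6, 10, 12, 13], [11, 13]),
     ([4, 12], [10, 12]),
     ([13], [10, 13]),
     ([12], [11, 12])] = true := by decide +kernel

theorem cells_1 : CellsOK SN datN746
    [⟨-525, -513, -148236, -289⟩,
     ⟨-513, -500, 37217, 72⟩,
     ⟨-500, -488, 525520, 1051⟩,
     ⟨-488, -475, 807588, 1629⟩,
     ⟨-475, -463, 989519, 2012⟩] :=
  cells_lit D_pos LR_eq LQ_eq rfl rfl rfl cells_1_chk

end Crest.Agent.R006.OKN746
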