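import Crest.Agent.R006.OKNdat_746

/-! # Row 6, block P3: cells, part 1 (helper746, generated) -/

set_option autoImplicit false

namespace Crest.Agent.R006.OKN746

open D NumSegx464 Num482 NumTail2x322 Chk746 Cert

theorem cells_2_chk : cC LR LQ (5079198) (-4897407) 1000
    [⟨-463, -450, 1154816, 2369⟩,
     ⟨-450, -438, 1310517, 2715⟩,
     ⟨-438, -425, 1519883, 3193⟩,
     ⟨-425, -413, 1697108, 3610⟩,
     ⟨-413, -400, 1815636, 3897⟩,
     ⟨-400, -388, 1924032, 4168⟩,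
     ⟨-388, -375, 2132000, 4704⟩]
    [([13], [11, 13]),
     ([12], [12]),
     ([12, 13], [11, 13]),
     ([12], [12]),
     ([12, 13], [13]),
     ([12], [10, 12]),
     ([13], [4, 8, 13])] = true := by decide +kernel

theorem cells_2 : CellsOK SN datN746
    [⟨-463, -450, 1154816, 2369⟩,
     ⟨-450, -438, 1310517, 2715⟩,
     ⟨-438, -425, 1519883, 3193⟩,
     ⟨-425, -413, 1697108, 3610⟩,
     ⟨-413, -400, 1815636, 3897⟩,
     ⟨-400, -388, 1924032, 4168⟩,
     ⟨-388, -375, 2132000, 4704⟩] :=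
  cells_lit D_pos LR_eq LQ_eq rfl rfl rfl cells_2_chk

theorem cells_3_chk : cC LR LQ (5079198) (-4897407) 1000
    [⟨-375, -350, 2156000, 4768⟩,
     ⟨-350, -338, 2228442, 4975⟩,
     ⟨-338, -325, 2342346, 5312⟩,
     ⟨-325, -313, 2429125, 5579⟩,
     ⟨-313, -300, 2488283, 5768⟩,
     ⟨-300, -275, 2533283, 5918⟩]
    [([17, 25], [8, 19, 25]),
     ([12], [12]),
     ([12, 13], [13]),
     ([12], [12]),
     ([11, 13], [13]),
     ([10, 18, 23, 25], [18, 25])] = true := by decide +kernel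

theorem cells_3 : CellsOK SN datN746
    [⟨-375, -350, 2156000, 4768⟩,
     ⟨-350, -338, 2228442, 4975⟩,
     ⟨-338, -325, 2342346, 5312⟩,
     ⟨-325, -313, 2429125, 5579⟩,
     ⟨-313, -300, 2488283, 5768⟩,
     ⟨-300, -275, 2533283, 5918⟩] :=
  cells_lit D_pos LR_eq LQ_eq rfl rfl rfl cells_3_chk

end Crest.Agent.R006.OKN746
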