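import Crest.Agent.R006.OKNdat_746

/-! # Row 6, block P3: cells, part 2 (helper746, generated) -/

set_option autoImplicit false

namespace Crest.Agent.R006.OKN746

open D NumSegx464 Num482 NumTail2x322 Chk746 Cert

theorem cells_4_chk : cC LR LQ (5079198) (-4897407) 1000
    [⟨-275, -263, 2716910, 6588⟩,
     ⟨-263, -250, 2818165, 6973⟩,
     ⟨-250, -238, 2929661, 7419⟩,
     ⟨-238, -225, 3059846, 7966⟩,
     ⟨-225, -213, 3246367, 8795⟩,
     ⟨-213, -207, 3475979, 9873⟩,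
     ⟨-207, -200, 3781718, 11350⟩]
    [([1, 6, 12], [12]),
     ([13], [13]),
     ([12], [12]),
     ([13], [13]),
     ([11, 12], [12]),
     ([6], [6]),
     ([5, 7], [7])] = true := by decide +kernel

theorem cells_4 : CellsOK SN datN746
    [⟨-275, -263, 2716910, 6588⟩,
     ⟨-263, -250, 2818165, 6973⟩,
     ⟨-250, -238, 2929661, 7419⟩,
     ⟨-238, -225, 3059846, 7966⟩,
     ⟨-225, -213, 3246367, 8795⟩,
     ⟨-213, -207, 3475979, 9873⟩,
     ⟨-207, -200, 3781718, 11350⟩] :=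
  cells_lit D_pos LR_eq LQ_eq rfl rfl rfl cells_4_chk

theorem cells_5_chk : cC LR LQ (5079198) (-4897407) 1000
    [⟨-200, -188, 3661221, 10720⟩,
     ⟨-188, -175, 3491908, 9826⟩,
     ⟨-175, -150, 3432234, 9484⟩,
     ⟨-150, -138, 3424010, 9432⟩,
     ⟨-138, -125, 3489836, 9909⟩]
    [([8, 12], [12]),
     ([11, 13], [13]),
     ([11, 22, 25], [20, 25]),
     ([11, 12], [8, 11, 12]),
     ([11, 13], [4, 11, 13])] = true := by decide +kernel

theorem cells_5 : CellsOK SN datN746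
    [⟨-200, -188, 3661221, 10720⟩,
     ⟨-188, -175, 3491908, 9826⟩,
     ⟨-175, -150, 3432234, 9484⟩,
     ⟨-150, -138, 3424010, 9432⟩,
     ⟨-138, -125, 3489836, 9909⟩] :=
  cells_lit D_pos LR_eq LQ_eq rfl rfl rfl cells_5_chk

end Crest.Agent.R006.OKN746
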