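import Crest.Agent.R006.OKNdat_746

/-! # Row 6, block P3: cells, part 3 (helper746, generated) -/

set_option autoImplicit false

namespace Crest.Agent.R006.OKN746

open D NumSegx464 Num482 NumTail2x322 Chk746 Cert

theorem cells_6_chk : cC LR LQ (5079198) (-4897407) 1000
    [⟨-125, -100, 3422249, 9365⟩,
     ⟨-100, -75, 3444047, 9590⟩,
     ⟨-75, -63, 3426095, 9342⟩,
     ⟨-63, -57, 3403533, 9016⟩,
     ⟨-57, -50, 3448224, 9800⟩]
    [([14, 25], [10, 21, 25]),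
     ([10, 19, 25], [11, 25]),
     ([6, 10, 12], [12]),
     ([1, 4, 6], [6]),
     ([6, 7], [7])] = true := by decide +kernel

theorem cells_6 : CellsOK SN datN746
    [⟨-125, -100, 3422249, 9365⟩,
     ⟨-100, -75, 3444047, 9590⟩,
     ⟨-75, -63, 3426095, 9342⟩,
     ⟨-63, -57, 3403533, 9016⟩,
     ⟨-57, -50, 3448224, 9800⟩] :=
  cells_lit D_pos LR_eq LQ_eq rfl rfl rfl cells_6_chk

theorem cells_7_chk : cC LR LQ (5079198) (-4897407) 1000
    [⟨-50, -38, 3491474, 10665⟩,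
     ⟨-38, -25, 3530802, 11700⟩,
     ⟨-25, -13, 3555878, 12703⟩,
     ⟨-13, -7, 3568502, 13674⟩,
     ⟨-7, 0, 3579478, 15242⟩]
    [([8, 12], [9, 12]),
     ([7, 13], [12, 13]),
     ([6, 11, 12], [12]),
     ([4, 6], [6]),
     ([3, 5, 6, 7], [5, 7])] = true := by decide +kernel

theorem cells_7 : CellsOK SN datN746
    [⟨-50, -38, 3491474, 10665⟩,
     ⟨-38, -25, 3530802, 11700⟩,
     ⟨-25, -13, 3555878, 12703⟩,
     ⟨-13, -7, 3568502, 13674⟩,
     ⟨-7, 0, 3579478, 15242⟩] :=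
  cells_lit D_pos LR_eq LQ_eq rfl rfl rfl cells_7_chk

end Crest.Agent.R006.OKN746
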