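import Crest.Agent.R006.OKNdat_746

/-! # Row 6, block P3: cells, part 4 (helper746, generated) -/

set_option autoImplicit false

namespace Crest.Agent.R006.OKN746

open D NumSegx464 Num482 NumTail2x322 Chk746 Cert

theorem cells_8_chk : cC LR LQ (5079198) (-4897407) 1000
    [⟨0, 12, 3584581, 14792⟩,
     ⟨12, 25, 3590705, 14174⟩,
     ⟨25, 37, 3589069, 14235⟩,
     ⟨37, 50, 3577487, 14548⟩,
     ⟨50, 62, 3550538, 15087⟩]
    [([1, 2, 4, 7, 11, 12], [10, 12]),
     ([5, 11, 13], [13]),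
     ([7, 12], [12]),
     ([7, 13], [13]),
     ([8, 12], [12])] = true := by decide +kernel

theorem cells_8 : CellsOK SN datN746
    [⟨0, 12, 3584581, 14792⟩,
     ⟨12, 25, 3590705, 14174⟩,
     ⟨25, 37, 3589069, 14235⟩,
     ⟨37, 50, 3577487, 14548⟩,
     ⟨50, 62, 3550538, 15087⟩] :=
  cells_lit D_pos LR_eq LQ_eq rfl rfl rfl cells_8_chk

theorem cells_9_chk : cC LR LQ (5079198) (-4897407) 1000
    [⟨62, 75, 3497094, 15949⟩,
     ⟨75, 87, 3377243, 17547⟩,
     ⟨87, 100, 3106704, 20667⟩,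
     ⟨100, 112, 3378086, 18008⟩]
    [([7, 13], [13]),
     ([6, 11, 12], [12]),
     ([3, 4, 7, 10, 12, 13], [12, 13]),
     ([2, 5, 10, 12], [12])] = true := by decide +kernel

theorem cells_9 : CellsOK SN datN746
    [⟨62, 75, 3497094, 15949⟩,
     ⟨75, 87, 3377243, 17547⟩,
     ⟨87, 100, 3106704, 20667⟩,
     ⟨100, 112, 3378086, 18008⟩] :=
  cells_lit D_pos LR_eq LQ_eq rfl rfl rfl cells_9_chk

end Crest.Agent.R006.OKN746
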