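import Crest.Agent.R006.OKNdat_746

/-! # Row 6, block P3: cells, part 5 (helper746, generated) -/

set_option autoImplicit false

namespace Crest.Agent.R006.OKN746

open D NumSegx464 Num482 NumTail2x322 Chk746 Cert

theorem cells_10_chk : cC LR LQ (5079198) (-4897407) 1000
    [⟨112, 125, 3567371, 16305⟩,
     ⟨125, 150, 3710608, 15173⟩,
     ⟨150, 175, 3797783, 14580⟩,
     ⟨175, 187, 3774621, 14711⟩,
     ⟨187, 200, 3574338, 15782⟩]
    [([7, 13], [13]),
     ([9, 18, 25], [25]),
     ([10, 20, 25], [25]),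
     ([9, 12], [12]),
     ([7, 11, 13], [13])] = true := by decide +kernel

theorem cells_10 : CellsOK SN datN746
    [⟨112, 125, 3567371, 16305⟩,
     ⟨125, 150, 3710608, 15173⟩,
     ⟨150, 175, 3797783, 14580⟩,
     ⟨175, 187, 3774621, 14711⟩,
     ⟨187, 200, 3574338, 15782⟩] :=
  cells_lit D_pos LR_eq LQ_eq rfl rfl rfl cells_10_chk

end Crest.Agent.R006.OKN746
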