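import Crest.Agent.R006.OKNdat_746

/-! # Row 6, block P3: ray Q, part 0 (helper746, generated) -/

set_option autoImplicit false

namespace Crest.Agent.R006.OKN746

open D NumSegx464 Num482 NumTail2x322 Chk746 Cert

theorem rayQ_0_chk : rR LQ (-600, 0) (0, 0) IBQ (-1378497521267603669) 0
    [1, 2, 4, 7, 11, 16, 22, 29, 35, 40, 46, 53] = true := by decide +kernel

theorem rayQ_0 : RayQ SN datN746 (0 : ℕ) (53 : ℕ) :=
  rayQ_lit D_pos LQ_eq apx_eq rfl levQ_eq rfl rayQ_0_chk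

theorem rayQ_1_chk : rR LQ (-600, 0) (0, 0) IBQ (-1378497521267603669) 53
    [60, 65, 67, 72, 79, 88, 94, 104, 116, 136, 167, 183] = true := by decide +kernel

theorem rayQ_1 : RayQ SN datN746 (53 : ℕ) (183 : ℕ) :=
  rayQ_lit D_pos LQ_eq apx_eq rfl levQ_eq rfl rayQ_1_chk

theorem rayQ_2_chk : rR LQ (-600, 0) (0, 0) IBQ (-1378497521267603669) 183
    [242, 339, 374, 555, 624, 809, 811, 1286, 2000] = true := by decide +kernel

theorem rayQ_2 : RayQ SN datN746 (183 : ℕ) (2000 : ℕ) :=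
  rayQ_lit D_pos LQ_eq apx_eq rfl levQ_eq rfl rayQ_2_chk

end Crest.Agent.R006.OKN746
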