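import Crest.Agent.R006.OKNdat_746

/-! # Row 6, block P3: ray R, part 1 (helper746, generated) -/

set_option autoImplicit false

namespace Crest.Agent.R006.OKN746

open D NumSegx464 Num482 NumTail2x322 Chk746 Cert

theorem rayR_3_chk : rR LR (-600, 0) (-351186455709333000, -351186455709297000) IBR (1429667138758810533) 267
    [274, 282, 293, 306, 320, 336, 354, 368, 374, 382] = true := by decide +kernel

theorem rayR_3 : RayR SN datN746 (267 : ℕ) (382 : ℕ) :=
  rayR_lit D_pos LR_eq apx_eq IA_eq rfl levR_eq rfl rayR_3_chk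

theorem rayR_4_chk : rR LR (-600, 0) (-351186455709333000, -351186455709297000) IBR (1429667138758810533) 382
    [393, 406, 421, 439, 461, 484, 496, 499, 509, 522] = true := by decide +kernel

theorem rayR_4 : RayR SN datN746 (382 : ℕ) (522 : ℕ) :=
  rayR_lit D_pos LR_eq apx_eq IA_eq rfl levR_eq rfl rayR_4_chk

theorem rayR_5_chk : rR LR (-600, 0) (-351186455709333000, -351186455709297000) IBR (1429667138758810533) 522
    [537, 554, 575, 599, 618, 624, 635, 650, 667, 690] = true := by decide +kernel

theorem rayR_5 : RayR SN datN746 (522 : ℕ) (690 : ℕ) :=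
  rayR_lit D_pos LR_eq apx_eq IA_eq rfl levR_eq rfl rayR_5_chk

end Crest.Agent.R006.OKN746
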