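import Crest.Agent.R006.OKNdat_746

/-! # Row 6, block P3: ray R, part 2 (helper746, generated) -/

set_option autoImplicit false

namespace Crest.Agent.R006.OKN746

open D NumSegx464 Num482 NumTail2x322 Chk746 Cert

theorem rayR_6_chk : rR LR (-600, 0) (-351186455709333000, -351186455709297000) IBR (1429667138758810533) 690
    [721, 761, 793, 797, 811, 825, 842, 866, 908, 983] = true := by decide +kernel

theorem rayR_6 : RayR SN datN746 (690 : ℕ) (983 : ℕ) :=
  rayR_lit D_pos LR_eq apx_eq IA_eq rfl levR_eq rfl rayR_6_chk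

theorem rayR_7_chk : rR LR (-600, 0) (-351186455709333000, -351186455709297000) IBR (1429667138758810533) 983
    [1114, 1336, 1706, 2000] = true := by decide +kernel

theorem rayR_7 : RayR SN datN746 (983 : ℕ) (2000 : ℕ) :=
  rayR_lit D_pos LR_eq apx_eq IA_eq rfl levR_eq rfl rayR_7_chk

end Crest.Agent.R006.OKN746
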