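import Crest.Agent.R006.OKNdat_746

/-! # Row 6, block P3: tails (helper746, generated) -/

set_option autoImplicit false

namespace Crest.Agent.R006.OKN746

open D NumSegx464 Num482 NumTail2x322 Chk746 Cert

theorem tailR_ok : tailR_chk SN datN746 2000 stdC = true := by decide +kernel

theorem tailQ_ok : tailQ_chk SN datN746 2000 stdC = true := by decide +kernel

end Crest.Agent.R006.OKN746
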