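import Crest.Agent.R006.OKNrayR0_746
import Crest.Agent.R006.OKNrayR1_746
import Crest.Agent.R006.OKNrayR2_746
import Crest.Agent.R006.OKNrayQ0_746
import Crest.Agent.R006.OKNtail_746
import Crest.Agent.R006.OKNcell0_746
import Crest.Agent.R006.OKNcell1_746
import Crest.Agent.R006.OKNcell2_746
import Crest.Agent.R006.OKNcell3_746
import Crest.Agent.R006.OKNcell4_746
import Crest.Agent.R006.OKNcell5_746

/-!
# Row 6, block P3: `OK SN datN746` (helper746)
-/

set_option autoImplicit false

namespace Crest.Agent.R006.OKN746

open D NumSegx464 Num482 NumTail2x322 Chk746 Cert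

theorem rayR_all : RayR SN datN746 (0 : ℕ) (2000 : ℕ) :=
  (((((((rayR_0.trans rayR_1).trans rayR_2).trans rayR_3).trans rayR_4).trans rayR_5).trans rayR_6).trans rayR_7)

theorem rayQ_all : RayQ SN datN746 (0 : ℕ) (2000 : ℕ) :=
  ((rayQ_0.trans rayQ_1).trans rayQ_2)

theorem cells_all : CellsOK SN datN746 datN746.cells :=
  ((((((((((cells_0.append cells_1).append cells_2).append cells_3).append cells_4).append cells_5).append cells_6).append cells_7).append cells_8).append cells_9).append cells_10)

/-- **the certificate** -/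
theorem ok_N746 : OK SN datN746 :=
  OK_mk wf_N746 wf2_N746 (R := 2000) (Q := 2000) (by simpa using rayR_all) tailR_ok le_rfl
    (by simpa using rayQ_all) tailQ_ok le_rfl cells_all

end Crest.Agent.R006.OKN746
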