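import Crest.Agent.R006.OKNlib_746

/-! # Row 6, block P3: literal lists of `datN746` (helper746, generated) -/

set_option autoImplicit false

namespace Crest.Agent.R006.OKN746

open D NumSegx464 Num482 NumTail2x322 Chk746 Cert

def LR : List WSeg :=
  [((-600, 0), (-526, 0), 171),
   ((-526, 0), (0, 0), 1576),
   ((0, 0), (99, 0), 199),
   ((99, 0), (200, 0), 102),
   ((-600, 0), (-667, 67), 81),
   ((-600, 0), (-667, -67), 81),
   ((-667, 67), (-783, 183), 105),
   ((-667, -67), (-783, -183), 105),
   ((-783, 183), (-974, 374), 149),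
   ((-783, -183), (-974, -374), 149),
   ((-974, 374), (-1224, 624), 141),
   ((-974, -374), (-1224, -624), 141),
   ((-1224, 624), (-1411, 811), 50),
   ((-1224, -624), (-1411, -811), 50),
   ((-600, 0), (-501, 0), 74),
   ((-501, 0), (-274, 0), 288),
   ((-274, 0), (-62, 0), 345),
   ((-62, 0), (91, 0), 344),
   ((91, 0), (200, 0), 111),
   ((-600, 0), (-657, 57), 21),
   ((-600, 0), (-657, -57), 21),
   ((-657, 57), (-874, 274), 183),
   ((-657, -57), (-874, -274), 183),
   ((-874, 274), (-1099, 499), 149),
   ((-874, -274), (-1099, -499), 149),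
   ((-1099, 499), (-1397, 797), 116),
   ((-1099, -499), (-1397, -797), 116),
   ((0, 0), (100, 0), 100),
   ((-600, 0), (0, 0), 600),
   ((0, 0), (2400, 0), -2400),
   ((-600, 0), (0, 0), -600),
   ((-200, 0), (0, 0), -200),
   ((0, 0), (200, 0), -200),
   ((0, 0), (100, 0), -100),
   ((-600, 0), (0, 0), -600)]

def LQ : List WSeg :=
  [((-600, 0), (-526, 0), 171),
   ((-526, 0), (0, 0), 1576),
   ((0, 0), (99, 0), 199),
   ((99, 0), (200, 0), 102),
   ((-600, 0), (-667, 67), 81),
   ((-600, 0), (-667, -67), 81),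
   ((-667, 67), (-783, 183), 105),
   ((-667, -67), (-783, -183), 105),
   ((-783, 183), (-974, 374), 149),
   ((-783, -183), (-974, -374), 149),
   ((-974, 374), (-1224, 624), 141),
   ((-974, -374), (-1224, -624), 141),
   ((-1224, 624), (-1411, 811), 50),
   ((-1224, -624), (-1411, -811), 50),
   ((-600, 0), (-384, 0), 389),
   ((-384, 0), (-139, 0), 371),
   ((-139, 0), (0, 0), 134),
   ((-600, 0), (-635, 35), 26),
   ((-600, 0), (-635, -35), 26),
   ((-635, 35), (-694, 94), 27),
   ((-635, -35), (-694, -94), 27),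
   ((0, 0), (2400, 0), -2400),
   ((-600, 0), (0, 0), -600),
   ((-200, 0), (0, 0), -200),
   ((0, 0), (200, 0), -200),
   ((0, 0), (100, 0), -100),
   ((-600, 0), (0, 0), -600)]

theorem LR_eq : LRl SN datN746 = LR := by decide +kernel

theorem LQ_eq : LQl SN datN746 = LQ := by decide +kernel

theorem apx_eq : apx SN datN746 = (-600, 0) := by decide +kernel

theorem IA_eq : smulI (-(datN746.K * SN.w)) ln8I = (-351186455709333000, -351186455709297000) := by decide +kernel

/-- constants -/
def IBR : ℤ × ℤ := negI (addI ln8I piI)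

def IBQ : ℤ × ℤ := negI (smulI 2 piI)

theorem levR_eq : lev datN746.lR datN746.D = 1429667138758810533 := by decide +kernel

theorem levQ_eq : lev datN746.lQ datN746.D = -1378497521267603669 := by decide +kernel

theorem D_pos : 0 < datN746.D := by decide +kernel

end Crest.Agent.R006.OKN746
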