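import Crest.Agent.R006.CertOK_322
import Crest.Agent.R006.CertDataN_746

/-!
# Row 6, block P3: checks of `CertOK_322` on literal segment lists (helper746)
-/

set_option autoImplicit false

namespace Crest.Agent.R006.OKN746

open D NumSegx464 Num482 NumTail2x322 Chk746 Cert

/-- `rayR_chk` with a literal list -/
def rR (L : List WSeg) (P : ℤ × ℤ) (IA IB : ℤ × ℤ) (c : ℤ) (T0 : ℕ) (Ts : List ℕ) : Bool :=
  (!Ts.isEmpty) && chkLine L P (-1, 1) IA IB c T0 Ts

theorem rayR_lit {S : Shape} {d : Data} {L : List WSeg} {P IA IB : ℤ × ℤ} {c : ℤ} {T0 : ℕ}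
    {Ts : List ℕ} (hD : 0 < d.D) (hL : LRl S d = L) (hP : apx S d = P)
    (hA : smulI (-(d.K * S.w)) ln8I = IA) (hB : negI (addI ln8I piI) = IB)
    (hc : lev d.lR d.D = c) {T1 : ℕ} (hT : endN T0 Ts = T1)
    (h : rR L P IA IB c T0 Ts = true) : RayR S d T0 T1 := by
  subst hL hP hA hB hc hT
  exact rayR_of_chk hD h

theorem rayQ_lit {S : Shape} {d : Data} {L : List WSeg} {P IB : ℤ × ℤ} {c : ℤ} {T0 : ℕ}
    {Ts : List ℕ} (hD : 0 < d.D) (hL : LQl S d = L) (hP : apx S d = P)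
    (hB : negI (smulI 2 piI) = IB)
    (hc : lev d.lQ d.D = c) {T1 : ℕ} (hT : endN T0 Ts = T1)
    (h : rR L P (0, 0) IB c T0 Ts = true) : RayQ S d T0 T1 := by
  subst hL hP hB hc hT
  exact rayQ_of_chk hD h

/-- `cells_chk` with literal lists -/
def cC (LR LQ : List WSeg) (lR lQ : ℤ) (D : ℕ) : List SCell → List (List ℕ × List ℕ) → Bool
  | [], [] => true
  | c :: L, t :: Ts =>
    (((!t.1.isEmpty) && decide ((endN 0 t.1 : ℤ) = c.r - c.l) &&
      chkLine LR (c.l, 0) (1, 0)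
        (subI (smulI c.l ln8I) (ofQ (lR + (c.al + c.be * c.l)) D))
        (subI ln8I (ofQ c.be D)) 0 0 t.1) &&
     ((!t.2.isEmpty) && decide ((endN 0 t.2 : ℤ) = c.r - c.l) &&
      chkLine LQ (c.l, 0) (1, 0)
        (negI (ofQ (lQ + (c.al + c.be * c.l)) D))
        (negI (ofQ c.be D)) 0 0 t.2) &&
     cell0_chk c && cC LR LQ lR lQ D L Ts)
  | _, _ => false

theorem cC_eq {S : Shape} {d : Data} : ∀ (L : List SCell) (Ts : List (List ℕ × List ℕ)),
    cC (LRl S d) (LQl S d) d.lR d.lQ d.D L Ts = cells_chk S d L Ts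
  | [], [] => rfl
  | [], _ :: _ => rfl
  | _ :: _, [] => rfl
  | c :: L, t :: Ts => by
    unfold cC cells_chk
    rw [cC_eq L Ts]
    rfl

theorem cells_lit {S : Shape} {d : Data} {LR LQ : List WSeg} {lR lQ : ℤ} {D : ℕ}
    (hD : 0 < d.D) (hR : LRl S d = LR)
    (hQ : LQl S d = LQ) (h1 : d.lR = lR) (h2 : d.lQ = lQ) (h3 : d.D = D) {L : List SCell}
    {Ts : List (List ℕ × List ℕ)}
    (h : cC LR LQ lR lQ D L Ts = true) : CellsOK S d L := by
  subst hR hQ h1 h2 h3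
  rw [cC_eq] at h
  exact cells_of_chk hD L Ts h

end Crest.Agent.R006.OKN746
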