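import Crest.Agent.R006.OKNdat_746

/-! # Row 6, block P3: ray R, part 0 (helper746, generated) -/

set_option autoImplicit false

namespace Crest.Agent.R006.OKN746

open D NumSegx464 Num482 NumTail2x322 Chk746 Cert

theorem rayR_0_chk : rR LR (-600, 0) (-351186455709333000, -351186455709297000) IBR (1429667138758810533) 0
    [8, 16, 25, 33, 40, 47, 53, 57, 63, 67] = true := by decide +kernel

theorem rayR_0 : RayR SN datN746 (0 : ℕ) (67 : ℕ) :=
  rayR_lit D_pos LR_eq apx_eq IA_eq rfl levR_eq rfl rayR_0_chk

theorem rayR_1_chk : rR LR (-600, 0) (-351186455709333000, -351186455709297000) IBR (1429667138758810533) 67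
    [73, 81, 90, 99, 109, 119, 130, 141, 153, 165] = true := by decide +kernel

theorem rayR_1 : RayR SN datN746 (67 : ℕ) (165 : ℕ) :=
  rayR_lit D_pos LR_eq apx_eq IA_eq rfl levR_eq rfl rayR_1_chk

theorem rayR_2_chk : rR LR (-600, 0) (-351186455709333000, -351186455709297000) IBR (1429667138758810533) 165
    [176, 181, 183, 190, 200, 211, 224, 238, 253, 267] = true := by decide +kernel

theorem rayR_2 : RayR SN datN746 (165 : ℕ) (267 : ℕ) :=
  rayR_lit D_pos LR_eq apx_eq IA_eq rfl levR_eq rfl rayR_2_chk

end Crest.Agent.R006.OKN746
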