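import Crest.Agent.R006.CertOK_322
import Crest.Agent.R006.NumDict_464
import Crest.Agent.R006.CertDataN_112

/-!
# Row 6, block P3: the real axis half of `Cert.OK D.SN datN` (helper179)

`cellsOK_N : CellsOK SN datN datN.cells`, through `NumDict_464.potL_line_le` and the fast cell
checker `NumFast_179`; cell subdivision from helper746.
-/

set_option autoImplicit false
set_option maxRecDepth 20000

namespace Crest.Agent.R006.OKRealx179

open D Cert NumSegx464 Num482 NumDictx464 NumFastx179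

/-! ### one real cell -/

/-- the conditions on the literal term list of the line `-W + t`, `t ≥ 0` -/
structure TermOK (L : List WSeg) (W : ℤ) (Dh : ℕ) (M M2 : ℤ) (ts : List NT) : Prop where
  pos : 0 < Dh
  pot : potOK L = true
  ok : okL (2 * Dh) (dblL L) = true
  same : same ts (genL (2 * Dh) (2 * (-W), 2 * 0) (1, 0) (dblL L)) = true
  m : mass L = M
  m2 : mass2 (dblL L) = M2

/-- `a` of the `R` line (`x = -W + t`) -/
def aR (S : Shape) (d : Data) (c : SCell) : ℤ × ℤ :=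
  subI (smulI (-(d.K * S.w)) ln8I) (ofQ (d.lR + (c.al + c.be * (-(d.K * S.w)))) d.D)

def bR (d : Data) (c : SCell) : ℤ × ℤ := subI ln8I (ofQ c.be d.D)

def aQ (S : Shape) (d : Data) (c : SCell) : ℤ × ℤ :=
  negI (ofQ (d.lQ + (c.al + c.be * (-(d.K * S.w)))) d.D)

def bQ (d : Data) (c : SCell) : ℤ × ℤ := negI (ofQ c.be d.D)

def cellR_chkN (S : Shape) (d : Data) (Dh : ℕ) (M M2 : ℤ) (ts : List NT) (c : SCell)
    (hs : List ℕ) : Bool :=
  (!hs.isEmpty) && decide ((hs.sum : ℤ) = c.r - c.l) &&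
    decide (((2 * (c.l + d.K * S.w)).toNat : ℤ) = 2 * (c.l + d.K * S.w)) &&
    checkCellsN ts (mkLin Dh M M2 (aR S d c) (bR d c) 0) (2 * (c.l + d.K * S.w)).toNat hs

def cellQ_chkN (S : Shape) (d : Data) (Dh : ℕ) (M M2 : ℤ) (ts : List NT) (c : SCell)
    (hs : List ℕ) : Bool :=
  (!hs.isEmpty) && decide ((hs.sum : ℤ) = c.r - c.l) &&
    decide (((2 * (c.l + d.K * S.w)).toNat : ℤ) = 2 * (c.l + d.K * S.w)) &&
    checkCellsN ts (mkLin Dh M M2 (aQ S d c) (bQ d c) 0) (2 * (c.l + d.K * S.w)).toNat hs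

theorem gc_apx (W : ℤ) (x : ℝ) :
    ((x : ℝ) : ℂ) = gc (-W, 0) + ((x + W : ℝ) : ℂ) * gc (1, 0) := by
  apply Complex.ext <;> simp

theorem ne_of_isEmpty' {Ts : List ℕ} (h : (!Ts.isEmpty) = true) : Ts ≠ [] := by
  intro h0; subst h0; simp at h

/-- common part of the two theorems -/
theorem line_le {L : List WSeg} {W : ℤ} {Dh : ℕ} {M M2 : ℤ} {ts : List NT}
    (H : TermOK L W Dh M M2 ts) {IA IB : ℤ × ℤ} {a b : ℝ} (ha : Enc a IA) (hb : Enc b IB)
    {l r : ℤ} {hs : List ℕ} (h1 : (!hs.isEmpty) = true) (h2 : (hs.sum : ℤ) = r - l)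
    (h3 : ((2 * (l + W)).toNat : ℤ) = 2 * (l + W))
    (hc : checkCellsN ts (mkLin Dh M M2 IA IB 0) (2 * (l + W)).toNat hs = true)
    {x : ℝ} (hx : x ∈ Set.Icc (l : ℝ) r) :
    potL L (x : ℂ) + a + b * (x + W) ≤ 0 := by
  have h2' : ((hs.sum : ℕ) : ℝ) = (r : ℝ) - l := by
    generalize hs.sum = s at h2 ⊢
    exact_mod_cast h2
  have h3' : (((2 * (l + W)).toNat : ℕ) : ℝ) = 2 * ((l : ℝ) + W) := by
    generalize (2 * (l + W)).toNat = s at h3 ⊢
    exact_mod_cast h3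
  have hmm := H.m
  have hm2 := H.m2
  subst hmm
  subst hm2
  have := potL_line_le (P := (-W, 0)) (δ := (1, 0)) H.pos ha hb H.pot H.ok H.same
    (ne_of_isEmpty' h1) hc (x + W) (by rw [h3']; linarith [hx.1])
    (by rw [h3', h2']; linarith [hx.2])
  rw [← gc_apx] at this
  simpa using this

theorem cellR_of_chkN {S : Shape} {d : Data} (hD : 0 < d.D) {Dh : ℕ} {M M2 : ℤ} {ts : List NT}
    (H : TermOK (LRl S d) (d.K * S.w) Dh M M2 ts) {c : SCell} {hs : List ℕ}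
    (h : cellR_chkN S d Dh M M2 ts c hs = true) : CellR S d c := by
  intro x hx
  unfold cellR_chkN at h
  simp only [Bool.and_eq_true, decide_eq_true_eq] at h
  obtain ⟨⟨⟨h1, h2⟩, h3⟩, h4⟩ := h
  have ha := (enc_ln8.smul (-(d.K * S.w))).sub
    (enc_ofQ (d.lR + (c.al + c.be * (-(d.K * S.w)))) hD)
  have hb := enc_ln8.sub (enc_ofQ c.be hD)
  have key := line_le H ha hb h1 h2 h3 h4 hx
  rw [PhiR_real]
  unfold SCell.val
  have hD' : (d.D : ℝ) ≠ 0 := by exact_mod_cast hD.ne'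
  push_cast at key
  have e : ((-((d.K : ℝ) * S.w)) * Real.log 8 -
      ((d.lR : ℝ) + (c.al + c.be * (-((d.K : ℝ) * S.w)))) / d.D) +
      (Real.log 8 - (c.be : ℝ) / d.D) * (x + (d.K : ℝ) * S.w) =
      Real.log 8 * x - (d.lR : ℝ) / d.D - (c.al + c.be * x : ℝ) / d.D := by
    field_simp
    ring
  linarith

theorem cellQ_of_chkN {S : Shape} {d : Data} (hD : 0 < d.D) {Dh : ℕ} {M M2 : ℤ} {ts : List NT}
    (H : TermOK (LQl S d) (d.K * S.w) Dh M M2 ts) {c : SCell} {hs : List ℕ}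
    (h : cellQ_chkN S d Dh M M2 ts c hs = true) : CellQ S d c := by
  intro x hx
  unfold cellQ_chkN at h
  simp only [Bool.and_eq_true, decide_eq_true_eq] at h
  obtain ⟨⟨⟨h1, h2⟩, h3⟩, h4⟩ := h
  have ha := (enc_ofQ (d.lQ + (c.al + c.be * (-(d.K * S.w)))) hD).neg
  have hb := (enc_ofQ c.be hD).neg
  have key := line_le H ha hb h1 h2 h3 h4 hx
  rw [PhiQ_real]
  unfold SCell.val
  have hD' : (d.D : ℝ) ≠ 0 := by exact_mod_cast hD.ne'
  push_cast at key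
  have e : (-(((d.lQ : ℝ) + (c.al + c.be * (-((d.K : ℝ) * S.w)))) / d.D)) +
      (-((c.be : ℝ) / d.D)) * (x + (d.K : ℝ) * S.w) =
      - (d.lQ : ℝ) / d.D - (c.al + c.be * x : ℝ) / d.D := by
    field_simp
    ring
  have e2 : -(d.lQ : ℝ) / d.D = -((d.lQ : ℝ) / d.D) := by ring
  rw [e2] at e
  linarith

/-- all three tests on a list of cells; `hs` : pairs (subdivision for `R`, for `Q`) -/
def cells_chkN (S : Shape) (d : Data) (DR : ℕ) (MR M2R : ℤ) (tR : List NT)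
    (DQ : ℕ) (MQ M2Q : ℤ) (tQ : List NT) : List SCell → List (List ℕ × List ℕ) → Bool
  | [], [] => true
  | c :: L, t :: Ts => cellR_chkN S d DR MR M2R tR c t.1 && cellQ_chkN S d DQ MQ M2Q tQ c t.2 &&
      cell0_chk c && cells_chkN S d DR MR M2R tR DQ MQ M2Q tQ L Ts
  | _, _ => false

theorem cells_of_chkN {S : Shape} {d : Data} (hD : 0 < d.D) {DR : ℕ} {MR M2R : ℤ}
    {tR : List NT} {DQ : ℕ} {MQ M2Q : ℤ} {tQ : List NT}
    (HR : TermOK (LRl S d) (d.K * S.w) DR MR M2R tR)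
    (HQ : TermOK (LQl S d) (d.K * S.w) DQ MQ M2Q tQ) : ∀ (L : List SCell)
    (Ts : List (List ℕ × List ℕ)),
    cells_chkN S d DR MR M2R tR DQ MQ M2Q tQ L Ts = true → CellsOK S d L
  | [], _, _ => by intro c hc; simp at hc
  | c :: L, [], h => by simp [cells_chkN] at h
  | c :: L, t :: Ts, h => by
    simp only [cells_chkN, Bool.and_eq_true] at h
    obtain ⟨⟨⟨h1, h2⟩, h3⟩, h4⟩ := h
    intro c' hc'
    rcases List.mem_cons.1 hc' with rfl | hc'
    · exact ⟨cellR_of_chkN hD HR h1, cellQ_of_chkN hD HQ h2, cell0_of_chk h3⟩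
    · exact cells_of_chkN hD HR HQ L Ts h4 c' hc'

theorem CellsOK.split {S : Shape} {d : Data} {L : List SCell} (n : ℕ)
    (h1 : CellsOK S d (L.take n)) (h2 : CellsOK S d (L.drop n)) : CellsOK S d L := by
  have := Cert.CellsOK.append h1 h2
  rwa [List.take_append_drop] at this

/-! ### the data -/

def tsR : List NT :=
  [⟨true, 124807200, 0, 1, 6000, 0, 0, 0, 0, 0⟩,
   ⟨false, 45242610, 0, 0, 3340, 1, 0, 1, 0, 0⟩,
   ⟨false, 31110030, 0, 0, 3020, 1, 0, 1, 0, 0⟩,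
   ⟨false, 28247680, 0, 0, 2680, 1, 0, 1, 0, 0⟩,
   ⟨false, 28527360, 0, 0, 2260, 1, 0, 1, 0, 0⟩,
   ⟨false, 24129392, 0, 0, 1840, 1, 0, 1, 0, 0⟩,
   ⟨false, 126055272, 0, 1, 1600, 0, 0, 0, 0, 0⟩,
   ⟨false, 27457584, 0, 0, 1440, 1, 0, 1, 0, 0⟩,
   ⟨false, 258350904, 0, 1, 1400, 0, 0, 0, 0, 0⟩,
   ⟨false, 137287920, 0, 1, 1200, 0, 0, 0, 0, 0⟩,
   ⟨true, 45958416, 0, 1, 1100, 0, 0, 0, 0, 0⟩,
   ⟨false, 19381824, 0, 0, 1040, 1, 0, 1, 0, 0⟩,
   ⟨true, 23173920, 0, 1, 930, 0, 0, 0, 0, 0⟩,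
   ⟨false, 124807200, 0, 1, 800, 0, 0, 0, 0, 0⟩,
   ⟨false, 16615200, 0, 0, 700, 1, 0, 1, 0, 0⟩,
   ⟨true, 26969208, 0, 1, 700, 0, 0, 0, 0, 0⟩,
   ⟨true, 15288882, 0, 1, 500, 0, 0, 0, 0, 0⟩,
   ⟨true, 9360540, 0, 1, 340, 0, 0, 0, 0, 0⟩,
   ⟨true, 1051008, 0, 0, 320, 1, 0, 1, 0, 0⟩,
   ⟨true, 108894282, 0, 1, 180, 0, 0, 0, 0, 0⟩,
   ⟨true, 32449872, 0, 0, 120, 1, 0, 1, 0, 0⟩,
   ⟨true, 64275708, 0, 1, 80, 0, 0, 0, 0, 0⟩,
   ⟨true, 187210800, 0, 0, 0, 1, 0, 1, 0, 0⟩,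
   ⟨true, 227773140, 0, 1, 0, 0, 0, 0, 0, 0⟩]

def tsQ : List NT :=
  [⟨true, 62403600, 0, 1, 6000, 0, 0, 0, 0, 0⟩,
   ⟨false, 10920630, 0, 0, 3340, 1, 0, 1, 0, 0⟩,
   ⟨false, 8167530, 0, 0, 3020, 1, 0, 1, 0, 0⟩,
   ⟨false, 7061920, 0, 0, 2680, 1, 0, 1, 0, 0⟩,
   ⟨false, 7131840, 0, 0, 2260, 1, 0, 1, 0, 0⟩,
   ⟨false, 6032348, 0, 0, 1840, 1, 0, 1, 0, 0⟩,
   ⟨false, 624036, 0, 1, 1600, 0, 0, 0, 0, 0⟩,
   ⟨false, 6864396, 0, 0, 1440, 1, 0, 1, 0, 0⟩,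
   ⟨true, 624036, 0, 1, 1400, 0, 0, 0, 0, 0⟩,
   ⟨false, 101093832, 0, 1, 1200, 0, 0, 0, 0, 0⟩,
   ⟨false, 32523288, 0, 1, 1100, 0, 0, 0, 0, 0⟩,
   ⟨false, 4478376, 0, 0, 1040, 1, 0, 1, 0, 0⟩,
   ⟨false, 18864720, 0, 1, 930, 0, 0, 0, 0, 0⟩,
   ⟨false, 62403600, 0, 1, 800, 0, 0, 0, 0, 0⟩,
   ⟨false, 9775920, 0, 0, 700, 1, 0, 1, 0, 0⟩,
   ⟨false, 8519448, 0, 1, 700, 0, 0, 0, 0, 0⟩,
   ⟨false, 5928342, 0, 1, 500, 0, 0, 0, 0, 0⟩,
   ⟨false, 10140585, 0, 1, 340, 0, 0, 0, 0, 0⟩,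
   ⟨false, 43157016, 0, 0, 320, 1, 0, 1, 0, 0⟩,
   ⟨true, 36038079, 0, 1, 180, 0, 0, 0, 0, 0⟩,
   ⟨false, 19137104, 0, 0, 120, 1, 0, 1, 0, 0⟩,
   ⟨true, 11544666, 0, 1, 80, 0, 0, 0, 0, 0⟩,
   ⟨true, 122727080, 0, 0, 0, 1, 0, 1, 0, 0⟩,
   ⟨true, 129487470, 0, 1, 0, 0, 0, 0, 0, 0⟩]

theorem termR : TermOK (LRl SN datN) (datN.K * SN.w) 124807200 (1800) (1990) tsR where
  pos := by norm_num
  pot := by decide +kernel
  ok := by decide +kernel
  same := by decide +kernel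
  m := by decide +kernel
  m2 := by decide +kernel

theorem termQ : TermOK (LQl SN datN) (datN.K * SN.w) 62403600 (0) (1160) tsQ where
  pos := by norm_num
  pot := by decide +kernel
  ok := by decide +kernel
  same := by decide +kernel
  m := by decide +kernel
  m2 := by decide +kernel

/-- the test for `datN` -/
def chk (L : List SCell) (Ts : List (List ℕ × List ℕ)) : Bool :=
  cells_chkN SN datN 124807200 (1800) (1990) tsR 62403600 (0) (1160) tsQ L Ts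

theorem ok_of_chk {L : List SCell} {Ts : List (List ℕ × List ℕ)} (h : chk L Ts = true) :
    CellsOK SN datN L :=
  cells_of_chkN (by decide) termR termQ L Ts h

theorem ch0 : chk (datN.cells.take 8)
    [([10], [1, 1, 2, 3, 3]), ([10], [4, 3, 3]), ([9, 1], [3, 3, 3, 1]), ([7, 3], [3, 3, 3, 1]), ([12], [4, 5, 3]), ([13], [5, 5, 3]), ([10, 2], [5, 4, 3]), ([8, 5], [4, 4, 3, 2])] = true := by
  decide +kernel

theorem ch1 : chk ((datN.cells.drop 8).take 8)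
    [([11], [7, 4]), ([11], [7, 4]), ([12], [7, 5]), ([11], [8, 3]), ([12], [8, 4]), ([11], [8, 3]), ([10, 2], [7, 5]), ([11], [7, 4])] = true := by
  decide +kernel

theorem ch2 : chk ((datN.cells.drop 16).take 8)
    [([11], [7, 4]), ([12], [8, 4]), ([11], [9, 2]), ([12], [9, 3]), ([11], [10, 1]), ([10, 2], [8, 4]), ([12], [8, 4]), ([13], [9, 4])] = true := by
  decide +kernel

theorem ch3 : chk ((datN.cells.drop 24).take 8)
    [([12], [10, 2]), ([13], [10, 3]), ([11, 1], [11, 1]), ([9, 4], [11, 2]), ([9, 3], [12]), ([6, 7], [11, 2]), ([12], [7, 5]), ([13], [8, 5])] = true := by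
  decide +kernel

theorem ch4 : chk ((datN.cells.drop 32).take 8)
    [([12], [8, 4]), ([11, 2], [6, 7]), ([10], [3, 2, 3, 2]), ([5, 5, 1], [4, 5, 2]), ([5, 6], [11]), ([6, 5], [11]), ([6, 5], [11]), ([5, 4, 2], [9, 2])] = true := by
  decide +kernel

theorem ch5 : chk ((datN.cells.drop 40).take 8)
    [([12], [5, 5, 2]), ([12], [6, 6]), ([12], [7, 5]), ([10, 2], [8, 4]), ([8, 4], [12]), ([7, 5], [12]), ([5, 4, 4], [11, 2]), ([12], [4, 4, 4])] = true := by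
  decide +kernel

theorem ch6 : chk ((datN.cells.drop 48).take 8)
    [([12, 1], [5, 8]), ([9, 3], [12]), ([6, 7], [11, 2]), ([3, 2, 3, 4], [12]), ([4, 5, 4], [13]), ([6, 6], [12]), ([7, 6], [13]), ([7, 5], [12])] = true := by
  decide +kernel

theorem ch7 : chk ((datN.cells.drop 56).take 8)
    [([7, 6], [13]), ([7, 5], [12]), ([5, 8], [13]), ([3, 1, 2, 2, 4], [12]), ([4, 4, 4, 1], [13]), ([4, 5, 3], [12]), ([5, 5, 3], [13]), ([6, 6], [12])] = true := by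
  decide +kernel

theorem ch8 : chk ((datN.cells.drop 64))
    [([6, 6, 1], [13]), ([6, 6], [12]), ([5, 6, 2], [13])] = true := by
  decide +kernel

theorem cellsOK_N : CellsOK SN datN datN.cells := by
  have h8 : CellsOK SN datN (datN.cells.drop 64) := ok_of_chk ch8
  have h7 : CellsOK SN datN (datN.cells.drop 56) := by
    refine CellsOK.split 8 (ok_of_chk ch7) ?_
    rw [List.drop_drop]
    exact h8
  have h6 : CellsOK SN datN (datN.cells.drop 48) := by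
    refine CellsOK.split 8 (ok_of_chk ch6) ?_
    rw [List.drop_drop]
    exact h7
  have h5 : CellsOK SN datN (datN.cells.drop 40) := by
    refine CellsOK.split 8 (ok_of_chk ch5) ?_
    rw [List.drop_drop]
    exact h6
  have h4 : CellsOK SN datN (datN.cells.drop 32) := by
    refine CellsOK.split 8 (ok_of_chk ch4) ?_
    rw [List.drop_drop]
    exact h5
  have h3 : CellsOK SN datN (datN.cells.drop 24) := by
    refine CellsOK.split 8 (ok_of_chk ch3) ?_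
    rw [List.drop_drop]
    exact h4
  have h2 : CellsOK SN datN (datN.cells.drop 16) := by
    refine CellsOK.split 8 (ok_of_chk ch2) ?_
    rw [List.drop_drop]
    exact h3
  have h1 : CellsOK SN datN (datN.cells.drop 8) := by
    refine CellsOK.split 8 (ok_of_chk ch1) ?_
    rw [List.drop_drop]
    exact h2
  exact CellsOK.split 8 (ok_of_chk ch0) h1

end Crest.Agent.R006.OKRealx179
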