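import Crest.Agent.R006.Pre_Andreief_475

/-!
Row 6, block P3 (helper475): occupation bound ("bathtub") for Andréief integrals with atoms.

`E` = particle space with measure `ρ`, `A : Finset E` the atoms.  The Andréief integrand vanishes
as soon as two particles coincide, so an atom carries at most one particle:

`(1/n!) ∫_{no atom of A repeated} ∏ w(t_l) dρ^n ≤ ∏_{y ∈ A} (1 + ρ{y} w(y)) * exp(∫_{A^c} w dρ)`.

`norm_det_le_occ` : the resulting bound of the determinant, with a free parameter `lam`.
-/

set_option autoImplicit false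
set_option linter.unusedSectionVars false

namespace Crest.Agent.R006.Occ475

open scoped Nat ENNReal
open Finset Matrix MeasureTheory

variable {E : Type*} [MeasurableSpace E] [MeasurableSingletonClass E] [DecidableEq E]

/-- no atom of `A` is occupied twice. -/
def adm (A : Finset E) {n : ℕ} (t : Fin n → E) : Prop := ∀ l l', l ≠ l' → t l = t l' → t l ∉ A

lemma measurableSet_adm (A : Finset E) (n : ℕ) : MeasurableSet {t : Fin n → E | adm A t} := by
  have h : {t : Fin n → E | adm A t} = ⋂ l : Fin n, ⋂ l' : Fin n, ⋂ y : E, ⋂ _ : y ∈ A,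
      {t : Fin n → E | ¬ (l ≠ l' ∧ t l = y ∧ t l' = y)} := by
    ext t
    simp only [adm, Set.mem_ofPred_eq, Set.mem_iInter]
    constructor
    · rintro h l l' y hy ⟨hne, h1, h2⟩
      exact h l l' hne (h1.trans h2.symm) (h1 ▸ hy)
    · intro h l l' hne h1 h2
      exact h l l' (t l) h2 ⟨hne, rfl, h1.symm⟩
  rw [h]
  refine MeasurableSet.iInter fun l => MeasurableSet.iInter fun l' => ?_
  refine MeasurableSet.biInter A.countable_toSet fun y _ => ?_
  by_cases hne : l = l'
  · have : {t : Fin n → E | ¬ (l ≠ l' ∧ t l = y ∧ t l' = y)} = Set.univ := by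
      ext t; simp [hne]
    rw [this]; exact MeasurableSet.univ
  · have : {t : Fin n → E | ¬ (l ≠ l' ∧ t l = y ∧ t l' = y)} =
        ((fun t : Fin n → E => t l) ⁻¹' {y} ∩ (fun t : Fin n → E => t l') ⁻¹' {y})ᶜ := by
      ext t; simp [hne]
    rw [this]
    exact ((measurable_pi_apply l (measurableSet_singleton y)).inter
      (measurable_pi_apply l' (measurableSet_singleton y))).compl

open Classical in
/-- the restricted product. -/
noncomputable def pr (A : Finset E) (w : E → ℝ≥0∞) {n : ℕ} (t : Fin n → E) : ℝ≥0∞ :=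
  if adm A t then ∏ l, w (t l) else 0

lemma measurable_pr (A : Finset E) {w : E → ℝ≥0∞} (hw : Measurable w) (n : ℕ) :
    Measurable (fun t : Fin n → E => pr A w t) := by
  unfold pr
  refine Measurable.ite (measurableSet_adm A n) ?_ measurable_const
  exact Finset.measurable_prod _ fun l _ => hw.comp (measurable_pi_apply l)

variable (ρ : Measure E) [SigmaFinite ρ]

/-- removing one atom. -/
lemma pr_insert_le (A : Finset E) (y : E) (w : E → ℝ≥0∞) {n : ℕ} (t : Fin (n + 1) → E) :
    pr (insert y A) w t ≤ pr A (fun x => if x = y then 0 else w x) t +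
      ∑ l : Fin (n + 1), (if t l = y then w y else 0) *
        pr A (fun x => if x = y then 0 else w x) (fun j => t (l.succAbove j)) := by
  classical
  by_cases had : adm (insert y A) t
  · by_cases hex : ∃ l, t l = y
    · obtain ⟨l, hl⟩ := hex
      refine le_trans ?_ (self_le_add_left _ _)
      refine le_trans ?_ (Finset.single_le_sum (f := fun l : Fin (n + 1) =>
        (if t l = y then w y else 0) *
        pr A (fun x => if x = y then 0 else w x) (fun j => t (l.succAbove j)))
        (fun i _ => bot_le) (Finset.mem_univ l))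
      have hne : ∀ j, t (l.succAbove j) ≠ y := by
        intro j hj
        exact had l (l.succAbove j) (Fin.succAbove_ne l j).symm (hl.trans hj.symm)
          (by rw [hl]; exact Finset.mem_insert_self _ _)
      have had' : adm A (fun j => t (l.succAbove j)) := by
        intro i j hij h1 h2
        exact had _ _ (fun h => hij (Fin.succAbove_right_injective h)) h1
          (Finset.mem_insert_of_mem h2)
      unfold pr
      rw [if_pos had, if_pos had', Fin.prod_univ_succAbove _ l]
      simp only [hl, if_true]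
      refine le_of_eq ?_
      congr 1
      refine Finset.prod_congr rfl fun j _ => ?_
      rw [if_neg (hne j)]
    · refine le_trans ?_ (self_le_add_right _ _)
      have had' : adm A t := fun i j hij h1 h2 => had i j hij h1 (Finset.mem_insert_of_mem h2)
      unfold pr
      rw [if_pos had, if_pos had']
      refine le_of_eq (Finset.prod_congr rfl fun l _ => ?_)
      change w (t l) = if t l = y then 0 else w (t l)
      rw [if_neg (fun h => hex ⟨l, h⟩)]
  · unfold pr
    rw [if_neg had]
    exact bot_le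

lemma lintegral_term (A : Finset E) (y : E) {w : E → ℝ≥0∞} (hw : Measurable w) {n : ℕ}
    (l : Fin (n + 1)) (c : ℝ≥0∞) :
    ∫⁻ t : Fin (n + 1) → E, (if t l = y then c else 0) * pr A w (fun j => t (l.succAbove j))
      ∂(Measure.pi fun _ => ρ) = (ρ {y} * c) * ∫⁻ t : Fin n → E, pr A w t ∂(Measure.pi fun _ => ρ) := by
  have h := measurePreserving_piFinSuccAbove (fun _ : Fin (n + 1) => ρ) l
  have h1 := h.lintegral_comp_emb (MeasurableEquiv.piFinSuccAbove (fun _ => E) l).measurableEmbedding
    (fun p : E × (Fin n → E) => (if p.1 = y then c else 0) * pr A w p.2)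
  have h2 : ∫⁻ t : Fin (n + 1) → E, (if t l = y then c else 0) * pr A w (fun j => t (l.succAbove j))
      ∂(Measure.pi fun _ => ρ) = ∫⁻ p, (if p.1 = y then c else 0) * pr A w p.2
        ∂(ρ.prod (Measure.pi fun _ : Fin n => ρ)) := by
    rw [← h1]
    rfl
  rw [h2]
  have hm : Measurable (fun x : E => if x = y then c else 0) :=
    Measurable.ite (measurableSet_singleton y) measurable_const measurable_const
  rw [lintegral_prod_mul hm.aemeasurable (measurable_pr A hw n).aemeasurable]
  congr 1
  have h3 : (fun x : E => if x = y then c else 0) = Set.indicator {y} (fun _ => c) := by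
    funext x
    by_cases hx : x = y
    · simp [hx]
    · simp [hx]
  rw [h3, lintegral_indicator (measurableSet_singleton y), setLIntegral_const, mul_comm]

lemma pow_le_factorial_mul_exp (I : ℝ≥0∞) (hI : I ≠ ∞) (n : ℕ) :
    I ^ n ≤ (n ! : ℝ≥0∞) * ENNReal.ofReal (Real.exp I.toReal) := by
  have h0 : 0 ≤ I.toReal := ENNReal.toReal_nonneg
  have h := Real.pow_div_factorial_le_exp I.toReal h0 n
  have hpos : (0 : ℝ) < (n ! : ℝ) := by exact_mod_cast Nat.factorial_pos n
  rw [div_le_iff₀ hpos] at h
  calc I ^ n = ENNReal.ofReal (I.toReal ^ n) := by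
        rw [ENNReal.ofReal_pow h0, ENNReal.ofReal_toReal hI]
    _ ≤ ENNReal.ofReal (Real.exp I.toReal * (n ! : ℝ)) := ENNReal.ofReal_le_ofReal h
    _ = _ := by
        rw [ENNReal.ofReal_mul (Real.exp_pos _).le, ENNReal.ofReal_natCast, mul_comm]

/-- **occupation bound.** -/
theorem occ_bound (A : Finset E) :
    ∀ (w : E → ℝ≥0∞), Measurable w → ∫⁻ x, w x ∂ρ ≠ ∞ → ∀ n : ℕ,
      ∫⁻ t : Fin n → E, pr A w t ∂(Measure.pi fun _ => ρ) ≤
        (n ! : ℝ≥0∞) * ((∏ y ∈ A, (1 + ρ {y} * w y)) *
          ENNReal.ofReal (Real.exp (∫⁻ x in (A : Set E)ᶜ, w x ∂ρ).toReal)) := by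
  classical
  refine Finset.induction_on A ?_ ?_
  · intro w hw hI n
    have h1 : ∀ (n : ℕ) (t : Fin n → E), pr (∅ : Finset E) w t = ∏ l, w (t l) := by
      intro n t
      have : adm (∅ : Finset E) t := fun _ _ _ _ => Finset.notMem_empty _
      unfold pr
      rw [if_pos this]
    simp only [h1]
    rw [Finset.prod_empty, one_mul, Finset.coe_empty, Set.compl_empty, Measure.restrict_univ]
    have h2 : ∀ n : ℕ, ∫⁻ t : Fin n → E, ∏ l, w (t l) ∂(Measure.pi fun _ => ρ) = (∫⁻ x, w x ∂ρ) ^ n := by
      intro n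
      induction n with
      | zero => simp
      | succ n ih =>
        have h := measurePreserving_piFinSuccAbove (fun _ : Fin (n + 1) => ρ) 0
        have h3 := h.lintegral_comp_emb
          (MeasurableEquiv.piFinSuccAbove (fun _ => E) 0).measurableEmbedding
          (fun p : E × (Fin n → E) => w p.1 * ∏ l, w (p.2 l))
        have h4 : ∫⁻ t : Fin (n + 1) → E, ∏ l, w (t l) ∂(Measure.pi fun _ => ρ) =
            ∫⁻ p, w p.1 * ∏ l, w (p.2 l) ∂(ρ.prod (Measure.pi fun _ : Fin n => ρ)) := by
          rw [← h3]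
          refine lintegral_congr fun t => ?_
          rw [Fin.prod_univ_succAbove _ 0]
          rfl
        have hm2 : Measurable (fun t : Fin n → E => ∏ l, w (t l)) :=
          Finset.measurable_prod _ fun l _ => hw.comp (measurable_pi_apply l)
        rw [h4, lintegral_prod_mul (f := w) (g := fun t : Fin n → E => ∏ l, w (t l))
          hw.aemeasurable hm2.aemeasurable, ih, pow_succ, mul_comm]
    rw [h2 n]
    exact pow_le_factorial_mul_exp _ hI n
  · intro y A hy ih w hw hI n
    set w' : E → ℝ≥0∞ := fun x => if x = y then 0 else w x with hw'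
    have hw'm : Measurable w' := Measurable.ite (measurableSet_singleton y) measurable_const hw
    have hle : ∀ x, w' x ≤ w x := by
      intro x
      simp only [hw']
      split_ifs
      · exact bot_le
      · exact le_rfl
    have hI' : ∫⁻ x, w' x ∂ρ ≠ ∞ := ne_top_of_le_ne_top hI (lintegral_mono hle)
    have hprod : ∏ x ∈ A, (1 + ρ {x} * w' x) = ∏ x ∈ A, (1 + ρ {x} * w x) := by
      refine Finset.prod_congr rfl fun x hx => ?_
      have : x ≠ y := fun h => hy (h ▸ hx)
      simp only [hw', if_neg this]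
    have hint : ∫⁻ x in (A : Set E)ᶜ, w' x ∂ρ = ∫⁻ x in ((insert y A : Finset E) : Set E)ᶜ, w x ∂ρ := by
      have e1 : (fun x => w' x) = Set.indicator ({y} : Set E)ᶜ w := by
        funext x
        by_cases hx : x = y
        · simp [hw', hx]
        · simp [hw', hx]
      have e2 : ({y} : Set E)ᶜ ∩ (A : Set E)ᶜ = ((insert y A : Finset E) : Set E)ᶜ := by
        ext x; simp
      rw [e1, lintegral_indicator (measurableSet_singleton y).compl, Measure.restrict_restrict
        (measurableSet_singleton y).compl, e2]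
    cases n with
    | zero =>
      have h0 : ∀ t : Fin 0 → E, pr (insert y A) w t = 1 := by
        intro t
        have : adm (insert y A) t := fun l => Fin.elim0 l
        unfold pr
        rw [if_pos this]
        simp
      simp only [h0, lintegral_one]
      have h1 : (Measure.pi fun _ : Fin 0 => ρ) Set.univ = 1 := by simp
      rw [h1, Nat.factorial_zero, Nat.cast_one, one_mul]
      have h2 : (1 : ℝ≥0∞) ≤ ∏ x ∈ insert y A, (1 + ρ {x} * w x) :=
        Finset.one_le_prod' fun x _ => self_le_add_right _ _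
      have h3 : (1 : ℝ≥0∞) ≤ ENNReal.ofReal (Real.exp
          (∫⁻ x in ((insert y A : Finset E) : Set E)ᶜ, w x ∂ρ).toReal) := by
        rw [ENNReal.one_le_ofReal]
        exact Real.one_le_exp ENNReal.toReal_nonneg
      calc (1 : ℝ≥0∞) = 1 * 1 := (one_mul 1).symm
        _ ≤ _ := mul_le_mul' h2 h3
    | succ n =>
      calc ∫⁻ t : Fin (n + 1) → E, pr (insert y A) w t ∂(Measure.pi fun _ => ρ)
          ≤ ∫⁻ t : Fin (n + 1) → E, (pr A w' t + ∑ l : Fin (n + 1),
              (if t l = y then w y else 0) * pr A w' (fun j => t (l.succAbove j)))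
              ∂(Measure.pi fun _ => ρ) := lintegral_mono fun t => pr_insert_le A y w t
        _ = ∫⁻ t : Fin (n + 1) → E, pr A w' t ∂(Measure.pi fun _ => ρ) +
              ∑ l : Fin (n + 1), ∫⁻ t : Fin (n + 1) → E,
                (if t l = y then w y else 0) * pr A w' (fun j => t (l.succAbove j))
              ∂(Measure.pi fun _ => ρ) := by
            rw [lintegral_add_left (measurable_pr A hw'm (n + 1)), lintegral_finsetSum]
            intro l _
            refine Measurable.mul ?_ ?_
            · have hms : MeasurableSet {a : Fin (n + 1) → E | a l = y} :=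
                measurableSet_preimage (f := fun a : Fin (n + 1) → E => a l)
                  (measurable_pi_apply l) (measurableSet_singleton y)
              exact Measurable.ite hms measurable_const measurable_const
            · exact (measurable_pr A hw'm n).comp
                (measurable_pi_lambda _ fun j => measurable_pi_apply _)
        _ = ∫⁻ t : Fin (n + 1) → E, pr A w' t ∂(Measure.pi fun _ => ρ) +
              ((n + 1 : ℕ) : ℝ≥0∞) * ((ρ {y} * w y) *
                ∫⁻ t : Fin n → E, pr A w' t ∂(Measure.pi fun _ => ρ)) := by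
            congr 1
            rw [Finset.sum_congr rfl fun l _ => lintegral_term ρ A y hw'm l (w y)]
            rw [Finset.sum_const, Finset.card_univ, Fintype.card_fin, nsmul_eq_mul]
        _ ≤ ((n + 1)! : ℝ≥0∞) * ((∏ x ∈ A, (1 + ρ {x} * w' x)) *
              ENNReal.ofReal (Real.exp (∫⁻ x in (A : Set E)ᶜ, w' x ∂ρ).toReal)) +
              ((n + 1 : ℕ) : ℝ≥0∞) * ((ρ {y} * w y) *
                ((n ! : ℝ≥0∞) * ((∏ x ∈ A, (1 + ρ {x} * w' x)) *
              ENNReal.ofReal (Real.exp (∫⁻ x in (A : Set E)ᶜ, w' x ∂ρ).toReal)))) := by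
            gcongr
            · exact ih w' hw'm hI' (n + 1)
            · exact ih w' hw'm hI' n
        _ = _ := by
            rw [hprod, hint, Finset.prod_insert hy, Nat.factorial_succ]
            push_cast
            ring

/-- the integrand of Andréief's formula vanishes if an atom is occupied twice. -/
lemma det_eq_zero_of_not_adm {𝕜 : Type*} [RCLike 𝕜] (A : Finset E) {n : ℕ} (g : Fin n → E → 𝕜)
    (t : Fin n → E) (h : ¬ adm A t) :
    (Matrix.of fun l l' => g l' (t l) : Matrix (Fin n) (Fin n) 𝕜).det = 0 := by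
  unfold adm at h
  push Not at h
  obtain ⟨l, l', hne, h1, _⟩ := h
  refine Matrix.det_zero_of_row_eq hne ?_
  funext j
  simp only [of_apply, h1]

/-- **determinant bound with occupation numbers**: an atom `y` contributes at most
`1 + ρ{y} w(y) / lam`. -/
theorem enorm_det_le_occ {ι κ : Type*} [Fintype ι] [DecidableEq ι] [Fintype κ] [DecidableEq κ]
    {𝕜 : Type*} [RCLike 𝕜] {n : ℕ} (e : ι ≃ Fin n ⊕ κ)
    (f : ι → E → 𝕜) (g : Fin n → E → 𝕜) (B : ι → κ → 𝕜)
    (hF : ∀ i l, Integrable (fun t => f i t * g l t) ρ)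
    (A : Finset E) (w : E → ℝ≥0∞) (hw : Measurable w) (hI : ∫⁻ x, w x ∂ρ ≠ ∞) (C : ℝ≥0∞)
    (hbd : ∀ t : Fin n → E,
      ‖(Matrix.of fun i j => Sum.elim (fun l => f i (t l)) (B i) (e j) : Matrix ι ι 𝕜).det *
        (Matrix.of fun l l' => g l' (t l) : Matrix (Fin n) (Fin n) 𝕜).det‖ₑ ≤
        C * ∏ l, w (t l))
    (lam : ℝ≥0∞) (hlam : lam ≠ 0) (hlam' : lam ≠ ∞) :
    ‖(Matrix.of fun i j => Sum.elim (fun l => ∫ t, f i t * g l t ∂ρ) (B i) (e j) :
        Matrix ι ι 𝕜).det‖ₑ ≤
      C * lam ^ n * ((∏ y ∈ A, (1 + ρ {y} * (w y / lam))) *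
        ENNReal.ofReal (Real.exp ((∫⁻ x in (A : Set E)ᶜ, w x ∂ρ) / lam).toReal)) := by
  classical
  have h0 := Andreief475.andreief_mixed e ρ f g B hF
  rw [Fintype.card_fin] at h0
  set M : 𝕜 := (Matrix.of fun i j => Sum.elim (fun l => ∫ t, f i t * g l t ∂ρ) (B i) (e j) :
        Matrix ι ι 𝕜).det with hM
  have hfac : ‖((n ! : ℕ) : 𝕜)‖ₑ = (n ! : ℝ≥0∞) := by
    rw [← ofReal_norm, RCLike.norm_natCast, ENNReal.ofReal_natCast]
  have hwl : Measurable (fun x => w x / lam) := hw.div_const _
  have hIl : ∫⁻ x, w x / lam ∂ρ ≠ ∞ := by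
    simp only [div_eq_mul_inv]
    rw [lintegral_mul_const _ hw]
    exact ENNReal.mul_ne_top hI (ENNReal.inv_ne_top.2 hlam)
  have hpr : ∀ t : Fin n → E, pr A w t = lam ^ n * pr A (fun x => w x / lam) t := by
    intro t
    unfold pr
    split_ifs
    · rw [show lam ^ n = ∏ _l : Fin n, lam by simp, ← Finset.prod_mul_distrib]
      refine Finset.prod_congr rfl fun l _ => ?_
      rw [ENNReal.mul_div_cancel hlam hlam']
    · simp
  have h1 : (n ! : ℝ≥0∞) * ‖M‖ₑ ≤ ∫⁻ t : Fin n → E, C * pr A w t ∂(Measure.pi fun _ => ρ) := by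
    rw [← hfac, ← enorm_mul, h0]
    refine (enorm_integral_le_lintegral_enorm _).trans (lintegral_mono fun t => ?_)
    by_cases had : adm A t
    · refine (hbd t).trans (le_of_eq ?_)
      unfold pr
      rw [if_pos had]
    · rw [det_eq_zero_of_not_adm A g t had]
      simp
  have h2 : ∫⁻ t : Fin n → E, C * pr A w t ∂(Measure.pi fun _ => ρ) =
      C * (lam ^ n * ∫⁻ t : Fin n → E, pr A (fun x => w x / lam) t ∂(Measure.pi fun _ => ρ)) := by
    rw [lintegral_const_mul _ (measurable_pr A hw n), ← lintegral_const_mul _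
      (measurable_pr A hwl n)]
    simp only [hpr]
  have h3 := occ_bound ρ A (fun x => w x / lam) hwl hIl n
  have h4 : ∫⁻ x in (A : Set E)ᶜ, w x / lam ∂ρ = (∫⁻ x in (A : Set E)ᶜ, w x ∂ρ) / lam := by
    simp only [div_eq_mul_inv]
    rw [lintegral_mul_const _ hw]
  rw [h4] at h3
  have hn0 : (n ! : ℝ≥0∞) ≠ 0 := by exact_mod_cast (Nat.factorial_pos n).ne'
  have hnt : (n ! : ℝ≥0∞) ≠ ∞ := ENNReal.natCast_ne_top _
  rw [← ENNReal.mul_le_mul_iff_right hn0 hnt]
  calc (n ! : ℝ≥0∞) * ‖M‖ₑ ≤ _ := h1
    _ = _ := h2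
    _ ≤ C * (lam ^ n * ((n ! : ℝ≥0∞) * ((∏ y ∈ A, (1 + ρ {y} * (w y / lam))) *
        ENNReal.ofReal (Real.exp ((∫⁻ x in (A : Set E)ᶜ, w x ∂ρ) / lam).toReal)))) := by
      gcongr
    _ = _ := by ring

end Crest.Agent.R006.Occ475
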