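import Crest.Agent.R006.BasisConst_555
import Crest.Agent.R006.Bord_929
import Crest.Agent.R006.P4Toll_961

set_option autoImplicit false

/-!
# Row 6, block P4, assembly, part A (helper814)

From the bordered matrix with the monic bases (rows = ALL rows `Lam.Row (mm S u c)` of the design,
columns `R | T | Q | U` in the format of `P4Toll_961`) to `Loss p (Minor S u r)`.
-/

namespace Crest.Agent.R006.P4Asmx814

open Polynomial Crest.Agent.R006.D Crest.Agent.R006.Bordx929 Crest.Agent.R006.NV

variable (S : Shape) (u c : ℕ)

/-- row labels: all rows of the design -/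
abbrev RI := Lam.Row (mm S u c)

/-- column labels -/
abbrev CI := P4Toll961.Col (Fin (S.k * u)) (Fin (S.q * u)) (Fin (S.g * u)) (Fin c)

/-- entry of the monic matrix in the row `ρ` -/
noncomputable def entM (ρ : D.Row) : Col S u → ℚ[X] :=
  entryB S u (polRM S u) (fun l => descPochhammer ℚ l) (fun l => descPochhammer ℚ l) ρ

/-- **the bordered monic matrix**, `J` = the rows of the unit columns -/
noncomputable def brow (J : Fin c → RI S u c) : RI S u c → CI S u c → ℚ[X]
  | i, .inl l => entM S u (ofRow u c i) (.inl l)
  | i, .inr (.inl l) => entM S u (ofRow u c i) (.inr (.inl l))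
  | i, .inr (.inr (.inl l)) => entM S u (ofRow u c i) (.inr (.inr l))
  | i, .inr (.inr (.inr t)) => if i = J t then 1 else 0

/-- the column equivalence -/
def colEquiv : Col S u ⊕ Fin c ≃ CI S u c where
  toFun := Sum.elim (Sum.elim Sum.inl (Sum.elim (fun l => .inr (.inl l))
    (fun l => .inr (.inr (.inl l))))) (fun t => .inr (.inr (.inr t)))
  invFun := Sum.elim (fun l => .inl (.inl l)) (Sum.elim (fun l => .inl (.inr (.inl l)))
    (Sum.elim (fun l => .inl (.inr (.inr l))) (fun t => .inr t)))
  left_inv := by rintro ((l | l | l) | t) <;> rfl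
  right_inv := by rintro (l | l | l | t) <;> rfl

/-- the full monic matrix -/
noncomputable def fullM : Matrix (RI S u c) (Col S u) ℚ[X] :=
  Matrix.of fun x col => entM S u (ofRow u c x) col

lemma border_fullM (J : Fin c → RI S u c) (i : RI S u c) (d : Col S u ⊕ Fin c) :
    border (fullM S u c) J i d = brow S u c J i (colEquiv S u c d) := by
  rcases d with (l | l | l) | t <;> rfl

/-- **From the bordered matrix to the minor.** -/
theorem loss_of_border {p : ℕ} [hp : Fact p.Prime] (hS : S.Good) (r : Col S u → D.Row)
    (hr : Adm S u c r) {E : ℤ}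
    (h : ∀ J : Fin c → RI S u c, Function.Injective J → ∀ e : RI S u c ≃ CI S u c,
      (Matrix.of fun i j => brow S u c J i (e j)).det ∈ (P4Toll961.pbFil p).F E) :
    Loss p (Minor S u r) (-(E : ℝ) + (padicValNat p (den S u) : ℕ)) := by
  refine loss_of_monic ?_
  let r' : Col S u → RI S u c := fun i => toRow u c hS (r i) (hr.2 i)
  have hr' : Function.Injective r' := fun a b h => hr.1 (by
    have := congrArg (ofRow u c) h
    exact this)
  obtain ⟨J, hJ⟩ := exists_compl r' hr' c (by rw [card_Row u c hS, card_Col u hS])
  have hJi : Function.Injective J := fun a b hab => by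
    simpa using hJ.1 (show Sum.elim r' J (Sum.inr a) = Sum.elim r' J (Sum.inr b) from hab)
  let e0 : Col S u ⊕ Fin c ≃ RI S u c := Equiv.ofBijective _ hJ
  obtain ⟨s, hs⟩ := det_border (fullM S u c) r' J hJ e0
  have h1 : (fullM S u c).submatrix r' id = MatM S u r := by
    refine Matrix.ext fun i j => ?_
    rfl
  rw [h1] at hs
  have h2 := h J hJi (e0.symm.trans (colEquiv S u c))
  have h3 : ((border (fullM S u c) J).submatrix e0 id).det
      = (Matrix.of fun i j => brow S u c J i ((e0.symm.trans (colEquiv S u c)) j)).det := by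
    rw [← Matrix.det_submatrix_equiv_self e0.symm]
    congr 1
    refine Matrix.ext fun i j => ?_
    simp only [Matrix.submatrix_apply, Equiv.apply_symm_apply, id_eq, Matrix.of_apply,
      Equiv.trans_apply]
    exact border_fullM S u c J i _
  have h4 : (MatM S u r).det ∈ (P4Toll961.pbFil p).F E := by
    rw [hs, h3]
    rcases Int.units_eq_one_or s with h5 | h5
    · rw [h5]
      simpa using h2
    · rw [h5]
      simpa using (AddSubgroup.neg_mem _ h2)
  intro i hi
  have h5 := ProdBound481.PB.le_padicValRat (P4Toll961.mem_pbFil.1 h4) i hi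
  rw [neg_neg]
  exact_mod_cast h5

end Crest.Agent.R006.P4Asmx814
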