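import Crest.Agent.R006.KapValid_305
import Crest.Agent.R006.KapSum_305
import Crest.Agent.R006.KindsS_305
import Crest.Agent.R006.GaugeP_555
import Crest.Agent.R006.P4AsmA_814

set_option autoImplicit false

/-!
# Row 6, block P4: the literal interface of the matrix side (helper814), version 3

On 305's final table format (`KapKinds_305`, `KapValid_305`, `KindsS_305`); line types
`B, e1, e2, h1, h2, a1, i1, w, q, g` (`e3 = h3 = a2 = r1 = 0`).

`Side` = what the matrix side (955, 657) delivers for a prime `p` and a choice `dec` of the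
decompositions (`pol`, `rA`, `rB`) of the classes.
-/

namespace Crest.Agent.R006.P4If

open Polynomial Crest.Agent.R006.D Crest.Agent.R006.P8 Crest.Agent.R006.Bordx929
  Crest.Agent.R006.P4Asmx814 Crest.Agent.R006.P4Toll961 Crest.Agent.R006.GaugeP555

/-- doubled coordinate of a site -/
def dbl : Site → ℤ
  | .Z i => 2 * i
  | .H i => 2 * i + 1

lemma dbl_val (z : Site) : ((dbl z : ℤ) : ℚ) = 2 * z.val := by
  rcases z with i | i
  · simp [dbl, Site.val]
  · simp only [dbl, Site.val]; push_cast; ring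

/-- the class of a site -/
def clsS (p : ℕ) (z : Site) : ℕ := (cls p (dbl z)).toNat

/-- the index `j` of a site in its class: `2 * val = 2 * class + (2 j + h) p` -/
def jS (p : ℕ) (z : Site) : ℤ := jdx p (dbl z)

lemma clsS_lt {p : ℕ} (hp : 0 < p) (z : Site) : clsS p z < p := by
  have h1 := cls_lt (s := dbl z) (show (0 : ℤ) < p by exact_mod_cast hp)
  have h2 := cls_nonneg (s := dbl z) (show (0 : ℤ) < p by exact_mod_cast hp)
  unfold clsS
  omega

lemma clsS_cast {p : ℕ} (hp : 0 < p) (z : Site) : ((clsS p z : ℕ) : ℤ) = cls p (dbl z) :=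
  Int.toNat_of_nonneg (cls_nonneg (show (0 : ℤ) < p by exact_mod_cast hp))

/-- `2 * val = 2 * class + (2 j + h) p` -/
lemma site_eq {p : ℕ} (hp : 0 < p) (hodd : p % 2 = 1) (z : Site) :
    dbl z = 2 * (clsS p z : ℕ) + (2 * jS p z + dbl z % 2) * p := by
  rw [clsS_cast hp]
  exact node_eq (by omega)

/-- the kind of a row of the design -/
def kindR : D.Row → Kind
  | (.Z i, o) => if 0 ≤ i then kG else (if o = 0 then kE1 else kE2)
  | (.H i, o) => if 0 ≤ i then (if o = 0 then kH1 else kH2) else kW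

/-- the cost record of the node `j` of a class -/
def tabK (d : Mode) (k : Kind) (js : List ℤ) (j : ℤ) : Row3 := k.row3 d js j

/-- the costs of a row of the design -/
def tabX (S : Shape) (u p : ℕ) (dec : ℕ → Mode) (ρ : D.Row) : Row3 :=
  tabK (dec (clsS p ρ.1)) (kindR ρ) (jvec (bdS S) u p (clsS p ρ.1)) (jS p ρ.1)

/-- admissible decompositions: `pol` exactly in the polar classes -/
structure DecOK (S : Shape) (u p : ℕ) (dec : ℕ → Mode) : Prop where
  pol : ∀ a < p, dec a = .pol ↔ 2 * a < p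

/-- the rows without the entries in the unit columns -/
def zeroU {A : Type*} [CommRing A] {Cl jR jT jQ jU ι : Type*} {N : ℕ}
    (R : Rows A Cl jR jT jQ jU N ι) : Rows A Cl jR jT jQ jU N ι :=
  { R with err := fun x d => if kd d = 3 then 0 else R.err x d }

/-- **The output of the matrix side.** `E` = precision (arbitrarily large). -/
structure Side (p : ℕ) [Fact p.Prime] (S : Shape) (u c : ℕ) (dec : ℕ → Mode)
    (J : Fin c → RI S u c) (E : ℤ) (N : ℕ)
    (W : Net ℚ[X] (Fin p) (Fin (S.k * u)) (Fin (S.q * u)) (Fin (S.g * u)) N)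
    (R : Rows ℚ[X] (Fin p) (Fin (S.k * u)) (Fin (S.q * u)) (Fin (S.g * u)) (Fin c) N
      (RI S u c)) : Prop where
  det_eq : ∀ e : RI S u c ≃ CI S u c,
    (Matrix.of fun i j => brow S u c J i (e j)).det = (Matrix.of fun i j => W.mat R i (e j)).det
  cls : ∀ x, ((R.cls x : Fin p) : ℕ) = clsS p (ofRow u c x).1
  tab : Tables (pbFil p) W (zeroU R) (fun a => dec (a : ℕ)) (fun x => tabX S u p dec (ofRow u c x))
    (fun a => zc S u p ((a : ℕ) : ℤ)) E
  errU : ∀ x t, R.err x (.inr (.inr (.inr t))) ∈ (pbFil p).F 0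

/-- **The statement of the matrix side.** -/
def MatrixSide (S : Shape) (c C1 : ℕ) : Prop :=
  ∀ (u p : ℕ) [Fact p.Prime], 5 ≤ p → C1 * (u + 1) < p ^ 2 → ∀ dec : ℕ → Mode, DecOK S u p dec →
    ∀ (J : Fin c → RI S u c), Function.Injective J → ∀ E : ℤ,
      ∃ (N : ℕ) (W : Net ℚ[X] (Fin p) (Fin (S.k * u)) (Fin (S.q * u)) (Fin (S.g * u)) N)
        (R : Rows ℚ[X] (Fin p) (Fin (S.k * u)) (Fin (S.q * u)) (Fin (S.g * u)) (Fin c) N
          (RI S u c)), Side p S u c dec J E N W R

/-! ### multipliers of a strip: `t = lam :: mu :: gc :: candidates` -/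

/-- class cost with the multipliers `lam :: mu :: gc :: L` -/
def kapT : List ℤ → List ℤ → ℤ
  | lam :: mu :: _ :: L, js => kapS (lam :: mu :: L) js
  | _, _ => 0

/-- the part outside the classes; `gc ≥ v_p ((i1 u)!)` on the strip -/
def extT (S : Shape) : List ℤ → ℤ
  | lam :: mu :: gc :: _ => lam * (S.k + S.a1 + S.i1) + mu * S.g - S.k * gc
  | _ => 0

/-- `gc` bounds `v_p ((i1 u)!)` for the primes `p > (s.u / s.v) u` -/
def gcOK (S : Shape) (s : St) : Bool :=
  decide (max 0 ((S.i1 * s.v - 1) / s.u) ≤ s.t.getD 2 0)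

/-! ### from `Side` to the determinant -/

section bound

variable {p : ℕ} [Fact p.Prime] {S : Shape} {u c : ℕ} {dec : ℕ → Mode} {J : Fin c → RI S u c}
  {E : ℤ} {N : ℕ}
  {W : Net ℚ[X] (Fin p) (Fin (S.k * u)) (Fin (S.q * u)) (Fin (S.g * u)) N}
  {R : Rows ℚ[X] (Fin p) (Fin (S.k * u)) (Fin (S.q * u)) (Fin (S.g * u)) (Fin c) N (RI S u c)}

/-- the potential of a row for class tolls `sg, sX, sQ` -/
noncomputable def D0X (S : Shape) (u p : ℕ) (dec : ℕ → Mode) (lam mu : ℤ) (sg sX sQ : ℕ → ℤ) (ρ : D.Row) : ℤ :=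
  (tabX S u p dec ρ).Dm (dec (clsS p ρ.1)) lam mu
    (sg (clsS p ρ.1) + zc S u p ((clsS p ρ.1 : ℕ) : ℤ)) (sX (clsS p ρ.1)) (sQ (clsS p ρ.1))

/-- the tolls of a class -/
noncomputable def tollC (S : Shape) (u p : ℕ) (dec : ℕ → Mode) (lam : ℤ) (sg sX sQ : ℕ → ℤ) (a : ℕ) : ℤ :=
  tri (sg a) + (tri (sX a) + (tri (sQ a) + (dec a).be lam (sg a + zc S u p (a : ℤ))))

/-- **The determinant bound.** `-nu` bounds all row potentials. -/
theorem Side.det_mem (h : Side p S u c dec J E N W R) (lam mu nu : ℤ) (sg sX sQ : ℕ → ℤ)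
    (hE1 : lam ≤ E) (hE2 : ∀ x : RI S u c, D0X S u p dec lam mu sg sX sQ (ofRow u c x)
      + max lam (max 0 mu) ≤ E) (hE0 : 0 ≤ E)
    (hnu : ∀ x : RI S u c, D0X S u p dec lam mu sg sX sQ (ofRow u c x) + nu ≤ 0)
    (e : RI S u c ≃ CI S u c) :
    (Matrix.of fun i j => brow S u c J i (e j)).det ∈ (pbFil p).F
      (lam * (S.k * u : ℕ) + mu * (S.g * u : ℕ) + nu * c
        + ∑ x : RI S u c, D0X S u p dec lam mu sg sX sQ (ofRow u c x)
        - ∑ a ∈ Finset.range p, tollC S u p dec lam sg sX sQ a) := by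
  rw [h.det_eq e]
  set dec' : Fin p → Mode := fun a => dec (a : ℕ) with hdec
  set tb : RI S u c → Row3 := fun x => tabX S u p dec (ofRow u c x) with htb
  set zf : Fin p → ℕ := fun a => zc S u p ((a : ℕ) : ℤ) with hzf
  set K := certOf N R.cls dec' tb zf lam mu nu (fun a : Fin p => sg a) (fun a : Fin p => sX a)
    (fun a : Fin p => sQ a) with hK
  have hD0 : ∀ x, K.D0 x = D0X S u p dec lam mu sg sX sQ (ofRow u c x) := by
    intro x
    have hc := h.cls x
    simp only [hK, certOf, D0X, hdec, htb, hzf]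
    rw [hc]
  have hV0 : Valid (pbFil p) W (zeroU R) K := by
    refine valid_certOf h.tab lam mu nu _ _ _ hE1 ?_ ?_
    · intro x
      have h2 := hnu x
      rw [← hD0 x] at h2
      exact h2
    · intro x
      have h2 := hE2 x
      rw [← hD0 x] at h2
      exact h2
  have hV : Valid (pbFil p) W R K :=
    { sR0 := hV0.sR0, sX0 := hV0.sX0, sQ0 := hV0.sQ0, sB0 := hV0.sB0, rho := hV0.rho
      th0 := hV0.th0, q := hV0.q, A := hV0.A, B := hV0.B, C := hV0.C, DX0 := hV0.DX0
      near := hV0.near, far := hV0.far, errX := hV0.errX, Lam := hV0.Lam, errB := hV0.errB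
      err := by
        intro x d
        have h0 := hV0.err x d
        rcases d with d | d | d | d
        · exact h0
        · exact h0
        · exact h0
        · refine (pbFil p).mono ?_ (h.errU x d)
          have h2 := hnu x
          rw [← hD0 x] at h2
          exact h2 }
  refine (pbFil p).mono ?_ (P4Toll961.det_mem_equiv hV e)
  have h1 : ∑ a : Fin p, ∑ l : Fin N, (K.sR a l + K.sX a l + K.sQ a l + K.sB a l)
      ≤ ∑ a : Fin p, tollC S u p dec lam sg sX sQ (a : ℕ) :=
    Finset.sum_le_sum fun a _ => tolls_le (dec' a) lam (sg a + zf a) (sg a) (sX a) (sQ a) N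
  rw [Fin.sum_univ_eq_sum_range (fun a => tollC S u p dec lam sg sX sQ a) p] at h1
  have h2 : ∑ x, K.D0 x = ∑ x : RI S u c, D0X S u p dec lam mu sg sX sQ (ofRow u c x) :=
    Finset.sum_congr rfl fun x _ => hD0 x
  have h3 : K.lam = lam := rfl
  have h4 : K.mu = mu := rfl
  have h5 : K.nu = nu := rfl
  rw [h2, h3, h4, h5, Fintype.card_fin, Fintype.card_fin, Fintype.card_fin]
  linarith

end bound

end Crest.Agent.R006.P4If
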