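import Crest.Agent.R006.Defs

/-!
# Row 6: the frozen shape `SN` (helper378)

`B 24, e1 6, e2 2, h1 2, h2 1, w = i1 = 6, a1 1, q = g = 10`; 41 rows, 21 `R`-columns per unit.
-/

set_option autoImplicit false

namespace Crest.Agent.R006.D

/-- the frozen shape -/
def SN : Shape where
  B := 24
  e1 := 6
  e2 := 2
  e3 := 0
  h1 := 2
  h2 := 1
  h3 := 0
  w := 6
  a1 := 1
  a2 := 0
  i1 := 6
  r1 := 0
  q := 10
  g := 10

@[simp] lemma SN_B : SN.B = 24 := rfl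
@[simp] lemma SN_e1 : SN.e1 = 6 := rfl
@[simp] lemma SN_e2 : SN.e2 = 2 := rfl
@[simp] lemma SN_e3 : SN.e3 = 0 := rfl
@[simp] lemma SN_h1 : SN.h1 = 2 := rfl
@[simp] lemma SN_h2 : SN.h2 = 1 := rfl
@[simp] lemma SN_h3 : SN.h3 = 0 := rfl
@[simp] lemma SN_w : SN.w = 6 := rfl
@[simp] lemma SN_a1 : SN.a1 = 1 := rfl
@[simp] lemma SN_a2 : SN.a2 = 0 := rfl
@[simp] lemma SN_i1 : SN.i1 = 6 := rfl
@[simp] lemma SN_r1 : SN.r1 = 0 := rfl
@[simp] lemma SN_q : SN.q = 10 := rfl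
@[simp] lemma SN_g : SN.g = 10 := rfl
@[simp] lemma SN_rows : SN.rows = 41 := rfl
@[simp] lemma SN_k : SN.k = 21 := rfl

theorem SN_good : SN.Good := by
  constructor <;> simp [SN, Shape.rows]

end Crest.Agent.R006.D
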