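import Crest.Agent.R006.P8_FastSpec_799
import Crest.Agent.R006.P4Iface_814
import Crest.Agent.R006.Shape_378

set_option autoImplicit false
set_option maxRecDepth 100000

/-! Row 6, P8: strips of the odd certificate of `SN`, chunk 12 (data of helper595, format of helper305
and helper814) -/

namespace Crest.Agent.R006.OddM12

open Crest.Agent.R006.D Crest.Agent.R006.P8 Crest.Agent.R006.P4If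

/-- the strips -/
def L : List St := [
  ⟨60,17,[5,1,1,1,0,0,3,0,0]⟩,
  ⟨46,13,[5,1,1,1,0,0,3,0,0]⟩,
  ⟨32,9,[5,1,1,1,0,0,3,0,0]⟩,
  ⟨18,5,[5,1,1,1,0,0,3,0,0]⟩,
  ⟨40,11,[5,1,1,1,0,0,3,0,0]⟩,
  ⟨11,3,[5,1,1,3,0,0,1,0,0]⟩,
  ⟨48,13,[4,1,1,2,0,0,3,0,0,1,0,0]⟩,
  ⟨26,7,[4,1,1,1,0,0,3,0,0,2,0,0]⟩,
  ⟨56,15,[4,1,1,1,0,0,3,0,0,2,0,0]⟩,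
  ⟨15,4,[4,1,1,1,0,0,3,0,0,2,0,0]⟩,
  ⟨42,11,[4,1,1,1,0,0,3,0,0,2,0,0]⟩,
  ⟨23,6,[4,1,1,1,0,0,3,0,0,2,0,0]⟩,
  ⟨4,1,[4,1,1,1,0,0,3,0,0,2,0,0]⟩,
  ⟨46,11,[4,1,1,1,0,0,3,0,0,2,0,0]⟩,
  ⟨21,5,[4,1,1,1,0,0,3,0,0,2,0,0]⟩,
  ⟨30,7,[4,1,1,1,0,0,3,0,0,2,0,0]⟩,
  ⟨56,13,[4,1,1,1,0,0,3,0,0,2,0,0]⟩,
  ⟨13,3,[3,1,1,3,0,0,1,0,0]⟩,
  ⟨48,11,[3,1,1,1,0,0,3,0,0]⟩,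
  ⟨22,5,[3,1,1,3,0,0,1,0,0]⟩,
  ⟨40,9,[3,1,1,3,0,0,1,0,0]⟩,
  ⟨9,2,[3,1,1,3,0,0,1,0,0]⟩,
  ⟨32,7,[3,1,1,3,0,0,1,0,0]⟩,
  ⟨23,5,[3,1,1,3,0,0,1,0,0]⟩,
  ⟨60,13,[3,1,1,3,0,0,1,0,0]⟩,
  ⟨14,3,[3,1,1,3,0,0,1,0,0]⟩,
  ⟨24,5,[3,1,1,3,0,0,1,0,0,2,0,0]⟩,
  ⟨44,9,[3,1,1,3,0,0,1,0,0,2,0,0]⟩,
  ⟨5,1,[3,1,1,2,0,0,1,0,0,3,0,0]⟩,
  ⟨56,11,[3,1,1,2,0,0,1,0,0,3,0,0]⟩,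
  ⟨46,9,[3,1,1,2,0,0,1,0,0,3,0,0]⟩,
  ⟨26,5,[3,1,1,2,0,0,1,0,0]⟩,
  ⟨21,4,[3,1,1,2,0,0,1,0,0]⟩,
  ⟨16,3,[3,1,1,2,0,0,1,0,0]⟩,
  ⟨60,11,[3,1,1,2,0,0]⟩,
  ⟨11,2,[3,1,1,2,0,0]⟩,
  ⟨28,5,[3,1,1,2,0,0]⟩,
  ⟨40,7,[3,1,1,2,0,0]⟩,
  ⟨23,4,[3,1,1,2,0,0]⟩,
  ⟨6,1,[3,1,0,2,0,0]⟩,
  ⟨56,9,[2,1,0,2,0,0]⟩,
  ⟨44,7,[2,1,0,2,0,0]⟩,
  ⟨32,5,[2,1,0,2,0,0]⟩,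
  ⟨13,2,[2,1,0,2,0,0]⟩,
  ⟨46,7,[2,1,0,2,0,0]⟩,
  ⟨20,3,[2,1,0,2,0,0]⟩]

theorem chk : fastTotal 1000000000 (bdS SN) kapT (extT SN) L = some 21197841391 := by
  decide +kernel

theorem gc : ∀ s ∈ L.dropLast, 0 < s.u ∧ 0 < s.v ∧ gcOK SN s = true ∧ 3 ≤ s.t.length := by
  decide +kernel

end Crest.Agent.R006.OddM12
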