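import Crest.Agent.R006.RowCls_757
import Crest.Agent.R006.KindsS_305

set_option autoImplicit false

/-!
# Row 6, blocks P4/P8: the sum over all rows in terms of the kinds table (helper757)

`sum_rows_kinds` : the sum over all rows `x` of the design of `G (class) (kind of the row) (index)`
is the sum over the classes, the kinds `kindsF` (those of `kindsS` which are not zeros of the gauge)
and the indices `js[ia] ≤ j < js[ib]`, plus the `c` extra `G`-rows.
-/

namespace Crest.Agent.R006.P8.RowSumx757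

open Finset Crest.Agent.R006 Crest.Agent.R006.P8 Crest.Agent.R006.D

/-- the kinds of the rows of the design (`kindsS` without the zeros of the gauge) -/
def kindsF : List Kind := [kG, kE1, kE2, kH1, kH2, kW]

lemma kindsS_eq : kindsS = kindsF ++ [kZero 0 7 0, kZero 8 4 (-1)] := rfl

/-- the kind of a window -/
def kOf : ℕ → Kind
  | 0 => kG
  | 1 => kE1
  | 2 => kE2
  | 3 => kE2
  | 4 => kH1
  | 5 => kH2
  | 6 => kH2
  | _ => kW

/-- the kind of a row -/
def kRow (ρ : D.Row) : Kind := kOf (wnd ρ)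

lemma kRow_G {i : ℤ} (hi : 0 ≤ i) (o : ℕ) : kRow (.Z i, o) = kG := by
  rw [kRow, wnd, if_pos hi]; rfl

lemma kRow_E1 {i : ℤ} (hi : i < 0) : kRow (.Z i, 0) = kE1 := by
  rw [kRow, wnd, if_neg (not_le.mpr hi)]; rfl

lemma kRow_E2 {i : ℤ} (hi : i < 0) : kRow (.Z i, 1) = kE2 := by
  rw [kRow, wnd, if_neg (not_le.mpr hi)]; rfl

lemma kRow_H1 {i : ℤ} (hi : 0 ≤ i) : kRow (.H i, 0) = kH1 := by
  rw [kRow, wnd, if_pos hi]; rfl

lemma kRow_H2 {i : ℤ} (hi : 0 ≤ i) : kRow (.H i, 1) = kH2 := by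
  rw [kRow, wnd, if_pos hi]; rfl

lemma kRow_W {i : ℤ} (hi : i < 0) (o : ℕ) : kRow (.H i, o) = kW := by
  rw [kRow, wnd, if_neg (not_le.mpr hi)]; rfl

section

variable {M : Type*} [AddCommMonoid M] {S : Shape}

/-- the nodes of the kind `k` in the class with the vector `js` -/
noncomputable def nodesK (js : List ℤ) (k : Kind) : Finset ℤ :=
  Ico (js.getD k.ia 0) (js.getD k.ib 0)

/-- class of a row, as a natural number -/
def clsN (p : ℕ) (ρ : D.Row) : ℕ := (cls p (dblx ρ.1)).toNat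

/-- index of a row in its class -/
def jdN (p : ℕ) (ρ : D.Row) : ℤ := jdx p (dblx ρ.1)

lemma clsSum_kinds (h3 : S.e3 = 0) (h3' : S.h3 = 0) {u p a : ℤ}
    (V : ℕ → ℤ → M) (G : Kind → ℤ → M) (hV : ∀ w, V w = G (kOf w)) :
    clsSum S u p a V = (kindsF.map fun k => ∑ j ∈ nodesK (jvec (bdS S) u p a) k, G k j).sum := by
  simp only [kindsF, List.map_cons, List.map_nil, List.sum_cons, List.sum_nil, clsSum, hV, kOf]
  simp only [nodesK, kG, kE1, kE2, kH1, kH2, kW, bdS, jvec, List.map_cons, List.map_nil]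
  simp only [List.getD_eq_getElem?_getD, List.getElem?_cons_zero, List.getElem?_cons_succ,
    Option.getD_some, h3, h3', Nat.cast_zero, neg_zero, Finset.Ico_self, Finset.sum_empty,
    zero_add, add_zero]

/-- **the sum over all rows of the design, in terms of the kinds** -/
theorem sum_rows_kinds {u c : ℕ} (hS : S.Good) (h3 : S.e3 = 0) (h3' : S.h3 = 0) {p : ℕ}
    (hp : 0 < p) (hodd : p % 2 = 1) (G : ℕ → Kind → ℤ → M) :
    ∑ x : Lam.Row (Bordx929.mm S u c), G (clsN p (Bordx929.ofRow u c x))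
        (kRow (Bordx929.ofRow u c x)) (jdN p (Bordx929.ofRow u c x)) =
      ∑ a ∈ range p, (kindsF.map fun k => ∑ j ∈ nodesK (jvec (bdS S) u p a) k, G a k j).sum
        + ∑ n ∈ Ico ((S.B * u : ℕ) : ℤ) ((S.B * u + c : ℕ) : ℤ),
          G (cls p (2 * n)).toNat kG (jdx p (2 * n)) := by
  have h := sum_rows_cls (c := c) (u := u) hS hp hodd
    (fun w a j => G a.toNat (kOf w) j)
  refine h.trans ?_
  congr 1
  refine Finset.sum_congr rfl fun a _ => ?_
  rw [clsSum_kinds h3 h3' _ (fun k j => G a k j)]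
  intro w
  funext j
  rw [Int.toNat_natCast]

/-- lower bound: the `c` extra rows cost at most `c * M` -/
theorem sum_rows_kinds_ge {u c : ℕ} (hS : S.Good) (h3 : S.e3 = 0) (h3' : S.h3 = 0) {p : ℕ}
    (hp : 0 < p) (hodd : p % 2 = 1) (G : ℕ → Kind → ℤ → ℤ) {D : ℤ}
    (hD : ∀ a < p, ∀ j, -D ≤ G a kG j) :
    ∑ a ∈ range p, (kindsF.map fun k => ∑ j ∈ nodesK (jvec (bdS S) u p a) k, G a k j).sum - c * D
      ≤ ∑ x : Lam.Row (Bordx929.mm S u c), G (clsN p (Bordx929.ofRow u c x))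
        (kRow (Bordx929.ofRow u c x)) (jdN p (Bordx929.ofRow u c x)) := by
  rw [sum_rows_kinds hS h3 h3' hp hodd]
  have hp' : (0 : ℤ) < p := by exact_mod_cast hp
  have h1 : ∑ _n ∈ Ico ((S.B * u : ℕ) : ℤ) ((S.B * u + c : ℕ) : ℤ), (-D) ≤
      ∑ n ∈ Ico ((S.B * u : ℕ) : ℤ) ((S.B * u + c : ℕ) : ℤ),
        G (cls p (2 * n)).toNat kG (jdx p (2 * n)) := by
    refine Finset.sum_le_sum fun n _ => hD _ ?_ _
    have h2 := cls_nonneg (s := 2 * n) hp'
    have h3 := cls_lt (s := 2 * n) hp'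
    omega
  rw [Finset.sum_const, Int.card_Ico, nsmul_eq_mul] at h1
  have h2 : ((((S.B * u + c : ℕ) : ℤ) - ((S.B * u : ℕ) : ℤ)).toNat : ℤ) = c := by
    push_cast; omega
  rw [h2] at h1
  linarith

end

end Crest.Agent.R006.P8.RowSumx757
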