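import Crest.Agent.R006.GaugeP_555
import Crest.Agent.R006.KapVal_305
import Crest.Agent.R006.KapValid_305
import Crest.Agent.R006.KindsS_305
import Crest.Agent.R006.RowKinds_757

set_option autoImplicit false

/-!
# Row 6, block P4 -> P8: the constants (helper529), on 305's frozen tables

* `rowsG` : the potentials of the rows of a class (`kindsF`);
* `class_le` : row form `≤` gauge form, one class (`classVal`, `refsS`);
* `kapS_le` : `kapS ≤ rowsG - tolls - lam z - refF` for suitable tolls, with a bound of `sX`;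
* `val_den_le` : the valuation of the denominators;
* `const_le` : the sum over the classes;
* `Dm_ge_G`, `Dm_le_F` : bounds of the potentials.
-/

namespace Crest.Agent.R006.P8.Constx529

open Finset Crest.Agent.R006.D Crest.Agent.R006.RefClass555 Crest.Agent.R006.GaugeP555
  Crest.Agent.R006.P8.RowSumx757

/-! ### one class -/

/-- the potentials of the rows of a class -/
noncomputable def rowsG (md : Mode) (js : List ℤ) (lam mu a sX sQ : ℤ) : ℤ :=
  (kindsF.map fun k => ∑ j ∈ nodesK js k, (k.row3 md js j).Dm md lam mu a sX sQ).sum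

/-- the gauge form of the tolls -/
def tollG (md : Mode) (z lam sg sX sQ : ℤ) : ℤ :=
  tri sg + (tri sX + (tri sQ + md.be lam (sg + z)))

/-- number of gauge zeros -/
def zJ (js : List ℤ) : ℤ := cntSum js [(0, 7), (8, 4)]

/-- the superfactorials -/
def refF (js : List ℤ) : ℤ :=
  refSum js [(1, [(0, 10)]), (-1, [(0, 7)]), (1, [(0, 11)]), (1, [(0, 12)])]

theorem refS_eq (js : List ℤ) : refSum js refsS = tri (zJ js - 1) + refF js := by
  simp only [refsS, refSum, refF, zJ]
  ring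

theorem rowsG_mono (md : Mode) (js : List ℤ) (lam mu sX sQ : ℤ) {s t : ℤ} (h : s ≤ t) :
    rowsG md js lam mu s sX sQ ≤ rowsG md js lam mu t sX sQ := by
  unfold rowsG
  refine List.sum_le_sum fun k _ => Finset.sum_le_sum fun j _ => Dm_mono _ _ _ _ _ _ h

theorem row3_cases (k : Kind) (md : Mode) (js : List ℤ) (j : ℤ) (P : Row3 → Prop)
    (h1 : P k.pol) (h2 : P k.polS) (h3 : P k.polC) (h4 : P k.reg) (h5 : P k.regS)
    (h6 : P k.regB) (h7 : P k.regBS) : P (k.row3 md js j) := by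
  cases md with
  | pol =>
    show P (if j = k.j0 then (if k.cond js then k.polC else k.polS) else k.pol)
    by_cases c1 : j = k.j0
    · rw [if_pos c1]
      by_cases c2 : k.cond js = true
      · rw [if_pos c2]; exact h3
      · rw [if_neg c2]; exact h2
    · rw [if_neg c1]; exact h1
  | rA =>
    show P (if j = k.j0 then k.regS else k.reg)
    by_cases c1 : j = k.j0
    · rw [if_pos c1]; exact h5
    · rw [if_neg c1]; exact h4
  | rB =>
    show P (if j = k.j0 then k.regBS else k.regB)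
    by_cases c1 : j = k.j0
    · rw [if_pos c1]; exact h7
    · rw [if_neg c1]; exact h6

theorem kZero_R (ia ib : ℕ) (j0 : ℤ) (md : Mode) (js : List ℤ) (j : ℤ) :
    ((kZero ia ib j0).row3 md js j).R = ⟨0, 0⟩ :=
  row3_cases (kZero ia ib j0) md js j (fun t => t.R = ⟨0, 0⟩) rfl rfl rfl rfl rfl rfl rfl

theorem sum_kZero_le (ia ib : ℕ) (j0 : ℤ) (md : Mode) (js : List ℤ) (lam mu sR sX sQ : ℤ)
    (h : js.getD ia 0 ≤ js.getD ib 0) :
    ∑ j ∈ Ico (js.getD (kZero ia ib j0).ia 0) (js.getD (kZero ia ib j0).ib 0),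
        ((kZero ia ib j0).row3 md js j).Dm md lam mu sR sX sQ
      ≤ (js.getD ib 0 - js.getD ia 0) * (pos sR - lam) := by
  refine (Finset.sum_le_sum (g := fun _ => pos sR - lam) fun j _ =>
    Dm_zero_le md _ (kZero_R ia ib j0 md js j) lam mu sR sX sQ).trans (le_of_eq ?_)
  rw [Finset.sum_const, nsmul_eq_mul, Int.card_Ico]
  have e1 : (kZero ia ib j0).ia = ia := rfl
  have e2 : (kZero ia ib j0).ib = ib := rfl
  rw [e1, e2, Int.toNat_of_nonneg (by linarith)]

/-- **Row form `≤` gauge form, one class.** -/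
theorem class_le (md : Mode) (js : List ℤ) (hjs : ∀ k ∈ kindsS, js.getD k.ia 0 ≤ js.getD k.ib 0)
    (lam mu sR sX sQ : ℤ) (z : ℕ) (hz : (z : ℤ) = zJ js) :
    classVal md kindsS js lam mu sR sX sQ - refSum js refsS
      ≤ rowsG md js lam mu (max (pos sR) z - z + z) sX sQ
        - tollG md z lam (max (pos sR) z - z) sX sQ - lam * z - refF js := by
  have h07 : js.getD 0 0 ≤ js.getD 7 0 := hjs (kZero 0 7 0) (by simp [kindsS])
  have h84 : js.getD 8 0 ≤ js.getD 4 0 := hjs (kZero 8 4 (-1)) (by simp [kindsS])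
  rw [classVal_eq md kindsS js lam mu sR sX sQ hjs, refS_eq, ← hz]
  have hsplit : (kindsS.map fun k => ∑ j ∈ Ico (js.getD k.ia 0) (js.getD k.ib 0),
        (k.row3 md js j).Dm md lam mu sR sX sQ).sum
      = rowsG md js lam mu sR sX sQ
        + (∑ j ∈ Ico (js.getD (kZero 0 7 0).ia 0) (js.getD (kZero 0 7 0).ib 0),
            ((kZero 0 7 0).row3 md js j).Dm md lam mu sR sX sQ
          + ∑ j ∈ Ico (js.getD (kZero 8 4 (-1)).ia 0) (js.getD (kZero 8 4 (-1)).ib 0),
            ((kZero 8 4 (-1)).row3 md js j).Dm md lam mu sR sX sQ) := by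
    rw [kindsS_eq, List.map_append, List.sum_append]
    simp only [rowsG, nodesK, List.map_cons, List.map_nil, List.sum_cons, List.sum_nil, add_zero]
  rw [hsplit]
  have z1 := sum_kZero_le 0 7 0 md js lam mu sR sX sQ h07
  have z2 := sum_kZero_le 8 4 (-1) md js lam mu sR sX sQ h84
  have hzz : (z : ℤ) = (js.getD 7 0 - js.getD 0 0) + (js.getD 4 0 - js.getD 8 0) := by
    rw [hz, zJ]; simp [cntSum]
  have hz3 : (z : ℤ) * (pos sR - lam) = (js.getD 7 0 - js.getD 0 0) * (pos sR - lam)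
      + (js.getD 4 0 - js.getD 8 0) * (pos sR - lam) := by rw [hzz]; ring
  have hT := row_le_gauge (ι := ℕ) md ∅ (fun _ => ⟨⟨0, 0⟩, ⟨0, 0⟩, ⟨0, 0⟩, false⟩) lam mu sR sX sQ z
  rw [Finset.sum_empty, Finset.sum_empty, zero_add, zero_sub] at hT
  have hF := rowsG_mono md js lam mu sX sQ (show sR ≤ max (pos sR) z - z + z by
    rw [sub_add_cancel]
    exact (by simp only [pos_eq]; omega : sR ≤ pos sR).trans (le_max_left _ _))
  unfold tollG
  linarith

/-! ### the candidates -/

/-- a bound of the candidates -/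
def Bt (L : List ℤ) : ℤ := (L.map fun x => |x|).sum

theorem Bt_nonneg (L : List ℤ) : 0 ≤ Bt L := by
  unfold Bt
  refine List.sum_nonneg fun x hx => ?_
  obtain ⟨y, _, rfl⟩ := List.mem_map.mp hx
  exact abs_nonneg y

theorem abs_le_Bt {L : List ℤ} {x : ℤ} (h : x ∈ L) : |x| ≤ Bt L := by
  induction L with
  | nil => cases h
  | cons y L ih =>
    have e : Bt (y :: L) = |y| + Bt L := by simp [Bt]
    rw [e]
    rcases List.mem_cons.mp h with rfl | h
    · have := Bt_nonneg L
      linarith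
    · have := ih h
      have := abs_nonneg y
      linarith

theorem bestOf_mem' (f : ℤ → ℤ → ℤ → ℤ) :
    ∀ L : List ℤ, ∃ p r q, bestOf f L = f p r q ∧ |p| ≤ Bt L
  | p :: r :: q :: L => by
    obtain ⟨p', r', q', h, hb⟩ := bestOf_mem' f L
    have e : Bt (p :: r :: q :: L) = |p| + (|r| + (|q| + Bt L)) := by simp [Bt]
    have h1 := abs_nonneg r
    have h2 := abs_nonneg q
    have h3 := abs_nonneg p
    have h4 := Bt_nonneg L
    rcases le_total (f p r q) (bestOf f L) with h5 | h5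
    · exact ⟨p', r', q', by rw [bestOf, max_eq_right h5, h], by rw [e]; linarith⟩
    · exact ⟨p, r, q, by rw [bestOf, max_eq_left h5], by rw [e]; linarith⟩
  | [] => ⟨0, 0, 0, rfl, by simpa using Bt_nonneg []⟩
  | [x] => ⟨0, 0, 0, rfl, by simpa using Bt_nonneg [x]⟩
  | [x, y] => ⟨0, 0, 0, rfl, by simpa using Bt_nonneg [x, y]⟩

/-- `kapK_spec` with a bound of `sX` -/
theorem kapK_spec' (ks : List Kind) (refs : List (ℤ × List (ℕ × ℕ))) (ip : ℕ) (lam mu : ℤ)
    (L js : List ℤ) :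
    ∃ md : Mode, (md = .pol ↔ js.getD ip 0 = 0) ∧ ∃ sR sX sQ, |sX| ≤ Bt L ∧
      kapK ks refs ip (lam :: mu :: L) js
        = classVal md ks js lam mu sR sX sQ - refSum js refs := by
  by_cases h : js.getD ip 0 = 0
  · obtain ⟨p, r, q, h1, hb⟩ := bestOf_mem'
      (fun p r q => polVal ks js lam mu (p + lam + 2 + r) p (p + mu + q)) L
    exact ⟨.pol, ⟨fun _ => h, fun _ => rfl⟩, _, _, _, hb, by rw [kapK, if_pos h, h1, classVal]⟩
  · obtain ⟨p, r, q, h1, hb⟩ := bestOf_mem'
      (fun p r q => regVal ks js lam mu (p + lam - 1 + r) p (p + mu - 2 + q)) L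
    obtain ⟨p', r', q', h2, hb'⟩ := bestOf_mem'
      (fun p r q => regValB ks js lam mu (p + lam - 1 + r) p (p + mu - 2 + q)) L
    rcases le_total (regVal ks js lam mu (p + lam - 1 + r) p (p + mu - 2 + q))
      (regValB ks js lam mu (p' + lam - 1 + r') p' (p' + mu - 2 + q')) with h3 | h3
    · exact ⟨.rB, ⟨(fun hh => Mode.noConfusion hh), fun hh => absurd hh h⟩, _, _, _, hb', by
        rw [kapK, if_neg h, h1, h2, max_eq_right h3, classVal]⟩
    · exact ⟨.rA, ⟨(fun hh => Mode.noConfusion hh), fun hh => absurd hh h⟩, _, _, _, hb, by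
        rw [kapK, if_neg h, h1, h2, max_eq_left h3, classVal]⟩

/-- **`kapS` is bounded by the gauge form of a certificate.** -/
theorem kapS_le (lam mu : ℤ) (L js : List ℤ)
    (hjs : ∀ k ∈ kindsS, js.getD k.ia 0 ≤ js.getD k.ib 0) (z : ℕ) (hz : (z : ℤ) = zJ js) :
    ∃ (md : Mode) (sg sX sQ : ℤ), 0 ≤ sg ∧ |sX| ≤ Bt L ∧ (md = .pol ↔ js.getD 4 0 = 0) ∧
      kapS (lam :: mu :: L) js
        ≤ rowsG md js lam mu (sg + z) sX sQ - tollG md z lam sg sX sQ - lam * z - refF js := by
  obtain ⟨md, hmd, sR, sX, sQ, hb, h⟩ := kapK_spec' kindsS refsS ipS lam mu L js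
  refine ⟨md, max (pos sR) z - z, sX, sQ, ?_, hb, hmd, ?_⟩
  · have := le_max_right (pos sR) (z : ℤ)
    linarith
  · rw [kapS, h]
    exact class_le md js hjs lam mu sR sX sQ z hz

/-! ### bounds of the potentials -/

theorem Cst.le_val (c : Cst) (s : ℤ) : c.a ≤ c.val s := by
  have := pos_nonneg (s - c.b)
  simp only [Cst.val]; linarith

theorem Dm_ge (md : Mode) (t : Row3) (lam mu sR sX sQ a : ℤ) (hR : a ≤ t.R.a) (hX : a ≤ t.X.a)
    (hQ : a ≤ t.Q.a) : a - (|lam| + |mu|) ≤ t.Dm md lam mu sR sX sQ := by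
  have h1 := Cst.le_val t.R sR
  have h2 := Cst.le_val t.X sX
  have h3 := Cst.le_val t.Q sQ
  have h4 := le_abs_self lam
  have h5 := le_abs_self mu
  have h6 := abs_nonneg lam
  have h7 := abs_nonneg mu
  have hD : a - (|lam| + |mu|) ≤ t.D lam mu sR sX sQ := by
    simp only [Row3.D]
    refine le_min (by linarith) (le_min (by linarith) (by linarith))
  cases md with
  | rB =>
    simp only [Row3.Dm, Row3.DB]
    have h8 := Cst.le_val t.X (max sX (pos sR + 1))
    have h9 := Cst.le_val t.X (pos sX)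
    have h10 := pos_nonneg sR
    refine le_min hD ?_
    split_ifs <;> linarith
  | _ => exact hD

/-- the `G`-rows, from below -/
theorem Dm_ge_G (md : Mode) (js : List ℤ) (j lam mu sR sX sQ : ℤ) :
    -(2 + |lam| + |mu|) ≤ (kG.row3 md js j).Dm md lam mu sR sX sQ := by
  have key : ∀ t : Row3, -2 ≤ t.R.a → -2 ≤ t.X.a → -2 ≤ t.Q.a →
      -(2 + |lam| + |mu|) ≤ t.Dm md lam mu sR sX sQ := by
    intro t h1 h2 h3
    have := Dm_ge md t lam mu sR sX sQ (-2) h1 h2 h3
    linarith
  have h := row3_cases kG md js j (fun t => -2 ≤ t.R.a ∧ -2 ≤ t.X.a ∧ -2 ≤ t.Q.a)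
    (by decide) (by decide) (by decide) (by decide) (by decide) (by decide) (by decide)
  exact key _ h.1 h.2.1 h.2.2

theorem Dm_le_X' (md : Mode) (t : Row3) (lam mu sR sX sQ : ℤ) :
    t.Dm md lam mu sR sX sQ ≤ t.X.val sX := by
  have h : t.D lam mu sR sX sQ ≤ t.X.val sX := (min_le_right _ _).trans (min_le_left _ _)
  cases md with
  | rB => exact (DB_le_D _ _ _ _ _ _).trans h
  | _ => exact h

/-- all rows, from above -/
theorem Dm_le_F (md : Mode) (js : List ℤ) (k : Kind) (hk : k ∈ kindsF) (j lam mu sR sX sQ : ℤ) :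
    (k.row3 md js j).Dm md lam mu sR sX sQ ≤ 1 + |sX| := by
  have key : ∀ t : Row3, t.X.a ≤ 1 → 0 ≤ t.X.b → t.Dm md lam mu sR sX sQ ≤ 1 + |sX| := by
    intro t h1 h2
    have h3 := Dm_le_X' md t lam mu sR sX sQ
    have h4 : pos (sX - t.X.b) ≤ |sX| := by
      rw [pos_eq]
      refine max_le ?_ (abs_nonneg _)
      have := le_abs_self sX
      linarith
    simp only [Cst.val] at h3
    linarith
  have hk' : k = kG ∨ k = kE1 ∨ k = kE2 ∨ k = kH1 ∨ k = kH2 ∨ k = kW := by
    simpa [kindsF] using hk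
  have h : (k.row3 md js j).X.a ≤ 1 ∧ 0 ≤ (k.row3 md js j).X.b := by
    rcases hk' with rfl | rfl | rfl | rfl | rfl | rfl <;>
      exact row3_cases _ md js j (fun t => t.X.a ≤ 1 ∧ 0 ≤ t.X.b)
        (by decide) (by decide) (by decide) (by decide) (by decide) (by decide) (by decide)
  exact key _ h.1 h.2

/-! ### the entries of the `j`-vector -/

section jv

variable (S : Shape) (u p c : ℤ)

theorem js0 : (jvec (bdS S) u p c).getD 0 0 = jst 0 0 u p c := rfl
theorem js1 : (jvec (bdS S) u p c).getD 1 0 = jst S.B 0 u p c := rfl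
theorem js2 : (jvec (bdS S) u p c).getD 2 0 = jst (-S.e1) 0 u p c := rfl
theorem js3 : (jvec (bdS S) u p c).getD 3 0 = jst (-S.e2) 0 u p c := rfl
theorem js4 : (jvec (bdS S) u p c).getD 4 0 = jst 0 1 u p c := rfl
theorem js5 : (jvec (bdS S) u p c).getD 5 0 = jst S.h1 1 u p c := rfl
theorem js6 : (jvec (bdS S) u p c).getD 6 0 = jst S.h2 1 u p c := rfl
theorem js7 : (jvec (bdS S) u p c).getD 7 0 = jst S.a1 0 u p c := rfl
theorem js8 : (jvec (bdS S) u p c).getD 8 0 = jst (-S.i1) 1 u p c := rfl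
theorem js9 : (jvec (bdS S) u p c).getD 9 0 = jst (-S.w) 1 u p c := rfl
theorem js10 : (jvec (bdS S) u p c).getD 10 0 = jst (S.a1 + S.k) 0 u p c := rfl
theorem js11 : (jvec (bdS S) u p c).getD 11 0 = jst S.q 0 u p c := rfl
theorem js12 : (jvec (bdS S) u p c).getD 12 0 = jst S.g 0 u p c := rfl

end jv

theorem js_mono (S : Shape) {u p c : ℤ} (hp : 0 < p) (hu : 0 ≤ u) :
    ∀ k ∈ kindsS, (jvec (bdS S) u p c).getD k.ia 0 ≤ (jvec (bdS S) u p c).getD k.ib 0 := by
  intro k hk
  have hk' : k = kG ∨ k = kE1 ∨ k = kE2 ∨ k = kH1 ∨ k = kH2 ∨ k = kW ∨ k = kZero 0 7 0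
      ∨ k = kZero 8 4 (-1) := by simpa [kindsS] using hk
  rcases hk' with rfl | rfl | rfl | rfl | rfl | rfl | rfl | rfl
  · exact (js0 S u p c).le.trans ((P8.jst_mono hp hu (by positivity)).trans (js1 S u p c).ge)
  · exact (js2 S u p c).le.trans ((P8.jst_mono hp hu (by simp)).trans (js0 S u p c).ge)
  · exact (js3 S u p c).le.trans ((P8.jst_mono hp hu (by simp)).trans (js0 S u p c).ge)
  · exact (js4 S u p c).le.trans ((P8.jst_mono hp hu (by positivity)).trans (js5 S u p c).ge)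
  · exact (js4 S u p c).le.trans ((P8.jst_mono hp hu (by positivity)).trans (js6 S u p c).ge)
  · exact (js9 S u p c).le.trans ((P8.jst_mono hp hu (by simp)).trans (js4 S u p c).ge)
  · exact (js0 S u p c).le.trans ((P8.jst_mono hp hu (by positivity)).trans (js7 S u p c).ge)
  · exact (js8 S u p c).le.trans ((P8.jst_mono hp hu (by simp)).trans (js4 S u p c).ge)

/-! ### sums over the classes -/

theorem card_win (A B h N : ℤ) (hh : h = 0 ∨ h = 1) (hAB : A * N ≤ B * N) :
    ((win A B h N).card : ℤ) = B * N - A * N := by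
  rcases hh with rfl | rfl
  · rw [win_int, Finset.card_image_of_injective _ (by intro a b h; simpa using h), Int.card_Ico]
    omega
  · rw [win_half, Finset.card_image_of_injective _ (by intro a b h; simpa using h), Int.card_Ico]
    omega

theorem sum_jst {A B h : ℤ} {u p : ℕ} (hp : 0 < p) (hodd : p % 2 = 1) (hh : h = 0 ∨ h = 1)
    (hAB : A ≤ B) :
    ∑ c ∈ range p, (jst B h u p c - jst A h u p c) = (B - A) * u := by
  have h1 := sum_window_class (A := A) (B := B) (h := h) (N := (u : ℤ)) hp hodd hh (by positivity)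
    hAB (fun _ => 1)
  have h2 := card_win A B h u hh (mul_le_mul_of_nonneg_right hAB (by positivity))
  rw [Finset.sum_const, nsmul_eq_mul, mul_one, h2] at h1
  simp only [mul_one] at h1
  rw [← h1]; ring

theorem sum_zc (S : Shape) (u p : ℕ) (hp : 0 < p) (hodd : p % 2 = 1) :
    ∑ c ∈ range p, (zc S u p c : ℤ) = (S.a1 + S.a2 + S.i1 + S.r1 : ℕ) * u := by
  have h1 : ∀ c ∈ range p, (zc S u p c : ℤ) = (jst S.a2 0 u p c - jst 0 0 u p c)
      + (jst 0 1 u p c - jst (-(S.i1 : ℤ)) 1 u p c) + (jst 0 0 u p c - jst (-(S.r1 : ℤ)) 0 u p c)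
      + (jst S.a1 0 u p c - jst 0 0 u p c) := by
    intro c hc
    have hcp : (c : ℤ) < p := by exact_mod_cast Finset.mem_range.mp hc
    rw [zc_eq S u p c (by positivity) hcp hodd, jst_zero u p c (by positivity) hcp]
    ring
  rw [Finset.sum_congr rfl h1, Finset.sum_add_distrib, Finset.sum_add_distrib,
    Finset.sum_add_distrib, sum_jst hp hodd (Or.inl rfl) (by positivity),
    sum_jst hp hodd (Or.inr rfl) (by simp), sum_jst hp hodd (Or.inl rfl) (by simp),
    sum_jst hp hodd (Or.inl rfl) (by positivity)]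
  push_cast
  ring

theorem tri_sub_one {x : ℤ} (hx : 0 ≤ x) : tri (x - 1) = x * (x - 1) / 2 := by
  have h := two_tri (x := x - 1) (by linarith)
  have h2 : x * (x - 1) = 2 * tri (x - 1) := by rw [h]; ring
  rw [h2, Int.mul_ediv_cancel_left _ (by norm_num)]

theorem zJ_jvec {S : Shape} (ha2 : S.a2 = 0) (hr1 : S.r1 = 0) {u p c : ℕ} (hc : c < p)
    (hodd : p % 2 = 1) : zJ (jvec (bdS S) u p c) = (zc S u p c : ℤ) := by
  have hcp : (c : ℤ) < p := by exact_mod_cast hc
  have h0 := jst_zero u p c (by positivity) hcp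
  rw [zc_eq S u p c (by positivity) hcp hodd, ha2, hr1, zJ]
  simp only [cntSum, js0, js7, js4, js8, Nat.cast_zero, neg_zero, h0]
  ring

theorem refF_jvec (S : Shape) {u p c : ℕ} (hc : c < p) :
    refF (jvec (bdS S) u p c)
      = (jst (S.a1 + S.k : ℕ) 0 u p c * (jst (S.a1 + S.k : ℕ) 0 u p c - 1) / 2
            - jst S.a1 0 u p c * (jst S.a1 0 u p c - 1) / 2)
          + (jst S.q 0 u p c * (jst S.q 0 u p c - 1) / 2
            + jst S.g 0 u p c * (jst S.g 0 u p c - 1) / 2) := by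
  have hp : (0 : ℤ) < p := by exact_mod_cast (show 0 < p by omega)
  have hu : (0 : ℤ) ≤ u := by positivity
  have hcp : (c : ℤ) < p := by exact_mod_cast hc
  have h0 := jst_zero u p c (by positivity) hcp
  have hnn : ∀ A : ℤ, 0 ≤ A → 0 ≤ jst A 0 u p c := fun A hA => by
    have := P8.jst_mono (c := c) (h := 0) hp hu hA
    rwa [h0] at this
  rw [refF]
  simp only [refSum, cntSum, js0, js10, js7, js11, js12, h0, sub_zero, add_zero, one_mul]
  push_cast
  rw [tri_sub_one (hnn _ (by positivity)), tri_sub_one (hnn _ (by positivity)),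
    tri_sub_one (hnn _ (by positivity)), tri_sub_one (hnn _ (by positivity))]
  ring

/-! ### the gauge factorials -/

theorem fact_le {a u p : ℕ} [hp : Fact p.Prime] (hu : 0 < u) (hap : a * u < p ^ 2) {su sv : ℤ}
    (hsu : 0 < su) (hsv : 0 < sv) (hsp : su * u < sv * p) :
    ((padicValNat p (a * u).factorial : ℕ) : ℤ) ≤ max 0 ((a * sv - 1) / su) := by
  have hpp := hp.out.pos
  set f := a * u / p with hf
  have h1 : f * p ≤ a * u := Nat.div_mul_le_self _ _
  have h2 : a * u < (f + 1) * p := by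
    have := Nat.lt_div_mul_add (a := a * u) hpp
    rw [← hf] at this
    linarith
  have h3 : f < p := by
    rw [hf, Nat.div_lt_iff_lt_mul hpp]
    nlinarith
  rw [val_factorial_strip p (a * u) f h1 h2 h3]
  rcases Nat.eq_zero_or_pos f with h0 | h0
  · rw [h0]; exact le_max_left _ _
  · refine le_max_of_le_right ?_
    rw [Int.le_ediv_iff_mul_le hsu]
    have h1z : (f : ℤ) * p ≤ a * u := by exact_mod_cast h1
    have hfz : (0 : ℤ) < f := by exact_mod_cast h0
    have huz : (0 : ℤ) < u := by exact_mod_cast hu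
    have h4 : (f : ℤ) * su * u < a * sv * u := by
      have e1 : (f : ℤ) * (su * u) < f * (sv * p) := mul_lt_mul_of_pos_left hsp hfz
      have e2 : sv * (f * p) ≤ sv * (a * u) := mul_le_mul_of_nonneg_left h1z hsv.le
      nlinarith
    have h5 := lt_of_mul_lt_mul_right h4 huz.le
    linarith [Int.add_one_le_iff.mpr h5]

/-- the windows are shorter than `p^2` -/
structure WinOK (S : Shape) (u p : ℕ) : Prop where
  ak : (S.a1 + S.k) * u ≤ p ^ 2
  q : S.q * u ≤ p ^ 2
  g : S.g * u ≤ p ^ 2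
  i1 : S.i1 * u < p ^ 2

/-- **the valuation of the denominators** -/
theorem val_den_le {S : Shape} (ha2 : S.a2 = 0) (hr1 : S.r1 = 0) {u p : ℕ}
    [hp : Fact p.Prime] (hu : 0 < u) (hW : WinOK S u p) {su sv : ℤ} (hsu : 0 < su)
    (hsv : 0 < sv) {gc : ℤ} (hgc : max 0 ((S.i1 * sv - 1) / su) ≤ gc) (hsp : su * u < sv * p) :
    ((padicValNat p (den S u) : ℕ) : ℤ)
      ≤ ∑ c ∈ range p, refF (jvec (bdS S) u p c) + S.k * gc * u := by
  rw [val_den S u p hW.ak hW.q hW.g,
    Finset.sum_congr rfl fun c hc => refF_jvec S (Finset.mem_range.mp hc)]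
  have h2 := fact_le hu hW.i1 hsu hsv hsp
  have h5 : (((padicValNat p (S.a2 * u).factorial + padicValNat p (S.i1 * u).factorial
      + padicValNat p (S.r1 * u).factorial : ℕ)) : ℤ) ≤ gc := by
    rw [ha2, hr1, Nat.zero_mul, Nat.factorial_zero, padicValNat_one_right, zero_add, add_zero]
    linarith
  have h6 := mul_le_mul_of_nonneg_left h5 (show (0 : ℤ) ≤ ((S.k * u : ℕ) : ℤ) by positivity)
  push_cast at h6 ⊢
  linarith

theorem jst_pol {u p a : ℕ} (hp : 0 < p) : jst 0 1 u p a = 0 ↔ 2 * a < p := by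
  have hp' : (0 : ℤ) < p := by exact_mod_cast hp
  have h1 : jst 0 1 u p a ≤ 0 := by
    rw [P8.jst_le_iff hp']
    have : (0 : ℤ) ≤ a := by positivity
    nlinarith
  have h2 : -1 < jst 0 1 u p a ↔ 2 * a < p := by
    rw [P8.lt_jst_iff hp']
    constructor
    · intro h
      have : 2 * (a : ℤ) < p := by linarith
      exact_mod_cast this
    · intro h
      have : 2 * (a : ℤ) < p := by exact_mod_cast h
      linarith
  rw [← h2]
  omega

/-- **The sum over the classes.** -/
theorem const_le {S : Shape} (ha2 : S.a2 = 0) (hr1 : S.r1 = 0)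
    {u p : ℕ} [hp : Fact p.Prime] (hp2 : p ≠ 2) (hu : 0 < u) (hW : WinOK S u p)
    (lam mu gc : ℤ) (L : List ℤ) {su sv : ℤ} (hsu : 0 < su) (hsv : 0 < sv)
    (hgc : max 0 ((S.i1 * sv - 1) / su) ≤ gc) (hsp : su * u < sv * p) :
    ∃ (dec : ℕ → Mode) (sg sX sQ : ℕ → ℤ),
      (∀ a < p, dec a = .pol ↔ 2 * a < p) ∧ (∀ a, 0 ≤ sg a) ∧ (∀ a, |sX a| ≤ Bt L) ∧
      ∑ a ∈ range p, kapS (lam :: mu :: L) (jvec (bdS S) u p a)
          + (lam * (S.k + S.a1 + S.i1) + mu * S.g - S.k * gc) * u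
        ≤ lam * (S.k * u : ℕ) + mu * (S.g * u : ℕ)
          + (∑ a ∈ range p, rowsG (dec a) (jvec (bdS S) u p a) lam mu
              (sg a + zc S u p a) (sX a) (sQ a)
            - ∑ a ∈ range p, tollG (dec a) (zc S u p a) lam (sg a) (sX a) (sQ a))
          - (padicValNat p (den S u) : ℕ) := by
  have hpp := hp.out.pos
  have hodd : p % 2 = 1 := (hp.out.eq_two_or_odd).resolve_left hp2
  have hpz : (0 : ℤ) < p := by exact_mod_cast hpp
  have huz : (0 : ℤ) ≤ u := by positivity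
  have key : ∀ a : ℕ, ∃ x : Mode × ℤ × ℤ × ℤ, 0 ≤ x.2.1 ∧ |x.2.2.1| ≤ Bt L ∧
      (a < p → (x.1 = .pol ↔ 2 * a < p) ∧
      kapS (lam :: mu :: L) (jvec (bdS S) u p a) ≤ rowsG x.1 (jvec (bdS S) u p a) lam mu
          (x.2.1 + zc S u p a) x.2.2.1 x.2.2.2
        - tollG x.1 (zc S u p a) lam x.2.1 x.2.2.1 x.2.2.2 - lam * zc S u p a
        - refF (jvec (bdS S) u p a)) := by
    intro a
    by_cases ha : a < p
    · obtain ⟨d, sg, sX, sQ, k1, k2, k3, k4⟩ := kapS_le lam mu L (jvec (bdS S) u p a)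
        (js_mono S hpz huz) (zc S u p a) (zJ_jvec ha2 hr1 ha hodd).symm
      rw [js4, jst_pol hpp] at k3
      exact ⟨(d, sg, sX, sQ), k1, k2, fun _ => ⟨k3, k4⟩⟩
    · exact ⟨(.pol, 0, 0, 0), le_rfl, by simpa using Bt_nonneg L, fun h => absurd h ha⟩
  choose x hx1 hx2 hx using key
  refine ⟨fun c => (x c).1, fun c => (x c).2.1, fun c => (x c).2.2.1, fun c => (x c).2.2.2,
    fun a ha => (hx a ha).1, hx1, hx2, ?_⟩
  have h1 := Finset.sum_le_sum fun c hc => (hx c (Finset.mem_range.mp hc)).2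
  rw [Finset.sum_sub_distrib, Finset.sum_sub_distrib, Finset.sum_sub_distrib, ← Finset.mul_sum,
    sum_zc S u p hpp hodd, ha2, hr1] at h1
  have h2 := val_den_le ha2 hr1 hu hW hsu hsv hgc hsp
  push_cast at h1 h2 ⊢
  linarith

end Crest.Agent.R006.P8.Constx529
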