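import Crest.Agent.R006.P4Top_814
import Crest.Agent.R006.P4Const_529
import Crest.Agent.R006.Shape_378

set_option autoImplicit false

/-!
# Row 6, block P4: the class form from the matrix side (helper814)

`constLe_of` : 529's `const_le` in the form `ConstLe`;
`classForm_of_side` : `MatrixSide` gives 365's `ClassForm` for all lists of strips.
-/

namespace Crest.Agent.R006.P4If

open Polynomial Filter Finset Crest.Agent.R006.D Crest.Agent.R006.P8 Crest.Agent.R006.Bordx929
  Crest.Agent.R006.P4Asmx814 Crest.Agent.R006.P4Toll961 Crest.Agent.R006.GaugeP555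
  Crest.Agent.R006.P8.RowSumx757

lemma classF_eq {S : Shape} {u p : ℕ} {dec : ℕ → Mode} {lam mu : ℤ} {sg sX sQ : ℕ → ℤ}
    (hp : 0 < p) (a : ℕ) : classF S u p dec lam mu sg sX sQ a =
      Constx529.rowsG (dec a) (jvec (bdS S) u p a) lam mu (sg a + zc S u p a) (sX a) (sQ a) := by
  rw [classF, kindSum_eq _ _ _ _ _ fun k hk => le_of_mem_kindsF hk hp, Constx529.rowsG]
  congr 1
  refine List.map_congr_left fun k _ => ?_
  refine Finset.sum_congr rfl fun j _ => ?_
  have h := tabK_eq (dec a) k (jvec (bdS S) u p a) j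
  simp only [tabK] at h
  rw [h]
  split_ifs <;> rfl

theorem constLe_of {S : Shape} (ha2 : S.a2 = 0) (hr1 : S.r1 = 0) {s : St} (hu : 0 < s.u)
    (hv : 0 < s.v) (hgc : gcOK S s = true) (hlen : 3 ≤ s.t.length) : ∃ B, ConstLe S s B := by
  obtain ⟨lam, mu, gc, L, ht⟩ : ∃ lam mu gc L, s.t = lam :: mu :: gc :: L := by
    match h : s.t with
    | [] => simp [h] at hlen
    | [_] => simp [h] at hlen
    | [_, _] => simp [h] at hlen
    | lam :: mu :: gc :: L => exact ⟨lam, mu, gc, L, rfl⟩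
  refine ⟨Constx529.Bt L, lam, mu, ?_⟩
  have hgc' : max 0 ((S.i1 * s.v - 1) / s.u) ≤ gc := by
    have := of_decide_eq_true hgc
    rwa [ht] at this
  have huR : (0 : ℝ) < s.u := by exact_mod_cast hu
  have hvR : (0 : ℝ) < s.v := by exact_mod_cast hv
  set x : ℝ := (s.u : ℝ) / s.v with hx
  have hx0 : 0 < x := by positivity
  set K : ℕ := S.a1 + S.k + S.q + S.g + S.i1 with hK
  filter_upwards [(tendsto_natCast_atTop_atTop (R := ℝ)).eventually_ge_atTop (3 / x),
    (tendsto_natCast_atTop_atTop (R := ℝ)).eventually_ge_atTop (K / x ^ 2),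
    eventually_gt_atTop 0] with u h3 hKu hu0 p hp hlo
  haveI : Fact p.Prime := ⟨hp⟩
  have hu0R : (0 : ℝ) < u := by exact_mod_cast hu0
  rw [div_le_iff₀ hx0] at h3
  rw [div_le_iff₀ (by positivity)] at hKu
  have hp3 : 3 < p := by
    have : (3 : ℝ) < p := by linarith
    exact_mod_cast this
  have hKp : K * u < p ^ 2 := by
    have h1 : (K : ℝ) * u ≤ (x * u) ^ 2 := by
      have := mul_le_mul_of_nonneg_right hKu hu0R.le
      nlinarith
    have h2 : (x * u) ^ 2 < (p : ℝ) ^ 2 := pow_lt_pow_left₀ hlo (by positivity) two_ne_zero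
    have h4 : ((K * u : ℕ) : ℝ) < ((p ^ 2 : ℕ) : ℝ) := by push_cast; linarith
    exact_mod_cast h4
  have hW : Constx529.WinOK S u p := by
    constructor
    · exact (Nat.mul_le_mul_right u (by omega)).trans hKp.le
    · exact (Nat.mul_le_mul_right u (by omega)).trans hKp.le
    · exact (Nat.mul_le_mul_right u (by omega)).trans hKp.le
    · exact lt_of_le_of_lt (Nat.mul_le_mul_right u (by omega)) hKp
  have hsp : s.u * u < s.v * p := by
    rw [hx, div_mul_eq_mul_div, div_lt_iff₀ hvR] at hlo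
    have : (s.u : ℝ) * u < s.v * p := by linarith
    exact_mod_cast this
  obtain ⟨dec, sg, sX, sQ, h1, _, h5, h6⟩ := Constx529.const_le ha2 hr1 (by omega) hu0 hW lam mu gc
    L hu hv hgc' hsp
  refine ⟨dec, sg, sX, sQ, ⟨h1⟩, fun a => (le_abs_self _).trans (h5 a), ?_⟩
  refine le_trans (le_of_eq ?_) (h6.trans (le_of_eq ?_))
  · rw [ht]
    rfl
  · rw [Finset.sum_sub_distrib, Finset.sum_congr rfl fun a _ => classF_eq hp.pos a]
    rfl

/-- **P4 for all lists of strips.** -/
theorem classForm_of_side {S : Shape} (hS : S.Good) (h3 : S.e3 = 0) (h3' : S.h3 = 0)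
    (ha2 : S.a2 = 0) (hr1 : S.r1 = 0) {c C1 : ℕ} (hMS : MatrixSide S c C1) {L : List St}
    (hL : ∀ s ∈ L.dropLast, 0 < s.u ∧ 0 < s.v ∧ gcOK S s = true ∧ 3 ≤ s.t.length) :
    ClassForm S c (bdS S) kapT (extT S) L := by
  refine classForm_of hS h3 h3' hMS ?_
  intro s s' hss
  have hmem : s ∈ L.dropLast := by
    obtain ⟨A, B, rfl⟩ := hss
    have : A ++ [s, s'] ++ B = (A ++ [s]) ++ (s' :: B) := by simp
    rw [this, List.dropLast_append_of_ne_nil (by simp)]
    simp
  obtain ⟨h1, h2, h4, h5⟩ := hL s hmem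
  refine ⟨?_, constLe_of ha2 hr1 h1 h2 h4 h5⟩
  have hu : (0 : ℝ) < s.u := by exact_mod_cast h1
  have hv : (0 : ℝ) < s.v := by exact_mod_cast h2
  positivity

/-- **P4 for the frozen shape.** -/
theorem classForm_SN {C1 : ℕ} (hMS : MatrixSide SN 40 C1) {L : List St}
    (hL : ∀ s ∈ L.dropLast, 0 < s.u ∧ 0 < s.v ∧ gcOK SN s = true ∧ 3 ≤ s.t.length) :
    ClassForm SN 40 (bdS SN) kapT (extT SN) L :=
  classForm_of_side SN_good rfl rfl rfl rfl hMS hL

end Crest.Agent.R006.P4If
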