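import Crest.Agent.R006.P5b_Core_481

set_option autoImplicit false

/-!
# Row 6, block P5b: closed form of the loss on the small strip (helper481)

`p` odd, classes `Fin p`, a class is polar iff `2 c < p`.  `z c` = number of gauge zeros in the
class.  The factorial normalisation of the bases against the certificate of `P5b_Core_481`.
-/

namespace Crest.Agent.R006.P5b

open Finset

/-! ### floor sums -/

/-- `∑_{l<n} ⌊(a+l)/p⌋` is at most the smooth value plus `p/8` -/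
lemma floor_prim (p : ℕ) (hp : 0 < p) (n : ℕ) :
    ((n : ℝ) ^ 2 / p - n) / 2 ≤ ((∑ l ∈ range n, l / p : ℕ) : ℝ) ∧
      ((∑ l ∈ range n, l / p : ℕ) : ℝ) ≤ ((n : ℝ) ^ 2 / p - n) / 2 + p / 8 := by
  have hp' : (0 : ℝ) < p := by exact_mod_cast hp
  -- exact value
  have hex : ∀ n : ℕ, (2 * ((∑ l ∈ range n, l / p : ℕ) : ℝ)) =
      ((n / p : ℕ) : ℝ) * (2 * n - p * ((n / p : ℕ) : ℝ) - p) := by
    intro n
    induction n with
    | zero => simp
    | succ n ih =>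
      rw [Finset.sum_range_succ]
      push_cast
      rw [mul_add]
      push_cast at ih
      rw [ih]
      by_cases h : p ∣ n + 1
      · have h1 : (n + 1) / p = n / p + 1 := by
          rw [Nat.succ_div, if_pos h]
        have h2 : p * (n / p + 1) = n + 1 := by
          rw [← h1]; exact Nat.mul_div_cancel' h
        have h3 : (p : ℝ) * (((n / p : ℕ) : ℝ) + 1) = n + 1 := by exact_mod_cast h2
        rw [h1]
        push_cast
        have : (n : ℝ) = p * (((n / p : ℕ) : ℝ) + 1) - 1 := by linarith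
        rw [this]; ring
      · have h1 : (n + 1) / p = n / p := by
          rw [Nat.succ_div, if_neg h]; simp
        rw [h1]
        ring
  have h := hex n
  obtain ⟨t, ht⟩ : ∃ t : ℝ, t = ((n / p : ℕ) : ℝ) := ⟨_, rfl⟩
  rw [← ht] at h
  have hmod : (n : ℝ) = p * t + ((n % p : ℕ) : ℝ) := by
    rw [ht]; exact_mod_cast (Nat.div_add_mod n p).symm
  set r : ℝ := ((n % p : ℕ) : ℝ) with hr
  have hr0 : 0 ≤ r := Nat.cast_nonneg _
  have hrp : r ≤ p := by
    have := (Nat.mod_lt n hp).le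
    rw [hr]; exact_mod_cast this
  have hval : ((∑ l ∈ range n, l / p : ℕ) : ℝ) = ((n : ℝ) ^ 2 / p - n) / 2 + r * (p - r) / (2 * p) := by
    have : ((∑ l ∈ range n, l / p : ℕ) : ℝ) = t * (2 * n - p * t - p) / 2 := by linarith
    rw [this, hmod]
    field_simp
    ring
  rw [hval]
  constructor
  · have : 0 ≤ r * (p - r) / (2 * p) := by
      apply div_nonneg _ (by positivity)
      exact mul_nonneg hr0 (by linarith)
    linarith
  · have : r * (p - r) / (2 * p) ≤ p / 8 := by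
      rw [div_le_div_iff₀ (by positivity) (by norm_num)]
      nlinarith [sq_nonneg (p - 2 * r)]
    linarith

lemma floor_shift (p : ℕ) (hp : 0 < p) (a n : ℕ) :
    ((∑ l ∈ range n, (a + l) / p : ℕ) : ℝ) ≤
      ((n : ℝ) ^ 2 + 2 * a * n) / (2 * p) - n / 2 + p / 8 := by
  have hp' : (0 : ℝ) < p := by exact_mod_cast hp
  have h1 := (floor_prim p hp (a + n)).2
  have h2 := (floor_prim p hp a).1
  have h3 : ((∑ l ∈ range (a + n), l / p : ℕ) : ℝ) =
      ((∑ l ∈ range a, l / p : ℕ) : ℝ) + ((∑ l ∈ range n, (a + l) / p : ℕ) : ℝ) := by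
    rw [Finset.sum_range_add, Nat.cast_add]
  rw [h3, Nat.cast_add] at h1
  have h4 : (((a : ℝ) + n) ^ 2 / p - (a + n)) / 2 - ((a : ℝ) ^ 2 / p - a) / 2 =
      ((n : ℝ) ^ 2 + 2 * a * n) / (2 * p) - n / 2 := by
    field_simp
    ring
  linarith

lemma floor_fract (p : ℕ) (w : ℕ) :
    ((w / p : ℕ) : ℝ) = (w : ℝ) / p - Int.fract ((w : ℝ) / p) := by
  have h1 := Int.self_sub_floor ((w : ℝ) / p)
  have h2 : ((⌊(w : ℝ) / p⌋₊ : ℕ) : ℝ) = ((⌊(w : ℝ) / p⌋ : ℤ) : ℝ) :=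
    natCast_floor_eq_intCast_floor (by positivity)
  rw [Nat.floor_div_eq_div] at h2
  linarith

/-! ### the two families of classes -/

/-- shift of the `R`-potential: polar `2`, regular `-1` -/
def sP (p : ℕ) (c : Fin p) : ℤ := if 2 * (c : ℕ) < p then 2 else -1

/-- shift of the `Q`-potential: polar `0`, regular `-2` -/
def tP (p : ℕ) (c : Fin p) : ℤ := if 2 * (c : ℕ) < p then 0 else -2

lemma card_polar (h : ℕ) : (univ.filter fun c : Fin (2 * h + 1) => 2 * (c : ℕ) < 2 * h + 1).card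
    = h + 1 := by
  have : (univ.filter fun c : Fin (2 * h + 1) => 2 * (c : ℕ) < 2 * h + 1)
      = (range (h + 1)).attachFin (fun n hn => by
          have := Finset.mem_range.mp hn; omega) := by
    ext c
    simp only [mem_filter, mem_univ, true_and, mem_attachFin, mem_range]
    omega
  rw [this, card_attachFin, card_range]

lemma sum_polar (h : ℕ) (x y : ℤ) :
    ∑ c : Fin (2 * h + 1), (if 2 * (c : ℕ) < 2 * h + 1 then x else y) = (h + 1) * x + h * y := by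
  have hc := card_polar h
  have hc2 : (univ.filter fun c : Fin (2 * h + 1) => ¬ 2 * (c : ℕ) < 2 * h + 1).card = h := by
    have := Finset.card_filter_add_card_filter_not
      (s := (univ : Finset (Fin (2 * h + 1)))) (fun c => 2 * (c : ℕ) < 2 * h + 1)
    rw [hc, card_univ, Fintype.card_fin] at this
    omega
  rw [Finset.sum_ite, Finset.sum_const, Finset.sum_const, hc, hc2]
  simp

/-- the mean minimises the variance -/
lemma var_le {ι : Type*} [Fintype ι] (f : ι → ℝ) {p : ℝ} (hp : (Fintype.card ι : ℝ) = p)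
    (hp0 : 0 < p) (m : ℝ) : ∑ c, (f c - (∑ c, f c) / p) ^ 2 ≤ ∑ c, (f c - m) ^ 2 := by
  have h0 := sum_dev f hp hp0 rfl
  set F : ℝ := (∑ c, f c) / p with hF
  have : ∑ c, (f c - m) ^ 2 = ∑ c, (f c - F) ^ 2 + 2 * (F - m) * ∑ c, (f c - F)
      + p * (F - m) ^ 2 := by
    rw [Finset.mul_sum, ← Finset.sum_add_distrib]
    have : p * (F - m) ^ 2 = ∑ _c : ι, (F - m) ^ 2 := by
      rw [Finset.sum_const, card_univ, nsmul_eq_mul, hp]
    rw [this, ← Finset.sum_add_distrib]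
    refine Finset.sum_congr rfl fun c _ => ?_
    ring
  rw [this, h0]
  have : 0 ≤ p * (F - m) ^ 2 := by positivity
  linarith

/-- Minkowski with a constant weight -/
lemma sum_sq_sub_le {ι : Type*} [Fintype ι] (s ζ : ι → ℝ) {p τ : ℝ} (hτ : 0 ≤ τ)
    (hs : ∑ c, s c ^ 2 ≤ 9 / 4 * p) (hζ : ∑ c, ζ c ^ 2 ≤ τ ^ 2 * p) :
    ∑ c, (s c - ζ c) ^ 2 ≤ (3 / 2 + τ) ^ 2 * p := by
  rcases hτ.eq_or_lt with rfl | hτ
  · have h0 : ∀ c ∈ (univ : Finset ι), ζ c ^ 2 = 0 := by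
      have h1 : ∑ c, ζ c ^ 2 = 0 := le_antisymm (by simpa using hζ) (by positivity)
      exact (Finset.sum_eq_zero_iff_of_nonneg (fun c _ => sq_nonneg _)).mp h1
    have h2 : ∑ c, (s c - ζ c) ^ 2 = ∑ c, s c ^ 2 := by
      refine Finset.sum_congr rfl fun c hc => ?_
      have := pow_eq_zero_iff (two_ne_zero) |>.mp (h0 c hc)
      rw [this, sub_zero]
    rw [h2]
    linarith
  · -- (s-ζ)² ≤ (1+2τ/3) s² + (1+3/(2τ)) ζ²
    have hpt : ∀ c, (s c - ζ c) ^ 2 ≤ (1 + 2 * τ / 3) * s c ^ 2 + (1 + 3 / (2 * τ)) * ζ c ^ 2 := by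
      intro c
      have h1 : 0 ≤ (2 * τ / 3) * (s c + 3 / (2 * τ) * ζ c) ^ 2 := by positivity
      have h2 : (2 * τ / 3) * (s c + 3 / (2 * τ) * ζ c) ^ 2 =
          2 * τ / 3 * s c ^ 2 + 2 * (s c * ζ c) + 3 / (2 * τ) * ζ c ^ 2 := by
        field_simp
        ring
      nlinarith
    have hsum := Finset.sum_le_sum fun c (_ : c ∈ (univ : Finset ι)) => hpt c
    rw [Finset.sum_add_distrib, ← Finset.mul_sum, ← Finset.mul_sum] at hsum
    have h1 : (1 + 2 * τ / 3) * ∑ c, s c ^ 2 ≤ (1 + 2 * τ / 3) * (9 / 4 * p) :=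
      mul_le_mul_of_nonneg_left hs (by positivity)
    have h2 : (1 + 3 / (2 * τ)) * ∑ c, ζ c ^ 2 ≤ (1 + 3 / (2 * τ)) * (τ ^ 2 * p) :=
      mul_le_mul_of_nonneg_left hζ (by positivity)
    have h3 : (1 + 2 * τ / 3) * (9 / 4 * p) + (1 + 3 / (2 * τ)) * (τ ^ 2 * p)
        = (3 / 2 + τ) ^ 2 * p := by
      field_simp
      ring
    linarith

/-- **Closed form of the loss.** `a = a1 u`, gauge windows `a2, i1, r1` of lengths `w1, w2, w3`,
`A, q, K` the numbers of columns, `M c` the number of chosen rows in the class `c`, `z c` the number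
of gauge zeros. The normalising factorials minus the certificate. -/
theorem closed (h : ℕ) (M z : Fin (2 * h + 1) → ℤ) (A q K a w1 w2 w3 : ℕ)
    (hN : ∑ c, M c = A + q + K) (hZ : ∑ c, z c = a + w1 + w2 + w3) (τ : ℝ) (hτ : 0 ≤ τ)
    (hz : ∑ c, ((z c : ℝ) - ((a : ℝ) + w1 + w2 + w3) / (2 * h + 1)) ^ 2 ≤ τ ^ 2 * (2 * h + 1))
    (lam mu : ℤ)
    (hlam : lam = lamOpt (2 * h + 1) A q
      (∑ c, ((sP (2 * h + 1) c - z c : ℤ) : ℝ)))
    (hmu : mu = lamOpt (2 * h + 1) K q (∑ c, ((tP (2 * h + 1) c : ℤ) : ℝ))) :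
    ((∑ l ∈ range A, (a + l) / (2 * h + 1) : ℕ) : ℝ)
      + A * ((w1 / (2 * h + 1) : ℕ) + (w2 / (2 * h + 1) : ℕ) + (w3 / (2 * h + 1) : ℕ))
      + ((∑ l ∈ range q, l / (2 * h + 1) : ℕ) : ℝ) + ((∑ l ∈ range K, l / (2 * h + 1) : ℕ) : ℝ)
      - ((lam : ℝ) * A + mu * K
        + ∑ c, clsVal (M c) (Dopt (M c) (lam + (sP (2 * h + 1) c - z c)) (mu + tP (2 * h + 1) c))
            (lam + (sP (2 * h + 1) c - z c)) (mu + tP (2 * h + 1) c))
    ≤ (A : ℝ) / 2 - K + (5 / 8 + ((3 / 2 + τ) ^ 2 + 1) / 2) * (2 * h + 1)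
      - A * (Int.fract ((w1 : ℝ) / (2 * h + 1)) + Int.fract ((w2 : ℝ) / (2 * h + 1))
          + Int.fract ((w3 : ℝ) / (2 * h + 1)))
      + (3 * A / 2 + K) / (2 * h + 1) := by
  obtain ⟨p, hpd⟩ : ∃ p : ℝ, p = 2 * h + 1 := ⟨_, rfl⟩
  have hp0 : 0 < p := by rw [hpd]; positivity
  have hcard : (Fintype.card (Fin (2 * h + 1)) : ℝ) = p := by
    rw [Fintype.card_fin, hpd]; push_cast; ring
  have hcast : ((2 * h + 1 : ℕ) : ℝ) = p := by rw [hpd]; push_cast; ring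
  have hpos : 0 < 2 * h + 1 := by omega
  rw [← hpd] at hz hlam hmu ⊢
  have hcore := core M (fun c => sP (2 * h + 1) c - z c) (fun c => tP (2 * h + 1) c)
    (A : ℤ) (q : ℤ) (K : ℤ) hN hcard hp0 lam mu (by exact_mod_cast hlam) (by exact_mod_cast hmu)
  -- sums of the shifts
  have hsumS : (∑ c, (sP (2 * h + 1) c : ℝ)) = (p + 3) / 2 := by
    have h1 := sum_polar h 2 (-1)
    have h2 : (∑ c, (sP (2 * h + 1) c : ℝ)) = (((h + 1) * 2 + h * (-1) : ℤ) : ℝ) := by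
      rw [← h1]; push_cast [sP]; rfl
    rw [h2, hpd]; push_cast; ring
  have hsumT : (∑ c, (tP (2 * h + 1) c : ℝ)) = -(p - 1) := by
    have h1 := sum_polar h 0 (-2)
    have h2 : (∑ c, (tP (2 * h + 1) c : ℝ)) = (((h + 1) * 0 + h * (-2) : ℤ) : ℝ) := by
      rw [← h1]; push_cast [tP]; rfl
    rw [h2, hpd]; push_cast; ring
  have hZr : (∑ c, (z c : ℝ)) = (a : ℝ) + w1 + w2 + w3 := by exact_mod_cast hZ
  have hsumA : (∑ c, ((sP (2 * h + 1) c - z c : ℤ) : ℝ)) = (p + 3) / 2 - (a + w1 + w2 + w3) := by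
    have : (∑ c, ((sP (2 * h + 1) c - z c : ℤ) : ℝ))
        = (∑ c, (sP (2 * h + 1) c : ℝ)) - ∑ c, (z c : ℝ) := by
      rw [← Finset.sum_sub_distrib]
      refine Finset.sum_congr rfl fun c _ => ?_
      push_cast; ring
    rw [this, hsumS, hZr]
  -- variances
  have hvarA : ∑ c, (((sP (2 * h + 1) c - z c : ℤ) : ℝ)
      - (∑ c, ((sP (2 * h + 1) c - z c : ℤ) : ℝ)) / p) ^ 2 ≤ (3 / 2 + τ) ^ 2 * p := by
    refine (var_le _ hcard hp0 (1 / 2 - ((a : ℝ) + w1 + w2 + w3) / p)).trans ?_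
    have : ∀ c, ((sP (2 * h + 1) c - z c : ℤ) : ℝ) - (1 / 2 - ((a : ℝ) + w1 + w2 + w3) / p)
        = ((sP (2 * h + 1) c : ℝ) - 1 / 2) - ((z c : ℝ) - ((a : ℝ) + w1 + w2 + w3) / p) := by
      intro c; push_cast; ring
    simp_rw [this]
    refine sum_sq_sub_le _ _ hτ (le_of_eq ?_) hz
    have h2 : ∀ c : Fin (2 * h + 1), ((sP (2 * h + 1) c : ℝ) - 1 / 2) ^ 2 = 9 / 4 := by
      intro c; unfold sP; split_ifs <;> norm_num
    simp_rw [h2]
    rw [Finset.sum_const, card_univ, nsmul_eq_mul, hcard]; ring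
  have hvarB : ∑ c, (((tP (2 * h + 1) c : ℤ) : ℝ)
      - (∑ c, ((tP (2 * h + 1) c : ℤ) : ℝ)) / p) ^ 2 ≤ p := by
    refine (var_le _ hcard hp0 (-1)).trans (le_of_eq ?_)
    have h2 : ∀ c : Fin (2 * h + 1), ((tP (2 * h + 1) c : ℝ) - (-1)) ^ 2 = 1 := by
      intro c; unfold tP; split_ifs <;> norm_num
    simp_rw [h2]
    rw [Finset.sum_const, card_univ, nsmul_eq_mul, hcard]; ring
  rw [Finset.sum_add_distrib] at hcore
  rw [hsumA, hsumT] at hcore
  rw [hsumA] at hvarA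
  rw [hsumT] at hvarB
  -- floor sums
  have f1 := floor_shift (2 * h + 1) hpos a A
  have f2 := (floor_prim (2 * h + 1) hpos q).2
  have f3 := (floor_prim (2 * h + 1) hpos K).2
  have g1 := floor_fract (2 * h + 1) w1
  have g2 := floor_fract (2 * h + 1) w2
  have g3 := floor_fract (2 * h + 1) w3
  rw [hcast] at f1 f2 f3 g1 g2 g3
  rw [g1, g2, g3]
  push_cast at hcore
  have e1 : (A : ℝ) * ((w1 : ℝ) / p - Int.fract ((w1 : ℝ) / p) + ((w2 : ℝ) / p
      - Int.fract ((w2 : ℝ) / p)) + ((w3 : ℝ) / p - Int.fract ((w3 : ℝ) / p)))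
      = A * ((w1 : ℝ) + w2 + w3) / p - A * (Int.fract ((w1 : ℝ) / p) + Int.fract ((w2 : ℝ) / p)
          + Int.fract ((w3 : ℝ) / p)) := by
    field_simp
    ring
  rw [e1]
  have e2 : (((p + 3) / 2 - ((a : ℝ) + w1 + w2 + w3)) / p) * A =
      A / 2 + 3 * A / 2 / p - A * ((a : ℝ) + w1 + w2 + w3) / p := by
    field_simp
  have e3 : (-(p - 1) / p) * K = -K + K / p := by
    field_simp
    ring
  have e4 : ((A : ℝ) ^ 2 + 2 * a * A) / (2 * p) = (A : ℝ) ^ 2 / (2 * p) + A * a / p := by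
    field_simp
  have e5 : ((A : ℝ) ^ 2 + (K : ℝ) ^ 2 + (q : ℝ) ^ 2) / (2 * p)
      = (A : ℝ) ^ 2 / (2 * p) + (K : ℝ) ^ 2 / p / 2 + (q : ℝ) ^ 2 / p / 2 := by
    field_simp
  have e6 : (A : ℝ) * ((a : ℝ) + w1 + w2 + w3) / p = A * a / p + A * ((w1 : ℝ) + w2 + w3) / p := by
    field_simp
    ring
  have e7 : (3 * (A : ℝ) / 2 + K) / p = 3 * A / 2 / p + K / p := by
    field_simp
  rw [e2, e3, e5, e6] at hcore
  rw [e4] at f1
  rw [e7]
  push_cast at hvarA hvarB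
  linarith [hcore, f1, f2, f3, hvarA, hvarB]

end Crest.Agent.R006.P5b
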