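import Crest.Agent.R006.P4Toll_961
import Crest.Agent.R006.P5b_Closed_481

set_option autoImplicit false
set_option linter.unusedSectionVars false

/-!
# Row 6, block P5b: the certificate in toll form (helper481)

Abstract classes `Cl`, shifts `sa c` (`R`-states: cost `l + z c - sa c`) and `sb c` (`Q`-states:
cost `l - sb c`); polar `sa = 2, sb = 0`, regular `sa = -1, sb = -2`.
One potential `D c ≥ -1` per class.
-/

namespace Crest.Agent.R006.P5b

open Finset Crest.Agent.R006.Tollx814 Crest.Agent.R006.P4Toll961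

/-- truncated linear toll -/
def toll (θ : ℤ) (l : ℕ) : ℤ := max 0 (θ - l)

lemma toll_nonneg (θ : ℤ) (l : ℕ) : 0 ≤ toll θ l := le_max_left _ _

lemma le_toll (θ : ℤ) (l : ℕ) : θ - l ≤ toll θ l := le_max_right _ _

lemma two_sum_toll (θ : ℤ) (n : ℕ) : 2 * ∑ l ∈ range n, toll θ l ≤ θ * (θ + 1) := by
  -- for θ ≤ 0 the sum vanishes
  have h0 : 0 ≤ θ * (θ + 1) := by
    rcases le_or_gt 0 θ with h | h
    · positivity
    · nlinarith
  rcases le_or_gt θ 0 with h | h
  · have : ∑ l ∈ range n, toll θ l = 0 := by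
      refine Finset.sum_eq_zero fun l _ => ?_
      unfold toll
      exact max_eq_left (by
        have : (0 : ℤ) ≤ l := Nat.cast_nonneg l
        linarith)
    rw [this]; simp [h0]
  · obtain ⟨k, rfl⟩ : ∃ k : ℕ, θ = k := ⟨θ.toNat, (Int.toNat_of_nonneg h.le).symm⟩
    -- ∑_{l<n} max 0 (k-l) ≤ ∑_{l<k} (k-l)
    have key : ∀ n : ℕ, 2 * ∑ l ∈ range n, toll (k : ℤ) l ≤ (k : ℤ) * (k + 1) ∧
        (n ≤ k → 2 * ∑ l ∈ range n, toll (k : ℤ) l = (n : ℤ) * (2 * k + 1 - n)) := by
      intro n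
      induction n with
      | zero => exact ⟨by simpa using h0, fun _ => by simp⟩
      | succ n ih =>
        rw [Finset.sum_range_succ, mul_add]
        by_cases hn : n < k
        · have h1 : toll (k : ℤ) n = (k : ℤ) - n := by
            unfold toll
            exact max_eq_right (by
              have : (n : ℤ) ≤ k := by exact_mod_cast hn.le
              linarith)
          have h2 := ih.2 hn.le
          have h3 : 2 * ∑ l ∈ range n, toll (k : ℤ) l + 2 * toll (k : ℤ) n
              = ((n + 1 : ℕ) : ℤ) * (2 * k + 1 - ((n + 1 : ℕ) : ℤ)) := by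
            rw [h1, h2]; push_cast; ring
          refine ⟨?_, fun _ => h3⟩
          rw [h3]
          push_cast
          have hnk : (n : ℤ) + 1 ≤ k := by exact_mod_cast hn
          nlinarith [mul_nonneg (sub_nonneg.mpr hnk) (sub_nonneg.mpr hnk)]
        · have h1 : toll (k : ℤ) n = 0 := by
            unfold toll
            exact max_eq_left (by
              have : (k : ℤ) ≤ n := by exact_mod_cast not_lt.mp hn
              linarith)
          rw [h1]
          refine ⟨by simpa using ih.1, fun hk => absurd (by omega) hn⟩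
    exact (key n).1

lemma sum_toll_le (θ : ℤ) (N : ℕ) : ((∑ l : Fin N, toll θ l : ℤ) : ℝ) ≤ tri θ := by
  have h := two_sum_toll θ N
  rw [← Fin.sum_univ_eq_sum_range] at h
  unfold tri
  have h' : (2 : ℝ) * ((∑ l : Fin N, toll θ l : ℤ) : ℝ) ≤ (θ : ℝ) * (θ + 1) := by
    exact_mod_cast h
  linarith

variable {A : Type*} [CommRing A]
variable {Cl : Type*} [Fintype Cl] [DecidableEq Cl]
variable {jR jT jQ jU : Type*} [Fintype jR] [DecidableEq jR] [Fintype jT] [DecidableEq jT]
  [Fintype jQ] [DecidableEq jQ] [Fintype jU] [DecidableEq jU]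
variable {N : ℕ}
variable {ι : Type*} [Fintype ι] [DecidableEq ι]

/-- the costs of decomposition A -/
structure CostA (Fil : ZFil A) (W : Net A Cl jR jT jQ N) (r : Rows A Cl jR jT jQ jU N ι)
    (z sa sb : Cl → ℤ) (ord : ι → ℕ) (E : ℤ) : Prop where
  rho : ∀ c l j, W.rho c l j ∈ Fil.F 0
  th0 : ∀ c l j, W.th0 c l j ∈ Fil.F 0
  q : ∀ c l j, W.q c l j ∈ Fil.F 0
  A : ∀ i (l : Fin N), r.cA i l ∈ Fil.F (z (r.cls i) + (l : ℕ) - sa (r.cls i) - ord i)
  B : ∀ i (s : Fin N), r.cB i s ∈ Fil.F (((s : ℕ) : ℤ) - ord i)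
  C : ∀ i (u : Fin N), r.cC i u ∈ Fil.F (((u : ℕ) : ℤ) - sb (r.cls i) - ord i)
  err : ∀ i d, r.err i d ∈ Fil.F E
  near : ∀ c s l, W.near c s l = 0
  far : ∀ c s c' k, W.far c s c' k ∈ Fil.F 0
  errX : ∀ c s j, W.errX c s j ∈ Fil.F E
  Lam : ∀ c (k l : Fin N), W.Lam c k l ∈ Fil.F (z c + (l : ℕ) + 1 - sa c)
  errB : ∀ c k j, W.errB c k j ∈ Fil.F E

/-- the certificate -/
def cert (r : Rows A Cl jR jT jQ jU N ι) (z sa sb : Cl → ℤ) (ord : ι → ℕ) (lam mu : ℤ)
    (D : Cl → ℤ) : Cert Cl N ι where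
  lam := lam
  mu := mu
  nu := 0
  D0 := fun i => D (r.cls i) - ord i
  DX := fun _ _ => 0
  DB := fun _ _ => 0
  sR := fun c l => toll (D c + (lam + (sa c - z c))) l
  sX := fun c s => toll (D c) s
  sQ := fun c u => toll (D c + (mu + sb c)) u
  sB := fun _ _ => 0

theorem cert_valid {Fil : ZFil A} {W : Net A Cl jR jT jQ N} {r : Rows A Cl jR jT jQ jU N ι}
    {z sa sb : Cl → ℤ} {ord : ι → ℕ} {E : ℤ} (h : CostA Fil W r z sa sb ord E) {lam mu : ℤ}
    {D : Cl → ℤ} (hD : ∀ c, -1 ≤ D c) (hE1 : lam ≤ E) (hE2 : ∀ c, D c ≤ E)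
    (hE3 : ∀ c, D c + lam ≤ E) (hE4 : ∀ c, D c + mu ≤ E) :
    Valid Fil W r (cert r z sa sb ord lam mu D) := by
  refine ⟨fun _ _ => toll_nonneg _ _, fun _ _ => toll_nonneg _ _, fun _ _ => toll_nonneg _ _,
    fun _ _ => le_rfl, h.rho, h.th0, h.q, ?_, ?_, ?_, ?_, fun _ _ => le_rfl, ?_, ?_, ?_, ?_, ?_⟩
  · intro i l
    refine Fil.mono ?_ (h.A i l)
    have := le_toll (D (r.cls i) + (lam + (sa (r.cls i) - z (r.cls i)))) l
    simp only [cert]
    linarith
  · intro i s
    refine Fil.mono ?_ (h.B i s)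
    have := le_toll (D (r.cls i)) s
    simp only [cert]
    linarith
  · intro i u
    refine Fil.mono ?_ (h.C i u)
    have := le_toll (D (r.cls i) + (mu + sb (r.cls i))) u
    simp only [cert]
    linarith
  · intro i d
    refine Fil.mono ?_ (h.err i d)
    have h1 := hE2 (r.cls i)
    have h2 := hE3 (r.cls i)
    have h3 := hE4 (r.cls i)
    have h4 : (0 : ℤ) ≤ ord i := Nat.cast_nonneg _
    rcases d with d | d | d | d <;> simp [cert, kd, Cert.lk] <;> linarith
  · intro c s l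
    rw [h.near]; exact Fil.F _ |>.zero_mem
  · intro c s c' k
    exact Fil.mono (by simp [cert]) (h.far c s c' k)
  · intro c s j
    exact Fil.mono (by simpa [cert] using hE1) (h.errX c s j)
  · intro c k l
    refine Fil.mono ?_ (h.Lam c k l)
    have := le_toll (D c + (lam + (sa c - z c))) l
    have := hD c
    simp only [cert]
    linarith
  · intro c k j
    exact Fil.mono (by simpa [cert] using hE1) (h.errB c k j)

/-- number of rows in a class -/
def Mc (cls : ι → Cl) (c : Cl) : ℤ := ((univ.filter fun i => cls i = c).card : ℤ)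

omit [DecidableEq ι] in
lemma sum_Mc (cls : ι → Cl) : ∑ c, Mc cls c = Fintype.card ι := by
  unfold Mc
  have := Finset.card_eq_sum_card_fiberwise (s := (univ : Finset ι)) (t := (univ : Finset Cl))
    (f := cls) (fun _ _ => by simp)
  rw [Finset.card_univ] at this
  rw [this]
  push_cast
  rfl

omit [DecidableEq ι] in
lemma sum_D0 (cls : ι → Cl) (D : Cl → ℤ) : ∑ i, D (cls i) = ∑ c, Mc cls c * D c := by
  rw [← Finset.sum_fiberwise_of_maps_to (s := (univ : Finset ι)) (t := (univ : Finset Cl))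
    (g := cls) (fun _ _ => mem_univ _)]
  refine Finset.sum_congr rfl fun c _ => ?_
  rw [Finset.sum_congr rfl (g := fun _ => D c)]
  · simp [Mc]
  · intro i hi
    rw [(Finset.mem_filter.mp hi).2]

/-- **P5b determinant bound** -/
theorem det_bound {Fil : ZFil A} {W : Net A Cl jR jT jQ N} {r : Rows A Cl jR jT jQ jU N ι}
    {z sa sb : Cl → ℤ} {ord : ι → ℕ} {E : ℤ} (h : CostA Fil W r z sa sb ord E) {lam mu : ℤ}
    {D : Cl → ℤ} (hD : ∀ c, -1 ≤ D c) (hE1 : lam ≤ E) (hE2 : ∀ c, D c ≤ E)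
    (hE3 : ∀ c, D c + lam ≤ E) (hE4 : ∀ c, D c + mu ≤ E) (e : ι ≃ Col jR jT jQ jU) (v : ℤ)
    (hv : (v : ℝ) ≤ (lam : ℝ) * Fintype.card jR + mu * Fintype.card jQ
      + ∑ c, clsVal (Mc r.cls c) (D c) (lam + (sa c - z c)) (mu + sb c) - ∑ i, (ord i : ℝ)) :
    Matrix.det (Matrix.of fun i j => W.mat r i (e j)) ∈ Fil.F v := by
  refine Fil.mono ?_ (det_mem_equiv (cert_valid h hD hE1 hE2 hE3 hE4) e)
  have hreal : (v : ℝ) ≤ (((cert r z sa sb ord lam mu D).lam * Fintype.card jR
      + (cert r z sa sb ord lam mu D).mu * Fintype.card jQ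
      + (cert r z sa sb ord lam mu D).nu * Fintype.card jU
        + ∑ i, (cert r z sa sb ord lam mu D).D0 i
        - ∑ c, ∑ l, ((cert r z sa sb ord lam mu D).sR c l + (cert r z sa sb ord lam mu D).sX c l
          + (cert r z sa sb ord lam mu D).sQ c l + (cert r z sa sb ord lam mu D).sB c l) : ℤ) : ℝ) := by
    refine hv.trans ?_
    simp only [cert, add_zero, Finset.sum_add_distrib, Finset.sum_sub_distrib, zero_mul]
    rw [sum_D0]
    push_cast
    have h1 : ∀ c, clsVal (Mc r.cls c) (D c) (lam + (sa c - z c)) (mu + sb c)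
        ≤ (Mc r.cls c : ℝ) * D c
          - (((∑ l : Fin N, toll (D c + (lam + (sa c - z c))) l : ℤ) : ℝ)
            + ((∑ l : Fin N, toll (D c) l : ℤ) : ℝ)
            + ((∑ l : Fin N, toll (D c + (mu + sb c)) l : ℤ) : ℝ)) := by
      intro c
      unfold clsVal
      have h1 := sum_toll_le (D c + (lam + (sa c - z c))) N
      have h2 := sum_toll_le (D c) N
      have h3 := sum_toll_le (D c + (mu + sb c)) N
      linarith
    have h2 := Finset.sum_le_sum fun c (_ : c ∈ (univ : Finset Cl)) => h1 c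
    simp only [Finset.sum_sub_distrib, Finset.sum_add_distrib] at h2
    push_cast at h2
    linarith
  exact_mod_cast hreal

end Crest.Agent.R006.P5b
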