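import Crest.Agent.R006.P5_MidArith_788
import Crest.Agent.R006.P5b_Closed_481
import Crest.Agent.R006.GaugeP_555

/-!
# Row 6, block P5b: sharper closed form of the loss on the small strip (helper788)

The constant potential `ν = ⌊q/p⌋`, `λ' = ⌊(a+A)/p⌋ + ⌊w/p⌋ - ν`, `μ' = ⌊K/p⌋ + 1 - ν` in 481's
format: the factorial normalisation minus the certificate is at most
`A/2 - K + (9/4) p - A fract (w/p) + O(1/p)`.
-/

set_option autoImplicit false

open Finset

namespace Crest.Agent.R006.P5Mid788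

open Crest.Agent.R006.RefClass555 Crest.Agent.R006.P5b

/-- **R-part** with the exact cross term (doubled). -/
theorem R_part' (p : ℕ) (hodd : p % 2 = 1) (A a y : ℕ → ℤ) (lam Y D G : ℤ)
    (hD : ∀ c, c < p → (A c + y c - lam) * (A c + y c - lam - 2) ≤ D)
    (ha : 0 ≤ ∑ c ∈ range p, sg p c * a c) (hyG : -G ≤ ∑ c ∈ range p, sg p c * y c) :
    ∑ c ∈ range p, (A c * (A c - 1) - a c * (a c - 1) + 2 * (A c - a c) * (Y - lam)
        + (lam - eps p c - a c - y c) * (lam - eps p c - a c - y c + 1))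
      ≤ ∑ c ∈ range p, (A c - a c) + 3 * lam + 3 * (p + 1) + D * p + 3 * G
        - 2 * ∑ c ∈ range p, (A c - a c) * (y c - Y) := by
  have hs := sum_sg p hodd
  have key : ∀ c ∈ range p, (A c * (A c - 1) - a c * (a c - 1) + 2 * (A c - a c) * (Y - lam)
        + (lam - eps p c - a c - y c) * (lam - eps p c - a c - y c + 1))
      ≤ D + (A c - a c) + 3 * lam * sg p c - 3 * (sg p c * a c) - 3 * (sg p c * y c)
        + 3 * (1 + sg p c) - 2 * ((A c - a c) * (y c - Y)) := by
    intro c hc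
    have hc' := mem_range.mp hc
    have h1 := hD c hc'
    unfold sg eps
    split_ifs with hp
    · have e : A c * (A c - 1) - a c * (a c - 1) + 2 * (A c - a c) * (Y - lam)
          + (lam - -2 - a c - y c) * (lam - -2 - a c - y c + 1)
          = (A c + y c - lam) * (A c + y c - lam - 2) + (A c - a c) + 3 * (lam - a c - y c) + 6
            - 2 * ((A c - a c) * (y c - Y)) := by ring
      rw [e]
      linarith
    · have e : A c * (A c - 1) - a c * (a c - 1) + 2 * (A c - a c) * (Y - lam)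
          + (lam - 1 - a c - y c) * (lam - 1 - a c - y c + 1)
          = (A c + y c - lam) * (A c + y c - lam - 2) + (A c - a c) - 3 * (lam - a c - y c)
            - 2 * ((A c - a c) * (y c - Y)) := by ring
      rw [e]
      linarith
  refine (Finset.sum_le_sum key).trans ?_
  have e : ∑ c ∈ range p, (D + (A c - a c) + 3 * lam * sg p c - 3 * (sg p c * a c)
        - 3 * (sg p c * y c) + 3 * (1 + sg p c) - 2 * ((A c - a c) * (y c - Y)))
      = D * p + ∑ c ∈ range p, (A c - a c) + 3 * lam * ∑ c ∈ range p, sg p c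
        - 3 * ∑ c ∈ range p, sg p c * a c - 3 * ∑ c ∈ range p, sg p c * y c
        + 3 * (p + ∑ c ∈ range p, sg p c) - 2 * ∑ c ∈ range p, (A c - a c) * (y c - Y) := by
    simp only [Finset.sum_add_distrib, Finset.sum_sub_distrib, ← Finset.mul_sum,
      Finset.sum_const, Finset.card_range, nsmul_eq_mul]
    ring
  rw [e, hs]
  linarith

/-- the cross term: two `0/1`-valued families with sums `r`, `κ` -/
lemma cross_ge (p : ℕ) (hp : 0 < p) (x y : ℕ → ℤ) (m r κ : ℤ)
    (hx : ∀ c, c < p → x c = m ∨ x c = m + 1) (hy : ∀ c, c < p → y c = 0 ∨ y c = 1)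
    (hr : ∑ c ∈ range p, x c = m * p + r) (hκ : ∑ c ∈ range p, y c = κ) (hr0 : 0 ≤ r) (hrp : r ≤ p)
    (hκ0 : 0 ≤ κ) (hκp : κ ≤ p) :
    ((m * p + r : ℤ) : ℝ) * κ / p - p / 4 ≤ ((∑ c ∈ range p, x c * y c : ℤ) : ℝ) := by
  have hp' : (0 : ℝ) < p := by exact_mod_cast hp
  -- two lower bounds
  have h1 : m * κ ≤ ∑ c ∈ range p, x c * y c := by
    rw [← hκ, Finset.mul_sum]
    refine Finset.sum_le_sum fun c hc => ?_
    have hc' := mem_range.mp hc
    rcases hx c hc' with h | h <;> rcases hy c hc' with h' | h' <;> rw [h, h'] <;> linarith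
  have h2 : m * κ + (r + κ - p) ≤ ∑ c ∈ range p, x c * y c := by
    have e : m * κ + (r + κ - p) = ∑ c ∈ range p, (m * y c + (x c - m + y c - 1)) := by
      rw [Finset.sum_add_distrib, Finset.sum_sub_distrib, Finset.sum_add_distrib,
        Finset.sum_sub_distrib, ← Finset.mul_sum, hr, hκ]
      simp only [Finset.sum_const, Finset.card_range, nsmul_eq_mul]
      ring
    rw [e]
    refine Finset.sum_le_sum fun c hc => ?_
    have hc' := mem_range.mp hc
    rcases hx c hc' with h | h <;> rcases hy c hc' with h' | h' <;> rw [h, h'] <;> linarith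
  have h1' : (m : ℝ) * κ ≤ ((∑ c ∈ range p, x c * y c : ℤ) : ℝ) := by exact_mod_cast h1
  have h2' : (m : ℝ) * κ + (r + κ - p) ≤ ((∑ c ∈ range p, x c * y c : ℤ) : ℝ) := by
    exact_mod_cast h2
  have hr0' : (0 : ℝ) ≤ r := by exact_mod_cast hr0
  have hrp' : (r : ℝ) ≤ p := by exact_mod_cast hrp
  have hκ0' : (0 : ℝ) ≤ κ := by exact_mod_cast hκ0
  have hκp' : (κ : ℝ) ≤ p := by exact_mod_cast hκp
  have e : ((m * p + r : ℤ) : ℝ) * κ / p = m * κ + r * κ / p := by
    push_cast
    field_simp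
  rw [e]
  rcases le_total ((r : ℝ) + κ) p with h | h
  · have : (r : ℝ) * κ / p ≤ p / 4 := by
      rw [div_le_div_iff₀ hp' (by norm_num)]
      nlinarith [sq_nonneg ((r : ℝ) - κ)]
    linarith
  · have : (r : ℝ) * κ / p ≤ p / 4 + (r + κ - p) := by
      rw [div_le_iff₀ hp']
      nlinarith [sq_nonneg ((r : ℝ) - κ), mul_nonneg (sub_nonneg.mpr hrp') (sub_nonneg.mpr hκp')]
    linarith

lemma two_sum_floor (n p : ℕ) (hp : 0 < p) :
    (2 * ((∑ l ∈ range n, l / p : ℕ) : ℤ))
      = ∑ c ∈ range p, (cnt n p c : ℤ) * ((cnt n p c : ℤ) - 1) := by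
  rw [sum_div_eq n p hp]
  rw [Nat.cast_sum, Finset.mul_sum]
  exact Finset.sum_congr rfl fun c _ => two_mul_choose_two _

lemma two_sum_floor_shift (a n p : ℕ) (hp : 0 < p) :
    (2 * ((∑ l ∈ range n, (a + l) / p : ℕ) : ℤ))
      = ∑ c ∈ range p, ((cnt (a + n) p c : ℤ) * ((cnt (a + n) p c : ℤ) - 1)
          - (cnt a p c : ℤ) * ((cnt a p c : ℤ) - 1)) := by
  rw [Finset.sum_sub_distrib, ← two_sum_floor _ p hp, ← two_sum_floor _ p hp,
    Finset.sum_range_add]
  push_cast
  ring

lemma cnt_add_le (n m p c : ℕ) (hc : c < p) : cnt (n + m) p c ≤ cnt n p c + m / p + 1 := by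
  have hp : 0 < p := by omega
  unfold cnt
  have h1 : n + m + p - 1 - c = (n + p - 1 - c) + m := by omega
  rw [h1, Nat.add_div hp]
  split_ifs <;> omega

/-- **Closed form of the loss**, slope `9/4`. -/
theorem closed2 (p : ℕ) (hodd : p % 2 = 1) (M z : Fin p → ℤ) (A q K a w : ℕ)
    (hN : ∑ c, M c = A + q + K) (hz : ∀ c : Fin p, z c = cnt a p c + cntH w p c)
    (lam mu nu : ℤ) (hlam : lam = ((a + A) / p : ℕ) + (w / p : ℕ) - (q / p : ℕ))
    (hmu : mu = (K / p : ℕ) + 1 - (q / p : ℕ)) (hnu : nu = (q / p : ℕ)) :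
    ((∑ l ∈ range A, (a + l) / p : ℕ) : ℝ) + A * ((w / p : ℕ) : ℝ)
      + ((∑ l ∈ range q, l / p : ℕ) : ℝ) + ((∑ l ∈ range K, l / p : ℕ) : ℝ)
      - ((lam : ℝ) * A + mu * K
        + ∑ c, clsVal (M c) nu (lam + (sP p c - z c)) (mu + tP p c))
    ≤ (A : ℝ) / 2 - K + 9 / 4 * p - A * Int.fract ((w : ℝ) / p)
      + (3 / 2 * (a + A + w) + K) / p + 2 := by
  have hp0 : 0 < p := by omega
  have hpr : (0 : ℝ) < p := by exact_mod_cast hp0
  set AA : ℕ → ℤ := fun c => (cnt (a + A) p c : ℤ) with hAA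
  set aa : ℕ → ℤ := fun c => (cnt a p c : ℤ) with haa
  set y : ℕ → ℤ := fun c => (cntH w p c : ℤ) with hy
  set nq : ℕ → ℤ := fun c => (cnt q p c : ℤ) with hnq
  set ng : ℕ → ℤ := fun c => (cnt K p c : ℤ) with hng
  set Y : ℤ := ((w / p : ℕ) : ℤ) with hY
  set m : ℤ := ((A / p : ℕ) : ℤ) with hm
  set L : ℤ := (((a + A) / p : ℕ) : ℤ) + Y with hL
  set U : ℤ := ((K / p : ℕ) : ℤ) + 1 with hU
  have sA : ∑ c ∈ range p, AA c = a + A := by
    have := sum_cnt (a + A) p hp0
    have h : ((∑ c ∈ range p, cnt (a + A) p c : ℕ) : ℤ) = ((a + A : ℕ) : ℤ) := by rw [this]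
    push_cast at h
    exact h
  have sa : ∑ c ∈ range p, aa c = a := by
    have := sum_cnt a p hp0
    have h : ((∑ c ∈ range p, cnt a p c : ℕ) : ℤ) = ((a : ℕ) : ℤ) := by rw [this]
    push_cast at h
    exact h
  have sq' : ∑ c ∈ range p, nq c = q := by
    have := sum_cnt q p hp0
    have h : ((∑ c ∈ range p, cnt q p c : ℕ) : ℤ) = ((q : ℕ) : ℤ) := by rw [this]
    push_cast at h
    exact h
  have sg' : ∑ c ∈ range p, ng c = K := by
    have := sum_cnt K p hp0
    have h : ((∑ c ∈ range p, cnt K p c : ℕ) : ℤ) = ((K : ℕ) : ℤ) := by rw [this]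
    push_cast at h
    exact h
  have sy : ∑ c ∈ range p, y c = w := by
    have := sum_cntH w p hodd
    have h : ((∑ c ∈ range p, cntH w p c : ℕ) : ℤ) = ((w : ℕ) : ℤ) := by rw [this]
    push_cast at h
    exact h
  have hyY : ∀ c, c < p → y c = Y ∨ y c = Y + 1 := by
    intro c hc
    rcases cntH_mem w p c hc hodd with e | e
    · left; simp only [hy]; rw [e]
    · right; simp only [hy]; rw [e, Nat.cast_succ]
  -- the R-part
  have hR := R_part' p hodd AA aa y L Y 0 0
    (by
      intro c hc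
      have e1' : AA c = (((a + A) / p : ℕ) : ℤ) ∨ AA c = (((a + A) / p : ℕ) : ℤ) + 1 := by
        rcases cnt_mem (a + A) p c hc with e | e
        · left; simp only [hAA]; rw [e]
        · right; simp only [hAA]; rw [e, Nat.cast_succ]
      rw [hL]
      rcases e1' with e | e <;> rcases hyY c hc with e' | e' <;> rw [e, e'] <;> ring_nf <;>
        norm_num)
    (sum_sg_cnt a p hodd) (by simpa using sum_sg_cntH w p hodd)
  have hQ := Q_part p hodd ng U
    (by
      intro c hc
      rcases cnt_mem K p c hc with e | e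
      · left; simp only [hng, hU]; rw [e]; ring
      · right; simp only [hng, hU]; rw [e, Nat.cast_succ])
  have hT := T_part p nq nu
    (by
      intro c hc
      rcases cnt_mem q p c hc with e | e
      · left; simp only [hnq, hnu]; rw [e]
      · right; simp only [hnq, hnu]; rw [e, Nat.cast_succ])
  -- remainders
  have hrA : (A : ℤ) = m * p + (A % p : ℕ) := by
    have := Nat.div_add_mod A p
    have h : ((p * (A / p) + A % p : ℕ) : ℤ) = ((A : ℕ) : ℤ) := by rw [this]
    rw [Nat.cast_add, Nat.cast_mul] at h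
    rw [hm]; linarith
  have hrw : (w : ℤ) = Y * p + (w % p : ℕ) := by
    have := Nat.div_add_mod w p
    have h : ((p * (w / p) + w % p : ℕ) : ℤ) = ((w : ℕ) : ℤ) := by rw [this]
    rw [Nat.cast_add, Nat.cast_mul] at h
    rw [hY]; linarith
  -- the cross term
  have hC := cross_ge p hp0 (fun c => AA c - aa c) (fun c => y c - Y) m ((A % p : ℕ) : ℤ)
    ((w % p : ℕ) : ℤ)
    (by
      intro c hc
      have e1 := cnt_add_ge a A p c hc
      have e2 := cnt_add_le a A p c hc
      simp only [hAA, haa, hm]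
      omega)
    (by
      intro c hc
      rcases hyY c hc with e | e
      · left; rw [e]; ring
      · right; rw [e]; ring)
    (by
      rw [Finset.sum_sub_distrib, sA, sa]; linarith)
    (by
      rw [Finset.sum_sub_distrib, sy]
      simp only [Finset.sum_const, Finset.card_range, nsmul_eq_mul]
      linarith)
    (by positivity) (by exact_mod_cast (Nat.mod_lt A hp0).le)
    (by positivity) (by exact_mod_cast (Nat.mod_lt w hp0).le)
  rw [← hrA] at hC
  have hfr : Int.fract ((w : ℝ) / p) = ((w % p : ℕ) : ℝ) / p := by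
    have h1 := floor_fract p w
    have h2 : (w : ℝ) = (w / p : ℕ) * p + (w % p : ℕ) := by
      have := Nat.div_add_mod w p
      have h : ((p * (w / p) + w % p : ℕ) : ℝ) = ((w : ℕ) : ℝ) := by rw [this]
      rw [Nat.cast_add, Nat.cast_mul] at h
      linarith
    have h3 : Int.fract ((w : ℝ) / p) = (w : ℝ) / p - ((w / p : ℕ) : ℝ) := by linarith
    rw [h3]
    rw [eq_div_iff hpr.ne', sub_mul, div_mul_cancel₀ _ hpr.ne']
    linarith
  have hC' : (A : ℝ) * Int.fract ((w : ℝ) / p) - p / 4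
      ≤ ((∑ c ∈ range p, (AA c - aa c) * (y c - Y) : ℤ) : ℝ) := by
    rw [hfr, ← mul_div_assoc]
    simp only [Int.cast_natCast] at hC
    exact hC
  -- the certificate
  have hcert : 2 * ((lam : ℝ) * A + mu * K
        + ∑ c, clsVal (M c) nu (lam + (sP p c - z c)) (mu + tP p c))
      = ((2 * (L * A + U * K + nu * q)
        - ∑ c ∈ range p, ((L - eps p c - aa c - y c) * (L - eps p c - aa c - y c + 1))
        - ∑ c ∈ range p, nu * (nu + 1)
        - ∑ c ∈ range p, (U - del p c) * (U - del p c + 1) : ℤ) : ℝ) := by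
    have hlam' : lam = L - nu := by rw [hlam, hL, hnu]
    have hmu' : mu = U - nu := by rw [hmu, hU, hnu]
    have e1 : ∀ c : Fin p, 2 * clsVal (M c) nu (lam + (sP p c - z c)) (mu + tP p c)
        = ((2 * nu * M c - (L - eps p c - aa c - y c) * (L - eps p c - aa c - y c + 1)
          - nu * (nu + 1) - (U - del p c) * (U - del p c + 1) : ℤ) : ℝ) := by
      intro c
      have hs : sP p c = -eps p c := by
        unfold sP eps
        split_ifs <;> rfl
      have ht : tP p c = -del p c := by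
        unfold tP del
        split_ifs <;> simp
      unfold clsVal tri
      rw [hs, ht, hz c, hlam', hmu']
      simp only [haa, hy]
      push_cast
      ring
    rw [mul_add, Finset.mul_sum, Finset.sum_congr rfl fun c _ => e1 c, ← Int.cast_sum]
    rw [Finset.sum_sub_distrib, Finset.sum_sub_distrib, Finset.sum_sub_distrib,
      ← Finset.mul_sum, hN]
    rw [Fin.sum_univ_eq_sum_range
        (fun c => (L - eps p c - aa c - y c) * (L - eps p c - aa c - y c + 1)) p,
      Fin.sum_univ_eq_sum_range (fun _ => nu * (nu + 1)) p,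
      Fin.sum_univ_eq_sum_range (fun c => (U - del p c) * (U - del p c + 1)) p]
    rw [hlam', hmu']
    push_cast
    ring
  -- floors
  have n1 := two_sum_floor_shift a A p hp0
  have n3 := two_sum_floor q p hp0
  have n4 := two_sum_floor K p hp0
  have hkA : ∑ c ∈ range p, (AA c - aa c) = A := by
    rw [Finset.sum_sub_distrib, sA, sa]; ring
  have eR : ∑ c ∈ range p, (AA c * (AA c - 1) - aa c * (aa c - 1) + 2 * (AA c - aa c) * (Y - L)
        + (L - eps p c - aa c - y c) * (L - eps p c - aa c - y c + 1))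
      = ∑ c ∈ range p, (AA c * (AA c - 1) - aa c * (aa c - 1)) + 2 * (Y - L) * A
        + ∑ c ∈ range p, ((L - eps p c - aa c - y c) * (L - eps p c - aa c - y c + 1)) := by
    rw [Finset.sum_add_distrib, Finset.sum_add_distrib, ← hkA, Finset.mul_sum]
    congr 2
    exact Finset.sum_congr rfl fun c _ => by ring
  have eQ : ∑ c ∈ range p, (ng c * (ng c - 1) - 2 * U * ng c
        + (U - del p c) * (U - del p c + 1))
      = ∑ c ∈ range p, ng c * (ng c - 1) - 2 * U * K
        + ∑ c ∈ range p, (U - del p c) * (U - del p c + 1) := by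
    rw [Finset.sum_add_distrib, Finset.sum_sub_distrib, ← Finset.mul_sum, sg']
  have eT : ∑ c ∈ range p, (nq c * (nq c - 1) - 2 * nu * nq c + nu * (nu + 1))
      = ∑ c ∈ range p, nq c * (nq c - 1) - 2 * nu * q + ∑ c ∈ range p, nu * (nu + 1) := by
    rw [Finset.sum_add_distrib, Finset.sum_sub_distrib, ← Finset.mul_sum, sq']
  rw [eR, hkA] at hR
  rw [eQ, sg'] at hQ
  rw [eT] at hT
  set FR : ℕ := ∑ l ∈ range A, (a + l) / p with hFR
  set FT : ℕ := ∑ l ∈ range q, l / p with hFT
  set FQ : ℕ := ∑ l ∈ range K, l / p with hFQ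
  set Cr : ℤ := ∑ c ∈ range p, (AA c - aa c) * (y c - Y) with hCr
  -- the integer inequality
  have hint : 2 * (FR : ℤ) + 2 * A * Y + 2 * FT + 2 * FQ - (2 * (L * A + U * K + nu * q)
        - ∑ c ∈ range p, ((L - eps p c - aa c - y c) * (L - eps p c - aa c - y c + 1))
        - ∑ c ∈ range p, nu * (nu + 1)
        - ∑ c ∈ range p, (U - del p c) * (U - del p c + 1))
      ≤ A + 3 * L + 3 * (p + 1) - 2 * K + p - 1 + 2 * U - 2 * Cr := by
    rw [n1, n3, n4]
    linarith
  have hreal : 2 * (FR : ℝ) + 2 * A * Y + 2 * FT + 2 * FQ - 2 * ((lam : ℝ) * A + mu * K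
        + ∑ c, clsVal (M c) nu (lam + (sP p c - z c)) (mu + tP p c))
      ≤ A + 3 * L + 3 * (p + 1) - 2 * K + p - 1 + 2 * U - 2 * Cr := by
    rw [hcert]
    exact_mod_cast hint
  -- bounds for `L`, `U`
  have hLb : (L : ℝ) ≤ (a + A + w) / p := by
    have e1 : (((a + A) / p : ℕ) : ℝ) ≤ ((a + A : ℕ) : ℝ) / p := Nat.cast_div_le
    have e2 : ((w / p : ℕ) : ℝ) ≤ (w : ℝ) / p := Nat.cast_div_le
    rw [hL, hY, Int.cast_add, Int.cast_natCast, Int.cast_natCast, add_div]
    rw [Nat.cast_add] at e1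
    exact add_le_add e1 e2
  have hUb : (U : ℝ) ≤ K / p + 1 := by
    have e1 : ((K / p : ℕ) : ℝ) ≤ (K : ℝ) / p := Nat.cast_div_le
    rw [hU, Int.cast_add, Int.cast_natCast, Int.cast_one]
    linarith
  have hYr : (Y : ℝ) = ((w / p : ℕ) : ℝ) := by rw [hY, Int.cast_natCast]
  rw [hYr] at hreal
  have efin : (3 / 2 * ((a : ℝ) + A + w) + K) / p = 3 / 2 * (((a : ℝ) + A + w) / p) + K / p := by
    field_simp
  rw [efin]
  linarith

/-! ### the number of gauge zeros -/

lemma half_div (x p : ℤ) : (2 * x + 1) / (2 * p) = x / p := by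
  rw [← Int.ediv_ediv_of_nonneg (by norm_num : (0 : ℤ) ≤ 2)]
  congr 1
  omega

lemma cntH_eq_jst (i u p c : ℕ) (hc : c < p) (hodd : p % 2 = 1) :
    ((cntH (i * u) p c : ℕ) : ℤ)
      = Crest.Agent.R006.P8.jst 0 1 u p c - Crest.Agent.R006.P8.jst (-(i : ℤ)) 1 u p c := by
  have hp : (0 : ℤ) < p := by exact_mod_cast (by omega : 0 < p)
  obtain ⟨h, hh⟩ : ∃ h, p = 2 * h + 1 := ⟨p / 2, by omega⟩
  unfold Crest.Agent.R006.P8.jst cntH cnt rfl2
  by_cases hcp : 2 * c < p
  · rw [if_pos hcp]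
    have e1 : (2 * (c : ℤ) + 1 * p - 2 * 0 * u) / (2 * p) = 0 := by
      apply Int.ediv_eq_zero_of_lt
      · linarith [Int.natCast_nonneg c]
      · have : (2 * c : ℤ) < p := by exact_mod_cast hcp
        linarith
    have e2 : 2 * (c : ℤ) + 1 * p - 2 * -(i : ℤ) * u
        = 2 * (((i * u + h + c : ℕ)) : ℤ) + 1 := by
      rw [hh]; push_cast; ring
    rw [e1, e2, half_div, Int.natCast_ediv]
    have e3 : i * u + p - 1 - ((p - 1) / 2 - c) = i * u + h + c := by omega
    rw [e3]
    ring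
  · rw [if_neg hcp]
    have e1 : (2 * (c : ℤ) + 1 * p - 2 * 0 * u) / (2 * p) = 1 := by
      have h1 : (p : ℤ) ≤ 2 * c := by exact_mod_cast not_lt.mp hcp
      have h2 : (c : ℤ) < p := by exact_mod_cast hc
      rw [Int.ediv_eq_iff_of_pos (by linarith)]
      constructor <;> linarith
    have e2 : 2 * (c : ℤ) + 1 * p - 2 * -(i : ℤ) * u
        = 2 * (((i * u + c - (h + 1) : ℕ)) : ℤ) + 1 + 1 * (2 * p) := by
      rw [Nat.cast_sub (by omega)]
      rw [hh]; push_cast; ring
    rw [e1, e2, Int.add_mul_ediv_right _ _ (by linarith), half_div, Int.natCast_ediv]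
    have e3 : i * u + p - 1 - ((3 * p - 1) / 2 - c) = i * u + c - (h + 1) := by omega
    rw [e3]
    ring

/-- 555's number of gauge zeros, for `a2 = r1 = 0` -/
theorem zc_eq_cnt (S : Crest.Agent.R006.D.Shape) (u p c : ℕ) (hc : c < p) (hodd : p % 2 = 1)
    (ha2 : S.a2 = 0) (hr1 : S.r1 = 0) :
    (Crest.Agent.R006.GaugeP555.zc S u p c : ℤ) = cnt (S.a1 * u) p c + cntH (S.i1 * u) p c := by
  have h0 := Crest.Agent.R006.GaugeP555.jst_zero u p c (by positivity) (by exact_mod_cast hc)
  rw [Crest.Agent.R006.GaugeP555.zc_eq S u p c (by positivity) (by exact_mod_cast hc) hodd, ha2, hr1,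
    cnt_eq_jst _ _ _ _ hc, cntH_eq_jst _ _ _ _ hc hodd]
  simp only [Nat.cast_zero, neg_zero]
  rw [h0]
  ring

end Crest.Agent.R006.P5Mid788
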