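import Crest.Agent.R006.Defs
import Crest.Agent.R006.PNTSum_365
import Crest.Agent.R006.CellTot_305

/-!
# Row 6, P8: `Odd` from the blocks (helper529)

`Odd S c α` (the total of the losses at all primes `p ≥ 5`) follows from
* `Crude` (P5, used for `p ≤ √(C0 u)` only),
* `Small` (P5b, `√(C0 u) < p ≤ x u`, an affine bound),
* `Mid` (P4, `x u < p ≤ X u`), which in turn follows from `Strip`s over a chain of pieces
  (`Mid.of_strips`) or from the class form `ClassBd` and the verified integrator `totalLow`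
  (`Mid.of_class`), and can be glued (`Mid.append`),
* `Large` (`p > X u`).
-/

set_option autoImplicit false

namespace Crest.Agent.R006.D.Oddx529

open Polynomial Filter Crest.Agent.R006.P8

/-! ### `Loss` -/

theorem loss_mono {p : ℕ} {P : ℚ[X]} {E F : ℝ} (h : Loss p P E) (hEF : E ≤ F) : Loss p P F :=
  fun i hi => le_trans (neg_le_neg hEF) (h i hi)

/-! ### the block statements that are not in `Defs` -/

/-- P5b: affine bound for `√(C0 u) < p ≤ x u` -/
def Small (S : Shape) (c : ℕ) (C0 : ℝ) (x al be : ℚ) : Prop :=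
  ∃ C' : ℝ, ∀ᶠ u : ℕ in atTop, ∀ r : Col S u → Row, Adm S u c r → ∀ p : ℕ, p.Prime → 5 ≤ p →
    C0 * u < (p : ℝ) ^ 2 → (p : ℝ) ≤ x * u → Loss p (Minor S u r) (u * (al + be * (p / u)) + C')

/-- the total of the losses at the primes `x u < p ≤ X u` -/
def Mid (S : Shape) (c : ℕ) (x X : ℚ) (α : ℝ) : Prop :=
  ∀ δ : ℝ, 0 < δ → ∀ᶠ u : ℕ in atTop, ∀ r : Col S u → Row, Adm S u c r →
    ∃ E : ℕ → ℝ, (∀ p ∈ pr (x * u) (X * u), Loss p (Minor S u r) (E p)) ∧
      ∑ p ∈ pr (x * u) (X * u), Real.log p * E p ≤ (α + δ) * (u : ℝ) ^ 2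

/-- P4 in class form, on the consecutive strips `L` -/
def ClassBd (S : Shape) (c : ℕ) (bd : List (ℤ × ℤ)) (kap : List ℤ → List ℤ → ℤ)
    (ext : List ℤ → ℤ) (L : List St) : Prop :=
  ∃ C' : ℝ, ∀ᶠ u : ℕ in atTop, ∀ r : Col S u → Row, Adm S u c r →
    ∀ s s' : St, [s, s'] <:+: L → ∀ p : ℕ, p.Prime → (s.u : ℝ) / s.v * u < p →
      (p : ℝ) ≤ (s'.u : ℝ) / s'.v * u →
      Loss p (Minor S u r)
        (-((∑ k ∈ Finset.range p, (kap s.t (jvec bd u p k) : ℝ)) + ext s.t * u - C'))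

/-! ### the small primes -/

theorem low_sum_le (C0 : ℝ) (hC0 : 0 < C0) (K' C' : ℝ) (x al be : ℚ) (hx : 0 < x) {δ : ℝ}
    (hδ : 0 < δ) : ∀ᶠ b : ℝ in atTop, ∀ E : ℕ → ℝ,
      (∀ p ∈ pr 0 (x * b), (p : ℝ) ^ 2 ≤ C0 * b → Real.log p * E p ≤ K' * (b * Real.log b)) →
      (∀ p ∈ pr 0 (x * b), C0 * b < (p : ℝ) ^ 2 → E p ≤ b * (al + be * (p / b)) + C') →
      ∑ p ∈ pr 0 (x * b), Real.log p * E p
        ≤ b ^ 2 * ((al : ℝ) * x + be * (x : ℝ) ^ 2 / 2 + δ) := by
  have hx' : (0 : ℝ) < x := by exact_mod_cast hx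
  set K'' : ℝ := |K'| + |(al : ℝ)| + |(be : ℝ)| + |C'| with hK''
  have hK''0 : 0 ≤ K'' := by positivity
  have h1 := chain_sum_le [⟨0, x, al, be⟩] 0 x le_rfl ⟨rfl, hx.le, rfl⟩ C' (δ := δ / 2)
    (by positivity)
  have h2 := tiny_sum_le C0 K'' (δ := δ / 2) (by positivity)
  have h3 : ∀ᶠ b : ℝ in atTop, Real.sqrt (C0 * b) ≤ x * b := by
    filter_upwards [eventually_ge_atTop (C0 / (x : ℝ) ^ 2), eventually_gt_atTop 0] with b hb hb0
    rw [Real.sqrt_le_left (by positivity)]
    rw [div_le_iff₀ (by positivity)] at hb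
    nlinarith
  have h4 : ∀ᶠ b : ℝ in atTop, Real.sqrt (C0 * b) ≤ b := by
    filter_upwards [eventually_ge_atTop C0, eventually_gt_atTop 0] with b hb hb0
    rw [Real.sqrt_le_left hb0.le]
    nlinarith
  filter_upwards [h1, h2, h3, h4, eventually_ge_atTop 1] with b h1 h2 h3 h4 hb1 E hE1 hE2
  have hb0 : 0 < b := by linarith
  have hlogb : 0 ≤ Real.log b := Real.log_nonneg hb1
  have hsq : ∀ p : ℕ, (p : ℝ) ^ 2 ≤ C0 * b ↔ (p : ℝ) ≤ Real.sqrt (C0 * b) := fun p =>
    (Real.le_sqrt (Nat.cast_nonneg p) (by positivity)).symm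
  classical
  set f : ℕ → ℝ := fun p => b * (al + be * (p / b)) + C' with hf
  set E1 : ℕ → ℝ := fun p => if (p : ℝ) ^ 2 ≤ C0 * b then f p else E p with hE1'
  set E2 : ℕ → ℝ := fun p => E p - f p with hE2'
  have s1 : ∑ p ∈ pr 0 (x * b), Real.log p * E1 p
      ≤ b ^ 2 * ((al : ℝ) * x + be * (x : ℝ) ^ 2 / 2 + δ / 2) := by
    have h := h1 E1 (by
      intro P hP p hp
      rw [List.mem_singleton] at hP
      subst hP
      simp only [hE1']
      split_ifs with hc
      · exact le_rfl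
      · refine hE2 p ?_ (not_le.mp hc)
        simpa using hp)
    have e1 : (pieceSum [⟨0, x, al, be⟩] : ℝ) = (al : ℝ) * x + be * (x : ℝ) ^ 2 / 2 := by
      simp [pieceSum, Piece.I]
    rw [e1] at h
    simpa using h
  have s2 : ∑ p ∈ pr 0 (Real.sqrt (C0 * b)), Real.log p * E2 p ≤ δ / 2 * b ^ 2 := by
    refine h2 E2 fun p hp => ?_
    have hp' := mem_pr.mp hp
    have hpb : (p : ℝ) ≤ b := hp'.2.2.trans h4
    have hlp : 0 ≤ Real.log p := log_nonneg_of_mem hp
    have hlpb : Real.log p ≤ Real.log b := Real.log_le_log hp'.2.1 hpb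
    have hmem : p ∈ pr 0 (x * b) := mem_pr.mpr ⟨hp'.1, hp'.2.1, hp'.2.2.trans h3⟩
    have e1 := hE1 p hmem ((hsq p).mpr hp'.2.2)
    have e2 : -f p ≤ (|(al : ℝ)| + |(be : ℝ)| + |C'|) * b := by
      have : f p = b * al + be * p + C' := by
        simp only [hf]; field_simp
      rw [this]
      have a1 : -(b * al) ≤ |(al : ℝ)| * b := by
        have := neg_abs_le (al : ℝ)
        nlinarith
      have a2 : -((be : ℝ) * p) ≤ |(be : ℝ)| * b := by
        have h := neg_abs_le (be : ℝ)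
        have hh : |(be : ℝ)| * p ≤ |(be : ℝ)| * b := mul_le_mul_of_nonneg_left hpb (abs_nonneg _)
        have : -(be : ℝ) * p ≤ |(be : ℝ)| * p :=
          mul_le_mul_of_nonneg_right (by linarith) hp'.2.1.le
        linarith
      have a3 : -C' ≤ |C'| * b := by
        have h := neg_abs_le C'
        have hh : |C'| * 1 ≤ |C'| * b := mul_le_mul_of_nonneg_left hb1 (abs_nonneg _)
        linarith
      linarith
    have e3 : Real.log p * (-f p) ≤ Real.log b * ((|(al : ℝ)| + |(be : ℝ)| + |C'|) * b) := by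
      refine (mul_le_mul_of_nonneg_left e2 hlp).trans ?_
      exact mul_le_mul_of_nonneg_right hlpb (by positivity)
    have e4 : K' * (b * Real.log b) ≤ |K'| * (b * Real.log b) :=
      mul_le_mul_of_nonneg_right (le_abs_self _) (by positivity)
    simp only [hE2']
    rw [hK'']
    nlinarith
  have s3 : ∑ p ∈ pr 0 (x * b), Real.log p * E p
      = ∑ p ∈ pr 0 (x * b), Real.log p * E1 p
        + ∑ p ∈ pr 0 (Real.sqrt (C0 * b)), Real.log p * E2 p := by
    have hsp := sum_pr_add (Real.sqrt_nonneg (C0 * b)) h3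
    rw [← hsp (fun p => Real.log p * E p), ← hsp (fun p => Real.log p * E1 p)]
    have t1 : ∑ p ∈ pr (Real.sqrt (C0 * b)) (x * b), Real.log p * E p
        = ∑ p ∈ pr (Real.sqrt (C0 * b)) (x * b), Real.log p * E1 p := by
      refine Finset.sum_congr rfl fun p hp => ?_
      have hp' := mem_pr.mp hp
      simp only [hE1']
      rw [if_neg]
      rw [hsq]
      exact not_le.mpr hp'.2.1
    have t2 : ∑ p ∈ pr 0 (Real.sqrt (C0 * b)), Real.log p * E p
        = ∑ p ∈ pr 0 (Real.sqrt (C0 * b)), Real.log p * E1 p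
          + ∑ p ∈ pr 0 (Real.sqrt (C0 * b)), Real.log p * E2 p := by
      rw [← Finset.sum_add_distrib]
      refine Finset.sum_congr rfl fun p hp => ?_
      have hp' := mem_pr.mp hp
      simp only [hE1', hE2']
      rw [if_pos ((hsq p).mpr hp'.2.2)]
      ring
    rw [t1, t2]
    ring
  rw [s3]
  nlinarith

/-- P5b in the sum form: the total of the losses at the primes `√(C0 u) < p ≤ x u` -/
def SmallSum (S : Shape) (c : ℕ) (C0 : ℝ) (x : ℚ) (al : ℝ) : Prop :=
  ∀ δ : ℝ, 0 < δ → ∀ᶠ u : ℕ in atTop, ∀ r : Col S u → Row, Adm S u c r → ∃ E : ℕ → ℝ,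
    (∀ p : ℕ, p.Prime → 5 ≤ p → C0 * u < (p : ℝ) ^ 2 → (p : ℝ) ≤ x * u →
      Loss p (Minor S u r) (E p)) ∧
    ∑ p ∈ pr (Real.sqrt (C0 * u)) (x * u), E p * Real.log p ≤ (al + δ) * (u : ℝ) ^ 2

/-- **`Odd` from the blocks**, everything in sum form. -/
theorem odd_of_sum (S : Shape) (c : ℕ) {K : ℝ} (hCr : Crude S c K) {C0 : ℝ} (hC0 : 0 < C0)
    {x X : ℚ} (hx : 0 < x) (hxX : x ≤ X) {αs αm : ℝ} (hSm : SmallSum S c C0 x αs)
    (hM : Mid S c x X αm) (hL : Large S c X) {α : ℝ} (hα : αs + αm ≤ α) : Odd S c α := by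
  classical
  intro δ hδ
  have hx' : (0 : ℝ) < x := by exact_mod_cast hx
  have hxX' : (x : ℝ) ≤ X := by exact_mod_cast hxX
  have htiny := tendsto_natCast_atTop_atTop.eventually
    (tiny_sum_le C0 (3 * |K|) (δ := δ / 3) (by positivity))
  have hsq : ∀ᶠ u : ℕ in atTop, C0 ≤ (x : ℝ) ^ 2 * u := by
    have : Tendsto (fun u : ℕ => (x : ℝ) ^ 2 * u) atTop atTop :=
      tendsto_natCast_atTop_atTop.const_mul_atTop (by positivity)
    exact this.eventually_ge_atTop C0
  have hC0u : ∀ᶠ u : ℕ in atTop, C0 ≤ (u : ℝ) :=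
    tendsto_natCast_atTop_atTop.eventually_ge_atTop C0
  have hbig : ∀ᶠ u : ℕ in atTop, 1 ≤ Real.log (u : ℝ) :=
    (Real.tendsto_log_atTop.comp tendsto_natCast_atTop_atTop).eventually_ge_atTop 1
  have h16 : ∀ᶠ u : ℕ in atTop, 25 ≤ C0 * u := by
    have : Tendsto (fun u : ℕ => C0 * u) atTop atTop :=
      tendsto_natCast_atTop_atTop.const_mul_atTop hC0
    exact this.eventually_ge_atTop 25
  filter_upwards [hCr, hSm (δ / 3) (by positivity), hM (δ / 3) (by positivity), hL, htiny, hsq,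
    hC0u, hbig, h16, eventually_gt_atTop 0] with u hCr hSm hM hL htiny hsq hC0u hbig h16 hu r hr
  have hu' : (0 : ℝ) < u := by exact_mod_cast hu
  have hu1 : (1 : ℝ) ≤ u := by exact_mod_cast hu
  obtain ⟨Es, hEs, hEss⟩ := hSm r hr
  obtain ⟨Em, hEm, hEms⟩ := hM r hr
  have hsq' : ∀ p : ℕ, (p : ℝ) ^ 2 ≤ C0 * u ↔ (p : ℝ) ≤ Real.sqrt (C0 * u) := fun p =>
    (Real.le_sqrt (Nat.cast_nonneg p) (by positivity)).symm
  have hs5 : 5 ≤ Real.sqrt (C0 * u) := by
    rw [Real.le_sqrt (by norm_num) (by positivity)]; linarith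
  have hsx : Real.sqrt (C0 * u) ≤ x * u := by
    rw [Real.sqrt_le_left (by positivity)]
    have := mul_le_mul_of_nonneg_right hsq hu'.le
    nlinarith
  have hxu : (x : ℝ) * u ≤ X * u := mul_le_mul_of_nonneg_right hxX' hu'.le
  set E : ℕ → ℝ := fun p => if p < 5 then 0 else if (p : ℝ) ^ 2 ≤ C0 * u then
    |K| * u * (1 + Nat.log p u) else if (p : ℝ) ≤ x * u then Es p else Em p with hE
  have hlogb : 0 ≤ Real.log (u : ℝ) := by linarith
  have h5lt : ∀ p : ℕ, Real.sqrt (C0 * u) < p → ¬ p < 5 := by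
    intro p hp h
    have : (p : ℝ) < 5 := by exact_mod_cast h
    linarith
  refine ⟨(pr 0 (X * u)).filter (5 ≤ ·), E, ?_, ?_, ?_⟩
  · intro p hp
    rw [Finset.mem_filter] at hp
    exact ⟨(mem_pr.mp hp.1).1, hp.2⟩
  · intro p hp hp5
    by_cases hpX : (p : ℝ) ≤ X * u
    · have hmem : p ∈ (pr 0 (X * u)).filter (5 ≤ ·) := by
        rw [Finset.mem_filter, mem_pr]
        exact ⟨⟨hp, by exact_mod_cast hp.pos, hpX⟩, hp5⟩
      rw [if_pos hmem]
      simp only [hE]
      rw [if_neg (by omega)]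
      split_ifs with h1 h2
      · refine loss_mono (hCr r hr p hp hp5) ?_
        have : (0 : ℝ) ≤ u * (1 + Nat.log p u) := by positivity
        have h := mul_le_mul_of_nonneg_right (le_abs_self K) this
        linarith
      · exact hEs p hp hp5 (not_le.mp h1) h2
      · exact hEm p (mem_pr.mpr ⟨hp, not_le.mp h2, hpX⟩)
    · have hmem : p ∉ (pr 0 (X * u)).filter (5 ≤ ·) := by
        rw [Finset.mem_filter, mem_pr]
        exact fun h => hpX h.1.2.2
      rw [if_neg hmem]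
      exact hL r hr p hp (not_le.mp hpX)
  · have e0 : ∑ p ∈ (pr 0 (X * u)).filter (5 ≤ ·), E p * Real.log p
        = ∑ p ∈ pr 0 (X * u), Real.log p * E p := by
      rw [Finset.sum_filter]
      refine Finset.sum_congr rfl fun p _ => ?_
      split_ifs with h
      · ring
      · simp only [hE]
        rw [if_pos (by omega)]
        ring
    have e1 := sum_pr_add (x := 0) (y := x * u) (z := X * u) (by positivity) hxu
      (fun p => Real.log p * E p)
    have e1' := sum_pr_add (Real.sqrt_nonneg (C0 * u)) hsx (fun p => Real.log p * E p)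
    have e2 : ∑ p ∈ pr (x * u) (X * u), Real.log p * E p
        = ∑ p ∈ pr (x * u) (X * u), Real.log p * Em p := by
      refine Finset.sum_congr rfl fun p hp => ?_
      obtain ⟨hp0, hp1, hp2⟩ := mem_pr.mp hp
      have hp3 : Real.sqrt (C0 * u) < p := lt_of_le_of_lt hsx hp1
      simp only [hE]
      rw [if_neg (h5lt p hp3), if_neg (by rw [hsq']; exact not_le.mpr hp3),
        if_neg (not_le.mpr hp1)]
    have e2' : ∑ p ∈ pr (Real.sqrt (C0 * u)) (x * u), Real.log p * E p
        = ∑ p ∈ pr (Real.sqrt (C0 * u)) (x * u), Es p * Real.log p := by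
      refine Finset.sum_congr rfl fun p hp => ?_
      obtain ⟨hp0, hp1, hp2⟩ := mem_pr.mp hp
      simp only [hE]
      rw [if_neg (h5lt p hp1), if_neg (by rw [hsq']; exact not_le.mpr hp1), if_pos hp2]
      ring
    have e3 := htiny E (by
      intro p hp
      obtain ⟨hp0, hp1, hp2⟩ := mem_pr.mp hp
      have hpC : (p : ℝ) ^ 2 ≤ C0 * u := (hsq' p).mpr hp2
      have hr0 : 0 ≤ 3 * |K| * ((u : ℝ) * Real.log u) := by positivity
      simp only [hE]
      split_ifs with h1
      · rw [mul_zero]; exact hr0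
      · have hlp : 0 ≤ Real.log p := log_nonneg_of_mem hp
        have hpu : (p : ℝ) ≤ u := by
          have : (p : ℝ) ^ 2 ≤ (u : ℝ) ^ 2 := by nlinarith
          exact le_of_sq_le_sq this hu'.le
        have hlpu : Real.log p ≤ Real.log u := Real.log_le_log hp1 hpu
        have hnl : (Nat.log p u : ℝ) * Real.log p ≤ Real.log u := by
          have h2 : p ^ Nat.log p u ≤ u := Nat.pow_log_le_self p hu.ne'
          have h3 : Real.log ((p : ℝ) ^ Nat.log p u) ≤ Real.log u := by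
            refine Real.log_le_log (by positivity) ?_
            exact_mod_cast h2
          rwa [Real.log_pow] at h3
        have h4 : Real.log p * (1 + Nat.log p u) ≤ 2 * Real.log u := by linarith
        have h5 : Real.log p * (|K| * u * (1 + Nat.log p u))
            = |K| * u * (Real.log p * (1 + Nat.log p u)) := by ring
        rw [h5]
        have h6 : |K| * u * (Real.log p * (1 + Nat.log p u)) ≤ |K| * u * (2 * Real.log u) :=
          mul_le_mul_of_nonneg_left h4 (by positivity)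
        have h7 : 0 ≤ |K| * (u * Real.log u) := by positivity
        linarith)
    rw [e0, ← e1, ← e1', e2, e2']
    have e4 := mul_le_mul_of_nonneg_right hα (by positivity : (0 : ℝ) ≤ (u : ℝ) ^ 2)
    nlinarith

/-- **`Odd` from the blocks**, affine form of P5b. -/
theorem odd_of_mid (S : Shape) (c : ℕ) {K : ℝ} (hCr : Crude S c K) {C0 : ℝ} (hC0 : 0 < C0)
    {x X al be : ℚ} (hx : 0 < x) (hxX : x ≤ X) (hSm : Small S c C0 x al be) {αm : ℝ}
    (hM : Mid S c x X αm) (hL : Large S c X) {α : ℝ}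
    (hα : (al : ℝ) * x + be * (x : ℝ) ^ 2 / 2 + αm ≤ α) : Odd S c α := by
  classical
  intro δ hδ
  have hx' : (0 : ℝ) < x := by exact_mod_cast hx
  have hxX' : (x : ℝ) ≤ X := by exact_mod_cast hxX
  obtain ⟨C', hSm⟩ := hSm
  have hlow := tendsto_natCast_atTop_atTop.eventually
    (low_sum_le C0 hC0 (3 * |K|) C' x al be hx (δ := δ / 2) (by positivity))
  have hsq : ∀ᶠ u : ℕ in atTop, C0 ≤ (x : ℝ) ^ 2 * u := by
    have : Tendsto (fun u : ℕ => (x : ℝ) ^ 2 * u) atTop atTop :=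
      tendsto_natCast_atTop_atTop.const_mul_atTop (by positivity)
    exact this.eventually_ge_atTop C0
  have hC0u : ∀ᶠ u : ℕ in atTop, C0 ≤ (u : ℝ) :=
    tendsto_natCast_atTop_atTop.eventually_ge_atTop C0
  have hbig : ∀ᶠ u : ℕ in atTop, 1 ≤ Real.log (u : ℝ) :=
    (Real.tendsto_log_atTop.comp tendsto_natCast_atTop_atTop).eventually_ge_atTop 1
  have h5 : ∀ᶠ u : ℕ in atTop, 5 ≤ (x : ℝ) * u := by
    have : Tendsto (fun u : ℕ => (x : ℝ) * u) atTop atTop :=
      tendsto_natCast_atTop_atTop.const_mul_atTop hx'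
    exact this.eventually_ge_atTop 5
  have h16 : ∀ᶠ u : ℕ in atTop, 25 ≤ C0 * u := by
    have : Tendsto (fun u : ℕ => C0 * u) atTop atTop :=
      tendsto_natCast_atTop_atTop.const_mul_atTop hC0
    exact this.eventually_ge_atTop 25
  filter_upwards [hCr, hSm, hM (δ / 2) (by positivity), hL, hlow, hsq, hC0u, hbig, h5, h16,
    eventually_gt_atTop 0] with u hCr hSm hM hL hlow hsq hC0u hbig h5 h16 hu r hr
  have hu' : (0 : ℝ) < u := by exact_mod_cast hu
  have hu1 : (1 : ℝ) ≤ u := by exact_mod_cast hu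
  obtain ⟨Em, hEm, hEs⟩ := hM r hr
  set f : ℕ → ℝ := fun p => u * ((al : ℝ) + be * (p / u)) + C' with hf
  set E : ℕ → ℝ := fun p => if p < 5 then 0 else if (p : ℝ) ^ 2 ≤ C0 * u then
    |K| * u * (1 + Nat.log p u) else if (p : ℝ) ≤ x * u then f p else Em p with hE
  have hlogb : 0 ≤ Real.log (u : ℝ) := by linarith
  refine ⟨(pr 0 (X * u)).filter (5 ≤ ·), E, ?_, ?_, ?_⟩
  · intro p hp
    rw [Finset.mem_filter] at hp
    exact ⟨(mem_pr.mp hp.1).1, hp.2⟩
  · intro p hp hp5
    by_cases hpX : (p : ℝ) ≤ X * u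
    · have hmem : p ∈ (pr 0 (X * u)).filter (5 ≤ ·) := by
        rw [Finset.mem_filter, mem_pr]
        exact ⟨⟨hp, by exact_mod_cast hp.pos, hpX⟩, hp5⟩
      rw [if_pos hmem]
      simp only [hE]
      rw [if_neg (by omega)]
      split_ifs with h1 h2
      · refine loss_mono (hCr r hr p hp hp5) ?_
        have : (0 : ℝ) ≤ u * (1 + Nat.log p u) := by positivity
        have h := mul_le_mul_of_nonneg_right (le_abs_self K) this
        linarith
      · exact hSm r hr p hp hp5 (not_le.mp h1) h2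
      · exact hEm p (mem_pr.mpr ⟨hp, not_le.mp h2, hpX⟩)
    · have hmem : p ∉ (pr 0 (X * u)).filter (5 ≤ ·) := by
        rw [Finset.mem_filter, mem_pr]
        exact fun h => hpX h.1.2.2
      rw [if_neg hmem]
      exact hL r hr p hp (not_le.mp hpX)
  · have e0 : ∑ p ∈ (pr 0 (X * u)).filter (5 ≤ ·), E p * Real.log p
        = ∑ p ∈ pr 0 (X * u), Real.log p * E p := by
      rw [Finset.sum_filter]
      refine Finset.sum_congr rfl fun p _ => ?_
      split_ifs with h
      · ring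
      · simp only [hE]
        rw [if_pos (by omega)]
        ring
    have e1 := sum_pr_add (x := 0) (y := x * u) (z := X * u) (by positivity)
      (mul_le_mul_of_nonneg_right hxX' hu'.le) (fun p => Real.log p * E p)
    have e2 : ∑ p ∈ pr (x * u) (X * u), Real.log p * E p
        = ∑ p ∈ pr (x * u) (X * u), Real.log p * Em p := by
      refine Finset.sum_congr rfl fun p hp => ?_
      obtain ⟨hp0, hp1, hp2⟩ := mem_pr.mp hp
      have hp5 : (5 : ℝ) < p := lt_of_le_of_lt h5 hp1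
      have hp5' : 5 < p := by exact_mod_cast hp5
      simp only [hE]
      rw [if_neg (by omega), if_neg, if_neg (not_le.mpr hp1)]
      rw [not_le]
      have h1 : (x * u : ℝ) ^ 2 < (p : ℝ) ^ 2 := by gcongr
      have h2 : C0 * u ≤ (x * u : ℝ) ^ 2 := by
        have := mul_le_mul_of_nonneg_right hsq hu'.le
        nlinarith
      linarith
    have e3 := hlow E (by
      intro p hp hpC
      obtain ⟨hp0, hp1, hp2⟩ := mem_pr.mp hp
      have hr0 : 0 ≤ 3 * |K| * ((u : ℝ) * Real.log u) := by positivity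
      simp only [hE]
      split_ifs with h1
      · rw [mul_zero]; exact hr0
      · have hlp : 0 ≤ Real.log p := log_nonneg_of_mem hp
        -- `p ≤ u`
        have hpu : (p : ℝ) ≤ u := by
          have : (p : ℝ) ^ 2 ≤ (u : ℝ) ^ 2 := by nlinarith
          exact le_of_sq_le_sq this hu'.le
        have hlpu : Real.log p ≤ Real.log u := Real.log_le_log hp1 hpu
        have hnl : (Nat.log p u : ℝ) * Real.log p ≤ Real.log u := by
          have h2 : p ^ Nat.log p u ≤ u := Nat.pow_log_le_self p hu.ne'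
          have h3 : Real.log ((p : ℝ) ^ Nat.log p u) ≤ Real.log u := by
            refine Real.log_le_log (by positivity) ?_
            exact_mod_cast h2
          rwa [Real.log_pow] at h3
        have h4 : Real.log p * (1 + Nat.log p u) ≤ 2 * Real.log u := by linarith
        have h5 : Real.log p * (|K| * u * (1 + Nat.log p u))
            = |K| * u * (Real.log p * (1 + Nat.log p u)) := by ring
        rw [h5]
        have h6 : |K| * u * (Real.log p * (1 + Nat.log p u)) ≤ |K| * u * (2 * Real.log u) :=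
          mul_le_mul_of_nonneg_left h4 (by positivity)
        have h7 : 0 ≤ |K| * (u * Real.log u) := by positivity
        linarith) (by
      intro p hp hpC
      obtain ⟨hp0, hp1, hp2⟩ := mem_pr.mp hp
      have hp5 : ¬ p < 5 := by
        intro h
        have h1 : (p : ℝ) ≤ 5 := by exact_mod_cast h.le
        have h2 : (p : ℝ) ^ 2 ≤ 25 := by nlinarith
        linarith
      simp only [hE]
      rw [if_neg hp5, if_neg (not_le.mpr hpC), if_pos hp2])
    rw [e0, ← e1, e2]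
    have e4 := mul_le_mul_of_nonneg_left hα (by positivity : (0 : ℝ) ≤ (u : ℝ) ^ 2)
    nlinarith

/-! ### the middle range -/

theorem Mid.mono {S : Shape} {c : ℕ} {x X : ℚ} {α β : ℝ} (h : Mid S c x X α) (hαβ : α ≤ β) :
    Mid S c x X β := by
  intro δ hδ
  filter_upwards [h δ hδ] with u h r hr
  obtain ⟨E, h1, h2⟩ := h r hr
  refine ⟨E, h1, h2.trans ?_⟩
  gcongr

theorem Mid.append {S : Shape} {c : ℕ} {x y z : ℚ} {α β : ℝ} (hxy : x ≤ y) (hyz : y ≤ z)
    (h : Mid S c x y α) (h' : Mid S c y z β) : Mid S c x z (α + β) := by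
  classical
  intro δ hδ
  filter_upwards [h (δ / 2) (by positivity), h' (δ / 2) (by positivity)] with u h h' r hr
  obtain ⟨E, h1, h2⟩ := h r hr
  obtain ⟨E', h1', h2'⟩ := h' r hr
  have hxy' : (x : ℝ) * u ≤ y * u :=
    mul_le_mul_of_nonneg_right (by exact_mod_cast hxy) (Nat.cast_nonneg u)
  have hyz' : (y : ℝ) * u ≤ z * u :=
    mul_le_mul_of_nonneg_right (by exact_mod_cast hyz) (Nat.cast_nonneg u)
  refine ⟨fun p => if (p : ℝ) ≤ y * u then E p else E' p, ?_, ?_⟩
  · intro p hp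
    obtain ⟨hp0, hp1, hp2⟩ := mem_pr.mp hp
    simp only
    split_ifs with h
    · exact h1 p (mem_pr.mpr ⟨hp0, hp1, h⟩)
    · exact h1' p (mem_pr.mpr ⟨hp0, not_le.mp h, hp2⟩)
  · rw [← sum_pr_add hxy' hyz']
    have e1 : ∑ p ∈ pr (x * u) (y * u), Real.log p * (if (p : ℝ) ≤ y * u then E p else E' p)
        = ∑ p ∈ pr (x * u) (y * u), Real.log p * E p :=
      Finset.sum_congr rfl fun p hp => by rw [if_pos (mem_pr.mp hp).2.2]
    have e2 : ∑ p ∈ pr (y * u) (z * u), Real.log p * (if (p : ℝ) ≤ y * u then E p else E' p)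
        = ∑ p ∈ pr (y * u) (z * u), Real.log p * E' p :=
      Finset.sum_congr rfl fun p hp => by rw [if_neg (not_le.mpr (mem_pr.mp hp).2.1)]
    rw [e1, e2]
    linarith

theorem Mid.refl (S : Shape) (c : ℕ) (x : ℚ) : Mid S c x x 0 := by
  intro δ hδ
  filter_upwards with u r hr
  have : pr ((x : ℝ) * u) (x * u) = ∅ := by
    ext p
    simp only [mem_pr, Finset.notMem_empty, iff_false]
    rintro ⟨_, h1, h2⟩
    exact absurd h2 (not_le.mpr h1)
  refine ⟨fun _ => 0, ?_, ?_⟩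
  · rw [this]; simp
  · rw [this]
    simp only [Finset.sum_empty]
    positivity

/-- one strip -/
theorem Mid.of_strip {S : Shape} {c : ℕ} (P : Piece) (h0 : 0 ≤ P.lo) (hlh : P.lo ≤ P.hi)
    (h : Strip S c P.lo P.hi P.al P.be) : Mid S c P.lo P.hi (P.I : ℝ) := by
  intro δ hδ
  obtain ⟨C', h⟩ := h
  filter_upwards [h, tendsto_natCast_atTop_atTop.eventually (P.sum_le h0 hlh C' hδ)]
    with u h hs r hr
  refine ⟨fun p => u * ((P.al : ℝ) + P.be * (p / u)) + C', ?_, ?_⟩
  · intro p hp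
    obtain ⟨hp0, hp1, hp2⟩ := mem_pr.mp hp
    exact h r hr p hp0 hp1 hp2
  · have := hs (fun p => u * ((P.al : ℝ) + P.be * (p / u)) + C') fun p _ => le_rfl
    linarith

/-- a chain of strips -/
theorem Mid.of_strips {S : Shape} {c : ℕ} : ∀ (L : List Piece) (x X : ℚ), 0 ≤ x → Chain x L X →
    (∀ P ∈ L, Strip S c P.lo P.hi P.al P.be) → Mid S c x X (pieceSum L : ℝ)
  | [], x, X, _, hL, _ => by
    have : x = X := hL
    subst this
    simpa [pieceSum] using Mid.refl S c x
  | P :: L, x, X, h0, hL, h => by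
    obtain ⟨h1, h2, h3⟩ := hL
    subst h1
    have e : (pieceSum (P :: L) : ℝ) = (P.I : ℝ) + (pieceSum L : ℝ) := by
      simp [pieceSum]
    rw [e]
    exact Mid.append h2 h3.le (Mid.of_strip P h0 h2 (h P (by simp)))
      (Mid.of_strips L P.hi X (h0.trans h2) h3 fun Q hQ => h Q (by simp [hQ]))

theorem exists_strip (f : St → ℝ) (y : ℝ) (se : St) : ∀ (L : List St) (s0 : St), f s0 < y →
    y ≤ f se → ∃ s s', [s, s'] <:+: (s0 :: L ++ [se]) ∧ f s < y ∧ y ≤ f s'
  | [], s0, h0, h1 => ⟨s0, se, List.infix_rfl, h0, h1⟩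
  | s1 :: L, s0, h0, h1 => by
    by_cases h : y ≤ f s1
    · exact ⟨s0, s1, ⟨[], L ++ [se], by simp⟩, h0, h⟩
    · obtain ⟨s, s', hi, h2, h3⟩ := exists_strip f y se L s1 (not_le.mp h) h1
      exact ⟨s, s', List.infix_cons hi, h2, h3⟩

/-- the class form (P4, `kap` any class function, cells and totals by `totalLow`) -/
theorem Mid.of_class {S : Shape} {c : ℕ} (Sc : ℤ) (hSc : 0 < Sc) (bd : List (ℤ × ℤ))
    (kap : List ℤ → List ℤ → ℤ) (ext : List ℤ → ℤ) (s0 : St) (L : List St) (se : St) (T : ℤ)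
    (hT : totalLow Sc bd kap ext (s0 :: L ++ [se]) = some T)
    (h : ClassBd S c bd kap ext (s0 :: L ++ [se])) (x X : ℚ)
    (hx : (x : ℝ) = (s0.u : ℝ) / s0.v) (hX : (X : ℝ) = (se.u : ℝ) / se.v) :
    Mid S c x X (-((T : ℝ) / Sc)) := by
  classical
  intro δ hδ
  obtain ⟨C', h⟩ := h
  have ht := total_ge Sc hSc bd kap ext s0 L se T hT C' hδ
  filter_upwards [h, ht] with u h ht r hr
  set B : ℕ → St → ℝ := fun p s =>
    (∑ k ∈ Finset.range p, (kap s.t (jvec bd u p k) : ℝ)) + ext s.t * u - C' with hB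
  set F : ℕ → Finset St := fun p => (s0 :: L ++ [se]).toFinset.filter fun s =>
    ∃ s' : St, [s, s'] <:+: (s0 :: L ++ [se]) ∧ (s.u : ℝ) / s.v * u < p ∧
      (p : ℝ) ≤ (s'.u : ℝ) / s'.v * u with hF
  set V : ℕ → ℝ := fun p => if hne : (F p).Nonempty then (F p).sup' hne (B p) else 0 with hV
  have hmem : ∀ (p : ℕ) (s s' : St), [s, s'] <:+: (s0 :: L ++ [se]) →
      (s.u : ℝ) / s.v * u < p → (p : ℝ) ≤ (s'.u : ℝ) / s'.v * u → s ∈ F p := by
    intro p s s' hi h1 h2
    simp only [hF]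
    rw [Finset.mem_filter, List.mem_toFinset]
    exact ⟨hi.subset (by simp), s', hi, h1, h2⟩
  have key := ht V (by
    intro s s' hi p hp
    obtain ⟨hp0, hp1, hp2⟩ := mem_pr.mp hp
    have hm := hmem p s s' hi hp1 hp2
    simp only [hV]
    rw [dif_pos ⟨s, hm⟩]
    exact Finset.le_sup' (B p) hm)
  refine ⟨fun p => -V p, ?_, ?_⟩
  · intro p hp
    obtain ⟨hp0, hp1, hp2⟩ := mem_pr.mp hp
    rw [hx] at hp1
    rw [hX] at hp2
    obtain ⟨s, s', hi, h1, h2⟩ := exists_strip (fun s => (s.u : ℝ) / s.v * u) (p : ℝ) se L s0 hp1 hp2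
    have hm := hmem p s s' hi h1 h2
    have hne : (F p).Nonempty := ⟨s, hm⟩
    obtain ⟨t, ht1, ht2⟩ := Finset.exists_mem_eq_sup' hne (B p)
    have ht1' := ht1
    simp only [hF] at ht1'
    rw [Finset.mem_filter] at ht1'
    obtain ⟨_, t', hi', h1', h2'⟩ := ht1'
    have hl := h r hr t t' hi' p hp0 h1' h2'
    simp only [hV]
    rw [dif_pos hne, ht2]
    exact hl
  · rw [hx, hX]
    have e : ∑ p ∈ pr ((s0.u : ℝ) / s0.v * u) ((se.u : ℝ) / se.v * u), Real.log p * -V p
        = -∑ p ∈ pr ((s0.u : ℝ) / s0.v * u) ((se.u : ℝ) / se.v * u), Real.log p * V p := by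
      rw [← Finset.sum_neg_distrib]
      exact Finset.sum_congr rfl fun p _ => by ring
    rw [e]
    linarith

end Crest.Agent.R006.D.Oddx529
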