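import Crest.Agent.R006.P5b_Sum_481
import Crest.Agent.R006.Odd_529

set_option autoImplicit false

/-!
# Row 6, block P5b: from the pointwise bound to `Small` and `Mid` (helper481)
-/

namespace Crest.Agent.R006.P5b

open Filter Topology Finset Crest.Agent.R006.D Crest.Agent.R006.D.Oddx529

/-- P5b, pointwise: loss `K1 u + K2 p - κ u fract (w u / p) + O(√u)` for `√(C0 u) < p ≤ x0 u` -/
def PW (S : Shape) (c : ℕ) (C0 : ℝ) (x0 : ℝ) (K1 K2 κ : ℝ) (w : ℕ) : Prop :=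
  ∃ C' : ℝ, ∀ᶠ u : ℕ in atTop, ∀ r : Col S u → Row, Adm S u c r → ∀ p : ℕ, p.Prime → 5 ≤ p →
    C0 * u < (p : ℝ) ^ 2 → (p : ℝ) ≤ x0 * u →
      Loss p (Minor S u r)
        (K1 * u + K2 * p - κ * u * Int.fract ((w : ℝ) * u / p) + C' * Real.sqrt u)

/-- the lowest part, without the saw-tooth gain -/
theorem small_of_PW {S : Shape} {c : ℕ} {C0 x0 K1 K2 κ : ℝ} {w : ℕ}
    (h : PW S c C0 x0 K1 K2 κ w) (hκ : 0 ≤ κ) {x al be : ℚ} (hx : (x : ℝ) ≤ x0)
    (hal : K1 < al) (hbe : K2 ≤ be) : Small S c C0 x al be := by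
  obtain ⟨C', h⟩ := h
  refine ⟨0, ?_⟩
  have hd : 0 < (al : ℝ) - K1 := by linarith
  have hs : ∀ᶠ u : ℕ in atTop, C' * Real.sqrt u ≤ ((al : ℝ) - K1) * u := by
    have : ∀ᶠ b : ℝ in atTop, C' * Real.sqrt b ≤ ((al : ℝ) - K1) * b := by
      filter_upwards [eventually_ge_atTop ((C' / ((al : ℝ) - K1)) ^ 2), eventually_ge_atTop 0]
        with b hb hb0
      have h1 : |C' / ((al : ℝ) - K1)| ≤ Real.sqrt b := by
        rw [← Real.sqrt_sq_eq_abs]
        exact Real.sqrt_le_sqrt hb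
      have h2 : C' / ((al : ℝ) - K1) ≤ Real.sqrt b := (le_abs_self _).trans h1
      rw [div_le_iff₀ hd] at h2
      calc C' * Real.sqrt b ≤ (Real.sqrt b * ((al : ℝ) - K1)) * Real.sqrt b :=
            mul_le_mul_of_nonneg_right h2 (Real.sqrt_nonneg b)
        _ = ((al : ℝ) - K1) * (Real.sqrt b * Real.sqrt b) := by ring
        _ = ((al : ℝ) - K1) * b := by rw [Real.mul_self_sqrt hb0]
    exact tendsto_natCast_atTop_atTop.eventually this
  filter_upwards [h, hs, eventually_ge_atTop 1] with u h hs hu r hr p hp hp5 hpC hpx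
  have hu0 : (0 : ℝ) < u := by exact_mod_cast hu
  refine (h r hr p hp hp5 hpC (hpx.trans (mul_le_mul_of_nonneg_right hx hu0.le))) |> (loss_mono · ?_)
  have h1 : 0 ≤ κ * u * Int.fract ((w : ℝ) * u / p) :=
    mul_nonneg (mul_nonneg hκ hu0.le) (Int.fract_nonneg _)
  have h2 : K2 * p ≤ be * p := mul_le_mul_of_nonneg_right hbe (Nat.cast_nonneg p)
  have h3 : (u : ℝ) * (al + be * (p / u)) = al * u + be * p := by field_simp
  rw [h3]
  linarith

/-- `∑_{x b < p ≤ y b} p log p` -/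
lemma sum_p_tendsto {x y : ℝ} (hx : 0 ≤ x) (hxy : x ≤ y) :
    Tendsto (fun b : ℝ => (∑ p ∈ pr (x * b) (y * b), Real.log p * ((p : ℝ) / b)) / b) atTop
      (𝓝 ((y ^ 2 - x ^ 2) / 2)) := by
  have h := tendsto_sum_pr (φ := fun x => x) hx hxy continuousOn_id
  rw [integral_id] at h
  exact h

/-- the part with the saw-tooth gain -/
theorem mid_of_PW {S : Shape} {c : ℕ} {C0 x0 K1 K2 κ : ℝ} {w y J : ℕ}
    (h : PW S c C0 x0 K1 K2 κ w) (hw : 0 < w) (hy : 0 < y) (hyJ : y ≤ J) {xe x : ℚ}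
    (hxe : (xe : ℝ) = w / J) (hx : (x : ℝ) = w / y) (hxx0 : (x : ℝ) ≤ x0) :
    Mid S c xe x (K1 * (x - xe) + K2 * ((x : ℝ) ^ 2 - xe ^ 2) / 2 - κ * saw w y J) := by
  obtain ⟨C', h⟩ := h
  intro δ hδ
  have hw' : (0 : ℝ) < w := by exact_mod_cast hw
  have hy' : (0 : ℝ) < y := by exact_mod_cast hy
  have hJ' : (0 : ℝ) < J := by exact_mod_cast lt_of_lt_of_le hy hyJ
  have hyJ' : (y : ℝ) ≤ J := by exact_mod_cast hyJ
  have hxe0 : (0 : ℝ) < xe := by rw [hxe]; positivity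
  have hxex : (xe : ℝ) ≤ x := by rw [hxe, hx]; gcongr
  have t1 := (tendsto_sum_log hxe0.le hxex).const_mul K1
  have t2 := (sum_p_tendsto hxe0.le hxex).const_mul K2
  have t3 := (saw_tendsto hw hy J hyJ).const_mul κ
  have t4 : Tendsto (fun b : ℝ => C' * (Real.sqrt b)⁻¹ *
      ((∑ p ∈ pr (xe * b) (x * b), Real.log p) / b)) atTop (𝓝 (C' * 0 * (x - xe))) := by
    refine (Tendsto.const_mul C' ?_).mul (tendsto_sum_log hxe0.le hxex)
    exact tendsto_inv_atTop_zero.comp Real.tendsto_sqrt_atTop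
  have t := ((t1.add t2).sub t3).add t4
  have hlim : K1 * ((x : ℝ) - xe) + K2 * (((x : ℝ) ^ 2 - xe ^ 2) / 2) - κ * saw w y J
      + C' * 0 * (x - xe) = K1 * (x - xe) + K2 * ((x : ℝ) ^ 2 - xe ^ 2) / 2 - κ * saw w y J := by
    ring
  rw [hlim] at t
  have t' := tendsto_natCast_atTop_atTop.eventually
    ((t.eventually (gt_mem_nhds (lt_add_of_pos_right _ hδ))).and (eventually_gt_atTop 0))
  have hC : ∀ᶠ u : ℕ in atTop, C0 * u < ((xe : ℝ) * u) ^ 2 := by
    have : ∀ᶠ b : ℝ in atTop, C0 * b < ((xe : ℝ) * b) ^ 2 := by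
      filter_upwards [eventually_gt_atTop (C0 / (xe : ℝ) ^ 2), eventually_gt_atTop 0]
        with b hb hb0
      rw [div_lt_iff₀ (by positivity)] at hb
      nlinarith
    exact tendsto_natCast_atTop_atTop.eventually this
  have h5 : ∀ᶠ u : ℕ in atTop, (5 : ℝ) ≤ xe * u := by
    filter_upwards [tendsto_natCast_atTop_atTop.eventually (eventually_ge_atTop (5 / (xe : ℝ)))]
      with u hu
    rw [div_le_iff₀ hxe0] at hu
    linarith
  filter_upwards [h, t', hC, h5] with u h ht hC h5 r hr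
  obtain ⟨ht, hu0⟩ := ht
  refine ⟨fun p => K1 * u + K2 * p - κ * u * Int.fract ((w : ℝ) * u / p) + C' * Real.sqrt u,
    ?_, ?_⟩
  · intro p hp
    obtain ⟨hp0, hp1, hp2⟩ := mem_pr.mp hp
    refine h r hr p hp0 ?_ ?_ ?_
    · have : (5 : ℝ) < p := by linarith
      exact_mod_cast this.le
    · have h1 : 0 ≤ (xe : ℝ) * u := by positivity
      have : ((xe : ℝ) * u) ^ 2 < (p : ℝ) ^ 2 := by gcongr
      linarith
    · exact hp2.trans (mul_le_mul_of_nonneg_right hxx0 hu0.le)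
  · rw [hxe, hx] at ht ⊢
    set P := pr ((w : ℝ) / J * u) (w / y * u) with hP
    have e : ∑ p ∈ P, Real.log p * (K1 * u + K2 * p - κ * u * Int.fract ((w : ℝ) * u / p)
        + C' * Real.sqrt u)
        = (u : ℝ) ^ 2 * (K1 * ((∑ p ∈ P, Real.log p) / u)
          + K2 * ((∑ p ∈ P, Real.log p * ((p : ℝ) / u)) / u)
          - κ * ((∑ p ∈ P, Real.log p * Int.fract ((w : ℝ) * u / p)) / u)
          + C' * (Real.sqrt u)⁻¹ * ((∑ p ∈ P, Real.log p) / u)) := by
      have hsq : Real.sqrt u * Real.sqrt u = u := Real.mul_self_sqrt hu0.le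
      have hs0 : Real.sqrt u ≠ 0 := (Real.sqrt_pos.mpr hu0).ne'
      have e1 : ∀ p ∈ P, Real.log p * (K1 * u + K2 * p - κ * u * Int.fract ((w : ℝ) * u / p)
        + C' * Real.sqrt u) = K1 * u * Real.log p + K2 * u * (Real.log p * ((p : ℝ) / u))
          - κ * u * (Real.log p * Int.fract ((w : ℝ) * u / p))
          + C' * Real.sqrt u * Real.log p := by
        intro p _
        field_simp
      rw [Finset.sum_congr rfl e1, Finset.sum_add_distrib, Finset.sum_sub_distrib,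
        Finset.sum_add_distrib, ← Finset.mul_sum, ← Finset.mul_sum, ← Finset.mul_sum,
        ← Finset.mul_sum]
      have e2 : C' * Real.sqrt u * ∑ p ∈ P, Real.log p
          = (u : ℝ) ^ 2 * (C' * (Real.sqrt u)⁻¹ * ((∑ p ∈ P, Real.log p) / u)) := by
        have : (u : ℝ) ^ 2 * (C' * (Real.sqrt u)⁻¹ * ((∑ p ∈ P, Real.log p) / u))
            = C' * ((u : ℝ) * (Real.sqrt u)⁻¹) * ∑ p ∈ P, Real.log p := by
          field_simp
        rw [this]
        have : (u : ℝ) * (Real.sqrt u)⁻¹ = Real.sqrt u := by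
          rw [← div_eq_mul_inv, Real.div_sqrt]
        rw [this]
      rw [e2]
      field_simp
    rw [e, mul_comm _ ((u : ℝ) ^ 2)]
    apply mul_le_mul_of_nonneg_left _ (by positivity)
    exact ht.le

end Crest.Agent.R006.P5b
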