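import Crest.Agent.R006.P4Iface_814
import Crest.Agent.R006.P5b_Cert_481
import Crest.Agent.R006.P5b_Mid_481
import Crest.Agent.R006.P5b_Closed2_788
import Crest.Agent.R006.Shape_378

set_option autoImplicit false
set_option linter.unusedSectionVars false
set_option linter.unreachableTactic false
set_option linter.unnecessarySeqFocus false
set_option linter.unusedTactic false

/-!
# Row 6, block P5b: the instance (helper481)

From 814's `MatrixSide` (modes `pol` / `rA` only) to the pointwise bound `PW`: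
* `CostS`, `certS`, `det_boundS` : the toll certificate with one constant potential;
* `costS_of_side` : `Side` gives `CostS` with `sa = 2 / -1`, `sb = 0 / -2`, `ord` = order of the row;
* `loss_small` : the loss at a prime `p^2 > C0 u`;
* `pw` : `PW S c C0 x0 (k/2 - g + e2 + 2 e3 + h2 + 2 h3) (9/4) k i1` (788's closed form).
-/

namespace Crest.Agent.R006.P5b

open Finset Crest.Agent.R006.Tollx814 Crest.Agent.R006.P4Toll961

section abs

variable {A : Type*} [CommRing A]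
variable {Cl : Type*} [Fintype Cl] [DecidableEq Cl]
variable {jR jT jQ jU : Type*} [Fintype jR] [DecidableEq jR] [Fintype jT] [DecidableEq jT]
  [Fintype jQ] [DecidableEq jQ] [Fintype jU] [DecidableEq jU]
variable {N : ℕ}
variable {ι : Type*} [Fintype ι] [DecidableEq ι]

/-- the costs of decomposition A, with unit columns -/
structure CostS (Fil : ZFil A) (W : Net A Cl jR jT jQ N) (r : Rows A Cl jR jT jQ jU N ι)
    (z sa sb : Cl → ℤ) (ord : ι → ℕ) (E : ℤ) : Prop where
  rho : ∀ c l j, W.rho c l j ∈ Fil.F 0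
  th0 : ∀ c l j, W.th0 c l j ∈ Fil.F 0
  q : ∀ c l j, W.q c l j ∈ Fil.F 0
  A : ∀ i (l : Fin N), r.cA i l ∈ Fil.F (z (r.cls i) + (l : ℕ) - sa (r.cls i) - ord i)
  B : ∀ i (s : Fin N), r.cB i s ∈ Fil.F (((s : ℕ) : ℤ) - ord i)
  C : ∀ i (u : Fin N), r.cC i u ∈ Fil.F (((u : ℕ) : ℤ) - sb (r.cls i) - ord i)
  err : ∀ i d, kd d ≠ 3 → r.err i d ∈ Fil.F E
  errU : ∀ i t, r.err i (.inr (.inr (.inr t))) ∈ Fil.F 0
  near : ∀ c s l, W.near c s l ∈ Fil.F E
  far : ∀ c s c' k, W.far c s c' k ∈ Fil.F 0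
  errX : ∀ c s j, W.errX c s j ∈ Fil.F E
  Lam : ∀ c (k l : Fin N), W.Lam c k l ∈ Fil.F (z c + (l : ℕ) + 1 - sa c)
  errB : ∀ c k j, W.errB c k j ∈ Fil.F E

/-- the certificate -/
def certS (z sa sb : Cl → ℤ) (ord : ι → ℕ) (lam mu D : ℤ) : Cert Cl N ι where
  lam := lam
  mu := mu
  nu := -D
  D0 := fun i => D - ord i
  DX := fun _ _ => 0
  DB := fun _ _ => 0
  sR := fun c l => toll (D + (lam + (sa c - z c))) l
  sX := fun _ s => toll D s
  sQ := fun c u => toll (D + (mu + sb c)) u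
  sB := fun _ _ => 0

theorem certS_valid {Fil : ZFil A} {W : Net A Cl jR jT jQ N} {r : Rows A Cl jR jT jQ jU N ι}
    {z sa sb : Cl → ℤ} {ord : ι → ℕ} {E : ℤ} (h : CostS Fil W r z sa sb ord E) {lam mu D : ℤ}
    (hD : -1 ≤ D) (hE1 : lam ≤ E) (hE2 : D ≤ E) (hE3 : D + lam ≤ E) (hE4 : D + mu ≤ E) :
    Valid Fil W r (certS z sa sb ord lam mu D) := by
  refine ⟨fun _ _ => toll_nonneg _ _, fun _ _ => toll_nonneg _ _, fun _ _ => toll_nonneg _ _,
    fun _ _ => le_rfl, h.rho, h.th0, h.q, ?_, ?_, ?_, ?_, fun _ _ => le_rfl, ?_, ?_, ?_, ?_, ?_⟩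
  · intro i l
    refine Fil.mono ?_ (h.A i l)
    have := le_toll (D + (lam + (sa (r.cls i) - z (r.cls i)))) l
    simp only [certS]
    linarith
  · intro i s
    refine Fil.mono ?_ (h.B i s)
    have := le_toll D s
    simp only [certS]
    linarith
  · intro i u
    refine Fil.mono ?_ (h.C i u)
    have := le_toll (D + (mu + sb (r.cls i))) u
    simp only [certS]
    linarith
  · intro i d
    have h4 : (0 : ℤ) ≤ ord i := Nat.cast_nonneg _
    rcases d with d | d | d | d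
    · refine Fil.mono ?_ (h.err i _ (by simp [kd]))
      simp [certS, kd, Cert.lk]; linarith
    · refine Fil.mono ?_ (h.err i _ (by simp [kd]))
      simp [certS, kd, Cert.lk]; linarith
    · refine Fil.mono ?_ (h.err i _ (by simp [kd]))
      simp [certS, kd, Cert.lk]; linarith
    · refine Fil.mono ?_ (h.errU i d)
      simp [certS, kd, Cert.lk]
  · intro c s l
    refine Fil.mono ?_ (h.near c s l)
    have := toll_nonneg (D + (lam + (sa c - z c))) l
    simp only [certS]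
    linarith
  · intro c s c' k
    exact Fil.mono (by simp [certS]) (h.far c s c' k)
  · intro c s j
    exact Fil.mono (by simpa [certS] using hE1) (h.errX c s j)
  · intro c k l
    refine Fil.mono ?_ (h.Lam c k l)
    have := le_toll (D + (lam + (sa c - z c))) l
    simp only [certS]
    linarith
  · intro c k j
    exact Fil.mono (by simpa [certS] using hE1) (h.errB c k j)

/-- the toll of a class, doubled -/
def tau2 (x y z : ℤ) : ℤ := x * (x + 1) + y * (y + 1) + z * (z + 1)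

/-- **the determinant bound with a constant potential** -/
theorem det_boundS {Fil : ZFil A} {W : Net A Cl jR jT jQ N} {r : Rows A Cl jR jT jQ jU N ι}
    {z sa sb : Cl → ℤ} {ord : ι → ℕ} {E : ℤ} (h : CostS Fil W r z sa sb ord E) {lam mu D : ℤ}
    (hD : -1 ≤ D) (hE1 : lam ≤ E) (hE2 : D ≤ E) (hE3 : D + lam ≤ E) (hE4 : D + mu ≤ E)
    (e : ι ≃ Col jR jT jQ jU) :
    ∃ v : ℤ, Matrix.det (Matrix.of fun i j => W.mat r i (e j)) ∈ Fil.F v ∧
      2 * ((lam + D) * Fintype.card jR + D * Fintype.card jT + (mu + D) * Fintype.card jQ)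
        - ∑ c, tau2 (D + (lam + (sa c - z c))) D (D + (mu + sb c)) - 2 * ∑ i, (ord i : ℤ)
        ≤ 2 * v := by
  refine ⟨_, det_mem_equiv (certS_valid h hD hE1 hE2 hE3 hE4) e, ?_⟩
  have hcard : (Fintype.card ι : ℤ) = Fintype.card jR + Fintype.card jT + Fintype.card jQ
      + Fintype.card jU := by
    rw [Fintype.card_congr e]
    simp only [Fintype.card_sum]
    push_cast
    ring
  have h0 : ∑ i : ι, (D - (ord i : ℤ)) = D * Fintype.card ι - ∑ i, (ord i : ℤ) := by
    rw [Finset.sum_sub_distrib, Finset.sum_const, Finset.card_univ, nsmul_eq_mul, mul_comm]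
  have h1 : ∀ c ∈ (univ : Finset Cl), 2 * ∑ l : Fin N, (toll (D + (lam + (sa c - z c))) l
      + toll D l + toll (D + (mu + sb c)) l + 0)
      ≤ tau2 (D + (lam + (sa c - z c))) D (D + (mu + sb c)) := by
    intro c _
    have t1 := two_sum_toll (D + (lam + (sa c - z c))) N
    have t2 := two_sum_toll D N
    have t3 := two_sum_toll (D + (mu + sb c)) N
    rw [← Fin.sum_univ_eq_sum_range] at t1 t2 t3
    simp only [add_zero, Finset.sum_add_distrib]
    unfold tau2
    linarith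
  have h2 := Finset.sum_le_sum h1
  rw [← Finset.mul_sum] at h2
  simp only [certS]
  rw [h0, hcard]
  linarith

end abs

/-! ### the costs of the table -/

open Polynomial Crest.Agent.R006.D Crest.Agent.R006.P8 Crest.Agent.R006.Bordx929
  Crest.Agent.R006.P4Asmx814 Crest.Agent.R006.P4If Crest.Agent.R006.P5Mid788
  Crest.Agent.R006.RefClass555 Crest.Agent.R006.D.Oddx529 Crest.Agent.R006.GaugeP555

/-- the modes of P5b: `pol` / `rA` -/
def mdA (p a : ℕ) : Mode := if 2 * a < p then .pol else .rA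

lemma mdA_ok (S : Shape) (u p : ℕ) : DecOK S u p (mdA p) where
  pol := fun a _ => by unfold mdA; split_ifs with h <;> simp [h]

lemma costR (S : Shape) (u p : ℕ) (ρ : D.Row) :
    (tabX S u p (mdA p) ρ).R.b - (tabX S u p (mdA p) ρ).R.a
      ≤ -eps p (clsS p ρ.1) + (ρ.2 : ℕ) := by
  obtain ⟨z, o⟩ := ρ
  unfold tabX tabK
  generalize hk : kindR (z, o) = K
  unfold kindR at hk
  simp only at hk ⊢
  unfold Kind.row3 mdA eps
  rcases z with i | i
  · simp only at hk
    split_ifs at hk with h0 h1 <;> subst hk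
    · split_ifs <;> simp [kG] <;> omega
    · split_ifs <;> simp [kE1] <;> omega
    · split_ifs <;> simp [kE2] <;> omega
  · simp only at hk
    split_ifs at hk with h0 h1 <;> subst hk
    · split_ifs <;> simp [kH1] <;> omega
    · split_ifs <;> simp [kH2] <;> omega
    · split_ifs <;> simp [kW] <;> omega

lemma costX (S : Shape) (u p : ℕ) (ρ : D.Row) :
    (tabX S u p (mdA p) ρ).X.b - (tabX S u p (mdA p) ρ).X.a ≤ (ρ.2 : ℕ) := by
  obtain ⟨z, o⟩ := ρ
  unfold tabX tabK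
  generalize hk : kindR (z, o) = K
  unfold kindR at hk
  simp only at hk ⊢
  unfold Kind.row3 mdA
  rcases z with i | i
  · simp only at hk
    split_ifs at hk with h0 h1 <;> subst hk
    · split_ifs <;> simp [kG]
    · split_ifs <;> simp [kE1]
    · split_ifs <;> simp [kE2] <;> omega
  · simp only at hk
    split_ifs at hk with h0 h1 <;> subst hk
    · split_ifs <;> simp [kH1]
    · split_ifs <;> simp [kH2] <;> omega
    · split_ifs <;> simp [kW]

lemma costQ (S : Shape) (u p : ℕ) (ρ : D.Row) :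
    (tabX S u p (mdA p) ρ).Q.b - (tabX S u p (mdA p) ρ).Q.a
      ≤ -del p (clsS p ρ.1) + (ρ.2 : ℕ) := by
  obtain ⟨z, o⟩ := ρ
  unfold tabX tabK
  generalize hk : kindR (z, o) = K
  unfold kindR at hk
  simp only at hk ⊢
  unfold Kind.row3 mdA del
  rcases z with i | i
  · simp only at hk
    split_ifs at hk with h0 h1 <;> subst hk
    · split_ifs <;> simp [kG] <;> omega
    · split_ifs <;> simp [kE1, cNo] <;> omega
    · split_ifs <;> simp [kE2, cNo] <;> omega
  · simp only at hk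
    split_ifs at hk with h0 h1 <;> subst hk
    · split_ifs <;> simp [kH1, cNo] <;> omega
    · split_ifs <;> simp [kH2, cNo] <;> omega
    · split_ifs <;> simp [kW] <;> omega

lemma self_le_pos (x : ℤ) : x ≤ pos x := by
  rw [pos_eq]; exact le_max_left _ _

/-- `Side` with the modes `pol` / `rA` gives the costs -/
theorem costS_of_side {p : ℕ} [Fact p.Prime] {S : Shape} {u c : ℕ}
    {J : Fin c → RI S u c} {E : ℤ} {N : ℕ}
    {W : Net ℚ[X] (Fin p) (Fin (S.k * u)) (Fin (S.q * u)) (Fin (S.g * u)) N}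
    {R : Rows ℚ[X] (Fin p) (Fin (S.k * u)) (Fin (S.q * u)) (Fin (S.g * u)) (Fin c) N
      (RI S u c)} (h : Side p S u c (mdA p) J E N W R) :
    CostS (pbFil p) W R (fun a : Fin p => ((zc S u p ((a : ℕ) : ℤ) : ℕ) : ℤ))
      (fun a : Fin p => -eps p a) (fun a : Fin p => -del p a) (fun x => (ofRow u c x).2) E where
  rho := h.tab.rho
  th0 := h.tab.th0
  q := h.tab.q
  A := fun x l => by
    refine (pbFil p).mono ?_ (h.tab.A x l)
    have h1 := costR S u p (ofRow u c x)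
    rw [← h.cls x] at h1
    have h2 := self_le_pos (((l : ℕ) : ℤ) + ((zc S u p (((R.cls x : Fin p) : ℕ) : ℤ) : ℕ) : ℤ)
      - (tabX S u p (mdA p) (ofRow u c x)).R.b)
    simp only [zeroU]
    linarith
  B := fun x s => by
    refine (pbFil p).mono ?_ (h.tab.B x s)
    have h1 := costX S u p (ofRow u c x)
    have h2 := self_le_pos (((s : ℕ) : ℤ) - (tabX S u p (mdA p) (ofRow u c x)).X.b)
    linarith
  C := fun x s => by
    refine (pbFil p).mono ?_ (h.tab.C x s)
    have h1 := costQ S u p (ofRow u c x)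
    have h2 := self_le_pos (((s : ℕ) : ℤ) - (tabX S u p (mdA p) (ofRow u c x)).Q.b)
    rw [← h.cls x] at h1
    linarith
  err := fun x d hd => by
    have := h.tab.err x d hd
    simpa [zeroU, hd] using this
  errU := h.errU
  near := fun a s l => h.tab.near0 a s l (by simp only [mdA]; split_ifs <;> simp)
  far := h.tab.far
  errX := h.tab.errX
  Lam := fun a k l => by
    by_cases ha : 2 * (a : ℕ) < p
    · refine (pbFil p).mono ?_ (h.tab.Lamp a k l (by simp only [mdA]; rw [if_pos ha]))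
      have h2 := self_le_pos (((k : ℕ) : ℤ) + 1 + (l : ℕ)
        + ((zc S u p ((a : ℕ) : ℤ) : ℕ) : ℤ) - 2)
      have h3 : (0 : ℤ) ≤ (k : ℕ) := Int.natCast_nonneg _
      unfold eps
      rw [if_pos ha]
      linarith
    · refine (pbFil p).mono ?_ (h.tab.Lamr a k l (by simp only [mdA]; rw [if_neg ha]; simp))
      have h3 : (0 : ℤ) ≤ (k : ℕ) := Int.natCast_nonneg _
      unfold eps
      rw [if_neg ha]
      linarith
  errB := h.tab.errB

/-! ### the total order -/

lemma sum_fin_le_three (m : ℕ) (a b c : Prop) [Decidable a] [Decidable b] [Decidable c]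
    (hbc : c → b) (hab : b → a)
    (hm : m = (if a then 1 else 0) + (if b then 1 else 0) + (if c then 1 else 0)) :
    ∑ j : Fin m, ((j : ℕ) : ℤ) = (if b then 1 else 0) + 2 * (if c then 1 else 0) := by
  rw [Fin.sum_univ_eq_sum_range (fun j => ((j : ℕ) : ℤ)) m]
  by_cases hc : c
  · have hb := hbc hc
    have ha := hab hb
    simp only [ha, hb, hc, if_true] at hm ⊢
    rw [hm]
    simp [Finset.sum_range_succ]
  · by_cases hb : b
    · have ha := hab hb
      simp only [ha, hb, hc, if_true, if_false] at hm ⊢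
      rw [hm]
      simp [Finset.sum_range_succ]
    · simp only [hb, hc, if_false] at hm ⊢
      by_cases ha : a
      · simp only [ha, if_true] at hm
        rw [hm]
        simp
      · simp only [ha, if_false] at hm
        rw [hm]
        simp

set_option maxHeartbeats 1000000 in
theorem sum_ord {S : Shape} (hS : S.Good) (u c : ℕ) :
    ∑ x : RI S u c, (((ofRow u c x).2 : ℕ) : ℤ)
      = ((S.e2 + 2 * S.e3 + S.h2 + 2 * S.h3 : ℕ) : ℤ) * u := by
  have h1 := Nat.mul_le_mul_right u hS.e21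
  have h2 := Nat.mul_le_mul_right u hS.e32
  have h3 := Nat.mul_le_mul_right u hS.h21
  have h4 := Nat.mul_le_mul_right u hS.h32
  zify at h1 h2 h3 h4
  have e0 : ∑ x : RI S u c, (((ofRow u c x).2 : ℕ) : ℤ)
      = ∑ z ∈ sites S u c, ∑ j : Fin (S.mult u c z), ((j : ℕ) : ℤ) := by
    rw [Fintype.sum_sigma]
    exact Finset.sum_coe_sort (sites S u c)
      (fun z => ∑ j : Fin (S.mult u c z), ((j : ℕ) : ℤ))
  rw [e0, sites, Finset.sum_disjUnion, Finset.sum_map, Finset.sum_map]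
  simp only [Function.Embedding.coeFn_mk]
  have e1 : ∀ i : ℤ, ∑ j : Fin (S.mult u c (Site.Z i)), ((j : ℕ) : ℤ)
      = ((if i < 0 ∧ -i ≤ S.e2 * u then 1 else 0 : ℕ) : ℤ)
        + 2 * ((if i < 0 ∧ -i ≤ S.e3 * u then 1 else 0 : ℕ) : ℤ) := by
    intro i
    by_cases h : 0 ≤ i
    · rw [sum_fin_le_three (S.mult u c (Site.Z i)) (i < S.B * u + c) False False
        (fun h => h) (fun h => h.elim) (by simp only [Shape.mult, if_pos h]; simp)]
      simp [not_lt.mpr h]
    · rw [sum_fin_le_three (S.mult u c (Site.Z i)) (-i ≤ S.e1 * u) (-i ≤ S.e2 * u)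
        (-i ≤ S.e3 * u) (fun h => h.trans h2) (fun h => h.trans h1)
        (by simp only [Shape.mult, if_neg h])]
      simp only [not_le.mp h, true_and]
      push_cast
      rfl
  have e2 : ∀ i : ℤ, ∑ j : Fin (S.mult u c (Site.H i)), ((j : ℕ) : ℤ)
      = ((if 0 ≤ i ∧ i < S.h2 * u then 1 else 0 : ℕ) : ℤ)
        + 2 * ((if 0 ≤ i ∧ i < S.h3 * u then 1 else 0 : ℕ) : ℤ) := by
    intro i
    by_cases h : 0 ≤ i
    · rw [sum_fin_le_three (S.mult u c (Site.H i)) (i < S.h1 * u) (i < S.h2 * u)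
        (i < S.h3 * u) (fun h => h.trans_le h4) (fun h => h.trans_le h3)
        (by simp only [Shape.mult, if_pos h])]
      simp only [h, true_and]
      push_cast
      rfl
    · rw [sum_fin_le_three (S.mult u c (Site.H i)) (-i ≤ S.w * u) False False
        (fun h => h) (fun h => h.elim) (by simp only [Shape.mult, if_neg h]; simp)]
      simp [h]
  simp only [e1, e2, Finset.sum_add_distrib, ← Finset.mul_sum, ← Nat.cast_sum]
  rw [sum_ind _ _ (-((S.e2 * u : ℕ) : ℤ)) 0, sum_ind _ _ (-((S.e3 * u : ℕ) : ℤ)) 0,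
    sum_ind _ _ 0 ((S.h2 * u : ℕ) : ℤ), sum_ind _ _ 0 ((S.h3 * u : ℕ) : ℤ)]
  · simp only [sub_zero, zero_sub, neg_neg, Int.toNat_natCast]
    push_cast
    ring
  all_goals
    intro i
    have p1 : (0 : ℤ) ≤ S.e1 * u := by positivity
    have p2 : (0 : ℤ) ≤ S.e2 * u := by positivity
    have p3 : (0 : ℤ) ≤ S.e3 * u := by positivity
    have p4 : (0 : ℤ) ≤ S.h1 * u := by positivity
    have p5 : (0 : ℤ) ≤ S.h2 * u := by positivity
    have p6 : (0 : ℤ) ≤ S.h3 * u := by positivity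
    have p7 : (0 : ℤ) ≤ S.w * u := by positivity
    have p8 : (0 : ℤ) ≤ S.B * u := by positivity
    have p9 : (0 : ℤ) ≤ c := by positivity
    push_cast
    omega

/-! ### the loss -/

/-- **the loss at a prime `p^2 > C0 u`** -/
theorem loss_small {S : Shape} (hS : S.Good) (ha2 : S.a2 = 0) (hr1 : S.r1 = 0) {c C1 : ℕ}
    (hM : MatrixSide S c C1) (u p : ℕ) [hp : Fact p.Prime]
    (hp5 : 5 ≤ p) (hC1 : C1 * (u + 1) < p ^ 2) (h1 : (S.a1 + S.k) * u ≤ p ^ 2)
    (h2 : S.i1 * u < p ^ 2) (h3 : S.q * u ≤ p ^ 2) (h4 : S.g * u ≤ p ^ 2)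
    (r : Col S u → D.Row) (hr : Adm S u c r) :
    Loss p (Minor S u r) (((S.k : ℝ) / 2 - S.g
      + ((S.e2 + 2 * S.e3 + S.h2 + 2 * S.h3 : ℕ) : ℝ)) * u + 9 / 4 * p
      - S.k * u * Int.fract ((S.i1 : ℝ) * u / p)
      + (3 / 2 * (S.a1 + S.k + S.i1) + S.g) * (u / p) + 5 / 2) := by
  have hodd : p % 2 = 1 := by
    rcases hp.out.eq_two_or_odd with h | h
    · omega
    · exact h
  set V : ℤ := ((S.q * u / p : ℕ) : ℤ) with hV
  set L : ℤ := ((S.a1 * u + S.k * u) / p : ℕ) + (S.i1 * u / p : ℕ) - (S.q * u / p : ℕ) with hL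
  set M : ℤ := (S.g * u / p : ℕ) + 1 - (S.q * u / p : ℕ) with hMM
  have hV0 : 0 ≤ V := Int.natCast_nonneg _
  set O : ℤ := ((S.e2 + 2 * S.e3 + S.h2 + 2 * S.h3 : ℕ) : ℤ) * u with hO
  set TT : ℤ := ∑ a : Fin p, tau2 (V + (L + (-eps p a - ((zc S u p ((a : ℕ) : ℤ) : ℕ) : ℤ)))) V
        (V + (M + -del p a)) with hTT
  set T2 : ℤ := 2 * ((L + V) * (S.k * u) + V * (S.q * u) + (M + V) * (S.g * u))
    - TT - 2 * O with hT2
  have key : ∀ J : Fin c → RI S u c, Function.Injective J → ∀ e : RI S u c ≃ CI S u c,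
      (Matrix.of fun i j => brow S u c J i (e j)).det ∈ (P4Toll961.pbFil p).F (T2 / 2) := by
    intro J hJ e
    obtain ⟨N, W, R, hside⟩ := hM u p hp5 hC1 (mdA p) (mdA_ok S u p) J hJ (|L| + |M| + |V|)
    have a1 := le_abs_self L
    have a2 := le_abs_self M
    have a3 := le_abs_self V
    have b1 := abs_nonneg L
    have b2 := abs_nonneg M
    have b3 := abs_nonneg V
    obtain ⟨v, hv, hv2⟩ := det_boundS (costS_of_side hside) (lam := L) (mu := M) (D := V)
      (by linarith) (by linarith) (by linarith) (by linarith) (by linarith) e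
    rw [hside.det_eq e]
    refine (P4Toll961.pbFil p).mono ?_ hv
    rw [← hTT, sum_ord hS u c, ← hO] at hv2
    simp only [Fintype.card_fin] at hv2
    have : T2 ≤ 2 * v := by
      rw [hT2]
      rw [Nat.cast_mul, Nat.cast_mul, Nat.cast_mul] at hv2
      linarith
    omega
  refine loss_mono (loss_of_border S u c hS r hr key) ?_
  -- 788's closed form
  have hcl := closed2 p hodd (fun a : Fin p => if a = ⟨0, hp.out.pos⟩ then
      ((S.k * u : ℕ) : ℤ) + (S.q * u : ℕ) + (S.g * u : ℕ) else 0)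
    (fun a : Fin p => ((zc S u p ((a : ℕ) : ℤ) : ℕ) : ℤ)) (S.k * u) (S.q * u) (S.g * u)
    (S.a1 * u) (S.i1 * u) (by simp) (fun a => zc_eq_cnt S u p a a.2 hodd ha2 hr1)
    L M V hL hMM hV
  have hden := val_den_div S u p h1 h3 h4
    (by rw [ha2, zero_mul]; exact pow_pos hp.out.pos 2) h2
    (by rw [hr1, zero_mul]; exact pow_pos hp.out.pos 2)
  rw [ha2, hr1] at hden
  simp only [zero_mul, Nat.zero_div, zero_add, add_zero] at hden
  -- the certificate value
  have hval : 2 * ((L : ℝ) * ((S.k * u : ℕ) : ℝ) + M * ((S.g * u : ℕ) : ℝ)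
      + ∑ a : Fin p, clsVal (if a = ⟨0, hp.out.pos⟩ then
        ((S.k * u : ℕ) : ℤ) + (S.q * u : ℕ) + (S.g * u : ℕ) else 0) V
        (L + (sP p a - ((zc S u p ((a : ℕ) : ℤ) : ℕ) : ℤ))) (M + tP p a))
      = ((2 * ((L + V) * (S.k * u) + V * (S.q * u) + (M + V) * (S.g * u)) - TT : ℤ) : ℝ) := by
    have e1 : ∀ a : Fin p, 2 * clsVal (if a = ⟨0, hp.out.pos⟩ then
        ((S.k * u : ℕ) : ℤ) + (S.q * u : ℕ) + (S.g * u : ℕ) else 0) V
        (L + (sP p a - ((zc S u p ((a : ℕ) : ℤ) : ℕ) : ℤ))) (M + tP p a)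
        = ((2 * V * (if a = ⟨0, hp.out.pos⟩ then
        ((S.k * u : ℕ) : ℤ) + (S.q * u : ℕ) + (S.g * u : ℕ) else 0)
          - tau2 (V + (L + (-eps p a - ((zc S u p ((a : ℕ) : ℤ) : ℕ) : ℤ)))) V
          (V + (M + -del p a)) : ℤ) : ℝ) := by
      intro a
      have hs : sP p a = -eps p a := by
        unfold sP eps
        split_ifs <;> rfl
      have ht : tP p a = -del p a := by
        unfold tP del
        split_ifs <;> simp
      unfold clsVal P5b.tri tau2
      rw [hs, ht]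
      push_cast
      ring
    rw [mul_add, Finset.mul_sum, Finset.sum_congr rfl fun a _ => e1 a, ← Int.cast_sum,
      Finset.sum_sub_distrib, ← hTT, ← Finset.mul_sum, Finset.sum_ite_eq' Finset.univ,
      if_pos (Finset.mem_univ _)]
    push_cast
    ring
  have hT : T2 - 1 ≤ 2 * (T2 / 2) := by omega
  have hT' : ((T2 : ℤ) : ℝ) - 1 ≤ 2 * ((T2 / 2 : ℤ) : ℝ) := by exact_mod_cast hT
  have hT2' : ((T2 : ℤ) : ℝ) = ((2 * ((L + V) * (S.k * u) + V * (S.q * u) + (M + V) * (S.g * u))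
      - TT : ℤ) : ℝ) - 2 * (((S.e2 + 2 * S.e3 + S.h2 + 2 * S.h3 : ℕ) : ℝ) * u) := by
    rw [hT2, Int.cast_sub, hO]
    push_cast
    ring
  rw [← hval] at hT2'
  rw [hden]
  have hc1 : ((S.i1 * u : ℕ) : ℝ) = (S.i1 : ℝ) * u := by push_cast; ring
  rw [hc1] at hcl
  have hc2 : (3 / 2 * (((S.a1 * u : ℕ) : ℝ) + ((S.k * u : ℕ) : ℝ) + (S.i1 : ℝ) * u)
      + ((S.g * u : ℕ) : ℝ)) / p = (3 / 2 * (S.a1 + S.k + S.i1) + S.g) * (u / p) := by
    push_cast; ring
  rw [hc2] at hcl
  rw [Nat.cast_add, Nat.cast_add, Nat.cast_add, Nat.cast_mul (S.k * u)]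
  have hc3 : ((S.k * u : ℕ) : ℝ) = (S.k : ℝ) * u := by push_cast; ring
  have hc4 : ((S.g * u : ℕ) : ℝ) = (S.g : ℝ) * u := by push_cast; ring
  rw [hc3, hc4] at hcl hT2'
  rw [hc3]
  linarith

/-- **P5b, pointwise.** -/
theorem pw {S : Shape} (hS : S.Good) (ha2 : S.a2 = 0) (hr1 : S.r1 = 0) {c C1 : ℕ}
    (hM : MatrixSide S c C1) {C0 : ℝ}
    (hC0 : ((2 * C1 + S.a1 + S.k + S.i1 + S.q + S.g + 1 : ℕ) : ℝ) ≤ C0) (x0 : ℝ) :
    PW S c C0 x0 ((S.k : ℝ) / 2 - S.g + ((S.e2 + 2 * S.e3 + S.h2 + 2 * S.h3 : ℕ) : ℝ)) (9 / 4)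
      S.k S.i1 := by
  refine ⟨3 / 2 * (S.a1 + S.k + S.i1) + S.g + 5 / 2, ?_⟩
  filter_upwards [Filter.eventually_ge_atTop 1] with u hu r hr p hp hp5 hpC _
  have : Fact p.Prime := ⟨hp⟩
  have hu1 : (1 : ℝ) ≤ u := by exact_mod_cast hu
  have hu0 : (0 : ℝ) < u := by linarith
  have hp0 : (0 : ℝ) < p := by exact_mod_cast hp.pos
  have hb : ∀ m : ℕ, m ≤ 2 * C1 + S.a1 + S.k + S.i1 + S.q + S.g + 1 → m * u < p ^ 2 := by
    intro m hm
    have h1 : (m : ℝ) ≤ C0 := le_trans (by exact_mod_cast hm) hC0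
    have h2 : (m : ℝ) * u < (p : ℝ) ^ 2 := lt_of_le_of_lt (by nlinarith) hpC
    exact_mod_cast h2
  have hC1 : C1 * (u + 1) < p ^ 2 := by
    have := hb (2 * C1) (by omega)
    nlinarith
  have hl := loss_small hS ha2 hr1 hM u p hp5 hC1 (hb _ (by omega)).le (hb _ (by omega))
    (hb _ (by omega)).le (hb _ (by omega)).le r hr
  refine loss_mono hl ?_
  -- p ≥ √u
  have hup : (u : ℝ) / p ≤ Real.sqrt u := by
    have h1 : (u : ℝ) < (p : ℝ) ^ 2 := by
      have := hb 1 (by omega)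
      rw [one_mul] at this
      exact_mod_cast this
    have h2 : Real.sqrt u ≤ p := by
      rw [Real.sqrt_le_left hp0.le]
      exact h1.le
    rw [div_le_iff₀ hp0]
    calc (u : ℝ) = Real.sqrt u * Real.sqrt u := (Real.mul_self_sqrt hu0.le).symm
      _ ≤ Real.sqrt u * p := mul_le_mul_of_nonneg_left h2 (Real.sqrt_nonneg _)
  have hs1 : 1 ≤ Real.sqrt u := by
    rw [Real.one_le_sqrt]; exact hu1
  have h5 : (3 / 2 * (S.a1 + S.k + S.i1) + S.g : ℝ) * (u / p)
      ≤ (3 / 2 * (S.a1 + S.k + S.i1) + S.g) * Real.sqrt u :=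
    mul_le_mul_of_nonneg_left hup (by positivity)
  have e2 : (3 / 2 * (S.a1 + S.k + S.i1) + S.g + 5 / 2 : ℝ) * Real.sqrt u
      = (3 / 2 * (S.a1 + S.k + S.i1) + S.g) * Real.sqrt u + 5 / 2 * Real.sqrt u := by ring
  rw [e2]
  linarith

/-- **P5b for the frozen shape** -/
theorem pw_SN {C1 : ℕ} (hM : MatrixSide SN 40 C1) (x0 : ℝ) :
    PW SN 40 ((2 * C1 + 49 : ℕ) : ℝ) x0 (7 / 2) (9 / 4) 21 6 := by
  have h := pw SN_good rfl rfl hM (C0 := ((2 * C1 + 49 : ℕ) : ℝ)) (by
    simp only [SN_a1, SN_k, SN_i1, SN_q, SN_g]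
    exact_mod_cast (by omega : 2 * C1 + 1 + 21 + 6 + 10 + 10 + 1 ≤ 2 * C1 + 49)) x0
  simp only [SN_k, SN_g, SN_e2, SN_e3, SN_h2, SN_h3, SN_i1] at h
  have e : ((21 : ℕ) : ℝ) / 2 - ((10 : ℕ) : ℝ) + ((2 + 2 * 0 + 1 + 2 * 0 : ℕ) : ℝ) = 7 / 2 := by
    norm_num
  rw [e] at h
  exact_mod_cast h

end Crest.Agent.R006.P5b
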