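import Crest.Agent.R006.OddSN_365
import Crest.Agent.R006.P4Fin_814
import Crest.Agent.R006.P5b_Inst_481
import Crest.Agent.R006.OddM0_365
import Crest.Agent.R006.OddM1_365
import Crest.Agent.R006.OddM2_365
import Crest.Agent.R006.OddM3_365
import Crest.Agent.R006.OddM4_365
import Crest.Agent.R006.OddM5_365
import Crest.Agent.R006.OddM6_365
import Crest.Agent.R006.OddM7_365
import Crest.Agent.R006.OddM8_365
import Crest.Agent.R006.OddM9_365
import Crest.Agent.R006.OddM10_365
import Crest.Agent.R006.OddM11_365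
import Crest.Agent.R006.OddM12_365
import Crest.Agent.R006.OddM13_365

set_option autoImplicit false
set_option maxRecDepth 100000

/-!
# Row 6, blocks P4 + P5 + P8: the odd part of `SN` from the matrix side (helper365)

`mid_SN` : `MatrixSide SN 40 C1` gives the middle range `u/2 < p ≤ 60 u`, total `-450.795`.
`odd_of_side` : `Odd SN 40 (-453.5)`.
-/

namespace Crest.Agent.R006.D

open Crest.Agent.R006.P8 Crest.Agent.R006.P4If

/-- one chunk -/
theorem mid_chunk {C1 : ℕ} (hMS : MatrixSide SN 40 C1) {L : List St} {T : ℤ}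
    (hchk : fastTotal 1000000000 (bdS SN) kapT (extT SN) L = some T)
    (hgc : ∀ s ∈ L.dropLast, 0 < s.u ∧ 0 < s.v ∧ gcOK SN s = true ∧ 3 ≤ s.t.length)
    {x y : ℚ} (hx : stLo L = x) (hy : stHi L = y) :
    x ≤ y ∧ Oddx529.Mid SN 40 x y (-((T : ℝ) / 1000000000)) := by
  have h := Mid.of_fast (S := SN) (c := 40) (by norm_num) L T hchk (classForm_SN hMS hgc)
  rw [hx, hy] at h
  simpa using h

theorem mid_add {x y z : ℚ} {a b : ℤ} (h1 : x ≤ y ∧ Oddx529.Mid SN 40 x y (-((a : ℝ) / 1000000000)))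
    (h2 : y ≤ z ∧ Oddx529.Mid SN 40 y z (-((b : ℝ) / 1000000000))) :
    x ≤ z ∧ Oddx529.Mid SN 40 x z (-(((a + b : ℤ) : ℝ) / 1000000000)) := by
  refine ⟨h1.1.trans h2.1, ?_⟩
  have := Oddx529.Mid.append h1.1 h2.1 h1.2 h2.2
  have e : -(((a + b : ℤ) : ℝ) / 1000000000)
      = -((a : ℝ) / 1000000000) + -((b : ℝ) / 1000000000) := by push_cast; ring
  rw [e]
  exact this

/-- the middle range -/
theorem mid_SN {C1 : ℕ} (hMS : MatrixSide SN 40 C1) :
    Oddx529.Mid SN 40 (1 / 2) 60 (-((450795448322 : ℤ) / 1000000000 : ℝ)) := by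
  have h0 := mid_chunk hMS OddM0.chk OddM0.gc (x := 1 / 2) (y := 48 / 89)
    (by simp [stLo, OddM0.L]) (by simp [stHi, OddM0.L])
  have h1 := mid_chunk hMS OddM1.chk OddM1.gc (x := 48 / 89) (y := 46 / 79)
    (by simp [stLo, OddM1.L]) (by simp [stHi, OddM1.L])
  have h2 := mid_chunk hMS OddM2.chk OddM2.gc (x := 46 / 79) (y := 7 / 11)
    (by simp [stLo, OddM2.L]) (by simp [stHi, OddM2.L])
  have h3 := mid_chunk hMS OddM3.chk OddM3.gc (x := 7 / 11) (y := 7 / 10)
    (by simp [stLo, OddM3.L]) (by simp [stHi, OddM3.L])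
  have h4 := mid_chunk hMS OddM4.chk OddM4.gc (x := 7 / 10) (y := 60 / 77)
    (by simp [stLo, OddM4.L]) (by simp [stHi, OddM4.L])
  have h5 := mid_chunk hMS OddM5.chk OddM5.gc (x := 60 / 77) (y := 48 / 55)
    (by simp [stLo, OddM5.L]) (by simp [stHi, OddM5.L])
  have h6 := mid_chunk hMS OddM6.chk OddM6.gc (x := 48 / 55) (y := 1 / 1)
    (by simp [stLo, OddM6.L]) (by simp [stHi, OddM6.L])
  have h7 := mid_chunk hMS OddM7.chk OddM7.gc (x := 1 / 1) (y := 7 / 6)
    (by simp [stLo, OddM7.L]) (by simp [stHi, OddM7.L])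
  have h8 := mid_chunk hMS OddM8.chk OddM8.gc (x := 7 / 6) (y := 46 / 33)
    (by simp [stLo, OddM8.L]) (by simp [stHi, OddM8.L])
  have h9 := mid_chunk hMS OddM9.chk OddM9.gc (x := 46 / 33) (y := 40 / 23)
    (by simp [stLo, OddM9.L]) (by simp [stHi, OddM9.L])
  have h10 := mid_chunk hMS OddM10.chk OddM10.gc (x := 40 / 23) (y := 44 / 19)
    (by simp [stLo, OddM10.L]) (by simp [stHi, OddM10.L])
  have h11 := mid_chunk hMS OddM11.chk OddM11.gc (x := 44 / 19) (y := 60 / 17)
    (by simp [stLo, OddM11.L]) (by simp [stHi, OddM11.L])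
  have h12 := mid_chunk hMS OddM12.chk OddM12.gc (x := 60 / 17) (y := 20 / 3)
    (by simp [stLo, OddM12.L]) (by simp [stHi, OddM12.L])
  have h13 := mid_chunk hMS OddM13.chk OddM13.gc (x := 20 / 3) (y := 60 / 1)
    (by simp [stLo, OddM13.L]) (by simp [stHi, OddM13.L])
  have h := mid_add h0 h1
  have h := mid_add h h2
  have h := mid_add h h3
  have h := mid_add h h4
  have h := mid_add h h5
  have h := mid_add h h6
  have h := mid_add h h7
  have h := mid_add h h8
  have h := mid_add h h9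
  have h := mid_add h h10
  have h := mid_add h h11
  have h := mid_add h h12
  have h := mid_add h h13
  have h' := h.2
  rw [show (60 / 1 : ℚ) = 60 by norm_num] at h'
  exact h'.mono (by norm_num)

/-- **The odd part of `SN`.** -/
theorem odd_of_side {C1 : ℕ} (hMS : MatrixSide SN 40 C1) : Odd SN 40 (-453.5) := by
  refine odd_SN (C0 := ((2 * C1 + 49 : ℕ) : ℝ)) (x0 := 1) (by positivity) (by norm_num)
    (P5b.pw_SN hMS 1) (mid_SN hMS) ?_
  norm_num

end Crest.Agent.R006.D
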