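import Crest.Agent.R006.Defs
import Crest.Agent.R006.CellTot_305

set_option autoImplicit false

/-!
# Row 6, block P8: the total of the losses at all primes `p ≥ 5`

`odd_of_blocks` : P4 (class form on the strips `x₀ u < p ≤ X u`) + P5 (`Crude` for tiny primes,
`Small` for `√(C₁ u) < p ≤ x₀ u`) + `Large` + the kernel-computed total `totalLow` give `Odd`.
-/

namespace Crest.Agent.R006.D

open Polynomial Filter Topology Finset Crest.Agent.R006 Crest.Agent.R006.P8

/-- P5, sharp form for the small primes `√(C₁ u) < p ≤ x₀ u` : loss `K0 u + K1 p + O(√u)` -/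
def Small (S : Shape) (c : ℕ) (C1 : ℝ) (x0 : ℚ) (K0 K1 : ℝ) : Prop :=
  ∃ C' : ℝ, ∀ᶠ u : ℕ in atTop, ∀ r : Col S u → Row, Adm S u c r → ∀ p : ℕ, p.Prime →
    Real.sqrt (C1 * u) < p → (p : ℝ) ≤ x0 * u →
      Loss p (Minor S u r) (K0 * u + K1 * p + C' * Real.sqrt u)

/-- P4, class form on the strip `u₀/v₀ < p/u ≤ u₁/v₁` with the multipliers `t` -/
def ClassStrip (S : Shape) (c : ℕ) (bd : List (ℤ × ℤ)) (kap : List ℤ → List ℤ → ℤ)
    (ext : List ℤ → ℤ) (s s' : St) : Prop :=
  ∃ C' : ℝ, ∀ᶠ u : ℕ in atTop, ∀ r : Col S u → Row, Adm S u c r → ∀ p : ℕ, p.Prime →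
    (s.u : ℝ) / s.v * u < p → (p : ℝ) ≤ (s'.u : ℝ) / s'.v * u →
      Loss p (Minor S u r)
        (C' - ((∑ a ∈ range p, (kap s.t (jvec bd u p a) : ℝ)) + ext s.t * u))

/-- P4: all strips of a list -/
def ClassForm (S : Shape) (c : ℕ) (bd : List (ℤ × ℤ)) (kap : List ℤ → List ℤ → ℤ)
    (ext : List ℤ → ℤ) (L : List St) : Prop :=
  ∀ s s' : St, [s, s'] <:+: L → ClassStrip S c bd kap ext s s'

lemma Loss.mono {p : ℕ} {P : ℚ[X]} {E E' : ℝ} (h : Loss p P E) (hE : E ≤ E') : Loss p P E' := by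
  intro i hi
  have := h i hi
  linarith

/-- uniform constant and threshold for all strips of the list -/
lemma classForm_uniform {S : Shape} {c : ℕ} {bd : List (ℤ × ℤ)} {kap : List ℤ → List ℤ → ℤ}
    {ext : List ℤ → ℤ} {L : List St} (h : ClassForm S c bd kap ext L) :
    ∃ C' : ℝ, ∀ᶠ u : ℕ in atTop, ∀ s s' : St, [s, s'] <:+: L →
      ∀ r : Col S u → Row, Adm S u c r → ∀ p : ℕ, p.Prime →
      (s.u : ℝ) / s.v * u < p → (p : ℝ) ≤ (s'.u : ℝ) / s'.v * u →
      Loss p (Minor S u r)
        (C' - ((∑ a ∈ range p, (kap s.t (jvec bd u p a) : ℝ)) + ext s.t * u)) := by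
  induction L with
  | nil =>
    refine ⟨0, Eventually.of_forall ?_⟩
    intro u s s' hs
    have := hs.length_le
    simp at this
  | cons a L ih =>
    obtain ⟨C1, h1⟩ := ih (fun s s' hs => h s s' (hs.trans (List.suffix_cons a L).isInfix))
    cases L with
    | nil =>
      refine ⟨0, Eventually.of_forall ?_⟩
      intro u s s' hs
      have := hs.length_le
      simp at this
    | cons b L =>
      obtain ⟨C2, h2⟩ := h a b (List.prefix_append [a, b] L).isInfix
      refine ⟨max C1 C2, ?_⟩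
      filter_upwards [h1, h2] with u hu1 hu2 s s' hs r hr p hp hlo hhi
      rw [List.infix_cons_iff] at hs
      rcases hs with hs | hs
      · obtain ⟨t, ht⟩ := hs
        simp only [List.cons_append, List.nil_append, List.cons.injEq] at ht
        obtain ⟨rfl, rfl, _⟩ := ht
        exact (hu2 r hr p hp hlo hhi).mono (by linarith [le_max_right C1 C2])
      · exact (hu1 s s' hs r hr p hp hlo hhi).mono (by linarith [le_max_left C1 C2])

/-- every point of `(first, last]` lies in some strip -/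
lemma exists_strip {x : ℝ} : ∀ (s0 : St) (L : List St) (se : St),
    (s0.u : ℝ) / s0.v < x → x ≤ (se.u : ℝ) / se.v →
    ∃ s s' : St, [s, s'] <:+: (s0 :: L ++ [se]) ∧ (s.u : ℝ) / s.v < x ∧ x ≤ (s'.u : ℝ) / s'.v
  | s0, [], se, h1, h2 => ⟨s0, se, List.infix_rfl, h1, h2⟩
  | s0, a :: L, se, h1, h2 => by
    by_cases ha : x ≤ (a.u : ℝ) / a.v
    · exact ⟨s0, a, (List.prefix_append [s0, a] (L ++ [se])).isInfix, h1, ha⟩
    · obtain ⟨s, s', hs, h3, h4⟩ := exists_strip a L se (not_le.mp ha) h2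
      exact ⟨s, s', hs.trans (List.suffix_cons s0 _).isInfix, h3, h4⟩

/-- the sum over the small primes of an affine loss with error `O(√b)` -/
lemma small_affine_sum {x0 : ℝ} (hx0 : 0 < x0) (C1 K0 K1 C' : ℝ) {δ : ℝ} (hδ : 0 < δ) :
    ∀ᶠ b : ℝ in atTop, ∑ p ∈ pr (Real.sqrt (C1 * b)) (x0 * b),
      Real.log p * (K0 * b + K1 * p + C' * Real.sqrt b)
        ≤ b ^ 2 * (K0 * x0 + K1 * x0 ^ 2 / 2 + δ) := by
  have hd : 0 < δ / 3 := by positivity
  have hint : ∫ x in (0 : ℝ)..x0, (K0 + K1 * x) = K0 * x0 + K1 * x0 ^ 2 / 2 := by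
    have hi : IntervalIntegrable (fun x : ℝ => K1 * x) MeasureTheory.volume 0 x0 :=
      (continuous_const.mul continuous_id).intervalIntegrable _ _
    rw [intervalIntegral.integral_add (by simp) hi,
      intervalIntegral.integral_const, intervalIntegral.integral_const_mul, integral_id]
    simp only [smul_eq_mul]
    ring
  have h1 := tendsto_sum_pr (φ := fun x => K0 + K1 * x) (a := 0) (c := x0) le_rfl hx0.le
    (by fun_prop)
  rw [hint, Metric.tendsto_nhds] at h1
  have h2 := tendsto_theta_mul hx0.le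
  rw [Metric.tendsto_nhds] at h2
  have hsq : ∀ᶠ b : ℝ in atTop, Real.sqrt (C1 * b) ≤ x0 * b ∧ Real.sqrt (C1 * b) ≤ b := by
    filter_upwards [eventually_ge_atTop (|C1| / x0 ^ 2), eventually_ge_atTop (|C1|),
      eventually_gt_atTop 0] with b hb hb' hb0
    have hle : C1 * b ≤ |C1| * b := mul_le_mul_of_nonneg_right (le_abs_self _) hb0.le
    constructor
    · rw [Real.sqrt_le_left (by positivity)]
      rw [div_le_iff₀ (by positivity)] at hb
      nlinarith
    · rw [Real.sqrt_le_left hb0.le]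
      nlinarith
  have hC : ∀ᶠ b : ℝ in atTop, |C'| * (x0 + 1) * Real.sqrt b ≤ (δ / 3) * b := by
    have : Tendsto (fun b : ℝ => Real.sqrt b) atTop atTop := Real.tendsto_sqrt_atTop
    filter_upwards [this.eventually (eventually_ge_atTop (|C'| * (x0 + 1) / (δ / 3))),
      eventually_gt_atTop 0] with b hb hb0
    rw [div_le_iff₀ hd] at hb
    have hs := Real.sqrt_nonneg b
    calc |C'| * (x0 + 1) * Real.sqrt b ≤ (Real.sqrt b * (δ / 3)) * Real.sqrt b :=
          mul_le_mul_of_nonneg_right hb hs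
      _ = (δ / 3) * (Real.sqrt b * Real.sqrt b) := by ring
      _ = (δ / 3) * b := by rw [Real.mul_self_sqrt hb0.le]
  filter_upwards [h1 (δ / 3) hd, h2 1 one_pos, hsq, hC,
    tiny_sum_le C1 (|K0| + |K1|) hd, eventually_ge_atTop 1] with b hb1 hb2 hb3 hb4 hb5 hb6
  have hb0 : 0 < b := by linarith
  rw [Real.dist_eq] at hb1 hb2
  rw [zero_mul] at hb1
  have hlogb : 0 ≤ Real.log b := Real.log_nonneg hb6
  -- tiny part
  have t1 := hb5 (fun p => -(K0 * b + K1 * p)) (by
    intro p hp
    have hl := log_nonneg_of_mem hp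
    have hp' := mem_pr.mp hp
    have hpb : (p : ℝ) ≤ b := hp'.2.2.trans hb3.2
    have hp0 : (0 : ℝ) < p := by exact_mod_cast hp'.1.pos
    have hlp : Real.log p ≤ Real.log b := Real.log_le_log hp0 hpb
    have h3 : -(K0 * b + K1 * p) ≤ (|K0| + |K1|) * b := by
      have e1 : -(K0 * b) ≤ |K0| * b := by
        have := neg_abs_le K0
        nlinarith
      have e2 : -(K1 * p) ≤ |K1| * b := by
        have e3 : -(K1 * p) ≤ |K1| * p := by
          have := neg_abs_le K1
          nlinarith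
        exact e3.trans (mul_le_mul_of_nonneg_left hpb (abs_nonneg _))
      linarith
    calc Real.log p * -(K0 * b + K1 * p) ≤ Real.log p * ((|K0| + |K1|) * b) :=
          mul_le_mul_of_nonneg_left h3 hl
      _ ≤ Real.log b * ((|K0| + |K1|) * b) := mul_le_mul_of_nonneg_right hlp (by positivity)
      _ = (|K0| + |K1|) * (b * Real.log b) := by ring)
  have t2 : ∑ p ∈ pr 0 (Real.sqrt (C1 * b)), Real.log p * (K0 * b + K1 * p) ≥ -(δ / 3 * b ^ 2) := by
    have e : ∑ p ∈ pr 0 (Real.sqrt (C1 * b)), Real.log p * -(K0 * b + K1 * p)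
        = -∑ p ∈ pr 0 (Real.sqrt (C1 * b)), Real.log p * (K0 * b + K1 * p) := by
      rw [← Finset.sum_neg_distrib]
      exact Finset.sum_congr rfl fun p _ => by ring
    linarith
  have t3 := sum_pr_add (Real.sqrt_nonneg (C1 * b)) hb3.1
    (fun p => Real.log p * (K0 * b + K1 * p))
  have t4 : ∑ p ∈ pr 0 (x0 * b), Real.log p * (K0 * b + K1 * p)
      = b * ∑ p ∈ pr 0 (x0 * b), Real.log p * (K0 + K1 * (p / b)) := by
    rw [Finset.mul_sum]
    apply Finset.sum_congr rfl
    intro p _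
    field_simp
  have t5 : ∑ p ∈ pr 0 (x0 * b), Real.log p * (K0 + K1 * (p / b))
      ≤ (K0 * x0 + K1 * x0 ^ 2 / 2 + δ / 3) * b := by
    have := (abs_lt.mp hb1).2
    rw [← div_le_iff₀ hb0]
    linarith
  have t6 : ∑ p ∈ pr 0 (x0 * b), Real.log p * (K0 * b + K1 * p)
      ≤ b * ((K0 * x0 + K1 * x0 ^ 2 / 2 + δ / 3) * b) := by
    rw [t4]
    exact mul_le_mul_of_nonneg_left t5 hb0.le
  have t7 : ∑ p ∈ pr (Real.sqrt (C1 * b)) (x0 * b), Real.log p * (C' * Real.sqrt b)
      ≤ (δ / 3) * b * b := by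
    have e1 : ∑ p ∈ pr (Real.sqrt (C1 * b)) (x0 * b), Real.log p * (C' * Real.sqrt b)
        ≤ ∑ p ∈ pr 0 (x0 * b), Real.log p * (|C'| * Real.sqrt b) := by
      refine (Finset.sum_le_sum fun p hp => mul_le_mul_of_nonneg_left
        (mul_le_mul_of_nonneg_right (le_abs_self C') (Real.sqrt_nonneg b))
        (log_nonneg_of_mem hp)).trans ?_
      apply Finset.sum_le_sum_of_subset_of_nonneg
      · intro p hp
        rw [mem_pr] at hp ⊢
        exact ⟨hp.1, lt_of_le_of_lt (Real.sqrt_nonneg _) hp.2.1, hp.2.2⟩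
      · intro p hp _
        exact mul_nonneg (log_nonneg_of_mem hp) (by positivity)
    rw [← Finset.sum_mul (pr 0 (x0 * b)), sum_log_pr_zero] at e1
    have e2 : Chebyshev.theta (x0 * b) ≤ (x0 + 1) * b := by
      have := (abs_lt.mp hb2).2
      rw [← div_le_iff₀ hb0]
      linarith
    have e3 : Chebyshev.theta (x0 * b) * (|C'| * Real.sqrt b)
        ≤ (x0 + 1) * b * (|C'| * Real.sqrt b) := by gcongr
    have e4 : (x0 + 1) * b * (|C'| * Real.sqrt b) = (|C'| * (x0 + 1) * Real.sqrt b) * b := by ring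
    have e5 : (|C'| * (x0 + 1) * Real.sqrt b) * b ≤ (δ / 3) * b * b :=
      mul_le_mul_of_nonneg_right hb4 hb0.le
    linarith
  have t8 : ∑ p ∈ pr (Real.sqrt (C1 * b)) (x0 * b),
      Real.log p * (K0 * b + K1 * p + C' * Real.sqrt b)
      = ∑ p ∈ pr (Real.sqrt (C1 * b)) (x0 * b), Real.log p * (K0 * b + K1 * p)
        + ∑ p ∈ pr (Real.sqrt (C1 * b)) (x0 * b), Real.log p * (C' * Real.sqrt b) := by
    rw [← Finset.sum_add_distrib]
    exact Finset.sum_congr rfl fun p _ => by ring
  rw [t8]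
  nlinarith

/-- the least loss of a nonzero polynomial at `p` -/
noncomputable def minLoss (P : ℚ[X]) (hP : P ≠ 0) (p : ℕ) : ℝ :=
  P.support.sup' (support_nonempty.mpr hP) fun i => -(padicValRat p (P.coeff i) : ℝ)

lemma loss_iff {P : ℚ[X]} (hP : P ≠ 0) {p : ℕ} {E : ℝ} : Loss p P E ↔ minLoss P hP p ≤ E := by
  unfold minLoss Loss
  rw [Finset.sup'_le_iff]
  constructor
  · intro h i hi
    have := h i (mem_support_iff.mp hi)
    linarith
  · intro h i hi
    have := h i (mem_support_iff.mpr hi)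
    linarith

/-- **P4 + P5 + P8.** -/
theorem odd_of_blocks (S : Shape) (c : ℕ) (K : ℝ) (hcr : Crude S c K)
    (C1 : ℝ) (hC1 : 0 < C1) (x0 : ℚ) (hx0 : 0 < x0) (K0 K1 : ℝ) (hsm : Small S c C1 x0 K0 K1)
    (bd : List (ℤ × ℤ)) (kap : List ℤ → List ℤ → ℤ) (ext : List ℤ → ℤ) (s0 : St) (L : List St)
    (se : St) (h0 : (s0.u : ℝ) / s0.v = x0) (h0e : (x0 : ℝ) ≤ (se.u : ℝ) / se.v)
    (hcf : ClassForm S c bd kap ext (s0 :: L ++ [se]))
    (X' : ℚ) (hX : (X' : ℝ) ≤ (se.u : ℝ) / se.v) (hlg : Large S c X')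
    (Sc : ℤ) (hSc : 0 < Sc) (T : ℤ)
    (hT : totalLow Sc bd kap ext (s0 :: L ++ [se]) = some T) :
    Odd S c (K0 * x0 + K1 * x0 ^ 2 / 2 - (T : ℝ) / Sc) := by
  intro δ hδ
  have hx0R : (0 : ℝ) < x0 := by exact_mod_cast hx0
  obtain ⟨C', hsm⟩ := hsm
  obtain ⟨C2, hcf⟩ := classForm_uniform hcf
  have hd : 0 < δ / 3 := by positivity
  set X : ℝ := (se.u : ℝ) / se.v with hXdef
  have htiny := tendsto_natCast_atTop_atTop.eventually (tiny_sum_le C1 (2 * |K|) hd)
  have hsmall := tendsto_natCast_atTop_atTop.eventually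
    (small_affine_sum hx0R C1 K0 K1 C' hd)
  have htot := total_ge Sc hSc bd kap ext s0 L se T hT C2 hd
  have hsq : ∀ᶠ u : ℕ in atTop, Real.sqrt (C1 * u) ≤ x0 * u ∧ Real.sqrt (C1 * u) ≤ u ∧
      (4 : ℝ) ≤ Real.sqrt (C1 * u) := by
    have h1 : ∀ᶠ b : ℝ in atTop, Real.sqrt (C1 * b) ≤ x0 * b ∧ Real.sqrt (C1 * b) ≤ b ∧
        (4 : ℝ) ≤ Real.sqrt (C1 * b) := by
      filter_upwards [eventually_ge_atTop (C1 / (x0 : ℝ) ^ 2), eventually_ge_atTop C1,
        eventually_ge_atTop (16 / C1), eventually_gt_atTop 0] with b hb hb' hb'' hb0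
      refine ⟨?_, ?_, ?_⟩
      · rw [Real.sqrt_le_left (by positivity)]
        rw [div_le_iff₀ (by positivity)] at hb
        nlinarith
      · rw [Real.sqrt_le_left hb0.le]
        nlinarith
      · apply Real.le_sqrt_of_sq_le
        rw [div_le_iff₀ hC1] at hb''
        nlinarith
    exact tendsto_natCast_atTop_atTop.eventually h1
  filter_upwards [hcr, hsm, hcf, hlg, htiny, hsmall, htot, hsq, eventually_ge_atTop 1]
    with u ucr usm ucf ulg utiny usmall utot usq hu1 r hr
  have hu1R : (1 : ℝ) ≤ u := by exact_mod_cast hu1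
  have hu0 : (0 : ℝ) < u := by linarith
  set P := Minor S u r with hPdef
  by_cases hP : P = 0
  · -- the zero polynomial: any loss is legal
    have hl5 : 0 < Real.log (5 : ℕ) := Real.log_pos (by norm_num)
    refine ⟨{5}, fun _ => (K0 * x0 + K1 * x0 ^ 2 / 2 - (T : ℝ) / Sc + δ) * (u : ℝ) ^ 2
      / Real.log (5 : ℕ), ?_, ?_, ?_⟩
    · intro p hp
      rw [Finset.mem_singleton] at hp
      subst hp
      exact ⟨by norm_num, le_rfl⟩
    · intro p _ _ i hi
      rw [hP] at hi
      simp at hi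
    · rw [Finset.sum_singleton, div_mul_cancel₀ _ hl5.ne']
  · set m : ℕ → ℝ := minLoss P hP with hm
    have hmL : ∀ {p : ℕ} {E : ℝ}, Loss p P E → m p ≤ E := fun h => (loss_iff hP).mp h
    refine ⟨(pr 0 (X * u)).filter (fun p => 5 ≤ p), m, ?_, ?_, ?_⟩
    · intro p hp
      rw [Finset.mem_filter, mem_pr] at hp
      exact ⟨hp.1.1, hp.2⟩
    · intro p hp hp5
      split_ifs with h
      · exact (loss_iff hP).mpr le_rfl
      · refine ulg r hr p hp ?_
        by_contra hcon
        apply h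
        rw [Finset.mem_filter, mem_pr]
        refine ⟨⟨hp, by exact_mod_cast hp.pos, ?_⟩, hp5⟩
        refine (not_lt.mp hcon).trans ?_
        exact mul_le_mul_of_nonneg_right hX hu0.le
    · -- the sum
      set E' : ℕ → ℝ := fun p => if 5 ≤ p then m p else 0 with hE'
      have e0 : ∑ p ∈ (pr 0 (X * u)).filter (fun p => 5 ≤ p), m p * Real.log p
          = ∑ p ∈ pr 0 (X * u), Real.log p * E' p := by
        rw [Finset.sum_filter]
        apply Finset.sum_congr rfl
        intro p _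
        simp only [hE']
        split_ifs <;> ring
      rw [e0]
      have hXu : (x0 : ℝ) * u ≤ X * u := mul_le_mul_of_nonneg_right h0e hu0.le
      rw [← sum_pr_add (Real.sqrt_nonneg (C1 * u)) (usq.1.trans hXu),
        ← sum_pr_add usq.1 hXu]
      have hlogu : 0 ≤ Real.log u := Real.log_nonneg hu1R
      -- tiny
      have f1 := utiny E' (by
        intro p hp
        have hp' := mem_pr.mp hp
        have hl := log_nonneg_of_mem hp
        simp only [hE']
        split_ifs with h5
        · have h1 := hmL (ucr r hr p hp'.1 h5)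
          have hpu : (p : ℝ) ≤ u := hp'.2.2.trans usq.2.1
          have hp0 : (0 : ℝ) < p := by exact_mod_cast hp'.1.pos
          have h2 : Real.log p ≤ Real.log u := Real.log_le_log hp0 hpu
          have h3 : (Nat.log p u : ℝ) * Real.log p ≤ Real.log u := by
            have e1 : (p : ℝ) ^ (Nat.log p u) ≤ u := by
              exact_mod_cast Nat.pow_log_le_self p (by omega)
            have := Real.log_le_log (by positivity) e1
            rwa [Real.log_pow] at this
          have hnl : (0 : ℝ) ≤ Nat.log p u := by positivity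
          have h4 : K * u * (1 + (Nat.log p u : ℝ)) ≤ |K| * u * (1 + (Nat.log p u : ℝ)) := by
            gcongr
            exact le_abs_self K
          calc Real.log p * m p ≤ Real.log p * (|K| * u * (1 + (Nat.log p u : ℝ))) :=
                mul_le_mul_of_nonneg_left (h1.trans h4) hl
            _ = |K| * u * (Real.log p + (Nat.log p u : ℝ) * Real.log p) := by ring
            _ ≤ |K| * u * (Real.log u + Real.log u) := by gcongr
            _ = 2 * |K| * (u * Real.log u) := by ring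
        · simp only [mul_zero]
          positivity)
      -- small
      have f2 : ∑ p ∈ pr (Real.sqrt (C1 * u)) (x0 * u), Real.log p * E' p
          ≤ (u : ℝ) ^ 2 * (K0 * x0 + K1 * x0 ^ 2 / 2 + δ / 3) := by
        refine le_trans (Finset.sum_le_sum fun p hp => ?_) usmall
        have hp' := mem_pr.mp hp
        have hl := log_nonneg_of_mem hp
        have h5 : 5 ≤ p := by
          have h4 : (4 : ℝ) < p := lt_of_le_of_lt usq.2.2 hp'.2.1
          have : 4 < p := by exact_mod_cast h4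
          omega
        simp only [hE']
        rw [if_pos h5]
        exact mul_le_mul_of_nonneg_left (hmL (usm r hr p hp'.1 hp'.2.1 hp'.2.2)) hl
      -- strips
      have f3 := utot (fun p => -m p) (by
        intro s s' hs p hp
        have hp' := mem_pr.mp hp
        have := hmL (ucf s s' hs r hr p hp'.1 hp'.2.1 hp'.2.2)
        linarith)
      have f4 : ∑ p ∈ pr (x0 * u) (X * u), Real.log p * E' p
          = -∑ p ∈ pr ((s0.u : ℝ) / s0.v * u) ((se.u : ℝ) / se.v * u), Real.log p * -m p := by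
        rw [h0, ← hXdef, ← Finset.sum_neg_distrib]
        apply Finset.sum_congr rfl
        intro p hp
        have hp' := mem_pr.mp hp
        have h5 : 5 ≤ p := by
          have h4 : (4 : ℝ) < p := lt_of_le_of_lt (usq.2.2.trans usq.1) hp'.2.1
          have : 4 < p := by exact_mod_cast h4
          omega
        simp only [hE']
        rw [if_pos h5]
        ring
      rw [f4]
      nlinarith

end Crest.Agent.R006.D
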