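import Mathlib

/-!
# Toll bound (helper814), row 6, block P4

Design independent: a determinant whose rows are linear combinations of states, which are themselves
linear combinations of states, ... is bounded from below (in a `ℤ`-filtration of a commutative ring,
e.g. `p`-adic valuations of the coefficients of polynomials) by potentials and tolls.

Main results:
* `det_step` : one level;
* `det_toll_one`, `det_toll_two`, `det_toll_three` : one, two and three levels;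
* `tri`, `sum_toll_le` : sums of truncated linear tolls.
-/

open Finset Matrix

namespace Crest.Agent.R006.Tollx814

/-- A decreasing multiplicative `ℤ`-filtration of a commutative ring. -/
structure ZFil (A : Type*) [CommRing A] where
  F : ℤ → AddSubgroup A
  anti : ∀ {a b : ℤ}, a ≤ b → F b ≤ F a
  mul_mem : ∀ {a b : ℤ} {x y : A}, x ∈ F a → y ∈ F b → x * y ∈ F (a + b)
  one_mem : (1 : A) ∈ F 0

namespace ZFil

variable {A : Type*} [CommRing A] (Fil : ZFil A)

lemma mono {a b : ℤ} {x : A} (h : a ≤ b) (hx : x ∈ Fil.F b) : x ∈ Fil.F a := Fil.anti h hx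

lemma prod_mem {ι : Type*} (s : Finset ι) (e : ι → ℤ) (x : ι → A)
    (h : ∀ i ∈ s, x i ∈ Fil.F (e i)) : ∏ i ∈ s, x i ∈ Fil.F (∑ i ∈ s, e i) := by
  classical
  induction s using Finset.induction_on with
  | empty => simpa using Fil.one_mem
  | insert a s ha ih =>
    rw [Finset.prod_insert ha, Finset.sum_insert ha]
    exact Fil.mul_mem (h a (Finset.mem_insert_self a s))
      (ih fun i hi => h i (Finset.mem_insert_of_mem hi))

lemma sum_mem {ι : Type*} (s : Finset ι) (e : ℤ) (x : ι → A)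
    (h : ∀ i ∈ s, x i ∈ Fil.F e) : ∑ i ∈ s, x i ∈ Fil.F e :=
  AddSubgroup.sum_mem _ h

end ZFil

variable {A : Type*} [CommRing A]
variable {ι : Type*} [Fintype ι] [DecidableEq ι]

/-- multilinear expansion of a determinant whose rows are linear combinations of the vectors `Y s`. -/
theorem det_expand {S : Type*} [Fintype S] (X : ι → S → A) (Y : S → ι → A) :
    Matrix.det (Matrix.of fun i j => ∑ s, X i s * Y s j)
      = ∑ ψ : ι → S, (∏ i, X i (ψ i)) * Matrix.det (Matrix.of fun i j => Y (ψ i) j) := by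
  classical
  have h1 : (Matrix.of fun i j => ∑ s, X i s * Y s j)
      = fun i => ∑ s, X i s • Y s := by
    funext i j
    simp [Matrix.of_apply, Finset.sum_apply, Pi.smul_apply, smul_eq_mul]
  rw [show Matrix.det (Matrix.of fun i j => ∑ s, X i s * Y s j)
      = Matrix.detRowAlternating (fun i => ∑ s, X i s • Y s) from by rw [← h1]; rfl]
  have h2 := MultilinearMap.map_sum (Matrix.detRowAlternating (R := A) (n := ι)).toMultilinearMap
    (fun i (s : S) => X i s • Y s)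
  have h3 : Matrix.detRowAlternating (fun i => ∑ s, X i s • Y s)
      = ∑ ψ : ι → S, Matrix.detRowAlternating (fun i => X i (ψ i) • Y (ψ i)) := h2
  rw [h3]
  refine Finset.sum_congr rfl fun ψ _ => ?_
  have h4 := MultilinearMap.map_smul_univ
    (Matrix.detRowAlternating (R := A) (n := ι)).toMultilinearMap (fun i => X i (ψ i))
    (fun i => Y (ψ i))
  have h5 : Matrix.detRowAlternating (fun i => X i (ψ i) • Y (ψ i))
      = (∏ i, X i (ψ i)) • Matrix.detRowAlternating (fun i => Y (ψ i)) := h4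
  rw [h5, smul_eq_mul]
  rfl

/-- **One level.**  `D`, `D'` potentials, `σ ≥ 0` tolls. -/
theorem det_step {S S' : Type*} [Fintype S'] (Fil : ZFil A)
    (D : S → ℤ) (D' : S' → ℤ) (σ : S' → ℤ) (hσ : ∀ s, 0 ≤ σ s)
    (X : S → S' → A) (Y' : S' → ι → A) (c : ℤ)
    (hX : ∀ s s', X s s' ∈ Fil.F (D s - D' s' - σ s'))
    (hY' : ∀ ψ : ι → S', Function.Injective ψ →
      Matrix.det (Matrix.of fun i j => Y' (ψ i) j) ∈ Fil.F (c + ∑ i, D' (ψ i)))
    (φ : ι → S) :
    Matrix.det (Matrix.of fun i j => ∑ s', X (φ i) s' * Y' s' j)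
      ∈ Fil.F (c - ∑ s', σ s' + ∑ i, D (φ i)) := by
  classical
  rw [det_expand (fun i s' => X (φ i) s') Y']
  refine Fil.sum_mem _ _ _ fun ψ _ => ?_
  by_cases hψ : Function.Injective ψ
  · have h1 := Fil.prod_mem Finset.univ (fun i => D (φ i) - D' (ψ i) - σ (ψ i))
      (fun i => X (φ i) (ψ i)) (fun i _ => hX _ _)
    have h2 := Fil.mul_mem h1 (hY' ψ hψ)
    refine Fil.mono ?_ h2
    have h3 : ∑ i, σ (ψ i) ≤ ∑ s', σ s' := by
      calc ∑ i, σ (ψ i) = ∑ s' ∈ Finset.univ.image ψ, σ s' := by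
            rw [Finset.sum_image]
            exact fun a _ b _ h => hψ h
        _ ≤ ∑ s', σ s' := Finset.sum_le_sum_of_subset_of_nonneg (Finset.subset_univ _)
            fun s _ _ => hσ s
    have h4 : ∑ i, (D (φ i) - D' (ψ i) - σ (ψ i))
        = ∑ i, D (φ i) - ∑ i, D' (ψ i) - ∑ i, σ (ψ i) := by
      rw [Finset.sum_sub_distrib, Finset.sum_sub_distrib]
    rw [h4]
    linarith
  · have h0 : Matrix.det (Matrix.of fun i j => Y' (ψ i) j) = 0 := by
      rw [Function.not_injective_iff] at hψ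
      obtain ⟨a, b, hab, hne⟩ := hψ
      refine Matrix.det_zero_of_row_eq hne ?_
      funext j
      simp [Matrix.of_apply, hab]
    rw [h0, mul_zero]
    exact AddSubgroup.zero_mem _

/-- **Two factor form** `M = X * Y`. -/
theorem det_toll_one {S : Type*} [Fintype S] (Fil : ZFil A)
    (π : ι → ℤ) (D σ : S → ℤ) (hσ : ∀ s, 0 ≤ σ s)
    (X : ι → S → A) (Y : S → ι → A) (c : ℤ)
    (hX : ∀ i s, X i s ∈ Fil.F (π i - D s - σ s))
    (hY : ∀ ψ : ι → S, Function.Injective ψ →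
      Matrix.det (Matrix.of fun i j => Y (ψ i) j) ∈ Fil.F (c + ∑ i, D (ψ i))) :
    Matrix.det (Matrix.of fun i j => ∑ s, X i s * Y s j)
      ∈ Fil.F (∑ i, π i - ∑ s, σ s + c) := by
  have h := det_step Fil π D σ hσ X Y c hX hY id
  refine Fil.mono (le_of_eq ?_) h
  simp only [id]
  ring

/-- **Three factor form** `M = X₁ * (X₂ * Y)`. -/
theorem det_toll_two {S₁ S₂ : Type*} [Fintype S₁] [Fintype S₂] (Fil : ZFil A)
    (π : ι → ℤ) (D₁ σ₁ : S₁ → ℤ) (D₂ σ₂ : S₂ → ℤ)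
    (hσ₁ : ∀ s, 0 ≤ σ₁ s) (hσ₂ : ∀ s, 0 ≤ σ₂ s)
    (X₁ : ι → S₁ → A) (X₂ : S₁ → S₂ → A) (Y : S₂ → ι → A) (c : ℤ)
    (hX₁ : ∀ i s, X₁ i s ∈ Fil.F (π i - D₁ s - σ₁ s))
    (hX₂ : ∀ s t, X₂ s t ∈ Fil.F (D₁ s - D₂ t - σ₂ t))
    (hY : ∀ ψ : ι → S₂, Function.Injective ψ →
      Matrix.det (Matrix.of fun i j => Y (ψ i) j) ∈ Fil.F (c + ∑ i, D₂ (ψ i))) :
    Matrix.det (Matrix.of fun i j => ∑ s, X₁ i s * ∑ t, X₂ s t * Y t j)
      ∈ Fil.F (∑ i, π i - ∑ s, σ₁ s - ∑ t, σ₂ t + c) := by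
  have h := det_toll_one Fil π D₁ σ₁ hσ₁ X₁ (fun s j => ∑ t, X₂ s t * Y t j)
    (c - ∑ t, σ₂ t) hX₁ (fun ψ _ => det_step Fil D₁ D₂ σ₂ hσ₂ X₂ Y c hX₂ hY ψ)
  refine Fil.mono (le_of_eq ?_) h
  ring

/-- **Four factor form** `M = X₁ * (X₂ * (X₃ * Y))`. -/
theorem det_toll_three {S₁ S₂ S₃ : Type*} [Fintype S₁] [Fintype S₂] [Fintype S₃] (Fil : ZFil A)
    (π : ι → ℤ) (D₁ σ₁ : S₁ → ℤ) (D₂ σ₂ : S₂ → ℤ) (D₃ σ₃ : S₃ → ℤ)
    (hσ₁ : ∀ s, 0 ≤ σ₁ s) (hσ₂ : ∀ s, 0 ≤ σ₂ s) (hσ₃ : ∀ s, 0 ≤ σ₃ s)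
    (X₁ : ι → S₁ → A) (X₂ : S₁ → S₂ → A) (X₃ : S₂ → S₃ → A) (Y : S₃ → ι → A) (c : ℤ)
    (hX₁ : ∀ i s, X₁ i s ∈ Fil.F (π i - D₁ s - σ₁ s))
    (hX₂ : ∀ s t, X₂ s t ∈ Fil.F (D₁ s - D₂ t - σ₂ t))
    (hX₃ : ∀ s t, X₃ s t ∈ Fil.F (D₂ s - D₃ t - σ₃ t))
    (hY : ∀ ψ : ι → S₃, Function.Injective ψ →
      Matrix.det (Matrix.of fun i j => Y (ψ i) j) ∈ Fil.F (c + ∑ i, D₃ (ψ i))) :
    Matrix.det (Matrix.of fun i j => ∑ s, X₁ i s * ∑ t, X₂ s t * ∑ u, X₃ t u * Y u j)
      ∈ Fil.F (∑ i, π i - ∑ s, σ₁ s - ∑ t, σ₂ t - ∑ u, σ₃ u + c) := by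
  have h := det_toll_two Fil π D₁ σ₁ D₂ σ₂ hσ₁ hσ₂ X₁ X₂ (fun t j => ∑ u, X₃ t u * Y u j)
    (c - ∑ u, σ₃ u) hX₁ hX₂ (fun ψ _ => det_step Fil D₂ D₃ σ₃ hσ₃ X₃ Y c hX₃ hY ψ)
  refine Fil.mono (le_of_eq ?_) h
  ring

/-! ### Final level: block structure by counting

The last vectors `Y u` are of finitely many kinds `k : S → K`; every column `j : ι` has a kind
`κ j`, and `Y u j = 0` unless `k u = κ j`.  If all entries are in `F 0`, then a minor is `0` unless
the chosen states have the same kinds as the columns, so potentials depending only on the kind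
are bounded by a constant. -/
theorem det_final {S K : Type*} [DecidableEq K] [Fintype K] (Fil : ZFil A)
    (k : S → K) (κ : ι → K) (lam : K → ℤ) (Y : S → ι → A)
    (hY0 : ∀ u j, Y u j ∈ Fil.F 0)
    (hYz : ∀ u j, k u ≠ κ j → Y u j = 0)
    (ψ : ι → S) :
    Matrix.det (Matrix.of fun i j => Y (ψ i) j)
      ∈ Fil.F (∑ j, lam (κ j) + ∑ i, - lam (k (ψ i))) := by
  classical
  rw [Matrix.det_apply]
  refine Fil.sum_mem _ _ _ fun g _ => ?_
  by_cases h : ∀ i, k (ψ (g i)) = κ i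
  · have hs : ∑ j, lam (κ j) + ∑ i, - lam (k (ψ i)) = 0 := by
      rw [Finset.sum_neg_distrib]
      have : ∑ i, lam (k (ψ i)) = ∑ i, lam (k (ψ (g i))) :=
        (Equiv.sum_comp g (fun i => lam (k (ψ i)))).symm
      rw [this]
      have h2 : ∑ i, lam (k (ψ (g i))) = ∑ j, lam (κ j) :=
        Finset.sum_congr rfl fun i _ => by rw [h i]
      rw [h2]; ring
    rw [hs]
    have hp : ∏ i, (Matrix.of fun i j => Y (ψ i) j) (g i) i ∈ Fil.F 0 := by
      have := Fil.prod_mem Finset.univ (fun _ => (0 : ℤ))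
        (fun i => (Matrix.of fun i j => Y (ψ i) j) (g i) i) (fun i _ => hY0 _ _)
      simpa using this
    rcases Int.units_eq_one_or (Equiv.Perm.sign g) with h1 | h1
    · rw [h1, one_smul]; exact hp
    · rw [h1]
      simpa using AddSubgroup.neg_mem _ hp
  · push Not at h
    obtain ⟨i, hi⟩ := h
    have : ∏ i, (Matrix.of fun i j => Y (ψ i) j) (g i) i = 0 :=
      Finset.prod_eq_zero (Finset.mem_univ i) (by simpa using hYz _ _ hi)
    rw [this, smul_zero]
    exact AddSubgroup.zero_mem _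

/-! ### Sums of truncated linear tolls -/

/-- `tri x = x (x+1)/2` for `x ≥ 0`, else `0`. -/
def tri (x : ℤ) : ℤ := (max x 0) * (max x 0 + 1) / 2

lemma tri_of_nonpos {x : ℤ} (h : x ≤ 0) : tri x = 0 := by
  simp [tri, max_eq_right h]

lemma tri_two_mul {x : ℤ} (h : 0 ≤ x) : 2 * tri x = x * (x + 1) := by
  rw [tri, max_eq_left h]
  exact Int.mul_ediv_cancel' (Int.even_mul_succ_self x).two_dvd

lemma tri_nonneg (x : ℤ) : 0 ≤ tri x := by
  rcases le_total 0 x with h | h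
  · have := tri_two_mul h
    nlinarith
  · rw [tri_of_nonpos h]

lemma tri_succ {x : ℤ} (h : 0 ≤ x) : tri (x + 1) = tri x + (x + 1) := by
  have h1 := tri_two_mul h
  have h2 := tri_two_mul (x := x + 1) (by omega)
  nlinarith

/-- `∑_{u<n} (x-u)^+ ≤ tri x`. -/
lemma sum_toll_le (x : ℤ) (n : ℕ) : ∑ u ∈ Finset.range n, max (x - (u : ℤ)) 0 ≤ tri x := by
  induction n generalizing x with
  | zero => simpa using tri_nonneg x
  | succ n ih =>
    rw [Finset.sum_range_succ']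
    have h1 : ∑ k ∈ Finset.range n, max (x - ((k + 1 : ℕ) : ℤ)) 0
        = ∑ k ∈ Finset.range n, max ((x - 1) - (k : ℤ)) 0 := by
      refine Finset.sum_congr rfl fun k _ => ?_
      congr 1
      push_cast
      ring
    rw [h1]
    have h2 := ih (x - 1)
    rcases le_total x 0 with h | h
    · have h3 : tri (x - 1) = 0 := tri_of_nonpos (by omega)
      rw [h3] at h2
      simp only [Nat.cast_zero, sub_zero]
      rw [max_eq_right h, tri_of_nonpos h]
      simpa using h2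
    · simp only [Nat.cast_zero, sub_zero]
      rw [max_eq_left h]
      rcases eq_or_lt_of_le h with h0 | h0
      · rw [← h0] at h2 ⊢
        rw [tri_of_nonpos (by norm_num : (0 : ℤ) - 1 ≤ 0)] at h2
        rw [tri_of_nonpos le_rfl]
        simpa using h2
      · have h4 := tri_succ (x := x - 1) (by omega)
        rw [sub_add_cancel] at h4
        linarith

end Crest.Agent.R006.Tollx814
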