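import Mathlib
import Crest.Agent.R006.Toll_814

/-!
Row 6, block P4, matrix side (helper955): the jet filtration.

`psFil Fil` on `A⟦ε⟧` : `f ∈ F_v` iff `coeff_j f ∈ F_(v - j)` for all `j`; `ε ∈ F_1`.
-/

set_option autoImplicit false

namespace Crest.Agent.R006.P4M

open Finset Tollx814

variable {A : Type*} [CommRing A]

section basic

variable (Fil : ZFil A)

lemma natCast_mem (n : ℕ) : (n : A) ∈ Fil.F 0 := by
  induction n with
  | zero => simp
  | succ n ih => rw [Nat.cast_succ]; exact AddSubgroup.add_mem _ ih Fil.one_mem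

lemma mul_mem' {u v w : ℤ} {a b : A} (h : a ∈ Fil.F u) (h' : b ∈ Fil.F v) (hw : w ≤ u + v) :
    a * b ∈ Fil.F w := Fil.mono hw (Fil.mul_mem h h')

lemma pow_mem {v : ℤ} {a : A} (h : a ∈ Fil.F v) (n : ℕ) : a ^ n ∈ Fil.F (n * v) := by
  induction n with
  | zero => simpa using Fil.one_mem
  | succ n ih =>
    rw [pow_succ]
    refine mul_mem' Fil ih h (le_of_eq ?_)
    push_cast; ring

lemma pow_one_mem {a : A} (h : a ∈ Fil.F 1) (n : ℕ) : a ^ n ∈ Fil.F n :=
  Fil.mono (by simp) (pow_mem Fil h n)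

lemma pow_zero_mem {a : A} (h : a ∈ Fil.F 0) (n : ℕ) : a ^ n ∈ Fil.F 0 :=
  Fil.mono (by simp) (pow_mem Fil h n)

lemma zero_mul_mem {v : ℤ} {a b : A} (h : a ∈ Fil.F 0) (h' : b ∈ Fil.F v) : a * b ∈ Fil.F v :=
  mul_mem' Fil h h' (by simp)

lemma mul_zero_mem {v : ℤ} {a b : A} (h : a ∈ Fil.F v) (h' : b ∈ Fil.F 0) : a * b ∈ Fil.F v :=
  mul_mem' Fil h h' (by simp)

/-- the subring of integral elements -/
def OO : Subring A where
  carrier := {a | a ∈ Fil.F 0}
  mul_mem' := fun h h' => zero_mul_mem Fil h h'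
  one_mem' := Fil.one_mem
  add_mem' := fun h h' => AddSubgroup.add_mem _ h h'
  zero_mem' := AddSubgroup.zero_mem _
  neg_mem' := fun h => AddSubgroup.neg_mem _ h

lemma mem_OO {a : A} : a ∈ OO Fil ↔ a ∈ Fil.F 0 := Iff.rfl

end basic

/-- the jet filtration on `A⟦ε⟧` -/
def psFil (Fil : ZFil A) : ZFil (PowerSeries A) where
  F v :=
    { carrier := {f | ∀ j : ℕ, PowerSeries.coeff j f ∈ Fil.F (v - j)}
      add_mem' := fun h h' j => by rw [map_add]; exact AddSubgroup.add_mem _ (h j) (h' j)
      zero_mem' := fun j => by rw [map_zero]; exact AddSubgroup.zero_mem _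
      neg_mem' := fun h j => by rw [map_neg]; exact AddSubgroup.neg_mem _ (h j) }
  anti := fun h f hf j => Fil.mono (by linarith) (hf j)
  mul_mem := fun {v w a b} h h' j => by
    rw [PowerSeries.coeff_mul]
    refine Fil.sum_mem _ _ _ fun x hx => ?_
    rw [HasAntidiagonal.mem_antidiagonal] at hx
    refine mul_mem' Fil (h x.1) (h' x.2) (le_of_eq ?_)
    have : (j : ℤ) = x.1 + x.2 := by exact_mod_cast hx.symm
    rw [this]; ring
  one_mem := fun j => by
    rw [PowerSeries.coeff_one]
    split_ifs with h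
    · subst h; simpa using Fil.one_mem
    · exact AddSubgroup.zero_mem _

section psFil

variable (Fil : ZFil A)

lemma mem_psFil {v : ℤ} {f : PowerSeries A} :
    f ∈ (psFil Fil).F v ↔ ∀ j : ℕ, PowerSeries.coeff j f ∈ Fil.F (v - j) := Iff.rfl

lemma coeff_mem {v : ℤ} {f : PowerSeries A} (h : f ∈ (psFil Fil).F v) (j : ℕ) :
    PowerSeries.coeff j f ∈ Fil.F (v - j) := h j

lemma C_mem {v : ℤ} {a : A} (h : a ∈ Fil.F v) : PowerSeries.C a ∈ (psFil Fil).F v := fun j => by
  rw [PowerSeries.coeff_C]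
  split_ifs with hj
  · subst hj; simpa using h
  · exact AddSubgroup.zero_mem _

lemma C_mem_iff {v : ℤ} {a : A} : PowerSeries.C a ∈ (psFil Fil).F v ↔ a ∈ Fil.F v := by
  refine ⟨fun h => ?_, C_mem Fil⟩
  have := h 0
  simpa using this

lemma X_mem : (PowerSeries.X : PowerSeries A) ∈ (psFil Fil).F 1 := fun j => by
  rw [PowerSeries.coeff_X]
  split_ifs with hj
  · subst hj; simpa using Fil.one_mem
  · exact AddSubgroup.zero_mem _

/-- local coordinate of a site: `y = C z₀ + ε`, `z₀ ∈ F_1` -/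
lemma y_mem {z : A} (h : z ∈ Fil.F 1) : PowerSeries.C z + PowerSeries.X ∈ (psFil Fil).F 1 :=
  AddSubgroup.add_mem _ (C_mem Fil h) (X_mem Fil)

omit Fil in
/-- coefficients of `y^s` -/
lemma coeff_y_pow (z : A) (s j : ℕ) :
    PowerSeries.coeff j ((PowerSeries.C z + PowerSeries.X) ^ s) =
      if j ≤ s then (s.choose j : A) * z ^ (s - j) else 0 := by
  rw [add_comm, add_pow, map_sum]
  have h1 : ∀ m ∈ range (s + 1), PowerSeries.coeff j
      ((PowerSeries.X : PowerSeries A) ^ m * PowerSeries.C z ^ (s - m) * (s.choose m : PowerSeries A))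
      = if j = m then (s.choose j : A) * z ^ (s - j) else 0 := by
    intro m _
    have e : (PowerSeries.X : PowerSeries A) ^ m * PowerSeries.C z ^ (s - m) *
        (s.choose m : PowerSeries A) =
        PowerSeries.C (z ^ (s - m) * (s.choose m : A)) * PowerSeries.X ^ m := by
      rw [map_mul, map_pow, map_natCast]; ring
    rw [e, PowerSeries.coeff_C_mul, PowerSeries.coeff_X_pow]
    split_ifs with h
    · subst h; ring
    · ring
  rw [sum_congr rfl h1, Finset.sum_ite_eq]
  by_cases h : j ≤ s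
  · rw [if_pos (mem_range.mpr (Nat.lt_succ_of_le h)), if_pos h]
  · rw [if_neg (by rw [mem_range]; omega), if_neg h]

omit Fil in
lemma coeff_y_pow_of_lt (z : A) {s j : ℕ} (h : s < j) :
    PowerSeries.coeff j ((PowerSeries.C z + PowerSeries.X) ^ s) = 0 := by
  rw [coeff_y_pow, if_neg (by omega)]

lemma coeff_y_pow_mem {z : A} (h : z ∈ Fil.F 1) (s j : ℕ) :
    PowerSeries.coeff j ((PowerSeries.C z + PowerSeries.X) ^ s) ∈ Fil.F ((s : ℤ) - j) := by
  have := pow_one_mem (psFil Fil) (y_mem Fil h) s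
  exact this j

/-- inverse of an integral series with unit constant coefficient -/
lemma exists_inv {f : PowerSeries A} (hf : f ∈ (psFil Fil).F 0) {w : A} (hw : w ∈ Fil.F 0)
    (h : w * PowerSeries.constantCoeff f = 1) :
    ∃ g ∈ (psFil Fil).F 0, g * f = 1 := by
  have h' : PowerSeries.constantCoeff f * w = 1 := by rw [mul_comm]; exact h
  let u : Aˣ := ⟨PowerSeries.constantCoeff f, w, h', h⟩
  refine ⟨PowerSeries.invOfUnit f u, ?_, ?_⟩
  · intro j
    induction j using Nat.strong_induction_on with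
    | _ j ih =>
      rw [PowerSeries.coeff_invOfUnit]
      have hu : ((u⁻¹ : Aˣ) : A) = w := rfl
      split_ifs with hj
      · subst hj; simpa [hu] using hw
      · have hneg : (w * ∑ x ∈ HasAntidiagonal.antidiagonal j,
            if x.2 < j then PowerSeries.coeff x.1 f *
              PowerSeries.coeff x.2 (PowerSeries.invOfUnit f u) else 0) ∈ Fil.F ((0 : ℤ) - j) := by
          refine zero_mul_mem Fil hw (Fil.sum_mem _ _ _ fun x hx => ?_)
          rw [HasAntidiagonal.mem_antidiagonal] at hx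
          split_ifs with hlt
          · refine mul_mem' Fil (hf x.1) (ih x.2 hlt) (le_of_eq ?_)
            have : (j : ℤ) = x.1 + x.2 := by exact_mod_cast hx.symm
            rw [this]; ring
          · exact AddSubgroup.zero_mem _
        rw [hu, neg_mul]
        exact AddSubgroup.neg_mem _ hneg
  · rw [mul_comm]
    exact PowerSeries.mul_invOfUnit f u rfl

end psFil

/-- the flat filtration on `A⟦ε⟧`: all coefficients in `F_v` -/
def flFil (Fil : ZFil A) : ZFil (PowerSeries A) where
  F v :=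
    { carrier := {f | ∀ j : ℕ, PowerSeries.coeff j f ∈ Fil.F v}
      add_mem' := fun h h' j => by rw [map_add]; exact AddSubgroup.add_mem _ (h j) (h' j)
      zero_mem' := fun j => by rw [map_zero]; exact AddSubgroup.zero_mem _
      neg_mem' := fun h j => by rw [map_neg]; exact AddSubgroup.neg_mem _ (h j) }
  anti := fun h f hf j => Fil.mono h (hf j)
  mul_mem := fun {v w a b} h h' j => by
    rw [PowerSeries.coeff_mul]
    exact Fil.sum_mem _ _ _ fun x _ => Fil.mul_mem (h x.1) (h' x.2)
  one_mem := fun j => by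
    rw [PowerSeries.coeff_one]
    split_ifs with h
    · exact Fil.one_mem
    · exact AddSubgroup.zero_mem _

lemma mem_flFil (Fil : ZFil A) {v : ℤ} {f : PowerSeries A} :
    f ∈ (flFil Fil).F v ↔ ∀ j : ℕ, PowerSeries.coeff j f ∈ Fil.F v := Iff.rfl

end Crest.Agent.R006.P4M
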