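import Mathlib

set_option autoImplicit false

/-!
# Row 6, block P4, leaf D of note 2672: the row formula (helper305)

Any commutative ring `B` (jets: `B = A⟦η⟧`, `x = c₀ + p (i + η)`), any linear functional
`L : B[X] → B`, any partition of unity `e c` (the CRT idempotents), centres `cc c`.

* `mom L e cc c u = L (e c * (X - cc c)^u)`;
* `wc … c k t = ∑_{k ≤ m < M} (-1)^k C(m,k) d_c^(m+1) mom c (m - k + t)`, `d_c = 1/(cc c₀ - cc c)`;
* `row_identity` : for `D = (R - R(x))/(X - x)` and every `psi`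
  `R(x) psi - L D = ∑_t R^[t](c₀) (psi' y^t - ∑_{u<t} y^(t-1-u) mom c₀ u)
      + ∑_{c ≠ c₀} ∑_t R^[t](c) ∑_{k<M} y^k wc c k t - ∑_{c ≠ c₀} L (e c ((X - cc c - y) d_c)^M D)`,
  `y = x - cc c₀`, `psi' = psi - ∑_{c ≠ c₀} ∑_{k<M} y^k wc c k 0`.
-/

namespace Crest.Agent.R006.P4D

open Polynomial Finset

variable {B : Type*} [CommRing B]

/-- the local moments of the functional `L` at the class `c` -/
noncomputable def mom {ι : Type*} (L : B[X] →ₗ[B] B) (e : ι → B[X]) (cc : ι → B) (c : ι) (u : ℕ) :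
    B :=
  L (e c * (X - C (cc c)) ^ u)

/-- the coefficient of `y ^ k` in the contribution of the class `c` to the `t`-th Taylor
coefficient -/
noncomputable def wc {ι : Type*} (L : B[X] →ₗ[B] B) (e : ι → B[X]) (cc : ι → B) (d : ι → B)
    (M : ℕ) (c : ι) (k t : ℕ) : B :=
  ∑ m ∈ Ico k M, (-1) ^ k * (m.choose k : B) * d c ^ (m + 1) * mom L e cc c (m - k + t)

/-- Taylor expansion as a finite sum over any range covering the degree -/
theorem taylor_sum (R : B[X]) (c : B) {n : ℕ} (hn : R.natDegree < n) :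
    R = ∑ t ∈ range n, C ((taylor c R).coeff t) * (X - C c) ^ t := by
  have h1 := sum_taylor_eq R c
  rw [Polynomial.sum_over_range' _ _ n (by rwa [natDegree_taylor])] at h1
  · exact h1.symm
  · intro m; simp

/-- value as a finite Taylor sum -/
theorem eval_taylor_sum (R : B[X]) (c y : B) {n : ℕ} (hn : R.natDegree < n) :
    R.eval (c + y) = ∑ t ∈ range n, (taylor c R).coeff t * y ^ t := by
  conv_lhs => rw [taylor_sum R c hn]
  rw [eval_finsetSum]
  refine sum_congr rfl fun t _ => ?_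
  rw [eval_mul, eval_C, eval_pow, eval_sub, eval_X, eval_C, add_sub_cancel_left]

/-- `(x - X)` is inverted up to `((s - y) d)^M` by the truncated geometric series -/
theorem geom_inv (c0 c d y : B) (hd : (c0 - c) * d = 1) (M : ℕ) :
    (C (c0 + y) - X) * (∑ m ∈ range M, (X - C c - C y) ^ m * C d ^ (m + 1)) =
      1 - ((X - C c - C y) * C d) ^ M := by
  have h1 : (C (c0 + y) - X : B[X]) * C d = 1 - (X - C c - C y) * C d := by
    have : (C (c0 - c) : B[X]) * C d = 1 := by rw [← C_mul, hd, C_1]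
    rw [C_sub] at this
    rw [C_add]
    linear_combination this
  have h2 : (∑ m ∈ range M, (X - C c - C y) ^ m * C d ^ (m + 1) : B[X]) =
      C d * ∑ m ∈ range M, ((X - C c - C y) * C d) ^ m := by
    rw [mul_sum]
    refine sum_congr rfl fun m _ => ?_
    rw [mul_pow]; ring
  rw [h2, ← mul_assoc, h1]
  have := mul_neg_geom_sum ((X - C c - C y) * C d : B[X]) M
  exact this

/-- `L` of the weighted geometric series -/
theorem L_geom {ι : Type*} (L : B[X] →ₗ[B] B) (e : ι → B[X]) (cc d : ι → B) (M : ℕ) (c : ι)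
    (y : B) (t : ℕ) :
    L (e c * (∑ m ∈ range M, (X - C (cc c) - C y) ^ m * C (d c) ^ (m + 1)) *
        (X - C (cc c)) ^ t) = ∑ k ∈ range M, y ^ k * wc L e cc d M c k t := by
  have h1 : e c * (∑ m ∈ range M, (X - C (cc c) - C y) ^ m * C (d c) ^ (m + 1)) *
        (X - C (cc c)) ^ t =
      ∑ m ∈ range M, ∑ k ∈ range (m + 1),
        (y ^ k * ((-1) ^ k * (m.choose k : B) * d c ^ (m + 1))) •
          (e c * (X - C (cc c)) ^ (m - k + t)) := by
    rw [mul_sum, sum_mul]
    refine sum_congr rfl fun m _ => ?_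
    have h2 : (X - C (cc c) - C y : B[X]) ^ m =
        ∑ k ∈ range (m + 1), C (y ^ k * ((-1) ^ k * (m.choose k : B))) *
          (X - C (cc c)) ^ (m - k) := by
      rw [sub_eq_neg_add, add_pow]
      refine sum_congr rfl fun k _ => ?_
      rw [neg_pow, C_mul, C_mul, C_pow, C_pow, C_neg, C_1, C_eq_natCast]
      ring
    rw [h2, sum_mul, mul_sum, sum_mul]
    refine sum_congr rfl fun k _ => ?_
    rw [smul_eq_C_mul, pow_add]
    simp only [C_mul, C_pow]
    ring
  rw [h1, map_sum]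
  simp_rw [map_sum, map_smul, smul_eq_mul]
  have h3 : ∀ k, y ^ k * wc L e cc d M c k t = ∑ m ∈ Ico k M,
      y ^ k * ((-1) ^ k * (m.choose k : B) * d c ^ (m + 1)) * mom L e cc c (m - k + t) := by
    intro k
    rw [wc, mul_sum]
    refine sum_congr rfl fun m _ => ?_
    ring
  simp_rw [h3]
  rw [Finset.sum_sigma', Finset.sum_sigma']
  refine Finset.sum_bij' (fun q _ => ⟨q.2, q.1⟩) (fun q _ => ⟨q.2, q.1⟩) ?_ ?_ ?_ ?_ ?_
  · rintro ⟨m, k⟩ h; simp only [mem_sigma, mem_Ico, mem_range] at h ⊢; omega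
  · rintro ⟨m, k⟩ h; simp only [mem_sigma, mem_Ico, mem_range] at h ⊢; omega
  · rintro ⟨m, k⟩ h; rfl
  · rintro ⟨m, k⟩ h; rfl
  · rintro ⟨m, k⟩ h; rfl

/-- the own class: `D` in the local coordinate -/
theorem dq_local (R D : B[X]) (c y : B) (hD : (X - C (c + y)) * D = R - C (R.eval (c + y)))
    {n : ℕ} (hn : R.natDegree < n) :
    D = ∑ t ∈ range n, C ((taylor c R).coeff t) *
      ∑ u ∈ range t, C (y ^ (t - 1 - u)) * (X - C c) ^ u := by
  have hm : (X - C (c + y) : B[X]).Monic := monic_X_sub_C _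
  apply hm.isRegular.left
  show (X - C (c + y)) * D = (X - C (c + y)) * _
  have e1 : R - C (R.eval (c + y)) = (∑ t ∈ range n, C ((taylor c R).coeff t) * (X - C c) ^ t) -
      C (∑ t ∈ range n, (taylor c R).coeff t * y ^ t) := by
    rw [← taylor_sum R c hn, ← eval_taylor_sum R c y hn]
  rw [hD, e1, mul_sum, map_sum, ← sum_sub_distrib]
  refine sum_congr rfl fun t _ => ?_
  have h1 := Commute.geom_sum₂_mul (Commute.all (X - C c : B[X]) (C y)) t
  have h2 : (X - C (c + y) : B[X]) = (X - C c) - C y := by rw [C_add]; ring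
  have h3 : (∑ u ∈ range t, C (y ^ (t - 1 - u)) * (X - C c : B[X]) ^ u) =
      ∑ i ∈ range t, (X - C c) ^ i * C y ^ (t - 1 - i) := by
    refine sum_congr rfl fun u _ => ?_
    rw [C_pow, mul_comm]
  rw [h3, h2, C_mul, C_pow]
  linear_combination (-C ((taylor c R).coeff t)) * h1

variable {ι : Type*} [Fintype ι] [DecidableEq ι]

/-- **The row formula** (leaf D of note 2672), exact over any commutative ring. -/
theorem row_identity (L : B[X] →ₗ[B] B) (e : ι → B[X]) (he : ∑ c, e c = 1) (cc : ι → B) (c0 : ι)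
    (d : ι → B) (hd : ∀ c, c ≠ c0 → (cc c0 - cc c) * d c = 1) (x y : B) (hx : x = cc c0 + y)
    (M : ℕ) (R D : B[X]) (hD : (X - C x) * D = R - C (R.eval x)) {n : ℕ} (hn : R.natDegree < n)
    (psi : B) :
    R.eval x * psi - L D =
      ∑ t ∈ range n, (taylor (cc c0) R).coeff t *
        ((psi - ∑ c ∈ univ.erase c0, ∑ k ∈ range M, y ^ k * wc L e cc d M c k 0) * y ^ t -
          ∑ u ∈ range t, y ^ (t - 1 - u) * mom L e cc c0 u)
      + ∑ c ∈ univ.erase c0, ∑ t ∈ range n, (taylor (cc c) R).coeff t *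
          ∑ k ∈ range M, y ^ k * wc L e cc d M c k t
      - ∑ c ∈ univ.erase c0, L (e c * ((X - C (cc c) - C y) * C (d c)) ^ M * D) := by
  subst hx
  -- split the functional
  have h1 : L D = L (e c0 * D) + ∑ c ∈ univ.erase c0, L (e c * D) := by
    rw [Finset.add_sum_erase univ (fun c => L (e c * D)) (mem_univ c0), ← map_sum, ← sum_mul, he,
      one_mul]
  -- own class
  have h2 : L (e c0 * D) = ∑ t ∈ range n, (taylor (cc c0) R).coeff t *
      ∑ u ∈ range t, y ^ (t - 1 - u) * mom L e cc c0 u := by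
    conv_lhs => rw [dq_local R D (cc c0) y hD hn]
    rw [mul_sum, map_sum]
    refine sum_congr rfl fun t _ => ?_
    rw [show e c0 * (C ((taylor (cc c0) R).coeff t) *
        ∑ u ∈ range t, C (y ^ (t - 1 - u)) * (X - C (cc c0)) ^ u) =
        (taylor (cc c0) R).coeff t • ∑ u ∈ range t, (y ^ (t - 1 - u)) •
          (e c0 * (X - C (cc c0)) ^ u) from ?_]
    · rw [map_smul, smul_eq_mul, map_sum]
      congr 1
      refine sum_congr rfl fun u _ => ?_
      rw [map_smul, smul_eq_mul, mom]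
    · rw [smul_eq_C_mul]
      have : ∀ u, (y ^ (t - 1 - u)) • (e c0 * (X - C (cc c0)) ^ u) =
          e c0 * (C (y ^ (t - 1 - u)) * (X - C (cc c0)) ^ u) := by
        intro u; rw [smul_eq_C_mul]; ring
      simp_rw [this]
      rw [← mul_sum]; ring
  -- other classes
  have h3 : ∀ c ∈ univ.erase c0, L (e c * D) =
      R.eval (cc c0 + y) * (∑ k ∈ range M, y ^ k * wc L e cc d M c k 0)
      - ∑ t ∈ range n, (taylor (cc c) R).coeff t * ∑ k ∈ range M, y ^ k * wc L e cc d M c k t
      + L (e c * ((X - C (cc c) - C y) * C (d c)) ^ M * D) := by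
    intro c hc
    have hne : c ≠ c0 := (mem_erase.mp hc).1
    set G : B[X] := ∑ m ∈ range M, (X - C (cc c) - C y) ^ m * C (d c) ^ (m + 1) with hG
    have g1 := geom_inv (cc c0) (cc c) (d c) y (hd c hne) M
    rw [← hG] at g1
    have g2 : e c * D = R.eval (cc c0 + y) • (e c * G * (X - C (cc c)) ^ 0)
        - ∑ t ∈ range n, (taylor (cc c) R).coeff t • (e c * G * (X - C (cc c)) ^ t)
        + e c * ((X - C (cc c) - C y) * C (d c)) ^ M * D := by
      have g3 : ∑ t ∈ range n, (taylor (cc c) R).coeff t • (e c * G * (X - C (cc c)) ^ t) =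
          e c * G * R := by
        conv_rhs => rw [taylor_sum R (cc c) hn]
        rw [Finset.mul_sum _ _ (e c * G)]
        refine sum_congr rfl fun t _ => ?_
        rw [smul_eq_C_mul]; ring
      rw [g3, smul_eq_C_mul, pow_zero, mul_one]
      linear_combination (-e c * D) * g1 - e c * G * hD
    rw [g2, map_add, map_sub, map_smul, smul_eq_mul, map_sum, L_geom]
    congr 2
    refine sum_congr rfl fun t _ => ?_
    rw [map_smul, smul_eq_mul, L_geom]
  have h3s := Finset.sum_congr (rfl : univ.erase c0 = univ.erase c0) h3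
  rw [h1, h2, h3s, sum_add_distrib, sum_sub_distrib, ← mul_sum]
  have h4 := eval_taylor_sum R (cc c0) y hn
  have h5 : ∑ t ∈ range n, (taylor (cc c0) R).coeff t *
        ((psi - ∑ c ∈ univ.erase c0, ∑ k ∈ range M, y ^ k * wc L e cc d M c k 0) * y ^ t -
          ∑ u ∈ range t, y ^ (t - 1 - u) * mom L e cc c0 u) =
      (∑ t ∈ range n, (taylor (cc c0) R).coeff t * y ^ t) *
        (psi - ∑ c ∈ univ.erase c0, ∑ k ∈ range M, y ^ k * wc L e cc d M c k 0) -
      ∑ t ∈ range n, (taylor (cc c0) R).coeff t *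
        ∑ u ∈ range t, y ^ (t - 1 - u) * mom L e cc c0 u := by
    rw [sum_mul, ← sum_sub_distrib]
    refine sum_congr rfl fun t _ => ?_
    ring
  rw [h5, ← h4]
  ring

end Crest.Agent.R006.P4D
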