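import Crest.Agent.R006.Defs
import Crest.Agent.R006.P4M_PS_955
import Crest.Agent.R006.P4_RowD_305
import Crest.Agent.R006.P4Toll_961

/-!
# Row 6, block P4: the local input of the matrix side (helper955)

`p ≥ 5` prime, filtration `pbFil p` on `ℚ[X]` (`X = G`), `psFil (pbFil p)` on `ℚ[X]⟦ε⟧`
(`f ∈ F_v` iff `coeff_j f ∈ F_(v-j)`).  A site `z` of class `c = cl p z` is `xs z = c + ys p z`.

`LocalInput p N M e` is what the matrix side consumes:
* `e c` idempotents, `momQ e c t = L(e_c (X-c)^t)`;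
* `psi' z = ψ(z) - ∑_{c ≠ c0} ∑_{k<M} y^k wc_{c,k,0}` in `F_{-2}`, `F_0`, `F_1`.
-/

set_option autoImplicit false

namespace Crest.Agent.R006.P4M

open Polynomial Finset Tollx814 P4Toll961
open Crest.Agent.R006.D Crest.Agent.R006.PsiInf

/-- class of a site modulo `p` (`i + 1/2 ≡ i + (p+1)/2`) -/
def cl (p : ℕ) : Site → ℕ
  | .Z i => (i % (p : ℤ)).toNat
  | .H i => ((i + ((p + 1) / 2 : ℕ)) % (p : ℤ)).toNat

/-- the germ of `ψ` over `ℚ[X]`, `X = G` -/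
noncomputable def PsiX (z : Site) : PowerSeries ℚ[X] :=
  PowerSeries.map C (psi0 z) - PowerSeries.C X * PowerSeries.map C (psi1 z)

/-- the germ of `g` over `ℚ[X]` -/
noncomputable def GamX (z : Site) : PowerSeries ℚ[X] := PowerSeries.map C (gam z)

/-- the site as a germ -/
noncomputable def xs (z : Site) : PowerSeries ℚ[X] :=
  PowerSeries.C (C z.val) + PowerSeries.X

/-- the local coordinate of the site in the class `c` -/
noncomputable def ys (c : ℕ) (z : Site) : PowerSeries ℚ[X] :=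
  PowerSeries.C (C (z.val - c)) + PowerSeries.X

/-- the local moments `L(e_c (X-c)^t)` -/
noncomputable def momQ {p : ℕ} (e : Fin p → ℚ[X]) (c : Fin p) (t : ℕ) : ℚ :=
  P4D.mom (lin mu) e (fun c => ((c : ℕ) : ℚ)) c t

/-- 305's coefficients `wc` -/
noncomputable def wcQ {p : ℕ} (e : Fin p → ℚ[X]) (M : ℕ) (c0 c : Fin p) (k t : ℕ) : ℚ :=
  P4D.wc (lin mu) e (fun c => ((c : ℕ) : ℚ)) (fun c => (((c0 : ℕ) : ℚ) - ((c : ℕ) : ℚ))⁻¹) M c k t

/-- `ψ` minus the part which is analytic on the class `c0` -/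
noncomputable def psi' {p : ℕ} (e : Fin p → ℚ[X]) (M : ℕ) (c0 : Fin p) (z : Site) :
    PowerSeries ℚ[X] :=
  PsiX z - ∑ c ∈ univ.erase c0, ∑ k ∈ range M, ys c0 z ^ k * PowerSeries.C (C (wcQ e M c0 c k 0))

/-- the range of the sites -/
def InR (p : ℕ) (z : Site) : Prop := 2 * |z.val| + 2 < (p : ℚ) ^ 2

/-- **The local input.** (`p ≥ 5`; `N` as large as you like, `M ≥ 4`, `M ≤ N`.) -/
structure LocalInput (p N M : ℕ) [Fact p.Prime] (e : Fin p → ℚ[X]) : Prop where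
  sum_e : ∑ c, e c = 1
  mom_polar : ∀ c : Fin p, 2 * (c : ℕ) < p → ∀ t ≤ N,
    C (momQ e c t) ∈ (pbFil p).F (max 0 ((t : ℤ) - 1))
  mom_regular : ∀ c : Fin p, p < 2 * (c : ℕ) → ∀ t ≤ N, C (momQ e c t) ∈ (pbFil p).F ((t : ℤ) + 2)
  /-- integral sites `0 ≤ i < p/2` -/
  psi_zero : ∀ (c : Fin p) (i : ℕ), (c : ℕ) = i → 2 * i < p →
    psi' e M c (.Z i) ∈ (psFil (pbFil p)).F 0
  /-- all sites `Z i`, and `H i` with `i ≥ 0`, in polar classes -/
  psi_polar : ∀ (c : Fin p) (z : Site), InR p z → (c : ℕ) = cl p z → 2 * (c : ℕ) < p →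
    (∀ i, z = .H i → 0 ≤ i) → psi' e M c z ∈ (psFil (pbFil p)).F (-2)
  /-- all sites `Z i`, and `H i` with `i ≥ 0`, in regular classes -/
  psi_regular : ∀ (c : Fin p) (z : Site), InR p z → (c : ℕ) = cl p z → p < 2 * (c : ℕ) →
    (∀ i, z = .H i → 0 ≤ i) → psi' e M c z ∈ (psFil (pbFil p)).F 1
  /-- the germs at `-m`, `m < p/2`, have integral coefficients -/
  psi_flatZ : ∀ m : ℕ, 0 < m → 2 * m < p → PsiX (.Z (-(m : ℤ))) ∈ (flFil (pbFil p)).F 0
  /-- the star germs at `l + 1/2 < p/2` have integral coefficients -/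
  psi_flatH : ∀ l : ℕ, 2 * l + 1 < p → PsiX (.H (l : ℤ)) ∈ (flFil (pbFil p)).F 0
  gam_polar : ∀ (c : Fin p) (z : Site), InR p z → (c : ℕ) = cl p z → 2 * (c : ℕ) < p →
    GamX z ∈ (psFil (pbFil p)).F 0
  gam_regular : ∀ (c : Fin p) (z : Site), InR p z → (c : ℕ) = cl p z → p < 2 * (c : ℕ) →
    GamX z ∈ (psFil (pbFil p)).F 2

/-- the double zeros of `g` (design independent) -/
def GamOrd : Prop :=
  (∀ m : ℕ, 0 < m → PowerSeries.X ^ 2 ∣ gam (.Z (-(m : ℤ)))) ∧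
    ∀ l : ℕ, PowerSeries.X ^ 2 ∣ gam (.H (l : ℤ))

end Crest.Agent.R006.P4M
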