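import Crest.Agent.R006.P4Iface_814
import Crest.Agent.R006.P4_LocalInput_955

/-!
# Row 6, block P4 (helper110, leaf of helper955): classes and special nodes

* `cl_eq` : 955's class `cl p z` is 814's `clsS p z`; `clsS_lt`;
* `inR_row` : all sites of the design are in the range `InR` if `C1 (u+1) < p^2`;
* `jS_Z_zero`, `jS_negZ`, `jS_H`, `jS_W` : the special nodes;
* `cond_lt`, `cond_of_lt` : the condition of `kG` says that `-1/2-m`, `m = (p-1)/2 - a` is a `W` row.
-/

set_option autoImplicit false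

namespace Crest.Agent.R006.P4SideCls110

open Crest.Agent.R006.D Crest.Agent.R006.P8 Crest.Agent.R006.P4If Crest.Agent.R006.P4M
open Crest.Agent.R006.Bordx929 Crest.Agent.R006.P4Asmx814

variable {p : ℕ}

theorem odd_of_prime [hp : Fact p.Prime] (h5 : 5 ≤ p) : p % 2 = 1 :=
  (hp.out.eq_two_or_odd).resolve_left (by omega)

theorem clsS_cast (hp : 0 < p) (z : Site) : ((clsS p z : ℕ) : ℤ) = cls p (dbl z) :=
  Int.toNat_of_nonneg (cls_nonneg (by exact_mod_cast hp))

theorem clsS_lt (hp : 0 < p) (z : Site) : clsS p z < p := by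
  have h1 := clsS_cast hp z
  have h2 := cls_lt (p := (p : ℤ)) (s := dbl z) (by exact_mod_cast hp)
  omega

/-- (1) the two classes agree -/
theorem cl_eq (hodd : p % 2 = 1) (z : Site) : cl p z = clsS p z := by
  rcases z with i | i
  · simp only [cl, clsS, dbl, cls]
    rw [if_pos (by omega)]
    congr 2
    omega
  · simp only [cl, clsS, dbl, cls]
    rw [if_neg (by omega)]
    congr 2
    omega

/-- `2 val = 2 class + (2 j + h) p` -/
theorem node_Z (hodd : p % 2 = 1) (i : ℤ) :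
    2 * i = 2 * (clsS p (.Z i) : ℤ) + 2 * jS p (.Z i) * p := by
  have hp : 0 < p := by omega
  have h := node_eq (p := (p : ℤ)) (s := dbl (.Z i)) (by omega)
  rw [clsS_cast hp]
  have h2 : dbl (.Z i) % 2 = 0 := by simp only [dbl]; omega
  rw [h2, add_zero] at h
  simp only [jS]
  have h3 : dbl (.Z i) = 2 * i := rfl
  rw [h3] at h ⊢
  linarith

theorem node_H (hodd : p % 2 = 1) (i : ℤ) :
    2 * i + 1 = 2 * (clsS p (.H i) : ℤ) + (2 * jS p (.H i) + 1) * p := by
  have hp : 0 < p := by omega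
  have h := node_eq (p := (p : ℤ)) (s := dbl (.H i)) (by omega)
  rw [clsS_cast hp]
  have h2 : dbl (.H i) % 2 = 1 := by simp only [dbl]; omega
  rw [h2] at h
  simp only [jS]
  have h3 : dbl (.H i) = 2 * i + 1 := rfl
  rw [h3] at h ⊢
  linarith

/-- (2) all sites of the design are in the range -/
theorem inR_site {S : Shape} {u c : ℕ} {z : Site} (hz : z ∈ sites S u c)
    (hC : (2 * (S.B + S.e1 + S.h1 + S.w + c) + 8) * (u + 1) < p ^ 2) : InR p z := by
  have hC' : ((2 * (S.B + S.e1 + S.h1 + S.w + c) + 8) * (u + 1) : ℚ) < (p : ℚ) ^ 2 := by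
    exact_mod_cast hC
  have hB : (0 : ℚ) ≤ (S.B : ℚ) := Nat.cast_nonneg _
  have he : (0 : ℚ) ≤ (S.e1 : ℚ) := Nat.cast_nonneg _
  have hh : (0 : ℚ) ≤ (S.h1 : ℚ) := Nat.cast_nonneg _
  have hw : (0 : ℚ) ≤ (S.w : ℚ) := Nat.cast_nonneg _
  have hc : (0 : ℚ) ≤ (c : ℚ) := Nat.cast_nonneg _
  have hu : (0 : ℚ) ≤ (u : ℚ) := Nat.cast_nonneg _
  have hBu := mul_nonneg hB hu
  have heu := mul_nonneg he hu
  have hhu := mul_nonneg hh hu
  have hwu := mul_nonneg hw hu
  have hcu := mul_nonneg hc hu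
  rw [sites, Finset.mem_disjUnion, Finset.mem_map, Finset.mem_map] at hz
  rcases hz with ⟨i, hi, rfl⟩ | ⟨i, hi, rfl⟩
  · rw [Finset.mem_Ico] at hi
    have h1 : (-((S.e1 : ℚ) * u)) ≤ i := by exact_mod_cast hi.1
    have h2 : (i : ℚ) < S.B * u + c := by exact_mod_cast hi.2
    show 2 * |(i : ℚ)| + 2 < (p : ℚ) ^ 2
    have h3 : |(i : ℚ)| ≤ S.B * u + c + S.e1 * u := by
      rw [abs_le]; constructor <;> linarith
    nlinarith
  · rw [Finset.mem_Ico] at hi
    have h1 : (-((S.w : ℚ) * u)) ≤ i := by exact_mod_cast hi.1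
    have h2 : (i : ℚ) < S.h1 * u := by exact_mod_cast hi.2
    show 2 * |(i : ℚ) + 1 / 2| + 2 < (p : ℚ) ^ 2
    have h3 : |(i : ℚ) + 1 / 2| ≤ S.h1 * u + S.w * u + 1 := by
      rw [abs_le]; constructor <;> linarith
    nlinarith

theorem inR_row {S : Shape} {u c : ℕ}
    (hC : (2 * (S.B + S.e1 + S.h1 + S.w + c) + 8) * (u + 1) < p ^ 2) (x : RI S u c) :
    InR p (ofRow u c x).1 := inR_site x.1.2 hC

/-- (3a) the special nodes `Z i`, `i ≥ 0` -/
theorem jS_Z_zero (hodd : p % 2 = 1) (i : ℤ) :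
    jS p (.Z i) = 0 ↔ (clsS p (.Z i) : ℤ) = i := by
  have hp : (0 : ℤ) < p := by omega
  have h := node_Z hodd i
  constructor
  · intro h0
    rw [h0] at h; linarith
  · intro h0
    rw [h0] at h
    have h1 : jS p (.Z i) * p = 0 := by linarith
    rcases mul_eq_zero.mp h1 with h2 | h2
    · exact h2
    · exact absurd h2 hp.ne'

/-- a special node `Z i` in a polar class is in `[0, p/2)` -/
theorem jS_Z_zero_polar (hodd : p % 2 = 1) {i : ℤ} (h0 : jS p (.Z i) = 0)
    (hpol : 2 * clsS p (.Z i) < p) : 0 ≤ i ∧ 2 * i < p := by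
  have h := (jS_Z_zero hodd i).mp h0
  constructor
  · rw [← h]; positivity
  · rw [← h]; exact_mod_cast hpol

/-- the same with a natural number -/
theorem jS_Z_zero_nat (hodd : p % 2 = 1) {i : ℤ} (h0 : jS p (.Z i) = 0) :
    i = ((clsS p (.Z i) : ℕ) : ℤ) := ((jS_Z_zero hodd i).mp h0).symm

/-- (3b) the special nodes `-m`: `m = p - c` -/
theorem jS_negZ_iff (hodd : p % 2 = 1) (i : ℤ) :
    jS p (.Z i) = -1 ↔ (clsS p (.Z i) : ℤ) = i + p := by
  have hp : (0 : ℤ) < p := by omega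
  have h := node_Z hodd i
  constructor
  · intro h0
    rw [h0] at h; linarith
  · intro h0
    rw [h0] at h
    have h1 : (jS p (.Z i) + 1) * p = 0 := by linarith
    rcases mul_eq_zero.mp h1 with h2 | h2
    · linarith
    · exact absurd h2 hp.ne'

theorem jS_negZ (hodd : p % 2 = 1) {m : ℕ} (h0 : jS p (.Z (-(m : ℤ))) = -1)
    (hreg : p < 2 * clsS p (.Z (-(m : ℤ)))) : 0 < m ∧ 2 * m < p := by
  have hp : 0 < p := by omega
  have h := (jS_negZ_iff hodd _).mp h0
  have h1 := clsS_lt hp (.Z (-(m : ℤ)))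
  omega

/-- (3c) the special nodes `l + 1/2` -/
theorem jS_H_iff (hodd : p % 2 = 1) (i : ℤ) :
    jS p (.H i) = -1 ↔ i = (clsS p (.H i) : ℤ) - ((p + 1) / 2 : ℕ) := by
  have hp : (0 : ℤ) < p := by omega
  have h := node_H hodd i
  constructor
  · intro h0
    rw [h0] at h; omega
  · intro h0
    have h1 : (2 * jS p (.H i) + 2) * p = 0 := by
      have h2 : (2 * jS p (.H i) + 2) * (p : ℤ) = (2 * jS p (.H i) + 1) * p + p := by ring
      rw [h2]
      omega
    rcases mul_eq_zero.mp h1 with h2 | h2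
    · linarith
    · exact absurd h2 hp.ne'

/-- a special star `l + 1/2`, `l ≥ 0`: the class is regular and `2 l + 1 < p` -/
theorem jS_H (hodd : p % 2 = 1) {l : ℕ} (h0 : jS p (.H (l : ℤ)) = -1) :
    p < 2 * clsS p (.H (l : ℤ)) ∧ 2 * l + 1 < p ∧ clsS p (.H (l : ℤ)) = l + (p + 1) / 2 := by
  have hp : 0 < p := by omega
  have h := (jS_H_iff hodd _).mp h0
  have h1 := clsS_lt hp (.H (l : ℤ))
  omega

/-- (3d) the special nodes `-1/2-m` -/
theorem jS_W_iff (hodd : p % 2 = 1) (m : ℕ) :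
    jS p (.H (-1 - (m : ℤ))) = -1 ↔ m + clsS p (.H (-1 - (m : ℤ))) = (p - 1) / 2 := by
  have h := jS_H_iff hodd (-1 - (m : ℤ))
  rw [h]
  omega

/-- the special node `-1/2-m` is in a polar class -/
theorem jS_W_polar (hodd : p % 2 = 1) {m : ℕ} (h0 : jS p (.H (-1 - (m : ℤ))) = -1) :
    2 * clsS p (.H (-1 - (m : ℤ))) < p ∧ m = (p - 1) / 2 - clsS p (.H (-1 - (m : ℤ))) ∧
      2 * m < p := by
  have h := (jS_W_iff hodd m).mp h0
  omega

/-- class and index of a site from its doubled coordinate -/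
theorem cls_jS_H (hodd : p % 2 = 1) {a : ℕ} (ha : a < p) {i j : ℤ}
    (h : 2 * i + 1 = 2 * (a : ℤ) + (2 * j + 1) * p) :
    clsS p (.H i) = a ∧ jS p (.H i) = j := by
  have hp : 0 < p := by omega
  have h1 := node_unique (p := (p : ℤ)) (c := (a : ℤ)) (j := j) (h := 1) (s := dbl (.H i))
    (by exact_mod_cast hp) (by omega) (by positivity) (by exact_mod_cast ha) (Or.inr rfl)
    (by simpa [dbl] using h)
  refine ⟨?_, h1.2.2⟩
  have h2 := clsS_cast hp (.H i)
  rw [h1.2.1] at h2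
  exact_mod_cast h2

theorem cls_jS_Z (hodd : p % 2 = 1) {a : ℕ} (ha : a < p) {i j : ℤ}
    (h : i = (a : ℤ) + j * p) :
    clsS p (.Z i) = a ∧ jS p (.Z i) = j := by
  have hp : 0 < p := by omega
  have h1 := node_unique (p := (p : ℤ)) (c := (a : ℤ)) (j := j) (h := 0) (s := dbl (.Z i))
    (by exact_mod_cast hp) (by omega) (by positivity) (by exact_mod_cast ha) (Or.inl rfl)
    (by simp only [dbl]; rw [h]; ring)
  refine ⟨?_, h1.2.2⟩
  have h2 := clsS_cast hp (.Z i)
  rw [h1.2.1] at h2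
  exact_mod_cast h2

/-- (4) the partner `-1/2-m`, `m = (p-1)/2 - a`, of the node `a` is a `W` row -/
theorem jst_lt (hodd : p % 2 = 1) {S : Shape} {u a : ℕ}
    (h1 : jst (-(S.w : ℤ)) 1 u p a ≤ -1) (ha : 2 * a < p) : (p - 1) / 2 - a < S.w * u := by
  have hp : 0 < p := by omega
  rw [jst_le_iff (by exact_mod_cast hp)] at h1
  have h2 : 2 * (-(S.w : ℤ)) * u ≤ 2 * (a : ℤ) - p := by linarith
  have h3 : (2 : ℤ) * ((S.w * u : ℕ) : ℤ) ≥ p - 2 * a := by push_cast; linarith
  omega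

/-- the condition of `kG` in terms of `jst` -/
theorem cond_iff (S : Shape) (u p a : ℕ) :
    kG.cond (jvec (bdS S) u p a) = true ↔
      jst (-(S.w : ℤ)) 1 u p a ≤ -1 ∧ -1 < jst 0 1 u p a := by
  simp only [Kind.cond, kG, bdS, jvec, List.map_cons, List.map_nil, List.getD_cons_succ,
    List.getD_cons_zero, Bool.and_eq_true, decide_eq_true_eq]

theorem cond_lt (hodd : p % 2 = 1) {S : Shape} {u a : ℕ}
    (h : kG.cond (jvec (bdS S) u p a) = true) (ha : 2 * a < p) : (p - 1) / 2 - a < S.w * u :=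
  jst_lt hodd ((cond_iff S u p a).mp h).1 ha

/-- conversely, if the partner is a `W` row, the condition holds -/
theorem cond_of_lt (hodd : p % 2 = 1) {S : Shape} {u a : ℕ} (ha : 2 * a < p)
    (h : (p - 1) / 2 - a < S.w * u) : kG.cond (jvec (bdS S) u p a) = true := by
  have hp : (0 : ℤ) < p := by omega
  rw [cond_iff, jst_le_iff hp, lt_jst_iff hp]
  have h3 : (2 : ℤ) * ((S.w * u : ℕ) : ℤ) ≥ p - 2 * a := by omega
  push_cast at h3
  constructor
  · linarith
  · omega

/-- the partner of the node `a`, `2a < p`, has class `a` and index `-1` -/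
theorem partner (hodd : p % 2 = 1) {a : ℕ} (ha : 2 * a < p) :
    clsS p (.H (-1 - (((p - 1) / 2 - a : ℕ) : ℤ))) = a ∧
      jS p (.H (-1 - (((p - 1) / 2 - a : ℕ) : ℤ))) = -1 := by
  refine cls_jS_H hodd (by omega) ?_
  omega

end Crest.Agent.R006.P4SideCls110
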