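import Mathlib

/-!
# Row 6, block P4: unimodular row operations (helper961)

`det_rowop`: adding to "reduced" rows combinations of the "unreduced" rows does not change the
determinant.
-/

set_option autoImplicit false

namespace Crest.Agent.R006.P4RowOp961

open Matrix Finset

variable {A : Type*} [CommRing A] {ι : Type*} [Fintype ι] [DecidableEq ι]

/-- `E i j = 0` unless `i` is reduced and `j` is not: `det (1 + E) = 1`. -/
theorem det_one_add (E : Matrix ι ι A) (red : ι → Prop)
    (h1 : ∀ i j, ¬ red i → E i j = 0) (h2 : ∀ i j, red j → E i j = 0) :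
    (1 + E).det = 1 := by
  classical
  have hblock : (1 + E).BlockTriangular (fun i => if red i then (0 : ℕ) else 1) := by
    intro i j hij
    by_cases hi : red i
    · by_cases hj : red j
      · simp [hi, hj] at hij
      · simp [hi, hj] at hij
    · by_cases hj : red j
      · have hne : i ≠ j := fun h => hi (h ▸ hj)
        simp [Matrix.add_apply, Matrix.one_apply_ne hne, h1 i j hi]
      · simp [hi, hj] at hij
  rw [hblock.det]
  refine Finset.prod_eq_one fun k _ => ?_
  have hb : (1 + E).toSquareBlock (fun i => if red i then (0 : ℕ) else 1) k = 1 := by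
    ext ⟨i, hi⟩ ⟨j, hj⟩
    change (1 + E) i j = (1 : Matrix {a // (if red a then (0 : ℕ) else 1) = k}
      {a // (if red a then (0 : ℕ) else 1) = k} A) ⟨i, hi⟩ ⟨j, hj⟩
    simp only [Matrix.add_apply, Matrix.one_apply, Subtype.mk.injEq]
    have hz : E i j = 0 := by
      by_cases hri : red i
      · by_cases hrj : red j
        · exact h2 i j hrj
        · exfalso
          simp only [hri, if_true] at hi
          simp only [hrj, if_false] at hj
          omega
      · exact h1 i j hri
    rw [hz, add_zero]
  rw [hb, Matrix.det_one]

/-- row operations on a determinant -/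
theorem det_rowop (M M' : ι → ι → A) (E : ι → ι → A) (red : ι → Prop)
    (h1 : ∀ i j, ¬ red i → E i j = 0) (h2 : ∀ i j, red j → E i j = 0)
    (h : ∀ i c, M' i c = M i c + ∑ j, E i j * M j c) :
    (Matrix.of M').det = (Matrix.of M).det := by
  have hm : Matrix.of M' = (1 + Matrix.of E) * Matrix.of M := by
    ext i c
    rw [Matrix.add_mul, Matrix.one_mul, Matrix.add_apply, Matrix.mul_apply]
    simp [h i c]
  rw [hm, Matrix.det_mul, det_one_add (Matrix.of E) red (fun i j hi => by simp [h1 i j hi])
    (fun i j hj => by simp [h2 i j hj]), one_mul]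

end Crest.Agent.R006.P4RowOp961
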