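import Crest.Agent.R006.P4Toll_961
import Crest.Agent.R006.P4RowOp_961

/-!
# Row 6, block P4, matrix side (helper226): row operations inside one class

`rowop r E`: to every row `i` the combination `∑ j, E i j * row j` is added, where `E i j = 0`
unless `cls j = cls i`.

* `mat_rowop`  : `W.mat (rowop r E) i d = W.mat r i d + ∑ j, E i j * W.mat r j d`;
* `det_mat_rowop` : the determinant does not change if `E i j = 0` unless `i` is reduced and `j`
  is not;
* `partE`, `mat_partner`, `det_mat_partner` : the special case "subtract the row of the partner".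
-/

set_option autoImplicit false
set_option linter.unusedSectionVars false

namespace Crest.Agent.R006.P4M

open Finset Matrix Tollx814 P4Toll961

variable {A : Type*} [CommRing A]
variable {Cl : Type*} [Fintype Cl] [DecidableEq Cl]
variable {jR jT jQ jU : Type*} [Fintype jR] [DecidableEq jR] [Fintype jT] [DecidableEq jT]
  [Fintype jQ] [DecidableEq jQ] [Fintype jU] [DecidableEq jU]
variable {N : ℕ}
variable {ι : Type*} [Fintype ι] [DecidableEq ι]

/-- add to the row `i` the combination `∑ j, E i j * row j` -/
def rowop (r : Rows A Cl jR jT jQ jU N ι) (E : ι → ι → A) : Rows A Cl jR jT jQ jU N ι where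
  cls := r.cls
  cA i l := r.cA i l + ∑ j, E i j * r.cA j l
  cB i s := r.cB i s + ∑ j, E i j * r.cB j s
  cC i u := r.cC i u + ∑ j, E i j * r.cC j u
  err i d := r.err i d + ∑ j, E i j * r.err j d

@[simp] theorem rowop_cls (r : Rows A Cl jR jT jQ jU N ι) (E : ι → ι → A) :
    (rowop r E).cls = r.cls := rfl

theorem rowop_cA (r : Rows A Cl jR jT jQ jU N ι) (E : ι → ι → A) (i : ι) (l : Fin N) :
    (rowop r E).cA i l = r.cA i l + ∑ j, E i j * r.cA j l := rfl

theorem rowop_cB (r : Rows A Cl jR jT jQ jU N ι) (E : ι → ι → A) (i : ι) (l : Fin N) :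
    (rowop r E).cB i l = r.cB i l + ∑ j, E i j * r.cB j l := rfl

theorem rowop_cC (r : Rows A Cl jR jT jQ jU N ι) (E : ι → ι → A) (i : ι) (l : Fin N) :
    (rowop r E).cC i l = r.cC i l + ∑ j, E i j * r.cC j l := rfl

theorem rowop_err (r : Rows A Cl jR jT jQ jU N ι) (E : ι → ι → A) (i : ι)
    (d : Col jR jT jQ jU) :
    (rowop r E).err i d = r.err i d + ∑ j, E i j * r.err j d := rfl

/-- a sum of products with combined coefficients -/
theorem comb_sum {n : ℕ} (f : ι → Fin n → A) (E : ι → ι → A) (i : ι) (v : Fin n → A)
    (w : ι → Fin n → A) (h : ∀ j, E i j ≠ 0 → w j = v) :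
    ∑ l, (f i l + ∑ j, E i j * f j l) * v l =
      ∑ l, f i l * v l + ∑ j, E i j * ∑ l, f j l * w j l := by
  simp only [add_mul, sum_add_distrib, sum_mul]
  congr 1
  rw [sum_comm]
  refine sum_congr rfl fun j _ => ?_
  by_cases hE : E i j = 0
  · simp [hE]
  · rw [h j hE, mul_sum]
    exact sum_congr rfl fun l _ => by ring

/-- **The matrix of the combined rows.** -/
theorem mat_rowop (W : Net A Cl jR jT jQ N) (r : Rows A Cl jR jT jQ jU N ι) (E : ι → ι → A)
    (hE : ∀ i j, E i j ≠ 0 → r.cls j = r.cls i) (i : ι) (d : Col jR jT jQ jU) :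
    W.mat (rowop r E) i d = W.mat r i d + ∑ j, E i j * W.mat r j d := by
  rcases d with j | j | j | j
  · show ∑ l, (r.cA i l + ∑ j', E i j' * r.cA j' l) * W.rho (r.cls i) l j +
        ∑ s, (r.cB i s + ∑ j', E i j' * r.cB j' s) * W.X (r.cls i) s j +
        (r.err i (.inl j) + ∑ j', E i j' * r.err j' (.inl j)) =
      (∑ l, r.cA i l * W.rho (r.cls i) l j + ∑ s, r.cB i s * W.X (r.cls i) s j +
        r.err i (.inl j)) +
      ∑ j', E i j' * (∑ l, r.cA j' l * W.rho (r.cls j') l j +
        ∑ s, r.cB j' s * W.X (r.cls j') s j + r.err j' (.inl j))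
    rw [comb_sum r.cA E i (fun l => W.rho (r.cls i) l j) (fun j' l => W.rho (r.cls j') l j)
        (fun j' hj' => by rw [hE i j' hj']),
      comb_sum r.cB E i (fun l => W.X (r.cls i) l j) (fun j' l => W.X (r.cls j') l j)
        (fun j' hj' => by rw [hE i j' hj'])]
    simp only [mul_add, sum_add_distrib]
    ring
  · show ∑ s, (r.cB i s + ∑ j', E i j' * r.cB j' s) * W.th0 (r.cls i) s j +
        (r.err i (.inr (.inl j)) + ∑ j', E i j' * r.err j' (.inr (.inl j))) =
      (∑ s, r.cB i s * W.th0 (r.cls i) s j + r.err i (.inr (.inl j))) +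
      ∑ j', E i j' * (∑ s, r.cB j' s * W.th0 (r.cls j') s j + r.err j' (.inr (.inl j)))
    rw [comb_sum r.cB E i (fun l => W.th0 (r.cls i) l j) (fun j' l => W.th0 (r.cls j') l j)
        (fun j' hj' => by rw [hE i j' hj'])]
    simp only [mul_add, sum_add_distrib]
    ring
  · show ∑ u, (r.cC i u + ∑ j', E i j' * r.cC j' u) * W.q (r.cls i) u j +
        (r.err i (.inr (.inr (.inl j))) + ∑ j', E i j' * r.err j' (.inr (.inr (.inl j)))) =
      (∑ u, r.cC i u * W.q (r.cls i) u j + r.err i (.inr (.inr (.inl j)))) +
      ∑ j', E i j' * (∑ u, r.cC j' u * W.q (r.cls j') u j + r.err j' (.inr (.inr (.inl j))))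
    rw [comb_sum r.cC E i (fun l => W.q (r.cls i) l j) (fun j' l => W.q (r.cls j') l j)
        (fun j' hj' => by rw [hE i j' hj'])]
    simp only [mul_add, sum_add_distrib]
    ring
  · rfl

/-- **The determinant does not change** (`e` = the order of the columns). -/
theorem det_mat_rowop (W : Net A Cl jR jT jQ N) (r : Rows A Cl jR jT jQ jU N ι) (E : ι → ι → A)
    (hE : ∀ i j, E i j ≠ 0 → r.cls j = r.cls i) (red : ι → Prop)
    (h1 : ∀ i j, ¬ red i → E i j = 0) (h2 : ∀ i j, red j → E i j = 0)
    (e : ι → Col jR jT jQ jU) :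
    (Matrix.of fun i j => W.mat (rowop r E) i (e j)).det =
      (Matrix.of fun i j => W.mat r i (e j)).det :=
  P4RowOp961.det_rowop (fun i j => W.mat r i (e j)) (fun i j => W.mat (rowop r E) i (e j)) E red
    h1 h2 fun i c => mat_rowop W r E hE i (e c)

section partner

/-- the coefficients of "subtract the row of the partner" -/
def partE (A : Type*) [CommRing A] (part : ι → Option ι) (i j : ι) : A :=
  if part i = some j then -1 else 0

omit [Fintype ι] in
theorem partE_ne {part : ι → Option ι} {i j : ι} (h : partE A part i j ≠ 0) :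
    part i = some j := by
  by_contra hc
  exact h (by rw [partE, if_neg hc])

omit [Fintype ι] in
theorem partE_not (part : ι → Option ι) (i j : ι) (h : ¬ part i ≠ none) :
    partE A part i j = 0 := by
  simp only [ne_eq, not_not] at h
  simp [partE, h]

omit [Fintype ι] in
theorem partE_red (part : ι → Option ι) (hp : ∀ i j, part i = some j → part j = none) (i j : ι)
    (h : part j ≠ none) : partE A part i j = 0 := by
  by_cases hc : part i = some j
  · exact absurd (hp i j hc) h
  · rw [partE, if_neg hc]

theorem sum_partE (part : ι → Option ι) (i : ι) (f : ι → A) :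
    ∑ j, partE A part i j * f j = match part i with
      | some j => - f j
      | none => 0 := by
  rcases h : part i with _ | j
  · exact sum_eq_zero fun k _ => by simp [partE, h]
  · rw [sum_eq_single j (fun b _ hb => by
      rw [partE, if_neg (by rw [h]; exact fun hh => hb (Option.some.inj hh).symm), zero_mul])
      (fun hj => absurd (mem_univ j) hj)]
    simp [partE, h]

/-- the rows minus their partners -/
def partRows (r : Rows A Cl jR jT jQ jU N ι) (part : ι → Option ι) :
    Rows A Cl jR jT jQ jU N ι := rowop r (partE A part)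

@[simp] theorem partRows_cls (r : Rows A Cl jR jT jQ jU N ι) (part : ι → Option ι) :
    (partRows r part).cls = r.cls := rfl

theorem partRows_none (r : Rows A Cl jR jT jQ jU N ι) {part : ι → Option ι} {i : ι}
    (h : part i = none) :
    (partRows r part).cA i = r.cA i ∧ (partRows r part).cB i = r.cB i ∧
      (partRows r part).cC i = r.cC i ∧ (partRows r part).err i = r.err i := by
  refine ⟨funext fun l => ?_, funext fun l => ?_, funext fun l => ?_, funext fun l => ?_⟩ <;>
  · simp only [partRows, rowop, sum_partE, h, add_zero]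

theorem partRows_some (r : Rows A Cl jR jT jQ jU N ι) {part : ι → Option ι} {i j : ι}
    (h : part i = some j) :
    (∀ l, (partRows r part).cA i l = r.cA i l - r.cA j l) ∧
      (∀ l, (partRows r part).cB i l = r.cB i l - r.cB j l) ∧
      (∀ l, (partRows r part).cC i l = r.cC i l - r.cC j l) ∧
      (∀ d, (partRows r part).err i d = r.err i d - r.err j d) := by
  refine ⟨fun l => ?_, fun l => ?_, fun l => ?_, fun l => ?_⟩ <;>
  · simp only [partRows, rowop, sum_partE, h]
    ring

theorem mat_partRows (W : Net A Cl jR jT jQ N) (r : Rows A Cl jR jT jQ jU N ι)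
    (part : ι → Option ι) (hc : ∀ i j, part i = some j → r.cls j = r.cls i) (i : ι)
    (d : Col jR jT jQ jU) :
    W.mat (partRows r part) i d = W.mat r i d - match part i with
      | some j => W.mat r j d
      | none => 0 := by
  rw [partRows, mat_rowop W r (partE A part) (fun i j h => hc i j (partE_ne h)) i d, sum_partE]
  rcases part i with _ | j
  · simp
  · simp only
    ring

/-- **Subtracting partners does not change the determinant.** -/
theorem det_mat_partRows (W : Net A Cl jR jT jQ N) (r : Rows A Cl jR jT jQ jU N ι)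
    (part : ι → Option ι) (hc : ∀ i j, part i = some j → r.cls j = r.cls i)
    (hp : ∀ i j, part i = some j → part j = none) (e : ι → Col jR jT jQ jU) :
    (Matrix.of fun i j => W.mat (partRows r part) i (e j)).det =
      (Matrix.of fun i j => W.mat r i (e j)).det :=
  det_mat_rowop W r (partE A part) (fun i j h => hc i j (partE_ne h)) (fun i => part i ≠ none)
    (fun i j h => partE_not part i j h) (fun i j h => partE_red part hp i j h) e

end partner

end Crest.Agent.R006.P4M
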