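import Crest.Agent.R006.P4G3_226
import Crest.Agent.R006.Toll_814
import Crest.Agent.R006.Defs_89

/-!
Row 6, block P4 (helper226, leaf of helper657): the congruences of the chains of `g` and `ψ` in
814's filtrations of a field `K` of characteristic zero, for the germs of 664/89.

Hypotheses: `p = 2N+1`, `(p : K) ∈ F 1`, `(m : K)⁻¹ ∈ F 0` for `0 < m < p`.

* `GamZ_star` : `g(N+1+l) - (p/2)^2 c_l ∈ F 3`, `c_l = coeff 2 (GamH0 (l+1))`, `l < N`;
* `GamZ_mem`, `GamZ_mem_two` : `g(n) ∈ F 0` (`n < p`), `g(N+1+l) ∈ F 2` (`l < N`);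
* `GamH0_mem`, `GamH0_coeff_zero`, `GamH0_coeff_one` : the germs at `l + 1/2` are integral and
  `O(ε^2)`;
* `GamZ_half` : `g(N-m) - g^-(-1/2-m) ∈ F 1` (`m ≤ N`); `GamH0_neg_mem` : the germs at
  `-1/2-m` are integral (`m ≤ N`);
* `PsiZ_star` : `ψ(N+1+l) - ∑_{j<3} (p/2)^j coeff j (PsiH0 (l+1)) ∈ F 3`, `PsiH0_mem`;
* `PsiZ_mem` : `ψ(n) ∈ F 0` for `n ≤ N` if `ψ(0) ∈ F 0`.
-/

set_option autoImplicit false
set_option linter.unusedSectionVars false

namespace Crest.Agent.R006.P4G226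

open Finset Crest.Agent.R006.NV

variable {K : Type*} [Field K]

/-- the subring `F 0` -/
def subF (Fil : Tollx814.ZFil K) : Subring K where
  carrier := Fil.F 0
  mul_mem' := fun {a b} ha hb => by simpa using Fil.mul_mem (a := 0) (b := 0) ha hb
  one_mem' := Fil.one_mem
  add_mem' := fun ha hb => (Fil.F 0).add_mem ha hb
  zero_mem' := (Fil.F 0).zero_mem
  neg_mem' := fun ha => (Fil.F 0).neg_mem ha

theorem mem_subF (Fil : Tollx814.ZFil K) (x : K) : x ∈ subF Fil ↔ x ∈ Fil.F 0 := Iff.rfl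

theorem pow_mem_F {Fil : Tollx814.ZFil K} {x : K} {a : ℤ} (h : x ∈ Fil.F a) (k : ℕ) :
    x ^ k ∈ Fil.F (k * a) := by
  induction k with
  | zero => simpa using Fil.one_mem
  | succ k ih =>
    rw [pow_succ]
    have := Fil.mul_mem ih h
    have e : (k : ℤ) * a + a = ((k + 1 : ℕ) : ℤ) * a := by push_cast; ring
    rwa [e] at this

theorem PO.mem_F {Fil : Tollx814.ZFil K} {p k : ℕ} (hp : (p : K) ∈ Fil.F 1) {x : K}
    (h : PO (subF Fil) p k x) : x ∈ Fil.F k := by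
  obtain ⟨y, hy, rfl⟩ := h
  have := Fil.mul_mem (pow_mem_F hp k) ((mem_subF Fil y).1 hy)
  simpa using this

section

variable [CharZero K] {Fil : Tollx814.ZFil K} {p N : ℕ}

/-- hypothesis on the small integers -/
def Small (Fil : Tollx814.ZFil K) (p : ℕ) : Prop :=
  ∀ m : ℕ, 0 < m → m < p → ((m : K))⁻¹ ∈ Fil.F 0

theorem Small.uSmall (h : Small Fil p) : USmall (subF Fil) p := fun m hm hmp =>
  ⟨((m : K))⁻¹, h m hm hmp, inv_mul_cancel₀ (Nat.cast_ne_zero.2 hm.ne')⟩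

theorem Small.half (h : Small Fil p) (hp : 2 < p) : (1 / 2 : K) ∈ subF Fil := by
  have := h 2 (by norm_num) hp
  rw [mem_subF, one_div]
  simpa using this

theorem half_two : (1 / 2 : K) * 2 = 1 := by norm_num

/-! ### recurrences -/

theorem GamZ_val_succ (n : ℕ) :
    ((n : K) + 1) ^ 2 * PowerSeries.coeff 0 (GamZ (K := K) ((n + 1 : ℕ) : ℤ)) =
      ((n : K) + 1 / 2) ^ 2 * PowerSeries.coeff 0 (GamZ (K := K) ((n : ℕ) : ℤ)) := by
  have h := (step_Z (K := K) 0 (n : ℤ)).gam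
  have h2 := congrArg (PowerSeries.coeff (R := K) 0) h
  simp only [PowerSeries.coeff_zero_eq_constantCoeff_apply, map_mul, map_pow, constantCoeff_pt,
    PowerSeries.constantCoeff_C, map_add, constantCoeff_two, map_one] at h2
  have e : ((n : ℤ) + 1 : ℤ) = ((n + 1 : ℕ) : ℤ) := by push_cast; ring
  rw [e] at h2
  simp only [PowerSeries.coeff_zero_eq_constantCoeff_apply]
  push_cast at h2 ⊢
  linear_combination h2

theorem GamZ_val_zero : PowerSeries.coeff 0 (GamZ (K := K) ((0 : ℕ) : ℤ)) = 1 := by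
  have : (GamZ (K := K) ((0 : ℕ) : ℤ)) = 1 := rfl
  rw [this]; simp

theorem PsiZ_val_succ (c : K) (n : ℕ) :
    ((n : K) + 1) ^ 3 * PowerSeries.coeff 0 (PsiZ (K := K) c ((n + 1 : ℕ) : ℤ)) +
      (2 * (n : K) + 1) ^ 3 * PowerSeries.coeff 0 (PsiZ (K := K) c ((n : ℕ) : ℤ)) =
      -(1 / 2 * (3 * (n : K) + 2)) := by
  have h := (step_Z (K := K) c (n : ℤ)).psi
  have h2 := congrArg (PowerSeries.coeff (R := K) 0) h
  have h3 : PowerSeries.constantCoeff (3 : PowerSeries K) = (3 : K) :=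
    map_ofNat PowerSeries.constantCoeff 3
  simp only [PowerSeries.coeff_zero_eq_constantCoeff_apply, map_mul, map_pow, constantCoeff_pt,
    PowerSeries.constantCoeff_C, map_add, constantCoeff_two, map_one, map_neg, h3] at h2
  have e : ((n : ℤ) + 1 : ℤ) = ((n + 1 : ℕ) : ℤ) := by push_cast; ring
  rw [e] at h2
  simp only [PowerSeries.coeff_zero_eq_constantCoeff_apply]
  push_cast at h2 ⊢
  linear_combination h2

theorem pt_eq (x : K) : (pt x : PowerSeries K) = PowerSeries.X + PowerSeries.C x := rfl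

/-- the half chain of `g` -/
theorem GamH0_step (i : ℤ) : pt ((i : K) + 1 / 2) ^ 2 * GamH0 (K := K) (i + 1) =
    pt (i : K) ^ 2 * GamH0 (K := K) i := by
  have h := (step_HG0 (K := K) 1 i).gam
  have e1 : NV.GamH0 (K := K) 1 = Crest.Agent.R006.GamH0 (K := K) := by
    unfold NV.GamH0 Crest.Agent.R006.GamH0
    rw [map_one]
  rw [e1] at h
  have e2 : (i : K) - 1 / 2 + 1 = (i : K) + 1 / 2 := by ring
  rw [e2] at h
  rw [h]
  have e3 : (2 * pt ((i : K) - 1 / 2) + 1 : PowerSeries K) = PowerSeries.C 2 * pt (i : K) := by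
    rw [pt_eq, two_pt half_two, pt_eq]
    congr 3; ring
  rw [e3, mul_pow, ← mul_assoc]
  congr 1
  have e4 : (PowerSeries.C (1 / 4) * PowerSeries.C 2 ^ 2 : PowerSeries K) = 1 := by
    rw [← map_pow, ← map_mul]; norm_num
  rw [e4, one_mul]

theorem GamH0_zero : GamH0 (K := K) 0 = 1 := rfl

/-- germ of the half chain at `l + 1/2` -/
noncomputable def tH (l : ℕ) : PowerSeries K := GamH0 (K := K) ((l + 1 : ℕ) : ℤ)

theorem tH_zero : (PowerSeries.X + PowerSeries.C (1 / 2 : K)) ^ 2 * tH (K := K) 0 =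
    PowerSeries.X ^ 2 := by
  have h := GamH0_step (K := K) 0
  rw [GamH0_zero, mul_one] at h
  have e : ((0 : ℤ) + 1) = ((0 + 1 : ℕ) : ℤ) := by norm_num
  rw [e] at h
  unfold tH
  rw [pt_eq, pt_eq] at h
  simpa using h

theorem tH_succ (l : ℕ) : (PowerSeries.X + PowerSeries.C ((l : K) + 1 + 1 / 2)) ^ 2 *
    tH (K := K) (l + 1) = (PowerSeries.X + PowerSeries.C ((l : K) + 1)) ^ 2 * tH (K := K) l := by
  have h := GamH0_step (K := K) ((l + 1 : ℕ) : ℤ)
  have e : (((l + 1 : ℕ) : ℤ) + 1) = ((l + 1 + 1 : ℕ) : ℤ) := by push_cast; ring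
  rw [e, pt_eq, pt_eq] at h
  unfold tH
  push_cast at h ⊢
  exact h

/-- germ of the star chain of `ψ` at `l + 1/2` -/
noncomputable def sH (l : ℕ) : PowerSeries K := PsiH0 (K := K) ((l + 1 : ℕ) : ℤ)

theorem sH_zero : (PowerSeries.X + PowerSeries.C (1 / 2 : K)) ^ 3 * sH (K := K) 0 =
    -(PowerSeries.C (1 / 2 : K) * (3 * (PowerSeries.X + PowerSeries.C (-(1 / 2))) + 2)) := by
  have h := (step_H0 (K := K) 0).psi
  rw [PsiH0_zero, mul_zero, add_zero] at h
  have e : ((0 : ℤ) + 1) = ((0 + 1 : ℕ) : ℤ) := by norm_num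
  rw [e] at h
  have e1 : (((0 : ℤ) : K) - 1 / 2 + 1) = 1 / 2 := by push_cast; ring
  have e2 : (((0 : ℤ) : K) - 1 / 2) = -(1 / 2) := by push_cast; ring
  rw [e1, e2, pt_eq, pt_eq] at h
  exact h

theorem sH_succ (l : ℕ) : (PowerSeries.X + PowerSeries.C ((l : K) + 1 + 1 / 2)) ^ 3 *
    sH (K := K) (l + 1) +
      (2 * (PowerSeries.X + PowerSeries.C ((l : K) + 1 / 2)) + 1) ^ 3 * sH (K := K) l =
      -(PowerSeries.C (1 / 2 : K) * (3 * (PowerSeries.X + PowerSeries.C ((l : K) + 1 / 2)) + 2)) := by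
  have h := (step_H0 (K := K) ((l + 1 : ℕ) : ℤ)).psi
  have e : (((l + 1 : ℕ) : ℤ) + 1) = ((l + 1 + 1 : ℕ) : ℤ) := by push_cast; ring
  have e1 : ((((l + 1 : ℕ) : ℤ) : K) - 1 / 2 + 1) = (l : K) + 1 + 1 / 2 := by push_cast; ring
  have e2 : ((((l + 1 : ℕ) : ℤ) : K) - 1 / 2) = (l : K) + 1 / 2 := by push_cast; ring
  rw [e, e1, e2, pt_eq, pt_eq] at h
  exact h

/-! ### results -/

/-- germs of the half chain of `g` at `l + 1/2` are integral, `2l+1 < p` -/
theorem GamH0_mem (hS : Small Fil p) (hp2 : 2 < p) {l : ℕ} (hl : 2 * l + 1 < p) (j : ℕ) :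
    PowerSeries.coeff j (GamH0 (K := K) ((l + 1 : ℕ) : ℤ)) ∈ Fil.F 0 :=
  g_star_int hS.uSmall half_two (hS.half hp2) tH_zero tH_succ l hl j

/-- germs of the star chain of `ψ` at `l + 1/2` are integral, `2l+1 < p` -/
theorem PsiH0_mem (hS : Small Fil p) (hp2 : 2 < p) {l : ℕ} (hl : 2 * l + 1 < p) (j : ℕ) :
    PowerSeries.coeff j (PsiH0 (K := K) ((l + 1 : ℕ) : ℤ)) ∈ Fil.F 0 :=
  psi_star_int hS.uSmall half_two (hS.half hp2) sH_zero sH_succ l hl j

/-- values of `g` are integral -/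
theorem GamZ_mem (hS : Small Fil p) (hp : 2 < p) {n : ℕ} (hn : n < p) :
    PowerSeries.coeff 0 (GamZ (K := K) (n : ℤ)) ∈ Fil.F 0 :=
  g_int (b := fun n : ℕ => PowerSeries.coeff 0 (GamZ (K := K) (n : ℤ)))
    hS.uSmall (hS.half hp) GamZ_val_zero GamZ_val_succ n hn

/-- `tH l = ε^2 (..)` -/
theorem tH_dvd (l : ℕ) : (PowerSeries.X : PowerSeries K) ^ 2 ∣ tH (K := K) l := by
  induction l with
  | zero =>
    have h := tH_zero (K := K)
    have hu : IsUnit ((PowerSeries.X + PowerSeries.C (1 / 2 : K)) ^ 2 : PowerSeries K) := by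
      rw [PowerSeries.isUnit_iff_constantCoeff]; simp
    exact (hu.dvd_mul_left).1 (dvd_of_eq h.symm)
  | succ l ih =>
    have h := tH_succ (K := K) l
    have hne : ((l : K) + 1 + 1 / 2) ≠ 0 := by
      have : ((2 * l + 3 : ℕ) : K) ≠ 0 := Nat.cast_ne_zero.2 (by omega)
      intro h0
      apply this
      push_cast
      linear_combination 2 * h0
    have hu : IsUnit ((PowerSeries.X + PowerSeries.C ((l : K) + 1 + 1 / 2)) ^ 2 :
        PowerSeries K) := by
      rw [PowerSeries.isUnit_iff_constantCoeff]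
      simp only [map_pow, map_add, PowerSeries.constantCoeff_X, PowerSeries.constantCoeff_C,
        zero_add]
      exact (isUnit_iff_ne_zero.2 (pow_ne_zero 2 hne))
    refine (hu.dvd_mul_left).1 ?_
    rw [h]
    exact Dvd.dvd.mul_left ih _

theorem GamH0_coeff_lt (l : ℕ) {j : ℕ} (hj : j < 2) :
    PowerSeries.coeff j (GamH0 (K := K) ((l + 1 : ℕ) : ℤ)) = 0 :=
  PowerSeries.X_pow_dvd_iff.1 (tH_dvd (K := K) l) j hj

/-- **(G1)** `g(N+1+l) = (p/2)^2 c_l` mod `p^3` -/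
theorem GamZ_star (hpF : (p : K) ∈ Fil.F 1) (hS : Small Fil p) (hp : p = 2 * N + 1) {l : ℕ}
    (hl : l < N) :
    PowerSeries.coeff 0 (GamZ (K := K) ((N + 1 + l : ℕ) : ℤ)) -
      ((p : K) / 2) ^ 2 * PowerSeries.coeff 2 (GamH0 (K := K) ((l + 1 : ℕ) : ℤ)) ∈ Fil.F 3 := by
  have h := g_star_coeff (b := fun n : ℕ => PowerSeries.coeff 0 (GamZ (K := K) (n : ℤ)))
    hp hS.uSmall half_two (hS.half (by omega)) tH_zero tH_succ GamZ_val_zero GamZ_val_succ
    (l := l) (by omega) (GamH0_coeff_lt l (by norm_num)) (GamH0_coeff_lt l (by norm_num))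
  have h2 := PO.mem_F hpF h
  have e : (p : K) * (1 / 2) = (p : K) / 2 := by ring
  rw [e] at h2
  exact h2

theorem GamZ_mem_two (hpF : (p : K) ∈ Fil.F 1) (hS : Small Fil p) (hp : p = 2 * N + 1) {l : ℕ}
    (hl : l < N) : PowerSeries.coeff 0 (GamZ (K := K) ((N + 1 + l : ℕ) : ℤ)) ∈ Fil.F 2 := by
  have h1 := Fil.mono (by norm_num : (2 : ℤ) ≤ 3) (GamZ_star hpF hS hp hl)
  have h2 : ((p : K) / 2) ^ 2 * PowerSeries.coeff 2 (GamH0 (K := K) ((l + 1 : ℕ) : ℤ)) ∈
      Fil.F 2 := by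
    have h3 : (p : K) / 2 ∈ Fil.F 1 := by
      rw [div_eq_mul_one_div]
      simpa using Fil.mul_mem hpF ((mem_subF Fil _).1 (hS.half (by omega)))
    have := Fil.mul_mem (pow_mem_F h3 2) (GamH0_mem hS (by omega) (by omega : 2 * l + 1 < p) 2)
    simpa using this
  have := (Fil.F 2).add_mem h1 h2
  simpa using this

/-- `GamH0 (-m)` at `-1/2-m` : the recursion for the value -/
theorem GamH0_val_neg (m : ℕ) :
    ((m : K) + 1) ^ 2 * PowerSeries.coeff 0 (GamH0 (K := K) (-((m + 1 : ℕ) : ℤ))) =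
      ((m : K) + 1 / 2) ^ 2 * PowerSeries.coeff 0 (GamH0 (K := K) (-(m : ℤ))) := by
  have h := GamH0_step (K := K) (-((m + 1 : ℕ) : ℤ))
  have h2 := congrArg (PowerSeries.coeff (R := K) 0) h
  simp only [PowerSeries.coeff_zero_eq_constantCoeff_apply, map_mul, map_pow,
    constantCoeff_pt] at h2
  have e : (-((m + 1 : ℕ) : ℤ) + 1) = -(m : ℤ) := by push_cast; ring
  rw [e] at h2
  simp only [PowerSeries.coeff_zero_eq_constantCoeff_apply]
  push_cast at h2 ⊢
  linear_combination -h2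

/-- the value of the half chain at `-1/2-m` is `g(m)` -/
theorem GamH0_neg_val (m : ℕ) : PowerSeries.coeff 0 (GamH0 (K := K) (-(m : ℤ))) =
    PowerSeries.coeff 0 (GamZ (K := K) (m : ℤ)) := by
  induction m with
  | zero =>
    have e1 : (GamH0 (K := K) (-((0 : ℕ) : ℤ))) = 1 := rfl
    have e2 : (GamZ (K := K) ((0 : ℕ) : ℤ)) = 1 := rfl
    rw [e1, e2]
  | succ m ih =>
    have h1 := GamH0_val_neg (K := K) m
    have h2 := GamZ_val_succ (K := K) m
    rw [ih, ← h2] at h1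
    have hne : ((m : K) + 1) ^ 2 ≠ 0 := pow_ne_zero 2 (Nat.cast_add_one_ne_zero m)
    exact mul_left_cancel₀ hne h1

/-- **(W)** `g(N-m) = g^-(-1/2-m)` mod `p` -/
theorem GamZ_half (hpF : (p : K) ∈ Fil.F 1) (hS : Small Fil p) (hp : p = 2 * N + 1) {m : ℕ}
    (hm : m ≤ N) :
    PowerSeries.coeff 0 (GamZ (K := K) ((N - m : ℕ) : ℤ)) -
      PowerSeries.coeff 0 (GamH0 (K := K) (-(m : ℤ))) ∈ Fil.F 1 := by
  rcases Nat.eq_zero_or_pos N with h0 | h0
  · subst h0
    have : m = 0 := by omega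
    subst this
    have e1 : (GamH0 (K := K) (-((0 : ℕ) : ℤ))) = 1 := rfl
    have e2 : (GamZ (K := K) ((0 - 0 : ℕ) : ℤ)) = 1 := rfl
    rw [e1, e2, sub_self]; exact (Fil.F 1).zero_mem
  · have h := g_half (b := fun n : ℕ => PowerSeries.coeff 0 (GamZ (K := K) (n : ℤ)))
      hp hS.uSmall half_two (hS.half (by omega)) GamZ_val_zero GamZ_val_succ m hm
    rw [GamH0_neg_val]
    exact PO.mem_F hpF h

/-- germs of the half chain of `g` at `-1/2-m` are integral, `m ≤ N` -/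
theorem GamH0_neg_mem (hS : Small Fil p) (hp : p = 2 * N + 1) (j : ℕ) {m : ℕ} (hm : m ≤ N) :
    PowerSeries.coeff j (GamH0 (K := K) (-(m : ℤ))) ∈ Fil.F 0 := by
  have key : ∀ m : ℕ, m ≤ N → IntS (subF Fil) (GamH0 (K := K) (-(m : ℤ))) := by
    intro m
    induction m with
    | zero =>
      intro _
      have e1 : (GamH0 (K := K) (-((0 : ℕ) : ℤ))) = 1 := rfl
      rw [e1]; exact IntS.one
    | succ m ih =>
      intro hm
      have h := GamH0_step (K := K) (-((m + 1 : ℕ) : ℤ))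
      have e : (-((m + 1 : ℕ) : ℤ) + 1) = -(m : ℤ) := by push_cast; ring
      rw [e, pt_eq, pt_eq] at h
      have hmO : (((-((m + 1 : ℕ) : ℤ) : ℤ)) : K) ∈ subF Fil := intCast_mem _ _
      have hhf := hS.half (by omega : 2 < p)
      refine IntS.of_mul ((IntS.ptC hmO).pow 2) ?_ ?_ (x := GamH0 (K := K) (-((m + 1 : ℕ) : ℤ)))
      · rw [coeff_zero_pt_pow]
        apply unit_pow
        refine ⟨-(((m + 1 : ℕ) : K))⁻¹, ?_, ?_⟩
        · exact (subF Fil).neg_mem (hS (m + 1) (by omega) (by omega))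
        · have hne : ((m + 1 : ℕ) : K) ≠ 0 := Nat.cast_ne_zero.2 (by omega)
          push_cast at hne ⊢
          field_simp
      · rw [← h]
        exact ((IntS.ptC ((subF Fil).add_mem hmO hhf)).pow 2).mul (ih (by omega))
  exact key m hm j

/-- values of `ψ` are integral for `n ≤ N` -/
theorem PsiZ_mem (hS : Small Fil p) (hp : p = 2 * N + 1) (hp2 : 2 < p) {c : K}
    (hc : c ∈ Fil.F 0) {n : ℕ} (hn : n < p) :
    PowerSeries.coeff 0 (PsiZ (K := K) c (n : ℤ)) ∈ Fil.F 0 := by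
  have key : ∀ n : ℕ, n < p → PowerSeries.coeff 0 (PsiZ (K := K) c (n : ℤ)) ∈ subF Fil := by
    intro n
    induction n with
    | zero =>
      intro _
      have e1 : PsiZ (K := K) c ((0 : ℕ) : ℤ) = PowerSeries.C c := rfl
      rw [e1]
      have h2 : PowerSeries.coeff 0 (PowerSeries.C c : PowerSeries K) = c := by simp
      rw [h2]; exact hc
    | succ n ih =>
      intro hn
      have h := PsiZ_val_succ (K := K) c n
      obtain ⟨w, hw, hw1⟩ := hS.uSmall (n + 1) (by omega) hn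
      push_cast at hw1
      have e : PowerSeries.coeff 0 (PsiZ (K := K) c ((n + 1 : ℕ) : ℤ)) =
          w ^ 3 * (-(1 / 2 * (3 * (n : K) + 2)) -
            (2 * (n : K) + 1) ^ 3 * PowerSeries.coeff 0 (PsiZ (K := K) c ((n : ℕ) : ℤ))) := by
        rw [← h, add_sub_cancel_right, ← mul_assoc, ← mul_pow, hw1, one_pow, one_mul]
      rw [e]
      have hnO : (n : K) ∈ subF Fil := natCast_mem _ n
      refine (subF Fil).mul_mem ((subF Fil).pow_mem hw 3) ((subF Fil).sub_mem ((subF Fil).neg_mem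
        ((subF Fil).mul_mem (hS.half hp2) ((subF Fil).add_mem ((subF Fil).mul_mem
        (ofNat_mem _ 3) hnO) (ofNat_mem _ 2)))) ((subF Fil).mul_mem ((subF Fil).pow_mem
        ((subF Fil).add_mem ((subF Fil).mul_mem (ofNat_mem _ 2) hnO) (subF Fil).one_mem) 3)
        (ih (by omega))))
  exact key n hn

/-- **(PSI)** `ψ(N+1+l) = ∑_{j<3} (p/2)^j [ε^j] ψ_*(l+1/2+ε)` mod `p^3` -/
theorem PsiZ_star (hpF : (p : K) ∈ Fil.F 1) (hS : Small Fil p) (hp : p = 2 * N + 1) {c : K}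
    (hc : c ∈ Fil.F 0) {l : ℕ} (hl : l < N) :
    PowerSeries.coeff 0 (PsiZ (K := K) c ((N + 1 + l : ℕ) : ℤ)) -
      ev ((p : K) / 2) (PsiH0 (K := K) ((l + 1 : ℕ) : ℤ)) ∈ Fil.F 3 := by
  have h := psi_star (a := fun n : ℕ => PowerSeries.coeff 0 (PsiZ (K := K) c (n : ℤ)))
    hp hS.uSmall half_two (hS.half (by omega)) sH_zero sH_succ
    (PsiZ_mem hS hp (by omega) hc (by omega)) (fun n _ => PsiZ_val_succ c n) l (by omega)
  have h2 := PO.mem_F hpF h
  have e : (p : K) * (1 / 2) = (p : K) / 2 := by ring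
  rw [e] at h2
  exact h2

end

end Crest.Agent.R006.P4G226
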