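import Crest.Agent.R006.P4_LocalInput_955
import Crest.Agent.R006.P4RowOp_961
import Crest.Agent.R006.P4G4_226
import Crest.Agent.R006.Bord_929

/-!
# Row 6, block P4 (helper657): the G-W row reduction

In the polar class of `n = h - l` (`p = 2h+1`) the row `Z n` is replaced by
`row (Z n) - row (H (-1-l))` (`H (-1-l)` is the point `-l-1/2 = n - p/2`, where the gauge of the
`R`-columns vanishes).

* `det_partner`, `gwPartner` : the row operation on the rows of the design;
* `redA`, `redB`, `redC` : the new coefficients, `redA 0 = 0`, `redA t ∈ F (max 1 (t-2))`,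
  `redB 0 = 0`, `redB s ∈ F s`, `redC 0 ∈ F 1`, `redC u ∈ F u`;
* `gw_row` : the identity of the rows;  `gauge_mem` : the shift by the zeros of the gauge;
* `gam_half` : `g(h-l) - g(-1/2-l) ∈ F 1`.
-/

set_option autoImplicit false

namespace Crest.Agent.R006.P4GW657

open Polynomial Finset Tollx814 P4Toll961 P4M
open Crest.Agent.R006.D

/-! ### the row operation -/

section det

variable {A : Type*} [CommRing A] {ι : Type*} [Fintype ι] [DecidableEq ι]

/-- subtract from every row the row of its partner -/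
def sub (M : ι → ι → A) (partner : ι → Option ι) (i c : ι) : A :=
  M i c - match partner i with
    | some j => M j c
    | none => 0

theorem det_partner (M : ι → ι → A) (partner : ι → Option ι)
    (hp : ∀ i j, partner i = some j → partner j = none) :
    (Matrix.of (sub M partner)).det = (Matrix.of M).det := by
  classical
  refine P4RowOp961.det_rowop M (sub M partner) (fun i j => if partner i = some j then -1 else 0)
    (fun i => partner i ≠ none) ?_ ?_ ?_
  · intro i j hi
    simp only [ne_eq, not_not] at hi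
    simp [hi]
  · intro i j hj
    by_cases h : partner i = some j
    · exact absurd (hp i j h) hj
    · simp [h]
  · intro i c
    rw [sub]
    rcases h : partner i with _ | j
    · simp
    · simp only [Option.some.injEq, ite_mul, neg_mul, one_mul, zero_mul]
      rw [Finset.sum_ite_eq]
      simp [sub_eq_add_neg]

end det

section partner

variable (S : Shape) (u c : ℕ) (hS : S.Good) (h : ℕ)

lemma isRow_W {l : ℕ} (hl : l < S.w * u) : IsRow S u c (Site.H (-1 - (l : ℤ)), 0) := by
  have h1 : ¬ (0 : ℤ) ≤ -1 - (l : ℤ) := by omega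
  have h2 : -(-1 - (l : ℤ)) ≤ (S.w : ℤ) * u := by
    have : (l : ℤ) < S.w * u := by exact_mod_cast hl
    omega
  simp only [IsRow, Shape.mult, if_neg h1]
  rw [if_pos (by exact_mod_cast h2)]
  norm_num

/-- the partner of the row of the node `h - l` is the row of `-l-1/2` -/
noncomputable def gwPartner (i : Lam.Row (Bordx929.mm S u c)) :
    Option (Lam.Row (Bordx929.mm S u c)) := by
  classical
  exact if H : ∃ l : ℕ, l ≤ h ∧ l < S.w * u ∧ i.1.1 = Site.Z ((h : ℤ) - l) then
    some (Bordx929.toRow u c hS (Site.H (-1 - (H.choose : ℤ)), 0) (isRow_W S u c H.choose_spec.2.1))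
  else none

lemma gwPartner_some {i j : Lam.Row (Bordx929.mm S u c)}
    (hij : gwPartner S u c hS h i = some j) :
    ∃ l : ℕ, l ≤ h ∧ l < S.w * u ∧ Bordx929.ofRow u c i = (Site.Z ((h : ℤ) - l), 0) ∧
      Bordx929.ofRow u c j = (Site.H (-1 - (l : ℤ)), 0) := by
  classical
  rw [gwPartner] at hij
  split_ifs at hij with H
  · have h1 := H.choose_spec
    refine ⟨H.choose, h1.1, h1.2.1, ?_, ?_⟩
    · obtain ⟨⟨z, hz⟩, ⟨j', hj'⟩⟩ := i
      have h2 : z = Site.Z ((h : ℤ) - H.choose) := h1.2.2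
      have h3 : j' < 1 := by
        refine lt_of_lt_of_le hj' ?_
        have h4 : S.mult u c z ≤ 1 := by
          rw [h2, Shape.mult]
          have h5 : (0 : ℤ) ≤ (h : ℤ) - H.choose := by have := h1.1; omega
          rw [if_pos h5]
          split_ifs <;> norm_num
        exact h4
      have h6 : j' = 0 := by omega
      subst h6
      rw [Bordx929.ofRow]
      exact Prod.ext h2 rfl
    · simp only [Option.some.injEq] at hij
      rw [← hij, Bordx929.ofRow_toRow]

lemma gwPartner_none {i : Lam.Row (Bordx929.mm S u c)} (hi : gwPartner S u c hS h i = none)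
    {l : ℕ} (hl : l ≤ h) (hl' : l < S.w * u) : i.1.1 ≠ Site.Z ((h : ℤ) - l) := by
  classical
  intro h1
  rw [gwPartner] at hi
  split_ifs at hi with H
  exact H ⟨l, hl, hl', h1⟩

lemma gwPartner_partner (i j : Lam.Row (Bordx929.mm S u c))
    (hij : gwPartner S u c hS h i = some j) : gwPartner S u c hS h j = none := by
  classical
  obtain ⟨l, _, _, _, h4⟩ := gwPartner_some S u c hS h hij
  rw [gwPartner, dif_neg]
  rintro ⟨l', _, _, h5⟩
  have h6 : j.1.1 = Site.H (-1 - (l : ℤ)) := congrArg Prod.fst h4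
  rw [h6] at h5
  simp at h5

end partner

/-! ### the coefficients of the reduced row -/

section coeffs

variable {A : Type*} [CommRing A] (Fil : ZFil A)

/-- `R`-coefficients of the reduced row -/
def redA (psi y : A) (m : ℕ → A) (t : ℕ) : A :=
  (if t = 0 then psi else -m (t - 1)) + ∑ k ∈ range t, y ^ (t - 1 - k) * m k - psi * y ^ t

/-- `X`-coefficients of the reduced row -/
def redB (y : A) (s : ℕ) : A := (if s = 0 then 1 else 0) - y ^ s

/-- `Q`-coefficients of the reduced row -/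
def redC (g gW y : A) (k : ℕ) : A := (if k = 0 then g else 0) - y ^ k * gW

@[simp] lemma redA_zero (psi y : A) (m : ℕ → A) : redA psi y m 0 = 0 := by simp [redA]

@[simp] lemma redB_zero (y : A) : redB y 0 = 0 := by simp [redB]

lemma redA_succ (psi y : A) (m : ℕ → A) (t : ℕ) :
    redA psi y m (t + 1) = ∑ k ∈ range t, y ^ (t - k) * m k - psi * y ^ (t + 1) := by
  rw [redA, if_neg (by omega), sum_range_succ]
  simp only [Nat.add_sub_cancel, Nat.sub_self, pow_zero, one_mul]
  ring

theorem redA_mem {psi y : A} {m : ℕ → A} (hy : y ∈ Fil.F 1) (hpsi : psi ∈ Fil.F 0) {n : ℕ}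
    (hm : ∀ k < n, m k ∈ Fil.F (max 0 ((k : ℤ) - 1))) {t : ℕ} (ht : 0 < t) (htn : t ≤ n) :
    redA psi y m t ∈ Fil.F (max 1 ((t : ℤ) - 2)) := by
  obtain ⟨t, rfl⟩ : ∃ k, t = k + 1 := ⟨t - 1, by omega⟩
  rw [redA_succ]
  refine AddSubgroup.sub_mem _ (Fil.sum_mem _ _ _ fun k hk => ?_) ?_
  · rw [mem_range] at hk
    refine mul_mem' Fil (pow_one_mem Fil hy (t - k)) (hm k (by omega)) ?_
    push_cast [Nat.cast_sub hk.le]
    omega
  · refine mul_mem' Fil hpsi (pow_one_mem Fil hy (t + 1)) ?_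
    push_cast
    omega

theorem redB_mem {y : A} (hy : y ∈ Fil.F 1) (s : ℕ) : redB y s ∈ Fil.F s := by
  rcases Nat.eq_zero_or_pos s with rfl | hs
  · rw [redB_zero]; exact AddSubgroup.zero_mem _
  · rw [redB, if_neg (by omega), zero_sub]
    exact AddSubgroup.neg_mem _ (pow_one_mem Fil hy s)

theorem redC_zero_mem {g gW y : A} (h : g - gW ∈ Fil.F 1) : redC g gW y 0 ∈ Fil.F 1 := by
  rw [redC, if_pos rfl, pow_zero, one_mul]
  exact h

theorem redC_mem {g gW y : A} (hy : y ∈ Fil.F 1) (hg : gW ∈ Fil.F 0) {k : ℕ} (hk : 0 < k) :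
    redC g gW y k ∈ Fil.F k := by
  rw [redC, if_neg (by omega), zero_sub]
  exact AddSubgroup.neg_mem _ (mul_mem' Fil (pow_one_mem Fil hy k) hg (by simp))

omit Fil in
/-- **the reduced row**: node row minus `W`-row, using that the `R`-column vanishes at the `W`-site
(`∑ y^t ρ_t = 0`). -/
theorem gw_row (psi y : A) (m ρ X : ℕ → A) (n n' : ℕ) (hn' : 0 < n')
    (h0 : ∑ t ∈ range n, y ^ t * ρ t = 0) :
    (∑ t ∈ range n, (if t = 0 then psi else -m (t - 1)) * ρ t + X 0) -
      (∑ t ∈ range n, (-∑ k ∈ range t, y ^ (t - 1 - k) * m k) * ρ t +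
        ∑ s ∈ range n', y ^ s * X s) =
      ∑ t ∈ range n, redA psi y m t * ρ t + ∑ s ∈ range n', redB y s * X s := by
  have e1 : ∑ t ∈ range n, redA psi y m t * ρ t =
      ∑ t ∈ range n, (if t = 0 then psi else -m (t - 1)) * ρ t -
        ∑ t ∈ range n, (-∑ k ∈ range t, y ^ (t - 1 - k) * m k) * ρ t -
        psi * ∑ t ∈ range n, y ^ t * ρ t := by
    rw [mul_sum, ← sum_sub_distrib, ← sum_sub_distrib]
    refine sum_congr rfl fun t _ => ?_
    rw [redA]; ring
  have e2 : ∑ s ∈ range n', redB y s * X s = X 0 - ∑ s ∈ range n', y ^ s * X s := by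
    have : ∑ s ∈ range n', (if s = 0 then (1 : A) else 0) * X s = X 0 := by
      rw [sum_eq_single 0]
      · simp
      · intro b _ hb; simp [hb]
      · intro h; exact absurd (mem_range.mpr hn') h
    rw [← this, ← sum_sub_distrib]
    exact sum_congr rfl fun s _ => by rw [redB]; ring
  rw [e1, e2, h0]
  ring

omit Fil in
/-- constant coefficient of the bracket at the node (`y = ε`) -/
theorem node_coeff (P : PowerSeries A) (m : ℕ → A) (t : ℕ) :
    PowerSeries.constantCoeff (P * PowerSeries.X ^ t -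
      ∑ k ∈ range t, PowerSeries.X ^ (t - 1 - k) * PowerSeries.C (m k)) =
      if t = 0 then PowerSeries.constantCoeff P else -m (t - 1) := by
  rcases Nat.eq_zero_or_pos t with rfl | ht
  · simp
  · obtain ⟨t, rfl⟩ : ∃ k, t = k + 1 := ⟨t - 1, by omega⟩
    rw [if_neg (by omega), map_sub, map_mul, map_pow, PowerSeries.constantCoeff_X, map_sum,
      sum_range_succ, sum_eq_zero]
    · simp
    · intro k hk
      rw [mem_range] at hk
      rw [map_mul, map_pow, PowerSeries.constantCoeff_X]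
      have : t + 1 - 1 - k ≠ 0 := by omega
      rw [zero_pow this, zero_mul]

/-- the shift by the zeros of the gauge: `ρ_t = ∑_{l≤t} G (t-l) b_l`, `G r ∈ F (z - r)^+` -/
theorem gauge_mem {z v0 v1 : ℤ} {a G : ℕ → A} {n l : ℕ}
    (hG : ∀ r : ℕ, G r ∈ Fil.F (max 0 (z - r)))
    (ha0 : a 0 = 0) (ha : ∀ t, 0 < t → t < n → a t ∈ Fil.F (max v0 ((t : ℤ) - v1))) :
    ∑ t ∈ Ico l n, a t * G (t - l) ∈ Fil.F (max v0 (z + l - v1)) := by
  refine Fil.sum_mem _ _ _ fun t ht => ?_
  rw [mem_Ico] at ht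
  rcases Nat.eq_zero_or_pos t with rfl | h0
  · rw [ha0, zero_mul]; exact AddSubgroup.zero_mem _
  · refine mul_mem' Fil (ha t h0 ht.2) (hG (t - l)) ?_
    push_cast [Nat.cast_sub ht.1]
    omega

end coeffs

/-! ### the congruence of `g` -/

section gam

/-- the filtration of `ℚ` -/
noncomputable def qFil (p : ℕ) [Fact p.Prime] : ZFil ℚ where
  F v := ((pbFil p).F v).comap (C : ℚ →+* ℚ[X]).toAddMonoidHom
  anti := fun h _ hx => (pbFil p).anti h hx
  mul_mem := fun {a b x y} hx hy => by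
    change C (x * y) ∈ (pbFil p).F (a + b)
    rw [C_mul]
    exact (pbFil p).mul_mem hx hy
  one_mem := by
    change C (1 : ℚ) ∈ (pbFil p).F 0
    rw [C_1]
    exact (pbFil p).one_mem

variable {p : ℕ} [Fact p.Prime]

lemma mem_qFil {v : ℤ} {a : ℚ} : a ∈ (qFil p).F v ↔ C a ∈ (pbFil p).F v := Iff.rfl

lemma mem_qFil_of {v : ℤ} {a : ℚ} (h : padicNorm p a ≤ (p : ℚ) ^ (-v)) : a ∈ (qFil p).F v :=
  ProdBound481.PB.C h

lemma p_mem : (p : ℚ) ∈ (qFil p).F 1 := by
  refine mem_qFil_of ?_
  rw [padicNorm.padicNorm_p_of_prime, zpow_neg, zpow_one]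

lemma pinv_mem : ((p : ℚ))⁻¹ ∈ (qFil p).F (-1) := by
  refine mem_qFil_of ?_
  have h1 : padicNorm p ((p : ℚ)⁻¹) * padicNorm p (p : ℚ) = 1 := by
    rw [← padicNorm.mul, inv_mul_cancel₀ (by exact_mod_cast (Fact.out : p.Prime).ne_zero),
      padicNorm.one]
  rw [padicNorm.padicNorm_p_of_prime] at h1
  have hp : (p : ℚ) ≠ 0 := by exact_mod_cast (Fact.out : p.Prime).ne_zero
  rw [neg_neg, zpow_one]
  have h2 : padicNorm p ((p : ℚ)⁻¹) = p := by
    have := congrArg (fun t => t * (p : ℚ)) h1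
    simp only [one_mul, mul_assoc, inv_mul_cancel₀ hp, mul_one] at this
    exact this
  exact h2.le

lemma inv_mem {n : ℤ} (hn : ¬ (p : ℤ) ∣ n) : ((n : ℚ))⁻¹ ∈ (qFil p).F 0 := by
  refine mem_qFil_of ?_
  have h1 : padicNorm p ((n : ℚ)⁻¹) * padicNorm p (n : ℚ) = 1 := by
    rw [← padicNorm.mul, inv_mul_cancel₀, padicNorm.one]
    intro h0
    apply hn
    have : n = 0 := by exact_mod_cast h0
    rw [this]
    exact dvd_zero _
  have h2 : padicNorm p (n : ℚ) = 1 := (padicNorm.int_eq_one_iff n).mpr hn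
  rw [h2, mul_one] at h1
  rw [h1]
  norm_num

lemma small : P4G226.Small (qFil p) p := by
  intro m hm hmp
  have h := inv_mem (p := p) (n := (m : ℤ)) (by
    intro h1
    have := Int.le_of_dvd (by exact_mod_cast hm) h1
    omega)
  exact_mod_cast h

/-- `g(h-l) - g(-1/2-l) ∈ F 1`. -/
theorem gam_half {h : ℕ} (hp : p = 2 * h + 1) {l : ℕ} (hl : l ≤ h) :
    PowerSeries.constantCoeff (GamX (.Z ((h : ℤ) - l))) -
      PowerSeries.constantCoeff (GamX (.H (-1 - (l : ℤ)))) ∈ (pbFil p).F 1 := by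
  have h1 := P4G226.GamZ_half (K := ℚ) (Fil := qFil p) p_mem small hp hl
  rw [mem_qFil, map_sub] at h1
  have e1 : ((h - l : ℕ) : ℤ) = (h : ℤ) - l := by omega
  have e2 : gam (.H (-1 - (l : ℤ))) = Crest.Agent.R006.GamH0 (K := ℚ) (-(l : ℤ)) := by
    change GamH (-1 - (l : ℤ)) = _
    rw [GamH]
    have : (-1 - (l : ℤ)) + 1 = -(l : ℤ) := by ring
    rw [this]
    rfl
  have e3 : gam (.Z ((h : ℤ) - l)) = NV.GamZ (K := ℚ) ((h - l : ℕ) : ℤ) := by
    rw [e1]; rfl
  rw [GamX, GamX, ← PowerSeries.coeff_zero_eq_constantCoeff_apply,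
    ← PowerSeries.coeff_zero_eq_constantCoeff_apply, PowerSeries.coeff_map, PowerSeries.coeff_map,
    e2, e3]
  exact h1

end gam

end Crest.Agent.R006.P4GW657
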