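import Crest.Agent.R006.P4SideDat_538
import Crest.Agent.R006.P4SideCls_110
import Crest.Agent.R006.P4_GW_657
import Crest.Agent.R006.P4SideOp_226

set_option autoImplicit false

/-!
# Row 6, block P4, matrix side: the determinant of the reduced network (helper814)

`det_side` : the field `det_eq` of `Side` for 538's data, any near coefficients, and the rows
reduced by 657's `gwPartner` (226's `partRows`);
`cls_side` : the field `cls`;
`partRows_cases` : a row is reduced by its partner or not.
-/

namespace Crest.Agent.R006.P4SideDetx814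

open Polynomial Finset Crest.Agent.R006.D Crest.Agent.R006.Bordx929
open Crest.Agent.R006.P4Asmx814 Crest.Agent.R006.P4M Crest.Agent.R006.P4If
open Crest.Agent.R006.P4Toll961 Crest.Agent.R006.P4GW657 Crest.Agent.R006.P4SideCls110
open Crest.Agent.R006.P4SideDatx538
open Crest.Agent.R006.P4M531 (BB)

variable {S : Shape} {u c p : ℕ}

/-- the partner of a row is in the same class -/
theorem gw_cls (hodd : p % 2 = 1) (hS : S.Good) {x y : RI S u c}
    (h : gwPartner S u c hS ((p - 1) / 2) x = some y) :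
    clsS p (ofRow u c y).1 = clsS p (ofRow u c x).1 := by
  obtain ⟨l, hl, _, h1, h2⟩ := gwPartner_some S u c hS _ h
  rw [h1, h2]
  have ha : (p - 1) / 2 - l < p := by omega
  have e1 := (cls_jS_Z (p := p) hodd (a := (p - 1) / 2 - l) ha
    (i := (((p - 1) / 2 : ℕ) : ℤ) - l) (j := 0) (by omega)).1
  have e2 := (cls_jS_H (p := p) hodd (a := (p - 1) / 2 - l) ha
    (i := -1 - (l : ℤ)) (j := -1) (by omega)).1
  show clsS p (.H (-1 - (l : ℤ))) = clsS p (.Z ((((p - 1) / 2 : ℕ) : ℤ) - l))
  rw [e1, e2]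

/-- **The field `det_eq` of `Side`.** -/
theorem det_side (hodd : p % 2 = 1) (hS : S.Good) (J : Fin c → RI S u c) (e : Fin p → ℚ[X])
    (cs : RI S u c → Fin p) (ps : RI S u c → BB) (G M N Nb : ℕ)
    (hcs : ∀ x, (cs x : ℕ) = clsS p (ofRow u c x).1)
    (hOK : (dat S u c J e cs ps G M N Nb).OK)
    (nr : Fin p → Fin N → Fin N → ℚ[X]) (e' : RI S u c ≃ CI S u c) :
    (Matrix.of fun i j => brow S u c J i (e' j)).det =
      (Matrix.of fun i j => ((dat S u c J e cs ps G M N Nb).Net0 nr).mat
        (partRows ((dat S u c J e cs ps G M N Nb).Rows0 nr)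
          (gwPartner S u c hS ((p - 1) / 2))) i (e' j)).det := by
  rw [det_mat_partRows ((dat S u c J e cs ps G M N Nb).Net0 nr)
    ((dat S u c J e cs ps G M N Nb).Rows0 nr) (gwPartner S u c hS ((p - 1) / 2))
    (fun i j hij => ?_) (gwPartner_partner S u c hS _) e']
  · congr 1
    refine Matrix.ext fun i j => ?_
    rw [Matrix.of_apply, Matrix.of_apply, brow_eq S u c J e cs ps G M N Nb i (e' j)]
    exact (Dat.mat_eq hOK nr i (e' j)).symm
  · refine Fin.ext ?_
    show (cs j : ℕ) = cs i
    rw [hcs, hcs, gw_cls hodd hS hij]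

/-- **The field `cls` of `Side`.** -/
theorem cls_side (hS : S.Good) (J : Fin c → RI S u c) (e : Fin p → ℚ[X])
    (cs : RI S u c → Fin p) (ps : RI S u c → BB) (G M N Nb : ℕ)
    (hcs : ∀ x, (cs x : ℕ) = clsS p (ofRow u c x).1)
    (nr : Fin p → Fin N → Fin N → ℚ[X]) (h : ℕ) (x : RI S u c) :
    (((partRows ((dat S u c J e cs ps G M N Nb).Rows0 nr) (gwPartner S u c hS h)).cls x :
      Fin p) : ℕ) = clsS p (ofRow u c x).1 := hcs x

end Crest.Agent.R006.P4SideDetx814
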