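import Crest.Agent.R006.P4SideDef_955
import Crest.Agent.R006.P4SideDet_814

set_option autoImplicit false

/-!
# Row 6, block P4, matrix side: the leaf `det_eq` of 955's final record (helper814)

`subRows_eq` : 955's `subRows` is 226's `partRows`;
`Inp.det_eq_of` : the determinant, from `dsOK`.
-/

namespace Crest.Agent.R006.P4S

open Polynomial Finset Tollx814 P4Toll961
open Crest.Agent.R006.D Crest.Agent.R006.Bordx929 Crest.Agent.R006.P4Asmx814
  Crest.Agent.R006.GaugeP555 Crest.Agent.R006.P8 Crest.Agent.R006.P4If Crest.Agent.R006.P4M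
  Crest.Agent.R006.P4SideDatx538
open Crest.Agent.R006.P4M531 (phi BB)
open Crest.Agent.R006.P4B1In657 (delB)

section sub

variable {A : Type*} [CommRing A] {Cl : Type*} {jR jT jQ jU : Type*} {N : ℕ}
variable {ι : Type*} [Fintype ι] [DecidableEq ι]

lemma subP_eq {α : Type*} (f : ι → α → A) (pt : ι → Option ι) :
    subP f pt = fun i x => f i x + ∑ j, partE A pt i j * f j x := by
  funext i x
  rw [sum_partE pt i (fun j => f j x), subP]
  rcases pt i with _ | j
  · simp
  · simp only; ring

lemma subRows_eq (R : Rows A Cl jR jT jQ jU N ι) (pt : ι → Option ι) :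
    subRows R pt = partRows R pt := by
  rw [subRows, partRows, rowop, subP_eq, subP_eq, subP_eq, subP_eq]

end sub

variable {S : Shape} {u c p : ℕ} [hp : Fact p.Prime] {dec : ℕ → Mode} {E : ℤ} {e : Fin p → ℚ[X]}
  (J : Fin c → RI S u c)

namespace Inp

variable (H : Inp S u c p dec E e)
include H

/-- **The leaf `det_eq`**, with `dsOK` as a hypothesis. -/
theorem det_eq_of (hOK : (DS S u c dec J E e).OK) (f : RI S u c ≃ CI S u c) :
    (Matrix.of fun i j => brow S u c J i (f j)).det =
      (Matrix.of fun i j => (WS S u c dec J E e).mat (RS S u c dec J E e H.good) i (f j)).det := by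
  have h := P4SideDetx814.det_side H.odd H.good J e (csS S u c p) (psS S u c dec E e) (GG S u)
    (MM E) (NN S u E) (S.k * u) (fun x => rfl) hOK (nrS S u c dec J E e) f
  rw [h, RS, subRows_eq]
  rfl

end Inp

end Crest.Agent.R006.P4S
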