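import Mathlib

/-!
Row 6 (helper475), leaf L2.  Laplace expansion along blocks of columns, any number of blocks
(the block of a column `j` is `c j : κ`), with its archimedean and ultrametric consequences;
Cauchy-Binet (unsymmetrised, symmetrised over functions, over subsets).

* `det_eq_sum_restr` : `det M = ∑_{r : ι → κ} det (restr c r M)`,
  `restr c r M i j = M i j` if `r i = c j`, `0` otherwise.
* `det_restr` : `det (restr c r M)` is `0` or `± ∏_k det (block k)` for a permutation `τ`
  with `r (τ i) = c i`.
* `norm_det_le_of_blocks` : if `∏_k ‖det block_k(τ)‖ ≤ C` for all `τ` then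
  `‖det M‖ ≤ (card κ)^(card ι) * C`.
* `nonarch_det_le_of_blocks` : same without the factor for a nonarchimedean norm.
* `padic_det_ge_of_blocks` : version with `padicValRat` bounds.
-/

set_option autoImplicit false
set_option linter.unusedSectionVars false

namespace Crest.Agent.R006.Laplace475

open Finset Matrix

section general

variable {ι κ R : Type*} [Fintype ι] [DecidableEq ι] [Fintype κ] [LinearOrder κ] [CommRing R]

/-- keep in row `i` only the entries of the columns of block `r i`. -/
def restr (c r : ι → κ) (M : Matrix ι ι R) : Matrix ι ι R :=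
  Matrix.of fun i j => if r i = c j then M i j else 0

@[simp] lemma restr_apply (c r : ι → κ) (M : Matrix ι ι R) (i j : ι) :
    restr c r M i j = if r i = c j then M i j else 0 := rfl

/-- **Laplace expansion, raw form** : a sum over all labelings of the rows. -/
theorem det_eq_sum_restr (c : ι → κ) (M : Matrix ι ι R) :
    M.det = ∑ r : ι → κ, (restr c r M).det := by
  have h := (Matrix.detRowAlternating (R := R) (n := ι)).toMultilinearMap.map_sum
    (fun (i : ι) (k : κ) => (fun j => if k = c j then M i j else 0 : ι → R))
  have h1 : (fun i => ∑ k : κ, (fun j => if k = c j then M i j else 0 : ι → R)) = M := by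
    funext i j
    rw [Finset.sum_apply]
    simp
  rw [h1] at h
  exact h

/-- the block `k` of `M` whose rows are the images of the columns of block `k` under `τ`. -/
def block (c : ι → κ) (τ : Equiv.Perm ι) (k : κ) (M : Matrix ι ι R) :
    Matrix {j // c j = k} {j // c j = k} R :=
  Matrix.of fun i j => M (τ i) j

@[simp] lemma block_apply (c : ι → κ) (τ : Equiv.Perm ι) (k : κ) (M : Matrix ι ι R)
    (i j : {j // c j = k}) : block c τ k M i j = M (τ i) j := rfl

/-- if the labeling `r` is compatible with the columns (`r ∘ τ = c`) the restricted determinant is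
the signed product of the determinants of the blocks. -/
theorem det_restr_of_perm (c r : ι → κ) (M : Matrix ι ι R) (τ : Equiv.Perm ι)
    (hτ : ∀ i, r (τ i) = c i) :
    (restr c r M).det = (Equiv.Perm.sign τ : ℤ) * ∏ k : κ, (block c τ k M).det := by
  have h0 : ((restr c r M).submatrix τ id).det =
      (Equiv.Perm.sign τ : ℤ) * (restr c r M).det := Matrix.det_permute τ (restr c r M)
  have h1 : ((restr c r M).submatrix τ id).det = ∏ k : κ, (block c τ k M).det := by
    have hbt : BlockTriangular ((restr c r M).submatrix τ id) c := by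
      intro i j hij
      simp only [submatrix_apply, id, restr_apply, hτ]
      rw [if_neg (ne_of_gt hij)]
    rw [hbt.det_fintype]
    refine Finset.prod_congr rfl fun k _ => ?_
    congr 1
    ext i j
    change (if r (τ i) = c j then M (τ i) j else 0) = M (τ i) j
    rw [hτ, if_pos (i.2.trans j.2.symm)]
  rw [← h1, h0, ← mul_assoc]
  have : ((Equiv.Perm.sign τ : ℤ) : R) * ((Equiv.Perm.sign τ : ℤ) : R) = 1 := by
    rcases Int.units_eq_one_or (Equiv.Perm.sign τ) with h | h <;> simp [h]
  rw [this, one_mul]

/-- if no permutation is compatible, the restricted determinant vanishes. -/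
theorem det_restr_of_no_perm (c r : ι → κ) (M : Matrix ι ι R)
    (h : ¬ ∃ τ : Equiv.Perm ι, ∀ i, r (τ i) = c i) : (restr c r M).det = 0 := by
  rw [Matrix.det_apply]
  refine Finset.sum_eq_zero fun σ _ => ?_
  by_contra hne
  apply h
  refine ⟨σ, fun i => ?_⟩
  by_contra hi
  apply hne
  rw [Finset.prod_eq_zero (Finset.mem_univ i), smul_zero]
  simp [hi]

/-- the determinant of a restricted matrix is `0` or a signed product of block determinants. -/
theorem det_restr (c r : ι → κ) (M : Matrix ι ι R) :
    (restr c r M).det = 0 ∨ ∃ τ : Equiv.Perm ι, (∀ i, r (τ i) = c i) ∧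
      (restr c r M).det = (Equiv.Perm.sign τ : ℤ) * ∏ k : κ, (block c τ k M).det := by
  by_cases h : ∃ τ : Equiv.Perm ι, ∀ i, r (τ i) = c i
  · obtain ⟨τ, hτ⟩ := h
    exact Or.inr ⟨τ, hτ, det_restr_of_perm c r M τ hτ⟩
  · exact Or.inl (det_restr_of_no_perm c r M h)

end general

section norms

variable {ι κ R : Type*} [Fintype ι] [DecidableEq ι] [Fintype κ] [LinearOrder κ]

/-- **Laplace bound for an absolute value.** -/
theorem abv_det_le_of_blocks [CommRing R] (v : AbsoluteValue R ℝ) (c : ι → κ) (M : Matrix ι ι R)
    {C : ℝ} (hC : 0 ≤ C) (h : ∀ τ : Equiv.Perm ι, ∏ k : κ, v (block c τ k M).det ≤ C)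
    (hv : v (-1) = 1) :
    v M.det ≤ (Fintype.card κ : ℝ) ^ (Fintype.card ι) * C := by
  have hs : ∀ τ : Equiv.Perm ι, v ((Equiv.Perm.sign τ : ℤ) : R) = 1 := by
    intro τ
    rcases Int.units_eq_one_or (Equiv.Perm.sign τ) with h | h
    · have h1 : v 1 = 1 := by
        have h2 : v (1 : R) = v (-1) * v (-1) := by rw [← map_mul]; simp
        rw [h2, hv]; norm_num
      simp [h, h1]
    · simp [h, hv]
  rw [det_eq_sum_restr c M]
  calc v (∑ r : ι → κ, (restr c r M).det) ≤ ∑ r : ι → κ, v (restr c r M).det := v.sum_le _ _
    _ ≤ ∑ _r : ι → κ, C := by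
        refine Finset.sum_le_sum fun r _ => ?_
        rcases det_restr c r M with h0 | ⟨τ, -, h0⟩
        · rw [h0, v.map_zero]; exact hC
        · rw [h0, v.map_mul, hs, one_mul]
          have : v (∏ k : κ, (block c τ k M).det) = ∏ k : κ, v (block c τ k M).det := by
            classical
            have h1 : v 1 = 1 := by
              have h2 : v (1 : R) = v (-1) * v (-1) := by rw [← map_mul]; simp
              rw [h2, hv]; norm_num
            refine Finset.induction_on (Finset.univ : Finset κ) (by simp [h1]) ?_
            intro a s ha ih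
            rw [Finset.prod_insert ha, Finset.prod_insert ha, v.map_mul, ih]
          rw [this]
          exact h τ
    _ = (Fintype.card κ : ℝ) ^ (Fintype.card ι) * C := by
        rw [Finset.sum_const, Finset.card_univ, Fintype.card_fun, nsmul_eq_mul]
        push_cast
        ring

/-- **Laplace bound for a norm on a field** (`ℝ`, `ℂ`). -/
theorem norm_det_le_of_blocks {K : Type*} [NormedField K] (c : ι → κ) (M : Matrix ι ι K)
    {C : ℝ} (hC : 0 ≤ C) (h : ∀ τ : Equiv.Perm ι, ∏ k : κ, ‖(block c τ k M).det‖ ≤ C) :
    ‖M.det‖ ≤ (Fintype.card κ : ℝ) ^ (Fintype.card ι) * C := by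
  exact abv_det_le_of_blocks (NormedField.toAbsoluteValue K) c M hC h
    (by simp [NormedField.toAbsoluteValue])

/-- **Ultrametric Laplace bound**. -/
theorem nonarch_det_le_of_blocks [CommRing R] (v : AbsoluteValue R ℝ)
    (hna : ∀ x y : R, v (x + y) ≤ max (v x) (v y)) (hv : v (-1) = 1)
    (c : ι → κ) (M : Matrix ι ι R)
    {C : ℝ} (hC : 0 ≤ C) (h : ∀ τ : Equiv.Perm ι, ∏ k : κ, v (block c τ k M).det ≤ C) :
    v M.det ≤ C := by
  have h1 : v 1 = 1 := by
    have h2 : v (1 : R) = v (-1) * v (-1) := by rw [← map_mul]; simp
    rw [h2, hv]; norm_num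
  have hs : ∀ τ : Equiv.Perm ι, v ((Equiv.Perm.sign τ : ℤ) : R) = 1 := by
    intro τ
    rcases Int.units_eq_one_or (Equiv.Perm.sign τ) with h | h
    · simp [h, h1]
    · simp [h, hv]
  rw [det_eq_sum_restr c M]
  have key : ∀ s : Finset (ι → κ), v (∑ r ∈ s, (restr c r M).det) ≤ C := by
    classical
    intro s
    refine Finset.induction_on s (by simpa using hC) ?_
    intro r s hr ih
    rw [Finset.sum_insert hr]
    refine (hna _ _).trans (max_le ?_ ih)
    rcases det_restr c r M with h0 | ⟨τ, -, h0⟩
    · rw [h0, v.map_zero]; exact hC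
    · rw [h0, v.map_mul, hs, one_mul]
      have : v (∏ k : κ, (block c τ k M).det) = ∏ k : κ, v (block c τ k M).det := by
        refine Finset.induction_on (Finset.univ : Finset κ) (by simp [h1]) ?_
        intro a s ha ih
        rw [Finset.prod_insert ha, Finset.prod_insert ha, v.map_mul, ih]
      rw [this]
      exact h τ
  exact key _

/-- **p-adic Laplace bound.** -/
theorem padic_det_ge_of_blocks (p : ℕ) [Fact p.Prime] (c : ι → κ) (M : Matrix ι ι ℚ) (m : ℤ)
    (h0 : M.det ≠ 0)
    (h : ∀ τ : Equiv.Perm ι, (∀ k, (block c τ k M).det ≠ 0) →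
      m ≤ ∑ k : κ, padicValRat p (block c τ k M).det) :
    m ≤ padicValRat p M.det := by
  have hp1 : (1 : ℝ) < p := by exact_mod_cast (Fact.out : p.Prime).one_lt
  have hval : ∀ q : ℚ, q ≠ 0 → ((padicNorm p q : ℚ) : ℝ) = (p : ℝ) ^ (-padicValRat p q) := by
    intro q hq
    rw [padicNorm.eq_zpow_of_nonzero hq]; push_cast; rfl
  have key : ((padicNorm p M.det : ℚ) : ℝ) ≤ (p : ℝ) ^ (-m) := by
    have hs : ∀ s : Finset (ι → κ),
        padicNorm p (∑ r ∈ s, (restr c r M).det) ≤ (p : ℚ) ^ (-m) := by
      classical
      intro s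
      refine Finset.induction_on s (by simp; positivity) ?_
      intro r s hr ih
      rw [Finset.sum_insert hr]
      refine (padicNorm.nonarchimedean).trans (max_le ?_ ih)
      rcases det_restr c r M with h0 | ⟨τ, -, h0⟩
      · rw [h0, padicNorm.zero]; positivity
      · rw [h0, padicNorm.mul]
        have hs : padicNorm p ((Equiv.Perm.sign τ : ℤ) : ℚ) = 1 := by
          rcases Int.units_eq_one_or (Equiv.Perm.sign τ) with h | h
          · simp [h]
          · simp [h]
        rw [hs, one_mul]
        by_cases hz : ∀ k, (block c τ k M).det ≠ 0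
        · have hne : ∏ k : κ, (block c τ k M).det ≠ 0 := Finset.prod_ne_zero_iff.mpr fun k _ => hz k
          rw [padicNorm.eq_zpow_of_nonzero hne]
          have hsum : padicValRat p (∏ k : κ, (block c τ k M).det) =
              ∑ k : κ, padicValRat p (block c τ k M).det := by
            have : ∀ t : Finset κ, padicValRat p (∏ k ∈ t, (block c τ k M).det) =
                ∑ k ∈ t, padicValRat p (block c τ k M).det := by
              intro t
              refine Finset.induction_on t (by simp) ?_
              intro a t ha ih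
              rw [Finset.prod_insert ha, Finset.sum_insert ha,
                padicValRat.mul (hz a) (Finset.prod_ne_zero_iff.mpr fun k _ => hz k), ih]
            exact this _
          rw [hsum]
          refine zpow_le_zpow_right₀ (by exact_mod_cast hp1.le) ?_
          have := h τ hz
          omega
        · push Not at hz
          obtain ⟨k, hk⟩ := hz
          rw [Finset.prod_eq_zero (Finset.mem_univ k) hk, padicNorm.zero]
          positivity
    have := hs Finset.univ
    rw [← det_eq_sum_restr] at this
    have h' : ((padicNorm p M.det : ℚ) : ℝ) ≤ (((p : ℚ) ^ (-m) : ℚ) : ℝ) := Rat.cast_le.mpr this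
    simpa using h'
  rw [hval _ h0] at key
  have := (zpow_le_zpow_iff_right₀ hp1).mp key
  omega

end norms

section twoThree

variable {α β γ ρ : Type*} [Fintype α] [DecidableEq α] [Fintype β] [DecidableEq β]
  [Fintype γ] [DecidableEq γ] [Fintype ρ] [DecidableEq ρ]

/-- **two blocks of columns**, rows of any type `ρ`. -/
theorem norm_det_le_two {K : Type*} [NormedField K] (e : ρ ≃ α ⊕ β) (A : ρ → α → K) (B : ρ → β → K)
    {C : ℝ} (hC : 0 ≤ C)
    (h : ∀ (f : α → ρ) (g : β → ρ), Function.Injective f → Function.Injective g →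
      (∀ a b, f a ≠ g b) →
      ‖(Matrix.of fun i j => A (f i) j).det‖ * ‖(Matrix.of fun i j => B (g i) j).det‖ ≤ C) :
    ‖(Matrix.of fun i j => Sum.elim (A i) (B i) (e j) : Matrix ρ ρ K).det‖ ≤
      2 ^ (Fintype.card ρ) * C := by
  set M : Matrix ρ ρ K := Matrix.of fun i j => Sum.elim (A i) (B i) (e j) with hM
  have hc := norm_det_le_of_blocks (κ := Fin 2) (fun i => Sum.elim (fun _ => 0) (fun _ => 1) (e i))
    M hC (by
      intro τ
      set c : ρ → Fin 2 := fun i => Sum.elim (fun _ => 0) (fun _ => 1) (e i) with hcdef
      rw [Fin.prod_univ_two]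
      have hb0 : Function.Bijective
          (fun a : α => (⟨e.symm (Sum.inl a), by simp [hcdef]⟩ : {j // c j = 0})) := by
        refine ⟨fun a b hab => by simpa using hab, fun j => ?_⟩
        have hj2 := j.2
        rcases hj : e j.1 with a | b'
        · exact ⟨a, Subtype.ext (by simp [← hj])⟩
        · simp [hcdef, hj] at hj2
      have hb1 : Function.Bijective
          (fun a : β => (⟨e.symm (Sum.inr a), by simp [hcdef]⟩ : {j // c j = 1})) := by
        refine ⟨fun a b hab => by simpa using hab, fun j => ?_⟩
        have hj2 := j.2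
        rcases hj : e j.1 with a | b'
        · simp [hcdef, hj] at hj2
        · exact ⟨b', Subtype.ext (by simp [← hj])⟩
      have h0 : (block c τ 0 M).det =
          (Matrix.of fun i j => A (τ (e.symm (Sum.inl i))) j : Matrix α α K).det := by
        rw [← Matrix.det_submatrix_equiv_self (Equiv.ofBijective _ hb0)]
        congr 1
        ext i j
        simp [hM]
      have h1 : (block c τ 1 M).det =
          (Matrix.of fun i j => B (τ (e.symm (Sum.inr i))) j : Matrix β β K).det := by
        rw [← Matrix.det_submatrix_equiv_self (Equiv.ofBijective _ hb1)]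
        congr 1
        ext i j
        simp [hM]
      rw [h0, h1]
      apply h (fun i => τ (e.symm (Sum.inl i))) (fun i => τ (e.symm (Sum.inr i)))
      · intro a b hab; simpa using hab
      · intro a b hab; simpa using hab
      · intro a b hab; simp at hab)
  simpa using hc

end twoThree

section cauchyBinet

variable {n m R : Type*} [Fintype n] [DecidableEq n] [Fintype m] [CommRing R]

/-- **Cauchy-Binet, unsymmetrised.** -/
theorem det_mul_eq_sum_fun (A : Matrix n m R) (B : Matrix m n R) :
    (A * B).det = ∑ p : n → m, (Matrix.of fun i j => A i (p j)).det * ∏ j, B (p j) j := by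
  calc (A * B).det = ∑ p : n → m, ∑ σ : Equiv.Perm n,
        (Equiv.Perm.sign σ : ℤ) * ∏ i, A (σ i) (p i) * B (p i) i := by
        simp only [det_apply', mul_apply, Finset.prod_univ_sum, Finset.mul_sum,
          Fintype.piFinset_univ]
        rw [Finset.sum_comm]
    _ = _ := by
        refine Finset.sum_congr rfl fun p _ => ?_
        rw [det_apply', Finset.sum_mul]
        refine Finset.sum_congr rfl fun σ _ => ?_
        simp only [Finset.prod_mul_distrib, of_apply]
        ring

/-- **Cauchy-Binet, symmetrised over functions.** -/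
theorem factorial_mul_det_mul (A : Matrix n m R) (B : Matrix m n R) :
    ((Fintype.card n).factorial : R) * (A * B).det =
      ∑ p : n → m, (Matrix.of fun i j => A i (p j)).det * (Matrix.of fun i j => B (p i) j).det := by
  have h : ∀ σ : Equiv.Perm n, (A * B).det = ∑ p : n → m,
      (Matrix.of fun i j => A i (p j)).det *
        ((Equiv.Perm.sign σ : ℤ) * ∏ j, B (p (σ j)) j) := by
    intro σ
    rw [det_mul_eq_sum_fun]
    refine Fintype.sum_equiv (Equiv.arrowCongr σ (Equiv.refl m)) _ _ fun p => ?_
    have e1 : (Matrix.of fun i j => A i ((Equiv.arrowCongr σ (Equiv.refl m)) p j)).det =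
        (Equiv.Perm.sign σ : ℤ) * (Matrix.of fun i j => A i (p j)).det := by
      have h2 := Matrix.det_permute' σ⁻¹ (Matrix.of fun i j => A i (p j))
      rw [Equiv.Perm.sign_inv] at h2
      rw [← h2]
      rfl
    have e2 : ∏ j, B ((Equiv.arrowCongr σ (Equiv.refl m)) p (σ j)) j = ∏ j, B (p j) j := by
      refine Finset.prod_congr rfl fun j _ => ?_
      simp [Equiv.arrowCongr]
    rw [e1, e2]
    rcases Int.units_eq_one_or (Equiv.Perm.sign σ) with h | h <;> simp [h]
  have hsum : ∑ _σ : Equiv.Perm n, (A * B).det = ((Fintype.card n).factorial : R) * (A * B).det := by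
    rw [Finset.sum_const, Finset.card_univ, Fintype.card_perm, nsmul_eq_mul]
  rw [← hsum, Finset.sum_congr rfl fun σ _ => h σ, Finset.sum_comm]
  refine Finset.sum_congr rfl fun p _ => ?_
  rw [← Finset.mul_sum, det_apply' (Matrix.of fun i j => B (p i) j)]
  rfl

end cauchyBinet

end Crest.Agent.R006.Laplace475
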