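import Mathlib
import Crest.Agent.R006.ProdBound_481
import Crest.Agent.R006.Pre_Laplace_475

/-!
Row 6, block P4 (helper657): the abstract expansion theorem ("toll form", after helper814's and
helper961's three stages), for a product of any number of matrices over a filtered ring.

* `Filt A` : a `ℤ`-filtration of a commutative ring (`pbFilt p` : Gauss norm on `ℚ[X]`).
* `MB F D C Z` : every minor `det (Z_sig)`, `sig` injective, lies in `F_(∑ D (sig x) + C)`.
* `MB.base`, `MB.step`, `MB.final` : the chain rules; a toll `toll s ≥ 0` is paid at most once.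
* `det_schur` : `det (A + W * E) = det [[A, W], [-E, 1]]`.
-/

set_option autoImplicit false
set_option linter.unusedSectionVars false

namespace Crest.Agent.R006.P4Chain657

open Polynomial Matrix Finset

/-- a `ℤ`-filtration of a commutative ring. -/
structure Filt (A : Type*) [CommRing A] where
  mem : ℤ → A → Prop
  zero : ∀ v, mem v 0
  one : mem 0 1
  add : ∀ {v a b}, mem v a → mem v b → mem v (a + b)
  neg : ∀ {v a}, mem v a → mem v (-a)
  mul : ∀ {v w a b}, mem v a → mem w b → mem (v + w) (a * b)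
  mono : ∀ {v w a}, mem v a → w ≤ v → mem w a

/-- the filtration of `ℚ[X]` by the `p`-adic Gauss norm. -/
def pbFilt (p : ℕ) [Fact p.Prime] : Filt ℚ[X] where
  mem := ProdBound481.PB p
  zero := ProdBound481.PB.zero
  one := ProdBound481.PB.one
  add := fun h1 h2 => h1.add h2
  neg := fun h => h.neg
  mul := fun h1 h2 => h1.mul h2
  mono := fun h1 h2 => h1.mono h2

namespace Filt

variable {A : Type*} [CommRing A] (F : Filt A)

lemma sub {v : ℤ} {a b : A} (h1 : F.mem v a) (h2 : F.mem v b) : F.mem v (a - b) := by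
  rw [sub_eq_add_neg]; exact F.add h1 (F.neg h2)

lemma sum {ι : Type*} {v : ℤ} (s : Finset ι) (f : ι → A) (h : ∀ i ∈ s, F.mem v (f i)) :
    F.mem v (∑ i ∈ s, f i) := by
  classical
  induction s using Finset.induction_on with
  | empty => simpa using F.zero v
  | insert a s ha ih =>
    rw [Finset.sum_insert ha]
    exact F.add (h a (Finset.mem_insert_self _ _))
      (ih fun i hi => h i (Finset.mem_insert_of_mem hi))

lemma prod {ι : Type*} (s : Finset ι) (v : ι → ℤ) (f : ι → A) (h : ∀ i ∈ s, F.mem (v i) (f i)) :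
    F.mem (∑ i ∈ s, v i) (∏ i ∈ s, f i) := by
  classical
  induction s using Finset.induction_on with
  | empty => simpa using F.one
  | insert a s ha ih =>
    rw [Finset.sum_insert ha, Finset.prod_insert ha]
    exact F.mul (h a (Finset.mem_insert_self _ _))
      (ih fun i hi => h i (Finset.mem_insert_of_mem hi))

lemma natCast (n : ℕ) : F.mem 0 (n : A) := by
  induction n with
  | zero => simpa using F.zero 0
  | succ n ih => rw [Nat.cast_succ]; exact F.add ih F.one

lemma intCast (n : ℤ) : F.mem 0 (n : A) := by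
  rcases Int.eq_nat_or_neg n with ⟨m, rfl | rfl⟩
  · simpa using F.natCast m
  · simpa using F.neg (F.natCast m)

lemma unit_smul (u : ℤˣ) {v : ℤ} {a : A} (h : F.mem v a) : F.mem v (u • a) := by
  rcases Int.units_eq_one_or u with hs | hs
  · rw [hs, one_smul]; exact h
  · rw [hs, Units.neg_smul, one_smul]; exact F.neg h

/-- product bound -/
lemma det {n : Type*} [Fintype n] [DecidableEq n] (M : Matrix n n A) (a c : n → ℤ)
    (h : ∀ i j, F.mem (a i + c j) (M i j)) : F.mem (∑ i, a i + ∑ j, c j) M.det := by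
  rw [Matrix.det_apply]
  refine F.sum _ _ fun σ _ => F.unit_smul _ ?_
  have h1 : ∑ i, a i + ∑ j, c j = ∑ i, (a (σ i) + c i) := by
    rw [Finset.sum_add_distrib, Equiv.sum_comp σ a]
  rw [h1]
  exact F.prod _ _ _ fun i _ => h _ _

end Filt

section Chain

variable {A : Type*} [CommRing A] (F : Filt A)
variable {n σ σ' : Type*} [Fintype n] [DecidableEq n]

/-- all minors `det (Z_sig)` (`sig` an injective choice of rows) lie in `F_(∑ D (sig x) + C)` -/
def MB (D : σ → ℤ) (C : ℤ) (Z : Matrix σ n A) : Prop :=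
  ∀ sig : n → σ, Function.Injective sig →
    F.mem (∑ x, D (sig x) + C) (Z.submatrix sig id).det

variable {F}

/-- last factor: product bound -/
lemma MB.base {D : σ → ℤ} {U : n → ℤ} {Y : Matrix σ n A} (h : ∀ s c, F.mem (D s + U c) (Y s c)) :
    MB F D (∑ c, U c) Y := fun sig _ =>
  F.det (Y.submatrix sig id) (fun x => D (sig x)) U fun _ _ => h _ _

lemma MB.mono {D D' : σ → ℤ} {C C' : ℤ} {Z : Matrix σ n A} (h : MB F D C Z)
    (hD : ∀ s, D' s ≤ D s) (hC : C' ≤ C) : MB F D' C' Z := fun sig hsig =>
  F.mono (h sig hsig) (add_le_add (Finset.sum_le_sum fun _ _ => hD _) hC)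

/-- a constant may be moved from `C` to `D`. -/
lemma MB.shift {D : σ → ℤ} {C : ℤ} {Z : Matrix σ n A} (h : MB F D C Z) (t : ℤ) :
    MB F (fun s => D s + t) (C - Fintype.card n * t) Z := fun sig hsig => by
  refine F.mono (h sig hsig) (le_of_eq ?_)
  rw [Finset.sum_add_distrib, Finset.sum_const, Finset.card_univ, nsmul_eq_mul]
  ring

/-- **One expansion step.** -/
theorem MB.step [Fintype σ] {D : σ → ℤ} {C : ℤ} {Z : Matrix σ n A} (h : MB F D C Z)
    {X : Matrix σ' σ A} {D' : σ' → ℤ} (toll : σ → ℤ) (h0 : ∀ s, 0 ≤ toll s)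
    (hX : ∀ s' s, F.mem (D' s' - toll s - D s) (X s' s)) :
    MB F D' (C - ∑ s, toll s) (X * Z) := by
  classical
  intro sig' _
  have e0 : ((X * Z).submatrix sig' id).det = ((Z.submatrix id id)ᵀ *
      (X.submatrix sig' id)ᵀ).det := by
    rw [← Matrix.det_transpose, ← Matrix.transpose_mul]
    rfl
  rw [e0, Laplace475.det_mul_eq_sum_fun]
  refine F.sum _ _ fun f _ => ?_
  by_cases hf : Function.Injective f
  · have h1 := h f hf
    have e1 : (Matrix.of fun i j => (Z.submatrix id id)ᵀ i (f j)).det =
        (Z.submatrix f id).det := by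
      rw [← Matrix.det_transpose]; rfl
    rw [e1]
    have h2 : F.mem (∑ x, (D' (sig' x) - toll (f x) - D (f x)))
        (∏ j, (X.submatrix sig' id)ᵀ (f j) j) :=
      F.prod _ _ _ fun j _ => hX _ _
    refine F.mono (F.mul h1 h2) ?_
    have h3 : ∑ x, toll (f x) ≤ ∑ s, toll s := by
      rw [← Finset.sum_image (f := toll) (g := f) (s := Finset.univ)
        (fun a _ b _ hab => hf hab)]
      exact Finset.sum_le_sum_of_subset_of_nonneg (Finset.subset_univ _) fun s _ _ => h0 s
    rw [Finset.sum_sub_distrib, Finset.sum_sub_distrib]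
    linarith
  · have e2 : (Matrix.of fun i j => (Z.submatrix id id)ᵀ i (f j)).det = 0 := by
      rw [Function.Injective] at hf
      push Not at hf
      obtain ⟨a, b, hab, hne⟩ := hf
      exact Matrix.det_zero_of_column_eq hne fun i => by simp [hab]
    rw [e2, zero_mul]
    exact F.zero _

/-- end of the chain -/
lemma MB.final {D : n → ℤ} {C : ℤ} {Z : Matrix n n A} (h : MB F D C Z) :
    F.mem (∑ x, D x + C) Z.det := h id Function.injective_id

/-- two factors -/
theorem toll_two [Fintype σ] (X : Matrix n σ A) (Y : Matrix σ n A) (D0 : n → ℤ) (D1 : σ → ℤ)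
    (U : n → ℤ) (toll : σ → ℤ) (h0 : ∀ s, 0 ≤ toll s)
    (hX : ∀ x s, F.mem (D0 x - toll s - D1 s) (X x s)) (hY : ∀ s c, F.mem (D1 s + U c) (Y s c)) :
    F.mem (∑ x, D0 x + ∑ c, U c - ∑ s, toll s) (X * Y).det :=
  F.mono (((MB.base hY).step toll h0 hX).final) (le_of_eq (by ring))

/-- two factors, with block structure: the weight of a source may be any integer, and only the
products of two entries matter. -/
theorem toll_two' [Fintype σ] (X : Matrix n σ A) (Y : Matrix σ n A) (al : n → σ → ℤ)
    (be : σ → n → ℤ) (hX : ∀ x s, F.mem (al x s) (X x s)) (hY : ∀ s c, F.mem (be s c) (Y s c))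
    (D : n → ℤ) (U : n → ℤ) (toll : σ → ℤ) (h0 : ∀ s, 0 ≤ toll s)
    (h : ∀ x s c, X x s ≠ 0 → Y s c ≠ 0 → D x + U c ≤ al x s + be s c + toll s) :
    F.mem (∑ x, D x + ∑ c, U c - ∑ s, toll s) (X * Y).det := by
  classical
  have e0 : (X * Y).det = (Yᵀ * Xᵀ).det := by
    rw [← Matrix.transpose_mul, Matrix.det_transpose]
  rw [e0, Laplace475.det_mul_eq_sum_fun]
  refine F.sum _ _ fun f _ => ?_
  by_cases hf : Function.Injective f
  · rw [Matrix.det_apply, Finset.sum_mul]
    refine F.sum _ _ fun τ _ => ?_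
    rw [smul_mul_assoc]
    refine F.unit_smul _ ?_
    have e1 : (∏ i, (Matrix.of fun i j => Yᵀ i (f j)) (τ i) i) * ∏ j, Xᵀ (f j) j
        = ∏ i, (Y (f i) (τ i) * X i (f i)) := by
      rw [Finset.prod_mul_distrib]; rfl
    rw [e1]
    have h2 : F.mem (∑ i, (D i + U (τ i) - toll (f i))) (∏ i, (Y (f i) (τ i) * X i (f i))) := by
      refine F.prod _ _ _ fun i _ => ?_
      by_cases hx : X i (f i) = 0
      · rw [hx, mul_zero]; exact F.zero _
      by_cases hy : Y (f i) (τ i) = 0
      · rw [hy, zero_mul]; exact F.zero _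
      refine F.mono (F.mul (hY (f i) (τ i)) (hX i (f i))) ?_
      have := h i (f i) (τ i) hx hy
      linarith
    refine F.mono h2 ?_
    have h3 : ∑ x, toll (f x) ≤ ∑ s, toll s := by
      rw [← Finset.sum_image (f := toll) (g := f) (s := Finset.univ)
        (fun a _ b _ hab => hf hab)]
      exact Finset.sum_le_sum_of_subset_of_nonneg (Finset.subset_univ _) fun s _ _ => h0 s
    rw [Finset.sum_sub_distrib, Finset.sum_add_distrib, Equiv.sum_comp τ U]
    linarith
  · have e2 : (Matrix.of fun i j => Yᵀ i (f j)).det = 0 := by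
      rw [Function.Injective] at hf
      push Not at hf
      obtain ⟨a, b, hab, hne⟩ := hf
      exact Matrix.det_zero_of_column_eq hne fun i => by simp [hab]
    rw [e2, zero_mul]
    exact F.zero _

end Chain

section Schur

variable {A : Type*} [CommRing A] {n P : Type*} [Fintype n] [DecidableEq n] [Fintype P]
  [DecidableEq P]

/-- Schur complement form of a correction `W * E`. -/
theorem det_schur (M : Matrix n n A) (W : Matrix n P A) (E : Matrix P n A) :
    (M + W * E).det = (Matrix.fromBlocks M W (-E) 1).det := by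
  rw [Matrix.det_fromBlocks_one₂₂]
  simp

end Schur

end Crest.Agent.R006.P4Chain657
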