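import Mathlib
import Crest.Agent.R006.P4Chain_657
import Crest.Agent.R006.P4_RowD_305

/-!
Row 6, block P4, matrix side (helper955's framework, note 2794), VALUATION half (helper538).

Arbitrary filtration `F : Filt B` (657) on a commutative ring `B`; notation of `P4_RowD_305`.

* `bracket_polar`   : `y ∈ F 1`, `mom u ∈ F (max 0 (u-1))`, `psi' ∈ F (-2)` ⇒ bracket `t` in `F (t-2)`;
* `bracket_polar0`  : same with `psi' ∈ F 0` ⇒ `F (max 0 (t-2))`;
* `bracket_regular` : `mom u ∈ F (u+2)`, `psi' ∈ F 1` ⇒ `F (t+1)`;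
* `wc_polar`, `wc_regular` : `wc c s t ∈ F (max 0 (t-1))`, `F (t+2)`;
* `err_mem` : the error term of `row_identity` is in `F (M-1)`;
* `quot_coeff_mem`, `taylor_coeff_mem` : integrality of `D = (R - R(x))/(X-x)`.
-/

set_option autoImplicit false

namespace Crest.Agent.R006.P4MValx538

open Polynomial Finset
open Crest.Agent.R006.P4Chain657 Crest.Agent.R006.P4D

variable {B : Type*} [CommRing B] (F : Filt B)

lemma pow_mem {v : ℤ} {a : B} (h : F.mem v a) (k : ℕ) : F.mem (k * v) (a ^ k) := by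
  induction k with
  | zero => simpa using F.one
  | succ k ih =>
    rw [pow_succ]
    refine F.mono (F.mul ih h) (le_of_eq ?_)
    push_cast; ring

lemma pow_mem_one {y : B} (hy : F.mem 1 y) (k : ℕ) : F.mem (k : ℤ) (y ^ k) := by
  have := pow_mem F hy k
  rwa [mul_one] at this

lemma pow_mem_zero {a : B} (h : F.mem 0 a) (k : ℕ) : F.mem 0 (a ^ k) := by
  have := pow_mem F h k
  rwa [mul_zero] at this

/-- general form of the bracket bound -/
theorem bracket_mem {y psi' : B} (mo : ℕ → B) (t : ℕ) (w v : ℤ) (hy : F.mem 1 y)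
    (hpsi : F.mem w psi') (hv : v ≤ w + t) (ν : ℕ → ℤ) (hmo : ∀ u, u < t → F.mem (ν u) (mo u))
    (hν : ∀ u : ℕ, u < t → v ≤ (t : ℤ) - 1 - u + ν u) :
    F.mem v (psi' * y ^ t - ∑ u ∈ range t, y ^ (t - 1 - u) * mo u) := by
  refine F.sub (F.mono (F.mul hpsi (pow_mem_one F hy t)) hv) (F.sum _ _ fun u hu => ?_)
  have hu' := Finset.mem_range.mp hu
  refine F.mono (F.mul (pow_mem_one F hy (t - 1 - u)) (hmo u hu')) ?_
  have h1 := hν u hu'
  have h2 : ((t - 1 - u : ℕ) : ℤ) = (t : ℤ) - 1 - u := by omega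
  rw [h2]
  exact h1

/-- polar class, `psi' ∈ F (-2)` -/
theorem bracket_polar {y psi' : B} (mo : ℕ → B) (t : ℕ) (hy : F.mem 1 y)
    (hpsi : F.mem (-2) psi') (hmo : ∀ u : ℕ, u < t → F.mem (max 0 ((u : ℤ) - 1)) (mo u)) :
    F.mem ((t : ℤ) - 2) (psi' * y ^ t - ∑ u ∈ range t, y ^ (t - 1 - u) * mo u) := by
  refine bracket_mem F mo t (-2) _ hy hpsi (by linarith) (fun u => max 0 ((u : ℤ) - 1)) hmo ?_
  intro u hu
  have := le_max_right (0 : ℤ) ((u : ℤ) - 1)
  show (t : ℤ) - 2 ≤ (t : ℤ) - 1 - u + max 0 ((u : ℤ) - 1)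
  linarith

/-- polar class, `psi' ∈ F 0` -/
theorem bracket_polar0 {y psi' : B} (mo : ℕ → B) (t : ℕ) (hy : F.mem 1 y)
    (hpsi : F.mem 0 psi') (hmo : ∀ u : ℕ, u < t → F.mem (max 0 ((u : ℤ) - 1)) (mo u)) :
    F.mem (max 0 ((t : ℤ) - 2)) (psi' * y ^ t - ∑ u ∈ range t, y ^ (t - 1 - u) * mo u) := by
  refine bracket_mem F mo t 0 _ hy hpsi ?_ (fun u => max 0 ((u : ℤ) - 1)) hmo ?_
  · have : (0 : ℤ) ≤ t := Int.natCast_nonneg t
    rw [zero_add]
    exact max_le this (by linarith)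
  intro u hu
  have h1 := le_max_right (0 : ℤ) ((u : ℤ) - 1)
  have h0 := le_max_left (0 : ℤ) ((u : ℤ) - 1)
  show max 0 ((t : ℤ) - 2) ≤ (t : ℤ) - 1 - u + max 0 ((u : ℤ) - 1)
  have hu' : (u : ℤ) + 1 ≤ t := by exact_mod_cast hu
  exact max_le (by linarith) (by linarith)

/-- regular class, `psi' ∈ F 1` -/
theorem bracket_regular {y psi' : B} (mo : ℕ → B) (t : ℕ) (hy : F.mem 1 y)
    (hpsi : F.mem 1 psi') (hmo : ∀ u : ℕ, u < t → F.mem ((u : ℤ) + 2) (mo u)) :
    F.mem ((t : ℤ) + 1) (psi' * y ^ t - ∑ u ∈ range t, y ^ (t - 1 - u) * mo u) := by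
  refine bracket_mem F mo t 1 _ hy hpsi (by linarith) (fun u => (u : ℤ) + 2) hmo ?_
  intro u hu
  show (t : ℤ) + 1 ≤ (t : ℤ) - 1 - u + ((u : ℤ) + 2)
  linarith

/-- general form of the far coefficients -/
theorem wc_mem {ι : Type*} (L : B[X] →ₗ[B] B) (e : ι → B[X]) (cc : ι → B) (d : ι → B) (M : ℕ)
    (c : ι) (s t : ℕ) (v : ℤ) (hd : F.mem 0 (d c))
    (hmom : ∀ u, t ≤ u → u < M + t → F.mem v (mom L e cc c u)) :
    F.mem v (wc L e cc d M c s t) := by
  unfold wc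
  refine F.sum _ _ fun m hm => ?_
  rw [Finset.mem_Ico] at hm
  have h1 : F.mem 0 ((-1 : B) ^ s) := pow_mem_zero F (F.neg F.one) s
  have h2 : F.mem 0 ((m.choose s : ℕ) : B) := F.natCast _
  have h3 : F.mem 0 (d c ^ (m + 1)) := pow_mem_zero F hd _
  have h4 := hmom (m - s + t) (by omega) (by omega)
  have := F.mul (F.mul (F.mul h1 h2) h3) h4
  refine F.mono this (by linarith)

theorem wc_polar {ι : Type*} (L : B[X] →ₗ[B] B) (e : ι → B[X]) (cc : ι → B) (d : ι → B) (M : ℕ)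
    (c : ι) (s t : ℕ) (hd : F.mem 0 (d c))
    (hmom : ∀ u : ℕ, u < M + t → F.mem (max 0 ((u : ℤ) - 1)) (mom L e cc c u)) :
    F.mem (max 0 ((t : ℤ) - 1)) (wc L e cc d M c s t) := by
  refine wc_mem F L e cc d M c s t _ hd fun u hu hu' => F.mono (hmom u hu') ?_
  have : (t : ℤ) ≤ u := by exact_mod_cast hu
  exact max_le_max le_rfl (by linarith)

theorem wc_regular {ι : Type*} (L : B[X] →ₗ[B] B) (e : ι → B[X]) (cc : ι → B) (d : ι → B) (M : ℕ)
    (c : ι) (s t : ℕ) (hd : F.mem 0 (d c))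
    (hmom : ∀ u : ℕ, u < M + t → F.mem ((u : ℤ) + 2) (mom L e cc c u)) :
    F.mem ((t : ℤ) + 2) (wc L e cc d M c s t) := by
  refine wc_mem F L e cc d M c s t _ hd fun u hu hu' => F.mono (hmom u hu') ?_
  have : (t : ℤ) ≤ u := by exact_mod_cast hu
  linarith

/-- **the error term of `row_identity`** -/
theorem err_mem {ι : Type*} (L : B[X] →ₗ[B] B) (e : ι → B[X]) (cc : ι → B) (c : ι) (y d : B)
    (hy : F.mem 1 y) (hd : F.mem 0 d) (M n : ℕ) (D : B[X]) (hn : D.natDegree < n)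
    (hD : ∀ i, F.mem 0 ((taylor (cc c) D).coeff i))
    (hmom : ∀ u : ℕ, u < M + n → F.mem (max 0 ((u : ℤ) - 1)) (mom L e cc c u)) :
    F.mem ((M : ℤ) - 1) (L (e c * ((X - C (cc c) - C y) * C d) ^ M * D)) := by
  have h1 : e c * ((X - C (cc c) - C y) * C d) ^ M * D
      = ∑ k ∈ range (M + 1), ∑ i ∈ range n,
        (d ^ M * ((-1) ^ k * (M.choose k : B) * y ^ k * (taylor (cc c) D).coeff i)) •
          (e c * (X - C (cc c)) ^ (M - k + i)) := by
    have h2 : (X - C (cc c) - C y : B[X]) ^ M =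
        ∑ k ∈ range (M + 1), C (y ^ k * ((-1) ^ k * (M.choose k : B))) *
          (X - C (cc c)) ^ (M - k) := by
      rw [sub_eq_neg_add, add_pow]
      refine sum_congr rfl fun k _ => ?_
      rw [neg_pow, C_mul, C_mul, C_pow, C_pow, C_neg, C_1, C_eq_natCast]
      ring
    have h3 : D = ∑ t ∈ range n, C ((taylor (cc c) D).coeff t) * (X - C (cc c)) ^ t :=
      taylor_sum D (cc c) hn
    have h4 : e c * ((X - C (cc c) - C y) * C d) ^ M * D
        = (e c * C d ^ M) * ((∑ k ∈ range (M + 1), C (y ^ k * ((-1) ^ k * (M.choose k : B))) *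
          (X - C (cc c)) ^ (M - k)) *
          ∑ t ∈ range n, C ((taylor (cc c) D).coeff t) * (X - C (cc c)) ^ t) := by
      rw [← h2, ← h3, mul_pow]; ring
    rw [h4, Finset.sum_mul_sum, Finset.mul_sum]
    refine sum_congr rfl fun k _ => ?_
    rw [Finset.mul_sum]
    refine sum_congr rfl fun i _ => ?_
    rw [smul_eq_C_mul, pow_add]
    simp only [C_mul, C_pow]
    ring
  rw [h1, map_sum]
  refine F.sum _ _ fun k hk => ?_
  rw [map_sum]
  refine F.sum _ _ fun i hi => ?_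
  rw [map_smul, smul_eq_mul]
  rw [Finset.mem_range] at hk hi
  have a1 : F.mem 0 (d ^ M) := pow_mem_zero F hd _
  have a2 : F.mem 0 ((-1 : B) ^ k) := pow_mem_zero F (F.neg F.one) k
  have a3 : F.mem 0 ((M.choose k : ℕ) : B) := F.natCast _
  have a4 : F.mem (k : ℤ) (y ^ k) := pow_mem_one F hy k
  have a5 := hD i
  have a6 := hmom (M - k + i) (by omega)
  have := F.mul (F.mul a1 (F.mul (F.mul (F.mul a2 a3) a4) a5)) a6
  refine F.mono this ?_
  have e1 : ((M - k + i : ℕ) : ℤ) = (M : ℤ) - k + i := by omega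
  rw [e1]
  have h3 := le_max_right (0 : ℤ) ((M : ℤ) - k + i - 1)
  have h4 : (0 : ℤ) ≤ i := Int.natCast_nonneg i
  linarith

/-! ### integrality of the quotient -/

lemma finsum_coeff_mem {σ : Type*} (s : Finset σ) (f : σ → B[X]) (j : ℕ)
    (h : ∀ i ∈ s, F.mem 0 ((f i).coeff j)) : F.mem 0 ((∑ i ∈ s, f i).coeff j) := by
  rw [finsetSum_coeff]
  exact F.sum _ _ h

lemma mul_coeff_mem {P Q : B[X]} (hP : ∀ i, F.mem 0 (P.coeff i)) (hQ : ∀ i, F.mem 0 (Q.coeff i))
    (j : ℕ) : F.mem 0 ((P * Q).coeff j) := by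
  rw [coeff_mul]
  exact F.sum _ _ fun x _ => F.mono (F.mul (hP _) (hQ _)) (by norm_num)

/-- the quotient `D = (R - R(x))/(X - x)` has coefficients in `F 0` if `R` and `x` have. -/
theorem quot_coeff_mem {R D : B[X]} {x : B} (hx : F.mem 0 x) (hR : ∀ i, F.mem 0 (R.coeff i))
    (hD : (X - C x) * D = R - C (R.eval x)) (j : ℕ) : F.mem 0 (D.coeff j) := by
  have h := dq_local R D 0 x (by rwa [zero_add]) (Nat.lt_succ_self R.natDegree)
  rw [h]
  refine finsum_coeff_mem F _ _ _ fun t _ => ?_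
  rw [coeff_C_mul, taylor_zero]
  refine F.mono (F.mul (hR t) (finsum_coeff_mem F _ _ _ fun u _ => ?_)) (by norm_num)
  · rw [coeff_C_mul, C_0, sub_zero, coeff_X_pow]
    split_ifs
    · rw [mul_one]; exact pow_mem_zero F hx _
    · rw [mul_zero]; exact F.zero _

lemma quot_natDegree_lt {R D : B[X]} {x : B} {n : ℕ} (hn : R.natDegree < n)
    (hD : (X - C x) * D = R - C (R.eval x)) : D.natDegree < n := by
  have h := dq_local R D 0 x (by rwa [zero_add]) hn
  rw [h]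
  refine lt_of_le_of_lt (natDegree_sum_le_of_forall_le (n := n - 1) _ _ fun t ht => ?_) (by omega)
  rw [Finset.mem_range] at ht
  refine (natDegree_C_mul_le _ _).trans (natDegree_sum_le_of_forall_le _ _ fun u hu => ?_)
  rw [Finset.mem_range] at hu
  refine (natDegree_C_mul_le _ _).trans ?_
  rw [C_0, sub_zero]
  exact (natDegree_X_pow_le u).trans (by omega)

theorem eval_mem {P : B[X]} {r : B} (hP : ∀ i, F.mem 0 (P.coeff i)) (hr : F.mem 0 r) :
    F.mem 0 (P.eval r) := by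
  rw [eval_eq_sum_range]
  exact F.sum _ _ fun i _ => F.mono (F.mul (hP i) (pow_mem_zero F hr i)) (by norm_num)

theorem taylor_coeff_mem {P : B[X]} {r : B} (hP : ∀ i, F.mem 0 (P.coeff i)) (hr : F.mem 0 r)
    (i : ℕ) : F.mem 0 ((taylor r P).coeff i) := by
  rw [taylor_coeff]
  refine eval_mem F (fun j => ?_) hr
  rw [hasseDeriv_coeff]
  exact F.mono (F.mul (F.natCast _) (hP _)) (by norm_num)

/-- the error term, all hypotheses on `R` and `x`. -/
theorem err_mem' {ι : Type*} (L : B[X] →ₗ[B] B) (e : ι → B[X]) (cc : ι → B) (c : ι)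
    (x y d : B) (hx : F.mem 0 x) (hc : F.mem 0 (cc c)) (hy : F.mem 1 y) (hd : F.mem 0 d)
    (M n : ℕ) (R D : B[X]) (hR : ∀ i, F.mem 0 (R.coeff i)) (hn : R.natDegree < n)
    (hD : (X - C x) * D = R - C (R.eval x))
    (hmom : ∀ u : ℕ, u < M + n → F.mem (max 0 ((u : ℤ) - 1)) (mom L e cc c u)) :
    F.mem ((M : ℤ) - 1) (L (e c * ((X - C (cc c) - C y) * C d) ^ M * D)) :=
  err_mem F L e cc c y d hy hd M n D (quot_natDegree_lt hn hD)
    (taylor_coeff_mem F (quot_coeff_mem F hx hR hD) hc) hmom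

end Crest.Agent.R006.P4MValx538
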