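import Mathlib
import Crest.Agent.R006.Toll_814
import Crest.Agent.R006.P4M_Val_538

/-!
Row 6, block P4, matrix side: the statements of `P4M_Val_538` for 814's structure `ZFil`
(used by 961's abstract theorem), by the conversion `toFilt : ZFil B → Filt B`.
-/

set_option autoImplicit false

namespace Crest.Agent.R006.P4MValZx538

open Polynomial Finset
open Crest.Agent.R006.P4Chain657 Crest.Agent.R006.P4D Crest.Agent.R006.Tollx814

variable {B : Type*} [CommRing B]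

/-- 814's filtrations as 657's filtrations -/
def toFilt (Fil : ZFil B) : Filt B where
  mem v a := a ∈ Fil.F v
  zero _ := AddSubgroup.zero_mem _
  one := Fil.one_mem
  add := fun h h' => AddSubgroup.add_mem _ h h'
  neg := fun h => AddSubgroup.neg_mem _ h
  mul := fun h h' => Fil.mul_mem h h'
  mono := fun h h' => Fil.mono h' h

@[simp] lemma mem_toFilt (Fil : ZFil B) {v : ℤ} {a : B} :
    (toFilt Fil).mem v a ↔ a ∈ Fil.F v := Iff.rfl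

/-- 657's filtrations as 814's filtrations -/
def ofFilt (F : Filt B) : ZFil B where
  F v :=
    { carrier := {a | F.mem v a}
      add_mem' := fun h h' => F.add h h'
      zero_mem' := F.zero v
      neg_mem' := fun h => F.neg h }
  anti := fun h _ hx => F.mono hx h
  mul_mem := fun h h' => F.mul h h'
  one_mem := F.one

@[simp] lemma mem_ofFilt (F : Filt B) {v : ℤ} {a : B} : a ∈ (ofFilt F).F v ↔ F.mem v a := Iff.rfl

variable (Fil : ZFil B)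

/-- general form of the bracket bound -/
theorem bracket_mem {y psi' : B} (mo : ℕ → B) (t : ℕ) (w v : ℤ) (hy : y ∈ Fil.F 1)
    (hpsi : psi' ∈ Fil.F w) (hv : v ≤ w + t) (ν : ℕ → ℤ) (hmo : ∀ u, u < t → mo u ∈ Fil.F (ν u))
    (hν : ∀ u : ℕ, u < t → v ≤ (t : ℤ) - 1 - u + ν u) :
    psi' * y ^ t - ∑ u ∈ range t, y ^ (t - 1 - u) * mo u ∈ Fil.F v :=
  P4MValx538.bracket_mem (toFilt Fil) mo t w v hy hpsi hv ν hmo hν

/-- polar class, `psi' ∈ F (-2)` -/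
theorem bracket_polar {y psi' : B} (mo : ℕ → B) (t : ℕ) (hy : y ∈ Fil.F 1)
    (hpsi : psi' ∈ Fil.F (-2)) (hmo : ∀ u : ℕ, u < t → mo u ∈ Fil.F (max 0 ((u : ℤ) - 1))) :
    psi' * y ^ t - ∑ u ∈ range t, y ^ (t - 1 - u) * mo u ∈ Fil.F ((t : ℤ) - 2) :=
  P4MValx538.bracket_polar (toFilt Fil) mo t hy hpsi hmo

/-- polar class, `psi' ∈ F 0` -/
theorem bracket_polar0 {y psi' : B} (mo : ℕ → B) (t : ℕ) (hy : y ∈ Fil.F 1)
    (hpsi : psi' ∈ Fil.F 0) (hmo : ∀ u : ℕ, u < t → mo u ∈ Fil.F (max 0 ((u : ℤ) - 1))) :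
    psi' * y ^ t - ∑ u ∈ range t, y ^ (t - 1 - u) * mo u ∈ Fil.F (max 0 ((t : ℤ) - 2)) :=
  P4MValx538.bracket_polar0 (toFilt Fil) mo t hy hpsi hmo

/-- regular class, `psi' ∈ F 1` -/
theorem bracket_regular {y psi' : B} (mo : ℕ → B) (t : ℕ) (hy : y ∈ Fil.F 1)
    (hpsi : psi' ∈ Fil.F 1) (hmo : ∀ u : ℕ, u < t → mo u ∈ Fil.F ((u : ℤ) + 2)) :
    psi' * y ^ t - ∑ u ∈ range t, y ^ (t - 1 - u) * mo u ∈ Fil.F ((t : ℤ) + 1) :=
  P4MValx538.bracket_regular (toFilt Fil) mo t hy hpsi hmo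

/-- general form of the far coefficients -/
theorem wc_mem {ι : Type*} (L : B[X] →ₗ[B] B) (e : ι → B[X]) (cc : ι → B) (d : ι → B) (M : ℕ)
    (c : ι) (s t : ℕ) (v : ℤ) (hd : d c ∈ Fil.F 0)
    (hmom : ∀ u, t ≤ u → u < M + t → mom L e cc c u ∈ Fil.F v) :
    wc L e cc d M c s t ∈ Fil.F v :=
  P4MValx538.wc_mem (toFilt Fil) L e cc d M c s t v hd hmom

theorem wc_polar {ι : Type*} (L : B[X] →ₗ[B] B) (e : ι → B[X]) (cc : ι → B) (d : ι → B) (M : ℕ)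
    (c : ι) (s t : ℕ) (hd : d c ∈ Fil.F 0)
    (hmom : ∀ u : ℕ, u < M + t → mom L e cc c u ∈ Fil.F (max 0 ((u : ℤ) - 1))) :
    wc L e cc d M c s t ∈ Fil.F (max 0 ((t : ℤ) - 1)) :=
  P4MValx538.wc_polar (toFilt Fil) L e cc d M c s t hd hmom

theorem wc_regular {ι : Type*} (L : B[X] →ₗ[B] B) (e : ι → B[X]) (cc : ι → B) (d : ι → B) (M : ℕ)
    (c : ι) (s t : ℕ) (hd : d c ∈ Fil.F 0)
    (hmom : ∀ u : ℕ, u < M + t → mom L e cc c u ∈ Fil.F ((u : ℤ) + 2)) :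
    wc L e cc d M c s t ∈ Fil.F ((t : ℤ) + 2) :=
  P4MValx538.wc_regular (toFilt Fil) L e cc d M c s t hd hmom

/-- **the error term of `row_identity`** -/
theorem err_mem {ι : Type*} (L : B[X] →ₗ[B] B) (e : ι → B[X]) (cc : ι → B) (c : ι) (y d : B)
    (hy : y ∈ Fil.F 1) (hd : d ∈ Fil.F 0) (M n : ℕ) (D : B[X]) (hn : D.natDegree < n)
    (hD : ∀ i, (taylor (cc c) D).coeff i ∈ Fil.F 0)
    (hmom : ∀ u : ℕ, u < M + n → mom L e cc c u ∈ Fil.F (max 0 ((u : ℤ) - 1))) :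
    L (e c * ((X - C (cc c) - C y) * C d) ^ M * D) ∈ Fil.F ((M : ℤ) - 1) :=
  P4MValx538.err_mem (toFilt Fil) L e cc c y d hy hd M n D hn hD hmom

theorem err_mem' {ι : Type*} (L : B[X] →ₗ[B] B) (e : ι → B[X]) (cc : ι → B) (c : ι)
    (x y d : B) (hx : x ∈ Fil.F 0) (hc : cc c ∈ Fil.F 0) (hy : y ∈ Fil.F 1) (hd : d ∈ Fil.F 0)
    (M n : ℕ) (R D : B[X]) (hR : ∀ i, R.coeff i ∈ Fil.F 0) (hn : R.natDegree < n)
    (hD : (X - C x) * D = R - C (R.eval x))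
    (hmom : ∀ u : ℕ, u < M + n → mom L e cc c u ∈ Fil.F (max 0 ((u : ℤ) - 1))) :
    L (e c * ((X - C (cc c) - C y) * C d) ^ M * D) ∈ Fil.F ((M : ℤ) - 1) :=
  P4MValx538.err_mem' (toFilt Fil) L e cc c x y d hx hc hy hd M n R D hR hn hD hmom

theorem quot_coeff_mem {R D : B[X]} {x : B} (hx : x ∈ Fil.F 0) (hR : ∀ i, R.coeff i ∈ Fil.F 0)
    (hD : (X - C x) * D = R - C (R.eval x)) (j : ℕ) : D.coeff j ∈ Fil.F 0 :=
  P4MValx538.quot_coeff_mem (toFilt Fil) hx hR hD j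

theorem eval_mem {P : B[X]} {r : B} (hP : ∀ i, P.coeff i ∈ Fil.F 0) (hr : r ∈ Fil.F 0) :
    P.eval r ∈ Fil.F 0 :=
  P4MValx538.eval_mem (toFilt Fil) hP hr

theorem taylor_coeff_mem {P : B[X]} {r : B} (hP : ∀ i, P.coeff i ∈ Fil.F 0) (hr : r ∈ Fil.F 0)
    (i : ℕ) : (taylor r P).coeff i ∈ Fil.F 0 :=
  P4MValx538.taylor_coeff_mem (toFilt Fil) hP hr i

end Crest.Agent.R006.P4MValZx538
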