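import Crest.Agent.R006.P4Mat_955
import Crest.Agent.R006.P4M_ValZ_538

/-!
# Row 6, block P4, matrix side (helper955): valuations of the coefficients, decomposition A

`z c` = number of zeros of the gauge in the class `c` (`hz`).
-/

set_option autoImplicit false

namespace Crest.Agent.R006.P4M

open Polynomial Finset Tollx814 P4Toll961
open Crest.Agent.R006.D Crest.Agent.R006.PsiInf
open Crest.Agent.R006.P4M531 (pt cst phi linB BB)

section base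

variable {p : ℕ} [hp : Fact p.Prime]

lemma C_mem_pb {v : ℤ} {a : ℚ} (h : padicNorm p a ≤ (p : ℚ) ^ (-v)) : C a ∈ (pbFil p).F v :=
  ProdBound481.PB.C h

lemma C_int_mem (n : ℤ) : C (n : ℚ) ∈ (pbFil p).F 0 :=
  C_mem_pb (by simpa using padicNorm.of_int n)

lemma C_nat_mem (n : ℕ) : C (n : ℚ) ∈ (pbFil p).F 0 := by
  have := C_int_mem (p := p) (n : ℤ)
  simpa using this

lemma C_p_mem : C (p : ℚ) ∈ (pbFil p).F 1 :=
  C_mem_pb (by rw [padicNorm.padicNorm_p_of_prime, zpow_neg, zpow_one])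

lemma C_inv_mem {n : ℤ} (h : ¬ (p : ℤ) ∣ n) : C ((n : ℚ)⁻¹) ∈ (pbFil p).F 0 := by
  apply C_mem_pb
  have h1 : padicNorm p (n : ℚ) = 1 := (padicNorm.int_eq_one_iff n).mpr h
  rw [← one_div, padicNorm.div, h1]
  simp

/-- the class of a site: `val - cl = p k / 2` -/
lemma cl_spec (h2 : p ≠ 2) (z : Site) : ∃ k : ℤ, z.val - (cl p z : ℕ) = (p : ℚ) * k / 2 := by
  have hp0 : (0 : ℤ) < p := by exact_mod_cast hp.out.pos
  have hodd : p % 2 = 1 := hp.out.eq_two_or_odd.resolve_left h2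
  rcases z with i | i
  · refine ⟨2 * (i / p), ?_⟩
    have h1 := Int.emod_nonneg i hp0.ne'
    have h3 : ((cl p (.Z i) : ℕ) : ℤ) = i % p := by
      rw [cl, Int.toNat_of_nonneg h1]
    have h4 : ((cl p (.Z i) : ℕ) : ℚ) = ((i % p : ℤ) : ℚ) := by
      rw [← h3]; simp
    have h5 : i % (p : ℤ) = i - p * (i / p) := by
      have := Int.emod_add_mul_ediv i p
      linarith
    rw [h4, h5, Site.val]
    push_cast; ring
  · obtain ⟨m, hm⟩ : ∃ m : ℕ, m = (p + 1) / 2 := ⟨_, rfl⟩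
    have hm2 : 2 * m = p + 1 := by omega
    refine ⟨2 * ((i + m) / p) - 1, ?_⟩
    have h1 := Int.emod_nonneg (i + m) hp0.ne'
    have h3 : ((cl p (.H i) : ℕ) : ℤ) = (i + m) % p := by
      rw [cl, ← hm, Int.toNat_of_nonneg h1]
    have h4 : ((cl p (.H i) : ℕ) : ℚ) = (((i + m) % p : ℤ) : ℚ) := by
      rw [← h3]; simp
    have h5 : (i + m) % (p : ℤ) = (i + m) - p * ((i + m) / p) := by
      have := Int.emod_add_mul_ediv (i + m) p
      linarith
    have h6 : (m : ℚ) = ((p : ℚ) + 1) / 2 := by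
      have h7 : (2 : ℚ) * (m : ℚ) = (p : ℚ) + 1 := by exact_mod_cast hm2
      linarith
    rw [h4, h5, Site.val]
    push_cast
    rw [h6]
    ring

lemma C_half_mem (h2 : p ≠ 2) : C ((2 : ℚ)⁻¹) ∈ (pbFil p).F 0 := by
  have := C_inv_mem (p := p) (n := 2) (by
    intro h
    have h3 : (p : ℤ) ≤ 2 := Int.le_of_dvd (by norm_num) h
    have h4 := hp.out.two_le
    omega)
  simpa using this

lemma C_val_sub_mem (h2 : p ≠ 2) (z : Site) {c : ℕ} (hc : c = cl p z) :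
    C (z.val - (c : ℚ)) ∈ (pbFil p).F 1 := by
  subst hc
  obtain ⟨k, hk⟩ := cl_spec h2 z
  have e : C (z.val - ((cl p z : ℕ) : ℚ)) = C (p : ℚ) * (C (k : ℚ) * C ((2 : ℚ)⁻¹)) := by
    rw [hk, ← C_mul, ← C_mul]
    congr 1
    ring
  rw [e]
  exact mul_mem' _ C_p_mem (mul_mem' _ (C_int_mem k) (C_half_mem h2) (le_refl _)) (by norm_num)

lemma ys_mem (h2 : p ≠ 2) (z : Site) {c : ℕ} (hc : c = cl p z) :
    ys c z ∈ (psFil (pbFil p)).F 1 :=
  y_mem _ (C_val_sub_mem h2 z hc)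

lemma phi_mem {v : ℤ} {a : ℚ} (h : C a ∈ (pbFil p).F v) : phi a ∈ (psFil (pbFil p)).F v :=
  C_mem _ h

lemma xs_mem (h2 : p ≠ 2) (z : Site) : xs z ∈ (psFil (pbFil p)).F 0 := by
  rw [xs_eq (cl p z) z]
  exact AddSubgroup.add_mem _ (phi_mem (C_nat_mem _))
    ((psFil (pbFil p)).mono (by norm_num) (ys_mem h2 z rfl))

lemma diff_inv_mem {c c' : Fin p} (h : c' ≠ c) :
    C ((((c : ℕ) : ℚ) - ((c' : ℕ) : ℚ))⁻¹) ∈ (pbFil p).F 0 := by
  have h1 : ¬ (p : ℤ) ∣ (((c : ℕ) : ℤ) - ((c' : ℕ) : ℤ)) := by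
    intro hd
    have h3 := Int.eq_zero_of_abs_lt_dvd hd (by
      have := c.2; have := c'.2
      rw [abs_lt]; omega)
    exact h (Fin.ext (by omega))
  have := C_inv_mem (p := p) h1
  push_cast at this
  exact this

end base

namespace Dat

variable {p : ℕ} [hp : Fact p.Prime] {jR jT jQ jU ι : Type*} (D : Dat p jR jT jQ jU ι)

/-- `z c` zeros of the gauge in the class `c` -/
def Zer (z : ℕ → ℕ) : Prop := ∀ c : Fin p, ∀ m : ℕ,
  C ((taylor ((c : ℕ) : ℚ) D.rho).coeff m) ∈ (pbFil p).F (max 0 ((z c : ℤ) - m))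

variable {D} {z : ℕ → ℕ}

/-- generic bound of `cA0` from a bound of the brackets -/
lemma cA0_mem (hz : D.Zer z) (i : ι) (l : ℕ) (v : ℤ) (b : ℕ → ℤ)
    (hb : l < D.Nb → ∀ t, t < D.G + l → br D.e (D.cs i) (D.ro i).1 (D.ps i) t ∈ (psFil (pbFil p)).F (b t))
    (hv : ∀ g : ℕ, v ≤ max 0 ((z (D.cs i) : ℤ) - g) + b (g + l) - (D.ro i).2) :
    D.cA0 i l ∈ (pbFil p).F v := by
  rw [cA0]
  split_ifs with hl
  swap
  · exact AddSubgroup.zero_mem _
  refine (pbFil p).sum_mem _ _ _ fun g hg => ?_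
  rw [mem_range] at hg
  exact mul_mem' _ (hz (D.cs i) g) (hb hl (g + l) (by omega) (D.ro i).2) (by
    have := hv g
    linarith)

variable {NL : ℕ}

lemma momP (L : LocalInput p NL D.M D.e) (c : Fin p) (hc : 2 * (c : ℕ) < p) {t : ℕ}
    (ht : t ≤ NL) : phi (momQ D.e c t) ∈ (psFil (pbFil p)).F (max 0 ((t : ℤ) - 1)) :=
  phi_mem (L.mom_polar c hc t ht)

lemma momR (L : LocalInput p NL D.M D.e) (c : Fin p) (hc : p < 2 * (c : ℕ)) {t : ℕ}
    (ht : t ≤ NL) : phi (momQ D.e c t) ∈ (psFil (pbFil p)).F ((t : ℤ) + 2) :=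
  phi_mem (L.mom_regular c hc t ht)

/-- polar class, `psi' ∈ F (-2)` -/
lemma cA0_polar (L : LocalInput p NL D.M D.e) (hNL : D.G + D.Nb ≤ NL) (h2 : p ≠ 2)
    (hz : D.Zer z) (i : ι) (hcs : (D.cs i : ℕ) = cl p (D.ro i).1) (hpol : 2 * (D.cs i : ℕ) < p)
    (hps : D.ps i ∈ (psFil (pbFil p)).F (-2)) (l : ℕ) :
    D.cA0 i l ∈ (pbFil p).F ((l : ℤ) + z (D.cs i) - 2 - (D.ro i).2) := by
  refine cA0_mem hz i l _ (fun t => (t : ℤ) - 2) (fun hl t ht => ?_) fun g => ?_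
  · exact P4MValZx538.bracket_polar _ _ _ (ys_mem h2 _ hcs) hps
      fun u hu => momP L _ hpol (by omega)
  · have h1 := le_max_right (0 : ℤ) ((z (D.cs i) : ℤ) - g)
    push_cast
    linarith

/-- polar class, `psi'` integral -/
lemma cA0_polar0 (L : LocalInput p NL D.M D.e) (hNL : D.G + D.Nb ≤ NL) (h2 : p ≠ 2)
    (hz : D.Zer z) (i : ι) (hcs : (D.cs i : ℕ) = cl p (D.ro i).1) (hpol : 2 * (D.cs i : ℕ) < p)
    (hps : D.ps i ∈ (psFil (pbFil p)).F 0) (l : ℕ) :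
    D.cA0 i l ∈ (pbFil p).F (max 0 ((l : ℤ) + z (D.cs i) - 2) - (D.ro i).2) := by
  refine cA0_mem hz i l _ (fun t => max 0 ((t : ℤ) - 2)) (fun hl t ht => ?_) fun g => ?_
  · exact P4MValZx538.bracket_polar0 _ _ _ (ys_mem h2 _ hcs) hps
      fun u hu => momP L _ hpol (by omega)
  · have h1 := le_max_right (0 : ℤ) ((z (D.cs i) : ℤ) - g)
    have h0 := le_max_left (0 : ℤ) ((z (D.cs i) : ℤ) - g)
    have h3 := le_max_left (0 : ℤ) (((g + l : ℕ) : ℤ) - 2)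
    have h4 := le_max_right (0 : ℤ) (((g + l : ℕ) : ℤ) - 2)
    push_cast at h3 h4 ⊢
    have h5 : max 0 ((l : ℤ) + z (D.cs i) - 2) ≤
        max 0 ((z (D.cs i) : ℤ) - g) + max 0 ((g : ℤ) + l - 2) :=
      max_le (by linarith) (by linarith)
    linarith

/-- regular class -/
lemma cA0_regular (L : LocalInput p NL D.M D.e) (hNL : D.G + D.Nb ≤ NL) (h2 : p ≠ 2)
    (hz : D.Zer z) (i : ι) (hcs : (D.cs i : ℕ) = cl p (D.ro i).1) (hreg : p < 2 * (D.cs i : ℕ))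
    (hps : D.ps i ∈ (psFil (pbFil p)).F 1) (l : ℕ) :
    D.cA0 i l ∈ (pbFil p).F ((l : ℤ) + z (D.cs i) + 1 - (D.ro i).2) := by
  refine cA0_mem hz i l _ (fun t => (t : ℤ) + 1) (fun hl t ht => ?_) fun g => ?_
  · exact P4MValZx538.bracket_regular _ _ _ (ys_mem h2 _ hcs) hps
      fun u hu => momR L _ hreg (by omega)
  · have h1 := le_max_right (0 : ℤ) ((z (D.cs i) : ℤ) - g)
    push_cast
    linarith

lemma cB0_mem (h2 : p ≠ 2) (i : ι) (hcs : (D.cs i : ℕ) = cl p (D.ro i).1) (s : ℕ) :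
    D.cB0 i s ∈ (pbFil p).F (max 0 ((s : ℤ) - (D.ro i).2)) := by
  rcases le_or_gt (0 : ℤ) ((s : ℤ) - (D.ro i).2) with h | h
  · rw [max_eq_right h]
    exact coeff_y_pow_mem _ (C_val_sub_mem h2 _ hcs) s _
  · have : D.cB0 i s = 0 := coeff_y_pow_of_lt _ (by omega)
    rw [this]
    exact AddSubgroup.zero_mem _

lemma cC0_mem (h2 : p ≠ 2) (i : ι) (hcs : (D.cs i : ℕ) = cl p (D.ro i).1) {w : ℤ}
    (hg : GamX (D.ro i).1 ∈ (psFil (pbFil p)).F w) (u : ℕ) :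
    D.cC0 i u ∈ (pbFil p).F ((u : ℤ) + w - (D.ro i).2) := by
  have := (psFil (pbFil p)).mul_mem (pow_one_mem _ (ys_mem h2 (D.ro i).1 hcs) u) hg
  exact this (D.ro i).2

omit hp in
lemma cC0_zero (i : ι) (hg : PowerSeries.X ^ ((D.ro i).2 + 1) ∣ gam (D.ro i).1) (u : ℕ) :
    D.cC0 i u = 0 := by
  have h1 : (PowerSeries.X : BB) ^ ((D.ro i).2 + 1) ∣ GamX (D.ro i).1 := by
    obtain ⟨w, hw⟩ := hg
    rw [GamX, hw, map_mul, map_pow, PowerSeries.map_X]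
    exact Dvd.intro _ rfl
  exact (PowerSeries.X_pow_dvd_iff.mp (h1.mul_left _)) _ (Nat.lt_succ_self _)

lemma far0_mem (M : ℕ) (c c' : Fin p) (s k : ℕ) : far0 M c s c' k ∈ (pbFil p).F 0 := by
  rw [far0]
  split_ifs with h1 h2
  · exact AddSubgroup.zero_mem _
  · rw [C_mul, C_mul, C_pow, C_pow]
    refine zero_mul_mem _ (zero_mul_mem _ (pow_zero_mem _ ?_ _) (C_nat_mem _))
      (pow_zero_mem _ (diff_inv_mem h1) _)
    rw [C_neg, C_1]
    exact AddSubgroup.neg_mem _ (pbFil p).one_mem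
  · exact AddSubgroup.zero_mem _

lemma Lam0_polar (L : LocalInput p NL D.M D.e) (hNL : D.G + D.N + D.Nb ≤ NL) (hz : D.Zer z)
    (c : Fin p) (hc : 2 * (c : ℕ) < p) {k : ℕ} (hk : k < D.N) (l : ℕ) :
    D.Lam0 c k l ∈ (pbFil p).F (max 0 ((k : ℤ) + l + z c - 1)) := by
  rw [Lam0]
  split_ifs with hl
  swap
  · exact AddSubgroup.zero_mem _
  rw [map_sum]
  refine (pbFil p).sum_mem _ _ _ fun g hg => ?_
  rw [mem_range] at hg
  rw [C_mul]
  refine mul_mem' _ (hz c g) (L.mom_polar c hc (k + (g + l)) (by omega)) ?_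
  have h1 := le_max_right (0 : ℤ) ((z c : ℤ) - g)
  have h0 := le_max_left (0 : ℤ) ((z c : ℤ) - g)
  have h3 := le_max_left (0 : ℤ) (((k + (g + l) : ℕ) : ℤ) - 1)
  have h4 := le_max_right (0 : ℤ) (((k + (g + l) : ℕ) : ℤ) - 1)
  push_cast at h3 h4 ⊢
  exact max_le (by linarith) (by linarith)

lemma Lam0_regular (L : LocalInput p NL D.M D.e) (hNL : D.G + D.N + D.Nb ≤ NL) (hz : D.Zer z)
    (c : Fin p) (hc : p < 2 * (c : ℕ)) {k : ℕ} (hk : k < D.N) (l : ℕ) :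
    D.Lam0 c k l ∈ (pbFil p).F ((k : ℤ) + l + z c + 2) := by
  rw [Lam0]
  split_ifs with hl
  swap
  · exact AddSubgroup.zero_mem _
  rw [map_sum]
  refine (pbFil p).sum_mem _ _ _ fun g hg => ?_
  rw [mem_range] at hg
  rw [C_mul]
  refine mul_mem' _ (hz c g) (L.mom_regular c hc (k + (g + l)) (by omega)) ?_
  have h1 := le_max_right (0 : ℤ) ((z c : ℤ) - g)
  push_cast
  linarith

/-- the error term -/
lemma erR_mem (L : LocalInput p NL D.M D.e) (h2 : p ≠ 2) (i : ι)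
    (hcs : (D.cs i : ℕ) = cl p (D.ro i).1) (R : ℚ[X]) (hR : ∀ m, C (R.coeff m) ∈ (pbFil p).F 0)
    {n : ℕ} (hn : R.natDegree < n) (hNL : D.M + n ≤ NL) :
    erR D.e D.M (D.cs i) (D.ro i).1 R ∈ (psFil (pbFil p)).F ((D.M : ℤ) - 1) := by
  rw [erR]
  refine (psFil (pbFil p)).sum_mem _ _ _ fun c hc => ?_
  have hc' := (mem_erase.mp hc).1
  have hD : (X - C (xs (D.ro i).1)) * ((R.map phi) /ₘ (X - C (xs (D.ro i).1))) =
      R.map phi - C ((R.map phi).eval (xs (D.ro i).1)) := by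
    have := P4Row.eq_eval_add (R.map phi) (xs (D.ro i).1)
    linear_combination -this
  refine P4MValZx538.err_mem' (psFil (pbFil p)) linB (eB D.e) cB c (xs (D.ro i).1)
    (ys (D.cs i) (D.ro i).1) (dB (D.cs i) c) (xs_mem h2 _) (phi_mem (C_nat_mem _))
    (ys_mem h2 _ hcs) (phi_mem (diff_inv_mem hc')) D.M n (R.map phi) _ (fun m => ?_)
    (lt_of_le_of_lt natDegree_map_le hn) hD fun u hu => ?_
  · rw [coeff_map]; exact phi_mem (hR m)
  · rw [mom_eq]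
    rcases lt_trichotomy (2 * (c : ℕ)) p with h | h | h
    · exact momP L c h (by omega)
    · exfalso
      have hodd : p % 2 = 1 := hp.out.eq_two_or_odd.resolve_left h2
      omega
    · refine (psFil (pbFil p)).mono ?_ (momR L c h (t := u) (by omega))
      exact max_le (by omega) (by omega)

end Dat

end Crest.Agent.R006.P4M
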