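import Crest.Agent.R006.P4Mat_955
import Crest.Agent.R006.P4M_ValZ_538

/-!
# Row 6, block P4, matrix side: auxiliary bounds for 955's `Side` (helper538)

`p ≠ 2` prime, `c0` the class of the site `z`.

* `ys_mem` : `ys c0 z ∈ F 1`; `xs_mem`, `cB_mem`, `dB_mem`, `C_inv_sub_mem`, `C_taylor_mem`, ...
* `erR_mem` : the error term of `row_BB` is in `F (M - 1)`;
* `far0_mem` : the far coefficients are in `F 0`.
-/

set_option autoImplicit false
set_option linter.unusedSectionVars false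

namespace Crest.Agent.R006.P4SideAuxx538

open Polynomial Finset Tollx814 P4Toll961
open Crest.Agent.R006.D Crest.Agent.R006.PsiInf Crest.Agent.R006.P4M
open Crest.Agent.R006.P4M531 (phi linB BB)

variable {p : ℕ} [hp : Fact p.Prime]

/-! ### constants -/

lemma C_mem_of_norm {v : ℤ} {a : ℚ} (h : padicNorm p a ≤ (p : ℚ) ^ (-v)) :
    (C a : ℚ[X]) ∈ (pbFil p).F v := ProdBound481.PB.C h

lemma C_mem_zero {a : ℚ} (h : padicNorm p a ≤ 1) : (C a : ℚ[X]) ∈ (pbFil p).F 0 :=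
  C_mem_of_norm (by simpa using h)

lemma C_int_mem (n : ℤ) : (C (n : ℚ) : ℚ[X]) ∈ (pbFil p).F 0 := C_mem_zero (padicNorm.of_int n)

lemma C_nat_mem (n : ℕ) : (C (n : ℚ) : ℚ[X]) ∈ (pbFil p).F 0 := C_mem_zero (padicNorm.of_nat n)

lemma norm_inv_int {n : ℤ} (h : ¬ (p : ℤ) ∣ n) : padicNorm p ((n : ℚ)⁻¹) = 1 := by
  have h1 : padicNorm p (n : ℚ) = 1 := (padicNorm.int_eq_one_iff n).2 h
  rw [← one_div, padicNorm.div, padicNorm.one, h1, div_one]

lemma C_inv_int_mem {n : ℤ} (h : ¬ (p : ℤ) ∣ n) : (C ((n : ℚ)⁻¹) : ℚ[X]) ∈ (pbFil p).F 0 :=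
  C_mem_zero (norm_inv_int h).le

/-- differences of distinct classes are prime to `p` -/
lemma not_dvd_sub {c c' : Fin p} (h : c ≠ c') : ¬ (p : ℤ) ∣ ((c : ℕ) : ℤ) - ((c' : ℕ) : ℤ) := by
  intro hd
  have h1 := c.isLt
  have h2 := c'.isLt
  have h3 : ((c : ℕ) : ℤ) - ((c' : ℕ) : ℤ) = 0 := by
    refine Int.eq_zero_of_abs_lt_dvd hd ?_
    rw [abs_lt]
    constructor <;> omega
  exact h (Fin.ext (by omega))

lemma C_inv_sub_mem {c c' : Fin p} (h : c ≠ c') :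
    (C ((((c : ℕ) : ℚ) - ((c' : ℕ) : ℚ))⁻¹) : ℚ[X]) ∈ (pbFil p).F 0 := by
  have := C_inv_int_mem (not_dvd_sub h)
  push_cast at this
  exact this

/-! ### sites -/

/-- the local coordinate is `p k / 2` -/
lemma val_sub_cl (h2 : p ≠ 2) (z : Site) {c : ℕ} (hc : c = cl p z) :
    ∃ k : ℤ, z.val - (c : ℚ) = (p : ℚ) * k / 2 := by
  have hp0 : (p : ℤ) ≠ 0 := by exact_mod_cast hp.out.ne_zero
  have hodd : p % 2 = 1 := by
    rcases hp.out.eq_two_or_odd with h | h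
    · exact absurd h h2
    · exact h
  rcases z with i | i
  · have h1 : 0 ≤ i % (p : ℤ) := Int.emod_nonneg i hp0
    have h3 : (c : ℤ) = i % (p : ℤ) := by rw [hc]; exact Int.toNat_of_nonneg h1
    have h4 := Int.emod_add_mul_ediv i (p : ℤ)
    refine ⟨2 * (i / (p : ℤ)), ?_⟩
    have h5 : (i : ℚ) - (c : ℚ) = (p : ℚ) * ((i / (p : ℤ) : ℤ) : ℚ) := by
      have : i - (c : ℤ) = (p : ℤ) * (i / (p : ℤ)) := by rw [h3]; linarith
      exact_mod_cast this
    show (i : ℚ) - (c : ℚ) = _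
    rw [h5]
    push_cast
    ring
  · set q : ℕ := (p + 1) / 2 with hq
    have hq2 : 2 * q = p + 1 := by omega
    have h1 : 0 ≤ (i + (q : ℤ)) % (p : ℤ) := Int.emod_nonneg _ hp0
    have h3 : (c : ℤ) = (i + (q : ℤ)) % (p : ℤ) := by rw [hc]; exact Int.toNat_of_nonneg h1
    have h4 := Int.emod_add_mul_ediv (i + (q : ℤ)) (p : ℤ)
    set k := (i + (q : ℤ)) / (p : ℤ) with hk
    refine ⟨2 * k - 1, ?_⟩
    have h5 : 2 * i + 1 - 2 * (c : ℤ) = (p : ℤ) * (2 * k - 1) := by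
      have hq3 : 2 * (q : ℤ) = (p : ℤ) + 1 := by exact_mod_cast hq2
      rw [h3]
      linear_combination (-2) * h4 - hq3
    have h6 : 2 * (i : ℚ) + 1 - 2 * (c : ℚ) = (p : ℚ) * (2 * (k : ℚ) - 1) := by exact_mod_cast h5
    show (i : ℚ) + 1 / 2 - (c : ℚ) = _
    push_cast
    linear_combination (1 / 2) * h6

lemma norm_two (h2 : p ≠ 2) : padicNorm p 2 = 1 := by
  have h : ¬ p ∣ 2 := fun hd => h2 ((Nat.prime_dvd_prime_iff_eq hp.out Nat.prime_two).1 hd)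
  have := (padicNorm.nat_eq_one_iff (p := p) 2).2 h
  exact_mod_cast this

lemma val_mem (h2 : p ≠ 2) (z : Site) {c : ℕ} (hc : c = cl p z) :
    (C (z.val - (c : ℚ)) : ℚ[X]) ∈ (pbFil p).F 1 := by
  obtain ⟨k, hk⟩ := val_sub_cl h2 z hc
  refine C_mem_of_norm ?_
  rw [hk, padicNorm.div, padicNorm.mul, norm_two h2, div_one, padicNorm.padicNorm_p hp.out.one_lt]
  have h1 : padicNorm p (k : ℚ) ≤ 1 := padicNorm.of_int k
  have h3 : (0 : ℚ) < (p : ℚ)⁻¹ := inv_pos.2 (by exact_mod_cast hp.out.pos)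
  rw [zpow_neg, zpow_one]
  nlinarith

/-- the local coordinate of a site is in `F 1` -/
theorem ys_mem (h2 : p ≠ 2) (z : Site) {c : ℕ} (hc : c = cl p z) :
    ys c z ∈ (psFil (pbFil p)).F 1 := y_mem (pbFil p) (val_mem h2 z hc)

lemma phi_mem {v : ℤ} {a : ℚ} (h : (C a : ℚ[X]) ∈ (pbFil p).F v) :
    (phi a : BB) ∈ (psFil (pbFil p)).F v := C_mem (pbFil p) h

theorem cB_mem (c : Fin p) : (cB c : BB) ∈ (psFil (pbFil p)).F 0 := phi_mem (C_nat_mem _)

theorem xs_mem (h2 : p ≠ 2) (z : Site) : xs z ∈ (psFil (pbFil p)).F 0 := by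
  rw [xs_eq (cl p z) z]
  exact AddSubgroup.add_mem _ (phi_mem (C_nat_mem _))
    ((psFil (pbFil p)).mono (by norm_num) (ys_mem h2 z rfl))

theorem dB_mem {c0 c : Fin p} (h : c ≠ c0) : (dB c0 c : BB) ∈ (psFil (pbFil p)).F 0 :=
  phi_mem (C_inv_sub_mem (Ne.symm h))

/-- the moments, all classes -/
theorem mom_mem (h2 : p ≠ 2) {N M : ℕ} {e : Fin p → ℚ[X]} (h : LocalInput p N M e) (c : Fin p)
    {t : ℕ} (ht : t ≤ N) : C (momQ e c t) ∈ (pbFil p).F (max 0 ((t : ℤ) - 1)) := by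
  have hodd : p % 2 = 1 := by
    rcases hp.out.eq_two_or_odd with h | h
    · exact absurd h h2
    · exact h
  rcases lt_trichotomy (2 * (c : ℕ)) p with hc | hc | hc
  · exact h.mom_polar c hc t ht
  · omega
  · refine (pbFil p).mono ?_ (h.mom_regular c hc t ht)
    have : (0 : ℤ) ≤ t := Int.natCast_nonneg t
    exact max_le (by linarith) (by linarith)

/-- **The error term.** -/
theorem erR_mem (h2 : p ≠ 2) {N M : ℕ} {e : Fin p → ℚ[X]} (h : LocalInput p N M e) (c0 : Fin p)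
    (z : Site) (hc : (c0 : ℕ) = cl p z) (R : ℚ[X])
    (hR : ∀ i, (C (R.coeff i) : ℚ[X]) ∈ (pbFil p).F 0) {n : ℕ} (hn : R.natDegree < n)
    (hMn : M + n ≤ N + 1) : erR e M c0 z R ∈ (psFil (pbFil p)).F ((M : ℤ) - 1) := by
  unfold erR
  have hD : (X - C (xs z)) * ((R.map phi) /ₘ (X - C (xs z))) =
      R.map phi - C ((R.map phi).eval (xs z)) := by
    have := P4Row.eq_eval_add (R.map phi) (xs z)
    linear_combination -this
  refine (psFil (pbFil p)).sum_mem _ _ _ fun c hcm => ?_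
  have hne : c ≠ c0 := (mem_erase.mp hcm).1
  refine P4MValZx538.err_mem' (psFil (pbFil p)) linB (eB e) cB c (xs z) (ys c0 z) (dB c0 c)
    (xs_mem h2 z) (cB_mem c) (ys_mem h2 z hc) (dB_mem hne) M n (R.map phi) _ ?_
    (lt_of_le_of_lt natDegree_map_le hn) hD ?_
  · intro i
    rw [coeff_map]
    exact phi_mem (hR i)
  · intro u hu
    rw [mom_eq]
    exact phi_mem (mom_mem h2 h c (by omega))

/-- a coefficient of the error term -/
theorem coeff_erR_mem (h2 : p ≠ 2) {N M : ℕ} {e : Fin p → ℚ[X]} (h : LocalInput p N M e)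
    (c0 : Fin p) (z : Site) (hc : (c0 : ℕ) = cl p z) (R : ℚ[X])
    (hR : ∀ i, (C (R.coeff i) : ℚ[X]) ∈ (pbFil p).F 0) {n : ℕ} (hn : R.natDegree < n)
    (hMn : M + n ≤ N + 1) (j : ℕ) :
    PowerSeries.coeff j (erR e M c0 z R) ∈ (pbFil p).F ((M : ℤ) - 1 - j) :=
  erR_mem h2 h c0 z hc R hR hn hMn j

/-- **The far coefficients are integral.** -/
theorem far0_mem (M : ℕ) (c : Fin p) (s : ℕ) (c' : Fin p) (k : ℕ) :
    Dat.far0 M c s c' k ∈ (pbFil p).F 0 := by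
  unfold Dat.far0
  split_ifs with h1 h3
  · exact AddSubgroup.zero_mem _
  · have e1 : (C ((-1) ^ s * ((s + k).choose s : ℚ) *
        ((((c : ℕ) : ℚ) - ((c' : ℕ) : ℚ))⁻¹) ^ (s + k + 1)) : ℚ[X]) =
        (-1) ^ s * C (((s + k).choose s : ℕ) : ℚ) *
          C ((((c : ℕ) : ℚ) - ((c' : ℕ) : ℚ))⁻¹) ^ (s + k + 1) := by
      rw [C_mul, C_mul, C_pow, C_pow, C_neg, C_1]
    rw [e1]
    have hneg : (-1 : ℚ[X]) ∈ (pbFil p).F 0 := AddSubgroup.neg_mem _ (pbFil p).one_mem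
    exact zero_mul_mem _ (zero_mul_mem _ (pow_zero_mem _ hneg s) (C_nat_mem _))
      (pow_zero_mem _ (C_inv_sub_mem (fun h => h1 h.symm)) _)
  · exact AddSubgroup.zero_mem _

/-! ### integrality of Taylor coefficients -/

/-- Taylor coefficients at a class of a polynomial with `p`-integral coefficients -/
theorem C_taylor_mem {P : ℚ[X]} (hP : ∀ i, (C (P.coeff i) : ℚ[X]) ∈ (pbFil p).F 0) (c l : ℕ) :
    (C ((taylor (c : ℚ) P).coeff l) : ℚ[X]) ∈ (pbFil p).F 0 := by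
  have h1 : (taylor (C (c : ℚ)) (P.map C)).coeff l = C ((taylor (c : ℚ) P).coeff l) := by
    have h : taylor (C (c : ℚ)) (P.map C) = (taylor (c : ℚ) P).map (C : ℚ →+* ℚ[X]) := by
      rw [taylor_apply, taylor_apply, Polynomial.map_comp]
      simp
    rw [h, coeff_map]
  rw [← h1]
  exact P4MValZx538.taylor_coeff_mem (pbFil p) (P := P.map C) (r := C (c : ℚ))
    (fun i => by rw [coeff_map]; exact hP i) (C_nat_mem c) l

end Crest.Agent.R006.P4SideAuxx538
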