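import Mathlib

/-!
Row 6 (Catalan).  Block P4, leaf L3: THE ROW FORMULA (helper110).

Ring generic.  `L : B[X] →ₗ[B] B` is the moment functional (`L f = [s^{-1}] f ψ_∞`),
`e c` (`c < p`) the class idempotents, `T_R(x) = L (R /ₘ (X - C x))`.
For a site `x` in class `c` (all `x - c'`, `c' ≠ c`, invertible) `T_R(x)` splits as
`R(x) h_c(x) - ∑_{c' ≠ c} ∑_j L(e_{c'} (X-c')^j R) / (x-c')^(j+1) + own class term`
modulo `p^K`, and the own class term is a combination of Taylor coefficients of `R` at `c`.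
-/

set_option autoImplicit false

namespace Crest.Agent.R006.P4Row

open Polynomial Finset

section generic

variable {B : Type*} [CommRing B]

/-- `R = R(x) + (X - x) * (R /ₘ (X - x))`. -/
theorem eq_eval_add (R : B[X]) (x : B) :
    R = C (R.eval x) + (X - C x) * (R /ₘ (X - C x)) := by
  conv_lhs => rw [← modByMonic_add_div R (X - C x)]
  rw [modByMonic_X_sub_C_eq_C_eval]

/-- uniqueness of the quotient by `X - x`. -/
theorem div_unique (R Q : B[X]) (x a : B) (h : R = C a + (X - C x) * Q) :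
    R /ₘ (X - C x) = Q := by
  nontriviality B
  exact (div_modByMonic_unique (f := R) (g := X - C x) Q (C a) (monic_X_sub_C x)
    ⟨h.symm, by rw [degree_X_sub_C]; exact degree_C_le.trans_lt (by norm_num)⟩).1

/-- geometric sum: `(X - x) ∑_{j<N} u^{j+1} Y^j = u^N Y^N - 1` for `Y = X - v`, `(x - v) u = 1`. -/
theorem geom_unit (x v u : B) (hu : (x - v) * u = 1) (N : ℕ) :
    (X - C x) * ∑ j ∈ range N, C (u ^ (j + 1)) * (X - C v) ^ j = C (u ^ N) * (X - C v) ^ N - 1 := by
  have h : (X - C x : B[X]) = (X - C v) - C (x - v) := by rw [C_sub]; ring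
  induction N with
  | zero => simp
  | succ n ih =>
    rw [sum_range_succ, mul_add, ih, h]
    have hc : (C (x - v) * C u : B[X]) = 1 := by rw [← C_mul, hu, C_1]
    rw [C_pow, C_pow]
    linear_combination (-(C u ^ n * (X - C v) ^ n)) * hc

/-- the analytic function `h_c`. -/
noncomputable def hfun (p N : ℕ) (L : B[X] →ₗ[B] B) (e : ℕ → B[X]) (c : ℕ) (u : ℕ → B) : B :=
  ∑ c' ∈ (range p).erase c, ∑ j ∈ range N, u c' ^ (j + 1) * L (e c' * (X - C (c' : B)) ^ j)

/-- moment `D_{c',j}(R) = L (e_{c'} (X-c')^j R)`. -/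
noncomputable def DD (L : B[X] →ₗ[B] B) (e : ℕ → B[X]) (c' j : ℕ) (R : B[X]) : B :=
  L (e c' * ((X - C (c' : B)) ^ j * R))

/-- one class `c' ≠ c`. -/
theorem other_class (K N : ℕ) (q : B) (L : B[X] →ₗ[B] B) (ec : B[X]) (v : B)
    (herr : ∀ F : B[X], q ^ K ∣ L (ec * ((X - C v) ^ N * F)))
    (x u : B) (hu : (x - v) * u = 1) (R : B[X]) :
    q ^ K ∣ L (ec * (R /ₘ (X - C x))) -
      (R.eval x * ∑ j ∈ range N, u ^ (j + 1) * L (ec * (X - C v) ^ j) -
        ∑ j ∈ range N, u ^ (j + 1) * L (ec * ((X - C v) ^ j * R))) := by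
  set D := R /ₘ (X - C x) with hD
  have h1 : (X - C x) * D = R - C (R.eval x) := by
    have := eq_eval_add R x
    rw [← hD] at this
    linear_combination -this
  have hg := geom_unit x v u hu N
  have h2 : D = C (u ^ N) * ((X - C v) ^ N * D) -
      (R - C (R.eval x)) * ∑ j ∈ range N, C (u ^ (j + 1)) * (X - C v) ^ j := by
    rw [← h1]
    linear_combination D * hg
  have h3 : ec * D = C (u ^ N) * (ec * ((X - C v) ^ N * D)) -
      (∑ j ∈ range N, C (u ^ (j + 1)) * (ec * ((X - C v) ^ j * R)) -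
        C (R.eval x) * ∑ j ∈ range N, C (u ^ (j + 1)) * (ec * (X - C v) ^ j)) := by
    have e1 : ∑ j ∈ range N, C (u ^ (j + 1)) * (ec * ((X - C v) ^ j * R)) =
        ec * R * ∑ j ∈ range N, C (u ^ (j + 1)) * (X - C v) ^ j := by
      rw [mul_sum]; exact sum_congr rfl (fun j _ => by ring)
    have e2 : ∑ j ∈ range N, C (u ^ (j + 1)) * (ec * (X - C v) ^ j) =
        ec * ∑ j ∈ range N, C (u ^ (j + 1)) * (X - C v) ^ j := by
      rw [mul_sum]; exact sum_congr rfl (fun j _ => by ring)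
    rw [e1, e2]
    linear_combination ec * h2
  have hC : ∀ (a : B) (F : B[X]), L (C a * F) = a * L F := by
    intro a F; rw [← smul_eq_C_mul, map_smul, smul_eq_mul]
  have h4 : L (ec * D) = u ^ N * L (ec * ((X - C v) ^ N * D)) -
      (∑ j ∈ range N, u ^ (j + 1) * L (ec * ((X - C v) ^ j * R)) -
        R.eval x * ∑ j ∈ range N, u ^ (j + 1) * L (ec * (X - C v) ^ j)) := by
    rw [h3, map_sub, map_sub, hC, hC, map_sum, map_sum]
    simp only [hC]
  obtain ⟨w, hw⟩ := herr D
  refine ⟨u ^ N * w, ?_⟩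
  rw [h4, hw]; ring

/-- **row formula.** -/
theorem row_formula (p K N : ℕ) (q : B) (L : B[X] →ₗ[B] B) (e : ℕ → B[X])
    (hsum : ∑ c ∈ range p, e c = 1)
    (herr : ∀ c < p, ∀ F : B[X], q ^ K ∣ L (e c * ((X - C (c : B)) ^ N * F)))
    {c : ℕ} (hc : c < p) (x : B) (u : ℕ → B) (hu : ∀ c' < p, c' ≠ c → (x - c') * u c' = 1)
    (R : B[X]) :
    q ^ K ∣ L (R /ₘ (X - C x)) -
      (R.eval x * hfun p N L e c u -
        (∑ c' ∈ (range p).erase c, ∑ j ∈ range N, u c' ^ (j + 1) * DD L e c' j R) +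
        L (e c * (R /ₘ (X - C x)))) := by
  set D := R /ₘ (X - C x) with hD
  have h0 : L D = ∑ c' ∈ (range p).erase c, L (e c' * D) + L (e c * D) := by
    rw [sum_erase_add _ _ (mem_range.mpr hc), ← map_sum, ← sum_mul, hsum, one_mul]
  have h1 : L D - (R.eval x * hfun p N L e c u -
        (∑ c' ∈ (range p).erase c, ∑ j ∈ range N, u c' ^ (j + 1) * DD L e c' j R) +
        L (e c * D)) =
      ∑ c' ∈ (range p).erase c, (L (e c' * D) -
        (R.eval x * ∑ j ∈ range N, u c' ^ (j + 1) * L (e c' * (X - C (c' : B)) ^ j) -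
          ∑ j ∈ range N, u c' ^ (j + 1) * DD L e c' j R)) := by
    rw [h0, hfun, mul_sum, sum_sub_distrib, sum_sub_distrib]
    ring
  rw [h1]
  refine dvd_sum (fun c' hc' => ?_)
  rw [mem_erase, mem_range] at hc'
  exact other_class K N q L (e c') c' (herr c' hc'.2) x (u c') (hu c' hc'.2 hc'.1) R

/-- `(X^s - v^s)`-type quotient of a power of `Y = X - v`. -/
theorem pow_div (x v : B) (s : ℕ) :
    ((X - C v) ^ s : B[X]) /ₘ (X - C x) =
      ∑ i ∈ range s, C ((x - v) ^ i) * (X - C v) ^ (s - 1 - i) := by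
  refine div_unique _ _ x ((x - v) ^ s) ?_
  have h := (Commute.all (X - C v : B[X]) (C (x - v))).mul_geom_sum₂ s
  have e : (X - C v : B[X]) - C (x - v) = X - C x := by rw [C_sub]; ring
  rw [e] at h
  have e2 : ∑ i ∈ range s, (X - C v : B[X]) ^ i * C (x - v) ^ (s - 1 - i) =
      ∑ i ∈ range s, C ((x - v) ^ i) * (X - C v) ^ (s - 1 - i) := by
    rw [← sum_range_reflect]
    refine sum_congr rfl (fun i hi => ?_)
    rw [mem_range] at hi
    rw [show s - 1 - (s - 1 - i) = i by omega, C_pow]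
    ring
  rw [← e2, h, C_pow]; ring

theorem divX_add (P Q : B[X]) (x : B) :
    (P + Q) /ₘ (X - C x) = P /ₘ (X - C x) + Q /ₘ (X - C x) := by
  refine div_unique _ _ x (P.eval x + Q.eval x) ?_
  conv_lhs => rw [eq_eval_add P x, eq_eval_add Q x]
  rw [C_add]; ring

theorem divX_C_mul (a : B) (P : B[X]) (x : B) :
    (C a * P) /ₘ (X - C x) = C a * (P /ₘ (X - C x)) := by
  refine div_unique _ _ x (a * P.eval x) ?_
  conv_lhs => rw [eq_eval_add P x]
  rw [C_mul]; ring

theorem divX_zero (x : B) : (0 : B[X]) /ₘ (X - C x) = 0 := by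
  refine div_unique _ _ x 0 ?_
  simp

theorem divX_sum {ι : Type*} (s : Finset ι) (P : ι → B[X]) (x : B) :
    (∑ i ∈ s, P i) /ₘ (X - C x) = ∑ i ∈ s, (P i /ₘ (X - C x)) := by
  classical
  induction s using Finset.induction_on with
  | empty => simp
  | insert a s ha ih => rw [sum_insert ha, sum_insert ha, divX_add, ih]

/-- Taylor expansion at `v` as a sum. -/
theorem taylor_expand (R : B[X]) (v : B) {n : ℕ} (hn : R.natDegree < n) :
    R = ∑ s ∈ range n, C ((taylor v R).coeff s) * (X - C v) ^ s := by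
  have h := sum_taylor_eq R v
  have hdeg : (taylor v R).natDegree < n := by rwa [natDegree_taylor]
  rw [Polynomial.sum_over_range' _ (by simp) n hdeg] at h
  exact h.symm

/-- **own class term** as a combination of the Taylor coefficients of `R` at `v`. -/
theorem own_class (L : B[X] →ₗ[B] B) (ec : B[X]) (v x : B) (R : B[X]) {n : ℕ}
    (hn : R.natDegree < n) :
    L (ec * (R /ₘ (X - C x))) = ∑ s ∈ range n, (taylor v R).coeff s *
      ∑ i ∈ range s, (x - v) ^ i * L (ec * (X - C v) ^ (s - 1 - i)) := by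
  conv_lhs => rw [taylor_expand R v hn]
  rw [divX_sum, mul_sum, map_sum]
  refine sum_congr rfl (fun s _ => ?_)
  have hC : ∀ (a : B) (F : B[X]), L (C a * F) = a * L F := by
    intro a F; rw [← smul_eq_C_mul, map_smul, smul_eq_mul]
  rw [divX_C_mul, pow_div]
  have e1 : ec * (C ((taylor v R).coeff s) *
      ∑ i ∈ range s, C ((x - v) ^ i) * (X - C v) ^ (s - 1 - i)) =
      C ((taylor v R).coeff s) * ∑ i ∈ range s, C ((x - v) ^ i) *
        (ec * (X - C v) ^ (s - 1 - i)) := by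
    rw [mul_sum, mul_sum, mul_sum]
    exact sum_congr rfl (fun i _ => by ring)
  rw [e1, hC, map_sum]
  congr 1
  exact sum_congr rfl (fun i _ => by rw [hC])

/-- the moment `D_{c,j}(R)` in terms of Taylor coefficients. -/
theorem DD_expand (L : B[X] →ₗ[B] B) (e : ℕ → B[X]) (c j : ℕ) (R : B[X]) {n : ℕ}
    (hn : R.natDegree < n) :
    DD L e c j R = ∑ s ∈ range n, (taylor (c : B) R).coeff s *
      L (e c * (X - C (c : B)) ^ (j + s)) := by
  rw [DD]
  conv_lhs => rw [taylor_expand R (c : B) hn]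
  rw [mul_sum, mul_sum, map_sum]
  refine sum_congr rfl (fun s _ => ?_)
  have hC : ∀ (a : B) (F : B[X]), L (C a * F) = a * L F := by
    intro a F; rw [← smul_eq_C_mul, map_smul, smul_eq_mul]
  rw [← hC]
  congr 1
  rw [pow_add]; ring

/-- valuation of the own class coefficient, polar class. -/
theorem own_dvd_polar (K : ℕ) (q : B) (L : B[X] →ₗ[B] B) (ec : B[X]) (v x : B)
    (hb : ∀ i : ℕ, q ^ min (i - 1) K ∣ L (ec * (X - C v) ^ i)) (hx : q ∣ x - v) (s : ℕ) :
    q ^ min (s - 2) K ∣ ∑ i ∈ range s, (x - v) ^ i * L (ec * (X - C v) ^ (s - 1 - i)) := by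
  refine dvd_sum (fun i hi => ?_)
  rw [mem_range] at hi
  have h1 : q ^ i ∣ (x - v) ^ i := pow_dvd_pow_of_dvd hx i
  have h2 := hb (s - 1 - i)
  refine (pow_dvd_pow q (?_ : min (s - 2) K ≤ i + min (s - 1 - i - 1) K)).trans ?_
  · omega
  · rw [pow_add]; exact mul_dvd_mul h1 h2

/-- valuation of the own class coefficient, regular class. -/
theorem own_dvd_regular (K : ℕ) (q : B) (L : B[X] →ₗ[B] B) (ec : B[X]) (v x : B)
    (hb : ∀ i : ℕ, q ^ min (i + 2) K ∣ L (ec * (X - C v) ^ i)) (hx : q ∣ x - v) (s : ℕ) :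
    q ^ min (s + 1) K ∣ ∑ i ∈ range s, (x - v) ^ i * L (ec * (X - C v) ^ (s - 1 - i)) := by
  refine dvd_sum (fun i hi => ?_)
  rw [mem_range] at hi
  have h1 : q ^ i ∣ (x - v) ^ i := pow_dvd_pow_of_dvd hx i
  have h2 := hb (s - 1 - i)
  refine (pow_dvd_pow q (?_ : min (s + 1) K ≤ i + min (s - 1 - i + 2) K)).trans ?_
  · omega
  · rw [pow_add]; exact mul_dvd_mul h1 h2

/-! ### analytic dependence on the site -/

/-- truncated expansion of `1/(v0 + Y)` around `Y = 0`, `v0 * u0 = 1`. -/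
noncomputable def invPoly (u0 : B) (M : ℕ) : B[X] :=
  ∑ d ∈ range M, C ((-1) ^ d * u0 ^ (d + 1)) * X ^ d

theorem invPoly_eval (u0 v0 y : B) (h : v0 * u0 = 1) (M : ℕ) :
    (v0 + y) * (invPoly u0 M).eval y = 1 - (-(u0 * y)) ^ M := by
  rw [invPoly, eval_finsetSum]
  induction M with
  | zero => simp
  | succ n ih =>
    rw [sum_range_succ, mul_add, ih]
    simp only [eval_mul, eval_C, eval_pow, eval_X]
    rw [pow_succ (-(u0 * y)) n, neg_pow (u0 * y) n, mul_pow]
    linear_combination ((-1) ^ n * u0 ^ n * y ^ n) * h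

/-- powers of `u = 1/(x - c')` are polynomials in `y = x - c` modulo `q^M`. -/
theorem pow_inv_congr (q u0 v0 y u : B) (M : ℕ) (h : v0 * u0 = 1) (hu : (v0 + y) * u = 1)
    (hy : q ∣ y) (j : ℕ) :
    q ^ M ∣ u ^ (j + 1) - ((invPoly u0 M) ^ (j + 1)).eval y := by
  have h1 := invPoly_eval u0 v0 y h M
  have h2 : u - (invPoly u0 M).eval y = u * (-(u0 * y)) ^ M := by
    linear_combination ((invPoly u0 M).eval y) * hu - u * h1
  have h3 : q ^ M ∣ u - (invPoly u0 M).eval y := by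
    rw [h2]
    exact (pow_dvd_pow_of_dvd ((hy.mul_left u0).neg_right) M).mul_left u
  rw [eval_pow]
  exact h3.trans (sub_dvd_pow_sub_pow _ _ _)

/-- the analytic part: `∑_{c' ≠ c} ∑_j D_{c',j}(R) / (c - c' + Y)^(j+1)` as a polynomial in `Y`. -/
noncomputable def Apoly (p N M : ℕ) (L : B[X] →ₗ[B] B) (e : ℕ → B[X]) (c : ℕ) (u0 : ℕ → B)
    (R : B[X]) : B[X] :=
  ∑ c' ∈ (range p).erase c, ∑ j ∈ range N, C (DD L e c' j R) * (invPoly (u0 c') M) ^ (j + 1)

theorem Apoly_coeff (p N M : ℕ) (L : B[X] →ₗ[B] B) (e : ℕ → B[X]) (c : ℕ) (u0 : ℕ → B)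
    (R : B[X]) (d : ℕ) :
    (Apoly p N M L e c u0 R).coeff d = ∑ c' ∈ (range p).erase c, ∑ j ∈ range N,
      ((invPoly (u0 c') M) ^ (j + 1)).coeff d * DD L e c' j R := by
  rw [Apoly, finsetSum_coeff]
  refine sum_congr rfl (fun c' _ => ?_)
  rw [finsetSum_coeff]
  exact sum_congr rfl (fun j _ => by rw [coeff_C_mul, mul_comm])

theorem natDegree_invPoly_le (u0 : B) (M : ℕ) : (invPoly u0 M).natDegree ≤ M := by
  rw [invPoly]
  refine natDegree_sum_le_of_forall_le _ _ (fun d hd => ?_)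
  rw [mem_range] at hd
  exact (natDegree_C_mul_X_pow_le _ _).trans hd.le

theorem natDegree_Apoly_le (p N M : ℕ) (L : B[X] →ₗ[B] B) (e : ℕ → B[X]) (c : ℕ) (u0 : ℕ → B)
    (R : B[X]) : (Apoly p N M L e c u0 R).natDegree ≤ N * M := by
  rw [Apoly]
  refine natDegree_sum_le_of_forall_le _ _ (fun c' _ => ?_)
  refine natDegree_sum_le_of_forall_le _ _ (fun j hj => ?_)
  rw [mem_range] at hj
  refine (natDegree_C_mul_le _ _).trans (natDegree_pow_le.trans ?_)
  exact Nat.mul_le_mul hj (natDegree_invPoly_le _ _)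

/-- **row formula, final form**: for every site `x` of class `c`
`T_R(x) = R(x) h_c(x) - A_c(R)(x - c) + ∑_s t_s(R) ω_s(x)  mod q^K`. -/
theorem row_final (p K N : ℕ) (q : B) (L : B[X] →ₗ[B] B) (e : ℕ → B[X])
    (hsum : ∑ c ∈ range p, e c = 1)
    (herr : ∀ c < p, ∀ F : B[X], q ^ K ∣ L (e c * ((X - C (c : B)) ^ N * F)))
    {c : ℕ} (hc : c < p) (x : B) (hx : q ∣ x - c) (u0 u : ℕ → B)
    (hu0 : ∀ c' < p, c' ≠ c → ((c : B) - c') * u0 c' = 1)
    (hu : ∀ c' < p, c' ≠ c → (x - c') * u c' = 1)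
    (R : B[X]) {n : ℕ} (hn : R.natDegree < n) :
    q ^ K ∣ L (R /ₘ (X - C x)) -
      (R.eval x * hfun p N L e c u - (Apoly p N K L e c u0 R).eval (x - c) +
        ∑ s ∈ range n, (taylor (c : B) R).coeff s *
          ∑ i ∈ range s, (x - c) ^ i * L (e c * (X - C (c : B)) ^ (s - 1 - i))) := by
  have h1 := row_formula p K N q L e hsum herr hc x u hu R
  rw [own_class L (e c) (c : B) x R hn] at h1
  have h2 : q ^ K ∣ (∑ c' ∈ (range p).erase c, ∑ j ∈ range N, u c' ^ (j + 1) * DD L e c' j R) -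
      (Apoly p N K L e c u0 R).eval (x - c) := by
    rw [Apoly, eval_finsetSum, ← sum_sub_distrib]
    refine dvd_sum (fun c' hc' => ?_)
    rw [mem_erase, mem_range] at hc'
    rw [eval_finsetSum, ← sum_sub_distrib]
    refine dvd_sum (fun j _ => ?_)
    rw [eval_mul, eval_C, mul_comm (DD L e c' j R), ← sub_mul]
    refine Dvd.dvd.mul_right ?_ _
    refine pow_inv_congr q (u0 c') ((c : B) - c') (x - c) (u c') K (hu0 c' hc'.2 hc'.1) ?_ hx j
    rw [show (c : B) - c' + (x - c) = x - c' by ring]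
    exact hu c' hc'.2 hc'.1
  have h3 := dvd_sub h1 h2
  convert h3 using 1
  ring

end generic

section basechange

variable {A B : Type*} [CommRing A] [CommRing B]

/-- ring version of `PsiInf.lin`. -/
noncomputable def lin (m : ℕ → A) : A[X] →ₗ[A] A :=
  Polynomial.lsum (fun k => LinearMap.mulRight A (m k))

theorem lin_apply (m : ℕ → A) (P : A[X]) : lin m P = P.sum (fun k c => c * m k) := by
  simp [lin, Polynomial.lsum_apply]

theorem lin_eq_sum (m : ℕ → A) (P : A[X]) {n : ℕ} (hn : P.natDegree < n) :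
    lin m P = ∑ k ∈ range n, P.coeff k * m k := by
  rw [lin_apply, Polynomial.sum_over_range' P (by simp) n hn]

theorem lin_map (φ : A →+* B) (m : ℕ → A) (P : A[X]) :
    lin (fun k => φ (m k)) (P.map φ) = φ (lin m P) := by
  have h : (P.map φ).natDegree < P.natDegree + 1 := Nat.lt_succ_of_le natDegree_map_le
  rw [lin_eq_sum _ _ h, lin_eq_sum m P (Nat.lt_succ_self _), map_sum]
  exact sum_congr rfl (fun k _ => by rw [coeff_map, map_mul])

theorem DD_map (φ : A →+* B) (m : ℕ → A) (e : ℕ → A[X]) (c j : ℕ) (R : A[X]) :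
    DD (lin (fun k => φ (m k))) (fun c => (e c).map φ) c j (R.map φ) = φ (DD (lin m) e c j R) := by
  rw [DD, DD, ← lin_map]
  congr 1
  simp [Polynomial.map_mul, Polynomial.map_pow, Polynomial.map_sub]

theorem invPoly_map (φ : A →+* B) (u0 : A) (M : ℕ) :
    (invPoly u0 M).map φ = invPoly (φ u0) M := by
  simp [invPoly, Polynomial.map_sum, Polynomial.map_mul, Polynomial.map_pow]

theorem Apoly_map (φ : A →+* B) (p N M : ℕ) (m : ℕ → A) (e : ℕ → A[X]) (c : ℕ) (u0 : ℕ → A)
    (R : A[X]) :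
    Apoly p N M (lin (fun k => φ (m k))) (fun c => (e c).map φ) c (fun c' => φ (u0 c'))
      (R.map φ) = (Apoly p N M (lin m) e c u0 R).map φ := by
  rw [Apoly, Apoly, Polynomial.map_sum]
  refine sum_congr rfl (fun c' _ => ?_)
  rw [Polynomial.map_sum]
  refine sum_congr rfl (fun j _ => ?_)
  rw [DD_map, Polynomial.map_mul, Polynomial.map_pow, invPoly_map, map_C]

/-- base change of the truncation error. -/
theorem herr_map (φ : A →+* B) (m : ℕ → A) (q : A) (K : ℕ) (G : A[X])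
    (h : ∀ F : A[X], q ^ K ∣ lin m (G * F)) (F : B[X]) :
    φ q ^ K ∣ lin (fun k => φ (m k)) (G.map φ * F) := by
  have hF : G.map φ * F = ∑ i ∈ range (F.natDegree + 1), C (F.coeff i) * (G * X ^ i).map φ := by
    conv_lhs => rw [F.as_sum_range_C_mul_X_pow]
    rw [mul_sum]
    refine sum_congr rfl (fun i _ => ?_)
    rw [Polynomial.map_mul, Polynomial.map_pow, map_X]; ring
  rw [hF, map_sum]
  refine dvd_sum (fun i _ => ?_)
  rw [← smul_eq_C_mul, map_smul, smul_eq_mul, lin_map, ← map_pow]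
  exact (map_dvd φ (h (X ^ i))).mul_left _

theorem sum_e_map (φ : A →+* B) (p : ℕ) (e : ℕ → A[X]) (h : ∑ c ∈ range p, e c = 1) :
    ∑ c ∈ range p, (e c).map φ = 1 := by
  rw [← Polynomial.map_sum, h, Polynomial.map_one]

theorem X_sub_natCast_map (φ : A →+* B) (c : ℕ) :
    (X - C (c : A)).map φ = X - C (c : B) := by
  simp

end basechange

/-- **row formula for sites over an extension ring** (jets: `B = A⟦τ⟧`, `x = n + p τ`).
`L = lin m` over `A`, `φ : A → B`, `R ∈ A[X]`. All coefficients `taylor c R`, `DD`, `Apoly` live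
in `A`; only the site `x`, `h_c(x)` and the powers of `x - c` live in `B`. -/
theorem row_final_ext {A B : Type*} [CommRing A] [CommRing B] (φ : A →+* B) (p K N : ℕ) (q : A)
    (m : ℕ → A) (e : ℕ → A[X])
    (hsum : ∑ c ∈ range p, e c = 1)
    (herr : ∀ c < p, ∀ F : A[X], q ^ K ∣ lin m (e c * ((X - C (c : A)) ^ N * F)))
    {c : ℕ} (hc : c < p) (x : B) (hx : φ q ∣ x - c) (u0 : ℕ → A) (u : ℕ → B)
    (hu0 : ∀ c' < p, c' ≠ c → ((c : A) - c') * u0 c' = 1)
    (hu : ∀ c' < p, c' ≠ c → (x - c') * u c' = 1)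
    (R : A[X]) {n : ℕ} (hn : R.natDegree < n) :
    φ q ^ K ∣ lin (fun k => φ (m k)) (R.map φ /ₘ (X - C x)) -
      (R.eval₂ φ x * (∑ c' ∈ (range p).erase c, ∑ j ∈ range N,
          u c' ^ (j + 1) * φ (lin m (e c' * (X - C (c' : A)) ^ j))) -
        (Apoly p N K (lin m) e c u0 R).eval₂ φ (x - c) +
        ∑ s ∈ range n, φ ((taylor (c : A) R).coeff s) *
          ∑ i ∈ range s, (x - c) ^ i * φ (lin m (e c * (X - C (c : A)) ^ (s - 1 - i)))) := by
  have herr' : ∀ c < p, ∀ F : B[X], φ q ^ K ∣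
      lin (fun k => φ (m k)) ((e c).map φ * ((X - C (c : B)) ^ N * F)) := by
    intro c hc F
    have h := herr_map φ m q K (e c * (X - C (c : A)) ^ N)
      (fun F => by rw [mul_assoc]; exact herr c hc F) F
    rw [Polynomial.map_mul, Polynomial.map_pow, X_sub_natCast_map, mul_assoc] at h
    exact h
  have key := row_final p K N (φ q) (lin (fun k => φ (m k))) (fun c => (e c).map φ)
    (sum_e_map φ p e hsum) herr' hc x hx (fun c' => φ (u0 c')) u
    (fun c' h1 h2 => by
      have := congrArg φ (hu0 c' h1 h2)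
      simpa using this)
    hu (R.map φ) (n := n) (lt_of_le_of_lt natDegree_map_le hn)
  have hT : ∀ s, (taylor (c : B) (R.map φ)).coeff s = φ ((taylor (c : A) R).coeff s) := by
    intro s
    have : taylor (c : B) (R.map φ) = (taylor (c : A) R).map φ := by
      rw [taylor_apply, taylor_apply, Polynomial.map_comp]
      congr 1
      simp
    rw [this, coeff_map]
  have hL : ∀ (c' j : ℕ), lin (fun k => φ (m k)) ((e c').map φ * (X - C (c' : B)) ^ j) =
      φ (lin m (e c' * (X - C (c' : A)) ^ j)) := by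
    intro c' j
    rw [← lin_map, Polynomial.map_mul, Polynomial.map_pow, X_sub_natCast_map]
  rw [hfun, Apoly_map, eval_map, eval_map] at key
  simp only [hT, hL] at key
  exact key

end Crest.Agent.R006.P4Row
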