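import Mathlib
import Crest.Agent.R006.P4_Row_110

/-!
Row 6 (Catalan), block P4, leaf (L2a): the recurrence of the analytic parts `h_c` (helper830).

Ring generic.  `L : B[X] →ₗ[B] B` with the key identity `L (s^3 P(s) + (2s+1)^3 P(s+1)) = 0`,
`e c` (`c < p`) the class idempotents at level `N`, `q = p` in `B`, `J_c = (q, X - c)`.
For a site `x` in class `c` (all `x - c'`, `c' ≠ c`, invertible), `x - 1` in class `cm`,
`x^3 h_c(x) + (2x-1)^3 h_cm(x-1) = (9x+4) L(X) + 9 L(X^2) - δ(x)  mod q^K`,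
`δ(x) = L(e_c (x^2+xs+s^2)) + L(e_cm 2[(2x-1)^2+(2x-1)(2s+1)+(2s+1)^2])`,
and `q ∣ δ(x)` if `c = 0` or `2c > p`, `q^2 ∣ δ(x)` if `2c > p + 1`.
-/

set_option autoImplicit false

namespace Crest.Agent.R006.P4Hc830

open Polynomial Finset Crest.Agent.R006.P4Row

variable {B : Type*} [CommRing B]

/-- the ideal `(q, X - v)`. -/
noncomputable def J (q v : B) : Ideal B[X] := Ideal.span {C q, X - C v}

theorem C_mem_J (q v : B) : C q ∈ J q v := Ideal.subset_span (by simp)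

theorem X_sub_mem_J (q v : B) : X - C v ∈ J q v := Ideal.subset_span (by simp)

theorem J_le (q v v' : B) (h : q ∣ v - v') : J q v ≤ J q v' := by
  obtain ⟨k, hk⟩ := h
  rw [J, Ideal.span_le]
  intro f hf
  simp only [Set.mem_insert_iff, Set.mem_singleton_iff] at hf
  rcases hf with rfl | rfl
  · exact C_mem_J q v'
  · have : (X - C v : B[X]) = (X - C v') - C k * C q := by
      have h2 : v = v' + q * k := by linear_combination hk
      rw [h2, C_add, C_mul]; ring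
    rw [this]
    exact Ideal.sub_mem _ (X_sub_mem_J q v') (Ideal.mul_mem_left _ _ (C_mem_J q v'))

theorem J_congr (q v v' : B) (h : q ∣ v - v') : J q v = J q v' :=
  le_antisymm (J_le q v v' h) (J_le q v' v (by rw [← neg_sub]; exact h.neg_right))

/-- the shift `s ↦ s + 1` maps `J_v^N` into `J_{v-1}^N`. -/
theorem comp_mem (q v : B) (N : ℕ) (f : B[X]) (h : f ∈ J q v ^ N) :
    f.comp (X + 1) ∈ J q (v - 1) ^ N := by
  have h1 : (J q v).map (compRingHom (X + 1 : B[X])) ≤ J q (v - 1) := by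
    rw [J, Ideal.map_span, Ideal.span_le]
    rintro g ⟨f, hf, rfl⟩
    simp only [Set.mem_insert_iff, Set.mem_singleton_iff] at hf
    rcases hf with rfl | rfl
    · simp only [coe_compRingHom, C_comp]; exact C_mem_J q (v - 1)
    · have : (compRingHom (X + 1 : B[X])) (X - C v) = X - C (v - 1) := by
        simp only [coe_compRingHom, sub_comp, X_comp, C_comp, C_sub, C_1]; ring
      rw [this]
      exact X_sub_mem_J q (v - 1)
  have h2 := Ideal.mem_map_of_mem (compRingHom (X + 1 : B[X])) h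
  rw [Ideal.map_pow] at h2
  exact (Ideal.pow_right_mono h1 N) h2

theorem comp_mem' (q v v' : B) (hv : q ∣ (v - 1) - v') (N : ℕ) (f : B[X]) (h : f ∈ J q v ^ N) :
    f.comp (X + 1) ∈ J q v' ^ N := by
  rw [← J_congr q (v - 1) v' hv]
  exact comp_mem q v N f h

/-- one class of the truncated inverse of `x - s`. -/
noncomputable def G (N : ℕ) (v u : B) : B[X] := ∑ j ∈ range N, C (u ^ (j + 1)) * (X - C v) ^ j

theorem G_mul (N : ℕ) (x v u : B) (hu : (x - v) * u = 1) :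
    (X - C x) * G N v u = C (u ^ N) * (X - C v) ^ N - 1 := geom_unit x v u hu N

/-- the truncated inverse of `x - s` off the class `c`. -/
noncomputable def PP (p N : ℕ) (e : ℕ → B[X]) (c : ℕ) (u : ℕ → B) : B[X] :=
  ∑ c' ∈ (range p).erase c, e c' * G N (c' : B) (u c')

theorem L_C_mul (L : B[X] →ₗ[B] B) (a : B) (F : B[X]) : L (C a * F) = a * L F := by
  rw [← smul_eq_C_mul, map_smul, smul_eq_mul]

theorem hfun_eq (p N : ℕ) (L : B[X] →ₗ[B] B) (e : ℕ → B[X]) (c : ℕ) (u : ℕ → B) :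
    hfun p N L e c u = L (PP p N e c u) := by
  rw [hfun, PP, map_sum]
  refine sum_congr rfl (fun c' _ => ?_)
  rw [G, mul_sum, map_sum]
  refine sum_congr rfl (fun j _ => ?_)
  rw [← L_C_mul]; congr 1; ring

/-- the error polynomial. -/
noncomputable def Er (p N : ℕ) (e : ℕ → B[X]) (c : ℕ) (u : ℕ → B) : B[X] :=
  ∑ c' ∈ (range p).erase c, C (u c' ^ N) * (e c' * (X - C (c' : B)) ^ N)

theorem PP_mul {p N : ℕ} {e : ℕ → B[X]} (hsum : ∑ c ∈ range p, e c = 1) {c : ℕ} (hc : c < p)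
    (x : B) (u : ℕ → B) (hu : ∀ c' < p, c' ≠ c → (x - c') * u c' = 1) :
    (X - C x) * PP p N e c u = -(1 - e c) + Er p N e c u := by
  have h1 : ∑ c' ∈ (range p).erase c, e c' = 1 - e c := by
    rw [← hsum, ← sum_erase_add _ _ (mem_range.mpr hc)]; ring
  rw [← h1, PP, Er, mul_sum, ← sum_neg_distrib, ← sum_add_distrib]
  refine sum_congr rfl (fun c' hc' => ?_)
  rw [mem_erase, mem_range] at hc'
  have := G_mul N x (c' : B) (u c') (hu c' hc'.2 hc'.1)
  linear_combination (e c') * this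

theorem PP_mem {q : B} {p N : ℕ} {e : ℕ → B[X]} {c : ℕ} (hc : c < p) (u : ℕ → B)
    (hJ : ∀ a < p, ∀ b < p, a ≠ b → e a ∈ J q (b : B) ^ N) :
    PP p N e c u ∈ J q (c : B) ^ N := by
  refine Ideal.sum_mem _ (fun c' hc' => ?_)
  rw [mem_erase, mem_range] at hc'
  exact Ideal.mul_mem_right _ _ (hJ c' hc'.2 c hc hc'.1)

theorem Er_mem {q : B} {p N : ℕ} {e : ℕ → B[X]} {c : ℕ} (u : ℕ → B)
    (hJ : ∀ a < p, ∀ b < p, a ≠ b → e a ∈ J q (b : B) ^ N) (b : ℕ) (hb : b < p) :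
    Er p N e c u ∈ J q (b : B) ^ N := by
  refine Ideal.sum_mem _ (fun c' hc' => Ideal.mul_mem_left _ _ ?_)
  rw [mem_erase, mem_range] at hc'
  by_cases h : c' = b
  · subst h
    exact Ideal.mul_mem_left _ _ (Ideal.pow_mem_pow (X_sub_mem_J q (c' : B)) N)
  · exact Ideal.mul_mem_right _ _ (hJ c' hc'.2 b hb h)

/-- `cm` is the class of `x - 1` if `c` is the class of `x`. -/
def Pred (p c cm : ℕ) : Prop := cm + 1 = c ∨ (c = 0 ∧ cm + 1 = p)

/-- shift compatibility of the truncated inverses. -/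
theorem shift_mem {p N : ℕ} {e : ℕ → B[X]} (hsum : ∑ c ∈ range p, e c = 1)
    (hJ : ∀ a < p, ∀ b < p, a ≠ b → e a ∈ J (p : B) (b : B) ^ N)
    {c cm : ℕ} (hc : c < p) (hcm : cm < p) (hpred : Pred p c cm)
    (x : B) (u u' : ℕ → B) (hu : ∀ c' < p, c' ≠ c → (x - c') * u c' = 1)
    (hu' : ∀ c' < p, c' ≠ cm → (x - 1 - c') * u' c' = 1) (b : ℕ) (hb : b < p) :
    (PP p N e c u).comp (X + 1) - PP p N e cm u' ∈ J (p : B) (b : B) ^ N := by
  set q : B := (p : B) with hq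
  by_cases hbc : b = cm
  · subst hbc
    refine Ideal.sub_mem _ ?_ (PP_mem hb u' hJ)
    refine comp_mem' q (c : B) (b : B) ?_ N _ (PP_mem hc u hJ)
    rcases hpred with h | ⟨h, h'⟩
    · subst h; push_cast; simp
    · subst h
      rw [hq, ← h']; push_cast
      exact ⟨-1, by ring⟩
  · -- `a` the class of `b + 1`
    obtain ⟨a, ha, hac, hab⟩ : ∃ a, a < p ∧ a ≠ c ∧ q ∣ ((a : B) - 1) - b := by
      by_cases hbp : b + 1 < p
      · refine ⟨b + 1, hbp, ?_, by push_cast; simp⟩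
        rcases hpred with h | ⟨h, h'⟩ <;> omega
      · refine ⟨0, by omega, ?_, ?_⟩
        · rcases hpred with h | ⟨h, h'⟩
          · omega
          · intro _; apply hbc; omega
        · have : b + 1 = p := by omega
          rw [hq, ← this]; push_cast
          exact ⟨-1, by ring⟩
    set D := (PP p N e c u).comp (X + 1) - PP p N e cm u' with hD
    have e1 := PP_mul (N := N) hsum hc x u hu
    have e2 := PP_mul (N := N) hsum hcm (x - 1) u' (by
      intro c' h1 h2; exact hu' c' h1 h2)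
    have e1' := congrArg (fun f : B[X] => f.comp (X + 1)) e1
    simp only [mul_comp, sub_comp, add_comp, neg_comp, X_comp, C_comp, one_comp] at e1'
    have hXx : (X + 1 - C x : B[X]) = X - C (x - 1) := by rw [C_sub, C_1]; ring
    rw [hXx] at e1'
    have e3 : (X - C (x - 1)) * D = (e c).comp (X + 1) - e cm + (Er p N e c u).comp (X + 1)
        - Er p N e cm u' := by
      rw [hD, mul_sub, e1', e2]; ring
    have m1 : (X - C (x - 1)) * D ∈ J q (b : B) ^ N := by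
      rw [e3]
      refine Ideal.sub_mem _ (Ideal.add_mem _ (Ideal.sub_mem _ ?_ ?_) ?_) ?_
      · exact comp_mem' q (a : B) (b : B) hab N _ (hJ c hc a ha (Ne.symm hac))
      · exact hJ cm hcm b hb (Ne.symm hbc)
      · exact comp_mem' q (a : B) (b : B) hab N _ (Er_mem u hJ a ha)
      · exact Er_mem u' hJ b hb
    have e4 := G_mul N (x - 1) (b : B) (u' b) (hu' b hb hbc)
    have e5 : D = C (u' b ^ N) * D * (X - C (b : B)) ^ N
        - G N (b : B) (u' b) * ((X - C (x - 1)) * D) := by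
      linear_combination D * e4
    rw [e5]
    exact Ideal.sub_mem _ (Ideal.mul_mem_left _ _ (Ideal.pow_mem_pow (X_sub_mem_J q _) N))
      (Ideal.mul_mem_left _ _ m1)

/-- the two quadratic factors. -/
noncomputable def F1 (x : B) : B[X] := C x ^ 2 + C x * X + X ^ 2

noncomputable def F2 (x : B) : B[X] :=
  2 * (C (2 * x - 1) ^ 2 + C (2 * x - 1) * (2 * X + 1) + (2 * X + 1) ^ 2)

/-- `δ(x)`. -/
noncomputable def delta (L : B[X] →ₗ[B] B) (e : ℕ → B[X]) (c cm : ℕ) (x : B) : B :=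
  L (e c * F1 x) + L (e cm * F2 x)

/-- **(L2a), first form**. -/
theorem hfun_rec0 {p K N : ℕ} {L : B[X] →ₗ[B] B}
    (hkey : ∀ P : B[X], L (X ^ 3 * P + (2 * X + 1) ^ 3 * P.comp (X + 1)) = 0)
    {e : ℕ → B[X]} (hsum : ∑ c ∈ range p, e c = 1)
    (hJ : ∀ a < p, ∀ b < p, a ≠ b → e a ∈ J (p : B) (b : B) ^ N)
    (herr : ∀ F : B[X], (∀ b < p, F ∈ J (p : B) (b : B) ^ N) → (p : B) ^ K ∣ L F)
    {c cm : ℕ} (hc : c < p) (hcm : cm < p) (hpred : Pred p c cm)
    (x : B) (u u' : ℕ → B) (hu : ∀ c' < p, c' ≠ c → (x - c') * u c' = 1)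
    (hu' : ∀ c' < p, c' ≠ cm → (x - 1 - c') * u' c' = 1) :
    (p : B) ^ K ∣ x ^ 3 * hfun p N L e c u + (2 * x - 1) ^ 3 * hfun p N L e cm u'
      - (L (F1 x + F2 x) - delta L e c cm x) := by
  set P := PP p N e c u with hP
  set P' := PP p N e cm u' with hP'
  have e1 := PP_mul (N := N) hsum hc x u hu
  have e2 := PP_mul (N := N) hsum hcm (x - 1) u' hu'
  rw [← hP] at e1
  rw [← hP'] at e2
  have k1 := hkey P
  have d1 : (p : B) ^ K ∣ L (F1 x * Er p N e c u) :=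
    herr _ (fun b hb => Ideal.mul_mem_left _ _ (Er_mem u hJ b hb))
  have d2 : (p : B) ^ K ∣ L (F2 x * Er p N e cm u') :=
    herr _ (fun b hb => Ideal.mul_mem_left _ _ (Er_mem u' hJ b hb))
  have d3 : (p : B) ^ K ∣ L ((2 * X + 1) ^ 3 * (P.comp (X + 1) - P')) :=
    herr _ (fun b hb => Ideal.mul_mem_left _ _
      (shift_mem hsum hJ hc hcm hpred x u u' hu hu' b hb))
  have f1 : C (x ^ 3) * P = X ^ 3 * P + (1 - e c) * F1 x - F1 x * Er p N e c u := by
    have h : (X ^ 3 - C (x ^ 3) : B[X]) = (X - C x) * F1 x := by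
      rw [F1, C_pow]; ring
    have : C (x ^ 3) * P = X ^ 3 * P - F1 x * ((X - C x) * P) := by
      linear_combination (-P) * h
    rw [this, e1]; ring
  have f2 : C ((2 * x - 1) ^ 3) * P' = (2 * X + 1) ^ 3 * P' + (1 - e cm) * F2 x
      - F2 x * Er p N e cm u' := by
    have h : ((2 * X + 1) ^ 3 - C ((2 * x - 1) ^ 3) : B[X]) = (X - C (x - 1)) * F2 x := by
      simp only [F2, C_pow, C_sub, C_mul, C_1, C_ofNat]; ring
    have : C ((2 * x - 1) ^ 3) * P' = (2 * X + 1) ^ 3 * P' - F2 x * ((X - C (x - 1)) * P') := by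
      linear_combination (-P') * h
    rw [this, e2]; ring
  have g1 : x ^ 3 * L P + (2 * x - 1) ^ 3 * L P' =
      L (F1 x + F2 x) - delta L e c cm x - L (F1 x * Er p N e c u)
        - L (F2 x * Er p N e cm u') - L ((2 * X + 1) ^ 3 * (P.comp (X + 1) - P')) := by
    rw [← L_C_mul, ← L_C_mul, f1, f2, delta]
    have k2 : L (X ^ 3 * P) = - L ((2 * X + 1) ^ 3 * P.comp (X + 1)) := by
      rw [map_add] at k1; exact eq_neg_of_add_eq_zero_left k1
    rw [map_sub, map_add, map_sub, map_add, k2, map_add, mul_sub, map_sub, sub_mul, sub_mul,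
      one_mul, one_mul, map_sub, map_sub]
    ring
  rw [hfun_eq, hfun_eq, ← hP, ← hP', g1]
  have : L (F1 x + F2 x) - delta L e c cm x - L (F1 x * Er p N e c u)
        - L (F2 x * Er p N e cm u') - L ((2 * X + 1) ^ 3 * (P.comp (X + 1) - P'))
        - (L (F1 x + F2 x) - delta L e c cm x) =
      -(L (F1 x * Er p N e c u) + L (F2 x * Er p N e cm u')
        + L ((2 * X + 1) ^ 3 * (P.comp (X + 1) - P'))) := by ring
  rw [this]
  exact (dvd_add (dvd_add d1 d2) d3).neg_right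

theorem L_F12 (L : B[X] →ₗ[B] B) (h0 : L 1 = 0) (x : B) :
    L (F1 x + F2 x) = (9 * x + 4) * L X + 9 * L (X ^ 2) := by
  have : (F1 x + F2 x : B[X]) = C (x ^ 2 + 2 * ((2 * x - 1) ^ 2 + (2 * x - 1) + 1)) * 1
      + C (9 * x + 4) * X + C 9 * X ^ 2 := by
    simp only [F1, F2, C_pow, C_sub, C_mul, C_add, C_1, C_ofNat]; ring
  rw [this, map_add, map_add, L_C_mul, L_C_mul, L_C_mul, h0]; ring

/-! ### bounds of `δ` -/

theorem F1_mem (q x : B) (hx : q ∣ x) : F1 x ∈ J q 0 ^ 2 := by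
  have hX : (X : B[X]) ∈ J q 0 := by simpa using X_sub_mem_J q (0 : B)
  have hC : (C x : B[X]) ∈ J q 0 := by
    obtain ⟨k, rfl⟩ := hx
    rw [C_mul, mul_comm]; exact Ideal.mul_mem_left _ _ (C_mem_J q 0)
  rw [F1]
  refine Ideal.add_mem _ (Ideal.add_mem _ (Ideal.pow_mem_pow hC 2) ?_) (Ideal.pow_mem_pow hX 2)
  rw [pow_two]; exact Ideal.mul_mem_mul hC hX

theorem F2_mem (q x v : B) (hx : q ∣ 2 * x - 1) (hv : q ∣ 2 * v + 1) : F2 x ∈ J q v ^ 2 := by
  have hX : (2 * X + 1 : B[X]) ∈ J q v := by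
    obtain ⟨k, hk⟩ := hv
    have : (2 * X + 1 : B[X]) = C 2 * (X - C v) + C k * C q := by
      have h2 : (1 : B) = q * k - 2 * v := by linear_combination hk
      rw [← C_1, h2]
      simp only [C_sub, C_mul, C_ofNat]; ring
    rw [this]
    exact Ideal.add_mem _ (Ideal.mul_mem_left _ _ (X_sub_mem_J q v))
      (Ideal.mul_mem_left _ _ (C_mem_J q v))
  have hC : (C (2 * x - 1) : B[X]) ∈ J q v := by
    obtain ⟨k, hk⟩ := hx
    rw [hk, C_mul, mul_comm]; exact Ideal.mul_mem_left _ _ (C_mem_J q v)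
  rw [F2]
  refine Ideal.mul_mem_left _ _ ?_
  refine Ideal.add_mem _ (Ideal.add_mem _ (Ideal.pow_mem_pow hC 2) ?_) (Ideal.pow_mem_pow hX 2)
  rw [pow_two]; exact Ideal.mul_mem_mul hC hX

/-- `q ∣ δ(x)` for the class `0` and for the regular classes. -/
theorem delta_dvd {p : ℕ} {L : B[X] →ₗ[B] B} {e : ℕ → B[X]}
    (hpol : ∀ c < p, 2 * c < p → ∀ F ∈ J (p : B) (c : B) ^ 2, (p : B) ∣ L (e c * F))
    (hreg : ∀ c < p, p < 2 * c → ∀ F : B[X], (p : B) ^ 2 ∣ L (e c * F))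
    (hp2 : p % 2 = 1) (hp3 : 3 ≤ p)
    {c cm : ℕ} (hc : c < p) (hcm : cm < p) (hpred : Pred p c cm) (x : B)
    (hx : (p : B) ∣ x - c) (h : c = 0 ∨ p < 2 * c) : (p : B) ∣ delta L e c cm x := by
  have hsq : ∀ y : B, (p : B) ^ 2 ∣ y → (p : B) ∣ y := fun y hy =>
    (dvd_pow_self _ (by norm_num)).trans hy
  rw [delta]
  rcases h with h | h
  · subst h
    have hx0 : (p : B) ∣ x := by simpa using hx
    refine dvd_add (hpol 0 hc (by omega) _ ?_) (hsq _ (hreg cm hcm ?_ _))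
    · rw [Nat.cast_zero]; exact F1_mem _ x hx0
    · rcases hpred with h | ⟨_, h⟩ <;> omega
  · refine dvd_add (hsq _ (hreg c hc h _)) ?_
    have hcm1 : cm + 1 = c := by
      rcases hpred with h' | ⟨h', _⟩
      · exact h'
      · omega
    by_cases hr : p < 2 * cm
    · exact hsq _ (hreg cm hcm hr _)
    · refine hpol cm hcm (by omega) _ (F2_mem _ x _ ?_ ?_)
      · obtain ⟨k, hk⟩ := hx
        have h2 : ((2 * c : ℕ) : B) = ((p + 1 : ℕ) : B) := by congr 1; omega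
        push_cast at h2
        exact ⟨2 * k + 1, by linear_combination 2 * hk + h2⟩
      · have h2 : ((2 * cm + 1 : ℕ) : B) = ((p : ℕ) : B) := by congr 1; omega
        push_cast at h2
        rw [h2]

theorem delta_dvd_sq {p : ℕ} {L : B[X] →ₗ[B] B} {e : ℕ → B[X]}
    (hreg : ∀ c < p, p < 2 * c → ∀ F : B[X], (p : B) ^ 2 ∣ L (e c * F))
    {c cm : ℕ} (hc : c < p) (hcm : cm < p) (hpred : Pred p c cm) (x : B)
    (h : p + 2 < 2 * c) : (p : B) ^ 2 ∣ delta L e c cm x := by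
  rw [delta]
  refine dvd_add (hreg c hc (by omega) _) (hreg cm hcm ?_ _)
  rcases hpred with h' | ⟨h', _⟩ <;> omega

/-- **(L2a)**: the recurrence of `h_c` with a right hand side `δ'` which has the bounds
needed for the chains of (L2b). -/
theorem hfun_rec {p K N : ℕ} {L : B[X] →ₗ[B] B}
    (hkey : ∀ P : B[X], L (X ^ 3 * P + (2 * X + 1) ^ 3 * P.comp (X + 1)) = 0)
    (h0 : L 1 = 0)
    {e : ℕ → B[X]} (hsum : ∑ c ∈ range p, e c = 1)
    (hJ : ∀ a < p, ∀ b < p, a ≠ b → e a ∈ J (p : B) (b : B) ^ N)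
    (herr : ∀ F : B[X], (∀ b < p, F ∈ J (p : B) (b : B) ^ N) → (p : B) ^ K ∣ L F)
    (hpol : ∀ c < p, 2 * c < p → ∀ F ∈ J (p : B) (c : B) ^ 2, (p : B) ∣ L (e c * F))
    (hreg : ∀ c < p, p < 2 * c → ∀ F : B[X], (p : B) ^ 2 ∣ L (e c * F))
    (hp2 : p % 2 = 1) (hp3 : 3 ≤ p) (hK : 2 ≤ K)
    {c cm : ℕ} (hc : c < p) (hcm : cm < p) (hpred : Pred p c cm)
    (x : B) (hx : (p : B) ∣ x - c) (u u' : ℕ → B)
    (hu : ∀ c' < p, c' ≠ c → (x - c') * u c' = 1)
    (hu' : ∀ c' < p, c' ≠ cm → (x - 1 - c') * u' c' = 1) :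
    ∃ δ' : B, x ^ 3 * hfun p N L e c u + (2 * x - 1) ^ 3 * hfun p N L e cm u'
        = (9 * x + 4) * L X + 9 * L (X ^ 2) - δ' ∧
      (p : B) ^ K ∣ δ' - delta L e c cm x ∧
      ((c = 0 ∨ p < 2 * c) → (p : B) ∣ δ') ∧ (p + 2 < 2 * c → (p : B) ^ 2 ∣ δ') := by
  obtain ⟨k, hk⟩ := hfun_rec0 hkey hsum hJ herr hc hcm hpred x u u' hu hu'
  rw [L_F12 L h0] at hk
  have hK1 : (p : B) ∣ (p : B) ^ K := dvd_pow_self _ (by omega)
  have hK2 : (p : B) ^ 2 ∣ (p : B) ^ K := pow_dvd_pow _ hK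
  refine ⟨delta L e c cm x - (p : B) ^ K * k, by linear_combination hk,
    ⟨-k, by ring⟩, fun h => ?_, fun h => ?_⟩
  · exact dvd_sub (delta_dvd hpol hreg hp2 hp3 hc hcm hpred x hx h) (hK1.mul_right k)
  · exact dvd_sub (delta_dvd_sq hreg hc hcm hpred x h) (hK2.mul_right k)

end Crest.Agent.R006.P4Hc830
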