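import Mathlib

/-!
Row 6, block P4, local input (L1) for `p ≥ 5`: structure of the moment functional of `ψ_∞`.

`L : O[X] →ₗ[O] O` is the functional `P ↦ [s^{-1}] (P ψ_∞)`; it is characterised by the key identity
`L (X^3 P + (2X+1)^3 P(X+1)) = 0` and the three values `L 1 = 0`, `L X = -1/6`, `L X² = 7/54`.
-/

set_option autoImplicit false

namespace Crest.Agent.R006.LemL255

open Polynomial Finset

variable {O : Type*} [CommRing O]

/-- the moment functional of `ψ_∞` -/
structure IsMom (L : O[X] →ₗ[O] O) : Prop where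
  key : ∀ P : O[X], L (X ^ 3 * P + (2 * X + 1) ^ 3 * P.comp (X + 1)) = 0
  m0 : L 1 = 0
  m1 : 6 * L X = -1
  m2 : 54 * L (X ^ 2) = 7

lemma L_eq_sum (L : O[X] →ₗ[O] O) (G : O[X]) (n : ℕ) (h : G.natDegree < n) :
    L G = ∑ i ∈ range n, G.coeff i * L (X ^ i) := by
  conv_lhs => rw [G.as_sum_range' n h]
  rw [map_sum]
  refine sum_congr rfl fun i _ => ?_
  rw [← smul_X_eq_monomial, map_smul, smul_eq_mul]

lemma natDegree_lin_le : (2 * X + 1 : O[X]).natDegree ≤ 1 := by
  compute_degree

lemma natDegree_Xp1_le : (X + 1 : O[X]).natDegree ≤ 1 := by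
  compute_degree

lemma eq_zero_of_key (h3 : IsUnit (3 : O)) (D : O[X] →ₗ[O] O)
    (key : ∀ P : O[X], D (X ^ 3 * P + (2 * X + 1) ^ 3 * P.comp (X + 1)) = 0)
    (h0 : D 1 = 0) (h1 : D X = 0) (h2 : D (X ^ 2) = 0) : D = 0 := by
  have h9 : IsUnit (9 : O) := by
    have : (9 : O) = 3 * 3 := by norm_num
    rw [this]; exact h3.mul h3
  have hm : ∀ m : ℕ, D (X ^ m) = 0 := by
    intro m
    induction m using Nat.strong_induction_on with
    | _ m ih =>
      rcases Nat.lt_or_ge m 3 with hm | hm
      · interval_cases m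
        · simpa using h0
        · simpa using h1
        · exact h2
      · obtain ⟨k, rfl⟩ := Nat.exists_eq_add_of_le hm
        set G : O[X] := X ^ 3 * X ^ k + (2 * X + 1) ^ 3 * (X + 1) ^ k with hG
        have hkey := key (X ^ k)
        have hc : (X ^ k : O[X]).comp (X + 1) = (X + 1) ^ k := by simp
        rw [hc, ← hG] at hkey
        have hd1 : ((2 * X + 1 : O[X]) ^ 3).natDegree ≤ 3 := by
          have := natDegree_pow_le_of_le 3 (natDegree_lin_le (O := O))
          simpa using this
        have hd2 : ((X + 1 : O[X]) ^ k).natDegree ≤ k := by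
          have := natDegree_pow_le_of_le k (natDegree_Xp1_le (O := O))
          simpa using this
        have hdeg : G.natDegree < 3 + k + 1 := by
          have e1 : (X ^ 3 * X ^ k : O[X]).natDegree ≤ 3 + k := by
            rw [← pow_add]; exact natDegree_X_pow_le _
          have e2 : ((2 * X + 1 : O[X]) ^ 3 * (X + 1) ^ k).natDegree ≤ 3 + k :=
            natDegree_mul_le_of_le hd1 hd2
          have := natDegree_add_le_of_degree_le e1 e2
          rw [hG]; omega
        have hco : G.coeff (3 + k) = 9 := by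
          rw [hG, coeff_add, ← pow_add, coeff_X_pow, coeff_mul_add_eq_of_natDegree_le hd1 hd2]
          have c1 : ((2 * X + 1 : O[X]) ^ 3).coeff 3 = 8 := by
            have := coeff_pow_of_natDegree_le (m := 3) (natDegree_lin_le (O := O))
            rw [show (3 : ℕ) * 1 = 3 from rfl] at this
            rw [this]
            have : (2 * X + 1 : O[X]).coeff 1 = 2 := by
              rw [show (2 : O[X]) = C 2 from rfl]
              simp [coeff_one]
            rw [this]; norm_num
          have c2 : ((X + 1 : O[X]) ^ k).coeff k = 1 := by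
            have := coeff_pow_of_natDegree_le (m := k) (natDegree_Xp1_le (O := O))
            rw [mul_one] at this
            rw [this]
            simp [coeff_one]
          rw [c1, c2]; norm_num
        rw [L_eq_sum D G _ hdeg, sum_range_succ, hco] at hkey
        have hz : ∑ i ∈ range (3 + k), G.coeff i * D (X ^ i) = 0 := by
          refine sum_eq_zero fun i hi => ?_
          rw [ih i (mem_range.mp hi), mul_zero]
        rw [hz, zero_add] at hkey
        exact (h9.mul_right_eq_zero).mp hkey
  refine LinearMap.ext fun F => ?_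
  rw [L_eq_sum D F _ (Nat.lt_succ_self _), LinearMap.zero_apply]
  exact sum_eq_zero fun i _ => by rw [hm i, mul_zero]

/-! ### residues -/

section Res

variable {R : Type*} [CommRing R]

lemma coeff_comp_X_add_C (F : R[X]) (a : R) (n k : ℕ) (h : F.natDegree < n) :
    (F.comp (X + C a)).coeff k = ∑ i ∈ range n, F.coeff i * (a ^ (i - k) * (i.choose k : R)) := by
  conv_lhs => rw [F.as_sum_range' n h]
  rw [Polynomial.sum_comp, finsetSum_coeff]
  refine sum_congr rfl fun i _ => ?_
  rw [monomial_comp, coeff_C_mul, coeff_X_add_C_pow]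

lemma coeff_comp_top (F : R[X]) (a : R) (n : ℕ) (h : F.natDegree ≤ n) :
    (F.comp (X + C a)).coeff n = F.coeff n := by
  rw [coeff_comp_X_add_C F a (n + 1) n (by omega), sum_range_succ]
  rw [sum_eq_zero, zero_add]
  · simp
  · intro i hi
    rw [Nat.choose_eq_zero_of_lt (mem_range.mp hi)]
    simp

lemma coeff_comp_pred (F : R[X]) (a : R) (n : ℕ) (h : F.natDegree ≤ n + 1) :
    (F.comp (X + C a)).coeff n = F.coeff n + (n + 1) * a * F.coeff (n + 1) := by
  rw [coeff_comp_X_add_C F a (n + 2) n (by omega), sum_range_succ, sum_range_succ]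
  rw [sum_eq_zero, zero_add]
  · simp
    ring
  · intro i hi
    rw [Nat.choose_eq_zero_of_lt (mem_range.mp hi)]
    simp

/-- `res D F` = coefficient of `s^{-1}` of `F / D` (`D` monic). -/
noncomputable def res (D : R[X]) : R[X] →ₗ[R] R :=
  (lcoeff R (D.natDegree - 1)) ∘ₗ (modByMonicHom D)

lemma res_apply (D F : R[X]) : res D F = (F %ₘ D).coeff (D.natDegree - 1) := rfl

lemma res_mul_self (D : R[X]) (hD : D.Monic) (F : R[X]) : res D (D * F) = 0 := by
  rw [res_apply, (modByMonic_eq_zero_iff_dvd hD).2 (dvd_mul_right _ _), coeff_zero]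

lemma res_of_lt (D F : R[X]) (hD : D.Monic) (h : F.degree < D.degree) :
    res D F = F.coeff (D.natDegree - 1) := by
  nontriviality R
  rw [res_apply, (modByMonic_eq_self_iff hD).2 h]

lemma res_shift (D : R[X]) (hD : D.Monic) (a : R) (hs : D.comp (X + C a) = D)
    (hpos : 0 < D.natDegree) (F : R[X]) : res D (F.comp (X + C a)) = res D F := by
  nontriviality R
  have h1 : F %ₘ D + D * (F /ₘ D) = F := modByMonic_add_div F D
  have hne : D ≠ 1 := by
    intro h; rw [h] at hpos; simp at hpos
  have hlt : (F %ₘ D).natDegree < D.natDegree := natDegree_modByMonic_lt F hD hne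
  have h2 : (F %ₘ D).comp (X + C a) + D * (F /ₘ D).comp (X + C a) = F.comp (X + C a) := by
    conv_rhs => rw [← h1]
    rw [add_comp, mul_comp, hs]
  have hnd : ((F %ₘ D).comp (X + C a)).natDegree < D.natDegree := by
    have h3 := natDegree_comp_le (p := F %ₘ D) (q := X + C a)
    have h4 : (X + C a : R[X]).natDegree ≤ 1 := by compute_degree
    have h5 : (F %ₘ D).natDegree * (X + C a : R[X]).natDegree ≤ (F %ₘ D).natDegree * 1 :=
      Nat.mul_le_mul_left _ h4
    omega
  have h3 := (div_modByMonic_unique _ _ hD ⟨h2, degree_lt_degree hnd⟩).2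
  rw [res_apply, h3, res_apply, coeff_comp_top _ _ _ (by omega)]

end Res

end Crest.Agent.R006.LemL255
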