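import Mathlib
import Crest.Agent.R006.P4_LemA_255

/-!
Row 6, block P4: base case `L (θ² Q) = 0` in characteristic `p`.
-/

set_option autoImplicit false

namespace Crest.Agent.R006.LemL255

open Polynomial Finset

/-- `θ = X (X-1) ... (X-p+1)` -/
noncomputable def theta (R : Type*) [CommRing R] (p : ℕ) : R[X] := ∏ i ∈ range p, (X - C (i : R))

lemma prod_range_shift_one {M : Type*} [CommMonoid M] (f : ℕ → M) (p : ℕ) (hf : f p = f 0) :
    ∏ i ∈ range p, f (i + 1) = ∏ i ∈ range p, f i := by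
  cases p with
  | zero => simp
  | succ q => rw [prod_range_succ, hf, prod_range_succ']

lemma prod_range_shift {M : Type*} [CommMonoid M] (f : ℕ → M) (p : ℕ) (hf : ∀ i, f (i + p) = f i)
    (a : ℕ) : ∏ i ∈ range p, f (i + a) = ∏ i ∈ range p, f i := by
  induction a with
  | zero => simp
  | succ a ih =>
    rw [← ih]
    have := prod_range_shift_one (fun i => f (i + a)) p (by
      show f (p + a) = f (0 + a)
      rw [Nat.zero_add, Nat.add_comm p a]; exact hf a)
    rw [← this]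
    refine prod_congr rfl fun i _ => ?_
    congr 1; ring

section CharP

variable {R : Type*} [CommRing R] {p : ℕ} (hp0 : (p : R) = 0)

include hp0

lemma theta_eq_poch : theta R p = ∏ i ∈ range p, (X + C (i : R)) := by
  unfold theta
  rw [← prod_range_reflect]
  have h1 : ∀ i ∈ range p, (X - C (((p - 1 - i : ℕ)) : R)) = X + C (((i + 1 : ℕ)) : R) := by
    intro i hi
    have hi' : i < p := mem_range.mp hi
    have h2 : (((p - 1 - i : ℕ)) : R) = - (((i + 1 : ℕ)) : R) := by
      have : ((p - 1 - i) + (i + 1) : ℕ) = p := by omega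
      have h3 : (((p - 1 - i : ℕ)) : R) + (((i + 1 : ℕ)) : R) = 0 := by
        rw [← Nat.cast_add, this, hp0]
      exact eq_neg_of_add_eq_zero_left h3
    rw [h2, map_neg, sub_neg_eq_add]
  rw [prod_congr rfl h1]
  exact prod_range_shift_one (fun i => X + C (i : R)) p (by simp [hp0])

/-- half-shifted Pochhammer product -/
lemma prod_half (hodd : Odd p) (h : R) (h2 : 2 * h = 1) :
    ∏ i ∈ range p, (X + C (h + (i : R))) = theta R p := by
  obtain ⟨m, hm⟩ := hodd
  have hh : h = ((m + 1 : ℕ) : R) := by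
    have e1 : (2 : R) * ((m + 1 : ℕ) : R) = 1 := by
      have : ((2 * (m + 1) : ℕ) : R) = ((p + 1 : ℕ) : R) := by congr 1; omega
      push_cast at this
      push_cast
      rw [this, hp0]; ring
    calc h = h * (2 * ((m + 1 : ℕ) : R)) := by rw [e1, mul_one]
      _ = (2 * h) * ((m + 1 : ℕ) : R) := by ring
      _ = _ := by rw [h2, one_mul]
  rw [theta_eq_poch hp0, ← prod_range_shift (fun i => X + C (i : R)) p (by intro i; simp [hp0]) (m + 1)]
  refine prod_congr rfl fun i _ => ?_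
  rw [hh]; push_cast; congr 2; ring

lemma prod_two_p : ∏ i ∈ range (2 * p), (X + C (i : R)) = theta R p ^ 2 := by
  rw [two_mul, prod_range_add, theta_eq_poch hp0, sq]
  congr 1
  refine prod_congr rfl fun i _ => ?_
  push_cast; rw [hp0, zero_add]

lemma theta_comp (a : ℕ) : (theta R p).comp (X + C (a : R)) = theta R p := by
  rw [theta_eq_poch hp0]
  rw [Polynomial.prod_comp]
  conv_rhs => rw [← prod_range_shift (fun i => X + C (i : R)) p (by intro i; simp [hp0]) a]
  refine prod_congr rfl fun i _ => ?_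
  simp only [add_comp, X_comp, C_comp]
  push_cast
  rw [add_assoc, ← C_add, add_comm (a : R)]

end CharP

section Tel

variable {R : Type*} [CommRing R]

noncomputable def Aj (R : Type*) [CommRing R] (j : ℕ) : R[X] := ∏ i ∈ range (2 * j), (X + C (i : R))
noncomputable def Aj' (R : Type*) [CommRing R] (j : ℕ) : R[X] :=
  ∏ i ∈ range (2 * j), (X + C ((i : R) + 1))
noncomputable def Bj (h : R) (p j : ℕ) : R[X] := ∏ i ∈ Ico (j + 1) p, (X + C (h + (i : R)))
noncomputable def Bj0 (h : R) (p j : ℕ) : R[X] := ∏ i ∈ Ico j p, (X + C (h + (i : R)))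

lemma Aj'_mul (j : ℕ) : X * Aj' R j = Aj R j * (X + C (2 * (j : R))) := by
  have h1 : ∏ i ∈ range (2 * j + 1), (X + C (i : R)) = Aj' R j * (X + C ((0 : ℕ) : R)) := by
    rw [prod_range_succ', Aj']
    push_cast; rfl
  rw [prod_range_succ] at h1
  rw [Aj]
  push_cast at h1 ⊢
  rw [h1]; simp [mul_comm]

lemma Aj_succ (j : ℕ) : Aj R (j + 1) =
    Aj R j * ((X + C (2 * (j : R))) * (X + C (2 * (j : R) + 1))) := by
  rw [Aj, show 2 * (j + 1) = 2 * j + 1 + 1 by ring, prod_range_succ, prod_range_succ, Aj]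
  push_cast; ring

lemma Aj'_comp (j : ℕ) : (Aj' R j).comp (X + C (-1)) = Aj R j := by
  rw [Aj', Polynomial.prod_comp, Aj]
  refine prod_congr rfl fun i _ => ?_
  simp only [add_comp, X_comp, C_comp]
  rw [add_assoc, ← C_add]
  congr 2; ring

lemma Bj0_eq (h : R) (p j : ℕ) (hj : j < p) : Bj0 h p j = (X + C (h + (j : R))) * Bj h p j := by
  rw [Bj0, prod_eq_prod_Ico_succ_bot hj, Bj]

lemma Bj_comp (h : R) (h2 : 2 * h = 1) (p j : ℕ) (hp0 : (p : R) = 0) (hj : j < p) :
    (X - C h) * (Bj h p j).comp (X + C (-1)) = (X + C (h + (j : R))) * Bj h p j := by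
  rw [← Bj0_eq h p j hj]
  obtain ⟨q, rfl⟩ : ∃ q, p = q + 1 := ⟨p - 1, by omega⟩
  rw [Bj0, prod_Ico_succ_top (by omega), Bj, Polynomial.prod_comp]
  have h3 : ∏ i ∈ Ico (j + 1) (q + 1), (X + C (h + (i : R))).comp (X + C (-1))
      = ∏ i ∈ Ico j q, (X + C (h + (i : R))) := by
    refine (prod_Ico_add' (fun i : ℕ => (X + C (h + (i : R))).comp (X + C (-1))) j q 1).symm.trans ?_
    refine prod_congr rfl fun i _ => ?_
    simp only [add_comp, X_comp, C_comp]
    rw [add_assoc, ← C_add]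
    congr 2; push_cast; ring
  rw [h3, mul_comm]
  congr 1
  have h4 : (q : R) = -1 := by
    push_cast at hp0; exact eq_neg_of_add_eq_zero_left hp0
  rw [h4, sub_eq_add_neg, ← C_neg]
  congr 2
  linear_combination -h2

noncomputable def Nj (q h : R) (p j : ℕ) : R[X] := C (q ^ j) * (Aj' R j * Bj h p j ^ 2)
noncomputable def Vj (q h : R) (p j : ℕ) : R[X] :=
  C (q ^ j) * ((3 * X + C (2 * (j : R) - 1)) * (Aj R j * Bj0 h p j ^ 2))

lemma tel (q h : R) (hq : 4 * q = 1) (h2 : 2 * h = 1) (p j : ℕ) (hp0 : (p : R) = 0) (hj : j < p) :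
    X ^ 3 * Nj q h p j + (2 * X - 1) ^ 3 * (Nj q h p j).comp (X + C (-1)) =
      4 * Vj q h p j - 4 * Vj q h p (j + 1) := by
  have e1 := Aj'_mul (R := R) j
  have e2 := Bj_comp h h2 p j hp0 hj
  have e3 : 2 * C h = (1 : R[X]) := by
    rw [← C_1, ← h2, C_mul]; rfl
  have e4 : 4 * C q = (1 : R[X]) := by
    rw [← C_1, ← hq, C_mul]; rfl
  have e5 : (2 * X - 1 : R[X]) = 2 * (X - C h) := by linear_combination e3
  rw [Nj, Vj, Vj, mul_comp, C_comp, mul_comp, pow_comp, Aj'_comp, Aj_succ, Bj0_eq h p j hj, e5]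
  have e6 : Bj0 h p (j + 1) = Bj h p j := rfl
  rw [e6, pow_succ (n := j), C_mul]
  set Q := C (q ^ j)
  set a := Aj R j
  set a' := Aj' R j
  set b := Bj h p j
  set bc := (Bj h p j).comp (X + C (-1))
  simp only [C_add, C_sub, C_mul, Nat.cast_add, Nat.cast_one, C_1] at e1 e2 ⊢
  rw [show (C (2 : R) : R[X]) = 2 from rfl] at e1 ⊢
  set H := C h
  set J := C (j : R)
  set q' := C q
  linear_combination (X ^ 2 * Q * b ^ 2) * e1
    + (8 * (X - H) * Q * a * ((X - H) * bc + (X + (H + J)) * b)) * e2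
    + (-(Q * a * b ^ 2) * ((2 * X + 2 * J + 1) ^ 2 + 2 * (2 * X + 2 * J + 1) * (X + 2 * J)
        + (2 * (2 * X + 2 * J + 1) + (X + 2 * J)) * (2 * H - 1) + (2 * H - 1) ^ 2)) * e3
    + (Q * a * b ^ 2 * ((3 * X + 2 * J + 1) * (X + 2 * J) * (X + 2 * J + 1))) * e4

end Tel

end Crest.Agent.R006.LemL255
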