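import Mathlib
import Crest.Agent.R006.P4_LemB_255

/-!
Row 6, block P4: base case `L (θ² Q) = 0` in characteristic `p`, second half.
-/

set_option autoImplicit false

namespace Crest.Agent.R006.LemL255

open Polynomial Finset

variable {R : Type*} [CommRing R]

noncomputable def MM (q h : R) (p : ℕ) : R[X] := ∑ j ∈ range p, Nj q h p j

lemma four_pow (p : ℕ) [hp : Fact p.Prime] (hp0 : (p : R) = 0) : (4 : R) ^ p = 4 := by
  have h1 : ((4 ^ p - 4 : ℤ) : ZMod p) = 0 := by
    push_cast; rw [ZMod.pow_card]; ring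
  obtain ⟨k, hk⟩ := (ZMod.intCast_zmod_eq_zero_iff_dvd _ p).1 h1
  have h2 : ((4 ^ p - 4 : ℤ) : R) = ((p * k : ℤ) : R) := by rw [hk]
  push_cast at h2
  rw [hp0, zero_mul] at h2
  exact sub_eq_zero.1 h2

lemma q_pow (p : ℕ) [hp : Fact p.Prime] (hp0 : (p : R) = 0) (q : R) (hq : 4 * q = 1) : q ^ p = q := by
  have h1 : q ^ p * 4 = 1 := by
    conv_lhs => rw [← four_pow p hp0]
    rw [← mul_pow, mul_comm q, hq, one_pow]
  calc q ^ p = q ^ p * (4 * q) := by rw [hq, mul_one]
    _ = (q ^ p * 4) * q := by ring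
    _ = q := by rw [h1, one_mul]

lemma MM_eq (p : ℕ) [hp : Fact p.Prime] (hodd : Odd p) (hp0 : (p : R) = 0) (q h : R)
    (hq : 4 * q = 1) (h2 : 2 * h = 1) :
    X ^ 3 * MM q h p + (2 * X - 1) ^ 3 * (MM q h p).comp (X + C (-1)) =
      3 * (3 * X - 1) * theta R p ^ 2 := by
  have h1 : X ^ 3 * MM q h p + (2 * X - 1) ^ 3 * (MM q h p).comp (X + C (-1)) =
      ∑ j ∈ range p, (4 * Vj q h p j - 4 * Vj q h p (j + 1)) := by
    rw [MM, Polynomial.sum_comp, mul_sum, mul_sum, ← sum_add_distrib]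
    exact sum_congr rfl fun j hj => tel q h hq h2 p j hp0 (mem_range.mp hj)
  rw [h1, sum_range_sub']
  have hV0 : Vj q h p 0 = (3 * X - 1) * theta R p ^ 2 := by
    rw [Vj, Aj, Bj0, ← range_eq_Ico, prod_half hp0 hodd h h2]
    simp [sub_eq_add_neg]
  have hVp : Vj q h p p = C q * ((3 * X - 1) * theta R p ^ 2) := by
    rw [Vj, Aj, Bj0, Ico_self, prod_empty, prod_two_p hp0, q_pow p hp0 q hq, hp0]
    simp [sub_eq_add_neg]
  have e4 : 4 * C q = (1 : R[X]) := by
    rw [← C_1, ← hq, C_mul]; rfl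
  rw [hV0, hVp]
  linear_combination (-((3 * X - 1) * theta R p ^ 2)) * e4

lemma natDegree_Nj_le (q h : R) (p j : ℕ) (hj : j < p) : (Nj q h p j).natDegree ≤ 2 * p - 2 := by
  have hlin : ∀ a : R, (X + C a : R[X]).natDegree ≤ 1 := fun a => by compute_degree
  have h1 : (Aj' R j).natDegree ≤ 2 * j := by
    refine (natDegree_prod_le _ _).trans ?_
    refine (sum_le_sum fun i _ => hlin _).trans ?_
    simp
  have h3 : (Bj h p j).natDegree ≤ p - (j + 1) := by
    refine (natDegree_prod_le _ _).trans ?_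
    refine (sum_le_sum fun i _ => hlin _).trans ?_
    simp
  have h4 : (Bj h p j ^ 2).natDegree ≤ 2 * (p - (j + 1)) := natDegree_pow_le_of_le 2 h3
  have h5 := natDegree_mul_le_of_le h1 h4
  have h6 : (C (q ^ j) : R[X]).natDegree ≤ 0 := (natDegree_C _).le
  have h7 := natDegree_mul_le_of_le h6 h5
  unfold Nj
  omega

lemma natDegree_MM_le (q h : R) (p : ℕ) : (MM q h p).natDegree ≤ 2 * p - 2 := by
  refine natDegree_sum_le_of_forall_le _ _ fun j hj => ?_
  exact natDegree_Nj_le q h p j (mem_range.mp hj)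

lemma theta_monic (R : Type*) [CommRing R] (p : ℕ) : (theta R p).Monic :=
  monic_prod_of_monic _ _ fun _ _ => monic_X_sub_C _

lemma natDegree_theta (R : Type*) [CommRing R] [Nontrivial R] (p : ℕ) :
    (theta R p).natDegree = p := by
  rw [theta, natDegree_prod_of_monic _ _ fun i _ => monic_X_sub_C _]
  simp only [natDegree_X_sub_C]; simp

lemma natDegree_theta_sq (R : Type*) [CommRing R] [Nontrivial R] (p : ℕ) :
    (theta R p ^ 2).natDegree = 2 * p := by
  rw [(theta_monic R p).natDegree_pow, natDegree_theta]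

lemma theta_coeff_pred [Nontrivial R] (p : ℕ) (hpos : 0 < p) :
    (theta R p).coeff (p - 1) = - ∑ i ∈ range p, (i : R) := by
  have := prod_X_sub_C_coeff_card_pred (range p) (fun i : ℕ => (i : R)) (by simpa using hpos)
  rw [card_range] at this
  exact this

lemma theta_sq_coeff_pred [Nontrivial R] (p : ℕ) (hpos : 0 < p) (hp0 : (p : R) = 0) :
    (theta R p ^ 2).coeff (2 * p - 1) = 0 := by
  obtain ⟨n, rfl⟩ : ∃ n, p = n + 1 := ⟨p - 1, by omega⟩
  -- write `theta = X^p + c X^(p-1) + lower`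
  have hdeg := natDegree_theta R (n + 1)
  set T := theta R (n + 1) with hT
  have hc1 : T.coeff (n + 1) = 1 := by
    have := (theta_monic R (n + 1)).coeff_natDegree
    rw [← hT, hdeg] at this; exact this
  have hc2 : T.coeff n = - ∑ i ∈ range (n + 1), (i : R) := theta_coeff_pred (n + 1) hpos
  have hlt : ∀ m, n + 1 < m → T.coeff m = 0 := fun m hm =>
    coeff_eq_zero_of_natDegree_lt (by omega)
  rw [sq, coeff_mul, show 2 * (n + 1) - 1 = 2 * n + 1 by omega]
  rw [Nat.sum_antidiagonal_eq_sum_range_succ (fun i j => T.coeff i * T.coeff j)]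
  have h1 : ∀ i ∈ range (2 * n + 1).succ, i ∉ ({n, n + 1} : Finset ℕ) →
      T.coeff i * T.coeff (2 * n + 1 - i) = 0 := by
    intro i hi hni
    simp only [mem_insert, mem_singleton, not_or] at hni
    have hi' := mem_range.mp hi
    rcases Nat.lt_or_ge i n with h | h
    · rw [hlt (2 * n + 1 - i) (by omega), mul_zero]
    · rw [hlt i (by omega), zero_mul]
  rw [← sum_subset (s₁ := ({n, n + 1} : Finset ℕ)) (by
    intro i hi
    simp only [mem_insert, mem_singleton] at hi
    rw [mem_range]; omega) h1]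
  rw [sum_pair (by omega), show 2 * n + 1 - n = n + 1 by omega,
    show 2 * n + 1 - (n + 1) = n by omega, hc1, hc2]
  have h3 : ((∑ i ∈ range (n + 1), i : ℕ) * 2 : ℕ) = (n + 1) * n := by
    rw [sum_range_id_mul_two]; simp
  have h4 : (∑ i ∈ range (n + 1), (i : R)) * 2 = 0 := by
    have := congrArg (fun t : ℕ => (t : R)) h3
    simp only [Nat.cast_mul, Nat.cast_sum] at this
    rw [hp0, zero_mul] at this
    exact_mod_cast this
  linear_combination -h4

/-- coefficient comparison in `MM_eq` -/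
lemma MM_coeffs [Nontrivial R] (h3u : IsUnit (3 : R)) (p : ℕ) [hp : Fact p.Prime] (hodd : Odd p)
    (hp0 : (p : R) = 0) (q h : R) (hq : 4 * q = 1) (h2 : 2 * h = 1) :
    (MM q h p).coeff (2 * p - 2) = 1 ∧ 9 * (MM q h p).coeff (2 * p - 3) = -7 := by
  have hp3 : 3 ≤ p := by
    have := hp.out.two_le
    rcases hodd with ⟨k, hk⟩
    omega
  have h9 : IsUnit (9 : R) := by
    have : (9 : R) = 3 * 3 := by norm_num
    rw [this]; exact h3u.mul h3u
  obtain ⟨n, hn⟩ : ∃ n, 2 * p = n + 3 := ⟨2 * p - 3, by omega⟩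
  have hM := natDegree_MM_le q h p
  have hE := MM_eq p hodd hp0 q h hq h2
  have hD1 : (theta R p ^ 2).coeff (n + 3) = 1 := by
    have h5 := ((theta_monic R p).pow 2).coeff_natDegree
    rw [natDegree_theta_sq, hn] at h5; exact h5
  have hD2 : (theta R p ^ 2).coeff (n + 2) = 0 := by
    have := theta_sq_coeff_pred (R := R) p (by omega) hp0
    rwa [hn, show n + 3 - 1 = n + 2 by omega] at this
  have hD3 : ∀ m, n + 3 < m → (theta R p ^ 2).coeff m = 0 := fun m hm =>
    coeff_eq_zero_of_natDegree_lt (by rw [natDegree_theta_sq]; omega)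
  rw [hn, show n + 3 - 2 = n + 1 by omega, show n + 3 - 3 = n by omega]
  rw [hn, show n + 3 - 2 = n + 1 by omega] at hM
  set M := MM q h p
  set N := M.comp (X + C (-1)) with hN
  have hN1 : N.coeff (n + 1) = M.coeff (n + 1) := coeff_comp_top M (-1) (n + 1) hM
  have hN0 : N.coeff n = M.coeff n + (n + 1) * (-1) * M.coeff (n + 1) :=
    coeff_comp_pred M (-1) n hM
  have hNd : ∀ m, n + 1 < m → N.coeff m = 0 := by
    intro m hm
    have : N.coeff m = M.coeff m := coeff_comp_top M (-1) m (by omega)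
    rw [this]; exact coeff_eq_zero_of_natDegree_lt (by omega)
  have hMd : ∀ m, n + 1 < m → M.coeff m = 0 := fun m hm => coeff_eq_zero_of_natDegree_lt (by omega)
  have hE' : X ^ 3 * M + (C 8 * (X ^ 3 * N) - C 12 * (X ^ 2 * N) + C 6 * (X * N) - N) =
      C 9 * (X * theta R p ^ 2) - C 3 * theta R p ^ 2 := by
    have c8 : (C (8 : R) : R[X]) = 8 := rfl
    have c12 : (C (12 : R) : R[X]) = 12 := rfl
    have c6 : (C (6 : R) : R[X]) = 6 := rfl
    have c9 : (C (9 : R) : R[X]) = 9 := rfl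
    have c3 : (C (3 : R) : R[X]) = 3 := rfl
    rw [c8, c12, c6, c9, c3]
    linear_combination hE
  have co := fun k => congrArg (fun F : R[X] => F.coeff k) hE'
  have co1 := co (n + 4)
  have co2 := co (n + 3)
  simp only [coeff_add, coeff_sub, coeff_C_mul] at co1 co2
  rw [show n + 4 = (n + 1) + 3 by ring, coeff_X_pow_mul, coeff_X_pow_mul,
    show (n + 1) + 3 = (n + 2) + 2 by ring, coeff_X_pow_mul, show (n + 2) + 2 = (n + 3) + 1 by ring,
    coeff_X_mul, coeff_X_mul, hD1, hD3 (n + 3 + 1) (by omega), hNd (n + 2) (by omega),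
    hNd (n + 3) (by omega), hNd (n + 3 + 1) (by omega), hN1] at co1
  have hm1 : M.coeff (n + 1) = 1 := by
    have h5 : 9 * (M.coeff (n + 1) - 1) = 0 := by linear_combination co1
    have := (h9.mul_right_eq_zero).mp h5
    exact sub_eq_zero.1 this
  refine ⟨hm1, ?_⟩
  rw [coeff_X_pow_mul, coeff_X_pow_mul, show n + 3 = (n + 1) + 2 by ring, coeff_X_pow_mul,
    show (n + 1) + 2 = (n + 2) + 1 by ring, coeff_X_mul, coeff_X_mul, hD2,
    show n + 2 + 1 = n + 3 by ring, hD1, hNd (n + 2) (by omega), hNd (n + 3) (by omega), hN1, hN0,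
    hm1] at co2
  have hn3 : ((n : R) + 3) = 0 := by
    have : ((2 * p : ℕ) : R) = ((n + 3 : ℕ) : R) := by rw [hn]
    push_cast at this
    rw [← this, hp0]; ring
  linear_combination co2 + 8 * hn3

end Crest.Agent.R006.LemL255
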