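import Mathlib
import Crest.Agent.R006.P4_LemC_255

/-!
Row 6, block P4: base case `L (θ² Q) = 0` in characteristic `p` (end), and its lift mod `p`.
-/

set_option autoImplicit false

namespace Crest.Agent.R006.LemL255

open Polynomial Finset

variable {R : Type*} [CommRing R]

/-- In characteristic `p ≥ 5` the moment functional of `ψ_∞` kills `θ² R[X]`. -/
theorem base_charp (p : ℕ) [hp : Fact p.Prime] (hodd : Odd p) (hp0 : (p : R) = 0)
    (h2u : IsUnit (2 : R)) (h3u : IsUnit (3 : R)) (L : R[X] →ₗ[R] R) (hL : IsMom L) (Q : R[X]) :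
    L (theta R p ^ 2 * Q) = 0 := by
  nontriviality R
  obtain ⟨h, h2⟩ := h2u.exists_right_inv
  obtain ⟨q, hq⟩ : ∃ q : R, 4 * q = 1 := ⟨h * h, by linear_combination (2 * h + 1) * h2⟩
  have h9 : IsUnit (9 : R) := by
    have : (9 : R) = 3 * 3 := by norm_num
    rw [this]; exact h3u.mul h3u
  have hp3 : 3 ≤ p := by
    have := hp.out.two_le
    rcases hodd with ⟨k, hk⟩
    omega
  set D := theta R p ^ 2 with hD
  set M := MM q h p with hM
  have hDm : D.Monic := (theta_monic R p).pow 2
  have hDn : D.natDegree = 2 * p := natDegree_theta_sq R p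
  have hDs : D.comp (X + C (1 : R)) = D := by
    have := theta_comp (R := R) hp0 1
    rw [Nat.cast_one] at this
    rw [hD, pow_comp, this]
  have hMd : M.natDegree ≤ 2 * p - 2 := natDegree_MM_le q h p
  obtain ⟨hm2, hm3⟩ := MM_coeffs h3u p hodd hp0 q h hq h2
  have hE := MM_eq p hodd hp0 q h hq h2
  -- the functional of the rational function `M / D`
  set L' : R[X] →ₗ[R] R := (res D) ∘ₗ (LinearMap.mulRight R M) with hL'
  have hL'a : ∀ F, L' F = res D (F * M) := fun F => rfl
  have key' : ∀ P : R[X], L' (X ^ 3 * P + (2 * X + 1) ^ 3 * P.comp (X + 1)) = 0 := by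
    intro P
    rw [hL'a, add_mul, map_add]
    have e1 : (2 * X + 1) ^ 3 * P.comp (X + 1) * M =
        ((2 * X - 1) ^ 3 * P * M.comp (X + C (-1))).comp (X + C (1 : R)) := by
      have hc : (M.comp (X + C (-1))).comp (X + C (1 : R)) = M := by
        rw [comp_assoc]
        have : (X + C (-1 : R)).comp (X + C (1 : R)) = X := by
          simp only [add_comp, X_comp, C_comp]
          rw [C_neg, C_1]; ring
        rw [this, comp_X]
      have h2c : (2 : R[X]).comp (X + C (1 : R)) = 2 := by
        rw [show (2 : R[X]) = C 2 from rfl, C_comp]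
      rw [mul_comp, mul_comp, pow_comp, sub_comp, mul_comp, X_comp, one_comp, h2c, hc, C_1]
      ring
    rw [e1, res_shift D hDm 1 hDs (by omega), ← map_add]
    have e2 : X ^ 3 * P * M + (2 * X - 1) ^ 3 * P * M.comp (X + C (-1)) =
        D * (3 * (3 * X - 1) * P) := by
      linear_combination P * hE
    rw [e2, res_mul_self D hDm]
  have v0 : L' 1 = 0 := by
    rw [hL'a, one_mul, res_of_lt D M hDm (degree_lt_degree (by omega)), hDn]
    exact coeff_eq_zero_of_natDegree_lt (by omega)
  have v1 : L' X = 1 := by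
    have hd : (X * M).natDegree ≤ 1 + (2 * p - 2) := natDegree_mul_le_of_le natDegree_X_le hMd
    rw [hL'a, res_of_lt D _ hDm (degree_lt_degree (by omega)), hDn,
      show 2 * p - 1 = (2 * p - 2) + 1 by omega, coeff_X_mul]
    exact hm2
  have v2 : 9 * L' (X ^ 2) = -7 := by
    have hd : (X ^ 2 * M).natDegree ≤ 2 + (2 * p - 2) :=
      natDegree_mul_le_of_le (natDegree_X_pow_le 2) hMd
    have hdd : (X ^ 2 * M - D).natDegree < 2 * p := by
      refine lt_of_le_of_lt (natDegree_le_pred (n := 2 * p) ?_ ?_) (by omega)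
      · exact (natDegree_sub_le _ _).trans (max_le (by omega) hDn.le)
      · rw [coeff_sub]
        have c1 : D.coeff (2 * p) = 1 := by
          have := hDm.coeff_natDegree; rwa [hDn] at this
        rw [c1, show 2 * p = (2 * p - 2) + 2 by omega, coeff_X_pow_mul, hm2, sub_self]
    have e1 : X ^ 2 * M = (X ^ 2 * M - D) + D * 1 := by ring
    rw [hL'a, e1, map_add, res_mul_self D hDm, add_zero,
      res_of_lt D _ hDm (degree_lt_degree (by omega)), hDn, coeff_sub,
      show 2 * p - 1 = (2 * p - 3) + 2 by omega, coeff_X_pow_mul,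
      show 2 * p - 3 + 2 = 2 * p - 1 by omega, theta_sq_coeff_pred p (by omega) hp0, sub_zero]
    exact hm3
  have hz : (6 : R) • L + L' = 0 := by
    apply eq_zero_of_key h3u
    · intro P
      rw [LinearMap.add_apply, LinearMap.smul_apply, hL.key P, key' P]; simp
    · rw [LinearMap.add_apply, LinearMap.smul_apply, hL.m0, v0]; simp
    · rw [LinearMap.add_apply, LinearMap.smul_apply, v1, smul_eq_mul, hL.m1]; ring
    · have : 9 * (((6 : R) • L + L') (X ^ 2)) = 0 := by
        rw [LinearMap.add_apply, LinearMap.smul_apply, smul_eq_mul]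
        linear_combination hL.m2 + v2
      exact (h9.mul_right_eq_zero).mp this
  have h6 : IsUnit (6 : R) := by
    have : (6 : R) = 2 * 3 := by norm_num
    rw [this]; exact h2u.mul h3u
  have h7 := congrArg (fun f : R[X] →ₗ[R] R => f (D * Q)) hz
  simp only [LinearMap.add_apply, LinearMap.smul_apply, smul_eq_mul, LinearMap.zero_apply] at h7
  rw [hL'a, mul_assoc, res_mul_self D hDm, add_zero] at h7
  exact (h6.mul_right_eq_zero).mp h7

end Crest.Agent.R006.LemL255
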