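import Mathlib
import Crest.Agent.R006.P4_LemD_255

/-!
Row 6, block P4: base change of the moment functional, Lemma L for `I^k`, `I = (p, θ)`.
-/

set_option autoImplicit false

namespace Crest.Agent.R006.LemL255

open Polynomial Finset

section BaseChange

variable {O R : Type*} [CommRing O] [CommRing R]

/-- base change of a functional on polynomials -/
noncomputable def mapMom (φ : O →+* R) (L : O[X] →ₗ[O] O) : R[X] →ₗ[R] R :=
  Polynomial.lsum fun i => LinearMap.toSpanSingleton R R (φ (L (X ^ i)))

lemma mapMom_monomial (φ : O →+* R) (L : O[X] →ₗ[O] O) (i : ℕ) (a : R) :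
    mapMom φ L (monomial i a) = a * φ (L (X ^ i)) := by
  rw [mapMom, lsum_apply, sum_monomial_index]
  · simp
  · simp

lemma mapMom_X_pow (φ : O →+* R) (L : O[X] →ₗ[O] O) (i : ℕ) :
    mapMom φ L (X ^ i) = φ (L (X ^ i)) := by
  rw [← monomial_one_right_eq_X_pow, mapMom_monomial, one_mul]

lemma mapMom_map (φ : O →+* R) (L : O[X] →ₗ[O] O) (P : O[X]) :
    mapMom φ L (P.map φ) = φ (L P) := by
  induction P using Polynomial.induction_on' with
  | add P Q hP hQ => rw [Polynomial.map_add, map_add, hP, hQ, map_add, map_add]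
  | monomial n a =>
    rw [map_monomial, mapMom_monomial, ← smul_X_eq_monomial, map_smul, smul_eq_mul, map_mul]

lemma IsMom.map (φ : O →+* R) {L : O[X] →ₗ[O] O} (hL : IsMom L) : IsMom (mapMom φ L) where
  key P := by
    induction P using Polynomial.induction_on' with
    | add P Q hP hQ =>
      have : X ^ 3 * (P + Q) + (2 * X + 1) ^ 3 * (P + Q).comp (X + 1) =
          (X ^ 3 * P + (2 * X + 1) ^ 3 * P.comp (X + 1)) +
          (X ^ 3 * Q + (2 * X + 1) ^ 3 * Q.comp (X + 1)) := by
        rw [add_comp]; ring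
      rw [this, map_add, hP, hQ, add_zero]
    | monomial n a =>
      have h1 := hL.key (X ^ n)
      have h2 : X ^ 3 * (monomial n a : R[X]) + (2 * X + 1) ^ 3 * (monomial n a : R[X]).comp (X + 1) =
          a • ((X ^ 3 * (X ^ n : O[X]) + (2 * X + 1) ^ 3 * (X ^ n : O[X]).comp (X + 1)).map φ) := by
        rw [← smul_X_eq_monomial, smul_comp, mul_smul_comm, mul_smul_comm, ← smul_add]
        congr 1
        simp only [Polynomial.map_add, Polynomial.map_mul, Polynomial.map_pow, map_X, X_pow_comp,
          Polynomial.map_one, Polynomial.map_ofNat]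
      rw [h2, map_smul, mapMom_map, h1, map_zero, smul_zero]
  m0 := by
    have := mapMom_map φ L 1
    rw [Polynomial.map_one, hL.m0, map_zero] at this
    exact this
  m1 := by
    have := mapMom_map φ L X
    rw [Polynomial.map_X] at this
    rw [this, ← map_ofNat φ 6, ← map_mul, hL.m1, map_neg, map_one]
  m2 := by
    have := mapMom_map φ L (X ^ 2)
    rw [Polynomial.map_pow, Polynomial.map_X] at this
    rw [this, ← map_ofNat φ 54, ← map_mul, hL.m2, map_ofNat]

end BaseChange

variable {O : Type*} [CommRing O]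

lemma theta_map {R : Type*} [CommRing R] (φ : O →+* R) (p : ℕ) : (theta O p).map φ = theta R p := by
  rw [theta, Polynomial.map_prod, theta]
  refine prod_congr rfl fun i _ => ?_
  simp

/-- base case modulo `p` -/
theorem base_mod (p : ℕ) [hp : Fact p.Prime] (hodd : Odd p) (h2u : IsUnit (2 : O))
    (h3u : IsUnit (3 : O)) (L : O[X] →ₗ[O] O) (hL : IsMom L) (Q : O[X]) :
    (p : O) ∣ L (theta O p ^ 2 * Q) := by
  set φ := Ideal.Quotient.mk (Ideal.span {(p : O)}) with hφ
  have hp0 : ((p : ℕ) : O ⧸ Ideal.span {(p : O)}) = 0 := by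
    rw [← map_natCast φ, hφ, Ideal.Quotient.eq_zero_iff_mem]
    exact Ideal.mem_span_singleton_self _
  have h2' : IsUnit (2 : O ⧸ Ideal.span {(p : O)}) := by
    have := h2u.map φ; rwa [map_ofNat] at this
  have h3' : IsUnit (3 : O ⧸ Ideal.span {(p : O)}) := by
    have := h3u.map φ; rwa [map_ofNat] at this
  have h := base_charp p hodd hp0 h2' h3' (mapMom φ L) (hL.map φ) (Q.map φ)
  rw [← theta_map φ, ← Polynomial.map_pow, ← Polynomial.map_mul, mapMom_map, hφ,
    Ideal.Quotient.eq_zero_iff_mem, Ideal.mem_span_singleton] at h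
  exact h

end Crest.Agent.R006.LemL255
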