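import Mathlib
import Crest.Agent.R006.P4_LemE_255

/-!
Row 6, block P4: Lemma L: `L (I^k) ⊆ p^(k-1)`, `I = (p, θ)`.
-/

set_option autoImplicit false

namespace Crest.Agent.R006.LemL255

open Polynomial Finset

variable {O : Type*} [CommRing O]

/-- `∏_{i<n} (2X + 2i + 1)` -/
noncomputable def thetaP (R : Type*) [CommRing R] (n : ℕ) : R[X] :=
  ∏ i ∈ range n, (2 * X + C (2 * (i : R) + 1))

lemma theta_succ_comp (n : ℕ) :
    (∏ i ∈ range n, (X - C ((i : O) + 1))).comp (X + 1) = theta O n := by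
  rw [Polynomial.prod_comp, theta]
  refine prod_congr rfl fun i _ => ?_
  simp only [sub_comp, X_comp, C_comp]
  rw [C_add, C_1]; ring

lemma theta_succ' (n : ℕ) : theta O (n + 1) = X * ∏ i ∈ range n, (X - C ((i : O) + 1)) := by
  rw [theta, prod_range_succ', mul_comm]
  push_cast
  simp

lemma key_iter {L : O[X] →ₗ[O] O} (hL : IsMom L) (n : ℕ) : ∀ P : O[X],
    L (theta O n ^ 3 * P) = (-1) ^ n * L (thetaP O n ^ 3 * P.comp (X + C (n : O))) := by
  induction n with
  | zero => intro P; simp [theta, thetaP]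
  | succ n ih =>
    intro P
    set E : O[X] := ∏ i ∈ range n, (X - C ((i : O) + 1)) with hE
    have h1 : theta O (n + 1) ^ 3 * P = X ^ 3 * (E ^ 3 * P) := by
      rw [theta_succ']; ring
    have h2 := hL.key (E ^ 3 * P)
    rw [map_add, mul_comp, pow_comp, hE, theta_succ_comp] at h2
    have h3 : (2 * X + 1) ^ 3 * (theta O n ^ 3 * P.comp (X + 1)) =
        theta O n ^ 3 * ((2 * X + 1) ^ 3 * P.comp (X + 1)) := by ring
    rw [h3, ih, ← hE] at h2
    have h4 : ((2 * X + 1) ^ 3 * P.comp (X + 1) : O[X]).comp (X + C (n : O)) =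
        (2 * X + C (2 * (n : O) + 1)) ^ 3 * P.comp (X + C ((n + 1 : ℕ) : O)) := by
      have h2c : (2 : O[X]).comp (X + C (n : O)) = 2 := by
        rw [show (2 : O[X]) = C 2 from rfl, C_comp]
      rw [mul_comp, pow_comp, add_comp, mul_comp, X_comp, one_comp, h2c, comp_assoc, add_comp,
        X_comp, one_comp]
      have e1 : (X + C (n : O) + 1 : O[X]) = X + C ((n + 1 : ℕ) : O) := by
        push_cast; rw [C_add, C_1]; ring
      have e2 : (2 * (X + C (n : O)) + 1 : O[X]) = 2 * X + C (2 * (n : O) + 1) := by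
        rw [C_add, C_mul, C_1, show (C (2 : O) : O[X]) = 2 from rfl]; ring
      rw [e1, e2]
    rw [h4] at h2
    have h5 : thetaP O (n + 1) ^ 3 * P.comp (X + C ((n + 1 : ℕ) : O)) =
        thetaP O n ^ 3 * ((2 * X + C (2 * (n : O) + 1)) ^ 3 * P.comp (X + C ((n + 1 : ℕ) : O))) := by
      rw [thetaP, prod_range_succ, ← thetaP]; ring
    rw [h1, h5, pow_succ (-1 : O) n]
    linear_combination h2

lemma dvd_of_map_mk (a : O) (F : O[X]) (h : F.map (Ideal.Quotient.mk (Ideal.span {a})) = 0) :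
    C a ∣ F := by
  have h1 : F ∈ RingHom.ker (mapRingHom (Ideal.Quotient.mk (Ideal.span {a}))) := by
    rw [RingHom.mem_ker]; exact h
  rw [ker_mapRingHom, Ideal.mk_ker, Ideal.map_span, Set.image_singleton,
    Ideal.mem_span_singleton] at h1
  exact h1

section Cong

variable (p : ℕ)

lemma quot_p_zero : ((p : ℕ) : O ⧸ Ideal.span {(p : O)}) = 0 := by
  rw [← map_natCast (Ideal.Quotient.mk (Ideal.span {(p : O)})), Ideal.Quotient.eq_zero_iff_mem]
  exact Ideal.mem_span_singleton_self _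

lemma cong_comp (Q : O[X]) : C (p : O) ∣ Q.comp (X + C (p : O)) - Q := by
  apply dvd_of_map_mk
  rw [Polynomial.map_sub, Polynomial.map_comp, Polynomial.map_add, map_X, map_C, map_natCast,
    quot_p_zero, C_0, add_zero, comp_X, sub_self]

lemma two_pow_charp {R : Type*} [CommRing R] [hp : Fact p.Prime] (hp0 : (p : R) = 0) :
    (2 : R) ^ p = 2 := by
  have h1 : ((2 ^ p - 2 : ℤ) : ZMod p) = 0 := by
    push_cast; rw [ZMod.pow_card]; ring
  obtain ⟨k, hk⟩ := (ZMod.intCast_zmod_eq_zero_iff_dvd _ p).1 h1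
  have h2 : ((2 ^ p - 2 : ℤ) : R) = ((p * k : ℤ) : R) := by rw [hk]
  push_cast at h2
  rw [hp0, zero_mul] at h2
  exact sub_eq_zero.1 h2

lemma cong_thetaP [hp : Fact p.Prime] (hodd : Odd p) (h2u : IsUnit (2 : O)) :
    C (p : O) ∣ thetaP O p - 2 * theta O p := by
  apply dvd_of_map_mk
  set φ := Ideal.Quotient.mk (Ideal.span {(p : O)}) with hφ
  have hp0 := quot_p_zero (O := O) p
  obtain ⟨h, h2⟩ := h2u.exists_right_inv
  have h2' : 2 * φ h = 1 := by
    rw [← map_ofNat φ 2, ← map_mul, h2, map_one]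
  have e1 : (thetaP O p).map φ = thetaP _ p := by
    rw [thetaP, Polynomial.map_prod, thetaP]
    refine prod_congr rfl fun i _ => ?_
    rw [Polynomial.map_add, Polynomial.map_mul, Polynomial.map_ofNat, map_X, map_C,
      map_add, map_mul, map_natCast, map_one, map_ofNat]
  have e2 : thetaP (O ⧸ Ideal.span {(p : O)}) p = 2 * theta _ p := by
    rw [thetaP, ← prod_half hp0 hodd (φ h) h2']
    have : ∀ i ∈ range p, (2 * X + C (2 * (i : O ⧸ Ideal.span {(p : O)}) + 1)) =
        C 2 * (X + C (φ h + (i : O ⧸ Ideal.span {(p : O)}))) := by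
      intro i _
      rw [mul_add, ← C_mul, show (C (2 : O ⧸ Ideal.span {(p : O)}) : (O ⧸ Ideal.span {(p : O)})[X])
        = 2 from rfl]
      congr 2
      linear_combination -h2'
    rw [prod_congr rfl this, prod_mul_distrib, prod_const, card_range, ← C_pow,
      two_pow_charp p hp0]
    rfl
  rw [Polynomial.map_sub, Polynomial.map_mul, theta_map, e1, e2, Polynomial.map_ofNat, sub_self]

end Cong

end Crest.Agent.R006.LemL255
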