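import Mathlib
import Crest.Agent.R006.P4_LemF_255

/-!
Row 6, block P4: Lemma L: `L (I^k) ⊆ p^(k-1)`, `I = (p, θ)`.
-/

set_option autoImplicit false

namespace Crest.Agent.R006.LemL255

open Polynomial Finset

variable {O : Type*} [CommRing O]

/-- the ideal `(p, θ)` -/
noncomputable def Ith (O : Type*) [CommRing O] (p : ℕ) : Ideal O[X] :=
  Ideal.span {C (p : O), theta O p}

lemma theta_mem (p : ℕ) : theta O p ∈ Ith O p := Ideal.subset_span (by simp)
lemma Cp_mem (p : ℕ) : C (p : O) ∈ Ith O p := Ideal.subset_span (by simp)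

lemma mem_pow_aux (p : ℕ) (L : O[X] →ₗ[O] O) (n : ℕ)
    (hyp : ∀ m ≤ n, ∀ Q, (p : O) ^ (m - 1) ∣ L (theta O p ^ m * Q)) :
    ∀ k j : ℕ, k + j ≤ n → ∀ F ∈ Ith O p ^ k, (p : O) ^ (k + j - 1) ∣ L (theta O p ^ j * F) := by
  intro k
  induction k with
  | zero =>
    intro j hj F _
    rw [zero_add] at hj ⊢
    exact hyp j hj F
  | succ k ih =>
    intro j hj F hF
    rw [pow_succ] at hF
    refine Submodule.mul_induction_on hF (fun a ha b hb => ?_) (fun x y hx hy => ?_)
    · obtain ⟨x, y, hxy⟩ := Ideal.mem_span_pair.1 hb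
      have h1 : theta O p ^ j * (a * b) =
          (p : O) • (theta O p ^ j * (a * x)) + theta O p ^ (j + 1) * (a * y) := by
        rw [← hxy, smul_eq_C_mul]; ring
      rw [h1, map_add, map_smul, smul_eq_mul]
      refine dvd_add ?_ ?_
      · have h2 := ih j (by omega) (a * x) (Ideal.mul_mem_right _ _ ha)
        have h3 := mul_dvd_mul_left (p : O) h2
        refine dvd_trans ?_ h3
        rw [← pow_succ']
        exact pow_dvd_pow _ (by omega)
      · have h2 := ih (j + 1) (by omega) (a * y) (Ideal.mul_mem_right _ _ ha)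
        rwa [show k + (j + 1) - 1 = k + 1 + j - 1 by omega] at h2
    · rw [mul_add, map_add]
      exact dvd_add hx hy

/-- the main induction: existence of the correction term -/
lemma corr_mem (p : ℕ) (m : ℕ) (S t t' Q Q' η ζ ξ : O[X]) (I : Ideal O[X]) (ht : t ∈ I)
    (hp : C (p : O) ∈ I) (hS : S = 2 * t + C (p : O) * η) (ht' : t' = t + C (p : O) * ζ)
    (hQ : Q' = Q + C (p : O) * ξ) :
    ∃ W ∈ I ^ (m + 2), S ^ 3 * (t' ^ m * Q') = 8 * (t ^ (m + 3) * Q) + C (p : O) * W := by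
  have hSI : S ∈ I := by
    rw [hS]; exact I.add_mem (I.mul_mem_left _ ht) (I.mul_mem_right _ hp)
  have ht'I : t' ∈ I := by
    rw [ht']; exact I.add_mem ht (I.mul_mem_right _ hp)
  set W1 := η * (S ^ 2 + 2 * t * S + 4 * t ^ 2) with hW1
  have hW1I : W1 ∈ I ^ 2 := by
    rw [hW1]
    refine Ideal.mul_mem_left _ _ (Ideal.add_mem _ (Ideal.add_mem _ (Ideal.pow_mem_pow hSI 2) ?_) ?_)
    · rw [sq, mul_assoc]
      exact Ideal.mul_mem_left _ _ (Ideal.mul_mem_mul ht hSI)
    · exact Ideal.mul_mem_left _ _ (Ideal.pow_mem_pow ht 2)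
  have h1 : S ^ 3 - 8 * t ^ 3 = C (p : O) * W1 := by
    rw [hW1]
    have : S - 2 * t = C (p : O) * η := by rw [hS]; ring
    linear_combination (S ^ 2 + 2 * t * S + 4 * t ^ 2) * this
  set W2 := ζ * ∑ i ∈ range m, t' ^ i * t ^ (m - 1 - i) with hW2
  have h2 : t' ^ m - t ^ m = C (p : O) * W2 := by
    rw [hW2, ← geom_sum₂_mul t' t m]
    have : t' - t = C (p : O) * ζ := by rw [ht']; ring
    rw [this]; ring
  have hW2I : t ^ 3 * W2 ∈ I ^ (m + 2) := by
    rcases Nat.eq_zero_or_pos m with hm | hm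
    · rw [hW2, hm]; simp
    · have h3 : W2 ∈ I ^ (m - 1) := by
        rw [hW2]
        refine Ideal.mul_mem_left _ _ (Ideal.sum_mem _ fun i hi => ?_)
        have hi' := mem_range.mp hi
        have : i + (m - 1 - i) = m - 1 := by omega
        have h := Ideal.mul_mem_mul (Ideal.pow_mem_pow ht'I i) (Ideal.pow_mem_pow ht (m - 1 - i))
        rw [← pow_add, this] at h
        exact h
      have h4 := Ideal.mul_mem_mul (Ideal.pow_mem_pow ht 3) h3
      rw [← pow_add] at h4
      rwa [show 3 + (m - 1) = m + 2 by omega] at h4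
  refine ⟨W1 * (t' ^ m * Q') + 8 * (t ^ 3 * W2) * Q' + 8 * (t ^ (m + 3)) * ξ, ?_, ?_⟩
  · refine Ideal.add_mem _ (Ideal.add_mem _ ?_ ?_) ?_
    · have := Ideal.mul_mem_mul hW1I (Ideal.pow_mem_pow ht'I m)
      rw [← pow_add, add_comm 2 m] at this
      rw [← mul_assoc]
      exact Ideal.mul_mem_right _ _ this
    · exact Ideal.mul_mem_right _ _ (Ideal.mul_mem_left _ _ hW2I)
    · refine Ideal.mul_mem_right _ _ (Ideal.mul_mem_left _ _ ?_)
      exact Ideal.pow_le_pow_right (by omega) (Ideal.pow_mem_pow ht (m + 3))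
  · have h5 : t ^ (m + 3) = t ^ 3 * t ^ m := by rw [pow_add, mul_comm]
    rw [h5]
    linear_combination (t' ^ m * Q') * h1 + (8 * t ^ 3 * Q') * h2 + (8 * t ^ 3 * t ^ m) * hQ

/-- **Lemma L**: `p^(k-1) ∣ L (θ^k Q)`. -/
theorem lemmaL (p : ℕ) [hp : Fact p.Prime] (hodd : Odd p) (h2u : IsUnit (2 : O))
    (h3u : IsUnit (3 : O)) (L : O[X] →ₗ[O] O) (hL : IsMom L) :
    ∀ k : ℕ, ∀ Q : O[X], (p : O) ^ (k - 1) ∣ L (theta O p ^ k * Q) := by
  intro k
  induction k using Nat.strong_induction_on with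
  | _ k ih =>
    intro Q
    rcases Nat.lt_or_ge k 3 with hk | hk
    · interval_cases k
      · simp
      · simp
      · simpa using base_mod p hodd h2u h3u L hL Q
    · obtain ⟨m, rfl⟩ : ∃ m, k = m + 3 := ⟨k - 3, by omega⟩
      have h9 : IsUnit (9 : O) := by
        have : (9 : O) = 3 * 3 := by norm_num
        rw [this]; exact h3u.mul h3u
      obtain ⟨η, hη⟩ := cong_thetaP (O := O) p hodd h2u
      obtain ⟨ζ, hζ⟩ := cong_comp p (theta O p)
      obtain ⟨ξ, hξ⟩ := cong_comp p Q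
      obtain ⟨W, hW, hWe⟩ := corr_mem p m (thetaP O p) (theta O p)
        ((theta O p).comp (X + C (p : O))) Q (Q.comp (X + C (p : O))) η ζ ξ (Ith O p)
        (theta_mem p) (Cp_mem p) (by rw [← hη]; ring) (by rw [← hζ]; ring) (by rw [← hξ]; ring)
      have h1 := key_iter hL p (theta O p ^ m * Q)
      rw [hodd.neg_one_pow, mul_comp, pow_comp, hWe, map_add] at h1
      have h2 : theta O p ^ 3 * (theta O p ^ m * Q) = theta O p ^ (m + 3) * Q := by ring
      have h3 : L (8 * (theta O p ^ (m + 3) * Q)) = 8 * L (theta O p ^ (m + 3) * Q) := by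
        have := map_smul L (8 : O) (theta O p ^ (m + 3) * Q)
        rw [smul_eq_C_mul, smul_eq_mul] at this
        exact this
      have h4 : L (C (p : O) * W) = p * L W := by
        rw [← smul_eq_C_mul, map_smul, smul_eq_mul]
      rw [h2, h3, h4] at h1
      have h5 : 9 * L (theta O p ^ (m + 3) * Q) = - (p * L W) := by linear_combination h1
      have h6 : (p : O) ^ (m + 1) ∣ L W := by
        have := mem_pow_aux p L (m + 2) (fun m' hm' Q' => ih m' (by omega) Q') (m + 2) 0 (by omega) W hW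
        simpa using this
      have h7 : (p : O) ^ (m + 2) ∣ 9 * L (theta O p ^ (m + 3) * Q) := by
        rw [h5, dvd_neg, pow_succ']
        exact mul_dvd_mul_left _ h6
      rw [show m + 3 - 1 = m + 2 by omega]
      exact (h9.dvd_mul_left).1 h7

/-- **Lemma L**, ideal form: `L (I^k) ⊆ p^(k-1) O`. -/
theorem lemmaL_ideal (p : ℕ) [hp : Fact p.Prime] (hodd : Odd p) (h2u : IsUnit (2 : O))
    (h3u : IsUnit (3 : O)) (L : O[X] →ₗ[O] O) (hL : IsMom L) (k : ℕ) (F : O[X])
    (hF : F ∈ Ith O p ^ k) : (p : O) ^ (k - 1) ∣ L F := by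
  have := mem_pow_aux p L k (fun m _ Q => lemmaL p hodd h2u h3u L hL m Q) k 0 (by omega) F hF
  simpa using this

end Crest.Agent.R006.LemL255
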