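import Mathlib
import Crest.Agent.R006.P4_LemG_255

/-!
Row 6, block P4, input (L1): class version of Lemma L.
-/

set_option autoImplicit false

namespace Crest.Agent.R006.LemL255

open Polynomial Finset

variable {O : Type*} [CommRing O]

/-- the ideal `(p, X - c)` -/
noncomputable def J (O : Type*) [CommRing O] (p c : ℕ) : Ideal O[X] :=
  Ideal.span {C (p : O), X - C (c : O)}

lemma Cp_mem_J (p c : ℕ) : C (p : O) ∈ J O p c := Ideal.subset_span (by simp)
lemma X_sub_mem_J (p c : ℕ) : X - C (c : O) ∈ J O p c := Ideal.subset_span (by simp)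

lemma J_coprime (p : ℕ) (hu : ∀ a : ℕ, 0 < a → a < p → IsUnit (a : O)) {c c' : ℕ} (hc : c < p)
    (hc' : c' < p) (hne : c ≠ c') : IsCoprime (J O p c) (J O p c') := by
  wlog h : c < c' generalizing c c'
  · exact (this hc' hc hne.symm (by omega)).symm
  obtain ⟨v, hv⟩ := (hu (c' - c) (by omega) (by omega)).exists_right_inv
  rw [Ideal.isCoprime_iff_exists]
  refine ⟨C v * (X - C (c : O)), Ideal.mul_mem_left _ _ (X_sub_mem_J p c),
    - (C v * (X - C (c' : O))), Ideal.neg_mem_iff _ |>.2 (Ideal.mul_mem_left _ _ (X_sub_mem_J p c')), ?_⟩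
  have : C v * (X - C (c : O)) + -(C v * (X - C (c' : O))) = C (v * ((c' : O) - (c : O))) := by
    rw [C_mul, C_sub]; ring
  rw [this, ← Nat.cast_sub h.le, mul_comm, hv, C_1]

lemma J_pow_coprime (p : ℕ) (hu : ∀ a : ℕ, 0 < a → a < p → IsUnit (a : O)) {c c' : ℕ} (hc : c < p)
    (hc' : c' < p) (hne : c ≠ c') (m n : ℕ) : IsCoprime (J O p c ^ m) (J O p c' ^ n) :=
  (J_coprime p hu hc hc' hne).pow

lemma prod_J_le (p n : ℕ) : ∏ c ∈ range n, J O p c ≤ Ideal.span {C (p : O), theta O n} := by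
  induction n with
  | zero =>
    have h0 : theta O 0 = 1 := by simp [theta]
    have h1 : (1 : O[X]) ∈ Ideal.span {C (p : O), (1 : O[X])} := Ideal.subset_span (by simp)
    rw [h0, (Ideal.eq_top_iff_one _).2 h1]
    exact le_top
  | succ n ih =>
    rw [prod_range_succ]
    refine (Ideal.mul_mono ih le_rfl).trans ?_
    rw [J, Ideal.span_pair_mul_span_pair, Ideal.span_le]
    intro x hx
    have hp : C (p : O) ∈ Ideal.span {C (p : O), theta O (n + 1)} := Ideal.subset_span (by simp)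
    have ht : theta O (n + 1) ∈ Ideal.span {C (p : O), theta O (n + 1)} :=
      Ideal.subset_span (by simp)
    simp only [Set.mem_insert_iff, Set.mem_singleton_iff] at hx
    rcases hx with rfl | rfl | rfl | rfl
    · exact Ideal.mul_mem_left _ _ hp
    · exact Ideal.mul_mem_right _ _ hp
    · exact Ideal.mul_mem_left _ _ hp
    · have : theta O n * (X - C (n : O)) = theta O (n + 1) := by
        rw [theta, theta, prod_range_succ]
      rw [this]; exact ht

/-- if `F ∈ J_c^x` for all classes then `F ∈ (p, θ)^x` -/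
lemma mem_Ith_pow (p : ℕ) (hu : ∀ a : ℕ, 0 < a → a < p → IsUnit (a : O)) (x : ℕ) (F : O[X])
    (hF : ∀ c < p, F ∈ J O p c ^ x) : F ∈ Ith O p ^ x := by
  have h1 : F ∈ ⨅ c ∈ range p, J O p c ^ x := by
    simp only [Submodule.mem_iInf]
    intro c hc
    exact hF c (mem_range.mp hc)
  rw [← Ideal.prod_eq_iInf_of_pairwise_isCoprime] at h1
  · rw [prod_pow] at h1
    exact Ideal.pow_right_mono (prod_J_le p p) x h1
  · intro a ha b hb hab
    exact J_pow_coprime p hu (by simpa using ha) (by simpa using hb) hab x x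

lemma exists_idem (p : ℕ) (hp : 0 < p) (hu : ∀ a : ℕ, 0 < a → a < p → IsUnit (a : O)) (N : ℕ) :
    ∃ e : ℕ → O[X], (∑ c ∈ range p, e c = 1) ∧
      (∀ c < p, ∀ c' < p, c' ≠ c → e c ∈ J O p c' ^ N) ∧ (∀ c < p, 1 - e c ∈ J O p c ^ N) := by
  have h1 : ∀ c : ℕ, ∃ f : O[X], c < p → (1 - f ∈ J O p c ^ N ∧
      ∀ c' < p, c' ≠ c → f ∈ J O p c' ^ N) := by
    intro c
    by_cases hc : c < p
    · have h2 : IsCoprime (J O p c ^ N) (⨅ c' ∈ (range p).erase c, J O p c' ^ N) := by
        apply Ideal.isCoprime_biInf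
        intro c' hc'
        rw [mem_erase, mem_range] at hc'
        exact J_pow_coprime p hu hc hc'.2 hc'.1.symm N N
      obtain ⟨i, hi, j, hj, hij⟩ := Ideal.isCoprime_iff_exists.1 h2
      refine ⟨j, fun _ => ⟨?_, fun c' hc' hne => ?_⟩⟩
      · have : 1 - j = i := by rw [← hij]; ring
        rw [this]; exact hi
      · simp only [Submodule.mem_iInf] at hj
        exact hj c' (by rw [mem_erase, mem_range]; exact ⟨hne, hc'⟩)
    · exact ⟨0, fun h => absurd h hc⟩
  choose f hf using h1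
  refine ⟨fun c => if c = 0 then 1 - ∑ c ∈ (range p).erase 0, f c else f c, ?_, ?_, ?_⟩
  · rw [← add_sum_erase (range p) _ (mem_range.mpr hp)]
    simp only [if_true]
    have : ∑ x ∈ (range p).erase 0, (if x = 0 then 1 - ∑ c ∈ (range p).erase 0, f c else f x)
        = ∑ c ∈ (range p).erase 0, f c := by
      refine sum_congr rfl fun x hx => ?_
      rw [if_neg (mem_erase.1 hx).1]
    rw [this]; ring
  · intro c hc c' hc' hne
    by_cases h0 : c = 0
    · simp only [h0, if_true]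
      have hc'0 : c' ∈ (range p).erase 0 := by
        rw [mem_erase, mem_range]; exact ⟨by omega, hc'⟩
      rw [← add_sum_erase _ _ hc'0]
      have : 1 - (f c' + ∑ x ∈ ((range p).erase 0).erase c', f x) =
          (1 - f c') - ∑ x ∈ ((range p).erase 0).erase c', f x := by ring
      rw [this]
      refine Ideal.sub_mem _ (hf c' hc').1 (Ideal.sum_mem _ fun x hx => ?_)
      rw [mem_erase, mem_erase, mem_range] at hx
      exact (hf x hx.2.2).2 c' hc' hx.1.symm
    · simp only [if_neg h0]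
      exact (hf c hc).2 c' hc' hne
  · intro c hc
    by_cases h0 : c = 0
    · simp only [h0, if_true]
      have : (1 : O[X]) - (1 - ∑ c ∈ (range p).erase 0, f c) = ∑ c ∈ (range p).erase 0, f c := by
        ring
      rw [this]
      refine Ideal.sum_mem _ fun x hx => ?_
      rw [mem_erase, mem_range] at hx
      exact (hf x hx.2).2 0 hp (Ne.symm hx.1)
    · simp only [if_neg h0]
      exact (hf c hc).1

lemma comp_mem_J (p : ℕ) (k a b : ℕ) (hab : a = b + 1 ∨ (a = 0 ∧ b + 1 = p)) (F : O[X])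
    (hF : F ∈ J O p a ^ k) : F.comp (X + 1) ∈ J O p b ^ k := by
  have h1 : (J O p a).map (compRingHom (X + 1 : O[X])) ≤ J O p b := by
    rw [J, Ideal.map_span, Ideal.span_le]
    rintro x ⟨y, hy, rfl⟩
    simp only [Set.mem_insert_iff, Set.mem_singleton_iff] at hy
    rcases hy with rfl | rfl
    · simp only [coe_compRingHom_apply, C_comp]
      exact Cp_mem_J p b
    · simp only [coe_compRingHom_apply, sub_comp, X_comp, C_comp]
      rcases hab with rfl | ⟨rfl, hb⟩
      · have : (X + 1 - C ((b + 1 : ℕ) : O) : O[X]) = X - C (b : O) := by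
          push_cast; rw [C_add, C_1]; ring
        rw [this]; exact X_sub_mem_J p b
      · have : (X + 1 - C ((0 : ℕ) : O) : O[X]) = (X - C (b : O)) + C (p : O) := by
          rw [← hb]; push_cast; rw [C_add, C_1, C_0]; ring
        rw [this]
        exact Ideal.add_mem _ (X_sub_mem_J p b) (Cp_mem_J p b)
  have h2 := Ideal.mem_map_of_mem (compRingHom (X + 1 : O[X])) hF
  rw [Ideal.map_pow] at h2
  exact Ideal.pow_right_mono h1 k h2

lemma two_X_add_one_mem (p b : ℕ) (hb : 2 * b + 1 = p) : (2 * X + 1 : O[X]) ∈ J O p b := by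
  have : (2 * X + 1 : O[X]) = 2 * (X - C (b : O)) + C (p : O) := by
    rw [← hb]; push_cast
    rw [C_add, C_mul, C_1, show (C (2 : O) : O[X]) = 2 from rfl]; ring
  rw [this]
  exact Ideal.add_mem _ (Ideal.mul_mem_left _ _ (X_sub_mem_J p b)) (Cp_mem_J p b)

section Move

variable {p : ℕ} [hp : Fact p.Prime] (hodd : Odd p) (h2u : IsUnit (2 : O)) (h3u : IsUnit (3 : O))
  (hu : ∀ a : ℕ, 0 < a → a < p → IsUnit (a : O)) {L : O[X] →ₗ[O] O} (hL : IsMom L)

include hodd h2u h3u hu hL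

lemma dvd_of_all (x : ℕ) (F : O[X]) (hF : ∀ c < p, F ∈ J O p c ^ x) : (p : O) ^ (x - 1) ∣ L F :=
  lemmaL_ideal p hodd h2u h3u L hL x F (mem_Ith_pow p hu x F hF)

lemma move (N x b : ℕ) (hb : b + 1 < p) (y : ℕ) (hy : y = x ∨ (y = x + 3 ∧ 2 * b + 1 = p))
    (F : O[X]) (hF : F ∈ J O p (b + 1) ^ x) (hF' : ∀ c < p, c ≠ b + 1 → F ∈ J O p c ^ N) :
    ∃ G : O[X], G ∈ J O p b ^ y ∧ (∀ c < p, c ≠ b → G ∈ J O p c ^ N) ∧
      (p : O) ^ (N - 1) ∣ L F + L G := by
  obtain ⟨v, hv⟩ := (hu (b + 1) (by omega) hb).exists_right_inv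
  have hco : IsCoprime (Ideal.span {(X : O[X])}) (J O p (b + 1)) := by
    rw [Ideal.isCoprime_iff_exists]
    refine ⟨C v * X, Ideal.mul_mem_left _ _ (Ideal.mem_span_singleton_self _),
      - (C v * (X - C ((b + 1 : ℕ) : O))),
      Ideal.neg_mem_iff _ |>.2 (Ideal.mul_mem_left _ _ (X_sub_mem_J p _)), ?_⟩
    have : C v * X + -(C v * (X - C ((b + 1 : ℕ) : O))) = C (v * ((b + 1 : ℕ) : O)) := by
      rw [C_mul]; ring
    rw [this, mul_comm, hv, C_1]
  obtain ⟨i, hi, j, hj, hij⟩ := Ideal.isCoprime_iff_exists.1 (hco.pow (m := 3) (n := N))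
  rw [Ideal.span_singleton_pow, Ideal.mem_span_singleton] at hi
  obtain ⟨g, hg⟩ := hi
  refine ⟨(2 * X + 1) ^ 3 * (g * F).comp (X + 1), ?_, ?_, ?_⟩
  · have h1 : (g * F).comp (X + 1) ∈ J O p b ^ x :=
      comp_mem_J p x (b + 1) b (Or.inl rfl) _ (Ideal.mul_mem_left _ _ hF)
    rcases hy with rfl | ⟨rfl, hb2⟩
    · exact Ideal.mul_mem_left _ _ h1
    · rw [add_comm x 3, pow_add]
      exact Ideal.mul_mem_mul (Ideal.pow_mem_pow (two_X_add_one_mem p b hb2) 3) h1
  · intro c hc hne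
    refine Ideal.mul_mem_left _ _ ?_
    by_cases h : c + 1 = p
    · exact comp_mem_J p N 0 c (Or.inr ⟨rfl, h⟩) _
        (Ideal.mul_mem_left _ _ (hF' 0 hp.out.pos (by omega)))
    · exact comp_mem_J p N (c + 1) c (Or.inl rfl) _
        (Ideal.mul_mem_left _ _ (hF' (c + 1) (by omega) (by omega)))
  · have h1 := hL.key (g * F)
    rw [map_add] at h1
    have h2 : X ^ 3 * (g * F) = F - j * F := by
      rw [← mul_assoc, ← hg]
      linear_combination F * hij
    rw [h2, map_sub] at h1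
    have h3 : L F + L ((2 * X + 1) ^ 3 * (g * F).comp (X + 1)) = L (j * F) := by
      linear_combination h1
    rw [h3]
    apply dvd_of_all hodd h2u h3u hu hL
    intro c hc
    by_cases h : c = b + 1
    · rw [h]; exact Ideal.mul_mem_right _ _ hj
    · exact Ideal.mul_mem_left _ _ (hF' c hc h)

lemma regular_bound (N x m : ℕ) (hm : p = 2 * m + 1) (hx : x + 3 ≤ N) : ∀ d : ℕ, m + 1 + d < p →
    ∀ F : O[X], F ∈ J O p (m + 1 + d) ^ x → (∀ c < p, c ≠ m + 1 + d → F ∈ J O p c ^ N) →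
    (p : O) ^ (x + 2) ∣ L F := by
  intro d
  induction d with
  | zero =>
    intro hd F hF hF'
    obtain ⟨G, hG, hG', hLG⟩ := move hodd h2u h3u hu hL N x m hd (x + 3)
      (Or.inr ⟨rfl, hm.symm⟩) F hF hF'
    have h1 : (p : O) ^ (x + 2) ∣ L G := by
      have := dvd_of_all hodd h2u h3u hu hL (x + 3) G (fun c hc => by
        by_cases h : c = m
        · rw [h]; exact hG
        · exact Ideal.pow_le_pow_right hx (hG' c hc h))
      simpa using this
    have h2 : (p : O) ^ (x + 2) ∣ L F + L G := (pow_dvd_pow _ (by omega)).trans hLG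
    exact (dvd_add_left h1).1 h2
  | succ d ih =>
    intro hd F hF hF'
    obtain ⟨G, hG, hG', hLG⟩ := move hodd h2u h3u hu hL N x (m + 1 + d) hd x
      (Or.inl rfl) F hF hF'
    have h1 : (p : O) ^ (x + 2) ∣ L G := ih (by omega) G hG hG'
    have h2 : (p : O) ^ (x + 2) ∣ L F + L G := (pow_dvd_pow _ (by omega)).trans hLG
    exact (dvd_add_left h1).1 h2

/-- **Class version of Lemma L** (input (L1) of block P4). -/
theorem class_version (N : ℕ) : ∃ e : ℕ → O[X], (∑ c ∈ range p, e c = 1) ∧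
    (∀ c < p, ∀ c' < p, c' ≠ c → e c ∈ J O p c' ^ N) ∧ (∀ c < p, 1 - e c ∈ J O p c ^ N) ∧
    (∀ c < p, ∀ x ≤ N, ∀ F ∈ J O p c ^ x, (p : O) ^ (x - 1) ∣ L (e c * F)) ∧
    (∀ c < p, p < 2 * c → ∀ x, x + 3 ≤ N → ∀ F ∈ J O p c ^ x, (p : O) ^ (x + 2) ∣ L (e c * F)) := by
  obtain ⟨e, h1, h2, h3⟩ := exists_idem p hp.out.pos hu N
  refine ⟨e, h1, h2, h3, ?_, ?_⟩
  · intro c hc x hx F hF
    apply dvd_of_all hodd h2u h3u hu hL
    intro c' hc'
    by_cases h : c' = c
    · rw [h]; exact Ideal.mul_mem_left _ _ hF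
    · exact Ideal.mul_mem_right _ _ (Ideal.pow_le_pow_right hx (h2 c hc c' hc' h))
  · intro c hc hreg x hx F hF
    obtain ⟨m, hm⟩ := id hodd
    obtain ⟨d, rfl⟩ : ∃ d, c = m + 1 + d := ⟨c - (m + 1), by omega⟩
    refine regular_bound hodd h2u h3u hu hL N x m hm hx d hc _ (Ideal.mul_mem_left _ _ hF) ?_
    intro c' hc' hne
    exact Ideal.mul_mem_right _ _ (h2 _ hc c' hc' hne)

end Move

end Crest.Agent.R006.LemL255
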