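import Mathlib
import Crest.Agent.R006.P4_LemL_255
import Crest.Agent.R006.P4L_hc_830

/-!
Row 6, block P4: adapter (helper830).  The recurrence of the analytic parts `h_c` directly from
255's class data (level `N ≥ 3`): no other hypotheses than `IsMom L` and the clauses of
`LemL255.class_version`.
-/

set_option autoImplicit false

namespace Crest.Agent.R006.P4Hc830

open Polynomial Finset Crest.Agent.R006.P4Row Crest.Agent.R006.LemL255

variable {O : Type*} [CommRing O]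

/-- the class data of `LemL255.class_version` -/
structure ClassData (p N : ℕ) (L : O[X] →ₗ[O] O) (e : ℕ → O[X]) : Prop where
  sum : ∑ c ∈ range p, e c = 1
  mem : ∀ c < p, ∀ c' < p, c' ≠ c → e c ∈ LemL255.J O p c' ^ N
  one_sub : ∀ c < p, 1 - e c ∈ LemL255.J O p c ^ N
  pol : ∀ c < p, ∀ x ≤ N, ∀ F ∈ LemL255.J O p c ^ x, (p : O) ^ (x - 1) ∣ L (e c * F)
  reg : ∀ c < p, p < 2 * c → ∀ x, x + 3 ≤ N → ∀ F ∈ LemL255.J O p c ^ x,
    (p : O) ^ (x + 2) ∣ L (e c * F)

theorem exists_classData {p : ℕ} [Fact p.Prime] (hodd : Odd p) (h2u : IsUnit (2 : O))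
    (h3u : IsUnit (3 : O)) (hu : ∀ a : ℕ, 0 < a → a < p → IsUnit (a : O)) {L : O[X] →ₗ[O] O}
    (hL : IsMom L) (N : ℕ) : ∃ e : ℕ → O[X], ClassData p N L e := by
  obtain ⟨e, h1, h2, h3, h4, h5⟩ := class_version hodd h2u h3u hu hL N
  exact ⟨e, h1, h2, h3, h4, h5⟩

/-- truncation error: everything which lies in all `J_c^N` is killed mod `p^(N-1)`. -/
theorem ClassData.herr {p N : ℕ} {L : O[X] →ₗ[O] O} {e : ℕ → O[X]} (h : ClassData p N L e)
    (F : O[X]) (hF : ∀ b < p, F ∈ LemL255.J O p b ^ N) : (p : O) ^ (N - 1) ∣ L F := by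
  have h1 : L F = ∑ c ∈ range p, L (e c * F) := by
    rw [← map_sum, ← sum_mul, h.sum, one_mul]
  rw [h1]
  exact dvd_sum fun c hc => h.pol c (mem_range.mp hc) N le_rfl F (hF c (mem_range.mp hc))

/-- 110's truncation hypothesis of the row formula. -/
theorem ClassData.herr' {p N : ℕ} {L : O[X] →ₗ[O] O} {e : ℕ → O[X]} (h : ClassData p N L e)
    (c : ℕ) (hc : c < p) (F : O[X]) :
    (p : O) ^ (N - 1) ∣ L (e c * ((X - C (c : O)) ^ N * F)) := by
  refine h.pol c hc N le_rfl _ (Ideal.mul_mem_right _ _ (Ideal.pow_mem_pow ?_ N))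
  exact LemL255.X_sub_mem_J p c

/-- **(L2a) from the class data.** -/
theorem hc_rec {p N : ℕ} (hp2 : p % 2 = 1) (hp3 : 3 ≤ p) (h3u : IsUnit (3 : O))
    {L : O[X] →ₗ[O] O} (hL : IsMom L) (hN : 3 ≤ N) {e : ℕ → O[X]} (he : ClassData p N L e)
    {c cm : ℕ} (hc : c < p) (hcm : cm < p) (hpred : Pred p c cm)
    (x : O) (hx : (p : O) ∣ x - c) (u u' : ℕ → O)
    (hu : ∀ c' < p, c' ≠ c → (x - c') * u c' = 1)
    (hu' : ∀ c' < p, c' ≠ cm → (x - 1 - c') * u' c' = 1) :
    ∃ δ' : O, 2 * (x ^ 3 * hfun p N L e c u + (2 * x - 1) ^ 3 * hfun p N L e cm u')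
        = -(3 * x - 1) - 2 * δ' ∧
      (p : O) ^ (N - 1) ∣ δ' - delta L e c cm x ∧
      ((c = 0 ∨ p < 2 * c) → (p : O) ∣ δ') ∧ (p + 2 < 2 * c → (p : O) ^ 2 ∣ δ') := by
  obtain ⟨δ', h1, h2, h3, h4⟩ := hfun_rec (p := p) (K := N - 1) (N := N) (L := L) hL.key hL.m0
    he.sum (fun a ha b hb hab => he.mem a ha b hb (Ne.symm hab)) (fun F hF => he.herr F hF)
    (fun c hc _ F hF => by
      have := he.pol c hc 2 (by omega) F hF
      simpa using this)
    (fun c hc hr F => by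
      have := he.reg c hc hr 0 (by omega) F (by simp)
      simpa using this)
    hp2 hp3 (by omega) hc hcm hpred x hx u u' hu hu'
  refine ⟨δ', ?_, h2, h3, h4⟩
  have h6 : (3 : O) * (2 * ((9 * x + 4) * L X + 9 * L (X ^ 2))) = 3 * (-(3 * x - 1)) := by
    linear_combination (9 * x + 4) * hL.m1 + hL.m2
  have h7 := h3u.mul_left_cancel h6
  rw [h1]
  linear_combination h7

end Crest.Agent.R006.P4Hc830
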