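import Crest.Agent.R006.PsiInf_294
import Crest.Agent.R006.P4Chain_657
import Crest.Agent.R006.P4_Row_110
import Crest.Agent.R006.P4_LemA_255
import Crest.Agent.R006.LemL_170

/-!
Row 6 (S0006), block P4, BASE (helper170, for 110 / 869 / 955).

`O p` = the subring `ℤ_(p)` of `ℚ`; `muO` = the moments `mu` of `ψ_∞` (294) as elements of `O p`
(`p ≥ 5`); `phi : O p →+* PowerSeries ℚ[X]`; `res : O p →+* ZMod p` with kernel `(p)`.
-/

set_option autoImplicit false

open Polynomial Finset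

namespace Crest.Agent.R006.P4BaseOx170

open Crest.Agent.R006

variable (p : ℕ) [hp : Fact p.Prime]

/-- the ring `ℤ_(p)`. -/
def O : Subring ℚ where
  carrier := {x | padicNorm p x ≤ 1}
  mul_mem' := by
    intro a b ha hb
    change padicNorm p (a * b) ≤ 1
    rw [padicNorm.mul]
    exact mul_le_one₀ ha (padicNorm.nonneg b) hb
  one_mem' := by
    change padicNorm p 1 ≤ 1
    rw [padicNorm.one]
  add_mem' := by
    intro a b ha hb
    exact le_trans padicNorm.nonarchimedean (max_le ha hb)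
  zero_mem' := by
    change padicNorm p 0 ≤ 1
    rw [padicNorm.zero]
    exact zero_le_one
  neg_mem' := by
    intro a ha
    change padicNorm p (-a) ≤ 1
    rw [padicNorm.neg]
    exact ha

variable {p}

theorem mem_O {x : ℚ} : x ∈ O p ↔ padicNorm p x ≤ 1 := Iff.rfl

theorem val_injective : Function.Injective (fun x : O p => (x : ℚ)) := Subtype.val_injective

theorem dvd_pow_iff (x : O p) (k : ℕ) :
    (p : O p) ^ k ∣ x ↔ padicNorm p (x : ℚ) ≤ (p : ℚ) ^ (-(k : ℤ)) := by
  have hp0 : (p : ℚ) ≠ 0 := by exact_mod_cast hp.out.ne_zero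
  have hpos : (0 : ℚ) < p := by exact_mod_cast hp.out.pos
  have hpn : padicNorm p (p : ℚ) = (p : ℚ)⁻¹ := padicNorm.padicNorm_p_of_prime
  have hpk : padicNorm p ((p : ℚ) ^ k) = (p : ℚ) ^ (-(k : ℤ)) := by
    induction k with
    | zero => simp
    | succ k ih =>
      rw [pow_succ, padicNorm.mul, ih, hpn]
      push_cast
      rw [neg_add, zpow_add₀ hp0, zpow_neg_one]
  constructor
  · rintro ⟨c, rfl⟩
    push_cast
    rw [padicNorm.mul, hpk]
    exact mul_le_of_le_one_right (zpow_nonneg hpos.le _) c.2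
  · intro h
    have hy : padicNorm p ((x : ℚ) / (p : ℚ) ^ k) ≤ 1 := by
      rw [padicNorm.div, hpk, div_le_one (zpow_pos hpos _)]
      exact h
    refine ⟨⟨(x : ℚ) / (p : ℚ) ^ k, hy⟩, ?_⟩
    apply val_injective
    push_cast
    field_simp

theorem dvd_iff (x : O p) : (p : O p) ∣ x ↔ padicNorm p (x : ℚ) ≤ (p : ℚ)⁻¹ := by
  have := dvd_pow_iff x 1
  rw [pow_one] at this
  rw [this]
  simp

theorem isUnit_intCast {m : ℤ} (hm : ¬ (p : ℤ) ∣ m) : IsUnit (m : O p) := by
  have h1 : padicNorm p (m : ℚ) = 1 := (padicNorm.int_eq_one_iff m).2 hm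
  have h0 : (m : ℚ) ≠ 0 := by
    intro h
    rw [h, padicNorm.zero] at h1
    exact zero_ne_one h1
  have h2 : padicNorm p ((m : ℚ)⁻¹) ≤ 1 := by
    have h3 : padicNorm p ((1 : ℚ) / m) ≤ 1 := by
      rw [padicNorm.div, padicNorm.one, h1, div_one]
    rwa [one_div] at h3
  refine IsUnit.of_mul_eq_one ⟨(m : ℚ)⁻¹, h2⟩ ?_
  apply val_injective
  push_cast
  exact mul_inv_cancel₀ h0

theorem isUnit_natCast {m : ℕ} (hm : ¬ p ∣ m) : IsUnit (m : O p) := by
  have := isUnit_intCast (p := p) (m := (m : ℤ)) (by exact_mod_cast hm)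
  simpa using this

theorem isUnit_of_lt {m : ℕ} (h0 : 0 < m) (h : m < p) : IsUnit (m : O p) :=
  isUnit_natCast (Nat.not_dvd_of_pos_of_lt h0 h)

theorem isUnit_two (hp2 : p ≠ 2) : IsUnit (2 : O p) := by
  have := isUnit_natCast (p := p) (m := 2)
    (fun h => hp2 ((Nat.prime_dvd_prime_iff_eq hp.out Nat.prime_two).1 h))
  simpa using this

theorem isUnit_three (hp3 : p ≠ 3) : IsUnit (3 : O p) := by
  have := isUnit_natCast (p := p) (m := 3)
    (fun h => hp3 ((Nat.prime_dvd_prime_iff_eq hp.out Nat.prime_three).1 h))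
  simpa using this

variable (p)

/-! ### the residue map -/

theorem norm_coe (x : ℚ) : ‖((x : ℚ) : ℚ_[p])‖ = ((padicNorm p x : ℚ) : ℝ) :=
  Padic.eq_padicNorm x

/-- the inclusion `ℤ_(p) → ℤ_p`. -/
noncomputable def toZp : O p →+* ℤ_[p] where
  toFun x := ⟨((x : ℚ) : ℚ_[p]), by
    rw [norm_coe]
    exact_mod_cast x.2⟩
  map_one' := by
    apply Subtype.ext
    change (((1 : O p) : ℚ) : ℚ_[p]) = 1
    push_cast
    rfl
  map_mul' := by
    intro x y
    apply Subtype.ext
    change (((x * y : O p) : ℚ) : ℚ_[p]) = ((x : ℚ) : ℚ_[p]) * ((y : ℚ) : ℚ_[p])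
    push_cast
    rfl
  map_zero' := by
    apply Subtype.ext
    change (((0 : O p) : ℚ) : ℚ_[p]) = 0
    push_cast
    rfl
  map_add' := by
    intro x y
    apply Subtype.ext
    change (((x + y : O p) : ℚ) : ℚ_[p]) = ((x : ℚ) : ℚ_[p]) + ((y : ℚ) : ℚ_[p])
    push_cast
    rfl

/-- the residue map `ℤ_(p) → 𝔽_p`. -/
noncomputable def res : O p →+* ZMod p := (PadicInt.toZMod (p := p)).comp (toZp p)

theorem res_ker (x : O p) (h : res p x = 0) : (p : O p) ∣ x := by
  have h1 : toZp p x ∈ RingHom.ker (PadicInt.toZMod (p := p)) := h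
  rw [PadicInt.ker_toZMod, PadicInt.maximalIdeal_eq_span_p] at h1
  have h3 : ‖toZp p x‖ ≤ (p : ℝ) ^ (-((1 : ℕ) : ℤ)) := by
    rw [PadicInt.norm_le_pow_iff_mem_span_pow, pow_one]
    exact h1
  rw [dvd_iff]
  have h4 : ‖toZp p x‖ = ((padicNorm p (x : ℚ) : ℚ) : ℝ) := norm_coe p (x : ℚ)
  rw [h4, Nat.cast_one, zpow_neg_one] at h3
  have h5 : ((padicNorm p (x : ℚ) : ℚ) : ℝ) ≤ (((p : ℚ)⁻¹ : ℚ) : ℝ) := by
    rw [Rat.cast_inv, Rat.cast_natCast]
    exact h3
  exact Rat.cast_le.1 h5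

/-! ### the moments -/

theorem isUnit_nine (hp5 : 5 ≤ p) : IsUnit (9 : O p) := by
  have h := isUnit_three (p := p) (by omega)
  have : (9 : O p) = 3 * 3 := by norm_num
  rw [this]
  exact h.mul h

/-- the moments of `ψ_∞` are `p`-integral for `p ≥ 5`. -/
theorem mu_mem (hp5 : 5 ≤ p) (k : ℕ) : PsiInf.mu k ∈ O p := by
  obtain ⟨u, hu⟩ := (isUnit_nine p hp5).exists_right_inv
  obtain ⟨t, ht⟩ := (isUnit_two (p := p) (by omega)).exists_right_inv
  obtain ⟨s, hs⟩ := (isUnit_three (p := p) (by omega)).exists_right_inv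
  obtain ⟨a, ha, h0, h1, h2⟩ := FuncLx170.exists_key u (0 : O p) (-(t * s)) (7 * (t * s * s * s)) hu
  have e2 : (2 : ℚ) * (t : ℚ) = 1 := by
    have := congrArg (O p).subtype ht
    rw [map_mul, map_ofNat, map_one] at this
    exact this
  have e3 : (3 : ℚ) * (s : ℚ) = 1 := by
    have := congrArg (O p).subtype hs
    rw [map_mul, map_ofNat, map_one] at this
    exact this
  have et : (t : ℚ) = 1 / 2 := by linarith
  have es : (s : ℚ) = 1 / 3 := by linarith
  have e7 : ((7 : O p) : ℚ) = 7 := map_ofNat (O p).subtype 7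
  have hmu : (fun k => ((a k : O p) : ℚ)) = fun k => ((PsiInf.mu k : ℚ) : ℚ) := by
    apply PsiInf.mu_unique
    · intro P
      have h := ha.map (O p).subtype
      have h3 := h P
      exact h3
    · rw [h0]; simp
    · rw [h0, h1]
      push_cast
      rw [et, es]
      try rw [e7]
      norm_num
    · rw [h0, h1, h2]
      push_cast
      rw [et, es]
      try rw [e7]
      norm_num
  have h := congrFun hmu k
  have h' : ((a k : O p) : ℚ) = PsiInf.mu k := h.trans (Rat.cast_id _)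
  rw [← h']
  exact (a k).2

/-- the moments in `O p`. -/
noncomputable def muO (hp5 : 5 ≤ p) (k : ℕ) : O p := ⟨PsiInf.mu k, mu_mem p hp5 k⟩

@[simp] theorem muO_coe (hp5 : 5 ≤ p) (k : ℕ) : ((muO p hp5 k : O p) : ℚ) = PsiInf.mu k := rfl

theorem lin_rat (m : ℕ → ℚ) : P4Row.lin m = PsiInf.lin m := rfl

theorem lin_muO_coe (hp5 : 5 ≤ p) (P : (O p)[X]) :
    ((P4Row.lin (muO p hp5) P : O p) : ℚ) = PsiInf.lin PsiInf.mu (P.map (O p).subtype) := by
  have h := P4Row.lin_map (O p).subtype (muO p hp5) P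
  rw [← lin_rat]
  exact h.symm

/-- the key identity (FuncL form). -/
theorem key_muO (hp5 : 5 ≤ p) : FuncLx170.Key (muO p hp5) := by
  intro P
  apply val_injective
  change ((P4Row.lin (muO p hp5) _ : O p) : ℚ) = ((0 : O p) : ℚ)
  rw [lin_muO_coe]
  have h := PsiInf.key_mu (P.map (O p).subtype)
  have e : (X ^ 3 * P + (2 * X + 1) ^ 3 * P.comp (X + 1)).map (O p).subtype
      = X ^ 3 * P.map (O p).subtype + (2 * X + 1) ^ 3 * (P.map (O p).subtype).comp (X + 1) := by
    simp only [Polynomial.map_add, Polynomial.map_mul, Polynomial.map_pow, Polynomial.map_X,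
      Polynomial.map_one, Polynomial.map_ofNat, Polynomial.map_comp]
  rw [e, h]
  rfl

theorem muO_zero (hp5 : 5 ≤ p) : muO p hp5 0 = 0 := by
  apply val_injective
  change PsiInf.mu 0 = ((0 : O p) : ℚ)
  rw [PsiInf.mu_zero]
  rfl

theorem muO_one (hp5 : 5 ≤ p) : 6 * muO p hp5 1 = -1 := by
  apply val_injective
  change (O p).subtype (6 * muO p hp5 1) = (O p).subtype (-1)
  rw [map_mul, map_ofNat, map_neg, map_one]
  change (6 : ℚ) * PsiInf.mu 1 = -1
  rw [PsiInf.mu_one]
  norm_num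

theorem muO_two (hp5 : 5 ≤ p) : 54 * muO p hp5 2 = 7 := by
  apply val_injective
  change (O p).subtype (54 * muO p hp5 2) = (O p).subtype 7
  rw [map_mul, map_ofNat, map_ofNat]
  change (54 : ℚ) * PsiInf.mu 2 = 7
  rw [PsiInf.mu_two]
  norm_num

theorem lin_eq_Lam {A : Type*} [CommRing A] (m : ℕ → A) :
    P4Row.lin m = FuncLx170.Lam m := by
  apply FuncLx170.Lam_unique
  intro i
  rw [P4Row.lin_eq_sum m (X ^ i) (n := i + 1) (by
    rw [← Nat.succ_eq_add_one]
    exact Nat.lt_succ_of_le (natDegree_X_pow_le i)), Finset.sum_eq_single i]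
  · simp
  · intro j _ hj
    rw [coeff_X_pow, if_neg hj, zero_mul]
  · intro h
    exact absurd (Finset.mem_range.2 (Nat.lt_succ_self i)) h

/-- 255's structure. -/
theorem isMom_muO (hp5 : 5 ≤ p) : LemL255.IsMom (P4Row.lin (muO p hp5)) where
  key := by rw [lin_eq_Lam]; exact key_muO p hp5
  m0 := by rw [lin_eq_Lam, FuncLx170.Lam_one, muO_zero]
  m1 := by rw [lin_eq_Lam, FuncLx170.Lam_X, muO_one]
  m2 := by rw [lin_eq_Lam, FuncLx170.Lam_X_pow, muO_two]

/-! ### the ring `PowerSeries ℚ[X]` -/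

/-- the structure map `O p → ℚ[X][[ε]]`. -/
noncomputable def phi : O p →+* PowerSeries ℚ[X] :=
  (PowerSeries.C (R := ℚ[X])).comp ((Polynomial.C (R := ℚ)).comp (O p).subtype)

theorem phi_apply (x : O p) : phi p x = PowerSeries.C (Polynomial.C (x : ℚ)) := rfl

theorem coeff_phi (x : O p) (j : ℕ) :
    PowerSeries.coeff j (phi p x) = if j = 0 then Polynomial.C (x : ℚ) else 0 := by
  rw [phi_apply, PowerSeries.coeff_C]

/-- `p^k ∣ x` gives `phi x` in the `k`-th step of the jet filtration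
`f ∈ FB v ↔ ∀ j, coeff j f ∈ PB (v - j)`. -/
theorem phi_mem (x : O p) (k : ℕ) (h : (p : O p) ^ k ∣ x) (j : ℕ) :
    ProdBound481.PB p ((k : ℤ) - j) (PowerSeries.coeff j (phi p x)) := by
  rw [coeff_phi]
  split_ifs with hj
  · subst hj
    apply ProdBound481.PB.C
    rw [Nat.cast_zero, sub_zero]
    exact (dvd_pow_iff x k).1 h
  · exact ProdBound481.PB.zero _

theorem phi_mem_zero (x : O p) (j : ℕ) :
    ProdBound481.PB p (-(j : ℤ)) (PowerSeries.coeff j (phi p x)) := by
  have := phi_mem p x 0 (by simp) j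
  simpa using this

theorem phi_natCast (n : ℕ) : phi p (n : O p) = (n : PowerSeries ℚ[X]) := map_natCast _ n

/-- naturality of the functional. -/
theorem lin_phi (m : ℕ → O p) (G : (O p)[X]) :
    P4Row.lin (fun k => phi p (m k)) (G.map (phi p)) = phi p (P4Row.lin m G) :=
  P4Row.lin_map (phi p) m G

/-- the moments over `ℚ[X][[ε]]`. -/
noncomputable def muB (k : ℕ) : PowerSeries ℚ[X] := PowerSeries.C (Polynomial.C (PsiInf.mu k))

theorem phi_muO (hp5 : 5 ≤ p) : (fun k => phi p (muO p hp5 k)) = muB := rfl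

theorem lin_muB (hp5 : 5 ≤ p) (G : (O p)[X]) :
    P4Row.lin muB (G.map (phi p)) = phi p (P4Row.lin (muO p hp5) G) := by
  rw [← phi_muO p hp5]
  exact lin_phi p _ G

theorem isMom_muB : LemL255.IsMom (P4Row.lin muB) where
  key := by
    rw [lin_eq_Lam]
    have h : FuncLx170.Key PsiInf.mu := fun P => by
      have := PsiInf.key_mu P
      exact this
    exact (h.map ((PowerSeries.C (R := ℚ[X])).comp (Polynomial.C (R := ℚ))))
  m0 := by
    rw [lin_eq_Lam, FuncLx170.Lam_one]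
    simp [muB]
  m1 := by
    rw [lin_eq_Lam, FuncLx170.Lam_X]
    have : (6 : ℚ) * PsiInf.mu 1 = -1 := by rw [PsiInf.mu_one]; norm_num
    have h := congrArg ((PowerSeries.C (R := ℚ[X])).comp (Polynomial.C (R := ℚ))) this
    rw [map_mul, map_neg, map_one, map_ofNat] at h
    exact h
  m2 := by
    rw [lin_eq_Lam, FuncLx170.Lam_X_pow]
    have : (54 : ℚ) * PsiInf.mu 2 = 7 := by rw [PsiInf.mu_two]; norm_num
    have h := congrArg ((PowerSeries.C (R := ℚ[X])).comp (Polynomial.C (R := ℚ))) this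
    rw [map_mul, map_ofNat, map_ofNat] at h
    exact h

end Crest.Agent.R006.P4BaseOx170
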