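import Mathlib
import Crest.Agent.R006.FuncL_170

/-!
Row 6 (S0006), block P4, leaf B (helper280; notes 2627 (3)-(5) of helper255 and 2672 (1) of
helper657).

Setting: `A` a commutative ring, `p : ℕ`, `PU A p` : `1, ..., p-1` are units of `A`
(`A = ℤ_[p]`, `Z_(p)`, `ℤ_[p][[τ]]`, ...).  `L = Lam a` is `FuncLx170.Lam a`.

* `Jc A p c = (p, X - c)`, `Ip A p = (p, θ_p)`, `θ_p = X (X-1) ... (X-p+1)`.
* `exists_idem`   : the idempotents `e_c` modulo `∏ (X - c)^J`, with `∑ e_c = 1` exactly.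
* `mem_Ip_pow`    : `f ∈ Jc c ^ k` for all `c < p` implies `f ∈ Ip ^ k`.
* `dvd_of_mem_Ip` : Lemma L in ideal form.
* `Ord.dvd`       : `f` of order `≥ t` at class `c` and `≥ K` elsewhere: `p^(min t K - 1) ∣ L f`.
* `Ord.dvd_regular` : MOVING, for the regular classes: `p^(min (t+3) K - 1) ∣ L f`.
* `dvd_idem_polar`, `dvd_idem_regular` : the same for `(X - c)^t e_c Q`.
-/

set_option autoImplicit false

open Polynomial Finset

namespace Crest.Agent.R006.P4Idem280

open Crest.Agent.R006.FuncLx170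

variable {A : Type*} [CommRing A]

/-- `1, ..., p-1` are units of `A` -/
def PU (A : Type*) [CommRing A] (p : ℕ) : Prop := ∀ a : ℕ, 0 < a → a < p → IsUnit (a : A)

/-- integers not divisible by `p` are invertible modulo `p`. -/
theorem PU.exists_inv {p : ℕ} (hU : PU A p) (hp : 0 < p) (n : ℤ) (hn : ¬ (p : ℤ) ∣ n) :
    ∃ w z : A, 1 = w * (n : A) + (p : A) * z := by
  have hp' : (0 : ℤ) < p := by exact_mod_cast hp
  obtain ⟨r, hr⟩ := Int.eq_ofNat_of_zero_le (Int.emod_nonneg n hp'.ne')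
  have hr1 := Int.emod_lt_of_pos n hp'
  have hr0 : r ≠ 0 := by
    rintro rfl
    exact hn (Int.dvd_of_emod_eq_zero (by rw [hr]; rfl))
  rw [hr] at hr1
  obtain ⟨v, hv⟩ := hU r (Nat.pos_of_ne_zero hr0) (by exact_mod_cast hr1)
  have h1 : n = p * (n / p) + r := by
    have := Int.mul_ediv_add_emod n p
    rw [hr] at this
    exact this.symm
  have h2 : (n : A) = (p : A) * ((n / p : ℤ) : A) + (v : A) := by
    rw [hv]
    exact_mod_cast congrArg (Int.cast : ℤ → A) h1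
  refine ⟨(↑v⁻¹ : A), - ((↑v⁻¹ : A) * ((n / p : ℤ) : A)), ?_⟩
  rw [h2]
  have h3 : (↑v⁻¹ : A) * (v : A) = 1 := by simp
  linear_combination -h3

/-- the ideal `(p, X - c)` -/
noncomputable def Jc (A : Type*) [CommRing A] (p : ℕ) (c : ℤ) : Ideal A[X] :=
  Ideal.span {(p : A[X]), X - (c : A[X])}

/-- the ideal `(p, θ_p)` -/
noncomputable def Ip (A : Type*) [CommRing A] (p : ℕ) : Ideal A[X] :=
  Ideal.span {(p : A[X]), theta A p}

theorem natCast_mem_Jc (p : ℕ) (c : ℤ) : (p : A[X]) ∈ Jc A p c :=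
  Ideal.subset_span (by simp)

theorem X_sub_mem_Jc (p : ℕ) (c : ℤ) : X - (c : A[X]) ∈ Jc A p c :=
  Ideal.subset_span (by simp)

theorem intCast_mem_Jc_of_dvd (p : ℕ) (c d : ℤ) (h : (p : ℤ) ∣ d) : (d : A[X]) ∈ Jc A p c := by
  obtain ⟨k, rfl⟩ := h
  push_cast
  exact Ideal.mul_mem_right _ _ (natCast_mem_Jc p c)

theorem X_sub_mem_Jc_of_dvd (p : ℕ) (c d : ℤ) (h : (p : ℤ) ∣ c - d) :
    X - (d : A[X]) ∈ Jc A p c := by
  have h1 := intCast_mem_Jc_of_dvd (A := A) p c _ h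
  have h2 := X_sub_mem_Jc (A := A) p c
  have : X - (d : A[X]) = (X - (c : A[X])) + ((c - d : ℤ) : A[X]) := by push_cast; ring
  rw [this]
  exact Ideal.add_mem _ h2 h1

theorem Jc_le_of_dvd (p : ℕ) (c d : ℤ) (h : (p : ℤ) ∣ c - d) : Jc A p d ≤ Jc A p c := by
  unfold Jc
  rw [Ideal.span_le]
  intro x hx
  simp only [Set.mem_insert_iff, Set.mem_singleton_iff] at hx
  rcases hx with rfl | rfl
  · exact natCast_mem_Jc p c
  · exact X_sub_mem_Jc_of_dvd p c d h

/-- `Jc c` depends only on the class of `c` mod `p`. -/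
theorem Jc_congr (p : ℕ) (c d : ℤ) (h : (p : ℤ) ∣ c - d) : Jc A p c = Jc A p d :=
  le_antisymm (Jc_le_of_dvd p d c (by rw [← neg_sub]; exact (dvd_neg).2 h)) (Jc_le_of_dvd p c d h)

/-- if `2X+1`-like linear polynomials are units mod `Jc`. -/
theorem exists_inv_mod_Jc {p : ℕ} (hp : 0 < p) (hU : PU A p) (c : ℤ) (g : A[X]) (n : ℤ)
    (hn : ¬ ((p : ℤ) ∣ n)) (hg : g - (n : A[X]) ∈ Jc A p c) (K : ℕ) :
    ∃ u : A[X], 1 - u * g ∈ Jc A p c ^ K := by
  obtain ⟨w0, z0, hwz⟩ := hU.exists_inv hp n hn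
  set w : A[X] := C w0 with hw
  set z : A[X] := C z0 with hz
  have hvn : 1 = w * (n : A[X]) + (p : A[X]) * z := by
    have h1 : (n : A[X]) = C ((n : ℤ) : A) := by simp
    have h2 : (p : A[X]) = C ((p : ℕ) : A) := by simp
    rw [h1, h2, hw, hz, ← C_mul, ← C_mul, ← C_add, ← hwz, C_1]
  have h1 : 1 - w * g ∈ Jc A p c := by
    have : 1 - w * g = (p : A[X]) * z - (w * (g - (n : A[X]))) := by
      linear_combination hvn
    rw [this]
    exact sub_mem (Ideal.mul_mem_right _ _ (natCast_mem_Jc p c)) (Ideal.mul_mem_left _ _ hg)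
  induction K with
  | zero => exact ⟨0, by simp⟩
  | succ K ih =>
    obtain ⟨u, hu⟩ := ih
    refine ⟨u + w - u * g * w, ?_⟩
    have : 1 - (u + w - u * g * w) * g = (1 - u * g) * (1 - w * g) := by ring
    rw [this, pow_succ]
    exact Ideal.mul_mem_mul hu h1

theorem Jc_isCoprime {p : ℕ} (hp : 0 < p) (hU : PU A p) (c d : ℤ) (h : ¬ (p : ℤ) ∣ c - d) :
    IsCoprime (Jc A p c) (Jc A p d) := by
  rw [Ideal.isCoprime_iff_exists]
  obtain ⟨w0, z0, hwz⟩ := hU.exists_inv hp _ h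
  set w : A[X] := C w0 with hw
  set z : A[X] := C z0 with hz
  have hvn : 1 = w * ((c - d : ℤ) : A[X]) + (p : A[X]) * z := by
    have h1 : ((c - d : ℤ) : A[X]) = C (((c - d : ℤ)) : A) := by simp
    have h2 : (p : A[X]) = C ((p : ℕ) : A) := by simp
    rw [h1, h2, hw, hz, ← C_mul, ← C_mul, ← C_add, ← hwz, C_1]
  refine ⟨(p : A[X]) * z - (w * (X - (c : A[X]))),
    sub_mem (Ideal.mul_mem_right _ _ (natCast_mem_Jc p c))
      (Ideal.mul_mem_left _ _ (X_sub_mem_Jc p c)),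
    w * (X - (d : A[X])), Ideal.mul_mem_left _ _ (X_sub_mem_Jc p d), ?_⟩
  push_cast at hvn
  linear_combination -hvn

/-! ### the CRT idempotents -/

theorem PU.isUnit_sub {p : ℕ} (hU : PU A p) {c d : ℕ} (hc : c < p) (hd : d < p) (h : c ≠ d) :
    IsUnit ((c : A) - (d : A)) := by
  rcases Nat.lt_or_gt_of_ne h with h1 | h1
  · have h2 := (hU (d - c) (by omega) (by omega)).neg
    rwa [Nat.cast_sub h1.le, neg_sub] at h2
  · have h2 := hU (c - d) (by omega) (by omega)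
    rwa [Nat.cast_sub h1.le] at h2

theorem isCoprime_X_sub {p : ℕ} (hU : PU A p) {c d : ℕ} (hc : c < p) (hd : d < p) (h : c ≠ d) :
    IsCoprime (X - (c : A[X])) (X - (d : A[X])) := by
  have := Polynomial.isCoprime_X_sub_C_of_isUnit_sub (hU.isUnit_sub hc hd h)
  simpa using this

theorem not_dvd_of_lt {p c d : ℕ} (hc : c < p) (hd : d < p) (h : c ≠ d) :
    ¬ (p : ℤ) ∣ (c : ℤ) - d := by
  intro h1
  have h2 : ((c : ℤ) - d) = 0 := by
    apply Int.eq_zero_of_abs_lt_dvd h1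
    rw [abs_lt]
    omega
  omega

/-- the idempotents modulo `∏_{c<p} (X - c)^J` -/
theorem exists_idem {p : ℕ} (hp : 0 < p) (hU : PU A p) (J : ℕ) :
    ∃ e : ℕ → A[X], (∀ c < p, (X - (c : A[X])) ^ J ∣ e c - 1) ∧
      (∀ c < p, ∀ d < p, c ≠ d → (X - (d : A[X])) ^ J ∣ e c) ∧ ∑ c ∈ range p, e c = 1 := by
  classical
  -- first, idempotents without the exact sum
  have key : ∀ c < p, ∃ e : A[X], (X - (c : A[X])) ^ J ∣ e - 1 ∧
      ∀ d < p, c ≠ d → (X - (d : A[X])) ^ J ∣ e := by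
    intro c hc
    have hcop : IsCoprime ((X - (c : A[X])) ^ J)
        (∏ d ∈ (range p).erase c, (X - (d : A[X])) ^ J) := by
      apply IsCoprime.prod_right
      intro d hd
      rw [Finset.mem_erase, Finset.mem_range] at hd
      apply IsCoprime.pow
      exact isCoprime_X_sub hU hc hd.2 (Ne.symm hd.1)
    obtain ⟨u, v, huv⟩ := hcop
    refine ⟨v * ∏ d ∈ (range p).erase c, (X - (d : A[X])) ^ J, ⟨- u, ?_⟩, ?_⟩
    · linear_combination huv
    · intro d hd hcd
      apply Dvd.dvd.mul_left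
      exact Finset.dvd_prod_of_mem _ (by simp [hd, Ne.symm hcd])
  choose! e he1 he2 using key
  set S := ∑ c ∈ range p, e c with hS
  have hdS : ∀ d < p, (X - (d : A[X])) ^ J ∣ S - 1 := by
    intro d hd
    rw [hS, ← Finset.add_sum_erase _ _ (Finset.mem_range.2 hd)]
    have h1 := he1 d hd
    have h2 : (X - (d : A[X])) ^ J ∣ ∑ c ∈ (range p).erase d, e c := by
      apply Finset.dvd_sum
      intro c hc
      rw [Finset.mem_erase, Finset.mem_range] at hc
      exact he2 c hc.2 d hd hc.1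
    have h3 : e d + ∑ c ∈ (range p).erase d, e c - 1
        = (e d - 1) + ∑ c ∈ (range p).erase d, e c := by ring
    rw [h3]
    exact dvd_add h1 h2
  refine ⟨fun c => if c = 0 then e 0 + (1 - S) else e c, ?_, ?_, ?_⟩
  · intro c hc
    by_cases h0 : c = 0
    · subst h0
      simp only [if_true]
      have h3 : e 0 + (1 - S) - 1 = (e 0 - 1) - (S - 1) := by ring
      rw [h3]
      exact dvd_sub (he1 0 hc) (hdS 0 hc)
    · simp only [h0, if_false]
      exact he1 c hc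
  · intro c hc d hd hcd
    by_cases h0 : c = 0
    · subst h0
      simp only [if_true]
      have h3 : e 0 + (1 - S) = e 0 - (S - 1) := by ring
      rw [h3]
      exact dvd_sub (he2 0 hc d hd hcd) (hdS d hd)
    · simp only [h0, if_false]
      exact he2 c hc d hd hcd
  · have h0 : (0 : ℕ) ∈ range p := Finset.mem_range.2 hp
    rw [← Finset.add_sum_erase _ _ h0]
    simp only [if_true]
    have h1 : ∑ c ∈ (range p).erase 0, (if c = 0 then e 0 + (1 - S) else e c)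
        = ∑ c ∈ (range p).erase 0, e c := by
      apply Finset.sum_congr rfl
      intro c hc
      rw [Finset.mem_erase] at hc
      simp [hc.1]
    rw [h1]
    have h2 := Finset.add_sum_erase (range p) e h0
    rw [← hS] at h2
    linear_combination h2

/-- divisibility by a power of `θ_p` from divisibility at all classes -/
theorem theta_pow_dvd {p : ℕ} (hU : PU A p) (f : A[X]) (t : ℕ)
    (h : ∀ c < p, (X - (c : A[X])) ^ t ∣ f) : theta A p ^ t ∣ f := by
  unfold theta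
  rw [← Finset.prod_pow]
  apply Finset.prod_dvd_of_coprime
  · intro c hc d hd hcd
    simp only [Finset.coe_range, Set.mem_Iio] at hc hd
    apply IsCoprime.pow
    exact isCoprime_X_sub hU hc hd hcd
  · intro c hc
    exact h c (Finset.mem_range.1 hc)

/-! ### ideals -/

theorem prod_Jc_le (p : ℕ) (s : Finset ℕ) :
    ∏ c ∈ s, Jc A p (c : ℤ) ≤ Ideal.span {(p : A[X]), ∏ c ∈ s, (X - (c : A[X]))} := by
  classical
  induction s using Finset.induction with
  | empty =>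
    simp only [Finset.prod_empty, Ideal.one_eq_top]
    intro x _
    have : (1 : A[X]) ∈ Ideal.span {(p : A[X]), (1 : A[X])} := Ideal.subset_span (by simp)
    rw [Ideal.eq_top_of_isUnit_mem _ this isUnit_one]
    trivial
  | insert c s hc ih =>
    rw [Finset.prod_insert hc, Finset.prod_insert hc]
    refine le_trans (Ideal.mul_mono_right ih) ?_
    unfold Jc
    rw [Ideal.span_mul_span', Ideal.span_le]
    intro x hx
    simp only [Set.mem_mul, Set.mem_insert_iff, Set.mem_singleton_iff] at hx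
    have hp1 : (p : A[X]) ∈ Ideal.span {(p : A[X]), (X - (c : A[X])) * ∏ c ∈ s, (X - (c : A[X]))} :=
      Ideal.subset_span (by simp)
    have hp2 : (X - (c : A[X])) * ∏ c ∈ s, (X - (c : A[X]))
        ∈ Ideal.span {(p : A[X]), (X - (c : A[X])) * ∏ c ∈ s, (X - (c : A[X]))} :=
      Ideal.subset_span (by simp)
    obtain ⟨y, hy, z, hz, rfl⟩ := hx
    rcases hy with rfl | rfl
    · exact Ideal.mul_mem_right _ _ hp1
    · rcases hz with rfl | rfl
      · exact Ideal.mul_mem_left _ _ hp1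
      · push_cast
        exact hp2

/-- order `≥ k` at every class implies membership in `(p, θ)^k`. -/
theorem mem_Ip_pow {p : ℕ} (hp : 0 < p) (hU : PU A p) (f : A[X]) (k : ℕ)
    (h : ∀ c < p, f ∈ Jc A p (c : ℤ) ^ k) : f ∈ Ip A p ^ k := by
  have h1 : f ∈ ∏ c ∈ range p, Jc A p (c : ℤ) ^ k := by
    rw [Ideal.prod_eq_iInf_of_pairwise_isCoprime]
    · simp only [Ideal.mem_iInf, Finset.mem_range]
      exact h
    · intro c hc d hd hcd
      simp only [Finset.coe_range, Set.mem_Iio] at hc hd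
      exact IsCoprime.pow (Jc_isCoprime hp hU _ _ (not_dvd_of_lt hc hd hcd))
  rw [Finset.prod_pow] at h1
  exact Ideal.pow_right_mono (prod_Jc_le p (range p)) k h1

/-! ### Lemma L for ideals -/

theorem dvd_aux {p : ℕ} {a : ℕ → A}
    (hL : ∀ (k : ℕ) (Q : A[X]), (p : A) ^ (k - 1) ∣ Lam a (theta A p ^ k * Q)) (k : ℕ) :
    ∀ f ∈ Ip A p ^ k, ∀ (i : ℕ) (g : A[X]), (p : A) ^ (i + k - 1) ∣ Lam a (theta A p ^ i * f * g) := by
  induction k with
  | zero =>
    intro f _ i g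
    rw [mul_assoc]
    exact hL i _
  | succ k ih =>
    intro f hf
    rw [pow_succ'] at hf
    refine Submodule.mul_induction_on hf ?_ ?_
    · intro x hx y hy i g
      unfold Ip at hx
      rw [Ideal.mem_span_pair] at hx
      obtain ⟨u, v, rfl⟩ := hx
      have e1 : theta A p ^ i * ((u * (p : A[X]) + v * theta A p) * y) * g
          = (p : A[X]) * (theta A p ^ i * y * (u * g)) + theta A p ^ (i + 1) * y * (v * g) := by
        ring
      rw [e1, map_add, Lam_natCast_mul]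
      apply dvd_add
      · have h1 := ih y hy i (u * g)
        have h2 : (p : A) ^ (i + (k + 1) - 1) ∣ (p : A) * (p : A) ^ (i + k - 1) := by
          rw [← pow_succ']
          exact pow_dvd_pow _ (by omega)
        exact h2.trans (mul_dvd_mul_left _ h1)
      · have h1 := ih y hy (i + 1) (v * g)
        have h2 : i + (k + 1) - 1 = i + 1 + k - 1 := by omega
        rw [h2]
        exact h1
    · intro x y hx hy i g
      have e1 : theta A p ^ i * (x + y) * g = theta A p ^ i * x * g + theta A p ^ i * y * g := by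
        ring
      rw [e1, map_add]
      exact dvd_add (hx i g) (hy i g)

/-- Lemma L, ideal form. -/
theorem dvd_of_mem_Ip {p : ℕ} {a : ℕ → A}
    (hL : ∀ (k : ℕ) (Q : A[X]), (p : A) ^ (k - 1) ∣ Lam a (theta A p ^ k * Q)) (k : ℕ)
    (f : A[X]) (hf : f ∈ Ip A p ^ k) : (p : A) ^ (k - 1) ∣ Lam a f := by
  have := dvd_aux hL k f hf 0 1
  simpa using this

/-! ### concentrated polynomials, moving -/

/-- `f` has order `≥ t` at the class of `c` and order `≥ K` at all other classes. -/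
def Ord (A : Type*) [CommRing A] (p : ℕ) (c : ℤ) (t K : ℕ) (f : A[X]) : Prop :=
  f ∈ Jc A p c ^ t ∧ ∀ d : ℤ, ¬ (p : ℤ) ∣ c - d → f ∈ Jc A p d ^ K

theorem Ord.mul_left {p : ℕ} {c : ℤ} {t K : ℕ} {f : A[X]} (h : Ord A p c t K f) (g : A[X]) :
    Ord A p c t K (g * f) :=
  ⟨Ideal.mul_mem_left _ _ h.1, fun d hd => Ideal.mul_mem_left _ _ (h.2 d hd)⟩

theorem Ord.mem_Ip {p : ℕ} (hp : 0 < p) (hU : PU A p) {c : ℤ} {t K : ℕ} {f : A[X]} (h : Ord A p c t K f) :
    f ∈ Ip A p ^ (min t K) := by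
  apply mem_Ip_pow hp hU
  intro d _
  by_cases hd : (p : ℤ) ∣ c - (d : ℤ)
  · rw [← Jc_congr p c d hd]
    exact Ideal.pow_le_pow_right (min_le_left _ _) h.1
  · exact Ideal.pow_le_pow_right (min_le_right _ _) (h.2 _ hd)

/-- polar (general) classes. -/
theorem Ord.dvd {p : ℕ} (hp : 0 < p) (hU : PU A p) {a : ℕ → A}
    (hL : ∀ (k : ℕ) (Q : A[X]), (p : A) ^ (k - 1) ∣ Lam a (theta A p ^ k * Q))
    {c : ℤ} {t K : ℕ} {f : A[X]} (h : Ord A p c t K f) :
    (p : A) ^ (min t K - 1) ∣ Lam a f :=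
  dvd_of_mem_Ip hL _ f (h.mem_Ip hp hU)

theorem comp_mem_Jc_pow (p : ℕ) (c : ℤ) (k : ℕ) {f : A[X]} (h : f ∈ Jc A p c ^ k) :
    f.comp (X - 1) ∈ Jc A p (c + 1) ^ k := by
  have h1 := Ideal.mem_map_of_mem (Polynomial.compRingHom (X - 1 : A[X])) h
  rw [Ideal.map_pow] at h1
  refine Ideal.pow_right_mono ?_ k h1
  unfold Jc
  rw [Ideal.map_span, Ideal.span_le]
  rintro x ⟨y, hy, rfl⟩
  simp only [Set.mem_insert_iff, Set.mem_singleton_iff] at hy
  rcases hy with rfl | rfl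
  · simp only [Polynomial.coe_compRingHom_apply, natCast_comp]
    exact natCast_mem_Jc p (c + 1)
  · have h2 := X_sub_mem_Jc (A := A) p (c + 1)
    have h3 : (Polynomial.compRingHom (X - 1 : A[X])) (X - (c : A[X]))
        = X - ((c + 1 : ℤ) : A[X]) := by
      simp only [Polynomial.coe_compRingHom_apply, sub_comp, X_comp, intCast_comp]
      push_cast
      ring
    rw [h3]
    exact h2

/-- the basic moving step: if `2X+1` is a unit at the class `c`. -/
theorem Ord.move {p : ℕ} (hp : 0 < p) (hU : PU A p) {a : ℕ → A} (hK : Key a)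
    (hL : ∀ (k : ℕ) (Q : A[X]), (p : A) ^ (k - 1) ∣ Lam a (theta A p ^ k * Q))
    {c : ℤ} {t K : ℕ} {f : A[X]} (h : Ord A p c t K f) (hc : ¬ (p : ℤ) ∣ 2 * c + 1) :
    ∃ P : A[X], Ord A p (c + 1) t K P ∧ (p : A) ^ (K - 1) ∣ Lam a f + Lam a (X ^ 3 * P) := by
  have h1 : (2 * X + 1 : A[X]) - ((2 * c + 1 : ℤ) : A[X]) ∈ Jc A p c := by
    have : (2 * X + 1 : A[X]) - ((2 * c + 1 : ℤ) : A[X]) = 2 * (X - (c : A[X])) := by
      push_cast; ring
    rw [this]
    exact Ideal.mul_mem_left _ _ (X_sub_mem_Jc p c)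
  -- the inverse of `(2X+1)^3` modulo `Jc ^ K`
  obtain ⟨u0, hu0⟩ := exists_inv_mod_Jc hp hU c (2 * X + 1) (2 * c + 1) hc h1 K
  have hu : 1 - u0 ^ 3 * (2 * X + 1) ^ 3 ∈ Jc A p c ^ K := by
    have : 1 - u0 ^ 3 * (2 * X + 1) ^ 3
        = (1 + u0 * (2 * X + 1) + (u0 * (2 * X + 1)) ^ 2) * (1 - u0 * (2 * X + 1)) := by ring
    rw [this]
    exact Ideal.mul_mem_left _ _ hu0
  set u := u0 ^ 3 with hudef
  refine ⟨(u * f).comp (X - 1), ⟨comp_mem_Jc_pow p c t (Ideal.mul_mem_left _ _ h.1), ?_⟩, ?_⟩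
  · intro d hd
    have h2 := comp_mem_Jc_pow p (d - 1) K
      (Ideal.mul_mem_left _ u (h.2 (d - 1) (by
        intro h3; apply hd; convert h3 using 1; ring)))
    rwa [sub_add_cancel] at h2
  · have h2 : (((u * f).comp (X - 1)).comp (X + 1) : A[X]) = u * f := by
      rw [comp_assoc]
      simp
    have h3 := hK.apply ((u * f).comp (X - 1))
    rw [h2] at h3
    rw [h3]
    have h4 : Lam a f + - Lam a ((2 * X + 1) ^ 3 * (u * f))
        = Lam a ((1 - u * (2 * X + 1) ^ 3) * f) := by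
      rw [← sub_eq_add_neg, ← map_sub]
      congr 1
      ring
    rw [h4]
    have h5 : (1 - u * (2 * X + 1) ^ 3) * f ∈ Ip A p ^ K := by
      apply mem_Ip_pow hp hU
      intro d _
      by_cases hd : (p : ℤ) ∣ c - (d : ℤ)
      · rw [← Jc_congr p c d hd]
        exact Ideal.mul_mem_right _ _ hu
      · exact Ideal.mul_mem_left _ _ (h.2 _ hd)
    exact dvd_of_mem_Ip hL K _ h5

theorem Ord.X_pow_three {p : ℕ} {t K : ℕ} {f : A[X]} (h : Ord A p 0 t K f) :
    Ord A p 0 (t + 3) K (X ^ 3 * f) := by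
  refine ⟨?_, fun d hd => Ideal.mul_mem_left _ _ (h.2 d hd)⟩
  rw [mul_comm, pow_add]
  refine Ideal.mul_mem_mul h.1 ?_
  have := X_sub_mem_Jc (A := A) p 0
  simp only [Int.cast_zero, sub_zero] at this
  exact Ideal.pow_mem_pow this 3

/-- MOVING: the classes `-m`, `1 ≤ m`, `2 m < p` (the regular classes). -/
theorem Ord.dvd_neg {p : ℕ} (hp : 0 < p) (hU : PU A p) {a : ℕ → A} (hK : Key a)
    (hL : ∀ (k : ℕ) (Q : A[X]), (p : A) ^ (k - 1) ∣ Lam a (theta A p ^ k * Q)) (m : ℕ) :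
    1 ≤ m → 2 * m < p → ∀ (t K : ℕ) (f : A[X]), Ord A p (-(m : ℤ)) t K f →
      (p : A) ^ (min (t + 3) K - 1) ∣ Lam a f := by
  induction m with
  | zero => intro h; omega
  | succ m ih =>
    intro _ hm t K f hf
    have hc : ¬ (p : ℤ) ∣ 2 * (-((m + 1 : ℕ) : ℤ)) + 1 := by
      intro h1
      have h2 : 2 * (-((m + 1 : ℕ) : ℤ)) + 1 = 0 := by
        apply Int.eq_zero_of_abs_lt_dvd h1
        rw [abs_lt]
        push_cast
        omega
      push_cast at h2
      omega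
    obtain ⟨P, hP, hdiv⟩ := Ord.move hp hU hK hL hf hc
    have e1 : -((m + 1 : ℕ) : ℤ) + 1 = -(m : ℤ) := by push_cast; ring
    rw [e1] at hP
    have h1 : (p : A) ^ (min (t + 3) K - 1) ∣ Lam a (X ^ 3 * P) := by
      rcases Nat.eq_zero_or_pos m with h0 | h0
      · subst h0
        simp only [Nat.cast_zero, neg_zero] at hP
        exact Ord.dvd hp hU hL hP.X_pow_three
      · exact ih h0 (by omega) t K _ (hP.mul_left _)
    have h2 : (p : A) ^ (min (t + 3) K - 1) ∣ Lam a f + Lam a (X ^ 3 * P) :=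
      (pow_dvd_pow _ (by omega)).trans hdiv
    have h3 := dvd_sub h2 h1
    rwa [add_sub_cancel_right] at h3

/-- MOVING, for the regular classes `p/2 < c < p`. -/
theorem Ord.dvd_regular {p : ℕ} (hp : 0 < p) (hU : PU A p) {a : ℕ → A} (hK : Key a)
    (hL : ∀ (k : ℕ) (Q : A[X]), (p : A) ^ (k - 1) ∣ Lam a (theta A p ^ k * Q)) {c : ℕ}
    (hc1 : p < 2 * c) (hc2 : c < p) {t K : ℕ} {f : A[X]} (h : Ord A p (c : ℤ) t K f) :
    (p : A) ^ (min (t + 3) K - 1) ∣ Lam a f := by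
  apply Ord.dvd_neg hp hU hK hL (p - c) (by omega) (by omega) t K f
  have e1 : (p : ℤ) ∣ (c : ℤ) - (-((p - c : ℕ) : ℤ)) := by
    rw [Nat.cast_sub hc2.le]
    exact ⟨1, by ring⟩
  refine ⟨?_, ?_⟩
  · rw [← Jc_congr p _ _ e1]
    exact h.1
  · intro d hd
    apply h.2 d
    intro h3
    apply hd
    have h4 := dvd_sub h3 e1
    have h5 : (c : ℤ) - d - ((c : ℤ) - (-((p - c : ℕ) : ℤ))) = -((p - c : ℕ) : ℤ) - d := by ring
    rwa [h5] at h4

/-! ### from literal divisibility -/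

theorem mem_Jc_pow_of_dvd (p : ℕ) (c : ℤ) (k : ℕ) {f : A[X]} (h : (X - (c : A[X])) ^ k ∣ f) :
    f ∈ Jc A p c ^ k := by
  obtain ⟨g, rfl⟩ := h
  exact Ideal.mul_mem_right _ _ (Ideal.pow_mem_pow (X_sub_mem_Jc p c) k)

theorem Ord.of_dvd {p : ℕ} (hp : 0 < p) {c : ℕ} {t K : ℕ} {f : A[X]}
    (h1 : (X - (c : A[X])) ^ t ∣ f) (h2 : ∀ d < p, c ≠ d → (X - (d : A[X])) ^ K ∣ f) :
    Ord A p (c : ℤ) t K f := by
  refine ⟨mem_Jc_pow_of_dvd p _ _ (by simpa using h1), ?_⟩
  intro d hd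
  -- the representative of `d` in `[0, p)`
  have hp' : (0 : ℤ) < p := by exact_mod_cast hp
  have hr0 := Int.emod_nonneg d hp'.ne'
  have hr1 := Int.emod_lt_of_pos d hp'
  obtain ⟨r, hr⟩ := Int.eq_ofNat_of_zero_le hr0
  have hrd : (p : ℤ) ∣ (r : ℤ) - d := by
    rw [← hr]
    exact ⟨-(d / p), by rw [Int.emod_def]; ring⟩
  rw [← Jc_congr p _ _ hrd]
  apply mem_Jc_pow_of_dvd
  have hrp : r < p := by rw [hr] at hr1; exact_mod_cast hr1
  have hcr : c ≠ r := by
    rintro rfl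
    exact hd hrd
  simpa using h2 r hrp hcr

/-- polar (all) classes: `p^(t-1) ∣ L((X-c)^t e_c Q)` for `t ≤ J`. -/
theorem dvd_idem_polar {p : ℕ} (hp : 0 < p) (hU : PU A p) {a : ℕ → A}
    (hL : ∀ (k : ℕ) (Q : A[X]), (p : A) ^ (k - 1) ∣ Lam a (theta A p ^ k * Q)) {J : ℕ}
    {e : ℕ → A[X]} (he : ∀ c < p, ∀ d < p, c ≠ d → (X - (d : A[X])) ^ J ∣ e c) {c : ℕ}
    (hc : c < p) {t : ℕ} (ht : t ≤ J) (Q : A[X]) :
    (p : A) ^ (t - 1) ∣ Lam a ((X - (c : A[X])) ^ t * e c * Q) := by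
  have h : Ord A p (c : ℤ) t J ((X - (c : A[X])) ^ t * e c * Q) := by
    apply Ord.of_dvd hp ((Dvd.intro _ rfl).mul_right Q)
    intro d hd hcd
    exact ((he c hc d hd hcd).mul_left _).mul_right _
  have := h.dvd hp hU hL
  rwa [min_eq_left ht] at this

/-- regular classes: `p^(t+2) ∣ L((X-c)^t e_c Q)` for `t + 3 ≤ J`. -/
theorem dvd_idem_regular {p : ℕ} (hp : 0 < p) (hU : PU A p) {a : ℕ → A} (hK : Key a)
    (hL : ∀ (k : ℕ) (Q : A[X]), (p : A) ^ (k - 1) ∣ Lam a (theta A p ^ k * Q)) {J : ℕ}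
    {e : ℕ → A[X]} (he : ∀ c < p, ∀ d < p, c ≠ d → (X - (d : A[X])) ^ J ∣ e c) {c : ℕ}
    (hc1 : p < 2 * c) (hc : c < p) {t : ℕ} (ht : t + 3 ≤ J) (Q : A[X]) :
    (p : A) ^ (t + 2) ∣ Lam a ((X - (c : A[X])) ^ t * e c * Q) := by
  have h : Ord A p (c : ℤ) t J ((X - (c : A[X])) ^ t * e c * Q) := by
    apply Ord.of_dvd hp ((Dvd.intro _ rfl).mul_right Q)
    intro d hd hcd
    exact ((he c hc d hd hcd).mul_left _).mul_right _
  have := h.dvd_regular hp hU hK hL hc1 hc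
  rw [min_eq_left ht] at this
  exact this

end Crest.Agent.R006.P4Idem280
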