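import Mathlib
import Crest.Agent.R006.P4Idem_280
import Crest.Agent.R006.P4_LemG_255

/-!
Row 6 (S0006), block P4, input (L1): the CLASS VERSION of Lemma L (helper280), in the interface
proposed by helper255 / helper110.

`ClassData p N L e`: the CRT idempotents `e_c` (`c < p`) of `O[X]` modulo `∏ (X - c)^N`, with
`∑ e_c = 1`, and the divisibility of `L (e_c F)`:
* `neg`  : `F` of order `≥ N` at all classes gives `p^(N-1) ∣ L F`;
* `polar`: `F ∈ (p, X-c)^x` gives `p^(min x N - 1) ∣ L (e_c F)` for every class;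
* `regular`: for `p < 2c`: `p^(min (x+3) N - 1) ∣ L (e_c F)`.

`exists_classData`: existence for every ring `O` in which `1, ..., p-1`, and `2`, `3` are units and
every moment functional `L` with `IsMom L` (LemL255).
-/

set_option autoImplicit false

open Polynomial Finset

namespace Crest.Agent.R006.P4Class280

open Crest.Agent.R006.P4Idem280

variable {O : Type*} [CommRing O]

/-- the ideal `(p, X - c)`, `c : ℕ` (helper255's form) -/
noncomputable def J (O : Type*) [CommRing O] (p c : ℕ) : Ideal O[X] :=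
  Ideal.span {C (p : O), X - C (c : O)}

theorem J_eq (p c : ℕ) : J O p c = Jc O p (c : ℤ) := by
  unfold J Jc
  simp

theorem theta_eq (p : ℕ) : LemL255.theta O p = FuncLx170.theta O p := by
  unfold LemL255.theta FuncLx170.theta
  simp

theorem Ith_eq (p : ℕ) : LemL255.Ith O p = Ip O p := by
  unfold LemL255.Ith Ip
  rw [theta_eq]
  simp

/-- every linear functional is a `Lam`. -/
theorem eq_Lam (L : O[X] →ₗ[O] O) : L = FuncLx170.Lam (fun i => L (X ^ i)) :=
  FuncLx170.Lam_unique _ L (fun _ => rfl)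

/-- the class data -/
structure ClassData (p N : ℕ) (L : O[X] →ₗ[O] O) (e : ℕ → O[X]) : Prop where
  sum_eq : ∑ c ∈ range p, e c = 1
  own_dvd : ∀ c < p, (X - C (c : O)) ^ N ∣ e c - 1
  other_dvd : ∀ c < p, ∀ d < p, d ≠ c → (X - C (d : O)) ^ N ∣ e c
  own : ∀ c < p, 1 - e c ∈ J O p c ^ N
  other : ∀ c < p, ∀ d < p, d ≠ c → e c ∈ J O p d ^ N
  shift : ∀ c < p, ∀ d < p, (c = d + 1 ∨ (c = 0 ∧ d + 1 = p)) →
    (e c).comp (X + 1) - e d ∈ LemL255.Ith O p ^ N
  neg : ∀ F : O[X], (∀ c < p, F ∈ J O p c ^ N) → (p : O) ^ (N - 1) ∣ L F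
  polar : ∀ c < p, ∀ (x : ℕ) (F : O[X]), F ∈ J O p c ^ x → (p : O) ^ (min x N - 1) ∣ L (e c * F)
  regular : ∀ c < p, p < 2 * c → ∀ (x : ℕ) (F : O[X]), F ∈ J O p c ^ x →
    (p : O) ^ (min (x + 3) N - 1) ∣ L (e c * F)

theorem comp_add_mem_Jc_pow (p : ℕ) (c : ℤ) (k : ℕ) {f : O[X]} (h : f ∈ Jc O p c ^ k) :
    f.comp (X + 1) ∈ Jc O p (c - 1) ^ k := by
  have h1 := Ideal.mem_map_of_mem (Polynomial.compRingHom (X + 1 : O[X])) h
  rw [Ideal.map_pow] at h1
  refine Ideal.pow_right_mono ?_ k h1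
  unfold Jc
  rw [Ideal.map_span, Ideal.span_le]
  rintro x ⟨y, hy, rfl⟩
  simp only [Set.mem_insert_iff, Set.mem_singleton_iff] at hy
  rcases hy with rfl | rfl
  · simp only [Polynomial.coe_compRingHom_apply, natCast_comp]
    exact natCast_mem_Jc p (c - 1)
  · have h2 := X_sub_mem_Jc (A := O) p (c - 1)
    have h3 : (Polynomial.compRingHom (X + 1 : O[X])) (X - (c : O[X]))
        = X - ((c - 1 : ℤ) : O[X]) := by
      simp only [Polynomial.coe_compRingHom_apply, sub_comp, X_comp, intCast_comp]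
      push_cast
      ring
    rw [h3]
    exact h2

theorem exists_classData (p : ℕ) [hp : Fact p.Prime] (hodd : Odd p) (h2u : IsUnit (2 : O))
    (h3u : IsUnit (3 : O)) (hu : ∀ a : ℕ, 0 < a → a < p → IsUnit (a : O)) (L : O[X] →ₗ[O] O)
    (hL : LemL255.IsMom L) (N : ℕ) : ∃ e : ℕ → O[X], ClassData p N L e := by
  have hp0 : 0 < p := hp.out.pos
  have hU : PU O p := hu
  obtain ⟨e, he1, he2, he3⟩ := exists_idem hp0 hU N
  -- Lemma L in terms of `Lam`
  set a : ℕ → O := fun i => L (X ^ i) with ha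
  have hLam : L = FuncLx170.Lam a := eq_Lam L
  have hK : FuncLx170.Key a := by
    intro P
    rw [← hLam]
    exact hL.key P
  have hLL : ∀ (k : ℕ) (Q : O[X]),
      (p : O) ^ (k - 1) ∣ FuncLx170.Lam a (FuncLx170.theta O p ^ k * Q) := by
    intro k Q
    rw [← hLam, ← theta_eq]
    exact LemL255.lemmaL p hodd h2u h3u L hL k Q
  have own : ∀ c < p, 1 - e c ∈ J O p c ^ N := by
    intro c hc
    rw [J_eq, ← neg_sub]
    exact neg_mem (mem_Jc_pow_of_dvd p _ _ (by simpa using he1 c hc))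
  have other : ∀ c < p, ∀ d < p, d ≠ c → e c ∈ J O p d ^ N := by
    intro c hc d hd hcd
    rw [J_eq]
    exact mem_Jc_pow_of_dvd p _ _ (by simpa using he2 c hc d hd (Ne.symm hcd))
  have hord : ∀ c < p, ∀ (x : ℕ) (F : O[X]), F ∈ J O p c ^ x →
      Ord O p (c : ℤ) x N (e c * F) := by
    intro c hc x F hF
    rw [J_eq] at hF
    refine ⟨Ideal.mul_mem_left _ _ hF, ?_⟩
    have h1 : Ord O p (c : ℤ) 0 N (e c) := by
      apply Ord.of_dvd hp0 (by simp)
      intro d hd hcd
      exact he2 c hc d hd hcd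
    intro d hd
    exact Ideal.mul_mem_right _ _ (h1.2 d hd)
  refine ⟨e, he3, fun c hc => by simpa using he1 c hc, fun c hc d hd hcd => by
    simpa using he2 c hc d hd (Ne.symm hcd), own, other, ?_, ?_, ?_, ?_⟩
  · intro c hc d hd hcd
    rw [Ith_eq]
    apply mem_Ip_pow hp0 hU
    intro b hb
    -- `b ≡ c' - 1` where `c'` is the representative of `b+1`
    obtain ⟨b', hb', hbb⟩ : ∃ b' < p, (b' = b + 1 ∨ (b' = 0 ∧ b + 1 = p)) := by
      rcases Nat.lt_or_ge (b + 1) p with h | h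
      · exact ⟨b + 1, h, Or.inl rfl⟩
      · exact ⟨0, hp0, Or.inr ⟨rfl, by omega⟩⟩
    have hdvd : (p : ℤ) ∣ (b : ℤ) - ((b' : ℤ) - 1) := by
      rcases hbb with h | ⟨h1, h2⟩
      · subst h
        exact ⟨0, by push_cast; ring⟩
      · subst h1
        exact ⟨1, by push_cast; rw [← h2]; push_cast; ring⟩
    by_cases hbd : b = d
    · have hbc : b' = c := by omega
      have h1 := own c hc
      rw [J_eq] at h1
      have h2 := comp_add_mem_Jc_pow p _ N h1
      rw [← hbc, ← Jc_congr p _ _ hdvd] at h2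
      have h3 := own d hd
      rw [J_eq, ← hbd] at h3
      have h4 := sub_mem h3 h2
      have h5 : (1 - e b) - (1 - e b').comp (X + 1) = (e b').comp (X + 1) - e b := by
        rw [sub_comp, one_comp]; ring
      rw [h5, hbc, hbd] at h4
      rw [hbd]
      exact h4
    · have hbc : b' ≠ c := by omega
      have h1 := other c hc b' hb' hbc
      rw [J_eq] at h1
      have h2 := comp_add_mem_Jc_pow p _ N h1
      rw [← Jc_congr p _ _ hdvd] at h2
      have h3 := other d hd b hb hbd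
      rw [J_eq] at h3
      exact sub_mem h2 h3
  · intro F hF
    rw [hLam]
    apply dvd_of_mem_Ip hLL
    apply mem_Ip_pow hp0 hU
    intro c hc
    rw [← J_eq]
    exact hF c hc
  · intro c hc x F hF
    rw [hLam]
    exact (hord c hc x F hF).dvd hp0 hU hLL
  · intro c hc h2c x F hF
    rw [hLam]
    exact (hord c hc x F hF).dvd_regular hp0 hU hK hLL h2c hc

/-- helper255's exact export. -/
theorem class_version (p : ℕ) [hp : Fact p.Prime] (hodd : Odd p) (h2u : IsUnit (2 : O))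
    (h3u : IsUnit (3 : O)) (hu : ∀ a : ℕ, 0 < a → a < p → IsUnit (a : O)) (L : O[X] →ₗ[O] O)
    (hL : LemL255.IsMom L) (N : ℕ) : ∃ e : ℕ → O[X], (∑ c ∈ range p, e c = 1) ∧
      (∀ c < p, ∀ c' < p, c' ≠ c → e c ∈ J O p c' ^ N) ∧
      (∀ c < p, 1 - e c ∈ J O p c ^ N) ∧
      (∀ c < p, ∀ x ≤ N, ∀ F ∈ J O p c ^ x, (p : O) ^ (x - 1) ∣ L (e c * F)) ∧
      (∀ c < p, p < 2 * c → ∀ x, x + 3 ≤ N → ∀ F ∈ J O p c ^ x,
        (p : O) ^ (x + 2) ∣ L (e c * F)) := by
  obtain ⟨e, he⟩ := exists_classData p hodd h2u h3u hu L hL N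
  refine ⟨e, he.sum_eq, he.other, he.own, ?_, ?_⟩
  · intro c hc x hx F hF
    have := he.polar c hc x F hF
    rwa [min_eq_left hx] at this
  · intro c hc h2c x hx F hF
    have := he.regular c hc h2c x F hF
    rw [min_eq_left hx] at this
    exact this

end Crest.Agent.R006.P4Class280
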