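import Mathlib
import Crest.Agent.R006.P4Class_280

/-!
Row 6, block P4, local half (helper110): the class data of helper280 for GIVEN idempotents, and
base change.  `ExIdem p N e`: the exact (universal) properties of the idempotents, stable under
ring homomorphisms; `ExIdem.classData`: they give `ClassData p N L e` for every moment functional
`L` over every ring in which `2`, `3` and `1, ..., p-1` are units.  In particular the images in
`ℚ[X]`, in `B0[X]` of the idempotents over `ℤ_(p)` can be used.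
-/

set_option autoImplicit false

open Polynomial Finset

namespace Crest.Agent.R006.P4ClassMap110

open Crest.Agent.R006.P4Idem280 Crest.Agent.R006.P4Class280

variable {O : Type*} [CommRing O]

/-- exact properties of the idempotents -/
structure ExIdem (p N : ℕ) (e : ℕ → O[X]) : Prop where
  sum_eq : ∑ c ∈ range p, e c = 1
  own_dvd : ∀ c < p, (X - C (c : O)) ^ N ∣ e c - 1
  other_dvd : ∀ c < p, ∀ d < p, d ≠ c → (X - C (d : O)) ^ N ∣ e c

theorem _root_.Crest.Agent.R006.P4Class280.ClassData.exIdem {p N : ℕ} {L : O[X] →ₗ[O] O}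
    {e : ℕ → O[X]} (h : ClassData p N L e) : ExIdem p N e := ⟨h.sum_eq, h.own_dvd, h.other_dvd⟩

/-- existence over any ring in which `1, ..., p-1` are units -/
theorem exists_exIdem (p : ℕ) (hp0 : 0 < p) (hU : PU O p) (N : ℕ) :
    ∃ e : ℕ → O[X], ExIdem p N e := by
  obtain ⟨e, he1, he2, he3⟩ := exists_idem hp0 hU N
  exact ⟨e, he3, fun c hc => by simpa using he1 c hc, fun c hc d hd hcd => by
    simpa using he2 c hc d hd (Ne.symm hcd)⟩

theorem ExIdem.map {O' : Type*} [CommRing O'] (φ : O →+* O') {p N : ℕ} {e : ℕ → O[X]}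
    (h : ExIdem p N e) : ExIdem p N (fun c => (e c).map φ) := by
  refine ⟨?_, fun c hc => ?_, fun c hc d hd hcd => ?_⟩
  · rw [← Polynomial.map_sum, h.sum_eq, Polynomial.map_one]
  · have := Polynomial.map_dvd φ (h.own_dvd c hc)
    simpa using this
  · have := Polynomial.map_dvd φ (h.other_dvd c hc d hd hcd)
    simpa using this

/-- **class data for given idempotents** (the proof of helper280's `exists_classData`). -/
theorem ExIdem.classData {p : ℕ} [hp : Fact p.Prime] (hodd : Odd p) (h2u : IsUnit (2 : O))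
    (h3u : IsUnit (3 : O)) (hu : ∀ a : ℕ, 0 < a → a < p → IsUnit (a : O)) {L : O[X] →ₗ[O] O}
    (hL : LemL255.IsMom L) {N : ℕ} {e : ℕ → O[X]} (h : ExIdem p N e) : ClassData p N L e := by
  have hp0 : 0 < p := hp.out.pos
  have hU : PU O p := hu
  have he1 := h.own_dvd
  have he2 := h.other_dvd
  set a : ℕ → O := fun i => L (X ^ i) with ha
  have hLam : L = FuncLx170.Lam a := eq_Lam L
  have hK : FuncLx170.Key a := by
    intro P
    rw [← hLam]
    exact hL.key P
  have hLL : ∀ (k : ℕ) (Q : O[X]),
      (p : O) ^ (k - 1) ∣ FuncLx170.Lam a (FuncLx170.theta O p ^ k * Q) := by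
    intro k Q
    rw [← hLam, ← theta_eq]
    exact LemL255.lemmaL p hodd h2u h3u L hL k Q
  have own : ∀ c < p, 1 - e c ∈ P4Class280.J O p c ^ N := by
    intro c hc
    rw [J_eq, ← neg_sub]
    exact neg_mem (mem_Jc_pow_of_dvd p _ _ (by simpa using he1 c hc))
  have other : ∀ c < p, ∀ d < p, d ≠ c → e c ∈ P4Class280.J O p d ^ N := by
    intro c hc d hd hcd
    rw [J_eq]
    exact mem_Jc_pow_of_dvd p _ _ (by simpa using he2 c hc d hd hcd)
  have hord : ∀ c < p, ∀ (x : ℕ) (F : O[X]), F ∈ P4Class280.J O p c ^ x →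
      Ord O p (c : ℤ) x N (e c * F) := by
    intro c hc x F hF
    rw [J_eq] at hF
    refine ⟨Ideal.mul_mem_left _ _ hF, ?_⟩
    have h1 : Ord O p (c : ℤ) 0 N (e c) := by
      apply Ord.of_dvd hp0 (by simp)
      intro d hd hcd
      simpa using he2 c hc d hd (Ne.symm hcd)
    intro d hd
    exact Ideal.mul_mem_right _ _ (h1.2 d hd)
  refine ⟨h.sum_eq, he1, he2, own, other, ?_, ?_, ?_, ?_⟩
  · intro c hc d hd hcd
    rw [Ith_eq]
    apply mem_Ip_pow hp0 hU
    intro b hb
    obtain ⟨b', hb', hbb⟩ : ∃ b' < p, (b' = b + 1 ∨ (b' = 0 ∧ b + 1 = p)) := by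
      rcases Nat.lt_or_ge (b + 1) p with h | h
      · exact ⟨b + 1, h, Or.inl rfl⟩
      · exact ⟨0, hp0, Or.inr ⟨rfl, by omega⟩⟩
    have hdvd : (p : ℤ) ∣ (b : ℤ) - ((b' : ℤ) - 1) := by
      rcases hbb with h | ⟨h1, h2⟩
      · subst h
        exact ⟨0, by push_cast; ring⟩
      · subst h1
        exact ⟨1, by push_cast; rw [← h2]; push_cast; ring⟩
    by_cases hbd : b = d
    · have hbc : b' = c := by omega
      have h1 := own c hc
      rw [J_eq] at h1
      have h2 := comp_add_mem_Jc_pow p _ N h1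
      rw [← hbc, ← Jc_congr p _ _ hdvd] at h2
      have h3 := own d hd
      rw [J_eq, ← hbd] at h3
      have h4 := sub_mem h3 h2
      have h5 : (1 - e b) - (1 - e b').comp (X + 1) = (e b').comp (X + 1) - e b := by
        rw [sub_comp, one_comp]; ring
      rw [h5, hbc, hbd] at h4
      rw [hbd]
      exact h4
    · have hbc : b' ≠ c := by omega
      have h1 := other c hc b' hb' hbc
      rw [J_eq] at h1
      have h2 := comp_add_mem_Jc_pow p _ N h1
      rw [← Jc_congr p _ _ hdvd] at h2
      have h3 := other d hd b hb hbd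
      rw [J_eq] at h3
      exact sub_mem h2 h3
  · intro F hF
    rw [hLam]
    apply dvd_of_mem_Ip hLL
    apply mem_Ip_pow hp0 hU
    intro c hc
    rw [← J_eq]
    exact hF c hc
  · intro c hc x F hF
    rw [hLam]
    exact (hord c hc x F hF).dvd hp0 hU hLL
  · intro c hc h2c x F hF
    rw [hLam]
    exact (hord c hc x F hF).dvd_regular hp0 hU hK hLL h2c hc

end Crest.Agent.R006.P4ClassMap110
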