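import Mathlib

/-!
Row 6, block P4, local input (L2): the chain of the recurrence
`n^3 φ(n) + (2n-1)^3 φ(n-1) = -δ(n)` at an odd prime `p` (helper869).

`E` is a commutative ring in which `p` is a unit, `O` a subring, `τ ∈ O` such that `m + kτ` is a
unit of `O` for all integers `m` prime to `p` and `k ∈ ℕ` (`TauUnits`; e.g. `τ = 0` for plain
values, `τ^3 = 0`, or `O = ℤ_p⟦τ⟧`; `p τ` = the jet variable).
Sites: `n + pτ` (`n ≥ 0`, up), `-m + pτ` (down from `0`), `l + 1/2 + pτ` (star chain, up),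
`-l - 1/2 + pτ` (down from `-1/2`).

If `δ ∈ O` everywhere and `δ ∈ p O` at the classes `0` and `c > p/2`, then
`φ ∈ O` on `0 ≤ n < p/2`, `φ ∈ p O` on all classes `c > p/2`, `p^2 φ ∈ O` on the other sites.
-/

set_option autoImplicit false

namespace Crest.Agent.R006.P4L869

variable {E : Type*} [CommRing E]

/-- `x ∈ p O` -/
def InP (O : Subring E) (p : ℕ) (x : E) : Prop := ∃ y ∈ O, x = (p : E) * y

/-- `x ∈ p^{-2} O` -/
def InM (O : Subring E) (p : ℕ) (x : E) : Prop := (p : E) ^ 2 * x ∈ O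

/-- the three states of a site -/
inductive St
  | A  -- integral
  | B  -- in `p O`
  | C  -- in `p^{-2} O`
  deriving DecidableEq

/-- membership in the lattice of a state -/
def Good (O : Subring E) (p : ℕ) : St → E → Prop
  | St.A, x => x ∈ O
  | St.B, x => InP O p x
  | St.C, x => InM O p x

/-- unit of `O` -/
def UnitIn (O : Subring E) (a : E) : Prop := a ∈ O ∧ ∃ w ∈ O, w * a = 1

/-- `p` times a unit of `O` -/
def PUnitIn (O : Subring E) (p : ℕ) (a : E) : Prop := ∃ u, UnitIn O u ∧ a = (p : E) * u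

theorem InP.mem {O : Subring E} {p : ℕ} {x : E} (h : InP O p x) : x ∈ O := by
  obtain ⟨y, hy, rfl⟩ := h
  exact O.mul_mem (natCast_mem O p) hy

theorem InP.neg {O : Subring E} {p : ℕ} {x : E} (h : InP O p x) : InP O p (-x) := by
  obtain ⟨y, hy, rfl⟩ := h
  exact ⟨-y, O.neg_mem hy, by ring⟩

theorem InP.add {O : Subring E} {p : ℕ} {x y : E} (h : InP O p x) (h' : InP O p y) :
    InP O p (x + y) := by
  obtain ⟨a, ha, rfl⟩ := h
  obtain ⟨b, hb, rfl⟩ := h'
  exact ⟨a + b, O.add_mem ha hb, by ring⟩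

theorem InP.mul_left {O : Subring E} {p : ℕ} {x c : E} (hc : c ∈ O) (h : InP O p x) :
    InP O p (c * x) := by
  obtain ⟨a, ha, rfl⟩ := h
  exact ⟨c * a, O.mul_mem hc ha, by ring⟩

theorem InM.add {O : Subring E} {p : ℕ} {x y : E} (h : InM O p x) (h' : InM O p y) :
    InM O p (x + y) := by
  unfold InM at *
  rw [mul_add]; exact O.add_mem h h'

theorem InM.neg {O : Subring E} {p : ℕ} {x : E} (h : InM O p x) : InM O p (-x) := by
  unfold InM at *
  rw [mul_neg]; exact O.neg_mem h

theorem InM.mul_left {O : Subring E} {p : ℕ} {x c : E} (hc : c ∈ O) (h : InM O p x) :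
    InM O p (c * x) := by
  unfold InM at *
  have : (p : E) ^ 2 * (c * x) = c * ((p : E) ^ 2 * x) := by ring
  rw [this]; exact O.mul_mem hc h

theorem InM.of_mem {O : Subring E} {p : ℕ} {x : E} (h : x ∈ O) : InM O p x := by
  unfold InM
  exact O.mul_mem (O.pow_mem (natCast_mem O p) 2) h

/-- `(p u)^3 x ∈ p O` if `p^2 x ∈ O` -/
theorem InP.cube_mul {O : Subring E} {p : ℕ} {b x : E} (hb : InP O p b) (h : InM O p x) :
    InP O p (b ^ 3 * x) := by
  obtain ⟨u, hu, rfl⟩ := hb
  refine ⟨u ^ 3 * ((p : E) ^ 2 * x), O.mul_mem (O.pow_mem hu 3) h, by ring⟩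

theorem InP.cube_mul' {O : Subring E} {p : ℕ} {b x : E} (hb : InP O p b) (h : x ∈ O) :
    InP O p (b ^ 3 * x) := hb.cube_mul (InM.of_mem h)

/-- Admissible steps `s → s'` of the recurrence `a^3 φ' + b^3 φ = -δ`. -/
def StepOK (O : Subring E) (p : ℕ) (s s' : St) (a b δ : E) : Prop :=
  match s, s' with
  | St.A, St.A => UnitIn O a ∧ b ∈ O ∧ δ ∈ O
  | St.A, St.B => UnitIn O a ∧ InP O p b ∧ InP O p δ
  | St.A, St.C => UnitIn O a ∧ b ∈ O ∧ δ ∈ O
  | St.B, St.A => UnitIn O a ∧ b ∈ O ∧ δ ∈ O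
  | St.B, St.B => UnitIn O a ∧ b ∈ O ∧ InP O p δ
  | St.B, St.C => PUnitIn O p a ∧ b ∈ O ∧ InP O p δ
  | St.C, St.A => False
  | St.C, St.B => UnitIn O a ∧ InP O p b ∧ InP O p δ
  | St.C, St.C => UnitIn O a ∧ b ∈ O ∧ δ ∈ O

theorem solve_unit {a x y : E} (w : E) (hw : w * a = 1) (h : a ^ 3 * x = y) : x = w ^ 3 * y := by
  have : w ^ 3 * y = (w * a) ^ 3 * x := by rw [← h]; ring
  rw [this, hw]; ring

/-- one step of the chain -/
theorem step {O : Subring E} {p : ℕ} (hp : IsUnit (p : E)) {s s' : St} {a b δ φ φ' : E}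
    (hs : StepOK O p s s' a b δ) (hφ : Good O p s φ) (h : a ^ 3 * φ' + b ^ 3 * φ = -δ) :
    Good O p s' φ' := by
  have h' : a ^ 3 * φ' = -(δ + b ^ 3 * φ) := by linear_combination h
  cases s <;> cases s' <;> simp only [StepOK, Good] at hs hφ ⊢
  · -- A A
    obtain ⟨⟨_, w, hw, hwa⟩, hb, hδ⟩ := hs
    rw [solve_unit w hwa h']
    exact O.mul_mem (O.pow_mem hw 3) (O.neg_mem (O.add_mem hδ (O.mul_mem (O.pow_mem hb 3) hφ)))
  · -- A B
    obtain ⟨⟨_, w, hw, hwa⟩, hb, hδ⟩ := hs
    rw [solve_unit w hwa h']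
    exact (InP.neg (hδ.add (hb.cube_mul' hφ))).mul_left (O.pow_mem hw 3)
  · -- A C
    obtain ⟨⟨_, w, hw, hwa⟩, hb, hδ⟩ := hs
    rw [solve_unit w hwa h']
    exact InM.of_mem (O.mul_mem (O.pow_mem hw 3)
      (O.neg_mem (O.add_mem hδ (O.mul_mem (O.pow_mem hb 3) hφ))))
  · -- B A
    obtain ⟨⟨_, w, hw, hwa⟩, hb, hδ⟩ := hs
    rw [solve_unit w hwa h']
    exact O.mul_mem (O.pow_mem hw 3) (O.neg_mem (O.add_mem hδ (O.mul_mem (O.pow_mem hb 3) hφ.mem)))
  · -- B B
    obtain ⟨⟨_, w, hw, hwa⟩, hb, hδ⟩ := hs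
    rw [solve_unit w hwa h']
    exact (InP.neg (hδ.add (hφ.mul_left (O.pow_mem hb 3)))).mul_left (O.pow_mem hw 3)
  · -- B C
    obtain ⟨⟨u, ⟨_, w, hw, hwu⟩, rfl⟩, hb, hδ⟩ := hs
    obtain ⟨z, hz, hz'⟩ := InP.neg (hδ.add (hφ.mul_left (O.pow_mem hb 3)))
    rw [hz'] at h'
    obtain ⟨q, hq⟩ := hp
    have h3 : u ^ 3 * ((p : E) ^ 2 * φ') = z := by
      have : (p : E) * (u ^ 3 * ((p : E) ^ 2 * φ')) = (p : E) * z := by linear_combination h'
      rw [← hq] at this ⊢
      exact (Units.mul_right_inj q).mp this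
    show (p : E) ^ 2 * φ' ∈ O
    rw [solve_unit w hwu h3]
    exact O.mul_mem (O.pow_mem hw 3) hz
  · -- C B
    obtain ⟨⟨_, w, hw, hwa⟩, hb, hδ⟩ := hs
    rw [solve_unit w hwa h']
    exact (InP.neg (hδ.add (hb.cube_mul hφ))).mul_left (O.pow_mem hw 3)
  · -- C C
    obtain ⟨⟨_, w, hw, hwa⟩, hb, hδ⟩ := hs
    rw [solve_unit w hwa h']
    exact (InM.neg ((InM.of_mem hδ).add (hφ.mul_left (O.pow_mem hb 3)))).mul_left (O.pow_mem hw 3)

/-- the chain -/
theorem chain {O : Subring E} {p : ℕ} (hp : IsUnit (p : E)) {s : ℕ → St} {a b δ φ : ℕ → E}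
    {M : ℕ} (h0 : Good O p (s 0) (φ 0))
    (hs : ∀ k, k + 1 < M → StepOK O p (s k) (s (k + 1)) (a (k + 1)) (b (k + 1)) (δ (k + 1)))
    (h : ∀ k, k + 1 < M → a (k + 1) ^ 3 * φ (k + 1) + b (k + 1) ^ 3 * φ k = -δ (k + 1)) :
    ∀ k, k < M → Good O p (s k) (φ k) := by
  intro k
  induction k with
  | zero => intro _; exact h0
  | succ k ih => intro hk; exact step hp (hs k hk) (ih (by omega)) (h k hk)

/-! ### Units -/

section Units

variable {O : Subring E} {p : ℕ}

/-- integers prime to `p` are units of `O` -/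
def PrimeUnits (O : Subring E) (p : ℕ) : Prop :=
  ∀ m : ℤ, ¬ (p : ℤ) ∣ m → ∃ w ∈ O, w * (m : E) = 1

theorem unitIn_add {m : ℤ} (hO : PrimeUnits O p) (hm : ¬ (p : ℤ) ∣ m) {t : E} (ht : t ∈ O)
    (ht3 : t ^ 3 = 0) : UnitIn O ((m : E) + t) := by
  obtain ⟨w, hw, hwm⟩ := hO m hm
  refine ⟨O.add_mem (intCast_mem O m) ht, w - w ^ 2 * t + w ^ 3 * t ^ 2, ?_, ?_⟩
  · exact O.add_mem (O.sub_mem hw (O.mul_mem (O.pow_mem hw 2) ht))
      (O.mul_mem (O.pow_mem hw 3) (O.pow_mem ht 2))
  · linear_combination (1 - w * t + w ^ 2 * t ^ 2) * hwm + w ^ 3 * ht3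

theorem pUnitIn_add {m : ℤ} (hO : PrimeUnits O p) (hm : ¬ (p : ℤ) ∣ m) {t : E} (ht : t ∈ O)
    (ht3 : t ^ 3 = 0) : PUnitIn O p (((p * m : ℤ) : E) + p * t) :=
  ⟨(m : E) + t, unitIn_add hO hm ht ht3, by push_cast; ring⟩

/-- `m + k τ` is a unit of `O` for `m` prime to `p` -/
def TauUnits (O : Subring E) (p : ℕ) (τ : E) : Prop :=
  ∀ m : ℤ, ¬ (p : ℤ) ∣ m → ∀ k : ℕ, UnitIn O ((m : E) + k * τ)

theorem tauUnits_of_nilpotent (hO : PrimeUnits O p) {τ : E} (hτ : τ ∈ O) (hτ3 : τ ^ 3 = 0) :
    TauUnits O p τ := fun _ hm k =>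
  unitIn_add hO hm (O.mul_mem (natCast_mem O k) hτ) (by rw [mul_pow, hτ3, mul_zero])

theorem TauUnits.u1 {τ : E} (hU : TauUnits O p τ) {m : ℤ} (hm : ¬ (p : ℤ) ∣ m) :
    UnitIn O ((m : E) + p * τ) := hU m hm p

theorem TauUnits.u2 {τ : E} (hU : TauUnits O p τ) {m : ℤ} (hm : ¬ (p : ℤ) ∣ m) :
    UnitIn O ((m : E) + 2 * (p * τ)) := by
  have := hU m hm (2 * p)
  have e : ((m : E) + 2 * (p * τ)) = (m : E) + ((2 * p : ℕ) : E) * τ := by push_cast; ring
  rw [e]; exact this

theorem TauUnits.pu1 {τ : E} (hU : TauUnits O p τ) {m : ℤ} (hm : ¬ (p : ℤ) ∣ m) :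
    PUnitIn O p (((p * m : ℤ) : E) + p * τ) := by
  have := hU m hm 1
  refine ⟨(m : E) + ((1 : ℕ) : E) * τ, this, by push_cast; ring⟩

theorem TauUnits.pu2 {τ : E} (hU : TauUnits O p τ) {m : ℤ} (hm : ¬ (p : ℤ) ∣ m) :
    PUnitIn O p (((p * m : ℤ) : E) + p * (2 * τ)) := by
  have := hU m hm 2
  refine ⟨(m : E) + ((2 : ℕ) : E) * τ, this, by push_cast; ring⟩

theorem UnitIn.mul {a b : E} (ha : UnitIn O a) (hb : UnitIn O b) : UnitIn O (a * b) := by
  obtain ⟨ha, w, hw, hwa⟩ := ha
  obtain ⟨hb, v, hv, hvb⟩ := hb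
  exact ⟨O.mul_mem ha hb, w * v, O.mul_mem hw hv, by
    linear_combination (v * b) * hwa + hvb⟩

theorem UnitIn.mul_pUnitIn {a b : E} (ha : UnitIn O a) (hb : PUnitIn O p b) :
    PUnitIn O p (a * b) := by
  obtain ⟨u, hu, rfl⟩ := hb
  exact ⟨a * u, ha.mul hu, by ring⟩

theorem inP_int_add {m : ℤ} {t : E} (ht : t ∈ O) (hm : (p : ℤ) ∣ m) :
    InP O p ((m : E) + p * t) := by
  obtain ⟨k, rfl⟩ := hm
  exact ⟨(k : E) + t, O.add_mem (intCast_mem O k) ht, by push_cast; ring⟩

end Units

/-! ### The three chains -/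

section Chains

variable {O : Subring E} {p : ℕ}

/-- state of the node `n ≥ 0` -/
def sUp (p n : ℕ) : St := if 2 * n < p then St.A else if p < 2 * (n % p) then St.B else St.C

/-- state of the node `-m`, `m ≥ 1` -/
def sDown (p m : ℕ) : St := if m % p ≠ 0 ∧ 2 * (m % p) < p then St.B else St.C

/-- state of the node `l + 1/2`, `l ≥ 0` -/
def sStar (p l : ℕ) : St := if 2 * (l % p) + 1 < p then St.B else St.C

theorem int_not_dvd_of_mod {p : ℕ} {n : ℕ} (h : n % p ≠ 0) : ¬ (p : ℤ) ∣ (n : ℤ) := by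
  intro hd
  exact h (Nat.mod_eq_zero_of_dvd (by exact_mod_cast hd))

/-- Up chain: the nodes `n ≥ 0` (with an optional nilpotent jet variable). -/
theorem up_chain (hp : p.Prime) (h2 : p ≠ 2) (hE : IsUnit (p : E))
    {τ : E} (hτ : τ ∈ O) (hU : TauUnits O p τ) {φ δ : ℕ → E} (h0 : φ 0 ∈ O)
    (hδ : ∀ n, 0 < n → n < p ^ 2 → δ n ∈ O)
    (hδp : ∀ n, 0 < n → n < p ^ 2 → (n % p = 0 ∨ p < 2 * (n % p)) → InP O p (δ n))
    (h : ∀ n, 0 < n → n < p ^ 2 → ((n : E) + p * τ) ^ 3 * φ n
      + (2 * ((n : E) + p * τ) - 1) ^ 3 * φ (n - 1) = - δ n) :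
    ∀ n, n < p ^ 2 → Good O p (sUp p n) (φ n) := by
  have hodd : p % 2 = 1 := hp.eq_two_or_odd.resolve_left h2
  have hp3 : 3 ≤ p := by
    rcases hp.two_le.lt_or_eq with h | h
    · omega
    · exact absurd h.symm h2
  have hpτ : (p : E) * τ ∈ O := O.mul_mem (natCast_mem O p) hτ
  refine chain hE (s := sUp p) (a := fun n => (n : E) + p * τ)
    (b := fun n => 2 * ((n : E) + p * τ) - 1) (δ := δ) (M := p ^ 2) ?_ ?_ ?_
  · have : sUp p 0 = St.A := by unfold sUp; rw [if_pos (by omega)]
    rw [this]; exact h0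
  · intro k hk
    have hbO : (2 * (((k + 1 : ℕ) : E) + p * τ) - 1) ∈ O :=
      O.sub_mem (O.mul_mem (ofNat_mem O 2) (O.add_mem (natCast_mem O _) hpτ)) (one_mem O)
    have haU : (k + 1) % p ≠ 0 → UnitIn O (((k + 1 : ℕ) : E) + p * τ) := by
      intro hne
      have := hU.u1 (m := ((k + 1 : ℕ) : ℤ)) (int_not_dvd_of_mod hne)
      simpa using this
    have hbP : (2 * (k + 1)) % p = 1 → InP O p (2 * (((k + 1 : ℕ) : E) + p * τ) - 1) := by
      intro h1
      have hd : (p : ℤ) ∣ (2 * (k + 1 : ℕ) - 1 : ℤ) := by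
        have : p ∣ 2 * (k + 1) - 1 := by
          have h3 := Nat.dvd_sub_mod (n := p) (2 * (k + 1))
          rwa [h1] at h3
        obtain ⟨c, hc⟩ := this
        exact ⟨c, by omega⟩
      have := inP_int_add (O := O) (p := p) (m := (2 * (k + 1 : ℕ) - 1 : ℤ)) (t := 2 * τ)
        (O.mul_mem (ofNat_mem O 2) hτ) hd
      have e : (2 * (((k + 1 : ℕ) : E) + p * τ) - 1) =
          (((2 * (k + 1 : ℕ) - 1 : ℤ)) : E) + p * (2 * τ) := by push_cast; ring
      rw [e]; exact this
    have hmod : (k + 1) % p = if k % p + 1 = p then 0 else k % p + 1 := by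
      have hlt := Nat.mod_lt k hp.pos
      rw [Nat.add_mod, Nat.mod_eq_of_lt (show 1 < p by omega)]
      split_ifs with hh
      · rw [hh]; exact Nat.mod_self p
      · exact Nat.mod_eq_of_lt (by omega)
    have hklt := Nat.mod_lt k hp.pos
    have hk1 := hδ (k + 1) (by omega) hk
    have hk1p := hδp (k + 1) (by omega) hk
    have hmod2 : (2 * (k + 1)) % p = (2 * ((k + 1) % p)) % p := by
      rw [Nat.mul_mod, Nat.mul_mod 2 ((k + 1) % p)]; simp
    unfold sUp
    by_cases hA : 2 * (k + 1) < p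
    · rw [if_pos (by omega), if_pos hA]
      exact ⟨haU (by rw [Nat.mod_eq_of_lt (by omega)]; omega), hbO, hk1⟩
    · by_cases hA' : 2 * k < p
      · -- k + 1 = (p+1)/2
        have hkp : k % p = k := Nat.mod_eq_of_lt (by omega)
        have hk1mod : (k + 1) % p = k + 1 := Nat.mod_eq_of_lt (by omega)
        rw [if_pos hA', if_neg hA, if_pos (by rw [hk1mod]; omega)]
        refine ⟨haU (by omega), hbP ?_, hk1p (Or.inr (by rw [hk1mod]; omega))⟩
        have : 2 * (k + 1) = 1 + p := by omega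
        rw [this, Nat.add_mod_right, Nat.mod_eq_of_lt (by omega)]
      · rw [if_neg hA', if_neg hA]
        by_cases hB : p < 2 * (k % p)
        · rw [if_pos hB]
          by_cases hB' : p < 2 * ((k + 1) % p)
          · rw [if_pos hB']
            exact ⟨haU (by omega), hbO, hk1p (Or.inr hB')⟩
          · rw [if_neg hB']
            have hz : (k + 1) % p = 0 := by
              rw [hmod] at hB' ⊢
              split_ifs at hB' ⊢ with hh
              · rfl
              · omega
            obtain ⟨j, hj⟩ := Nat.dvd_of_mod_eq_zero hz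
            have hjp : ¬ (p : ℤ) ∣ (j : ℤ) := by
              intro hd
              have hd' : p ∣ j := by exact_mod_cast hd
              obtain ⟨i, rfl⟩ := hd'
              have : p ^ 2 ≤ k + 1 := by
                rw [hj]
                rcases Nat.eq_zero_or_pos i with h0 | h0
                · subst h0; simp at hj
                · nlinarith [Nat.mul_le_mul_left (p * p) h0]
              omega
            refine ⟨?_, hbO, hk1p (Or.inl hz)⟩
            have := hU.pu1 (m := (j : ℤ)) hjp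
            have e : (((k + 1 : ℕ) : E) + p * τ) = (((p * j : ℤ)) : E) + p * τ := by
              rw [hj]; push_cast; ring
            rw [e]; exact this
        · rw [if_neg hB]
          have hnz : (k + 1) % p ≠ 0 := by
            rw [hmod]; split_ifs with hh
            · omega
            · omega
          by_cases hB' : p < 2 * ((k + 1) % p)
          · rw [if_pos hB']
            refine ⟨haU hnz, hbP ?_, hk1p (Or.inr hB')⟩
            rw [hmod2]
            have : 2 * ((k + 1) % p) = 1 + p := by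
              rw [hmod] at hB' hnz ⊢
              split_ifs at hB' hnz ⊢ with hh
              · omega
              · omega
            rw [this, Nat.add_mod_right, Nat.mod_eq_of_lt (by omega)]
          · rw [if_neg hB']
            exact ⟨haU hnz, hbO, hk1⟩
  · intro k hk
    have := h (k + 1) (by omega) hk
    simpa using this

/-- Down chain: the nodes `-m`, `m ≥ 1`; `φ m` is the germ at `-m + pτ`,
`δ m` the right hand side of the recurrence at the site `-m + pτ` (`m ≥ 0`). -/
theorem down_chain (hp : p.Prime) (h2 : p ≠ 2) (hE : IsUnit (p : E))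
    {τ : E} (hτ : τ ∈ O) (hU : TauUnits O p τ) {φ δ : ℕ → E} {M : ℕ} (hM : 2 * M ≤ p ^ 2)
    (hδ : ∀ m, 0 < m → m + 1 < M → δ m ∈ O)
    (hδp : ∀ m, 0 < m → m + 1 < M → 2 * (m % p) < p → InP O p (δ m))
    (h0 : 1 < M → InP O p ((2 * (0 + (p : E) * τ) - 1) ^ 3 * φ 1))
    (h : ∀ m, 0 < m → m + 1 < M → (-(m : E) + p * τ) ^ 3 * φ m
      + (2 * (-(m : E) + p * τ) - 1) ^ 3 * φ (m + 1) = - δ m) :
    ∀ m, 0 < m → m < M → Good O p (sDown p m) (φ m) := by
  have hodd : p % 2 = 1 := hp.eq_two_or_odd.resolve_left h2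
  have hp3 : 3 ≤ p := by
    rcases hp.two_le.lt_or_eq with h | h
    · omega
    · exact absurd h.symm h2
  have hpτ : (p : E) * τ ∈ O := O.mul_mem (natCast_mem O p) hτ
  have h2pτ : 2 * ((p : E) * τ) ∈ O := O.mul_mem (ofNat_mem O 2) hpτ
  have key : ∀ k, k < M - 1 → Good O p (sDown p (k + 1)) (φ (k + 1)) := by
    by_cases hM1 : 1 < M
    swap
    · intro k hk; omega
    refine chain hE (s := fun k => sDown p (k + 1)) (a := fun k => 2 * (-(k : E) + p * τ) - 1)
      (b := fun k => -(k : E) + p * τ) (δ := δ) (φ := fun k => φ (k + 1)) (M := M - 1) ?_ ?_ ?_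
    · have hs : sDown p (0 + 1) = St.B := by
        unfold sDown
        rw [if_pos]
        rw [Nat.mod_eq_of_lt (by omega)]; omega
      show Good O p (sDown p (0 + 1)) (φ (0 + 1))
      rw [hs]
      have hu : UnitIn O (((-1 : ℤ) : E) + 2 * ((p : E) * τ)) :=
        hU.u2 (by
          rw [Int.dvd_neg]; intro hd
          have := Int.le_of_dvd (by norm_num) hd
          omega)
      have hrec := h0 hM1
      have hstep : StepOK O p St.B St.B (((-1 : ℤ) : E) + 2 * ((p : E) * τ)) (0 : E)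
          (-((2 * (0 + (p : E) * τ) - 1) ^ 3 * φ 1)) :=
        ⟨hu, O.zero_mem, hrec.neg⟩
      have hz : Good O p St.B (0 : E) := ⟨0, O.zero_mem, by ring⟩
      refine step hE hstep hz ?_
      push_cast; ring
    · intro k hk
      have hkM : k + 1 + 1 < M := by omega
      have hbO : (-((k + 1 : ℕ) : E) + p * τ) ∈ O :=
        O.add_mem (O.neg_mem (natCast_mem O _)) hpτ
      have haU : (2 * (k + 1) + 1) % p ≠ 0 →
          UnitIn O (2 * (-((k + 1 : ℕ) : E) + p * τ) - 1) := by
        intro hne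
        have hnd := int_not_dvd_of_mod hne
        have := hU.u2 (m := -(((2 * (k + 1) + 1 : ℕ)) : ℤ)) (by rw [Int.dvd_neg]; exact hnd)
        have e : (2 * (-((k + 1 : ℕ) : E) + p * τ) - 1) =
            ((-(((2 * (k + 1) + 1 : ℕ)) : ℤ) : ℤ) : E) + 2 * ((p : E) * τ) := by
          push_cast; ring
        rw [e]; exact this
      have hmod : (k + 1 + 1) % p = if (k + 1) % p + 1 = p then 0 else (k + 1) % p + 1 := by
        have hlt := Nat.mod_lt (k + 1) hp.pos
        rw [Nat.add_mod (k + 1) 1, Nat.mod_eq_of_lt (show 1 < p by omega)]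
        split_ifs with hh
        · rw [hh]; exact Nat.mod_self p
        · exact Nat.mod_eq_of_lt (by omega)
      have hlt := Nat.mod_lt (k + 1) hp.pos
      have hmod2 : (2 * (k + 1) + 1) % p = (2 * ((k + 1) % p) + 1) % p := by
        conv_lhs => rw [Nat.add_mod, Nat.mul_mod]
        conv_rhs => rw [Nat.add_mod, Nat.mul_mod]
        simp
      have hk1 := hδ (k + 1) (by omega) hkM
      have hk1p := hδp (k + 1) (by omega) hkM
      show StepOK O p (sDown p (k + 1)) (sDown p (k + 1 + 1)) _ _ _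
      unfold sDown
      by_cases hB : (k + 1) % p ≠ 0 ∧ 2 * ((k + 1) % p) < p
      · rw [if_pos hB]
        by_cases hB' : (k + 1 + 1) % p ≠ 0 ∧ 2 * ((k + 1 + 1) % p) < p
        · rw [if_pos hB']
          refine ⟨haU ?_, hbO, hk1p hB.2⟩
          rw [hmod] at hB'
          split_ifs at hB' with hh
          · omega
          · rw [hmod2, Nat.mod_eq_of_lt (by omega)]; omega
        · rw [if_neg hB']
          have hr : 2 * ((k + 1) % p) + 1 = p := by
            rw [hmod] at hB'
            split_ifs at hB' with hh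
            · omega
            · omega
          have hz : (2 * (k + 1) + 1) % p = 0 := by rw [hmod2, hr, Nat.mod_self]
          obtain ⟨j, hj⟩ := Nat.dvd_of_mod_eq_zero hz
          have hjp : ¬ (p : ℤ) ∣ (-(j : ℤ)) := by
            rw [Int.dvd_neg]
            intro hd
            have hd' : p ∣ j := by exact_mod_cast hd
            obtain ⟨i, rfl⟩ := hd'
            have : p ^ 2 ≤ 2 * (k + 1) + 1 := by
              rw [hj]
              rcases Nat.eq_zero_or_pos i with h0 | h0
              · subst h0; simp at hj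
              · nlinarith [Nat.mul_le_mul_left (p * p) h0]
            omega
          refine ⟨?_, hbO, hk1p hB.2⟩
          have := hU.pu2 (m := (-(j : ℤ))) hjp
          have e : (2 * (-((k + 1 : ℕ) : E) + p * τ) - 1) =
              (((p * (-(j : ℤ)) : ℤ)) : E) + p * (2 * τ) := by
            have hj' : (2 : E) * ((k + 1 : ℕ) : E) + 1 = (p : E) * (j : E) := by
              exact_mod_cast congrArg (Nat.cast : ℕ → E) hj
            push_cast at hj' ⊢
            linear_combination (-1) * hj'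
          rw [e]; exact this
      · rw [if_neg hB]
        by_cases hB' : (k + 1 + 1) % p ≠ 0 ∧ 2 * ((k + 1 + 1) % p) < p
        · rw [if_pos hB']
          have hz : (k + 1) % p = 0 := by
            rw [hmod] at hB'
            split_ifs at hB' with hh
            · omega
            · by_contra hne
              exact hB ⟨hne, by omega⟩
          refine ⟨haU ?_, ?_, hk1p (by omega)⟩
          · rw [hmod2, hz, Nat.mod_eq_of_lt (by omega)]; omega
          · have hd : (p : ℤ) ∣ (-((k + 1 : ℕ) : ℤ)) := by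
              rw [Int.dvd_neg]
              exact_mod_cast Nat.dvd_of_mod_eq_zero hz
            have := inP_int_add (O := O) (p := p) (m := (-((k + 1 : ℕ) : ℤ))) (t := τ) hτ hd
            have e : (-((k + 1 : ℕ) : E) + p * τ) = ((-((k + 1 : ℕ) : ℤ) : ℤ) : E) + p * τ := by
              push_cast; ring
            rw [e]; exact this
        · rw [if_neg hB']
          refine ⟨haU ?_, hbO, hk1⟩
          rw [hmod2]
          by_cases hr0 : (k + 1) % p = 0
          · exfalso
            apply hB'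
            rw [hmod, hr0]
            rw [if_neg (by omega)]
            omega
          · have hge : p < 2 * ((k + 1) % p) := by
              by_contra hcon
              exact hB ⟨hr0, by omega⟩
            have : (2 * ((k + 1) % p) + 1) = (2 * ((k + 1) % p) + 1 - p) + p := by omega
            rw [this, Nat.add_mod_right, Nat.mod_eq_of_lt (by omega)]
            omega
    · intro k hk
      have := h (k + 1) (by omega) (by omega)
      show (2 * (-((k + 1 : ℕ) : E) + p * τ) - 1) ^ 3 * φ (k + 1 + 1)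
        + (-((k + 1 : ℕ) : E) + p * τ) ^ 3 * φ (k + 1) = -δ (k + 1)
      rw [← this]; ring
  intro m hm hmM
  obtain ⟨k, rfl⟩ : ∃ k, m = k + 1 := ⟨m - 1, by omega⟩
  exact key k (by omega)

/-- Star chain: the nodes `l + 1/2`, `l ≥ 0`; `hf = 1/2`, started by `(2n-1)^3 φ(n-1) := 0`. -/
theorem star_chain (hp : p.Prime) (h2 : p ≠ 2) (hE : IsUnit (p : E))
    {τ hf : E} (hτ : τ ∈ O) (hU : TauUnits O p τ) (hhf : hf ∈ O) (hhf2 : 2 * hf = 1)
    {φ δ : ℕ → E} {M : ℕ} (hM : 2 * M ≤ p ^ 2)
    (hδ : ∀ l, 0 < l → l < M → δ l ∈ O)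
    (hδp : ∀ l, 0 < l → l < M → 2 * (l % p) + 1 ≤ p → InP O p (δ l))
    (h0 : 0 < M → InP O p ((hf + (p : E) * τ) ^ 3 * φ 0))
    (h : ∀ l, 0 < l → l < M → ((l : E) + hf + p * τ) ^ 3 * φ l
      + (2 * ((l : E) + hf + p * τ) - 1) ^ 3 * φ (l - 1) = - δ l) :
    ∀ l, l < M → Good O p (sStar p l) (φ l) := by
  have hodd : p % 2 = 1 := hp.eq_two_or_odd.resolve_left h2
  have hp3 : 3 ≤ p := by
    rcases hp.two_le.lt_or_eq with h | h
    · omega
    · exact absurd h.symm h2
  have hpτ : (p : E) * τ ∈ O := O.mul_mem (natCast_mem O p) hτ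
  have h2pτ : 2 * ((p : E) * τ) ∈ O := O.mul_mem (ofNat_mem O 2) hpτ
  have h2τ : 2 * τ ∈ O := O.mul_mem (ofNat_mem O 2) hτ
  have hhfU : UnitIn O hf := ⟨hhf, 2, ofNat_mem O 2, hhf2⟩
  have haU : ∀ l : ℕ, (2 * l + 1) % p ≠ 0 → UnitIn O ((l : E) + hf + p * τ) := by
    intro l hne
    have := hhfU.mul (hU.u2 (m := ((2 * l + 1 : ℕ) : ℤ)) (int_not_dvd_of_mod hne))
    have e : (l : E) + hf + p * τ = hf * ((((2 * l + 1 : ℕ) : ℤ) : E) + 2 * ((p : E) * τ)) := by
      push_cast; linear_combination (-(l : E) - p * τ) * hhf2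
    rw [e]; exact this
  by_cases hM0 : 0 < M
  swap
  · intro l hl; omega
  refine chain hE (s := sStar p) (a := fun l => (l : E) + hf + p * τ)
    (b := fun l => 2 * ((l : E) + hf + p * τ) - 1) (δ := δ) (M := M) ?_ ?_ ?_
  · have hs : sStar p 0 = St.B := by unfold sStar; rw [if_pos]; simp; omega
    rw [hs]
    have hstep : StepOK O p St.B St.B (((0 : ℕ) : E) + hf + p * τ) (0 : E)
        (-((hf + (p : E) * τ) ^ 3 * φ 0)) :=
      ⟨haU 0 (by rw [Nat.mod_eq_of_lt (by omega)]; omega), O.zero_mem, (h0 hM0).neg⟩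
    have hz : Good O p St.B (0 : E) := ⟨0, O.zero_mem, by ring⟩
    refine step hE hstep hz ?_
    push_cast; ring
  · intro k hk
    have hbe : (2 * (((k + 1 : ℕ) : E) + hf + p * τ) - 1) =
        ((2 * (k + 1 : ℕ) : ℤ) : E) + p * (2 * τ) := by
      push_cast; linear_combination hhf2
    have hbO : (2 * (((k + 1 : ℕ) : E) + hf + p * τ) - 1) ∈ O := by
      rw [hbe]; exact O.add_mem (intCast_mem O _) (O.mul_mem (natCast_mem O p) h2τ)
    have hmod : (k + 1) % p = if k % p + 1 = p then 0 else k % p + 1 := by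
      have hlt := Nat.mod_lt k hp.pos
      rw [Nat.add_mod, Nat.mod_eq_of_lt (show 1 < p by omega)]
      split_ifs with hh
      · rw [hh]; exact Nat.mod_self p
      · exact Nat.mod_eq_of_lt (by omega)
    have hlt := Nat.mod_lt k hp.pos
    have hmod2 : (2 * (k + 1) + 1) % p = (2 * ((k + 1) % p) + 1) % p := by
      conv_lhs => rw [Nat.add_mod, Nat.mul_mod]
      conv_rhs => rw [Nat.add_mod, Nat.mul_mod]
      simp
    have hk1 := hδ (k + 1) (by omega) hk
    have hk1p := hδp (k + 1) (by omega) hk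
    unfold sStar
    by_cases hB : 2 * (k % p) + 1 < p
    · rw [if_pos hB]
      by_cases hB' : 2 * ((k + 1) % p) + 1 < p
      · rw [if_pos hB']
        refine ⟨haU (k + 1) ?_, hbO, hk1p (by omega)⟩
        rw [hmod2, Nat.mod_eq_of_lt hB']; omega
      · rw [if_neg hB']
        have hr : 2 * ((k + 1) % p) + 1 = p := by
          rw [hmod] at hB' ⊢
          split_ifs at hB' ⊢ with hh
          · omega
          · omega
        have hz : (2 * (k + 1) + 1) % p = 0 := by rw [hmod2, hr, Nat.mod_self]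
        obtain ⟨j, hj⟩ := Nat.dvd_of_mod_eq_zero hz
        have hjp : ¬ (p : ℤ) ∣ (j : ℤ) := by
          intro hd
          have hd' : p ∣ j := by exact_mod_cast hd
          obtain ⟨i, rfl⟩ := hd'
          have : p ^ 2 ≤ 2 * (k + 1) + 1 := by
            rw [hj]
            rcases Nat.eq_zero_or_pos i with h0 | h0
            · subst h0; simp at hj
            · nlinarith [Nat.mul_le_mul_left (p * p) h0]
          have hev : (p ^ 2) % 2 = 1 := by
            rw [Nat.pow_mod, hodd]
          omega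
        refine ⟨?_, hbO, hk1p (by omega)⟩
        have := hhfU.mul_pUnitIn (hU.pu2 (m := (j : ℤ)) hjp)
        have e : ((k + 1 : ℕ) : E) + hf + p * τ =
            hf * ((((p * (j : ℤ)) : ℤ) : E) + p * (2 * τ)) := by
          have hj' : (2 : E) * ((k + 1 : ℕ) : E) + 1 = (p : E) * (j : E) := by
            exact_mod_cast congrArg (Nat.cast : ℕ → E) hj
          push_cast at hj' ⊢
          linear_combination (-(k : E) - 1 - p * τ) * hhf2 + hf * hj'
        rw [e]; exact this
    · rw [if_neg hB]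
      by_cases hB' : 2 * ((k + 1) % p) + 1 < p
      · rw [if_pos hB']
        have hz : (k + 1) % p = 0 := by
          rw [hmod] at hB' ⊢
          split_ifs at hB' ⊢ with hh
          · rfl
          · omega
        refine ⟨haU (k + 1) ?_, ?_, hk1p (by omega)⟩
        · rw [hmod2, hz, Nat.mod_eq_of_lt (by omega)]; omega
        · rw [hbe]
          refine inP_int_add h2τ ?_
          exact Dvd.dvd.mul_left (by exact_mod_cast Nat.dvd_of_mod_eq_zero hz) 2
      · rw [if_neg hB']
        refine ⟨haU (k + 1) ?_, hbO, hk1⟩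
        rw [hmod2]
        have hne : (k + 1) % p ≠ 0 := by
          intro h0
          rw [h0] at hB'; omega
        have : (2 * ((k + 1) % p) + 1) = (2 * ((k + 1) % p) + 1 - p) + p := by omega
        have hgt : p < 2 * ((k + 1) % p) + 1 := by
          rw [hmod] at hne ⊢
          split_ifs at hne ⊢ with hh
          · exact absurd rfl hne
          · omega
        have hlt' := Nat.mod_lt (k + 1) hp.pos
        rw [this, Nat.add_mod_right, Nat.mod_eq_of_lt (by omega)]
        omega
  · intro k hk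
    have := h (k + 1) (by omega) hk
    simpa using this

/-- Fourth chain: the nodes `-l - 1/2`, `l ≥ 0`, going down from `-1/2`
(`φ 0`, the germ at `-1/2`, is given in `O`). -/
theorem w_chain (hp : p.Prime) (h2 : p ≠ 2) (hE : IsUnit (p : E))
    {τ hf : E} (hτ : τ ∈ O) (hU : TauUnits O p τ) (hhf : hf ∈ O) (hhf2 : 2 * hf = 1)
    {φ δ : ℕ → E} {M : ℕ} (hM : M ≤ p ^ 2) (h0 : φ 0 ∈ O)
    (hδ : ∀ l, l + 1 < M → δ l ∈ O)
    (hδp : ∀ l, l + 1 < M → p ≤ 2 * (l % p) + 1 → InP O p (δ l))
    (h : ∀ l, l + 1 < M → (-((l : E) + hf) + p * τ) ^ 3 * φ l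
      + (2 * (-((l : E) + hf) + p * τ) - 1) ^ 3 * φ (l + 1) = - δ l) :
    ∀ l, l < M → Good O p (sUp p l) (φ l) := by
  have hodd : p % 2 = 1 := hp.eq_two_or_odd.resolve_left h2
  have hp3 : 3 ≤ p := by
    rcases hp.two_le.lt_or_eq with h | h
    · omega
    · exact absurd h.symm h2
  have hpτ : (p : E) * τ ∈ O := O.mul_mem (natCast_mem O p) hτ
  have h2pτ : 2 * ((p : E) * τ) ∈ O := O.mul_mem (ofNat_mem O 2) hpτ
  have h2τ : 2 * τ ∈ O := O.mul_mem (ofNat_mem O 2) hτ
  refine chain hE (s := sUp p) (a := fun k => 2 * (-(((k - 1 : ℕ) : E) + hf) + p * τ) - 1)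
    (b := fun k => -(((k - 1 : ℕ) : E) + hf) + p * τ) (δ := fun k => δ (k - 1)) (M := M) ?_ ?_ ?_
  · have : sUp p 0 = St.A := by unfold sUp; rw [if_pos (by omega)]
    rw [this]; exact h0
  · intro k hk
    simp only [Nat.add_sub_cancel]
    have hae : (2 * (-((k : E) + hf) + p * τ) - 1) =
        ((-(2 * (k + 1 : ℕ)) : ℤ) : E) + 2 * ((p : E) * τ) := by
      push_cast; linear_combination (-1) * hhf2
    have hbO : (-((k : E) + hf) + p * τ) ∈ O :=
      O.add_mem (O.neg_mem (O.add_mem (natCast_mem O k) hhf)) hpτ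
    have h2u : ¬ (p : ℤ) ∣ 2 := by
      intro hd
      have := Int.le_of_dvd (by norm_num) hd
      omega
    have hpZ : Prime (p : ℤ) := Nat.prime_iff_prime_int.mp hp
    have haU : (k + 1) % p ≠ 0 → UnitIn O (2 * (-((k : E) + hf) + p * τ) - 1) := by
      intro hne
      rw [hae]
      refine hU.u2 ?_
      rw [Int.dvd_neg]
      intro hd
      rcases hpZ.dvd_or_dvd hd with h | h
      · exact h2u h
      · exact int_not_dvd_of_mod hne h
    have hbP : (2 * k + 1) % p = 0 → InP O p (-((k : E) + hf) + p * τ) := by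
      intro h1
      obtain ⟨j, hj⟩ := Nat.dvd_of_mod_eq_zero h1
      refine ⟨-(hf * j) + τ, O.add_mem (O.neg_mem (O.mul_mem hhf (natCast_mem O j))) hτ, ?_⟩
      have hj' : (2 : E) * (k : E) + 1 = (p : E) * (j : E) := by
        exact_mod_cast congrArg (Nat.cast : ℕ → E) hj
      linear_combination (-hf) * hj' + (k : E) * hhf2
    have hmod : (k + 1) % p = if k % p + 1 = p then 0 else k % p + 1 := by
      have hlt := Nat.mod_lt k hp.pos
      rw [Nat.add_mod, Nat.mod_eq_of_lt (show 1 < p by omega)]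
      split_ifs with hh
      · rw [hh]; exact Nat.mod_self p
      · exact Nat.mod_eq_of_lt (by omega)
    have hklt := Nat.mod_lt k hp.pos
    have hk1 := hδ k (by omega)
    have hk1p := hδp k (by omega)
    have hmod2 : (2 * k + 1) % p = (2 * (k % p) + 1) % p := by
      conv_lhs => rw [Nat.add_mod, Nat.mul_mod]
      conv_rhs => rw [Nat.add_mod, Nat.mul_mod]
      simp
    unfold sUp
    by_cases hA : 2 * (k + 1) < p
    · rw [if_pos (by omega), if_pos hA]
      exact ⟨haU (by rw [Nat.mod_eq_of_lt (by omega)]; omega), hbO, hk1⟩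
    · by_cases hA' : 2 * k < p
      · -- k = (p-1)/2
        have hkp : k % p = k := Nat.mod_eq_of_lt (by omega)
        have hk1mod : (k + 1) % p = k + 1 := Nat.mod_eq_of_lt (by omega)
        rw [if_pos hA', if_neg hA, if_pos (by rw [hk1mod]; omega)]
        refine ⟨haU (by omega), hbP ?_, hk1p (by omega)⟩
        have : 2 * k + 1 = p := by omega
        rw [this, Nat.mod_self]
      · rw [if_neg hA', if_neg hA]
        by_cases hB : p < 2 * (k % p)
        · rw [if_pos hB]
          by_cases hB' : p < 2 * ((k + 1) % p)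
          · rw [if_pos hB']
            exact ⟨haU (by omega), hbO, hk1p (by omega)⟩
          · rw [if_neg hB']
            have hz : (k + 1) % p = 0 := by
              rw [hmod] at hB' ⊢
              split_ifs at hB' ⊢ with hh
              · rfl
              · omega
            obtain ⟨j, hj⟩ := Nat.dvd_of_mod_eq_zero hz
            have hjp : ¬ (p : ℤ) ∣ (-(2 * j) : ℤ) := by
              rw [Int.dvd_neg]
              intro hd
              rcases hpZ.dvd_or_dvd hd with h | h
              · exact h2u h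
              have hd' : p ∣ j := by exact_mod_cast h
              obtain ⟨i, rfl⟩ := hd'
              have : p ^ 2 ≤ k + 1 := by
                rw [hj]
                rcases Nat.eq_zero_or_pos i with h0 | h0
                · subst h0; simp at hj
                · nlinarith [Nat.mul_le_mul_left (p * p) h0]
              omega
            refine ⟨?_, hbO, hk1p (by omega)⟩
            have := hU.pu2 (m := (-(2 * j) : ℤ)) hjp
            have e : (2 * (-((k : E) + hf) + p * τ) - 1) =
                (((p * (-(2 * j)) : ℤ)) : E) + p * (2 * τ) := by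
              have hj' : (k : E) + 1 = (p : E) * (j : E) := by
                exact_mod_cast congrArg (Nat.cast : ℕ → E) hj
              push_cast
              linear_combination (-2) * hj' - hhf2
            rw [e]; exact this
        · rw [if_neg hB]
          have hnz : (k + 1) % p ≠ 0 := by
            rw [hmod]; split_ifs with hh
            · omega
            · omega
          by_cases hB' : p < 2 * ((k + 1) % p)
          · rw [if_pos hB']
            have hr : 2 * (k % p) + 1 = p := by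
              rw [hmod] at hB' hnz
              split_ifs at hB' hnz with hh
              · omega
              · omega
            refine ⟨haU hnz, hbP ?_, hk1p (by omega)⟩
            rw [hmod2, hr, Nat.mod_self]
          · rw [if_neg hB']
            exact ⟨haU hnz, hbO, hk1⟩
  · intro k hk
    have := h k (by omega)
    simp only [Nat.add_sub_cancel]
    rw [← this]; ring

end Chains

end Crest.Agent.R006.P4L869
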