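import Crest.Agent.R006.Defs
import Crest.Agent.R006.P4L_nodes_869

/-!
Row 6, block P4, local half: the germs of `Defs` in the rescaled variable `ε = p τ` (helper620).

`A` is a `ℚ`-algebra (`ℚ[X]`, `ℚ_[p]`, `ℚ_[p][X]`, ..), `G : A` the value of `X`.

* `rs p A : ℚ⟦X⟧ →+* A⟦X⟧`, `f(ε) ↦ f(pτ)`; `coeff_rs : coeff j (rs f) = p^j * coeff j f`;
* `E3 A = A⟦X⟧ / (X^3)`, `mk3`, `tau A = mk3 X`, `tau_cube : tau^3 = 0`;
  `rq p A : ℚ⟦X⟧ →+* E3 A`, `rq_pt : rq (pt s) = s + p τ`.
* `psiE p G z`, `gamE p A z : E3 A`, the values of `psi0 - G psi1` and of `gam` at `z + pτ`.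
* **chains** `psiE_Z`, `psiE_H`, `gamE_Z`, `gamE_H` (all integers `i`):
  `x^3 ψ(x) + (2x-1)^3 ψ(x-1) = -(3x-1)/2`, `4 x^2 g(x) = (2x-1)^2 g(x-1)`,
  `x = i + pτ` resp. `x = i + 1/2 + pτ`; base values; `PsiZ c = psi0 + c psi1`.
* `OO A₀ : Subring (E3 A)` for a subring `A₀` of `A`; membership = the coefficients `j < 3`.
-/

set_option autoImplicit false

namespace Crest.Agent.R006.Germ620

open Polynomial Crest.Agent.R006.NV Crest.Agent.R006.P4L869
open Crest.Agent.R006.D (Site psi0 psi1 gam HomZ)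

/-! ### rescaling -/

section rescale

variable (p : ℕ) (A : Type*) [CommRing A] [Algebra ℚ A]

/-- `f(ε) ↦ f(pτ)` -/
noncomputable def rs : PowerSeries ℚ →+* PowerSeries A :=
  (PowerSeries.rescale (p : A)).comp (PowerSeries.map (algebraMap ℚ A))

theorem coeff_rs (f : PowerSeries ℚ) (j : ℕ) :
    PowerSeries.coeff j (rs p A f) = (p : A) ^ j * algebraMap ℚ A (PowerSeries.coeff j f) := by
  simp [rs, PowerSeries.coeff_rescale]

theorem rs_C (a : ℚ) : rs p A (PowerSeries.C a) = PowerSeries.C (algebraMap ℚ A a) := by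
  ext j
  rw [coeff_rs]
  rcases Nat.eq_zero_or_pos j with h | h
  · subst h; simp
  · rw [PowerSeries.coeff_C, PowerSeries.coeff_C, if_neg h.ne', if_neg h.ne', map_zero, mul_zero]

theorem rs_X : rs p A PowerSeries.X = (p : PowerSeries A) * PowerSeries.X := by
  ext j
  rw [coeff_rs, PowerSeries.coeff_X]
  have : (p : PowerSeries A) = PowerSeries.C (p : A) := by simp
  rw [this, PowerSeries.coeff_C_mul, PowerSeries.coeff_X]
  split_ifs with h
  · subst h; simp
  · simp

theorem rs_pt (s : ℚ) : rs p A (pt s) =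
    PowerSeries.C (algebraMap ℚ A s) + (p : PowerSeries A) * PowerSeries.X := by
  rw [pt, map_add, rs_X, rs_C, add_comm]

/-- jets of order `≤ 2` in the variable `τ` -/
abbrev E3 := PowerSeries A ⧸ Ideal.span {(PowerSeries.X : PowerSeries A) ^ 3}

/-- the quotient map -/
noncomputable def mk3 : PowerSeries A →+* E3 A :=
  Ideal.Quotient.mk (Ideal.span {(PowerSeries.X : PowerSeries A) ^ 3})

/-- the jet variable -/
noncomputable def tau : E3 A := mk3 A PowerSeries.X

omit [Algebra ℚ A] in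
theorem mk3_eq_iff (f g : PowerSeries A) :
    mk3 A f = mk3 A g ↔ ∀ j < 3, PowerSeries.coeff j f = PowerSeries.coeff j g := by
  rw [mk3, Ideal.Quotient.eq, Ideal.mem_span_singleton, PowerSeries.X_pow_dvd_iff]
  simp only [map_sub, sub_eq_zero]

omit [Algebra ℚ A] in
theorem mk3_surjective : Function.Surjective (mk3 A) := Ideal.Quotient.mk_surjective

omit [Algebra ℚ A] in
theorem tau_cube : tau A ^ 3 = 0 := by
  rw [tau, ← map_pow, ← map_zero (mk3 A), mk3_eq_iff]
  intro j hj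
  rw [PowerSeries.coeff_X_pow, if_neg (by omega), map_zero]

/-- constants -/
noncomputable def cst : A →+* E3 A := (mk3 A).comp PowerSeries.C

/-- the rescaled jet of a germ -/
noncomputable def rq : PowerSeries ℚ →+* E3 A := (mk3 A).comp (rs p A)

theorem rq_apply (f : PowerSeries ℚ) : rq p A f = mk3 A (rs p A f) := rfl

theorem rq_C (a : ℚ) : rq p A (PowerSeries.C a) = cst A (algebraMap ℚ A a) := by
  rw [rq_apply, rs_C]; rfl

theorem rq_pt (s : ℚ) : rq p A (pt s) = cst A (algebraMap ℚ A s) + p * tau A := by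
  rw [rq_apply, rs_pt, map_add, map_mul, map_natCast]; rfl

theorem rq_pt_int (i : ℤ) : rq p A (pt (i : ℚ)) = (i : E3 A) + p * tau A := by
  rw [rq_pt, map_intCast, map_intCast]

/-- `1/2` -/
noncomputable def hf : E3 A := cst A (algebraMap ℚ A (1 / 2))

theorem two_hf : 2 * hf A = 1 := by
  have h2 : (2 : E3 A) = cst A (algebraMap ℚ A 2) := by
    rw [map_ofNat, map_ofNat]
  rw [hf, h2, ← map_mul, ← map_mul]
  norm_num

theorem rq_pt_half (i : ℤ) : rq p A (pt ((i : ℚ) + 1 / 2)) = (i : E3 A) + hf A + p * tau A := by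
  rw [rq_pt, map_add, map_add, map_intCast, map_intCast]; rfl

theorem isUnit_natCast (hp : p ≠ 0) : IsUnit (p : E3 A) := by
  have h : IsUnit ((p : ℚ)) := IsUnit.mk0 _ (by exact_mod_cast hp)
  have := h.map ((cst A).comp (algebraMap ℚ A))
  simpa using this

theorem rq_smul_half (f : PowerSeries ℚ) :
    rq p A (PowerSeries.C (1 / 2) * f) = hf A * rq p A f := by
  rw [map_mul, rq_C]; rfl

end rescale

/-! ### the germs -/

section germs

variable {A : Type*} [CommRing A] [Algebra ℚ A]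

/-- `ψ(z + pτ)`, with `G` for `X` -/
noncomputable def psiE (p : ℕ) (G : A) (z : Site) : E3 A :=
  rq p A (psi0 z) - cst A G * rq p A (psi1 z)

/-- `g(z + pτ)` -/
noncomputable def gamE (p : ℕ) (A : Type*) [CommRing A] [Algebra ℚ A] (z : Site) : E3 A :=
  rq p A (gam z)

/-- homogeneous chain -/
theorem hom_step (i : ℤ) :
    pt ((i : ℚ) + 1) ^ 3 * HomZ (i + 1) + (2 * pt (i : ℚ) + 1) ^ 3 * HomZ i = 0 := by
  apply bi_step (K := ℚ) (a := fun i => pt ((i : ℚ) + 1) ^ 3)
      (b := fun i => (2 * pt (i : ℚ) + 1) ^ 3) (c := fun _ => 0)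
  · intro i hi
    rw [map_pow, constantCoeff_pt]
    apply pow_ne_zero
    have : ((i + 1 : ℤ) : ℚ) ≠ 0 := by exact_mod_cast (by omega : (i + 1 : ℤ) ≠ 0)
    push_cast at this
    exact this
  · intro i hi
    rw [map_pow, map_add, map_mul, constantCoeff_pt, constantCoeff_two, map_one]
    apply pow_ne_zero
    have : ((2 * i + 1 : ℤ) : ℚ) ≠ 0 := by exact_mod_cast (by omega : (2 * i + 1 : ℤ) ≠ 0)
    push_cast at this
    exact this

theorem HomZ_zero : HomZ 0 = 1 := rfl

/-- the `1/4`-chain of `g` at the half-integers -/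
theorem gamH_step (i : ℤ) :
    pt ((i : ℚ) - 1 / 2 + 1) ^ 2 * D.GamH0 (i + 1) =
      PowerSeries.C (1 / 4) * (2 * pt ((i : ℚ) - 1 / 2) + 1) ^ 2 * D.GamH0 i := by
  have h := (step_HG0 (K := ℚ) 1 i).gam
  have e : ∀ i, (NV.GamH0 (1 : ℚ) i) = D.GamH0 i := by
    intro i
    unfold NV.GamH0 D.GamH0
    rw [map_one]
  rw [e, e] at h
  exact h

variable (p : ℕ)

/-- **chain of `ψ` at the integers**, `x = i + pτ`. -/
theorem psiE_Z (G : A) (i : ℤ) :
    ((i : E3 A) + p * tau A) ^ 3 * psiE p G (.Z i)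
      + (2 * ((i : E3 A) + p * tau A) - 1) ^ 3 * psiE p G (.Z (i - 1))
      = -(hf A * (3 * ((i : E3 A) + p * tau A) - 1)) := by
  have h1 := congrArg (rq p A) (step_Z (K := ℚ) 0 (i - 1)).psi
  have h2 := congrArg (rq p A) (hom_step (i - 1))
  have e1 : (((i - 1 : ℤ) : ℚ) + 1) = (i : ℚ) := by push_cast; ring
  rw [e1, sub_add_cancel] at h1 h2
  rw [map_add, map_mul, map_mul, map_pow, map_pow, map_add, map_mul, rq_pt_int, rq_pt_int,
    map_ofNat, map_one, map_neg, rq_smul_half, map_add, map_mul, rq_pt_int, map_ofNat,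
    map_ofNat] at h1
  rw [map_add, map_mul, map_mul, map_pow, map_pow, map_add, map_mul, rq_pt_int, rq_pt_int,
    map_ofNat, map_one, map_zero] at h2
  rw [psiE, psiE]
  simp only [psi0, psi1]
  push_cast at h1 h2
  linear_combination h1 - cst A G * h2

/-- **chain of `ψ_*` at the half-integers**, `x = i + 1/2 + pτ`. -/
theorem psiE_H (G : A) (i : ℤ) :
    ((i : E3 A) + hf A + p * tau A) ^ 3 * psiE p G (.H i)
      + (2 * ((i : E3 A) + hf A + p * tau A) - 1) ^ 3 * psiE p G (.H (i - 1))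
      = -(hf A * (3 * ((i : E3 A) + hf A + p * tau A) - 1)) := by
  have h1 := congrArg (rq p A) (step_H (K := ℚ) (i - 1)).psi
  have e1 : (((i - 1 : ℤ) : ℚ) + 1 / 2 + 1) = (i : ℚ) + 1 / 2 := by push_cast; ring
  rw [e1, sub_add_cancel] at h1
  rw [map_add, map_mul, map_mul, map_pow, map_pow, map_add, map_mul, rq_pt_half, rq_pt_half,
    map_ofNat, map_one, map_neg, rq_smul_half, map_add, map_mul, rq_pt_half, map_ofNat,
    map_ofNat] at h1
  rw [psiE, psiE]
  simp only [psi0, psi1]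
  push_cast at h1
  rw [map_zero]
  linear_combination h1

/-- chain of `g` at the integers -/
theorem gamE_Z (i : ℤ) :
    4 * ((i : E3 A) + p * tau A) ^ 2 * gamE p A (.Z i)
      = (2 * ((i : E3 A) + p * tau A) - 1) ^ 2 * gamE p A (.Z (i - 1)) := by
  have h1 := congrArg (rq p A) (step_Z (K := ℚ) 0 (i - 1)).gam
  have e1 : (((i - 1 : ℤ) : ℚ) + 1) = (i : ℚ) := by push_cast; ring
  rw [e1, sub_add_cancel] at h1
  have e4 : (4 : E3 A) * cst A (algebraMap ℚ A (1 / 4)) = 1 := by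
    have h4 : (4 : E3 A) = cst A (algebraMap ℚ A 4) := by rw [map_ofNat, map_ofNat]
    rw [h4, ← map_mul, ← map_mul]; norm_num
  rw [map_mul, map_mul, map_mul, map_pow, map_pow, map_add, map_mul, rq_pt_int, rq_pt_int,
    map_ofNat, map_one, rq_C] at h1
  rw [gamE, gamE]
  simp only [gam]
  push_cast at h1
  linear_combination 4 * h1 + (2 * ((i : E3 A) - 1 + p * tau A) + 1) ^ 2 *
    (rq p A) (GamZ (i - 1)) * e4

/-- chain of `g` at the half-integers -/
theorem gamE_H (i : ℤ) :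
    4 * ((i : E3 A) + hf A + p * tau A) ^ 2 * gamE p A (.H i)
      = (2 * ((i : E3 A) + hf A + p * tau A) - 1) ^ 2 * gamE p A (.H (i - 1)) := by
  have h1 := congrArg (rq p A) (gamH_step i)
  have e1 : ((i : ℚ) - 1 / 2 + 1) = (i : ℚ) + 1 / 2 := by ring
  have e2 : ((i : ℚ) - 1 / 2) = ((i - 1 : ℤ) : ℚ) + 1 / 2 := by push_cast; ring
  rw [e1, e2] at h1
  have e4 : (4 : E3 A) * cst A (algebraMap ℚ A (1 / 4)) = 1 := by
    have h4 : (4 : E3 A) = cst A (algebraMap ℚ A 4) := by rw [map_ofNat, map_ofNat]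
    rw [h4, ← map_mul, ← map_mul]; norm_num
  rw [map_mul, map_mul, map_mul, map_pow, map_pow, map_add, map_mul, rq_pt_half, rq_pt_half,
    map_ofNat, map_one, rq_C] at h1
  rw [gamE, gamE]
  simp only [gam, D.GamH]
  rw [sub_add_cancel]
  push_cast at h1
  linear_combination 4 * h1 + (2 * ((i : E3 A) - 1 + hf A + p * tau A) + 1) ^ 2 *
    (rq p A) (D.GamH0 i) * e4

/-- base values -/
theorem psiE_zero (G : A) : psiE p G (.Z 0) = - cst A G := by
  rw [psiE]
  simp only [psi0, psi1]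
  rw [PsiZ_zero, HomZ_zero]
  simp

theorem psiE_neg_half (G : A) : psiE p G (.H (-1)) = 0 := by
  rw [psiE]
  simp only [psi0, psi1]
  have : (PsiH (-1) : PowerSeries ℚ) = 0 := PsiH0_zero
  rw [this]; simp

theorem gamE_zero : gamE p A (.Z 0) = 1 := by
  rw [gamE]
  simp only [gam]
  rw [GamZ_zero, map_one]

theorem gamE_neg_half : gamE p A (.H (-1)) = 1 := by
  rw [gamE]
  simp only [gam, D.GamH]
  have : D.GamH0 ((-1 : ℤ) + 1) = 1 := rfl
  rw [this, map_one]

end germs

/-! ### the lattice -/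

section lattice

variable {A : Type*} [CommRing A]

/-- jets with coefficients in `A₀` -/
noncomputable def OO (A₀ : Subring A) : Subring (E3 A) :=
  ((PowerSeries.map A₀.subtype).range).map (mk3 A)

theorem mem_range_map {A₀ : Subring A} {f : PowerSeries A} :
    f ∈ (PowerSeries.map A₀.subtype).range ↔ ∀ j, PowerSeries.coeff j f ∈ A₀ := by
  constructor
  · rintro ⟨g, rfl⟩ j
    rw [PowerSeries.coeff_map]
    exact (PowerSeries.coeff j g).2
  · intro h
    refine ⟨PowerSeries.mk fun j => ⟨PowerSeries.coeff j f, h j⟩, ?_⟩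
    ext j
    rw [PowerSeries.coeff_map, PowerSeries.coeff_mk]
    rfl

theorem mem_OO {A₀ : Subring A} {f : PowerSeries A} :
    mk3 A f ∈ OO A₀ ↔ ∀ j < 3, PowerSeries.coeff j f ∈ A₀ := by
  constructor
  · rintro ⟨g, hg, hgf⟩ j hj
    rw [← (mk3_eq_iff A g f).mp hgf j hj]
    exact mem_range_map.mp hg j
  · intro h
    refine ⟨PowerSeries.mk fun j => if j < 3 then PowerSeries.coeff j f else 0, ?_, ?_⟩
    · show _ ∈ (PowerSeries.map A₀.subtype).range
      rw [mem_range_map]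
      intro j
      rw [PowerSeries.coeff_mk]
      split_ifs with hj
      · exact h j hj
      · exact A₀.zero_mem
    · rw [mk3_eq_iff]
      intro j hj
      rw [PowerSeries.coeff_mk, if_pos hj]

theorem inP_OO {A₀ : Subring A} {p : ℕ} {f : PowerSeries A} :
    InP (OO A₀) p (mk3 A f) ↔ ∀ j < 3, ∃ a ∈ A₀, PowerSeries.coeff j f = (p : A) * a := by
  have hC : ∀ g : PowerSeries A, (p : E3 A) * mk3 A g = mk3 A (PowerSeries.C (p : A) * g) := by
    intro g; rw [map_mul]; simp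
  constructor
  · rintro ⟨y, hy, hfy⟩ j hj
    obtain ⟨g, rfl⟩ := mk3_surjective A y
    rw [hC, mk3_eq_iff] at hfy
    refine ⟨PowerSeries.coeff j g, mem_OO.mp hy j hj, ?_⟩
    rw [hfy j hj, PowerSeries.coeff_C_mul]
  · intro h
    choose a ha haf using h
    refine ⟨mk3 A (PowerSeries.mk fun j => if hj : j < 3 then a j hj else 0), ?_, ?_⟩
    · rw [mem_OO]
      intro j hj
      rw [PowerSeries.coeff_mk, dif_pos hj]
      exact ha j hj
    · rw [hC, mk3_eq_iff]
      intro j hj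
      rw [PowerSeries.coeff_C_mul, PowerSeries.coeff_mk, dif_pos hj]
      exact haf j hj

theorem inM_OO {A₀ : Subring A} {p : ℕ} {f : PowerSeries A} :
    InM (OO A₀) p (mk3 A f) ↔ ∀ j < 3, (p : A) ^ 2 * PowerSeries.coeff j f ∈ A₀ := by
  have hC : (p : E3 A) ^ 2 * mk3 A f = mk3 A (PowerSeries.C ((p : A) ^ 2) * f) := by
    rw [map_mul]; simp
  rw [InM, hC, mem_OO]
  simp only [PowerSeries.coeff_C_mul]

theorem tau_mem_OO (A₀ : Subring A) : tau A ∈ OO A₀ := by
  rw [tau, mem_OO]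
  intro j _
  rw [PowerSeries.coeff_X]
  split_ifs
  · exact A₀.one_mem
  · exact A₀.zero_mem

theorem cst_mem_OO {A₀ : Subring A} {a : A} (ha : a ∈ A₀) : cst A a ∈ OO A₀ := by
  show mk3 A (PowerSeries.C a) ∈ OO A₀
  rw [mem_OO]
  intro j _
  rw [PowerSeries.coeff_C]
  split_ifs
  · exact ha
  · exact A₀.zero_mem

/-- integers prime to `p` are units of the lattice -/
theorem primeUnits_OO {A₀ : Subring A} {p : ℕ}
    (h : ∀ m : ℤ, ¬ (p : ℤ) ∣ m → ∃ w ∈ A₀, w * (m : A) = 1) : PrimeUnits (OO A₀) p := by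
  intro m hm
  obtain ⟨w, hw, hwm⟩ := h m hm
  refine ⟨cst A w, cst_mem_OO hw, ?_⟩
  rw [← map_intCast (cst A), ← map_mul, hwm, map_one]

end lattice

end Crest.Agent.R006.Germ620
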