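import Crest.Agent.R006.P4L_fin_869
import Crest.Agent.R006.P4L_hcv_830
import Crest.Agent.R006.P4_LocalInput_955
import Crest.Agent.R006.P4_BaseO_170
import Crest.Agent.R006.P4_Germ_620
import Crest.Agent.R006.P4_ClassMap_110

/-!
Row 6, block P4, local input (L2) (helper869): the instance of `P4L_fin_869` in
`E = PowerSeries ℚ[X]`, `B = B0 p` = the elements of weight `0` of 955's jet filtration
(`coeff_j f ∈ p^{-j} ℤ_(p)[X]`), `τ = ε / p`, for the germs `PsiX` of `P4_LocalInput_955`.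

Final statements: `good_Z_nonneg`, `good_Z_neg`, `good_H_nonneg`, `good_H_neg`, and with the
weights `weight_polar`, `weight_regular`, `weight_zero`.
-/

set_option autoImplicit false

namespace Crest.Agent.R006.P4L869

open Polynomial Finset Tollx814 P4Toll961 Crest.Agent.R006.P4M Crest.Agent.R006.P4BaseOx170
open Crest.Agent.R006.D (Site psi0 psi1 HomZ)

variable (p : ℕ) [hp : Fact p.Prime]

/-- the integral ring: elements of weight `0` of the jet filtration -/
noncomputable abbrev B0 : Subring (PowerSeries ℚ[X]) := OO (psFil (pbFil p))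

/-- `ℤ_(p) → B0` -/
noncomputable def phi0 : O p →+* B0 p := (phi p).codRestrict (B0 p) fun x j => by
  have := phi_mem_zero p x j
  rw [mem_pbFil]
  simpa using this

theorem phi0_coe (x : O p) : ((phi0 p x : B0 p) : PowerSeries ℚ[X]) =
    PowerSeries.C (C (x : ℚ)) := rfl

/-- constants -/
theorem CC_mem {v : ℤ} {a : ℚ} (h : padicNorm p a ≤ (p : ℚ) ^ (-v)) :
    PowerSeries.C (C a) ∈ (psFil (pbFil p)).F v := C_mem _ (ProdBound481.PB.C h)

theorem CC_mem_int (m : ℤ) : PowerSeries.C (C (m : ℚ)) ∈ (psFil (pbFil p)).F 0 :=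
  CC_mem p (by simpa using padicNorm.of_int (p := p) m)

theorem norm_inv_p : padicNorm p ((p : ℚ)⁻¹) ≤ (p : ℚ) ^ (-(-1 : ℤ)) := by
  have h : padicNorm p ((p : ℚ)⁻¹) = p := by
    have h1 := padicNorm.div (p := p) 1 (p : ℚ)
    rw [one_div, padicNorm.one, padicNorm.padicNorm_p_of_prime, one_div, inv_inv] at h1
    exact h1
  rw [h]; simp

/-- `τ = ε / p` -/
noncomputable def tauB : B0 p :=
  ⟨PowerSeries.C (C ((p : ℚ)⁻¹)) * PowerSeries.X,
    mul_mem' _ (CC_mem p (norm_inv_p p)) (X_mem _) (by norm_num)⟩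

theorem tauB_coe : ((tauB p : B0 p) : PowerSeries ℚ[X]) =
    PowerSeries.C (C ((p : ℚ)⁻¹)) * PowerSeries.X := rfl

/-- `1/2` -/
noncomputable def hfB : B0 p := Ring.inverse 2

theorem p_ne : (p : ℚ) ≠ 0 := by exact_mod_cast hp.out.ne_zero

theorem p_tauB : (p : PowerSeries ℚ[X]) * (tauB p : PowerSeries ℚ[X]) = PowerSeries.X := by
  rw [tauB_coe, ← mul_assoc]
  have : (p : PowerSeries ℚ[X]) = PowerSeries.C (C (p : ℚ)) := by simp
  rw [this, ← map_mul, ← map_mul, mul_inv_cancel₀ (p_ne p)]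
  simp

theorem isUnit_pE : IsUnit (p : PowerSeries ℚ[X]) := by
  have h : IsUnit (p : ℚ) := IsUnit.mk0 _ (p_ne p)
  have := h.map ((PowerSeries.C (R := ℚ[X])).comp (C (R := ℚ)))
  simpa using this

/-- units of `B0` -/
theorem isUnit_of_constantCoeff (f : B0 p) {w : ℚ[X]} (hw : w ∈ (pbFil p).F 0)
    (h : w * PowerSeries.constantCoeff (f : PowerSeries ℚ[X]) = 1) : IsUnit f := by
  obtain ⟨g, hg, hgf⟩ := exists_inv (pbFil p) f.2 hw h
  refine IsUnit.of_mul_eq_one ⟨g, hg⟩ ?_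
  apply Subtype.ext
  show (f : PowerSeries ℚ[X]) * g = 1
  rw [mul_comm]; exact hgf

theorem bunits : BUnits p (tauB p) := by
  intro m hm k
  have h1 : padicNorm p (m : ℚ) = 1 := (padicNorm.int_eq_one_iff m).2 hm
  have h0 : (m : ℚ) ≠ 0 := by
    intro h
    rw [h, padicNorm.zero] at h1
    exact zero_ne_one h1
  have h2 : padicNorm p ((m : ℚ)⁻¹) ≤ (p : ℚ) ^ (-(0 : ℤ)) := by
    have h3 := padicNorm.div (p := p) 1 (m : ℚ)
    rw [padicNorm.one, h1, div_one, one_div] at h3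
    rw [h3]; simp
  refine isUnit_of_constantCoeff p _ (w := C ((m : ℚ)⁻¹)) (ProdBound481.PB.C h2) ?_
  have e1 : (((m : B0 p) + (k : B0 p) * tauB p : B0 p) : PowerSeries ℚ[X]) =
      (m : PowerSeries ℚ[X]) + (k : PowerSeries ℚ[X]) *
        (PowerSeries.C (C ((p : ℚ)⁻¹)) * PowerSeries.X) := by
    push_cast; rw [tauB_coe]
  rw [e1]
  have e2 : PowerSeries.constantCoeff ((m : PowerSeries ℚ[X]) + (k : PowerSeries ℚ[X]) *
      (PowerSeries.C (C ((p : ℚ)⁻¹)) * PowerSeries.X)) = C (m : ℚ) := by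
    simp
  rw [e2, ← C_mul, inv_mul_cancel₀ h0, C_1]

variable {p}

theorem two_unit (h2 : p ≠ 2) : IsUnit (2 : B0 p) := by
  have hnd : ¬ (p : ℤ) ∣ 2 := by
    intro hd
    have h1 := Int.le_of_dvd (by norm_num) hd
    have h3 := hp.out.two_le
    have : (p : ℤ) = 2 := by omega
    exact h2 (by exact_mod_cast this)
  have := bunits p 2 hnd 0
  simpa using this

theorem two_hfB (h2 : p ≠ 2) : 2 * hfB p = 1 := Ring.mul_inverse_cancel _ (two_unit h2)

theorem hfB_coe (h2 : p ≠ 2) :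
    ((hfB p : B0 p) : PowerSeries ℚ[X]) = PowerSeries.C (C (1 / 2)) := by
  have h1 := congrArg (B0 p).subtype (two_hfB h2)
  rw [map_mul, map_ofNat, map_one] at h1
  have h3 : (2 : PowerSeries ℚ[X]) * PowerSeries.C (C (1 / 2)) = 1 := by
    have : (2 : PowerSeries ℚ[X]) = PowerSeries.C (C 2) :=
      (map_ofNat ((PowerSeries.C (R := ℚ[X])).comp (C (R := ℚ))) 2).symm
    rw [this, ← map_mul, ← map_mul]
    norm_num
  have h4 : (2 : PowerSeries ℚ[X]) * ((hfB p : B0 p) : PowerSeries ℚ[X]) = 1 := h1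
  linear_combination PowerSeries.C (C (1 / 2)) * h4 -
    ((hfB p : B0 p) : PowerSeries ℚ[X]) * h3

/-! ### the recurrences of `PsiX` -/

theorem map_pt (s : ℚ) : PowerSeries.map (C : ℚ →+* ℚ[X]) (NV.pt s) =
    PowerSeries.C (C s) + PowerSeries.X := by
  rw [NV.pt, map_add, PowerSeries.map_C, PowerSeries.map_X, add_comm]

theorem PsiX_Z (i : ℤ) :
    2 * ((PowerSeries.C (C (i : ℚ)) + PowerSeries.X) ^ 3 * PsiX (.Z i)
      + (2 * (PowerSeries.C (C (i : ℚ)) + PowerSeries.X) - 1) ^ 3 * PsiX (.Z (i - 1)))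
      = -(3 * (PowerSeries.C (C (i : ℚ)) + PowerSeries.X) - 1) := by
  have h1 := congrArg (PowerSeries.map (C : ℚ →+* ℚ[X])) (NV.step_Z (K := ℚ) 0 (i - 1)).psi
  have h2 := congrArg (PowerSeries.map (C : ℚ →+* ℚ[X])) (Germ620.hom_step (i - 1))
  have e1 : (((i - 1 : ℤ) : ℚ) + 1) = (i : ℚ) := by push_cast; ring
  have e2 : (((i - 1 : ℤ) : ℚ)) = (i : ℚ) - 1 := by push_cast; ring
  rw [e1, e2, sub_add_cancel] at h1 h2
  simp only [map_add, map_mul, map_pow, map_one, map_neg, map_ofNat, map_pt,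
    PowerSeries.map_C, map_zero, map_sub] at h1 h2
  have h3 : (2 : PowerSeries ℚ[X]) * PowerSeries.C (C (1 / 2)) = 1 := by
    have : (2 : PowerSeries ℚ[X]) = PowerSeries.C (C 2) :=
      (map_ofNat ((PowerSeries.C (R := ℚ[X])).comp (C (R := ℚ))) 2).symm
    rw [this, ← map_mul, ← map_mul]
    norm_num
  rw [PsiX, PsiX]
  simp only [psi0, psi1]
  linear_combination 2 * h1 - 2 * PowerSeries.C X * h2 -
    (3 * (PowerSeries.C (C (i : ℚ)) - 1 + PowerSeries.X) + 2) * h3

theorem PsiX_H (i : ℤ) :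
    2 * ((PowerSeries.C (C ((i : ℚ) + 1 / 2)) + PowerSeries.X) ^ 3 * PsiX (.H i)
      + (2 * (PowerSeries.C (C ((i : ℚ) + 1 / 2)) + PowerSeries.X) - 1) ^ 3 * PsiX (.H (i - 1)))
      = -(3 * (PowerSeries.C (C ((i : ℚ) + 1 / 2)) + PowerSeries.X) - 1) := by
  have h1 := congrArg (PowerSeries.map (C : ℚ →+* ℚ[X])) (NV.step_H (K := ℚ) (i - 1)).psi
  have e1 : (((i - 1 : ℤ) : ℚ) + 1 / 2 + 1) = (i : ℚ) + 1 / 2 := by push_cast; ring
  have e2 : (((i - 1 : ℤ) : ℚ) + 1 / 2) = ((i : ℚ) + 1 / 2) - 1 := by push_cast; ring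
  rw [e1, e2, sub_add_cancel] at h1
  have h3 : (2 : PowerSeries ℚ[X]) * PowerSeries.C (C (1 / 2)) = 1 := by
    have : (2 : PowerSeries ℚ[X]) = PowerSeries.C (C 2) :=
      (map_ofNat ((PowerSeries.C (R := ℚ[X])).comp (C (R := ℚ))) 2).symm
    rw [this, ← map_mul, ← map_mul]
    norm_num
  simp only [map_mul, map_pow, map_one, map_neg, map_ofNat, map_pt, map_sub,
    PowerSeries.map_C, map_add (PowerSeries.map (C : ℚ →+* ℚ[X])),
    ] at h1
  rw [PsiX, PsiX]
  simp only [psi0, psi1, map_zero, mul_zero, sub_zero]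
  linear_combination 2 * h1 -
    (3 * (PowerSeries.C (C ((i : ℚ) + 1 / 2)) - 1 + PowerSeries.X) + 2) * h3

theorem PsiX_zero : PsiX (.Z 0) = -PowerSeries.C X := by
  rw [PsiX]
  simp only [psi0, psi1]
  rw [NV.PsiZ_zero, Germ620.HomZ_zero]
  simp

theorem PsiX_neg_half : PsiX (.H (-1)) = 0 := by
  rw [PsiX]
  simp only [psi0, psi1]
  have : (NV.PsiH (-1) : PowerSeries ℚ) = 0 := NV.PsiH0_zero
  rw [this]; simp

/-! ### the sites -/

/-- the shift `t` of the site: the site is `rS z + p (tS z)` -/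
noncomputable def tS (p : ℕ) [Fact p.Prime] : Site → B0 p
  | .Z _ => tauB p
  | .H _ => tauB p - hfB p

/-- the integer of the site: `i`, resp. `i + (p+1)/2` for `i + 1/2` -/
def rS (p : ℕ) : Site → ℤ
  | .Z i => i
  | .H i => i + ((p + 1) / 2 : ℕ)

/-- the state of the site -/
def stS (p : ℕ) : Site → St
  | .Z i => if 0 ≤ i then sUp p i.toNat else sDown p (-i).toNat
  | .H i => if 0 ≤ i then sStar p i.toNat else sUp p (-i - 1).toNat

omit hp in
theorem cS_rS (z : Site) : cS p (rS p z) = cl p z := by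
  cases z <;> rfl

theorem odd_of (h2 : p ≠ 2) : p % 2 = 1 := hp.out.eq_two_or_odd.resolve_left h2

theorem xS_coe (h2 : p ≠ 2) (z : Site) :
    ((xS p (tS p z) (rS p z) : B0 p) : PowerSeries ℚ[X]) = xs z := by
  have hodd := odd_of h2
  have e0 : ∀ i : ℤ, (i : PowerSeries ℚ[X]) = PowerSeries.C (C (i : ℚ)) := by
    intro i; simp
  cases z with
  | Z i =>
    have e1 : ((xS p (tS p (.Z i)) (rS p (.Z i)) : B0 p) : PowerSeries ℚ[X]) =
        (i : PowerSeries ℚ[X]) + (p : PowerSeries ℚ[X]) * (tauB p : PowerSeries ℚ[X]) := by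
      simp only [xS, tS, rS]; push_cast; rfl
    rw [e1, p_tauB, xs, e0]; rfl
  | H i =>
    obtain ⟨g, hg⟩ : ∃ g, p = 2 * g + 1 := ⟨p / 2, by omega⟩
    have hg2 : (p + 1) / 2 = g + 1 := by omega
    have hpg : (p : PowerSeries ℚ[X]) = 2 * (g : PowerSeries ℚ[X]) + 1 := by
      have := congrArg (Nat.cast : ℕ → PowerSeries ℚ[X]) hg
      push_cast at this; exact this
    have e1 : ((xS p (tS p (.H i)) (rS p (.H i)) : B0 p) : PowerSeries ℚ[X]) =
        (i : PowerSeries ℚ[X]) + ((g : PowerSeries ℚ[X]) + 1) +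
          (p : PowerSeries ℚ[X]) * ((tauB p : PowerSeries ℚ[X]) -
            (hfB p : PowerSeries ℚ[X])) := by
      simp only [xS, tS, rS, hg2]; push_cast; rfl
    have h3 : (2 : PowerSeries ℚ[X]) * PowerSeries.C (C (1 / 2)) = 1 := by
      have : (2 : PowerSeries ℚ[X]) = PowerSeries.C (C 2) :=
        (map_ofNat ((PowerSeries.C (R := ℚ[X])).comp (C (R := ℚ))) 2).symm
      rw [this, ← map_mul, ← map_mul]
      norm_num
    rw [e1, mul_sub, p_tauB, hfB_coe h2, xs]
    simp only [Site.val]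
    rw [C_add, map_add, ← e0]
    linear_combination (-PowerSeries.C (C (1 / 2))) * hpg - ((g : PowerSeries ℚ[X]) + 1) * h3

section final

variable {K N : ℕ} {L : (B0 p)[X] →ₗ[B0 p] B0 p} {e : ℕ → (B0 p)[X]}

theorem good_Z_nonneg (h5 : 5 ≤ p) (hK : 2 ≤ K) (hL : Loc p K N L e) (n : ℕ) (hn : n < p ^ 2) :
    Good (B0 p).subtype.range p (sUp p n)
      (PsiX (.Z n) - (B0 p).subtype (hS p N L e (tauB p) n)) := by
  have h2 : p ≠ 2 := by omega
  refine int_up (B0 p).subtype hL hp.out h5 hK (isUnit_pE p) (bunits p)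
    (ψ := fun i => PsiX (.Z i)) ?_ ?_ n hn
  · rw [PsiX_zero]
    refine ⟨⟨-PowerSeries.C X, ?_⟩, rfl⟩
    refine Subring.neg_mem _ (C_mem (pbFil p) ?_)
    intro k
    rw [coeff_X]
    split_ifs
    · simp
    · simp
  · intro r _ _
    have := PsiX_Z r
    have e1 : (B0 p).subtype (xS p (tauB p) r) = PowerSeries.C (C (r : ℚ)) + PowerSeries.X :=
      xS_coe h2 (.Z r)
    rw [e1]; exact this

theorem good_Z_neg (h5 : 5 ≤ p) (hK : 2 ≤ K) (hL : Loc p K N L e) (m : ℕ) (hm : 0 < m)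
    (hmp : 2 * (m + 1) ≤ p ^ 2) :
    Good (B0 p).subtype.range p (sDown p m)
      (PsiX (.Z (-(m : ℤ))) - (B0 p).subtype (hS p N L e (tauB p) (-(m : ℤ)))) := by
  have h2 : p ≠ 2 := by omega
  refine int_down (B0 p).subtype hL hp.out h5 hK (isUnit_pE p) (bunits p) hmp
    (ψ := fun i => PsiX (.Z i)) ?_ ?_ m hm (Nat.lt_succ_self m)
  · rw [PsiX_zero]
    refine ⟨⟨-PowerSeries.C X, ?_⟩, rfl⟩
    refine Subring.neg_mem _ (C_mem (pbFil p) ?_)
    intro k
    rw [coeff_X]
    split_ifs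
    · simp
    · simp
  · intro r _ _
    have := PsiX_Z r
    have e1 : (B0 p).subtype (xS p (tauB p) r) = PowerSeries.C (C (r : ℚ)) + PowerSeries.X :=
      xS_coe h2 (.Z r)
    rw [e1]; exact this

theorem half_aux (h2 : p ≠ 2) (i : ℤ) :
    (i : PowerSeries ℚ[X]) - (B0 p).subtype (hfB p) +
        (p : PowerSeries ℚ[X]) * (B0 p).subtype (tauB p) =
      PowerSeries.C (C (((i - 1 : ℤ) : ℚ) + 1 / 2)) + PowerSeries.X := by
  have h3 : (B0 p).subtype (hfB p) = PowerSeries.C (C (1 / 2)) := hfB_coe h2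
  have h4 : (p : PowerSeries ℚ[X]) * (B0 p).subtype (tauB p) = PowerSeries.X := p_tauB p
  rw [h3, h4]
  have e0 : (i : PowerSeries ℚ[X]) = PowerSeries.C (C (i : ℚ)) := by simp
  rw [e0, ← map_sub, ← C_sub]
  congr 3
  push_cast; ring

theorem half_rec (h2 : p ≠ 2) (i : ℤ) :
    2 * (((i : PowerSeries ℚ[X]) - (B0 p).subtype (hfB p) +
        (p : PowerSeries ℚ[X]) * (B0 p).subtype (tauB p)) ^ 3 * PsiX (.H (i - 1))
      + (2 * ((i : PowerSeries ℚ[X]) - (B0 p).subtype (hfB p)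
        + (p : PowerSeries ℚ[X]) * (B0 p).subtype (tauB p)) - 1) ^ 3 * PsiX (.H (i - 1 - 1)))
      = -(3 * ((i : PowerSeries ℚ[X]) - (B0 p).subtype (hfB p)
        + (p : PowerSeries ℚ[X]) * (B0 p).subtype (tauB p)) - 1) := by
  rw [half_aux h2]
  exact PsiX_H (i - 1)

theorem good_H_nonneg (h5 : 5 ≤ p) (hK : 2 ≤ K) (hL : Loc p K N L e) (l : ℕ)
    (hl : 2 * (l + 1) ≤ p ^ 2) :
    Good (B0 p).subtype.range p (sStar p l)
      (PsiX (.H l) - (B0 p).subtype (hS p N L e (tauB p - hfB p) (l + ((p + 1) / 2 : ℕ)))) := by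
  have h2 : p ≠ 2 := by omega
  have hodd := odd_of h2
  have := half_up (B0 p).subtype hL hp.out h5 hK (isUnit_pE p) (bunits p) (two_hfB h2) hl
    (ψ := fun i => PsiX (.H (i - 1))) (by
      show PsiX (.H (0 - 1)) ∈ _
      rw [zero_sub, PsiX_neg_half]
      exact Subring.zero_mem _)
    (fun i _ _ => half_rec h2 i) l (Nat.lt_succ_self l)
  have e1 : ((l : ℤ) + 1 + ((p - 1) / 2 : ℕ)) = l + ((p + 1) / 2 : ℕ) := by
    have : (p + 1) / 2 = 1 + (p - 1) / 2 := by omega
    rw [this]; push_cast; ring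
  have e2 : ((l : ℤ) + 1 - 1) = l := by ring
  simp only [e1, e2] at this
  exact this

theorem good_H_neg (h5 : 5 ≤ p) (hK : 2 ≤ K) (hL : Loc p K N L e) (l : ℕ)
    (hl : l + 1 ≤ p ^ 2) :
    Good (B0 p).subtype.range p (sUp p l)
      (PsiX (.H (-(l : ℤ) - 1)) -
        (B0 p).subtype (hS p N L e (tauB p - hfB p) (-(l : ℤ) - 1 + ((p + 1) / 2 : ℕ)))) := by
  have h2 : p ≠ 2 := by omega
  have hodd := odd_of h2
  have := half_down (B0 p).subtype hL hp.out h5 hK (isUnit_pE p) (bunits p) (two_hfB h2) hl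
    (ψ := fun i => PsiX (.H (i - 1))) (by
      show PsiX (.H (0 - 1)) ∈ _
      rw [zero_sub, PsiX_neg_half]
      exact Subring.zero_mem _)
    (fun i _ _ => half_rec h2 i) l (Nat.lt_succ_self l)
  have e1 : (-(l : ℤ) + ((p - 1) / 2 : ℕ)) = -(l : ℤ) - 1 + ((p + 1) / 2 : ℕ) := by
    have : (p + 1) / 2 = 1 + (p - 1) / 2 := by omega
    rw [this]; push_cast; ring
  simp only [e1] at this
  exact this

/-- **The local input (L2) at every site.** -/
theorem good_site (h5 : 5 ≤ p) (hK : 2 ≤ K) (hL : Loc p K N L e) (z : Site) (hz : InR p z) :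
    Good (B0 p).subtype.range p (stS p z)
      (PsiX z - (B0 p).subtype (hS p N L e (tS p z) (rS p z))) := by
  cases z with
  | Z i =>
    simp only [InR, Site.val] at hz
    rcases le_or_gt 0 i with hi | hi
    · obtain ⟨n, rfl⟩ := Int.eq_ofNat_of_zero_le hi
      have h1 : 2 * n + 2 < p ^ 2 := by
        have : |((n : ℤ) : ℚ)| = n := by push_cast; exact abs_of_nonneg (by positivity)
        rw [this] at hz
        exact_mod_cast hz
      have := good_Z_nonneg h5 hK hL n (by omega)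
      simp only [stS, tS, rS]
      rw [if_pos hi]
      exact this
    · obtain ⟨m, rfl⟩ : ∃ m : ℕ, i = -(m : ℤ) := ⟨(-i).toNat, by omega⟩
      have hm : 0 < m := by omega
      have h1 : 2 * m + 2 < p ^ 2 := by
        have : |((-(m : ℤ) : ℤ) : ℚ)| = m := by
          push_cast; rw [abs_neg]; exact abs_of_nonneg (by positivity)
        rw [this] at hz
        exact_mod_cast hz
      have := good_Z_neg h5 hK hL m hm (by omega)
      simp only [stS, tS, rS]
      rw [if_neg (by omega), neg_neg, Int.toNat_natCast]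
      exact this
  | H i =>
    simp only [InR, Site.val] at hz
    rcases le_or_gt 0 i with hi | hi
    · obtain ⟨n, rfl⟩ := Int.eq_ofNat_of_zero_le hi
      have h1 : 2 * n + 3 < p ^ 2 := by
        have : |((n : ℤ) : ℚ) + 1 / 2| = n + 1 / 2 := by
          push_cast; exact abs_of_nonneg (by positivity)
        rw [this] at hz
        have h3 : 2 * (n : ℚ) + 3 < (p : ℚ) ^ 2 := by linarith
        exact_mod_cast h3
      have := good_H_nonneg h5 hK hL n (by omega)
      simp only [stS, tS, rS]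
      rw [if_pos hi]
      exact this
    · obtain ⟨l, rfl⟩ : ∃ l : ℕ, i = -(l : ℤ) - 1 := ⟨(-i - 1).toNat, by omega⟩
      have h1 : 2 * l + 3 < p ^ 2 := by
        have : |((-(l : ℤ) - 1 : ℤ) : ℚ) + 1 / 2| = l + 1 / 2 := by
          have h4 : ((-(l : ℤ) - 1 : ℤ) : ℚ) + 1 / 2 = -((l : ℚ) + 1 / 2) := by push_cast; ring
          rw [h4, abs_neg]; exact abs_of_nonneg (by positivity)
        rw [this] at hz
        have h3 : 2 * (l : ℚ) + 3 < (p : ℚ) ^ 2 := by linarith
        exact_mod_cast h3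
      have := good_H_neg h5 hK hL l (by omega)
      simp only [stS, tS, rS]
      rw [if_neg (by omega)]
      have e1 : (-(-(l : ℤ) - 1) - 1).toNat = l := by omega
      rw [e1]
      exact this

end final

/-! ### states and classes -/

theorem stS_zero (p : ℕ) {i : ℕ} (h : 2 * i < p) : stS p (.Z (i : ℤ)) = St.A := by
  simp only [stS]
  rw [if_pos (by positivity), Int.toNat_natCast, sUp, if_pos h]

theorem stS_regular (h2 : p ≠ 2) {z : Site} (hc : p < 2 * cl p z)
    (hz : ∀ i, z = .H i → 0 ≤ i) : stS p z = St.B := by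
  have hodd := odd_of h2
  have hp0 := hp.out.pos
  rw [← cS_rS] at hc
  cases z with
  | Z i =>
    simp only [rS] at hc
    simp only [stS]
    rcases le_or_gt 0 i with hi | hi
    · obtain ⟨n, rfl⟩ := Int.eq_ofNat_of_zero_le hi
      rw [cS_natCast] at hc
      rw [if_pos hi, Int.toNat_natCast, sUp, if_neg, if_pos hc]
      intro h
      rw [Nat.mod_eq_of_lt (by omega)] at hc
      omega
    · obtain ⟨m, rfl⟩ : ∃ m : ℕ, i = -(m : ℤ) := ⟨(-i).toNat, by omega⟩
      rw [if_neg (by omega), neg_neg, Int.toNat_natCast, sDown]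
      obtain ⟨k, hk⟩ := cS_spec hp0 (-(m : ℤ))
      have hlt := cS_lt hp0 (-(m : ℤ))
      set c := cS p (-(m : ℤ)) with hcdef
      have h1 : m % p = p - c := by
        have h2 : (m : ℤ) = ((p - c : ℕ) : ℤ) + p * (-k - 1) := by
          rw [Nat.cast_sub hlt.le]; linarith
        have h3 : cS p (m : ℤ) = p - c := cS_unique hp0 (by omega) h2
        rwa [cS_natCast] at h3
      rw [h1, if_pos ⟨by omega, by omega⟩]
  | H i =>
    have hi := hz i rfl
    obtain ⟨l, rfl⟩ := Int.eq_ofNat_of_zero_le hi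
    simp only [rS] at hc
    simp only [stS]
    rw [if_pos hi, Int.toNat_natCast, sStar, if_pos]
    have e1 : ((l : ℤ) + ((p + 1) / 2 : ℕ)) = ((l + (p + 1) / 2 : ℕ) : ℤ) := by push_cast; ring
    rw [e1, cS_natCast] at hc
    by_contra hcon
    have hlt := Nat.mod_lt l hp0
    have hdm := Nat.mod_add_div l p
    have h1 : (l + (p + 1) / 2) % p = l % p + (p + 1) / 2 - p := by
      have h2 : l + (p + 1) / 2 = (l % p + (p + 1) / 2 - p) + p * (l / p + 1) := by
        rw [mul_add, mul_one]; omega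
      rw [h2, Nat.add_mul_mod_self_left]
      exact Nat.mod_eq_of_lt (by omega)
    rw [h1] at hc
    omega

/-- the weight of a state -/
def wt : St → ℤ
  | St.A => 0
  | St.B => 1
  | St.C => -2

theorem wt_ge (s : St) : -2 ≤ wt s := by cases s <;> simp [wt]

theorem natCast_p_mem : (p : PowerSeries ℚ[X]) ∈ (psFil (pbFil p)).F 1 := by
  have : (p : PowerSeries ℚ[X]) = PowerSeries.C (C (p : ℚ)) := by simp
  rw [this]
  refine CC_mem p ?_
  rw [padicNorm.padicNorm_p_of_prime]; simp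

/-- `Good` in terms of the filtration -/
theorem Good.mem {s : St} {x : PowerSeries ℚ[X]}
    (h : Good (B0 p).subtype.range p s x) : x ∈ (psFil (pbFil p)).F (wt s) := by
  have hr : ∀ y, y ∈ (B0 p).subtype.range → y ∈ (psFil (pbFil p)).F 0 := by
    rintro y ⟨b, rfl⟩; exact b.2
  cases s with
  | A => exact hr _ h
  | B =>
    obtain ⟨y, hy, rfl⟩ := h
    exact mul_mem' _ natCast_p_mem (hr _ hy) (by simp [wt])
  | C =>
    have h1 := hr _ h
    have h2 : PowerSeries.C (C ((p : ℚ)⁻¹)) ∈ (psFil (pbFil p)).F (-1) := CC_mem p (norm_inv_p p)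
    have e1 : x = PowerSeries.C (C ((p : ℚ)⁻¹)) * (PowerSeries.C (C ((p : ℚ)⁻¹)) *
        ((p : PowerSeries ℚ[X]) ^ 2 * x)) := by
      have e2 : PowerSeries.C (C ((p : ℚ)⁻¹)) * (p : PowerSeries ℚ[X]) = 1 := by
        have : (p : PowerSeries ℚ[X]) = PowerSeries.C (C (p : ℚ)) := by simp
        rw [this, ← map_mul, ← map_mul, inv_mul_cancel₀ (p_ne p)]
        simp
      linear_combination (-(1 + PowerSeries.C (C ((p : ℚ)⁻¹)) * (p : PowerSeries ℚ[X])) * x) * e2
    rw [e1]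
    exact mul_mem' _ h2 (mul_mem' _ h2 h1 le_rfl) (by simp [wt])

/-- divisibility in `B0` in terms of the filtration -/
theorem mem_of_dvd {k : ℕ} {b : B0 p} (h : (p : B0 p) ^ k ∣ b) :
    (b : PowerSeries ℚ[X]) ∈ (psFil (pbFil p)).F k := by
  obtain ⟨c, rfl⟩ := h
  have e1 : (((p : B0 p) ^ k * c : B0 p) : PowerSeries ℚ[X]) =
      (p : PowerSeries ℚ[X]) ^ k * (c : PowerSeries ℚ[X]) := by push_cast; rfl
  rw [e1]
  exact mul_zero_mem _ (pow_one_mem _ natCast_p_mem k) c.2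

/-! ### the moment functional and the class data -/

/-- the moments in `B0` -/
noncomputable def muB0 (hp5 : 5 ≤ p) (k : ℕ) : B0 p := phi0 p (muO p hp5 k)

theorem muB0_coe (hp5 : 5 ≤ p) (k : ℕ) :
    ((muB0 hp5 k : B0 p) : PowerSeries ℚ[X]) = PowerSeries.C (C (PsiInf.mu k)) := rfl

theorem isMom_muB0 (hp5 : 5 ≤ p) : LemL255.IsMom (P4Row.lin (muB0 hp5)) where
  key := by
    rw [lin_eq_Lam]
    exact (key_muO p hp5).map (phi0 p)
  m0 := by
    rw [lin_eq_Lam, FuncLx170.Lam_one, muB0, muO_zero, map_zero]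
  m1 := by
    rw [lin_eq_Lam, FuncLx170.Lam_X, muB0]
    have h := congrArg (phi0 p) (muO_one p hp5)
    rw [map_mul, map_neg, map_one, map_ofNat] at h
    exact h
  m2 := by
    rw [lin_eq_Lam, FuncLx170.Lam_X_pow, muB0]
    have h := congrArg (phi0 p) (muO_two p hp5)
    rw [map_mul, map_ofNat, map_ofNat] at h
    exact h

/-- `Loc` from 110's class data for given idempotents. -/
theorem loc_of_exIdem (hp5 : 5 ≤ p) {N : ℕ} (hN : 3 ≤ N) {e : ℕ → (B0 p)[X]}
    (he : P4ClassMap110.ExIdem p N e) : Loc p (N - 1) N (P4Row.lin (muB0 hp5)) e := by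
  have h2 : p ≠ 2 := by omega
  have hu : ∀ a : ℕ, 0 < a → a < p → IsUnit (a : B0 p) := by
    intro a ha hap
    have hnd : ¬ (p : ℤ) ∣ (a : ℤ) := by
      intro hd
      have := Nat.le_of_dvd ha (by exact_mod_cast hd)
      omega
    have := bunits p (a : ℤ) hnd 0
    simpa using this
  have h3u : IsUnit (3 : B0 p) := by
    have := hu 3 (by norm_num) (by omega)
    simpa using this
  have hL := isMom_muB0 (p := p) hp5
  have hodd : Odd p := Nat.odd_iff.mpr (odd_of h2)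
  have hC := he.classData hodd (two_unit h2) h3u hu hL
  have hJ : ∀ c : ℕ, P4Class280.J (B0 p) p c = P4Hc830.J (p : B0 p) (c : B0 p) := fun _ => rfl
  refine ⟨hL.key, hL.m0, hL.m1, hL.m2, hC.sum_eq, ?_, ?_, ?_, ?_⟩
  · intro a ha b hb hab
    exact hC.other a ha b hb (Ne.symm hab)
  · intro F hF
    exact hC.neg F hF
  · intro c hc _ F hF
    have := hC.polar c hc 2 F hF
    rw [min_eq_left (by omega)] at this
    simpa using this
  · intro c hc hr F
    have := hC.regular c hc hr 0 F (by simp)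
    rw [min_eq_left (by omega)] at this
    simpa using this

end Crest.Agent.R006.P4L869
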