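import Crest.Agent.R006.P4_LocalInput_955
import Crest.Agent.R006.P4_BaseO_170
import Crest.Agent.R6K.P4L_Gen_630

/-!
# Row 6, block P4: the fields `sum_e`, `mom_polar`, `mom_regular` of 955's `LocalInput` (helper630)

`e c := (eZ c).map`, `eZ` the universal class idempotents over `ℤ[X]` of order `N' ≥ N + 3`.
-/

set_option autoImplicit false

open Polynomial Finset

namespace Crest.Agent.R006.P4Mom630

open Crest.Agent.R6K.P4L Crest.Agent.R006.P4BaseOx170 Crest.Agent.R006.P4M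
open Crest.Agent.R006.P4Toll961

theorem isPsi_of_isMom {A : Type*} [CommRing A] {L : A[X] →ₗ[A] A} (h : LemL255.IsMom L) :
    IsPsi L := ⟨h.key, h.m0, h.m1, h.m2⟩

/-- the idempotents over `ℚ`, indexed by `Fin p` -/
noncomputable def eQ (p : ℕ) (e : ℕ → ℤ[X]) (c : Fin p) : ℚ[X] := eA ℚ e c

variable {p : ℕ} [hp : Fact p.Prime]

omit hp in
theorem sum_eQ {N' : ℕ} {e : ℕ → ℤ[X]} (he : IsIdem p N' e) : ∑ c : Fin p, eQ p e c = 1 := by
  unfold eQ
  rw [← Finset.sum_range (fun c => eA ℚ e c)]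
  exact he.sumA

theorem momQ_eq (hp5 : 5 ≤ p) (e : ℕ → ℤ[X]) (c : Fin p) (t : ℕ) :
    momQ (eQ p e) c t =
      ((P4Row.lin (muO p hp5) (eA (O p) e c * ((X - C ((c : ℕ) : O p)) ^ t * 1)) : O p) : ℚ) := by
  rw [lin_muO_coe]
  unfold momQ P4D.mom eQ
  congr 1
  rw [Polynomial.map_mul, Polynomial.map_mul, Polynomial.map_pow, Polynomial.map_sub,
    Polynomial.map_X, Polynomial.map_C, Polynomial.map_one, mul_one, eA_map,
    map_natCast (O p).subtype]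

theorem mom_polar (hp5 : 5 ≤ p) {N N' : ℕ} (hN : N + 3 ≤ N') {e : ℕ → ℤ[X]}
    (he : IsIdem p N' e) (c : Fin p) (t : ℕ) (ht : t ≤ N) :
    C (momQ (eQ p e) c t) ∈ (pbFil p).F (max 0 ((t : ℤ) - 1)) := by
  rw [mem_pbFil]
  apply ProdBound481.PB.C
  rw [momQ_eq hp5]
  have h := (isPsi_of_isMom (isMom_muO p hp5)).class_polar hp5 he c.2 t 1
  rw [dvd_pow_iff] at h
  have e1 : ((min t N' - 1 : ℕ) : ℤ) = max 0 ((t : ℤ) - 1) := by omega
  rwa [e1] at h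

theorem mom_regular (hp5 : 5 ≤ p) {N N' : ℕ} (hN : N + 3 ≤ N') {e : ℕ → ℤ[X]}
    (he : IsIdem p N' e) (c : Fin p) (hc : p < 2 * (c : ℕ)) (t : ℕ) (ht : t ≤ N) :
    C (momQ (eQ p e) c t) ∈ (pbFil p).F ((t : ℤ) + 2) := by
  rw [mem_pbFil]
  apply ProdBound481.PB.C
  rw [momQ_eq hp5]
  have h := (isPsi_of_isMom (isMom_muO p hp5)).class_regular hp5 he c.2 hc t 1
  rw [dvd_pow_iff] at h
  have e1 : ((min (t + 3) N' - 1 : ℕ) : ℤ) = (t : ℤ) + 2 := by omega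
  rwa [e1] at h

end Crest.Agent.R006.P4Mom630
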