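import Mathlib
import Crest.Agent.R006.P4_RowD_305
import Crest.Agent.R006.P4L_hc_830

/-!
Row 6, block P4, local half: the bridge between the two forms of the analytic part (helper110).

`hfun` (P4_Row_110, P4L_hc_830) is `Σ_{c' ≠ c} Σ_{j<N} u_{c'}^{j+1} L(e_{c'} (X-c')^j)`,
`u_{c'} = 1/(x-c')`; the row identity of 305 uses `Σ_{c' ≠ c} Σ_{k<M} y^k wc c' k 0`, `y = x - c`.
They agree modulo `p^(min(N,M)-1)`.
-/

set_option autoImplicit false

namespace Crest.Agent.R006.P4Bridge110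

open Polynomial Finset Crest.Agent.R006.P4Row Crest.Agent.R006.P4Hc830

variable {B : Type*} [CommRing B]

/-- the other truncated inverse of `x - X`: `∑_{m<M} (X - c - y)^m d^(m+1)`. -/
noncomputable def G' (M : ℕ) (c y d : B) : B[X] := ∑ m ∈ range M, (X - C c - C y) ^ m * C d ^ (m + 1)

/-- comparison of the two truncated inverses of `x - X`. -/
theorem G_sub (N M : ℕ) (x c0 c y u d : B) (hx : x = c0 + y) (hu : (x - c) * u = 1)
    (hd : (c0 - c) * d = 1) :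
    G N c u - G' M c y d =
      G N c u * ((X - C c - C y) * C d) ^ M - G' M c y d * (C (u ^ N) * (X - C c) ^ N) := by
  have h1 := G_mul N x c u hu
  have h2 := P4D.geom_inv c0 c d y hd M
  rw [← hx] at h2
  have h2' : (C x - X) * G' M c y d = 1 - ((X - C c - C y) * C d) ^ M := h2
  linear_combination (-(G' M c y d)) * h1 - (G N c u) * h2'

theorem sub_mem_J (q c y : B) (hy : q ∣ y) : (X - C c - C y : B[X]) ∈ P4Hc830.J q c := by
  obtain ⟨k, rfl⟩ := hy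
  rw [C_mul]
  exact Ideal.sub_mem _ (X_sub_mem_J q c) (Ideal.mul_mem_right _ _ (C_mem_J q c))

/-- one class. -/
theorem one_class {q : B} {T N M K : ℕ} (L : B[X] →ₗ[B] B) (e : ℕ → B[X]) (c' : ℕ) (d : ℕ → B)
    (hpol : ∀ t ≤ T, ∀ F ∈ P4Hc830.J q (c' : B) ^ t, q ^ (t - 1) ∣ L (e c' * F))
    (hNT : N ≤ T) (hMT : M ≤ T) (hKN : K + 1 ≤ N) (hKM : K + 1 ≤ M)
    (x c0 y u : B) (hx : x = c0 + y) (hy : q ∣ y) (hu : (x - c') * u = 1)
    (hd : (c0 - c') * d c' = 1) :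
    q ^ K ∣ ∑ j ∈ range N, u ^ (j + 1) * L (e c' * (X - C (c' : B)) ^ j) -
      ∑ k ∈ range M, y ^ k * P4D.wc L e (fun c => (c : B)) d M c' k 0 := by
  have h1 : ∑ j ∈ range N, u ^ (j + 1) * L (e c' * (X - C (c' : B)) ^ j) =
      L (e c' * G N (c' : B) u) := by
    rw [G, mul_sum, map_sum]
    refine sum_congr rfl (fun j _ => ?_)
    rw [← L_C_mul]; congr 1; ring
  have h2 : ∑ k ∈ range M, y ^ k * P4D.wc L e (fun c => (c : B)) d M c' k 0 =
      L (e c' * G' M (c' : B) y (d c')) := by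
    have := P4D.L_geom L e (fun c => (c : B)) d M c' y 0
    rw [pow_zero, mul_one] at this
    rw [← this]; rfl
  rw [h1, h2, ← map_sub, ← mul_sub, G_sub N M x c0 c' y u (d c') hx hu hd, mul_sub, map_sub]
  have hm1 : G N (c' : B) u * ((X - C (c' : B) - C y) * C (d c')) ^ M ∈
      P4Hc830.J q (c' : B) ^ M := by
    rw [mul_pow]
    exact Ideal.mul_mem_left _ _ (Ideal.mul_mem_right _ _ (Ideal.pow_mem_pow (sub_mem_J q _ y hy) M))
  have hm2 : G' M (c' : B) y (d c') * (C (u ^ N) * (X - C (c' : B)) ^ N) ∈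
      P4Hc830.J q (c' : B) ^ N :=
    Ideal.mul_mem_left _ _ (Ideal.mul_mem_left _ _ (Ideal.pow_mem_pow (X_sub_mem_J q _) N))
  exact dvd_sub ((pow_dvd_pow q (by omega)).trans (hpol M hMT _ hm1))
    ((pow_dvd_pow q (by omega)).trans (hpol N hNT _ hm2))

/-- **the bridge**, classes `range p`. -/
theorem bridge {p T N M K : ℕ} {q : B} (L : B[X] →ₗ[B] B) (e : ℕ → B[X]) (d u : ℕ → B)
    (hpol : ∀ c < p, ∀ t ≤ T, ∀ F ∈ P4Hc830.J q (c : B) ^ t, q ^ (t - 1) ∣ L (e c * F))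
    (hNT : N ≤ T) (hMT : M ≤ T) (hKN : K + 1 ≤ N) (hKM : K + 1 ≤ M)
    (c0 : ℕ) (x y : B) (hx : x = c0 + y) (hy : q ∣ y)
    (hu : ∀ c' < p, c' ≠ c0 → (x - c') * u c' = 1)
    (hd : ∀ c' < p, c' ≠ c0 → ((c0 : B) - c') * d c' = 1) :
    q ^ K ∣ hfun p N L e c0 u - ∑ c ∈ (range p).erase c0,
      ∑ k ∈ range M, y ^ k * P4D.wc L e (fun c => (c : B)) d M c k 0 := by
  rw [hfun, ← sum_sub_distrib]
  refine dvd_sum (fun c' hc' => ?_)
  rw [mem_erase, mem_range] at hc'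
  exact one_class L e c' d (hpol c' hc'.2) hNT hMT hKN hKM x c0 y (u c') hx hy
    (hu c' hc'.2 hc'.1) (hd c' hc'.2 hc'.1)

/-- the sum over `univ.erase i₀` in `Fin p`. -/
theorem sum_fin_erase {p : ℕ} (i₀ : Fin p) (f : ℕ → B) :
    ∑ i ∈ univ.erase i₀, f (i : ℕ) = ∑ c ∈ (range p).erase (i₀ : ℕ), f c := by
  refine Finset.sum_bij (fun i _ => (i : ℕ)) ?_ ?_ ?_ ?_
  · intro i hi
    rw [mem_erase] at hi
    rw [mem_erase, mem_range]
    exact ⟨fun h => hi.1 (Fin.ext h), i.2⟩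
  · intro i _ j _ h; exact Fin.ext h
  · intro b hb
    rw [mem_erase, mem_range] at hb
    exact ⟨⟨b, hb.2⟩, by rw [mem_erase]; exact ⟨fun h => hb.1 (congrArg Fin.val h), mem_univ _⟩, rfl⟩
  · intro i _; rfl

/-- **the bridge**, classes `Fin p` (the form of `P4D.row_identity`). -/
theorem bridge_fin {p T N M K : ℕ} {q : B} (L : B[X] →ₗ[B] B) (e : ℕ → B[X]) (d u : ℕ → B)
    (hpol : ∀ c < p, ∀ t ≤ T, ∀ F ∈ P4Hc830.J q (c : B) ^ t, q ^ (t - 1) ∣ L (e c * F))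
    (hNT : N ≤ T) (hMT : M ≤ T) (hKN : K + 1 ≤ N) (hKM : K + 1 ≤ M)
    (i₀ : Fin p) (x y : B) (hx : x = ((i₀ : ℕ) : B) + y) (hy : q ∣ y)
    (hu : ∀ c' < p, c' ≠ (i₀ : ℕ) → (x - c') * u c' = 1)
    (hd : ∀ c' < p, c' ≠ (i₀ : ℕ) → (((i₀ : ℕ) : B) - c') * d c' = 1) :
    q ^ K ∣ hfun p N L e i₀ u - ∑ c ∈ univ.erase i₀,
      ∑ k ∈ range M, y ^ k * P4D.wc L (fun i : Fin p => e i) (fun i => ((i : ℕ) : B))
        (fun i : Fin p => d i) M c k 0 := by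
  have h := bridge L e d u hpol hNT hMT hKN hKM (i₀ : ℕ) x y hx hy hu hd
  rw [← sum_fin_erase i₀ (fun c => ∑ k ∈ range M, y ^ k *
    P4D.wc L e (fun c => (c : B)) d M c k 0)] at h
  exact h

end Crest.Agent.R006.P4Bridge110
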