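import Mathlib
import Crest.Agent.R006.P4_LocalInput_955
import Crest.Agent.R006.P4_Bridge_110
import Crest.Agent.R006.P4L_hcv_830
import Crest.Agent.R006.P4L_nodes_869
import Crest.Agent.R6K.P4L_Gen_630

/-!
Row 6, block P4, local input: conversion to 955's form (helper830).

`B0 p = OO (psFil (pbFil p))` the integral subring of `E = ℚ[X]⟦ε⟧`; the class idempotents are
the universal ones of 630 over `ℤ`, so that everything over `B0` and over `ℚ` is the image of the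
same integral polynomials.
-/

set_option autoImplicit false

namespace Crest.Agent.R006.P4Psi830

open Polynomial Finset Tollx814 P4Toll961
open Crest.Agent.R006.D Crest.Agent.R006.PsiInf Crest.Agent.R006.P4M
open Crest.Agent.R006.P4Row Crest.Agent.R006.P4L869 Crest.Agent.R6K.P4L

/-- the constants -/
noncomputable def kap : ℚ →+* PowerSeries ℚ[X] := (PowerSeries.C).comp (C : ℚ →+* ℚ[X])

lemma kap_apply (q : ℚ) : kap q = PowerSeries.C (C q) := rfl

section prime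

variable (p : ℕ) [hp : Fact p.Prime]

/-- the integral subring -/
noncomputable abbrev B0 : Subring (PowerSeries ℚ[X]) := OO (psFil (pbFil p))

/-- the inclusion -/
noncomputable abbrev io : B0 p →+* PowerSeries ℚ[X] := (B0 p).subtype

variable {p}

lemma C_mem_pb {q : ℚ} {v : ℤ} (h : padicNorm p q ≤ (p : ℚ) ^ (-v)) :
    (C q : ℚ[X]) ∈ (pbFil p).F v := by
  rw [mem_pbFil]; exact ProdBound481.PB.C h

lemma kap_mem {q : ℚ} {v : ℤ} (h : padicNorm p q ≤ (p : ℚ) ^ (-v)) :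
    kap q ∈ (psFil (pbFil p)).F v := C_mem (pbFil p) (C_mem_pb h)

lemma p_mem : ((p : ℕ) : PowerSeries ℚ[X]) ∈ (psFil (pbFil p)).F 1 := by
  have h : kap (p : ℚ) ∈ (psFil (pbFil p)).F 1 := by
    apply kap_mem
    rw [padicNorm.padicNorm_p_of_prime, zpow_neg, zpow_one]
  rwa [map_natCast] at h

lemma pinv_mem : kap ((p : ℚ)⁻¹) ∈ (psFil (pbFil p)).F (-1) := by
  apply kap_mem
  have h : padicNorm p ((p : ℚ)⁻¹) = p := by
    have h1 : padicNorm p ((p : ℚ)⁻¹ * p) = 1 := by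
      rw [inv_mul_cancel₀ (by exact_mod_cast hp.out.ne_zero)]; exact padicNorm.one
    rw [padicNorm.mul, padicNorm.padicNorm_p_of_prime] at h1
    have hp0 : (p : ℚ) ≠ 0 := by exact_mod_cast hp.out.ne_zero
    field_simp at h1
    rwa [one_div] at h1
  rw [h]; simp

lemma kap_inv_mem {m : ℤ} (hm : ¬ (p : ℤ) ∣ m) : kap ((m : ℚ)⁻¹) ∈ B0 p := by
  show kap ((m : ℚ)⁻¹) ∈ (psFil (pbFil p)).F 0
  apply kap_mem
  have h0 : (m : ℚ) ≠ 0 := by
    intro h
    apply hm
    have : m = 0 := by exact_mod_cast h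
    rw [this]; exact dvd_zero _
  have h1 : padicNorm p (m : ℚ) = 1 := (padicNorm.int_eq_one_iff m).mpr hm
  have h2 : padicNorm p ((m : ℚ)⁻¹ * m) = 1 := by
    rw [inv_mul_cancel₀ h0]; exact padicNorm.one
  rw [padicNorm.mul, h1, mul_one] at h2
  rw [h2]; simp

/-- divisibility in `B0` gives the filtration. -/
lemma dvd_mem {k : ℕ} {b : B0 p} (h : ((p : ℕ) : B0 p) ^ k ∣ b) :
    io p b ∈ (psFil (pbFil p)).F k := by
  obtain ⟨d, rfl⟩ := h
  rw [map_mul, map_pow, map_natCast]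
  exact mul_mem' _ (pow_one_mem _ p_mem k) d.2 (by simp)

/-- the weight of a state -/
def wt : St → ℤ
  | St.A => 0
  | St.B => 1
  | St.C => -2

lemma wt_le (s : St) : wt s ≤ 1 := by cases s <;> simp [wt]

lemma good_mem {s : St} {x : PowerSeries ℚ[X]} (h : Good (B0 p) p s x) :
    x ∈ (psFil (pbFil p)).F (wt s) := by
  cases s with
  | A => exact h
  | B =>
    obtain ⟨y, hy, rfl⟩ := h
    exact mul_mem' _ p_mem hy (by simp [wt])
  | C =>
    have h1 : ((p : ℕ) : PowerSeries ℚ[X]) ^ 2 * x ∈ (psFil (pbFil p)).F 0 := h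
    have h2 : kap ((p : ℚ)⁻¹) ^ 2 * (((p : ℕ) : PowerSeries ℚ[X]) ^ 2 * x) = x := by
      have h3 : kap ((p : ℚ)⁻¹) * ((p : ℕ) : PowerSeries ℚ[X]) = 1 := by
        rw [← map_natCast kap p, ← map_mul, inv_mul_cancel₀ (by exact_mod_cast hp.out.ne_zero),
          map_one]
      linear_combination (x * (kap ((p : ℚ)⁻¹) * ((p : ℕ) : PowerSeries ℚ[X]) + 1)) * h3
    rw [← h2]
    exact mul_mem' _ (pow_mem _ pinv_mem 2) h1 (by simp [wt])

end prime

/-! ### naturality -/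

section nat

variable {p : ℕ} [hp : Fact p.Prime] {m0 : ℕ → B0 p}
  (hm0 : ∀ k, io p (m0 k) = kap (mu k))

include hm0

lemma lin_cast (G : ℤ[X]) :
    io p (P4Row.lin m0 (G.map (Int.castRingHom (B0 p)))) =
      kap (PsiInf.lin mu (G.map (Int.castRingHom ℚ))) := by
  have h1 := P4Row.lin_map (io p) m0 (G.map (Int.castRingHom (B0 p)))
  have h2 := P4Row.lin_map kap mu (G.map (Int.castRingHom ℚ))
  have e1 : (G.map (Int.castRingHom (B0 p))).map (io p) =
      (G.map (Int.castRingHom ℚ)).map kap := by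
    rw [Polynomial.map_map, Polynomial.map_map]
    congr 1
    exact RingHom.ext_int _ _
  have e2 : (fun k => io p (m0 k)) = fun k => kap (mu k) := funext hm0
  rw [e1, e2] at h1
  rw [← h1, h2]
  rfl

omit hm0 in
lemma map_poly_cast {A : Type*} [CommRing A] (eZ : ℕ → ℤ[X]) (c u : ℕ) :
    (eZ c * (X - C (c : ℤ)) ^ u).map (Int.castRingHom A) = eA A eZ c * (X - C (c : A)) ^ u := by
  rw [Polynomial.map_mul, Polynomial.map_pow, Polynomial.map_sub, Polynomial.map_X, map_C,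
    map_natCast, eA]

lemma mom_cast (eZ : ℕ → ℤ[X]) (c : Fin p) (u : ℕ) :
    io p (P4D.mom (P4Row.lin m0) (fun i : Fin p => eA (B0 p) eZ i)
      (fun i => ((i : ℕ) : B0 p)) c u) = kap (momQ (fun i : Fin p => eA ℚ eZ i) c u) := by
  have h := lin_cast hm0 (eZ c * (X - C ((c : ℕ) : ℤ)) ^ u)
  rw [map_poly_cast, map_poly_cast] at h
  unfold momQ P4D.mom
  exact h

lemma wc_cast (eZ : ℕ → ℤ[X]) (M : ℕ) (c0 c : Fin p) (d : Fin p → B0 p)
    (hd : io p (d c) = kap ((((c0 : ℕ) : ℚ) - ((c : ℕ) : ℚ))⁻¹)) (k t : ℕ) :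
    io p (P4D.wc (P4Row.lin m0) (fun i : Fin p => eA (B0 p) eZ i)
      (fun i => ((i : ℕ) : B0 p)) d M c k t) =
      kap (wcQ (fun i : Fin p => eA ℚ eZ i) M c0 c k t) := by
  unfold wcQ P4D.wc
  rw [map_sum, map_sum]
  refine sum_congr rfl fun m _ => ?_
  have h := mom_cast hm0 eZ c (m - k + t)
  unfold momQ at h
  rw [map_mul, map_mul, map_mul, map_mul, map_mul, map_mul, h, map_pow, map_pow, map_pow, map_pow,
    hd, map_neg, map_neg, map_one, map_one, map_natCast, map_natCast]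

end nat

/-! ### the class data over `B0` from 630's universal idempotents -/

section classdata

variable {O : Type*} [CommRing O] {p : ℕ}

lemma Jz_eq (p c : ℕ) : Jz O p c = LemL255.J O p c := by
  unfold Jz LemL255.J
  rw [← Ideal.span_union, Set.singleton_union, Int.cast_natCast]

lemma classData_eA [hp : Fact p.Prime] (hodd : Odd p) (h2u : IsUnit (2 : O))
    (h3u : IsUnit (3 : O)) (hu : ∀ a : ℕ, 0 < a → a < p → IsUnit (a : O)) {L : O[X] →ₗ[O] O}
    (hL : LemL255.IsMom L) {N : ℕ} {eZ : ℕ → ℤ[X]} (he : IsIdem p N eZ) :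
    P4Hc830.ClassData p N L (eA O eZ) := by
  have h2 : ∀ c < p, ∀ c' < p, c' ≠ c → eA O eZ c ∈ LemL255.J O p c' ^ N := by
    intro c hc c' hc' hne
    rw [← Jz_eq]
    exact he.offA hp.out.pos hc (not_dvd_of_lt hc' hc hne)
  refine ⟨he.sumA, h2, ?_, ?_, ?_⟩
  · intro c hc
    have := he.onA (A := O) hc
    rw [← Jz_eq, ← neg_sub]
    exact neg_mem this
  · intro c hc x hx F hF
    apply LemL255.dvd_of_all hodd h2u h3u hu hL
    intro c' hc'
    by_cases h : c' = c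
    · rw [h]; exact Ideal.mul_mem_left _ _ hF
    · exact Ideal.mul_mem_right _ _ (Ideal.pow_le_pow_right hx (h2 c hc c' hc' h))
  · intro c hc hreg x hx F hF
    obtain ⟨m, hm⟩ := id hodd
    obtain ⟨d, rfl⟩ : ∃ d, c = m + 1 + d := ⟨c - (m + 1), by omega⟩
    refine LemL255.regular_bound hodd h2u h3u hu hL N x m hm hx d hc _
      (Ideal.mul_mem_left _ _ hF) ?_
    intro c' hc' hne
    exact Ideal.mul_mem_right _ _ (h2 _ hc c' hc' hne)

end classdata

/-! ### the conversion -/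

section conv

variable {p : ℕ} [hp : Fact p.Prime] {m0 : ℕ → B0 p}
  (hm0 : ∀ k, io p (m0 k) = kap (mu k))

include hm0

/-- **Conversion**: from the state of `ψ - h_c` to 955's `psi'`. -/
theorem psi'_mem {T N M : ℕ} {eZ : ℕ → ℤ[X]}
    (hcd : P4Hc830.ClassData p T (P4Row.lin m0) (eA (B0 p) eZ))
    (hNT : N ≤ T) (hMT : M ≤ T) (hN : 2 ≤ N) (hM : 2 ≤ M)
    (c0 : Fin p) (z : Site) (x y : B0 p) (hx : x = ((c0 : ℕ) : B0 p) + y)
    (hy : io p y = ys c0 z) (hpy : ((p : ℕ) : B0 p) ∣ y) (u : ℕ → B0 p)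
    (hu : ∀ c' < p, c' ≠ (c0 : ℕ) → (x - c') * u c' = 1) {s : St}
    (hG : Good (B0 p) p s (PsiX z - io p (hfun p N (P4Row.lin m0) (eA (B0 p) eZ) c0 u))) :
    psi' (fun i : Fin p => eA ℚ eZ i) M c0 z ∈ (psFil (pbFil p)).F (wt s) := by
  have hnd : ∀ c' < p, c' ≠ (c0 : ℕ) → ¬ (p : ℤ) ∣ ((c0 : ℕ) : ℤ) - c' := fun c' hc' hne =>
    not_dvd_of_lt c0.2 hc' (Ne.symm hne)
  -- the inverses of the differences of the classes
  let d : ℕ → B0 p := fun c' =>
    if h : c' < p ∧ c' ≠ (c0 : ℕ) then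
      ⟨kap ((((((c0 : ℕ) : ℤ) - (c' : ℤ) : ℤ)) : ℚ)⁻¹), kap_inv_mem (hnd c' h.1 h.2)⟩ else 0
  have hd' : ∀ c' < p, c' ≠ (c0 : ℕ) →
      io p (d c') = kap ((((c0 : ℕ) : ℚ) - (c' : ℚ))⁻¹) := by
    intro c' h1 h2
    show ((d c' : B0 p) : PowerSeries ℚ[X]) = _
    simp only [d]
    rw [dif_pos ⟨h1, h2⟩]
    push_cast
    rfl
  have hd : ∀ c' < p, c' ≠ (c0 : ℕ) → (((c0 : ℕ) : B0 p) - c') * d c' = 1 := by
    intro c' h1 h2
    apply Subtype.coe_injective
    have h3 := hd' c' h1 h2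
    show io p ((((c0 : ℕ) : B0 p) - c') * d c') = io p 1
    rw [map_mul, h3, map_sub, map_natCast, map_natCast, map_one, ← map_natCast kap (c0 : ℕ),
      ← map_natCast kap c', ← map_sub, ← map_mul, mul_inv_cancel₀, map_one]
    rw [sub_ne_zero]
    exact_mod_cast h2.symm
  have hb := P4Bridge110.bridge_fin (K := 1) (T := T) (N := N) (M := M) (q := ((p : ℕ) : B0 p))
    (P4Row.lin m0) (eA (B0 p) eZ) d u
    (fun c hc t ht F hF => hcd.pol c hc t ht F hF) hNT hMT (by omega) (by omega) c0 x y hx hpy hu hd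
  have hb' := dvd_mem hb
  rw [map_sub, map_sum] at hb'
  have hsum : ∑ c ∈ univ.erase c0, io p (∑ k ∈ range M, y ^ k *
      P4D.wc (P4Row.lin m0) (fun i : Fin p => eA (B0 p) eZ i) (fun i => ((i : ℕ) : B0 p))
        (fun i : Fin p => d i) M c k 0) =
      ∑ c ∈ univ.erase c0, ∑ k ∈ range M, ys c0 z ^ k *
        PowerSeries.C (C (wcQ (fun i : Fin p => eA ℚ eZ i) M c0 c k 0)) := by
    refine sum_congr rfl fun c hc => ?_
    rw [map_sum]
    refine sum_congr rfl fun k _ => ?_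
    have hne : (c : ℕ) ≠ (c0 : ℕ) := fun h => (mem_erase.mp hc).1 (Fin.ext h)
    rw [map_mul, map_pow, hy, wc_cast hm0 eZ M c0 c (fun i : Fin p => d i) (hd' c c.2 hne) k 0]
    rfl
  rw [hsum] at hb'
  have h1 : psi' (fun i : Fin p => eA ℚ eZ i) M c0 z =
      (PsiX z - io p (hfun p N (P4Row.lin m0) (eA (B0 p) eZ) c0 u)) +
      (io p (hfun p N (P4Row.lin m0) (eA (B0 p) eZ) c0 u) -
        ∑ c ∈ univ.erase c0, ∑ k ∈ range M, ys c0 z ^ k *
          PowerSeries.C (C (wcQ (fun i : Fin p => eA ℚ eZ i) M c0 c k 0))) := by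
    unfold psi'
    ring
  rw [h1]
  refine AddSubgroup.add_mem _ (good_mem hG) ((psFil (pbFil p)).mono ?_ hb')
  exact_mod_cast wt_le s

end conv

end Crest.Agent.R006.P4Psi830
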