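import Crest.Agent.R006.P4_GermInt_620

/-!
Row 6, block P4, local half, part 3 (helper620): the case `A = ℚ[X]`, `G = X`.

`jet j z = [ε^j] (psi0 z - X psi1 z)`, `jetg j z = [ε^j] gam z`, `PBsub p : Subring ℚ[X]`;
* `psiE_mem_iff : psiE p X z ∈ O ↔ ∀ j < 3, PB p (-j) (jet j z)`,
* `psiE_inP_iff : InP O p (psiE p X z) ↔ ∀ j < 3, PB p (1-j) (jet j z)`,
* `psiE_inM_iff : InM O p (psiE p X z) ↔ ∀ j < 3, PB p (-2-j) (jet j z)`, the same for `gam`;
* `primeUnits_poly`, `half_mem_poly`; `PB_jet_Z`, `PB_jet_H` (middle range).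
-/

set_option autoImplicit false

namespace Crest.Agent.R006.Germ620

open Polynomial Crest.Agent.R006.NV Crest.Agent.R006.P4L869 Crest.Agent.R006.ProdBound481
open Crest.Agent.R006.D (Site psi0 psi1 gam HomZ)

/-! ### the case `A = ℚ[X]`, `G = X` -/

section poly

variable (p : ℕ) [hp : Fact p.Prime]

/-- polynomials with `p`-integral coefficients -/
def PBsub : Subring ℚ[X] where
  carrier := {P | PB p 0 P}
  mul_mem' := by
    intro a b ha hb
    have := PB.mul ha hb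
    rwa [add_zero] at this
  one_mem' := PB.one
  add_mem' := fun ha hb => PB.add ha hb
  zero_mem' := PB.zero 0
  neg_mem' := fun ha => PB.neg ha

variable {p}

theorem mem_PBsub {P : ℚ[X]} : P ∈ PBsub p ↔ PB p 0 P := Iff.rfl

theorem primeUnits_poly : PrimeUnits (OO (PBsub p)) p := by
  refine primeUnits_OO (fun m hm => ?_)
  have hm0 : (m : ℚ) ≠ 0 := by
    intro h
    apply hm
    have : m = 0 := by exact_mod_cast h
    rw [this]; exact dvd_zero _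
  refine ⟨C ((m : ℚ)⁻¹), ?_, ?_⟩
  · rw [mem_PBsub]
    intro k
    rw [coeff_C, neg_zero, zpow_zero]
    split_ifs
    · exact inv_int_mem hm
    · rw [padicNorm.zero]; exact zero_le_one
  · have : (m : ℚ[X]) = C (m : ℚ) := by simp
    rw [this, ← C_mul, inv_mul_cancel₀ hm0, C_1]

theorem PB_pow_mul (v : ℤ) (j : ℕ) (P : ℚ[X]) :
    PB p v ((p : ℚ[X]) ^ j * P) ↔ PB p (v - j) P := by
  have hp0 : (0 : ℚ) < p := by exact_mod_cast hp.out.pos
  have hC : ((p : ℚ[X]) ^ j) = C ((p : ℚ) ^ j) := by simp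
  have hn : padicNorm p ((p : ℚ) ^ j) = (p : ℚ) ^ (-(j : ℤ)) := by
    rw [zpow_neg, zpow_natCast, ← inv_pow]
    induction j with
    | zero => rw [pow_zero, pow_zero, padicNorm.one]
    | succ n ih =>
      rw [pow_succ, pow_succ, padicNorm.mul, ih (by simp), padicNorm.padicNorm_p_of_prime]
  unfold PB
  refine forall_congr' fun k => ?_
  rw [hC, coeff_C_mul, padicNorm.mul, hn]
  have hpos : (0 : ℚ) < (p : ℚ) ^ (-(j : ℤ)) := zpow_pos hp0 _
  have e : (p : ℚ) ^ (-(v - j)) = (p : ℚ) ^ (-v) / (p : ℚ) ^ (-(j : ℤ)) := by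
    rw [← zpow_sub₀ hp0.ne']; congr 1; ring
  rw [e, le_div_iff₀ hpos, mul_comm]

theorem PB_one_iff {v : ℤ} {P : ℚ[X]} :
    PB p (v + 1) P ↔ ∃ a, PB p v a ∧ P = (p : ℚ[X]) * a := by
  constructor
  · intro h
    have hp0 : (p : ℚ) ≠ 0 := by exact_mod_cast hp.out.ne_zero
    refine ⟨C ((p : ℚ)⁻¹) * P, ?_, ?_⟩
    · have h1 := (PB_pow_mul (p := p) (v + 1) 1 (C ((p : ℚ)⁻¹) * P)).mp ?_
      · simpa using h1
      · have : (p : ℚ[X]) ^ 1 * (C ((p : ℚ)⁻¹) * P) = P := by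
          have hC : (p : ℚ[X]) = C (p : ℚ) := by simp
          rw [pow_one, hC, ← mul_assoc, ← C_mul, mul_inv_cancel₀ hp0, C_1, one_mul]
        rw [this]; exact h
    · have hC : (p : ℚ[X]) = C (p : ℚ) := by simp
      rw [hC, ← mul_assoc, ← C_mul, mul_inv_cancel₀ hp0, C_1, one_mul]
  · rintro ⟨a, ha, rfl⟩
    have := (PB_pow_mul (p := p) (v + 1) 1 a).mpr (by simpa using ha)
    rwa [pow_one] at this

/-- the coefficient of order `j` of the germ of `ψ` at `z`, a polynomial in `X = G` -/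
noncomputable def jet (j : ℕ) (z : Site) : ℚ[X] :=
  C (PowerSeries.coeff j (psi0 z)) - X * C (PowerSeries.coeff j (psi1 z))

/-- the coefficient of order `j` of the germ of `g` at `z` -/
noncomputable def jetg (j : ℕ) (z : Site) : ℚ[X] := C (PowerSeries.coeff j (gam z))

omit hp in
/-- the series whose jet is `psiE p X z` -/
theorem psiE_eq (z : Site) : psiE p (X : ℚ[X]) z =
    mk3 ℚ[X] (PowerSeries.mk fun j => (p : ℚ[X]) ^ j * jet j z) := by
  rw [psiE, rq_apply, rq_apply, cst, RingHom.comp_apply, ← map_mul, ← map_sub]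
  congr 1
  ext1 j
  rw [map_sub, PowerSeries.coeff_C_mul, coeff_rs, coeff_rs, PowerSeries.coeff_mk, jet]
  simp only [algebraMap_eq]
  ring

omit hp in
theorem gamE_eq (z : Site) : gamE p ℚ[X] z =
    mk3 ℚ[X] (PowerSeries.mk fun j => (p : ℚ[X]) ^ j * jetg j z) := by
  rw [gamE, rq_apply]
  congr 1

theorem mk_mem_iff (a : ℕ → ℚ[X]) :
    mk3 ℚ[X] (PowerSeries.mk fun j => (p : ℚ[X]) ^ j * a j) ∈ OO (PBsub p) ↔
      ∀ j : ℕ, j < 3 → PB p (-(j : ℤ)) (a j) := by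
  rw [mem_OO]
  refine forall_congr' fun j => forall_congr' fun _ => ?_
  rw [PowerSeries.coeff_mk, mem_PBsub, PB_pow_mul, zero_sub]

theorem mk_inP_iff (a : ℕ → ℚ[X]) :
    InP (OO (PBsub p)) p (mk3 ℚ[X] (PowerSeries.mk fun j => (p : ℚ[X]) ^ j * a j)) ↔
      ∀ j : ℕ, j < 3 → PB p (1 - (j : ℤ)) (a j) := by
  rw [inP_OO]
  refine forall_congr' fun j => forall_congr' fun _ => ?_
  rw [PowerSeries.coeff_mk]
  constructor
  · rintro ⟨b, hb, h⟩
    have := (PB_one_iff (p := p) (v := 0) (P := (p : ℚ[X]) ^ j * a j)).mpr ⟨b, hb, h⟩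
    rw [PB_pow_mul] at this
    rwa [zero_add] at this
  · intro h
    have := (PB_one_iff (p := p) (v := 0) (P := (p : ℚ[X]) ^ j * a j)).mp (by
      rw [PB_pow_mul, zero_add]; exact h)
    exact this

theorem mk_inM_iff (a : ℕ → ℚ[X]) :
    InM (OO (PBsub p)) p (mk3 ℚ[X] (PowerSeries.mk fun j => (p : ℚ[X]) ^ j * a j)) ↔
      ∀ j : ℕ, j < 3 → PB p (-2 - (j : ℤ)) (a j) := by
  rw [inM_OO]
  refine forall_congr' fun j => forall_congr' fun _ => ?_
  rw [PowerSeries.coeff_mk, mem_PBsub, PB_pow_mul, PB_pow_mul]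
  have : (0 : ℤ) - (2 : ℕ) - j = -2 - j := by push_cast; ring
  rw [this]

theorem psiE_mem_iff (z : Site) :
    psiE p (X : ℚ[X]) z ∈ OO (PBsub p) ↔ ∀ j : ℕ, j < 3 → PB p (-(j : ℤ)) (jet j z) := by
  rw [psiE_eq, mk_mem_iff]

theorem psiE_inP_iff (z : Site) :
    InP (OO (PBsub p)) p (psiE p (X : ℚ[X]) z) ↔ ∀ j : ℕ, j < 3 → PB p (1 - (j : ℤ)) (jet j z) := by
  rw [psiE_eq, mk_inP_iff]

theorem psiE_inM_iff (z : Site) :
    InM (OO (PBsub p)) p (psiE p (X : ℚ[X]) z) ↔ ∀ j : ℕ, j < 3 → PB p (-2 - (j : ℤ)) (jet j z) := by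
  rw [psiE_eq, mk_inM_iff]

theorem gamE_mem_iff (z : Site) :
    gamE p ℚ[X] z ∈ OO (PBsub p) ↔ ∀ j : ℕ, j < 3 → PB p (-(j : ℤ)) (jetg j z) := by
  rw [gamE_eq, mk_mem_iff]

theorem half_mem_poly (h2 : p ≠ 2) : hf ℚ[X] ∈ OO (PBsub p) := by
  refine cst_mem_OO ?_
  rw [mem_PBsub]
  intro k
  have e : (algebraMap ℚ ℚ[X]) (1 / 2) = C (1 / 2) := rfl
  rw [e, coeff_C, neg_zero, zpow_zero]
  split_ifs
  · exact half_mem h2
  · rw [padicNorm.zero]; exact zero_le_one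

theorem X_mem_PBsub : (X : ℚ[X]) ∈ PBsub p := by
  rw [mem_PBsub]
  intro k
  rw [coeff_X, neg_zero, zpow_zero]
  split_ifs
  · rw [padicNorm.one]
  · rw [padicNorm.zero]; exact zero_le_one

/-- integral jets -/
theorem PB_jet {z : Site} (h0 : psi0 z ∈ IntS p) (h1 : psi1 z ∈ IntS p) (j : ℕ) :
    PB p 0 (jet j z) := by
  have hC : ∀ a : ℚ, a ∈ Zp p → PB p 0 (C a) := by
    intro a ha k
    rw [coeff_C, neg_zero, zpow_zero]
    split_ifs
    · exact ha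
    · rw [padicNorm.zero]; exact zero_le_one
  have hX : PB p 0 (X : ℚ[X]) := X_mem_PBsub
  rw [jet]
  refine (hC _ (mem_IntS.mp h0 j)).sub ?_
  have := PB.mul hX (hC _ (mem_IntS.mp h1 j))
  rwa [add_zero] at this

/-- all jets of `ψ` at the integers `-p/2 < i < p` are integral -/
theorem PB_jet_Z (h2 : p ≠ 2) {i : ℤ} (h : -(p : ℤ) < 2 * i) (h' : i < p) (j : ℕ) :
    PB p 0 (jet j (.Z i)) :=
  PB_jet (psi0_Z_int h2 h h') (psi1_Z_int h h') j

/-- half-integers, both directions: `i + 1/2` with `-p ≤ i`, `2i+1 < p` -/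
theorem psi0_H_int' (h2 : p ≠ 2) {i : ℤ} (h : -(p : ℤ) ≤ i) (h' : 2 * i + 1 < p) :
    psi0 (.H i) ∈ IntS p := by
  rcases le_or_gt 0 (i + 1) with h0 | h0
  · rcases lt_or_ge i 0 with hi | hi
    · have : i = -1 := by omega
      subst this
      show (PsiH0 ((-1 : ℤ) + 1) : PowerSeries ℚ) ∈ IntS p
      have e : (PsiH0 ((-1 : ℤ) + 1) : PowerSeries ℚ) = 0 := PsiH0_zero
      rw [e]; exact (IntS p).zero_mem
    · obtain ⟨l, rfl⟩ := Int.eq_ofNat_of_zero_le hi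
      exact psi0_H_int h2 (by omega)
  · show PsiH0 (i + 1) ∈ IntS p
    unfold PsiH0
    obtain ⟨n, hn⟩ : ∃ n : ℕ, i + 1 = -(n : ℤ) := ⟨(i + 1).natAbs, by omega⟩
    rw [hn]
    refine bi_down_mem (M := n) (IntS p).zero_mem ?_ ?_ ?_ n le_rfl
    · intro k hk hkn
      have e : (2 * (((-(k : ℤ) : ℤ) : ℚ) - 1 / 2) + 1) = ((-(2 * k) : ℤ) : ℚ) := by
        push_cast; ring
      have hne : ((-(2 * k) : ℤ) : ℚ) ≠ 0 := by
        exact_mod_cast (by omega : (-(2 * (k : ℤ)) : ℤ) ≠ 0)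
      refine two_pt_pow_inv (half_int_mem h2 _) ?_ (by rw [e]; exact hne) 3
      rw [e]
      refine inv_int_mem ?_
      intro hd
      have hd2 : (p : ℤ) ∣ 2 * k := (dvd_neg).mp hd
      have hd3 : p ∣ 2 * k := by exact_mod_cast hd2
      rcases (Nat.Prime.dvd_mul hp.out).mp hd3 with h5 | h5
      · exact h2 ((Nat.prime_dvd_prime_iff_eq hp.out Nat.prime_two).mp h5)
      · have := Nat.le_of_dvd hk h5
        omega
    · intro k hk hkn
      have e : (((-(k : ℤ) : ℤ) : ℚ) - 1 / 2 + 1) = ((-(k : ℤ) + 1 : ℤ) : ℚ) - 1 / 2 := by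
        push_cast; ring
      show pt (((-(k : ℤ) : ℤ) : ℚ) - 1 / 2 + 1) ^ 3 ∈ IntS p
      rw [e]
      exact (IntS p).pow_mem (pt_mem (half_int_mem h2 _)) 3
    · intro k hk hkn
      exact rhs_mem h2 (half_int_mem h2 _)

/-- all jets of `ψ_*` at `i + 1/2`, `-p ≤ i`, `2i+1 < p`, are integral -/
theorem PB_jet_H' (h2 : p ≠ 2) {i : ℤ} (h : -(p : ℤ) ≤ i) (h' : 2 * i + 1 < p) (j : ℕ) :
    PB p 0 (jet j (.H i)) :=
  PB_jet (psi0_H_int' h2 h h') (IntS p).zero_mem j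

/-- all jets of `g` in the middle range are integral -/
theorem PB_jetg {z : Site} (h0 : gam z ∈ IntS p) (j : ℕ) : PB p 0 (jetg j z) := by
  intro k
  rw [jetg, coeff_C, neg_zero, zpow_zero]
  split_ifs
  · exact mem_IntS.mp h0 j
  · rw [padicNorm.zero]; exact zero_le_one

/-- all jets of `ψ_*` at `l + 1/2`, `2l+1 < p`, are integral -/
theorem PB_jet_H (h2 : p ≠ 2) {l : ℕ} (h : 2 * l + 1 < p) (j : ℕ) : PB p 0 (jet j (.H l)) :=
  PB_jet (psi0_H_int h2 h) (IntS p).zero_mem j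

end poly

end Crest.Agent.R006.Germ620
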