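import Crest.Agent.R006.P4_LocalInput_955
import Crest.Agent.R006.P4_GermPoly_620

/-!
Row 6, block P4: three fields of 955's `LocalInput` (helper620).

* `psi_flatZ`, `psi_flatH` : integrality of all jets of `ψ` in the middle range (flat filtration);
  also `psi_flatZ'`, `psi_flatH'` for the full ranges and `gam_flatZ`, `gam_flatH`;
* `gamOrd : GamOrd` : the double zeros of `g` at `-m` and `l + 1/2`.
-/

set_option autoImplicit false

namespace Crest.Agent.R006.P4M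

open Polynomial Finset Tollx814 P4Toll961 Crest.Agent.R006.NV
open Crest.Agent.R006.D Crest.Agent.R006.PsiInf
open Crest.Agent.R006.ProdBound481 Crest.Agent.R006.Germ620

/-! ### coefficients -/

theorem coeff_PsiX (z : Site) (j : ℕ) : PowerSeries.coeff j (PsiX z) = jet j z := by
  rw [PsiX, map_sub, PowerSeries.coeff_C_mul, PowerSeries.coeff_map, PowerSeries.coeff_map, jet]

theorem coeff_GamX (z : Site) (j : ℕ) : PowerSeries.coeff j (GamX z) = jetg j z := by
  rw [GamX, PowerSeries.coeff_map, jetg]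

/-! ### flat integrality -/

section flat

variable {p : ℕ} [hp : Fact p.Prime]

theorem flat_PsiX {z : Site} (h : ∀ j, PB p 0 (jet j z)) : PsiX z ∈ (flFil (pbFil p)).F 0 := by
  rw [mem_flFil]
  intro j
  rw [coeff_PsiX]
  exact h j

theorem flat_GamX {z : Site} (h : ∀ j, PB p 0 (jetg j z)) : GamX z ∈ (flFil (pbFil p)).F 0 := by
  rw [mem_flFil]
  intro j
  rw [coeff_GamX]
  exact h j

/-- integers `-p/2 < i < p` -/
theorem psi_flatZ' (h2 : p ≠ 2) {i : ℤ} (h : -(p : ℤ) < 2 * i) (h' : i < p) :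
    PsiX (.Z i) ∈ (flFil (pbFil p)).F 0 :=
  flat_PsiX fun j => PB_jet_Z h2 h h' j

/-- half-integers `i + 1/2`, `-p ≤ i`, `2i+1 < p` -/
theorem psi_flatH' (h2 : p ≠ 2) {i : ℤ} (h : -(p : ℤ) ≤ i) (h' : 2 * i + 1 < p) :
    PsiX (.H i) ∈ (flFil (pbFil p)).F 0 :=
  flat_PsiX fun j => PB_jet_H' h2 h h' j

/-- field `psi_flatZ` of `LocalInput` -/
theorem psi_flatZ (h2 : p ≠ 2) :
    ∀ m : ℕ, 0 < m → 2 * m < p → PsiX (.Z (-(m : ℤ))) ∈ (flFil (pbFil p)).F 0 := by
  intro m h0 h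
  exact psi_flatZ' h2 (by omega) (by omega)

/-- field `psi_flatH` of `LocalInput` -/
theorem psi_flatH (h2 : p ≠ 2) :
    ∀ l : ℕ, 2 * l + 1 < p → PsiX (.H (l : ℤ)) ∈ (flFil (pbFil p)).F 0 := by
  intro l h
  exact psi_flatH' h2 (by omega) (by omega)

/-- integers `-p/2 < i < p` -/
theorem gam_flatZ (h2 : p ≠ 2) {i : ℤ} (h : -(p : ℤ) < 2 * i) (h' : i < p) :
    GamX (.Z i) ∈ (flFil (pbFil p)).F 0 :=
  flat_GamX fun j => PB_jetg (gam_Z_int h2 h h') j

/-- half-integers `i + 1/2`, `-p ≤ i`, `2i+1 < p` -/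
theorem gam_flatH (h2 : p ≠ 2) {i : ℤ} (h : -(p : ℤ) ≤ i) (h' : 2 * i + 1 < p) :
    GamX (.H i) ∈ (flFil (pbFil p)).F 0 :=
  flat_GamX fun j => PB_jetg (gam_H_int h2 h h') j

end flat

/-! ### double zeros of `g` -/

theorem gamZ_ord (m : ℕ) :
    (PowerSeries.X : PowerSeries ℚ) ^ 2 ∣ (GamZ (Int.negSucc m) : PowerSeries ℚ) := by
  unfold GamZ
  induction m with
  | zero =>
    have e : (Int.negSucc 0 : ℤ) = -1 := rfl
    rw [e, bi_negOne, zero_sub, mul_one]
    have e1 : (((-1 : ℤ) : ℚ) + 1) = 0 := by norm_num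
    have e2 : (pt (0 : ℚ) : PowerSeries ℚ) = PowerSeries.X := by simp [pt]
    rw [e1, e2]
    exact (dvd_neg.mpr dvd_rfl).mul_right _
  | succ n ih =>
    rw [bi_negSucc, zero_sub]
    exact (dvd_neg.mpr (ih.mul_left _)).mul_right _

theorem gamH_ord (l : ℕ) :
    (PowerSeries.X : PowerSeries ℚ) ^ 2 ∣ D.GamH0 ((l + 1 : ℕ) : ℤ) := by
  unfold D.GamH0
  induction l with
  | zero =>
    rw [bi_succ, zero_sub]
    have e1 : (2 * pt ((((0 : ℕ) : ℤ) : ℚ) - 1 / 2) + 1 : PowerSeries ℚ)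
        = 2 * PowerSeries.X := by
      have : (2 : PowerSeries ℚ) * PowerSeries.C (-(1 / 2)) = -1 := by
        have h2 : (2 : PowerSeries ℚ) = PowerSeries.C 2 := by rw [map_ofNat]
        rw [h2, ← map_mul]; norm_num
      have e0 : ((((0 : ℕ) : ℤ) : ℚ) - 1 / 2) = -(1 / 2) := by norm_num
      rw [e0, pt, mul_add, this]
      ring
    rw [e1]
    refine Dvd.dvd.mul_right (dvd_neg.mpr (Dvd.dvd.mul_right (dvd_neg.mpr ?_) _)) _
    rw [mul_pow]
    exact ((dvd_rfl).mul_left _).mul_left _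
  | succ n ih =>
    rw [bi_succ, zero_sub]
    exact (dvd_neg.mpr (ih.mul_left _)).mul_right _

/-- the double zeros of `g` -/
theorem gamOrd : GamOrd := by
  constructor
  · intro m hm
    obtain ⟨k, rfl⟩ : ∃ k, m = k + 1 := ⟨m - 1, by omega⟩
    have e : (-((k + 1 : ℕ) : ℤ)) = Int.negSucc k := rfl
    rw [e]
    exact gamZ_ord k
  · intro l
    show (PowerSeries.X : PowerSeries ℚ) ^ 2 ∣ D.GamH0 ((l : ℤ) + 1)
    have := gamH_ord l
    push_cast at this
    exact this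

end Crest.Agent.R006.P4M
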