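import Crest.Agent.R006.P4_GW_556
import Crest.Agent.R006.P4_LocalInput_955

/-!
# Row 6, block P4: the fields `gam_polar`, `gam_regular` of `LocalInput` (helper556)
-/

set_option autoImplicit false

namespace Crest.Agent.R006.P4GW556

open Polynomial P4Toll961 Tollx814 Crest.Agent.R006.D

/-- the half-integer index of a site -/
def code : Site → ℤ
  | .Z i => 2 * i
  | .H i => 2 * i + 1

lemma code_val (z : Site) : ((code z : ℤ) : ℚ) = 2 * z.val := by
  cases z with
  | Z i => simp [code, Site.val]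
  | H i => simp only [code, Site.val]; push_cast; ring

lemma GamX_eq (z : Site) : P4M.GamX z = P4M531.GamX (code z) := by
  cases z with
  | Z i =>
    rw [P4M.GamX, P4M531.GamX, code, gG, if_pos (by omega)]
    have : 2 * i / 2 = i := by omega
    rw [this]
    rfl
  | H i =>
    rw [P4M.GamX, P4M531.GamX, code, gG, if_neg (by omega)]
    have : (2 * i + 1 + 1) / 2 = i + 1 := by omega
    rw [this]
    rfl

lemma inR_code {p : ℕ} {z : Site} (h : P4M.InR p z) : |code z| < (p : ℤ) ^ 2 := by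
  have h1 : ((|code z| : ℤ) : ℚ) < ((p : ℤ) ^ 2 : ℤ) := by
    push_cast
    rw [code_val, abs_mul, abs_two]
    have := h
    rw [P4M.InR] at this
    linarith
  exact_mod_cast h1

/-- parity of `code z mod p` and the class -/
lemma code_emod {p : ℕ} (hp : Odd p) (z : Site) :
    (code z) % (p : ℤ) = if 2 * (P4M.cl p z : ℤ) < p then 2 * (P4M.cl p z : ℤ)
      else 2 * (P4M.cl p z : ℤ) - p := by
  obtain ⟨h, hh⟩ := hp
  have hpz : (0 : ℤ) < p := by omega
  have hcl : ∃ t : ℤ, code z = 2 * (P4M.cl p z : ℤ) + p * t ∧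
      0 ≤ (P4M.cl p z : ℤ) ∧ (P4M.cl p z : ℤ) < p := by
    cases z with
    | Z i =>
      have h0 := Int.emod_nonneg i hpz.ne'
      have h1 := Int.emod_lt_of_pos i hpz
      have h2 := Int.emod_add_mul_ediv i p
      simp only [P4M.cl, code, Int.toNat_of_nonneg h0]
      exact ⟨2 * (i / p), by linarith, h0, h1⟩
    | H i =>
      have h0 := Int.emod_nonneg (i + ((p + 1) / 2 : ℕ)) hpz.ne'
      have h1 := Int.emod_lt_of_pos (i + ((p + 1) / 2 : ℕ)) hpz
      have h2 := Int.emod_add_mul_ediv (i + ((p + 1) / 2 : ℕ)) p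
      simp only [P4M.cl, code, Int.toNat_of_nonneg h0]
      have e : (((p + 1) / 2 : ℕ) : ℤ) = h + 1 := by
        have : (p + 1) / 2 = h + 1 := by omega
        rw [this]; push_cast; ring
      have hp2 : (p : ℤ) = 2 * h + 1 := by rw [hh]; push_cast; ring
      rw [e] at h0 h1 h2 ⊢
      refine ⟨2 * ((i + (h + 1)) / p) - 1, ?_, h0, h1⟩
      have : (p : ℤ) * (2 * ((i + (h + 1)) / p) - 1) = 2 * (p * ((i + (h + 1)) / p)) - p := by ring
      rw [this]
      linarith
  obtain ⟨t, ht, hc0, hc1⟩ := hcl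
  set c := (P4M.cl p z : ℤ) with hcdef
  have hp2 : (p : ℤ) = 2 * h + 1 := by rw [hh]; push_cast; ring
  split_ifs with hlt
  · rw [ht, Int.add_mul_emod_self_left, Int.emod_eq_of_lt (by omega) hlt]
  · have : code z = (2 * c - p) + p * (t + 1) := by rw [ht]; ring
    rw [this, Int.add_mul_emod_self_left, Int.emod_eq_of_lt (by omega) (by omega)]

variable {p : ℕ} [hp : Fact p.Prime]

/-- field `gam_polar` of `LocalInput` -/
theorem gam_polar (h2 : p ≠ 2) (c : Fin p) (z : Site) (hz : P4M.InR p z)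
    (_ : (c : ℕ) = P4M.cl p z) (_ : 2 * (c : ℕ) < p) :
    P4M.GamX z ∈ (P4M.psFil (pbFil p)).F 0 := by
  rw [GamX_eq]
  exact GamX_mem_zero h2 (inR_code hz)

/-- field `gam_regular` of `LocalInput` -/
theorem gam_regular (h2 : p ≠ 2) (c : Fin p) (z : Site) (hz : P4M.InR p z)
    (hc : (c : ℕ) = P4M.cl p z) (hr : p < 2 * (c : ℕ)) :
    P4M.GamX z ∈ (P4M.psFil (pbFil p)).F 2 := by
  rw [GamX_eq]
  have hodd : Odd p := hp.out.odd_of_ne_two h2
  refine GamX_mem_two h2 (inR_code hz) ?_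
  rw [code_emod hodd, ← hc, if_neg (by omega)]
  obtain ⟨h, hh⟩ := hodd
  omega

end Crest.Agent.R006.P4GW556
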