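import Mathlib
import Crest.Agent.R006.P4M_psi_830
import Crest.Agent.R006.P4L_PS_869
import Crest.Agent.R006.P4M_mom_630
import Crest.Agent.R006.P4_Flat_620
import Crest.Agent.R006.P4_GWL_556

/-!
Row 6, block P4: **the local input holds** (helper830).

`local_input : 5 ≤ p → ∃ e, LocalInput p N M e` (`M ≥ 2`), and the version `local_input_of` for
the universal idempotents of 630 at any level `T ≥ N + 3, M`.
-/

set_option autoImplicit false

namespace Crest.Agent.R006.P4Psi830

open Polynomial Finset Tollx814 P4Toll961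
open Crest.Agent.R006.D Crest.Agent.R006.PsiInf Crest.Agent.R006.P4M
open Crest.Agent.R006.P4Row Crest.Agent.R6K.P4L

variable {p : ℕ} [hp : Fact p.Prime]

omit hp in
lemma loc_of_classData {O : Type*} [CommRing O] {L : O[X] →ₗ[O] O} {T : ℕ} {e : ℕ → O[X]}
    (hT : 3 ≤ T) (hL : LemL255.IsMom L) (h : P4Hc830.ClassData p T L e) :
    P4L869.Loc p (T - 1) T L e := by
  refine ⟨hL.key, hL.m0, hL.m1, hL.m2, h.sum, ?_, ?_, ?_, ?_⟩
  · intro a ha b hb hab
    exact h.mem a ha b hb (Ne.symm hab)
  · intro F hF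
    exact h.herr F hF
  · intro c hc _ F hF
    have := h.pol c hc 2 (by omega) F hF
    simpa using this
  · intro c hc hr F
    have := h.reg c hc hr 0 (by omega) F (by simp)
    simpa using this

/-- all sites are units against the other classes. -/
lemma unit_site (h5 : 5 ≤ p) (z : Site) (m : ℤ) (hm : ¬ (p : ℤ) ∣ m) :
    IsUnit ((m : B0 p) + p * P4L869.tS p z) := by
  have h2 : p ≠ 2 := by omega
  cases z with
  | Z i => exact P4L869.bunits p m hm p
  | H i =>
    have h2nd : ¬ (p : ℤ) ∣ 2 := by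
      intro hd
      have := Int.le_of_dvd (by norm_num) hd
      omega
    have h1 := P4L869.bunits p (2 * m - p) (by
      intro hd
      have h3 : (p : ℤ) ∣ 2 * m := by
        have := dvd_add hd (dvd_refl (p : ℤ))
        rwa [sub_add_cancel] at this
      rcases (Nat.prime_iff_prime_int.mp hp.out).dvd_or_dvd h3 with h | h
      · exact h2nd h
      · exact hm h) (2 * p)
    have hhf := P4L869.two_hfB (p := p) h2
    have hhu : IsUnit (P4L869.hfB p) := IsUnit.of_mul_eq_one 2 (by rw [mul_comm]; exact hhf)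
    have := hhu.mul h1
    have e1 : (m : B0 p) + p * P4L869.tS p (.H i) =
        P4L869.hfB p * (((2 * m - p : ℤ) : B0 p) + ((2 * p : ℕ) : B0 p) * P4L869.tauB p) := by
      show (m : B0 p) + p * (P4L869.tauB p - P4L869.hfB p) = _
      push_cast
      linear_combination (-(m : B0 p) - p * P4L869.tauB p) * hhf
    rw [e1]; exact this

/-- `psi'` at every site. -/
theorem psi'_site (h5 : 5 ≤ p) {T M : ℕ} (hT : 3 ≤ T) (hM : 2 ≤ M) (hMT : M ≤ T)
    {eZ : ℕ → ℤ[X]} (he : IsIdem p T eZ) (c0 : Fin p) (z : Site) (hz : InR p z)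
    (hc : (c0 : ℕ) = cl p z) :
    psi' (P4Mom630.eQ p eZ) M c0 z ∈ (psFil (pbFil p)).F (P4L869.wt (P4L869.stS p z)) := by
  have h2 : p ≠ 2 := by omega
  have hodd : Odd p := hp.out.odd_of_ne_two h2
  have hu : ∀ a : ℕ, 0 < a → a < p → IsUnit (a : B0 p) := by
    intro a ha hap
    have hnd : ¬ (p : ℤ) ∣ (a : ℤ) := by
      intro hd
      have := Nat.le_of_dvd ha (by exact_mod_cast hd)
      omega
    have := P4L869.bunits p (a : ℤ) hnd 0
    simpa using this
  have h3u : IsUnit (3 : B0 p) := by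
    have := hu 3 (by norm_num) (by omega)
    simpa using this
  have hL := P4L869.isMom_muB0 (p := p) h5
  have hcd : P4Hc830.ClassData p T (P4Row.lin (P4L869.muB0 h5)) (eA (B0 p) eZ) :=
    classData_eA hodd (P4L869.two_unit h2) h3u hu hL he
  have hloc := loc_of_classData hT hL hcd
  have hG := P4L869.good_site h5 (by omega) hloc z hz
  rw [Subring.range_subtype] at hG
  have hcS : P4L869.cS p (P4L869.rS p z) = (c0 : ℕ) := by rw [P4L869.cS_rS, hc]
  have hx0 := P4L869.xS_coe h2 z
  have hus := unit_site h5 z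
  obtain ⟨k, hk⟩ := P4L869.cS_spec hp.out.pos (P4L869.rS p z)
  rw [hcS] at hk
  unfold P4L869.hS at hG
  rw [hcS] at hG
  refine psi'_mem (m0 := P4L869.muB0 h5) (fun k => rfl) (T := T) (N := T) hcd le_rfl hMT
    (by omega) hM c0 z (P4L869.xS p (P4L869.tS p z) (P4L869.rS p z))
    (P4L869.xS p (P4L869.tS p z) (P4L869.rS p z) - ((c0 : ℕ) : B0 p)) (by ring) ?_ ?_ _ ?_ hG
  · rw [map_sub, map_natCast]
    show ((P4L869.xS p (P4L869.tS p z) (P4L869.rS p z) : B0 p) : PowerSeries ℚ[X]) - _ = _
    rw [hx0, xs, ys, C_sub, map_sub]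
    have : ((c0 : ℕ) : PowerSeries ℚ[X]) = PowerSeries.C (C ((c0 : ℕ) : ℚ)) := by simp
    rw [this]; ring
  · refine ⟨(k : B0 p) + P4L869.tS p z, ?_⟩
    have h6 : ((P4L869.rS p z : ℤ) : B0 p) = ((c0 : ℕ) : B0 p) + p * k := by
      have := congrArg (Int.cast : ℤ → B0 p) hk
      push_cast at this
      exact this
    unfold P4L869.xS
    rw [h6]; ring
  · intro c' hc' hne
    refine Ring.mul_inverse_cancel _ (P4L869.site_unit hp.out.pos hus _ hc' ?_)
    rw [hcS]; exact hne

/-- **The local input for the universal idempotents.** -/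
theorem local_input_of (h5 : 5 ≤ p) {T N M : ℕ} (hM : 2 ≤ M) (hMT : M ≤ T) (hNT : N + 3 ≤ T)
    {eZ : ℕ → ℤ[X]} (he : IsIdem p T eZ) : LocalInput p N M (P4Mom630.eQ p eZ) := by
  have h2 : p ≠ 2 := by omega
  have hT : 3 ≤ T := by omega
  refine
    { sum_e := P4Mom630.sum_eQ he
      mom_polar := fun c _ t ht => P4Mom630.mom_polar h5 hNT he c t ht
      mom_regular := fun c hc t ht => P4Mom630.mom_regular h5 hNT he c hc t ht
      psi_zero := ?_
      psi_polar := ?_
      psi_regular := ?_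
      psi_flatZ := Crest.Agent.R006.P4M.psi_flatZ h2
      psi_flatH := Crest.Agent.R006.P4M.psi_flatH h2
      gam_polar := P4GW556.gam_polar h2
      gam_regular := P4GW556.gam_regular h2 }
  · intro c i hci hi
    have hz : InR p (.Z (i : ℤ)) := by
      unfold InR
      simp only [Site.val]
      have : |((i : ℤ) : ℚ)| = i := by push_cast; exact abs_of_nonneg (by positivity)
      rw [this]
      have h6 : 2 * i + 2 < p ^ 2 := by nlinarith
      exact_mod_cast h6
    have hcl : (c : ℕ) = cl p (.Z (i : ℤ)) := by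
      rw [← P4L869.cS_rS]
      show (c : ℕ) = P4L869.cS p (i : ℤ)
      rw [P4L869.cS_natCast, Nat.mod_eq_of_lt (by omega)]
      exact hci
    have h := psi'_site h5 hT hM hMT he c (.Z (i : ℤ)) hz hcl
    rw [P4L869.stS_zero p hi] at h
    exact h
  · intro c z hz hc _ _
    exact (psFil (pbFil p)).mono (P4L869.wt_ge _) (psi'_site h5 hT hM hMT he c z hz hc)
  · intro c z hz hc hr hH
    have h := psi'_site h5 hT hM hMT he c z hz hc
    rw [P4L869.stS_regular h2 (by rw [← hc]; exact hr) hH] at h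
    exact h

/-- **The local input.** -/
theorem local_input (h5 : 5 ≤ p) (N M : ℕ) (hM : 2 ≤ M) : ∃ e : Fin p → ℚ[X],
    LocalInput p N M e := by
  obtain ⟨eZ, he⟩ := exists_idem hp.out (N + 3 + M)
  exact ⟨_, local_input_of h5 hM (by omega) (by omega) he⟩

end Crest.Agent.R006.P4Psi830
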