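import Crest.Agent.R006.P4SideDat_538
import Crest.Agent.R006.P4SideAux_538
import Crest.Agent.R006.P4MatV_955
import Crest.Agent.R006.P4_LocalInput_830
import Crest.Agent.R006.P4Iface_814

set_option autoImplicit false

/-!
# Row 6, block P4: fields of `Tables` that do not depend on the rows (helper757)

For 538's `dat` (any `cs`, `ps`, truncations `G M N`, `Nb = k u`) and any near coefficients `nr`:
`rho_mem`, `th0_mem`, `q_mem`, `far_mem`, `lamp_mem`, `lamr_mem`, `errX_mem`, `errB_mem`, `err_mem`,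
`errU_mem`, `Zer_dat`; `exists_params` : choice of the truncations.
-/

namespace Crest.Agent.R006.P4SideTab757

open Polynomial Finset Tollx814 P4Toll961
open Crest.Agent.R006.D Crest.Agent.R006.Bordx929 Crest.Agent.R006.P8
open Crest.Agent.R006.P4Asmx814 Crest.Agent.R006.GaugeP555 Crest.Agent.R006.P4M
open Crest.Agent.R006.P4SideDatx538
open Crest.Agent.R006.P4M531 (BB phi)

variable {p : ℕ} [hp : Fact p.Prime] {S : Shape} {u c : ℕ} {J : Fin c → RI S u c}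
  {e : Fin p → ℚ[X]} {cs : RI S u c → Fin p} {ps : RI S u c → BB} {G M N Nb NL : ℕ}

/-! ### the state vectors -/

theorem rho_mem (nr : Fin p → Fin N → Fin N → ℚ[X]) (a : Fin p) (l : Fin N)
    (j : Fin (S.k * u)) :
    ((dat S u c J e cs ps G M N Nb).Net0 nr).rho a l j ∈ (pbFil p).F 0 := by
  have h := taylor_bl_mem (p := p) S u j ((a : ℕ) : ℤ) l
  rw [Int.cast_natCast] at h
  exact h

theorem th0_mem (nr : Fin p → Fin N → Fin N → ℚ[X]) (a : Fin p) (l : Fin N)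
    (j : Fin (S.q * u)) :
    ((dat S u c J e cs ps G M N Nb).Net0 nr).th0 a l j ∈ (pbFil p).F 0 := by
  have h := taylor_desc_mem (p := p) (j : ℕ) ((a : ℕ) : ℤ) l
  rw [Int.cast_natCast] at h
  exact h

theorem q_mem (nr : Fin p → Fin N → Fin N → ℚ[X]) (a : Fin p) (l : Fin N)
    (j : Fin (S.g * u)) :
    ((dat S u c J e cs ps G M N Nb).Net0 nr).q a l j ∈ (pbFil p).F 0 := by
  have h := taylor_desc_mem (p := p) (j : ℕ) ((a : ℕ) : ℤ) l
  rw [Int.cast_natCast] at h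
  exact h

theorem far_mem (nr : Fin p → Fin N → Fin N → ℚ[X]) (a : Fin p) (s : Fin N) (a' : Fin p)
    (k : Fin N) :
    ((dat S u c J e cs ps G M N Nb).Net0 nr).far a s a' k ∈ (pbFil p).F 0 :=
  Dat.far0_mem M a a' s k

/-- the zeros of the gauge -/
theorem Zer_dat (h2 : p ≠ 2) :
    (dat S u c J e cs ps G M N Nb).Zer (fun a => zc S u p ((a : ℕ) : ℤ)) := by
  intro a m
  have h := taylor_gaugeF_mem h2 S u ((a : ℕ) : ℤ) m
  rw [Int.cast_natCast] at h
  exact h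

/-! ### the moments -/

theorem lamp_mem (nr : Fin p → Fin N → Fin N → ℚ[X]) (h2 : p ≠ 2) (L : LocalInput p NL M e)
    (hNL : G + N + Nb ≤ NL) (a : Fin p) (ha : 2 * (a : ℕ) < p) (k l : Fin N) :
    ((dat S u c J e cs ps G M N Nb).Net0 nr).Lam a k l ∈ (pbFil p).F
      (pos (((k : ℕ) : ℤ) + 1 + (l : ℕ) + zc S u p ((a : ℕ) : ℤ) - 2)) := by
  have h := Dat.Lam0_polar (D := dat S u c J e cs ps G M N Nb) L hNL (Zer_dat h2) a ha k.2 l
  refine (pbFil p).mono ?_ h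
  rw [pos_eq, max_comm]
  exact max_le_max le_rfl (by linarith)

theorem lamr_mem (nr : Fin p → Fin N → Fin N → ℚ[X]) (h2 : p ≠ 2) (L : LocalInput p NL M e)
    (hNL : G + N + Nb ≤ NL) (a : Fin p) (ha : ¬ 2 * (a : ℕ) < p) (k l : Fin N) :
    ((dat S u c J e cs ps G M N Nb).Net0 nr).Lam a k l ∈ (pbFil p).F
      (((k : ℕ) : ℤ) + 1 + (l : ℕ) + zc S u p ((a : ℕ) : ℤ) + 1) := by
  have hodd : p % 2 = 1 := hp.out.eq_two_or_odd.resolve_left h2
  have h := Dat.Lam0_regular (D := dat S u c J e cs ps G M N Nb) L hNL (Zer_dat h2) a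
    (by omega) k.2 l
  refine (pbFil p).mono ?_ h
  linarith

theorem errX_mem (nr : Fin p → Fin N → Fin N → ℚ[X]) (E : ℤ) (a : Fin p) (s : Fin N)
    (j : Fin (S.k * u)) :
    ((dat S u c J e cs ps G M N Nb).Net0 nr).errX a s j ∈ (pbFil p).F E :=
  AddSubgroup.zero_mem _

theorem errB_mem (nr : Fin p → Fin N → Fin N → ℚ[X]) (E : ℤ) (a : Fin p) (s : Fin N)
    (j : Fin (S.k * u)) :
    ((dat S u c J e cs ps G M N Nb).Net0 nr).errB a s j ∈ (pbFil p).F E :=
  AddSubgroup.zero_mem _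

/-! ### the error terms of the rows -/

/-- the order of a row is at most `2` -/
lemma order_le (x : RI S u c) : (ofRow u c x).2 ≤ 2 := by
  obtain ⟨⟨z, hz⟩, ⟨o, ho⟩⟩ := x
  have ho' : o < S.mult u c z := ho
  simp only [ofRow]
  rcases z with i | i
  · rw [Shape.mult] at ho'
    split_ifs at ho' <;> omega
  · rw [Shape.mult] at ho'
    split_ifs at ho' <;> omega

lemma coeff_gaugeF_mem (h2 : p ≠ 2) (S : Shape) (u m : ℕ) :
    C ((gaugeF S u).coeff m) ∈ (pbFil p).F 0 := by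
  have h := taylor_gaugeF_mem h2 S u 0 m
  rw [Int.cast_zero, taylor_zero] at h
  exact (pbFil p).mono (le_max_left _ _) h

lemma coeff_bl_mem (S : Shape) (u l m : ℕ) : C ((bl S u l).coeff m) ∈ (pbFil p).F 0 := by
  have h := taylor_bl_mem (p := p) S u l 0 m
  rw [Int.cast_zero, taylor_zero] at h
  exact h

lemma coeff_mul_mem {P Q : ℚ[X]} (hP : ∀ m, C (P.coeff m) ∈ (pbFil p).F 0)
    (hQ : ∀ m, C (Q.coeff m) ∈ (pbFil p).F 0) (m : ℕ) :
    C ((P * Q).coeff m) ∈ (pbFil p).F 0 := by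
  rw [coeff_mul, map_sum]
  refine (pbFil p).sum_mem _ _ _ fun x _ => ?_
  rw [C_mul]
  exact zero_mul_mem _ (hP _) (hQ _)

/-- **the error terms of the rows**, level `E` if `E + 3 ≤ M` -/
theorem err_mem (nr : Fin p → Fin N → Fin N → ℚ[X]) (h2 : p ≠ 2) (L : LocalInput p NL M e)
    (hG : (S.a1 + S.a2 + S.i1 + S.r1) * u < G) (hNL : M + (G + S.k * u) ≤ NL)
    (hcs : ∀ x, (cs x : ℕ) = cl p (ofRow u c x).1) {E : ℤ} (hE : E + 3 ≤ M)
    (x : RI S u c) (d : CI S u c) (hd : kd d ≠ 3) :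
    ((dat S u c J e cs ps G M N (S.k * u)).Rows0 nr).err x d ∈ (pbFil p).F E := by
  rcases d with j | j | j | j
  · show - PowerSeries.coeff (ofRow u c x).2
        (erR e M (cs x) (ofRow u c x).1 (gaugeF S u * bl S u j)) ∈ _
    refine AddSubgroup.neg_mem _ ?_
    have h := Dat.erR_mem (D := dat S u c J e cs ps G M N (S.k * u)) L h2 x (hcs x)
      (gaugeF S u * bl S u j)
      (coeff_mul_mem (coeff_gaugeF_mem h2 S u) (coeff_bl_mem S u j)) (n := G + S.k * u)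
      (by
        refine lt_of_le_of_lt natDegree_mul_le ?_
        rw [natDegree_gaugeF, natDegree_bl]
        have := j.2
        omega) hNL
    refine (pbFil p).mono ?_ (h (ofRow u c x).2)
    have h3 : (((ofRow u c x).2 : ℕ) : ℤ) ≤ 2 := by exact_mod_cast order_le x
    show E ≤ (M : ℤ) - 1 - ((ofRow u c x).2 : ℕ)
    linarith
  · exact AddSubgroup.zero_mem _
  · exact AddSubgroup.zero_mem _
  · exact absurd rfl hd

theorem errU_mem (nr : Fin p → Fin N → Fin N → ℚ[X]) (x : RI S u c) (t : Fin c) :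
    ((dat S u c J e cs ps G M N Nb).Rows0 nr).err x (.inr (.inr (.inr t))) ∈ (pbFil p).F 0 := by
  show (if x = J t then (1 : ℚ[X]) else 0) ∈ _
  split_ifs
  · exact (pbFil p).one_mem
  · exact AddSubgroup.zero_mem _

/-! ### the choice of the truncations -/

/-- **The choice of the truncations**, `K` = any lower bound wanted for `M`, `N - M`, `NL - ..`. -/
theorem exists_params (h5 : 5 ≤ p) (S : Shape) (u K : ℕ) (E : ℤ) :
    ∃ (G M N NL : ℕ) (e : Fin p → ℚ[X]), LocalInput p NL M e ∧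
      (S.a1 + S.a2 + S.i1 + S.r1) * u < G ∧ S.k * u ≤ N ∧ S.q * u ≤ N ∧ S.g * u ≤ N ∧
      K ≤ M ∧ 4 ≤ M ∧ E + 3 ≤ M ∧ M + K ≤ N ∧ G + K ≤ N ∧
      G + N + S.k * u + M + K ≤ NL := by
  obtain ⟨M, hM⟩ : ∃ M : ℕ, M = (E + 3).toNat + 4 + K := ⟨_, rfl⟩
  obtain ⟨G, hG⟩ : ∃ G : ℕ, G = (S.a1 + S.a2 + S.i1 + S.r1) * u + 1 := ⟨_, rfl⟩
  obtain ⟨N, hN⟩ : ∃ N : ℕ, N = S.k * u + S.q * u + S.g * u + M + G + K := ⟨_, rfl⟩
  obtain ⟨e, he⟩ := P4Psi830.local_input h5 (G + N + S.k * u + M + K) M (by omega)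
  refine ⟨G, M, N, _, e, he, ?_, ?_, ?_, ?_, ?_, ?_, ?_, ?_, ?_, le_rfl⟩
  all_goals omega

end Crest.Agent.R006.P4SideTab757
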