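import Crest.Agent.R006.P4SideDef_955
import Crest.Agent.R006.P4SideTab_757
import Crest.Agent.R006.P4SideOp_226

set_option autoImplicit false
set_option linter.unusedSectionVars false

/-!
# Row 6, block P4: leaf (4) of 955's list (helper757): the fields of `Tables` for the network

`dsZer t_rho t_th0 t_q t_near0 t_far t_Lamp t_Lamr t_err t_errU`; `t_err0`, `t_errU0` for the rows
before the reduction, `t_errP`, `t_errUP` for 226's `partRows`.
-/

namespace Crest.Agent.R006.P4S

open Polynomial Finset Tollx814 P4Toll961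
open Crest.Agent.R006.D Crest.Agent.R006.Bordx929 Crest.Agent.R006.P4Asmx814
  Crest.Agent.R006.GaugeP555 Crest.Agent.R006.P8 Crest.Agent.R006.P4If Crest.Agent.R006.P4M
  Crest.Agent.R006.P4SideDatx538
open Crest.Agent.R006.P4M531 (phi BB)
open Crest.Agent.R006.P4B1In657 (delB)

variable {S : Shape} {u c p : ℕ} [hp : Fact p.Prime] {dec : ℕ → Mode} {E : ℤ} {e : Fin p → ℚ[X]}
  (J : Fin c → RI S u c)

namespace Inp

lemma lt_GG (S : Shape) (u : ℕ) : (S.a1 + S.a2 + S.i1 + S.r1) * u < GG S u := by
  unfold GG; exact Nat.lt_succ_self _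

lemma MM_GG_le (S : Shape) (u : ℕ) (E : ℤ) : MM E + (GG S u + S.k * u) ≤ NLL S u E := by
  unfold NLL
  generalize MM E = m
  generalize NN S u E = n
  omega

lemma GG_NN_le (S : Shape) (u : ℕ) (E : ℤ) : GG S u + NN S u E + S.k * u ≤ NLL S u E := by
  unfold NLL
  generalize MM E = m
  generalize NN S u E = n
  omega

lemma E3_le (E : ℤ) : E + 3 ≤ (MM E : ℤ) := by
  have h := E_le E
  generalize (MM E : ℤ) = m at h
  linarith

variable (H : Inp S u c p dec E e)
include H

/-! (4) 757 -/
theorem dsZer : (DS S u c dec J E e).Zer (zS S u p) :=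
  P4SideTab757.Zer_dat H.ne2

theorem t_rho (a : Fin p) (l : Fin (NN S u E)) (j : Fin (S.k * u)) :
    (WS S u c dec J E e).rho a l j ∈ (pbFil p).F 0 :=
  P4SideTab757.rho_mem _ a l j

theorem t_th0 (a : Fin p) (l : Fin (NN S u E)) (j : Fin (S.q * u)) :
    (WS S u c dec J E e).th0 a l j ∈ (pbFil p).F 0 :=
  P4SideTab757.th0_mem _ a l j

theorem t_q (a : Fin p) (l : Fin (NN S u E)) (j : Fin (S.g * u)) :
    (WS S u c dec J E e).q a l j ∈ (pbFil p).F 0 :=
  P4SideTab757.q_mem _ a l j

theorem t_near0 (a : Fin p) (s l : Fin (NN S u E)) (hd : dec (a : ℕ) ≠ .rB) :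
    (WS S u c dec J E e).near a s l ∈ (pbFil p).F E := by
  show nrS S u c dec J E e a s l ∈ _
  rw [nrS, if_neg hd]
  exact AddSubgroup.zero_mem _

theorem t_far (a : Fin p) (s : Fin (NN S u E)) (a' : Fin p) (k : Fin (NN S u E)) :
    (WS S u c dec J E e).far a s a' k ∈ (pbFil p).F 0 :=
  P4SideTab757.far_mem _ a s a' k

theorem t_Lamp (a : Fin p) (k l : Fin (NN S u E)) (hd : dec (a : ℕ) = .pol) :
    (WS S u c dec J E e).Lam a k l ∈
      (pbFil p).F (pos (((k : ℕ) : ℤ) + 1 + (l : ℕ) + zS S u p a - 2)) :=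
  P4SideTab757.lamp_mem _ H.ne2 H.L (GG_NN_le S u E) a ((H.pol_iff a).mp hd) k l

theorem t_Lamr (a : Fin p) (k l : Fin (NN S u E)) (hd : dec (a : ℕ) ≠ .pol) :
    (WS S u c dec J E e).Lam a k l ∈
      (pbFil p).F (((k : ℕ) : ℤ) + 1 + (l : ℕ) + zS S u p a + 1) :=
  P4SideTab757.lamr_mem _ H.ne2 H.L (GG_NN_le S u E) a
    (fun h => hd ((H.pol_iff a).mpr h)) k l

/-- the rows before the reduction -/
theorem t_err0 (x : RI S u c) (d : CI S u c) (hd : kd d ≠ 3) :
    (R0S S u c dec J E e).err x d ∈ (pbFil p).F E := by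
  rcases d with j | j | j | j
  · have h2 := MM_GG_le S u E
    have h3 := E3_le E
    have hM : (DS S u c dec J E e).M = MM E := rfl
    have hL : LocalInput p (NLL S u E) (DS S u c dec J E e).M (DS S u c dec J E e).e := H.L
    have hR : ∀ m, C (((DS S u c dec J E e).rho * (DS S u c dec J E e).b j).coeff m) ∈
        (pbFil p).F 0 :=
      P4SideTab757.coeff_mul_mem (P4SideTab757.coeff_gaugeF_mem H.ne2 S u)
        (P4SideTab757.coeff_bl_mem S u j)
    have hn : ((DS S u c dec J E e).rho * (DS S u c dec J E e).b j).natDegree <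
        GG S u + S.k * u := by
      refine lt_of_le_of_lt natDegree_mul_le ?_
      have e1 : (DS S u c dec J E e).rho.natDegree = (S.a1 + S.a2 + S.i1 + S.r1) * u :=
        natDegree_gaugeF S u
      have e2 : ((DS S u c dec J E e).b j).natDegree = j := natDegree_bl S u j
      have e3 := lt_GG S u
      have e4 := j.2
      rw [e1, e2]
      omega
    have h := Dat.erR_mem (D := DS S u c dec J E e) hL H.ne2 x (H.cs_eq J x)
      ((DS S u c dec J E e).rho * (DS S u c dec J E e).b j) hR hn (by rw [hM]; exact h2)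
    have h5 := h ((DS S u c dec J E e).ro x).2
    have e6 : (R0S S u c dec J E e).err x (.inl j) =
        - PowerSeries.coeff ((DS S u c dec J E e).ro x).2
          (erR (DS S u c dec J E e).e (DS S u c dec J E e).M ((DS S u c dec J E e).cs x)
            ((DS S u c dec J E e).ro x).1
            ((DS S u c dec J E e).rho * (DS S u c dec J E e).b j)) := rfl
    rw [e6]
    refine AddSubgroup.neg_mem _ ((pbFil p).mono ?_ h5)
    have h6 : ((((DS S u c dec J E e).ro x).2 : ℕ) : ℤ) ≤ 2 := by
      exact_mod_cast P4SideTab757.order_le x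
    rw [hM]
    linarith
  · exact AddSubgroup.zero_mem _
  · exact AddSubgroup.zero_mem _
  · exact absurd rfl hd

theorem t_errU0 (x : RI S u c) (t : Fin c) :
    (R0S S u c dec J E e).err x (.inr (.inr (.inr t))) ∈ (pbFil p).F 0 :=
  P4SideTab757.errU_mem _ x t

theorem t_err (x : RI S u c) (d : CI S u c) (hd : kd d ≠ 3) :
    (RS S u c dec J E e H.good).err x d ∈ (pbFil p).F E := by
  show subP (R0S S u c dec J E e).err (ptS S u c H.good p) x d ∈ _
  rcases h : ptS S u c H.good p x with _ | y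
  · rw [subP_none _ h]
    exact H.t_err0 J x d hd
  · rw [subP_some _ h]
    exact AddSubgroup.sub_mem _ (H.t_err0 J x d hd) (H.t_err0 J y d hd)

theorem t_errU (x : RI S u c) (t : Fin c) :
    (RS S u c dec J E e H.good).err x (.inr (.inr (.inr t))) ∈ (pbFil p).F 0 := by
  show subP (R0S S u c dec J E e).err (ptS S u c H.good p) x (.inr (.inr (.inr t))) ∈ _
  rcases h : ptS S u c H.good p x with _ | y
  · rw [subP_none _ h]
    exact H.t_errU0 J x t
  · rw [subP_some _ h]
    exact AddSubgroup.sub_mem _ (H.t_errU0 J x t) (H.t_errU0 J y t)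

/-- the same for 226's `partRows` -/
theorem t_errP (part : RI S u c → Option (RI S u c)) (x : RI S u c) (d : CI S u c)
    (hd : kd d ≠ 3) : (partRows (R0S S u c dec J E e) part).err x d ∈ (pbFil p).F E := by
  rcases h : part x with _ | y
  · rw [(partRows_none (R0S S u c dec J E e) h).2.2.2]
    exact H.t_err0 J x d hd
  · rw [(partRows_some (R0S S u c dec J E e) h).2.2.2 d]
    exact AddSubgroup.sub_mem _ (H.t_err0 J x d hd) (H.t_err0 J y d hd)

theorem t_errUP (part : RI S u c → Option (RI S u c)) (x : RI S u c) (t : Fin c) :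
    (partRows (R0S S u c dec J E e) part).err x (.inr (.inr (.inr t))) ∈ (pbFil p).F 0 := by
  rcases h : part x with _ | y
  · rw [(partRows_none (R0S S u c dec J E e) h).2.2.2]
    exact H.t_errU0 J x t
  · rw [(partRows_some (R0S S u c dec J E e) h).2.2.2 _]
    exact AddSubgroup.sub_mem _ (H.t_errU0 J x t) (H.t_errU0 J y t)

end Inp

end Crest.Agent.R006.P4S
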