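import Crest.Agent.R006.P4SideDef_955

/-!
# Row 6, block P4, matrix side: `dsOK` (helper938)
-/

set_option autoImplicit false

namespace Crest.Agent.R006.P4S

open Polynomial Finset Tollx814 P4Toll961
open Crest.Agent.R006.D Crest.Agent.R006.Bordx929 Crest.Agent.R006.P4Asmx814
  Crest.Agent.R006.GaugeP555 Crest.Agent.R006.P8 Crest.Agent.R006.P4If Crest.Agent.R006.P4M
  Crest.Agent.R006.P4SideDatx538
open Crest.Agent.R006.P4M531 (phi BB)
open Crest.Agent.R006.P4B1In657 (delB)

variable {S : Shape} {u c p : ℕ} [hp : Fact p.Prime] {dec : ℕ → Mode} {E : ℤ} {e : Fin p → ℚ[X]}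
  (J : Fin c → RI S u c)

namespace Inp

variable (H : Inp S u c p dec E e)
include H

/-! (6) 938 -/
theorem dsOK : (DS S u c dec J E e).OK where
  sum_e := H.L.sum_e
  hG := by
    show (gaugeF S u).natDegree < GG S u
    rw [natDegree_gaugeF]
    unfold GG
    omega
  hb := fun j => bl_lt S u j
  hNb := by
    show S.k * u ≤ NN S u E
    unfold NN; omega
  hT := fun j => by
    have h := desc_lt j
    show (descPochhammer ℚ (j : ℕ)).natDegree < NN S u E
    unfold NN; omega
  hQ := fun j => by
    have h := desc_lt j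
    show (descPochhammer ℚ (j : ℕ)).natDegree < NN S u E
    unfold NN; omega
  hMN := by
    show MM E ≤ NN S u E
    unfold NN; omega
  hps := fun x => by
    show psG dec e (MM E) (csS S u c p x) (ofRow u c x).1 =
        psi' e (MM E) (csS S u c p x) (ofRow u c x).1 ∨
      PowerSeries.X ^ ((ofRow u c x).2 + 1) ∣ NV.gm (ofRow u c x).1.val (gaugeF S u)
    rcases hx : (ofRow u c x).1 with i | i
    · left; rfl
    · by_cases hi : 0 ≤ i
      · left
        simp only [psG, if_pos hi]
      · right
        rw [← hx]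
        exact P4M938.X_pow_dvd_gaugeF_of_W H.good x hx (not_le.mp hi)

end Inp

end Crest.Agent.R006.P4S
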