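import Crest.Agent.R006.P4MatA_955

/-!
# Row 6, block P4, matrix side (helper955): the network of `P4Toll_961` for the entries of `Defs`

Data (`Dat`): gauge `rho`, column polynomials `b`, `TT`, `QQ`, rows `ro i` with class `cs i`,
germ `ps i` used for `psi'` in the row `i`, unit entries `bo`, truncations `G M N`.

* `Net0 nr`, `Rows0 nr` : network with near coefficients `nr` (`nr = 0`: decomposition A);
* `mat_eq` : `Net.mat` is the matrix of the entries of `Defs.lean` for `R = rho * b`, `T`, `Q`.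
-/

set_option autoImplicit false

namespace Crest.Agent.R006.P4M

open Polynomial Finset Tollx814 P4Toll961
open Crest.Agent.R006.D Crest.Agent.R006.PsiInf
open Crest.Agent.R006.P4M531 (pt cst phi linB BB germ_eq_eval eval_TRB TRB TRB_eq cst_apply)

section linmul

variable {B : Type*} [CommRing B]

/-- a linear functional on a product, coefficientwise -/
lemma sum_coeff_mul (f : ℕ → B) (P Q : B[X]) {G N n : ℕ} (hP : P.natDegree < G)
    (hQ : Q.natDegree < N) (hn : (P * Q).natDegree < n) :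
    ∑ t ∈ range n, (P * Q).coeff t * f t =
      ∑ l ∈ range N, Q.coeff l * ∑ g ∈ range G, P.coeff g * f (g + l) := by
  have h0 : P4Row.lin f (P * Q) = ∑ t ∈ range n, (P * Q).coeff t * f t :=
    P4Row.lin_eq_sum f (P * Q) hn
  rw [← h0]
  have h1 : P * Q = ∑ l ∈ range N, ∑ g ∈ range G, (P.coeff g * Q.coeff l) • (X : B[X]) ^ (g + l) := by
    conv_lhs => rw [P.as_sum_range' G hP, Q.as_sum_range' N hQ]
    rw [Finset.sum_mul_sum, Finset.sum_comm]
    refine sum_congr rfl fun l _ => sum_congr rfl fun g _ => ?_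
    rw [monomial_mul_monomial, smul_X_eq_monomial]
  rw [h1, map_sum]
  refine sum_congr rfl fun l _ => ?_
  rw [map_sum, mul_sum]
  refine sum_congr rfl fun g _ => ?_
  rw [map_smul, smul_eq_mul, P4M531.lin_X_pow]
  ring

end linmul

/-- the data of the matrix side -/
structure Dat (p : ℕ) (jR jT jQ jU ι : Type*) where
  e : Fin p → ℚ[X]
  /-- gauge of the `R`-columns -/
  rho : ℚ[X]
  b : jR → ℚ[X]
  TT : jT → ℚ[X]
  QQ : jQ → ℚ[X]
  /-- rows: site and order -/
  ro : ι → D.Row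
  /-- class of the row -/
  cs : ι → Fin p
  /-- germ used for `psi'` -/
  ps : ι → BB
  /-- unit entries (bordering) -/
  bo : ι → jU → ℚ[X]
  G : ℕ
  M : ℕ
  N : ℕ
  /-- bound of the degrees of `b` -/
  Nb : ℕ

namespace Dat

variable {p : ℕ} {jR jT jQ jU ι : Type*} (D : Dat p jR jT jQ jU ι)

/-- own class coefficient of the `l`-th Taylor coefficient of `b` -/
noncomputable def cA0 (i : ι) (l : ℕ) : ℚ[X] :=
  if l < D.Nb then
    ∑ g ∈ range D.G, C ((taylor ((D.cs i : ℕ) : ℚ) D.rho).coeff g) *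
      PowerSeries.coeff (D.ro i).2 (br D.e (D.cs i) (D.ro i).1 (D.ps i) (g + l))
  else 0

/-- coefficient of `X(c,s)`: `[ε^j] y^s` -/
noncomputable def cB0 (i : ι) (s : ℕ) : ℚ[X] :=
  PowerSeries.coeff (D.ro i).2 (ys (D.cs i) (D.ro i).1 ^ s)

/-- coefficient of `q(c,u)`: `[ε^j] y^u g` -/
noncomputable def cC0 (i : ι) (u : ℕ) : ℚ[X] :=
  PowerSeries.coeff (D.ro i).2 (ys (D.cs i) (D.ro i).1 ^ u * GamX (D.ro i).1)

/-- far coefficients -/
noncomputable def far0 (M : ℕ) (c : Fin p) (s : ℕ) (c' : Fin p) (k : ℕ) : ℚ[X] :=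
  if c' = c then 0 else if s + k < M then
    C ((-1) ^ s * ((s + k).choose s : ℚ) *
      ((((c : ℕ) : ℚ) - ((c' : ℕ) : ℚ))⁻¹) ^ (s + k + 1)) else 0

/-- coefficients of `beta(c,k)` -/
noncomputable def Lam0 (c : Fin p) (k l : ℕ) : ℚ[X] :=
  if l < D.Nb then
    C (∑ g ∈ range D.G, (taylor ((c : ℕ) : ℚ) D.rho).coeff g * momQ D.e c (k + (g + l)))
  else 0

/-- the network with near coefficients `nr` -/
noncomputable def Net0 (nr : Fin p → Fin D.N → Fin D.N → ℚ[X]) : Net ℚ[X] (Fin p) jR jT jQ D.N where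
  rho c l j := C ((taylor ((c : ℕ) : ℚ) (D.b j)).coeff l)
  th0 c s j := C ((taylor ((c : ℕ) : ℚ) (D.TT j)).coeff s)
  q c u j := C ((taylor ((c : ℕ) : ℚ) (D.QQ j)).coeff u)
  near := nr
  far c s c' k := far0 D.M c s c' k
  Lam c k l := D.Lam0 c k l
  errX _ _ _ := 0
  errB _ _ _ := 0

/-- the rows -/
noncomputable def Rows0 (nr : Fin p → Fin D.N → Fin D.N → ℚ[X]) :
    Rows ℚ[X] (Fin p) jR jT jQ jU D.N ι where
  cls := D.cs
  cA i l := D.cA0 i l - ∑ s : Fin D.N, D.cB0 i s * nr (D.cs i) s l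
  cB i s := D.cB0 i s
  cC i u := D.cC0 i u
  err i
    | .inl j => - PowerSeries.coeff (D.ro i).2
        (erR D.e D.M (D.cs i) (D.ro i).1 (D.rho * D.b j))
    | .inr (.inl _) => 0
    | .inr (.inr (.inl _)) => 0
    | .inr (.inr (.inr j)) => D.bo i j

/-- the matrix of the entries of `Defs.lean` -/
noncomputable def ent : ι → P4Toll961.Col jR jT jQ jU → ℚ[X] := fun i d =>
  match d with
  | .inl j => C (ent0 (D.rho * D.b j) (D.ro i)) - X * C (ent1 (D.rho * D.b j) (D.ro i))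
  | .inr (.inl j) => C (entT (D.TT j) (D.ro i))
  | .inr (.inr (.inl j)) => C (entQ (D.QQ j) (D.ro i))
  | .inr (.inr (.inr j)) => D.bo i j

/-- the conditions on the data -/
structure OK : Prop where
  sum_e : ∑ c, D.e c = 1
  hG : D.rho.natDegree < D.G
  hb : ∀ j, (D.b j).natDegree < D.Nb
  hNb : D.Nb ≤ D.N
  hT : ∀ j, (D.TT j).natDegree < D.N
  hQ : ∀ j, (D.QQ j).natDegree < D.N
  hMN : D.M ≤ D.N
  /-- `ps i` is `psi'`, or `R` vanishes to a high order at the site -/
  hps : ∀ i, D.ps i = psi' D.e D.M (D.cs i) (D.ro i).1 ∨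
    PowerSeries.X ^ ((D.ro i).2 + 1) ∣ NV.gm (D.ro i).1.val D.rho

variable {D}

lemma far_sum (M : ℕ) (e : Fin p → ℚ[X]) (c c' : Fin p) (s : ℕ) (t : ℕ) {N : ℕ} (hMN : M ≤ N)
    (hc : c' ≠ c) :
    C (wcQ e M c c' s t) = ∑ k : Fin N, far0 M c s c' k * C (momQ e c' (k + t)) := by
  rw [Fin.sum_univ_eq_sum_range (fun k => far0 M c s c' k * C (momQ e c' (k + t))) N]
  simp only [far0, if_neg hc]
  rw [wcQ, P4D.wc, map_sum]
  rcases Nat.lt_or_ge M s with h | h
  · rw [Finset.Ico_eq_empty (by omega), sum_empty]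
    symm
    refine sum_eq_zero fun k _ => ?_
    rw [if_neg (by omega), zero_mul]
  · rw [Finset.sum_Ico_eq_sum_range]
    have h1 : range (M - s) ⊆ range N := range_subset_range.mpr (by omega)
    rw [← sum_subset h1]
    · refine sum_congr rfl fun k hk => ?_
      rw [mem_range] at hk
      rw [if_pos (by omega), ← C_mul]
      congr 1
      rw [momQ, show s + k - s + t = k + t by omega]
    · intro k _ hk
      rw [mem_range] at hk
      rw [if_neg (by omega), zero_mul]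

omit D in
/-- cut off a sum over `Fin N` at `Nb` -/
lemma sum_cut {N Nb : ℕ} (h : Nb ≤ N) (f g : ℕ → ℚ[X]) (hf : ∀ l, Nb ≤ l → f l = 0)
    (hfg : ∀ l, l < Nb → f l = g l) : ∑ l : Fin N, f l = ∑ l ∈ range Nb, g l := by
  rw [Fin.sum_univ_eq_sum_range f N, ← sum_subset (range_subset_range.mpr h)]
  · exact sum_congr rfl fun l hl => hfg l (mem_range.mp hl)
  · intro l _ hl
    exact hf l (by rw [mem_range] at hl; omega)

/-- coefficient extraction in the sum over the own class -/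
lemma own_sum (h : D.OK) (i : ι) (j : jR) {n : ℕ} (hn : (D.rho * D.b j).natDegree < n) :
    PowerSeries.coeff (D.ro i).2 (∑ t ∈ range n,
        phi ((taylor ((D.cs i : ℕ) : ℚ) (D.rho * D.b j)).coeff t) *
          br D.e (D.cs i) (D.ro i).1 (D.ps i) t) =
      ∑ l : Fin D.N, D.cA0 i l * C ((taylor ((D.cs i : ℕ) : ℚ) (D.b j)).coeff l) := by
  have h1 := sum_coeff_mul
    (fun t => PowerSeries.coeff (D.ro i).2 (br D.e (D.cs i) (D.ro i).1 (D.ps i) t))
    ((taylor ((D.cs i : ℕ) : ℚ) D.rho).map C) ((taylor ((D.cs i : ℕ) : ℚ) (D.b j)).map C)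
    (G := D.G) (N := D.Nb) (n := n)
    (lt_of_le_of_lt natDegree_map_le (by rw [natDegree_taylor]; exact h.hG))
    (lt_of_le_of_lt natDegree_map_le (by rw [natDegree_taylor]; exact h.hb j))
    (by
      rw [← Polynomial.map_mul, ← taylor_mul]
      exact lt_of_le_of_lt natDegree_map_le (by rw [natDegree_taylor]; exact hn))
  rw [← Polynomial.map_mul, ← taylor_mul] at h1
  simp only [coeff_map] at h1
  rw [map_sum]
  simp only [coeff_phi_mul]
  rw [h1]
  symm
  refine sum_cut h.hNb (fun l => D.cA0 i l *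
    C ((taylor ((D.cs i : ℕ) : ℚ) (D.b j)).coeff l)) _ (fun l hl => ?_) fun l hl => ?_
  · simp only [cA0]
    rw [if_neg (by omega), zero_mul]
  · simp only [cA0]
    rw [if_pos hl, mul_comm]

/-- one far class -/
lemma far_class (h : D.OK) (c c' : Fin p) (hc : c' ≠ c) (j : jR) (s : Fin D.N) {n : ℕ}
    (hn : (D.rho * D.b j).natDegree < n) :
    ∑ t ∈ range n, C ((taylor ((c' : ℕ) : ℚ) (D.rho * D.b j)).coeff t) *
        C (wcQ D.e D.M c c' s t) =
      ∑ k : Fin D.N, far0 D.M c s c' k * ∑ l : Fin D.N, D.Lam0 c' k l *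
        C ((taylor ((c' : ℕ) : ℚ) (D.b j)).coeff l) := by
  have h2 : ∀ k : Fin D.N, ∑ l : Fin D.N, D.Lam0 c' k l *
        C ((taylor ((c' : ℕ) : ℚ) (D.b j)).coeff l) =
      ∑ t ∈ range n, C ((taylor ((c' : ℕ) : ℚ) (D.rho * D.b j)).coeff t) *
        C (momQ D.e c' (k + t)) := by
    intro k
    have h1 := sum_coeff_mul (fun t => (C (momQ D.e c' (k + t)) : ℚ[X]))
      ((taylor ((c' : ℕ) : ℚ) D.rho).map C) ((taylor ((c' : ℕ) : ℚ) (D.b j)).map C)
      (G := D.G) (N := D.Nb) (n := n)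
      (lt_of_le_of_lt natDegree_map_le (by rw [natDegree_taylor]; exact h.hG))
      (lt_of_le_of_lt natDegree_map_le (by rw [natDegree_taylor]; exact h.hb j))
      (by
        rw [← Polynomial.map_mul, ← taylor_mul]
        exact lt_of_le_of_lt natDegree_map_le (by rw [natDegree_taylor]; exact hn))
    rw [← Polynomial.map_mul, ← taylor_mul] at h1
    simp only [coeff_map] at h1
    rw [h1]
    refine sum_cut h.hNb (fun l => D.Lam0 c' k l *
      C ((taylor ((c' : ℕ) : ℚ) (D.b j)).coeff l)) _ (fun l hl => ?_) fun l hl => ?_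
    · simp only [Lam0]
      rw [if_neg (by omega), zero_mul]
    · simp only [Lam0]
      rw [if_pos hl, mul_comm, map_sum]
      congr 1
      refine sum_congr rfl fun g _ => ?_
      rw [C_mul]
  simp only [h2]
  simp only [far_sum D.M D.e c c' s _ h.hMN hc, mul_sum]
  rw [sum_comm]
  refine sum_congr rfl fun k _ => sum_congr rfl fun t _ => ?_
  ring

lemma far0_of_le (M : ℕ) (c c' : Fin p) {s : ℕ} (k : ℕ) (h : M ≤ s) : far0 M c s c' k = 0 := by
  rw [far0]
  split_ifs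
  · rfl
  · omega
  · rfl

/-- the far part of a row -/
lemma far_row (h : D.OK) (i : ι) (j : jR) {n : ℕ} (hn : (D.rho * D.b j).natDegree < n) :
    PowerSeries.coeff (D.ro i).2 (∑ c ∈ univ.erase (D.cs i), ∑ t ∈ range n,
        phi ((taylor ((c : ℕ) : ℚ) (D.rho * D.b j)).coeff t) *
          ∑ k ∈ range D.M, ys (D.cs i) (D.ro i).1 ^ k * phi (wcQ D.e D.M (D.cs i) c k t)) =
      ∑ s : Fin D.N, D.cB0 i s * ∑ c', ∑ k : Fin D.N, far0 D.M (D.cs i) s c' k *
        ∑ l : Fin D.N, D.Lam0 c' k l * C ((taylor ((c' : ℕ) : ℚ) (D.b j)).coeff l) := by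
  have e1 : ∀ s : Fin D.N, D.cB0 i s * ∑ c', ∑ k : Fin D.N, far0 D.M (D.cs i) s c' k *
        ∑ l : Fin D.N, D.Lam0 c' k l * C ((taylor ((c' : ℕ) : ℚ) (D.b j)).coeff l) =
      ∑ c ∈ univ.erase (D.cs i), D.cB0 i s * ∑ t ∈ range n,
        C ((taylor ((c : ℕ) : ℚ) (D.rho * D.b j)).coeff t) *
          C (wcQ D.e D.M (D.cs i) c s t) := by
    intro s
    rw [← add_sum_erase univ _ (mem_univ (D.cs i)), mul_add]
    have h0 : ∑ k : Fin D.N, far0 D.M (D.cs i) s (D.cs i) k *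
        ∑ l : Fin D.N, D.Lam0 (D.cs i) k l *
          C ((taylor ((D.cs i : ℕ) : ℚ) (D.b j)).coeff l) = 0 := by
      refine sum_eq_zero fun k _ => ?_
      rw [far0, if_pos rfl, zero_mul]
    rw [h0, mul_zero, zero_add, mul_sum]
    refine sum_congr rfl fun c hc => ?_
    rw [far_class h (D.cs i) c (mem_erase.mp hc).1 j s hn]
  have e2 : ∀ c ∈ univ.erase (D.cs i), PowerSeries.coeff (D.ro i).2 (∑ t ∈ range n,
        phi ((taylor ((c : ℕ) : ℚ) (D.rho * D.b j)).coeff t) *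
          ∑ k ∈ range D.M, ys (D.cs i) (D.ro i).1 ^ k * phi (wcQ D.e D.M (D.cs i) c k t)) =
      ∑ s : Fin D.N, D.cB0 i s * ∑ t ∈ range n,
        C ((taylor ((c : ℕ) : ℚ) (D.rho * D.b j)).coeff t) *
          C (wcQ D.e D.M (D.cs i) c s t) := by
    intro c hc
    have hc' := (mem_erase.mp hc).1
    rw [map_sum]
    simp only [coeff_phi_mul, map_sum, coeff_mul_phi]
    rw [Fin.sum_univ_eq_sum_range (fun s => D.cB0 i s * ∑ t ∈ range n,
        C ((taylor ((c : ℕ) : ℚ) (D.rho * D.b j)).coeff t) *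
          C (wcQ D.e D.M (D.cs i) c s t)) D.N]
    have h3 : range D.M ⊆ range D.N := range_subset_range.mpr h.hMN
    rw [← sum_subset h3]
    · simp only [mul_sum]
      rw [sum_comm]
      refine sum_congr rfl fun s _ => sum_congr rfl fun t _ => ?_
      rw [cB0]
      ring
    · intro s hs hs'
      rw [mem_range] at hs hs'
      have : ∀ t, wcQ D.e D.M (D.cs i) c s t = 0 := by
        intro t
        rw [wcQ, P4D.wc, Finset.Ico_eq_empty (by omega), sum_empty]
      simp only [this, C_0, mul_zero, sum_const_zero]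
  rw [map_sum, sum_congr rfl e2, sum_congr rfl (fun s _ => e1 s), sum_comm]

/-- replacing `psi'` in a row where `R` vanishes -/
lemma own_psi (h : D.OK) (i : ι) (j : jR) {n : ℕ} (hn : (D.rho * D.b j).natDegree < n) :
    PowerSeries.coeff (D.ro i).2 (∑ t ∈ range n,
        phi ((taylor ((D.cs i : ℕ) : ℚ) (D.rho * D.b j)).coeff t) *
          br D.e (D.cs i) (D.ro i).1 (psi' D.e D.M (D.cs i) (D.ro i).1) t) =
      PowerSeries.coeff (D.ro i).2 (∑ t ∈ range n,
        phi ((taylor ((D.cs i : ℕ) : ℚ) (D.rho * D.b j)).coeff t) *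
          br D.e (D.cs i) (D.ro i).1 (D.ps i) t) := by
  rcases h.hps i with h0 | h0
  · rw [h0]
  · rw [change_psi D.e (D.cs i) (D.ro i).1 (D.rho * D.b j)
      (psi' D.e D.M (D.cs i) (D.ro i).1) (D.ps i) hn, map_add]
    have h1 : (PowerSeries.X : BB) ^ ((D.ro i).2 + 1) ∣
        ((D.rho * D.b j).map phi).eval (xs (D.ro i).1) := by
      rw [xs, ← map_gm]
      have e : NV.gm (D.ro i).1.val (D.rho * D.b j) =
          NV.gm (D.ro i).1.val D.rho * NV.gm (D.ro i).1.val (D.b j) := by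
        simp [NV.gm, taylor_mul]
      rw [e, map_mul]
      obtain ⟨w, hw⟩ := h0
      rw [hw, map_mul, map_pow, PowerSeries.map_X]
      exact Dvd.dvd.mul_right (Dvd.intro _ rfl) _
    have h2 := (PowerSeries.X_pow_dvd_iff.mp (h1.mul_right
      (psi' D.e D.M (D.cs i) (D.ro i).1 - D.ps i))) (D.ro i).2 (Nat.lt_succ_self _)
    rw [h2, add_zero]

/-- **The matrix of the network is the matrix of the entries of `Defs.lean`.** -/
theorem mat_eq (h : D.OK) (nr : Fin p → Fin D.N → Fin D.N → ℚ[X]) (i : ι)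
    (d : P4Toll961.Col jR jT jQ jU) :
    (D.Net0 nr : Net ℚ[X] (Fin p) jR jT jQ D.N).mat (D.Rows0 nr) i d = D.ent i d := by
  rcases d with j | j | j | j
  · -- `R`-column
    show ∑ l : Fin D.N, (D.cA0 i l - ∑ s : Fin D.N, D.cB0 i s * nr (D.cs i) s l) *
        C ((taylor ((D.cs i : ℕ) : ℚ) (D.b j)).coeff l) +
      ∑ s : Fin D.N, D.cB0 i s * (∑ l : Fin D.N, nr (D.cs i) s l *
          C ((taylor ((D.cs i : ℕ) : ℚ) (D.b j)).coeff l) +
        ∑ c', ∑ k : Fin D.N, far0 D.M (D.cs i) s c' k *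
          (∑ l : Fin D.N, D.Lam0 c' k l * C ((taylor ((c' : ℕ) : ℚ) (D.b j)).coeff l) + 0) + 0) +
      - PowerSeries.coeff (D.ro i).2 (erR D.e D.M (D.cs i) (D.ro i).1 (D.rho * D.b j)) =
      C (ent0 (D.rho * D.b j) (D.ro i)) - X * C (ent1 (D.rho * D.b j) (D.ro i))
    rw [entR_eq, row_BB D.e h.sum_e D.M (D.cs i) (D.ro i).1 (D.rho * D.b j)
      (Nat.lt_succ_self _), map_sub, map_add, own_psi h i j (Nat.lt_succ_self _),
      own_sum h i j (Nat.lt_succ_self _), far_row h i j (Nat.lt_succ_self _)]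
    simp only [add_zero, mul_add, sum_add_distrib, sub_mul, sum_sub_distrib]
    have e1 : ∑ l : Fin D.N, (∑ s : Fin D.N, D.cB0 i s * nr (D.cs i) s l) *
        C ((taylor ((D.cs i : ℕ) : ℚ) (D.b j)).coeff l) =
        ∑ s : Fin D.N, D.cB0 i s * ∑ l : Fin D.N, nr (D.cs i) s l *
          C ((taylor ((D.cs i : ℕ) : ℚ) (D.b j)).coeff l) := by
      simp only [sum_mul, mul_sum]
      rw [sum_comm]
      refine sum_congr rfl fun s _ => sum_congr rfl fun l _ => ?_
      ring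
    rw [e1]
    ring
  · -- `T`-column
    show ∑ s : Fin D.N, D.cB0 i s * C ((taylor ((D.cs i : ℕ) : ℚ) (D.TT j)).coeff s) + 0 =
      C (entT (D.TT j) (D.ro i))
    rw [entT_eq, eval_xs (D.cs i) (D.ro i).1 (D.TT j) (h.hT j), add_zero, map_sum,
      Fin.sum_univ_eq_sum_range (fun s => D.cB0 i s *
        C ((taylor ((D.cs i : ℕ) : ℚ) (D.TT j)).coeff s)) D.N]
    refine sum_congr rfl fun s _ => ?_
    rw [coeff_phi_mul, cB0, mul_comm]
  · -- `Q`-column
    show ∑ u : Fin D.N, D.cC0 i u * C ((taylor ((D.cs i : ℕ) : ℚ) (D.QQ j)).coeff u) + 0 =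
      C (entQ (D.QQ j) (D.ro i))
    rw [entQ_eq, eval_xs (D.cs i) (D.ro i).1 (D.QQ j) (h.hQ j), add_zero, sum_mul, map_sum,
      Fin.sum_univ_eq_sum_range (fun u => D.cC0 i u *
        C ((taylor ((D.cs i : ℕ) : ℚ) (D.QQ j)).coeff u)) D.N]
    refine sum_congr rfl fun u _ => ?_
    rw [mul_assoc, coeff_phi_mul, cC0, mul_comm]
  · rfl

end Dat

end Crest.Agent.R006.P4M
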