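import Crest.Agent.R006.GaugeP_555
import Crest.Agent.R006.P4AsmA_814
import Crest.Agent.R006.P4Mat_955
import Crest.Agent.R006.NVDict_938

/-!
# Row 6, block P4: orders of the rows, the zeros of the gauge at the `W` rows (helper938)
-/

set_option autoImplicit false

namespace Crest.Agent.R006.P4M938

open Polynomial Finset Crest.Agent.R006.D Crest.Agent.R006.NV Crest.Agent.R006.Bordx929
  Crest.Agent.R006.GaugeP555 Crest.Agent.R006.P4Asmx814

variable (S : Shape) (u c : ℕ)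

/-- the full gauge vanishes at `i + 1/2`, `-i1 u ≤ i < 0` -/
theorem eval_gaugeF_H {i : ℤ} (h0 : -((S.i1 * u : ℕ) : ℤ) ≤ i) (h1 : i < 0) :
    (gaugeF S u).eval (Site.H i).val = 0 := by
  rw [gaugeF_eq]
  have h2 : (winP (Ico (-(S.i1 * u : ℤ)) 0) 1).eval (Site.H i).val = 0 := by
    unfold winP
    rw [eval_prod]
    refine Finset.prod_eq_zero (i := i) ?_ ?_
    · rw [Finset.mem_Ico]
      push_cast at h0
      exact ⟨h0, h1⟩
    · rw [eval_sub, eval_X, eval_C, Site.val]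
      push_cast
      ring
  rw [eval_mul, eval_mul, eval_mul, h2]
  ring

theorem X_dvd_gm_gaugeF {i : ℤ} (h0 : -((S.i1 * u : ℕ) : ℤ) ≤ i) (h1 : i < 0) :
    PowerSeries.X ∣ gm (Site.H i).val (gaugeF S u) :=
  X_dvd_gm (eval_gaugeF_H S u h0 h1)

/-- version with `-1 - m`, `m < i1 u` -/
theorem X_dvd_gm_gaugeF' {m : ℕ} (h : m < S.i1 * u) :
    PowerSeries.X ^ 1 ∣ gm (Site.H (-1 - (m : ℤ))).val (gaugeF S u) := by
  rw [pow_one]
  exact X_dvd_gm_gaugeF S u (by omega) (by omega)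

/-! ### orders of the rows -/

variable {S u c}

lemma ofRow_lt (x : RI S u c) : (ofRow u c x).2 < S.mult u c (ofRow u c x).1 := x.2.2

theorem order_Z_nonneg (x : RI S u c) {i : ℤ} (hx : (ofRow u c x).1 = .Z i) (hi : 0 ≤ i) :
    (ofRow u c x).2 = 0 := by
  have h := ofRow_lt x
  rw [hx] at h
  simp only [Shape.mult, if_pos hi] at h
  split_ifs at h <;> omega

theorem order_H_neg (x : RI S u c) {i : ℤ} (hx : (ofRow u c x).1 = .H i) (hi : i < 0) :
    (ofRow u c x).2 = 0 ∧ -((S.w * u : ℕ) : ℤ) ≤ i := by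
  have h := ofRow_lt x
  rw [hx] at h
  simp only [Shape.mult, if_neg (not_le.mpr hi)] at h
  rw [← Nat.cast_mul] at h
  split_ifs at h <;> omega

/-- `Z (-m)` rows: order `0`, `1` or `2`, with the windows -/
theorem order_Z_neg (x : RI S u c) {i : ℤ} (hx : (ofRow u c x).1 = .Z i) (hi : i < 0)
    (hS : S.Good) : (ofRow u c x).2 ≤ 2 ∧ -i ≤ ((S.e1 * u : ℕ) : ℤ) ∧
      (1 ≤ (ofRow u c x).2 → -i ≤ ((S.e2 * u : ℕ) : ℤ)) ∧
      (2 ≤ (ofRow u c x).2 → -i ≤ ((S.e3 * u : ℕ) : ℤ)) := by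
  have h := ofRow_lt x
  have h21 : ((S.e2 * u : ℕ) : ℤ) ≤ ((S.e1 * u : ℕ) : ℤ) := by
    exact_mod_cast Nat.mul_le_mul_right u hS.e21
  have h32 : ((S.e3 * u : ℕ) : ℤ) ≤ ((S.e2 * u : ℕ) : ℤ) := by
    exact_mod_cast Nat.mul_le_mul_right u hS.e32
  rw [hx] at h
  simp only [Shape.mult, if_neg (not_le.mpr hi)] at h
  simp only [← Nat.cast_mul] at h
  split_ifs at h <;> omega

/-- `H l` rows, `l ≥ 0`: order `0`, `1` or `2`, with the windows -/
theorem order_H_nonneg (x : RI S u c) {i : ℤ} (hx : (ofRow u c x).1 = .H i) (hi : 0 ≤ i)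
    (hS : S.Good) : (ofRow u c x).2 ≤ 2 ∧ i < ((S.h1 * u : ℕ) : ℤ) ∧
      (1 ≤ (ofRow u c x).2 → i < ((S.h2 * u : ℕ) : ℤ)) ∧
      (2 ≤ (ofRow u c x).2 → i < ((S.h3 * u : ℕ) : ℤ)) := by
  have h := ofRow_lt x
  have h21 : ((S.h2 * u : ℕ) : ℤ) ≤ ((S.h1 * u : ℕ) : ℤ) := by
    exact_mod_cast Nat.mul_le_mul_right u hS.h21
  have h32 : ((S.h3 * u : ℕ) : ℤ) ≤ ((S.h2 * u : ℕ) : ℤ) := by
    exact_mod_cast Nat.mul_le_mul_right u hS.h32
  rw [hx] at h
  simp only [Shape.mult, if_pos hi] at h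
  simp only [← Nat.cast_mul] at h
  split_ifs at h <;> omega

/-- all rows have order `0` or `1` when `e3 = h3 = 0` -/
theorem order_le_one (he : S.e3 = 0) (hh : S.h3 = 0) (x : RI S u c) : (ofRow u c x).2 ≤ 1 := by
  have h := ofRow_lt x
  rcases hx : (ofRow u c x).1 with i | i
  · rw [hx] at h
    simp only [Shape.mult, he, zero_mul, Nat.cast_zero] at h
    split_ifs at h <;> omega
  · rw [hx] at h
    simp only [Shape.mult, hh, zero_mul, Nat.cast_zero] at h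
    split_ifs at h <;> omega

/-- **`W` rows**: the right alternative of `Dat.OK.hps` for the gauge `gaugeF`, any germ -/
theorem X_pow_dvd_gaugeF_of_W (hS : S.Good) (x : RI S u c) {i : ℤ}
    (hx : (ofRow u c x).1 = .H i) (hi : i < 0) :
    PowerSeries.X ^ ((ofRow u c x).2 + 1) ∣ gm (ofRow u c x).1.val (gaugeF S u) := by
  obtain ⟨h1, h2⟩ := order_H_neg x hx hi
  rw [h1, zero_add, pow_one, hx]
  refine X_dvd_gm_gaugeF S u ?_ hi
  have : ((S.w * u : ℕ) : ℤ) ≤ ((S.i1 * u : ℕ) : ℤ) := by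
    exact_mod_cast Nat.mul_le_mul_right u hS.wi
  omega

end Crest.Agent.R006.P4M938
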