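import Crest.Agent.R006.P4_LocalInput_955
import Crest.Agent.R006.NVDict_938

/-!
# Row 6, block P4: the double zeros of `g` (helper938)

`X ^ 2 ∣ gam (Z (-m))` for `m > 0` and `X ^ 2 ∣ gam (H l)` for `l ≥ 0`.
-/

set_option autoImplicit false

namespace Crest.Agent.R006.P4M938

open Crest.Agent.R006.P4M Crest.Agent.R006.D Crest.Agent.R006.NV

lemma dvd_of_dvd_unit_mul {x a f : PowerSeries ℚ} (ha : PowerSeries.constantCoeff a ≠ 0)
    (h : x ∣ a * f) : x ∣ f := by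
  have e : f = a⁻¹ * (a * f) := by
    rw [← mul_assoc, PowerSeries.inv_mul_cancel _ ha, one_mul]
  rw [e]
  exact h.mul_left _

lemma constantCoeff_quarter (s : ℚ) (hs : 2 * s + 1 ≠ 0) :
    PowerSeries.constantCoeff (PowerSeries.C (1 / 4) * (2 * pt s + 1) ^ 2 : PowerSeries ℚ) ≠ 0 := by
  rw [map_mul, PowerSeries.constantCoeff_C, map_pow, map_add, map_mul, constantCoeff_pt,
    constantCoeff_two, map_one]
  exact mul_ne_zero (by norm_num) (pow_ne_zero _ hs)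

theorem X_sq_dvd_GamZ (m : ℕ) : PowerSeries.X ^ 2 ∣ (GamZ (-((m + 1 : ℕ) : ℤ)) : PowerSeries ℚ) := by
  induction m with
  | zero =>
    have h := (step_Z (0 : ℚ) (-1)).gam
    have e0 : (-1 + 1 : ℤ) = 0 := rfl
    rw [e0, GamZ_zero, mul_one] at h
    have e1 : (((-1 : ℤ) : ℚ) + 1) = 0 := by norm_num
    rw [e1] at h
    have e2 : pt (0 : ℚ) = PowerSeries.X := by simp [pt]
    rw [e2] at h
    have e3 : (-((0 + 1 : ℕ) : ℤ)) = -1 := by norm_num
    rw [e3]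
    apply dvd_of_dvd_unit_mul (constantCoeff_quarter ((-1 : ℤ) : ℚ) (by norm_num))
    rw [← h]
  | succ m ih =>
    have h := (step_Z (0 : ℚ) (-((m + 1 + 1 : ℕ) : ℤ))).gam
    have e0 : (-((m + 1 + 1 : ℕ) : ℤ) + 1) = -((m + 1 : ℕ) : ℤ) := by push_cast; ring
    rw [e0] at h
    apply dvd_of_dvd_unit_mul (constantCoeff_quarter ((-((m + 1 + 1 : ℕ) : ℤ) : ℤ) : ℚ) ?_)
    · rw [← h]
      exact ih.mul_left _
    · have : (2 * (-((m + 1 + 1 : ℕ) : ℤ)) + 1 : ℤ) ≠ 0 := by omega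
      exact_mod_cast this

theorem X_sq_dvd_GamH (l : ℕ) : PowerSeries.X ^ 2 ∣ NV.GamH (1 : ℚ) (l : ℤ) := by
  induction l with
  | zero =>
    have h := (step_HG (1 : ℚ) (-1)).gam
    have e0 : (-1 + 1 : ℤ) = 0 := rfl
    rw [e0] at h
    have e1 : NV.GamH (1 : ℚ) (-1) = 1 := by
      unfold NV.GamH
      rw [e0, GamH0_zero, map_one]
    rw [e1, mul_one] at h
    have e2 : (2 * pt (((-1 : ℤ) : ℚ) + 1 / 2) + 1 : PowerSeries ℚ) = 2 * PowerSeries.X := by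
      unfold pt
      have h1 : (2 : PowerSeries ℚ) * PowerSeries.C (((-1 : ℤ) : ℚ) + 1 / 2) = -1 := by
        have : (2 : PowerSeries ℚ) = PowerSeries.C 2 := (map_ofNat PowerSeries.C 2).symm
        rw [this, ← map_mul]
        norm_num
      linear_combination h1
    rw [e2] at h
    have e3 : (((0 : ℕ) : ℤ)) = 0 := rfl
    rw [e3]
    apply dvd_of_dvd_unit_mul (a := pt (((-1 : ℤ) : ℚ) + 1 / 2 + 1) ^ 2)
    · rw [map_pow, constantCoeff_pt]
      norm_num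
    · rw [h]
      exact ⟨PowerSeries.C (1 / 4) * 2 ^ 2, by ring⟩
  | succ l ih =>
    have h := (step_HG (1 : ℚ) (l : ℤ)).gam
    have e0 : ((l + 1 : ℕ) : ℤ) = (l : ℤ) + 1 := by push_cast; rfl
    rw [e0]
    apply dvd_of_dvd_unit_mul (a := pt (((l : ℤ) : ℚ) + 1 / 2 + 1) ^ 2)
    · rw [map_pow, constantCoeff_pt]
      apply pow_ne_zero
      have : (0 : ℚ) < ((l : ℤ) : ℚ) + 1 / 2 + 1 := by
        have h0 : (0 : ℚ) ≤ ((l : ℤ) : ℚ) := by exact_mod_cast (Int.natCast_nonneg l)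
        linarith
      exact this.ne'
    · rw [h]
      exact ih.mul_left _

/-- **the double zeros of `g`** -/
theorem gamOrd : GamOrd := by
  refine ⟨fun m hm => ?_, fun l => ?_⟩
  · obtain ⟨n, rfl⟩ : ∃ n, m = n + 1 := ⟨m - 1, by omega⟩
    exact X_sq_dvd_GamZ n
  · have e : gam (.H (l : ℤ)) = NV.GamH (1 : ℚ) (l : ℤ) := GamH_eq _
    rw [e]
    exact X_sq_dvd_GamH l

end Crest.Agent.R006.P4M938
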