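import Crest.Agent.R006.P4MatV_955
import Crest.Agent.R006.P4SideCls_110
import Crest.Agent.R006.P4Iface_814
import Crest.Agent.R006.P4_GamOrd_938
import Crest.Agent.R006.P4SidePsi_938

/-!
# Row 6, block P4, matrix side (helper110): the fields `A, B, B0, C` of `Tables` in the mode `rA`
-/

set_option autoImplicit false

namespace Crest.Agent.R006.P4SideRAx110

open Polynomial Finset Tollx814 P4Toll961 Crest.Agent.R006.D Crest.Agent.R006.P4M
  Crest.Agent.R006.P8 Crest.Agent.R006.P4If Crest.Agent.R006.Bordx929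
  Crest.Agent.R006.P4Asmx814
open Crest.Agent.R006.P4M531 (BB)

/-- the orders of the rows of the design (`e3 = h3 = 0`) -/
structure RowT (ρ : Crest.Agent.R006.D.Row) : Prop where
  le : ρ.2 ≤ 1
  z0 : ∀ i, ρ.1 = .Z i → 0 ≤ i → ρ.2 = 0
  h0 : ∀ i, ρ.1 = .H i → i < 0 → ρ.2 = 0

theorem rowT {S : Shape} {u c : ℕ} (he : S.e3 = 0) (hh : S.h3 = 0) (x : RI S u c) :
    RowT (ofRow u c x) where
  le := P4M938.order_le_one he hh x
  z0 _ hi h := P4M938.order_Z_nonneg x hi h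
  h0 _ hi h := (P4M938.order_H_neg x hi h).1

lemma pos_of_nonneg {x : ℤ} (h : 0 ≤ x) : P8.pos x = x := by
  simp only [P8.pos, Int.toNat_of_nonneg h]

lemma pos_le_max (x : ℤ) : P8.pos x = max 0 x := by
  simp only [P8.pos]; omega

variable {p : ℕ} [hp : Fact p.Prime] {jR jT jQ jU ι : Type*} {D : Dat p jR jT jQ jU ι}
  {z : ℕ → ℕ} {NL : ℕ}

/-- the cases of the kinds -/
lemma kind_cases {ρ : Crest.Agent.R006.D.Row} (h : RowT ρ) :
    (∃ i, ρ.1 = Site.Z i ∧ 0 ≤ i ∧ ρ.2 = 0 ∧ kindR ρ = kG) ∨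
    (∃ i, ρ.1 = Site.Z i ∧ i < 0 ∧ ρ.2 = 0 ∧ kindR ρ = kE1) ∨
    (∃ i, ρ.1 = Site.Z i ∧ i < 0 ∧ ρ.2 = 1 ∧ kindR ρ = kE2) ∨
    (∃ i, ρ.1 = Site.H i ∧ 0 ≤ i ∧ ρ.2 = 0 ∧ kindR ρ = kH1) ∨
    (∃ i, ρ.1 = Site.H i ∧ 0 ≤ i ∧ ρ.2 = 1 ∧ kindR ρ = kH2) ∨
    (∃ i, ρ.1 = Site.H i ∧ i < 0 ∧ ρ.2 = 0 ∧ kindR ρ = kW) := by
  obtain ⟨z, o⟩ := ρ
  have hle := h.le
  rcases z with i | i
  · by_cases hi : 0 ≤ i
    · left
      have h0 := h.z0 i rfl hi
      exact ⟨i, rfl, hi, h0, by simp [kindR, hi]⟩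
    · simp only at hle
      by_cases ho : o = 0
      · right; left
        exact ⟨i, rfl, by omega, ho, by simp [kindR, hi, ho]⟩
      · right; right; left
        exact ⟨i, rfl, by omega, by simp only; omega, by simp [kindR, hi, ho]⟩
  · by_cases hi : 0 ≤ i
    · simp only at hle
      by_cases ho : o = 0
      · right; right; right; left
        exact ⟨i, rfl, hi, ho, by simp [kindR, hi, ho]⟩
      · right; right; right; right; left
        exact ⟨i, rfl, hi, by simp only; omega, by simp [kindR, hi, ho]⟩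
    · right; right; right; right; right
      have h0 := h.h0 i rfl (by omega)
      exact ⟨i, rfl, by omega, h0, by simp [kindR, hi]⟩

/-- **field `A`, mode `rA`** -/
theorem A_rA (L : LocalInput p NL D.M D.e) (hNL : D.G + D.Nb ≤ NL) (h2 : p ≠ 2)
    (hz : D.Zer z) (i : ι) (hr : RowT (D.ro i)) (hcs : (D.cs i : ℕ) = cl p (D.ro i).1)
    (hreg : p < 2 * (D.cs i : ℕ)) (hps : D.ps i ∈ (psFil (pbFil p)).F 1) (js : List ℤ) (j : ℤ)
    (l : ℕ) :
    D.cA0 i l ∈ (pbFil p).F ((tabK .rA (kindR (D.ro i)) js j).R.a +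
      P8.pos ((l : ℤ) + z (D.cs i) - (tabK .rA (kindR (D.ro i)) js j).R.b)) := by
  refine (pbFil p).mono ?_ (Dat.cA0_regular L hNL h2 hz i hcs hreg hps l)
  rcases kind_cases hr with ⟨i', -, -, ho, hk⟩ | ⟨i', -, -, ho, hk⟩ | ⟨i', -, -, ho, hk⟩ |
    ⟨i', -, -, ho, hk⟩ | ⟨i', -, -, ho, hk⟩ | ⟨i', -, -, ho, hk⟩ <;>
  · rw [ho, hk]
    simp only [tabK, Kind.row3, kG, kE1, kE2, kH1, kH2, kW, P8.pos]
    split_ifs <;> simp only [] <;> omega

/-- **field `B`, mode `rA`** -/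
theorem B_rA (h2 : p ≠ 2) (i : ι) (hr : RowT (D.ro i)) (hcs : (D.cs i : ℕ) = cl p (D.ro i).1)
    (js : List ℤ) (j : ℤ) (s : ℕ) :
    D.cB0 i s ∈ (pbFil p).F ((tabK .rA (kindR (D.ro i)) js j).X.a +
      P8.pos ((s : ℤ) - (tabK .rA (kindR (D.ro i)) js j).X.b)) := by
  refine (pbFil p).mono ?_ (Dat.cB0_mem h2 i hcs s)
  rcases kind_cases hr with ⟨i', -, -, ho, hk⟩ | ⟨i', -, -, ho, hk⟩ | ⟨i', -, -, ho, hk⟩ |
    ⟨i', -, -, ho, hk⟩ | ⟨i', -, -, ho, hk⟩ | ⟨i', -, -, ho, hk⟩ <;>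
  · rw [ho, hk]
    simp only [tabK, Kind.row3, kG, kE1, kE2, kH1, kH2, kW, P8.pos]
    split_ifs <;> simp only [] <;> omega

/-- **field `B0`, mode `rA`** : no `z0` rows -/
theorem z0_rA (ρ : Crest.Agent.R006.D.Row) (js : List ℤ) (j : ℤ) : (tabK .rA (kindR ρ) js j).z0 = false := by
  obtain ⟨z, o⟩ := ρ
  rcases z with i | i <;> simp only [kindR] <;> split_ifs <;>
    simp only [tabK, Kind.row3, kG, kE1, kE2, kH1, kH2, kW] <;> split_ifs <;> rfl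

/-- **field `C`, mode `rA`** -/
theorem C_rA (L : LocalInput p NL D.M D.e) (h2 : p ≠ 2) (i : ι) (hr : RowT (D.ro i))
    (hin : InR p (D.ro i).1) (hcs : (D.cs i : ℕ) = cl p (D.ro i).1)
    (hreg : p < 2 * (D.cs i : ℕ)) (js : List ℤ) (j : ℤ) (n : ℕ) :
    D.cC0 i n ∈ (pbFil p).F ((tabK .rA (kindR (D.ro i)) js j).Q.a +
      P8.pos ((n : ℤ) - (tabK .rA (kindR (D.ro i)) js j).Q.b)) := by
  have h0 : ∀ {i' : ℤ}, (D.ro i).1 = .Z i' → i' < 0 → D.cC0 i n = 0 := by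
    intro i' h1 h3
    refine Dat.cC0_zero i ?_ n
    have h4 := P4M938.gamOrd.1 (-i').toNat (by omega)
    rw [show (-((-i').toNat : ℤ)) = i' by omega] at h4
    rw [h1]
    exact (pow_dvd_pow _ (by have := hr.le; omega)).trans h4
  have h0' : ∀ {i' : ℤ}, (D.ro i).1 = .H i' → 0 ≤ i' → D.cC0 i n = 0 := by
    intro i' h1 h3
    refine Dat.cC0_zero i ?_ n
    have h4 := P4M938.gamOrd.2 i'.toNat
    rw [show ((i'.toNat : ℤ)) = i' by omega] at h4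
    rw [h1]
    exact (pow_dvd_pow _ (by have := hr.le; omega)).trans h4
  have hC := Dat.cC0_mem (D := D) h2 i hcs (L.gam_regular (D.cs i) _ hin hcs hreg) n
  rcases kind_cases hr with ⟨i', h1, h3, ho, hk⟩ | ⟨i', h1, h3, ho, hk⟩ | ⟨i', h1, h3, ho, hk⟩ |
    ⟨i', h1, h3, ho, hk⟩ | ⟨i', h1, h3, ho, hk⟩ | ⟨i', h1, h3, ho, hk⟩
  · refine (pbFil p).mono ?_ hC
    rw [ho, hk]
    simp only [tabK, Kind.row3, kG, P8.pos]
    split_ifs <;> simp only [] <;> omega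
  · rw [h0 h1 h3]; exact AddSubgroup.zero_mem _
  · rw [h0 h1 h3]; exact AddSubgroup.zero_mem _
  · rw [h0' h1 h3]; exact AddSubgroup.zero_mem _
  · rw [h0' h1 h3]; exact AddSubgroup.zero_mem _
  · refine (pbFil p).mono ?_ hC
    rw [ho, hk]
    simp only [tabK, Kind.row3, kW, P8.pos]
    split_ifs <;> simp only [] <;> omega

end Crest.Agent.R006.P4SideRAx110
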