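import Crest.Agent.R006.P4SideDef_955
import Crest.Agent.R006.P4SideRA_110

/-!
# Row 6, block P4, matrix side (helper110): the mode `rA` on 955's final definitions

* `zer`, `pt_none` (regular classes have no partner), `cA_R0` (`dec ≠ rB`);
* `A_rA`, `B_rA`, `B0_rA`, `C_rA` : the fields of `Tables` for `RS` in the mode `rA`.
-/

set_option autoImplicit false

namespace Crest.Agent.R006.P4SideRSx110

open Polynomial Finset Tollx814 P4Toll961
open Crest.Agent.R006.D Crest.Agent.R006.Bordx929 Crest.Agent.R006.P4Asmx814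
  Crest.Agent.R006.GaugeP555 Crest.Agent.R006.P8 Crest.Agent.R006.P4If Crest.Agent.R006.P4M
  Crest.Agent.R006.P4SideDatx538 Crest.Agent.R006.P4S Crest.Agent.R006.P4SideRAx110
open Crest.Agent.R006.P4M531 (phi BB)
open Crest.Agent.R006.P4B1In657 (delB)

variable {S : Shape} {u c p : ℕ} [hp : Fact p.Prime] {dec : ℕ → Mode} {E : ℤ} {e : Fin p → ℚ[X]}
  (J : Fin c → RI S u c)

/-- the zeros of the gauge -/
theorem zer (h2 : p ≠ 2) : (DS S u c dec J E e).Zer (zS S u p) := by
  intro a m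
  have h := taylor_gaugeF_mem h2 S u ((a : ℕ) : ℤ) m
  rw [Int.cast_natCast] at h
  exact h

/-- the class of the node `h - l` -/
lemma cls_node (hodd : p % 2 = 1) {l : ℕ} (hl : l ≤ (p - 1) / 2) :
    clsS p (.Z ((((p - 1) / 2 : ℕ) : ℤ) - l)) = (p - 1) / 2 - l := by
  refine (P4SideCls110.cls_jS_Z hodd (a := (p - 1) / 2 - l) (j := 0) (by omega) ?_).1
  omega

/-- regular classes have no partner -/
theorem pt_none (H : Inp S u c p dec E e) (x : RI S u c)
    (hd : dec (clsS p (ofRow u c x).1) ≠ .pol) : ptS S u c H.good p x = none := by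
  by_contra h0
  obtain ⟨j, hj⟩ := Option.ne_none_iff_exists'.mp h0
  obtain ⟨l, hl, -, h1, -⟩ := P4GW657.gwPartner_some S u c H.good ((p - 1) / 2) hj
  have hx : (ofRow u c x).1 = .Z ((((p - 1) / 2 : ℕ) : ℤ) - l) := congrArg Prod.fst h1
  have h2 := cls_node H.odd hl
  have h3 : clsS p (ofRow u c x).1 = (p - 1) / 2 - l := by rw [hx, h2]
  have h4 := H.odd
  have h5 := Inp.p_pos p
  refine hd ((H.dok.pol _ ?_).mpr ?_) <;> omega

omit hp in
lemma mode_reg {d : Mode} (h : d = .rA) : d ≠ .pol ∧ d ≠ .rB := by subst h; simp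

/-- the coefficient `cA` before the reduction, `dec ≠ rB` -/
theorem cA_R0 (x : RI S u c) (hd : dec (clsS p (ofRow u c x).1) ≠ .rB) (l : Fin (NN S u E)) :
    (R0S S u c dec J E e).cA x l = (DS S u c dec J E e).cA0 x l := by
  show (DS S u c dec J E e).cA0 x l - ∑ s : Fin (NN S u E), (DS S u c dec J E e).cB0 x s *
    nrS S u c dec J E e (csS S u c p x) s l = _
  have h : ∀ s : Fin (NN S u E), nrS S u c dec J E e (csS S u c p x) s l = 0 := fun s => by
    rw [nrS, if_neg]
    exact hd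
  simp only [h, mul_zero, sum_const_zero, sub_zero]

lemma psG_mem_rA (H : Inp S u c p dec E e) (x : RI S u c)
    (hd : dec (clsS p (ofRow u c x).1) = .rA) :
    (DS S u c dec J E e).ps x ∈ (psFil (pbFil p)).F 1 := by
  have hreg : p < 2 * (csS S u c p x : ℕ) := (H.reg_iff (csS S u c p x)).mp (by
    show dec (clsS p (ofRow u c x).1) ≠ .pol
    rw [hd]; simp)
  have hc := H.cs_eq J x
  have hin := H.inR J x
  show psG dec e (MM E) (csS S u c p x) (ofRow u c x).1 ∈ _
  change ((csS S u c p x : Fin p) : ℕ) = cl p (ofRow u c x).1 at hc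
  change InR p (ofRow u c x).1 at hin
  rcases hz : (ofRow u c x).1 with i | i
  · rw [hz] at hc hin
    exact H.L.psi_regular _ _ hin hc hreg (fun i' h => by cases h)
  · rw [hz] at hc hin
    simp only [psG]
    split_ifs with h0
    · refine H.L.psi_regular _ _ hin hc hreg (fun i' h => ?_)
      cases h; exact h0
    · have h1 : dec ((csS S u c p x : Fin p) : ℕ) = .rA := hd
      rw [h1]
      exact AddSubgroup.zero_mem _

theorem A_rA (H : Inp S u c p dec E e) (x : RI S u c)
    (hd : dec (clsS p (ofRow u c x).1) = .rA) (l : Fin (NN S u E)) :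
    (RS S u c dec J E e H.good).cA x l ∈ (pbFil p).F ((tb S u c p dec x).R.a +
      P8.pos ((((l : ℕ) : ℕ) : ℤ) + zS S u p (csS S u c p x) - (tb S u c p dec x).R.b)) := by
  have h1 : (RS S u c dec J E e H.good).cA x l = (DS S u c dec J E e).cA0 x l := by
    show subP (R0S S u c dec J E e).cA (ptS S u c H.good p) x l = _
    rw [subP_none _ (pt_none H x (mode_reg hd).1), cA_R0 J x (mode_reg hd).2]
  rw [h1]
  have hreg : p < 2 * (csS S u c p x : ℕ) := (H.reg_iff (csS S u c p x)).mp (mode_reg hd).1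
  have h2 := P4SideRAx110.A_rA (D := DS S u c dec J E e) H.L (Inp.le_NLL S u E) H.ne2
    (zer J H.ne2) x (rowT H.e3 H.h3 x) (H.cs_eq J x) hreg (psG_mem_rA J H x hd)
    (jvec (bdS S) u p (clsS p (ofRow u c x).1)) (jS p (ofRow u c x).1) l
  simp only [tb, tabX, hd]
  exact h2

theorem B_rA (H : Inp S u c p dec E e) (x : RI S u c)
    (hd : dec (clsS p (ofRow u c x).1) = .rA) (s : Fin (NN S u E)) :
    (RS S u c dec J E e H.good).cB x s ∈ (pbFil p).F ((tb S u c p dec x).X.a +
      P8.pos ((((s : ℕ) : ℕ) : ℤ) - (tb S u c p dec x).X.b)) := by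
  have h1 : (RS S u c dec J E e H.good).cB x s = (DS S u c dec J E e).cB0 x s := by
    show subP (R0S S u c dec J E e).cB (ptS S u c H.good p) x s = _
    rw [subP_none _ (pt_none H x (mode_reg hd).1)]
    rfl
  rw [h1]
  have h2 := P4SideRAx110.B_rA (D := DS S u c dec J E e) H.ne2 x (rowT H.e3 H.h3 x) (H.cs_eq J x)
    (jvec (bdS S) u p (clsS p (ofRow u c x).1)) (jS p (ofRow u c x).1) s
  simp only [tb, tabX, hd]
  exact h2

theorem B0_rA (x : RI S u c) (hd : dec (clsS p (ofRow u c x).1) = .rA) :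
    (tb S u c p dec x).z0 = false := by
  simp only [tb, tabX, hd]
  exact z0_rA _ _ _

theorem C_rA (H : Inp S u c p dec E e) (x : RI S u c)
    (hd : dec (clsS p (ofRow u c x).1) = .rA) (n : Fin (NN S u E)) :
    (RS S u c dec J E e H.good).cC x n ∈ (pbFil p).F ((tb S u c p dec x).Q.a +
      P8.pos ((((n : ℕ) : ℕ) : ℤ) - (tb S u c p dec x).Q.b)) := by
  have h1 : (RS S u c dec J E e H.good).cC x n = (DS S u c dec J E e).cC0 x n := by
    show subP (R0S S u c dec J E e).cC (ptS S u c H.good p) x n = _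
    rw [subP_none _ (pt_none H x (mode_reg hd).1)]
    rfl
  rw [h1]
  have hreg : p < 2 * (csS S u c p x : ℕ) := (H.reg_iff (csS S u c p x)).mp (mode_reg hd).1
  have h2 := P4SideRAx110.C_rA (D := DS S u c dec J E e) H.L H.ne2 x (rowT H.e3 H.h3 x)
    (H.inR J x) (H.cs_eq J x) hreg
    (jvec (bdS S) u p (clsS p (ofRow u c x).1)) (jS p (ofRow u c x).1) n
  simp only [tb, tabX, hd]
  exact h2

end Crest.Agent.R006.P4SideRSx110

/-! ### the leaves with 955's names -/

namespace Crest.Agent.R006.P4S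

open Polynomial Finset Tollx814 P4Toll961
open Crest.Agent.R006.D Crest.Agent.R006.Bordx929 Crest.Agent.R006.P4Asmx814
  Crest.Agent.R006.GaugeP555 Crest.Agent.R006.P8 Crest.Agent.R006.P4If Crest.Agent.R006.P4M
  Crest.Agent.R006.P4SideDatx538
open Crest.Agent.R006.P4M531 (phi BB)
open Crest.Agent.R006.P4B1In657 (delB)

variable {S : Shape} {u c p : ℕ} [hp : Fact p.Prime] {dec : ℕ → Mode} {E : ℤ} {e : Fin p → ℚ[X]}
  (J : Fin c → RI S u c)

namespace Inp

variable (H : Inp S u c p dec E e)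
include H

theorem A_rA (x : RI S u c) (hx : dec (clsS p (ofRow u c x).1) = .rA) (l : Fin (NN S u E)) :
    (RS S u c dec J E e H.good).cA x l ∈ (pbFil p).F ((tb S u c p dec x).R.a +
      pos (((l : ℕ) : ℤ) + zS S u p (clsS p (ofRow u c x).1) - (tb S u c p dec x).R.b)) :=
  P4SideRSx110.A_rA J H x hx l

theorem B_rA (x : RI S u c) (hx : dec (clsS p (ofRow u c x).1) = .rA) (s : Fin (NN S u E)) :
    (RS S u c dec J E e H.good).cB x s ∈ (pbFil p).F ((tb S u c p dec x).X.a +
      pos (((s : ℕ) : ℤ) - (tb S u c p dec x).X.b)) :=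
  P4SideRSx110.B_rA J H x hx s

theorem C_rA (x : RI S u c) (hx : dec (clsS p (ofRow u c x).1) = .rA) (s : Fin (NN S u E)) :
    (RS S u c dec J E e H.good).cC x s ∈ (pbFil p).F ((tb S u c p dec x).Q.a +
      pos (((s : ℕ) : ℤ) - (tb S u c p dec x).Q.b)) :=
  P4SideRSx110.C_rA J H x hx s

end Inp

end Crest.Agent.R006.P4S
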