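import Crest.Agent.R006.P4MatV_955

/-!
# Row 6, block P4, matrix side, decomposition B1 (helper869, for helper955)

Near coefficients `nrB del c s l` (`del c k` = Taylor coefficients of the function subtracted on
the class `c`): `cA0 i l - ∑_s cB0 i s * nrB (cs i) s l = ∑_g rho^[g] [ε^j] (psi2 y^(g+l))`,
`psi2 = ps - ∑_{k<M} y^k del_k`; valuations.
-/

set_option autoImplicit false

namespace Crest.Agent.R006.P4M

open Polynomial Finset Tollx814 P4Toll961
open Crest.Agent.R006.D Crest.Agent.R006.PsiInf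
open Crest.Agent.R006.P4M531 (pt cst phi linB BB)

namespace Dat

section defs

variable {p : ℕ} {jR jT jQ jU ι : Type*} (D : Dat p jR jT jQ jU ι)

/-- near coefficients, before the gauge -/
noncomputable def nearR (del : Fin p → ℕ → ℚ) (c : Fin p) (s t : ℕ) : ℚ :=
  if t ≤ s then (if s - t < D.M then del c (s - t) else 0) else -momQ D.e c (t - 1 - s)

/-- near coefficients of the decomposition B1 -/
noncomputable def nrB (del : Fin p → ℕ → ℚ) (c : Fin p) (s l : ℕ) : ℚ[X] :=
  if l < D.Nb then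
    ∑ g ∈ range D.G, C ((taylor ((c : ℕ) : ℚ) D.rho).coeff g) * C (D.nearR del c s (g + l))
  else 0

/-- `psi'` minus the function of the class -/
noncomputable def psi2 (del : Fin p → ℕ → ℚ) (i : ι) : BB :=
  D.ps i - ∑ k ∈ range D.M, ys (D.cs i) (D.ro i).1 ^ k * PowerSeries.C (C (del (D.cs i) k))

/-- the own class coefficients in the decomposition B1 -/
noncomputable def cAB (del : Fin p → ℕ → ℚ) (i : ι) (l : ℕ) : ℚ[X] :=
  if l < D.Nb then
    ∑ g ∈ range D.G, C ((taylor ((D.cs i : ℕ) : ℚ) D.rho).coeff g) *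
      PowerSeries.coeff (D.ro i).2 (D.psi2 del i * ys (D.cs i) (D.ro i).1 ^ (g + l))
  else 0

variable {D}

lemma near_sum (del : Fin p → ℕ → ℚ) (c : Fin p) (y : BB) (t : ℕ) (ht : t + D.M ≤ D.N) :
    ∑ s ∈ range D.N, y ^ s * phi (D.nearR del c s t) =
      (∑ k ∈ range D.M, y ^ k * phi (del c k)) * y ^ t -
        ∑ u ∈ range t, y ^ (t - 1 - u) * phi (momQ D.e c u) := by
  have hN : D.N = t + (D.N - t) := by omega
  rw [hN, sum_range_add]
  have h1 : ∑ s ∈ range t, y ^ s * phi (D.nearR del c s t) =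
      -∑ u ∈ range t, y ^ (t - 1 - u) * phi (momQ D.e c u) := by
    rw [← sum_range_reflect, ← sum_neg_distrib]
    refine sum_congr rfl fun u hu => ?_
    rw [mem_range] at hu
    rw [nearR, if_neg (by omega), show t - 1 - (t - 1 - u) = u by omega, map_neg]
    ring
  have h2 : ∑ k ∈ range (D.N - t), y ^ (t + k) * phi (D.nearR del c (t + k) t) =
      (∑ k ∈ range D.M, y ^ k * phi (del c k)) * y ^ t := by
    have h3 : range D.M ⊆ range (D.N - t) := range_subset_range.mpr (by omega)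
    rw [← sum_subset h3, sum_mul]
    · refine sum_congr rfl fun k hk => ?_
      rw [mem_range] at hk
      rw [nearR, if_pos (by omega), show t + k - t = k by omega, if_pos hk, pow_add]
      ring
    · intro k _ hk
      rw [mem_range] at hk
      rw [nearR, if_pos (by omega), show t + k - t = k by omega, if_neg hk, map_zero, mul_zero]
  rw [h1, h2]
  ring

/-- **(1) the cancellation.** -/
theorem cA0_sub_near (del : Fin p → ℕ → ℚ) (hN : D.M + D.G + D.Nb ≤ D.N) (i : ι) (l : ℕ) :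
    D.cA0 i l - ∑ s : Fin D.N, D.cB0 i s * D.nrB del (D.cs i) s l = D.cAB del i l := by
  rw [Fin.sum_univ_eq_sum_range (fun s => D.cB0 i s * D.nrB del (D.cs i) s l) D.N]
  by_cases hl : l < D.Nb
  swap
  · simp only [cA0, nrB, cAB, if_neg hl, mul_zero, sum_const_zero, sub_zero]
  simp only [cA0, nrB, cAB, if_pos hl]
  have h1 : ∑ s ∈ range D.N, D.cB0 i s * ∑ g ∈ range D.G,
        C ((taylor ((D.cs i : ℕ) : ℚ) D.rho).coeff g) * C (D.nearR del (D.cs i) s (g + l)) =
      ∑ g ∈ range D.G, C ((taylor ((D.cs i : ℕ) : ℚ) D.rho).coeff g) *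
        PowerSeries.coeff (D.ro i).2 (∑ s ∈ range D.N, ys (D.cs i) (D.ro i).1 ^ s *
          phi (D.nearR del (D.cs i) s (g + l))) := by
    simp only [mul_sum, map_sum, coeff_mul_phi]
    rw [sum_comm]
    refine sum_congr rfl fun g _ => sum_congr rfl fun s _ => ?_
    rw [cB0]
    ring
  rw [h1, ← sum_sub_distrib]
  refine sum_congr rfl fun g hg => ?_
  rw [mem_range] at hg
  rw [near_sum del (D.cs i) _ (g + l) (by omega), ← mul_sub, ← map_sub]
  congr 2
  rw [br, psi2]
  have e : ∀ k, PowerSeries.C (C (del (D.cs i) k)) = phi (del (D.cs i) k) := fun _ => rfl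
  simp only [e]
  ring

theorem cAB_zero (del : Fin p → ℕ → ℚ) (i : ι) (h : D.psi2 del i = 0) (l : ℕ) :
    D.cAB del i l = 0 := by
  rw [cAB]
  split_ifs
  · rw [h]; simp
  · rfl

/-- value rows at the base node (`y = ε`) : only `l = 0` -/
theorem cAB_node (del : Fin p → ℕ → ℚ) (i : ι) (hj : (D.ro i).2 = 0)
    (hy : (D.ro i).1.val = ((D.cs i : ℕ) : ℚ)) (l : ℕ) :
    D.cAB del i l = if l = 0 ∧ 0 < D.Nb ∧ 0 < D.G then
      C ((taylor ((D.cs i : ℕ) : ℚ) D.rho).coeff 0) * PowerSeries.coeff 0 (D.psi2 del i)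
      else 0 := by
  have hys : ys (D.cs i) (D.ro i).1 = PowerSeries.X := by
    rw [ys, hy, sub_self]; simp
  have hc : ∀ t, PowerSeries.coeff (D.ro i).2 (D.psi2 del i * ys (D.cs i) (D.ro i).1 ^ t) =
      if t = 0 then PowerSeries.coeff 0 (D.psi2 del i) else 0 := by
    intro t
    rw [hj, hys]
    split_ifs with ht
    · subst ht; simp
    · rw [PowerSeries.coeff_mul_X_pow', if_neg (by omega)]
  rw [cAB]
  simp only [hc]
  by_cases hl : l < D.Nb
  · rw [if_pos hl]
    by_cases h : l = 0 ∧ 0 < D.Nb ∧ 0 < D.G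
    · rw [if_pos h]
      obtain ⟨rfl, _, hG⟩ := h
      rw [sum_eq_single 0]
      · simp
      · intro g _ hg
        rw [if_neg (by omega), mul_zero]
      · intro h0
        exact absurd (mem_range.mpr hG) h0
    · rw [if_neg h]
      refine sum_eq_zero fun g hg => ?_
      rw [mem_range] at hg
      rw [if_neg (by omega), mul_zero]
  · rw [if_neg hl, if_neg (by omega)]

end defs

section val

variable {p : ℕ} [hp : Fact p.Prime] {jR jT jQ jU ι : Type*} {D : Dat p jR jT jQ jU ι}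
  {z : ℕ → ℕ} {NL : ℕ}

/-- **(2) valuation of the own class coefficients** -/
theorem cAB_mem (del : Fin p → ℕ → ℚ) (h2 : p ≠ 2) (hz : D.Zer z) (i : ι)
    (hcs : (D.cs i : ℕ) = cl p (D.ro i).1) {w : ℤ}
    (hw : D.psi2 del i ∈ (psFil (pbFil p)).F w) (l : ℕ) :
    D.cAB del i l ∈ (pbFil p).F (w + l + z (D.cs i) - (D.ro i).2) := by
  rw [cAB]
  split_ifs with hl
  swap
  · exact AddSubgroup.zero_mem _
  refine (pbFil p).sum_mem _ _ _ fun g _ => ?_
  have h1 := (psFil (pbFil p)).mul_mem hw (pow_one_mem _ (ys_mem h2 (D.ro i).1 hcs) (g + l))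
  refine mul_mem' _ (hz (D.cs i) g) (h1 (D.ro i).2) ?_
  have h3 := le_max_right (0 : ℤ) ((z (D.cs i) : ℤ) - g)
  push_cast
  linarith

/-- value rows at the base node -/
theorem cAB_node_mem (del : Fin p → ℕ → ℚ) (hz : D.Zer z) (i : ι) (hj : (D.ro i).2 = 0)
    (hy : (D.ro i).1.val = ((D.cs i : ℕ) : ℚ)) {w : ℤ}
    (hw : PowerSeries.coeff 0 (D.psi2 del i) ∈ (pbFil p).F w) (l : ℕ) :
    D.cAB del i l ∈ (pbFil p).F (w + l + z (D.cs i)) := by
  rw [cAB_node del i hj hy]
  split_ifs with h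
  · obtain ⟨rfl, _, _⟩ := h
    refine mul_mem' _ (hz (D.cs i) 0) hw ?_
    have h3 := le_max_right (0 : ℤ) ((z (D.cs i) : ℤ) - (0 : ℕ))
    push_cast at h3 ⊢
    linarith
  · exact AddSubgroup.zero_mem _

omit hp in
theorem cAB_node_pos (del : Fin p → ℕ → ℚ) (i : ι) (hj : (D.ro i).2 = 0)
    (hy : (D.ro i).1.val = ((D.cs i : ℕ) : ℚ)) {l : ℕ} (hl : 0 < l) :
    D.cAB del i l = 0 := by
  rw [cAB_node del i hj hy, if_neg (by omega)]

/-- the near coefficients before the gauge, regular class -/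
theorem nearR_mem (del : Fin p → ℕ → ℚ) (L : LocalInput p NL D.M D.e) (c : Fin p)
    (hreg : p < 2 * (c : ℕ)) (h0 : C (del c 0) ∈ (pbFil p).F 1)
    (hd : ∀ k < D.M, C (del c k) ∈ (pbFil p).F 0) (s t : ℕ) (ht : t ≤ NL + 1) :
    C (D.nearR del c s t) ∈ (pbFil p).F (max 0 ((t : ℤ) - s + 1)) := by
  rw [nearR]
  rcases lt_trichotomy t s with h | h | h
  · rw [if_pos h.le]
    have hm : max 0 ((t : ℤ) - s + 1) = 0 := max_eq_left (by omega)
    rw [hm]
    split_ifs with hk
    · exact hd _ hk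
    · rw [C_0]; exact AddSubgroup.zero_mem _
  · subst h
    rw [if_pos le_rfl, Nat.sub_self]
    have hm : max 0 ((t : ℤ) - t + 1) = 1 := by simp
    rw [hm]
    split_ifs with hk
    · exact h0
    · rw [C_0]; exact AddSubgroup.zero_mem _
  · rw [if_neg (by omega), C_neg]
    refine AddSubgroup.neg_mem _ ((pbFil p).mono ?_ (L.mom_regular c hreg (t - 1 - s) (by omega)))
    exact max_le (by omega) (by omega)

/-- **(3) valuation of the near coefficients, regular class** -/
theorem nrB_mem (del : Fin p → ℕ → ℚ) (L : LocalInput p NL D.M D.e) (hNL : D.G + D.Nb ≤ NL)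
    (hz : D.Zer z) (c : Fin p) (hreg : p < 2 * (c : ℕ)) (h0 : C (del c 0) ∈ (pbFil p).F 1)
    (hd : ∀ k < D.M, C (del c k) ∈ (pbFil p).F 0) (s l : ℕ) :
    D.nrB del c s l ∈ (pbFil p).F (max 0 ((l : ℤ) + z c - s + 1)) := by
  rw [nrB]
  split_ifs with hl
  swap
  · exact AddSubgroup.zero_mem _
  refine (pbFil p).sum_mem _ _ _ fun g hg => ?_
  rw [mem_range] at hg
  refine mul_mem' _ (hz c g) (nearR_mem del L c hreg h0 hd s (g + l) (by omega)) ?_
  have h1 := le_max_right (0 : ℤ) ((z c : ℤ) - g)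
  have h2 := le_max_left (0 : ℤ) ((z c : ℤ) - g)
  have h3 := le_max_left (0 : ℤ) (((g + l : ℕ) : ℤ) - s + 1)
  have h4 := le_max_right (0 : ℤ) (((g + l : ℕ) : ℤ) - s + 1)
  push_cast at h3 h4 ⊢
  exact max_le (by linarith) (by linarith)

end val

end Dat

end Crest.Agent.R006.P4M
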