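import Mathlib
import Crest.Agent.R006.Toll_814

/-!
Row 6, block P4 (helper657): filtrations of power series rings.

`Fil : ZFil A` (helper814) is a `ℤ`-filtration of `A`.
* `hat N Fil : ZFil A⟦X⟧` : `f ∈ F v` iff `coeff j f ∈ F (v - j)` for all `j < N` (jets: `X`, `p` and
  `x - c` have weight `1`);
* `flat Fil : ZFil A⟦X⟧` : all coefficients in `F v`;
* `ev φ y M f = ∑_{k<M} φ (coeff k f) y^k` is multiplicative modulo `F M` on `flat 0` if `y ∈ F 1`.
-/

set_option autoImplicit false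

namespace Crest.Agent.R006.P4F

open Finset Tollx814

section basic

variable {A : Type*} [CommRing A] (Fil : ZFil A)

/-- the jet filtration -/
def hat (N : ℕ) : ZFil (PowerSeries A) where
  F v :=
    { carrier := {f | ∀ j < N, PowerSeries.coeff j f ∈ Fil.F (v - j)}
      add_mem' := by
        intro f g hf hg j hj
        rw [map_add]
        exact add_mem (hf j hj) (hg j hj)
      zero_mem' := by
        intro j _
        rw [map_zero]
        exact zero_mem _
      neg_mem' := by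
        intro f hf j hj
        rw [map_neg]
        exact neg_mem (hf j hj) }
  anti := by
    intro a b hab f hf j hj
    exact Fil.mono (by linarith) (hf j hj)
  mul_mem := by
    intro a b f g hf hg j hj
    rw [PowerSeries.coeff_mul]
    refine Fil.sum_mem _ _ _ fun x hx => ?_
    rw [HasAntidiagonal.mem_antidiagonal] at hx
    have h1 := hf x.1 (by omega)
    have h2 := hg x.2 (by omega)
    refine Fil.mono ?_ (Fil.mul_mem h1 h2)
    have : (j : ℤ) = x.1 + x.2 := by exact_mod_cast hx.symm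
    rw [this]; linarith
  one_mem := by
    intro j _
    rw [PowerSeries.coeff_one]
    split_ifs with h
    · subst h
      exact Fil.mono (by simp) Fil.one_mem
    · exact zero_mem _

/-- all coefficients -/
def flat : ZFil (PowerSeries A) where
  F v :=
    { carrier := {f | ∀ j, PowerSeries.coeff j f ∈ Fil.F v}
      add_mem' := by
        intro f g hf hg j
        rw [map_add]
        exact add_mem (hf j) (hg j)
      zero_mem' := by
        intro j
        rw [map_zero]
        exact zero_mem _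
      neg_mem' := by
        intro f hf j
        rw [map_neg]
        exact neg_mem (hf j) }
  anti := by
    intro a b hab f hf j
    exact Fil.mono hab (hf j)
  mul_mem := by
    intro a b f g hf hg j
    rw [PowerSeries.coeff_mul]
    exact Fil.sum_mem _ _ _ fun x _ => Fil.mul_mem (hf x.1) (hg x.2)
  one_mem := by
    intro j
    rw [PowerSeries.coeff_one]
    split_ifs
    · exact Fil.one_mem
    · exact zero_mem _

lemma mem_hat {N : ℕ} {v : ℤ} {f : PowerSeries A} :
    f ∈ (hat Fil N).F v ↔ ∀ j < N, PowerSeries.coeff j f ∈ Fil.F (v - j) := Iff.rfl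

lemma mem_flat {v : ℤ} {f : PowerSeries A} :
    f ∈ (flat Fil).F v ↔ ∀ j, PowerSeries.coeff j f ∈ Fil.F v := Iff.rfl

lemma flat_le_hat {N : ℕ} {v : ℤ} {f : PowerSeries A} (h : f ∈ (flat Fil).F v) :
    f ∈ (hat Fil N).F v := fun j _ => Fil.mono (by linarith [Int.natCast_nonneg j]) (h j)

lemma natCast_mem (n : ℕ) : (n : A) ∈ Fil.F 0 := by
  induction n with
  | zero => simp
  | succ n ih => rw [Nat.cast_succ]; exact add_mem ih Fil.one_mem

lemma intCast_mem (n : ℤ) : (n : A) ∈ Fil.F 0 := by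
  rcases Int.eq_nat_or_neg n with ⟨m, rfl | rfl⟩
  · simpa using natCast_mem Fil m
  · simpa using natCast_mem Fil m

lemma two_mem : (2 : A) ∈ Fil.F 0 := by exact_mod_cast natCast_mem Fil 2

lemma three_mem : (3 : A) ∈ Fil.F 0 := by exact_mod_cast natCast_mem Fil 3

lemma mul_mem' {a b c : ℤ} {x y : A} (hx : x ∈ Fil.F a) (hy : y ∈ Fil.F b) (h : c ≤ a + b) :
    x * y ∈ Fil.F c := Fil.mono h (Fil.mul_mem hx hy)

lemma mul_mem0 {x y : A} (hx : x ∈ Fil.F 0) (hy : y ∈ Fil.F 0) : x * y ∈ Fil.F 0 :=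
  mul_mem' Fil hx hy (by simp)

lemma pow_mem {a : ℤ} {x : A} (hx : x ∈ Fil.F a) (n : ℕ) : x ^ n ∈ Fil.F (n * a) := by
  induction n with
  | zero => simpa using Fil.one_mem
  | succ n ih =>
    rw [pow_succ]
    exact mul_mem' Fil ih hx (by push_cast; linarith)

lemma pow_mem' {a b : ℤ} {x : A} (hx : x ∈ Fil.F a) (n : ℕ) (h : b ≤ n * a) :
    x ^ n ∈ Fil.F b := Fil.mono h (pow_mem Fil hx n)

lemma pow_mem_zero {x : A} (hx : x ∈ Fil.F 0) (n : ℕ) : x ^ n ∈ Fil.F 0 :=
  pow_mem' Fil hx n (by simp)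

lemma pow_mem_one {x : A} (hx : x ∈ Fil.F 1) (n : ℕ) : x ^ n ∈ Fil.F n :=
  pow_mem' Fil hx n (by simp)

lemma C_mem_flat {v : ℤ} {a : A} (h : a ∈ Fil.F v) : PowerSeries.C a ∈ (flat Fil).F v := by
  intro j
  rw [PowerSeries.coeff_C]
  split_ifs
  · exact h
  · exact zero_mem _

lemma C_mem_hat {N : ℕ} {v : ℤ} {a : A} (h : a ∈ Fil.F v) : PowerSeries.C a ∈ (hat Fil N).F v :=
  flat_le_hat Fil (C_mem_flat Fil h)

lemma X_mem_flat : (PowerSeries.X : PowerSeries A) ∈ (flat Fil).F 0 := by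
  intro j
  rw [PowerSeries.coeff_X]
  split_ifs
  · exact Fil.one_mem
  · exact zero_mem _

lemma X_mem_hat {N : ℕ} : (PowerSeries.X : PowerSeries A) ∈ (hat Fil N).F 1 := by
  intro j _
  rw [PowerSeries.coeff_X]
  split_ifs with h
  · subst h; exact Fil.mono (by simp) Fil.one_mem
  · exact zero_mem _

end basic

section inverse

variable {K : Type*} [Field K] (Fil : ZFil K)

theorem inv_mem_hat {N : ℕ} {a : ℤ} {f : PowerSeries K} (hf : f ∈ (hat Fil N).F a)
    (h0 : (PowerSeries.constantCoeff f)⁻¹ ∈ Fil.F (-a)) : f⁻¹ ∈ (hat Fil N).F (-a) := by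
  intro j
  induction j using Nat.strong_induction_on with
  | _ j ih =>
    intro hj
    rw [PowerSeries.coeff_inv]
    split_ifs with h
    · subst h; simpa using h0
    · have h1 : ∑ x ∈ antidiagonal j, (if x.2 < j then
          PowerSeries.coeff x.1 f * PowerSeries.coeff x.2 f⁻¹ else 0) ∈ Fil.F (-j) := by
        refine Fil.sum_mem _ _ _ fun x hx => ?_
        rw [HasAntidiagonal.mem_antidiagonal] at hx
        split_ifs with h2
        · refine mul_mem' Fil (hf x.1 (by omega)) (ih x.2 h2 (by omega)) ?_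
          have : (j : ℤ) = x.1 + x.2 := by exact_mod_cast hx.symm
          rw [this]; linarith
        · exact zero_mem _
      rw [neg_mul]
      exact neg_mem (mul_mem' Fil h0 h1 (by linarith))

theorem inv_mem_flat {f : PowerSeries K} (hf : f ∈ (flat Fil).F 0)
    (h0 : (PowerSeries.constantCoeff f)⁻¹ ∈ Fil.F 0) : f⁻¹ ∈ (flat Fil).F 0 := by
  intro j
  induction j using Nat.strong_induction_on with
  | _ j ih =>
    rw [PowerSeries.coeff_inv]
    split_ifs with h
    · exact h0
    · have h1 : ∑ x ∈ antidiagonal j, (if x.2 < j then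
          PowerSeries.coeff x.1 f * PowerSeries.coeff x.2 f⁻¹ else 0) ∈ Fil.F 0 := by
        refine Fil.sum_mem _ _ _ fun x hx => ?_
        split_ifs with h2
        · exact mul_mem' Fil (hf x.1) (ih x.2 h2) (by simp)
        · exact zero_mem _
      rw [neg_mul]
      exact neg_mem (mul_mem' Fil h0 h1 (by simp))

end inverse

section ev

variable {A B : Type*} [CommRing A] [CommRing B] (FA : ZFil A) (FB : ZFil B) (φ : A →+* B)

/-- truncated evaluation -/
noncomputable def ev (y : B) (M : ℕ) (f : PowerSeries A) : B :=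
  ∑ k ∈ range M, φ (PowerSeries.coeff k f) * y ^ k

lemma ev_add (y : B) (M : ℕ) (f g : PowerSeries A) : ev φ y M (f + g) = ev φ y M f + ev φ y M g := by
  simp [ev, add_mul, sum_add_distrib]

lemma ev_sub (y : B) (M : ℕ) (f g : PowerSeries A) : ev φ y M (f - g) = ev φ y M f - ev φ y M g := by
  simp [ev, sub_mul, sum_sub_distrib]

lemma ev_neg (y : B) (M : ℕ) (f : PowerSeries A) : ev φ y M (-f) = - ev φ y M f := by
  simp [ev]

lemma ev_zero (y : B) (M : ℕ) : ev φ y M 0 = 0 := by simp [ev]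

lemma ev_C (y : B) {M : ℕ} (hM : 0 < M) (a : A) : ev φ y M (PowerSeries.C a) = φ a := by
  rw [ev, sum_eq_single 0]
  · simp
  · intro k _ hk
    rw [PowerSeries.coeff_C, if_neg hk, map_zero, zero_mul]
  · intro h; exact absurd (mem_range.mpr hM) h

lemma ev_one (y : B) {M : ℕ} (hM : 0 < M) : ev φ y M 1 = 1 := by
  have := ev_C φ y hM 1
  simpa using this

lemma ev_X (y : B) {M : ℕ} (hM : 1 < M) : ev φ y M PowerSeries.X = y := by
  rw [ev, sum_eq_single 1]
  · simp
  · intro k _ hk
    rw [PowerSeries.coeff_X, if_neg hk, map_zero, zero_mul]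
  · intro h; exact absurd (mem_range.mpr hM) h

lemma ev_eq_eval₂ (y : B) (M : ℕ) (f : PowerSeries A) :
    ev φ y M f = (PowerSeries.trunc M f).eval₂ φ y := by
  rw [PowerSeries.eval₂_trunc_eq_sum_range]
  rfl

variable {FA FB φ}

lemma ev_mem (hφ : ∀ v x, x ∈ FA.F v → φ x ∈ FB.F v) {y : B} (hy : y ∈ FB.F 1) (M : ℕ) {v : ℤ}
    {f : PowerSeries A} (hf : f ∈ (flat FA).F v) : ev φ y M f ∈ FB.F v := by
  refine FB.sum_mem _ _ _ fun k _ => ?_
  exact mul_mem' FB (hφ _ _ (hf k)) (pow_mem_one FB hy k) (by linarith [Int.natCast_nonneg k])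

/-- a polynomial whose coefficients below `M` vanish -/
lemma eval₂_mem (hφ : ∀ v x, x ∈ FA.F v → φ x ∈ FB.F v) {y : B} (hy : y ∈ FB.F 1) (M : ℕ)
    (P : Polynomial A) (h0 : ∀ k, P.coeff k ∈ FA.F 0) (hz : ∀ k < M, P.coeff k = 0) :
    P.eval₂ φ y ∈ FB.F M := by
  rw [Polynomial.eval₂_eq_sum_range]
  refine FB.sum_mem _ _ _ fun k _ => ?_
  rcases lt_or_ge k M with h | h
  · rw [hz k h, map_zero, zero_mul]; exact zero_mem _
  · exact mul_mem' FB (hφ _ _ (h0 k)) (pow_mem_one FB hy k) (by simpa using h)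

/-- **`ev` is multiplicative modulo `F M`.** -/
theorem ev_mul (hφ : ∀ v x, x ∈ FA.F v → φ x ∈ FB.F v) {y : B} (hy : y ∈ FB.F 1) (M : ℕ)
    {f g : PowerSeries A} (hf : f ∈ (flat FA).F 0) (hg : g ∈ (flat FA).F 0) :
    ev φ y M (f * g) - ev φ y M f * ev φ y M g ∈ FB.F M := by
  have h1 : ev φ y M (f * g) - ev φ y M f * ev φ y M g =
      (PowerSeries.trunc M (f * g) - PowerSeries.trunc M f * PowerSeries.trunc M g).eval₂ φ y := by
    rw [Polynomial.eval₂_sub, Polynomial.eval₂_mul, ev_eq_eval₂, ev_eq_eval₂, ev_eq_eval₂]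
  rw [h1]
  have hfg : f * g ∈ (flat FA).F 0 := (flat FA).mono (by simp) ((flat FA).mul_mem hf hg)
  refine eval₂_mem hφ hy M _ ?_ ?_
  · intro k
    rw [Polynomial.coeff_sub]
    refine sub_mem ?_ ?_
    · rw [PowerSeries.coeff_trunc]
      split_ifs
      · exact hfg k
      · exact zero_mem _
    · rw [Polynomial.coeff_mul]
      refine FA.sum_mem _ _ _ fun x _ => ?_
      refine mul_mem' FA (a := 0) (b := 0) ?_ ?_ (by simp)
      · rw [PowerSeries.coeff_trunc]
        split_ifs
        · exact hf _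
        · exact zero_mem _
      · rw [PowerSeries.coeff_trunc]
        split_ifs
        · exact hg _
        · exact zero_mem _
  · intro k hk
    rw [Polynomial.coeff_sub, PowerSeries.coeff_trunc, if_pos hk, Polynomial.coeff_mul,
      PowerSeries.coeff_mul, sub_eq_zero]
    refine sum_congr rfl fun x hx => ?_
    rw [HasAntidiagonal.mem_antidiagonal] at hx
    rw [PowerSeries.coeff_trunc, PowerSeries.coeff_trunc, if_pos (by omega), if_pos (by omega)]

/-- **transport of one step of a linear recursion through `ev`.** -/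
theorem ev_step (hφ : ∀ v x, x ∈ FA.F v → φ x ∈ FB.F v) {y : B} (hy : y ∈ FB.F 1) (M : ℕ)
    {a b e f f' : PowerSeries A} (ha : a ∈ (flat FA).F 0) (hf' : f' ∈ (flat FA).F 0)
    (h : a * f' + b * f = e)
    {a₁ b₁ e₁ g g' w : B} (h₁ : a₁ * g' + b₁ * g = e₁) (hw : w * a₁ = 1) (hw0 : w ∈ FB.F 0)
    (ha₁ : a₁ - ev φ y M a ∈ FB.F M) (he₁ : e₁ - ev φ y M e ∈ FB.F M)
    (hbg : b₁ * g - ev φ y M (b * f) ∈ FB.F M) : g' - ev φ y M f' ∈ FB.F M := by
  have h2 := ev_mul hφ hy M ha hf'
  have h3 : ev φ y M f' ∈ FB.F 0 := ev_mem hφ hy M hf'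
  have h4 : (a₁ - ev φ y M a) * ev φ y M f' ∈ FB.F M := mul_mem' FB ha₁ h3 (by simp)
  have h5 : ev φ y M e = ev φ y M (a * f') + ev φ y M (b * f) := by rw [← h, ev_add]
  have h6 : a₁ * (g' - ev φ y M f') ∈ FB.F M := by
    have : a₁ * (g' - ev φ y M f') = (e₁ - ev φ y M e) - (b₁ * g - ev φ y M (b * f)) +
        (ev φ y M (a * f') - ev φ y M a * ev φ y M f') - (a₁ - ev φ y M a) * ev φ y M f' := by
      rw [h5]; linear_combination h₁
    rw [this]
    exact sub_mem (add_mem (sub_mem he₁ hbg) h2) h4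
  have h7 : g' - ev φ y M f' = w * (a₁ * (g' - ev φ y M f')) := by
    rw [← mul_assoc, hw, one_mul]
  rw [h7]
  exact mul_mem' FB hw0 h6 (by simp)

end ev

end Crest.Agent.R006.P4F
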