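import Mathlib
import Crest.Agent.R006.P4Filt_657
import Crest.Agent.R006.NVChain_664

/-!
Row 6, block P4 (helper657): decomposition B1 for regular classes, the started solution.

* `St s f` : one step of the recursion of `ψ` from the position `s` to `s + 1`;
* `Sch s0 l` : the germ at `s0 + l` of the solution started by `0` at `s0 - 1`;
  `PsiH0_eq : PsiH0 (l+1) = Sch (1/2) l` (star germs);
* `Sch_flat` : integrality; `Sch_ev` : `Sch (s0+δ) l = ∑_{k<M} [coeff k (Sch s0 l)] (δ+ε)^k mod F M`;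
The comparison with `ψ` is in `P4Star_657`.
-/

set_option autoImplicit false

namespace Crest.Agent.R006.P4B1

open Finset Tollx814 P4F

variable {K : Type*} [Field K]

/-- the hypotheses on the filtration of the field of coefficients -/
structure PFil (p : ℕ) (Fil : ZFil K) : Prop where
  one : (p : K) ∈ Fil.F 1
  neg : ((p : K))⁻¹ ∈ Fil.F (-1)
  inv : ∀ n : ℤ, ¬ (p : ℤ) ∣ n → ((n : K))⁻¹ ∈ Fil.F 0

/-- `p`-adic unit -/
def Un (Fil : ZFil K) (s : K) : Prop := s ≠ 0 ∧ s ∈ Fil.F 0 ∧ s⁻¹ ∈ Fil.F 0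

section defs

/-- leading coefficient of the step from `s` to `s+1` -/
noncomputable def aa (s : K) : PowerSeries K := NV.pt (s + 1) ^ 3
/-- second coefficient -/
noncomputable def bb (s : K) : PowerSeries K := (2 * NV.pt s + 1) ^ 3
/-- right hand side -/
noncomputable def ee (s : K) : PowerSeries K := -(PowerSeries.C (1 / 2) * (3 * NV.pt s + 2))

/-- one step of the recursion -/
noncomputable def St (s : K) (f : PowerSeries K) : PowerSeries K := (ee s - bb s * f) * (aa s)⁻¹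

/-- germ at `s0 + l` of the solution with value `0` at `s0 - 1` -/
noncomputable def Sch (s0 : K) : ℕ → PowerSeries K
  | 0 => St (s0 - 1) 0
  | l + 1 => St (s0 + l) (Sch s0 l)

lemma aa_ne {s : K} (h : s + 1 ≠ 0) : PowerSeries.constantCoeff (aa s) ≠ 0 := by
  rw [aa, map_pow, NV.constantCoeff_pt]
  exact pow_ne_zero 3 h

lemma St_spec {s : K} (h : s + 1 ≠ 0) (f : PowerSeries K) :
    aa s * St s f + bb s * f = ee s := by
  rw [St]
  linear_combination (ee s - bb s * f) * PowerSeries.mul_inv_cancel (aa s) (aa_ne h)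

lemma St_unique {s : K} (h : s + 1 ≠ 0) {f g : PowerSeries K} (hg : aa s * g + bb s * f = ee s) :
    g = St s f := by
  have h1 := PowerSeries.inv_mul_cancel (aa s) (aa_ne h)
  rw [St]
  linear_combination (aa s)⁻¹ * hg - g * h1

variable [CharZero K]

lemma half_ne (l : ℕ) : ((1 : K) / 2 + l) ≠ 0 := by
  have h : ((2 * l + 1 : ℕ) : K) ≠ 0 := by exact_mod_cast (by omega : 2 * l + 1 ≠ 0)
  intro h1
  apply h
  push_cast
  linear_combination 2 * h1

theorem PsiH0_eq (l : ℕ) : (NV.PsiH0 ((l : ℤ) + 1) : PowerSeries K) = Sch (1 / 2) l := by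
  have key := (NV.step_H0 (K := K) (l : ℤ)).psi
  have e1 : (((l : ℤ) : K) - 1 / 2) = 1 / 2 - 1 + l := by push_cast; ring
  rw [e1] at key
  cases l with
  | zero =>
    have e0 : NV.PsiH0 (K := K) ((0 : ℕ) : ℤ) = 0 := rfl
    rw [e0] at key
    have := St_unique (s := (1 : K) / 2 - 1 + ((0 : ℕ) : K)) (f := 0) (by norm_num) key
    rw [this, Sch]
    simp
  | succ l =>
    have ih := PsiH0_eq l
    have e2 : NV.PsiH0 (K := K) ((l + 1 : ℕ) : ℤ) = Sch (1 / 2) l := by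
      rw [← ih]; push_cast; rfl
    rw [e2] at key
    have e3 : (1 : K) / 2 - 1 + ((l + 1 : ℕ) : K) = 1 / 2 + l := by push_cast; ring
    rw [e3] at key
    have := St_unique (s := (1 : K) / 2 + l) (f := Sch (1 / 2) l) (by
      have := half_ne (K := K) (l + 1)
      push_cast at this
      rwa [add_assoc]) key
    rw [this, Sch]

end defs

section flat

variable {Fil : ZFil K}

lemma pt_flat {s : K} (hs : s ∈ Fil.F 0) : NV.pt s ∈ (flat Fil).F 0 :=
  add_mem (X_mem_flat Fil) (C_mem_flat Fil hs)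

lemma pt_hat {N : ℕ} {s : K} (hs : s ∈ Fil.F 1) : NV.pt s ∈ (hat Fil N).F 1 :=
  add_mem (X_mem_hat Fil) (C_mem_hat Fil hs)

lemma pt_hat0 {N : ℕ} {s : K} (hs : s ∈ Fil.F 0) : NV.pt s ∈ (hat Fil N).F 0 :=
  flat_le_hat Fil (pt_flat hs)

lemma aa_flat {s : K} (hs : s ∈ Fil.F 0) : aa s ∈ (flat Fil).F 0 :=
  pow_mem_zero _ (pt_flat (add_mem hs Fil.one_mem)) 3

lemma bb_flat {s : K} (hs : s ∈ Fil.F 0) : bb s ∈ (flat Fil).F 0 :=
  pow_mem_zero _ (add_mem (mul_mem' _ (two_mem _) (pt_flat hs) (by simp)) (flat Fil).one_mem) 3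

lemma ee_flat {s : K} (hs : s ∈ Fil.F 0) (h2 : (1 / 2 : K) ∈ Fil.F 0) :
    ee s ∈ (flat Fil).F 0 :=
  neg_mem (mul_mem' _ (C_mem_flat Fil h2)
    (add_mem (mul_mem' _ (three_mem _) (pt_flat hs) (by simp)) (two_mem _)) (by simp))

lemma aa_inv_flat {s : K} (hs : Un Fil (s + 1)) : (aa s)⁻¹ ∈ (flat Fil).F 0 := by
  refine inv_mem_flat Fil (pow_mem_zero _ (pt_flat hs.2.1) 3) ?_
  rw [aa, map_pow, NV.constantCoeff_pt, ← inv_pow]
  exact pow_mem_zero _ hs.2.2 3

lemma St_flat {s : K} (hs0 : s ∈ Fil.F 0) (h2 : (1 / 2 : K) ∈ Fil.F 0) (hs : Un Fil (s + 1))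
    {f : PowerSeries K} (hf : f ∈ (flat Fil).F 0) : St s f ∈ (flat Fil).F 0 :=
  mul_mem' _ (sub_mem (ee_flat hs0 h2) (mul_mem' _ (bb_flat hs0) hf (by simp))) (aa_inv_flat hs)
    (by simp)

/-- **integrality of the started solution**. -/
theorem Sch_flat {s0 : K} (h2 : (1 / 2 : K) ∈ Fil.F 0) (l : ℕ) (h : ∀ k ≤ l, Un Fil (s0 + k)) :
    Sch s0 l ∈ (flat Fil).F 0 := by
  induction l with
  | zero =>
    have h0 := h 0 le_rfl
    simp only [Nat.cast_zero, add_zero] at h0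
    exact St_flat (sub_mem h0.2.1 Fil.one_mem) h2 (by rwa [sub_add_cancel]) (zero_mem _)
  | succ l ih =>
    have h1 := h (l + 1) le_rfl
    push_cast at h1
    exact St_flat (h l (Nat.le_succ l)).2.1 h2 (by rwa [add_assoc])
      (ih fun k hk => h k (Nat.le_succ_of_le hk))

end flat

section evs

variable {B : Type*} [CommRing B] {FA : ZFil K} {FB : ZFil B} {φ : K →+* B}

lemma ev_C_mul (y : B) (M : ℕ) (a : K) (f : PowerSeries K) :
    ev φ y M (PowerSeries.C a * f) = φ a * ev φ y M f := by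
  simp only [ev, PowerSeries.coeff_C_mul, map_mul, mul_sum, mul_assoc]

lemma ev_pt (y : B) {M : ℕ} (hM : 1 < M) (s : K) : ev φ y M (NV.pt s) = y + φ s := by
  rw [NV.pt, ev_add, ev_X φ y hM, ev_C φ y (by omega)]

lemma ev_two_pt (y : B) {M : ℕ} (hM : 1 < M) (s : K) :
    ev φ y M (2 * NV.pt s + 1) = 2 * (y + φ s) + 1 := by
  have h : (2 : PowerSeries K) = PowerSeries.C 2 := (map_ofNat PowerSeries.C 2).symm
  rw [ev_add, h, ev_C_mul, ev_pt y hM, ev_one φ y (by omega), map_ofNat]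

lemma ev_ee (y : B) {M : ℕ} (hM : 1 < M) (s : K) :
    ev φ y M (ee s) = -(φ (1 / 2) * (3 * (y + φ s) + 2)) := by
  have h : (2 : PowerSeries K) = PowerSeries.C 2 := (map_ofNat PowerSeries.C 2).symm
  have h3 : (3 : PowerSeries K) = PowerSeries.C 3 := (map_ofNat PowerSeries.C 3).symm
  rw [ee, ev_neg, ev_C_mul, ev_add, h3, ev_C_mul, ev_pt y hM, h, ev_C φ y (by omega), map_ofNat,
    map_ofNat]

lemma ev_pow (hφ : ∀ v x, x ∈ FA.F v → φ x ∈ FB.F v) {y : B} (hy : y ∈ FB.F 1) {M : ℕ}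
    (hM : 0 < M) {f : PowerSeries K} (hf : f ∈ (flat FA).F 0) (n : ℕ) :
    ev φ y M (f ^ n) - ev φ y M f ^ n ∈ FB.F M := by
  induction n with
  | zero => rw [pow_zero, pow_zero, ev_one φ y hM, sub_self]; exact zero_mem _
  | succ n ih =>
    have h1 := ev_mul hφ hy M (pow_mem_zero _ hf n) hf
    have h2 : (ev φ y M (f ^ n) - ev φ y M f ^ n) * ev φ y M f ∈ FB.F M :=
      mul_mem' FB ih (ev_mem hφ hy M hf) (by simp)
    have h3 : ev φ y M (f ^ (n + 1)) - ev φ y M f ^ (n + 1) =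
        (ev φ y M (f ^ n * f) - ev φ y M (f ^ n) * ev φ y M f) +
        (ev φ y M (f ^ n) - ev φ y M f ^ n) * ev φ y M f := by
      rw [pow_succ, pow_succ]; ring
    rw [h3]
    exact add_mem h1 h2

lemma ev_aa (hφ : ∀ v x, x ∈ FA.F v → φ x ∈ FB.F v) {y : B} (hy : y ∈ FB.F 1) {M : ℕ}
    (hM : 1 < M) {s : K} (hs : s ∈ FA.F 0) : (y + φ s + 1) ^ 3 - ev φ y M (aa s) ∈ FB.F M := by
  have h := ev_pow hφ hy (by omega : 0 < M) (pt_flat (add_mem hs FA.one_mem)) 3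
  rw [ev_pt y hM, map_add, map_one] at h
  rw [aa]
  have := neg_mem h
  rw [neg_sub] at this
  rwa [← add_assoc] at this

lemma ev_bb (hφ : ∀ v x, x ∈ FA.F v → φ x ∈ FB.F v) {y : B} (hy : y ∈ FB.F 1) {M : ℕ}
    (hM : 1 < M) {s : K} (hs : s ∈ FA.F 0) :
    (2 * (y + φ s) + 1) ^ 3 - ev φ y M (bb s) ∈ FB.F M := by
  have h := ev_pow hφ hy (by omega : 0 < M) (f := 2 * NV.pt s + 1) (add_mem (mul_mem' (flat FA)
    (two_mem (flat FA)) (pt_flat hs) (by simp)) (flat FA).one_mem) 3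
  rw [ev_two_pt y hM] at h
  rw [bb]
  have := neg_mem h
  rwa [neg_sub] at this

/-- **transport of one step of the recursion of `ψ` through `ev`.** -/
theorem ev_St (hφ : ∀ v x, x ∈ FA.F v → φ x ∈ FB.F v) (h2 : (1 / 2 : K) ∈ FA.F 0)
    {y : B} (hy : y ∈ FB.F 1) {M : ℕ} (hM : 1 < M) {s : K} (hs0 : s ∈ FA.F 0)
    (hs : Un FA (s + 1)) {f : PowerSeries K} (hf : f ∈ (flat FA).F 0) {g g' w : B}
    (hg : (y + φ s + 1) ^ 3 * g' + (2 * (y + φ s) + 1) ^ 3 * g = -(φ (1 / 2) * (3 * (y + φ s) + 2)))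
    (hw : w * (y + φ s + 1) ^ 3 = 1) (hw0 : w ∈ FB.F 0)
    (hbg : (2 * (y + φ s) + 1) ^ 3 * (g - ev φ y M f) ∈ FB.F M) :
    g' - ev φ y M (St s f) ∈ FB.F M := by
  refine ev_step hφ hy M (aa_flat hs0) (St_flat hs0 h2 hs hf) (St_spec hs.1 f) hg hw hw0
    (ev_aa hφ hy hM hs0) ?_ ?_
  · rw [ev_ee y hM, sub_self]; exact zero_mem _
  · have h1 := ev_mul hφ hy M (bb_flat hs0) hf
    have h3 := mul_mem' FB (ev_bb hφ hy hM hs0) (ev_mem hφ hy M hf) (by simp : (M : ℤ) ≤ M + 0)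
    have e : (2 * (y + φ s) + 1) ^ 3 * g - ev φ y M (bb s * f) =
        (2 * (y + φ s) + 1) ^ 3 * (g - ev φ y M f) +
        ((2 * (y + φ s) + 1) ^ 3 - ev φ y M (bb s)) * ev φ y M f -
        (ev φ y M (bb s * f) - ev φ y M (bb s) * ev φ y M f) := by ring
    rw [e]
    exact sub_mem (add_mem hbg h3) h1

end evs

section Schev

variable {Fil : ZFil K}

lemma phi_C (N : ℕ) (v : ℤ) (x : K) (hx : x ∈ Fil.F v) :
    (PowerSeries.C : K →+* PowerSeries K) x ∈ (hat Fil N).F v := C_mem_hat Fil hx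

lemma pt_add (s δ : K) : NV.pt δ + PowerSeries.C s = NV.pt (s + δ) := by
  rw [NV.pt, NV.pt, map_add]; ring

/-- a step of the chain, written at the site `y + s`, `y = δ + ε` -/
lemma St_spec' {s δ : K} (h : s + δ + 1 ≠ 0) (f : PowerSeries K) :
    (NV.pt δ + PowerSeries.C s + 1) ^ 3 * St (s + δ) f +
      (2 * (NV.pt δ + PowerSeries.C s) + 1) ^ 3 * f =
      -(PowerSeries.C (1 / 2) * (3 * (NV.pt δ + PowerSeries.C s) + 2)) := by
  have h1 := St_spec h f
  rw [aa, bb, ee] at h1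
  rw [pt_add]
  have e : NV.pt (s + δ) + 1 = NV.pt (s + δ + 1) := by
    rw [NV.pt, NV.pt, map_add (PowerSeries.C) (s + δ) 1, map_one]; ring
  rw [e]
  exact h1

lemma aa_inv_hat {N : ℕ} {s δ : K} (hs : Un Fil (s + δ + 1)) :
    ∃ w ∈ (hat Fil N).F 0, w * (NV.pt δ + PowerSeries.C s + 1) ^ 3 = 1 := by
  refine ⟨(aa (s + δ))⁻¹, flat_le_hat Fil (aa_inv_flat hs), ?_⟩
  have e : NV.pt δ + PowerSeries.C s + 1 = NV.pt (s + δ + 1) := by
    rw [pt_add, NV.pt, NV.pt, map_add (PowerSeries.C) (s + δ) 1, map_one]; ring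
  rw [e]
  exact PowerSeries.inv_mul_cancel (aa (s + δ)) (aa_ne hs.1)

/-- **the started solution at any site of the class is the value of one integral power series**
at the class centre, modulo `F M`. -/
theorem Sch_ev (h2 : (1 / 2 : K) ∈ Fil.F 0) {N M : ℕ} (hM : 1 < M) {s0 δ : K}
    (hδ : δ ∈ Fil.F 1) (l : ℕ) (h : ∀ k ≤ l, Un Fil (s0 + k)) (h' : ∀ k ≤ l, Un Fil (s0 + δ + k)) :
    Sch (s0 + δ) l - ev PowerSeries.C (NV.pt δ) M (Sch s0 l) ∈ (hat Fil N).F M := by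
  induction l with
  | zero =>
    have h0 := h 0 le_rfl
    have h0' := h' 0 le_rfl
    simp only [Nat.cast_zero, add_zero] at h0 h0'
    have e1 : s0 + δ - 1 = (s0 - 1) + δ := by ring
    have e2 : s0 - 1 + 1 = s0 := by ring
    have e3 : s0 - 1 + δ + 1 = s0 + δ := by ring
    rw [Sch, Sch, e1]
    have hu : Un Fil (s0 - 1 + δ + 1) := by rwa [e3]
    obtain ⟨w, hw0, hw⟩ := aa_inv_hat (N := N) hu
    refine ev_St (phi_C N) h2 (pt_hat hδ) hM (sub_mem h0.2.1 Fil.one_mem) (by rwa [e2])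
      (zero_mem _) (St_spec' hu.1 0) hw hw0 ?_
    rw [ev_zero, sub_zero, mul_zero]
    exact zero_mem _
  | succ l ih =>
    have hl := h l (Nat.le_succ l)
    have h1 := h (l + 1) le_rfl
    have h1' := h' (l + 1) le_rfl
    push_cast at h1 h1'
    have ih' := ih (fun k hk => h k (Nat.le_succ_of_le hk)) (fun k hk => h' k (Nat.le_succ_of_le hk))
    have e1 : s0 + δ + (l : K) = (s0 + l) + δ := by ring
    rw [Sch, Sch, e1]
    have hu : Un Fil (s0 + l + δ + 1) := by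
      have : s0 + l + δ + 1 = s0 + δ + (l + 1) := by ring
      rwa [this]
    obtain ⟨w, hw0, hw⟩ := aa_inv_hat (N := N) hu
    refine ev_St (phi_C N) h2 (pt_hat hδ) hM hl.2.1 (by rwa [add_assoc])
      (Sch_flat h2 l fun k hk => h k (Nat.le_succ_of_le hk)) (St_spec' hu.1 _) hw hw0 ?_
    refine mul_mem' _ (pow_mem_zero _ ?_ 3) ih' (by simp)
    refine add_mem (mul_mem' (hat Fil N) (two_mem (hat Fil N)) ?_ (by simp : (0 : ℤ) ≤ 0 + 0))
      (hat Fil N).one_mem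
    rw [pt_add]
    exact pt_hat0 (add_mem hl.2.1 (Fil.mono (by norm_num) hδ))

end Schev

end Crest.Agent.R006.P4B1
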