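import Mathlib
import Crest.Agent.R006.P4B1_657

/-!
Row 6, block P4 (helper657): comparison of `ψ` with the started solution `Sch`.

* `sub_Sch` : `ψ - S ∈ F (3 + a)` if `ψ ∈ F a` at the site before the first one (jets: `hat N`);
* `star_flat` : the star germs have integral coefficients;
* `pval_int` : `ψ(n)` integral for `0 ≤ n < p/2`;
* `psi_star` : `ψ(n) = ∑_{j<H} (p/2)^j [ε^j] ψ_*(l + 1/2 + ε)  mod p^H`, `n = (p+1)/2 + l < p`,
  `H ≤ 3`.
-/

set_option autoImplicit false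
set_option linter.unusedSectionVars false

namespace Crest.Agent.R006.P4B1

open Finset Tollx814 P4F

variable {K : Type*} [Field K]

section psi

variable {Fil : ZFil K}

lemma two_pt_add_one (s : K) : 2 * NV.pt s + 1 = 2 * PowerSeries.X + PowerSeries.C (2 * s + 1) := by
  rw [NV.pt, map_add PowerSeries.C, map_mul, map_one, map_ofNat]; ring

lemma bb_hat {N : ℕ} {s : K} (hs : 2 * s + 1 ∈ Fil.F 1) : bb s ∈ (hat Fil N).F 3 := by
  rw [bb, two_pt_add_one]
  refine pow_mem' (hat Fil N) (a := 1) ?_ 3 (by norm_num)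
  exact add_mem (mul_mem' (hat Fil N) (two_mem (hat Fil N)) (X_mem_hat Fil) (by simp))
    (C_mem_hat Fil hs)

/-- **`ψ - S ∈ F (3 + a)`** if `ψ ∈ F a` at the site before the first one. -/
theorem sub_Sch {N : ℕ} {s0 : K} {a : ℤ} (P : ℕ → PowerSeries K) (Pm : PowerSeries K)
    (hm : aa (s0 - 1) * P 0 + bb (s0 - 1) * Pm = ee (s0 - 1))
    (hP : ∀ k : ℕ, aa (s0 + k) * P (k + 1) + bb (s0 + k) * P k = ee (s0 + k))
    (ha : Pm ∈ (hat Fil N).F a) (hs : 2 * s0 - 1 ∈ Fil.F 1) (l : ℕ)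
    (h : ∀ k ≤ l, Un Fil (s0 + k)) : P l - Sch s0 l ∈ (hat Fil N).F (3 + a) := by
  induction l with
  | zero =>
    have h0 := h 0 le_rfl
    simp only [Nat.cast_zero, add_zero] at h0
    have hu : Un Fil (s0 - 1 + 1) := by rwa [sub_add_cancel]
    have h1 := PowerSeries.inv_mul_cancel (aa (s0 - 1)) (aa_ne hu.1)
    have h2 := St_spec hu.1 (0 : PowerSeries K)
    have e : P 0 - Sch s0 0 = -((aa (s0 - 1))⁻¹ * (bb (s0 - 1) * Pm)) := by
      rw [Sch]
      linear_combination (aa (s0 - 1))⁻¹ * hm - (aa (s0 - 1))⁻¹ * h2 - (P 0 - St (s0 - 1) 0) * h1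
    rw [e]
    refine neg_mem (mul_mem' _ (flat_le_hat Fil (aa_inv_flat hu))
      ((hat Fil N).mul_mem (bb_hat ?_) ha) (by simp))
    have : 2 * (s0 - 1) + 1 = 2 * s0 - 1 := by ring
    rwa [this]
  | succ l ih =>
    have hl := h l (Nat.le_succ l)
    have h1' := h (l + 1) le_rfl
    push_cast at h1'
    have hu : Un Fil (s0 + l + 1) := by rwa [add_assoc]
    have h1 := PowerSeries.inv_mul_cancel (aa (s0 + l)) (aa_ne hu.1)
    have h2 := St_spec hu.1 (Sch s0 l)
    have e : P (l + 1) - Sch s0 (l + 1) = -((aa (s0 + l))⁻¹ * (bb (s0 + l) * (P l - Sch s0 l))) := by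
      rw [Sch]
      linear_combination (aa (s0 + l))⁻¹ * hP l - (aa (s0 + l))⁻¹ * h2 -
        (P (l + 1) - St (s0 + l) (Sch s0 l)) * h1
    rw [e]
    refine neg_mem (mul_mem' _ (flat_le_hat Fil (aa_inv_flat hu))
      ((hat Fil N).mul_mem (flat_le_hat Fil (bb_flat hl.2.1))
        (ih fun k hk => h k (Nat.le_succ_of_le hk))) (by simp))

lemma ev_trunc {f : PowerSeries K} (hf : f ∈ (flat Fil).F 0) {y : K} (hy : y ∈ Fil.F 1) {H M : ℕ}
    (hHM : H ≤ M) : ev (RingHom.id K) y M f - ev (RingHom.id K) y H f ∈ Fil.F H := by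
  have h : ev (RingHom.id K) y M f - ev (RingHom.id K) y H f =
      ∑ k ∈ Ico H M, RingHom.id K (PowerSeries.coeff k f) * y ^ k := by
    rw [ev, ev, ← sum_range_add_sum_Ico _ hHM, add_sub_cancel_left]
  rw [h]
  refine Fil.sum_mem _ _ _ fun k hk => ?_
  rw [mem_Ico] at hk
  exact mul_mem' Fil (hf k) (pow_mem_one Fil hy k) (by
    have : (H : ℤ) ≤ k := by exact_mod_cast hk.1
    linarith)

/-- the value at `n` -/
noncomputable def pval (c : K) (n : ℤ) : K := PowerSeries.constantCoeff (NV.PsiZ c n)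

lemma pval_rec [CharZero K] (c : K) (i : ℤ) :
    ((i : K) + 1) ^ 3 * pval c (i + 1) + (2 * i + 1) ^ 3 * pval c i = -(1 / 2 * (3 * i + 2)) := by
  have h := congrArg PowerSeries.constantCoeff (NV.step_Z c i).psi
  simp only [map_add, map_mul, map_pow, map_neg, NV.constantCoeff_pt, map_one,
    PowerSeries.constantCoeff_C, map_ofNat] at h
  exact h

end psi

section star

variable [CharZero K] {Fil : ZFil K} {p h : ℕ}

/-- integers prime to `p` are units -/
lemma PFil.un (hF : PFil p Fil) {n : ℤ} (hn : ¬ (p : ℤ) ∣ n) : Un Fil (n : K) := by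
  refine ⟨?_, intCast_mem Fil n, hF.inv n hn⟩
  have : n ≠ 0 := fun h0 => hn (by rw [h0]; exact dvd_zero _)
  exact_mod_cast this

lemma PFil.half (hF : PFil p Fil) (hp : p = 2 * h + 1) (hh : 0 < h) : (1 / 2 : K) ∈ Fil.F 0 := by
  have h1 := hF.inv 2 (by
    intro h2
    have := Int.le_of_dvd (by norm_num) h2
    omega)
  rw [one_div]
  exact_mod_cast h1

lemma PFil.un_half (hF : PFil p Fil) (hp : p = 2 * h + 1) (hh : 0 < h) {l : ℕ} (hl : l < h) :
    Un Fil ((1 : K) / 2 + l) := by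
  refine ⟨half_ne l, add_mem (hF.half hp hh) (natCast_mem Fil l), ?_⟩
  have h1 := hF.inv (2 * l + 1) (by
    intro h2
    have := Int.le_of_dvd (by omega) h2
    omega)
  have h3 : ((1 : K) / 2 + l)⁻¹ = 2 * (((2 * (l : ℤ) + 1 : ℤ) : K))⁻¹ := by
    have h4 : ((2 * (l : ℤ) + 1 : ℤ) : K) ≠ 0 := by
      have : (2 * (l : ℤ) + 1) ≠ 0 := by omega
      exact_mod_cast this
    refine inv_eq_of_mul_eq_one_right ?_
    have h5 := mul_inv_cancel₀ h4
    have h6 : ((2 * (l : ℤ) + 1 : ℤ) : K) = 2 * (1 / 2 + l) := by push_cast; ring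
    rw [h6] at h5 ⊢
    linear_combination h5
  rw [h3]
  exact mul_mem' Fil (two_mem Fil) h1 (by simp)

lemma PFil.p_half (hF : PFil p Fil) (hp : p = 2 * h + 1) (hh : 0 < h) : (p : K) / 2 ∈ Fil.F 1 := by
  rw [div_eq_mul_one_div]
  exact mul_mem' Fil hF.one (hF.half hp hh) (by simp)

/-- **star germs are integral**. -/
theorem star_flat (hF : PFil p Fil) (hp : p = 2 * h + 1) (hh : 0 < h) {l : ℕ} (hl : l < h) :
    NV.PsiH0 ((l : ℤ) + 1) ∈ (flat Fil).F 0 := by
  rw [PsiH0_eq]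
  exact Sch_flat (hF.half hp hh) l fun k hk => hF.un_half hp hh (by omega)

/-- `ψ(n)` is integral for `0 ≤ n < p/2`. -/
theorem pval_int (hF : PFil p Fil) (hp : p = 2 * h + 1) (hh : 0 < h) {c : K} (hc : c ∈ Fil.F 0)
    {n : ℕ} (hn : n ≤ h) : pval c n ∈ Fil.F 0 := by
  induction n with
  | zero =>
    rw [pval, Nat.cast_zero, NV.PsiZ_zero, PowerSeries.constantCoeff_C]
    exact hc
  | succ n ih =>
    have h1 := pval_rec c (n : ℤ)
    have hu : Un Fil (((n + 1 : ℕ) : ℤ) : K) := hF.un (by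
      intro h2
      have := Int.le_of_dvd (by omega) h2
      omega)
    push_cast at hu h1 ⊢
    have h0 : ((n : K) + 1) ≠ 0 := hu.1
    have e : pval c ((n : ℤ) + 1) = (((n : K) + 1)⁻¹) ^ 3 *
        (-(1 / 2 * (3 * n + 2)) - (2 * n + 1) ^ 3 * pval c n) := by
      field_simp
      linear_combination 2 * h1
    rw [e]
    have hn0 := natCast_mem Fil (A := K) n
    have h3 : (3 * (n : K) + 2) ∈ Fil.F 0 := by exact_mod_cast natCast_mem Fil (3 * n + 2)
    have h4 : (2 * (n : K) + 1) ∈ Fil.F 0 := by exact_mod_cast natCast_mem Fil (2 * n + 1)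
    exact mul_mem0 Fil (pow_mem_zero Fil hu.2.2 3) (sub_mem
      (neg_mem (mul_mem0 Fil (hF.half hp hh) h3))
      (mul_mem0 Fil (pow_mem_zero Fil h4 3) (ih (by omega))))

/-- **the congruence** `ψ((p+1)/2+l) = ∑_{j<3} (p/2)^j [ε^j] ψ_*(l+1/2+ε) mod p^3`. -/
theorem psi_star3 (hF : PFil p Fil) (hp : p = 2 * h + 1) (hh : 0 < h) {c : K} (hc : c ∈ Fil.F 0)
    {l : ℕ} (hl : l < h) :
    pval c (h + 1 + l : ℤ) - ev (RingHom.id K) ((p : K) / 2) 3 (Sch (1 / 2) l) ∈ Fil.F 3 := by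
  have hy := hF.p_half hp hh
  have h2 := hF.half hp hh
  have hp' : (p : K) = 2 * h + 1 := by rw [hp]; push_cast; ring
  have hid : ∀ v x, x ∈ Fil.F v → (RingHom.id K) x ∈ Fil.F v := fun _ _ hx => hx
  induction l with
  | zero =>
    have h1 := pval_rec c (h : ℤ)
    have hu := hF.un_half hp hh (l := 0) hh
    have hn : Un Fil (((h + 1 : ℕ) : ℤ) : K) := hF.un (by
      intro h2
      have := Int.le_of_dvd (by omega) h2
      omega)
    push_cast at hn h1
    rw [Nat.cast_zero, add_zero] at hu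
    have e0 : (p : K) / 2 + (RingHom.id K) (1 / 2 - 1) + 1 = h + 1 := by
      rw [RingHom.id_apply, hp']; ring
    have e1 : (p : K) / 2 + (RingHom.id K) (1 / 2 - 1) = h := by
      rw [RingHom.id_apply, hp']; ring
    rw [Sch]
    refine ev_St hid h2 hy (M := 3) (by norm_num) (s := 1 / 2 - 1) (sub_mem h2 Fil.one_mem)
      (by rwa [sub_add_cancel]) (zero_mem _) (g := pval c h) (w := (((h : K) + 1)⁻¹) ^ 3) ?_ ?_
      (pow_mem_zero Fil hn.2.2 3) ?_
    · rw [e0, e1]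
      simpa using h1
    · rw [e0, ← mul_pow, inv_mul_cancel₀ hn.1, one_pow]
    · rw [ev_zero, sub_zero, e1, ← hp']
      exact mul_mem' Fil (pow_mem_one Fil hF.one 3) (pval_int hF hp hh hc le_rfl) (by simp)
  | succ l ih =>
    have h1 := pval_rec c (h + 1 + l : ℤ)
    have hu := hF.un_half hp hh (l := l) (by omega)
    have hu1 := hF.un_half hp hh hl
    have hn : Un Fil (((h + 1 + l + 1 : ℕ) : ℤ) : K) := hF.un (by
      intro h2
      have := Int.le_of_dvd (by omega) h2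
      omega)
    push_cast at hn h1 hu1 ⊢
    have e0 : (p : K) / 2 + (RingHom.id K) (1 / 2 + l) + 1 = h + 1 + l + 1 := by
      rw [RingHom.id_apply, hp']; ring
    have e1 : (p : K) / 2 + (RingHom.id K) (1 / 2 + l) = h + 1 + l := by
      rw [RingHom.id_apply, hp']; ring
    have e2 : (h : ℤ) + 1 + (l + 1) = h + 1 + l + 1 := by ring
    rw [Sch, e2]
    refine ev_St hid h2 hy (M := 3) (by norm_num) (s := 1 / 2 + l) hu.2.1
      (by rwa [add_assoc]) (Sch_flat h2 l fun k hk => hF.un_half hp hh (by omega))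
      (g := pval c (h + 1 + l : ℤ)) (w := (((h : K) + 1 + l + 1)⁻¹) ^ 3) ?_ ?_
      (pow_mem_zero Fil hn.2.2 3) ?_
    · rw [e0, e1]
      simpa using h1
    · rw [e0, ← mul_pow, inv_mul_cancel₀ hn.1, one_pow]
    · refine mul_mem' Fil (pow_mem_zero Fil ?_ 3) (ih (by omega)) (by simp)
      rw [e1]
      exact_mod_cast natCast_mem Fil (2 * (h + 1 + l) + 1)

/-- the same with `H ≤ 3` jets -/
theorem psi_star (hF : PFil p Fil) (hp : p = 2 * h + 1) (hh : 0 < h) {c : K} (hc : c ∈ Fil.F 0)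
    {l : ℕ} (hl : l < h) {H : ℕ} (hH : H ≤ 3) :
    pval c (h + 1 + l : ℤ) - ev (RingHom.id K) ((p : K) / 2) H (NV.PsiH0 ((l : ℤ) + 1)) ∈
      Fil.F H := by
  have h1 := psi_star3 hF hp hh hc hl
  have h3 := ev_trunc (star_flat (K := K) hF hp hh hl) (hF.p_half hp hh) hH
  rw [PsiH0_eq] at h3 ⊢
  have h4 := add_mem (Fil.mono (a := (H : ℤ)) (b := 3) (by exact_mod_cast hH) h1) h3
  rwa [sub_add_sub_cancel] at h4

end star

end Crest.Agent.R006.P4B1
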