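import Crest.Agent.R006.P4MatV_955
import Crest.Agent.R006.P4Star_657
import Crest.Agent.R006.P4_GW_657

/-!
# Row 6, block P4 (helper657): local input of the decomposition B1 (regular classes with stars)

`c = h + 1 + l`, `p = 2h+1`, `l < h`; `b_k` = coefficients of the started solution at `c`
(`bB p c k`), `χ_k = ∑_{c' ≠ c} wc_{c',k,0}` (`chiB`), `δ_k = b_k - χ_k` (`delB`),
`psi2 z = psi' z - ∑_{k<M} y^k δ_k = Ψ(z) - ∑_{k<M} y^k b_k`.

* `bB_mem`, `chiB_mem`, `delB_mem` : in `F 0`; `delB_zero_mem` : `δ_0 ∈ F 1`;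
* `psi2_node` : `[ε^0] psi2 (Z c) ∈ F 3`;
* `psi2_star` : `psi2 (H l) ∈ F M` (the star of the class);
* `psi2_mem` : `psi2 z ∈ F 1` for all sites of the class.
-/

set_option autoImplicit false

namespace Crest.Agent.R006.P4B1In657

open Polynomial Finset Tollx814 P4Toll961 P4M P4B1 P4GW657
open Crest.Agent.R006.D
open Crest.Agent.R006.P4M531 (phi BB)

/-! ### definitions -/

/-- coefficients at `c` of the solution started by `0` at `(p-1)/2` -/
noncomputable def bB (p c k : ℕ) : ℚ :=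
  PowerSeries.coeff k (Sch ((((p + 1) / 2 : ℕ)) : ℚ) (c - (p + 1) / 2))

/-- sum of the far coefficients -/
noncomputable def chiB {p : ℕ} (e : Fin p → ℚ[X]) (M : ℕ) (c : Fin p) (k : ℕ) : ℚ :=
  ∑ c' ∈ univ.erase c, wcQ e M c c' k 0

/-- the coefficients `δ_k` -/
noncomputable def delB {p : ℕ} (e : Fin p → ℚ[X]) (M : ℕ) (c : Fin p) (k : ℕ) : ℚ :=
  bB p c k - chiB e M c k

/-- `psi'` minus the analytic part -/
noncomputable def psi2 {p : ℕ} (e : Fin p → ℚ[X]) (M : ℕ) (c : Fin p) (z : Site) :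
    PowerSeries ℚ[X] :=
  psi' e M c z - ∑ k ∈ range M, ys c z ^ k * PowerSeries.C (C (delB e M c k))

lemma psi'_eq {p : ℕ} (e : Fin p → ℚ[X]) (M : ℕ) (c : Fin p) (z : Site) :
    psi' e M c z = PsiX z - ∑ k ∈ range M, ys c z ^ k * PowerSeries.C (C (chiB e M c k)) := by
  rw [psi', sum_comm]
  congr 1
  refine sum_congr rfl fun k _ => ?_
  rw [← mul_sum, chiB, map_sum, map_sum]

lemma psi2_eq {p : ℕ} (e : Fin p → ℚ[X]) (M : ℕ) (c : Fin p) (z : Site) :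
    psi2 e M c z = PsiX z - ∑ k ∈ range M, ys c z ^ k * PowerSeries.C (C (bB p c k)) := by
  rw [psi2, psi'_eq, sub_sub, ← sum_add_distrib]
  congr 1
  refine sum_congr rfl fun k _ => ?_
  rw [← mul_add, ← map_add, ← C_add, delB]
  congr 3
  ring

/-! ### integrality -/

variable {p : ℕ} [hp : Fact p.Prime]

lemma pfil : PFil p (qFil p) := ⟨p_mem, pinv_mem, fun _ hn => P4GW657.inv_mem hn⟩

/-- `p = 2h+1` and the position of a regular class -/
lemma split (h2 : p ≠ 2) : ∃ h : ℕ, p = 2 * h + 1 ∧ 0 < h ∧ (p + 1) / 2 = h + 1 := by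
  have hodd : p % 2 = 1 := hp.out.eq_two_or_odd.resolve_left h2
  have := hp.out.two_le
  exact ⟨p / 2, by omega, by omega, by omega⟩

lemma un_nat {h : ℕ} (hh : p = 2 * h + 1) {k l : ℕ} (hk : k ≤ l) (hl : l < h) :
    Un (qFil p) (((h + 1 : ℕ) : ℚ) + k) := by
  have h1 := (pfil (p := p)).un (n := ((h + 1 + k : ℕ) : ℤ)) (by
    intro hd
    have := Int.le_of_dvd (by omega) hd
    omega)
  push_cast at h1 ⊢
  exact h1

lemma Sch_flat' {h : ℕ} (hh : p = 2 * h + 1) (h0 : 0 < h) {l : ℕ} (hl : l < h) :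
    Sch (((h + 1 : ℕ)) : ℚ) l ∈ (P4F.flat (qFil p)).F 0 :=
  Sch_flat ((pfil (p := p)).half hh h0) l fun _ hk => un_nat hh hk hl

lemma bB_mem (h2 : p ≠ 2) {c : ℕ} (hc : p < 2 * c) (hcp : c < p) (k : ℕ) :
    C (bB p c k) ∈ (pbFil p).F 0 := by
  obtain ⟨h, hh, h0, h1⟩ := split (p := p) h2
  rw [bB, h1]
  exact Sch_flat' hh h0 (l := c - (h + 1)) (by omega) k

section input

variable {N M : ℕ} {e : Fin p → ℚ[X]}

lemma mom_mem0 (h2 : p ≠ 2) (L : LocalInput p N M e) (c : Fin p) {t : ℕ} (ht : t ≤ N) :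
    momQ e c t ∈ (qFil p).F 0 := by
  have hodd : p % 2 = 1 := hp.out.eq_two_or_odd.resolve_left h2
  rcases Nat.lt_or_ge (2 * (c : ℕ)) p with h | h
  · exact (qFil p).mono (le_max_left _ _) (L.mom_polar c h t ht)
  · exact (qFil p).mono (by positivity) (L.mom_regular c (by omega) t ht)

lemma wcQ_mem0 (h2 : p ≠ 2) (L : LocalInput p N M e) (hMN : M ≤ N) {c c' : Fin p} (hc : c' ≠ c)
    (k : ℕ) : wcQ e M c c' k 0 ∈ (qFil p).F 0 := by
  refine P4MValZx538.wc_mem (qFil p) _ _ _ _ M c' k 0 0 (diff_inv_mem hc) fun u _ hu => ?_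
  exact mom_mem0 h2 L c' (by omega)

lemma chiB_mem (h2 : p ≠ 2) (L : LocalInput p N M e) (hMN : M ≤ N) (c : Fin p) (k : ℕ) :
    C (chiB e M c k) ∈ (pbFil p).F 0 := by
  change chiB e M c k ∈ (qFil p).F 0
  refine (qFil p).sum_mem _ _ _ fun c' hc' => ?_
  exact wcQ_mem0 h2 L hMN (mem_erase.mp hc').1 k

lemma delB_mem (h2 : p ≠ 2) (L : LocalInput p N M e) (hMN : M ≤ N) {c : Fin p}
    (hc : p < 2 * (c : ℕ)) (k : ℕ) : C (delB e M c k) ∈ (pbFil p).F 0 := by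
  rw [delB, C_sub]
  exact AddSubgroup.sub_mem _ (bB_mem h2 hc c.2 k) (chiB_mem h2 L hMN c k)

/-! ### the node -/

omit hp in
lemma HomZ_step (i : ℤ) : NV.pt ((i : ℚ) + 1) ^ 3 * HomZ (i + 1) +
    (2 * NV.pt (i : ℚ) + 1) ^ 3 * HomZ i = 0 := by
  apply NV.bi_step (K := ℚ) (a := fun i => NV.pt ((i : ℚ) + 1) ^ 3)
    (b := fun i => (2 * NV.pt (i : ℚ) + 1) ^ 3) (c := fun _ => 0)
  · intro i hi
    rw [map_pow, NV.constantCoeff_pt]
    apply pow_ne_zero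
    have : ((i + 1 : ℤ) : ℚ) ≠ 0 := by exact_mod_cast (by omega : (i + 1 : ℤ) ≠ 0)
    push_cast at this
    exact this
  · intro i hi
    rw [map_pow, map_add, map_mul, NV.constantCoeff_pt, map_ofNat, map_one]
    apply pow_ne_zero
    have : ((2 * i + 1 : ℤ) : ℚ) ≠ 0 := by exact_mod_cast (by omega : (2 * i + 1 : ℤ) ≠ 0)
    push_cast at this
    exact this

/-- value of `Ψ` at `n` -/
noncomputable def pv (n : ℤ) : ℚ[X] := PowerSeries.constantCoeff (PsiX (.Z n))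

omit hp in
lemma pv_rec (i : ℤ) : C (((i : ℚ) + 1) ^ 3) * pv (i + 1) + C ((2 * (i : ℚ) + 1) ^ 3) * pv i =
    C (-(1 / 2 * (3 * (i : ℚ) + 2))) := by
  have h1 := congrArg PowerSeries.constantCoeff (NV.step_Z (0 : ℚ) i).psi
  have h2 := congrArg PowerSeries.constantCoeff (HomZ_step i)
  simp only [map_add, map_mul, map_pow, map_neg, map_one, map_zero, NV.constantCoeff_pt,
    PowerSeries.constantCoeff_C, map_ofNat] at h1 h2
  have e : ∀ n : ℤ, pv n = C (PowerSeries.constantCoeff (NV.PsiZ 0 n)) -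
      X * C (PowerSeries.constantCoeff (HomZ n)) := by
    intro n
    rw [pv, PsiX, psi0, psi1, map_sub, map_mul, PowerSeries.constantCoeff_C,
      ← PowerSeries.coeff_zero_eq_constantCoeff_apply,
      ← PowerSeries.coeff_zero_eq_constantCoeff_apply, PowerSeries.coeff_map,
      PowerSeries.coeff_map, PowerSeries.coeff_zero_eq_constantCoeff_apply,
      PowerSeries.coeff_zero_eq_constantCoeff_apply]
  have h1' := congrArg (C : ℚ → ℚ[X]) h1
  have h2' := congrArg (C : ℚ → ℚ[X]) h2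
  simp only [C_add, C_mul, C_0] at h1' h2'
  rw [e, e]
  linear_combination h1' - X * h2'

/-- constant coefficients of the started solution -/
lemma Sch_rec {s0 : ℚ} (l : ℕ) (h : s0 + l + 1 ≠ 0) :
    (s0 + l + 1) ^ 3 * PowerSeries.constantCoeff (Sch s0 (l + 1)) +
      (2 * (s0 + l) + 1) ^ 3 * PowerSeries.constantCoeff (Sch s0 l) =
      -(1 / 2 * (3 * (s0 + l) + 2)) := by
  have h1 := congrArg PowerSeries.constantCoeff (St_spec (s := s0 + l) h (Sch s0 l))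
  rw [aa, bb, ee] at h1
  simp only [map_add, map_mul, map_pow, map_neg, map_one, NV.constantCoeff_pt,
    PowerSeries.constantCoeff_C, map_ofNat] at h1
  rw [Sch]
  exact h1

lemma Sch_rec0 {s0 : ℚ} (h : s0 ≠ 0) :
    s0 ^ 3 * PowerSeries.constantCoeff (Sch s0 0) = -(1 / 2 * (3 * (s0 - 1) + 2)) := by
  have h1 := congrArg PowerSeries.constantCoeff
    (St_spec (s := s0 - 1) (by rwa [sub_add_cancel]) (0 : PowerSeries ℚ))
  rw [aa, bb, ee] at h1
  simp only [map_add, map_mul, map_pow, map_neg, NV.constantCoeff_pt,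
    PowerSeries.constantCoeff_C, map_ofNat, mul_zero, add_zero, sub_add_cancel] at h1
  rw [Sch]
  exact h1

/-- the node congruence, as a recursion -/
theorem node_rec {h : ℕ} (hh : p = 2 * h + 1) (h0 : pv h ∈ (pbFil p).F 0) {l : ℕ}
    (hl : l < h) :
    pv ((h : ℤ) + 1 + l) - C (PowerSeries.constantCoeff (Sch (((h + 1 : ℕ)) : ℚ) l)) ∈
      (pbFil p).F 3 := by
  have hpq : (p : ℚ) = 2 * h + 1 := by rw [hh]; push_cast; ring
  induction l with
  | zero =>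
    have h1 := pv_rec (h : ℤ)
    have hu := un_nat (p := p) hh (le_refl 0) hl
    rw [Nat.cast_zero, add_zero] at hu
    have h3 := Sch_rec0 hu.1
    have h4 := congrArg (C : ℚ → ℚ[X]) h3
    have h5 : C ((((h + 1 : ℕ) : ℚ))⁻¹ ^ 3) * C (((h + 1 : ℕ) : ℚ) ^ 3) = 1 := by
      rw [← C_mul, ← mul_pow, inv_mul_cancel₀ hu.1, one_pow, C_1]
    have e1 : (((h : ℤ) : ℚ) + 1) = ((h + 1 : ℕ) : ℚ) := by push_cast; ring
    have e2 : (2 * ((h : ℤ) : ℚ) + 1) = p := by rw [hpq]; push_cast; ring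
    have e3 : (3 * (((h + 1 : ℕ) : ℚ) - 1) + 2) = 3 * ((h : ℤ) : ℚ) + 2 := by push_cast; ring
    rw [e1, e2] at h1
    rw [C_mul, e3] at h4
    have e : pv ((h : ℤ) + 1 + ((0 : ℕ) : ℤ)) -
        C (PowerSeries.constantCoeff (Sch (((h + 1 : ℕ)) : ℚ) 0)) =
        -(C ((((h + 1 : ℕ) : ℚ))⁻¹ ^ 3) * (C ((p : ℚ)) ^ 3 * pv h)) := by
      rw [Nat.cast_zero, add_zero]
      rw [C_pow (a := (p : ℚ))] at h1
      linear_combination C ((((h + 1 : ℕ) : ℚ))⁻¹ ^ 3) * (h1 - h4) -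
        (pv ((h : ℤ) + 1) - C (PowerSeries.constantCoeff (Sch (((h + 1 : ℕ)) : ℚ) 0))) * h5
    rw [e]
    refine AddSubgroup.neg_mem _ (P4F.mul_mem' _ (a := 0) (b := 3)
      (show (((h + 1 : ℕ) : ℚ))⁻¹ ^ 3 ∈ (qFil p).F 0 from P4F.pow_mem_zero _ hu.2.2 3) ?_ (by norm_num))
    exact P4F.mul_mem' _ (P4F.pow_mem_one _ C_p_mem 3) h0 (by norm_num)
  | succ l ih =>
    have ih' := ih (by omega)
    have h1 := pv_rec ((h : ℤ) + 1 + l)
    have hu := un_nat (p := p) hh (le_refl (l + 1)) hl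
    have hu0 := un_nat (p := p) hh (le_refl l) (by omega)
    have e0 : ((h + 1 : ℕ) : ℚ) + ((l + 1 : ℕ) : ℚ) = ((h + 1 : ℕ) : ℚ) + l + 1 := by
      push_cast; ring
    rw [e0] at hu
    have h3 := Sch_rec (s0 := ((h + 1 : ℕ) : ℚ)) l hu.1
    have h4 := congrArg (C : ℚ → ℚ[X]) h3
    have h5 : C ((((h + 1 : ℕ) : ℚ) + l + 1)⁻¹ ^ 3) * C ((((h + 1 : ℕ) : ℚ) + l + 1) ^ 3) = 1 := by
      rw [← C_mul, ← mul_pow, inv_mul_cancel₀ hu.1, one_pow, C_1]
    have e1 : (((((h : ℤ) + 1 + l : ℤ)) : ℚ) + 1) = ((h + 1 : ℕ) : ℚ) + l + 1 := by push_cast; ring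
    have e2 : (2 * ((((h : ℤ) + 1 + l : ℤ)) : ℚ) + 1) = 2 * (((h + 1 : ℕ) : ℚ) + l) + 1 := by
      push_cast; ring
    have e3 : (3 * ((((h : ℤ) + 1 + l : ℤ)) : ℚ) + 2) = 3 * (((h + 1 : ℕ) : ℚ) + l) + 2 := by
      push_cast; ring
    rw [e1, e2, e3] at h1
    rw [C_add, C_mul, C_mul] at h4
    have e : pv ((h : ℤ) + 1 + ((l + 1 : ℕ) : ℤ)) -
        C (PowerSeries.constantCoeff (Sch (((h + 1 : ℕ)) : ℚ) (l + 1))) =
        -(C ((((h + 1 : ℕ) : ℚ) + l + 1)⁻¹ ^ 3) * (C ((2 * (((h + 1 : ℕ) : ℚ) + l) + 1) ^ 3) *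
          (pv ((h : ℤ) + 1 + l) -
            C (PowerSeries.constantCoeff (Sch (((h + 1 : ℕ)) : ℚ) l))))) := by
      have e4 : (h : ℤ) + 1 + ((l + 1 : ℕ) : ℤ) = (h : ℤ) + 1 + l + 1 := by push_cast; ring
      rw [e4]
      linear_combination C ((((h + 1 : ℕ) : ℚ) + l + 1)⁻¹ ^ 3) * (h1 - h4) -
        (pv ((h : ℤ) + 1 + l + 1) -
          C (PowerSeries.constantCoeff (Sch (((h + 1 : ℕ)) : ℚ) (l + 1)))) * h5
    rw [e]
    refine AddSubgroup.neg_mem _ (P4F.mul_mem' _ (a := 0) (b := 3)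
      (show (((h + 1 : ℕ) : ℚ) + l + 1)⁻¹ ^ 3 ∈ (qFil p).F 0 from
        P4F.pow_mem_zero _ hu.2.2 3) ?_ (by norm_num))
    refine P4F.mul_mem' _ (a := 0) (b := 3)
      (show (2 * (((h + 1 : ℕ) : ℚ) + l) + 1) ^ 3 ∈ (qFil p).F 0 from
        P4F.pow_mem_zero _ ?_ 3) ih' (by norm_num)
    exact add_mem (P4F.mul_mem0 _ (P4F.two_mem _) hu0.2.1) (qFil p).one_mem

omit hp in
lemma coeff_zero_sum_X (M : ℕ) (hM : 0 < M) (a : ℕ → ℚ[X]) :
    PowerSeries.constantCoeff (∑ k ∈ range M,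
      (PowerSeries.X : PowerSeries ℚ[X]) ^ k * PowerSeries.C (a k)) = a 0 := by
  rw [map_sum, sum_eq_single 0]
  · simp
  · intro k _ hk
    rw [map_mul, map_pow, PowerSeries.constantCoeff_X, zero_pow hk, zero_mul]
  · intro h; exact absurd (mem_range.mpr hM) h

omit hp in
lemma ys_node (c : Fin p) : ys (c : ℕ) (.Z ((c : ℕ) : ℤ)) = PowerSeries.X := by
  rw [ys, Site.val]
  simp

omit hp in
/-- constant coefficient of `psi'` at the node -/
lemma psi'_node (hM : 0 < M) (c : Fin p) :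
    PowerSeries.constantCoeff (psi' e M c (.Z ((c : ℕ) : ℤ))) =
      pv (c : ℕ) - C (chiB e M c 0) := by
  rw [psi'_eq, map_sub, ys_node, coeff_zero_sum_X M hM]
  rfl

omit hp in
/-- constant coefficient of `psi2` at the node -/
lemma psi2_node_eq (hM : 0 < M) (c : Fin p) :
    PowerSeries.constantCoeff (psi2 e M c (.Z ((c : ℕ) : ℤ))) = pv (c : ℕ) - C (bB p c 0) := by
  rw [psi2_eq, map_sub, ys_node, coeff_zero_sum_X M hM]
  rfl

lemma const_mem {v : ℤ} {f : PowerSeries ℚ[X]} (h : f ∈ (psFil (pbFil p)).F v) :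
    PowerSeries.constantCoeff f ∈ (pbFil p).F v := by
  have := h 0
  simpa using this

lemma pv_h_mem (h2 : p ≠ 2) (L : LocalInput p N M e) (hMN : M ≤ N) (hM : 0 < M) {h : ℕ}
    (hh : p = 2 * h + 1) : pv (h : ℕ) ∈ (pbFil p).F 0 := by
  have h1 := L.psi_zero ⟨h, by omega⟩ h rfl (by omega)
  have h3 := const_mem h1
  have h4 := psi'_node (e := e) hM (⟨h, by omega⟩ : Fin p)
  rw [h4] at h3
  have h5 := AddSubgroup.add_mem _ h3 (chiB_mem h2 L hMN ⟨h, by omega⟩ 0)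
  rwa [sub_add_cancel] at h5

/-- **the node congruence** `Ψ(c) = b_0 mod p^3`. -/
theorem node (h2 : p ≠ 2) (L : LocalInput p N M e) (hMN : M ≤ N) (hM : 0 < M) {c : ℕ}
    (hc : p < 2 * c) (hcp : c < p) : pv (c : ℕ) - C (bB p c 0) ∈ (pbFil p).F 3 := by
  obtain ⟨h, hh, h0, h1⟩ := split (p := p) h2
  have h3 := node_rec hh (pv_h_mem h2 L hMN hM hh) (l := c - (h + 1)) (by omega)
  have e1 : (h : ℤ) + 1 + ((c - (h + 1) : ℕ) : ℤ) = (c : ℤ) := by omega
  rw [e1] at h3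
  rw [bB, h1, PowerSeries.coeff_zero_eq_constantCoeff_apply]
  exact h3

/-- **the node**: `[ε^0] psi2 (Z c) ∈ F 3`. -/
theorem psi2_node (h2 : p ≠ 2) (L : LocalInput p N M e) (hMN : M ≤ N) (hM : 0 < M) {c : Fin p}
    (hc : p < 2 * (c : ℕ)) :
    PowerSeries.constantCoeff (psi2 e M c (.Z ((c : ℕ) : ℤ))) ∈ (pbFil p).F 3 := by
  rw [psi2_node_eq hM]
  exact node h2 L hMN hM hc c.2

lemma inR_node (h2 : p ≠ 2) (c : Fin p) : InR p (.Z ((c : ℕ) : ℤ)) := by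
  have h1 : 3 ≤ p := by have := hp.out.two_le; omega
  have hc := c.2
  rw [InR, Site.val]
  have h3 : ((c : ℕ) : ℚ) + 1 ≤ p := by exact_mod_cast hc
  have h4 : (0 : ℚ) ≤ ((c : ℕ) : ℚ) := Nat.cast_nonneg _
  rw [Int.cast_natCast, abs_of_nonneg h4]
  have h5 : (3 : ℚ) ≤ p := by exact_mod_cast h1
  nlinarith

lemma delB_zero_mem (h2 : p ≠ 2) (L : LocalInput p N M e) (hMN : M ≤ N) (hM : 0 < M) {c : Fin p}
    (hc : p < 2 * (c : ℕ)) : C (delB e M c 0) ∈ (pbFil p).F 1 := by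
  have h1 := psi2_node h2 L hMN hM hc
  rw [psi2_node_eq hM] at h1
  have h3 := const_mem (L.psi_regular c (.Z ((c : ℕ) : ℤ)) (inR_node h2 c) (by
    rw [cl]
    have : (((c : ℕ) : ℤ) % (p : ℤ)) = ((c : ℕ) : ℤ) :=
      Int.emod_eq_of_lt (by positivity) (by exact_mod_cast c.2)
    rw [this]
    simp) hc (fun i hi => by simp at hi))
  rw [psi'_node hM] at h3
  have e : C (delB e M c 0) = (pv (c : ℕ) - C (chiB e M c 0)) - (pv (c : ℕ) - C (bB p c 0)) := by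
    rw [delB, C_sub]; ring
  rw [e]
  exact AddSubgroup.sub_mem _ h3 ((pbFil p).mono (by norm_num) h1)

/-- **`psi2 ∈ F 1`** at all sites of the class where `psi' ∈ F 1`. -/
theorem psi2_mem (h2 : p ≠ 2) (L : LocalInput p N M e) (hMN : M ≤ N) {c : Fin p}
    (hc : p < 2 * (c : ℕ)) {z : Site} (hz : (c : ℕ) = cl p z)
    (hps : psi' e M c z ∈ (psFil (pbFil p)).F 1) : psi2 e M c z ∈ (psFil (pbFil p)).F 1 := by
  rw [psi2]
  refine AddSubgroup.sub_mem _ hps ((psFil (pbFil p)).sum_mem _ _ _ fun k hk => ?_)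
  rw [mem_range] at hk
  rcases Nat.eq_zero_or_pos k with rfl | hk0
  · rw [pow_zero, one_mul]
    exact C_mem _ (delB_zero_mem h2 L hMN (by omega) hc)
  · exact P4M.mul_mem' _ (pow_one_mem _ (ys_mem h2 z hz) k) (C_mem _ (delB_mem h2 L hMN hc k))
      (by omega)

/-! ### the star -/

omit hp in
lemma PsiX_star (l : ℕ) : PsiX (.H (l : ℤ)) = PowerSeries.map C (Sch (1 / 2 : ℚ) l) := by
  rw [PsiX, psi0, psi1, map_zero, mul_zero, sub_zero, ← PsiH0_eq]
  rfl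

/-- **the star**: `psi2 (H l) ∈ F M`, `c = h + 1 + l`. -/
theorem psi2_star (h2 : p ≠ 2) (hM : 1 < M) {c : Fin p} (hc : p < 2 * (c : ℕ)) {l : ℕ}
    (hl : (c : ℕ) = l + (p + 1) / 2) : psi2 e M c (.H (l : ℤ)) ∈ (psFil (pbFil p)).F M := by
  obtain ⟨h, hh, h0, h1⟩ := split (p := p) h2
  have hlh : l < h := by have := c.2; omega
  have hpq : (p : ℚ) = 2 * h + 1 := by rw [hh]; push_cast; ring
  have hδ : (-(p / 2) : ℚ) ∈ (qFil p).F 1 :=
    AddSubgroup.neg_mem _ ((pfil (p := p)).p_half hh h0)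
  have e1 : ((h + 1 : ℕ) : ℚ) + -(p / 2) = 1 / 2 := by rw [hpq]; push_cast; ring
  have key : ∀ N : ℕ, Sch (1 / 2 : ℚ) l -
      P4F.ev PowerSeries.C (NV.pt (-(p / 2) : ℚ)) M (Sch (((h + 1 : ℕ)) : ℚ) l) ∈
        (P4F.hat (qFil p) N).F M := by
    intro N
    have := Sch_ev ((pfil (p := p)).half hh h0) (N := N) hM hδ l
      (fun k hk => un_nat hh hk hlh) (fun k hk => by
        rw [e1]
        exact (pfil (p := p)).un_half hh h0 (by omega))
    rwa [e1] at this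
  have e2 : psi2 e M c (.H (l : ℤ)) = PowerSeries.map C (Sch (1 / 2 : ℚ) l -
      P4F.ev PowerSeries.C (NV.pt (-(p / 2) : ℚ)) M (Sch (((h + 1 : ℕ)) : ℚ) l)) := by
    rw [psi2_eq, map_sub, PsiX_star, P4F.ev, map_sum]
    congr 1
    refine sum_congr rfl fun k _ => ?_
    have e3 : PowerSeries.map C (NV.pt (-(p / 2) : ℚ)) = ys (c : ℕ) (.H (l : ℤ)) := by
      rw [NV.pt, map_add, PowerSeries.map_X, PowerSeries.map_C, ys, Site.val, add_comm, hl, h1, hpq]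
      congr 3
      push_cast
      ring
    have e4 : (c : ℕ) - (h + 1) = l := by omega
    rw [map_mul, map_pow, e3, PowerSeries.map_C, bB, h1, e4, mul_comm]
  rw [e2]
  intro j
  rw [PowerSeries.coeff_map]
  exact key (j + 1) j (Nat.lt_succ_self j)

end input

end Crest.Agent.R006.P4B1In657
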