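import Crest.Agent.R006.P4SideCls_110
import Crest.Agent.R006.P4MatB_869
import Crest.Agent.R006.P4_B1Input_657

/-!
# Row 6, block P4 (helper657): the field `A` of `Tables` in the classes with decomposition B1

`RowB D i` : the row `i` is in a regular class, its germ is `psi'`, resp. for the `W` rows the germ
with `psi2 = 0`.  `A_rB` : `cAB (delB ..) i l` satisfies the table `tabX` (`dec = rB`);
`cA_rB` : the same for the coefficient `cA0 - ∑ cB0 * nrB` of `Rows0`.
-/

set_option autoImplicit false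

namespace Crest.Agent.R006.P4SideA657

open Polynomial Finset Tollx814 P4Toll961 P4M P4B1In657 P8 P4If
open Crest.Agent.R006.D

variable {p : ℕ} [hp : Fact p.Prime] {jR jT jQ jU ι : Type*} {D : Dat p jR jT jQ jU ι}

/-- a row of a regular class with decomposition B1 -/
structure RowB (D : Dat p jR jT jQ jU ι) (i : ι) : Prop where
  cs : (D.cs i : ℕ) = clsS p (D.ro i).1
  reg : p < 2 * (D.cs i : ℕ)
  inR : InR p (D.ro i).1
  ord : (D.ro i).2 ≤ 1
  ordZ : ∀ n : ℤ, 0 ≤ n → (D.ro i).1 = .Z n → (D.ro i).2 = 0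
  ps : (∀ n : ℤ, n < 0 → (D.ro i).1 ≠ .H n) → D.ps i = psi' D.e D.M (D.cs i) (D.ro i).1
  psW : ∀ n : ℤ, n < 0 → (D.ro i).1 = .H n → D.ps i =
    ∑ k ∈ range D.M, ys (D.cs i) (D.ro i).1 ^ k * PowerSeries.C (C (delB D.e D.M (D.cs i) k))

omit hp in
/-- the record of a row in a class with decomposition B1 -/
lemma tabX_rB (S : Shape) (u : ℕ) {dec : ℕ → Mode} {ρ : Crest.Agent.R006.D.Row} (h : dec (clsS p ρ.1) = .rB) :
    tabX S u p dec ρ =
      if jS p ρ.1 = (kindR ρ).j0 then (kindR ρ).regBS else (kindR ρ).regB := by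
  rw [tabX, h]
  rfl

namespace RowB

variable {i : ι} {NL : ℕ} {z : ℕ → ℕ}

lemma cl (h : RowB D i) (h2 : p ≠ 2) : (D.cs i : ℕ) = P4M.cl p (D.ro i).1 := by
  rw [P4SideCls110.cl_eq (hp.out.eq_two_or_odd.resolve_left h2), h.cs]

omit hp in
lemma psi2_eq (h : RowB D i) (hW : ∀ n : ℤ, n < 0 → (D.ro i).1 ≠ .H n) :
    D.psi2 (delB D.e D.M) i = psi2 D.e D.M (D.cs i) (D.ro i).1 := by
  rw [Dat.psi2, h.ps hW, P4B1In657.psi2]

omit hp in
/-- the `W` rows -/
lemma psi2_W (h : RowB D i) {n : ℤ} (hn : n < 0) (hi : (D.ro i).1 = .H n) :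
    D.psi2 (delB D.e D.M) i = 0 := by
  rw [Dat.psi2, h.psW n hn hi, sub_self]

/-- generic bound of `psi2` -/
lemma psi2_mem (h : RowB D i) (h2 : p ≠ 2) (L : LocalInput p NL D.M D.e) (hM : D.M ≤ NL)
    (hW : ∀ n : ℤ, n < 0 → (D.ro i).1 ≠ .H n) :
    D.psi2 (delB D.e D.M) i ∈ (psFil (pbFil p)).F 1 := by
  rw [h.psi2_eq hW]
  refine P4B1In657.psi2_mem h2 L hM h.reg (h.cl h2) ?_
  refine L.psi_regular _ _ h.inR (h.cl h2) h.reg fun n hn => ?_
  by_contra h0
  exact hW n (by omega) hn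

/-- generic bound of the `R`-coefficients -/
lemma gen (h : RowB D i) (h2 : p ≠ 2) (L : LocalInput p NL D.M D.e) (hM : D.M ≤ NL)
    (hz : D.Zer z) (hW : ∀ n : ℤ, n < 0 → (D.ro i).1 ≠ .H n) (l : ℕ) :
    D.cAB (delB D.e D.M) i l ∈ (pbFil p).F (1 + pos ((l : ℤ) + z (D.cs i) - 0) - (D.ro i).2) := by
  refine (pbFil p).mono ?_ (Dat.cAB_mem _ h2 hz i (h.cl h2) (h.psi2_mem h2 L hM hW) l)
  rw [pos_eq]
  omega

/-- the star -/
lemma star (h : RowB D i) (h2 : p ≠ 2) (hM1 : 1000001 ≤ D.M) (hz : D.Zer z) {n : ℕ}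
    (hi : (D.ro i).1 = .H (n : ℤ)) (hj : jS p (D.ro i).1 = -1) (l : ℕ) :
    D.cAB (delB D.e D.M) i l ∈ (pbFil p).F (1000000 + pos ((l : ℤ) + z (D.cs i) - 0)) := by
  rw [hi] at hj
  have h3 := (P4SideCls110.jS_H (hp.out.eq_two_or_odd.resolve_left h2) hj).2.2
  have hW : ∀ m : ℤ, m < 0 → (D.ro i).1 ≠ .H m := by
    intro m hm hc
    rw [hi] at hc
    injection hc with hc
    omega
  have h4 : D.psi2 (delB D.e D.M) i ∈ (psFil (pbFil p)).F D.M := by
    rw [h.psi2_eq hW, hi]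
    refine psi2_star h2 (by omega) h.reg ?_
    rw [h.cs, hi]
    exact h3
  refine (pbFil p).mono ?_ (Dat.cAB_mem _ h2 hz i (h.cl h2) h4 l)
  have := h.ord
  rw [pos_eq]
  omega

/-- the node -/
lemma node (h : RowB D i) (h2 : p ≠ 2) (L : LocalInput p NL D.M D.e) (hM : D.M ≤ NL)
    (hM1 : 0 < D.M) (hz : D.Zer z) {n : ℤ} (hn : 0 ≤ n) (hi : (D.ro i).1 = .Z n)
    (hj : jS p (D.ro i).1 = 0) (l : ℕ) :
    D.cAB (delB D.e D.M) i l ∈ (pbFil p).F (3 + pos ((l : ℤ) + z (D.cs i) - 0)) := by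
  rw [hi] at hj
  have h3 := P4SideCls110.jS_Z_zero_nat (hp.out.eq_two_or_odd.resolve_left h2) hj
  have hW : ∀ m : ℤ, m < 0 → (D.ro i).1 ≠ .H m := by
    intro m _ hc
    rw [hi] at hc
    exact absurd hc (by simp)
  have h5 : n = ((D.cs i : ℕ) : ℤ) := by rw [h.cs, hi]; exact h3
  have h4 : PowerSeries.coeff 0 (D.psi2 (delB D.e D.M) i) ∈ (pbFil p).F 3 := by
    rw [h.psi2_eq hW, hi, h5, PowerSeries.coeff_zero_eq_constantCoeff_apply]
    exact psi2_node h2 L hM hM1 h.reg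
  refine (pbFil p).mono ?_ (Dat.cAB_node_mem _ hz i (h.ordZ n hn hi) (by
    rw [hi, h5, Site.val]; push_cast; rfl) h4 l)
  rw [pos_eq]
  omega

/-- **The field `A` in the classes with decomposition B1.** -/
theorem A_rB (h : RowB D i) (h2 : p ≠ 2) (L : LocalInput p NL D.M D.e) (hM : D.M ≤ NL)
    (hM1 : 1000001 ≤ D.M) (hz : D.Zer z) (S : Shape) (u : ℕ) {dec : ℕ → Mode}
    (hdec : dec (clsS p (D.ro i).1) = .rB) (l : ℕ) :
    D.cAB (delB D.e D.M) i l ∈ (pbFil p).F ((tabX S u p dec (D.ro i)).R.a +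
      pos ((l : ℤ) + z (D.cs i) - (tabX S u p dec (D.ro i)).R.b)) := by
  rw [tabX_rB S u hdec]
  obtain ⟨n, hn⟩ | ⟨n, hn⟩ : (∃ n, (D.ro i).1 = .Z n) ∨ ∃ n, (D.ro i).1 = .H n := by
    rcases (D.ro i).1 with n | n
    · exact Or.inl ⟨n, rfl⟩
    · exact Or.inr ⟨n, rfl⟩
  · -- integer sites
    have hW : ∀ m : ℤ, m < 0 → (D.ro i).1 ≠ .H m := by
      intro m _ hc
      rw [hn] at hc
      exact absurd hc (by simp)
    have hg := h.gen h2 L hM hz hW l
    have hro : D.ro i = (.Z n, (D.ro i).2) := by rw [← hn]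
    rcases lt_or_ge n 0 with h0 | h0
    · rcases Nat.eq_zero_or_pos (D.ro i).2 with ho | ho
      · have hk : kindR (D.ro i) = kE1 := by
          rw [hro, kindR, if_neg (not_le.mpr h0), if_pos ho]
        rw [hk]
        rw [ho] at hg
        have e : (if jS p (D.ro i).1 = kE1.j0 then kE1.regBS else kE1.regB) = kE1.regB := by
          split_ifs <;> rfl
        rw [e]
        exact (pbFil p).mono (by rw [Nat.cast_zero, sub_zero]; rfl) hg
      · have ho1 : (D.ro i).2 = 1 := by have := h.ord; omega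
        have hk : kindR (D.ro i) = kE2 := by
          rw [hro, kindR, if_neg (not_le.mpr h0), if_neg (by rw [ho1]; norm_num)]
        rw [hk]
        rw [ho1] at hg
        have e : (if jS p (D.ro i).1 = kE2.j0 then kE2.regBS else kE2.regB) = kE2.regB := by
          split_ifs <;> rfl
        rw [e]
        refine (pbFil p).mono ?_ hg
        show (0 : ℤ) + pos ((l : ℤ) + z (D.cs i) - 0) ≤ _
        push_cast
        linarith
    · have hk : kindR (D.ro i) = kG := by rw [hro, kindR, if_pos h0]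
      rw [hk]
      split_ifs with hj
      · exact h.node h2 L hM (by omega) hz h0 hn hj l
      · rw [h.ordZ n h0 hn, Nat.cast_zero, sub_zero] at hg
        exact hg
  · have hro : D.ro i = (.H n, (D.ro i).2) := by rw [← hn]
    rcases lt_or_ge n 0 with h0 | h0
    · -- `W` rows
      rw [Dat.cAB_zero _ i (h.psi2_W h0 hn) l]
      exact AddSubgroup.zero_mem _
    · -- stars
      have hW : ∀ m : ℤ, m < 0 → (D.ro i).1 ≠ .H m := by
        intro m hm hc
        rw [hn] at hc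
        injection hc with hc
        omega
      have hg := h.gen h2 L hM hz hW l
      have hn' : (D.ro i).1 = .H ((n.toNat : ℕ) : ℤ) := by rw [Int.toNat_of_nonneg h0, hn]
      rcases Nat.eq_zero_or_pos (D.ro i).2 with ho | ho
      · have hk : kindR (D.ro i) = kH1 := by
          rw [hro, kindR, if_pos h0, if_pos ho]
        rw [hk]
        rw [ho, Nat.cast_zero, sub_zero] at hg
        split_ifs with hj
        · exact h.star h2 hM1 hz hn' hj l
        · exact hg
      · have ho1 : (D.ro i).2 = 1 := by have := h.ord; omega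
        have hk : kindR (D.ro i) = kH2 := by
          rw [hro, kindR, if_pos h0, if_neg (by rw [ho1]; norm_num)]
        rw [hk]
        rw [ho1] at hg
        split_ifs with hj
        · exact h.star h2 hM1 hz hn' hj l
        · refine (pbFil p).mono ?_ hg
          show (0 : ℤ) + pos ((l : ℤ) + z (D.cs i) - 0) ≤ _
          push_cast
          linarith

/-- the same for the coefficient of `Rows0` with the near coefficients `nr = nrB` on the class -/
theorem cA_rB (h : RowB D i) (h2 : p ≠ 2) (L : LocalInput p NL D.M D.e) (hM : D.M ≤ NL)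
    (hM1 : 1000001 ≤ D.M) (hz : D.Zer z) (hN : D.M + D.G + D.Nb ≤ D.N) (S : Shape) (u : ℕ)
    {dec : ℕ → Mode} (hdec : dec (clsS p (D.ro i).1) = .rB)
    (nr : Fin p → Fin D.N → Fin D.N → ℚ[X])
    (hnr : ∀ s l : Fin D.N, nr (D.cs i) s l = D.nrB (delB D.e D.M) (D.cs i) s l) (l : Fin D.N) :
    (D.Rows0 nr).cA i l ∈ (pbFil p).F ((tabX S u p dec (D.ro i)).R.a +
      pos (((l : ℕ) : ℤ) + z (D.cs i) - (tabX S u p dec (D.ro i)).R.b)) := by
  show D.cA0 i l - ∑ s : Fin D.N, D.cB0 i s * nr (D.cs i) s l ∈ _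
  simp only [hnr]
  rw [Dat.cA0_sub_near _ hN i l]
  exact h.A_rB h2 L hM hM1 hz S u hdec l

end RowB

end Crest.Agent.R006.P4SideA657
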