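import Crest.Agent.R006.P4AsmA_814
import Crest.Agent.R006.GaugeP_555
import Crest.Agent.R006.P4Mat_955

/-!
# Row 6, block P4: the data of 955's network for 814's bordered matrix (helper538)

* `dat` : `Dat` with `rho = gaugeF`, `b = bl` (555), `TT = QQ = descPochhammer`, rows `ofRow`,
  unit entries of the bordering;
* `brow_eq` : `brow S u c J x d = (dat ..).ent x d`;
* degrees of `bl`, `descPochhammer`, `gaugeF`;
* `gauge_dvd_A`, `gauge_dvd_W` : the zeros of the gauge at the `A`- and `W`-sites.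
-/

set_option autoImplicit false

namespace Crest.Agent.R006.P4SideDatx538

open Polynomial Finset Crest.Agent.R006.D Crest.Agent.R006.Bordx929 Crest.Agent.R006.NV
open Crest.Agent.R006.P4Asmx814 Crest.Agent.R006.GaugeP555 Crest.Agent.R006.P4M
open Crest.Agent.R006.P4M531 (BB)

/-! ### degrees -/

lemma natDegree_desc (l : ℕ) : (descPochhammer ℚ l).natDegree = l :=
  descPochhammer_natDegree ℚ l

lemma monic_desc (l : ℕ) : (descPochhammer ℚ l).Monic := monic_descPochhammer ℚ l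

lemma natDegree_X_add_C' (a : ℚ) : (X + C a : ℚ[X]).natDegree = 1 := natDegree_X_add_C a

lemma natDegree_bl (S : Shape) (u l : ℕ) : (bl S u l).natDegree = l := by
  unfold bl
  rw [natDegree_comp, natDegree_desc, natDegree_X_sub_C, mul_one]

lemma bl_lt (S : Shape) (u : ℕ) (l : Fin (S.k * u)) : (bl S u l).natDegree < S.k * u := by
  rw [natDegree_bl]; exact l.isLt

lemma desc_lt {n : ℕ} (l : Fin n) : (descPochhammer ℚ (l : ℕ)).natDegree < n := by
  rw [natDegree_desc]; exact l.isLt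

/-- the degree of the gauge -/
theorem natDegree_gaugeF (S : Shape) (u : ℕ) :
    (gaugeF S u).natDegree = (S.a1 + S.a2 + S.i1 + S.r1) * u := by
  have m1 := monic_desc (S.a2 * u)
  have m2 : ((descPochhammer ℚ (S.i1 * u)).comp (X + C ((S.i1 * u : ℕ) - 1 / 2 : ℚ))).Monic :=
    (monic_desc _).comp_X_add_C _
  have m3 : ((descPochhammer ℚ (S.r1 * u)).comp (X + C ((S.r1 * u : ℕ) : ℚ))).Monic :=
    (monic_desc _).comp_X_add_C _
  have m4 := monic_desc (S.a1 * u)
  unfold gaugeF gaugeM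
  rw [((m1.mul m2).mul m3).natDegree_mul m4, (m1.mul m2).natDegree_mul m3, m1.natDegree_mul m2,
    natDegree_comp, natDegree_comp, natDegree_desc, natDegree_desc, natDegree_desc,
    natDegree_desc, natDegree_X_add_C', natDegree_X_add_C']
  ring

theorem monic_gaugeF (S : Shape) (u : ℕ) : (gaugeF S u).Monic :=
  ((((monic_desc _).mul ((monic_desc _).comp_X_add_C _)).mul
    ((monic_desc _).comp_X_add_C _))).mul (monic_desc _)

/-! ### zeros of the gauge -/

lemma X_dvd_gm_of_eval {z : ℚ} {P : ℚ[X]} (h : P.eval z = 0) :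
    (PowerSeries.X : PowerSeries ℚ) ^ (0 + 1) ∣ NV.gm z P := by
  rw [zero_add, pow_one, PowerSeries.X_dvd_iff]
  rw [← PowerSeries.coeff_zero_eq_constantCoeff_apply]
  unfold NV.gm
  rw [Polynomial.coeff_coe, taylor_coeff_zero, h]

lemma eval_winP {s : Finset ℤ} {h n : ℤ} (hn : n ∈ s) : (winP s h).eval ((n : ℚ) + h / 2) = 0 := by
  unfold winP
  rw [eval_prod]
  refine Finset.prod_eq_zero hn ?_
  simp

/-- the gauge vanishes at `0, …, a1 u - 1` -/
theorem eval_gaugeF_A (S : Shape) (u : ℕ) {i : ℤ} (h0 : 0 ≤ i) (h1 : i < S.a1 * u) :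
    (gaugeF S u).eval (i : ℚ) = 0 := by
  rw [gaugeF_eq, eval_mul]
  have := eval_winP (h := 0) (Finset.mem_Ico.2 ⟨h0, h1⟩)
  rw [Int.cast_zero, zero_div, add_zero] at this
  rw [this, mul_zero]

/-- the gauge vanishes at `-1/2, …, 1/2 - i1 u` -/
theorem eval_gaugeF_W (S : Shape) (u : ℕ) {i : ℤ} (h0 : i < 0) (h1 : -i ≤ S.i1 * u) :
    (gaugeF S u).eval ((i : ℚ) + 1 / 2) = 0 := by
  rw [gaugeF_eq, eval_mul, eval_mul, eval_mul]
  have := eval_winP (h := 1) (n := i) (s := Ico (-(S.i1 * u : ℤ)) 0)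
    (Finset.mem_Ico.2 ⟨by linarith, h0⟩)
  rw [Int.cast_one] at this
  rw [this, mul_zero, zero_mul, zero_mul]

theorem gauge_dvd_A (S : Shape) (u : ℕ) {i : ℤ} (h0 : 0 ≤ i) (h1 : i < S.a1 * u) :
    (PowerSeries.X : PowerSeries ℚ) ^ (0 + 1) ∣ NV.gm (Site.Z i).val (gaugeF S u) :=
  X_dvd_gm_of_eval (eval_gaugeF_A S u h0 h1)

theorem gauge_dvd_W (S : Shape) (u : ℕ) {i : ℤ} (h0 : i < 0) (h1 : -i ≤ S.i1 * u) :
    (PowerSeries.X : PowerSeries ℚ) ^ (0 + 1) ∣ NV.gm (Site.H i).val (gaugeF S u) :=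
  X_dvd_gm_of_eval (eval_gaugeF_W S u h0 h1)

/-! ### the data -/

variable (S : Shape) (u c : ℕ)

/-- the data of 955's network for 814's bordered matrix `brow S u c J` -/
noncomputable def dat {p : ℕ} (J : Fin c → RI S u c) (e : Fin p → ℚ[X]) (cs : RI S u c → Fin p)
    (ps : RI S u c → BB) (G M N Nb : ℕ) :
    Dat p (Fin (S.k * u)) (Fin (S.q * u)) (Fin (S.g * u)) (Fin c) (RI S u c) where
  e := e
  rho := gaugeF S u
  b := fun l => bl S u l
  TT := fun l => descPochhammer ℚ l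
  QQ := fun l => descPochhammer ℚ l
  ro := fun x => ofRow u c x
  cs := cs
  ps := ps
  bo := fun x t => if x = J t then 1 else 0
  G := G
  M := M
  N := N
  Nb := Nb

/-- **814's bordered monic matrix is 955's matrix of entries.** -/
theorem brow_eq {p : ℕ} (J : Fin c → RI S u c) (e : Fin p → ℚ[X]) (cs : RI S u c → Fin p)
    (ps : RI S u c → BB) (G M N Nb : ℕ) (x : RI S u c) (d : CI S u c) :
    brow S u c J x d = (dat S u c J e cs ps G M N Nb).ent x d := by
  rcases d with l | l | l | t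
  · show C (ent0 (polRM S u l) (ofRow u c x)) - X * C (ent1 (polRM S u l) (ofRow u c x)) =
      C (ent0 (gaugeF S u * bl S u l) (ofRow u c x)) -
        X * C (ent1 (gaugeF S u * bl S u l) (ofRow u c x))
    rw [polRM_eq]
  · rfl
  · rfl
  · rfl

/-- the conditions `Dat.OK` -/
theorem dat_OK {p : ℕ} (J : Fin c → RI S u c) {e : Fin p → ℚ[X]} (he : ∑ c, e c = 1)
    (cs : RI S u c → Fin p) (ps : RI S u c → BB) {G M N : ℕ}
    (hG : (S.a1 + S.a2 + S.i1 + S.r1) * u < G) (hk : S.k * u ≤ N) (hq : S.q * u ≤ N)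
    (hg : S.g * u ≤ N) (hMN : M ≤ N)
    (hps : ∀ x, ps x = psi' e M (cs x) (ofRow u c x).1 ∨
      (PowerSeries.X : PowerSeries ℚ) ^ ((ofRow u c x).2 + 1) ∣
        NV.gm (ofRow u c x).1.val (gaugeF S u)) :
    (dat S u c J e cs ps G M N (S.k * u)).OK where
  sum_e := he
  hG := by
    show (gaugeF S u).natDegree < G
    rw [natDegree_gaugeF]; exact hG
  hb := fun j => bl_lt S u j
  hNb := hk
  hT := fun j => lt_of_lt_of_le (desc_lt j) hq
  hQ := fun j => lt_of_lt_of_le (desc_lt j) hg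
  hMN := hMN
  hps := hps

end Crest.Agent.R006.P4SideDatx538
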