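import Crest.Agent.R006.P4MatB_869
import Crest.Agent.R006.P4_B1Input_657
import Crest.Agent.R006.P4SideCls_110
import Crest.Agent.R006.P4SideDat_538
import Crest.Agent.R006.P4SidePsi_938
import Crest.Agent.R006.P4Iface_814
import Crest.Agent.R006.P4_Flat_620

/-!
# Row 6, block P4: fields `B`, `B0`, `C`, `near` of `Tables` for regular classes (helper869)

For any `D : Dat` with `ro = ofRow` (`hro`), `cs = clsS` (`hcs`), e.g. 538's `dat`.

* `X_tab` : in the modes `rA`, `rB` the `X`-costs of a row of order `o` are `⟨0, o⟩`;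
* `B_reg` : field `B`; `B0_all` : field `B0`, every mode;
* `C_reg` : field `C`;
* `near_rB` : field `near`, `nr = D.nrB (delB D.e D.M)`.
-/

set_option autoImplicit false

namespace Crest.Agent.R006.P4SideB869

open Polynomial Finset Crest.Agent.R006.D Crest.Agent.R006.Tollx814 Crest.Agent.R006.P4Toll961
open Crest.Agent.R006.P8 Crest.Agent.R006.P4M Crest.Agent.R006.P4If
open Crest.Agent.R006.Bordx929 Crest.Agent.R006.P4Asmx814 Crest.Agent.R006.GaugeP555
open Crest.Agent.R006.P4B1In657 (delB delB_mem delB_zero_mem)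

/-- regularity of the order: what 938's lemmas give -/
structure OrdOK (ρ : D.Row) : Prop where
  le : ρ.2 ≤ 1
  Z : ∀ i, ρ.1 = .Z i → 0 ≤ i → ρ.2 = 0
  H : ∀ i, ρ.1 = .H i → i < 0 → ρ.2 = 0

theorem ordOK_row {S : Shape} {u c : ℕ} (he : S.e3 = 0) (hh : S.h3 = 0) (x : RI S u c) :
    OrdOK (ofRow u c x) where
  le := P4M938.order_le_one he hh x
  Z := fun _ h h0 => P4M938.order_Z_nonneg x h h0
  H := fun _ h h0 => (P4M938.order_H_neg x h h0).1

/-- the records of a kind in the regular modes have the `X`-cost `⟨0, order⟩` -/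
theorem X_kind {ρ : D.Row} (h : OrdOK ρ) :
    (kindR ρ).reg.X = ⟨0, ρ.2⟩ ∧ (kindR ρ).regS.X = ⟨0, ρ.2⟩ ∧
      (kindR ρ).regB.X = ⟨0, ρ.2⟩ ∧ (kindR ρ).regBS.X = ⟨0, ρ.2⟩ := by
  obtain ⟨z, o⟩ := ρ
  have hle : o ≤ 1 := h.le
  rcases z with i | i
  · by_cases hi : 0 ≤ i
    · have ho : o = 0 := h.Z i rfl hi
      subst ho
      simp [kindR, hi, kG]
    · by_cases ho : o = 0
      · subst ho
        simp [kindR, hi, kE1]
      · have ho1 : o = 1 := by omega
        subst ho1
        simp [kindR, hi, kE2]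
  · by_cases hi : 0 ≤ i
    · by_cases ho : o = 0
      · subst ho
        simp [kindR, hi, kH1]
      · have ho1 : o = 1 := by omega
        subst ho1
        simp [kindR, hi, kH2]
    · have ho : o = 0 := h.H i rfl (by omega)
      subst ho
      simp [kindR, hi, kW]

theorem X_tab {S : Shape} {u p : ℕ} {dec : ℕ → Mode} {ρ : D.Row} (h : OrdOK ρ)
    (hd : dec (clsS p ρ.1) ≠ .pol) : (tabX S u p dec ρ).X = ⟨0, ρ.2⟩ := by
  obtain ⟨h1, h2, h3, h4⟩ := X_kind h
  unfold tabX tabK Kind.row3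
  cases hm : dec (clsS p ρ.1) with
  | pol => exact absurd hm hd
  | rA => simp only []; split_ifs <;> assumption
  | rB => simp only []; split_ifs <;> assumption

/-- `z0` only in the record of the base node in the mode `rB` -/
theorem z0_tab {S : Shape} {u p : ℕ} {dec : ℕ → Mode} {ρ : D.Row} (h : OrdOK ρ)
    (hz : (tabX S u p dec ρ).z0 = true) :
    ∃ i, ρ.1 = .Z i ∧ 0 ≤ i ∧ ρ.2 = 0 ∧ jS p ρ.1 = 0 ∧ dec (clsS p ρ.1) = .rB := by
  obtain ⟨z, o⟩ := ρ
  unfold tabX tabK Kind.row3 at hz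
  rcases z with i | i
  · by_cases hi : 0 ≤ i
    · refine ⟨i, rfl, hi, h.Z i rfl hi, ?_, ?_⟩
      · by_contra hj
        have hj' : ¬ jS p (.Z i) = (kindR (.Z i, o)).j0 := by
          simpa [kindR, hi, kG] using hj
        simp only [hj', if_false] at hz
        revert hz
        cases dec (clsS p (.Z i)) <;> simp [kindR, hi, kG]
      · revert hz
        cases dec (clsS p (.Z i)) <;> simp [kindR, hi, kG]
        split_ifs <;> simp
    · exfalso
      revert hz
      by_cases ho : o = 0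
      · cases dec (clsS p (.Z i)) <;> simp [kindR, hi, ho, kE1]
      · cases dec (clsS p (.Z i)) <;> simp [kindR, hi, ho, kE2]
  · exfalso
    revert hz
    by_cases hi : 0 ≤ i
    · by_cases ho : o = 0
      · cases dec (clsS p (.H i)) <;> simp [kindR, hi, ho, kH1]
        split_ifs <;> simp
      · cases dec (clsS p (.H i)) <;> simp [kindR, hi, ho, kH2]
        split_ifs <;> simp
    · cases dec (clsS p (.H i)) <;> simp [kindR, hi, kW]

section fields

variable {p : ℕ} [hp : Fact p.Prime] {S : Shape} {u c : ℕ} {jR jT jQ jU : Type*}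
  {D : Dat p jR jT jQ jU (RI S u c)} {dec : ℕ → Mode}

/-- **field `B`**, modes `rA`, `rB`. -/
theorem B_reg (h5 : 5 ≤ p) (hro : ∀ x, D.ro x = ofRow u c x)
    (hcs : ∀ x, (D.cs x : ℕ) = clsS p (ofRow u c x).1) (he : S.e3 = 0) (hh : S.h3 = 0)
    (x : RI S u c) (hd : dec (clsS p (ofRow u c x).1) ≠ .pol) (s : ℕ) :
    D.cB0 x s ∈ (pbFil p).F ((tabX S u p dec (ofRow u c x)).X.a +
      pos ((s : ℤ) - (tabX S u p dec (ofRow u c x)).X.b)) := by
  rw [X_tab (ordOK_row he hh x) hd, zero_add, pos_eq, max_comm]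
  have h1 := Dat.cB0_mem (D := D) (by omega) x (by
    rw [hcs, hro, P4SideCls110.cl_eq (P4SideCls110.odd_of_prime h5)]) s
  rw [hro] at h1
  exact h1

/-- **field `B0`**, every mode. -/
theorem B0_all (h5 : 5 ≤ p) (hro : ∀ x, D.ro x = ofRow u c x)
    (hcs : ∀ x, (D.cs x : ℕ) = clsS p (ofRow u c x).1) (he : S.e3 = 0) (hh : S.h3 = 0)
    (x : RI S u c) (hz : (tabX S u p dec (ofRow u c x)).z0 = true) {s : ℕ} (hs : s ≠ 0) :
    D.cB0 x s = 0 := by
  obtain ⟨i, h1, hi, ho, hj, _⟩ := z0_tab (ordOK_row he hh x) hz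
  rw [h1] at hj
  have h3 := P4SideCls110.jS_Z_zero_nat (P4SideCls110.odd_of_prime h5) hj
  have h3' : ((clsS p (.Z i) : ℕ) : ℚ) = (i : ℚ) := by
    have := congrArg (Int.cast : ℤ → ℚ) h3
    push_cast at this
    exact this.symm
  have hy : ys (D.cs x) (D.ro x).1 = PowerSeries.X := by
    rw [ys, hro, hcs, h1, Site.val, h3', sub_self]
    simp
  rw [Dat.cB0, hy, hro, ho, PowerSeries.coeff_X_pow, if_neg (by omega)]

/-- **field `C`**, modes `rA`, `rB`. -/
theorem C_reg (h5 : 5 ≤ p) (hro : ∀ x, D.ro x = ofRow u c x)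
    (hcs : ∀ x, (D.cs x : ℕ) = clsS p (ofRow u c x).1) (he : S.e3 = 0) (hh : S.h3 = 0)
    {NL : ℕ} (L : LocalInput p NL D.M D.e) (x : RI S u c) (hin : InR p (ofRow u c x).1)
    (hreg : p < 2 * clsS p (ofRow u c x).1)
    (hd : dec (clsS p (ofRow u c x).1) ≠ .pol) (t : ℕ) :
    D.cC0 x t ∈ (pbFil p).F ((tabX S u p dec (ofRow u c x)).Q.a +
      pos ((t : ℤ) - (tabX S u p dec (ofRow u c x)).Q.b)) := by
  have hodd := P4SideCls110.odd_of_prime (p := p) h5
  have hcl : (D.cs x : ℕ) = cl p (D.ro x).1 := by rw [hcs, hro, P4SideCls110.cl_eq hodd]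
  have hO := ordOK_row he hh x
  have hgam : GamX (D.ro x).1 ∈ (psFil (pbFil p)).F 2 := by
    refine L.gam_regular (D.cs x) _ (by rw [hro]; exact hin) hcl (by rw [hcs]; exact hreg)
  have hmain := Dat.cC0_mem (D := D) (by omega) x hcl hgam t
  have hzero : (∃ w : PowerSeries ℚ, gam (ofRow u c x).1 = PowerSeries.X ^ 2 * w) →
      D.cC0 x t = 0 := by
    rintro ⟨w, hw⟩
    refine Dat.cC0_zero (D := D) x ?_ t
    rw [hro, hw]
    have := hO.le
    exact (pow_dvd_pow _ (by omega)).mul_right _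
  have hno : (tabX S u p dec (ofRow u c x)).Q.a + pos ((t : ℤ) -
      (tabX S u p dec (ofRow u c x)).Q.b) = (tabX S u p dec (ofRow u c x)).Q.a + pos ((t : ℤ) -
      (tabX S u p dec (ofRow u c x)).Q.b) := rfl
  -- the `Q`-costs
  generalize hρ : ofRow u c x = ρ at *
  obtain ⟨z, o⟩ := ρ
  have hQ2 : o = 0 → (tabX S u p dec (z, o)).Q = ⟨2, 0⟩ →
      D.cC0 x t ∈ (pbFil p).F ((tabX S u p dec (z, o)).Q.a +
        pos ((t : ℤ) - (tabX S u p dec (z, o)).Q.b)) := by
    intro ho hq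
    rw [hq]
    refine (pbFil p).mono ?_ hmain
    rw [hro, hρ]
    simp only [ho, pos_eq]
    push_cast
    have : (0 : ℤ) ≤ t := by positivity
    rw [sub_zero, max_eq_left this]
    linarith
  rcases z with i | i
  · by_cases hi : 0 ≤ i
    · have ho : o = 0 := hO.Z i rfl hi
      refine hQ2 ho ?_
      unfold tabX tabK Kind.row3
      simp only [] at hd
      cases hm : dec (clsS p (Site.Z i)) with
      | pol => exact absurd hm hd
      | rA => simp [kindR, hi, kG]
      | rB => simp only [kindR, hi, kG, if_true]; split_ifs <;> rfl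
    · rw [hzero ?_]
      · exact AddSubgroup.zero_mem _
      · obtain ⟨w, hw⟩ := P4M.gamOrd.1 (-i).toNat (by omega)
        refine ⟨w, ?_⟩
        have e : i = -(((-i).toNat : ℕ) : ℤ) := by omega
        show gam (.Z i) = _
        rw [e]; exact hw
  · by_cases hi : 0 ≤ i
    · rw [hzero ?_]
      · exact AddSubgroup.zero_mem _
      · obtain ⟨w, hw⟩ := P4M.gamOrd.2 i.toNat
        refine ⟨w, ?_⟩
        have e : i = ((i.toNat : ℕ) : ℤ) := by omega
        show gam (.H i) = _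
        rw [e]; exact hw
    · have ho : o = 0 := hO.H i rfl (by omega)
      refine hQ2 ho ?_
      unfold tabX tabK Kind.row3
      simp only [] at hd
      cases hm : dec (clsS p (Site.H i)) with
      | pol => exact absurd hm hd
      | rA => simp [kindR, hi, kW]
      | rB => simp [kindR, hi, kW]

/-- **field `near`**, mode `rB`. -/
theorem near_rB (h5 : 5 ≤ p) {NL : ℕ} (L : LocalInput p NL D.M D.e) (hM : 0 < D.M)
    (hMN : D.M ≤ NL) (hNL : D.G + D.Nb ≤ NL) {z : ℕ → ℕ} (hz : D.Zer z) (a : Fin p)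
    (hreg : p < 2 * (a : ℕ)) (s l : ℕ) :
    D.nrB (delB D.e D.M) a s l ∈ (pbFil p).F (pos ((l : ℤ) + z a - s + 1)) := by
  rw [pos_eq, max_comm]
  exact Dat.nrB_mem (D := D) (delB D.e D.M) L hNL hz a hreg
    (delB_zero_mem (by omega) L hMN hM hreg)
    (fun k _ => delB_mem (by omega) L hMN hreg k) s l

end fields

end Crest.Agent.R006.P4SideB869
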