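import Crest.Agent.R006.P4SideDef_955
import Crest.Agent.R006.P4SideB_869
import Crest.Agent.R006.P4SideA_657

/-!
# Row 6, block P4, matrix side: the fields of `Tables` in the classes with decomposition B1
(helper869, on 657's `P4SideA_657`)
-/

set_option autoImplicit false

namespace Crest.Agent.R006.P4S

open Polynomial Finset Tollx814 P4Toll961
open Crest.Agent.R006.D Crest.Agent.R006.Bordx929 Crest.Agent.R006.P4Asmx814
  Crest.Agent.R006.GaugeP555 Crest.Agent.R006.P8 Crest.Agent.R006.P4If Crest.Agent.R006.P4M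
  Crest.Agent.R006.P4SideDatx538
open Crest.Agent.R006.P4M531 (phi BB)
open Crest.Agent.R006.P4B1In657 (delB)

variable {S : Shape} {u c p : ℕ} [hp : Fact p.Prime] {dec : ℕ → Mode} {E : ℤ} {e : Fin p → ℚ[X]}
  (J : Fin c → RI S u c)

omit hp in
/-- rows of regular classes have no partner -/
theorem ptS_none (hS : S.Good) (hodd : p % 2 = 1) (x : RI S u c)
    (hx : p < 2 * clsS p (ofRow u c x).1) : ptS S u c hS p x = none := by
  rcases hpt : ptS S u c hS p x with _ | y
  · rfl
  · exfalso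
    obtain ⟨l, hl, _, h1, _⟩ := P4GW657.gwPartner_some S u c hS _ hpt
    have ha : (p - 1) / 2 - l < p := by omega
    have e1 := (P4SideCls110.cls_jS_Z (p := p) hodd (a := (p - 1) / 2 - l) ha
      (i := (((p - 1) / 2 : ℕ) : ℤ) - l) (j := 0) (by omega)).1
    rw [h1] at hx
    have e2 : clsS p ((Site.Z ((((p - 1) / 2 : ℕ) : ℤ) - l), 0) : D.Row).1 = (p - 1) / 2 - l := e1
    rw [e2] at hx
    omega

namespace Inp

variable (H : Inp S u c p dec E e)
include H

theorem reg_of (x : RI S u c) (hx : dec (clsS p (ofRow u c x).1) ≠ .pol) :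
    p < 2 * clsS p (ofRow u c x).1 := (H.reg_iff (csS S u c p x)).mp hx

theorem RS_cA (x : RI S u c) (hx : dec (clsS p (ofRow u c x).1) ≠ .pol) (l : Fin (NN S u E)) :
    (RS S u c dec J E e H.good).cA x l = (R0S S u c dec J E e).cA x l :=
  subP_none _ (ptS_none H.good H.odd x (H.reg_of x hx)) l

theorem RS_cB (x : RI S u c) (hx : dec (clsS p (ofRow u c x).1) ≠ .pol) (l : Fin (NN S u E)) :
    (RS S u c dec J E e H.good).cB x l = (R0S S u c dec J E e).cB x l :=
  subP_none _ (ptS_none H.good H.odd x (H.reg_of x hx)) l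

theorem RS_cC (x : RI S u c) (hx : dec (clsS p (ofRow u c x).1) ≠ .pol) (l : Fin (NN S u E)) :
    (RS S u c dec J E e H.good).cC x l = (R0S S u c dec J E e).cC x l :=
  subP_none _ (ptS_none H.good H.odd x (H.reg_of x hx)) l

/-- 657's hypotheses for a row of a class with decomposition B1 -/
theorem rowB (x : RI S u c) (hx : dec (clsS p (ofRow u c x).1) = .rB) :
    P4SideA657.RowB (DS S u c dec J E e) x where
  cs := rfl
  reg := H.reg_of x (by rw [hx]; decide)
  inR := H.inR J x
  ord := P4M938.order_le_one H.e3 H.h3 x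
  ordZ := fun n h0 h => P4M938.order_Z_nonneg x h h0
  ps := by
    intro hW
    show psG dec e (MM E) (csS S u c p x) (ofRow u c x).1 = psi' e (MM E) (csS S u c p x)
      (ofRow u c x).1
    have hW' : ∀ n : ℤ, n < 0 → (ofRow u c x).1 ≠ .H n := hW
    rcases hz : (ofRow u c x).1 with i | i
    · rfl
    · have hi : 0 ≤ i := by
        by_contra h0
        exact hW' i (by omega) hz
      simp only [psG, if_pos hi]
  psW := by
    intro n hn h
    have h' : (ofRow u c x).1 = .H n := h
    show psG dec e (MM E) (csS S u c p x) (ofRow u c x).1 =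
      ∑ k ∈ range (MM E), ys (csS S u c p x) (ofRow u c x).1 ^ k *
        PowerSeries.C (C (delB e (MM E) (csS S u c p x) k))
    have hx' : dec ((csS S u c p x : Fin p) : ℕ) = .rB := hx
    rw [h']
    simp only [psG, if_neg (not_le.mpr hn), hx']

/-- field `A`, from the zeros of the gauge -/
theorem A_rB' (hZ : (DS S u c dec J E e).Zer (zS S u p)) (x : RI S u c)
    (hx : dec (clsS p (ofRow u c x).1) = .rB) (l : Fin (NN S u E)) :
    (RS S u c dec J E e H.good).cA x l ∈ (pbFil p).F ((tb S u c p dec x).R.a +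
      pos (((l : ℕ) : ℤ) + zS S u p (clsS p (ofRow u c x).1) - (tb S u c p dec x).R.b)) := by
  rw [H.RS_cA J x (by rw [hx]; decide) l]
  refine (H.rowB J x hx).cA_rB H.ne2 H.L (MM_le S u E) ?_ hZ ?_ S u hx
    (nrS S u c dec J E e) (fun s l => ?_) l
  · show 1000001 ≤ MM E
    unfold MM; omega
  · show MM E + GG S u + S.k * u ≤ NN S u E
    unfold NN; omega
  · have hx' : dec ((csS S u c p x : Fin p) : ℕ) = .rB := hx
    exact if_pos hx'

theorem B_rB (x : RI S u c) (hx : dec (clsS p (ofRow u c x).1) = .rB) (s : Fin (NN S u E)) :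
    (RS S u c dec J E e H.good).cB x s ∈ (pbFil p).F ((tb S u c p dec x).X.a +
      pos (((s : ℕ) : ℤ) - (tb S u c p dec x).X.b)) := by
  have hd : dec (clsS p (ofRow u c x).1) ≠ .pol := by rw [hx]; decide
  rw [H.RS_cB J x hd s]
  exact P4SideB869.B_reg (D := DS S u c dec J E e) H.h5 (fun _ => rfl) (fun _ => rfl) H.e3 H.h3
    x hd s

theorem C_rB (x : RI S u c) (hx : dec (clsS p (ofRow u c x).1) = .rB) (s : Fin (NN S u E)) :
    (RS S u c dec J E e H.good).cC x s ∈ (pbFil p).F ((tb S u c p dec x).Q.a +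
      pos (((s : ℕ) : ℤ) - (tb S u c p dec x).Q.b)) := by
  have hd : dec (clsS p (ofRow u c x).1) ≠ .pol := by rw [hx]; decide
  rw [H.RS_cC J x hd s]
  exact P4SideB869.C_reg (D := DS S u c dec J E e) H.h5 (fun _ => rfl) (fun _ => rfl) H.e3 H.h3
    H.L x (H.inR J x) (H.reg_of x hd) hd s

theorem t_B0 (x : RI S u c) (s : Fin (NN S u E)) (hz : (tb S u c p dec x).z0 = true)
    (hs : (s : ℕ) ≠ 0) : (RS S u c dec J E e H.good).cB x s ∈ (pbFil p).F E := by
  obtain ⟨i, _, _, _, _, hr⟩ := P4SideB869.z0_tab (P4SideB869.ordOK_row H.e3 H.h3 x) hz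
  rw [H.RS_cB J x (by rw [hr]; decide) s]
  have h0 : (R0S S u c dec J E e).cB x s = 0 :=
    P4SideB869.B0_all (D := DS S u c dec J E e) H.h5 (fun _ => rfl) (fun _ => rfl) H.e3 H.h3
      x hz hs
  rw [h0]
  exact AddSubgroup.zero_mem _

theorem t_near' (hZ : (DS S u c dec J E e).Zer (zS S u p)) (a : Fin p) (s l : Fin (NN S u E))
    (hd : dec (a : ℕ) = .rB) :
    (WS S u c dec J E e).near a s l ∈
      (pbFil p).F (pos (((l : ℕ) : ℤ) + zS S u p a - (s : ℕ) + 1)) := by
  have h0 : (WS S u c dec J E e).near a s l = (DS S u c dec J E e).nrB (delB e (MM E)) a s l :=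
    if_pos hd
  rw [h0]
  refine P4SideB869.near_rB (D := DS S u c dec J E e) H.h5 H.L ?_ (MM_le S u E) (le_NLL S u E)
    hZ a ((H.reg_iff a).mp (by rw [hd]; decide)) s l
  show 0 < MM E
  unfold MM; omega

end Inp

end Crest.Agent.R006.P4S
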