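import Crest.Agent.R006.P4SideTabP_830
import Crest.Agent.R006.P4SideTabA_110
import Crest.Agent.R006.P4SideTabB_869
import Crest.Agent.R006.P4SideNet_757
import Crest.Agent.R006.P4SideDet2_814
import Crest.Agent.R006.P4SideOK_938

/-!
# Row 6, block P4: final record of the matrix side (955's text of note 3291, assembled by helper830)
-/

set_option autoImplicit false

namespace Crest.Agent.R006.P4S

open Polynomial Finset Tollx814 P4Toll961
open Crest.Agent.R006.D Crest.Agent.R006.Bordx929 Crest.Agent.R006.P4Asmx814
  Crest.Agent.R006.GaugeP555 Crest.Agent.R006.P8 Crest.Agent.R006.P4If Crest.Agent.R006.P4M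
  Crest.Agent.R006.P4SideDatx538
open Crest.Agent.R006.P4M531 (phi BB)
open Crest.Agent.R006.P4B1In657 (delB)

variable {S : Shape} {u c p : ℕ} [hp : Fact p.Prime] {dec : ℕ → Mode} {E : ℤ} {e : Fin p → ℚ[X]}
  (J : Fin c → RI S u c)

/-- the final record -/
theorem side_of_830 (H : Inp S u c p dec E e) :
    Side p S u c dec J E (NN S u E) (WS S u c dec J E e) (RS S u c dec J E e H.good) where
  det_eq f := H.det_eq_of J (H.dsOK J) f
  cls x := rfl
  errU x t := H.t_errU J x t
  tab :=
    { rho := H.t_rho J
      th0 := H.t_th0 J
      q := H.t_q J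
      A := by
        intro x l
        rcases h : dec (clsS p (ofRow u c x).1) with _ | _ | _
        · exact H.A_pol J x h l
        · exact H.A_rA J x h l
        · exact H.A_rB' J (H.dsZer J) x h l
      B := by
        intro x l
        rcases h : dec (clsS p (ofRow u c x).1) with _ | _ | _
        · exact H.B_pol J x h l
        · exact H.B_rA J x h l
        · exact H.B_rB J x h l
      B0 := fun x s hz hs => H.t_B0 J x s hz hs
      C := by
        intro x l
        rcases h : dec (clsS p (ofRow u c x).1) with _ | _ | _
        · exact H.C_pol J x h l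
        · exact H.C_rA J x h l
        · exact H.C_rB J x h l
      near := H.t_near' J (H.dsZer J)
      near0 := H.t_near0 J
      far := H.t_far J
      Lamp := H.t_Lamp J
      Lamr := H.t_Lamr J
      err := by
        intro x d hd
        show (if kd d = 3 then 0 else (RS S u c dec J E e H.good).err x d) ∈ _
        rw [if_neg hd]
        exact H.t_err J x d hd
      errU := by
        intro x t
        have h0 : (zeroU (RS S u c dec J E e H.good)).err x (.inr (.inr (.inr t))) = 0 := by
          simp [zeroU, kd]
        rw [h0]
        exact AddSubgroup.zero_mem _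
      errX := fun _ _ _ => AddSubgroup.zero_mem _
      errB := fun _ _ _ => AddSubgroup.zero_mem _ }

/-- **The matrix side.** -/
theorem matrixSide_830 (S : Shape) (c : ℕ) (hS : S.Good) (e3 : S.e3 = 0) (h3 : S.h3 = 0) :
    MatrixSide S c (2 * (S.B + S.e1 + S.h1 + S.w + c) + 8) := by
  intro u p hp h5 hC dec hd J _ E
  obtain ⟨e, he⟩ := P4Psi830.local_input h5 (NLL S u E) (MM E) (by unfold MM; omega)
  have H : Inp S u c p dec E e := ⟨hS, e3, h3, h5, hC, hd, he⟩
  exact ⟨_, _, _, side_of_830 J H⟩

end Crest.Agent.R006.P4S
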