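import Crest.Agent.R006.OddSN_365
import Crest.Agent.R006.OddChkSN_799
import Crest.Agent.R006.P4SideX_830
import Crest.Agent.R006.P5b_Inst_481

set_option autoImplicit false

/-!
# Row 6: the odd part of the frozen shape `SN`, outright (helper365)

P4 (matrix side, 830/955 and 814's class form), P5b (481), P8 (kernel certificate of 799 with the
data of 595).  `OddAll_365` is a second, independent kernel certificate of the same total.
-/

namespace Crest.Agent.R006.D

/-- **P4 + P5 + P8 for `SN`.** -/
theorem SN_odd : Odd SN 40 (-453.5) := by
  have hMS := P4S.matrixSide_830 SN 40 SN_good rfl rfl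
  refine odd_SN (x0 := 1) ?_ (by norm_num) (P5b.pw_SN hMS 1) (ChkSN799.mid_SN hMS) ?_
  · positivity
  · norm_num

end Crest.Agent.R006.D
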