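import Crest.Agent.R006.P8_Fast_799

/-! Row 6, block P8 (helper799): correctness of the fast strip evaluation. -/

set_option autoImplicit false

namespace Crest.Agent.R006.P8

/-- lower conditions -/
def LowP (I : Iv) (l : Ln) (bd : List (ℤ × ℤ)) (js : List ℤ) : Prop :=
  List.Forall₂ (fun q j => le2 I ⟨q.1, 2 * j + q.2⟩ l = true) bd js

/-- upper conditions -/
def UpP (I : Iv) (l' : Ln) (bd : List (ℤ × ℤ)) (js : List ℤ) : Prop :=
  List.Forall₂ (fun q j => le2 I l' ⟨q.1, 2 * j - 2 + q.2⟩ = true) bd js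

lemma le2_iff {I : Iv} {l l' : Ln} : le2 I l l' = true ↔
    l.v I.v0 I.u0 ≤ l'.v I.v0 I.u0 ∧ l.v I.v1 I.u1 ≤ l'.v I.v1 I.u1 := by
  unfold le2; simp

lemma le2_trans {I : Iv} {l l' l'' : Ln} (h : le2 I l l' = true) (h' : le2 I l' l'' = true) :
    le2 I l l'' = true := by
  rw [le2_iff] at *
  exact ⟨h.1.trans h'.1, h.2.trans h'.2⟩

lemma le2_refl (I : Iv) (l : Ln) : le2 I l l = true := by rw [le2_iff]; exact ⟨le_rfl, le_rfl⟩

lemma checkJs_of {I : Iv} {l l' : Ln} : ∀ {bd : List (ℤ × ℤ)} {js : List ℤ},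
    LowP I l bd js → UpP I l' bd js → checkJs I l l' bd js = true
  | _, _, List.Forall₂.nil, _ => rfl
  | _, _, List.Forall₂.cons h hs, h' => by
    cases h' with
    | cons h1 h1s =>
      simp only [checkJs, Bool.and_eq_true]
      exact ⟨h, h1, checkJs_of hs h1s⟩

lemma forall2_decAt {R R' : ℤ × ℤ → ℤ → Prop} {l : Ln} (hR : ∀ q j, R q j → R' q j)
    (hl : ∀ (q : ℤ × ℤ) (j : ℤ), l.al = q.1 → l.j = 2 * j - 2 + q.2 → R' q (j - 1)) :
    ∀ (i : ℕ) {bd : List (ℤ × ℤ)} {js : List ℤ}, List.Forall₂ R bd js → entOK l i bd js = true →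
      List.Forall₂ R' bd (decAt i js)
  | 0, [], [], _, h => by simp [entOK] at h
  | i + 1, [], [], _, h => by simp [entOK] at h
  | 0, q :: bd, j :: js, List.Forall₂.cons h1 h2, h => by
    simp only [entOK, Bool.and_eq_true, decide_eq_true_eq] at h
    exact List.Forall₂.cons (hl q j h.1 h.2) (h2.imp hR)
  | i + 1, q :: bd, j :: js, List.Forall₂.cons h1 h2, h => by
    simp only [entOK] at h
    exact List.Forall₂.cons (hR q j h1) (forall2_decAt hR hl i h2 h)

lemma forall2_of_decAt {R R' : ℤ × ℤ → ℤ → Prop} {l : Ln} (hR : ∀ q j, R' q j → R q j)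
    (hl : ∀ (q : ℤ × ℤ) (j : ℤ), l.al = q.1 → l.j = 2 * j - 2 + q.2 → R q j) :
    ∀ (i : ℕ) {bd : List (ℤ × ℤ)} {js : List ℤ}, List.Forall₂ R' bd (decAt i js) →
      entOK l i bd js = true → List.Forall₂ R bd js
  | 0, [], js, _, h => by cases js <;> simp [entOK] at h
  | i + 1, [], js, _, h => by cases js <;> simp [entOK] at h
  | 0, q :: bd, [], _, h => by simp [entOK] at h
  | i + 1, q :: bd, [], _, h => by simp [entOK] at h
  | 0, q :: bd, j :: js, h', h => by
    simp only [entOK, Bool.and_eq_true, decide_eq_true_eq] at h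
    simp only [decAt] at h'
    cases h' with
    | cons h1 h2 => exact List.Forall₂.cons (hl q j h.1 h.2) (h2.imp hR)
  | i + 1, q :: bd, j :: js, h', h => by
    simp only [entOK] at h
    simp only [decAt] at h'
    cases h' with
    | cons h1 h2 => exact List.Forall₂.cons (hR q j h1) (forall2_of_decAt hR hl i h2 h)

/-- line after the present one -/
def nl : List QL → Ln
  | [] => topLn
  | q :: _ => q.ln

/-- the stored values are right -/
def QOK (I : Iv) (q : QL) : Prop := q.a = q.ln.v I.v0 I.u0 ∧ q.b = q.ln.v I.v1 I.u1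

lemma nextLn_walk (l : Ln) (js : List ℤ) (S : List QL) :
    nextLn (walk l js S).tail = nl S := by
  cases S with
  | nil => rfl
  | cons q S => cases S <;> rfl

lemma walk_eq (l : Ln) (js : List ℤ) (S : List QL) :
    walk l js S = ⟨l, js⟩ :: (walk l js S).tail := by
  cases S <;> rfl

/-- **the walk is right** -/
lemma walk_check (bd : List (ℤ × ℤ)) (I : Iv) : ∀ (S : List QL) (l : Ln) (la lb : ℤ) (js : List ℤ),
    la = l.v I.v0 I.u0 → lb = l.v I.v1 I.u1 → (∀ q ∈ S, QOK I q) →
    chkWalk bd I la lb js S = true → LowP I l bd js →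
    UpP I topLn bd (S.foldl (fun js q => decAt q.i js) js) →
    checkCells bd I (walk l js S) = true ∧ UpP I (nl S) bd js ∧ le2 I l (nl S) = true := by
  intro S
  induction S with
  | nil =>
    intro l la lb js hla hlb _ hc hL hU
    simp only [chkWalk, Bool.and_eq_true, decide_eq_true_eq] at hc
    have hle : le2 I l topLn = true := by
      rw [le2_iff]
      have e : ∀ N p : ℤ, topLn.v N p = 2 * p := by intro N p; simp [topLn, Ln.v]
      rw [e, e, ← hla, ← hlb]
      exact hc
    refine ⟨?_, hU, hle⟩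
    simp only [walk, checkCells, nextLn, Bool.and_eq_true]
    exact ⟨hle, checkJs_of hL hU, trivial⟩
  | cons q S ih =>
    intro l la lb js hla hlb hQ hc hL hU
    simp only [chkWalk, Bool.and_eq_true, decide_eq_true_eq] at hc
    obtain ⟨hc1, hc2, hc3, hc4⟩ := hc
    have hq := hQ q (List.mem_cons_self ..)
    have hle : le2 I l q.ln = true := by
      rw [le2_iff, ← hla, ← hlb, ← hq.1, ← hq.2]
      exact ⟨hc1, hc2⟩
    -- the lower conditions after the decrement
    have hL' : LowP I q.ln bd (decAt q.i js) := by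
      refine forall2_decAt (l := q.ln) (fun q' j h => le2_trans h hle) ?_ q.i hL hc3
      intro q' j h1 h2
      have : (⟨q'.1, 2 * (j - 1) + q'.2⟩ : Ln) = q.ln := by
        rcases hql : q.ln with ⟨al, jj⟩
        rw [hql] at h1 h2
        simp only at h1 h2
        rw [h1, h2]
        congr 1
        ring
      rw [this]
      exact le2_refl I _
    obtain ⟨ih1, ih2, ih3⟩ := ih q.ln q.a q.b (decAt q.i js) hq.1 hq.2
      (fun q' hq' => hQ q' (List.mem_cons_of_mem _ hq')) hc4 hL' hU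
    have hU' : UpP I q.ln bd js := by
      refine forall2_of_decAt (l := q.ln)
        (R' := fun q' j => le2 I (nl S) ⟨q'.1, 2 * j - 2 + q'.2⟩ = true) ?_ ?_ q.i ih2 hc3
      · intro q' j h
        exact le2_trans ih3 h
      · intro q' j h1 h2
        have : (⟨q'.1, 2 * j - 2 + q'.2⟩ : Ln) = q.ln := by
          rcases hql : q.ln with ⟨al, jj⟩
          rw [hql] at h1 h2
          simp only at h1 h2
          rw [h1, h2]
        rw [this]
        exact le2_refl I _
    refine ⟨?_, hU', hle⟩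
    simp only [walk, checkCells, Bool.and_eq_true]
    have hn : nextLn (walk q.ln (decAt q.i js) S) = q.ln := by
      rw [walk_eq]; rfl
    rw [hn]
    exact ⟨hle, checkJs_of hL hU', ih1⟩

/-! ### permutation -/

lemma insQL_perm (l : QL) : ∀ L : List QL, (insQL l L).Perm (l :: L)
  | [] => List.Perm.refl _
  | a :: as => by
    unfold insQL
    cases decide (l.c ≤ a.c) with
    | true => exact List.Perm.refl _
    | false => exact ((insQL_perm l as).cons a).trans (List.Perm.swap l a as)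

lemma sortQL_perm : ∀ L : List QL, (sortQL L).Perm L
  | [] => List.Perm.refl _
  | a :: as => (insQL_perm a (sortQL as)).trans ((sortQL_perm as).cons a)

lemma decAt_comm : ∀ (i k : ℕ) (js : List ℤ), decAt i (decAt k js) = decAt k (decAt i js)
  | i, k, [] => by simp [decAt]
  | 0, 0, _ :: _ => rfl
  | 0, _ + 1, _ :: _ => rfl
  | _ + 1, 0, _ :: _ => rfl
  | i + 1, k + 1, j :: js => by simp only [decAt]; rw [decAt_comm i k js]

lemma decAt_append : ∀ (pre : List ℤ) (j : ℤ) (js : List ℤ),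
    decAt pre.length (pre ++ j :: js) = pre ++ (j - 1) :: js
  | [], _, _ => rfl
  | a :: pre, j, js => by
    simp only [List.length_cons, List.cons_append, decAt]
    rw [decAt_append pre j js]

lemma foldl_mkQLs (I : Iv) (J : ℤ × ℤ → ℤ) : ∀ (bd : List (ℤ × ℤ)) (pre : List ℤ),
    (mkQLs I J pre.length bd).foldl (fun js q => decAt q.i js) (pre ++ bd.map J) =
      pre ++ bd.map fun q => J q - 1
  | [], pre => by simp [mkQLs]
  | q :: bd, pre => by
    simp only [mkQLs, List.foldl_cons, List.map_cons]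
    have h1 : (mkQL I pre.length q (J q)).i = pre.length := rfl
    rw [h1, decAt_append]
    have h2 : pre ++ (J q - 1) :: bd.map J = (pre ++ [J q - 1]) ++ bd.map J := by simp
    have h3 : pre.length + 1 = (pre ++ [J q - 1]).length := by simp
    rw [h2, h3, foldl_mkQLs I J bd (pre ++ [J q - 1])]
    simp

lemma foldl_sort (I : Iv) (J : ℤ × ℤ → ℤ) (bd : List (ℤ × ℤ)) :
    (sortQL (mkQLs I J 0 bd)).foldl (fun js q => decAt q.i js) (bd.map J) =
      bd.map fun q => J q - 1 := by
  have hp := sortQL_perm (mkQLs I J 0 bd)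
  have h1 := hp.foldl_eq' (f := fun js (q : QL) => decAt q.i js)
    (fun x _ y _ z => decAt_comm y.i x.i z) (bd.map J)
  rw [h1]
  have := foldl_mkQLs I J bd []
  simpa using this

lemma mem_mkQLs (I : Iv) (J : ℤ × ℤ → ℤ) : ∀ (i : ℕ) (bd : List (ℤ × ℤ)) (s : QL),
    s ∈ mkQLs I J i bd → ∃ q ∈ bd, ∃ k, s = mkQL I k q (J q)
  | _, [], s, h => by simp [mkQLs] at h
  | i, q :: bd, s, h => by
    simp only [mkQLs, List.mem_cons] at h
    rcases h with h | h
    · exact ⟨q, List.mem_cons_self .., i, h⟩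
    · obtain ⟨q', hq', k, hk⟩ := mem_mkQLs I J (i + 1) bd s h
      exact ⟨q', List.mem_cons_of_mem _ hq', k, hk⟩

lemma mkQLs_mem (I : Iv) (J : ℤ × ℤ → ℤ) : ∀ (i : ℕ) (bd : List (ℤ × ℤ)) (q : ℤ × ℤ),
    q ∈ bd → ∃ k, mkQL I k q (J q) ∈ mkQLs I J i bd
  | _, [], q, h => by simp at h
  | i, q' :: bd, q, h => by
    simp only [List.mem_cons] at h
    rcases h with h | h
    · subst h
      exact ⟨i, by simp [mkQLs]⟩
    · obtain ⟨k, hk⟩ := mkQLs_mem I J (i + 1) bd q h
      exact ⟨k, by simp only [mkQLs, List.mem_cons]; exact Or.inr hk⟩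

lemma QOK_mkQL (I : Iv) (i : ℕ) (q : ℤ × ℤ) (J : ℤ) : QOK I (mkQL I i q J) := ⟨rfl, rfl⟩

/-- all lines of a correct chain are between `0` and the top -/
lemma chk_bounds (bd : List (ℤ × ℤ)) (I : Iv) : ∀ (S : List QL) (la lb : ℤ) (js : List ℤ),
    chkWalk bd I la lb js S = true →
    (la ≤ 2 * I.u0 ∧ lb ≤ 2 * I.u1) ∧
      ∀ q ∈ S, (la ≤ q.a ∧ q.a ≤ 2 * I.u0) ∧ (lb ≤ q.b ∧ q.b ≤ 2 * I.u1)
  | [], la, lb, js, h => by
    simp only [chkWalk, Bool.and_eq_true, decide_eq_true_eq] at h
    exact ⟨h, fun q hq => by simp at hq⟩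
  | q :: S, la, lb, js, h => by
    simp only [chkWalk, Bool.and_eq_true, decide_eq_true_eq] at h
    obtain ⟨h1, h2, h3, h4⟩ := h
    obtain ⟨h5, h6⟩ := chk_bounds bd I S q.a q.b _ h4
    refine ⟨⟨h1.trans h5.1, h2.trans h5.2⟩, ?_⟩
    intro s hs
    rw [List.mem_cons] at hs
    rcases hs with hs | hs
    · subst hs; exact ⟨⟨h1, h5.1⟩, h2, h5.2⟩
    · have := h6 s hs
      exact ⟨⟨h1.trans this.1.1, this.1.2⟩, h2.trans this.2.1, this.2.2⟩

/-- the walk passes `checkStrip` -/
lemma walk_checkStrip (bd : List (ℤ × ℤ)) (I : Iv) (J : ℤ × ℤ → ℤ) (hI : I.ok = true)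
    (hc : chkWalk bd I 0 0 (bd.map J) (sortQL (mkQLs I J 0 bd)) = true) :
    checkStrip bd I (walk ⟨0, 0⟩ (bd.map J) (sortQL (mkQLs I J 0 bd))) = true := by
  set S := sortQL (mkQLs I J 0 bd) with hS
  have hperm : S.Perm (mkQLs I J 0 bd) := sortQL_perm _
  have hbounds := (chk_bounds bd I S 0 0 _ hc).2
  have hQ : ∀ q ∈ S, QOK I q := by
    intro s hs
    obtain ⟨q, _, k, hk⟩ := mem_mkQLs I J 0 bd s (hperm.mem_iff.1 hs)
    rw [hk]; exact QOK_mkQL I k q (J q)
  have hval : ∀ q ∈ bd,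
      (0 ≤ 2 * q.1 * I.v0 - (2 * J q - 2 + q.2) * I.u0 ∧
        2 * q.1 * I.v0 - (2 * J q - 2 + q.2) * I.u0 ≤ 2 * I.u0) ∧
      (0 ≤ 2 * q.1 * I.v1 - (2 * J q - 2 + q.2) * I.u1 ∧
        2 * q.1 * I.v1 - (2 * J q - 2 + q.2) * I.u1 ≤ 2 * I.u1) := by
    intro q hq
    obtain ⟨k, hk⟩ := mkQLs_mem I J 0 bd q hq
    exact hbounds _ (hperm.mem_iff.2 hk)
  have hL : LowP I ⟨0, 0⟩ bd (bd.map J) := by
    unfold LowP
    rw [List.forall₂_map_right_iff, List.forall₂_same]
    intro q hq
    rw [le2_iff]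
    have := hval q hq
    simp only [Ln.v]
    constructor
    · have := this.1.2
      linarith
    · have := this.2.2
      linarith
  have hU : UpP I topLn bd (S.foldl (fun js q => decAt q.i js) (bd.map J)) := by
    rw [hS, foldl_sort]
    unfold UpP
    rw [List.forall₂_map_right_iff, List.forall₂_same]
    intro q hq
    rw [le2_iff]
    have := hval q hq
    simp only [Ln.v, topLn]
    constructor
    · have := this.1.1
      linarith
    · have := this.2.1
      linarith
  have h0 : ∀ N p : ℤ, (0 : ℤ) = (⟨0, 0⟩ : Ln).v N p := by intro N p; simp [Ln.v]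
  have hw := walk_check bd I S ⟨0, 0⟩ 0 0 (bd.map J) (h0 _ _) (h0 _ _) hQ hc hL hU
  rw [walk_eq]
  simp only [checkStrip]
  rw [← walk_eq]
  simp [hI, hw.1]

/-- the totals of the walk -/
lemma walkTot_eq (kap : List ℤ → ℤ) : ∀ (S : List QL) (l : Ln) (js : List ℤ) (x y : ℤ),
    walkTot kap l js S x y = (x + alTot kap (walk l js S), y + jTot kap (walk l js S)) := by
  intro S
  induction S with
  | nil =>
    intro l js x y
    simp only [walkTot, walk, alTot, jTot, nextLn, topLn]
    simp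
  | cons q S ih =>
    intro l js x y
    simp only [walkTot, walk, alTot, jTot]
    rw [ih]
    have hn : nextLn (walk q.ln (decAt q.i js) S) = q.ln := by rw [walk_eq]; rfl
    rw [hn]
    simp only [Prod.mk.injEq]
    constructor <;> ring

/-- **Specification of the fast strip evaluation.** -/
theorem fastStrip_spec {Sc : ℤ} {bd : List (ℤ × ℤ)} {kap : List ℤ → List ℤ → ℤ} {ext : List ℤ → ℤ}
    {I : Iv} {t : List ℤ} {a : ℤ} (h : fastStrip Sc bd kap ext I t = some a) :
    ∃ cs : List Cell, checkStrip bd I cs = true ∧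
      a = intLow Sc I (alTot (kap t) cs + ext t) (jTot (kap t) cs) := by
  unfold fastStrip at h
  set J : ℤ × ℤ → ℤ := fun q => jst q.1 q.2 (I.v0 + I.v1) (I.u0 + I.u1) 0 with hJ
  set S := sortQL (mkQLs I J 0 bd) with hS
  cases hb : (I.ok && chkWalk bd I 0 0 (bd.map J) S) with
  | false => rw [hb] at h; simp at h
  | true =>
    rw [hb] at h
    simp only [cond_true, Option.some.injEq] at h
    rw [Bool.and_eq_true] at hb
    refine ⟨walk ⟨0, 0⟩ (bd.map J) S, walk_checkStrip bd I J hb.1 hb.2, ?_⟩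
    rw [← h, walkTot_eq]
    simp only [zero_add]

/-- the last strip end of a list -/
lemma fastTotal_cons {Sc : ℤ} {bd : List (ℤ × ℤ)} {kap : List ℤ → List ℤ → ℤ} {ext : List ℤ → ℤ}
    {s s' : St} {L : List St} {T : ℤ} (h : fastTotal Sc bd kap ext (s :: s' :: L) = some T) :
    ∃ a b, fastStrip Sc bd kap ext ⟨s.u, s.v, s'.u, s'.v⟩ s.t = some a ∧
      fastTotal Sc bd kap ext (s' :: L) = some b ∧ T = a + b := by
  simp only [fastTotal] at h
  rcases h1 : fastStrip Sc bd kap ext ⟨s.u, s.v, s'.u, s'.v⟩ s.t with _ | a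
  · rw [h1] at h; simp at h
  · rcases h2 : fastTotal Sc bd kap ext (s' :: L) with _ | b
    · rw [h1, h2] at h; simp at h
    · rw [h1, h2] at h
      simp only [Option.some.injEq] at h
      exact ⟨a, b, rfl, rfl, h.symm⟩

/-- **splitting**: the total of a concatenation -/
theorem fastTotal_append {Sc : ℤ} {bd : List (ℤ × ℤ)} {kap : List ℤ → List ℤ → ℤ}
    {ext : List ℤ → ℤ} {s : St} {L2 : List St} {b : ℤ}
    (h2 : fastTotal Sc bd kap ext (s :: L2) = some b) :
    ∀ {L1 : List St} {a : ℤ}, fastTotal Sc bd kap ext (L1 ++ [s]) = some a →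
      fastTotal Sc bd kap ext (L1 ++ s :: L2) = some (a + b)
  | [], a, h1 => by
    simp only [List.nil_append, fastTotal, Option.some.injEq] at h1
    simp only [List.nil_append, h2, ← h1, zero_add]
  | [r], a, h1 => by
    simp only [List.cons_append, List.nil_append] at h1 ⊢
    obtain ⟨x, y, hx, hy, hxy⟩ := fastTotal_cons h1
    simp only [fastTotal, Option.some.injEq] at hy
    simp only [fastTotal, hx, h2]
    rw [hxy, ← hy]; simp
  | r :: r' :: L1, a, h1 => by
    simp only [List.cons_append] at h1 ⊢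
    obtain ⟨x, y, hx, hy, hxy⟩ := fastTotal_cons h1
    have ih := fastTotal_append h2 (L1 := r' :: L1) hy
    simp only [List.cons_append] at ih
    simp only [fastTotal, hx]
    rw [ih, hxy]
    simp only [Option.some.injEq]
    ring

end Crest.Agent.R006.P8
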