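import Crest.Agent.R006.OddFin_365
import Crest.Agent.R006.P8_FastSpec_799

set_option autoImplicit false

/-!
# Row 6, block P8: the middle range from kernel-checked chunks (helper365)

`Mid.of_fast` : one chunk `L` of strips with `fastTotal ... L = some T` and 814's class form gives
`Mid S c x X (-(T/Sc))`; chunks are glued by `Oddx529.Mid.append`.
`odd_final'` : the final assembly with the middle range in `Mid` form.
-/

namespace Crest.Agent.R006.P8

open Filter Topology Finset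

/-- one strip, any checked cells -/
theorem strip_ge_cs (Sc : ℤ) (hSc : 0 < Sc) (bd : List (ℤ × ℤ))
    (kap : List ℤ → List ℤ → ℤ) (ext : List ℤ → ℤ) (I : Iv) (t : List ℤ) (a : ℤ) (cs : List Cell)
    (hc : checkStrip bd I cs = true)
    (hae : a = intLow Sc I (alTot (kap t) cs + ext t) (jTot (kap t) cs)) (C : ℝ)
    {δ : ℝ} (hδ : 0 < δ) :
    ((I.u0 : ℝ) / I.v0 ≤ (I.u1 : ℝ) / I.v1 ∧ 0 < (I.u0 : ℝ) / I.v0) ∧
    ∀ᶠ N : ℕ in atTop, ∀ V : ℕ → ℝ,
      (∀ p ∈ pr ((I.u0 : ℝ) / I.v0 * N) ((I.u1 : ℝ) / I.v1 * N),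
        (∑ c ∈ range p, (kap t (jvec bd N p c) : ℝ)) + ext t * N - C ≤ V p) →
      (N : ℝ) ^ 2 * ((a : ℝ) / Sc - δ)
        ≤ ∑ p ∈ pr ((I.u0 : ℝ) / I.v0 * N) ((I.u1 : ℝ) / I.v1 * N), Real.log p * V p := by
  obtain ⟨hu0, hv0, hv1, huv⟩ := Iv.ok_iff (ok_of_checkStrip hc)
  set al : ℤ := alTot (kap t) cs with hal
  set j : ℤ := jTot (kap t) cs with hj
  have hu0R : (0 : ℝ) < I.u0 := by exact_mod_cast hu0
  have hv0R : (0 : ℝ) < I.v0 := by exact_mod_cast hv0
  have hv1R : (0 : ℝ) < I.v1 := by exact_mod_cast hv1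
  have huvR : (I.u0 : ℝ) * I.v1 ≤ I.u1 * I.v0 := by exact_mod_cast huv
  have hle : (I.u0 : ℝ) / I.v0 ≤ (I.u1 : ℝ) / I.v1 := by
    rw [div_le_div_iff₀ hv0R hv1R]; exact huvR
  refine ⟨⟨hle, by positivity⟩, ?_⟩
  set P : Piece := ivPiece I (al + ext t) j with hP
  have hPlo : ((P.lo : ℚ) : ℝ) = (I.u0 : ℝ) / I.v0 := by simp [hP, ivPiece]
  have hPhi : ((P.hi : ℚ) : ℝ) = (I.u1 : ℝ) / I.v1 := by simp [hP, ivPiece]
  have hlo0 : 0 ≤ P.lo := by
    have : (0 : ℝ) ≤ ((P.lo : ℚ) : ℝ) := by rw [hPlo]; positivity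
    exact_mod_cast this
  have hlh : P.lo ≤ P.hi := by
    have : ((P.lo : ℚ) : ℝ) ≤ ((P.hi : ℚ) : ℝ) := by rw [hPlo, hPhi]; exact hle
    exact_mod_cast this
  have key := tendsto_natCast_atTop_atTop.eventually
    (P.sum_le hlo0 hlh (C + absTot (kap t) cs) hδ)
  filter_upwards [key, eventually_gt_atTop 0] with N hN hN0 V hV
  have hN0R : (0 : ℝ) < N := by exact_mod_cast hN0
  rw [hPlo, hPhi] at hN
  have e1 := hN (fun p => -V p) ?_
  · have e2 : ∑ p ∈ pr ((I.u0 : ℝ) / I.v0 * N) ((I.u1 : ℝ) / I.v1 * N), Real.log p * -V p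
        = -∑ p ∈ pr ((I.u0 : ℝ) / I.v0 * N) ((I.u1 : ℝ) / I.v1 * N), Real.log p * V p := by
      rw [← Finset.sum_neg_distrib]
      exact Finset.sum_congr rfl fun p _ => by ring
    rw [e2] at e1
    have hScR : (0 : ℝ) < Sc := by exact_mod_cast hSc
    have e3 : (a : ℝ) ≤ -(Sc * (P.I : ℝ)) := by
      have := intLow_le (Sc := Sc) hv0 hv1 (al + ext t) j
      rw [← hae] at this
      exact_mod_cast this
    have e4 : (a : ℝ) / Sc ≤ -(P.I : ℝ) := by
      rw [div_le_iff₀ hScR]; linarith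
    have e5 : (N : ℝ) ^ 2 * ((a : ℝ) / Sc - δ) ≤ (N : ℝ) ^ 2 * (-(P.I : ℝ) - δ) := by
      gcongr
    linarith
  · intro p hp
    have hp' := hp
    rw [mem_pr] at hp'
    have hV' := hV p hp
    have h0 : I.u0 * N ≤ I.v0 * p := by
      have := hp'.2.1
      rw [div_mul_eq_mul_div, div_lt_iff₀ hv0R] at this
      have h' : (I.u0 : ℝ) * N ≤ I.v0 * p := by linarith
      exact_mod_cast h'
    have h1 : I.v1 * p ≤ I.u1 * N := by
      have := hp'.2.2
      rw [div_mul_eq_mul_div, le_div_iff₀ hv1R] at this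
      have h' : (I.v1 : ℝ) * p ≤ I.u1 * N := by linarith
      exact_mod_cast h'
    have h2 := classSumGe bd I cs hc (kap t) N p hN0 h0 h1 (fun c => kap t (jvec bd N p c))
      (fun c _ => le_rfl)
    have h3 : (N : ℝ) * ((P.al : ℝ) + P.be * (p / N))
        = -((N : ℝ) * (al + ext t)) + p * j / 2 := by
      simp only [hP, ivPiece]
      push_cast
      field_simp
    rw [h3]
    linarith

end Crest.Agent.R006.P8

namespace Crest.Agent.R006.D

open Polynomial Filter Topology Finset Crest.Agent.R006 Crest.Agent.R006.P8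

/-- one strip, kernel-checked -/
theorem Mid.of_fastStrip {S : Shape} {c : ℕ} {Sc : ℤ} (hSc : 0 < Sc) {bd : List (ℤ × ℤ)}
    {kap : List ℤ → List ℤ → ℤ} {ext : List ℤ → ℤ} {s s' : St} {a : ℤ}
    (ha : fastStrip Sc bd kap ext ⟨s.u, s.v, s'.u, s'.v⟩ s.t = some a)
    (hCl : ClassStrip S c bd kap ext s s') :
    (s.u : ℝ) / s.v ≤ (s'.u : ℝ) / s'.v ∧
      Oddx529.Mid S c ((s.u : ℚ) / s.v) ((s'.u : ℚ) / s'.v) (-((a : ℝ) / Sc)) := by
  obtain ⟨cs, hc, hae⟩ := fastStrip_spec ha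
  obtain ⟨C', hCl⟩ := hCl
  refine ⟨(strip_ge_cs Sc hSc bd kap ext _ _ a cs hc hae C' one_pos).1.1, ?_⟩
  intro δ hδ
  have ht := (strip_ge_cs Sc hSc bd kap ext _ _ a cs hc hae C' hδ).2
  simp only at ht
  filter_upwards [hCl, ht] with u hCl ht r hr
  refine ⟨fun p => C' - ((∑ a ∈ range p, (kap s.t (jvec bd u p a) : ℝ)) + ext s.t * u), ?_, ?_⟩
  · intro p hp
    obtain ⟨hp0, hp1, hp2⟩ := mem_pr.mp hp
    push_cast at hp1 hp2
    exact hCl r hr p hp0 hp1 hp2
  · have h := ht (fun p => (∑ a ∈ range p, (kap s.t (jvec bd u p a) : ℝ)) + ext s.t * u - C')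
      fun p _ => le_rfl
    push_cast
    have e : ∑ p ∈ pr ((s.u : ℝ) / s.v * u) ((s'.u : ℝ) / s'.v * u),
        Real.log p * (C' - ((∑ a ∈ range p, (kap s.t (jvec bd u p a) : ℝ)) + ext s.t * u))
        = -∑ p ∈ pr ((s.u : ℝ) / s.v * u) ((s'.u : ℝ) / s'.v * u),
          Real.log p * ((∑ a ∈ range p, (kap s.t (jvec bd u p a) : ℝ)) + ext s.t * u - C') := by
      rw [← Finset.sum_neg_distrib]
      exact Finset.sum_congr rfl fun p _ => by ring
    rw [e]
    linarith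

/-- the left end of the first strip and the right end of the last one -/
def stLo (L : List St) : ℚ := match L with
  | [] => 0
  | s :: _ => (s.u : ℚ) / s.v

/-- the right end of the last one -/
def stHi : List St → ℚ
  | [] => 0
  | [s] => (s.u : ℚ) / s.v
  | _ :: s' :: L => stHi (s' :: L)

/-- **one chunk**, kernel-checked -/
theorem Mid.of_fast {S : Shape} {c : ℕ} {Sc : ℤ} (hSc : 0 < Sc) {bd : List (ℤ × ℤ)}
    {kap : List ℤ → List ℤ → ℤ} {ext : List ℤ → ℤ} : ∀ (L : List St) (T : ℤ),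
    fastTotal Sc bd kap ext L = some T → ClassForm S c bd kap ext L →
      stLo L ≤ stHi L ∧ Oddx529.Mid S c (stLo L) (stHi L) (-((T : ℝ) / Sc))
  | [], T, hT, _ => by
    simp only [fastTotal, Option.some.injEq] at hT
    subst hT
    refine ⟨le_rfl, ?_⟩
    have e : stLo [] = stHi [] := rfl
    rw [← e]
    simpa using Oddx529.Mid.refl S c (stLo [])
  | [s], T, hT, _ => by
    simp only [fastTotal, Option.some.injEq] at hT
    subst hT
    refine ⟨le_rfl, ?_⟩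
    have e : stLo [s] = stHi [s] := rfl
    rw [← e]
    simpa using Oddx529.Mid.refl S c (stLo [s])
  | s :: s' :: L, T, hT, hCl => by
    obtain ⟨a, b, ha, hb, rfl⟩ := fastTotal_cons hT
    obtain ⟨h1, h2⟩ := Mid.of_fastStrip hSc ha
      (hCl s s' (List.prefix_append [s, s'] L).isInfix)
    obtain ⟨h3, h4⟩ := Mid.of_fast hSc (s' :: L) b hb
      (fun x y hxy => hCl x y (hxy.trans (List.suffix_cons s (s' :: L)).isInfix))
    have h1' : stLo (s :: s' :: L) ≤ stLo (s' :: L) := by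
      have : ((stLo (s :: s' :: L) : ℚ) : ℝ) ≤ (stLo (s' :: L) : ℚ) := by
        simp only [stLo]; push_cast; exact h1
      exact_mod_cast this
    refine ⟨h1'.trans h3, ?_⟩
    have := Oddx529.Mid.append h1' h3 h2 h4
    have e : -(((a + b : ℤ) : ℝ) / Sc) = -((a : ℝ) / Sc) + -((b : ℝ) / Sc) := by
      push_cast; ring
    rw [e]
    exact this

/-- **The odd part**, middle range in `Mid` form. -/
theorem odd_final' (S : Shape) (c : ℕ) {K : ℝ} (hCr : Crude S c K)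
    {C0 x0 K1 K2 κ : ℝ} {w y J : ℕ} (hC0 : 0 < C0) (hPW : P5b.PW S c C0 x0 K1 K2 κ w)
    (hκ : 0 ≤ κ) (hw : 0 < w) (hy : 0 < y) (hyJ : y ≤ J) (hx0 : (w : ℝ) / y ≤ x0)
    {al be : ℚ} (hal : K1 < al) (hbe : K2 ≤ be)
    {X : ℚ} (hxX : (w : ℚ) / y ≤ X) {αm : ℝ} (hM : Oddx529.Mid S c ((w : ℚ) / y) X αm)
    (hL : Large S c X) {α : ℝ}
    (hα : (al : ℝ) * (w / J) + be * ((w : ℝ) / J) ^ 2 / 2
        + ((K1 * ((w : ℝ) / y - w / J) + K2 * (((w : ℝ) / y) ^ 2 - ((w : ℝ) / J) ^ 2) / 2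
          - κ * P5b.saw w y J) + αm) ≤ α) : Odd S c α := by
  have hw' : (0 : ℝ) < w := by exact_mod_cast hw
  have hy' : (0 : ℝ) < y := by exact_mod_cast hy
  have hJ' : (0 : ℝ) < J := by exact_mod_cast lt_of_lt_of_le hy hyJ
  have hyJ' : (y : ℝ) ≤ J := by exact_mod_cast hyJ
  have hle : (w : ℝ) / J ≤ w / y := by gcongr
  set xe : ℚ := (w : ℚ) / J with hxe
  set x1 : ℚ := (w : ℚ) / y with hx1
  have exe : (xe : ℝ) = w / J := by rw [hxe]; push_cast; rfl
  have ex1 : (x1 : ℝ) = w / y := by rw [hx1]; push_cast; rfl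
  have hxe0 : 0 < xe := by
    have : (0 : ℝ) < xe := by rw [exe]; positivity
    exact_mod_cast this
  have hxx : xe ≤ x1 := by
    have : (xe : ℝ) ≤ x1 := by rw [exe, ex1]; exact hle
    exact_mod_cast this
  have hSm := P5b.small_of_PW hPW hκ (x := xe) (al := al) (be := be)
    (by rw [exe]; exact hle.trans hx0) hal hbe
  have hM1 := P5b.mid_of_PW hPW hw hy hyJ exe ex1 (by rw [ex1]; exact hx0)
  have hM2 := Oddx529.Mid.append hxx hxX hM1 hM
  refine Oddx529.odd_of_mid S c hCr hC0 hxe0 (hxx.trans hxX) hSm hM2 hL ?_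
  rw [exe, ex1]
  linarith

end Crest.Agent.R006.D
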