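import Crest.Agent.R006.OddAsm_365
import Crest.Agent.R006.P5b_Mid_481

set_option autoImplicit false

/-!
# Row 6, block P8: the final assembly of the odd part (helper365)

`odd_final` : `Crude` (tiny primes), `PW` (481's pointwise bound with the saw-tooth,
`√(C0 u) < p ≤ x0 u`), `ClassForm` (P4, `w u / y < p ≤ X u`), `Large` (`p > X u`) and the
kernel-computed total `totalLow = some T` give `Odd S c α`.
-/

namespace Crest.Agent.R006.D

open Polynomial Filter Topology Finset Crest.Agent.R006 Crest.Agent.R006.P8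

/-- 814's class form gives 529's -/
theorem classBd_of_form {S : Shape} {c : ℕ} {bd : List (ℤ × ℤ)} {kap : List ℤ → List ℤ → ℤ}
    {ext : List ℤ → ℤ} {L : List St} (h : ClassForm S c bd kap ext L) :
    Oddx529.ClassBd S c bd kap ext L := by
  obtain ⟨C', h⟩ := classForm_uniform h
  refine ⟨C', ?_⟩
  filter_upwards [h] with u h r hr s s' hs p hp h1 h2
  have := h s s' hs r hr p hp h1 h2
  refine this.mono (le_of_eq ?_)
  ring

/-- **The odd part.** -/
theorem odd_final (S : Shape) (c : ℕ) {K : ℝ} (hCr : Crude S c K)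
    {C0 x0 K1 K2 κ : ℝ} {w y J : ℕ} (hC0 : 0 < C0) (hPW : P5b.PW S c C0 x0 K1 K2 κ w)
    (hκ : 0 ≤ κ) (hw : 0 < w) (hy : 0 < y) (hyJ : y ≤ J) (hx0 : (w : ℝ) / y ≤ x0)
    {al be : ℚ} (hal : K1 < al) (hbe : K2 ≤ be)
    {Sc : ℤ} (hSc : 0 < Sc) {bd : List (ℤ × ℤ)} {kap : List ℤ → List ℤ → ℤ} {ext : List ℤ → ℤ}
    {s0 : St} {L : List St} {se : St} {T : ℤ}
    (hT : totalLow Sc bd kap ext (s0 :: L ++ [se]) = some T)
    (hCl : ClassForm S c bd kap ext (s0 :: L ++ [se]))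
    (hs0 : (s0.u : ℝ) / s0.v = w / y) {X : ℚ} (hX : (X : ℝ) = (se.u : ℝ) / se.v)
    (hxX : (w : ℝ) / y ≤ X) (hL : Large S c X) {α : ℝ}
    (hα : (al : ℝ) * (w / J) + be * ((w : ℝ) / J) ^ 2 / 2
        + ((K1 * ((w : ℝ) / y - w / J) + K2 * (((w : ℝ) / y) ^ 2 - ((w : ℝ) / J) ^ 2) / 2
          - κ * P5b.saw w y J) - (T : ℝ) / Sc) ≤ α) : Odd S c α := by
  have hw' : (0 : ℝ) < w := by exact_mod_cast hw
  have hy' : (0 : ℝ) < y := by exact_mod_cast hy
  have hJ' : (0 : ℝ) < J := by exact_mod_cast lt_of_lt_of_le hy hyJ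
  have hyJ' : (y : ℝ) ≤ J := by exact_mod_cast hyJ
  have hle : (w : ℝ) / J ≤ w / y := by gcongr
  set xe : ℚ := (w : ℚ) / J with hxe
  set x1 : ℚ := (w : ℚ) / y with hx1
  have exe : (xe : ℝ) = w / J := by rw [hxe]; push_cast; rfl
  have ex1 : (x1 : ℝ) = w / y := by rw [hx1]; push_cast; rfl
  have hxe0 : 0 < xe := by
    have : (0 : ℝ) < xe := by rw [exe]; positivity
    exact_mod_cast this
  have hxx : xe ≤ x1 := by
    have : (xe : ℝ) ≤ x1 := by rw [exe, ex1]; exact hle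
    exact_mod_cast this
  have hxX' : x1 ≤ X := by
    have : (x1 : ℝ) ≤ X := by rw [ex1]; exact hxX
    exact_mod_cast this
  have hSm := P5b.small_of_PW hPW hκ (x := xe) (al := al) (be := be)
    (by rw [exe]; exact hle.trans hx0) hal hbe
  have hM1 := P5b.mid_of_PW hPW hw hy hyJ exe ex1 (by rw [ex1]; exact hx0)
  have hM2 := Oddx529.Mid.of_class Sc hSc bd kap ext s0 L se T hT (classBd_of_form hCl) x1 X
    (by rw [ex1, hs0]) hX
  have hM := Oddx529.Mid.append hxx hxX' hM1 hM2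
  refine Oddx529.odd_of_mid S c hCr hC0 hxe0 (hxx.trans hxX') hSm hM hL ?_
  rw [exe, ex1]
  linarith

end Crest.Agent.R006.D
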