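import Crest.Agent.R006.P8_HintTot_799
import Crest.Agent.R006.OddFast_365
import Crest.Agent.R006.P4Iface_814

set_option autoImplicit false

/-!
# Row 6, block P8 (helper799): the middle range from hinted strips

`Mid.of_LB`, `Mid.of_hint` : as `Mid.of_fast` (helper365), for lower bounds computed in any way,
resp. by `totalH`; `kapT_eq` : 814's class cost `kapT` is `kapK` after dropping the third multiplier.
-/

namespace Crest.Agent.R006.D

open Polynomial Filter Topology Finset Crest.Agent.R006 Crest.Agent.R006.P8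

/-- one strip -/
theorem Mid.of_stripLB {S : Shape} {c : ℕ} {Sc : ℤ} (hSc : 0 < Sc) {bd : List (ℤ × ℤ)}
    {kap : List ℤ → List ℤ → ℤ} {ext : List ℤ → ℤ} {s s' : St} {a : ℤ}
    (ha : StripLB Sc bd kap ext ⟨s.u, s.v, s'.u, s'.v⟩ s.t a)
    (hCl : ClassStrip S c bd kap ext s s') :
    (s.u : ℝ) / s.v ≤ (s'.u : ℝ) / s'.v ∧
      Oddx529.Mid S c ((s.u : ℚ) / s.v) ((s'.u : ℚ) / s'.v) (-((a : ℝ) / Sc)) := by
  obtain ⟨C', hCl⟩ := hCl
  refine ⟨(strip_ge_LB Sc hSc bd kap ext _ _ a ha C' one_pos).1.1, ?_⟩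
  intro δ hδ
  have ht := (strip_ge_LB Sc hSc bd kap ext _ _ a ha C' hδ).2
  simp only at ht
  filter_upwards [hCl, ht] with u hCl ht r hr
  refine ⟨fun p => C' - ((∑ a ∈ range p, (kap s.t (jvec bd u p a) : ℝ)) + ext s.t * u), ?_, ?_⟩
  · intro p hp
    obtain ⟨hp0, hp1, hp2⟩ := mem_pr.mp hp
    push_cast at hp1 hp2
    exact hCl r hr p hp0 hp1 hp2
  · have h := ht (fun p => (∑ a ∈ range p, (kap s.t (jvec bd u p a) : ℝ)) + ext s.t * u - C')
      fun p _ => le_rfl
    push_cast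
    have e : ∑ p ∈ pr ((s.u : ℝ) / s.v * u) ((s'.u : ℝ) / s'.v * u),
        Real.log p * (C' - ((∑ a ∈ range p, (kap s.t (jvec bd u p a) : ℝ)) + ext s.t * u))
        = -∑ p ∈ pr ((s.u : ℝ) / s.v * u) ((s'.u : ℝ) / s'.v * u),
          Real.log p * ((∑ a ∈ range p, (kap s.t (jvec bd u p a) : ℝ)) + ext s.t * u - C') := by
      rw [← Finset.sum_neg_distrib]
      exact Finset.sum_congr rfl fun p _ => by ring
    rw [e]
    linarith

/-- **one chunk**, any lower bound -/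
theorem Mid.of_LB {S : Shape} {c : ℕ} {Sc : ℤ} (hSc : 0 < Sc) {bd : List (ℤ × ℤ)}
    {kap : List ℤ → List ℤ → ℤ} {ext : List ℤ → ℤ} : ∀ (L : List St) (T : ℤ),
    TotLB Sc bd kap ext L T → ClassForm S c bd kap ext L →
      stLo L ≤ stHi L ∧ Oddx529.Mid S c (stLo L) (stHi L) (-((T : ℝ) / Sc))
  | [], T, hT, _ => by
    have hT : T = 0 := hT
    subst hT
    refine ⟨le_rfl, ?_⟩
    have e : stLo [] = stHi [] := rfl
    rw [← e]
    simpa using Oddx529.Mid.refl S c (stLo [])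
  | [s], T, hT, _ => by
    have hT : T = 0 := hT
    subst hT
    refine ⟨le_rfl, ?_⟩
    have e : stLo [s] = stHi [s] := rfl
    rw [← e]
    simpa using Oddx529.Mid.refl S c (stLo [s])
  | s :: s' :: L, T, hT, hCl => by
    obtain ⟨a, b, ha, hb, rfl⟩ := hT
    obtain ⟨h1, h2⟩ := Mid.of_stripLB hSc ha
      (hCl s s' (List.prefix_append [s, s'] L).isInfix)
    obtain ⟨h3, h4⟩ := Mid.of_LB hSc (s' :: L) b hb
      (fun x y hxy => hCl x y (hxy.trans (List.suffix_cons s (s' :: L)).isInfix))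
    have h1' : stLo (s :: s' :: L) ≤ stLo (s' :: L) := by
      have : ((stLo (s :: s' :: L) : ℚ) : ℝ) ≤ (stLo (s' :: L) : ℚ) := by
        simp only [stLo]; push_cast; exact h1
      exact_mod_cast this
    refine ⟨h1'.trans h3, ?_⟩
    have := Oddx529.Mid.append h1' h3 h2 h4
    have e : -(((a + b : ℤ) : ℝ) / Sc) = -((a : ℝ) / Sc) + -((b : ℝ) / Sc) := by
      push_cast; ring
    rw [e]
    exact this

/-- drop the third multiplier -/
def tfT : List ℤ → List ℤ
  | lam :: mu :: _ :: L => lam :: mu :: L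
  | _ => []

theorem kapT_eq : P4If.kapT = fun t => kapK kindsS refsS ipS (tfT t) := by
  funext t js
  rcases t with _ | ⟨a, _ | ⟨b, _ | ⟨c, L⟩⟩⟩ <;> rfl

/-- **hinted strips**, kernel-checked -/
theorem Mid.of_hint {S : Shape} {c : ℕ} {Sc : ℤ} (hSc : 0 < Sc) {bd : List (ℤ × ℤ)}
    {ext : List ℤ → ℤ} (hcfg : cfgOK kindsS refsS ipS bd = true) (L : List SH) (T : ℤ)
    (hT : totalH Sc kindsS refsS ipS tfT bd ext L = some T)
    (hCl : ClassForm S c bd P4If.kapT ext (L.map SH.st)) :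
    stLo (L.map SH.st) ≤ stHi (L.map SH.st) ∧
      Oddx529.Mid S c (stLo (L.map SH.st)) (stHi (L.map SH.st)) (-((T : ℝ) / Sc)) := by
  have h := TotLB_of_totalH hSc.le hcfg hT
  rw [← kapT_eq] at h
  exact Mid.of_LB hSc _ T h hCl

end Crest.Agent.R006.D
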