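import Crest.Agent.R006.OddFast_365
import Crest.Agent.R006.Asm_378

set_option autoImplicit false

/-!
# Row 6, block P8: the odd part of the frozen shape `SN` (helper365)

`odd_SN` : the pointwise bound of P5b on `(√(C0 u), u/2]` and the middle range `(u/2, 60 u]`.
-/

namespace Crest.Agent.R006.D

open Polynomial Filter Topology Finset Crest.Agent.R006 Crest.Agent.R006.P8

theorem harm_SN : ∑ i ∈ Finset.Ico (12 : ℕ) 192, 1 / ((i : ℚ) + 1) ≤ 27341023 / 10000000 := by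
  decide +kernel

theorem saw_SN : (2309 / 10000 : ℝ) ≤ P5b.saw 6 12 192 := by
  have h1 : ((∑ i ∈ Finset.Ico (12 : ℕ) 192, 1 / ((i : ℚ) + 1) : ℚ) : ℝ)
      ≤ ((27341023 / 10000000 : ℚ) : ℝ) := by exact_mod_cast harm_SN
  push_cast at h1
  have h2 : Real.log (((192 : ℕ) : ℝ) / ((12 : ℕ) : ℝ)) = 4 * Real.log 2 := by
    have : (((192 : ℕ) : ℝ) / ((12 : ℕ) : ℝ)) = 2 ^ 4 := by norm_num
    rw [this, Real.log_pow]; norm_num
  have h3 := Real.log_two_gt_d9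
  rw [P5b.saw, h2]
  push_cast
  linarith

/-- **The odd part of `SN`** from P5b and the middle range. -/
theorem odd_SN {C0 x0 : ℝ} (hC0 : 0 < C0) (hx0 : 1 / 2 ≤ x0)
    (hPW : P5b.PW SN 40 C0 x0 (7 / 2) (9 / 4) 21 6) {αm : ℝ}
    (hM : Oddx529.Mid SN 40 (1 / 2) 60 αm) {α : ℝ} (hα : αm - 2.81 ≤ α) : Odd SN 40 α := by
  have hs := saw_SN
  have e : (1 / 2 : ℚ) = ((6 : ℕ) : ℚ) / ((12 : ℕ) : ℚ) := by norm_num
  rw [e] at hM
  refine odd_final' SN 40 SN_crude hC0 hPW (by norm_num) (by norm_num) (by norm_num)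
    (by norm_num) (J := 192) ?_ (al := 7 / 2 + 1 / 1000) (be := 9 / 4) ?_ ?_ (X := 60) ?_ hM
    (SN_large (by norm_num)) ?_
  · push_cast; linarith
  · push_cast; norm_num
  · push_cast; norm_num
  · push_cast; norm_num
  · push_cast
    have : (7 / 2 + 1 / 1000 : ℝ) * (6 / 192) + 9 / 4 * (6 / 192) ^ 2 / 2
        + (7 / 2 * (6 / 12 - 6 / 192) + 9 / 4 * ((6 / 12) ^ 2 - (6 / 192) ^ 2) / 2
          - 21 * (2309 / 10000)) ≤ -2.81 := by norm_num
    nlinarith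

/-- the same with the slope `3` of P5b -/
theorem odd_SN3 {C0 x0 : ℝ} (hC0 : 0 < C0) (hx0 : 1 / 2 ≤ x0)
    (hPW : P5b.PW SN 40 C0 x0 (7 / 2) 3 21 6) {αm : ℝ}
    (hM : Oddx529.Mid SN 40 (1 / 2) 60 αm) {α : ℝ} (hα : αm - 2.72 ≤ α) : Odd SN 40 α := by
  have hs := saw_SN
  have e : (1 / 2 : ℚ) = ((6 : ℕ) : ℚ) / ((12 : ℕ) : ℚ) := by norm_num
  rw [e] at hM
  refine odd_final' SN 40 SN_crude hC0 hPW (by norm_num) (by norm_num) (by norm_num)
    (by norm_num) (J := 192) ?_ (al := 7 / 2 + 1 / 1000) (be := 3) ?_ ?_ (X := 60) ?_ hM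
    (SN_large (by norm_num)) ?_
  · push_cast; linarith
  · push_cast; norm_num
  · push_cast; norm_num
  · push_cast; norm_num
  · push_cast
    have : (7 / 2 + 1 / 1000 : ℝ) * (6 / 192) + 3 * (6 / 192) ^ 2 / 2
        + (7 / 2 * (6 / 12 - 6 / 192) + 3 * ((6 / 12) ^ 2 - (6 / 192) ^ 2) / 2
          - 21 * (2309 / 10000)) ≤ -2.72 := by norm_num
    nlinarith

end Crest.Agent.R006.D
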