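import Mathlib
import Crest.Agent.R006.CauchyDual_324
import Crest.Agent.R006.Pre_Andreief_475

/-!
Row 6, block P3 (helper324): abstract assembly of the archimedean bound.

Particles `p : E` are "clouds": a probability space `Θ` of positions `z p θ : ℂ` with factors
`α p θ` (row side) and `β p θ` (column side).  A contour point is a constant cloud, an atom
(site `y`, jet order `r`) is a circle around `y`.
-/

set_option autoImplicit false

open scoped Nat
open Finset Matrix MeasureTheory CauchyDual324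

namespace P3Asm324

variable {Θ : Type*} [MeasurableSpace Θ] (ν : Measure Θ) [IsProbabilityMeasure ν]

section cloud

variable {ι δ κ : Type*} [Fintype ι] [DecidableEq ι] [Fintype δ] [DecidableEq δ]
  [Fintype κ] [DecidableEq κ]

/-- columns which are means over clouds. -/
theorem norm_det_cloud_le (e : ι ≃ δ ⊕ κ) (F : ι → δ → Θ → ℂ) (B : ι → κ → ℂ)
    (hF : ∀ i l, Integrable (F i l) ν) (c : ℝ)
    (hc : ∀ θ : δ → Θ, ‖(Matrix.of fun i j => Sum.elim (fun l => F i l (θ l)) (B i) (e j) :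
      Matrix ι ι ℂ).det‖ ≤ c) :
    ‖(Matrix.of fun i j => Sum.elim (fun l => ∫ θ, F i l θ ∂ν) (B i) (e j) :
      Matrix ι ι ℂ).det‖ ≤ c := by
  rw [Crest.Agent.R006.Andreief475.det_integral_columns e (fun _ => ν) F B hF]
  have h := norm_integral_le_of_norm_le_const (μ := Measure.pi fun _ : δ => ν)
    (Filter.Eventually.of_forall hc)
  simpa using h

/-- square matrices whose rows (index `l`) are means over clouds. -/
theorem norm_det_cloud_rows_le (G : δ → δ → Θ → ℂ)
    (hG : ∀ l l', Integrable (G l l') ν) (c : ℝ)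
    (hc : ∀ θ : δ → Θ, ‖(Matrix.of fun l l' => G l l' (θ l) : Matrix δ δ ℂ).det‖ ≤ c) :
    ‖(Matrix.of fun l l' => ∫ θ, G l l' θ ∂ν : Matrix δ δ ℂ).det‖ ≤ c := by
  have h := norm_det_cloud_le ν (Equiv.sumEmpty δ Empty).symm (fun i l θ => G l i θ)
    (fun _ x => x.elim) (fun i l => hG l i) c (by
      intro θ
      have := hc θ
      rw [← Matrix.det_transpose] at this
      convert this using 3
      ext i j
      rfl)
  rw [← Matrix.det_transpose]
  convert h using 3
  ext i j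
  rfl

end cloud

section pointwise

variable {ι κ : Type*} [Fintype ι] [DecidableEq ι] [Fintype κ] [DecidableEq κ]
variable {a K : ℕ} {E E' : Type*}

/-- `ω_Z(s) = ∏_j ‖s - Z j‖`. -/
noncomputable def om {k : ℕ} (Z : Fin k → ℂ) (s : ℂ) : ℝ := ∏ j, ‖s - Z j‖

theorem om_nonneg {k : ℕ} (Z : Fin k → ℂ) (s : ℂ) : 0 ≤ om Z s := by
  unfold om; positivity

/-- the reference constant. -/
noncomputable def refC (a K : ℕ) (d : ℝ) (Z : Fin a → ℂ) (Y : Fin K → ℂ) : ℝ :=
  ((a ! : ℝ) * (K ! : ℝ) * ((a + K)! : ℝ) * d⁻¹ ^ (2 * (a + K))) /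
    (nV Z * nV Y * nV (Fin.append Z Y))

theorem nV_append_le {d : ℝ} (hd : 0 < d) (Z : Fin a → ℂ) (Y : Fin K → ℂ)
    (hZY : 0 < nV (Fin.append Z Y)) (z : Fin a → ℂ) (z' : Fin K → ℂ)
    (h1 : ∀ i j, d ≤ ‖z i - Z j‖) (h2 : ∀ i j, d ≤ ‖z i - Y j‖)
    (h3 : ∀ i j, d ≤ ‖z' i - Z j‖) (h4 : ∀ i j, d ≤ ‖z' i - Y j‖) :
    nV (Fin.append z z') ≤ ((a + K)! : ℝ) * d⁻¹ ^ (a + K) / nV (Fin.append Z Y) *
      ((∏ i, (om Z (z i) * om Y (z i))) * ∏ i, (om Z (z' i) * om Y (z' i))) := by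
  have h := nV_dual (Fin.append z z') (Fin.append Z Y) hd (by
    intro i j
    refine Fin.addCases (fun i => ?_) (fun i => ?_) i <;>
      refine Fin.addCases (fun j => ?_) (fun j => ?_) j
    · simpa using h1 i j
    · simpa using h2 i j
    · simpa using h3 i j
    · simpa using h4 i j)
  rw [Fin.prod_univ_add (fun i => ∏ j, ‖Fin.append z z' i - Fin.append Z Y j‖)] at h
  simp only [Fin.prod_univ_add, Fin.append_left, Fin.append_right] at h
  rw [div_mul_eq_mul_div, le_div_iff₀ hZY]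
  refine h.trans (le_of_eq ?_)
  simp only [om]

theorem nV_le_ref {k : ℕ} {d : ℝ} (hd : 0 < d) (Z z : Fin k → ℂ) (hZ : 0 < nV Z)
    (h1 : ∀ i j, d ≤ ‖z i - Z j‖) :
    nV z ≤ (k ! : ℝ) * d⁻¹ ^ k / nV Z * ∏ i, om Z (z i) := by
  have h := nV_dual z Z hd h1
  rw [div_mul_eq_mul_div, le_div_iff₀ hZ]
  simpa [om] using h

/-- **pointwise bound** of the Andreief integrand by a product of one-particle weights. -/
theorem pointwise_bound (e : ι ≃ Fin a ⊕ (Fin K ⊕ κ))
    (Fz : ι → ℂ → ℂ) (B : ι → κ → ℂ) (G : Fin a → ℂ → ℂ) (G' : Fin K → ℂ → ℂ)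
    (D : Set ℂ) (wS wR wQ : ℂ → ℝ) (hwS : ∀ s, 0 ≤ wS s) (hwR : ∀ s, 0 ≤ wR s)
    (hwQ : ∀ s, 0 ≤ wQ s) (CA CB CB' : ℝ) (hCA : 0 ≤ CA) (hCB : 0 ≤ CB) (hCB' : 0 ≤ CB')
    (HA : ∀ (z : Fin a → ℂ) (z' : Fin K → ℂ), (∀ l, z l ∈ D) → (∀ l, z' l ∈ D) →
      ‖(Matrix.of fun i j => Sum.elim (fun l => Fz i (z l))
        (Sum.elim (fun l => Fz i (z' l)) (B i)) (e j) : Matrix ι ι ℂ).det‖ ≤
        CA * nV (Fin.append z z') * ((∏ l, wS (z l)) * ∏ l, wS (z' l)))
    (HB : ∀ z : Fin a → ℂ, (∀ l, z l ∈ D) →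
      ‖(Matrix.of fun l l' => G l' (z l) : Matrix (Fin a) (Fin a) ℂ).det‖ ≤
        CB * nV z * ∏ l, wR (z l))
    (HB' : ∀ z : Fin K → ℂ, (∀ l, z l ∈ D) →
      ‖(Matrix.of fun l l' => G' l' (z l) : Matrix (Fin K) (Fin K) ℂ).det‖ ≤
        CB' * nV z * ∏ l, wQ (z l))
    {d : ℝ} (hd : 0 < d) (Z : Fin a → ℂ) (Y : Fin K → ℂ) (hZ : 0 < nV Z) (hY : 0 < nV Y)
    (hZY : 0 < nV (Fin.append Z Y))
    (hDZ : ∀ s ∈ D, ∀ j, d ≤ ‖s - Z j‖) (hDY : ∀ s ∈ D, ∀ j, d ≤ ‖s - Y j‖)
    (z : E → Θ → ℂ) (α β : E → Θ → ℂ) (z' : E' → Θ → ℂ) (α' β' : E' → Θ → ℂ)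
    (hzD : ∀ p θ, z p θ ∈ D) (hzD' : ∀ p θ, z' p θ ∈ D)
    (iA : ∀ i p, Integrable (fun θ => Fz i (z p θ) * α p θ) ν)
    (iA' : ∀ i p, Integrable (fun θ => Fz i (z' p θ) * α' p θ) ν)
    (iB : ∀ l p, Integrable (fun θ => G l (z p θ) * β p θ) ν)
    (iB' : ∀ l p, Integrable (fun θ => G' l (z' p θ) * β' p θ) ν)
    (uA uB : E → ℝ) (uA' uB' : E' → ℝ)
    (huA : ∀ p θ, om Z (z p θ) * om Y (z p θ) * wS (z p θ) * ‖α p θ‖ ≤ uA p)
    (huA' : ∀ p θ, om Z (z' p θ) * om Y (z' p θ) * wS (z' p θ) * ‖α' p θ‖ ≤ uA' p)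
    (huB : ∀ p θ, om Z (z p θ) * wR (z p θ) * ‖β p θ‖ ≤ uB p)
    (huB' : ∀ p θ, om Y (z' p θ) * wQ (z' p θ) * ‖β' p θ‖ ≤ uB' p)
    (t : Fin a → E) (s : Fin K → E') :
    ‖(Matrix.of fun i j => Sum.elim (fun l => ∫ θ, Fz i (z (t l) θ) * α (t l) θ ∂ν)
        (Sum.elim (fun l => ∫ θ, Fz i (z' (s l) θ) * α' (s l) θ ∂ν) (B i)) (e j) :
        Matrix ι ι ℂ).det‖ *
      ‖(Matrix.of fun l l' => ∫ θ, G l' (z (t l) θ) * β (t l) θ ∂ν :
        Matrix (Fin a) (Fin a) ℂ).det‖ *
      ‖(Matrix.of fun l l' => ∫ θ, G' l' (z' (s l) θ) * β' (s l) θ ∂ν :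
        Matrix (Fin K) (Fin K) ℂ).det‖ ≤
    (CA * CB * CB' * refC a K d Z Y) * (∏ l, (uA (t l) * uB (t l))) *
      ∏ l, (uA' (s l) * uB' (s l)) := by
  classical
  -- nonemptiness of Θ
  have hΘ : Nonempty Θ := by
    by_contra hne
    rw [not_nonempty_iff] at hne
    have := measure_univ (μ := ν)
    rw [Set.univ_eq_empty_iff.mpr hne, measure_empty] at this
    exact zero_ne_one this
  obtain ⟨θ₀⟩ := hΘ
  have uA0 : ∀ p, 0 ≤ uA p := fun p => le_trans (by
    have := om_nonneg Z (z p θ₀); have := om_nonneg Y (z p θ₀); have := hwS (z p θ₀)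
    positivity) (huA p θ₀)
  have uA0' : ∀ p, 0 ≤ uA' p := fun p => le_trans (by
    have := om_nonneg Z (z' p θ₀); have := om_nonneg Y (z' p θ₀); have := hwS (z' p θ₀)
    positivity) (huA' p θ₀)
  have uB0 : ∀ p, 0 ≤ uB p := fun p => le_trans (by
    have := om_nonneg Z (z p θ₀); have := hwR (z p θ₀)
    positivity) (huB p θ₀)
  have uB0' : ∀ p, 0 ≤ uB' p := fun p => le_trans (by
    have := om_nonneg Y (z' p θ₀); have := hwQ (z' p θ₀)
    positivity) (huB' p θ₀)
  -- (A)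
  set cA : ℝ := ((a + K)! : ℝ) * d⁻¹ ^ (a + K) / nV (Fin.append Z Y) with hcA
  have hcA0 : 0 ≤ cA := by rw [hcA]; positivity
  have hA : ‖(Matrix.of fun i j => Sum.elim (fun l => ∫ θ, Fz i (z (t l) θ) * α (t l) θ ∂ν)
        (Sum.elim (fun l => ∫ θ, Fz i (z' (s l) θ) * α' (s l) θ ∂ν) (B i)) (e j) :
        Matrix ι ι ℂ).det‖ ≤ CA * cA * ((∏ l, uA (t l)) * ∏ l, uA' (s l)) := by
    have h := norm_det_cloud_le ν (e.trans (Equiv.sumAssoc (Fin a) (Fin K) κ).symm)
      (fun i l θ => Sum.elim (fun l => Fz i (z (t l) θ) * α (t l) θ)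
        (fun l => Fz i (z' (s l) θ) * α' (s l) θ) l) B
      (by rintro i (l | l)
          · exact iA i (t l)
          · exact iA' i (s l))
      (CA * cA * ((∏ l, uA (t l)) * ∏ l, uA' (s l))) (by
        intro θ
        have hmat : (Matrix.of fun i j => Sum.elim (fun l : Fin a ⊕ Fin K =>
            Sum.elim (fun l => Fz i (z (t l) (θ (Sum.inl l))) * α (t l) (θ (Sum.inl l)))
            (fun l => Fz i (z' (s l) (θ (Sum.inr l))) * α' (s l) (θ (Sum.inr l))) l) (B i)
            ((e.trans (Equiv.sumAssoc (Fin a) (Fin K) κ).symm) j) : Matrix ι ι ℂ) =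
          Matrix.of fun i j =>
            (Sum.elim (fun l => α (t l) (θ (Sum.inl l)))
              (Sum.elim (fun l => α' (s l) (θ (Sum.inr l))) (fun _ => 1)) (e j)) *
            (Matrix.of fun i j => Sum.elim (fun l => Fz i (z (t l) (θ (Sum.inl l))))
              (Sum.elim (fun l => Fz i (z' (s l) (θ (Sum.inr l)))) (B i)) (e j) :
                Matrix ι ι ℂ) i j := by
          ext i j
          simp only [Matrix.of_apply, Equiv.trans_apply]
          rcases e j with l | l | m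
          · simp [Equiv.sumAssoc, mul_comm]
          · simp [Equiv.sumAssoc, mul_comm]
          · simp [Equiv.sumAssoc]
        have hsame : (Matrix.of fun i j => Sum.elim (fun l : Fin a ⊕ Fin K =>
            (fun i l θ => Sum.elim (fun l => Fz i (z (t l) θ) * α (t l) θ)
              (fun l => Fz i (z' (s l) θ) * α' (s l) θ) l) i l (θ l)) (B i)
            ((e.trans (Equiv.sumAssoc (Fin a) (Fin K) κ).symm) j) : Matrix ι ι ℂ) =
            (Matrix.of fun i j => Sum.elim (fun l : Fin a ⊕ Fin K =>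
            Sum.elim (fun l => Fz i (z (t l) (θ (Sum.inl l))) * α (t l) (θ (Sum.inl l)))
            (fun l => Fz i (z' (s l) (θ (Sum.inr l))) * α' (s l) (θ (Sum.inr l))) l) (B i)
            ((e.trans (Equiv.sumAssoc (Fin a) (Fin K) κ).symm) j) : Matrix ι ι ℂ) := by
          ext i j
          simp only [Matrix.of_apply]
          congr 1
          funext l
          rcases l with l | l <;> rfl
        rw [hsame, hmat, Matrix.det_mul_row, norm_mul]
        have hprod : ‖∏ j, (Sum.elim (fun l => α (t l) (θ (Sum.inl l)))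
              (Sum.elim (fun l => α' (s l) (θ (Sum.inr l))) (fun _ => 1)) (e j) : ℂ)‖ =
            (∏ l, ‖α (t l) (θ (Sum.inl l))‖) * ∏ l, ‖α' (s l) (θ (Sum.inr l))‖ := by
          rw [← Equiv.prod_comp e.symm, Fintype.prod_sum_type, Fintype.prod_sum_type]
          simp [norm_prod]
        rw [hprod]
        have h1 := HA (fun l => z (t l) (θ (Sum.inl l))) (fun l => z' (s l) (θ (Sum.inr l)))
          (fun l => hzD _ _) (fun l => hzD' _ _)
        have h2 := nV_append_le hd Z Y hZY (fun l => z (t l) (θ (Sum.inl l)))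
          (fun l => z' (s l) (θ (Sum.inr l)))
          (fun i j => hDZ _ (hzD _ _) j) (fun i j => hDY _ (hzD _ _) j)
          (fun i j => hDZ _ (hzD' _ _) j) (fun i j => hDY _ (hzD' _ _) j)
        have hS0 : 0 ≤ (∏ l, wS (z (t l) (θ (Sum.inl l)))) *
            ∏ l, wS (z' (s l) (θ (Sum.inr l))) :=
          mul_nonneg (Finset.prod_nonneg fun l _ => hwS _) (Finset.prod_nonneg fun l _ => hwS _)
        calc (∏ l, ‖α (t l) (θ (Sum.inl l))‖) * (∏ l, ‖α' (s l) (θ (Sum.inr l))‖) *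
            ‖(Matrix.of fun i j => Sum.elim (fun l => Fz i (z (t l) (θ (Sum.inl l))))
              (Sum.elim (fun l => Fz i (z' (s l) (θ (Sum.inr l)))) (B i)) (e j) :
                Matrix ι ι ℂ).det‖
            ≤ (∏ l, ‖α (t l) (θ (Sum.inl l))‖) * (∏ l, ‖α' (s l) (θ (Sum.inr l))‖) *
              (CA * (cA * ((∏ l, (om Z (z (t l) (θ (Sum.inl l))) *
                  om Y (z (t l) (θ (Sum.inl l))))) *
                ∏ l, (om Z (z' (s l) (θ (Sum.inr l))) * om Y (z' (s l) (θ (Sum.inr l)))))) *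
                ((∏ l, wS (z (t l) (θ (Sum.inl l)))) *
                  ∏ l, wS (z' (s l) (θ (Sum.inr l))))) := by
              refine mul_le_mul_of_nonneg_left (h1.trans ?_) (by positivity)
              refine mul_le_mul_of_nonneg_right ?_ hS0
              exact mul_le_mul_of_nonneg_left h2 hCA
          _ = CA * cA * ((∏ l, (om Z (z (t l) (θ (Sum.inl l))) * om Y (z (t l) (θ (Sum.inl l))) *
                wS (z (t l) (θ (Sum.inl l))) * ‖α (t l) (θ (Sum.inl l))‖)) *
                ∏ l, (om Z (z' (s l) (θ (Sum.inr l))) * om Y (z' (s l) (θ (Sum.inr l))) *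
                wS (z' (s l) (θ (Sum.inr l))) * ‖α' (s l) (θ (Sum.inr l))‖)) := by
              simp only [Finset.prod_mul_distrib]
              ring
          _ ≤ CA * cA * ((∏ l, uA (t l)) * ∏ l, uA' (s l)) := by
              refine mul_le_mul_of_nonneg_left ?_ (mul_nonneg hCA hcA0)
              refine mul_le_mul ?_ ?_ ?_ ?_
              · exact Finset.prod_le_prod (fun l _ => by
                  have := om_nonneg Z (z (t l) (θ (Sum.inl l)))
                  have := om_nonneg Y (z (t l) (θ (Sum.inl l)))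
                  have := hwS (z (t l) (θ (Sum.inl l)))
                  positivity) (fun l _ => huA _ _)
              · exact Finset.prod_le_prod (fun l _ => by
                  have := om_nonneg Z (z' (s l) (θ (Sum.inr l)))
                  have := om_nonneg Y (z' (s l) (θ (Sum.inr l)))
                  have := hwS (z' (s l) (θ (Sum.inr l)))
                  positivity) (fun l _ => huA' _ _)
              · exact Finset.prod_nonneg (fun l _ => by
                  have := om_nonneg Z (z' (s l) (θ (Sum.inr l)))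
                  have := om_nonneg Y (z' (s l) (θ (Sum.inr l)))
                  have := hwS (z' (s l) (θ (Sum.inr l)))
                  positivity)
              · exact Finset.prod_nonneg (fun l _ => uA0 _))
    have hL : (Matrix.of fun i j => Sum.elim (fun l => ∫ θ, Fz i (z (t l) θ) * α (t l) θ ∂ν)
        (Sum.elim (fun l => ∫ θ, Fz i (z' (s l) θ) * α' (s l) θ ∂ν) (B i)) (e j) :
        Matrix ι ι ℂ) = (Matrix.of fun i j => Sum.elim (fun l : Fin a ⊕ Fin K => ∫ θ,
          Sum.elim (fun l => Fz i (z (t l) θ) * α (t l) θ)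
        (fun l => Fz i (z' (s l) θ) * α' (s l) θ) l ∂ν) (B i)
          ((e.trans (Equiv.sumAssoc (Fin a) (Fin K) κ).symm) j) : Matrix ι ι ℂ) := by
      ext i j
      simp only [Matrix.of_apply, Equiv.trans_apply]
      rcases e j with l | l | m
      · simp [Equiv.sumAssoc]
      · simp [Equiv.sumAssoc]
      · simp [Equiv.sumAssoc]
    rw [hL]
    exact h
  -- (B)
  have hB : ‖(Matrix.of fun l l' => ∫ θ, G l' (z (t l) θ) * β (t l) θ ∂ν :
        Matrix (Fin a) (Fin a) ℂ).det‖ ≤ CB * ((a ! : ℝ) * d⁻¹ ^ a / nV Z) *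
          ∏ l, uB (t l) := by
    refine norm_det_cloud_rows_le ν (fun l l' θ => G l' (z (t l) θ) * β (t l) θ)
      (fun l l' => iB l' (t l)) _ ?_
    intro θ
    have hmat : (Matrix.of fun l l' => G l' (z (t l) (θ l)) * β (t l) (θ l) :
        Matrix (Fin a) (Fin a) ℂ) = Matrix.of fun l l' => β (t l) (θ l) *
          (Matrix.of fun l l' => G l' (z (t l) (θ l)) : Matrix (Fin a) (Fin a) ℂ) l l' := by
      ext l l'; simp [mul_comm]
    rw [hmat, Matrix.det_mul_column, norm_mul, norm_prod]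
    have h1 := HB (fun l => z (t l) (θ l)) (fun l => hzD _ _)
    have h2 := nV_le_ref hd Z (fun l => z (t l) (θ l)) hZ (fun i j => hDZ _ (hzD _ _) j)
    have hR0 : 0 ≤ ∏ l, wR (z (t l) (θ l)) := Finset.prod_nonneg fun l _ => hwR _
    calc (∏ l, ‖β (t l) (θ l)‖) * ‖(Matrix.of fun l l' => G l' (z (t l) (θ l)) :
          Matrix (Fin a) (Fin a) ℂ).det‖
        ≤ (∏ l, ‖β (t l) (θ l)‖) * (CB * ((a ! : ℝ) * d⁻¹ ^ a / nV Z *
            ∏ l, om Z (z (t l) (θ l))) * ∏ l, wR (z (t l) (θ l))) := by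
          refine mul_le_mul_of_nonneg_left (h1.trans ?_) (by positivity)
          exact mul_le_mul_of_nonneg_right (mul_le_mul_of_nonneg_left h2 hCB) hR0
      _ = CB * ((a ! : ℝ) * d⁻¹ ^ a / nV Z) * ∏ l, (om Z (z (t l) (θ l)) *
            wR (z (t l) (θ l)) * ‖β (t l) (θ l)‖) := by
          simp only [Finset.prod_mul_distrib]; ring
      _ ≤ _ := by
          refine mul_le_mul_of_nonneg_left ?_ (by positivity)
          exact Finset.prod_le_prod (fun l _ => by
            have := om_nonneg Z (z (t l) (θ l)); have := hwR (z (t l) (θ l)); positivity)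
            (fun l _ => huB _ _)
  have hB' : ‖(Matrix.of fun l l' => ∫ θ, G' l' (z' (s l) θ) * β' (s l) θ ∂ν :
        Matrix (Fin K) (Fin K) ℂ).det‖ ≤ CB' * ((K ! : ℝ) * d⁻¹ ^ K / nV Y) *
          ∏ l, uB' (s l) := by
    refine norm_det_cloud_rows_le ν (fun l l' θ => G' l' (z' (s l) θ) * β' (s l) θ)
      (fun l l' => iB' l' (s l)) _ ?_
    intro θ
    have hmat : (Matrix.of fun l l' => G' l' (z' (s l) (θ l)) * β' (s l) (θ l) :
        Matrix (Fin K) (Fin K) ℂ) = Matrix.of fun l l' => β' (s l) (θ l) *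
          (Matrix.of fun l l' => G' l' (z' (s l) (θ l)) : Matrix (Fin K) (Fin K) ℂ) l l' := by
      ext l l'; simp [mul_comm]
    rw [hmat, Matrix.det_mul_column, norm_mul, norm_prod]
    have h1 := HB' (fun l => z' (s l) (θ l)) (fun l => hzD' _ _)
    have h2 := nV_le_ref hd Y (fun l => z' (s l) (θ l)) hY (fun i j => hDY _ (hzD' _ _) j)
    have hR0 : 0 ≤ ∏ l, wQ (z' (s l) (θ l)) := Finset.prod_nonneg fun l _ => hwQ _
    calc (∏ l, ‖β' (s l) (θ l)‖) * ‖(Matrix.of fun l l' => G' l' (z' (s l) (θ l)) :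
          Matrix (Fin K) (Fin K) ℂ).det‖
        ≤ (∏ l, ‖β' (s l) (θ l)‖) * (CB' * ((K ! : ℝ) * d⁻¹ ^ K / nV Y *
            ∏ l, om Y (z' (s l) (θ l))) * ∏ l, wQ (z' (s l) (θ l))) := by
          refine mul_le_mul_of_nonneg_left (h1.trans ?_) (by positivity)
          exact mul_le_mul_of_nonneg_right (mul_le_mul_of_nonneg_left h2 hCB') hR0
      _ = CB' * ((K ! : ℝ) * d⁻¹ ^ K / nV Y) * ∏ l, (om Y (z' (s l) (θ l)) *
            wQ (z' (s l) (θ l)) * ‖β' (s l) (θ l)‖) := by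
          simp only [Finset.prod_mul_distrib]; ring
      _ ≤ _ := by
          refine mul_le_mul_of_nonneg_left ?_ (by positivity)
          exact Finset.prod_le_prod (fun l _ => by
            have := om_nonneg Y (z' (s l) (θ l)); have := hwQ (z' (s l) (θ l)); positivity)
            (fun l _ => huB' _ _)
  have pA : 0 ≤ CA * cA * ((∏ l, uA (t l)) * ∏ l, uA' (s l)) :=
    mul_nonneg (mul_nonneg hCA hcA0) (mul_nonneg (Finset.prod_nonneg fun l _ => uA0 _)
      (Finset.prod_nonneg fun l _ => uA0' _))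
  have pB : 0 ≤ CB * ((a ! : ℝ) * d⁻¹ ^ a / nV Z) * ∏ l, uB (t l) :=
    mul_nonneg (by positivity) (Finset.prod_nonneg fun l _ => uB0 _)
  refine (mul_le_mul (mul_le_mul hA hB (norm_nonneg _) pA) hB' (norm_nonneg _)
    (mul_nonneg pA pB)).trans (le_of_eq ?_)
  simp only [Finset.prod_mul_distrib, hcA, refC]
  have hp : d⁻¹ ^ (2 * (a + K)) = d⁻¹ ^ a * d⁻¹ ^ K * d⁻¹ ^ (a + K) := by
    rw [← pow_add, ← pow_add]; congr 1; ring
  rw [hp]
  field_simp

end pointwise

end P3Asm324
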