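import Crest.Agent.R006.P3_AlphaV_103
import Crest.Agent.R006.CertDataN_746

/-!
# Row 6, block P3: the exponent of the certificate `datN746` of `D.SN` (helper103)

`alphaN746 : alphaV SN datN746 / K² ≤ -74933 / 100`, kernel-checked.
-/

set_option autoImplicit false

namespace Crest.Agent.R006.Cert

open Crest.Agent.R006.NumSegx464 Crest.Agent.R006.D

theorem alphaN746_W_ok : selfOK (segs (datN746.K * SN.w) datN746.W) = true := by decide +kernel

theorem alphaN746_Z_ok : selfOK (segs (datN746.K * SN.w) datN746.Z) = true := by decide +kernel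

theorem alphaN746_Y_ok : selfOK (segs (datN746.K * SN.w) datN746.Y) = true := by decide +kernel

theorem alphaN746_S_ok : selfOK (LS SN datN746.K) = true := by decide +kernel

theorem alphaN746_W :
    27901366 * 281474976710656 ≤ (selfI (segs (datN746.K * SN.w) datN746.W)).1 := by
  decide +kernel

theorem alphaN746_Z :
    13328338 * 281474976710656 ≤ (selfI (segs (datN746.K * SN.w) datN746.Z)).1 := by
  decide +kernel

theorem alphaN746_Y :
    2485844 * 281474976710656 ≤ (selfI (segs (datN746.K * SN.w) datN746.Y)).1 := by
  decide +kernel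

theorem alphaN746_S : (selfI (LS SN datN746.K)).2 ≤ 54171266 * 281474976710656 := by decide +kernel

theorem alphaN746_NL : 27187195 * 281474976710656 ≤ (NLKI SN datN746.K).1 := by decide +kernel

theorem alphaN746_fin : ((54171266 * 281474976710656 - 27187195 * 281474976710656 -
      27901366 * 281474976710656 - 13328338 * 281474976710656 - 2485844 * 281474976710656) *
      (2 * datN746.D) + (2 * (datN746.K * (SN.k * datN746.lR + SN.g * datN746.lQ)) +
        slot2 SN datN746) * 281474976710656) * ((100 : ℕ) : ℤ) ≤
    (datN746.K * datN746.K * (-74933)) * 281474976710656 * (2 * datN746.D) := by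
  decide +kernel

/-- **the exponent** -/
theorem alphaN746 : alphaV SN datN746 / (datN746.K : ℝ) ^ 2 ≤ -74933 / 100 := by
  have h := alphaV_div_le (S := SN) (d := datN746) (p := -74933) (q := 100) (by norm_num)
    (by decide) (by decide) alphaN746_W_ok alphaN746_Z_ok alphaN746_Y_ok alphaN746_S_ok
    alphaN746_W alphaN746_Z alphaN746_Y alphaN746_S alphaN746_NL alphaN746_fin
  refine h.trans (le_of_eq ?_)
  norm_num

end Crest.Agent.R006.Cert
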