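import Crest.Agent.R006.P3_AlphaV_103
import Crest.Agent.R006.CertDataN_898

/-!
# Row 6, block P3: the exponent of the certificate `datN898` of `D.SN` (helper103)

`alphaN898 : alphaV SN datN898 / K² ≤ -7518 / 10`, kernel-checked.
-/

set_option autoImplicit false

namespace Crest.Agent.R006.Cert

open Crest.Agent.R006.NumSegx464 Crest.Agent.R006.D

theorem alphaN898_W_ok : selfOK (segs (datN898.K * SN.w) datN898.W) = true := by decide +kernel

theorem alphaN898_Z_ok : selfOK (segs (datN898.K * SN.w) datN898.Z) = true := by decide +kernel

theorem alphaN898_Y_ok : selfOK (segs (datN898.K * SN.w) datN898.Y) = true := by decide +kernel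

theorem alphaN898_S_ok : selfOK (LS SN datN898.K) = true := by decide +kernel

theorem alphaN898_W :
    3898366136 * 281474976710656 ≤ (selfI (segs (datN898.K * SN.w) datN898.W)).1 := by
  decide +kernel

theorem alphaN898_Z :
    1838812486 * 281474976710656 ≤ (selfI (segs (datN898.K * SN.w) datN898.Z)).1 := by
  decide +kernel

theorem alphaN898_Y :
    362890332 * 281474976710656 ≤ (selfI (segs (datN898.K * SN.w) datN898.Y)).1 := by
  decide +kernel

theorem alphaN898_S : (selfI (LS SN datN898.K)).2 ≤ 7352449348 * 281474976710656 := by decide +kernel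

theorem alphaN898_NL : 3795178069 * 281474976710656 ≤ (NLKI SN datN898.K).1 := by decide +kernel

theorem alphaN898_fin : ((7352449348 * 281474976710656 - 3795178069 * 281474976710656 -
      3898366136 * 281474976710656 - 1838812486 * 281474976710656 - 362890332 * 281474976710656) *
      (2 * datN898.D) + (2 * (datN898.K * (SN.k * datN898.lR + SN.g * datN898.lQ)) +
        slot2 SN datN898) * 281474976710656) * ((10 : ℕ) : ℤ) ≤
    (datN898.K * datN898.K * (-7518)) * 281474976710656 * (2 * datN898.D) := by
  decide +kernel

/-- **the exponent** -/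
theorem alphaN898 : alphaV SN datN898 / (datN898.K : ℝ) ^ 2 ≤ -7518 / 10 := by
  have h := alphaV_div_le (S := SN) (d := datN898) (p := -7518) (q := 10) (by norm_num)
    (by decide) (by decide) alphaN898_W_ok alphaN898_Z_ok alphaN898_Y_ok alphaN898_S_ok
    alphaN898_W alphaN898_Z alphaN898_Y alphaN898_S alphaN898_NL alphaN898_fin
  refine h.trans (le_of_eq ?_)
  norm_num

end Crest.Agent.R006.Cert
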