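import Crest.Agent.R006.P3_EnShape_103
import Crest.Agent.R006.Cert_112

/-!
# Row 6, block P3: upper bound of the exponent `alphaV` of `Cert_112` in the kernel (helper103)

* `NLI`, `NLKI` : enclosures of `NL S` and of `K² (NL S + NC S log K)`.
* `alphaV_le` : from integer bounds of the four self energies and of `NLKI` to `alphaV S d ≤ p/q`.
* `alphaV_div_le` : the same for `alphaV S d / K²`.
* `ArchK_mono_103` : monotonicity in the exponent.
* `chkW`, `chkZ`, `chkY`, `chkS` : the Boolean checks, to be closed by `decide +kernel`.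
-/

set_option autoImplicit false

namespace Crest.Agent.R006.Cert

open Real Num482 Crest.Agent.R006.NumSegx464 Crest.Agent.R006.D Crest.Agent.R006.EnShape103

/-- enclosure of `NL S` -/
def NLI (S : Shape) : ℤ × ℤ :=
  addI (addI (addI (FI S.q) (subI (FI (S.a1 + S.k)) (FI S.a1)))
    (nsmulI S.k (addI (addI (phI S.a2) (phI S.i1)) (phI S.r1)))) (FI S.g)

theorem enc_NLI (S : Shape) : Enc (NL S) (NLI S) := by
  have h1 := enc_FI S.q
  have h2 := enc_FI (S.a1 + S.k)
  have h3 := enc_FI S.a1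
  have h4 := (((enc_phI S.a2).add (enc_phI S.i1)).add (enc_phI S.r1)).nsmul S.k
  have h5 := enc_FI S.g
  have := ((h1.add (h2.sub h3)).add h4).add h5
  refine (Eq.subst (motive := fun r : ℝ => Enc r _) ?_ this)
  unfold NL phi
  simp only [F_eq_sfF]
  push_cast
  ring

/-- `2 NC S` as an integer -/
def NC2 (S : Shape) : ℤ :=
  2 * S.k * (S.a2 + S.i1 + S.r1) + ((S.a1 + S.k) * (S.a1 + S.k) - S.a1 * S.a1) + S.q * S.q
    + S.g * S.g

theorem NC2_cast (S : Shape) : (NC2 S : ℝ) = 2 * NC S := by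
  unfold NC2 NC
  push_cast
  ring

/-- enclosure of `K² (NL S + NC S log K)` -/
def NLKI (S : Shape) (K : ℕ) : ℤ × ℤ :=
  addI (nsmulI (K * K) (NLI S)) (smulI (K * K * NC2 S) (hlN K))

theorem enc_NLKI (S : Shape) (K : ℕ) :
    Enc ((K : ℝ) ^ 2 * (NL S + NC S * Real.log K)) (NLKI S K) := by
  have h1 := (enc_NLI S).nsmul (K * K)
  have h2 := (enc_hlN K).smul (K * K * NC2 S)
  have := h1.add h2
  refine (Eq.subst (motive := fun r : ℝ => Enc r _) ?_ this)
  push_cast
  rw [NC2_cast]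
  ring

/-- upper bound for a real from an upper bound for its enclosure -/
theorem le_of_enc {r : ℝ} {I : ℤ × ℤ} (h : Enc r I) {n : ℤ} (hn : I.2 ≤ n) :
    r * 281474976710656 ≤ n := h.2.trans (by exact_mod_cast hn)

theorem ge_of_enc {r : ℝ} {I : ℤ × ℤ} (h : Enc r I) {n : ℤ} (hn : n ≤ I.1) :
    (n : ℝ) ≤ r * 281474976710656 := le_trans (by exact_mod_cast hn) h.1

/-- **the bound of `alphaV`**: `w, z, y` lower bounds of the self energies (scale `2^48`),
`s` upper bound of the energy of the nodes, `n` lower bound of the normalisation. -/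
theorem alphaV_le {S : Shape} {d : Data} {w z y s n p : ℤ} {q : ℕ} (hq : 0 < q) (hD : 0 < d.D)
    (hWo : selfOK (segs (d.K * S.w) d.W) = true) (hZo : selfOK (segs (d.K * S.w) d.Z) = true)
    (hYo : selfOK (segs (d.K * S.w) d.Y) = true) (hSo : selfOK (LS S d.K) = true)
    (hw : w ≤ (selfI (segs (d.K * S.w) d.W)).1) (hz : z ≤ (selfI (segs (d.K * S.w) d.Z)).1)
    (hy : y ≤ (selfI (segs (d.K * S.w) d.Y)).1) (hs : (selfI (LS S d.K)).2 ≤ s)
    (hn : n ≤ (NLKI S d.K).1)
    (hfin : ((s - n - w - z - y) * (2 * d.D) +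
      (2 * (d.K * (S.k * d.lR + S.g * d.lQ)) + slot2 S d) * 281474976710656) * q ≤
        p * 281474976710656 * (2 * d.D)) :
    alphaV S d ≤ (p : ℝ) / q := by
  have h1 := ge_of_enc (enc_selfE _ hWo) hw
  have h2 := ge_of_enc (enc_selfE _ hZo) hz
  have h3 := ge_of_enc (enc_selfE _ hYo) hy
  have h4 := le_of_enc (enc_selfE _ hSo) hs
  have h5 := ge_of_enc (enc_NLKI S d.K) hn
  have hq' : (0 : ℝ) < q := by exact_mod_cast hq
  have hD' : (0 : ℝ) < d.D := by exact_mod_cast hD
  have hfin' : (((s : ℝ) - n - w - z - y) * (2 * d.D) +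
      (2 * (d.K * (S.k * d.lR + S.g * d.lQ)) + slot2 S d) * 281474976710656) * q ≤
        (p : ℝ) * 281474976710656 * (2 * d.D) := by exact_mod_cast hfin
  unfold alphaV
  generalize selfE (segs (d.K * S.w) d.W) = eW at h1 ⊢
  generalize selfE (segs (d.K * S.w) d.Z) = eZ at h2 ⊢
  generalize selfE (segs (d.K * S.w) d.Y) = eY at h3 ⊢
  generalize selfE (LS S d.K) = eS at h4 ⊢
  generalize (d.K : ℝ) ^ 2 * (NL S + NC S * Real.log d.K) = eN at h5 ⊢
  generalize (slot2 S d : ℝ) = sl at hfin' ⊢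
  push_cast
  have hX : (eS - eN + (d.K : ℝ) * S.k * ((d.lR : ℝ) / d.D) + (d.K : ℝ) * S.g * ((d.lQ : ℝ) / d.D)
      + sl / (2 * d.D) - eW - eZ - eY) * (281474976710656 * (2 * d.D)) =
      (eS * 281474976710656 - eN * 281474976710656 - eW * 281474976710656 -
        eZ * 281474976710656 - eY * 281474976710656) * (2 * d.D) +
      (2 * (d.K * (S.k * d.lR + S.g * d.lQ)) + sl) * 281474976710656 := by
    field_simp
    ring
  have hle : (eS * 281474976710656 - eN * 281474976710656 - eW * 281474976710656 -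
        eZ * 281474976710656 - eY * 281474976710656) * (2 * d.D) ≤
        ((s : ℝ) - n - w - z - y) * (2 * d.D) := by
    apply mul_le_mul_of_nonneg_right _ (by positivity)
    linarith
  rw [le_div_iff₀ hq']
  have hpos : (0 : ℝ) < 281474976710656 * (2 * d.D) := by positivity
  refine le_of_mul_le_mul_right ?_ hpos
  calc (eS - eN + (d.K : ℝ) * S.k * ((d.lR : ℝ) / d.D) + (d.K : ℝ) * S.g * ((d.lQ : ℝ) / d.D)
      + sl / (2 * d.D) - eW - eZ - eY) * q * (281474976710656 * (2 * d.D))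
      = ((eS - eN + (d.K : ℝ) * S.k * ((d.lR : ℝ) / d.D) + (d.K : ℝ) * S.g * ((d.lQ : ℝ) / d.D)
      + sl / (2 * d.D) - eW - eZ - eY) * (281474976710656 * (2 * d.D))) * q := by ring
    _ ≤ (((s : ℝ) - n - w - z - y) * (2 * d.D) +
      (2 * (d.K * (S.k * d.lR + S.g * d.lQ)) + sl) * 281474976710656) * q := by
        rw [hX]
        apply mul_le_mul_of_nonneg_right _ hq'.le
        linarith
    _ ≤ _ := hfin'
    _ = _ := by ring

/-- the same for `alphaV / K²`, bound `p / q` -/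
theorem alphaV_div_le {S : Shape} {d : Data} {w z y s n p : ℤ} {q : ℕ} (hq : 0 < q) (hD : 0 < d.D)
    (hK : 0 < d.K)
    (hWo : selfOK (segs (d.K * S.w) d.W) = true) (hZo : selfOK (segs (d.K * S.w) d.Z) = true)
    (hYo : selfOK (segs (d.K * S.w) d.Y) = true) (hSo : selfOK (LS S d.K) = true)
    (hw : w ≤ (selfI (segs (d.K * S.w) d.W)).1) (hz : z ≤ (selfI (segs (d.K * S.w) d.Z)).1)
    (hy : y ≤ (selfI (segs (d.K * S.w) d.Y)).1) (hs : (selfI (LS S d.K)).2 ≤ s)
    (hn : n ≤ (NLKI S d.K).1)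
    (hfin : ((s - n - w - z - y) * (2 * d.D) +
      (2 * (d.K * (S.k * d.lR + S.g * d.lQ)) + slot2 S d) * 281474976710656) * q ≤
        (d.K * d.K * p) * 281474976710656 * (2 * d.D)) :
    alphaV S d / (d.K : ℝ) ^ 2 ≤ (p : ℝ) / q := by
  have h := alphaV_le hq hD hWo hZo hYo hSo hw hz hy hs hn hfin
  have hK' : (0 : ℝ) < (d.K : ℝ) ^ 2 := by
    have : (0 : ℝ) < d.K := by exact_mod_cast hK
    positivity
  rw [div_le_iff₀ hK']
  refine h.trans (le_of_eq ?_)
  push_cast
  ring

end Crest.Agent.R006.Cert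

namespace Crest.Agent.R006.D

open Filter

/-- monotonicity of the archimedean statement in the exponent -/
theorem ArchK_mono_103 {S : Shape} {c K : ℕ} {α β : ℝ} (h : ArchK S c K α) (hαβ : α ≤ β) :
    ArchK S c K β := by
  intro δ hδ
  filter_upwards [h δ hδ] with v hv r hr
  refine (hv r hr).trans (Real.exp_le_exp.2 ?_)
  apply mul_le_mul_of_nonneg_right _ (by positivity)
  linarith

end Crest.Agent.R006.D
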