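import Crest.Agent.R006.DetBound_885

/-!
# Row 6, block P3: circle integrals as slots (helper283)

* `slot_form`: `(2πi)⁻¹ ∮_{C(y,r)} P H (s-y)^(-m) = ∑_{α<m} P^[α](y) (2πi)⁻¹ ∮ H (s-y)^(-(m-α))`.
* `slots_det_bound`: the two-species bound with `m k` slots at the site `y k`.
-/

set_option autoImplicit false

namespace Crest.Agent.R006.P3Slot

open Complex Polynomial Set Filter Topology MeasureTheory Metric
open scoped Real

noncomputable section

/-- normalised circle integral -/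
def ci (y : ℂ) (r : ℝ) (F : ℂ → ℂ) : ℂ := (2 * π * I)⁻¹ * ∮ s in C(y, r), F s

/-- Cauchy coefficient: `(2πi)⁻¹ ∮ H (s-y)^(-(β+1))` -/
def cf (y : ℂ) (r : ℝ) (H : ℂ → ℂ) (β : ℕ) : ℂ := ci y r fun s => H s * ((s - y) ^ (β + 1))⁻¹

lemma norm_two_pi_I_inv : ‖(2 * π * I : ℂ)⁻¹‖ = (2 * π)⁻¹ := by
  rw [norm_inv]
  simp [abs_of_pos Real.pi_pos]

lemma norm_ci_le {y : ℂ} {r : ℝ} (hr : 0 ≤ r) {F : ℂ → ℂ} {M : ℝ}
    (h : ∀ s ∈ sphere y r, ‖F s‖ ≤ M) : ‖ci y r F‖ ≤ r * M := by
  unfold ci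
  rw [norm_mul, norm_two_pi_I_inv]
  have h1 := circleIntegral.norm_integral_le_of_norm_le_const hr h
  have hpi := Real.pi_pos
  calc (2 * π)⁻¹ * ‖∮ s in C(y, r), F s‖ ≤ (2 * π)⁻¹ * (2 * π * r * M) := by gcongr
    _ = r * M := by field_simp

lemma norm_cf_le {y : ℂ} {r : ℝ} (hr : 0 < r) {H : ℂ → ℂ} {M : ℝ}
    (h : ∀ s ∈ sphere y r, ‖H s‖ ≤ M) (β : ℕ) : ‖cf y r H β‖ ≤ M * (r ^ β)⁻¹ := by
  have h1 : ‖cf y r H β‖ ≤ r * (M * (r ^ (β + 1))⁻¹) := by
    refine norm_ci_le hr.le fun s hs => ?_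
    rw [norm_mul, norm_inv, norm_pow, mem_sphere_iff_norm.mp hs]
    exact mul_le_mul_of_nonneg_right (h s hs) (by positivity)
  refine h1.trans (le_of_eq ?_)
  rw [pow_succ]
  field_simp

lemma ci_add {y : ℂ} {r : ℝ} {F G : ℂ → ℂ} (hF : CircleIntegrable F y r)
    (hG : CircleIntegrable G y r) : ci y r (fun s => F s + G s) = ci y r F + ci y r G := by
  unfold ci
  rw [circleIntegral.integral_add hF hG]; ring

lemma ci_sum {ι : Type*} (s : Finset ι) {y : ℂ} {r : ℝ} {F : ι → ℂ → ℂ}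
    (hF : ∀ i ∈ s, CircleIntegrable (F i) y r) :
    ci y r (fun z => ∑ i ∈ s, F i z) = ∑ i ∈ s, ci y r (F i) := by
  unfold ci
  rw [circleIntegral.integral_fun_sum hF, Finset.mul_sum]

lemma ci_const_mul (y : ℂ) (r : ℝ) (c : ℂ) (F : ℂ → ℂ) :
    ci y r (fun s => c * F s) = c * ci y r F := by
  unfold ci
  rw [circleIntegral.integral_const_mul]; ring

lemma ci_congr {y : ℂ} {r : ℝ} (hr : 0 ≤ r) {F G : ℂ → ℂ} (h : EqOn F G (sphere y r)) :
    ci y r F = ci y r G := by
  unfold ci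
  rw [circleIntegral.integral_congr hr h]

lemma ci_holo {y : ℂ} {r : ℝ} (hr : 0 ≤ r) {F : ℂ → ℂ} (hF : DifferentiableOn ℂ F (closedBall y r)) :
    ci y r F = 0 := by
  unfold ci
  rw [circleIntegral_eq_zero_of_differentiable_on_off_countable hr countable_empty
    hF.continuousOn fun z hz => hF.differentiableAt
      (mem_of_superset (isOpen_ball.mem_nhds hz.1) ball_subset_closedBall), mul_zero]

/-- the Taylor coefficient of a polynomial -/
def tc (y : ℂ) (P : ℂ[X]) (α : ℕ) : ℂ := (taylor y P).coeff α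

lemma eval_eq_sum_tc (y : ℂ) (P : ℂ[X]) (s : ℂ) :
    P.eval s = ∑ α ∈ Finset.range (P.natDegree + 1), tc y P α * (s - y) ^ α := by
  have h : P.eval s = (taylor y P).eval (s - y) := by
    rw [taylor_eval]; ring_nf
  rw [h, Polynomial.eval_eq_sum_range, natDegree_taylor]
  rfl

lemma sphere_ne {y : ℂ} {r : ℝ} (hr : 0 < r) {s : ℂ} (hs : s ∈ sphere y r) : s - y ≠ 0 := by
  intro h
  rw [mem_sphere_iff_norm, h, norm_zero] at hs
  exact hr.ne hs

/-- **slot form of a circle integral** -/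
theorem slot_form {y : ℂ} {r : ℝ} (hr : 0 < r) {H : ℂ → ℂ}
    (hH : DifferentiableOn ℂ H (closedBall y r)) (P : ℂ[X]) (m : ℕ) :
    ci y r (fun s => P.eval s * (H s * ((s - y) ^ m)⁻¹)) =
      ∑ α ∈ Finset.range m, tc y P α * cf y r H (m - 1 - α) := by
  have hHs : ContinuousOn H (sphere y r) := hH.continuousOn.mono sphere_subset_closedBall
  have hci : ∀ α, CircleIntegrable (fun s => tc y P α * ((s - y) ^ α * (H s * ((s - y) ^ m)⁻¹))) y r := by
    intro α
    refine ContinuousOn.circleIntegrable hr.le ?_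
    refine continuousOn_const.mul (ContinuousOn.mul (by fun_prop) (hHs.mul
      (ContinuousOn.inv₀ (by fun_prop) fun s hs => pow_ne_zero _ (sphere_ne hr hs))))
  have e : ci y r (fun s => P.eval s * (H s * ((s - y) ^ m)⁻¹)) =
      ∑ α ∈ Finset.range (P.natDegree + 1),
        tc y P α * ci y r (fun s => (s - y) ^ α * (H s * ((s - y) ^ m)⁻¹)) := by
    have e1 : ci y r (fun s => P.eval s * (H s * ((s - y) ^ m)⁻¹)) =
        ci y r (fun s => ∑ α ∈ Finset.range (P.natDegree + 1),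
          tc y P α * ((s - y) ^ α * (H s * ((s - y) ^ m)⁻¹))) := by
      refine ci_congr hr.le fun s _ => ?_
      rw [eval_eq_sum_tc y P s, Finset.sum_mul]
      exact Finset.sum_congr rfl fun α _ => by ring
    rw [e1, ci_sum _ fun α _ => hci α]
    exact Finset.sum_congr rfl fun α _ => ci_const_mul _ _ _ _
  have hterm : ∀ α, ci y r (fun s => (s - y) ^ α * (H s * ((s - y) ^ m)⁻¹)) =
      if α < m then cf y r H (m - 1 - α) else 0 := by
    intro α
    split_ifs with h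
    · unfold cf
      refine ci_congr hr.le fun s hs => ?_
      have h0 := sphere_ne hr hs
      have e2 : (s - y) ^ m = (s - y) ^ α * (s - y) ^ (m - 1 - α + 1) := by
        rw [← pow_add]; congr 1; omega
      rw [e2, mul_inv]
      field_simp
    · rw [← ci_holo (y := y) hr.le (F := fun s => (s - y) ^ (α - m) * H s)
        ((by fun_prop : DifferentiableOn ℂ (fun s => (s - y) ^ (α - m)) (closedBall y r)).mul hH)]
      refine ci_congr hr.le fun s hs => ?_
      have h0 := sphere_ne hr hs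
      have e2 : (s - y) ^ α = (s - y) ^ (α - m) * (s - y) ^ m := by
        rw [← pow_add]; congr 1; omega
      rw [e2]
      field_simp
  rw [e]
  simp only [hterm]
  have hz : ∀ α, P.natDegree < α → tc y P α = 0 := fun α h => by
    unfold tc
    exact coeff_eq_zero_of_natDegree_lt (by rwa [natDegree_taylor])
  have e3 : ∑ α ∈ Finset.range (P.natDegree + 1),
      tc y P α * (if α < m then cf y r H (m - 1 - α) else 0) =
      ∑ α ∈ Finset.range (max (P.natDegree + 1) m),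
      tc y P α * (if α < m then cf y r H (m - 1 - α) else 0) := by
    refine Finset.sum_subset (Finset.range_mono (le_max_left _ _)) fun α _ h => ?_
    rw [Finset.mem_range, not_lt] at h
    rw [hz α h, zero_mul]
  have e4 : ∑ α ∈ Finset.range m, tc y P α * cf y r H (m - 1 - α) =
      ∑ α ∈ Finset.range (max (P.natDegree + 1) m),
      tc y P α * (if α < m then cf y r H (m - 1 - α) else 0) := by
    rw [← Finset.sum_subset (Finset.range_mono (le_max_right (P.natDegree + 1) m))]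
    · refine Finset.sum_congr rfl fun α h => ?_
      rw [if_pos (Finset.mem_range.mp h)]
    · intro α _ h
      rw [Finset.mem_range] at h
      rw [if_neg h, mul_zero]
  rw [e3, e4]

/-- Cauchy estimate for polynomials -/
lemma norm_tc_le {y : ℂ} {r : ℝ} (hr : 0 < r) {P : ℂ[X]} {M : ℝ}
    (h : ∀ s ∈ sphere y r, ‖P.eval s‖ ≤ M) (α : ℕ) : ‖tc y P α‖ ≤ M * (r ^ α)⁻¹ := by
  have h1 : ci y r (fun s => P.eval s * ((1 : ℂ) * ((s - y) ^ (α + 1))⁻¹)) = tc y P α := by
    rw [slot_form hr (differentiableOn_const (1 : ℂ)) P (α + 1)]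
    rw [Finset.sum_eq_single α]
    · have : cf y r (fun _ => (1 : ℂ)) (α + 1 - 1 - α) = 1 := by
        have e0 : α + 1 - 1 - α = 0 := by omega
        rw [e0]
        unfold cf ci
        have := circleIntegral.integral_sub_center_inv y hr.ne'
        simp only [zero_add, pow_one, one_mul]
        rw [this]
        have hpi : (2 * π * I : ℂ) ≠ 0 := by simp [Real.pi_ne_zero]
        field_simp
      rw [this, mul_one]
    · intro β hβ hne
      have hlt : β < α := lt_of_le_of_ne (Nat.lt_succ_iff.mp (Finset.mem_range.mp hβ)) hne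
      have : cf y r (fun _ => (1 : ℂ)) (α + 1 - 1 - β) = 0 := by
        unfold cf ci
        obtain ⟨k, hk⟩ : ∃ k : ℕ, α + 1 - 1 - β = k + 1 := ⟨α - β - 1, by omega⟩
        rw [hk]
        have h2 := circleIntegral.integral_sub_zpow_of_ne (n := -((k : ℤ) + 2)) (by omega) y y r
        have h3 : (∮ s in C(y, r), (1 : ℂ) * ((s - y) ^ (k + 1 + 1))⁻¹) = 0 := by
          rw [← h2]
          refine circleIntegral.integral_congr hr.le fun s _ => ?_
          simp only [one_mul]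
          rw [zpow_neg]
          norm_cast
        rw [h3, mul_zero]
      rw [this, mul_zero]
    · intro h; exact absurd (Finset.mem_range.mpr (Nat.lt_succ_self α)) h
  rw [← h1]
  have h2 : ci y r (fun s => P.eval s * ((1 : ℂ) * ((s - y) ^ (α + 1))⁻¹)) =
      cf y r (fun s => P.eval s) α := by
    unfold cf
    exact ci_congr hr.le fun s _ => by simp
  rw [h2]
  exact norm_cf_le hr h α

/-- **the two-species bound with slots** -/
theorem slots_det_bound {n Y : Type*} [Fintype n] [DecidableEq n] [Fintype Y] [DecidableEq Y]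
    {r : ℝ} (hr : 0 < r) (y : Y → ℂ) (m : Y → ℕ) (P : n → ℂ[X]) (b : n → Y → ℂ → ℂ)
    (hb : ∀ c k, DifferentiableOn ℂ (b c k) (closedBall (y k) r))
    (A M : Matrix n n ℂ)
    (hM : ∀ i c, M i c = A i c +
      ∑ k, ci (y k) r (fun s => (P i).eval s * (b c k s * ((s - y k) ^ m k)⁻¹)))
    (x a : n → ℝ) (μ ν : Y → ℝ) (hx : ∀ i, 0 ≤ x i) (ha : ∀ c, 0 ≤ a c) (hμ : ∀ k, 0 < μ k)
    (hν : ∀ k, 0 ≤ ν k) (hA : ∀ i c, ‖A i c‖ ≤ x i * a c)
    (hP : ∀ i k, ∀ s ∈ sphere (y k) r, ‖(P i).eval s‖ ≤ x i * μ k)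
    (hbn : ∀ c k, ∀ s ∈ sphere (y k) r, ‖b c k s‖ ≤ ν k * a c) :
    ‖M.det‖ ≤ (Fintype.card n + ∑ k, m k).factorial *
      ((∏ i, x i) * (∏ c, a c) * ∏ k, max 1 ((r ^ (m k - 1))⁻¹ * (μ k * ν k)) ^ m k) := by
  let U : Matrix n (Σ k : Y, Fin (m k)) ℂ := Matrix.of fun i κ => tc (y κ.1) (P i) κ.2
  let V : Matrix (Σ k : Y, Fin (m k)) n ℂ :=
    Matrix.of fun κ c => cf (y κ.1) r (b c κ.1) (m κ.1 - 1 - κ.2)
  have hMU : M = A + U * V := by
    ext i c
    rw [hM, Matrix.add_apply, Matrix.mul_apply, Fintype.sum_sigma]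
    congr 1
    refine Finset.sum_congr rfl fun k _ => ?_
    rw [slot_form hr (hb c k), Finset.sum_range]
    rfl
  rw [hMU]
  have key := Crest.Agent.R006.DetBoundx885.norm_det_add_mul_le A U V x a
    (fun κ => μ κ.1 * (r ^ (κ.2 : ℕ))⁻¹) (fun κ => ν κ.1 * (r ^ (m κ.1 - 1 - κ.2))⁻¹)
    hx ha (fun κ => mul_pos (hμ _) (by positivity)) (fun κ => mul_nonneg (hν _) (by positivity))
    hA ?_ ?_
  · refine key.trans (le_of_eq ?_)
    have hcard : Fintype.card (Σ k : Y, Fin (m k)) = ∑ k, m k := by simp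
    have hprod : (∏ κ : (Σ k : Y, Fin (m k)), max 1 ((μ κ.1 * (r ^ (κ.2 : ℕ))⁻¹) *
        (ν κ.1 * (r ^ (m κ.1 - 1 - κ.2))⁻¹))) =
        ∏ k, max 1 ((r ^ (m k - 1))⁻¹ * (μ k * ν k)) ^ m k := by
      rw [Fintype.prod_sigma]
      refine Finset.prod_congr rfl fun k _ => ?_
      rw [← Fin.prod_const]
      refine Finset.prod_congr rfl fun j _ => ?_
      congr 1
      have e : (r ^ (j : ℕ))⁻¹ * (r ^ (m k - 1 - j))⁻¹ = (r ^ (m k - 1))⁻¹ := by
        rw [← mul_inv, ← pow_add]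
        congr 2
        have := j.2
        omega
      rw [← e]; ring
    rw [hcard, hprod]
  · intro i κ
    calc ‖U i κ‖ ≤ (x i * μ κ.1) * (r ^ (κ.2 : ℕ))⁻¹ := norm_tc_le hr (hP i κ.1) _
      _ = _ := by ring
  · intro κ c
    calc ‖V κ c‖ ≤ (ν κ.1 * a c) * (r ^ (m κ.1 - 1 - κ.2))⁻¹ := norm_cf_le hr (hbn c κ.1) _
      _ = _ := by ring

end

end Crest.Agent.R006.P3Slot
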