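import Crest.Agent.R006.Border_410
import Crest.Agent.R006.P3_Slot_283

/-!
# Row 6, block P3: assembly of the plain two-species bound (helper283)

`LR`, `LQ` bilinear functionals (residue functionals of the `R`- and the `Q`-columns), `u o` the
unit columns; simple reference points `w` (`n`), `z` (`a`), `y` (`k`).

* `refM` : the matrix `[LR (lg w i) (lg z j) | LQ (lg w i) (lg y j) | u o (lg w i)]`;
* `monM` : the matrix `[LR (X^i) (X^j) | LQ (X^i) (X^j) | u o (X^i)]`;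
* `norm_det_refM` : `‖det refM‖ = |V(w)| |V(z)| |V(y)| ‖det monM‖`;
* `refM_bound` : the bound with slots, when
  `LR (lg w i) (lg z j) = AR i j + ∑_κ ci (t κ) r (lg w i · bR j κ · (s - t κ)^(-m κ))`, same `LQ`.
-/

set_option autoImplicit false

namespace Crest.Agent.R006.P3Asm

open Complex Polynomial Set Filter Topology MeasureTheory Metric
open scoped Real Matrix
open Crest.Agent.R006.Border410 Crest.Agent.R006.P3Slot

noncomputable section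

variable {n a k c : ℕ}

/-- the matrix at the reference points; the row index is transported along `ρ` -/
def refM (LR LQ : ℂ[X] →ₗ[ℂ] ℂ[X] →ₗ[ℂ] ℂ) (u : Fin c → ℂ[X] →ₗ[ℂ] ℂ)
    (w : Fin n → ℂ) (z : Fin a → ℂ) (y : Fin k → ℂ) (ρ : Fin a ⊕ (Fin k ⊕ Fin c) ≃ Fin n) :
    Matrix (Fin a ⊕ (Fin k ⊕ Fin c)) (Fin a ⊕ (Fin k ⊕ Fin c)) ℂ :=
  Matrix.of fun i => Sum.elim (fun j => LR (lg w (ρ i)) (lg z j))
    (Sum.elim (fun j => LQ (lg w (ρ i)) (lg y j)) (fun o => u o (lg w (ρ i))))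

/-- the matrix with monomials -/
def monM (LR LQ : ℂ[X] →ₗ[ℂ] ℂ[X] →ₗ[ℂ] ℂ) (u : Fin c → ℂ[X] →ₗ[ℂ] ℂ)
    (ρ : Fin a ⊕ (Fin k ⊕ Fin c) ≃ Fin n) :
    Matrix (Fin a ⊕ (Fin k ⊕ Fin c)) (Fin a ⊕ (Fin k ⊕ Fin c)) ℂ :=
  Matrix.of fun i => Sum.elim (fun j : Fin a => LR (X ^ (ρ i : ℕ)) (X ^ (j : ℕ)))
    (Sum.elim (fun j : Fin k => LQ (X ^ (ρ i : ℕ)) (X ^ (j : ℕ)))
      (fun o => u o (X ^ (ρ i : ℕ))))

variable (LR LQ : ℂ[X] →ₗ[ℂ] ℂ[X] →ₗ[ℂ] ℂ) (u : Fin c → ℂ[X] →ₗ[ℂ] ℂ)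
  (w : Fin n → ℂ) (z : Fin a → ℂ) (y : Fin k → ℂ) (ρ : Fin a ⊕ (Fin k ⊕ Fin c) ≃ Fin n)

lemma om_elim0 (v : Fin 0 → ℂ) : om v = 1 := by simp [om]

/-- **change of basis**: the determinant at the reference points -/
theorem norm_det_refM (hw : Function.Injective w) (hz : Function.Injective z)
    (hy : Function.Injective y) :
    ‖(refM LR LQ u w z y ρ).det‖ =
      ‖(Matrix.vandermonde w).det‖ * (‖(Matrix.vandermonde z).det‖ *
        ‖(Matrix.vandermonde y).det‖) * ‖(monM LR LQ u ρ).det‖ := by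
  classical
  -- rows: `lg w i = ∑ coefM * X^l`
  have hrow : ∀ (φ : ℂ[X] →ₗ[ℂ] ℂ) (i : Fin n), φ (lg w i) =
      ∑ l : Fin n, coefM (lg w) l i * φ (X ^ (l : ℕ)) := by
    intro φ i
    rw [lin_expand φ _ (lg_natDegree_lt w i)]
    exact Finset.sum_congr rfl fun l _ => by rw [coefM, Matrix.of_apply, mul_comm]
  have hfac : refM LR LQ u w z y ρ =
      ((coefM (lg w)).submatrix ρ ρ)ᵀ * (monM LR LQ u ρ *
        Matrix.fromBlocks (coefM (lg z)) 0 0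
          (Matrix.fromBlocks (coefM (lg y)) 0 0 (1 : Matrix (Fin c) (Fin c) ℂ))) := by
    ext i j
    rw [Matrix.mul_apply]
    simp only [Matrix.transpose_apply, Matrix.submatrix_apply]
    rw [← Equiv.sum_comp ρ.symm]
    simp only [Equiv.apply_symm_apply, Matrix.mul_apply, Fintype.sum_sum_type]
    rcases j with j | (j | o)
    · simp only [refM, monM, Matrix.of_apply, Sum.elim_inl, Sum.elim_inr,
        Matrix.fromBlocks_apply₁₁, Matrix.fromBlocks_apply₂₁, Matrix.zero_apply, mul_zero,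
        Finset.sum_const_zero, add_zero, Equiv.apply_symm_apply]
      have h1 := hrow (LR.flip (lg z j)) (ρ i)
      simp only [LinearMap.flip_apply] at h1
      rw [h1]
      refine Finset.sum_congr rfl fun l _ => ?_
      congr 1
      rw [lin_expand (LR (X ^ (l : ℕ))) _ (lg_natDegree_lt z j)]
      exact Finset.sum_congr rfl fun x _ => by rw [coefM, Matrix.of_apply]
    · simp only [refM, monM, Matrix.of_apply, Sum.elim_inl, Sum.elim_inr,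
        Matrix.fromBlocks_apply₁₂, Matrix.fromBlocks_apply₂₂, Matrix.fromBlocks_apply₁₁,
        Matrix.fromBlocks_apply₂₁, Matrix.zero_apply, mul_zero,
        Finset.sum_const_zero, add_zero, zero_add, Equiv.apply_symm_apply]
      have h1 := hrow (LQ.flip (lg y j)) (ρ i)
      simp only [LinearMap.flip_apply] at h1
      rw [h1]
      refine Finset.sum_congr rfl fun l _ => ?_
      congr 1
      rw [lin_expand (LQ (X ^ (l : ℕ))) _ (lg_natDegree_lt y j)]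
      exact Finset.sum_congr rfl fun x _ => by rw [coefM, Matrix.of_apply]
    · simp only [refM, monM, Matrix.of_apply, Sum.elim_inl, Sum.elim_inr,
        Matrix.fromBlocks_apply₁₂, Matrix.fromBlocks_apply₂₂, Matrix.zero_apply, mul_zero,
        Finset.sum_const_zero, zero_add, Equiv.apply_symm_apply, Matrix.one_apply, mul_ite,
        mul_one, Finset.sum_ite_eq', Finset.mem_univ, if_true]
      exact hrow (u o) (ρ i)
  rw [hfac, Matrix.det_mul, Matrix.det_mul, Matrix.det_transpose, Matrix.det_submatrix_equiv_self,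
    Matrix.det_fromBlocks_zero₂₁, Matrix.det_fromBlocks_zero₂₁, Matrix.det_one, mul_one, norm_mul,
    norm_mul, norm_mul, norm_det_coefM_lg w hw, norm_det_coefM_lg z hz, norm_det_coefM_lg y hy]
  ring

/-- **the bound with slots** -/
theorem refM_bound {Y : Type*} [Fintype Y] [DecidableEq Y] {r : ℝ} (hr : 0 < r)
    (t : Y → ℂ) (m : Y → ℕ) (bR : Fin a → Y → ℂ → ℂ) (bQ : Fin k → Y → ℂ → ℂ)
    (hbR : ∀ j κ, DifferentiableOn ℂ (bR j κ) (closedBall (t κ) r))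
    (hbQ : ∀ j κ, DifferentiableOn ℂ (bQ j κ) (closedBall (t κ) r))
    (AR : Fin n → Fin a → ℂ) (AQ : Fin n → Fin k → ℂ)
    (hR : ∀ i j, LR (lg w i) (lg z j) = AR i j +
      ∑ κ, ci (t κ) r (fun s => (lg w i).eval s * (bR j κ s * ((s - t κ) ^ m κ)⁻¹)))
    (hQ : ∀ i j, LQ (lg w i) (lg y j) = AQ i j +
      ∑ κ, ci (t κ) r (fun s => (lg w i).eval s * (bQ j κ s * ((s - t κ) ^ m κ)⁻¹)))
    (x : Fin n → ℝ) (αR : Fin a → ℝ) (αQ : Fin k → ℝ) (γ : Fin c → ℝ) (μ ν : Y → ℝ)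
    (hx : ∀ i, 0 ≤ x i) (hαR : ∀ j, 0 ≤ αR j) (hαQ : ∀ j, 0 ≤ αQ j) (hγ : ∀ o, 0 ≤ γ o)
    (hμ : ∀ κ, 0 < μ κ) (hν : ∀ κ, 0 ≤ ν κ)
    (hAR : ∀ i j, ‖AR i j‖ ≤ x i * αR j) (hAQ : ∀ i j, ‖AQ i j‖ ≤ x i * αQ j)
    (hu : ∀ i o, ‖u o (lg w i)‖ ≤ x i * γ o)
    (hP : ∀ i κ, ∀ s ∈ sphere (t κ) r, ‖(lg w i).eval s‖ ≤ x i * μ κ)
    (hR' : ∀ j κ, ∀ s ∈ sphere (t κ) r, ‖bR j κ s‖ ≤ ν κ * αR j)
    (hQ' : ∀ j κ, ∀ s ∈ sphere (t κ) r, ‖bQ j κ s‖ ≤ ν κ * αQ j) :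
    ‖(refM LR LQ u w z y ρ).det‖ ≤ (n + ∑ κ, m κ).factorial *
      ((∏ i, x i) * ((∏ j, αR j) * ((∏ j, αQ j) * ∏ o, γ o)) *
        ∏ κ, max 1 ((r ^ (m κ - 1))⁻¹ * (μ κ * ν κ)) ^ m κ) := by
  classical
  set b : Fin a ⊕ (Fin k ⊕ Fin c) → Y → ℂ → ℂ :=
    Sum.elim bR (Sum.elim bQ fun _ _ _ => 0) with hb
  set A : Matrix (Fin a ⊕ (Fin k ⊕ Fin c)) (Fin a ⊕ (Fin k ⊕ Fin c)) ℂ :=
    Matrix.of fun i => Sum.elim (fun j => AR (ρ i) j) (Sum.elim (fun j => AQ (ρ i) j)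
      (fun o => u o (lg w (ρ i)))) with hA
  have key := slots_det_bound hr t m (fun i => lg w (ρ i)) b ?_ A (refM LR LQ u w z y ρ) ?_
    (fun i => x (ρ i)) (Sum.elim αR (Sum.elim αQ γ)) μ ν (fun i => hx _) ?_ hμ hν ?_
    (fun i κ s hs => hP (ρ i) κ s hs) ?_
  · refine key.trans (le_of_eq ?_)
    have e1 : ∏ i, x (ρ i) = ∏ i, x i := Equiv.prod_comp ρ x
    have e2 : ∏ i, (Sum.elim αR (Sum.elim αQ γ) : Fin a ⊕ (Fin k ⊕ Fin c) → ℝ) i =
        (∏ j, αR j) * ((∏ y, αQ y) * ∏ o, γ o) := by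
      rw [Fintype.prod_sum_type, Fintype.prod_sum_type]
      simp
    have e3 : Fintype.card (Fin a ⊕ (Fin k ⊕ Fin c)) = n := by
      rw [Fintype.card_congr ρ, Fintype.card_fin]
    rw [e1, e2, e3]
  · rintro (j | (j | o)) κ
    · exact hbR j κ
    · exact hbQ j κ
    · exact differentiableOn_const 0
  · rintro i (j | (j | o))
    · exact hR _ _
    · exact hQ _ _
    · have h0 : ∀ κ, ci (t κ) r (fun s => (lg w (ρ i)).eval s *
          (b (Sum.inr (Sum.inr o)) κ s * ((s - t κ) ^ m κ)⁻¹)) = 0 := by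
        intro κ
        have e : (fun s => (lg w (ρ i)).eval s *
          (b (Sum.inr (Sum.inr o)) κ s * ((s - t κ) ^ m κ)⁻¹)) = fun _ => 0 := by
          funext s
          simp [hb]
        rw [e]
        exact ci_holo hr.le (differentiableOn_const 0)
      simp only [h0, Finset.sum_const_zero, add_zero]
      rfl
  · rintro (j | (j | o))
    · exact hαR j
    · exact hαQ j
    · exact hγ o
  · rintro i (j | (j | o))
    · exact hAR _ _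
    · exact hAQ _ _
    · exact hu _ _
  · rintro (j | (j | o)) κ s hs
    · exact hR' j κ s hs
    · exact hQ' j κ s hs
    · simpa [hb] using mul_nonneg (hν κ) (hγ o)

/-- both together -/
theorem monM_bound {Y : Type*} [Fintype Y] [DecidableEq Y] {r : ℝ} (hr : 0 < r)
    (hw : Function.Injective w) (hz : Function.Injective z) (hy : Function.Injective y)
    (t : Y → ℂ) (m : Y → ℕ) (bR : Fin a → Y → ℂ → ℂ) (bQ : Fin k → Y → ℂ → ℂ)
    (hbR : ∀ j κ, DifferentiableOn ℂ (bR j κ) (closedBall (t κ) r))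
    (hbQ : ∀ j κ, DifferentiableOn ℂ (bQ j κ) (closedBall (t κ) r))
    (AR : Fin n → Fin a → ℂ) (AQ : Fin n → Fin k → ℂ)
    (hR : ∀ i j, LR (lg w i) (lg z j) = AR i j +
      ∑ κ, ci (t κ) r (fun s => (lg w i).eval s * (bR j κ s * ((s - t κ) ^ m κ)⁻¹)))
    (hQ : ∀ i j, LQ (lg w i) (lg y j) = AQ i j +
      ∑ κ, ci (t κ) r (fun s => (lg w i).eval s * (bQ j κ s * ((s - t κ) ^ m κ)⁻¹)))
    (x : Fin n → ℝ) (αR : Fin a → ℝ) (αQ : Fin k → ℝ) (γ : Fin c → ℝ) (μ ν : Y → ℝ)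
    (hx : ∀ i, 0 ≤ x i) (hαR : ∀ j, 0 ≤ αR j) (hαQ : ∀ j, 0 ≤ αQ j) (hγ : ∀ o, 0 ≤ γ o)
    (hμ : ∀ κ, 0 < μ κ) (hν : ∀ κ, 0 ≤ ν κ)
    (hAR : ∀ i j, ‖AR i j‖ ≤ x i * αR j) (hAQ : ∀ i j, ‖AQ i j‖ ≤ x i * αQ j)
    (hu : ∀ i o, ‖u o (lg w i)‖ ≤ x i * γ o)
    (hP : ∀ i κ, ∀ s ∈ sphere (t κ) r, ‖(lg w i).eval s‖ ≤ x i * μ κ)
    (hR' : ∀ j κ, ∀ s ∈ sphere (t κ) r, ‖bR j κ s‖ ≤ ν κ * αR j)
    (hQ' : ∀ j κ, ∀ s ∈ sphere (t κ) r, ‖bQ j κ s‖ ≤ ν κ * αQ j) :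
    ‖(Matrix.vandermonde w).det‖ * (‖(Matrix.vandermonde z).det‖ *
        ‖(Matrix.vandermonde y).det‖) * ‖(monM LR LQ u ρ).det‖ ≤ (n + ∑ κ, m κ).factorial *
      ((∏ i, x i) * ((∏ j, αR j) * ((∏ j, αQ j) * ∏ o, γ o)) *
        ∏ κ, max 1 ((r ^ (m κ - 1))⁻¹ * (μ κ * ν κ)) ^ m κ) := by
  rw [← norm_det_refM LR LQ u w z y ρ hw hz hy]
  exact refM_bound LR LQ u w z y ρ hr t m bR bQ hbR hbQ AR AQ hR hQ x αR αQ γ μ ν hx hαR hαQ hγ
    hμ hν hAR hAQ hu hP hR' hQ'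

end

end Crest.Agent.R006.P3Asm
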