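import Mathlib

/-!
# Row 6, block P3, helper632: the identity `be = 0`, part A (WZ pair and summability)

`g k y = 8^{-y} 2^{-k} (6y+2k+1) Γ(y+1/2+k)² / (Γ(y+1)² Γ(y+1+k) Γ(k+1/2-y))`
`H k y = -8 8^{-y} 2^{-k} Γ(y+1/2+k)² / (Γ(y)² Γ(y+1+k) Γ(k+3/2-y))`
satisfy `g (k+1) y - g k y = H k (y+1) - H k y`.
-/

set_option autoImplicit false

namespace Crest.Agent.R006.BeZero632

open Real Filter Topology

/-- the reciprocal of Gamma -/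
noncomputable def ig (z : ℝ) : ℝ := (Gamma z)⁻¹

lemma ig_eq (z : ℝ) : ig z = z * ig (z + 1) := by
  unfold ig
  by_cases h : z = 0
  · simp [h, Real.Gamma_zero]
  · rw [Real.Gamma_add_one h, mul_inv, ← mul_assoc, mul_inv_cancel₀ h, one_mul]

lemma ig_pos {z : ℝ} (h : 0 < z) : 0 < ig z := inv_pos.mpr (Real.Gamma_pos_of_pos h)

noncomputable def g (k : ℕ) (y : ℝ) : ℝ :=
  (8 : ℝ) ^ (-y) * (1 / 2) ^ k * (6 * y + 2 * k + 1) * Gamma (y + 1 / 2 + k) ^ 2 *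
    (ig (y + 1) ^ 2 * ig (y + 1 + k) * ig (k + 1 / 2 - y))

noncomputable def H (k : ℕ) (y : ℝ) : ℝ :=
  -8 * ((8 : ℝ) ^ (-y) * (1 / 2) ^ k * Gamma (y + 1 / 2 + k) ^ 2 *
    (ig y ^ 2 * ig (y + 1 + k) * ig (k + 3 / 2 - y)))

/-- the common factor -/
noncomputable def E (k : ℕ) (y : ℝ) : ℝ :=
  (8 : ℝ) ^ (-y) * (1 / 2) ^ k * Gamma (y + 1 / 2 + k) ^ 2 *
    (ig (y + 1) ^ 2 * ig (y + 2 + k) * ig (k + 3 / 2 - y))

lemma g_eq_E (k : ℕ) (y : ℝ) :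
    g k y = E k y * ((6 * y + 2 * k + 1) * (y + 1 + k) * (k + 1 / 2 - y)) := by
  unfold g E
  rw [ig_eq (y + 1 + k), ig_eq (k + 1 / 2 - y)]
  rw [show y + 1 + k + 1 = y + 2 + k by ring, show (k : ℝ) + 1 / 2 - y + 1 = k + 3 / 2 - y by ring]
  ring

lemma H_eq_E (k : ℕ) (y : ℝ) : H k y = E k y * (-8 * y ^ 2 * (y + 1 + k)) := by
  unfold H E
  rw [ig_eq (y + 1 + k), ig_eq y]
  rw [show y + 1 + k + 1 = y + 2 + k by ring]
  ring

lemma rpow_neg_add_one (y : ℝ) : (8 : ℝ) ^ (-(y + 1)) = (8 : ℝ) ^ (-y) / 8 := by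
  rw [show -(y + 1) = -y - 1 by ring, Real.rpow_sub (by norm_num), Real.rpow_one]

lemma Gamma_half_add {k : ℕ} {y : ℝ} (hy : -(1 / 2) < y) :
    Gamma (y + 1 / 2 + k + 1) = (y + 1 / 2 + k) * Gamma (y + 1 / 2 + k) :=
  Real.Gamma_add_one (by have : (0 : ℝ) ≤ k := Nat.cast_nonneg k; intro h; linarith)

lemma g_succ (k : ℕ) {y : ℝ} (hy : -(1 / 2) < y) :
    g (k + 1) y = E k y * (1 / 2 * (6 * y + 2 * k + 3) * (y + 1 / 2 + k) ^ 2) := by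
  unfold g E
  push_cast
  rw [show y + 1 / 2 + ((k : ℝ) + 1) = y + 1 / 2 + k + 1 by ring, Gamma_half_add hy,
    show y + 1 + ((k : ℝ) + 1) = y + 2 + k by ring,
    show (k : ℝ) + 1 + 1 / 2 - y = k + 3 / 2 - y by ring]
  ring

lemma H_add_one (k : ℕ) {y : ℝ} (hy : -(1 / 2) < y) :
    H k (y + 1) = E k y * (-(y + 1 / 2 + k) ^ 2 * (k + 1 / 2 - y)) := by
  unfold H E
  rw [rpow_neg_add_one, show y + 1 + 1 / 2 + (k : ℝ) = y + 1 / 2 + k + 1 by ring, Gamma_half_add hy,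
    show y + 1 + 1 + (k : ℝ) = y + 2 + k by ring,
    show (k : ℝ) + 3 / 2 - (y + 1) = k + 1 / 2 - y by ring, ig_eq ((k : ℝ) + 1 / 2 - y),
    show (k : ℝ) + 1 / 2 - y + 1 = k + 3 / 2 - y by ring]
  ring

/-- the WZ identity -/
theorem wz (k : ℕ) {y : ℝ} (hy : -(1 / 2) < y) :
    g (k + 1) y - g k y = H k (y + 1) - H k y := by
  rw [g_succ k hy, g_eq_E, H_add_one k hy, H_eq_E]
  ring

noncomputable def r (k : ℕ) (y : ℝ) : ℝ :=
  (y + 1 / 2 + k) ^ 2 * (k - 1 / 2 - y) * (6 * y + 2 * k + 7) /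
    (8 * (y + 1) ^ 2 * (y + 1 + k) * (6 * y + 2 * k + 1))

lemma g_add_one (k : ℕ) {y : ℝ} (hy : 0 ≤ y) : g k (y + 1) = r k y * g k y := by
  have hk : (0 : ℝ) ≤ k := Nat.cast_nonneg k
  have h1 : y + 1 ≠ 0 := by positivity
  have h2 : y + 1 + k ≠ 0 := by positivity
  have h3 : 6 * y + 2 * (k : ℝ) + 1 ≠ 0 := by positivity
  have e1 : ig (y + 1 + 1) = ig (y + 1) / (y + 1) := by
    rw [eq_div_iff h1, mul_comm, ← ig_eq]
  have e2 : ig (y + 1 + 1 + k) = ig (y + 1 + k) / (y + 1 + k) := by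
    rw [eq_div_iff h2, mul_comm, show y + 1 + 1 + (k : ℝ) = y + 1 + k + 1 by ring, ← ig_eq]
  have e3 : ig ((k : ℝ) + 1 / 2 - (y + 1)) = (k - 1 / 2 - y) * ig (k + 1 / 2 - y) := by
    rw [ig_eq ((k : ℝ) + 1 / 2 - (y + 1)), show (k : ℝ) + 1 / 2 - (y + 1) + 1 = k + 1 / 2 - y by ring]
    ring
  unfold g r
  rw [rpow_neg_add_one, show y + 1 + 1 / 2 + (k : ℝ) = y + 1 / 2 + k + 1 by ring,
    Gamma_half_add (by linarith), e1, e2, e3]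
  field_simp
  ring

lemma H_ratio (k : ℕ) {y : ℝ} (hy : 1 ≤ y) :
    H k (y + 1) = (y + 1 / 2 + k) ^ 2 * (k + 1 / 2 - y) / (8 * y ^ 2 * (y + 1 + k)) * H k y := by
  have hk : (0 : ℝ) ≤ k := Nat.cast_nonneg k
  have h1 : y ≠ 0 := by positivity
  have h2 : y + 1 + k ≠ 0 := by positivity
  rw [H_add_one k (by linarith), H_eq_E]
  field_simp

lemma H_succ (k : ℕ) {x : ℝ} (hx : -(1 / 2) < x) (hx' : x < 1 / 2) :
    H (k + 1) x = (x + 1 / 2 + k) ^ 2 / (2 * ((x + 1 + k) * (k + 3 / 2 - x))) * H k x := by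
  have hk : (0 : ℝ) ≤ k := Nat.cast_nonneg k
  have h2 : x + 1 + k ≠ 0 := by
    intro h; linarith
  have h3 : (k : ℝ) + 3 / 2 - x ≠ 0 := by
    intro h; linarith
  have e2 : ig (x + 1 + (k + 1)) = ig (x + 1 + k) / (x + 1 + k) := by
    rw [eq_div_iff h2, mul_comm, show x + 1 + ((k : ℝ) + 1) = x + 1 + k + 1 by ring, ← ig_eq]
  have e3 : ig ((k : ℝ) + 1 + 3 / 2 - x) = ig (k + 3 / 2 - x) / (k + 3 / 2 - x) := by
    rw [eq_div_iff h3, mul_comm, show (k : ℝ) + 1 + 3 / 2 - x = k + 3 / 2 - x + 1 by ring, ← ig_eq]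
  unfold H
  push_cast
  rw [show x + 1 / 2 + ((k : ℝ) + 1) = x + 1 / 2 + k + 1 by ring, Gamma_half_add hx, e2, e3]
  field_simp
  ring

/-- `|H k x| ≤ 2^{-k} |H 0 x|` for small `x`. -/
lemma abs_H_le (k : ℕ) {x : ℝ} (hx : 0 ≤ x) (hx' : x ≤ 1 / 4) :
    |H k x| ≤ (1 / 2) ^ k * |H 0 x| := by
  induction k with
  | zero => simp
  | succ k ih =>
    have hk : (0 : ℝ) ≤ k := Nat.cast_nonneg k
    rw [H_succ k (by linarith) (by linarith), abs_mul]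
    have hb : |(x + 1 / 2 + (k : ℝ)) ^ 2 / (2 * ((x + 1 + k) * (k + 3 / 2 - x)))| ≤ 1 / 2 := by
      have h1 : 0 < (x + 1 + (k : ℝ)) * (k + 3 / 2 - x) :=
        mul_pos (by linarith) (by linarith)
      rw [abs_of_nonneg (by positivity), div_le_iff₀ (by positivity)]
      nlinarith
    calc _ ≤ 1 / 2 * ((1 / 2) ^ k * |H 0 x|) := by gcongr
      _ = _ := by ring

end Crest.Agent.R006.BeZero632
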