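import Crest.Agent.R006.P3_BeZeroA_632

/-!
# Row 6, block P3, helper632: the identity `be = 0`, part B (sums)
-/

set_option autoImplicit false

namespace Crest.Agent.R006.BeZero632

open Real Filter Topology

lemma abs_r_le_half (k : ℕ) {y : ℝ} (hy : (k : ℝ) / 2 ≤ y) (h3 : 3 ≤ y) : |r k y| ≤ 1 / 2 := by
  have hk : (0 : ℝ) ≤ k := Nat.cast_nonneg k
  unfold r
  have hd : 0 < 8 * (y + 1) ^ 2 * (y + 1 + k) * (6 * y + 2 * (k : ℝ) + 1) := by positivity
  rw [abs_div, abs_of_pos hd, div_le_iff₀ hd, abs_mul, abs_mul,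
    abs_of_nonneg (by positivity : (0 : ℝ) ≤ (y + 1 / 2 + k) ^ 2),
    abs_of_nonneg (by positivity : (0 : ℝ) ≤ 6 * y + 2 * (k : ℝ) + 7)]
  have h1 : |(k : ℝ) - 1 / 2 - y| ≤ y + 1 := by rw [abs_le]; constructor <;> linarith
  have h2 : (y + 1 / 2 + (k : ℝ)) ^ 2 ≤ 3 * (y + 1) * (y + 1 + k) := by
    rw [sq]; apply mul_le_mul <;> linarith
  have h4 : 6 * y + 2 * (k : ℝ) + 7 ≤ 4 / 3 * (6 * y + 2 * (k : ℝ) + 1) := by linarith
  calc (y + 1 / 2 + (k : ℝ)) ^ 2 * |(k : ℝ) - 1 / 2 - y| * (6 * y + 2 * (k : ℝ) + 7)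
      ≤ (3 * (y + 1) * (y + 1 + k)) * (y + 1) * (4 / 3 * (6 * y + 2 * (k : ℝ) + 1)) := by
        apply mul_le_mul (mul_le_mul h2 h1 (abs_nonneg _) (by positivity)) h4 (by positivity)
          (by positivity)
    _ = 1 / 2 * (8 * (y + 1) ^ 2 * (y + 1 + k) * (6 * y + 2 * (k : ℝ) + 1)) := by ring

lemma abs_g_add_one_le (k : ℕ) {y : ℝ} (hy : (k : ℝ) / 2 ≤ y) (h3 : 3 ≤ y) :
    |g k (y + 1)| ≤ 1 / 2 * |g k y| := by
  rw [g_add_one k (by linarith), abs_mul]
  exact mul_le_mul_of_nonneg_right (abs_r_le_half k hy h3) (abs_nonneg _)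

lemma abs_H_add_one_le (k : ℕ) {y : ℝ} (hy : (k : ℝ) / 2 ≤ y) (h3 : 3 ≤ y) :
    |H k (y + 1)| ≤ 3 / 5 * |H k y| := by
  have hk : (0 : ℝ) ≤ k := Nat.cast_nonneg k
  rw [H_ratio k (by linarith), abs_mul]
  refine mul_le_mul_of_nonneg_right ?_ (abs_nonneg _)
  have hd : 0 < 8 * y ^ 2 * (y + 1 + (k : ℝ)) := by positivity
  rw [abs_div, abs_of_pos hd, div_le_iff₀ hd, abs_mul,
    abs_of_nonneg (by positivity : (0 : ℝ) ≤ (y + 1 / 2 + k) ^ 2)]
  have h1 : |(k : ℝ) + 1 / 2 - y| ≤ y + 1 / 2 := by rw [abs_le]; constructor <;> linarith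
  have h2 : (y + 1 / 2 + (k : ℝ)) ^ 2 ≤ 3 * (y + 1) * (y + 1 + k) := by
    rw [sq]; apply mul_le_mul <;> linarith
  calc (y + 1 / 2 + (k : ℝ)) ^ 2 * |(k : ℝ) + 1 / 2 - y|
      ≤ (3 * (y + 1) * (y + 1 + k)) * (y + 1 / 2) :=
        mul_le_mul h2 h1 (abs_nonneg _) (by positivity)
    _ = 3 * (y + 1) * (y + 1 / 2) * (y + 1 + k) := by ring
    _ ≤ (24 / 5 * y ^ 2) * (y + 1 + k) := by
        apply mul_le_mul_of_nonneg_right _ (by positivity)
        nlinarith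
    _ = 3 / 5 * (8 * y ^ 2 * (y + 1 + (k : ℝ))) := by ring

lemma eventually_big (k : ℕ) {x : ℝ} (hx : 0 ≤ x) :
    ∀ᶠ n : ℕ in atTop, (k : ℝ) / 2 ≤ n + x ∧ 3 ≤ (n : ℝ) + x := by
  filter_upwards [eventually_ge_atTop (k + 3)] with n hn
  have h1 : ((k : ℝ) + 3) ≤ n := by exact_mod_cast hn
  have hk : (0 : ℝ) ≤ k := Nat.cast_nonneg k
  constructor <;> linarith

lemma summable_g (k : ℕ) {x : ℝ} (hx : 0 ≤ x) : Summable fun n : ℕ => g k (n + x) := by
  refine summable_of_ratio_norm_eventually_le (r := 1 / 2) (by norm_num) ?_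
  filter_upwards [eventually_big k hx] with n hn
  rw [Real.norm_eq_abs, Real.norm_eq_abs]
  have := abs_g_add_one_le k hn.1 hn.2
  push_cast
  rwa [show (n : ℝ) + 1 + x = n + x + 1 by ring]

lemma summable_H (k : ℕ) {x : ℝ} (hx : 0 ≤ x) : Summable fun n : ℕ => H k (n + x) := by
  refine summable_of_ratio_norm_eventually_le (r := 3 / 5) (by norm_num) ?_
  filter_upwards [eventually_big k hx] with n hn
  rw [Real.norm_eq_abs, Real.norm_eq_abs]
  have := abs_H_add_one_le k hn.1 hn.2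
  push_cast
  rwa [show (n : ℝ) + 1 + x = n + x + 1 by ring]

noncomputable def W (k : ℕ) (x : ℝ) : ℝ := ∑' n : ℕ, g k (n + x)

lemma W_succ (k : ℕ) {x : ℝ} (hx : 0 ≤ x) : W (k + 1) x = W k x - H k x := by
  have h1 : HasSum (fun n : ℕ => g (k + 1) (n + x) - g k (n + x)) (W (k + 1) x - W k x) :=
    (summable_g (k + 1) hx).hasSum.sub (summable_g k hx).hasSum
  have h2 := h1.tendsto_sum_nat
  have h3 : ∀ N : ℕ, ∑ n ∈ Finset.range N, (g (k + 1) (n + x) - g k (n + x)) =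
      H k (N + x) - H k x := by
    intro N
    have : ∀ n : ℕ, g (k + 1) (n + x) - g k (n + x) =
        (fun m : ℕ => H k (m + x)) (n + 1) - (fun m : ℕ => H k (m + x)) n := by
      intro n
      have hn : (0 : ℝ) ≤ n := Nat.cast_nonneg n
      rw [wz k (by linarith)]
      push_cast
      rw [show (n : ℝ) + 1 + x = n + x + 1 by ring]
    rw [Finset.sum_congr rfl (fun n _ => this n)]
    have h5 := Finset.sum_range_sub (fun m : ℕ => H k (m + x)) N
    simp only [Nat.cast_zero, zero_add] at h5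
    exact h5
  simp only [h3] at h2
  have h4 : Tendsto (fun N : ℕ => H k (N + x) - H k x) atTop (𝓝 (0 - H k x)) :=
    (summable_H k hx).tendsto_atTop_zero.sub_const _
  have := tendsto_nhds_unique h2 h4
  linarith

lemma W_eq (k : ℕ) {x : ℝ} (hx : 0 ≤ x) :
    W 0 x = W k x + ∑ j ∈ Finset.range k, H j x := by
  induction k with
  | zero => simp
  | succ k ih => rw [Finset.sum_range_succ, W_succ k hx, ih]; ring

lemma H_zero (k : ℕ) : H k 0 = 0 := by
  unfold H ig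
  simp [Real.Gamma_zero]

lemma W_zero (k : ℕ) : W k 0 = W 0 0 := by
  rw [W_eq k le_rfl]
  simp [H_zero]

lemma abs_sum_H_le (k : ℕ) {x : ℝ} (hx : 0 ≤ x) (hx' : x ≤ 1 / 4) :
    |∑ j ∈ Finset.range k, H j x| ≤ 2 * |H 0 x| := by
  refine (Finset.abs_sum_le_sum_abs _ _).trans ?_
  calc ∑ j ∈ Finset.range k, |H j x| ≤ ∑ j ∈ Finset.range k, (1 / 2) ^ j * |H 0 x| :=
        Finset.sum_le_sum fun j _ => abs_H_le j hx hx'
    _ = (∑ j ∈ Finset.range k, ((1 : ℝ) / 2) ^ j) * |H 0 x| := by rw [Finset.sum_mul]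
    _ ≤ 2 * |H 0 x| := by
        apply mul_le_mul_of_nonneg_right _ (abs_nonneg _)
        rw [geom_sum_eq (by norm_num)]
        have : (0 : ℝ) ≤ (1 / 2) ^ k := by positivity
        rw [div_le_iff_of_neg (by norm_num)]
        linarith

/-- `|H 0 x| ≤ K x²` on `[0, 1/4]`. -/
lemma abs_H_zero_le : ∃ K : ℝ, 0 ≤ K ∧ ∀ x : ℝ, 0 ≤ x → x ≤ 1 / 4 → |H 0 x| ≤ K * x ^ 2 := by
  have hc : ContinuousOn (fun x : ℝ => E 0 x * (-8 * (x + 1 + (0 : ℕ)))) (Set.Icc 0 (1 / 4)) := by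
    have hG : ∀ a : ℝ, 0 < a → ContinuousOn (fun x : ℝ => Gamma (x + a)) (Set.Icc 0 (1 / 4)) := by
      intro a ha
      apply ContinuousOn.comp (t := Set.Ioi 0) (g := Gamma)
      · intro z hz
        exact (Real.differentiableAt_Gamma (fun m => by have : (0:ℝ) ≤ m := Nat.cast_nonneg m; have hz' : (0:ℝ) < z := hz; intro h; linarith)).continuousAt.continuousWithinAt
      · fun_prop
      · intro x hx; simp only [Set.mem_Ioi]; have := hx.1; linarith
    have hG' : ContinuousOn (fun x : ℝ => Gamma (3 / 2 - x)) (Set.Icc 0 (1 / 4)) := by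
      apply ContinuousOn.comp (t := Set.Ioi 0) (g := Gamma)
      · intro z hz
        exact (Real.differentiableAt_Gamma (fun m => by have : (0:ℝ) ≤ m := Nat.cast_nonneg m; have hz' : (0:ℝ) < z := hz; intro h; linarith)).continuousAt.continuousWithinAt
      · fun_prop
      · intro x hx; simp only [Set.mem_Ioi]; have := hx.2; linarith
    have i1 : ContinuousOn (fun x : ℝ => ig (x + 1)) (Set.Icc 0 (1 / 4)) :=
      (hG 1 one_pos).inv₀ fun x hx => (Real.Gamma_pos_of_pos (by linarith [hx.1])).ne'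
    have i2 : ContinuousOn (fun x : ℝ => ig (x + 2)) (Set.Icc 0 (1 / 4)) :=
      (hG 2 two_pos).inv₀ fun x hx => (Real.Gamma_pos_of_pos (by linarith [hx.1])).ne'
    have i3 : ContinuousOn (fun x : ℝ => ig (3 / 2 - x)) (Set.Icc 0 (1 / 4)) :=
      hG'.inv₀ fun x hx => (Real.Gamma_pos_of_pos (by linarith [hx.2])).ne'
    have e8 : ContinuousOn (fun x : ℝ => (8 : ℝ) ^ (-x)) (Set.Icc 0 (1 / 4)) := by
      apply Continuous.continuousOn
      exact Real.continuous_const_rpow (by norm_num) |>.comp continuous_neg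
    have hmain : ContinuousOn (fun x : ℝ => (8 : ℝ) ^ (-x) * Gamma (x + 1 / 2) ^ 2 *
        (ig (x + 1) ^ 2 * ig (x + 2) * ig (3 / 2 - x)) * (-8 * (x + 1))) (Set.Icc 0 (1 / 4)) := by
      exact ((e8.mul ((hG (1 / 2) (by norm_num)).pow 2)).mul
        (((i1.pow 2).mul i2).mul i3)).mul (by fun_prop)
    refine hmain.congr fun x _ => ?_
    unfold E
    simp
  obtain ⟨C, hC⟩ := isCompact_Icc.exists_bound_of_continuousOn hc
  refine ⟨max C 0, le_max_right _ _, fun x h0 h1 => ?_⟩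
  have := hC x ⟨h0, h1⟩
  rw [Real.norm_eq_abs] at this
  have e : H 0 x = (E 0 x * (-8 * (x + 1 + (0 : ℕ)))) * x ^ 2 := by rw [H_eq_E]; ring
  rw [e, abs_mul, abs_of_nonneg (by positivity : (0 : ℝ) ≤ x ^ 2)]
  exact mul_le_mul_of_nonneg_right (this.trans (le_max_left _ _)) (by positivity)

end Crest.Agent.R006.BeZero632
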