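import Crest.Agent.R006.P3_BeZeroB_632

/-!
# Row 6, block P3, helper632: the identity `be = 0`, part C (log-convexity and the limit `k → ∞`)
-/

set_option autoImplicit false

namespace Crest.Agent.R006.BeZero632

open Real Filter Topology

lemma Gamma_add_le {z t : ℝ} (hz : 0 < z) (h0 : 0 ≤ t) (h1 : t ≤ 1) :
    Gamma (z + t) ≤ Gamma z * z ^ t := by
  have hG : 0 < Gamma z := Real.Gamma_pos_of_pos hz
  rcases h0.eq_or_lt with h | h
  · rw [← h]; simp
  rcases h1.eq_or_lt with h' | h'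
  · rw [h', Real.rpow_one, Real.Gamma_add_one hz.ne', mul_comm]
  have := Real.Gamma_mul_add_mul_le_rpow_Gamma_mul_rpow_Gamma (s := z) (t := z + 1) (a := 1 - t)
    (b := t) hz (by linarith) (by linarith) h (by ring)
  rw [show (1 - t) * z + t * (z + 1) = z + t by ring, Real.Gamma_add_one hz.ne',
    Real.mul_rpow hz.le hG.le] at this
  calc Gamma (z + t) ≤ Gamma z ^ (1 - t) * (z ^ t * Gamma z ^ t) := this
    _ = (Gamma z ^ (1 - t) * Gamma z ^ t) * z ^ t := by ring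
    _ = Gamma z * z ^ t := by
        rw [← Real.rpow_add hG]; simp

lemma ig_add_le {z t : ℝ} (hz : 0 < z) (h0 : 0 ≤ t) (h1 : t ≤ 1) :
    ig (z + 1 + t) ≤ ig (z + 1) * z ^ (-t) := by
  have h2 := Gamma_add_le (z := z + 1 + t) (t := 1 - t) (by linarith) (by linarith) (by linarith)
  rw [show z + 1 + t + (1 - t) = (z + 1) + 1 by ring, Real.Gamma_add_one (by linarith : z + 1 ≠ 0)]
    at h2
  have hG : 0 < Gamma (z + 1) := Real.Gamma_pos_of_pos (by linarith)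
  have hG' : 0 < Gamma (z + 1 + t) := Real.Gamma_pos_of_pos (by linarith)
  have h3 : z ^ t * (z + 1 + t) ^ (1 - t) ≤ z + 1 := by
    have := Real.geom_mean_le_arith_mean2_weighted (w₁ := t) (w₂ := 1 - t) (p₁ := z)
      (p₂ := z + 1 + t) h0 (by linarith) hz.le (by linarith) (by ring)
    nlinarith
  have hzt : 0 < z ^ t := Real.rpow_pos_of_pos hz t
  have h4 : Gamma (z + 1) * z ^ t ≤ Gamma (z + 1 + t) := by
    have h5 : z ^ t * ((z + 1) * Gamma (z + 1)) ≤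
        Gamma (z + 1 + t) * (z ^ t * (z + 1 + t) ^ (1 - t)) := by
      calc z ^ t * ((z + 1) * Gamma (z + 1)) ≤
          z ^ t * (Gamma (z + 1 + t) * (z + 1 + t) ^ (1 - t)) := by gcongr
        _ = _ := by ring
    have h6 : Gamma (z + 1 + t) * (z ^ t * (z + 1 + t) ^ (1 - t)) ≤
        Gamma (z + 1 + t) * (z + 1) := by gcongr
    have h7 : (Gamma (z + 1) * z ^ t) * (z + 1) ≤ Gamma (z + 1 + t) * (z + 1) := by
      linarith
    exact le_of_mul_le_mul_right h7 (by linarith)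
  unfold ig
  rw [Real.rpow_neg hz.le, ← mul_inv]
  exact inv_anti₀ (by positivity) h4

lemma ig_sub_le {z t : ℝ} (hz : t < z) (h0 : 0 ≤ t) (h1 : t ≤ 1) :
    ig (z - t) ≤ ig z * z ^ t := by
  have h2 := Gamma_add_le (z := z - t) (t := t) (by linarith) h0 h1
  rw [sub_add_cancel] at h2
  have hz0 : 0 < z := by linarith
  have hG : 0 < Gamma z := Real.Gamma_pos_of_pos hz0
  have hG' : 0 < Gamma (z - t) := Real.Gamma_pos_of_pos (by linarith)
  have h3 : (z - t) ^ t ≤ z ^ t := Real.rpow_le_rpow (by linarith) (by linarith) h0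
  have h4 : Gamma z ≤ Gamma (z - t) * z ^ t := h2.trans (by gcongr)
  unfold ig
  rw [inv_mul_eq_div, inv_eq_one_div, div_le_div_iff₀ hG' hG]
  linarith

lemma g_pos (k : ℕ) {y : ℝ} (hy : 0 ≤ y) (hy' : y < k + 1 / 2) : 0 < g k y := by
  have hk : (0 : ℝ) ≤ k := Nat.cast_nonneg k
  unfold g
  have h1 := ig_pos (z := y + 1) (by linarith)
  have h2 := ig_pos (z := y + 1 + k) (by linarith)
  have h3 := ig_pos (z := (k : ℝ) + 1 / 2 - y) (by linarith)
  have h4 : 0 < Gamma (y + 1 / 2 + k) := Real.Gamma_pos_of_pos (by linarith)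
  have h5 : 0 < 6 * y + 2 * (k : ℝ) + 1 := by linarith
  positivity

noncomputable def Mq (c y : ℝ) : ℝ := (y + 1 / 2 + c) ^ 2 * (c + 1 / 2 - y) / (8 * y ^ 2 * (y + c))

lemma g_add_le (k : ℕ) {y t : ℝ} (hy : 0 < y) (h0 : 0 ≤ t) (h1 : t ≤ 1)
    (hyk : y + t < k + 1 / 2) :
    g k (y + t) ≤ g k y * Mq k y ^ t * ((6 * (y + t) + 2 * k + 1) / (6 * y + 2 * k + 1)) := by
  have hk : (0 : ℝ) ≤ k := Nat.cast_nonneg k
  have a1 := Gamma_add_le (z := y + 1 / 2 + k) (t := t) (by linarith) h0 h1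
  have a2 := ig_add_le (z := y) (t := t) hy h0 h1
  have a3 := ig_add_le (z := y + k) (t := t) (by linarith) h0 h1
  have a4 := ig_sub_le (z := (k : ℝ) + 1 / 2 - y) (t := t) (by linarith) h0 h1
  rw [show y + 1 / 2 + (k : ℝ) + t = y + t + 1 / 2 + k by ring] at a1
  rw [show y + 1 + t = y + t + 1 by ring] at a2
  rw [show y + (k : ℝ) + 1 + t = y + t + 1 + k by ring,
    show y + (k : ℝ) + 1 = y + 1 + k by ring] at a3
  rw [show (k : ℝ) + 1 / 2 - y - t = k + 1 / 2 - (y + t) by ring] at a4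
  have p1 : 0 < Gamma (y + t + 1 / 2 + k) := Real.Gamma_pos_of_pos (by linarith)
  have p1' : 0 < Gamma (y + 1 / 2 + k) := Real.Gamma_pos_of_pos (by linarith)
  have p2 := ig_pos (z := y + t + 1) (by linarith)
  have p2' := ig_pos (z := y + 1) (by linarith)
  have p3 := ig_pos (z := y + t + 1 + k) (by linarith)
  have p3' := ig_pos (z := y + 1 + k) (by linarith)
  have p4 := ig_pos (z := (k : ℝ) + 1 / 2 - (y + t)) (by linarith)
  have p4' := ig_pos (z := (k : ℝ) + 1 / 2 - y) (by linarith)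
  have p5 : 0 < 6 * (y + t) + 2 * (k : ℝ) + 1 := by linarith
  have p5' : 0 < 6 * y + 2 * (k : ℝ) + 1 := by linarith
  have q1 : 0 < (y + 1 / 2 + k : ℝ) ^ t := Real.rpow_pos_of_pos (by linarith) _
  have q2 : 0 < (y : ℝ) ^ (-t) := Real.rpow_pos_of_pos (by linarith) _
  have q3 : 0 < (y + k : ℝ) ^ (-t) := Real.rpow_pos_of_pos (by linarith) _
  have q4 : 0 < ((k : ℝ) + 1 / 2 - y) ^ t := Real.rpow_pos_of_pos (by linarith) _
  have hM : Mq k y ^ t = (8 : ℝ) ^ (-t) * ((y + 1 / 2 + k : ℝ) ^ t) ^ 2 * ((y : ℝ) ^ (-t)) ^ 2 *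
      (y + k : ℝ) ^ (-t) * ((k : ℝ) + 1 / 2 - y) ^ t := by
    have e : Mq k y = (8 : ℝ)⁻¹ * (y + 1 / 2 + k) ^ 2 * (y⁻¹) ^ 2 * (y + k)⁻¹ *
        ((k : ℝ) + 1 / 2 - y) := by
      unfold Mq
      have : y + (k : ℝ) ≠ 0 := by positivity
      field_simp
    have s1 : (0 : ℝ) ≤ y + 1 / 2 + k := by linarith
    have s2 : (0 : ℝ) ≤ y⁻¹ := by positivity
    have s3 : (0 : ℝ) ≤ (y + k)⁻¹ := by positivity
    have s4 : (0 : ℝ) ≤ (k : ℝ) + 1 / 2 - y := by linarith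
    rw [e, Real.mul_rpow (by positivity) s4, Real.mul_rpow (by positivity) s3,
      Real.mul_rpow (by positivity) (by positivity), Real.mul_rpow (by norm_num) (by positivity)]
    rw [Real.inv_rpow (by norm_num), ← Real.rpow_neg (by norm_num), Real.inv_rpow (by positivity),
      ← Real.rpow_neg (by positivity), ← Real.rpow_natCast, ← Real.rpow_natCast,
      ← Real.rpow_mul s1, ← Real.rpow_mul s2, mul_comm ((2 : ℕ) : ℝ) t, Real.rpow_mul s1,
      Real.rpow_mul s2, Real.rpow_natCast, Real.rpow_natCast, Real.inv_rpow hy.le,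
      ← Real.rpow_neg hy.le]
  have h8 : (8 : ℝ) ^ (-(y + t)) = 8 ^ (-y) * 8 ^ (-t) := by
    rw [← Real.rpow_add (by norm_num)]; congr 1; ring
  unfold g
  rw [hM, h8]
  calc (8 : ℝ) ^ (-y) * 8 ^ (-t) * (1 / 2) ^ k * (6 * (y + t) + 2 * k + 1) *
        Gamma (y + t + 1 / 2 + k) ^ 2 *
        (ig (y + t + 1) ^ 2 * ig (y + t + 1 + k) * ig (k + 1 / 2 - (y + t)))
      ≤ (8 : ℝ) ^ (-y) * 8 ^ (-t) * (1 / 2) ^ k * (6 * (y + t) + 2 * k + 1) *
        (Gamma (y + 1 / 2 + k) * (y + 1 / 2 + k : ℝ) ^ t) ^ 2 *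
        ((ig (y + 1) * (y : ℝ) ^ (-t)) ^ 2 * (ig (y + 1 + k) * (y + k : ℝ) ^ (-t)) *
          (ig (k + 1 / 2 - y) * ((k : ℝ) + 1 / 2 - y) ^ t)) := by
        gcongr
    _ = _ := by
        field_simp

/-- `r` and `Mq` are comparable in the bulk. -/
lemma Mq_le (m : ℕ) (hm : 1 ≤ m) {y : ℝ} (h4 : 4 * (m : ℝ) ≤ y) (h10 : y ≤ 10 * m) :
    Mq (20 * m : ℕ) y ≤ (1 + 1 / (m : ℝ)) ^ 4 * r (20 * m) y := by
  have hm1 : (1 : ℝ) ≤ m := by exact_mod_cast hm
  have hm0 : (0 : ℝ) < m := by linarith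
  unfold Mq r
  push_cast
  set q : ℝ := 1 + 1 / (m : ℝ) with hq
  set c : ℝ := 20 * (m : ℝ) with hc
  have hq1 : 1 ≤ q := by rw [hq]; have : 0 < 1 / (m : ℝ) := by positivity
                         linarith
  have key : ∀ z : ℝ, (m : ℝ) ≤ z → z + 1 ≤ q * z := by
    intro z hz
    rw [hq, add_mul, one_mul]
    have : 1 ≤ 1 / (m : ℝ) * z := by
      rw [one_div, inv_mul_eq_div, le_div_iff₀ hm0]; linarith
    linarith
  have k1 : c + 1 / 2 - y ≤ q * (c - 1 / 2 - y) := by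
    have := key (c - 1 / 2 - y) (by linarith)
    linarith
  have k2 : y + 1 ≤ q * y := key y (by linarith)
  have k3 : y + 1 + c ≤ q * (y + c) := by
    have := key (y + c) (by linarith)
    linarith
  have py : 0 < y := by linarith
  have pc : 0 < c := by positivity
  have pr : 0 < c - 1 / 2 - y := by linarith
  have i2 : 1 / y ^ 2 ≤ q ^ 2 / (y + 1) ^ 2 := by
    rw [div_le_div_iff₀ (by positivity) (by positivity), one_mul, ← mul_pow]
    exact pow_le_pow_left₀ (by linarith) k2 2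
  have i3 : 1 / (y + c) ≤ q / (y + 1 + c) := by
    rw [div_le_div_iff₀ (by positivity) (by positivity), one_mul]; exact k3
  have i4 : 1 ≤ (6 * y + 2 * c + 7) / (6 * y + 2 * c + 1) := by
    rw [le_div_iff₀ (by positivity)]; linarith
  calc (y + 1 / 2 + c) ^ 2 * (c + 1 / 2 - y) / (8 * y ^ 2 * (y + c))
      = (y + 1 / 2 + c) ^ 2 / 8 * (c + 1 / 2 - y) * (1 / y ^ 2) * (1 / (y + c)) * 1 := by
        field_simp
    _ ≤ (y + 1 / 2 + c) ^ 2 / 8 * (q * (c - 1 / 2 - y)) * (q ^ 2 / (y + 1) ^ 2) *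
        (q / (y + 1 + c)) * ((6 * y + 2 * c + 7) / (6 * y + 2 * c + 1)) := by
        gcongr
    _ = _ := by
        field_simp

lemma interp (m : ℕ) (hm : 1 ≤ m) {y t : ℝ} (h4 : 4 * (m : ℝ) ≤ y) (h10 : y ≤ 10 * m)
    (h0 : 0 ≤ t) (h1 : t ≤ 1) :
    g (20 * m) (y + t) ≤ (1 + 1 / (m : ℝ)) ^ 5 *
      ((1 - t) * g (20 * m) y + t * g (20 * m) (y + 1)) := by
  have hm1 : (1 : ℝ) ≤ m := by exact_mod_cast hm
  have hm0 : (0 : ℝ) < m := by linarith
  have hq1 : 1 ≤ 1 + 1 / (m : ℝ) := by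
    have : 0 < 1 / (m : ℝ) := by positivity
    linarith
  have hcast : ((20 * m : ℕ) : ℝ) = 20 * (m : ℝ) := by push_cast; ring
  have hgp : 0 < g (20 * m) y := g_pos _ (by linarith) (by rw [hcast]; linarith)
  have h2 := g_add_le (20 * m) (y := y) (t := t) (by linarith) h0 h1 (by rw [hcast]; linarith)
  refine h2.trans ?_
  have hMp : 0 < Mq (20 * m : ℕ) y := by
    unfold Mq
    rw [hcast]
    have : 0 < 20 * (m : ℝ) + 1 / 2 - y := by linarith
    have : 0 < y := by linarith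
    positivity
  have hM1 : Mq (20 * m : ℕ) y ^ t ≤ 1 + t * (Mq (20 * m : ℕ) y - 1) := by
    have := _root_.rpow_one_add_le_one_add_mul_self (s := Mq (20 * m : ℕ) y - 1) (p := t)
      (by linarith) h0 h1
    simpa using this
  have hM2 := Mq_le m hm h4 h10
  have hq4 : 1 ≤ (1 + 1 / (m : ℝ)) ^ 4 := one_le_pow₀ hq1
  have hrp : 0 < r (20 * m) y := by
    by_contra hneg
    have : (1 + 1 / (m : ℝ)) ^ 4 * r (20 * m) y ≤ 0 :=
      mul_nonpos_of_nonneg_of_nonpos (by positivity) (not_lt.mp hneg)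
    linarith
  have hM3 : Mq (20 * m : ℕ) y ^ t ≤ (1 + 1 / (m : ℝ)) ^ 4 * (1 - t + t * r (20 * m) y) := by
    have : t * Mq (20 * m : ℕ) y ≤ t * ((1 + 1 / (m : ℝ)) ^ 4 * r (20 * m) y) := by gcongr
    nlinarith
  have hf : (6 * (y + t) + 2 * ((20 * m : ℕ) : ℝ) + 1) / (6 * y + 2 * ((20 * m : ℕ) : ℝ) + 1) ≤
      1 + 1 / (m : ℝ) := by
    rw [hcast, div_le_iff₀ (by linarith), add_mul, one_mul]
    have : 6 * t ≤ 1 / (m : ℝ) * (6 * y + 2 * (20 * m) + 1) := by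
      rw [one_div, inv_mul_eq_div, le_div_iff₀ hm0]; nlinarith
    linarith
  have hf0 : 0 ≤ (6 * (y + t) + 2 * ((20 * m : ℕ) : ℝ) + 1) / (6 * y + 2 * ((20 * m : ℕ) : ℝ) + 1) := by
    rw [hcast]
    have : 0 < y := by linarith
    positivity
  calc g (20 * m) y * Mq (20 * m : ℕ) y ^ t *
        ((6 * (y + t) + 2 * ((20 * m : ℕ) : ℝ) + 1) / (6 * y + 2 * ((20 * m : ℕ) : ℝ) + 1))
      ≤ g (20 * m) y * ((1 + 1 / (m : ℝ)) ^ 4 * (1 - t + t * r (20 * m) y)) *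
        (1 + 1 / (m : ℝ)) := by
        have : 0 ≤ 1 - t + t * r (20 * m) y := by
          have := mul_nonneg h0 hrp.le
          linarith
        gcongr
    _ = (1 + 1 / (m : ℝ)) ^ 5 * ((1 - t) * g (20 * m) y + t * (r (20 * m) y * g (20 * m) y)) := by
        ring
    _ = _ := by rw [← g_add_one (20 * m) (by linarith)]

end Crest.Agent.R006.BeZero632
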