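import Crest.Agent.R006.P3_BeZeroC_632

/-!
# Row 6, block P3, helper632: the identity `be = 0`, part D (concentration, the limit)
-/

set_option autoImplicit false

namespace Crest.Agent.R006.BeZero632

open Real Filter Topology

lemma cast20 (m : ℕ) : ((20 * m : ℕ) : ℝ) = 20 * (m : ℝ) := by push_cast; ring

/-- growth for `y ≤ 5m - 1` -/
lemma r_ge (m : ℕ) (hm : 1 ≤ m) {y : ℝ} (h0 : 0 ≤ y) (h5 : y + 1 ≤ 5 * m) :
    3 / 2 ≤ r (20 * m) y := by
  have hm1 : (1 : ℝ) ≤ m := by exact_mod_cast hm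
  unfold r
  rw [cast20]
  set c : ℝ := 20 * (m : ℝ) with hc
  have pc : 0 < c := by positivity
  have hD : 0 < 6 * y + 2 * c + 1 := by positivity
  rw [le_div_iff₀ (by positivity)]
  have h1 : (y + c) * (y + 1 + c) ≤ (y + 1 / 2 + c) ^ 2 := by nlinarith
  have h2 : 12 * (y + 1) ^ 2 ≤ (y + c) * (c - 1 / 2 - y) := by nlinarith
  have h3 : 0 < c - 1 / 2 - y := by linarith
  calc 3 / 2 * (8 * (y + 1) ^ 2 * (y + 1 + c) * (6 * y + 2 * c + 1))
      = (12 * (y + 1) ^ 2) * (y + 1 + c) * (6 * y + 2 * c + 1) := by ring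
    _ ≤ ((y + c) * (c - 1 / 2 - y)) * (y + 1 + c) * (6 * y + 2 * c + 7) := by
        gcongr
        norm_num
    _ = ((y + c) * (y + 1 + c)) * (c - 1 / 2 - y) * (6 * y + 2 * c + 7) := by ring
    _ ≤ (y + 1 / 2 + c) ^ 2 * (c - 1 / 2 - y) * (6 * y + 2 * c + 7) := by gcongr

/-- decay for `y ≥ 8m` -/
lemma abs_r_le (m : ℕ) (hm : 1 ≤ m) {y : ℝ} (h8 : 8 * (m : ℝ) ≤ y) :
    |r (20 * m) y| ≤ 3 / 4 := by
  have hm1 : (1 : ℝ) ≤ m := by exact_mod_cast hm
  rcases le_or_gt (10 * (m : ℝ)) y with h | h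
  · have := abs_r_le_half (20 * m) (y := y) (by rw [cast20]; linarith) (by linarith)
    linarith
  · unfold r
    rw [cast20]
    set c : ℝ := 20 * (m : ℝ) with hc
    have pc : 0 < c := by positivity
    have py : 0 < y := by linarith
    have hD : 0 < 6 * y + 2 * c + 1 := by positivity
    have h3 : 0 < c - 1 / 2 - y := by linarith
    rw [abs_of_nonneg (by positivity), div_le_iff₀ (by positivity)]
    have h1 : (y + 1 / 2 + c) ^ 2 ≤ (y + 1 / 2 + c) * (y + 1 + c) := by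
      rw [sq]; gcongr; norm_num
    have h2 : (y + 1 / 2 + c) * (c - 1 / 2 - y) ≤ 21 / 4 * (y + 1) ^ 2 := by nlinarith
    have h4 : 6 * y + 2 * c + 7 ≤ 8 / 7 * (6 * y + 2 * c + 1) := by linarith
    calc (y + 1 / 2 + c) ^ 2 * (c - 1 / 2 - y) * (6 * y + 2 * c + 7)
        ≤ ((y + 1 / 2 + c) * (y + 1 + c)) * (c - 1 / 2 - y) * (8 / 7 * (6 * y + 2 * c + 1)) := by
          gcongr
      _ = ((y + 1 / 2 + c) * (c - 1 / 2 - y)) * (y + 1 + c) * (8 / 7 * (6 * y + 2 * c + 1)) := by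
          ring
      _ ≤ (21 / 4 * (y + 1) ^ 2) * (y + 1 + c) * (8 / 7 * (6 * y + 2 * c + 1)) := by gcongr
      _ = 3 / 4 * (8 * (y + 1) ^ 2 * (y + 1 + c) * (6 * y + 2 * c + 1)) := by ring

noncomputable def S (m N : ℕ) (x : ℝ) : ℝ := ∑ n ∈ Finset.range N, g (20 * m) (n + x)

lemma g_pos' (m : ℕ) {n : ℕ} (hn : n ≤ 10 * m) (hm : 1 ≤ m) {x : ℝ} (h0 : 0 ≤ x) (h1 : x ≤ 1) :
    0 < g (20 * m) (n + x) := by
  have hm1 : (1 : ℝ) ≤ m := by exact_mod_cast hm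
  have hn0 : (0 : ℝ) ≤ n := Nat.cast_nonneg n
  have hn1 : (n : ℝ) ≤ 10 * m := by exact_mod_cast hn
  exact g_pos _ (by linarith) (by rw [cast20]; linarith)

lemma S_mono (m : ℕ) (hm : 1 ≤ m) {N N' : ℕ} (h : N ≤ N') (hN : N' ≤ 10 * m + 1) {x : ℝ}
    (h0 : 0 ≤ x) (h1 : x ≤ 1) : S m N x ≤ S m N' x := by
  unfold S
  apply Finset.sum_le_sum_of_subset_of_nonneg
  · exact Finset.range_mono h
  · intro n hn _
    rw [Finset.mem_range] at hn
    exact (g_pos' m (by omega) hm h0 h1).le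

lemma S_nonneg (m : ℕ) (hm : 1 ≤ m) {N : ℕ} (hN : N ≤ 10 * m + 1) {x : ℝ}
    (h0 : 0 ≤ x) (h1 : x ≤ 1) : 0 ≤ S m N x := by
  have := S_mono m hm (Nat.zero_le N) hN h0 h1
  simpa [S] using this

lemma S_le_succ (m : ℕ) (hm : 1 ≤ m) {N : ℕ} (hN : N + 1 ≤ 5 * m) {x : ℝ}
    (h0 : 0 ≤ x) (h1 : x ≤ 1) : S m N x ≤ 2 / 3 * S m (N + 1) x := by
  have hN1 : ((N : ℝ) + 1) ≤ 5 * m := by exact_mod_cast hN
  have hstep : ∀ n ∈ Finset.range N, g (20 * m) (n + x) ≤ 2 / 3 * g (20 * m) ((n + 1 : ℕ) + x) := by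
    intro n hn
    rw [Finset.mem_range] at hn
    have hn' : ((n : ℝ) + 1) ≤ N := by exact_mod_cast hn
    have hn0 : (0 : ℝ) ≤ n := Nat.cast_nonneg n
    have hr := r_ge m hm (y := n + x) (by linarith) (by linarith)
    have hg := g_pos' m (n := n) (by omega) hm h0 h1
    push_cast
    rw [show (n : ℝ) + 1 + x = n + x + 1 by ring, g_add_one _ (by linarith)]
    nlinarith
  have h2 : S m N x ≤ 2 / 3 * ∑ n ∈ Finset.range N, g (20 * m) ((n + 1 : ℕ) + x) := by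
    unfold S
    rw [Finset.mul_sum]
    exact Finset.sum_le_sum hstep
  have h3 : S m (N + 1) x = (∑ n ∈ Finset.range N, g (20 * m) ((n + 1 : ℕ) + x)) +
      g (20 * m) ((0 : ℕ) + x) := by
    unfold S
    rw [Finset.sum_range_succ']
  have h4 := g_pos' m (n := 0) (by omega) hm h0 h1
  linarith

lemma S_head (m : ℕ) (hm : 1 ≤ m) {x : ℝ} (h0 : 0 ≤ x) (h1 : x ≤ 1) (j N : ℕ)
    (hN : N + j ≤ 5 * m) : S m N x ≤ (2 / 3) ^ j * S m (10 * m) x := by
  induction j generalizing N with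
  | zero => simpa using S_mono m hm (by omega : N ≤ 10 * m) (by omega) h0 h1
  | succ j ih =>
    have a := S_le_succ m hm (N := N) (by omega) h0 h1
    have b := ih (N + 1) (by omega)
    calc S m N x ≤ 2 / 3 * S m (N + 1) x := a
      _ ≤ 2 / 3 * ((2 / 3) ^ j * S m (10 * m) x) := by gcongr
      _ = _ := by ring

lemma abs_g_decay (m : ℕ) (hm : 1 ≤ m) {x : ℝ} (h0 : 0 ≤ x) (j : ℕ) :
    ∀ n : ℕ, 8 * m ≤ n → |g (20 * m) ((n + j : ℕ) + x)| ≤ (3 / 4) ^ j * |g (20 * m) (n + x)| := by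
  induction j with
  | zero => intro n _; simp
  | succ j ih =>
    intro n hn
    have hn1 : 8 * (m : ℝ) ≤ n := by exact_mod_cast hn
    have hj : (0 : ℝ) ≤ j := Nat.cast_nonneg j
    have e : (((n + (j + 1) : ℕ) : ℝ)) + x = ((n + j : ℕ) + x) + 1 := by push_cast; ring
    rw [e, g_add_one _ (by positivity), abs_mul]
    have hr := abs_r_le m hm (y := ((n + j : ℕ) : ℝ) + x) (by push_cast; linarith)
    calc |r (20 * m) (((n + j : ℕ) : ℝ) + x)| * |g (20 * m) (((n + j : ℕ) : ℝ) + x)|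
        ≤ 3 / 4 * ((3 / 4) ^ j * |g (20 * m) (n + x)|) := by
          gcongr
          exact ih n hn
      _ = _ := by ring

/-- the tail -/
lemma tail_le (m : ℕ) (hm : 1 ≤ m) {x : ℝ} (h0 : 0 ≤ x) (h1 : x ≤ 1) :
    |W (20 * m) x - S m (10 * m) x| ≤ 4 * (3 / 4) ^ (2 * m) * S m (10 * m) x := by
  have hs := summable_g (20 * m) h0
  have h2 : W (20 * m) x - S m (10 * m) x = ∑' j : ℕ, g (20 * m) ((j + 10 * m : ℕ) + x) := by
    unfold W S
    rw [← hs.sum_add_tsum_nat_add (10 * m)]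
    ring
  rw [h2]
  have hb : ∀ j : ℕ, ‖g (20 * m) ((j + 10 * m : ℕ) + x)‖ ≤
      (3 / 4) ^ j * ((3 / 4) ^ (2 * m) * g (20 * m) ((8 * m : ℕ) + x)) := by
    intro j
    rw [Real.norm_eq_abs]
    have a := abs_g_decay m hm h0 (j + 2 * m) (8 * m) le_rfl
    rw [abs_of_pos (g_pos' m (n := 8 * m) (by omega) hm h0 h1)] at a
    rw [show j + 10 * m = 8 * m + (j + 2 * m) by ring]
    rw [pow_add, mul_assoc] at a
    exact a
  have hgeo : HasSum (fun j : ℕ => (3 / 4 : ℝ) ^ j *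
      ((3 / 4) ^ (2 * m) * g (20 * m) ((8 * m : ℕ) + x)))
      ((1 - 3 / 4)⁻¹ * ((3 / 4) ^ (2 * m) * g (20 * m) ((8 * m : ℕ) + x))) :=
    (hasSum_geometric_of_lt_one (by norm_num) (by norm_num)).mul_right _
  have h3 := tsum_of_norm_bounded hgeo hb
  rw [Real.norm_eq_abs] at h3
  have h4 : g (20 * m) ((8 * m : ℕ) + x) ≤ S m (10 * m) x := by
    unfold S
    exact Finset.single_le_sum (f := fun n : ℕ => g (20 * m) (n + x))
      (fun n hn => (g_pos' m (by rw [Finset.mem_range] at hn; omega) hm h0 h1).le)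
      (Finset.mem_range.mpr (by omega))
  calc _ ≤ (1 - 3 / 4)⁻¹ * ((3 / 4) ^ (2 * m) * g (20 * m) ((8 * m : ℕ) + x)) := h3
    _ ≤ (1 - 3 / 4)⁻¹ * ((3 / 4) ^ (2 * m) * S m (10 * m) x) := by
        gcongr
    _ = _ := by norm_num; ring

/-- the bulk -/
lemma bulk (m : ℕ) (hm : 1 ≤ m) {u t : ℝ} (hu : 0 ≤ u) (ht : 0 ≤ t) (hut : u + t ≤ 1) :
    ∑ n ∈ Finset.Ico (4 * m) (10 * m - 1), g (20 * m) (n + (u + t)) ≤
      (1 + 1 / (m : ℝ)) ^ 5 * S m (10 * m) u := by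
  have hm1 : (1 : ℝ) ≤ m := by exact_mod_cast hm
  have hpos : ∀ n : ℕ, n ≤ 10 * m → 0 ≤ g (20 * m) (n + u) := fun n hn =>
    (g_pos' m hn hm hu (by linarith)).le
  have hstep : ∀ n ∈ Finset.Ico (4 * m) (10 * m - 1), g (20 * m) (n + (u + t)) ≤
      (1 + 1 / (m : ℝ)) ^ 5 * ((1 - t) * g (20 * m) (n + u) + t * g (20 * m) ((n + 1 : ℕ) + u)) := by
    intro n hn
    rw [Finset.mem_Ico] at hn
    have h1 : 4 * (m : ℝ) ≤ n := by exact_mod_cast hn.1
    have h2 : (n : ℝ) + 1 ≤ 10 * m := by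
      have : n + 1 ≤ 10 * m := by omega
      exact_mod_cast this
    have := interp m hm (y := n + u) (t := t) (by linarith) (by linarith) ht (by linarith)
    push_cast
    rw [show (n : ℝ) + 1 + u = n + u + 1 by ring, show (n : ℝ) + (u + t) = n + u + t by ring]
    exact this
  refine (Finset.sum_le_sum hstep).trans ?_
  rw [← Finset.mul_sum, Finset.sum_add_distrib, ← Finset.mul_sum, ← Finset.mul_sum]
  have s1 : ∑ n ∈ Finset.Ico (4 * m) (10 * m - 1), g (20 * m) (n + u) ≤ S m (10 * m) u := by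
    unfold S
    apply Finset.sum_le_sum_of_subset_of_nonneg
    · intro n hn
      rw [Finset.mem_Ico] at hn
      rw [Finset.mem_range]; omega
    · intro n hn _
      rw [Finset.mem_range] at hn
      exact hpos n hn.le
  have s2 : ∑ n ∈ Finset.Ico (4 * m) (10 * m - 1), g (20 * m) ((n + 1 : ℕ) + u) ≤
      S m (10 * m) u := by
    rw [Finset.sum_Ico_add' (fun n : ℕ => g (20 * m) ((n : ℝ) + u)) (4 * m) (10 * m - 1) 1]
    unfold S
    apply Finset.sum_le_sum_of_subset_of_nonneg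
    · intro n hn
      rw [Finset.mem_Ico] at hn
      rw [Finset.mem_range]; omega
    · intro n hn _
      rw [Finset.mem_range] at hn
      exact hpos n hn.le
  have ht1 : 0 ≤ 1 - t := by linarith
  have : (1 - t) * ∑ n ∈ Finset.Ico (4 * m) (10 * m - 1), g (20 * m) (n + u) +
      t * ∑ n ∈ Finset.Ico (4 * m) (10 * m - 1), g (20 * m) ((n + 1 : ℕ) + u) ≤
      (1 - t) * S m (10 * m) u + t * S m (10 * m) u := by gcongr
  have h5 : (0 : ℝ) ≤ (1 + 1 / (m : ℝ)) ^ 5 := by positivity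
  calc _ ≤ (1 + 1 / (m : ℝ)) ^ 5 * ((1 - t) * S m (10 * m) u + t * S m (10 * m) u) := by gcongr
    _ = _ := by ring

lemma last_le (m : ℕ) (hm : 1 ≤ m) {x : ℝ} (h0 : 0 ≤ x) (h1 : x ≤ 1) :
    g (20 * m) ((10 * m - 1 : ℕ) + x) ≤ (3 / 4) ^ (2 * m - 1) * S m (10 * m) x := by
  have a := abs_g_decay m hm h0 (2 * m - 1) (8 * m) le_rfl
  rw [show 8 * m + (2 * m - 1) = 10 * m - 1 by omega,
    abs_of_pos (g_pos' m (n := 8 * m) (by omega) hm h0 h1)] at a
  refine (le_abs_self _).trans (a.trans ?_)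
  gcongr
  unfold S
  exact Finset.single_le_sum (f := fun n : ℕ => g (20 * m) (n + x))
    (fun n hn => (g_pos' m (by rw [Finset.mem_range] at hn; omega) hm h0 h1).le)
    (Finset.mem_range.mpr (by omega))

lemma S_le_zero (m : ℕ) (hm : 1 ≤ m) {x : ℝ} (h0 : 0 ≤ x) (h1 : x ≤ 1) :
    (1 - ((2 / 3) ^ m + (3 / 4) ^ (2 * m - 1))) * S m (10 * m) x ≤
      (1 + 1 / (m : ℝ)) ^ 5 * S m (10 * m) 0 := by
  have hb := bulk m hm (u := 0) (t := x) le_rfl h0 (by linarith)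
  rw [zero_add] at hb
  have hh := S_head m hm h0 h1 m (4 * m) (by omega)
  have hl := last_le m hm h0 h1
  have hsplit : S m (10 * m) x = S m (4 * m) x +
      ∑ n ∈ Finset.Ico (4 * m) (10 * m - 1), g (20 * m) (n + x) +
      g (20 * m) ((10 * m - 1 : ℕ) + x) := by
    unfold S
    rw [Finset.sum_range_add_sum_Ico _ (by omega : 4 * m ≤ 10 * m - 1)]
    conv_lhs => rw [show 10 * m = (10 * m - 1) + 1 by omega]
    rw [Finset.sum_range_succ]
  nlinarith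

lemma zero_le_S (m : ℕ) (hm : 1 ≤ m) {x : ℝ} (h0 : 0 ≤ x) (h1 : x ≤ 1) :
    (1 - (2 / 3) ^ (m - 1)) * S m (10 * m) 0 ≤ (1 + 1 / (m : ℝ)) ^ 5 * S m (10 * m) x := by
  have hb := bulk m hm (u := x) (t := 1 - x) h0 (by linarith) (by linarith)
  rw [show x + (1 - x) = 1 by ring] at hb
  have hh := S_head m hm (x := 0) le_rfl zero_le_one (m - 1) (4 * m + 1) (by omega)
  have hsplit : S m (10 * m) 0 = S m (4 * m + 1) 0 +
      ∑ n ∈ Finset.Ico (4 * m) (10 * m - 1), g (20 * m) (n + 1) := by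
    unfold S
    have e : ∀ n : ℕ, g (20 * m) ((n : ℝ) + 1) = (fun k : ℕ => g (20 * m) ((k : ℝ) + 0)) (n + 1) := by
      intro n; simp
    rw [Finset.sum_congr rfl fun n _ => e n, Finset.sum_Ico_add'
      (fun k : ℕ => g (20 * m) ((k : ℝ) + 0)) (4 * m) (10 * m - 1) 1,
      show 10 * m - 1 + 1 = 10 * m by omega,
      Finset.sum_range_add_sum_Ico _ (by omega : 4 * m + 1 ≤ 10 * m)]
  nlinarith

end Crest.Agent.R006.BeZero632
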