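import Crest.Agent.R006.P3_BeZeroD_632

/-!
# Row 6, block P3, helper632: the identity `be = 0`, part E (the real statement)
-/

set_option autoImplicit false

namespace Crest.Agent.R006.BeZero632

open Real Filter Topology

lemma tendsto_theta : Tendsto (fun m : ℕ => 4 * (3 / 4 : ℝ) ^ (2 * m)) atTop (𝓝 0) := by
  have h : Tendsto (fun m : ℕ => (3 / 4 : ℝ) ^ (2 * m)) atTop (𝓝 0) :=
    (tendsto_pow_atTop_nhds_zero_of_lt_one (by norm_num) (by norm_num)).comp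
      (tendsto_atTop_mono (fun m => by simp only [id]; omega) tendsto_id)
  simpa using h.const_mul 4

lemma tendsto_delta : Tendsto (fun m : ℕ => (2 / 3 : ℝ) ^ m + (3 / 4) ^ (2 * m - 1)) atTop (𝓝 0) := by
  have h : Tendsto (fun m : ℕ => (3 / 4 : ℝ) ^ (2 * m - 1)) atTop (𝓝 0) :=
    (tendsto_pow_atTop_nhds_zero_of_lt_one (by norm_num) (by norm_num)).comp
      (tendsto_atTop_mono' _ (by
        filter_upwards [eventually_ge_atTop 1] with m hm
        show id m ≤ 2 * m - 1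
        simp only [id]; omega) tendsto_id)
  have h2 : Tendsto (fun m : ℕ => (2 / 3 : ℝ) ^ m) atTop (𝓝 0) :=
    tendsto_pow_atTop_nhds_zero_of_lt_one (by norm_num) (by norm_num)
  simpa using h2.add h

lemma tendsto_delta' : Tendsto (fun m : ℕ => (2 / 3 : ℝ) ^ (m - 1)) atTop (𝓝 0) :=
  (tendsto_pow_atTop_nhds_zero_of_lt_one (by norm_num) (by norm_num)).comp
    (tendsto_sub_atTop_nat 1)

lemma tendsto_Q : Tendsto (fun m : ℕ => (1 + 1 / (m : ℝ)) ^ 5) atTop (𝓝 1) := by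
  have h : Tendsto (fun m : ℕ => 1 + 1 / (m : ℝ)) atTop (𝓝 (1 + 0)) :=
    tendsto_const_nhds.add tendsto_one_div_atTop_nhds_zero_nat
  simpa using h.pow 5

lemma tendsto_S_zero : Tendsto (fun m : ℕ => S m (10 * m) 0) atTop (𝓝 (W 0 0)) := by
  have l1 : Tendsto (fun m : ℕ => W 0 0 / (1 + 4 * (3 / 4 : ℝ) ^ (2 * m))) atTop (𝓝 (W 0 0)) := by
    have h : Tendsto (fun m : ℕ => W 0 0 / (1 + 4 * (3 / 4 : ℝ) ^ (2 * m))) atTop
        (𝓝 (W 0 0 / (1 + 0))) := (tendsto_const_nhds (x := W 0 0)).div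
      (tendsto_const_nhds.add tendsto_theta) (by norm_num : (1 : ℝ) + 0 ≠ 0)
    simpa using h
  have l2 : Tendsto (fun m : ℕ => W 0 0 / (1 - 4 * (3 / 4 : ℝ) ^ (2 * m))) atTop (𝓝 (W 0 0)) := by
    have h : Tendsto (fun m : ℕ => W 0 0 / (1 - 4 * (3 / 4 : ℝ) ^ (2 * m))) atTop
        (𝓝 (W 0 0 / (1 - 0))) := (tendsto_const_nhds (x := W 0 0)).div
      (tendsto_const_nhds.sub tendsto_theta) (by norm_num : (1 : ℝ) - 0 ≠ 0)
    simpa using h
  have hth := tendsto_theta.eventually_lt_const (by norm_num : (0 : ℝ) < 1)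
  refine tendsto_of_tendsto_of_tendsto_of_le_of_le' l1 l2 ?_ ?_
  · filter_upwards [eventually_ge_atTop 1] with m hm
    have h := tail_le m hm (x := 0) le_rfl zero_le_one
    rw [W_zero, abs_le] at h
    rw [div_le_iff₀ (by positivity)]
    linarith [h.2]
  · filter_upwards [eventually_ge_atTop 1, hth] with m hm hlt
    have h := tail_le m hm (x := 0) le_rfl zero_le_one
    rw [W_zero, abs_le] at h
    rw [le_div_iff₀ (by linarith)]
    linarith [h.1]

lemma tendsto_S {x : ℝ} (h0 : 0 ≤ x) (h1 : x ≤ 1) :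
    Tendsto (fun m : ℕ => S m (10 * m) x) atTop (𝓝 (W 0 0)) := by
  have l1 : Tendsto (fun m : ℕ => (1 - (2 / 3 : ℝ) ^ (m - 1)) * S m (10 * m) 0 /
      (1 + 1 / (m : ℝ)) ^ 5) atTop (𝓝 (W 0 0)) := by
    have h : Tendsto (fun m : ℕ => (1 - (2 / 3 : ℝ) ^ (m - 1)) * S m (10 * m) 0 /
        (1 + 1 / (m : ℝ)) ^ 5) atTop (𝓝 ((1 - 0) * W 0 0 / 1)) :=
      (((tendsto_const_nhds (x := (1 : ℝ))).sub tendsto_delta').mul tendsto_S_zero).div
      tendsto_Q one_ne_zero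
    simpa using h
  have l2 : Tendsto (fun m : ℕ => (1 + 1 / (m : ℝ)) ^ 5 * S m (10 * m) 0 /
      (1 - ((2 / 3 : ℝ) ^ m + (3 / 4) ^ (2 * m - 1)))) atTop (𝓝 (W 0 0)) := by
    have h : Tendsto (fun m : ℕ => (1 + 1 / (m : ℝ)) ^ 5 * S m (10 * m) 0 /
        (1 - ((2 / 3 : ℝ) ^ m + (3 / 4) ^ (2 * m - 1)))) atTop (𝓝 (1 * W 0 0 / (1 - 0))) :=
      (tendsto_Q.mul tendsto_S_zero).div
      ((tendsto_const_nhds (x := (1 : ℝ))).sub tendsto_delta) (by norm_num)
    simpa using h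
  have hth := tendsto_delta.eventually_lt_const (by norm_num : (0 : ℝ) < 1)
  refine tendsto_of_tendsto_of_tendsto_of_le_of_le' l1 l2 ?_ ?_
  · filter_upwards [eventually_ge_atTop 1] with m hm
    have h := zero_le_S m hm h0 h1
    rw [div_le_iff₀ (by positivity)]
    linarith
  · filter_upwards [eventually_ge_atTop 1, hth] with m hm hlt
    have h := S_le_zero m hm h0 h1
    rw [le_div_iff₀ (by linarith)]
    linarith

lemma tendsto_W {x : ℝ} (h0 : 0 ≤ x) (h1 : x ≤ 1) :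
    Tendsto (fun m : ℕ => W (20 * m) x) atTop (𝓝 (W 0 0)) := by
  have h2 : Tendsto (fun m : ℕ => W (20 * m) x - S m (10 * m) x) atTop (𝓝 0) := by
    have h3 : Tendsto (fun m : ℕ => 4 * (3 / 4 : ℝ) ^ (2 * m) * S m (10 * m) x) atTop (𝓝 0) := by
      simpa using tendsto_theta.mul (tendsto_S h0 h1)
    refine squeeze_zero_norm' ?_ h3
    filter_upwards [eventually_ge_atTop 1] with m hm
    rw [Real.norm_eq_abs]
    exact tail_le m hm h0 h1
  simpa using h2.add (tendsto_S h0 h1)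

/-- The WZ statement: `W 0 x = W 0 0 + O(x²)` as `x → 0+`. -/
theorem W_quadratic : ∃ K : ℝ, 0 ≤ K ∧ ∀ x : ℝ, 0 ≤ x → x ≤ 1 / 4 →
    |W 0 x - W 0 0| ≤ K * x ^ 2 := by
  obtain ⟨K, hK, h⟩ := abs_H_zero_le
  refine ⟨2 * K, by positivity, fun x h0 h1 => ?_⟩
  have h2 : ∀ m : ℕ, |W 0 x - W 0 0| ≤ |W (20 * m) x - W 0 0| + 2 * (K * x ^ 2) := by
    intro m
    have e : W 0 x - W 0 0 = (W (20 * m) x - W 0 0) + ∑ j ∈ Finset.range (20 * m), H j x := by
      rw [W_eq (20 * m) h0]; ring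
    rw [e]
    refine (abs_add_le _ _).trans ?_
    have := abs_sum_H_le (20 * m) h0 h1
    have := h x h0 h1
    linarith
  have h3 : Tendsto (fun m : ℕ => |W (20 * m) x - W 0 0| + 2 * (K * x ^ 2)) atTop
      (𝓝 (|W 0 0 - W 0 0| + 2 * (K * x ^ 2))) :=
    (((tendsto_W h0 (by linarith)).sub_const _).abs).add_const _
  have h4 := ge_of_tendsto' h3 h2
  simp at h4
  linarith

end Crest.Agent.R006.BeZero632
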