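import Crest.Agent.R006.PsiJ5_576

/-!
# Row 6 (Catalan), block P3, analytic input (helper576), part 6

* all derivatives of `psiF`: `psiD v j z = ∑ polD v l j z`, `HasDerivAt (psiD v j) (-(j+1) psiD v (j+1))`
* `L` on `1/(z-s)^(j+1)`
* key identity for the moments and `M vv j = mu j`
* `psi - J` holomorphic at the sites and right of them
-/

set_option autoImplicit false

open Complex Filter Topology Metric Set
open scoped Real

namespace Crest.Agent.R006.PsiJ

/-- `(-1)^j/j!` times the `j`-th derivative of the polar part -/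
noncomputable def polD (v : Fin 3 → ℂ) (l j : ℕ) (z : ℂ) : ℂ :=
  p v l 0 / (z - ce l) ^ (j + 1) + (j + 1) * p v l 1 / (z - ce l) ^ (j + 2) +
    (j + 1) * (j + 2) / 2 * p v l 2 / (z - ce l) ^ (j + 3)

noncomputable def psiD (v : Fin 3 → ℂ) (j : ℕ) (z : ℂ) : ℂ := ∑' l, polD v l j z

lemma polD_zero (v : Fin 3 → ℂ) (l : ℕ) (z : ℂ) : polD v l 0 z = pol v l z := by
  unfold polD pol
  simp only [Finset.sum_range_succ, Finset.sum_range_zero, zero_add]
  push_cast
  ring_nf

lemma psiD_zero (v : Fin 3 → ℂ) (z : ℂ) : psiD v 0 z = psiF v z := by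
  unfold psiD psiF
  congr 1
  funext l
  exact polD_zero v l z

lemma norm_polD_le (v : Fin 3 → ℂ) : ∃ K : ℝ, 0 < K ∧ ∀ (l j : ℕ) (z : ℂ) (δ : ℝ), 0 < δ → δ ≤ 1 →
    δ ≤ ‖z - ce l‖ → ‖polD v l j z‖ ≤ K * (((j : ℝ) + 1) * (j + 2)) * (1 / 8) ^ l / δ ^ (j + 3) := by
  obtain ⟨K, hK, h⟩ := norm_p_le v
  refine ⟨3 * K, by positivity, ?_⟩
  intro l j z δ hδ hδ1 hz
  have hj : (0 : ℝ) ≤ j := Nat.cast_nonneg j
  have hpw : ∀ k ≤ 3, 1 ≤ k → δ ^ (j + 3) ≤ ‖z - ce l‖ ^ (j + k) := by
    intro k hk _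
    calc δ ^ (j + 3) ≤ δ ^ (j + k) := pow_le_pow_of_le_one hδ.le hδ1 (by omega)
      _ ≤ _ := by gcongr
  have hd : 0 < δ ^ (j + 3) := by positivity
  have e1 : ‖((j : ℂ) + 1)‖ = j + 1 := by
    rw [show ((j : ℂ) + 1) = ((j + 1 : ℕ) : ℂ) by push_cast; ring, Complex.norm_natCast]
    push_cast; ring
  have e2 : ‖((j : ℂ) + 2)‖ = j + 2 := by
    rw [show ((j : ℂ) + 2) = ((j + 2 : ℕ) : ℂ) by push_cast; ring, Complex.norm_natCast]
    push_cast; ring
  set A := K * (1 / 8) ^ l with hA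
  have hA0 : 0 ≤ A := by positivity
  unfold polD
  refine (norm_add₃_le).trans ?_
  have t1 : ‖p v l 0 / (z - ce l) ^ (j + 1)‖ ≤ A / δ ^ (j + 3) := by
    rw [norm_div, norm_pow]
    gcongr
    · exact h l 0
    · exact hpw 1 (by norm_num) le_rfl
  have t2 : ‖((j : ℂ) + 1) * p v l 1 / (z - ce l) ^ (j + 2)‖ ≤ (j + 1) * A / δ ^ (j + 3) := by
    rw [norm_div, norm_pow, norm_mul, e1]
    gcongr
    · exact h l 1
    · exact hpw 2 (by norm_num) (by norm_num)
  have t3 : ‖((j : ℂ) + 1) * (j + 2) / 2 * p v l 2 / (z - ce l) ^ (j + 3)‖ ≤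
      (j + 1) * (j + 2) / 2 * A / δ ^ (j + 3) := by
    rw [norm_div, norm_pow, norm_mul, norm_div, norm_mul, e1, e2]
    simp only [Complex.norm_ofNat]
    gcongr
    exact h l 2
  have hA2 : 3 * K * (((j : ℝ) + 1) * (j + 2)) * (1 / 8) ^ l / δ ^ (j + 3) =
      (3 * (((j : ℝ) + 1) * (j + 2)) * A) / δ ^ (j + 3) := by rw [hA]; ring
  rw [hA2]
  calc _ ≤ A / δ ^ (j + 3) + (j + 1) * A / δ ^ (j + 3) + (j + 1) * (j + 2) / 2 * A / δ ^ (j + 3) := by
        linarith
    _ = (A + (j + 1) * A + (j + 1) * (j + 2) / 2 * A) / δ ^ (j + 3) := by ring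
    _ ≤ _ := by
        gcongr
        nlinarith [mul_nonneg hj hA0, mul_nonneg (mul_nonneg hj hj) hA0]

lemma summable_polD (v : Fin 3 → ℂ) (j : ℕ) {z : ℂ} (hz : ∀ l, z ≠ ce l) :
    Summable (fun l => polD v l j z) := by
  obtain ⟨K, hK, h⟩ := norm_polD_le v
  obtain ⟨δ, h1, h2, h3⟩ := exists_dist z hz
  refine Summable.of_norm_bounded
    (g := fun l => K * (((j : ℝ) + 1) * (j + 2)) / δ ^ (j + 3) * (1 / 8) ^ l)
    (summable_geo8.mul_left _) ?_
  intro l
  refine (h l j z δ h1 (by linarith) (h3 l).le).trans (le_of_eq ?_)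
  ring

lemma hasDerivAt_polD (v : Fin 3 → ℂ) (l j : ℕ) {z : ℂ} (hz : z ≠ ce l) :
    HasDerivAt (polD v l j) (-((j : ℂ) + 1) * polD v l (j + 1) z) z := by
  have he : z - ce l ≠ 0 := sub_ne_zero.mpr hz
  have hb : ∀ k : ℕ, HasDerivAt (fun z : ℂ => ((z - ce l) ^ (k + 1))⁻¹)
      (-((k : ℂ) + 1) / (z - ce l) ^ (k + 2)) z := by
    intro k
    have h1 : HasDerivAt (fun z : ℂ => (z - ce l) ^ (k + 1))
        (((k + 1 : ℕ) : ℂ) * (z - ce l) ^ k * 1) z := by
      have := ((hasDerivAt_id z).sub_const (ce l)).fun_pow (k + 1)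
      simpa using this
    have h2 := h1.fun_inv (pow_ne_zero _ he)
    refine h2.congr_deriv ?_
    push_cast
    field_simp
    ring
  have h0 := (hb j).const_mul (p v l 0)
  have h1 := (hb (j + 1)).const_mul (((j : ℂ) + 1) * p v l 1)
  have h2 := (hb (j + 2)).const_mul (((j : ℂ) + 1) * (j + 2) / 2 * p v l 2)
  have h3 := (h0.add h1).add h2
  refine (h3.congr_deriv ?_).congr_of_eventuallyEq ?_
  · unfold polD
    push_cast
    field_simp
    ring
  · refine Eventually.of_forall fun z => ?_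
    simp only [polD, Pi.add_apply, div_eq_mul_inv]

/-- **derivatives of `psi`** -/
theorem hasDerivAt_psiD (v : Fin 3 → ℂ) (j : ℕ) {z : ℂ} (hz : ∀ l, z ≠ ce l) :
    HasDerivAt (psiD v j) (-((j : ℂ) + 1) * psiD v (j + 1) z) z := by
  obtain ⟨K, hK, h⟩ := norm_polD_le v
  obtain ⟨δ, h1, h2, h3⟩ := exists_dist z hz
  have hδ2 : 0 < δ / 2 := by positivity
  have hdist : ∀ l, ∀ y ∈ ball z (δ / 2), δ / 2 ≤ ‖y - ce l‖ := by
    intro l y hy
    rw [mem_ball, dist_eq_norm] at hy
    have h4 := h3 l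
    have h5 : ‖z - ce l‖ ≤ ‖y - ce l‖ + ‖y - z‖ := by
      have : z - ce l = (y - ce l) - (y - z) := by ring
      rw [this]; exact norm_sub_le _ _
    linarith
  have key := hasDerivAt_tsum_of_isPreconnected (𝕜 := ℂ)
    (u := fun l => ((j : ℝ) + 1) * (K * ((((j + 1 : ℕ) : ℝ) + 1) * (((j + 1 : ℕ) : ℝ) + 2)) /
      (δ / 2) ^ (j + 1 + 3)) * (1 / 8) ^ l)
    (g := fun l y => polD v l j y)
    (g' := fun l y => -((j : ℂ) + 1) * polD v l (j + 1) y)
    (t := ball z (δ / 2)) (y₀ := z) (y := z)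
    (summable_geo8.mul_left _) isOpen_ball (convex_ball _ _).isPreconnected
    (fun l y hy => hasDerivAt_polD v l j (by
      intro h6
      have := hdist l y hy
      rw [h6, sub_self, norm_zero] at this
      linarith))
    (fun l y hy => by
      rw [norm_mul, norm_neg]
      have e1 : ‖((j : ℂ) + 1)‖ = j + 1 := by
        rw [show ((j : ℂ) + 1) = ((j + 1 : ℕ) : ℂ) by push_cast; ring, Complex.norm_natCast]
        push_cast; ring
      rw [e1]
      have := h l (j + 1) y (δ / 2) hδ2 (by linarith) (hdist l y hy)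
      calc ((j : ℝ) + 1) * ‖polD v l (j + 1) y‖ ≤ ((j : ℝ) + 1) *
            (K * ((((j + 1 : ℕ) : ℝ) + 1) * (((j + 1 : ℕ) : ℝ) + 2)) * (1 / 8) ^ l /
              (δ / 2) ^ (j + 1 + 3)) := by gcongr
        _ = _ := by ring)
    (mem_ball_self hδ2) (summable_polD v j hz) (mem_ball_self hδ2)
  have e : (∑' l, -((j : ℂ) + 1) * polD v l (j + 1) z) = -((j : ℂ) + 1) * psiD v (j + 1) z := by
    unfold psiD; rw [tsum_mul_left]
  rw [e] at key
  exact key

theorem differentiableAt_psiF (v : Fin 3 → ℂ) {z : ℂ} (hz : ∀ l, z ≠ ce l) :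
    DifferentiableAt ℂ (psiF v) z := by
  have h := hasDerivAt_psiD v 0 hz
  have e : psiD v 0 = psiF v := by funext z; exact psiD_zero v z
  rw [e] at h
  exact h.differentiableAt

theorem differentiableAt_psi {z : ℂ} (hz : ∀ l, z ≠ ce l) : DifferentiableAt ℂ psi z :=
  differentiableAt_psiF vv hz

/-- the functional on `1/(z-s)^(j+1)` -/
theorem L_pole_pow (v : Fin 3 → ℂ) (l j : ℕ) {z : ℂ} (hz : 1 / 4 < ‖z - ce l‖) :
    L v l (fun s => 1 / (z - s) ^ (j + 1)) = polD v l j z := by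
  have hne : ∀ s ∈ closedBall (ce l) (1 / 4 : ℝ), z - s ≠ 0 := by
    intro s hs h
    rw [mem_closedBall, dist_eq_norm] at hs
    have : z = s := by linear_combination h
    rw [this] at hz
    linarith
  have hb : ∀ k : ℕ, ∀ s : ℂ, z - s ≠ 0 → HasDerivAt (fun s : ℂ => 1 / (z - s) ^ (k + 1))
      (((k : ℂ) + 1) * (1 / (z - s) ^ (k + 2))) s := by
    intro k s hs
    have h1 : HasDerivAt (fun s : ℂ => (z - s) ^ (k + 1))
        (((k + 1 : ℕ) : ℂ) * (z - s) ^ k * (-1)) s := by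
      have := ((hasDerivAt_id s).const_sub z).fun_pow (k + 1)
      simpa using this
    have h2 := h1.fun_inv (pow_ne_zero _ hs)
    have e : (fun s : ℂ => 1 / (z - s) ^ (k + 1)) = fun s => ((z - s) ^ (k + 1))⁻¹ := by
      funext s; rw [one_div]
    rw [e]
    refine h2.congr_deriv ?_
    push_cast
    field_simp
    try ring
  have hc := hne (ce l) (mem_closedBall_self (by norm_num))
  have hd : DifferentiableOn ℂ (fun s => 1 / (z - s) ^ (j + 1)) (closedBall (ce l) (1 / 4)) :=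
    fun s hs => (hb j s (hne s hs)).differentiableAt.differentiableWithinAt
  rw [L_eq_jets v l hd, (hb j _ hc).deriv]
  have hev : deriv (fun s => 1 / (z - s) ^ (j + 1)) =ᶠ[𝓝 (ce l)]
      fun s => ((j : ℂ) + 1) * (1 / (z - s) ^ (j + 1 + 1)) := by
    have : ball (ce l) (1 / 4 : ℝ) ∈ 𝓝 (ce l) := ball_mem_nhds _ (by norm_num)
    filter_upwards [this] with s hs
    exact (hb j s (hne s (ball_subset_closedBall hs))).deriv
  rw [hev.deriv_eq, ((hb (j + 1) _ hc).const_mul ((j : ℂ) + 1)).deriv]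
  unfold polD
  push_cast
  ring

/-- **MAIN with jets** -/
theorem hasSum_circle_pow (v : Fin 3 → ℂ) (j : ℕ) {z : ℂ} (hz : ∀ l, 1 / 4 < ‖z - ce l‖) :
    HasSum (fun l => L v l (fun s => 1 / (z - s) ^ (j + 1))) (psiD v j z) := by
  have h1 : ∀ l, z ≠ ce l := by
    intro l h
    have := hz l
    rw [h] at this
    simp at this
    linarith
  have h2 : (fun l => L v l (fun s => 1 / (z - s) ^ (j + 1))) = fun l => polD v l j z := by
    funext l
    exact L_pole_pow v l j (hz l)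
  rw [h2]
  exact (summable_polD v j h1).hasSum

/-! ### the functional on polynomials -/

open Polynomial in
lemma L_poly (v : Fin 3 → ℂ) (l : ℕ) (Q : ℂ[X]) :
    L v l (fun s => Q.eval s) = PsiInf.lin (fun j => L v l (fun s => s ^ j)) Q := by
  induction Q using Polynomial.induction_on' with
  | add A B hA hB =>
    rw [map_add, ← hA, ← hB]
    have := Lr_add v (by norm_num : (0 : ℝ) < 1 / 4) le_rfl l (φ := fun s => A.eval s)
      (ψ := fun s => B.eval s) (by fun_prop) (by fun_prop)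
    simp only [eval_add]
    exact this
  | monomial k c =>
    rw [PsiInf.lin_monomial]
    have : (fun s : ℂ => (monomial k c).eval s) = fun s => c * s ^ k := by
      funext s; rw [eval_monomial]
    rw [this]
    exact Lr_const_mul v _ l c _

open Polynomial in
lemma hasSum_L_poly (v : Fin 3 → ℂ) (Q : ℂ[X]) :
    HasSum (fun l => L v l (fun s => Q.eval s)) (PsiInf.lin (M v) Q) := by
  have h1 : PsiInf.lin (M v) Q = ∑ k ∈ Finset.range (Q.natDegree + 1), Q.coeff k * M v k :=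
    PsiInf.lin_eq_sum _ _ (Nat.lt_succ_self _)
  have h2 : (fun l => L v l (fun s => Q.eval s)) = fun l =>
      ∑ k ∈ Finset.range (Q.natDegree + 1), Q.coeff k * L v l (fun s => s ^ k) := by
    funext l
    rw [L_poly, PsiInf.lin_eq_sum _ _ (Nat.lt_succ_self _)]
  rw [h1, h2]
  exact hasSum_sum fun k _ => (hasSum_M v k).mul_left _

lemma sum_shift_zero (a b : ℕ → ℂ) (A B : ℂ) (hA : HasSum a A) (hB : HasSum b B) (hb0 : b 0 = 0)
    (hbs : ∀ l, b (l + 1) = -a l) : A + B = 0 := by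
  have h3 := hA.neg
  have e3 : (fun l => -a l) = fun l => b (l + 1) := by
    funext l; rw [hbs l]
  rw [e3] at h3
  have h4 := (hasSum_nat_add_iff 1).mp h3
  rw [Finset.sum_range_one, hb0, add_zero] at h4
  rw [hB.unique h4]
  ring

open Polynomial in
lemma key_aux (v : Fin 3 → ℂ) (Q : ℂ[X]) :
    PsiInf.lin (M v) (X ^ 3 * Q) + PsiInf.lin (M v) ((2 * X + 1) ^ 3 * Q.comp (X + 1)) = 0 := by
  have h14 : (0 : ℝ) < 1 / 4 := by norm_num
  refine sum_shift_zero _ _ _ _ (hasSum_L_poly v (X ^ 3 * Q))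
    (hasSum_L_poly v ((2 * X + 1) ^ 3 * Q.comp (X + 1))) ?_ ?_
  · have e2 : (fun s => ((2 * X + 1) ^ 3 * Q.comp (X + 1)).eval s) =
      fun s : ℂ => (2 * s + 1) ^ 3 * Q.eval (s + 1) := by
      funext s; simp [eval_comp]
    rw [e2]
    apply Lr_zero_base v h14 le_rfl (χ := fun s => Q.eval s)
    fun_prop
  · intro l
    have e2 : (fun s => ((2 * X + 1) ^ 3 * Q.comp (X + 1)).eval s) =
      fun s : ℂ => (2 * s + 1) ^ 3 * Q.eval (s + 1) := by
      funext s; simp [eval_comp]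
    have e1 : (fun s => (X ^ 3 * Q).eval s) = fun s : ℂ => s ^ 3 * Q.eval s := by
      funext s; simp
    rw [e1, e2]
    exact Lr_succ v h14 le_rfl l (fun s => Q.eval s)

/-- the key identity of the moments -/
theorem key_M (v : Fin 3 → ℂ) : PsiInf.Key (M v) := by
  intro Q
  rw [map_add]
  exact key_aux v Q

/-- **the moments are the rational coefficients of `ψ_∞`** -/
theorem M_eq_mu (j : ℕ) : M vv j = ((PsiInf.mu j : ℚ) : ℂ) := by
  have h := PsiInf.mu_unique (key_M vv) (by rw [M_zero]; ring)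
    (by rw [M_zero, M_one]; ring) (by rw [M_zero, M_one, M_two]; ring)
  exact congrFun h j

/-! ### `psi - J` -/

/-- the continuation of `psi - J` across the sites: near `ce l` it equals
`∑_{l' ≠ l} pol v l' - G3 v l`. -/
noncomputable def psiL (v : Fin 3 → ℂ) (l : ℕ) (z : ℂ) : ℂ :=
  (∑' l', if l' = l then 0 else pol v l' z) - G3 v l z

lemma psiF_sub_J (v : Fin 3 → ℂ) (l : ℕ) {z : ℂ} (hz : ∀ l, z ≠ ce l) :
    psiF v z - J v z = psiL v l z := by
  have h1 := J_sub_pol v l (hz l)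
  have h2 := (summable_pol v hz).tsum_eq_add_tsum_ite l
  unfold psiL psiF
  rw [h2, h1]
  ring

lemma psiL_diff (v : Fin 3 → ℂ) (l : ℕ) :
    DifferentiableOn ℂ (psiL v l) (ball (ce l) (1 / 4)) := by
  obtain ⟨K, hK, h⟩ := norm_pol_le v
  unfold psiL
  refine DifferentiableOn.sub ?_ ((G3_diffOn v l).mono ball_subset_closedBall)
  refine differentiableOn_tsum_of_summable_norm (u := fun l' => K * (1 / 8) ^ l' / (3 / 4) ^ 3)
    ?_ ?_ isOpen_ball ?_
  · refine (summable_geo8.mul_left (K / (3 / 4) ^ 3)).congr fun l' => ?_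
    ring
  · intro l'
    by_cases hl : l' = l
    · simp [hl]
    · simp only [hl, if_false]
      intro z hz
      have hne : z ≠ ce l' := by
        intro h6
        rw [mem_ball, dist_eq_norm, h6] at hz
        have := ce_dist l' l hl
        linarith
      have h7 := hasDerivAt_polD v l' 0 hne
      have e : polD v l' 0 = pol v l' := by funext z; exact polD_zero v l' z
      rw [e] at h7
      exact h7.differentiableAt.differentiableWithinAt
  · intro l' z hz
    by_cases hl : l' = l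
    · simp only [hl, if_true, norm_zero]; positivity
    · simp only [hl, if_false]
      apply h l' z (3 / 4) (by norm_num) (by norm_num)
      rw [mem_ball, dist_eq_norm] at hz
      have h8 := ce_dist l' l hl
      have h9 : ‖ce l' - ce l‖ ≤ ‖z - ce l'‖ + ‖z - ce l‖ := by
        have : ce l' - ce l = -(z - ce l') + (z - ce l) := by ring
        rw [this]
        refine (norm_add_le _ _).trans ?_
        rw [norm_neg]
      linarith

end Crest.Agent.R006.PsiJ
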