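import Crest.Agent.R006.P3_BeZeroE_632
import Crest.Agent.R006.PsiJ6_576

/-!
# Row 6, block P3, helper632: the identity `be = 0`, part F (link to `psi` of helper576)
-/

set_option autoImplicit false

namespace Crest.Agent.R006.BeZero632

open Real Filter Topology
open Crest.Agent.R006.PsiJ (psi ce vv psi_rec psiF_bounded psiF psiF_sub_J psiL psiL_diff J P Bt)

/-- `h0 (1/2 + y)` -/
noncomputable def h (y : ℝ) : ℝ := (8 : ℝ) ^ (1 / 2 + y) * (Gamma (y + 1) * ig (y + 3 / 2)) ^ 3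

lemma h_pos {y : ℝ} (hy : 0 ≤ y) : 0 < h y := by
  unfold h
  have h1 : 0 < Gamma (y + 1) := Real.Gamma_pos_of_pos (by linarith)
  have h2 := ig_pos (z := y + 3 / 2) (by linarith)
  positivity

lemma h_add_one {y : ℝ} (hy : 0 ≤ y) : (y + 3 / 2) ^ 3 * h (y + 1) = 8 * (y + 1) ^ 3 * h y := by
  unfold h
  rw [show (1 / 2 : ℝ) + (y + 1) = (1 / 2 + y) + 1 by ring, Real.rpow_add (by norm_num),
    Real.rpow_one, Real.Gamma_add_one (by positivity : y + 1 ≠ 0)]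
  have e : ig (y + 3 / 2) = (y + 3 / 2) * ig (y + 1 + 3 / 2) := by
    rw [ig_eq (y + 3 / 2), show y + 3 / 2 + 1 = y + 1 + 3 / 2 by ring]
  rw [e]
  ring

lemma h_ge {x : ℝ} (hx : 0 ≤ x) (n : ℕ) : 2 ^ n * h x ≤ h (n + x) := by
  induction n with
  | zero => simp
  | succ n ih =>
    have hn : (0 : ℝ) ≤ n := Nat.cast_nonneg n
    have h1 := h_add_one (y := n + x) (by positivity)
    have h2 := h_pos (y := n + x) (by positivity)
    have h3 := h_pos (y := (n + x) + 1) (by positivity)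
    have h4 : 2 * h (n + x) ≤ h ((n + x) + 1) := by
      have h5 : (0 : ℝ) < ((n + x) + 3 / 2) ^ 3 := by positivity
      have h6 : 2 * ((n + x) + 3 / 2) ^ 3 ≤ 8 * ((n + x) + 1) ^ 3 := by
        have hy : 0 ≤ n + x := by positivity
        generalize n + x = y at hy
        nlinarith [mul_nonneg hy hy, mul_nonneg (mul_nonneg hy hy) hy]
      have h7 : ((n + x) + 3 / 2) ^ 3 * (2 * h (n + x)) ≤ ((n + x) + 3 / 2) ^ 3 * h ((n + x) + 1) := by
        rw [h1]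
        nlinarith
      exact le_of_mul_le_mul_left h7 h5
    push_cast
    rw [show (n : ℝ) + 1 + x = (n + x) + 1 by ring, pow_succ]
    linarith

lemma ig_half_sub {y : ℝ} (hy : 0 ≤ y) :
    ig (1 / 2 - y) = Gamma (y + 1 / 2) * Real.cos (π * y) / π := by
  have h1 := Real.Gamma_mul_Gamma_one_sub (y + 1 / 2)
  rw [show 1 - (y + 1 / 2) = 1 / 2 - y by ring, show π * (y + 1 / 2) = π * y + π / 2 by ring,
    Real.sin_add_pi_div_two] at h1
  have hg : Gamma (y + 1 / 2) ≠ 0 := (Real.Gamma_pos_of_pos (by linarith)).ne'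
  have h2 : Gamma (1 / 2 - y) = π / Real.cos (π * y) / Gamma (y + 1 / 2) := by
    rw [eq_div_iff hg, mul_comm]; exact h1
  unfold ig
  rw [h2, inv_div, div_div_eq_mul_div, mul_div_assoc]

noncomputable def kap : ℝ := 4 * (8 : ℝ) ^ (1 / 2 : ℝ) / π

lemma kap_pos : 0 < kap := by unfold kap; positivity

lemma g0_eq {y : ℝ} (hy : 0 ≤ y) :
    g 0 y = kap * Real.cos (π * y) * ((6 * y + 1) / (4 * ((y + 1 / 2) ^ 3 * h y))) := by
  have G1 : 0 < Gamma (y + 1) := Real.Gamma_pos_of_pos (by linarith)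
  have G2 : 0 < Gamma (y + 1 / 2) := Real.Gamma_pos_of_pos (by linarith)
  have e1 : (y + 1 / 2) ^ 3 * h y =
      (8 : ℝ) ^ (1 / 2 : ℝ) * (8 : ℝ) ^ y * (Gamma (y + 1) / Gamma (y + 1 / 2)) ^ 3 := by
    unfold h
    have e : (Gamma (y + 1 / 2))⁻¹ = (y + 1 / 2) * ig (y + 3 / 2) := by
      have := ig_eq (y + 1 / 2)
      rw [show y + 1 / 2 + 1 = y + 3 / 2 by ring] at this
      exact this
    have e' : Gamma (y + 1) / Gamma (y + 1 / 2) = Gamma (y + 1) * ((y + 1 / 2) * ig (y + 3 / 2)) := by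
      rw [← e]; rfl
    rw [e', Real.rpow_add (by norm_num)]
    ring
  rw [e1]
  unfold g kap
  rw [show ((0 : ℕ) : ℝ) + 1 / 2 - y = 1 / 2 - y by norm_num, ig_half_sub hy]
  unfold ig
  rw [Real.rpow_neg (by norm_num)]
  have h8 : (0 : ℝ) < (8 : ℝ) ^ y := by positivity
  have h8' : (0 : ℝ) < (8 : ℝ) ^ (1 / 2 : ℝ) := by positivity
  push_cast
  simp only [mul_zero, add_zero, pow_zero, mul_one]
  field_simp

lemma real_ne_ce {r : ℝ} (hr : -(1 / 2) < r) (l : ℕ) : (r : ℂ) ≠ ce l := by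
  intro he
  have := congrArg Complex.re he
  simp at this
  have hl : (0 : ℝ) ≤ l := Nat.cast_nonneg l
  linarith

/-- the values of `psi` to the right of `1/2` -/
lemma psi_step {y : ℝ} (hy : 1 ≤ y) (hc : Real.cos (π * y) ≠ 0) :
    psi ((1 / 2 + y : ℝ) : ℂ) / (h y : ℂ) + psi ((1 / 2 + (y - 1) : ℝ) : ℂ) / (h (y - 1) : ℂ) =
      -((g 0 y / (kap * Real.cos (π * y)) : ℝ) : ℂ) := by
  have h1 := psi_rec (z := ((1 / 2 + y : ℝ) : ℂ)) (real_ne_ce (by linarith)) (by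
    intro l
    have := real_ne_ce (r := 1 / 2 + (y - 1)) (by linarith) l
    intro he
    apply this
    rw [← he]; push_cast; ring)
  have e2 : ((1 / 2 + y : ℝ) : ℂ) - 1 = ((1 / 2 + (y - 1) : ℝ) : ℂ) := by push_cast; ring
  rw [e2] at h1
  have hp := h_pos (y := y) (by linarith)
  have hp' := h_pos (y := y - 1) (by linarith)
  have h3 := h_add_one (y := y - 1) (by linarith)
  rw [show y - 1 + 1 = y by ring, show y - 1 + 3 / 2 = y + 1 / 2 by ring] at h3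
  have hy2 : (0 : ℝ) < y + 1 / 2 := by linarith
  have g0 := g0_eq (y := y) (by linarith)
  have hk := kap_pos
  have e4 : g 0 y / (kap * Real.cos (π * y)) = (6 * y + 1) / (4 * ((y + 1 / 2) ^ 3 * h y)) := by
    rw [g0, mul_div_assoc, mul_comm, div_mul_cancel₀]
    exact mul_ne_zero hk.ne' hc
  rw [e4]
  have hC : (h y : ℂ) ≠ 0 := by exact_mod_cast hp.ne'
  have hC' : (h (y - 1) : ℂ) ≠ 0 := by exact_mod_cast hp'.ne'
  have hyC : ((y : ℂ) + 1 / 2) ≠ 0 := by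
    have : ((y + 1 / 2 : ℝ) : ℂ) ≠ 0 := by exact_mod_cast hy2.ne'
    simpa using this
  have hy0 : (y : ℂ) ≠ 0 := by
    have : y ≠ 0 := by linarith
    exact_mod_cast this
  have h3C : ((y : ℂ) + 1 / 2) ^ 3 * (h y : ℂ) = 8 * (y : ℂ) ^ 3 * (h (y - 1) : ℂ) := by
    have := congrArg (fun r : ℝ => (r : ℂ)) h3
    push_cast at this
    exact this
  set A := psi ((1 / 2 + y : ℝ) : ℂ) with hA
  set B := psi ((1 / 2 + (y - 1) : ℝ) : ℂ) with hB
  push_cast at h1 ⊢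
  have h5 : ((y : ℂ) + 1 / 2) ^ 3 * (h y : ℂ) ≠ 0 := mul_ne_zero (pow_ne_zero _ hyC) hC
  have h6 : A / (h y : ℂ) + B / (h (y - 1) : ℂ) =
      ((((y : ℂ) + 1 / 2) ^ 3 * A + 8 * (y : ℂ) ^ 3 * B)) / (((y : ℂ) + 1 / 2) ^ 3 * (h y : ℂ)) := by
    have a1 : A / (h y : ℂ) = ((y : ℂ) + 1 / 2) ^ 3 * A / (((y : ℂ) + 1 / 2) ^ 3 * (h y : ℂ)) := by
      rw [mul_div_mul_left _ _ (pow_ne_zero _ hyC)]
    have a2 : B / (h (y - 1) : ℂ) = 8 * (y : ℂ) ^ 3 * B / (((y : ℂ) + 1 / 2) ^ 3 * (h y : ℂ)) := by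
      rw [h3C, mul_div_mul_left]
      exact mul_ne_zero (by norm_num) (pow_ne_zero _ hy0)
    rw [a1, a2]; ring
  have h7 : ((y : ℂ) + 1 / 2) ^ 3 * A + 8 * (y : ℂ) ^ 3 * B = -(6 * y + 1) / 4 := by
    linear_combination h1
  rw [h6, h7]
  field_simp

lemma cos_pi_nat_add (n : ℕ) (x : ℝ) :
    Real.cos (π * (n + x)) = (-1) ^ n * Real.cos (π * x) := by
  rw [show π * (n + x) = π * x + n * π by ring]
  exact Real.cos_add_nat_mul_pi _ _

/-- `psi (1/2 + x)` in terms of `W 0 x` -/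
theorem psi_val {x : ℝ} (h0 : 0 ≤ x) (h1 : x ≤ 1 / 4) :
    psi ((1 / 2 + x : ℝ) : ℂ) =
      ((h x * (W 0 x - g 0 x) / (kap * Real.cos (π * x)) : ℝ) : ℂ) := by
  have hcos : 0 < Real.cos (π * x) := by
    apply Real.cos_pos_of_mem_Ioo
    constructor <;> nlinarith [Real.pi_pos]
  have hk := kap_pos
  set K := kap * Real.cos (π * x) with hK
  have hKpos : 0 < K := by positivity
  let u : ℕ → ℂ := fun n => (-1) ^ n * (psi ((1 / 2 + (n + x) : ℝ) : ℂ) / (h (n + x) : ℂ))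
  have hstep : ∀ n : ℕ, u n - u (n + 1) = ((g 0 ((n + 1 : ℕ) + x) / K : ℝ) : ℂ) := by
    intro n
    have hn : (0 : ℝ) ≤ n := Nat.cast_nonneg n
    have e := psi_step (y := (n + 1 : ℕ) + x) (by push_cast; linarith) (by
      rw [cos_pi_nat_add]
      exact mul_ne_zero (pow_ne_zero _ (by norm_num)) hcos.ne')
    rw [cos_pi_nat_add] at e
    have e2 : (((n + 1 : ℕ) : ℝ) + x) - 1 = n + x := by push_cast; ring
    rw [e2] at e
    have hs : ((-1 : ℝ)) ^ n * (-1) ^ n = 1 := by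
      rw [← mul_pow]; norm_num
    have e3 : g 0 ((n + 1 : ℕ) + x) / (kap * ((-1) ^ (n + 1) * Real.cos (π * x))) =
        -((-1) ^ n * (g 0 ((n + 1 : ℕ) + x) / K)) := by
      have e5 : kap * ((-1) ^ (n + 1) * Real.cos (π * x)) = -((-1) ^ n * K) := by
        rw [pow_succ, hK]; ring
      rw [e5, div_neg, mul_comm ((-1) ^ n) K, ← div_div, div_eq_mul_inv _ ((-1 : ℝ) ^ n)]
      have : ((-1 : ℝ) ^ n)⁻¹ = (-1) ^ n := inv_eq_of_mul_eq_one_left hs
      rw [this]; ring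
    rw [e3] at e
    simp only [u]
    rw [pow_succ]
    have hsC : ((-1 : ℂ)) ^ n * (-1) ^ n = 1 := by
      rw [← mul_pow]; norm_num
    have e6 : psi ((1 / 2 + (((n + 1 : ℕ) : ℝ) + x) : ℝ) : ℂ) / (h (((n + 1 : ℕ) : ℝ) + x) : ℂ) +
        psi ((1 / 2 + (n + x) : ℝ) : ℂ) / (h (n + x) : ℂ) =
        (-1) ^ n * ((g 0 ((n + 1 : ℕ) + x) / K : ℝ) : ℂ) := by
      rw [e]; push_cast; ring
    linear_combination (-1 : ℂ) ^ n * e6 + ((g 0 ((n + 1 : ℕ) + x) / K : ℝ) : ℂ) * hsC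
  have hu : Tendsto u atTop (𝓝 0) := by
    obtain ⟨B, hB⟩ := psiF_bounded vv
    have hx := h_pos h0
    have hlim : Tendsto (fun n : ℕ => (|B| / h x) * (1 / 2 : ℝ) ^ n) atTop (𝓝 0) := by
      simpa using (tendsto_pow_atTop_nhds_zero_of_lt_one (by norm_num : (0 : ℝ) ≤ 1 / 2)
        (by norm_num)).const_mul (|B| / h x)
    refine squeeze_zero_norm (fun n => ?_) hlim
    have hn : (0 : ℝ) ≤ n := Nat.cast_nonneg n
    have hge := h_ge h0 n
    have hpos := h_pos (y := n + x) (by positivity)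
    have hb := (hB ((1 / 2 + (n + x) : ℝ) : ℂ) (by
      rw [Complex.ofReal_re]; linarith)).trans (le_abs_self B)
    have e : ‖u n‖ = ‖psi ((1 / 2 + (n + x) : ℝ) : ℂ)‖ / h (n + x) := by
      simp only [u]
      rw [norm_mul, norm_pow, norm_neg, norm_one, one_pow, one_mul, norm_div, Complex.norm_real,
        Real.norm_eq_abs, abs_of_pos hpos]
    rw [e, div_le_iff₀ hpos]
    calc ‖psi ((1 / 2 + (n + x) : ℝ) : ℂ)‖ ≤ |B| := hb
      _ = |B| / h x * (1 / 2) ^ n * (2 ^ n * h x) := by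
          field_simp
          rw [mul_assoc, ← mul_pow]; norm_num
      _ ≤ |B| / h x * (1 / 2) ^ n * h (n + x) := by gcongr
  have hsum : HasSum (fun n : ℕ => ((g 0 ((n + 1 : ℕ) + x) / K : ℝ) : ℂ)) (u 0 - 0) := by
    have hs1 : Summable (fun n : ℕ => ((g 0 ((n + 1 : ℕ) + x) / K : ℝ) : ℂ)) := by
      rw [Complex.summable_ofReal]
      exact ((summable_nat_add_iff 1).mpr (summable_g 0 h0)).div_const K
    rw [hs1.hasSum_iff_tendsto_nat]
    have : ∀ N : ℕ, ∑ n ∈ Finset.range N, ((g 0 ((n + 1 : ℕ) + x) / K : ℝ) : ℂ) = u 0 - u N := by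
      intro N
      rw [← Finset.sum_range_sub' u N]
      exact Finset.sum_congr rfl fun n _ => (hstep n).symm
    simp only [this]
    exact tendsto_const_nhds.sub hu
  have hsum2 : HasSum (fun n : ℕ => ((g 0 ((n + 1 : ℕ) + x) / K : ℝ) : ℂ))
      (((W 0 x - g 0 x) / K : ℝ) : ℂ) := by
    rw [Complex.hasSum_ofReal]
    apply HasSum.div_const
    have := (hasSum_nat_add_iff' 1).mpr (summable_g 0 h0).hasSum
    simpa [W] using this
  have h5 := hsum.unique hsum2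
  simp only [u, pow_zero, one_mul, Nat.cast_zero, zero_add, sub_zero] at h5
  have hx := h_pos h0
  have hxC : (h x : ℂ) ≠ 0 := by exact_mod_cast hx.ne'
  rw [div_eq_iff hxC] at h5
  rw [h5]
  push_cast
  ring

end Crest.Agent.R006.BeZero632
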