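import Crest.Agent.R006.P3_BeZeroF_632

/-!
# Row 6, block P3, helper632: `be = 0`, i.e. `vv 1 = vv 2` for the jump parameters of helper576
-/

set_option autoImplicit false

namespace Crest.Agent.R006.BeZero632

open Real Filter Topology
open Crest.Agent.R006.PsiJ (psi ce vv psi_rec psiF_bounded psiF psiF_sub_J psiL psiL_diff J P Bt
  J_rec P_hasDeriv)

lemma cos_pos' {x : ℝ} (h0 : 0 ≤ x) (h1 : x ≤ 1 / 4) : 0 < Real.cos (π * x) := by
  apply Real.cos_pos_of_mem_Ioo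
  constructor <;> nlinarith [Real.pi_pos]

lemma sin_pos' {x : ℝ} (h0 : 0 < x) (h1 : x ≤ 1 / 4) : 0 < Real.sin (π * x) := by
  apply Real.sin_pos_of_pos_of_lt_pi
  · positivity
  · nlinarith [Real.pi_pos]

lemma Bt_val {x : ℝ} (h0 : 0 < x) (h1 : x ≤ 1 / 4) :
    Bt (-((1 / 2 + x : ℝ) : ℂ)) =
      ((Real.sin (π * x) / Real.cos (π * x) * (Gamma (x + 1) * ig (x + 3 / 2)) : ℝ) : ℂ) := by
  have hc := cos_pos' h0.le h1
  have hs := sin_pos' h0 h1
  have r1 := Real.Gamma_mul_Gamma_one_sub (-x)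
  have r2 := Real.Gamma_mul_Gamma_one_sub (-(1 / 2 + x))
  rw [show 1 - -x = x + 1 by ring, show π * -x = -(π * x) by ring, Real.sin_neg] at r1
  rw [show 1 - -(1 / 2 + x) = x + 3 / 2 by ring,
    show π * -(1 / 2 + x) = -(π * x + π / 2) by ring, Real.sin_neg, Real.sin_add_pi_div_two] at r2
  have G1 : 0 < Gamma (x + 1) := Real.Gamma_pos_of_pos (by linarith)
  have G2 : 0 < Gamma (x + 3 / 2) := Real.Gamma_pos_of_pos (by linarith)
  have e1 : Gamma (-x) = π / -Real.sin (π * x) / Gamma (x + 1) := by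
    rw [eq_div_iff G1.ne']; exact r1
  have e2 : Gamma (-(1 / 2 + x)) = π / -Real.cos (π * x) / Gamma (x + 3 / 2) := by
    rw [eq_div_iff G2.ne']; exact r2
  have e3 : Bt (-((1 / 2 + x : ℝ) : ℂ)) = ((Gamma (-(1 / 2 + x)) / Gamma (-x) : ℝ) : ℂ) := by
    unfold Bt
    rw [show -((1 / 2 + x : ℝ) : ℂ) + 1 / 2 = ((-x : ℝ) : ℂ) by push_cast; ring,
      show -((1 / 2 + x : ℝ) : ℂ) = ((-(1 / 2 + x) : ℝ) : ℂ) by push_cast; ring,
      Complex.Gamma_ofReal, Complex.Gamma_ofReal, Complex.ofReal_div]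
  rw [e3, e1, e2]
  congr 1
  unfold ig
  field_simp

lemma J_val (v : Fin 3 → ℂ) {x : ℝ} (h0 : 0 < x) (h1 : x ≤ 1 / 4) :
    J v ((1 / 2 + x : ℝ) : ℂ) =
      -((h x / Real.cos (π * x) ^ 3 : ℝ) : ℂ) * P v ((1 / 2 + x : ℝ) : ℂ) := by
  have hc := cos_pos' h0.le h1
  have hs := sin_pos' h0 h1
  unfold J
  rw [Bt_val h0 h1]
  have e8 : (8 : ℂ) ^ ((1 / 2 + x : ℝ) : ℂ) = (((8 : ℝ) ^ (1 / 2 + x) : ℝ) : ℂ) := by
    rw [Complex.ofReal_cpow (by norm_num)]; norm_num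
  have ec : Complex.cos ((π : ℂ) * ((1 / 2 + x : ℝ) : ℂ)) = ((-Real.sin (π * x) : ℝ) : ℂ) := by
    rw [← Complex.ofReal_mul, ← Complex.ofReal_cos, show π * (1 / 2 + x) = π * x + π / 2 by ring,
      Real.cos_add_pi_div_two]
  rw [e8, ec]
  unfold h
  have hsC : ((Real.sin (π * x) : ℝ) : ℂ) ≠ 0 := by exact_mod_cast hs.ne'
  have hcC : ((Real.cos (π * x) : ℝ) : ℂ) ≠ 0 := by exact_mod_cast hc.ne'
  generalize P v ((1 / 2 + x : ℝ) : ℂ) = p
  generalize Real.sin (π * x) = s at *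
  generalize Real.cos (π * x) = c at *
  generalize (8 : ℝ) ^ (1 / 2 + x) = E
  generalize Gamma (x + 1) * ig (x + 3 / 2) = F
  push_cast
  field_simp

lemma h_ge_eighth {x : ℝ} (h0 : 0 ≤ x) (h1 : x ≤ 1 / 4) : 1 / 8 ≤ h x := by
  have G1 : 0 < Gamma (x + 1) := Real.Gamma_pos_of_pos (by linarith)
  have G2 : 0 < Gamma (x + 3 / 2) := Real.Gamma_pos_of_pos (by linarith)
  have e := Gamma_add_le (z := x + 1) (t := 1 / 2) (by linarith) (by norm_num) (by norm_num)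
  rw [show x + 1 + 1 / 2 = x + 3 / 2 by ring] at e
  have e2 : (x + 1) ^ (1 / 2 : ℝ) ≤ 2 := by
    calc (x + 1) ^ (1 / 2 : ℝ) ≤ (x + 1) ^ (1 : ℝ) :=
          Real.rpow_le_rpow_of_exponent_le (by linarith) (by norm_num)
      _ ≤ 2 := by rw [Real.rpow_one]; linarith
  have e3 : 1 / 2 ≤ Gamma (x + 1) * ig (x + 3 / 2) := by
    unfold ig
    rw [← div_eq_mul_inv, le_div_iff₀ G2]
    nlinarith
  have e4 : (1 : ℝ) ≤ (8 : ℝ) ^ (1 / 2 + x) := Real.one_le_rpow (by norm_num) (by linarith)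
  unfold h
  have e5 : (1 / 2 : ℝ) ^ 3 ≤ (Gamma (x + 1) * ig (x + 3 / 2)) ^ 3 :=
    pow_le_pow_left₀ (by norm_num) e3 3
  calc (1 / 8 : ℝ) = 1 * (1 / 2) ^ 3 := by norm_num
    _ ≤ _ := mul_le_mul e4 e5 (by norm_num) (by positivity)

/-- the value of the trigonometric numerator near `1/2` -/
lemma P_val {x : ℝ} (h0 : 0 < x) (h1 : x < 1 / 4) :
    P vv ((1 / 2 + x : ℝ) : ℂ) =
      -((Real.cos (π * x) ^ 2 * W 0 x / kap : ℝ) : ℂ) -
        ((8 * x ^ 3 * Real.cos (π * x) ^ 3 / ((1 / 2 + x) ^ 3 * h x) : ℝ) : ℂ) *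
          psiL vv 0 ((-(1 / 2) + x : ℝ) : ℂ) := by
  have hc := cos_pos' h0.le h1.le
  have hk := kap_pos
  have hh := h_pos h0.le
  have hoff : ∀ l, ((1 / 2 + x : ℝ) : ℂ) ≠ ce l := real_ne_ce (by linarith)
  have hoff2 : ∀ l, ((-(1 / 2) + x : ℝ) : ℂ) ≠ ce l := real_ne_ce (by linarith)
  have es : ((1 / 2 + x : ℝ) : ℂ) - 1 = ((-(1 / 2) + x : ℝ) : ℂ) := by push_cast; ring
  have r1 := psi_rec (z := ((1 / 2 + x : ℝ) : ℂ)) hoff (by rw [es]; exact hoff2)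
  have r2 := J_rec vv (s := ((1 / 2 + x : ℝ) : ℂ)) (by
      have : (1 / 2 + x : ℝ) ≠ 0 := by linarith
      exact_mod_cast this) (by
      have : (1 / 2 + x : ℝ) ≠ 1 / 2 := by linarith
      intro h3
      apply this
      have := congrArg Complex.re h3
      simpa using this)
  have r3 := psiF_sub_J vv 0 hoff2
  rw [es] at r1 r2
  have r4 := psi_val h0.le h1.le
  have r5 := J_val vv h0 h1.le
  have r6 := g0_eq h0.le
  change psi _ - J vv _ = _ at r3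
  set z : ℂ := ((1 / 2 + x : ℝ) : ℂ) with hz
  set w : ℂ := ((-(1 / 2) + x : ℝ) : ℂ) with hw
  have hz0 : z ≠ 0 := by
    have : (1 / 2 + x : ℝ) ≠ 0 := by linarith
    rw [hz]; exact_mod_cast this
  have hzx : z = 1 / 2 + (x : ℂ) := by rw [hz]; push_cast; ring
  have hx2 : 2 * z - 1 = 2 * (x : ℂ) := by rw [hzx]; ring
  -- `z³ J z = z³ psi z + (3z-1)/2 + (2x)³ psiL`
  have k1 : z ^ 3 * J vv z = z ^ 3 * psi z + (3 * z - 1) / 2 + (2 * (x : ℂ)) ^ 3 * psiL vv 0 w := by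
    rw [hx2] at r1 r2
    linear_combination r2 - r1 + (2 * (x : ℂ)) ^ 3 * r3
  have hhC : (h x : ℂ) ≠ 0 := by exact_mod_cast hh.ne'
  have hcC : (Real.cos (π * x) : ℂ) ≠ 0 := by exact_mod_cast hc.ne'
  have hkC : (kap : ℂ) ≠ 0 := by exact_mod_cast hk.ne'
  have k2 : z ^ 3 * psi z + (3 * z - 1) / 2 =
      z ^ 3 * ((h x * W 0 x / (kap * Real.cos (π * x)) : ℝ) : ℂ) := by
    have k3 : h x * g 0 x / (kap * Real.cos (π * x)) = (6 * x + 1) / (4 * (x + 1 / 2) ^ 3) := by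
      rw [r6]
      have : (0 : ℝ) < x + 1 / 2 := by linarith
      field_simp
    have k4 : ((h x * (W 0 x - g 0 x) / (kap * Real.cos (π * x)) : ℝ) : ℂ) =
        ((h x * W 0 x / (kap * Real.cos (π * x)) : ℝ) : ℂ) -
        (((6 * x + 1) / (4 * (x + 1 / 2) ^ 3) : ℝ) : ℂ) := by
      rw [← k3]; push_cast; ring
    have k5 : z ^ 3 * (((6 * x + 1) / (4 * (x + 1 / 2) ^ 3) : ℝ) : ℂ) = (3 * z - 1) / 2 := by
      have e1 : (((6 * x + 1) / (4 * (x + 1 / 2) ^ 3) : ℝ) : ℂ) = (6 * z - 2) / (4 * z ^ 3) := by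
        rw [hzx]; push_cast; ring
      rw [e1]
      field_simp
      ring
    rw [r4, k4]
    linear_combination (-1 : ℂ) * k5
  rw [k2, r5] at k1
  -- solve for `P`
  have hz3 : z ^ 3 ≠ 0 := pow_ne_zero _ hz0
  have e1 : ((8 * x ^ 3 * Real.cos (π * x) ^ 3 / ((1 / 2 + x) ^ 3 * h x) : ℝ) : ℂ) =
      8 * (x : ℂ) ^ 3 * (Real.cos (π * x) : ℂ) ^ 3 / (z ^ 3 * (h x : ℂ)) := by
    rw [hz]; push_cast; ring
  rw [e1]
  rw [Complex.ofReal_div, Complex.ofReal_div, Complex.ofReal_mul, Complex.ofReal_mul,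
    Complex.ofReal_pow] at k1
  rw [Complex.ofReal_div, Complex.ofReal_mul, Complex.ofReal_pow]
  generalize psiL vv 0 w = Lw at k1 ⊢
  generalize P vv z = p at k1 ⊢
  generalize (W 0 x : ℂ) = Wx at k1 ⊢
  generalize (Real.cos (π * x) : ℂ) = c at hcC k1 ⊢
  generalize (h x : ℂ) = hx at hhC k1 ⊢
  generalize (kap : ℂ) = kk at hkC k1 ⊢
  generalize (x : ℂ) = X at k1 ⊢
  have k8 : z ^ 3 * hx * kk * p = z ^ 3 * hx * kk * (-(c ^ 2 * Wx / kk) - 8 * X ^ 3 * c ^ 3 / (z ^ 3 * hx) * Lw) := by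
    have : z ^ 3 * hx * kk * (-(c ^ 2 * Wx / kk) - 8 * X ^ 3 * c ^ 3 / (z ^ 3 * hx) * Lw) =
        -(z ^ 3 * hx * c ^ 2 * Wx) - kk * 8 * X ^ 3 * c ^ 3 * Lw := by
      field_simp
    rw [this]
    field_simp at k1
    linear_combination (-1 : ℂ) * k1
  exact mul_left_cancel₀ (mul_ne_zero (mul_ne_zero hz3 hhC) hkC) k8

lemma psiL_bdd : ∃ B : ℝ, 0 ≤ B ∧ ∀ᶠ x : ℝ in 𝓝[>] 0,
    ‖psiL vv 0 ((-(1 / 2) + x : ℝ) : ℂ)‖ ≤ B := by
  have h1 : ContinuousAt (psiL vv 0) (ce 0) :=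
    ((psiL_diff vv 0).differentiableAt (Metric.ball_mem_nhds _ (by norm_num))).continuousAt
  have e0 : (((-(1 / 2) + 0 : ℝ)) : ℂ) = ce 0 := by
    unfold PsiJ.ce; push_cast; ring
  have h2 : Tendsto (fun x : ℝ => ((-(1 / 2) + x : ℝ) : ℂ)) (𝓝[>] 0) (𝓝 (ce 0)) := by
    rw [← e0]
    apply Tendsto.mono_left _ nhdsWithin_le_nhds
    have : Continuous (fun x : ℝ => ((-(1 / 2) + x : ℝ) : ℂ)) := by fun_prop
    exact this.tendsto 0
  have h3 := (h1.tendsto.comp h2).norm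
  refine ⟨‖psiL vv 0 (ce 0)‖ + 1, by positivity, ?_⟩
  have h4 := h3.eventually_lt_const (by linarith : ‖psiL vv 0 (ce 0)‖ < ‖psiL vv 0 (ce 0)‖ + 1)
  filter_upwards [h4] with x hx
  exact hx.le

/-- **`be = 0`**: the trigonometric numerator of the jump of `psi` is even,
`P vv s = vv 0 + 2 vv 1 cos (2 π s)`. -/
theorem vv_symm : vv 1 = vv 2 := by
  obtain ⟨K, hK, hW⟩ := W_quadratic
  obtain ⟨B, hB, hL⟩ := psiL_bdd
  have hk := kap_pos
  set φ : ℝ → ℂ := fun x => P vv ((1 / 2 + x : ℝ) : ℂ) with hφ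
  set D : ℂ := P ![0, 2 * π * Complex.I * vv 1, -(2 * π * Complex.I) * vv 2] (1 / 2) with hD
  have hder : HasDerivAt φ D 0 := by
    have h1 := P_hasDeriv vv (((1 / 2 + (0 : ℝ) : ℝ)) : ℂ)
    have h2 : HasDerivAt (fun x : ℝ => ((1 / 2 + x : ℝ) : ℂ)) 1 0 := by
      have := ((hasDerivAt_id (0 : ℝ)).const_add (1 / 2)).ofReal_comp
      simpa using this
    have h3 := HasDerivAt.comp (h₂ := P vv) (h := fun x : ℝ => ((1 / 2 + x : ℝ) : ℂ)) (0 : ℝ) h1 h2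
    have e : (((1 / 2 + (0 : ℝ) : ℝ)) : ℂ) = 1 / 2 := by push_cast; ring
    rw [e, mul_one] at h3
    exact h3
  set c0 : ℂ := -((W 0 0 / kap : ℝ) : ℂ) with hc0
  set K' : ℝ := (K + π ^ 2 * |W 0 0|) / kap + 128 * B with hK'
  have hK'0 : 0 ≤ K' := by positivity
  have hbound : ∀ᶠ x : ℝ in 𝓝[>] 0, ‖φ x - c0‖ ≤ K' * x ^ 2 := by
    have hsmall : ∀ᶠ x : ℝ in 𝓝[>] 0, x < 1 / 4 :=
      (eventually_lt_nhds (by norm_num : (0 : ℝ) < 1 / 4)).filter_mono nhdsWithin_le_nhds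
    filter_upwards [hL, hsmall, self_mem_nhdsWithin] with x hLx hx1 hx0
    have hx0' : 0 < x := hx0
    have hw := hW x hx0'.le hx1.le
    have hhx := h_ge_eighth hx0'.le hx1.le
    have hval := P_val hx0' hx1
    have e : φ x - c0 =
        -(((Real.cos (π * x) ^ 2 * (W 0 x - W 0 0) - Real.sin (π * x) ^ 2 * W 0 0) / kap : ℝ) : ℂ) -
        ((8 * x ^ 3 * Real.cos (π * x) ^ 3 / ((1 / 2 + x) ^ 3 * h x) : ℝ) : ℂ) *
          psiL vv 0 ((-(1 / 2) + x : ℝ) : ℂ) := by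
      have hsc : Real.sin (π * x) ^ 2 = 1 - Real.cos (π * x) ^ 2 := by
        have := Real.sin_sq_add_cos_sq (π * x); linarith
      have e2 : φ x = P vv ((1 / 2 + x : ℝ) : ℂ) := rfl
      rw [e2, hval, hc0, hsc]
      push_cast
      ring
    rw [e]
    refine (norm_sub_le _ _).trans ?_
    rw [norm_neg, norm_mul, Complex.norm_real, Complex.norm_real, Real.norm_eq_abs,
      Real.norm_eq_abs]
    have b1 : |(Real.cos (π * x) ^ 2 * (W 0 x - W 0 0) - Real.sin (π * x) ^ 2 * W 0 0) / kap| ≤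
        (K + π ^ 2 * |W 0 0|) / kap * x ^ 2 := by
      rw [abs_div, abs_of_pos hk, div_mul_eq_mul_div]
      gcongr
      refine (abs_sub _ _).trans ?_
      rw [abs_mul, abs_mul, abs_of_nonneg (sq_nonneg (Real.cos (π * x))),
        abs_of_nonneg (sq_nonneg (Real.sin (π * x)))]
      have c1 : Real.cos (π * x) ^ 2 ≤ 1 := Real.cos_sq_le_one _
      have c2 : Real.sin (π * x) ^ 2 ≤ (π * x) ^ 2 := by
        apply sq_le_sq'
        · have := (sin_pos' hx0' hx1.le).le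
          have : 0 < π * x := by positivity
          linarith
        · exact Real.sin_le (by positivity)
      have c3 : Real.cos (π * x) ^ 2 * |W 0 x - W 0 0| ≤ 1 * (K * x ^ 2) := by gcongr
      have c4 : Real.sin (π * x) ^ 2 * |W 0 0| ≤ (π * x) ^ 2 * |W 0 0| := by gcongr
      calc _ ≤ 1 * (K * x ^ 2) + (π * x) ^ 2 * |W 0 0| := add_le_add c3 c4
        _ = _ := by ring
    have b2 : |8 * x ^ 3 * Real.cos (π * x) ^ 3 / ((1 / 2 + x) ^ 3 * h x)| ≤ 128 * x ^ 2 := by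
      have hcp := cos_pos' hx0'.le hx1.le
      have hhp := h_pos hx0'.le
      rw [abs_of_nonneg (by positivity), div_le_iff₀ (by positivity)]
      have d1 : Real.cos (π * x) ^ 3 ≤ 1 := pow_le_one₀ hcp.le (Real.cos_le_one _)
      have d2 : (1 / 8 : ℝ) ≤ (1 / 2 + x) ^ 3 := by
        have := pow_le_pow_left₀ (by norm_num : (0 : ℝ) ≤ 1 / 2) (by linarith : 1 / 2 ≤ 1 / 2 + x) 3
        norm_num at this ⊢
        linarith
      have d3 : (1 / 64 : ℝ) ≤ (1 / 2 + x) ^ 3 * h x := by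
        calc (1 / 64 : ℝ) = 1 / 8 * (1 / 8) := by norm_num
          _ ≤ _ := mul_le_mul d2 hhx (by norm_num) (by positivity)
      calc 8 * x ^ 3 * Real.cos (π * x) ^ 3 ≤ 8 * x ^ 3 * 1 := by gcongr
        _ ≤ 128 * x ^ 2 * (1 / 64) := by nlinarith [sq_nonneg x]
        _ ≤ 128 * x ^ 2 * ((1 / 2 + x) ^ 3 * h x) := by gcongr
    calc _ ≤ (K + π ^ 2 * |W 0 0|) / kap * x ^ 2 + 128 * x ^ 2 * B := by gcongr
      _ = K' * x ^ 2 := by rw [hK']; ring
  have hlim0 : Tendsto (fun x : ℝ => K' * x ^ 2) (𝓝[>] 0) (𝓝 0) := by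
    have : Continuous (fun x : ℝ => K' * x ^ 2) := by fun_prop
    have h2 := this.tendsto 0
    simp at h2
    exact h2.mono_left nhdsWithin_le_nhds
  have hφ0 : φ 0 = c0 := by
    have t1 : Tendsto φ (𝓝[>] 0) (𝓝 (φ 0)) :=
      hder.continuousAt.tendsto.mono_left nhdsWithin_le_nhds
    have t2 : Tendsto (fun x => φ x - c0) (𝓝[>] 0) (𝓝 0) :=
      squeeze_zero_norm' hbound hlim0
    have t3 := t1.sub_const c0
    have := tendsto_nhds_unique t3 t2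
    exact sub_eq_zero.mp this
  have hD0 : D = 0 := by
    have t1 : Tendsto (slope φ 0) (𝓝[>] 0) (𝓝 D) :=
      (hasDerivAt_iff_tendsto_slope.mp hder).mono_left
        (nhdsWithin_mono _ (fun x hx => ne_of_gt hx))
    have t2 : Tendsto (slope φ 0) (𝓝[>] 0) (𝓝 0) := by
      have hlim1 : Tendsto (fun x : ℝ => K' * x) (𝓝[>] 0) (𝓝 0) := by
        have : Continuous (fun x : ℝ => K' * x) := by fun_prop
        have h2 := this.tendsto 0
        simp at h2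
        exact h2.mono_left nhdsWithin_le_nhds
      refine squeeze_zero_norm' ?_ hlim1
      filter_upwards [hbound, self_mem_nhdsWithin] with x hx hx0
      have hx0' : (0 : ℝ) < x := hx0
      rw [slope_def_module, hφ0, sub_zero, norm_smul, norm_inv, Real.norm_eq_abs,
        abs_of_pos hx0', inv_mul_le_iff₀ hx0']
      calc ‖φ x - c0‖ ≤ K' * x ^ 2 := hx
        _ = x * (K' * x) := by ring
    exact tendsto_nhds_unique t1 t2
  rw [hD] at hD0
  unfold PsiJ.P at hD0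
  have e1 : Complex.exp (2 * π * Complex.I * (1 / 2)) = -1 := by
    rw [show 2 * (π : ℂ) * Complex.I * (1 / 2) = π * Complex.I by ring, Complex.exp_pi_mul_I]
  have e2 : Complex.exp (-(2 * π * Complex.I * (1 / 2))) = -1 := by
    rw [show -(2 * (π : ℂ) * Complex.I * (1 / 2)) = -(π * Complex.I) by ring, Complex.exp_neg,
      Complex.exp_pi_mul_I]
    norm_num
  rw [e1, e2] at hD0
  simp at hD0
  have h3 : (2 * π * Complex.I) * (vv 2 - vv 1) = 0 := by linear_combination hD0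
  rcases mul_eq_zero.mp h3 with h4 | h4
  · exact absurd h4 Complex.two_pi_I_ne_zero
  · exact (sub_eq_zero.mp h4).symm

end Crest.Agent.R006.BeZero632
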