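import Crest.Agent.R006.P3_Defs_257
import Crest.Agent.R006.BordM_89
import Crest.Agent.R006.Border_410
import Crest.Agent.R006.Map_189

/-!
# Row 6, block P3: from `Minor` to the entry bounds (helper257)

`plain_bound`: `|Minor(G)| |V(W)| |V(Z)| |V(Y)| ≤ |κ V_S| (n + #slots)! B^n LR^a LQ^K LU^c ∏ max 1 (μ ν)`.
-/

set_option autoImplicit false

open Complex

namespace Crest.Agent.R006.P3

open Polynomial Crest.Agent.R006.D Crest.Agent.R006.NV Crest.Agent.R006.PsiInf Crest.Agent.R006.Bord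
open Crest.Agent.R006.Border410

variable (S : Shape) (u c : ℕ)

/-- the monic gauge over `ℂ` -/
noncomputable def rhoC : ℂ[X] := (rho S u).map (algebraMap ℚ ℂ)

lemma lam_add_left {ι : Type*} [Fintype ι] [DecidableEq ι] (z : ι → ℂ) (m : ι → ℕ)
    (P P' : ℂ[X]) (F : ι → PowerSeries ℂ) :
    Lam.lam z m (P + P') F = Lam.lam z m P F + Lam.lam z m P' F := by
  simp only [Lam.lam, Lam.u, Lam.wt_add, map_add, add_mul, Finset.sum_add_distrib]

lemma lam_smul_left {ι : Type*} [Fintype ι] [DecidableEq ι] (z : ι → ℂ) (m : ι → ℕ)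
    (a : ℂ) (P : ℂ[X]) (F : ι → PowerSeries ℂ) :
    Lam.lam z m (a • P) F = a * Lam.lam z m P F := by
  rw [smul_eq_C_mul, Lam.lam_C_mul_left]; rfl

lemma lam_add_right' {ι : Type*} [Fintype ι] [DecidableEq ι] (z : ι → ℂ) (m : ι → ℕ)
    (P : ℂ[X]) (F G : ι → PowerSeries ℂ) :
    Lam.lam z m P (fun i => F i + G i) = Lam.lam z m P F + Lam.lam z m P G := by
  simp only [Lam.lam, map_add, mul_add, Finset.sum_add_distrib]

lemma FR_add (f f' : ℂ[X]) :
    FR S u c (f + f') = fun z => FR S u c f z + FR S u c f' z := by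
  funext z
  simp only [FR, map_add, gm, taylor_apply, Polynomial.coe_add]
  ring

lemma FR_smul (a : ℂ) (f : ℂ[X]) :
    FR S u c (a • f) = fun z => PowerSeries.C a * FR S u c f z := by
  funext z
  have e : ∀ p : ℂ[X], gm (zc S u c z) (a • p) = PowerSeries.C a * gm (zc S u c z) p := by
    intro p
    rw [smul_eq_C_mul]
    simp only [gm, taylor_mul, taylor_C, Polynomial.coe_mul, Polynomial.coe_C]
  simp only [FR, map_smul, e]
  ring

lemma FQ_add (f f' : ℂ[X]) :
    FQ S u c (f + f') = fun z => FQ S u c f z + FQ S u c f' z := by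
  funext z
  simp only [FQ, gm, map_add, Polynomial.coe_add]
  ring

lemma FQ_smul (a : ℂ) (f : ℂ[X]) :
    FQ S u c (a • f) = fun z => PowerSeries.C a * FQ S u c f z := by
  funext z
  have e : ∀ p : ℂ[X], gm (zc S u c z) (a • p) = PowerSeries.C a * gm (zc S u c z) p := by
    intro p
    rw [smul_eq_C_mul]
    simp only [gm, taylor_mul, taylor_C, Polynomial.coe_mul, Polynomial.coe_C]
  simp only [FQ, e]
  ring

/-- the `R`-functional with the gauge, bilinear: `P ↦ f ↦ lamR P (rhoC * f)` -/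
noncomputable def BR : ℂ[X] →ₗ[ℂ] ℂ[X] →ₗ[ℂ] ℂ :=
  LinearMap.mk₂ ℂ (fun P f => lamR S u c P (rhoC S u * f))
    (fun P P' f => lam_add_left _ _ _ _ _)
    (fun a P f => by rw [lamR, lam_smul_left]; rfl)
    (fun P f f' => by
      rw [lamR, mul_add, FR_add, lam_add_right']; rfl)
    (fun a P f => by
      rw [lamR, mul_smul_comm, FR_smul, Lam.lam_C_mul_right]; rfl)

/-- the `Q`-functional, bilinear -/
noncomputable def BQ : ℂ[X] →ₗ[ℂ] ℂ[X] →ₗ[ℂ] ℂ :=
  LinearMap.mk₂ ℂ (fun P f => lamQ S u c P f)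
    (fun P P' f => lam_add_left _ _ _ _ _)
    (fun a P f => by rw [lamQ, lam_smul_left]; rfl)
    (fun P f f' => by
      rw [lamQ, FQ_add, lam_add_right']; rfl)
    (fun a P f => by
      rw [lamQ, FQ_smul, Lam.lam_C_mul_right]; rfl)

/-- the unit columns -/
noncomputable def BU (J : Rw S u c) : ℂ[X] →ₗ[ℂ] ℂ where
  toFun P := Lam.u (zc S u c) (mm S u c) P J
  map_add' P P' := by simp only [Lam.u, Lam.wt_add, map_add]
  map_smul' a P := by
    rw [smul_eq_C_mul, Lam.u, Lam.wt_C_mul, PowerSeries.coeff_C_mul]; rfl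

@[simp] lemma BR_apply (P f : ℂ[X]) : BR S u c P f = lamR S u c P (rhoC S u * f) := rfl
@[simp] lemma BQ_apply (P f : ℂ[X]) : BQ S u c P f = lamQ S u c P f := rfl
@[simp] lemma BU_apply (J : Rw S u c) (P : ℂ[X]) :
    BU S u c J P = Lam.u (zc S u c) (mm S u c) P J := rfl

variable {S u c}

/-- number of test polynomials -/
abbrev nn (S : Shape) (u c : ℕ) : ℕ := nRC S u c

lemma TR_mapC (R : ℚ[X]) : (TR mu R).map (algebraMap ℚ ℂ) = tauC (R.map (algebraMap ℚ ℂ)) := by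
  unfold tauC
  induction R using Polynomial.induction_on' with
  | add p q hp hq => rw [map_add, Polynomial.map_add, hp, hq, Polynomial.map_add, map_add]
  | monomial k c =>
    rw [TR_monomial, Polynomial.map_monomial, TR_monomial, Polynomial.map_mul, Polynomial.map_C,
      Polynomial.map_sum]
    congr 1
    refine Finset.sum_congr rfl fun i _ => ?_
    rw [Polynomial.map_mul, Polynomial.map_C, Polynomial.map_pow, Polynomial.map_X]
    rfl

lemma colR_eq_FR (R : ℚ[X]) (z : St S u c) :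
    colR S u c (GG : ℂ) R z = FR S u c (R.map (algebraMap ℚ ℂ)) z := by
  have h1 : ∀ p : ℚ[X], PowerSeries.map (algebraMap ℚ ℂ) (Lam.germ (zz S u c z) p) =
      gm (zc S u c z) (p.map (algebraMap ℚ ℂ)) := fun p => Map.map_germ _ _ _
  rw [colR, map_sub, map_mul, map_mul, h1, h1, FR, psiC, tau, TR_mapC]
  ring

lemma colQ_eq_FQ (Q : ℚ[X]) (z : St S u c) :
    colQ S u c ℂ Q z = FQ S u c (Q.map (algebraMap ℚ ℂ)) z := by
  have h1 : ∀ p : ℚ[X], PowerSeries.map (algebraMap ℚ ℂ) (Lam.germ (zz S u c z) p) =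
      gm (zc S u c z) (p.map (algebraMap ℚ ℂ)) := fun p => Map.map_germ _ _ _
  rw [colQ, map_mul, h1, FQ]

lemma lam_toC (p : ℚ[X]) (F : St S u c → PowerSeries ℂ) :
    Lam.lam (zz S u c) (mm S u c) p F =
      Lam.lam (zc S u c) (mm S u c) (p.map (algebraMap ℚ ℂ)) F := by
  have h := Map.map_lam_alg (algebraMap ℚ ℂ) (zz S u c) (mm S u c) (A := ℂ) (A' := ℂ)
    (RingHom.id ℂ) (fun x => rfl) p F
  simp only [RingHom.id_apply, PowerSeries.map_id] at h
  exact h

theorem bridge (hk : S.q + S.g ≤ S.rows) (r : D.Col S u → D.Row) (h : Adm S u c r) :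
    ∃ e : D.Col S u ⊕ Fin c ≃ Rw S u c,
      |aeval GG (Minor S u r)| = |((kap S u * VV S u c e : ℚ) : ℝ)| *
        ‖(Matrix.of fun i j : RC S u c => colO (BR S u c) (BQ S u c)
          (fun t => BU S u c (e (Sum.inr t))) (Fin.elim0 : Fin 0 → ℂ) (X ^ (pos S u c i)) j).det‖ := by
  obtain ⟨e, s, -, he⟩ := minor_eq (A := ℂ) hk (GG : ℂ) r h (p := fun k => X ^ k)
    (bR := fun k => X ^ k) (bQ := fun k => X ^ k) Lam.monicFam_X Lam.monicFam_X Lam.monicFam_X
  refine ⟨e, ?_⟩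
  have h1 : aeval (GG : ℂ) (Minor S u r) = ((aeval GG (Minor S u r) : ℝ) : ℂ) :=
    Polynomial.aeval_algebraMap_apply ℂ GG _
  have hM : resMat S u c (GG : ℂ) (fun k => X ^ k) (fun l => rho S u * X ^ l) (fun k => X ^ k)
      (fun t => e (Sum.inr t)) = Matrix.of fun i j : RC S u c => colO (BR S u c) (BQ S u c)
          (fun t => BU S u c (e (Sum.inr t))) (Fin.elim0 : Fin 0 → ℂ) (X ^ (pos S u c i)) j := by
    ext i j
    rw [resMat, Matrix.of_apply, Matrix.of_apply, lam_toC, Polynomial.map_pow, Polynomial.map_X]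
    rcases j with l | (l | t)
    · simp only [colO, Sum.elim_inl, BR_apply, lamR]
      congr 1
      funext z
      simp only [resCol, colR_eq_FR, Polynomial.map_mul, Polynomial.map_pow, Polynomial.map_X,
        Border410.om, Finset.univ_eq_empty, Finset.prod_empty, one_mul, rhoC]
    · simp only [colO, Sum.elim_inl, Sum.elim_inr, BQ_apply, lamQ]
      congr 1
      funext z
      simp only [resCol, colQ_eq_FQ, Polynomial.map_pow, Polynomial.map_X]
    · simp only [colO, Sum.elim_inr, BU_apply]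
      exact Lam.lam_unitCol _ _ _ _
  rw [hM] at he
  have h2 := congrArg norm he
  rw [h1, norm_mul, norm_mul] at h2
  have h3 : ‖(((s : ℤ) : ℂ))‖ = 1 := by
    rcases Int.units_eq_one_or s with hs | hs <;> simp [hs]
  have h4 : ‖algebraMap ℚ ℂ (kap S u * VV S u c e)‖ = |((kap S u * VV S u c e : ℚ) : ℝ)| := by
    rw [eq_ratCast, ← Complex.ofReal_ratCast, Complex.norm_real, Real.norm_eq_abs]
  rw [h3, one_mul, h4, Complex.norm_real, Real.norm_eq_abs] at h2
  exact h2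

/-- **The packaged plain two-species bound.** -/
theorem plain_bound (hk : S.q + S.g ≤ S.rows) (r : D.Col S u → D.Row) (h : Adm S u c r)
    {σ : Type} [Fintype σ] [DecidableEq σ]
    (W : Fin (S.k * u + S.g * u + c) → ℂ) (Z : Fin (S.k * u) → ℂ) (Y : Fin (S.g * u) → ℂ)
    (hW : Function.Injective W) (hZ : Function.Injective Z) (hY : Function.Injective Y)
    (U : σ → Fin (S.k * u + S.g * u + c) → ℂ) (VR : σ → Fin (S.k * u) → ℂ)
    (VQ : σ → Fin (S.g * u) → ℂ) (B LR LQ LU : ℝ) (μ ν : σ → ℝ)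
    (hB : 0 ≤ B) (hLR : 0 ≤ LR) (hLQ : 0 ≤ LQ) (hLU : 0 ≤ LU)
    (hμ : ∀ s, 0 < μ s) (hν : ∀ s, 0 ≤ ν s)
    (hR : ∀ i j, ‖BR S u c (lg W i) (lg Z j) - ∑ s, U s i * VR s j‖ ≤ B * LR)
    (hQ : ∀ i y, ‖BQ S u c (lg W i) (lg Y y) - ∑ s, U s i * VQ s y‖ ≤ B * LQ)
    (hu : ∀ (J : Rw S u c) i, ‖BU S u c J (lg W i)‖ ≤ B * LU)
    (hU : ∀ s i, ‖U s i‖ ≤ B * μ s)
    (hVR : ∀ s j, ‖VR s j‖ ≤ ν s * LR) (hVQ : ∀ s y, ‖VQ s y‖ ≤ ν s * LQ) :
    ∃ e : D.Col S u ⊕ Fin c ≃ Rw S u c,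
      |aeval GG (Minor S u r)| * (‖(Matrix.vandermonde W).det‖ *
        (‖(Matrix.vandermonde Z).det‖ * ‖(Matrix.vandermonde Y).det‖)) ≤
      |((kap S u * VV S u c e : ℚ) : ℝ)| *
        ((S.k * u + S.g * u + c + Fintype.card σ).factorial *
          (B ^ (S.k * u + S.g * u + c) * (LR ^ (S.k * u) * (LQ ^ (S.g * u) * LU ^ c)) *
            ∏ s, max 1 (μ s * ν s))) := by
  obtain ⟨e, he⟩ := bridge hk r h
  refine ⟨e, ?_⟩
  have hb := border_bound (κ := 0) (a := S.k * u) (k := S.g * u) (n := S.k * u + S.g * u + c)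
    (c := c) (σ := σ) (BR S u c) (BQ S u c) (fun t => BU S u c (e (Sum.inr t)))
    (Fin.elim0 : Fin 0 → ℂ) (lg W) (lg_natDegree_lt W)
    (fun j => lg Z (finCongr (zero_add _) j)) (fun j => by
      have := lg_natDegree_lt Z (finCongr (zero_add _) j); omega)
    (lg Y) (lg_natDegree_lt Y) (fun _ => 0) (fun _ => by
      rw [degree_zero]; exact WithBot.bot_lt_coe _)
    (rcEquiv S u c).symm U (fun s j => VR s (finCongr (zero_add _) j)) VQ
    (fun _ => B) (fun _ => 0) (fun _ => LR) (fun _ => LQ) (fun _ => LU) μ ν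
    (fun _ => hB) (fun _ => le_rfl) (fun _ => hLR) (fun _ => hLQ) (fun _ => hLU) hμ hν
    (fun i j => hR i _) (fun i y => by rw [map_zero, add_zero]; exact hQ i y) (fun i o => hu _ i) hU
    (fun s j => hVR s _) hVQ (fun l => Fin.elim0 l) (fun l => Fin.elim0 l)
  have hZd : ‖(coefM fun j => lg Z (finCongr (zero_add (S.k * u)) j)).det‖ =
      ‖(Matrix.vandermonde Z).det‖ := by
    rw [← norm_det_coefM_lg Z hZ, ← Matrix.det_submatrix_equiv_self (finCongr (zero_add (S.k * u)))]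
    rfl
  rw [norm_det_coefM_lg W hW, hZd, norm_det_coefM_lg Y hY] at hb
  have hV0 : ‖(Matrix.vandermonde (Fin.elim0 : Fin 0 → ℂ)).det‖ = 1 := by
    rw [Matrix.det_isEmpty, norm_one]
  have hV0' : (Matrix.of fun i j => colO (BR S u c) (BQ S u c)
      (fun t => BU S u c (e (Sum.inr t))) (Fin.elim0 : Fin 0 → ℂ)
      (X ^ (((rcEquiv S u c).symm i : Fin (nRC S u c)) : ℕ)) j) =
      (Matrix.of fun i j : RC S u c => colO (BR S u c) (BQ S u c)
      (fun t => BU S u c (e (Sum.inr t))) (Fin.elim0 : Fin 0 → ℂ) (X ^ (pos S u c i)) j) := rfl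
  rw [hV0, hV0', one_mul] at hb
  set D := ‖(Matrix.of fun i j : RC S u c => colO (BR S u c) (BQ S u c)
      (fun t => BU S u c (e (Sum.inr t))) (Fin.elim0 : Fin 0 → ℂ) (X ^ (pos S u c i)) j).det‖
    with hD
  simp only [Finset.prod_const, Finset.card_univ, Fintype.card_fin, zero_add,
    Finset.univ_eq_empty, Finset.card_empty, pow_zero, one_mul] at hb
  rw [he]
  have hk0 : 0 ≤ |((kap S u * VV S u c e : ℚ) : ℝ)| := abs_nonneg _
  calc |((kap S u * VV S u c e : ℚ) : ℝ)| * D * (‖(Matrix.vandermonde W).det‖ *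
        (‖(Matrix.vandermonde Z).det‖ * ‖(Matrix.vandermonde Y).det‖))
      = |((kap S u * VV S u c e : ℚ) : ℝ)| * (‖(Matrix.vandermonde W).det‖ *
        (‖(Matrix.vandermonde Z).det‖ * ‖(Matrix.vandermonde Y).det‖) * D) := by ring
    _ ≤ _ := mul_le_mul_of_nonneg_left hb hk0

end Crest.Agent.R006.P3
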