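import Crest.Agent.R006.Cert_112

/-!
Helper530: leaf (B2) of the P3 bridge (650): the cells of `Cert_112` (affine majorants) bound the
sum of the slot levels: `slotSum ≤ v² · slot2/(2D) + C v`.
-/

set_option autoImplicit false

namespace Crest.Agent.R006.Cells530

open Finset Crest.Agent.R006.Cert Crest.Agent.R006.D

/-- arithmetic progression -/
theorem ap_sum (A B : ℝ) (n : ℕ) :
    ∑ j ∈ range n, (A + B * j) = n * A + B * (n * ((n : ℝ) - 1) / 2) := by
  induction n with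
  | zero => simp
  | succ n ih => rw [Finset.sum_range_succ, ih]; push_cast; ring

/-- the constant of one cell -/
noncomputable def cst (a b α β : ℝ) : ℝ := (α + β * ((a + b) / 2)) + (b - a + 1) * |β| / 2

theorem cst_nonneg {a b α β : ℝ} (hab : a ≤ b) (h0 : ∀ x, a ≤ x → x ≤ b → 0 ≤ α + β * x) :
    0 ≤ cst a b α β := by
  unfold cst
  have h1 := h0 ((a + b) / 2) (by linarith) (by linarith)
  have h2 : 0 ≤ (b - a + 1) * |β| / 2 := by
    have : 0 ≤ b - a + 1 := by linarith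
    positivity
  linarith

/-- one cell with an affine nonnegative majorant -/
theorem cell_sum (α β θ v : ℝ) (hv : 1 ≤ v) (a b : ℝ) (hab : a ≤ b)
    (h0 : ∀ x, a ≤ x → x ≤ b → 0 ≤ α + β * x) (F : Finset ℤ)
    (hF : ∀ i ∈ F, a ≤ ((i : ℝ) + θ) / v ∧ ((i : ℝ) + θ) / v ≤ b) :
    ∑ i ∈ F, v * (α + β * (((i : ℝ) + θ) / v))
      ≤ v ^ 2 * ((b - a) * (α + β * ((a + b) / 2))) + v * cst a b α β := by
  have hv0 : 0 < v := by linarith
  have hM : 0 ≤ α + β * ((a + b) / 2) := h0 _ (by linarith) (by linarith)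
  set p : ℤ := ⌈a * v - θ⌉ with hp
  set q : ℤ := ⌊b * v - θ⌋ with hq
  set n : ℕ := (q + 1 - p).toNat with hn
  have hp1 : a * v - θ ≤ (p : ℝ) := Int.le_ceil _
  have hp2 : (p : ℝ) < a * v - θ + 1 := Int.ceil_lt_add_one _
  have hq1 : (q : ℝ) ≤ b * v - θ := Int.floor_le _
  have hq2 : b * v - θ < (q : ℝ) + 1 := Int.lt_floor_add_one _
  have hin : ∀ i ∈ F, p ≤ i ∧ i ≤ q := by
    intro i hi
    obtain ⟨h1, h2⟩ := hF i hi
    rw [le_div_iff₀ hv0] at h1
    rw [div_le_iff₀ hv0] at h2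
    exact ⟨Int.ceil_le.2 (by linarith), Int.le_floor.2 (by linarith)⟩
  have hR : 0 ≤ v ^ 2 * ((b - a) * (α + β * ((a + b) / 2))) + v * cst a b α β := by
    have h1 : 0 ≤ (b - a) * (α + β * ((a + b) / 2)) := mul_nonneg (by linarith) hM
    have h2 := cst_nonneg hab h0
    positivity
  rcases Nat.eq_zero_or_pos n with hn0 | hn0
  · have hlt : q < p := by
      by_contra hcon
      push Not at hcon
      omega
    have hFe : F = ∅ := by
      apply Finset.eq_empty_of_forall_notMem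
      intro i hi
      obtain ⟨h1, h2⟩ := hin i hi
      omega
    rw [hFe, Finset.sum_empty]
    exact hR
  have hpq : p ≤ q := by omega
  have hnz : (n : ℤ) = q + 1 - p := by omega
  have hnr : (n : ℝ) = (q : ℝ) + 1 - p := by exact_mod_cast hnz
  have hinj : Function.Injective (fun j : ℕ => p + (j : ℤ)) := by
    intro x y hxy
    simpa using hxy
  have hsub : F ⊆ (range n).image (fun j : ℕ => p + (j : ℤ)) := by
    intro i hi
    obtain ⟨h1, h2⟩ := hin i hi
    rw [Finset.mem_image]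
    refine ⟨(i - p).toNat, ?_, ?_⟩
    · rw [Finset.mem_range]; omega
    · omega
  have hnn : ∀ i ∈ (range n).image (fun j : ℕ => p + (j : ℤ)), i ∉ F →
      0 ≤ v * (α + β * (((i : ℝ) + θ) / v)) := by
    intro i hi _
    rw [Finset.mem_image] at hi
    obtain ⟨j, hj, rfl⟩ := hi
    rw [Finset.mem_range] at hj
    have hj' : (j : ℝ) + 1 ≤ n := by exact_mod_cast hj
    have hj0 : (0 : ℝ) ≤ j := Nat.cast_nonneg j
    apply mul_nonneg hv0.le
    apply h0
    · rw [le_div_iff₀ hv0]; push_cast; linarith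
    · rw [div_le_iff₀ hv0]; push_cast; linarith
  refine (Finset.sum_le_sum_of_subset_of_nonneg hsub hnn).trans ?_
  rw [Finset.sum_image (fun x _ y _ h => hinj h)]
  have hterm : ∀ j ∈ range n, v * (α + β * ((((p + (j : ℤ) : ℤ) : ℝ) + θ) / v))
      = (v * α + β * ((p : ℝ) + θ)) + β * j := by
    intro j _
    push_cast
    field_simp
    ring
  rw [Finset.sum_congr rfl hterm, ap_sum]
  have h1 : (n : ℝ) * (v * α + β * ((p : ℝ) + θ)) + β * (n * ((n : ℝ) - 1) / 2)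
      = n * (v * (α + β * ((a + b) / 2)) + β * (((p : ℝ) + θ - a * v) - (b * v - θ - q)) / 2) := by
    rw [hnr]; ring
  rw [h1]
  have h2 : β * (((p : ℝ) + θ - a * v) - (b * v - θ - q)) / 2 ≤ |β| / 2 := by
    have h3 : |((p : ℝ) + θ - a * v) - (b * v - θ - q)| ≤ 1 := by
      rw [abs_le]; constructor <;> linarith
    have h4 : β * (((p : ℝ) + θ - a * v) - (b * v - θ - q)) ≤ |β| * 1 := by
      calc β * (((p : ℝ) + θ - a * v) - (b * v - θ - q))
          ≤ |β * (((p : ℝ) + θ - a * v) - (b * v - θ - q))| := le_abs_self _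
        _ = |β| * |((p : ℝ) + θ - a * v) - (b * v - θ - q)| := abs_mul _ _
        _ ≤ |β| * 1 := mul_le_mul_of_nonneg_left h3 (abs_nonneg _)
    linarith
  have hnle : (n : ℝ) ≤ (b - a) * v + 1 := by rw [hnr]; linarith
  have hn0' : (0 : ℝ) ≤ n := Nat.cast_nonneg n
  have h5 : v * (α + β * ((a + b) / 2)) + β * (((p : ℝ) + θ - a * v) - (b * v - θ - q)) / 2
      ≤ v * (α + β * ((a + b) / 2)) + |β| / 2 := by linarith
  have h6 : 0 ≤ v * (α + β * ((a + b) / 2)) + |β| / 2 := by positivity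
  calc (n : ℝ) * (v * (α + β * ((a + b) / 2)) +
        β * (((p : ℝ) + θ - a * v) - (b * v - θ - q)) / 2)
      ≤ n * (v * (α + β * ((a + b) / 2)) + |β| / 2) := mul_le_mul_of_nonneg_left h5 hn0'
    _ ≤ ((b - a) * v + 1) * (v * (α + β * ((a + b) / 2)) + |β| / 2) :=
        mul_le_mul_of_nonneg_right hnle h6
    _ = v ^ 2 * ((b - a) * (α + β * ((a + b) / 2)))
        + v * ((α + β * ((a + b) / 2)) + (b - a) * |β| / 2) + |β| / 2 := by ring
    _ ≤ v ^ 2 * ((b - a) * (α + β * ((a + b) / 2))) + v * cst a b α β := by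
        unfold cst
        have : |β| / 2 ≤ v * (|β| / 2) := by
          have := abs_nonneg β
          nlinarith
        nlinarith

/-! ### chains of cells -/

theorem chain_left : ∀ (L : List SCell) (X Y : ℤ), chain X Y L = true →
    (∀ c ∈ L, c.l < c.r) → ∀ x : ℝ, (X : ℝ) ≤ x → x < Y → ∃ c ∈ L, (c.l : ℝ) ≤ x ∧ x < c.r
  | [], X, Y, h, _ => by
    intro x h1 h2
    simp only [chain, decide_eq_true_eq] at h
    subst h
    linarith
  | c :: L, X, Y, h, hlt => by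
    intro x h1 h2
    simp only [chain, Bool.and_eq_true, decide_eq_true_eq] at h
    by_cases hx : x < c.r
    · exact ⟨c, List.mem_cons_self, by rw [h.1]; exact h1, hx⟩
    · push Not at hx
      obtain ⟨c', hc', h3⟩ := chain_left L c.r Y h.2
        (fun c hc => hlt c (List.mem_cons_of_mem _ hc)) x hx h2
      exact ⟨c', List.mem_cons_of_mem _ hc', h3⟩

theorem chain_right : ∀ (L : List SCell) (X Y : ℤ), chain X Y L = true →
    (∀ c ∈ L, c.l < c.r) → ∀ x : ℝ, (X : ℝ) < x → x ≤ Y → ∃ c ∈ L, (c.l : ℝ) < x ∧ x ≤ c.r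
  | [], X, Y, h, _ => by
    intro x h1 h2
    simp only [chain, decide_eq_true_eq] at h
    subst h
    linarith
  | c :: L, X, Y, h, hlt => by
    intro x h1 h2
    simp only [chain, Bool.and_eq_true, decide_eq_true_eq] at h
    by_cases hx : x ≤ c.r
    · exact ⟨c, List.mem_cons_self, by rw [h.1]; exact h1, hx⟩
    · push Not at hx
      obtain ⟨c', hc', h3⟩ := chain_right L c.r Y h.2
        (fun c hc => hlt c (List.mem_cons_of_mem _ hc)) x hx h2
      exact ⟨c', List.mem_cons_of_mem _ hc', h3⟩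

/-- a window `[lo, hi]` whose ends are break points -/
theorem window_cover (L : List SCell) (X Y lo hi : ℤ) (h : chain X Y L = true)
    (hlt : ∀ c ∈ L, c.l < c.r) (hlo : ∀ c ∈ L, lo ≤ c.l ∨ c.r ≤ lo)
    (hhi : ∀ c ∈ L, hi ≤ c.l ∨ c.r ≤ hi) (h1 : X ≤ lo) (h2 : hi ≤ Y) (h3 : lo < hi)
    (x : ℝ) (hx1 : (lo : ℝ) ≤ x) (hx2 : x ≤ hi) :
    ∃ c ∈ L, (lo ≤ c.l ∧ c.r ≤ hi) ∧ ((c.l : ℝ) ≤ x ∧ x ≤ c.r) := by
  have hlohi : (lo : ℝ) < hi := by exact_mod_cast h3
  have hX : (X : ℝ) ≤ lo := by exact_mod_cast h1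
  have hY : (hi : ℝ) ≤ Y := by exact_mod_cast h2
  rcases lt_or_eq_of_le hx2 with hlt2 | heq
  · obtain ⟨c, hc, ha, hb⟩ := chain_left L X Y h hlt x (hX.trans hx1) (hlt2.trans_le hY)
    refine ⟨c, hc, ⟨?_, ?_⟩, ha, hb.le⟩
    · rcases hlo c hc with hh | hh
      · exact hh
      · exfalso
        have : (c.r : ℝ) ≤ lo := by exact_mod_cast hh
        linarith
    · rcases hhi c hc with hh | hh
      · exfalso
        have : (hi : ℝ) ≤ c.l := by exact_mod_cast hh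
        linarith
      · exact hh
  · subst heq
    obtain ⟨c, hc, ha, hb⟩ := chain_right L X Y h hlt (hi : ℝ) (by linarith) hY
    refine ⟨c, hc, ⟨?_, ?_⟩, ha.le, hb⟩
    · rcases hlo c hc with hh | hh
      · exact hh
      · exfalso
        have : (c.r : ℝ) ≤ lo := by exact_mod_cast hh
        linarith
    · rcases hhi c hc with hh | hh
      · exfalso
        have : (hi : ℝ) ≤ c.l := by exact_mod_cast hh
        linarith
      · exact hh

/-- integral of the majorant of a cell -/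
noncomputable def ival (D : ℕ) (c : SCell) : ℝ :=
  (((c.r - c.l) * (2 * c.al + c.be * (c.l + c.r)) : ℤ) : ℝ) / (2 * D)

noncomputable def cval (D : ℕ) (c : SCell) : ℝ :=
  cst c.l c.r (c.al / D) (c.be / D)

theorem window_sum (D : ℕ) (hD : 0 < D) (L : List SCell) (X Y lo hi : ℤ)
    (h : chain X Y L = true)
    (hlt : ∀ c ∈ L, c.l < c.r) (hlo : ∀ c ∈ L, lo ≤ c.l ∨ c.r ≤ lo)
    (hhi : ∀ c ∈ L, hi ≤ c.l ∨ c.r ≤ hi) (h1 : X ≤ lo) (h2 : hi ≤ Y) (h3 : lo < hi)
    (G : ℝ → ℝ) (hG : ∀ c ∈ L, ∀ x ∈ Set.Icc (c.l : ℝ) c.r, G x ≤ c.val D x)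
    (h0 : ∀ c ∈ L, ∀ x ∈ Set.Icc (c.l : ℝ) c.r, 0 ≤ c.val D x)
    (θ v : ℝ) (hv : 1 ≤ v) (F : Finset ℤ)
    (hF : ∀ i ∈ F, (lo : ℝ) ≤ ((i : ℝ) + θ) / v ∧ ((i : ℝ) + θ) / v ≤ hi) :
    ∑ i ∈ F, max 0 (v * G (((i : ℝ) + θ) / v))
      ≤ (L.map fun c => if lo ≤ c.l ∧ c.r ≤ hi then v ^ 2 * ival D c + v * cval D c else 0).sum
      := by
  classical
  have hv0 : 0 < v := by linarith
  have hD' : (D : ℝ) ≠ 0 := by positivity
  have key : ∀ i ∈ F, max 0 (v * G (((i : ℝ) + θ) / v))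
      ≤ (L.map fun c => if (lo ≤ c.l ∧ c.r ≤ hi) ∧
          ((c.l : ℝ) ≤ ((i : ℝ) + θ) / v ∧ ((i : ℝ) + θ) / v ≤ c.r)
          then v * c.val D (((i : ℝ) + θ) / v) else 0).sum := by
    intro i hi'
    have hnn : ∀ y ∈ (L.map fun c => if (lo ≤ c.l ∧ c.r ≤ hi) ∧
          ((c.l : ℝ) ≤ ((i : ℝ) + θ) / v ∧ ((i : ℝ) + θ) / v ≤ c.r)
          then v * c.val D (((i : ℝ) + θ) / v) else 0), 0 ≤ y := by
      intro y hy
      rw [List.mem_map] at hy
      obtain ⟨c, hc, rfl⟩ := hy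
      split_ifs with hcond
      · exact mul_nonneg hv0.le (h0 c hc _ ⟨hcond.2.1, hcond.2.2⟩)
      · exact le_rfl
    apply max_le
    · exact List.sum_nonneg hnn
    · obtain ⟨c, hc, hw, hx⟩ := window_cover L X Y lo hi h hlt hlo hhi h1 h2 h3
        (((i : ℝ) + θ) / v) (hF i hi').1 (hF i hi').2
      have h4 : v * G (((i : ℝ) + θ) / v) ≤ v * c.val D (((i : ℝ) + θ) / v) :=
        mul_le_mul_of_nonneg_left (hG c hc _ ⟨hx.1, hx.2⟩) hv0.le
      refine h4.trans ?_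
      exact List.single_le_sum hnn _ (List.mem_map.2 ⟨c, hc, by rw [if_pos ⟨hw, hx⟩]⟩)
  refine (Finset.sum_le_sum key).trans ?_
  clear key hG hlo hhi h
  induction L with
  | nil => simp
  | cons c L ih =>
    have ih' := ih (fun c hc => hlt c (List.mem_cons_of_mem _ hc))
      (fun c hc => h0 c (List.mem_cons_of_mem _ hc))
    simp only [List.map_cons, List.sum_cons]
    rw [Finset.sum_add_distrib]
    refine add_le_add ?_ ih'
    by_cases hw : lo ≤ c.l ∧ c.r ≤ hi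
    · rw [if_pos hw]
      simp only [hw, true_and, and_self]
      rw [← Finset.sum_filter]
      have hcl : (c.l : ℝ) ≤ c.r := by exact_mod_cast (hlt c List.mem_cons_self).le
      have hc0 := h0 c List.mem_cons_self
      have h5 := cell_sum ((c.al : ℝ) / D) ((c.be : ℝ) / D) θ v hv c.l c.r hcl
        (by
          intro x hx1 hx2
          have := hc0 x ⟨hx1, hx2⟩
          unfold SCell.val at this
          have e : ((c.al : ℝ) / D) + ((c.be : ℝ) / D) * x = ((c.al : ℝ) + c.be * x) / D := by ring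
          rw [e]; exact this)
        (F.filter fun i : ℤ => (c.l : ℝ) ≤ ((i : ℝ) + θ) / v ∧ ((i : ℝ) + θ) / v ≤ c.r)
        (by
          intro i hi
          rw [Finset.mem_filter] at hi
          exact hi.2)
      have e1 : ∀ i : ℤ, v * c.val D (((i : ℝ) + θ) / v)
          = v * ((c.al : ℝ) / D + (c.be : ℝ) / D * (((i : ℝ) + θ) / v)) := by
        intro i
        unfold SCell.val
        ring
      simp only [e1]
      refine h5.trans (le_of_eq ?_)
      unfold ival cval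
      push_cast
      field_simp
    · rw [if_neg hw]
      apply le_of_eq
      apply Finset.sum_eq_zero
      intro i _
      rw [if_neg (fun hh => hw hh.1)]

/-- the same for an index map `e : ℕ → ℤ` and an arbitrary window (empty if `hi ≤ lo`) -/
theorem window_sum' (D : ℕ) (hD : 0 < D) (L : List SCell) (X Y lo hi : ℤ)
    (h : chain X Y L = true)
    (hlt : ∀ c ∈ L, c.l < c.r) (hlo : ∀ c ∈ L, lo ≤ c.l ∨ c.r ≤ lo)
    (hhi : ∀ c ∈ L, hi ≤ c.l ∨ c.r ≤ hi) (h1 : X ≤ lo) (h2 : hi ≤ Y)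
    (G : ℝ → ℝ) (hG : ∀ c ∈ L, ∀ x ∈ Set.Icc (c.l : ℝ) c.r, G x ≤ c.val D x)
    (h0 : ∀ c ∈ L, ∀ x ∈ Set.Icc (c.l : ℝ) c.r, 0 ≤ c.val D x)
    (θ v : ℝ) (hv : 1 ≤ v) (F : Finset ℕ) (e : ℕ → ℤ) (he : Function.Injective e)
    (hne : F.Nonempty → lo < hi)
    (hF : ∀ i ∈ F, (lo : ℝ) ≤ ((e i : ℝ) + θ) / v ∧ ((e i : ℝ) + θ) / v ≤ hi) :
    ∑ i ∈ F, max 0 (v * G (((e i : ℝ) + θ) / v))
      ≤ (L.map fun c => if lo ≤ c.l ∧ c.r ≤ hi then v ^ 2 * ival D c + v * cval D c else 0).sum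
      := by
  classical
  have hv0 : 0 < v := by linarith
  by_cases hFn : F.Nonempty
  · have := window_sum D hD L X Y lo hi h hlt hlo hhi h1 h2 (hne hFn) G hG h0 θ v hv
      (F.image e) (by
        intro i hi
        rw [Finset.mem_image] at hi
        obtain ⟨j, hj, rfl⟩ := hi
        exact hF j hj)
    rwa [Finset.sum_image (fun x _ y _ hxy => he hxy)] at this
  · rw [Finset.not_nonempty_iff_eq_empty] at hFn
    rw [hFn, Finset.sum_empty]
    apply List.sum_nonneg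
    intro y hy
    rw [List.mem_map] at hy
    obtain ⟨c, hc, rfl⟩ := hy
    split_ifs
    · have hcl : (c.l : ℝ) ≤ c.r := by exact_mod_cast (hlt c hc).le
      have hc0 : ∀ x, (c.l : ℝ) ≤ x → x ≤ c.r → 0 ≤ (c.al : ℝ) / D + (c.be : ℝ) / D * x := by
        intro x hx1 hx2
        have := h0 c hc x ⟨hx1, hx2⟩
        unfold SCell.val at this
        have e : ((c.al : ℝ) / D) + ((c.be : ℝ) / D) * x = ((c.al : ℝ) + c.be * x) / D := by ring
        rw [e]; exact this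
      have hM : 0 ≤ (c.al : ℝ) / D + (c.be : ℝ) / D * (((c.l : ℝ) + c.r) / 2) :=
        hc0 _ (by linarith) (by linarith)
      have h5 : 0 ≤ ival D c := by
        have e2 : ival D c = ((c.r : ℝ) - c.l) *
            ((c.al : ℝ) / D + (c.be : ℝ) / D * (((c.l : ℝ) + c.r) / 2)) := by
          have hD' : (D : ℝ) ≠ 0 := by positivity
          unfold ival
          push_cast
          field_simp
        rw [e2]
        exact mul_nonneg (by linarith) hM
      have h6 : 0 ≤ cval D c := cst_nonneg hcl hc0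
      positivity
    · exact le_rfl

/-- the sum of the slot levels -/
noncomputable def slotSum (S : Shape) (K : ℕ) (G : ℝ → ℝ) (v : ℕ) : ℝ :=
  3 * ∑ l ∈ range (K * S.w * v), max 0 ((v : ℝ) * G (-(((l : ℝ) + 1 / 2) / v)))
  + ∑ i : Fin 3, ∑ l ∈ range (K * (![S.h1, S.h2, S.h3] i) * v),
      max 0 ((v : ℝ) * G (((l : ℝ) + 1 / 2) / v))
  + ∑ i : Fin 3, ∑ m ∈ Ioc (K * S.w * v) (K * (![S.e1, S.e2, S.e3] i) * v),
      max 0 ((v : ℝ) * G (-((m : ℝ) / v)))

theorem listSum_mul_add (L : List SCell) (f g : SCell → ℝ) (a b : ℝ) :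
    (L.map fun c => a * f c + b * g c).sum = a * (L.map f).sum + b * (L.map g).sum := by
  induction L with
  | nil => simp
  | cons c L ih => simp only [List.map_cons, List.sum_cons, ih]; ring

theorem listSum_congr (L : List SCell) (f g : SCell → ℝ) (h : ∀ c ∈ L, f c = g c) :
    (L.map f).sum = (L.map g).sum := by
  rw [List.map_congr_left h]

theorem listSum_add (L : List SCell) (f g : SCell → ℝ) :
    (L.map fun c => f c + g c).sum = (L.map f).sum + (L.map g).sum := by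
  induction L with
  | nil => simp
  | cons c L ih => simp only [List.map_cons, List.sum_cons, ih]; ring

theorem listSum_mul (L : List SCell) (f : SCell → ℝ) (a : ℝ) :
    (L.map fun c => a * f c).sum = a * (L.map f).sum := by
  induction L with
  | nil => simp
  | cons c L ih => simp only [List.map_cons, List.sum_cons, ih]; ring

/-- the multiplicity of a cell counted by the windows -/
noncomputable def capW (S : Shape) (K : ℕ) (c : SCell) : ℝ :=
  3 * (if -((K : ℤ) * S.w) ≤ c.l ∧ c.r ≤ 0 then 1 else 0)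
  + ∑ i : Fin 3, (if (0 : ℤ) ≤ c.l ∧ c.r ≤ (K : ℤ) * (![S.h1, S.h2, S.h3] i : ℕ) then 1 else 0)
  + ∑ i : Fin 3, (if -((K : ℤ) * (![S.e1, S.e2, S.e3] i : ℕ)) ≤ c.l ∧
      c.r ≤ -((K : ℤ) * S.w) then 1 else 0)

theorem cap_aux (l r A E1 E2 E3 H1 H2 H3 : ℤ) (hA : 0 ≤ A) (hlt : l < r)
    (hw : -A ≤ l ∨ r ≤ -A) (h0 : 0 ≤ l ∨ r ≤ 0) :
    (3 * (if -A ≤ l ∧ r ≤ 0 then 1 else 0)
      + ((if 0 ≤ l ∧ r ≤ H1 then 1 else 0) + (if 0 ≤ l ∧ r ≤ H2 then 1 else 0)
        + (if 0 ≤ l ∧ r ≤ H3 then 1 else 0))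
      + ((if -E1 ≤ l ∧ r ≤ -A then 1 else 0) + (if -E2 ≤ l ∧ r ≤ -A then 1 else 0)
        + (if -E3 ≤ l ∧ r ≤ -A then 1 else 0)) : ℝ)
    = ((if r ≤ -A then (if -E1 ≤ l then 1 else 0) + (if -E2 ≤ l then 1 else 0) +
          (if -E3 ≤ l then 1 else 0)
        else if r ≤ 0 then 3
        else (if r ≤ H1 then 1 else 0) + (if r ≤ H2 then 1 else 0) +
          (if r ≤ H3 then 1 else 0) : ℤ) : ℝ) := by
  by_cases c1 : r ≤ -A
  · rw [if_pos c1, if_neg (by omega : ¬ (-A ≤ l ∧ r ≤ 0)),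
      if_neg (by omega : ¬ (0 ≤ l ∧ r ≤ H1)), if_neg (by omega : ¬ (0 ≤ l ∧ r ≤ H2)),
      if_neg (by omega : ¬ (0 ≤ l ∧ r ≤ H3))]
    simp only [c1, and_true]
    push_cast
    ring
  · rw [if_neg c1]
    by_cases c2 : r ≤ 0
    · rw [if_pos c2, if_pos (by omega : -A ≤ l ∧ r ≤ 0),
        if_neg (by omega : ¬ (0 ≤ l ∧ r ≤ H1)), if_neg (by omega : ¬ (0 ≤ l ∧ r ≤ H2)),
        if_neg (by omega : ¬ (0 ≤ l ∧ r ≤ H3)),
        if_neg (by omega : ¬ (-E1 ≤ l ∧ r ≤ -A)),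
        if_neg (by omega : ¬ (-E2 ≤ l ∧ r ≤ -A)),
        if_neg (by omega : ¬ (-E3 ≤ l ∧ r ≤ -A))]
      norm_num
    · rw [if_neg c2, if_neg (by omega : ¬ (-A ≤ l ∧ r ≤ 0)),
        if_neg (by omega : ¬ (-E1 ≤ l ∧ r ≤ -A)),
        if_neg (by omega : ¬ (-E2 ≤ l ∧ r ≤ -A)),
        if_neg (by omega : ¬ (-E3 ≤ l ∧ r ≤ -A))]
      have hl0 : 0 ≤ l := by omega
      simp only [hl0, true_and]
      push_cast
      ring

theorem capW_eq (S : Shape) (K : ℕ) (c : SCell) (h : cellOK S K c = true) :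
    capW S K c = (cap S K c : ℝ) := by
  unfold cellOK at h
  simp only [List.all_cons, List.all_nil, Bool.and_eq_true, decide_eq_true_eq, Bool.or_eq_true,
    Bool.and_true] at h
  obtain ⟨hlt, he1, he2, he3, hw, h0, hh1, hh2, hh3⟩ := h
  have hKw : (0 : ℤ) ≤ (K : ℤ) * S.w := by positivity
  unfold capW cap
  simp only [Fin.sum_univ_three, Matrix.cons_val_zero, Matrix.cons_val_one, Matrix.cons_val]
  exact cap_aux c.l c.r _ _ _ _ _ _ _ hKw hlt hw h0

/-- **(B2)**: the slot levels are bounded by the cells of the certificate. -/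
theorem slot_of_cells (S : Shape) (hS : S.Good) (d : Data) (hwf : Cert.wf S d = true) (G : ℝ → ℝ)
    (hG : ∀ c ∈ d.cells, ∀ x ∈ Set.Icc (c.l : ℝ) c.r, G x ≤ c.val d.D x)
    (h0 : ∀ c ∈ d.cells, ∀ x ∈ Set.Icc (c.l : ℝ) c.r, 0 ≤ c.val d.D x) :
    ∃ C : ℝ, ∀ v : ℕ, 1 ≤ v →
      slotSum S d.K G v ≤ (v : ℝ) ^ 2 * ((slot2 S d : ℝ) / (2 * d.D)) + C * v := by
  unfold Cert.wf at hwf
  simp only [Bool.and_eq_true, decide_eq_true_eq] at hwf
  obtain ⟨⟨⟨⟨⟨⟨⟨⟨⟨hK, hD⟩, _⟩, _⟩, _⟩, _⟩, _⟩, _⟩, hcells⟩, hchain⟩ := hwf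
  rw [List.all_eq_true] at hcells
  set L := d.cells with hL
  set K := d.K with hKdef
  have hbrk : ∀ c ∈ L, c.l < c.r ∧ (-((K : ℤ) * S.e1) ≤ c.l ∨ c.r ≤ -((K : ℤ) * S.e1)) ∧
      (-((K : ℤ) * S.e2) ≤ c.l ∨ c.r ≤ -((K : ℤ) * S.e2)) ∧
      (-((K : ℤ) * S.e3) ≤ c.l ∨ c.r ≤ -((K : ℤ) * S.e3)) ∧
      (-((K : ℤ) * S.w) ≤ c.l ∨ c.r ≤ -((K : ℤ) * S.w)) ∧ (0 ≤ c.l ∨ c.r ≤ 0) ∧
      ((K : ℤ) * S.h1 ≤ c.l ∨ c.r ≤ (K : ℤ) * S.h1) ∧
      ((K : ℤ) * S.h2 ≤ c.l ∨ c.r ≤ (K : ℤ) * S.h2) ∧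
      ((K : ℤ) * S.h3 ≤ c.l ∨ c.r ≤ (K : ℤ) * S.h3) := by
    intro c hc
    have h := hcells c hc
    unfold cellOK at h
    simpa only [List.all_cons, List.all_nil, Bool.and_eq_true, decide_eq_true_eq, Bool.or_eq_true,
      Bool.and_true] using h
  have hlt : ∀ c ∈ L, c.l < c.r := fun c hc => (hbrk c hc).1
  have hKz : (0 : ℤ) < K := by exact_mod_cast hK
  -- the chain range
  have hX1 : -((K : ℤ) * max (S.e1 : ℤ) S.w) ≤ -((K : ℤ) * S.w) := by
    have : (K : ℤ) * S.w ≤ (K : ℤ) * max (S.e1 : ℤ) S.w :=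
      mul_le_mul_of_nonneg_left (le_max_right _ _) hKz.le
    linarith
  have hXe : ∀ i : Fin 3, -((K : ℤ) * max (S.e1 : ℤ) S.w)
      ≤ -((K : ℤ) * (![S.e1, S.e2, S.e3] i : ℕ)) := by
    intro i
    have h1 : ((![S.e1, S.e2, S.e3] i : ℕ) : ℤ) ≤ S.e1 := by
      have := hS.e21
      have := hS.e32
      fin_cases i <;> simp <;> omega
    have : (K : ℤ) * (![S.e1, S.e2, S.e3] i : ℕ) ≤ (K : ℤ) * max (S.e1 : ℤ) S.w :=
      mul_le_mul_of_nonneg_left (h1.trans (le_max_left _ _)) hKz.le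
    linarith
  have hYh : ∀ i : Fin 3, (K : ℤ) * (![S.h1, S.h2, S.h3] i : ℕ) ≤ (K : ℤ) * S.h1 := by
    intro i
    have h1 : ((![S.h1, S.h2, S.h3] i : ℕ) : ℤ) ≤ S.h1 := by
      have := hS.h21
      have := hS.h32
      fin_cases i <;> simp <;> omega
    exact mul_le_mul_of_nonneg_left h1 hKz.le
  have hX0 : -((K : ℤ) * max (S.e1 : ℤ) S.w) ≤ 0 := by
    have : 0 ≤ (K : ℤ) * S.w := by positivity
    linarith
  have hY0 : (0 : ℤ) ≤ (K : ℤ) * S.h1 := by positivity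
  refine ⟨(L.map fun c => capW S K c * cval d.D c).sum, ?_⟩
  intro v hv
  have hv1 : (1 : ℝ) ≤ v := by exact_mod_cast hv
  have hv0 : (0 : ℝ) < v := by linarith
  -- w-sites
  have W1 := window_sum' d.D hD L _ _ (-((K : ℤ) * S.w)) 0 hchain hlt
    (fun c hc => (hbrk c hc).2.2.2.2.1) (fun c hc => (hbrk c hc).2.2.2.2.2.1) hX1 hY0 G hG h0
    (1 / 2) v hv1 (range (K * S.w * v)) (fun l => -(l : ℤ) - 1)
    (fun x y hxy => by simp only [sub_left_inj, neg_inj, Nat.cast_inj] at hxy; exact hxy)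
    (by
      rintro ⟨l, hl⟩
      rw [Finset.mem_range] at hl
      have : 0 < K * S.w := by
        rcases Nat.eq_zero_or_pos (K * S.w) with h | h
        · rw [h] at hl; omega
        · exact h
      have : (0 : ℤ) < (K : ℤ) * S.w := by exact_mod_cast this
      linarith)
    (by
      intro l hl
      rw [Finset.mem_range] at hl
      have hl' : (l : ℝ) + 1 ≤ (K : ℝ) * S.w * v := by exact_mod_cast hl
      have hl0 : (0 : ℝ) ≤ l := Nat.cast_nonneg l
      rw [le_div_iff₀ hv0, div_le_iff₀ hv0]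
      push_cast
      constructor <;> linarith)
  have e1 : ∑ l ∈ range (K * S.w * v), max 0 ((v : ℝ) * G (-(((l : ℝ) + 1 / 2) / v)))
      = ∑ l ∈ range (K * S.w * v),
        max 0 ((v : ℝ) * G ((((-(l : ℤ) - 1 : ℤ) : ℝ) + 1 / 2) / v)) := by
    apply Finset.sum_congr rfl
    intro l _
    have : -(((l : ℝ) + 1 / 2) / v) = (((-(l : ℤ) - 1 : ℤ) : ℝ) + 1 / 2) / v := by
      push_cast; ring
    rw [this]
  -- stars
  have H1 : ∀ i : Fin 3, ∑ l ∈ range (K * (![S.h1, S.h2, S.h3] i) * v),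
      max 0 ((v : ℝ) * G (((l : ℝ) + 1 / 2) / v))
      ≤ (L.map fun c => if (0 : ℤ) ≤ c.l ∧ c.r ≤ (K : ℤ) * (![S.h1, S.h2, S.h3] i : ℕ) then
        (v : ℝ) ^ 2 * ival d.D c + v * cval d.D c else 0).sum := by
    intro i
    have := window_sum' d.D hD L _ _ 0 ((K : ℤ) * (![S.h1, S.h2, S.h3] i : ℕ)) hchain hlt
      (fun c hc => (hbrk c hc).2.2.2.2.2.1)
      (fun c hc => by
        have h := hbrk c hc
        fin_cases i
        · exact h.2.2.2.2.2.2.1
        · exact h.2.2.2.2.2.2.2.1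
        · exact h.2.2.2.2.2.2.2.2)
      hX0 (hYh i) G hG h0
      (1 / 2) v hv1 (range (K * (![S.h1, S.h2, S.h3] i) * v)) (fun l => (l : ℤ))
      (fun x y hxy => by simpa using hxy)
      (by
        rintro ⟨l, hl⟩
        rw [Finset.mem_range] at hl
        have : 0 < K * (![S.h1, S.h2, S.h3] i) := by
          rcases Nat.eq_zero_or_pos (K * (![S.h1, S.h2, S.h3] i)) with h | h
          · rw [h] at hl; omega
          · exact h
        exact_mod_cast this)
      (by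
        intro l hl
        rw [Finset.mem_range] at hl
        have hl' : (l : ℝ) + 1 ≤ (K : ℝ) * (![S.h1, S.h2, S.h3] i : ℕ) * v := by exact_mod_cast hl
        have hl0 : (0 : ℝ) ≤ l := Nat.cast_nonneg l
        rw [le_div_iff₀ hv0, div_le_iff₀ hv0]
        push_cast
        constructor <;> linarith)
    simpa only [Int.cast_natCast] using this
  -- nodes
  have E1 : ∀ i : Fin 3, ∑ m ∈ Ioc (K * S.w * v) (K * (![S.e1, S.e2, S.e3] i) * v),
      max 0 ((v : ℝ) * G (-((m : ℝ) / v)))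
      ≤ (L.map fun c => if -((K : ℤ) * (![S.e1, S.e2, S.e3] i : ℕ)) ≤ c.l ∧
        c.r ≤ -((K : ℤ) * S.w) then
        (v : ℝ) ^ 2 * ival d.D c + v * cval d.D c else 0).sum := by
    intro i
    have := window_sum' d.D hD L _ _ (-((K : ℤ) * (![S.e1, S.e2, S.e3] i : ℕ)))
      (-((K : ℤ) * S.w)) hchain hlt
      (fun c hc => by
        have h := hbrk c hc
        fin_cases i
        · exact h.2.1
        · exact h.2.2.1
        · exact h.2.2.2.1)
      (fun c hc => (hbrk c hc).2.2.2.2.1)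
      (hXe i) (by have : 0 ≤ (K : ℤ) * S.w := by positivity
                  linarith) G hG h0
      0 v hv1 (Ioc (K * S.w * v) (K * (![S.e1, S.e2, S.e3] i) * v)) (fun m => -(m : ℤ))
      (fun x y hxy => by simpa using hxy)
      (by
        rintro ⟨m, hm⟩
        rw [Finset.mem_Ioc] at hm
        have h1 : K * S.w * v < K * (![S.e1, S.e2, S.e3] i) * v := lt_of_lt_of_le hm.1 hm.2
        have h2 : K * S.w < K * (![S.e1, S.e2, S.e3] i) := lt_of_mul_lt_mul_right h1 (Nat.zero_le _)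
        have : (K : ℤ) * S.w < (K : ℤ) * (![S.e1, S.e2, S.e3] i : ℕ) := by exact_mod_cast h2
        linarith)
      (by
        intro m hm
        rw [Finset.mem_Ioc] at hm
        have hm1 : (K : ℝ) * S.w * v ≤ m := by exact_mod_cast hm.1.le
        have hm2 : (m : ℝ) ≤ (K : ℝ) * (![S.e1, S.e2, S.e3] i : ℕ) * v := by exact_mod_cast hm.2
        rw [le_div_iff₀ hv0, div_le_iff₀ hv0]
        push_cast
        constructor <;> linarith)
    refine le_trans (le_of_eq ?_) this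
    apply Finset.sum_congr rfl
    intro m _
    have : -((m : ℝ) / v) = (((-(m : ℤ) : ℤ) : ℝ) + 0) / v := by push_cast; ring
    rw [this]
  -- assemble
  have hall : slotSum S K G v ≤ (L.map fun c =>
      (v : ℝ) ^ 2 * (capW S K c * ival d.D c) + v * (capW S K c * cval d.D c)).sum := by
    unfold slotSum
    rw [e1]
    have hs1 := Finset.sum_le_sum (fun i (_ : i ∈ (univ : Finset (Fin 3))) => H1 i)
    have hs2 := Finset.sum_le_sum (fun i (_ : i ∈ (univ : Finset (Fin 3))) => E1 i)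
    refine (add_le_add (add_le_add (mul_le_mul_of_nonneg_left W1 (by norm_num)) hs1) hs2).trans
      (le_of_eq ?_)
    rw [← listSum_mul]
    simp only [Fin.sum_univ_three]
    rw [← listSum_add, ← listSum_add, ← listSum_add, ← listSum_add, ← listSum_add, ← listSum_add]
    apply listSum_congr
    intro c _
    unfold capW
    simp only [Fin.sum_univ_three]
    split_ifs <;> ring
  refine hall.trans (le_of_eq ?_)
  rw [listSum_mul_add]
  have h7 : (L.map fun c => capW S K c * ival d.D c).sum = (slot2 S d : ℝ) / (2 * d.D) := by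
    unfold slot2
    rw [← hL, ← hKdef]
    have h8 : ∀ c ∈ L, capW S K c * ival d.D c = (1 / (2 * (d.D : ℝ))) *
        ((cap S K c * ((c.r - c.l) * (2 * c.al + c.be * (c.l + c.r))) : ℤ) : ℝ) := by
      intro c hc
      rw [capW_eq S K c (hcells c hc)]
      unfold ival
      push_cast
      ring
    rw [listSum_congr L _ _ h8, listSum_mul]
    rw [Int.cast_list_sum, List.map_map]
    simp only [Function.comp_def]
    ring
  rw [h7]
  ring

/-- the slot level of a certificate -/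
noncomputable def GG0 (S : Shape) (d : Data) (x : ℝ) : ℝ :=
  max (PhiR S d (x : ℂ) - (d.lR : ℝ) / d.D) (PhiQ S d (x : ℂ) - (d.lQ : ℝ) / d.D)

/-- **(B2)** for `Cert.OK`. -/
theorem slot_of_OK (S : Shape) (hS : S.Good) (d : Data) (h : OK S d) :
    ∃ C : ℝ, ∀ v : ℕ, 1 ≤ v →
      slotSum S d.K (GG0 S d) v ≤ (v : ℝ) ^ 2 * ((slot2 S d : ℝ) / (2 * d.D)) + C * v :=
  slot_of_cells S hS d h.wf (GG0 S d)
    (fun c hc x hx => max_le (h.cellR c hc x hx) (h.cellQ c hc x hx)) h.cell0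

/-- the number of slots -/
theorem slot_err (S : Shape) (K : ℕ) (G : ℝ → ℝ) (v : ℕ) (R : ℝ) (hR : 0 ≤ R) :
    3 * ∑ l ∈ range (K * S.w * v), max 0 ((v : ℝ) * G (-(((l : ℝ) + 1 / 2) / v)) + R)
    + ∑ i : Fin 3, ∑ l ∈ range (K * (![S.h1, S.h2, S.h3] i) * v),
        max 0 ((v : ℝ) * G (((l : ℝ) + 1 / 2) / v) + R)
    + ∑ i : Fin 3, ∑ m ∈ Ioc (K * S.w * v) (K * (![S.e1, S.e2, S.e3] i) * v),
        max 0 ((v : ℝ) * G (-((m : ℝ) / v)) + R)
    ≤ slotSum S K G v
      + ((3 * S.w + S.h1 + S.h2 + S.h3 + S.e1 + S.e2 + S.e3 : ℕ) : ℝ) * K * v * R := by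
  have hb : ∀ (F : Finset ℕ) (f : ℕ → ℝ) (n : ℝ), (F.card : ℝ) ≤ n →
      ∑ l ∈ F, max 0 (f l + R) ≤ ∑ l ∈ F, max 0 (f l) + n * R := by
    intro F f n hn
    have h1 : ∀ l ∈ F, max 0 (f l + R) ≤ max 0 (f l) + R := by
      intro l _
      apply max_le
      · have := le_max_left 0 (f l); linarith
      · have := le_max_right 0 (f l); linarith
    refine (Finset.sum_le_sum h1).trans ?_
    rw [Finset.sum_add_distrib, Finset.sum_const, nsmul_eq_mul]
    have := mul_le_mul_of_nonneg_right hn hR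
    linarith
  have hW := hb (range (K * S.w * v)) (fun l => (v : ℝ) * G (-(((l : ℝ) + 1 / 2) / v)))
    ((K : ℝ) * S.w * v) (by rw [Finset.card_range]; push_cast; exact le_rfl)
  have hH : ∀ i : Fin 3, _ := fun i => hb (range (K * (![S.h1, S.h2, S.h3] i) * v))
    (fun l => (v : ℝ) * G (((l : ℝ) + 1 / 2) / v))
    ((K : ℝ) * ((![S.h1, S.h2, S.h3] i : ℕ) : ℝ) * v)
    (by rw [Finset.card_range]; push_cast; exact le_rfl)
  have hE : ∀ i : Fin 3, _ := fun i => hb (Ioc (K * S.w * v) (K * (![S.e1, S.e2, S.e3] i) * v))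
    (fun m => (v : ℝ) * G (-((m : ℝ) / v)))
    ((K : ℝ) * ((![S.e1, S.e2, S.e3] i : ℕ) : ℝ) * v)
    (by
      rw [Nat.card_Ioc]
      have : (((K * (![S.e1, S.e2, S.e3] i) * v - K * S.w * v : ℕ)) : ℝ)
          ≤ ((K * (![S.e1, S.e2, S.e3] i) * v : ℕ) : ℝ) := by exact_mod_cast Nat.sub_le _ _
      refine this.trans ?_
      push_cast
      exact le_rfl)
  have hH' := Finset.sum_le_sum (fun i (_ : i ∈ (univ : Finset (Fin 3))) => hH i)
  have hE' := Finset.sum_le_sum (fun i (_ : i ∈ (univ : Finset (Fin 3))) => hE i)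
  rw [Finset.sum_add_distrib] at hH' hE'
  unfold slotSum
  have e1 : ∑ i : Fin 3, (K : ℝ) * ((![S.h1, S.h2, S.h3] i : ℕ) : ℝ) * v * R
      = ((S.h1 : ℝ) + S.h2 + S.h3) * K * v * R := by
    simp only [Fin.sum_univ_three, Matrix.cons_val_zero, Matrix.cons_val_one, Matrix.cons_val]
    ring
  have e2 : ∑ i : Fin 3, (K : ℝ) * ((![S.e1, S.e2, S.e3] i : ℕ) : ℝ) * v * R
      = ((S.e1 : ℝ) + S.e2 + S.e3) * K * v * R := by
    simp only [Fin.sum_univ_three, Matrix.cons_val_zero, Matrix.cons_val_one, Matrix.cons_val]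
    ring
  rw [e1] at hH'
  rw [e2] at hE'
  push_cast
  nlinarith [hW, hH', hE']

end Crest.Agent.R006.Cells530
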