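import Crest.Agent.R006.P3_Leaf_390
import Crest.Agent.R006.P3_Cells_530

/-!
Helper530: LEAF CELLS of `P3_Leaf_390`: `P3.Cells S d` from `Cert.OK S d`.
-/

set_option autoImplicit false

namespace Crest.Agent.R006.CellsF530

open Finset Crest.Agent.R006.Cert Crest.Agent.R006.D Crest.Agent.R006.Cells530

/-- the sum over the slots in the window form -/
theorem slots_eq (S : Shape) (hS : S.Good) (K v : ℕ) (G : ℝ → ℝ) :
    ∑ k : P3.Slot S (K * v), (P3.ord S (K * v) k : ℝ) *
        max 0 ((v : ℝ) * G (P3.ctr S (K * v) k / v)) = slotSum S K G v := by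
  have h21 := hS.h21
  have h32 := hS.h32
  have e21 := hS.e21
  have e32 := hS.e32
  rw [Fintype.sum_sum_type, Fintype.sum_sum_type]
  unfold slotSum
  rw [add_assoc]
  congr 1
  · -- w-sites
    have h1 : ∑ x : Fin (S.w * (K * v)), (P3.ord S (K * v) (Sum.inl x) : ℝ) *
        max 0 ((v : ℝ) * G (P3.ctr S (K * v) (Sum.inl x) / v))
        = ∑ x : Fin (S.w * (K * v)), (fun l : ℕ => 3 * max 0 ((v : ℝ) *
          G (-(((l : ℝ) + 1 / 2) / v)))) (x : ℕ) := by
      apply Finset.sum_congr rfl
      intro x _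
      simp only [P3.ord, P3.ctr]
      rw [neg_div]
      norm_num
    rw [h1, Fin.sum_univ_eq_sum_range (fun l : ℕ => 3 * max 0 ((v : ℝ) *
          G (-(((l : ℝ) + 1 / 2) / v)))), ← Finset.mul_sum]
    have h2 : S.w * (K * v) = K * S.w * v := by ring
    rw [h2]
  · congr 1
    · -- stars
      have h1 : ∑ x : Fin (S.h1 * (K * v)), (P3.ord S (K * v) (Sum.inr (Sum.inl x)) : ℝ) *
          max 0 ((v : ℝ) * G (P3.ctr S (K * v) (Sum.inr (Sum.inl x)) / v))
          = ∑ x : Fin (S.h1 * (K * v)), (fun l : ℕ =>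
            (((if l < S.h1 * (K * v) then 1 else 0) + (if l < S.h2 * (K * v) then 1 else 0)
              + (if l < S.h3 * (K * v) then 1 else 0) : ℕ) : ℝ) * max 0 ((v : ℝ) *
            G (((l : ℝ) + 1 / 2) / v))) (x : ℕ) := by
        apply Finset.sum_congr rfl
        intro x _
        simp only [P3.ord, P3.ctr]
      rw [h1, Fin.sum_univ_eq_sum_range (fun l : ℕ =>
            (((if l < S.h1 * (K * v) then 1 else 0) + (if l < S.h2 * (K * v) then 1 else 0)
              + (if l < S.h3 * (K * v) then 1 else 0) : ℕ) : ℝ) * max 0 ((v : ℝ) *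
            G (((l : ℝ) + 1 / 2) / v)))]
      simp only [Fin.sum_univ_three, Matrix.cons_val_zero, Matrix.cons_val_one, Matrix.cons_val]
      have hf : ∀ h : ℕ, h ≤ S.h1 → ∑ l ∈ range (S.h1 * (K * v)),
          (((if l < h * (K * v) then 1 else 0 : ℕ) : ℝ) * max 0 ((v : ℝ) *
            G (((l : ℝ) + 1 / 2) / v))) = ∑ l ∈ range (K * h * v), max 0 ((v : ℝ) *
            G (((l : ℝ) + 1 / 2) / v)) := by
        intro h hh
        have h2 : h * (K * v) = K * h * v := by ring
        have h3 : h * (K * v) ≤ S.h1 * (K * v) := Nat.mul_le_mul_right _ hh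
        rw [← h2]
        have h4 : range (h * (K * v)) = (range (S.h1 * (K * v))).filter
            (fun l => l < h * (K * v)) := by
          ext l
          simp only [mem_range, mem_filter]
          omega
        rw [h4, Finset.sum_filter]
        apply Finset.sum_congr rfl
        intro l _
        split_ifs <;> simp
      rw [← hf S.h1 le_rfl, ← hf S.h2 h21, ← hf S.h3 (h32.trans h21),
        ← Finset.sum_add_distrib, ← Finset.sum_add_distrib]
      apply Finset.sum_congr rfl
      intro l _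
      push_cast
      ring
    · -- nodes
      have h1 : ∑ x : Fin (S.e1 * (K * v) - S.w * (K * v)),
          (P3.ord S (K * v) (Sum.inr (Sum.inr x)) : ℝ) *
          max 0 ((v : ℝ) * G (P3.ctr S (K * v) (Sum.inr (Sum.inr x)) / v))
          = ∑ x : Fin (S.e1 * (K * v) - S.w * (K * v)), (fun j : ℕ =>
            (((if S.w * (K * v) + 1 + j ≤ S.e1 * (K * v) then 1 else 0)
              + (if S.w * (K * v) + 1 + j ≤ S.e2 * (K * v) then 1 else 0)
              + (if S.w * (K * v) + 1 + j ≤ S.e3 * (K * v) then 1 else 0) : ℕ) : ℝ) *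
              max 0 ((v : ℝ) * G (-(((S.w * (K * v) + 1 + j : ℕ) : ℝ) / v)))) (x : ℕ) := by
        apply Finset.sum_congr rfl
        intro x _
        simp only [P3.ord, P3.ctr]
        rw [neg_div]
      rw [h1, Fin.sum_univ_eq_sum_range (fun j : ℕ =>
            (((if S.w * (K * v) + 1 + j ≤ S.e1 * (K * v) then 1 else 0)
              + (if S.w * (K * v) + 1 + j ≤ S.e2 * (K * v) then 1 else 0)
              + (if S.w * (K * v) + 1 + j ≤ S.e3 * (K * v) then 1 else 0) : ℕ) : ℝ) *
              max 0 ((v : ℝ) * G (-(((S.w * (K * v) + 1 + j : ℕ) : ℝ) / v))))]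
      simp only [Fin.sum_univ_three, Matrix.cons_val_zero, Matrix.cons_val_one, Matrix.cons_val]
      have hf : ∀ e : ℕ, e ≤ S.e1 → ∑ j ∈ range (S.e1 * (K * v) - S.w * (K * v)),
          (((if S.w * (K * v) + 1 + j ≤ e * (K * v) then 1 else 0 : ℕ) : ℝ) *
            max 0 ((v : ℝ) * G (-(((S.w * (K * v) + 1 + j : ℕ) : ℝ) / v))))
          = ∑ m ∈ Ioc (K * S.w * v) (K * e * v), max 0 ((v : ℝ) *
            G (-((m : ℝ) / v))) := by
        intro e he
        have h2 : e * (K * v) = K * e * v := by ring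
        have h2' : S.w * (K * v) = K * S.w * v := by ring
        have h3 : e * (K * v) ≤ S.e1 * (K * v) := Nat.mul_le_mul_right _ he
        rw [← h2, ← h2']
        have h4 : Ioc (S.w * (K * v)) (e * (K * v)) = ((range (S.e1 * (K * v) - S.w * (K * v))).filter
            (fun j => S.w * (K * v) + 1 + j ≤ e * (K * v))).image
            (fun j => S.w * (K * v) + 1 + j) := by
          ext m
          simp only [mem_Ioc, mem_image, mem_filter, mem_range]
          constructor
          · rintro ⟨ha, hb⟩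
            exact ⟨m - (S.w * (K * v) + 1), ⟨by omega, by omega⟩, by omega⟩
          · rintro ⟨j, ⟨ha, hb⟩, rfl⟩
            omega
        rw [h4, Finset.sum_image (fun a _ b _ hab => by omega), Finset.sum_filter]
        apply Finset.sum_congr rfl
        intro j _
        split_ifs <;> simp
      rw [← hf S.e1 le_rfl, ← hf S.e2 e21, ← hf S.e3 (e32.trans e21),
        ← Finset.sum_add_distrib, ← Finset.sum_add_distrib]
      apply Finset.sum_congr rfl
      intro j _
      push_cast
      ring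

/-- **LEAF CELLS** (note of 390, `P3_Leaf_390`). -/
theorem cells (S : Shape) (hS : S.Good) (d : Data) (h : OK S d) : P3.Cells S d := by
  obtain ⟨C, hC⟩ := slot_of_OK S hS d h
  refine ⟨max C 0, le_max_right _ _, fun v hv => ?_⟩
  rw [slots_eq S hS d.K v (P3.slotG S d)]
  have h1 := hC v hv
  have h2 : C * v ≤ max C 0 * v := mul_le_mul_of_nonneg_right (le_max_left _ _) (Nat.cast_nonneg v)
  have h3 : slotSum S d.K (P3.slotG S d) v = slotSum S d.K (GG0 S d) v := rfl
  rw [h3]
  linarith

/-- total number of slots with multiplicity -/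
theorem sum_ord (S : Shape) (u : ℕ) :
    (∑ k : P3.Slot S u, (P3.ord S u k : ℝ)) ≤ 3 * ((S.w + S.h1 + S.e1 : ℕ) : ℝ) * u := by
  have hb : ∀ k : P3.Slot S u, (P3.ord S u k : ℝ) ≤ 3 := by
    intro k
    have : P3.ord S u k ≤ 3 := by
      rcases k with l | l | j <;> simp only [P3.ord] <;> (try split_ifs) <;> omega
    exact_mod_cast this
  refine (Finset.sum_le_sum fun k _ => hb k).trans ?_
  rw [Finset.sum_const, Finset.card_univ, nsmul_eq_mul]
  have hc : Fintype.card (P3.Slot S u) ≤ (S.w + S.h1 + S.e1) * u := by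
    rw [Fintype.card_sum, Fintype.card_sum, Fintype.card_fin, Fintype.card_fin, Fintype.card_fin]
    have : S.e1 * u - S.w * u ≤ S.e1 * u := Nat.sub_le _ _
    nlinarith
  have hc' : (Fintype.card (P3.Slot S u) : ℝ) ≤ ((S.w + S.h1 + S.e1 : ℕ) : ℝ) * u := by
    exact_mod_cast hc
  nlinarith

/-- the same with an error `R` per slot -/
theorem cells_err (S : Shape) (u v : ℕ) (G : ℝ → ℝ) (R : ℝ) (hR : 0 ≤ R) :
    ∑ k : P3.Slot S u, (P3.ord S u k : ℝ) * max 0 ((v : ℝ) * G (P3.ctr S u k / v) + R)
      ≤ ∑ k : P3.Slot S u, (P3.ord S u k : ℝ) * max 0 ((v : ℝ) * G (P3.ctr S u k / v))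
        + 3 * ((S.w + S.h1 + S.e1 : ℕ) : ℝ) * u * R := by
  have h1 : ∀ k : P3.Slot S u, (P3.ord S u k : ℝ) * max 0 ((v : ℝ) * G (P3.ctr S u k / v) + R)
      ≤ (P3.ord S u k : ℝ) * max 0 ((v : ℝ) * G (P3.ctr S u k / v)) + (P3.ord S u k : ℝ) * R := by
    intro k
    rw [← mul_add]
    apply mul_le_mul_of_nonneg_left _ (Nat.cast_nonneg _)
    apply max_le
    · have := le_max_left 0 ((v : ℝ) * G (P3.ctr S u k / v)); linarith
    · have := le_max_right 0 ((v : ℝ) * G (P3.ctr S u k / v)); linarith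
  refine (Finset.sum_le_sum fun k _ => h1 k).trans ?_
  rw [Finset.sum_add_distrib, ← Finset.sum_mul]
  have := mul_le_mul_of_nonneg_right (sum_ord S u) hR
  linarith

end Crest.Agent.R006.CellsF530
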