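import Crest.Agent.R006.P3_Const2_673
import Crest.Agent.R006.BordM_89

/-! Row 6, block P3, leaf POTN (helper673): lower bound of the node polynomial `N_S` away from the
sites and upper bound of the gauge `ρ` everywhere, in terms of potentials of the windows
(`Iseg` of `P3_Pot_943`), scale `u`. -/

set_option autoImplicit false

namespace Crest.Agent.R006.PotNx673

open Crest.Agent.R006.Potx943 Crest.Agent.R006.D Crest.Agent.R006.ConstX673

/-! ### windows of integers or half-integers -/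

/-- the `t`-th point of a window starting at the integer `A` (`h` : half-integers) -/
noncomputable def wpt (h : Bool) (A : ℤ) (t : ℕ) : ℂ := (A : ℂ) + t + (if h then 1 / 2 else 0)

lemma wpt_false (A : ℤ) (t : ℕ) : wpt false A t = (A : ℂ) + t := by simp [wpt]

lemma wpt_true (A : ℤ) (t : ℕ) : wpt true A t = pt (A : ℂ) 1 t := by
  rw [pt_window_half]; simp [wpt]

lemma log_two_add_nonneg (x : ℂ) : 0 ≤ Real.log (2 + ‖x‖) :=
  Real.log_nonneg (by have := norm_nonneg x; linarith)

/-- upper bound of the product over a window, for every `s` -/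
theorem win_prod_le (h : Bool) (A : ℤ) (m : ℕ) (s : ℂ) :
    ∏ j ∈ Finset.range m, ‖s - wpt h A j‖ ≤
      Real.exp (Iseg A 1 m s + 25 + Real.log (2 + ‖s - A‖)) := by
  cases h
  · simp_rw [wpt_false]
    exact window_prod_le A m s
  · simp_rw [wpt_true]
    refine (prod_le_exp_Iseg (a := (A : ℂ)) (d := 1) one_ne_zero m s).trans
      (Real.exp_le_exp.mpr ?_)
    have := log_two_add_nonneg (s - A)
    linarith

/-- lower bound of the product over a window, away from its points -/
theorem win_prod_ge (h : Bool) (A : ℤ) (m : ℕ) (s : ℂ) {δ : ℝ} (hδ : 0 < δ) (hδ1 : δ ≤ 1)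
    (hd : ∀ j < m, δ ≤ ‖s - wpt h A j‖) :
    Real.exp (Iseg A 1 m s - 25 - 11 * Real.log (1 / δ) - Real.log (2 + ‖s - (A + m)‖)) ≤
      ∏ j ∈ Finset.range m, ‖s - wpt h A j‖ := by
  cases h
  · simp_rw [wpt_false] at hd ⊢
    exact window_prod_ge A m s hδ hδ1 hd
  · simp_rw [wpt_true] at hd ⊢
    have hpos : ∀ j ∈ Finset.range m, 0 < ‖s - pt (A : ℂ) 1 j‖ := fun j hj =>
      lt_of_lt_of_le hδ (hd j (Finset.mem_range.mp hj))
    rw [← Real.le_log_iff_exp_le (Finset.prod_pos hpos),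
      Real.log_prod (fun j hj => (hpos j hj).ne')]
    have h1 := abs_sum_log_sub_Iseg_le (a := (A : ℂ)) (d := 1) one_ne_zero (m := m) (s := s)
      hδ hδ1 (by intro j hj; simpa using hd j hj)
    have h2 := (abs_le.mp h1).1
    have := log_two_add_nonneg (s - (A + m))
    linarith

/-! ### the multiplicative form of `sum_mult` -/

section prods

variable {ι : Type*} [Fintype ι] {M : Type*} [CommMonoid M]

lemma prod_wind (S : Shape) (u c : ℕ) (σ : ι → Site) (hσ : Function.Injective σ) (i : Fin 8)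
    (hcov : ∀ t < wL S u c i, wsite S u i t ∈ Set.range σ) (g : Site → M) :
    ∏ s, g (σ s) ^ wind S u c i (σ s)
      = ∏ t ∈ Finset.range (wL S u c i), g (wsite S u i t) := by
  classical
  have h1 : ∏ s, g (σ s) ^ wind S u c i (σ s)
      = ∏ s ∈ Finset.univ.filter (fun s => wind S u c i (σ s) = 1), g (σ s) := by
    rw [Finset.prod_filter]
    refine Finset.prod_congr rfl fun s _ => ?_
    rcases wind_zero_or_one S u c i (σ s) with h | h
    · rw [h]; simp
    · rw [h]; simp
  rw [h1]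
  symm
  refine Finset.prod_bij (fun t ht => (hcov t (Finset.mem_range.mp ht)).choose) ?_ ?_ ?_ ?_
  · intro t ht
    rw [Finset.mem_filter]
    refine ⟨Finset.mem_univ _, ?_⟩
    rw [(hcov t (Finset.mem_range.mp ht)).choose_spec]
    exact wind_wsite S u c i (Finset.mem_range.mp ht)
  · intro t ht t' ht' h
    have e1 := (hcov t (Finset.mem_range.mp ht)).choose_spec
    have e2 := (hcov t' (Finset.mem_range.mp ht')).choose_spec
    rw [h, e2] at e1
    exact (wsite_inj S u i e1).symm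
  · intro s hs
    obtain ⟨t, ht, hz⟩ := exists_of_wind S u c i (Finset.mem_filter.mp hs).2
    refine ⟨t, Finset.mem_range.mpr ht, ?_⟩
    apply hσ
    rw [(hcov t ht).choose_spec, hz]
  · intro t ht
    rw [(hcov t (Finset.mem_range.mp ht)).choose_spec]

lemma mult_wsite_ne (S : Shape) (u c : ℕ) (i : Fin 8) {t : ℕ} (ht : t < wL S u c i) :
    S.mult u c (wsite S u i t) ≠ 0 := by
  rw [mult_eq]
  have h2 := wind_wsite S u c i ht
  intro h0
  rw [Finset.sum_eq_zero_iff] at h0
  have := h0 i (Finset.mem_univ _)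
  omega

theorem prod_mult (S : Shape) (u c : ℕ) (σ : ι → Site) (hσ : Function.Injective σ)
    (hcov : ∀ z, S.mult u c z ≠ 0 → z ∈ Set.range σ) (g : Site → M) :
    ∏ s, g (σ s) ^ S.mult u c (σ s)
      = ∏ i, ∏ t ∈ Finset.range (wL S u c i), g (wsite S u i t) := by
  have h1 : ∀ s : ι, g (σ s) ^ S.mult u c (σ s) = ∏ i, g (σ s) ^ wind S u c i (σ s) := by
    intro s
    rw [mult_eq, Finset.prod_pow_eq_pow_sum]
  simp_rw [h1]
  rw [Finset.prod_comm]
  refine Finset.prod_congr rfl fun i _ => ?_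
  exact prod_wind S u c σ hσ i (fun t ht => hcov _ (mult_wsite_ne S u c i ht)) g

end prods

/-! ### the node polynomial -/

/-- position of a site as a complex number -/
noncomputable def cv (z : Site) : ℂ := ((z.val : ℚ) : ℂ)

lemma cv_wsite (S : Shape) (u : ℕ) (i : Fin 8) (t : ℕ) :
    cv (wsite S u i t) = wpt (whalf i) (wst S i * u) t := by
  unfold cv wsite wpt
  split_ifs
  · simp only [Site.val]; push_cast; ring
  · simp only [Site.val]; push_cast; ring

/-- potential of the nodes (per unit) -/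
noncomputable def UN (S : Shape) (ζ : ℂ) : ℝ := ∑ i, Iseg (wst S i) 1 (wlen S i) ζ

/-- absolute value of the node polynomial, by windows -/
theorem norm_NS {ι : Type*} [Fintype ι] (S : Shape) (u c : ℕ) (σ : ι → Site)
    (hσ : Function.Injective σ) (hcov : ∀ z, S.mult u c z ≠ 0 → z ∈ Set.range σ) (s : ℂ) :
    ∏ x, ‖s - cv (σ x)‖ ^ S.mult u c (σ x)
      = ∏ i, ∏ t ∈ Finset.range (wL S u c i), ‖s - wpt (whalf i) (wst S i * u) t‖ := by
  rw [prod_mult S u c σ hσ hcov (fun z => ‖s - cv z‖)]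
  simp_rw [cv_wsite]

lemma abs_wst_le (S : Shape) (i : Fin 8) : |(wst S i : ℝ)| + wlen S i ≤ 2 * S.rows := by
  have h : ∀ n : ℕ, (0 : ℝ) ≤ n := fun n => Nat.cast_nonneg n
  have h1 := h S.B
  have h2 := h S.e1
  have h3 := h S.e2
  have h4 := h S.e3
  have h5 := h S.h1
  have h6 := h S.h2
  have h7 := h S.h3
  have h8 := h S.w
  fin_cases i <;> simp only [wst, wlen, Shape.rows] <;> push_cast <;>
    simp only [abs_neg, abs_zero, abs_of_nonneg h2, abs_of_nonneg h3,
      abs_of_nonneg h4, abs_of_nonneg h8] <;> linarith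

/-- **lower bound of `|N_S|`** away from the sites, unscaled -/
theorem NS_ge (S : Shape) (u c : ℕ) (s : ℂ) {δ : ℝ} (hδ : 0 < δ) (hδ1 : δ ≤ 1)
    (hd : ∀ z, S.mult u c z ≠ 0 → δ ≤ ‖s - cv z‖) :
    Real.exp (∑ i, Iseg (wst S i * u : ℤ) 1 (wlen S i * u : ℕ) s - 200
        - (88 + c) * Real.log (1 / δ) - 8 * Real.log (2 + ‖s‖ + 2 * S.rows * u)) ≤
      ∏ i, ∏ t ∈ Finset.range (wL S u c i), ‖s - wpt (whalf i) (wst S i * u) t‖ := by
  have hl : 0 ≤ Real.log (1 / δ) := Real.log_nonneg (by rw [le_div_iff₀ hδ]; linarith)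
  have hdw : ∀ i, ∀ t < wL S u c i, δ ≤ ‖s - wpt (whalf i) (wst S i * u) t‖ := by
    intro i t ht
    rw [← cv_wsite]
    exact hd _ (mult_wsite_ne S u c i ht)
  have key : ∀ i ∈ (Finset.univ : Finset (Fin 8)),
      Real.exp (Iseg (wst S i * u : ℤ) 1 (wlen S i * u : ℕ) s - 25 - 11 * Real.log (1 / δ)
        - wex c i * Real.log (1 / δ) - Real.log (2 + ‖s‖ + 2 * S.rows * u)) ≤
      ∏ t ∈ Finset.range (wL S u c i), ‖s - wpt (whalf i) (wst S i * u) t‖ := by
    intro i _
    have h1 := win_prod_ge (whalf i) (wst S i * u) (wlen S i * u) s hδ hδ1 (fun j hj =>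
      hdw i j (lt_of_lt_of_le hj (by simp [wL])))
    have h2 : Real.exp (-(wex c i * Real.log (1 / δ))) ≤
        ∏ t ∈ Finset.range (wex c i), ‖s - wpt (whalf i) (wst S i * u) (wlen S i * u + t)‖ := by
      have h3 : ∏ _t ∈ Finset.range (wex c i), δ ≤
          ∏ t ∈ Finset.range (wex c i), ‖s - wpt (whalf i) (wst S i * u) (wlen S i * u + t)‖ := by
        apply Finset.prod_le_prod
        · intro t _; exact hδ.le
        · intro t ht
          apply hdw i
          have := Finset.mem_range.mp ht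
          simp only [wL]; omega
      refine le_trans (le_of_eq ?_) h3
      rw [Finset.prod_const, Finset.card_range, one_div, Real.log_inv, mul_neg, neg_neg,
        Real.exp_nat_mul, Real.exp_log hδ]
    have h4 : ∏ t ∈ Finset.range (wL S u c i), ‖s - wpt (whalf i) (wst S i * u) t‖
        = (∏ t ∈ Finset.range (wlen S i * u), ‖s - wpt (whalf i) (wst S i * u) t‖) *
          ∏ t ∈ Finset.range (wex c i), ‖s - wpt (whalf i) (wst S i * u) (wlen S i * u + t)‖ := by
      unfold wL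
      rw [Finset.prod_range_add]
    rw [h4]
    refine le_trans ?_ (mul_le_mul h1 h2 (Real.exp_nonneg _)
      (Finset.prod_nonneg fun _ _ => norm_nonneg _))
    rw [← Real.exp_add, Real.exp_le_exp]
    have h5 : Real.log (2 + ‖s - (((wst S i * u : ℤ) : ℂ) + ((wlen S i * u : ℕ) : ℂ))‖)
        ≤ Real.log (2 + ‖s‖ + 2 * S.rows * u) := by
      apply Real.log_le_log (by positivity)
      have h6 := norm_sub_le s (((wst S i * u : ℤ) : ℂ) + ((wlen S i * u : ℕ) : ℂ))
      have h7 : ‖((wst S i * u : ℤ) : ℂ) + ((wlen S i * u : ℕ) : ℂ)‖ ≤ 2 * S.rows * u := by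
        refine (norm_add_le _ _).trans ?_
        rw [Complex.norm_intCast, Complex.norm_natCast]
        push_cast
        rw [abs_mul, Nat.abs_cast]
        have := mul_le_mul_of_nonneg_right (abs_wst_le S i) (Nat.cast_nonneg u : (0 : ℝ) ≤ u)
        linarith
      linarith
    linarith
  have hprod := Finset.prod_le_prod (fun i _ => (Real.exp_pos _).le) key
  refine le_trans (le_of_eq ?_) hprod
  rw [← Real.exp_sum]
  congr 1
  have h8 : ∑ i : Fin 8, (wex c i : ℝ) = c := by
    rw [Fin.sum_univ_eight]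
    simp [wex]
  simp_rw [Finset.sum_sub_distrib, ← Finset.sum_mul, h8, Finset.sum_const, Finset.card_univ,
    Fintype.card_fin]
  simp only [nsmul_eq_mul]
  push_cast
  ring

lemma Iseg_win_scale {u : ℕ} (hu : 1 ≤ u) (a : ℤ) (n : ℕ) (ζ : ℂ) :
    Iseg (a * u : ℤ) 1 (n * u : ℕ) (u * ζ) = u * (n * Real.log u + Iseg a 1 n ζ) := by
  have hu0 : (0 : ℝ) < u := by exact_mod_cast hu
  have h := Iseg_scale (a := (a : ℂ)) (d := 1) (s := ζ) (n : ℝ) hu0 one_ne_zero
  rw [← h]
  push_cast
  rw [mul_comm (a : ℂ) (u : ℂ), mul_comm (n : ℝ) (u : ℝ)]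

/-- **lower bound of `|N_S|`**, scaled -/
theorem NS_ge_scaled (S : Shape) {u : ℕ} (hu : 1 ≤ u) (c : ℕ) (ζ : ℂ) {δ : ℝ} (hδ : 0 < δ)
    (hδ1 : δ ≤ 1) (hd : ∀ z, S.mult u c z ≠ 0 → δ ≤ ‖u * ζ - cv z‖) :
    Real.exp (u * (S.rows * Real.log u + UN S ζ) - 200
        - (88 + c) * Real.log (1 / δ) - 8 * Real.log (2 + u * (‖ζ‖ + 2 * S.rows))) ≤
      ∏ i, ∏ t ∈ Finset.range (wL S u c i), ‖u * ζ - wpt (whalf i) (wst S i * u) t‖ := by
  have h := NS_ge S u c (u * ζ) hδ hδ1 hd
  refine le_trans (le_of_eq ?_) h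
  congr 1
  simp_rw [Iseg_win_scale hu]
  rw [← Finset.mul_sum, Finset.sum_add_distrib, ← Finset.sum_mul, sum_wlen, norm_mul,
    Complex.norm_natCast]
  unfold UN
  rw [show (2 : ℝ) + u * ‖ζ‖ + 2 * S.rows * u = 2 + u * (‖ζ‖ + 2 * S.rows) by ring]

/-! ### the gauge -/

/-- start of the gauge windows -/
def rst (S : Shape) : Fin 4 → ℤ
  | 0 => 0
  | 1 => -(S.i1 : ℤ)
  | 2 => -(S.r1 : ℤ)
  | 3 => 0

/-- length of the gauge windows -/
def rlen (S : Shape) : Fin 4 → ℕ
  | 0 => S.a2
  | 1 => S.i1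
  | 2 => S.r1
  | 3 => S.a1

/-- half-integers? -/
def rhalf : Fin 4 → Bool
  | 0 => false
  | 1 => true
  | 2 => false
  | 3 => false

/-- potential of the zeros of the gauge (per unit) -/
noncomputable def Urho (S : Shape) (ζ : ℂ) : ℝ := ∑ i, Iseg (rst S i) 1 (rlen S i) ζ

/-- number of zeros of the gauge per unit -/
def rdeg (S : Shape) : ℕ := S.a1 + S.a2 + S.i1 + S.r1

lemma sum_rlen (S : Shape) : ∑ i, (rlen S i : ℝ) = rdeg S := by
  rw [Fin.sum_univ_four]
  simp only [rlen, rdeg]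
  push_cast
  ring

/-- the absolute value of the gauge -/
theorem norm_rho (S : Shape) (u : ℕ) (s : ℂ) :
    ‖((Bord.rho S u).map (algebraMap ℚ ℂ)).eval s‖
      = ∏ i, ∏ t ∈ Finset.range (rlen S i * u), ‖s - wpt (rhalf i) (rst S i * u) t‖ := by
  rw [Fin.prod_univ_four]
  simp only [Bord.rho, Polynomial.map_mul, Polynomial.map_comp, descPochhammer_map,
    Polynomial.map_add, Polynomial.map_X, Polynomial.map_C, Polynomial.eval_mul,
    Polynomial.eval_comp, Polynomial.eval_add, Polynomial.eval_X, Polynomial.eval_C,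
    descPochhammer_eval_eq_prod_range, norm_mul, norm_prod, rst, rlen, rhalf]
  congr 1
  · congr 1
    · congr 1
      · refine Finset.prod_congr rfl fun t _ => ?_
        rw [wpt_false]; push_cast; congr 1; ring
      · refine Finset.prod_congr rfl fun t _ => ?_
        rw [wpt_true, pt_window_half]
        congr 1
        simp only [map_sub, map_natCast, map_div₀, map_one, map_ofNat]
        push_cast; ring
    · refine Finset.prod_congr rfl fun t _ => ?_
      rw [wpt_false]
      congr 1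
      simp only [map_natCast]
      push_cast; ring
  · refine Finset.prod_congr rfl fun t _ => ?_
    rw [wpt_false]; push_cast; congr 1; ring

lemma abs_rst_le (S : Shape) (i : Fin 4) : |(rst S i : ℝ)| ≤ rdeg S := by
  have h : ∀ n : ℕ, (0 : ℝ) ≤ n := fun n => Nat.cast_nonneg n
  have h1 := h S.a1
  have h2 := h S.a2
  have h3 := h S.i1
  have h4 := h S.r1
  fin_cases i <;> simp only [rst, rdeg] <;> push_cast <;>
    simp only [abs_neg, abs_zero, abs_of_nonneg h3, abs_of_nonneg h4] <;> linarith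

/-- **upper bound of `|ρ|`**, for every point, scaled -/
theorem rho_le_scaled (S : Shape) {u : ℕ} (hu : 1 ≤ u) (ζ : ℂ) :
    ‖((Bord.rho S u).map (algebraMap ℚ ℂ)).eval (u * ζ)‖ ≤
      Real.exp (u * (rdeg S * Real.log u + Urho S ζ) + 100
        + 4 * Real.log (2 + u * (‖ζ‖ + rdeg S))) := by
  rw [norm_rho]
  have key : ∀ i ∈ (Finset.univ : Finset (Fin 4)),
      ∏ t ∈ Finset.range (rlen S i * u), ‖u * ζ - wpt (rhalf i) (rst S i * u) t‖ ≤
        Real.exp (u * (rlen S i * Real.log u + Iseg (rst S i) 1 (rlen S i) ζ) + 25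
          + Real.log (2 + u * (‖ζ‖ + rdeg S))) := by
    intro i _
    refine (win_prod_le (rhalf i) (rst S i * u) (rlen S i * u) (u * ζ)).trans ?_
    rw [Iseg_win_scale hu, Real.exp_le_exp]
    have h1 : Real.log (2 + ‖(u : ℂ) * ζ - ((rst S i * u : ℤ) : ℂ)‖)
        ≤ Real.log (2 + u * (‖ζ‖ + rdeg S)) := by
      apply Real.log_le_log (by positivity)
      have h2 := norm_sub_le ((u : ℂ) * ζ) ((rst S i * u : ℤ) : ℂ)
      have h3 : ‖((rst S i * u : ℤ) : ℂ)‖ ≤ u * rdeg S := by
        rw [Complex.norm_intCast]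
        push_cast
        rw [abs_mul, Nat.abs_cast, mul_comm]
        exact mul_le_mul_of_nonneg_left (abs_rst_le S i) (Nat.cast_nonneg u)
      rw [norm_mul, Complex.norm_natCast] at h2
      linarith
    linarith
  refine (Finset.prod_le_prod (fun i _ => Finset.prod_nonneg fun _ _ => norm_nonneg _) key).trans
    (le_of_eq ?_)
  rw [← Real.exp_sum]
  congr 1
  simp_rw [Finset.sum_add_distrib, ← Finset.mul_sum, Finset.sum_add_distrib, ← Finset.sum_mul,
    sum_rlen, Finset.sum_const, Finset.card_univ, Fintype.card_fin]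
  simp only [nsmul_eq_mul]
  unfold Urho
  push_cast
  ring

lemma Urho_eq (S : Shape) (ζ : ℂ) : Urho S ζ =
    Iseg 0 1 S.a2 ζ + Iseg (-(S.i1 : ℂ)) 1 S.i1 ζ + Iseg (-(S.r1 : ℂ)) 1 S.r1 ζ
      + Iseg 0 1 S.a1 ζ := by
  unfold Urho
  rw [Fin.sum_univ_four]
  simp only [rst, rlen]
  push_cast
  rfl

/-! ### unscaled forms (`s` arbitrary, potentials at `s / u`) -/

/-- **lower bound of `|N_S|`** for a family of sites covering the support -/
theorem prod_nodes_ge {ι : Type*} [Fintype ι] (S : Shape) {u : ℕ} (hu : 1 ≤ u) (c : ℕ)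
    (σ : ι → Site) (hσ : Function.Injective σ) (hcov : ∀ z, S.mult u c z ≠ 0 → z ∈ Set.range σ)
    (s : ℂ) {δ : ℝ} (hδ : 0 < δ) (hδ1 : δ ≤ 1) (hd : ∀ z, S.mult u c z ≠ 0 → δ ≤ ‖s - cv z‖) :
    Real.exp (u * (S.rows * Real.log u + UN S (s / u)) - 200
        - (88 + c) * Real.log (1 / δ) - 8 * Real.log (2 + ‖s‖ + 2 * S.rows * u)) ≤
      ∏ x, ‖s - cv (σ x)‖ ^ S.mult u c (σ x) := by
  have hu0 : (u : ℂ) ≠ 0 := by
    have : u ≠ 0 := by omega
    exact_mod_cast this
  have hs : (u : ℂ) * (s / u) = s := by field_simp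
  have h := NS_ge_scaled S hu c (s / u) hδ hδ1 (by rw [hs]; exact hd)
  rw [hs] at h
  rw [norm_NS S u c σ hσ hcov]
  refine le_trans (le_of_eq ?_) h
  have hur : (0 : ℝ) < u := by
    have : 0 < u := by omega
    exact_mod_cast this
  congr 4
  rw [norm_div, Complex.norm_natCast]
  field_simp
  ring

/-- the norm of `Lam.NS` over `ℂ` -/
theorem norm_eval_NS {ι : Type*} [Fintype ι] (z : ι → ℂ) (m : ι → ℕ) (s : ℂ) :
    ‖(Lam.NS z m).eval s‖ = ∏ x, ‖s - z x‖ ^ m x := by
  unfold Lam.NS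
  rw [Polynomial.eval_prod, norm_prod]
  simp only [Polynomial.eval_pow, Polynomial.eval_sub, Polynomial.eval_X, Polynomial.eval_C,
    norm_pow]

/-- **upper bound of `|ρ|`**, unscaled -/
theorem rho_le (S : Shape) {u : ℕ} (hu : 1 ≤ u) (s : ℂ) :
    ‖((Bord.rho S u).map (algebraMap ℚ ℂ)).eval s‖ ≤
      Real.exp (u * (rdeg S * Real.log u + Urho S (s / u)) + 100
        + 4 * Real.log (2 + ‖s‖ + rdeg S * u)) := by
  have hu0 : (u : ℂ) ≠ 0 := by
    have : u ≠ 0 := by omega
    exact_mod_cast this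
  have hs : (u : ℂ) * (s / u) = s := by field_simp
  have h := rho_le_scaled S hu (s / u)
  rw [hs] at h
  refine h.trans (le_of_eq ?_)
  have hur : (0 : ℝ) < u := by
    have : 0 < u := by omega
    exact_mod_cast this
  congr 4
  rw [norm_div, Complex.norm_natCast]
  field_simp
  ring

end Crest.Agent.R006.PotNx673
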