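import Mathlib

/-!
# Row 6 (Catalan), block P3, analytic input (helper576), part 1

The jump function `J v s = 8^s (Γ(-s)/Γ(1/2-s))^3 (v0 + v1 e^{2πis} + v2 e^{-2πis}) / cos(πs)^3`:
recurrence, bound in the left half plane, holomorphy, shape of the triple poles at `-1/2-l`.
-/

set_option autoImplicit false

open Complex Filter Topology Metric Set
open scoped Real

namespace Crest.Agent.R006.PsiJ

/-- the poles `-1/2-l` -/
noncomputable def ce (l : ℕ) : ℂ := -(1 / 2) - l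

@[simp] lemma ce_re (l : ℕ) : (ce l).re = -(1 / 2) - l := by
  simp [ce]

@[simp] lemma ce_im (l : ℕ) : (ce l).im = 0 := by
  simp [ce]

lemma ce_succ (l : ℕ) : ce (l + 1) = ce l - 1 := by
  simp [ce]; ring

/-- `Γ(w)/Γ(w+1/2)` -/
noncomputable def Bt (w : ℂ) : ℂ := Complex.Gamma w / Complex.Gamma (w + 1 / 2)

lemma Bt_ne {w : ℂ} (hw : 0 < w.re) : Bt w ≠ 0 := by
  unfold Bt
  refine div_ne_zero (Complex.Gamma_ne_zero_of_re_pos hw) (Complex.Gamma_ne_zero_of_re_pos ?_)
  simp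
  linarith

lemma Bt_add_one {w : ℂ} (h1 : w ≠ 0) (h2 : w + 1 / 2 ≠ 0) :
    Bt (w + 1) = w / (w + 1 / 2) * Bt w := by
  unfold Bt
  rw [Complex.Gamma_add_one w h1, show w + 1 + 1 / 2 = (w + 1 / 2) + 1 by ring,
    Complex.Gamma_add_one _ h2]
  rw [mul_div_mul_comm]

lemma Bt_differentiableAt {w : ℂ} (hw : 0 < w.re) : DifferentiableAt ℂ Bt w := by
  have h1 : DifferentiableAt ℂ Complex.Gamma w := by
    apply Complex.differentiableAt_Gamma
    intro m h
    rw [h] at hw
    simp at hw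
    have : (0 : ℝ) ≤ m := Nat.cast_nonneg m
    linarith
  have h2 : DifferentiableAt ℂ (fun w => (Complex.Gamma (w + 1 / 2))⁻¹) w := by
    have := Complex.differentiable_one_div_Gamma
    exact (this.comp (differentiable_id.add_const (1 / 2 : ℂ))) w
  have h3 : Bt = fun w => Complex.Gamma w * (Complex.Gamma (w + 1 / 2))⁻¹ := by
    funext w
    simp [Bt, div_eq_mul_inv]
  rw [h3]
  exact h1.mul h2

/-- the beta bound -/
lemma Bt_bound : ∃ K : ℝ, 0 < K ∧ ∀ w : ℂ, 1 / 4 ≤ w.re → ‖Bt w‖ ≤ K := by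
  -- real beta integral at 1/4
  have hint : IntervalIntegrable
      (fun x : ℝ => x ^ ((1 / 4 : ℝ) - 1) * (1 - x) ^ ((1 / 2 : ℝ) - 1)) MeasureTheory.volume 0 1 := by
    have h := (Complex.betaIntegral_convergent (u := (1 / 4 : ℂ)) (v := (1 / 2 : ℂ))
      (by norm_num) (by norm_num)).norm
    rw [intervalIntegrable_iff_integrableOn_Ioo_of_le zero_le_one] at h ⊢
    refine h.congr_fun ?_ measurableSet_Ioo
    intro x hx
    simp only
    rw [norm_mul]
    congr 1
    · rw [show ((1 / 4 : ℂ) - 1) = (((1 / 4 : ℝ) - 1 : ℝ) : ℂ) by push_cast; ring,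
        Complex.norm_cpow_eq_rpow_re_of_pos hx.1, Complex.ofReal_re]
    · rw [show (1 - (x : ℂ)) = ((1 - x : ℝ) : ℂ) by push_cast; ring,
        show ((1 / 2 : ℂ) - 1) = (((1 / 2 : ℝ) - 1 : ℝ) : ℂ) by push_cast; ring,
        Complex.norm_cpow_eq_rpow_re_of_pos (by linarith [hx.2]), Complex.ofReal_re]
  set K0 : ℝ := ∫ x in (0 : ℝ)..1, x ^ ((1 / 4 : ℝ) - 1) * (1 - x) ^ ((1 / 2 : ℝ) - 1) with hK0
  have hK0nn : 0 ≤ K0 := by
    rw [hK0]
    apply intervalIntegral.integral_nonneg zero_le_one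
    intro x hx
    exact mul_nonneg (Real.rpow_nonneg hx.1 _) (Real.rpow_nonneg (by linarith [hx.2]) _)
  have hG : Complex.Gamma (1 / 2) ≠ 0 := Complex.Gamma_ne_zero_of_re_pos (by norm_num)
  refine ⟨K0 / ‖Complex.Gamma (1 / 2)‖ + 1, by positivity, ?_⟩
  intro w hw
  have hw0 : 0 < w.re := by linarith
  have hb := Complex.betaIntegral_eq_Gamma_mul_div w (1 / 2) hw0 (by norm_num)
  have hBt : Bt w = Complex.betaIntegral w (1 / 2) / Complex.Gamma (1 / 2) := by
    rw [hb]; unfold Bt; field_simp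
  rw [hBt, norm_div]
  have hle : ‖Complex.betaIntegral w (1 / 2)‖ ≤ K0 := by
    unfold Complex.betaIntegral
    rw [hK0, intervalIntegral.integral_of_le zero_le_one, intervalIntegral.integral_of_le zero_le_one]
    refine MeasureTheory.norm_integral_le_of_norm_le ?_ ?_
    · exact (intervalIntegrable_iff_integrableOn_Ioc_of_le zero_le_one).mp hint
    · rw [← MeasureTheory.restrict_Ioo_eq_restrict_Ioc]
      refine (MeasureTheory.ae_restrict_iff' measurableSet_Ioo).mpr (Eventually.of_forall ?_)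
      intro x hx
      rw [norm_mul]
      have e1 : ‖(x : ℂ) ^ (w - 1)‖ = x ^ (w.re - 1) := by
        rw [Complex.norm_cpow_eq_rpow_re_of_pos hx.1]; simp
      have e2 : ‖(1 - (x : ℂ)) ^ ((1 / 2 : ℂ) - 1)‖ = (1 - x) ^ ((1 / 2 : ℝ) - 1) := by
        rw [show (1 - (x : ℂ)) = ((1 - x : ℝ) : ℂ) by push_cast; ring,
          show ((1 / 2 : ℂ) - 1) = (((1 / 2 : ℝ) - 1 : ℝ) : ℂ) by push_cast; ring,
          Complex.norm_cpow_eq_rpow_re_of_pos (by linarith [hx.2]), Complex.ofReal_re]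
      rw [e1, e2]
      refine mul_le_mul_of_nonneg_right ?_ (Real.rpow_nonneg (by linarith [hx.2]) _)
      exact Real.rpow_le_rpow_of_exponent_ge hx.1 hx.2.le (by linarith)
  have : ‖Complex.betaIntegral w (1 / 2)‖ / ‖Complex.Gamma (1 / 2)‖ ≤
      K0 / ‖Complex.Gamma (1 / 2)‖ := by gcongr
  linarith

/-- the trigonometric numerator -/
noncomputable def P (v : Fin 3 → ℂ) (s : ℂ) : ℂ :=
  v 0 + v 1 * cexp (2 * π * I * s) + v 2 * cexp (-(2 * π * I * s))

/-- the jump function -/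
noncomputable def J (v : Fin 3 → ℂ) (s : ℂ) : ℂ :=
  (8 : ℂ) ^ s * Bt (-s) ^ 3 * P v s / Complex.cos (π * s) ^ 3

lemma P_sub_one (v : Fin 3 → ℂ) (s : ℂ) : P v (s - 1) = P v s := by
  unfold P
  have h1 : cexp (2 * π * I * (s - 1)) = cexp (2 * π * I * s) := by
    rw [show 2 * (π : ℂ) * I * (s - 1) = 2 * π * I * s - 2 * π * I by ring]
    rw [Complex.exp_sub, Complex.exp_two_pi_mul_I]; simp
  have h2 : cexp (-(2 * π * I * (s - 1))) = cexp (-(2 * π * I * s)) := by
    rw [show -(2 * (π : ℂ) * I * (s - 1)) = -(2 * π * I * s) + 2 * π * I by ring]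
    rw [Complex.exp_add, Complex.exp_two_pi_mul_I]; simp
  rw [h1, h2]

lemma cos_pi_sub_one (s : ℂ) : Complex.cos (π * (s - 1)) = -Complex.cos (π * s) := by
  rw [show (π : ℂ) * (s - 1) = π * s - π by ring, Complex.cos_sub_pi]

theorem J_rec (v : Fin 3 → ℂ) {s : ℂ} (h0 : s ≠ 0) (h1 : s ≠ 1 / 2) :
    (2 * s - 1) ^ 3 * J v (s - 1) = -s ^ 3 * J v s := by
  unfold J
  rw [P_sub_one, cos_pi_sub_one]
  have h1' : -s + 1 / 2 ≠ 0 := by
    intro h; apply h1; linear_combination -h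
  have h1'' : 2 * s - 1 ≠ 0 := by
    intro h; apply h1; linear_combination h / 2
  rw [show -(s - 1) = -s + 1 by ring, Bt_add_one (neg_ne_zero.mpr h0) h1']
  have e8 : (8 : ℂ) ^ (s - 1) = 8 ^ s / 8 := by
    rw [Complex.cpow_sub _ _ (by norm_num), Complex.cpow_one]
  rw [e8]
  have e3 : (-Complex.cos (π * s)) ^ 3 = -(Complex.cos (π * s) ^ 3) := by ring
  rw [e3]
  have e4 : -s / (-s + 1 / 2) = 2 * s / (2 * s - 1) := by
    rw [div_eq_div_iff h1' h1'']; ring
  rw [e4, mul_pow, div_pow]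
  have h3 : (2 * s - 1) ^ 3 ≠ 0 := pow_ne_zero _ h1''
  rw [div_neg]
  have : (2 * s - 1) ^ 3 * (8 ^ s / 8 * ((2 * s) ^ 3 / (2 * s - 1) ^ 3 * Bt (-s) ^ 3) * P v s) =
      s ^ 3 * (8 ^ s * Bt (-s) ^ 3 * P v s) := by
    field_simp
    ring
  rw [mul_neg, ← mul_div_assoc, this]
  ring

/-! ### bounds -/

lemma norm_cos_ge_sinh (s : ℂ) : Real.sinh (π * |s.im|) ≤ ‖Complex.cos (π * s)‖ := by
  have h := Complex.two_cos (π * s)
  have e1 : ‖cexp (-(π * s) * I)‖ = Real.exp (π * s.im) := by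
    rw [Complex.norm_exp]; simp
  have e2 : ‖cexp (π * s * I)‖ = Real.exp (-(π * s.im)) := by
    rw [Complex.norm_exp]; simp
  have h2 : 2 * ‖Complex.cos (π * s)‖ = ‖cexp (π * s * I) + cexp (-(π * s) * I)‖ := by
    rw [← h, norm_mul]; simp
  rw [Real.sinh_eq]
  rcases abs_cases s.im with ⟨h3, h4⟩ | ⟨h3, h4⟩
  · rw [h3]
    have := norm_sub_norm_le (cexp (-(π * s) * I)) (-cexp (π * s * I))
    rw [norm_neg, e1, e2, sub_neg_eq_add, add_comm (cexp (-(π * s) * I))] at this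
    linarith
  · rw [h3]
    have := norm_sub_norm_le (cexp (π * s * I)) (-cexp (-(π * s) * I))
    rw [norm_neg, e1, e2, sub_neg_eq_add] at this
    have e3 : -(π * -s.im) = π * s.im := by ring
    have e4 : π * -s.im = -(π * s.im) := by ring
    rw [e3, e4]
    linarith

lemma norm_cos_ge_re (s : ℂ) : |Real.cos (π * s.re)| ≤ ‖Complex.cos (π * s)‖ := by
  have h : Complex.cos (π * s) = Complex.cos (π * s.re + π * s.im * I) := by
    congr 1
    conv_lhs => rw [← Complex.re_add_im s]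
    ring
  have h2 : (Complex.cos (π * s)).re = Real.cos (π * s.re) * Real.cosh (π * s.im) := by
    rw [h, Complex.cos_add_mul_I]
    rw [← Complex.ofReal_mul, ← Complex.ofReal_mul, ← Complex.ofReal_cos, ← Complex.ofReal_cosh,
      ← Complex.ofReal_sin, ← Complex.ofReal_sinh]
    simp only [Complex.sub_re, Complex.mul_re, Complex.mul_im, Complex.ofReal_re,
      Complex.ofReal_im, Complex.I_re, Complex.I_im]
    ring
  calc |Real.cos (π * s.re)| ≤ |Real.cos (π * s.re)| * Real.cosh (π * s.im) := by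
        have := Real.one_le_cosh (π * s.im)
        nlinarith [abs_nonneg (Real.cos (π * s.re))]
    _ = |(Complex.cos (π * s)).re| := by
        rw [h2, abs_mul, abs_of_pos (Real.cosh_pos _)]
    _ ≤ _ := Complex.abs_re_le_norm _

/-- lower bound of `|cos πs|` at distance `≥ 1/8` of the half-integers -/
lemma norm_cos_ge : ∃ c : ℝ, 0 < c ∧ ∀ s : ℂ, s.re ≤ -(1 / 4) → (∀ l : ℕ, 1 / 8 ≤ ‖s - ce l‖) →
    c * Real.exp (π * |s.im|) ≤ ‖Complex.cos (π * s)‖ := by
  have hπ := Real.pi_pos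
  set c1 : ℝ := (1 - Real.exp (-(π / 8))) / 2 with hc1
  set c2 : ℝ := 1 / 8 * Real.exp (-(π / 16)) with hc2
  have hc1p : 0 < c1 := by
    have : Real.exp (-(π / 8)) < 1 := by
      rw [Real.exp_lt_one_iff]; linarith
    rw [hc1]; linarith
  have hc2p : 0 < c2 := by positivity
  refine ⟨min c1 c2, lt_min hc1p hc2p, ?_⟩
  intro s hs hd
  have hE : 0 < Real.exp (π * |s.im|) := Real.exp_pos _
  by_cases hy : 1 / 16 ≤ |s.im|
  · refine le_trans ?_ (norm_cos_ge_sinh s)
    calc min c1 c2 * Real.exp (π * |s.im|) ≤ c1 * Real.exp (π * |s.im|) := by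
          gcongr; exact min_le_left _ _
      _ ≤ Real.sinh (π * |s.im|) := by
          rw [Real.sinh_eq, hc1]
          have h1 : Real.exp (-(π * |s.im|)) ≤
              Real.exp (-(π / 8)) * Real.exp (π * |s.im|) := by
            rw [← Real.exp_add]
            apply Real.exp_le_exp.mpr
            nlinarith
          nlinarith
  · push Not at hy
    refine le_trans ?_ (norm_cos_ge_re s)
    -- distance of the real part to the half-integers
    set k : ℤ := round (s.re - 1 / 2) with hk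
    set τ : ℝ := s.re - 1 / 2 - k with hτ
    have hτ1 : |τ| ≤ 1 / 2 := abs_sub_round (s.re - 1 / 2)
    have hkneg : k ≤ -1 := by
      by_contra hcon
      push Not at hcon
      have : (0 : ℤ) ≤ k := by omega
      have h2 : (0 : ℝ) ≤ k := by exact_mod_cast this
      have := (abs_le.mp hτ1).1
      linarith
    have hτ2 : 1 / 16 ≤ |τ| := by
      by_contra hcon
      push Not at hcon
      obtain ⟨l, hl⟩ : ∃ l : ℕ, (l : ℤ) = -k - 1 := ⟨(-k - 1).toNat, Int.toNat_of_nonneg (by omega)⟩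
      have hl' : (l : ℝ) = -k - 1 := by exact_mod_cast hl
      have h3 := hd l
      have h4 : s - ce l = (τ : ℂ) + s.im * I := by
        apply Complex.ext
        · simp [hτ, hl']; ring
        · simp
      have h5 : ‖s - ce l‖ ≤ |τ| + |s.im| := by
        rw [h4]
        calc ‖(τ : ℂ) + s.im * I‖ ≤ ‖(τ : ℂ)‖ + ‖(s.im : ℂ) * I‖ := norm_add_le _ _
          _ = |τ| + |s.im| := by simp
      linarith
    have h6 : |Real.cos (π * s.re)| = |Real.sin (π * τ)| := by
      have e1 : π * s.re = π * τ + k * π + π / 2 := by rw [hτ]; ring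
      rw [e1, Real.cos_add_pi_div_two, abs_neg, Real.sin_add_int_mul_pi, abs_mul]
      rcases Int.even_or_odd k with h | h
      · rw [h.neg_one_zpow]; simp
      · rw [h.neg_one_zpow]; simp
    have h7 : 1 / 8 ≤ |Real.sin (π * τ)| := by
      have h8 : |Real.sin (π * τ)| = Real.sin (π * |τ|) := by
        rcases abs_cases τ with ⟨h9, h10⟩ | ⟨h9, h10⟩
        · rw [h9, abs_of_nonneg]
          apply Real.sin_nonneg_of_nonneg_of_le_pi (by positivity)
          have : τ ≤ 1 / 2 := by rw [← h9]; exact hτ1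
          nlinarith
        · rw [h9, show π * -τ = -(π * τ) by ring, Real.sin_neg, abs_of_nonpos]
          rw [← neg_nonneg, ← Real.sin_neg]
          apply Real.sin_nonneg_of_nonneg_of_le_pi (by nlinarith)
          have : -τ ≤ 1 / 2 := by rw [← h9]; exact hτ1
          nlinarith
      rw [h8]
      have h11 := Real.mul_le_sin (x := π * |τ|) (by positivity) (by nlinarith)
      have h12 : 2 / π * (π * |τ|) = 2 * |τ| := by field_simp
      rw [h12] at h11
      linarith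
    rw [h6]
    calc min c1 c2 * Real.exp (π * |s.im|) ≤ c2 * Real.exp (π * |s.im|) := by
          gcongr; exact min_le_right _ _
      _ = 1 / 8 * (Real.exp (-(π / 16)) * Real.exp (π * |s.im|)) := by rw [hc2]; ring
      _ ≤ 1 / 8 * 1 := by
          gcongr
          rw [← Real.exp_add, Real.exp_le_one_iff]
          nlinarith
      _ ≤ _ := by linarith

lemma norm_P_le (v : Fin 3 → ℂ) (s : ℂ) :
    ‖P v s‖ ≤ (‖v 0‖ + ‖v 1‖ + ‖v 2‖) * Real.exp (2 * π * |s.im|) := by
  have hπ := Real.pi_pos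
  unfold P
  have e1 : ‖cexp (2 * π * I * s)‖ ≤ Real.exp (2 * π * |s.im|) := by
    rw [Complex.norm_exp]
    apply Real.exp_le_exp.mpr
    have : (2 * (π : ℂ) * I * s).re = -(2 * π * s.im) := by simp
    rw [this]
    have := neg_abs_le s.im
    nlinarith
  have e2 : ‖cexp (-(2 * π * I * s))‖ ≤ Real.exp (2 * π * |s.im|) := by
    rw [Complex.norm_exp]
    apply Real.exp_le_exp.mpr
    have : (-(2 * (π : ℂ) * I * s)).re = 2 * π * s.im := by simp
    rw [this]
    have := le_abs_self s.im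
    nlinarith
  have e0 : (1 : ℝ) ≤ Real.exp (2 * π * |s.im|) := Real.one_le_exp (by positivity)
  calc ‖v 0 + v 1 * cexp (2 * π * I * s) + v 2 * cexp (-(2 * π * I * s))‖
      ≤ ‖v 0‖ + ‖v 1‖ * ‖cexp (2 * π * I * s)‖ + ‖v 2‖ * ‖cexp (-(2 * π * I * s))‖ := by
        refine (norm_add_le _ _).trans ?_
        rw [norm_mul (v 2)]
        gcongr
        refine (norm_add_le _ _).trans ?_
        rw [norm_mul (v 1)]
    _ ≤ ‖v 0‖ * Real.exp (2 * π * |s.im|) + ‖v 1‖ * Real.exp (2 * π * |s.im|) +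
        ‖v 2‖ * Real.exp (2 * π * |s.im|) := by
        gcongr
        nlinarith [norm_nonneg (v 0)]
    _ = _ := by ring

/-- **bound of the jump function** in the left half plane, outside discs of radius `1/8` -/
theorem J_bound (v : Fin 3 → ℂ) : ∃ K : ℝ, 0 < K ∧ ∀ s : ℂ, s.re ≤ -(1 / 4) →
    (∀ l : ℕ, 1 / 8 ≤ ‖s - ce l‖) →
    ‖J v s‖ ≤ K * (8 : ℝ) ^ s.re * Real.exp (-(π * |s.im|)) := by
  obtain ⟨KB, hKB, hB⟩ := Bt_bound
  obtain ⟨c, hc, hcos⟩ := norm_cos_ge
  set V := ‖v 0‖ + ‖v 1‖ + ‖v 2‖ with hV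
  have hVn : 0 ≤ V := by positivity
  refine ⟨KB ^ 3 * V / c ^ 3 + 1, by positivity, ?_⟩
  intro s hs hd
  have h1 := hB (-s) (by simp; linarith)
  have h2 := hcos s hs hd
  have h3 := norm_P_le v s
  have h8 : ‖(8 : ℂ) ^ s‖ = (8 : ℝ) ^ s.re := by
    have := Complex.norm_cpow_eq_rpow_re_of_pos (x := 8) (by norm_num) s
    simpa using this
  have hE : 0 < Real.exp (π * |s.im|) := Real.exp_pos _
  have h8p : 0 < (8 : ℝ) ^ s.re := Real.rpow_pos_of_pos (by norm_num) _
  unfold J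
  rw [norm_div, norm_mul, norm_mul, norm_pow, norm_pow, h8]
  have h4 : (c * Real.exp (π * |s.im|)) ^ 3 ≤ ‖Complex.cos (π * s)‖ ^ 3 := by gcongr
  have h5 : 0 < (c * Real.exp (π * |s.im|)) ^ 3 := by positivity
  calc (8 : ℝ) ^ s.re * ‖Bt (-s)‖ ^ 3 * ‖P v s‖ / ‖Complex.cos (π * s)‖ ^ 3
      ≤ (8 : ℝ) ^ s.re * KB ^ 3 * (V * Real.exp (2 * π * |s.im|)) /
        (c * Real.exp (π * |s.im|)) ^ 3 := by
        gcongr
    _ = KB ^ 3 * V / c ^ 3 * (8 : ℝ) ^ s.re *
        (Real.exp (2 * π * |s.im|) / Real.exp (π * |s.im|) ^ 3) := by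
        field_simp
    _ = KB ^ 3 * V / c ^ 3 * (8 : ℝ) ^ s.re * Real.exp (-(π * |s.im|)) := by
        congr 1
        rw [← Real.exp_nat_mul, ← Real.exp_sub]
        congr 1
        push_cast
        ring
    _ ≤ _ := by
        gcongr
        linarith

/-! ### holomorphy -/

lemma cos_ne_zero_of_left {s : ℂ} (hs : s.re < 0) (hd : ∀ l : ℕ, s ≠ ce l) :
    Complex.cos (π * s) ≠ 0 := by
  intro h
  rw [Complex.cos_eq_zero_iff] at h
  obtain ⟨k, hk⟩ := h
  have hπ : (π : ℂ) ≠ 0 := by exact_mod_cast Real.pi_ne_zero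
  have hs2 : s = (2 * k + 1) / 2 := by
    have : (π : ℂ) * s = π * ((2 * k + 1) / 2) := by rw [hk]; ring
    exact mul_left_cancel₀ hπ this
  have hre : s.re = (2 * k + 1) / 2 := by
    rw [hs2]
    have : ((2 * (k : ℂ) + 1) / 2) = (((2 * (k : ℝ) + 1) / 2 : ℝ) : ℂ) := by push_cast; ring
    rw [this, Complex.ofReal_re]
  have hk1 : k ≤ -1 := by
    by_contra hcon
    push Not at hcon
    have : (0 : ℤ) ≤ k := by omega
    have h2 : (0 : ℝ) ≤ k := by exact_mod_cast this
    linarith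
  obtain ⟨l, hl⟩ : ∃ l : ℕ, (l : ℤ) = -k - 1 := ⟨(-k - 1).toNat, Int.toNat_of_nonneg (by omega)⟩
  apply hd l
  rw [hs2]
  have : (l : ℂ) = -k - 1 := by exact_mod_cast hl
  unfold ce
  rw [this]
  ring

lemma P_differentiable (v : Fin 3 → ℂ) : Differentiable ℂ (P v) := by
  unfold P
  fun_prop

lemma cpow8_differentiable : Differentiable ℂ (fun s : ℂ => (8 : ℂ) ^ s) := by
  intro s
  apply DifferentiableAt.const_cpow differentiableAt_id
  left
  norm_num

lemma J_differentiableAt (v : Fin 3 → ℂ) {s : ℂ} (hs : s.re < 0) (hd : ∀ l : ℕ, s ≠ ce l) :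
    DifferentiableAt ℂ (J v) s := by
  unfold J
  have hB : DifferentiableAt ℂ (fun s => Bt (-s)) s := by
    have h1 : DifferentiableAt ℂ Bt (-s) := Bt_differentiableAt (by simpa using hs)
    exact DifferentiableAt.comp s h1 differentiableAt_id.neg
  refine DifferentiableAt.div ?_ ?_ (pow_ne_zero _ (cos_ne_zero_of_left hs hd))
  · exact ((cpow8_differentiable s).mul (hB.pow 3)).mul (P_differentiable v s)
  · fun_prop

end Crest.Agent.R006.PsiJ
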