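import Crest.Agent.R006.G1Base_186
import Crest.Agent.R006.PsiJ1_576

/-!
Row 6 (Catalan), block P3 (helper516).  Sup bounds of `PsiJ.J v`, `g1`, `g1L`, `J1` on both sides:

* left: `Re s ≤ -1/4`, distance `≥ 1/8` from the sites `-1/2-l`;
* right: `Re s ≥ 1/4`, distance `≥ 1/8` from the natural numbers.
-/

set_option autoImplicit false

open Complex Set Filter Topology
open scoped Real

noncomputable section

namespace Crest.Agent.R006.Star516

open Crest.Agent.R006.G1x186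

/-- lower bound of the sine off the discs of radius `1/8` around the integers -/
lemma exp_le_norm_sin {s : ℂ} (hd : ∀ k : ℤ, 1 / 8 ≤ ‖s - k‖) :
    Real.exp (π * |s.im|) ≤ 6 * ‖Complex.sin (π * s)‖ := by
  have h := exp_le_norm_cos (s := s - 1 / 2) (fun k => by
    have := hd (k + 1)
    convert this using 2
    push_cast; ring)
  have e1 : (s - 1 / 2).im = s.im := by simp
  have e2 : Complex.cos (Real.pi * (s - 1 / 2)) = Complex.sin (π * s) := by
    rw [show (π : ℂ) * (s - 1 / 2) = π * s - π / 2 by ring, Complex.cos_sub_pi_div_two]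
  rwa [e1, e2] at h

lemma norm_sin_le (s : ℂ) : ‖Complex.sin (π * s)‖ ≤ Real.exp (π * |s.im|) := by
  have h : Complex.sin (π * s) = (cexp (-(π * s) * I) - cexp (π * s * I)) * I / 2 := by
    rw [Complex.sin]
  have hπ := Real.pi_pos
  have e1 : ‖cexp (-(π * s) * I)‖ ≤ Real.exp (π * |s.im|) := by
    rw [Complex.norm_exp]
    apply Real.exp_le_exp.mpr
    have : (-(π * s) * I).re = π * s.im := by simp
    rw [this]
    exact mul_le_mul_of_nonneg_left (le_abs_self _) hπ.le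
  have e2 : ‖cexp (π * s * I)‖ ≤ Real.exp (π * |s.im|) := by
    rw [Complex.norm_exp]
    apply Real.exp_le_exp.mpr
    have : (π * s * I).re = π * (-s.im) := by simp
    rw [this]
    exact mul_le_mul_of_nonneg_left (neg_le_abs _) hπ.le
  rw [h, norm_div, norm_mul, Complex.norm_I, mul_one]
  have h3 := norm_sub_le (cexp (-(π * s) * I)) (cexp (π * s * I))
  have h4 : ‖(2 : ℂ)‖ = 2 := by simp
  rw [h4]
  linarith

lemma norm_cos_le (s : ℂ) : ‖Complex.cos (π * s)‖ ≤ Real.exp (π * |s.im|) := by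
  have h := norm_sin_le (s + 1 / 2)
  have e1 : (s + 1 / 2).im = s.im := by simp
  have e2 : Complex.sin (π * (s + 1 / 2)) = Complex.cos (π * s) := by
    rw [show (π : ℂ) * (s + 1 / 2) = π * s + π / 2 by ring, Complex.sin_add_pi_div_two]
  rwa [e1, e2] at h

lemma Bt_eq_gr (w : ℂ) : PsiJ.Bt w = gr w := by
  unfold PsiJ.Bt gr
  rw [div_eq_mul_inv]

/-- distance to the naturals on the right gives distance to the integers -/
lemma dist_int {s : ℂ} (hs : 1 / 4 ≤ s.re) (hd : ∀ n : ℕ, 1 / 8 ≤ ‖s - n‖) (k : ℤ) :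
    1 / 8 ≤ ‖s - k‖ := by
  rcases lt_or_ge k 0 with hk | hk
  · have h1 := (le_abs_self _).trans (Complex.abs_re_le_norm (s - k))
    have h2 : (k : ℝ) < 0 := by exact_mod_cast hk
    simp only [sub_re, intCast_re] at h1
    linarith
  · obtain ⟨n, rfl⟩ := Int.eq_ofNat_of_zero_le hk
    have := hd n
    exact_mod_cast this

lemma sin_ne {s : ℂ} (hd : ∀ k : ℤ, 1 / 8 ≤ ‖s - k‖) : Complex.sin (π * s) ≠ 0 := by
  intro h
  have h1 := exp_le_norm_sin hd
  rw [h, norm_zero, mul_zero] at h1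
  exact absurd h1 (not_le.2 (Real.exp_pos _))

/-- reflection on the right -/
lemma gr_neg {s : ℂ} (hs : 0 < s.re) (hsin : Complex.sin (π * s) ≠ 0) :
    gr (-s) = -(gr (s + 1 / 2) * Complex.cos (π * s) / Complex.sin (π * s)) := by
  have hpi : (π : ℂ) ≠ 0 := by exact_mod_cast Real.pi_ne_zero
  have h1 := Complex.Gamma_mul_Gamma_one_sub (-s)
  rw [show 1 - -s = s + 1 by ring, show (π : ℂ) * -s = -(π * s) by ring, Complex.sin_neg] at h1
  have h2 := Complex.Gamma_mul_Gamma_one_sub (s + 1 / 2)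
  rw [show 1 - (s + 1 / 2) = -s + 1 / 2 by ring,
    show (π : ℂ) * (s + 1 / 2) = π * s + π / 2 by ring, Complex.sin_add_pi_div_two] at h2
  have g1 : Gamma (s + 1) ≠ 0 := Complex.Gamma_ne_zero_of_re_pos (by simp; linarith)
  have g2 : Gamma (s + 1 / 2) ≠ 0 := Complex.Gamma_ne_zero_of_re_pos (by simp; linarith)
  unfold gr
  rw [show s + 1 / 2 + 1 / 2 = s + 1 by ring]
  have e1 : Gamma (-s) = -(π / Complex.sin (π * s)) * (Gamma (s + 1))⁻¹ := by
    have h1' : Gamma (-s) * Gamma (s + 1) = -(π / Complex.sin (π * s)) := by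
      rw [h1, div_neg]
    rw [← h1', mul_assoc, mul_inv_cancel₀ g1, mul_one]
  by_cases hc : Complex.cos (π * s) = 0
  · rw [hc, div_zero] at h2
    have e2 : Gamma (-s + 1 / 2) = 0 := by
      rcases mul_eq_zero.1 h2 with h | h
      · exact absurd h g2
      · exact h
    rw [e2, hc]
    simp
  · have e2 : (Gamma (-s + 1 / 2))⁻¹ = Gamma (s + 1 / 2) * Complex.cos (π * s) / π := by
      have h3 : Gamma (-s + 1 / 2) = π / Complex.cos (π * s) / Gamma (s + 1 / 2) := by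
        rw [eq_div_iff g2, mul_comm]; exact h2
      rw [h3]
      field_simp
    rw [e1, e2]
    field_simp

/-- **bound of `J` on the right** -/
theorem J_right (v : Fin 3 → ℂ) : ∃ K : ℝ, 0 < K ∧ ∀ s : ℂ, 1 / 4 ≤ s.re →
    (∀ n : ℕ, 1 / 8 ≤ ‖s - n‖) →
    ‖PsiJ.J v s‖ ≤ K * (8 : ℝ) ^ s.re * Real.exp (-(π * |s.im|)) := by
  obtain ⟨KB, hKB, hB⟩ := PsiJ.Bt_bound
  set V := ‖v 0‖ + ‖v 1‖ + ‖v 2‖ with hV
  have hVn : 0 ≤ V := by positivity
  refine ⟨KB ^ 3 * V * 6 ^ 3 + 1, by positivity, ?_⟩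
  intro s hs hd
  have hdi := dist_int hs hd
  have hsin := sin_ne hdi
  have h8 : ‖(8 : ℂ) ^ s‖ = (8 : ℝ) ^ s.re := by
    have := Complex.norm_cpow_eq_rpow_re_of_pos (x := 8) (by norm_num) s
    simpa using this
  have h8p : 0 < (8 : ℝ) ^ s.re := Real.rpow_pos_of_pos (by norm_num) _
  have hE : 0 < Real.exp (π * |s.im|) := Real.exp_pos _
  have hB1 := hB (s + 1 / 2) (by simp; linarith)
  have h3 := PsiJ.norm_P_le v s
  have hS := exp_le_norm_sin hdi
  have hSpos : 0 < ‖Complex.sin (π * s)‖ := norm_pos_iff.2 hsin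
  by_cases hc : Complex.cos (π * s) = 0
  · have : PsiJ.J v s = 0 := by unfold PsiJ.J; rw [hc]; simp
    rw [this, norm_zero]
    positivity
  · have e : PsiJ.J v s = -((8 : ℂ) ^ s * PsiJ.Bt (s + 1 / 2) ^ 3 * PsiJ.P v s /
        Complex.sin (π * s) ^ 3) := by
      unfold PsiJ.J
      rw [Bt_eq_gr (-s), gr_neg (by linarith) hsin, ← Bt_eq_gr]
      generalize Complex.cos (π * s) = C at hc ⊢
      generalize Complex.sin (π * s) = D at hsin ⊢
      generalize PsiJ.Bt (s + 1 / 2) = B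
      field_simp
    rw [e, norm_neg, norm_div, norm_mul, norm_mul, norm_pow, norm_pow, h8]
    have h4 : Real.exp (π * |s.im|) ^ 3 ≤ 6 ^ 3 * ‖Complex.sin (π * s)‖ ^ 3 := by
      rw [← mul_pow]; gcongr
    rw [div_le_iff₀ (by positivity)]
    have h5 : Real.exp (2 * π * |s.im|) = Real.exp (-(π * |s.im|)) *
        Real.exp (π * |s.im|) ^ 3 := by
      rw [← Real.exp_nat_mul, ← Real.exp_add]
      congr 1
      push_cast; ring
    calc (8 : ℝ) ^ s.re * ‖PsiJ.Bt (s + 1 / 2)‖ ^ 3 * ‖PsiJ.P v s‖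
        ≤ (8 : ℝ) ^ s.re * KB ^ 3 * (V * Real.exp (2 * π * |s.im|)) := by gcongr
      _ = (8 : ℝ) ^ s.re * KB ^ 3 * V * Real.exp (-(π * |s.im|)) *
            Real.exp (π * |s.im|) ^ 3 := by rw [h5]; ring
      _ ≤ (8 : ℝ) ^ s.re * KB ^ 3 * V * Real.exp (-(π * |s.im|)) *
            (6 ^ 3 * ‖Complex.sin (π * s)‖ ^ 3) := by gcongr
      _ = KB ^ 3 * V * 6 ^ 3 * (8 : ℝ) ^ s.re * Real.exp (-(π * |s.im|)) *
            ‖Complex.sin (π * s)‖ ^ 3 := by ring
      _ ≤ (KB ^ 3 * V * 6 ^ 3 + 1) * (8 : ℝ) ^ s.re * Real.exp (-(π * |s.im|)) *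
            ‖Complex.sin (π * s)‖ ^ 3 := by
          gcongr
          linarith

/-! ### the `g` side -/

theorem g1_right {s : ℂ} (hs : 1 / 4 ≤ s.re) : ‖g1 s‖ ≤ 1 / (s.re + 1 / 2) := by
  have hx : 0 < s.re + 1 / 2 := by linarith
  have h1 := norm_g1_le (z := s) (by linarith)
  have h2 := grR_sq_le hx
  have hpi := Real.pi_gt_three
  refine h1.trans ?_
  rw [div_le_div_iff₀ Real.pi_pos hx]
  have h3 : grR (s.re + 1 / 2) ^ 2 * (s.re + 1 / 2) ≤ 3 := by
    calc grR (s.re + 1 / 2) ^ 2 * (s.re + 1 / 2)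
        ≤ (s.re + 1 / 2 + 1 / 2) / (s.re + 1 / 2) ^ 2 * (s.re + 1 / 2) := by gcongr
      _ = (s.re + 1 / 2 + 1 / 2) / (s.re + 1 / 2) := by field_simp
      _ ≤ 3 := by rw [div_le_iff₀ hx]; linarith
  linarith

lemma g1L_eq_right {s : ℂ} (hs : 0 < s.re) (hsin : Complex.sin (π * s) ≠ 0) :
    g1L s = g1 s * (Complex.cos (π * s) / Complex.sin (π * s)) ^ 2 := by
  unfold g1L g1
  rw [gr_neg hs hsin]
  ring

lemma cot_le {s : ℂ} (hd : ∀ k : ℤ, 1 / 8 ≤ ‖s - k‖) :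
    ‖Complex.cos (π * s) / Complex.sin (π * s)‖ ≤ 6 := by
  have h1 := exp_le_norm_sin hd
  have h2 := norm_cos_le s
  have h3 : 0 < ‖Complex.sin (π * s)‖ := norm_pos_iff.2 (sin_ne hd)
  rw [norm_div, div_le_iff₀ h3]
  linarith

theorem g1L_right {s : ℂ} (hs : 1 / 4 ≤ s.re) (hd : ∀ n : ℕ, 1 / 8 ≤ ‖s - n‖) :
    ‖g1L s‖ ≤ 36 / (s.re + 1 / 2) := by
  have hdi := dist_int hs hd
  have h1 := g1_right hs
  have h2 := cot_le hdi
  rw [g1L_eq_right (by linarith) (sin_ne hdi), norm_mul, norm_pow]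
  calc ‖g1 s‖ * ‖Complex.cos (π * s) / Complex.sin (π * s)‖ ^ 2
      ≤ 1 / (s.re + 1 / 2) * 6 ^ 2 := by
        have : 0 < s.re + 1 / 2 := by linarith
        gcongr
    _ = _ := by ring

theorem J1_right {s : ℂ} (hs : 1 / 4 ≤ s.re) (hd : ∀ n : ℕ, 1 / 8 ≤ ‖s - n‖) :
    ‖J1 s‖ ≤ 36 / (s.re + 1 / 2) * Real.exp (-(2 * π * |s.im|)) := by
  have hdi := dist_int hs hd
  have h1 := g1_right hs
  have hx : 0 < s.re + 1 / 2 := by linarith
  by_cases hc : Complex.cos (π * s) = 0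
  · have : J1 s = 0 := by unfold J1; rw [hc]; simp
    rw [this, norm_zero]
    positivity
  · have hsin := sin_ne hdi
    have e : J1 s = g1 s / Complex.sin (π * s) ^ 2 := by
      unfold J1
      rw [g1L_eq_right (by linarith) hsin]
      field_simp
    have h2 := exp_le_norm_sin hdi
    have h3 : 0 < ‖Complex.sin (π * s)‖ := norm_pos_iff.2 hsin
    rw [e, norm_div, norm_pow, div_le_iff₀ (by positivity)]
    have h4 : Real.exp (π * |s.im|) ^ 2 ≤ 36 * ‖Complex.sin (π * s)‖ ^ 2 := by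
      rw [show (36 : ℝ) = 6 ^ 2 by norm_num, ← mul_pow]; gcongr
    have h5 : Real.exp (-(2 * π * |s.im|)) * Real.exp (π * |s.im|) ^ 2 = 1 := by
      rw [← Real.exp_nat_mul, ← Real.exp_add, ← Real.exp_zero]
      congr 1
      push_cast; ring
    calc ‖g1 s‖ ≤ 1 / (s.re + 1 / 2) := h1
      _ = 1 / (s.re + 1 / 2) * (Real.exp (-(2 * π * |s.im|)) * Real.exp (π * |s.im|) ^ 2) := by
          rw [h5, mul_one]
      _ ≤ 1 / (s.re + 1 / 2) * (Real.exp (-(2 * π * |s.im|)) *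
            (36 * ‖Complex.sin (π * s)‖ ^ 2)) := by gcongr
      _ = _ := by ring

theorem g1L_left {s : ℂ} (hs : s.re ≤ -(1 / 4)) : ‖g1L s‖ ≤ 1 / (-s.re) := by
  have hx : 0 < -s.re := by linarith
  have h1 := norm_g1L_le (z := s) (by linarith)
  have h2 := grR_sq_le hx
  have hpi := Real.pi_gt_three
  refine h1.trans ?_
  rw [div_le_div_iff₀ Real.pi_pos hx]
  have h3 : grR (-s.re) ^ 2 * (-s.re) ≤ 3 := by
    calc grR (-s.re) ^ 2 * (-s.re)
        ≤ (-s.re + 1 / 2) / (-s.re) ^ 2 * (-s.re) := by gcongr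
      _ = (-s.re + 1 / 2) / (-s.re) := by field_simp
      _ ≤ 3 := by rw [div_le_iff₀ hx]; linarith
  linarith

lemma dist_site_int {s : ℂ} (hs : s.re ≤ -(1 / 4)) (hd : ∀ l : ℕ, 1 / 8 ≤ ‖s - PsiJ.ce l‖)
    (k : ℤ) : 1 / 8 ≤ ‖s - (k + 1 / 2)‖ := by
  rcases lt_or_ge k 0 with hk | hk
  · obtain ⟨l, hl⟩ := Int.eq_ofNat_of_zero_le (show 0 ≤ -k - 1 by omega)
    have e : (k : ℂ) = -1 - (l : ℂ) := by
      have : k = -1 - (l : ℤ) := by omega
      rw [this]; push_cast; ring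
    have := hd l
    rw [e]
    convert this using 2
    unfold PsiJ.ce
    ring
  · have h1 := (neg_le_abs _).trans (Complex.abs_re_le_norm (s - (k + 1 / 2)))
    have h2 : (0 : ℝ) ≤ k := by exact_mod_cast hk
    simp only [sub_re, add_re, intCast_re] at h1
    have h3 : ((1 / 2 : ℂ)).re = 1 / 2 := by norm_num
    rw [h3] at h1
    linarith

theorem g1_left {s : ℂ} (hs : s.re ≤ -(1 / 4)) (hd : ∀ l : ℕ, 1 / 8 ≤ ‖s - PsiJ.ce l‖) :
    ‖g1 s‖ ≤ 36 / (-s.re) := by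
  have hx : 0 < -s.re := by linarith
  have hdi := dist_site_int hs hd
  have hexp := exp_le_norm_cos hdi
  have hcn : Complex.cos (π * s) ≠ 0 := by
    intro h
    rw [h, norm_zero, mul_zero] at hexp
    exact absurd hexp (not_le.2 (Real.exp_pos _))
  have hcp : 0 < ‖Complex.cos (π * s)‖ := norm_pos_iff.2 hcn
  have h1 := g1L_left hs
  have h2 : ‖Complex.sin (π * s) / Complex.cos (π * s)‖ ≤ 6 := by
    rw [norm_div, div_le_iff₀ hcp]
    linarith [norm_sin_le s]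
  have e : g1 s = g1L s * (Complex.sin (π * s) / Complex.cos (π * s)) ^ 2 := by
    have := g1_reflect (z := s) (by linarith) hcn
    rw [this]
    try ring
  rw [e, norm_mul, norm_pow]
  calc ‖g1L s‖ * ‖Complex.sin (π * s) / Complex.cos (π * s)‖ ^ 2
      ≤ 1 / (-s.re) * 6 ^ 2 := by gcongr
    _ = _ := by ring

theorem J1_left {s : ℂ} (hs : s.re ≤ -(1 / 4)) (hd : ∀ l : ℕ, 1 / 8 ≤ ‖s - PsiJ.ce l‖) :
    ‖J1 s‖ ≤ 36 / (-s.re) * Real.exp (-(2 * π * |s.im|)) := by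
  refine norm_J1_le (by linarith) fun l => ?_
  have := hd l
  rwa [show PsiJ.ce l = -1 / 2 - (l : ℂ) by unfold PsiJ.ce; ring] at this

end Crest.Agent.R006.Star516
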