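import Crest.Agent.R006.P3_Disc_390
import Crest.Agent.R006.P3_Bridge_257
import Crest.Agent.R006.P3_PotN_673
import Crest.Agent.R006.Star_516

/-!
# Row 6, block P3: the weights of `Disc` (helper257)

* `norm_om`, `norm_rhoC` : `|ω_S| = NSn`, `|ρ| = rhon`;
* `FarW s` : the region where the jump functions are bounded; `JR_le`, `JQ_le`, `JQw_le`;
* `far_ray`, `far_slot` : the rays and the slot circles lie in that region.
-/

set_option autoImplicit false

open Complex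

namespace Crest.Agent.R006.P3

open Polynomial Crest.Agent.R006.D Crest.Agent.R006.NV Crest.Agent.R006.PsiInf Crest.Agent.R006.Bord
open Crest.Agent.R006.Border410

/-! ### the polynomials -/

lemma norm_om {S : Shape} (hS : S.Good) (u c : ℕ) (s : ℂ) :
    ‖(om S u c).eval s‖ = NSn S u c s := by
  unfold P3.om Lam.NS NSn
  rw [eval_prod, norm_prod]
  have h1 : ∀ z : St S u c, ‖((X - C (zc S u c z)) ^ (mm S u c z) : ℂ[X]).eval s‖ =
      ‖s - ((z.1.val : ℚ) : ℂ)‖ ^ (S.mult u c z.1) := by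
    intro z
    rw [eval_pow, eval_sub, eval_X, eval_C, norm_pow]
    rfl
  rw [Finset.prod_congr rfl fun z _ => h1 z,
    Finset.prod_coe_sort (Bord.sites S u c) (fun z => ‖s - ((z.val : ℚ) : ℂ)‖ ^ (S.mult u c z))]
  classical
  have h2 : ∀ A B : Finset Site, (∀ z, S.mult u c z ≠ 0 → z ∈ A) →
      (∀ z, S.mult u c z ≠ 0 → z ∈ B) →
      ∏ z ∈ A, ‖s - ((z.val : ℚ) : ℂ)‖ ^ (S.mult u c z) =
        ∏ z ∈ A ∪ B, ‖s - ((z.val : ℚ) : ℂ)‖ ^ (S.mult u c z) := by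
    intro A B hA _
    refine Finset.prod_subset Finset.subset_union_left fun z _ hz => ?_
    have : S.mult u c z = 0 := by
      by_contra h
      exact hz (hA z h)
    rw [this, pow_zero]
  have hA := fun z (h : S.mult u c z ≠ 0) => Bord.mem_sites_of_mult S u c h
  have hB := fun z (h : S.mult u c z ≠ 0) => Bordx929.mem_sites u c hS h
  rw [h2 _ _ hA hB, Finset.union_comm, ← h2 _ _ hB hA]

lemma norm_rhoC (S : Shape) (u : ℕ) (s : ℂ) : ‖(rhoC S u).eval s‖ = rhon S u s := by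
  unfold rhoC rhon
  simp only [Bord.rho, Polynomial.map_mul, Polynomial.map_comp, descPochhammer_map,
    Polynomial.map_add, Polynomial.map_X, Polynomial.map_C, Polynomial.eval_mul,
    Polynomial.eval_comp, Polynomial.eval_add, Polynomial.eval_X, Polynomial.eval_C,
    descPochhammer_eval_eq_prod_range, norm_mul, norm_prod]
  have e1 : ∀ n : ℕ, ∏ i ∈ Finset.range n,
      ‖s + (algebraMap ℚ ℂ) ((n : ℕ) - 1 / 2 : ℚ) - (i : ℂ)‖ =
      ∏ m ∈ Finset.range n, ‖s + ((m : ℂ) + 1 / 2)‖ := by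
    intro n
    rw [← Finset.prod_range_reflect]
    refine Finset.prod_congr rfl fun i hi => ?_
    congr 1
    have hi' := Finset.mem_range.1 hi
    have h1 : ((n - 1 - i : ℕ) : ℂ) = (n : ℂ) - 1 - i := by
      rw [Nat.cast_sub (by omega), Nat.cast_sub (by omega)]; simp
    rw [h1]
    simp
    ring
  have e2 : ∀ n : ℕ, ∏ i ∈ Finset.range n,
      ‖s + (algebraMap ℚ ℂ) ((n : ℕ) : ℚ) - (i : ℂ)‖ =
      ∏ m ∈ Finset.range n, ‖s + ((m : ℂ) + 1)‖ := by
    intro n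
    rw [← Finset.prod_range_reflect]
    refine Finset.prod_congr rfl fun i hi => ?_
    congr 1
    have hi' := Finset.mem_range.1 hi
    have h1 : ((n - 1 - i : ℕ) : ℂ) = (n : ℂ) - 1 - i := by
      rw [Nat.cast_sub (by omega), Nat.cast_sub (by omega)]; simp
    rw [h1]
    simp
    ring
  rw [e1, e2]
  ring

lemma norm_lg {n : ℕ} (w : Fin n → ℂ) (i : Fin n) (s : ℂ) : ‖(lg w i).eval s‖ = oth w i s := by
  rw [eval_lg, norm_prod]
  rfl

/-! ### the jump functions -/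

/-- where the jump functions are bounded -/
def FarW (s : ℂ) : Prop :=
  (s.re ≤ -(1 / 4) ∧ ∀ l : ℕ, 1 / 8 ≤ ‖s - PsiJ.ce l‖) ∨
    (1 / 4 ≤ s.re ∧ ∀ n : ℕ, 1 / 8 ≤ ‖s - n‖)

lemma exists_JR_le : ∃ K : ℝ, 0 < K ∧ ∀ s : ℂ, FarW s →
    ‖JR s‖ ≤ K * Real.exp (s.re * Real.log 8 - Real.pi * |s.im|) := by
  obtain ⟨K1, hK1, h1⟩ := PsiJ.J_bound PsiJ.vv
  obtain ⟨K2, hK2, h2⟩ := Star516.J_right PsiJ.vv
  refine ⟨max K1 K2, lt_max_of_lt_left hK1, fun s hs => ?_⟩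
  have e : (8 : ℝ) ^ s.re * Real.exp (-(Real.pi * |s.im|)) =
      Real.exp (s.re * Real.log 8 - Real.pi * |s.im|) := by
    rw [Real.rpow_def_of_pos (by norm_num), ← Real.exp_add]
    congr 1; ring
  rw [← e, ← mul_assoc]
  rcases hs with ⟨ha, hb⟩ | ⟨ha, hb⟩
  · refine (h1 s ha hb).trans ?_
    gcongr
    exact le_max_left _ _
  · refine (h2 s ha hb).trans ?_
    gcongr
    exact le_max_right _ _

lemma JQ_le {s : ℂ} (hs : FarW s) : ‖JQ s‖ ≤ 144 * Real.exp (-(2 * Real.pi * |s.im|)) := by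
  rcases hs with ⟨ha, hb⟩ | ⟨ha, hb⟩
  · refine (Star516.J1_left ha hb).trans ?_
    gcongr
    rw [div_le_iff₀ (by linarith)]
    linarith
  · refine (Star516.J1_right ha hb).trans ?_
    gcongr
    rw [div_le_iff₀ (by linarith)]
    linarith

lemma gL_le {s : ℂ} (hs : FarW s) : ‖gL s‖ ≤ 144 := by
  rcases hs with ⟨ha, hb⟩ | ⟨ha, hb⟩
  · refine (Star516.g1L_left ha).trans ?_
    rw [div_le_iff₀ (by linarith)]
    linarith
  · refine (Star516.g1L_right ha hb).trans ?_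
    rw [div_le_iff₀ (by linarith)]
    linarith

/-- on the slot circles (`|Im s| ≤ 1/4`) -/
lemma JQw_le {s : ℂ} (hs : FarW s) (hi : |s.im| ≤ 1 / 4) :
    ‖JQ s - 2 * gL s‖ ≤ (432 * Real.exp 2) * Real.exp (-(2 * Real.pi * |s.im|)) := by
  have h1 := JQ_le hs
  have h2 := gL_le hs
  have h3 : (1 : ℝ) ≤ Real.exp 2 * Real.exp (-(2 * Real.pi * |s.im|)) := by
    rw [← Real.exp_add]
    apply Real.one_le_exp
    have := Real.pi_lt_four
    have h0 := abs_nonneg s.im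
    nlinarith
  have h4 : Real.exp (-(2 * Real.pi * |s.im|)) ≤ Real.exp 2 * Real.exp (-(2 * Real.pi * |s.im|)) := by
    have : (1 : ℝ) ≤ Real.exp 2 := Real.one_le_exp (by norm_num)
    have h5 := Real.exp_pos (-(2 * Real.pi * |s.im|))
    nlinarith
  calc ‖JQ s - 2 * gL s‖ ≤ ‖JQ s‖ + ‖2 * gL s‖ := norm_sub_le _ _
    _ ≤ 144 * Real.exp (-(2 * Real.pi * |s.im|)) + 2 * 144 := by
        rw [norm_mul]
        have : ‖(2 : ℂ)‖ = 2 := by simp
        rw [this]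
        linarith
    _ ≤ _ := by nlinarith

/-! ### the rays and the circles -/

lemma far_ray (S : Shape) (u : ℕ) {t : ℝ} (ht : 0 ≤ t) {v : ℂ}
    (hv : v = -1 + I ∨ v = -1 - I) : FarW (rayPt S u v t) := by
  left
  have hre : (rayPt S u v t).re = -((S.w * u : ℕ) + 1 / 4 : ℝ) - t := by
    unfold rayPt
    rcases hv with h | h <;> subst h <;> simp <;> ring
  have him : (rayPt S u v t).im ^ 2 = t ^ 2 := by
    unfold rayPt
    rcases hv with h | h <;> subst h <;> simp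
  have hw : (0 : ℝ) ≤ ((S.w * u : ℕ) : ℝ) := Nat.cast_nonneg _
  refine ⟨by rw [hre]; linarith, fun l => ?_⟩
  have h1 : ‖rayPt S u v t - PsiJ.ce l‖ ^ 2 =
      ((l : ℝ) - (S.w * u : ℕ) + 1 / 4 - t) ^ 2 + t ^ 2 := by
    rw [← Complex.normSq_eq_norm_sq, Complex.normSq_apply]
    have e1 : (rayPt S u v t - PsiJ.ce l).re = (l : ℝ) - (S.w * u : ℕ) + 1 / 4 - t := by
      rw [sub_re, hre, PsiJ.ce_re]; ring
    have e2 : (rayPt S u v t - PsiJ.ce l).im = (rayPt S u v t).im := by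
      rw [sub_im, PsiJ.ce_im, sub_zero]
    rw [e1, e2, ← pow_two, ← pow_two, him]
  have h2 : (1 / 4 : ℝ) ^ 2 ≤ ((l : ℝ) - (S.w * u : ℕ) + 1 / 4) ^ 2 := by
    have h3 : ((l : ℝ) - (S.w * u : ℕ) + 1 / 4) = (((l : ℤ) - (S.w * u : ℕ) : ℤ) : ℝ) + 1 / 4 := by
      push_cast; ring
    rw [h3]
    rcases le_or_gt 0 ((l : ℤ) - (S.w * u : ℕ)) with h | h
    · have : (0 : ℝ) ≤ (((l : ℤ) - (S.w * u : ℕ) : ℤ) : ℝ) := by exact_mod_cast h
      nlinarith
    · have h' : (l : ℤ) - (S.w * u : ℕ) ≤ -1 := by omega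
      have : (((l : ℤ) - (S.w * u : ℕ) : ℤ) : ℝ) ≤ -1 := by exact_mod_cast h'
      nlinarith
  have h4 : (1 / 8 : ℝ) ^ 2 ≤ ‖rayPt S u v t - PsiJ.ce l‖ ^ 2 := by
    rw [h1]
    nlinarith [sq_nonneg ((l : ℝ) - (S.w * u : ℕ) + 1 / 4 - 2 * t)]
  exact le_of_sq_le_sq h4 (norm_nonneg _)

lemma re_near {s : ℂ} {x r : ℝ} (h : ‖s - (x : ℂ)‖ = r) : |s.re - x| ≤ r ∧ |s.im| ≤ r := by
  have h1 := Complex.abs_re_le_norm (s - (x : ℂ))
  have h2 := Complex.abs_im_le_norm (s - (x : ℂ))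
  rw [h] at h1 h2
  simp only [sub_re, ofReal_re, sub_im, ofReal_im, sub_zero] at h1 h2
  exact ⟨h1, h2⟩

lemma abs_re_sub_le (s : ℂ) (x : ℝ) : |s.re - x| ≤ ‖s - (x : ℂ)‖ := by
  have h1 := Complex.abs_re_le_norm (s - (x : ℂ))
  simpa using h1

/-- a circle of radius `1/4` around a half integer left of `0` -/
lemma far_site {s : ℂ} (l : ℕ) (h : ‖s - ((-((l : ℝ) + 1 / 2) : ℝ) : ℂ)‖ = 1 / 4) : FarW s := by
  left
  obtain ⟨h1, -⟩ := re_near h
  rw [abs_le] at h1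
  have hl : (0 : ℝ) ≤ l := Nat.cast_nonneg l
  refine ⟨by linarith, fun l' => ?_⟩
  by_cases hll : l' = l
  · subst hll
    have e : (PsiJ.ce l' : ℂ) = ((-((l' : ℝ) + 1 / 2) : ℝ) : ℂ) := by
      unfold PsiJ.ce; push_cast; ring
    rw [e, h]; norm_num
  · have h2 := abs_re_sub_le s (-(1 / 2) - l')
    have e : (((-(1 / 2) - l' : ℝ)) : ℂ) = PsiJ.ce l' := by
      unfold PsiJ.ce; push_cast; ring
    rw [e] at h2
    refine le_trans ?_ h2
    rw [le_abs]
    rcases Nat.lt_or_gt_of_ne hll with h3 | h3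
    · have : (l' : ℝ) + 1 ≤ l := by exact_mod_cast h3
      right; linarith
    · have : (l : ℝ) + 1 ≤ l' := by exact_mod_cast h3
      left; linarith

/-- a circle of radius `1/4` around a half integer right of `0` -/
lemma far_star {s : ℂ} (l : ℕ) (h : ‖s - (((l : ℝ) + 1 / 2 : ℝ) : ℂ)‖ = 1 / 4) : FarW s := by
  right
  obtain ⟨h1, -⟩ := re_near h
  rw [abs_le] at h1
  have hl : (0 : ℝ) ≤ l := Nat.cast_nonneg l
  refine ⟨by linarith, fun n => ?_⟩
  have h2 := abs_re_sub_le s n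
  have e : (((n : ℝ)) : ℂ) = (n : ℂ) := by push_cast; rfl
  rw [e] at h2
  refine le_trans ?_ h2
  rw [le_abs]
  rcases Nat.lt_or_ge l n with h3 | h3
  · have : (l : ℝ) + 1 ≤ n := by exact_mod_cast h3
    right; linarith
  · have : (n : ℝ) ≤ l := by exact_mod_cast h3
    left; linarith

/-- a circle of radius `1/4` around a negative integer -/
lemma far_neg {s : ℂ} (m : ℕ) (hm : 1 ≤ m) (h : ‖s - ((-(m : ℝ) : ℝ) : ℂ)‖ = 1 / 4) : FarW s := by
  left
  obtain ⟨h1, -⟩ := re_near h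
  rw [abs_le] at h1
  have hl : (1 : ℝ) ≤ m := by exact_mod_cast hm
  refine ⟨by linarith, fun l' => ?_⟩
  have h2 := abs_re_sub_le s (-(1 / 2) - l')
  have e : (((-(1 / 2) - l' : ℝ)) : ℂ) = PsiJ.ce l' := by
    unfold PsiJ.ce; push_cast; ring
  rw [e] at h2
  refine le_trans ?_ h2
  rw [le_abs]
  rcases Nat.lt_or_ge l' m with h3 | h3
  · have : (l' : ℝ) + 1 ≤ m := by exact_mod_cast h3
    right; linarith
  · have : (m : ℝ) ≤ l' := by exact_mod_cast h3
    left; linarith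

lemma far_slot (S : Shape) (u : ℕ) (k : Slot S u) {s : ℂ} (h : ‖s - (ctr S u k : ℂ)‖ = 1 / 4) :
    FarW s ∧ |s.im| ≤ 1 / 4 := by
  refine ⟨?_, (re_near h).2⟩
  rcases k with l | (l | j)
  · exact far_site l h
  · exact far_star l h
  · exact far_neg (S.w * u + 1 + (j : ℕ)) (by omega) h

end Crest.Agent.R006.P3
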