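import Crest.Agent.R006.P3_Glue_819
import Crest.Agent.R006.P3_NormW_257

/-!
# Row 6, block P3: the discrete inequality `Disc` from helper257's `fixed_bound` (helper819)

`FixedBound S` is the statement of `fixed_bound` (Fin-indexed references, bounds of the integrands);
`disc_of : FixedBound S → Disc S c`.
-/

set_option autoImplicit false

open Complex

namespace Crest.Agent.R006.P3

open Polynomial Crest.Agent.R006.D Crest.Agent.R006.NV Crest.Agent.R006.Bord
  Crest.Agent.R006.Potx943 Crest.Agent.R006.ConstX673 Crest.Agent.R006.Border410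

/-- the statement of `fixed_bound` (helper257, header of helper283, unit columns through `BU`) -/
def FixedBound (S : Shape) : Prop :=
  ∀ (u c : ℕ) (r : D.Col S u → D.Row), Adm S u c r →
  ∀ (W : Fin (S.k * u + S.g * u + c) → ℂ) (Z : Fin (S.k * u) → ℂ) (Y : Fin (S.g * u) → ℂ),
  Function.Injective W → Function.Injective Z → Function.Injective Y →
  ∀ (B LR LQ LU : ℝ) (μ ν : Slot S u → ℝ), 0 ≤ B → 0 ≤ LR → 0 ≤ LQ → 0 ≤ LU →
  (∀ k, 0 < μ k) → (∀ k, 0 ≤ ν k) →
  (∀ i j (t : ℝ), 0 < t → ∀ v : ℂ, v = -1 + I ∨ v = -1 - I →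
    ‖JR (rayPt S u v t) * ((rhoC S u * lg Z j).eval (rayPt S u v t) *
      (lg W i).eval (rayPt S u v t) / (om S u c).eval (rayPt S u v t))‖ ≤
        B * LR / (1 + t) ^ 2) →
  (∀ i j (t : ℝ), 0 < t → ∀ v : ℂ, v = -1 + I ∨ v = -1 - I →
    ‖JQ (rayPt S u v t) * ((lg Y j).eval (rayPt S u v t) *
      (lg W i).eval (rayPt S u v t) / (om S u c).eval (rayPt S u v t))‖ ≤
        B * LQ / (1 + t) ^ 2) →
  (∀ k i s, ‖s - (ctr S u k : ℂ)‖ = 1 / 4 → ‖(lg W i).eval s‖ ≤ B * μ k) →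
  (∀ k j s, ‖s - (ctr S u k : ℂ)‖ = 1 / 4 →
    ‖JR s * ((rhoC S u * lg Z j).eval s / (om S u c).eval s)‖ ≤ ν k * LR) →
  (∀ k j s, ‖s - (ctr S u k : ℂ)‖ = 1 / 4 →
    ‖JQ s * ((lg Y j).eval s / (om S u c).eval s)‖ ≤ ν k * LQ) →
  (∀ k j s, ‖s - (ctr S u k : ℂ)‖ = 1 / 4 →
    ‖(JQ s - 2 * gL s) * ((lg Y j).eval s / (om S u c).eval s)‖ ≤ ν k * LQ) →
  (∀ (J : Rw S u c) i, ‖BU S u c J (lg W i)‖ ≤ B * LU) →
  ∃ e : D.Col S u ⊕ Fin c ≃ Rw S u c,
    |aeval GG (Minor S u r)| * (‖(Matrix.vandermonde W).det‖ *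
      (‖(Matrix.vandermonde Z).det‖ * ‖(Matrix.vandermonde Y).det‖)) ≤
    |((kap S u * VV S u c e : ℚ) : ℝ)| *
      ((S.k * u + S.g * u + c + ∑ k, ord S u k).factorial *
        (B ^ (S.k * u + S.g * u + c) * (LR ^ (S.k * u) * (LQ ^ (S.g * u) * LU ^ c)) *
          ∏ k, max 1 (μ k * ν k) ^ ord S u k))

/-- the total number of slots is `O(u)` -/
lemma sum_ord_le_819 (S : Shape) (u : ℕ) :
    ∑ k, ord S u k ≤ 3 * (S.w + S.h1 + S.e1) * u := by
  have h1 : ∀ k : Slot S u, ord S u k ≤ 3 := by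
    intro k
    rcases k with l | (l | j)
    · exact le_rfl
    · simp only [ord]
      split_ifs <;> omega
    · simp only [ord]
      split_ifs <;> omega
  calc ∑ k, ord S u k ≤ ∑ _k : Slot S u, 3 := Finset.sum_le_sum fun k _ => h1 k
    _ = 3 * (S.w * u + (S.h1 * u + (S.e1 * u - S.w * u))) := by
        rw [Finset.sum_const, Finset.card_univ, Fintype.card_sum, Fintype.card_sum,
          Fintype.card_fin, Fintype.card_fin, Fintype.card_fin, smul_eq_mul, mul_comm]
    _ ≤ 3 * (S.w * u + (S.h1 * u + S.e1 * u)) := by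
        have := Nat.sub_le (S.e1 * u) (S.w * u)
        omega
    _ = 3 * (S.w + S.h1 + S.e1) * u := by ring

lemma norm_lg_comp_819 {ι : Type} [Fintype ι] [DecidableEq ι] {n : ℕ} (e : Fin n ≃ ι) (w : ι → ℂ)
    (i : Fin n) (s : ℂ) : ‖(lg (fun i => w (e i)) i).eval s‖ = oth w (e i) s := by
  rw [lg_eq_819 e w, norm_eval_lgT_819]

lemma oth_nonnegD_819 {ι : Type} [Fintype ι] [DecidableEq ι] (w : ι → ℂ) (i : ι) (s : ℂ) :
    0 ≤ oth w i s := Finset.prod_nonneg fun _ _ => norm_nonneg _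

lemma NSn_nonneg_819 (S : Shape) (u c : ℕ) (s : ℂ) : 0 ≤ NSn S u c s :=
  Finset.prod_nonneg fun _ _ => pow_nonneg (norm_nonneg _) _

lemma rhon_nonneg_819 (S : Shape) (u : ℕ) (s : ℂ) : 0 ≤ rhon S u s := by
  rw [← norm_rhoC]; exact norm_nonneg _

/-- one constant for all jump functions -/
lemma exists_J_le_819 : ∃ K : ℝ, 1 ≤ K ∧ ∀ s : ℂ, FarW s →
    ‖JR s‖ ≤ K * Real.exp (s.re * Real.log 8 - Real.pi * |s.im|) ∧
    ‖JQ s‖ ≤ K * Real.exp (-(2 * Real.pi * |s.im|)) ∧
    (|s.im| ≤ 1 / 4 → ‖JQ s - 2 * gL s‖ ≤ K * Real.exp (-(2 * Real.pi * |s.im|))) := by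
  obtain ⟨K, hK, h⟩ := exists_JR_le
  refine ⟨max K (432 * Real.exp 2), ?_, fun s hs => ⟨?_, ?_, ?_⟩⟩
  · refine le_max_of_le_right ?_
    have : (1 : ℝ) ≤ Real.exp 2 := Real.one_le_exp (by norm_num)
    linarith
  · refine (h s hs).trans ?_
    gcongr
    exact le_max_left _ _
  · refine (JQ_le hs).trans ?_
    gcongr
    refine le_max_of_le_right ?_
    have : (1 : ℝ) ≤ Real.exp 2 := Real.one_le_exp (by norm_num)
    linarith
  · intro hi
    refine (JQw_le hs hi).trans ?_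
    gcongr
    exact le_max_right _ _

/-- **`Disc` from `fixed_bound`** -/
theorem disc_of {S : Shape} (hS : S.Good) (c : ℕ) (FB : FixedBound S) : Disc S c := by
  obtain ⟨K, hK1, hK⟩ := exists_J_le_819
  obtain ⟨C1, hC1, habs⟩ := absorb_819 S c (3 * (S.w + S.h1 + S.e1)) 0 le_rfl
  have hlK : 0 ≤ Real.log K := Real.log_nonneg hK1
  have hK0 : 0 < K := by linarith
  refine ⟨C1 + (S.k + S.g) * Real.log K, by positivity, ?_⟩
  intro u hu r hr ιW ιZ ιY _ _ _ _ _ _ w z y hw hz hy cW cZ cY LR LQ HW μ ν hLR hLQ hHW hμ hν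
    hrR hrQ hcW hcR hcQ hH
  set eW : Fin (S.k * u + S.g * u + c) ≃ ιW :=
    (Fintype.equivFinOfCardEq (by rw [cW, add_assoc])).symm with heW
  set eZ : Fin (S.k * u) ≃ ιZ := (Fintype.equivFinOfCardEq cZ).symm with heZ
  set eY : Fin (S.g * u) ≃ ιY := (Fintype.equivFinOfCardEq cY).symm with heY
  have hFB := FB u c r hr (fun i => w (eW i)) (fun i => z (eZ i)) (fun i => y (eY i))
    (hw.comp eW.injective) (hz.comp eZ.injective) (hy.comp eY.injective)
    1 (K * LR) (K * LQ) (HW * 4 ^ (S.rows * u + c)) μ ν zero_le_one (by positivity)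
    (by positivity) (by positivity) hμ hν
  have hex : ∃ e : D.Col S u ⊕ Fin c ≃ Rw S u c,
    |aeval GG (Minor S u r)| * (‖(Matrix.vandermonde fun i => w (eW i)).det‖ *
      (‖(Matrix.vandermonde fun i => z (eZ i)).det‖ *
        ‖(Matrix.vandermonde fun i => y (eY i)).det‖)) ≤
    |((kap S u * VV S u c e : ℚ) : ℝ)| *
      ((S.k * u + S.g * u + c + ∑ k, ord S u k).factorial *
        ((1 : ℝ) ^ (S.k * u + S.g * u + c) * ((K * LR) ^ (S.k * u) * ((K * LQ) ^ (S.g * u) *
          (HW * 4 ^ (S.rows * u + c)) ^ c)) *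
          ∏ k, max 1 (μ k * ν k) ^ ord S u k)) := by
    refine hFB ?_ ?_ ?_ ?_ ?_ ?_ ?_
    · -- ray, R
      intro i j t ht v hv
      have hF := (hK _ (far_ray S u ht.le hv)).1
      have h1 := hrR (eW i) (eZ j) t ht.le v hv
      set s := rayPt S u v t with hs
      rw [norm_mul, norm_div, norm_mul, eval_mul, norm_mul, norm_rhoC, norm_lg_comp_819 eZ z,
        norm_lg_comp_819 eW w, norm_om hS, one_mul]
      have ht2 : (0 : ℝ) < (1 + t) ^ 2 := by positivity
      rw [le_div_iff₀ ht2]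
      have h2 : 0 ≤ rhon S u s * oth z (eZ j) s * oth w (eW i) s / NSn S u c s :=
        div_nonneg (mul_nonneg (mul_nonneg (rhon_nonneg_819 S u s) (oth_nonnegD_819 _ _ _))
          (oth_nonnegD_819 _ _ _)) (NSn_nonneg_819 _ _ _ _)
      calc ‖JR s‖ * (rhon S u s * oth z (eZ j) s * oth w (eW i) s / NSn S u c s) * (1 + t) ^ 2
          ≤ (K * Real.exp (s.re * Real.log 8 - Real.pi * |s.im|)) *
            (rhon S u s * oth z (eZ j) s * oth w (eW i) s / NSn S u c s) * (1 + t) ^ 2 := by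
            gcongr
        _ = K * (oth w (eW i) s * oth z (eZ j) s * wtR S u c s * (1 + t) ^ 2) := by
            rw [wtR]; ring
        _ ≤ K * LR := mul_le_mul_of_nonneg_left h1 hK0.le
    · -- ray, Q
      intro i j t ht v hv
      have hF := (hK _ (far_ray S u ht.le hv)).2.1
      have h1 := hrQ (eW i) (eY j) t ht.le v hv
      set s := rayPt S u v t with hs
      rw [norm_mul, norm_div, norm_mul, norm_lg_comp_819 eY y, norm_lg_comp_819 eW w, norm_om hS, one_mul]
      have ht2 : (0 : ℝ) < (1 + t) ^ 2 := by positivity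
      rw [le_div_iff₀ ht2]
      have h2 : 0 ≤ oth y (eY j) s * oth w (eW i) s / NSn S u c s :=
        div_nonneg (mul_nonneg (oth_nonnegD_819 _ _ _) (oth_nonnegD_819 _ _ _)) (NSn_nonneg_819 _ _ _ _)
      calc ‖JQ s‖ * (oth y (eY j) s * oth w (eW i) s / NSn S u c s) * (1 + t) ^ 2
          ≤ (K * Real.exp (-(2 * Real.pi * |s.im|))) *
            (oth y (eY j) s * oth w (eW i) s / NSn S u c s) * (1 + t) ^ 2 := by
            gcongr
        _ = K * (oth w (eW i) s * oth y (eY j) s * wtQ S u c s * (1 + t) ^ 2) := by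
            rw [wtQ]; ring
        _ ≤ K * LQ := mul_le_mul_of_nonneg_left h1 hK0.le
    · -- circles, W
      intro k i s hs
      rw [norm_lg_comp_819 eW w, one_mul]
      exact hcW k (eW i) s hs
    · -- circles, R
      intro k j s hs
      have hF := (hK _ (far_slot S u k hs).1).1
      have h1 := hcR k (eZ j) s hs
      rw [norm_mul, norm_div, eval_mul, norm_mul, norm_rhoC, norm_lg_comp_819 eZ z, norm_om hS]
      have h2 : 0 ≤ rhon S u s * oth z (eZ j) s / NSn S u c s :=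
        div_nonneg (mul_nonneg (rhon_nonneg_819 S u s) (oth_nonnegD_819 _ _ _)) (NSn_nonneg_819 _ _ _ _)
      calc ‖JR s‖ * (rhon S u s * oth z (eZ j) s / NSn S u c s)
          ≤ (K * Real.exp (s.re * Real.log 8 - Real.pi * |s.im|)) *
            (rhon S u s * oth z (eZ j) s / NSn S u c s) := by gcongr
        _ = K * (oth z (eZ j) s * wtR S u c s) := by rw [wtR]; ring
        _ ≤ K * (ν k * LR) := mul_le_mul_of_nonneg_left h1 hK0.le
        _ = ν k * (K * LR) := by ring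
    · -- circles, Q
      intro k j s hs
      have hF := (hK _ (far_slot S u k hs).1).2.1
      have h1 := hcQ k (eY j) s hs
      rw [norm_mul, norm_div, norm_lg_comp_819 eY y, norm_om hS]
      have h2 : 0 ≤ oth y (eY j) s / NSn S u c s :=
        div_nonneg (oth_nonnegD_819 _ _ _) (NSn_nonneg_819 _ _ _ _)
      calc ‖JQ s‖ * (oth y (eY j) s / NSn S u c s)
          ≤ (K * Real.exp (-(2 * Real.pi * |s.im|))) *
            (oth y (eY j) s / NSn S u c s) := by gcongr
        _ = K * (oth y (eY j) s * wtQ S u c s) := by rw [wtQ]; ring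
        _ ≤ K * (ν k * LQ) := mul_le_mul_of_nonneg_left h1 hK0.le
        _ = ν k * (K * LQ) := by ring
    · -- circles, Q, modified jump
      intro k j s hs
      have hF := (hK _ (far_slot S u k hs).1).2.2 (far_slot S u k hs).2
      have h1 := hcQ k (eY j) s hs
      rw [norm_mul, norm_div, norm_lg_comp_819 eY y, norm_om hS]
      have h2 : 0 ≤ oth y (eY j) s / NSn S u c s :=
        div_nonneg (oth_nonnegD_819 _ _ _) (NSn_nonneg_819 _ _ _ _)
      calc ‖JQ s - 2 * gL s‖ * (oth y (eY j) s / NSn S u c s)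
          ≤ (K * Real.exp (-(2 * Real.pi * |s.im|))) *
            (oth y (eY j) s / NSn S u c s) := by gcongr
        _ = K * (oth y (eY j) s * wtQ S u c s) := by rw [wtQ]; ring
        _ ≤ K * (ν k * LQ) := mul_le_mul_of_nonneg_left h1 hK0.le
        _ = ν k * (K * LQ) := by ring
    · -- unit columns
      intro J i
      rw [lg_eq_819 eW w, one_mul]
      exact norm_BU_le_819 hS w _ (hH _) J
  obtain ⟨e, he⟩ := hex
  rw [kapVV_eq_819, ← vdm_eq_819 eW w hw, ← vdm_eq_819 eZ z hz, ← vdm_eq_819 eY y hy] at he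
  have habs' := habs u hu (∑ k, ord S u k) (sum_ord_le_819 S u) 1 zero_le_one
    (by rw [zero_mul, Real.exp_zero])
  have hKp : K ^ (S.k * u) * K ^ (S.g * u) ≤
      Real.exp ((S.k + S.g) * Real.log K * (u * (1 + Real.log u))) := by
    rw [← pow_add, P3Unit.pow_eq_exp hK0, Real.exp_le_exp]
    have h1 : (u : ℝ) ≤ u * (1 + Real.log u) := ef_ge hu
    push_cast
    calc ((S.k : ℝ) * u + S.g * u) * Real.log K = (S.k + S.g) * Real.log K * u := by ring
      _ ≤ (S.k + S.g) * Real.log K * (u * (1 + Real.log u)) :=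
          mul_le_mul_of_nonneg_left h1 (by positivity)
  have hP : 0 ≤ ∏ k, max 1 (μ k * ν k) ^ ord S u k :=
    Finset.prod_nonneg fun k _ => pow_nonneg (le_trans zero_le_one (le_max_left _ _)) _
  set P := ∏ k, max 1 (μ k * ν k) ^ ord S u k with hPdef
  set V0 := Real.exp (logV S u c) / kden S u with hV0
  have hV0' : 0 ≤ V0 := div_nonneg (Real.exp_pos _).le (kden_pos S u).le
  have key : |aeval GG (Minor S u r)| * (vdm w * vdm z * vdm y) ≤
      V0 * (((S.k * u + S.g * u + c + ∑ k, ord S u k).factorial : ℝ) *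
        (1 ^ (S.k * u + S.g * u + c) * ((K * LR) ^ (S.k * u) * ((K * LQ) ^ (S.g * u) *
          (HW * 4 ^ (S.rows * u + c)) ^ c)) * P)) := by
    rw [mul_assoc (vdm w)]
    exact he
  refine key.trans ?_
  have e1 : V0 * (((S.k * u + S.g * u + c + ∑ k, ord S u k).factorial : ℝ) *
        (1 ^ (S.k * u + S.g * u + c) * ((K * LR) ^ (S.k * u) * ((K * LQ) ^ (S.g * u) *
          (HW * 4 ^ (S.rows * u + c)) ^ c)) * P)) =
      ((((S.k * u + S.g * u + c + ∑ k, ord S u k).factorial : ℝ) *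
        1 ^ (S.k * u + S.g * u + c) * ((4 : ℝ) ^ (S.rows * u + c)) ^ c) *
        (K ^ (S.k * u) * K ^ (S.g * u))) *
      (V0 * LR ^ (S.k * u) * LQ ^ (S.g * u) * HW ^ c * P) := by
    rw [mul_pow K LR, mul_pow K LQ, mul_pow HW]
    ring
  have e2 : Real.exp ((C1 + (S.k + S.g) * Real.log K) * (u * (1 + Real.log u))) * V0 *
      LR ^ (S.k * u) * LQ ^ (S.g * u) * HW ^ c * P =
      (Real.exp (C1 * (u * (1 + Real.log u))) *
        Real.exp ((S.k + S.g) * Real.log K * (u * (1 + Real.log u)))) *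
      (V0 * LR ^ (S.k * u) * LQ ^ (S.g * u) * HW ^ c * P) := by
    rw [← Real.exp_add, ← add_mul]
    ring
  rw [e1, e2]
  have hR0 : 0 ≤ V0 * LR ^ (S.k * u) * LQ ^ (S.g * u) * HW ^ c * P := by positivity
  refine mul_le_mul_of_nonneg_right ?_ hR0
  exact mul_le_mul habs' hKp (by positivity) (Real.exp_pos _).le

end Crest.Agent.R006.P3
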