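import Crest.Agent.R006.RepR_724

/-!
Row 6 (helper724): REP, `R`-side, for complex polynomials `b` (helper576's `colRC`).

`colRC b z = gm z b * (mp psi0 - C G * mp psi1) - gm z (TR mu b)`;
`Nodes.repC`: `lam P (colRC b) = - ∑_l L vv l f - ∑_stars (2πi)⁻¹ ∮ J vv f`, `f = b P / NS`.
-/

set_option autoImplicit false

namespace Crest.Agent.R006.Base724

open Polynomial Filter Topology
open Crest.Agent.R006.NV Crest.Agent.R006.Germ724 Crest.Agent.R006.PsiInf

/-- germ column of `b ψ - TR b` at `X = G` -/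
noncomputable def colRC (b : ℂ[X]) (z : D.Site) : PowerSeries ℂ :=
  gm (z.val : ℂ) b * (mp (D.psi0 z) - PowerSeries.C (Psi724.G : ℂ) * mp (D.psi1 z)) -
    gm (z.val : ℂ) (TR (fun k => ((PsiInf.mu k : ℚ) : ℂ)) b)

/-- for `b = R : ℚ[X]` it is the column of the entries of `Defs.lean` at `X = GG` -/
lemma colRC_pc (R : ℚ[X]) (z : D.Site) (j : ℕ) :
    PowerSeries.coeff j (colRC (pc R) z) = entC R (z, j) := (entC_coeff R z j).symm

variable {K0 : PowerSeries ℂ}

/-- row `(Z n, 0)`, `n ≥ 0` -/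
theorem Adm.colRC_nonneg (h : Adm K0) (b : ℂ[X]) (n : ℕ) :
    PowerSeries.coeff 0 (colRC b (D.Site.Z n)) = mu K0 (fun s => b.eval s * (s - n) ^ (-1 : ℤ)) := by
  have h1 := mu_mul_zpow K0 (off_nat n) b 0
  rw [h.mm_eq] at h1
  have e1 : (-1 - ((0 : ℕ) : ℤ)) = -1 := by norm_num
  rw [e1] at h1
  rw [h1]
  unfold colRC
  have ev : (((D.Site.Z n).val : ℚ) : ℂ) = (n : ℂ) := by
    simp [D.Site.val]
  rw [ev]
  have h2 := h.nonneg_chain n
  have e2 : (((n : ℤ) : ℂ)) = (n : ℂ) := by push_cast; rfl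
  rw [e2] at h2
  exact coeff_eq_of_dvd (by norm_num) h2

/-- row `(Z (-m-1), j)`, `j ≤ 2` -/
theorem Adm.colRC_neg (h : Adm K0) (b : ℂ[X]) (m j : ℕ) (hj : j ≤ 2) :
    PowerSeries.coeff j (colRC b (D.Site.Z (-(m : ℤ) - 1))) =
      mu K0 (fun s => b.eval s * (s - ((-(m : ℤ) - 1 : ℤ) : ℂ)) ^ (-1 - (j : ℤ))) := by
  rw [mu_mul_zpow K0 (off_int _) b j, h.mm_eq]
  unfold colRC
  have ev : (((D.Site.Z (-(m : ℤ) - 1)).val : ℚ) : ℂ) = ((-(m : ℤ) - 1 : ℤ) : ℂ) := by
    simp [D.Site.val]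
  rw [ev]
  exact coeff_eq_of_dvd (by omega) (h.neg_chain m)

/-- row `(H l, j)`, `l ≥ 0`, `j ≤ 2` -/
theorem Adm.colRC_star (h : Adm K0) (b : ℂ[X]) (l j : ℕ) (hj : j ≤ 2) :
    PowerSeries.coeff j (colRC b (D.Site.H l)) =
      mu K0 (fun s => b.eval s * (s - ((l : ℂ) + 1 / 2)) ^ (-1 - (j : ℤ))) -
        PowerSeries.coeff j (gm ((l : ℂ) + 1 / 2) b * Kr K0 l) := by
  rw [mu_mul_zpow K0 (off_half l) b j, h.mm_eq]
  unfold colRC
  have ev : (((D.Site.H l).val : ℚ) : ℂ) = (l : ℂ) + 1 / 2 := by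
    simp [D.Site.val]
  rw [ev]
  have e0 : mp (D.psi0 (D.Site.H l)) - PowerSeries.C (Psi724.G : ℂ) * mp (D.psi1 (D.Site.H l)) =
      PH l := by
    have : D.psi1 (D.Site.H l) = 0 := rfl
    rw [this]
    simp only [mp, map_zero, mul_zero, sub_zero]
    rfl
  rw [e0, ← map_sub]
  have h2 := h.star_chain l
  have e := coeff_eq_of_dvd (g := gm ((l : ℂ) + 1 / 2) b)
    (c := gm ((l : ℂ) + 1 / 2) (TR (fun k => ((PsiInf.mu k : ℚ) : ℂ)) b))
    (show j < 3 by omega) h2
  rw [e]
  congr 1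
  ring

/-- row `(H (-l-1), 0)` when `b` vanishes there -/
theorem Adm.colRC_w (h : Adm K0) (b : ℂ[X]) (l : ℕ) (hR : b.eval (site l) = 0) :
    PowerSeries.coeff 0 (colRC b (D.Site.H (-(l : ℤ) - 1))) =
      mu K0 (fun s => (b /ₘ (X - C (site l))).eval s) := by
  rw [h.mu_eval]
  unfold colRC
  have ev : (((D.Site.H (-(l : ℤ) - 1)).val : ℚ) : ℂ) = site l := by
    unfold site
    simp [D.Site.val]
    ring
  rw [ev, map_sub, coeff_zero_mul]
  have e0 : ∀ P : ℂ[X], PowerSeries.coeff 0 (gm (site l) P) = P.eval (site l) := by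
    intro P
    unfold gm
    rw [Polynomial.coeff_coe, taylor_coeff_zero]
  rw [e0, e0, hR, zero_mul, zero_sub, eval_TR]

namespace Nodes

variable (N : Nodes)

/-- first form: `mu` and star coefficients -/
theorem repC1 {K0 : PowerSeries ℂ} (hK : Adm K0) (R R' P : ℂ[X])
    (hR : R = (∏ i ∈ N.W, (X - C (N.z i))) * R')
    (hP : P.degree < (∑ i, N.mul i : ℕ)) :
    Lam.lam N.z N.mul P (fun i : N.A => colRC R i.1) = mu K0 (N.fR R' P) -
      ∑ i ∈ N.St, if N.mul i = 0 then 0 else
        PowerSeries.coeff (N.mul i - 1) (gm (N.z i) R * N.kap K0 i * Lam.wt N.z N.mul P i) := by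
  have hW : ∀ i ∈ N.W, N.mul i = 1 := by
    intro i hi
    unfold W at hi
    rw [Finset.mem_filter] at hi
    obtain ⟨⟨s, hs⟩, h⟩ := (⟨i, hi.2⟩ : ∃ j : N.A, IsW j.1)
    obtain ⟨i, hiA⟩ := i
    rcases i with j | j
    · exact absurd hi.2 id
    · exact N.hW j hiA hi.2
  have h := lamR N.z N.mul N.z_inj K0 N.W hW (fun i hi => N.off_of_not_W hi) R R' P hR hP
    (N.kap K0) (fun i : N.A => colRC R i.1) ?_ ?_
  · rw [h]
    unfold fR den
    congr 1
    have hsub : N.St ⊆ Finset.univ \ N.W := by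
      intro i hi
      unfold St at hi
      rw [Finset.mem_filter] at hi
      obtain ⟨l, hl⟩ := hi.2.exists
      rw [Finset.mem_sdiff]
      refine ⟨Finset.mem_univ _, fun hw => ?_⟩
      unfold W at hw
      rw [Finset.mem_filter, hl] at hw
      have : ((l : ℤ)) < 0 := hw.2
      omega
    symm
    apply Finset.sum_subset hsub
    intro i _ hi
    have hk : N.kap K0 i = 0 := by
      unfold kap
      rcases hi' : i.1 with j | j
      · rfl
      · rcases j with l | l
        · exfalso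
          apply hi
          unfold St
          rw [Finset.mem_filter]
          refine ⟨Finset.mem_univ _, ?_⟩
          rw [hi']
          exact Int.natCast_nonneg l
        · rfl
    rw [hk]
    simp
  · intro i hi j hj
    show PowerSeries.coeff j (colRC R i.1) = _
    obtain ⟨i, hiA⟩ := i
    rcases i with a | a
    · rcases a with n | n
      · have hj1 : j = 0 := by
          have := N.hZ (Int.ofNat n) (Int.natCast_nonneg n)
          have h2 : N.mul ⟨D.Site.Z (Int.ofNat n), hiA⟩ = N.m (D.Site.Z (Int.ofNat n)) := rfl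
          rw [h2] at hj
          omega
        subst hj1
        have hk : N.kap K0 ⟨D.Site.Z (Int.ofNat n), hiA⟩ = 0 := rfl
        have hz : N.z ⟨D.Site.Z (Int.ofNat n), hiA⟩ = (n : ℂ) := by
          unfold z; simp [D.Site.val]
        rw [hk, hz]
        have := hK.colRC_nonneg R n
        simpa using this
      · have hj2 : j ≤ 2 := by
          have := N.hZ' (Int.negSucc n) (Int.negSucc_lt_zero n)
          have h2 : N.mul ⟨D.Site.Z (Int.negSucc n), hiA⟩ = N.m (D.Site.Z (Int.negSucc n)) := rfl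
          rw [h2] at hj
          omega
        have hk : N.kap K0 ⟨D.Site.Z (Int.negSucc n), hiA⟩ = 0 := rfl
        have hneg : Int.negSucc n = -(n : ℤ) - 1 := by rw [Int.negSucc_eq]; ring
        have hz : N.z ⟨D.Site.Z (Int.negSucc n), hiA⟩ = ((-(n : ℤ) - 1 : ℤ) : ℂ) := by
          unfold z; simp [D.Site.val, hneg]
        rw [hk, hz]
        have := hK.colRC_neg R n j hj2
        simp only [mul_zero, map_zero, sub_zero]
        rw [← this, hneg]
    · rcases a with l | l
      · have hj2 : j ≤ 2 := by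
          have := N.hH (Int.ofNat l) (Int.natCast_nonneg l)
          have h2 : N.mul ⟨D.Site.H (Int.ofNat l), hiA⟩ = N.m (D.Site.H (Int.ofNat l)) := rfl
          rw [h2] at hj
          omega
        have hk : N.kap K0 ⟨D.Site.H (Int.ofNat l), hiA⟩ = Kr K0 l := rfl
        have hz : N.z ⟨D.Site.H (Int.ofNat l), hiA⟩ = (l : ℂ) + 1 / 2 := by
          unfold z; simp [D.Site.val]
        rw [hk, hz]
        exact hK.colRC_star R l j hj2
      · exfalso
        apply hi
        unfold W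
        rw [Finset.mem_filter]
        exact ⟨Finset.mem_univ _, Int.negSucc_lt_zero l⟩
  · intro i hi
    show PowerSeries.coeff 0 (colRC R i.1) = _
    have hi0 := hi
    obtain ⟨i, hiA⟩ := i
    unfold W at hi
    rw [Finset.mem_filter] at hi
    rcases i with a | a
    · exact absurd hi.2 id
    · rcases a with l | l
      · have : Int.ofNat l < 0 := hi.2
        simp at this
        omega
      · have hneg : Int.negSucc l = -(l : ℤ) - 1 := by rw [Int.negSucc_eq]; ring
        have hz : N.z ⟨D.Site.H (Int.negSucc l), hiA⟩ = site l := by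
          unfold z site; simp [D.Site.val, hneg]; ring
        have hroot : R.eval (site l) = 0 := by
          rw [hR, eval_mul, eval_prod, Finset.prod_eq_zero hi0, zero_mul]
          simp [hz]
        rw [hz, ← hK.colRC_w R l hroot]
        show PowerSeries.coeff 0 (colRC R (D.Site.H (Int.negSucc l))) = _
        rw [hneg]

/-- `f = R P / NS` off the nodes -/
lemma fRC_eq {R R' P : ℂ[X]} (hR : R = (∏ i ∈ N.W, (X - C (N.z i))) * R') {s : ℂ}
    (hs : ∀ i, s ≠ N.z i) : N.fR R' P s = R.eval s * P.eval s / (Lam.NS N.z N.mul).eval s := by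
  have hne : ∀ i, s - N.z i ≠ 0 := fun i => sub_ne_zero.mpr (hs i)
  have e4 : (Lam.NS N.z N.mul).eval s = (∏ i ∈ N.W, (s - N.z i)) * N.den.eval s := by
    unfold den
    rw [Lam.NS, NSoff, eval_prod, eval_prod, ← Finset.prod_sdiff (Finset.subset_univ N.W), mul_comm]
    congr 1
    refine Finset.prod_congr rfl fun i hi => ?_
    rw [N.W_mul hi, pow_one, eval_sub, eval_X, eval_C]
  have e5 : R.eval s = (∏ i ∈ N.W, (s - N.z i)) * R'.eval s := by
    rw [hR, eval_mul, eval_prod]
    simp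
  have e6 : ∏ i ∈ N.W, (s - N.z i) ≠ 0 := Finset.prod_ne_zero_iff.mpr fun i _ => hne i
  have e7 : N.den.eval s ≠ 0 := N.den_ne_of_dist fun i _ => hs i
  unfold fR
  rw [e4, e5]
  field_simp

/-- circle form of one star term -/
lemma star_termC (v : Fin 3 → ℂ) {R R' P : ℂ[X]}
    (hR : R = (∏ i ∈ N.W, (X - C (N.z i))) * R') {i : N.A} (hi : i ∈ N.St)
    (hm : N.mul i ≠ 0) :
    PowerSeries.coeff (N.mul i - 1)
      (gm (N.z i) R * N.kap (K0J v) i * Lam.wt N.z N.mul P i) =
    (2 * Real.pi * Complex.I)⁻¹ * ∮ s in C(N.z i, 1 / 4), PsiJ.J v s * N.fR R' P s := by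
  have hi0 := hi
  unfold St at hi0
  rw [Finset.mem_filter] at hi0
  obtain ⟨l, hl⟩ := hi0.2.exists
  have hz : N.z i = star l := by
    unfold z star; rw [hl]; simp [D.Site.val]
  have hk : N.kap (K0J v) i = Kr (K0J v) l := by
    obtain ⟨i, hiA⟩ := i
    simp only at hl
    subst hl
    rfl
  set h : ℂ → ℂ := fun s => R.eval s * P.eval s / (Lam.Nhat N.z N.mul i).eval s with hh
  have hNh : ∀ s, ‖s - N.z i‖ ≤ 1 / 4 → (Lam.Nhat N.z N.mul i).eval s ≠ 0 := by
    intro s hs
    rw [Lam.Nhat, eval_prod, Finset.prod_ne_zero_iff]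
    intro k hk
    rw [eval_pow, eval_sub, eval_X, eval_C]
    exact pow_ne_zero _ (sub_ne_zero.mpr (N.near_node_ne (Finset.mem_erase.mp hk).1 hs))
  have hd : DifferentiableOn ℂ h (Metric.closedBall (star l) (1 / 4)) := by
    intro s hs
    rw [Metric.mem_closedBall, dist_eq_norm, ← hz] at hs
    exact ((R.differentiable.differentiableAt.mul P.differentiable.differentiableAt).div
      (Lam.Nhat N.z N.mul i).differentiable.differentiableAt (hNh s hs)).differentiableWithinAt
  have hT : T h (star l) = gm (N.z i) R * Lam.wt N.z N.mul P i := by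
    rw [← hz, hh, T_div ((analyticAt_eval _ _).fun_mul (analyticAt_eval _ _))
      (analyticAt_eval _ _) (hNh _ (by simp)), T_mul (analyticAt_eval _ _) (analyticAt_eval _ _),
      T_eval, T_eval, T_eval, Lam.wt, germ_eq_gm, germ_eq_gm, mul_assoc]
  have hc := circle_star v l (N.mul i - 1) (by norm_num : (0 : ℝ) < 1 / 4) le_rfl hd
  have e1 : (∮ s in C(N.z i, 1 / 4), PsiJ.J v s * N.fR R' P s) =
      ∮ s in C(star l, 1 / 4), PsiJ.J v s * (h s / (s - star l) ^ (N.mul i - 1 + 1)) := by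
    rw [hz]
    apply circleIntegral.integral_congr (by norm_num)
    intro s hs
    have hs' : ‖s - N.z i‖ = 1 / 4 := by
      rw [Metric.mem_sphere, dist_eq_norm] at hs; rw [hz]; exact hs
    have hne : ∀ k, s ≠ N.z k := by
      intro k
      by_cases hki : k = i
      · subst hki
        rintro rfl
        simp at hs'
      · exact N.near_node_ne hki hs'.le
    simp only
    rw [N.fRC_eq hR hne, Lam.NS_eq N.z N.mul i, eval_mul, eval_pow, eval_sub, eval_X, eval_C, hh]
    have : N.mul i - 1 + 1 = N.mul i := by omega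
    rw [this, hz]
    simp only
    rw [mul_comm ((s - star l) ^ N.mul i), div_div]
  rw [e1, hc, hT, hk]
  have hpi : (2 * (Real.pi : ℂ) * Complex.I) ≠ 0 := Complex.two_pi_I_ne_zero
  rw [← mul_assoc, inv_mul_cancel₀ hpi, one_mul]
  congr 1
  ring

/-- REP, `R`-side: circles at all the sites `-1/2-l` and at the star nodes. -/
theorem repC {R R' P : ℂ[X]}
    (hR : R = (∏ i ∈ N.W, (X - C (N.z i))) * R')
    (hP : P.degree < (∑ i, N.mul i : ℕ)) (hm : ∀ i ∈ N.St, N.mul i ≠ 0) :
    HasSum (fun l => PsiJ.L PsiJ.vv l (N.fR R' P))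
      (-Lam.lam N.z N.mul P (fun i : N.A => colRC R i.1) -
        ∑ i ∈ N.St, (2 * Real.pi * Complex.I)⁻¹ *
          ∮ s in C(N.z i, 1 / 4), PsiJ.J PsiJ.vv s * N.fR R' P s) := by
  have h := hasSum_L PsiJ.vv (N.fR_good R' P) (N.fR_diffOn R' P)
  have h1 := N.repC1 adm_vv R R' P hR hP
  have h2 : ∑ i ∈ N.St, (if N.mul i = 0 then 0 else
        PowerSeries.coeff (N.mul i - 1)
          (gm (N.z i) R * N.kap (K0J PsiJ.vv) i * Lam.wt N.z N.mul P i)) =
      ∑ i ∈ N.St, (2 * Real.pi * Complex.I)⁻¹ *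
          ∮ s in C(N.z i, 1 / 4), PsiJ.J PsiJ.vv s * N.fR R' P s := by
    refine Finset.sum_congr rfl fun i hi => ?_
    rw [if_neg (hm i hi), N.star_termC PsiJ.vv hR hi (hm i hi)]
  rw [h2] at h1
  rw [h1]
  convert h using 1
  ring

end Nodes

end Crest.Agent.R006.Base724
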