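import Crest.Agent.R006.LamQ_186
import Crest.Agent.R006.RepRC_724

/-!
Row 6 (Catalan's constant), g1 side (helper186): REP, `Q`-side, on 724's `Nodes`.

`colQC b z = gm z b * mp (gam z)`.
`repQ` : `∑_l (2πi)⁻¹ ∮_{C(ce l,1/4)} J1 f P/NS = - lam P (colQC f) + ∑_W (2πi)⁻¹ ∮ 2 g1L f P/NS
  - ∑_St (2πi)⁻¹ ∮ (J1 - 2 g1L) f P/NS`.
-/

set_option autoImplicit false

namespace Crest.Agent.R006.G1x186

open Complex Filter Topology Set Metric Polynomial
open Crest.Agent.R006.PsiJ Crest.Agent.R006.Germ724 Crest.Agent.R006.NV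
open Crest.Agent.R006.Base724 (mp Nodes site)

/-! ### reflection everywhere -/

lemma g1_reflect' {z : ℂ} (hs : Complex.sin (Real.pi * z) ≠ 0)
    (hc : Complex.cos (Real.pi * z) ≠ 0) :
    g1 z = Complex.sin (Real.pi * z) ^ 2 / Complex.cos (Real.pi * z) ^ 2 * g1L z := by
  have hpi : (Real.pi : ℂ) ≠ 0 := by exact_mod_cast Real.pi_ne_zero
  have h1 := Complex.Gamma_mul_Gamma_one_sub (-z)
  have e1 : 1 - -z = z + 1 := by ring
  have e2 : (Real.pi : ℂ) * -z = -(Real.pi * z) := by ring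
  rw [e1, e2, Complex.sin_neg] at h1
  have h2 := Complex.Gamma_mul_Gamma_one_sub (z + 1 / 2)
  have e3 : 1 - (z + 1 / 2) = 1 / 2 - z := by ring
  have e4 : (Real.pi : ℂ) * (z + 1 / 2) = Real.pi * z + Real.pi / 2 := by ring
  rw [e3, e4, Complex.sin_add_pi_div_two] at h2
  have hG1 : Gamma (z + 1) ≠ 0 := by
    intro h0
    rw [h0, mul_zero] at h1
    exact div_ne_zero hpi (neg_ne_zero.mpr hs) h1.symm
  have hG2 : Gamma (1 / 2 - z) ≠ 0 := by
    intro h0
    rw [h0, mul_zero] at h2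
    exact div_ne_zero hpi hc h2.symm
  rw [eq_div_iff (neg_ne_zero.mpr hs)] at h1
  rw [eq_div_iff hc] at h2
  unfold g1 g1L gr
  have e5 : z + 1 / 2 + 1 / 2 = z + 1 := by ring
  have e6 : -z + 1 / 2 = 1 / 2 - z := by ring
  rw [e5, e6]
  have key : Gamma (z + 1 / 2) * (Gamma (z + 1))⁻¹ =
      -(Complex.sin (Real.pi * z) / Complex.cos (Real.pi * z)) *
        (Gamma (-z) * (Gamma (1 / 2 - z))⁻¹) := by
    have e7 : Gamma (z + 1 / 2) = Real.pi / (Complex.cos (Real.pi * z) * Gamma (1 / 2 - z)) := by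
      rw [eq_div_iff (mul_ne_zero hc hG2)]
      linear_combination h2
    have e8 : Gamma (-z) = Real.pi / (-Complex.sin (Real.pi * z) * Gamma (z + 1)) := by
      rw [eq_div_iff (mul_ne_zero (neg_ne_zero.mpr hs) hG1)]
      linear_combination h1
    rw [e7, e8]
    field_simp
  rw [key]
  field_simp

/-- `J1 = g1 + g1L` off the half-integers and integers. -/
lemma J1_eq' {z : ℂ} (hs : Complex.sin (Real.pi * z) ≠ 0)
    (hc : Complex.cos (Real.pi * z) ≠ 0) : J1 z = g1 z + g1L z := by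
  rw [g1_reflect' hs hc]
  unfold J1
  have h := Complex.sin_sq_add_cos_sq (Real.pi * z)
  have hc2 : Complex.cos (Real.pi * z) ^ 2 ≠ 0 := pow_ne_zero 2 hc
  field_simp
  linear_combination (-g1L z) * h

/-! ### the columns -/

/-- germ column of `b g` -/
noncomputable def colQC (b : ℂ[X]) (z : D.Site) : PowerSeries ℂ := gm (z.val : ℂ) b * mp (D.gam z)

lemma mp_gam (z : D.Site) : mp (D.gam z) = PowerSeries.map (Rat.castHom ℂ) (D.gam z) := rfl

/-- for rational `b` these are the entries of `Defs.lean` -/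
lemma colQC_cP (Q : ℚ[X]) (z : D.Site) (j : ℕ) :
    PowerSeries.coeff j (colQC (cP Q) z) = ((D.entQ Q (z, j) : ℚ) : ℂ) := by
  rw [entQ_cast]; rfl

theorem colQC_Z (b : ℂ[X]) (i : ℤ) (j : ℕ) (h : (0 ≤ i ∧ j = 0) ∨ (i < 0 ∧ j ≤ 2)) :
    PowerSeries.coeff j (colQC b (.Z i)) =
      PowerSeries.coeff j (gm (i : ℂ) b * T g1 (i : ℂ)) := by
  unfold colQC
  have e1 : mp (D.gam (.Z i)) = GamZ i := Map.map_GamZ _ i
  have e2 : (((D.Site.Z i).val : ℚ) : ℂ) = (i : ℂ) := by simp [D.Site.val]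
  rw [e1, e2]
  rcases h with ⟨hi, hj⟩ | ⟨hi, hj⟩
  · obtain ⟨n, rfl⟩ := Int.eq_ofNat_of_zero_le hi
    subst hj
    apply coeff_eq_of_dvd (k := 1) (by norm_num)
    rw [pow_one]
    exact DZ_nonneg n
  · obtain ⟨n, hn⟩ := Int.eq_ofNat_of_zero_le (show 0 ≤ -i - 1 by omega)
    have e : i = -(n : ℤ) - 1 := by omega
    subst e
    apply coeff_eq_of_dvd (k := 3) (by omega)
    exact DZ_neg n

theorem colQC_H (b : ℂ[X]) (i : ℤ) (j : ℕ) (h : (i < 0 ∧ j = 0) ∨ (0 ≤ i ∧ j ≤ 2)) :
    PowerSeries.coeff j (colQC b (.H i)) =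
      PowerSeries.coeff j (gm ((i : ℂ) + 1 / 2) b * T g1L ((i : ℂ) + 1 / 2)) := by
  unfold colQC
  have e1 : mp (D.gam (.H i)) = gH0 (i + 1) := rfl
  have e2 : (((D.Site.H i).val : ℚ) : ℂ) = (i : ℂ) + 1 / 2 := by simp [D.Site.val]
  have e3 : ((i + 1 : ℤ) : ℂ) - 1 / 2 = (i : ℂ) + 1 / 2 := by push_cast; ring
  rw [e1, e2]
  have hD : gH0 (i + 1) - T g1L ((i : ℂ) + 1 / 2) = DH (i + 1) := by
    unfold DH; rw [e3]
  rcases h with ⟨hi, hj⟩ | ⟨hi, hj⟩
  · obtain ⟨n, hn⟩ := Int.eq_ofNat_of_zero_le (show 0 ≤ -i - 1 by omega)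
    have e : i + 1 = -(n : ℤ) := by omega
    subst hj
    apply coeff_eq_of_dvd (k := 1) (by norm_num)
    rw [pow_one, hD, e]
    exact DH_nonpos n
  · obtain ⟨n, rfl⟩ := Int.eq_ofNat_of_zero_le hi
    apply coeff_eq_of_dvd (k := 3) (by omega)
    rw [hD]
    exact DH_pos n

/-! ### multiplying a column by a polynomial -/

section

variable {ι : Type*} [Fintype ι] [DecidableEq ι] (z : ι → ℂ) (m : ι → ℕ)

/-- `lam` through its sites -/
lemma lam_eq_sites (p : ℂ[X]) (F : ι → PowerSeries ℂ) :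
    Lam.lam z m p F = ∑ i, if m i = 0 then 0 else
      PowerSeries.coeff (m i - 1) (F i * Lam.wt z m p i) := by
  have e1 : Lam.lam z m p F = ∑ r : Lam.Row m, Lam.u z m p r * PowerSeries.coeff (r.2 : ℕ) (F r.1) := by
    rw [Lam.lam]; rfl
  rw [e1, Fintype.sum_sigma]
  refine Finset.sum_congr rfl fun i _ => ?_
  split_ifs with h
  · apply Finset.sum_eq_zero
    intro j _
    exact absurd j.2 (by omega)
  · exact Lam.sum_u_mul m i h p (F i)

lemma lam_gm (b p : ℂ[X]) (F : ι → PowerSeries ℂ) :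
    Lam.lam z m p (fun i => gm (z i) b * F i) = Lam.lam z m (b * p) F := by
  rw [lam_eq_sites, lam_eq_sites]
  refine Finset.sum_congr rfl fun i _ => ?_
  split_ifs
  · rfl
  · rw [Lam.wt_mul]
    congr 1
    have : Lam.germ (z i) b = gm (z i) b := rfl
    rw [this]
    ring

lemma lam_congr (p : ℂ[X]) {F G : ι → PowerSeries ℂ}
    (h : ∀ i, ∀ j < m i, PowerSeries.coeff j (F i) = PowerSeries.coeff j (G i)) :
    Lam.lam z m p F = Lam.lam z m p G := by
  rw [Lam.lam, Lam.lam]
  refine Finset.sum_congr rfl fun r _ => ?_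
  rw [h r.1 _ r.2.2]

end

/-! ### the nodes of `Defs.lean` -/

lemma site_eq_ce (l : ℕ) : site l = ce l := rfl

/-- the rational function of the `Q`-side -/
noncomputable def fQ (N : Nodes) (f P : ℂ[X]) (s : ℂ) : ℂ :=
  f.eval s * P.eval s / (Lam.NS N.z N.mul).eval s

lemma dens_eq_fQ (N : Nodes) (f P : ℂ[X]) (s : ℂ) : dens N.z N.mul (f * P) s = fQ N f P s := by
  rw [dens, fQ, eval_mul]

lemma Nodes_sep (N : Nodes) (i j : N.A) (h : j ≠ i) : 1 / 4 < ‖N.z i - N.z j‖ := by
  have := Base724.val_dist (a := i.1) (b := j.1) fun hh => h (Subtype.ext hh).symm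
  unfold Nodes.z
  linarith

lemma Nodes_far (N : Nodes) (i : N.A) (h : i ∉ N.W) (l : ℕ) : 1 / 4 < ‖N.z i - ce l‖ := by
  have hi : ¬ Base724.IsW i.1 := by
    intro h1; apply h; unfold Nodes.W; simp [h1]
  have := Base724.dist_site hi l
  rw [norm_sub_rev, site_eq_ce] at this
  unfold Nodes.z
  linarith

/-- index of a w-node -/
def lW (N : Nodes) (i : N.A) : ℕ := match i.1 with
  | .Z _ => 0
  | .H (Int.ofNat _) => 0
  | .H (Int.negSucc l) => l

lemma W_form (N : Nodes) {i : N.A} (h : i ∈ N.W) : i.1 = D.Site.H (Int.negSucc (lW N i)) := by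
  unfold Nodes.W at h
  rw [Finset.mem_filter] at h
  obtain ⟨i, hiA⟩ := i
  rcases i with a | a
  · exact absurd h.2 id
  · rcases a with l | l
    · have : Int.ofNat l < 0 := h.2
      simp at this
      omega
    · rfl

lemma W_z (N : Nodes) {i : N.A} (h : i ∈ N.W) : N.z i = ce (lW N i) := by
  have h1 := W_form N h
  unfold Nodes.z
  rw [h1, ← site_eq_ce]
  have hneg : Int.negSucc (lW N i) = -(lW N i : ℤ) - 1 := by rw [Int.negSucc_eq]; ring
  unfold site
  simp [D.Site.val, hneg]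
  ring

lemma St_form (N : Nodes) {i : N.A} (h : i ∈ N.St) :
    ∃ l : ℕ, i.1 = D.Site.H l ∧ N.z i = (l : ℂ) + 1 / 2 := by
  unfold Nodes.St at h
  rw [Finset.mem_filter] at h
  obtain ⟨l, hl⟩ := h.2.exists
  refine ⟨l, hl, ?_⟩
  unfold Nodes.z
  rw [hl]
  simp [D.Site.val]

lemma norm_half_sub_int (l : ℕ) (n : ℤ) : 1 / 2 ≤ ‖((l : ℂ) + 1 / 2) - (n : ℂ)‖ := by
  have h := Base724.dist_half (a := 2 * (l : ℤ) + 1) (b := 2 * n) (by omega)
  have e : (((2 * (l : ℤ) + 1 : ℤ) : ℂ)) / 2 - ((2 * n : ℤ) : ℂ) / 2 = ((l : ℂ) + 1 / 2) - (n : ℂ) := by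
    push_cast; ring
  rwa [e] at h

lemma ball_star_ne_int {l : ℕ} {s : ℂ} (hs : ‖s - ((l : ℂ) + 1 / 2)‖ ≤ 1 / 4) (n : ℤ) : s ≠ n := by
  rintro rfl
  have := norm_half_sub_int l n
  rw [norm_sub_rev] at this
  linarith

lemma ball_star_ne_ce {l : ℕ} {s : ℂ} (hs : ‖s - ((l : ℂ) + 1 / 2)‖ ≤ 1 / 4) (k : ℕ) : s ≠ ce k := by
  rintro rfl
  have h1 := Complex.abs_re_le_norm (ce k - ((l : ℂ) + 1 / 2))
  have h2 : (ce k - ((l : ℂ) + 1 / 2)).re = -1 - k - l := by
    simp; ring
  rw [h2] at h1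
  have h3 := (abs_le.mp (h1.trans hs)).1
  have h4 : (0 : ℝ) ≤ k := Nat.cast_nonneg k
  have h5 : (0 : ℝ) ≤ l := Nat.cast_nonneg l
  linarith

lemma sphere_star_cos {l : ℕ} {s : ℂ} (hs : ‖s - ((l : ℂ) + 1 / 2)‖ = 1 / 4) :
    Complex.cos (Real.pi * s) ≠ 0 := by
  rw [Ne, Complex.cos_eq_zero_iff]
  rintro ⟨k, hk⟩
  have hpi : (Real.pi : ℂ) ≠ 0 := by exact_mod_cast Real.pi_ne_zero
  have h1 : s = ((2 * k + 1 : ℤ) : ℂ) / 2 := by
    apply mul_left_cancel₀ hpi
    rw [hk]; push_cast; ring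
  have h2 : (l : ℂ) + 1 / 2 = ((2 * (l : ℤ) + 1 : ℤ) : ℂ) / 2 := by push_cast; ring
  by_cases h : 2 * k + 1 = 2 * (l : ℤ) + 1
  · rw [h1, h2, h, sub_self, norm_zero] at hs
    norm_num at hs
  · have := Base724.dist_half h
    rw [h1, h2] at hs
    linarith

lemma sphere_star_sin {l : ℕ} {s : ℂ} (hs : ‖s - ((l : ℂ) + 1 / 2)‖ = 1 / 4) :
    Complex.sin (Real.pi * s) ≠ 0 := by
  rw [Ne, Complex.sin_eq_zero_iff]
  rintro ⟨k, hk⟩
  have hpi : (Real.pi : ℂ) ≠ 0 := by exact_mod_cast Real.pi_ne_zero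
  have h1 : s = (k : ℂ) := by
    apply mul_left_cancel₀ hpi
    rw [hk]; ring
  exact ball_star_ne_int hs.le k h1

/-- REP, `Q`-side, first form: `Jw` at the w-nodes. -/
theorem repQ0 (N : Nodes) {f P : ℂ[X]} (hP : (f * P).degree < (∑ i, N.mul i : ℕ))
    (hm : ∀ i ∈ N.St, N.mul i ≠ 0) :
    HasSum (fun l => if l ∈ N.W.image (lW N) then
        (2 * Real.pi * I)⁻¹ * ∮ s in C(ce l, 1 / 4), Jw s * dens N.z N.mul (f * P) s
        else Lg l (dens N.z N.mul (f * P)))
      (-Lam.lam N.z N.mul P (fun i : N.A => colQC f i.1) -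
        ∑ i ∈ N.St, circ N.z N.mul Jw (f * P) i) := by
  classical
  set F : N.A → PowerSeries ℂ := fun i => if Base724.IsW i.1 ∨ Base724.IsSt i.1 then T g1L (N.z i)
    else T g1 (N.z i) with hF
  have hFW : ∀ i ∈ N.W, F i = T g1L (N.z i) := by
    intro i hi
    unfold Nodes.W at hi
    rw [Finset.mem_filter] at hi
    simp only [hF, if_pos (Or.inl hi.2)]
  have hFS : ∀ i ∈ N.St, F i = T g1L (N.z i) := by
    intro i hi
    unfold Nodes.St at hi
    rw [Finset.mem_filter] at hi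
    simp only [hF, if_pos (Or.inr hi.2)]
  have hF0 : ∀ i, i ∉ N.W → i ∉ N.St → F i = T g1 (N.z i) := by
    intro i hi hi'
    have h1 : ¬ Base724.IsW i.1 := by
      intro h; apply hi; unfold Nodes.W; simp [h]
    have h2 : ¬ Base724.IsSt i.1 := by
      intro h; apply hi'; unfold Nodes.St; simp [h]
    simp only [hF]
    rw [if_neg (by tauto)]
  have hmain := lamG (m := N.mul) N.z_inj (Nodes_sep N) N.W N.St (lW N) (fun i hi => W_z N hi)
    (fun i hi => N.W_mul hi) (Nodes_far N) (fun i hi => N.St_not_W hi) ?_ F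
    (fun i hi hi' j _ => by rw [hF0 i hi hi'])
    (fun i hi j _ => by rw [hFS i hi])
    (fun i hi => by
      rw [hFW i hi, PowerSeries.coeff_zero_eq_constantCoeff_apply, constantCoeff_T]) hP
  · have e : Lam.lam N.z N.mul P (fun i : N.A => colQC f i.1) = Lam.lam N.z N.mul (f * P) F := by
      rw [← lam_gm]
      apply lam_congr
      rintro ⟨i, hiA⟩ j hj
      have hj' : j < N.m i := hj
      rcases i with a | a
      · have hW : (⟨D.Site.Z a, hiA⟩ : N.A) ∉ N.W := by
          intro h; unfold Nodes.W at h; rw [Finset.mem_filter] at h; exact h.2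
        have hS : (⟨D.Site.Z a, hiA⟩ : N.A) ∉ N.St := by
          intro h; unfold Nodes.St at h; rw [Finset.mem_filter] at h; exact h.2
        have hz : N.z ⟨D.Site.Z a, hiA⟩ = (a : ℂ) := by
          unfold Nodes.z; simp [D.Site.val]
        rw [hF0 _ hW hS, hz]
        apply colQC_Z
        rcases lt_or_ge a 0 with ha | ha
        · right
          have := N.hZ' a ha
          exact ⟨ha, by omega⟩
        · left
          have := N.hZ a ha
          exact ⟨ha, by omega⟩
      · have hz : N.z ⟨D.Site.H a, hiA⟩ = (a : ℂ) + 1 / 2 := by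
          unfold Nodes.z; simp [D.Site.val]
        have hFa : F ⟨D.Site.H a, hiA⟩ = T g1L (N.z ⟨D.Site.H a, hiA⟩) := by
          rcases lt_or_ge a 0 with ha | ha
          · apply hFW
            unfold Nodes.W
            rw [Finset.mem_filter]
            exact ⟨Finset.mem_univ _, ha⟩
          · apply hFS
            unfold Nodes.St
            rw [Finset.mem_filter]
            exact ⟨Finset.mem_univ _, ha⟩
        rw [hFa, hz]
        apply colQC_H
        rcases lt_or_ge a 0 with ha | ha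
        · left
          have := N.hW a hiA ha
          exact ⟨ha, by omega⟩
        · right
          have := N.hH a ha
          exact ⟨ha, by omega⟩
    rw [e]
    exact hmain
  · intro i hi
    obtain ⟨l, -, hz⟩ := St_form N hi
    refine ⟨hm i hi, ?_, ?_⟩
    · intro s hs
      rw [mem_closedBall, dist_eq_norm, hz] at hs
      exact (analyticAt_g1 (ball_star_ne_ce hs)).differentiableAt.differentiableWithinAt
    · intro s hs
      rw [mem_closedBall, dist_eq_norm, hz] at hs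
      have := ball_star_ne_int hs
      exact (analyticAt_g1L (fun n => by
        have := this n
        simpa using this)).differentiableAt.differentiableWithinAt

/-- **REP, `Q`-side** (576's literal form). -/
theorem repQ (N : Nodes) {f P : ℂ[X]} (hP : (f * P).degree < (∑ i, N.mul i : ℕ))
    (hm : ∀ i ∈ N.St, N.mul i ≠ 0) :
    HasSum (fun l => (2 * Real.pi * I)⁻¹ * ∮ s in C(ce l, 1 / 4), J1 s *
        (f.eval s * P.eval s / (Lam.NS N.z N.mul).eval s))
      (-Lam.lam N.z N.mul P (fun i : N.A => gm (N.z i) f * mp (D.gam i.1)) +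
        (∑ i ∈ N.W, (2 * Real.pi * I)⁻¹ * ∮ s in C(N.z i, 1 / 4), 2 * g1L s *
          (f.eval s * P.eval s / (Lam.NS N.z N.mul).eval s)) -
        ∑ i ∈ N.St, (2 * Real.pi * I)⁻¹ * ∮ s in C(N.z i, 1 / 4), (J1 s - 2 * g1L s) *
          (f.eval s * P.eval s / (Lam.NS N.z N.mul).eval s)) := by
  classical
  have h := repQ0 N hP hm
  have hlWinj : Set.InjOn (lW N) N.W := by
    intro i hi j hj hij
    apply N.z_inj
    rw [W_z N hi, W_z N hj, hij]
  have hWs : HasSum (fun l => ∑ i ∈ N.W, if l = lW N i then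
      circ N.z N.mul (fun s => 2 * g1L s) (f * P) i else 0)
      (∑ i ∈ N.W, circ N.z N.mul (fun s => 2 * g1L s) (f * P) i) :=
    hasSum_sum fun i _ => hasSum_ite_eq _ _
  have h2 := h.add hWs
  have hd : ∀ s, dens N.z N.mul (f * P) s =
      f.eval s * P.eval s / (Lam.NS N.z N.mul).eval s := fun s => by rw [dens, eval_mul]
  have e1 : -Lam.lam N.z N.mul P (fun i : N.A => colQC f i.1) -
        ∑ i ∈ N.St, circ N.z N.mul Jw (f * P) i +
        ∑ i ∈ N.W, circ N.z N.mul (fun s => 2 * g1L s) (f * P) i =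
      (-Lam.lam N.z N.mul P (fun i : N.A => gm (N.z i) f * mp (D.gam i.1)) +
        (∑ i ∈ N.W, (2 * Real.pi * I)⁻¹ * ∮ s in C(N.z i, 1 / 4), 2 * g1L s *
          (f.eval s * P.eval s / (Lam.NS N.z N.mul).eval s)) -
        ∑ i ∈ N.St, (2 * Real.pi * I)⁻¹ * ∮ s in C(N.z i, 1 / 4), (J1 s - 2 * g1L s) *
          (f.eval s * P.eval s / (Lam.NS N.z N.mul).eval s)) := by
    have e2 : ∑ i ∈ N.St, circ N.z N.mul Jw (f * P) i =
        ∑ i ∈ N.St, (2 * Real.pi * I)⁻¹ * ∮ s in C(N.z i, 1 / 4), (J1 s - 2 * g1L s) *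
          (f.eval s * P.eval s / (Lam.NS N.z N.mul).eval s) := by
      refine Finset.sum_congr rfl fun i hi => ?_
      obtain ⟨l, -, hz⟩ := St_form N hi
      rw [circ]
      congr 1
      apply circleIntegral.integral_congr (by norm_num)
      intro s hs
      rw [mem_sphere, dist_eq_norm, hz] at hs
      simp only
      rw [hd, J1_eq' (sphere_star_sin hs) (sphere_star_cos hs), Jw]
      ring
    have e3 : ∑ i ∈ N.W, circ N.z N.mul (fun s => 2 * g1L s) (f * P) i =
        ∑ i ∈ N.W, (2 * Real.pi * I)⁻¹ * ∮ s in C(N.z i, 1 / 4), 2 * g1L s *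
          (f.eval s * P.eval s / (Lam.NS N.z N.mul).eval s) := by
      refine Finset.sum_congr rfl fun i _ => ?_
      rw [circ]
      congr 1
      apply circleIntegral.integral_congr (by norm_num)
      intro s _
      simp only
      rw [hd]
    rw [e2, e3]
    have e4 : (fun i : N.A => colQC f i.1) = fun i : N.A => gm (N.z i) f * mp (D.gam i.1) := rfl
    rw [e4]
    ring
  rw [e1] at h2
  have hcg : ∀ {f g : ℕ → ℂ} {x : ℂ}, (∀ l, f l = g l) → HasSum g x → HasSum f x := by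
    intro f g x h hg
    rwa [show f = g from funext h]
  refine hcg (fun l => ?_) h2
  have hfar : ∀ i l, N.z i = ce l ∨ 1 / 4 < ‖N.z i - ce l‖ := by
    intro i l
    by_cases hi : i ∈ N.W
    · by_cases h : lW N i = l
      · left; rw [W_z N hi, h]
      · right
        rw [W_z N hi]
        have := ce_dist (lW N i) l h
        linarith
    · exact Or.inr (Nodes_far N i hi l)
  by_cases hl : l ∈ N.W.image (lW N)
  · rw [if_pos hl]
    obtain ⟨i, hi, rfl⟩ := Finset.mem_image.mp hl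
    have e4 : ∑ k ∈ N.W, (if lW N i = lW N k then circ N.z N.mul (fun s => 2 * g1L s) (f * P) k
        else 0) = circ N.z N.mul (fun s => 2 * g1L s) (f * P) i := by
      rw [Finset.sum_eq_single i]
      · rw [if_pos rfl]
      · intro k hk hki
        rw [if_neg]
        intro h
        exact hki (hlWinj hk hi h.symm)
      · intro h; exact absurd hi h
    rw [e4, circ, W_z N hi, ← mul_add]
    congr 1
    have hcont : ContinuousOn (dens N.z N.mul (f * P)) (sphere (ce (lW N i)) (1 / 4)) := by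
      intro s hs
      exact ((f * P).continuousAt.div (Lam.NS N.z N.mul).continuousAt
        (NS_eval_ne fun k => sphere_ne hs (hfar k _))).continuousWithinAt
    have hsub : ∀ s ∈ sphere (ce (lW N i)) (1 / 4 : ℝ), s.re < 0 ∧ ∀ l : ℕ, s ≠ ce l := by
      intro s hs
      have hs' : ‖s - ce (lW N i)‖ = 1 / 4 := by rwa [mem_sphere, dist_eq_norm] at hs
      refine ⟨?_, ?_⟩
      · have := re_le_of_mem (l := lW N i) (s := s) hs'.le
        linarith
      · intro l h
        have := dist_ce_of_mem hs' l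
        rw [h, sub_self, norm_zero] at this
        norm_num at this
    have hg1L : ContinuousOn (fun s => 2 * g1L s) (sphere (ce (lW N i)) (1 / 4)) := fun s hs =>
      ((differentiableAt_g1L (hsub s hs).1).const_mul 2).continuousAt.continuousWithinAt
    have hJw : ContinuousOn Jw (sphere (ce (lW N i)) (1 / 4)) := fun s hs =>
      ((analyticAt_g1 (hsub s hs).2).differentiableAt.sub
        (differentiableAt_g1L (hsub s hs).1)).continuousAt.continuousWithinAt
    have hci : CircleIntegrable (fun s => 2 * g1L s * dens N.z N.mul (f * P) s)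
        (ce (lW N i)) (1 / 4) := by
      have h5 : ContinuousOn (fun s => 2 * g1L s * dens N.z N.mul (f * P) s)
          (sphere (ce (lW N i)) (1 / 4)) := hg1L.mul hcont
      exact h5.circleIntegrable (by norm_num)
    have hci2 : CircleIntegrable (fun s => Jw s * dens N.z N.mul (f * P) s)
        (ce (lW N i)) (1 / 4) := by
      have h5 : ContinuousOn (fun s => Jw s * dens N.z N.mul (f * P) s)
          (sphere (ce (lW N i)) (1 / 4)) := hJw.mul hcont
      exact h5.circleIntegrable (by norm_num)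
    rw [← circleIntegral.integral_add hci2 hci]
    apply circleIntegral.integral_congr (by norm_num)
    intro s hs
    obtain ⟨hre, hoffs⟩ := hsub s hs
    simp only
    rw [J1_eq hre (cos_ne_zero_of_left hre hoffs), Jw, hd]
    ring
  · rw [if_neg hl]
    have e4 : ∑ k ∈ N.W, (if l = lW N k then circ N.z N.mul (fun s => 2 * g1L s) (f * P) k else 0)
        = 0 := by
      apply Finset.sum_eq_zero
      intro k hk
      rw [if_neg]
      rintro rfl
      exact hl (Finset.mem_image_of_mem _ hk)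
    rw [e4, add_zero, Lg]
    congr 1
    apply circleIntegral.integral_congr (by norm_num)
    intro s _
    simp only
    rw [hd]

end Crest.Agent.R006.G1x186
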