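import Crest.Agent.R006.P3_Fin2_576
import Crest.Agent.R006.RepQ_186

/-!
# Row 6, P3: the `Q`-side formula on 257's functional (helper186)

`BQ P f = -( ∑_{l<X0} ∮_{ce l} Φ_Qw + ∑_{l<h1 u} ∮_{l+1/2} Φ_Qw - ∑_{X0<m≤e1 u} ∮_{-m} Φ_Q + rays Φ_Q )`,
`Φ_Q = JQ f P/ω_S`, `Φ_Qw = (JQ - 2 gL) f P/ω_S`.
-/

set_option autoImplicit false

open Complex MeasureTheory Set Filter Topology Polynomial Metric
open scoped Real

noncomputable section

namespace Crest.Agent.R006.Fin576

open Crest.Agent.R006.Base724 Crest.Agent.R006.Tail516 Crest.Agent.R006.P3Slot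
open Crest.Agent.R006

variable (S : D.Shape) (u c : ℕ)

/-- `Φ_Q = JQ · f · P / ω_S` -/
def PhiQf (P f : ℂ[X]) (s : ℂ) : ℂ :=
  P3.JQ s * (f.eval s * P.eval s / (P3.om S u c).eval s)

/-- `Φ_Qw = (JQ - 2 gL) · f · P / ω_S` -/
def PhiQwf (P f : ℂ[X]) (s : ℂ) : ℂ :=
  (P3.JQ s - 2 * P3.gL s) * (f.eval s * P.eval s / (P3.om S u c).eval s)

lemma sum_W (g : ℂ → ℂ) :
    ∑ i ∈ (nodes S u c).W, g ((nodes S u c).z i) = ∑ k ∈ Finset.range (S.w * u), g (PsiJ.ce k) := by
  symm
  refine Finset.sum_bij (fun k hk => wN S u c (Finset.mem_range.mp hk)) ?_ ?_ ?_ ?_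
  · intro k hk
    rw [mem_W]
    show -(k : ℤ) - 1 < 0
    omega
  · intro a _ b _ h
    have h1 := congrArg (fun x : (nodes S u c).A => x.1) h
    simp only [wN, D.Site.H.injEq] at h1
    omega
  · intro i hi
    obtain ⟨k, hk, rfl⟩ := exists_wN S u c hi
    exact ⟨k, Finset.mem_range.mpr hk, rfl⟩
  · intro k hk
    rw [z_wN]

lemma om_root {s : ℂ} (h : (P3.om S u c).eval s = 0) : ∃ i, s = (nodes S u c).z i := by
  by_contra hcon
  push Not at hcon
  rw [← om_eq] at h
  exact G1x186.NS_eval_ne hcon h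

lemma om_halfRoots : HalfRoots (P3.om S u c) := by
  intro z hz
  obtain ⟨i, rfl⟩ := om_root S u c hz
  exact ⟨dbl i.1, z_eq _ i⟩

lemma om_monic : (P3.om S u c).Monic := Lam.NS_monic _ _

lemma natDegree_om : (P3.om S u c).natDegree = S.rows * u + c := by
  rw [← om_eq, Lam.natDegree_NS, sum_mul_nodes]

variable {S} in
lemma om_neg_ne (hS : S.Good) {m : ℕ} (hm : S.e1 * u < m) : (P3.om S u c).eval (-(m : ℂ)) ≠ 0 := by
  intro h
  obtain ⟨i, hi⟩ := om_root S u c h
  have h1 : i.1 = D.Site.Z (-(m : ℤ)) := by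
    by_contra hne
    have := val_dist hne
    have h2 : ((((D.Site.Z (-(m : ℤ))).val : ℚ)) : ℂ) = -(m : ℂ) := by
      simp [D.Site.val]
    rw [h2, hi] at this
    unfold Nodes.z at this
    rw [sub_self, norm_zero] at this
    linarith
  exact freeLeft u c hS m hm (h1 ▸ i.2)

/-- no node near `ce l` for `l ≥ w u` -/
lemma far_ce {l : ℕ} (hl : S.w * u ≤ l) (i : (nodes S u c).A) :
    1 / 4 < ‖PsiJ.ce l - (nodes S u c).z i‖ := by
  have hne : D.Site.H (-(l : ℤ) - 1) ≠ i.1 := by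
    intro h
    have hm := (mem_nodes S u c).mp i.2
    rw [← h] at hm
    have h' : ¬ (0 : ℤ) ≤ -(l : ℤ) - 1 := by omega
    simp only [D.Shape.mult, h', if_false] at hm
    have h2 : ¬ (-(-(l : ℤ) - 1) ≤ (S.w : ℤ) * u) := by
      have : ((S.w * u : ℕ) : ℤ) ≤ l := by exact_mod_cast hl
      push_cast at this
      omega
    rw [if_neg h2] at hm
    exact hm rfl
  have h1 := val_dist hne
  have h3 : ((((D.Site.H (-(l : ℤ) - 1)).val : ℚ)) : ℂ) = PsiJ.ce l := by
    unfold PsiJ.ce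
    simp [D.Site.val]
    ring
  rw [h3] at h1
  unfold Nodes.z
  linarith

lemma gL_diffOn (l : ℕ) : DifferentiableOn ℂ (fun s => 2 * G1x186.g1L s)
    (closedBall (PsiJ.ce l) (1 / 4)) := by
  intro s hs
  rw [mem_closedBall, dist_eq_norm] at hs
  have := PsiJ.re_le_of_mem (l := l) (s := s) hs
  exact ((G1x186.differentiableAt_g1L (by linarith)).const_mul 2).differentiableWithinAt

/-- continuity of the rational function on the slot circles -/
lemma contOn_frac (P f : ℂ[X]) {y : ℂ} (hy : ∃ k : ℤ, y = (k : ℂ) / 2) :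
    ContinuousOn (fun s => f.eval s * P.eval s / (P3.om S u c).eval s) (sphere y (1 / 4)) := by
  intro s hs
  rw [mem_sphere_iff_norm] at hs
  have h0 : (P3.om S u c).eval s ≠ 0 := by
    intro h
    obtain ⟨i, hi⟩ := om_root S u c h
    exact sphere_ne_node _ hy hs i hi
  exact ((f.continuousAt.mul P.continuousAt).div (P3.om S u c).continuousAt h0).continuousWithinAt

variable {S} in
/-- **REP, `Q`-side, on 257's functional.** -/
theorem BQ_formula (hS : S.Good) (P f : ℂ[X]) (hP : P.natDegree + f.natDegree < S.rows * u + c)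
    (X0 : ℕ) (hX : S.w * u ≤ X0) {a : ℝ} (ha : 0 < a) (ha3 : a ^ 2 ≤ 3) :
    P3.BQ S u c P f = -(∑ l ∈ Finset.range X0, ci (PsiJ.ce l) (1 / 4) (PhiQwf S u c P f) +
      ∑ l ∈ Finset.range (S.h1 * u), ci (Base724.star l) (1 / 4) (PhiQwf S u c P f) -
      ∑ m ∈ Finset.Ioc X0 (S.e1 * u), ci (-(m : ℂ)) (1 / 4) (PhiQf S u c P f) +
      (2 * π * I)⁻¹ * rays X0 a (PhiQf S u c P f)) := by
  have hnat : (f * P).natDegree < S.rows * u + c := by
    refine lt_of_le_of_lt natDegree_mul_le ?_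
    omega
  have hdeg : (f * P).degree < (∑ i, (nodes S u c).mul i : ℕ) := by
    rw [sum_mul_nodes]
    refine lt_of_le_of_lt degree_le_natDegree ?_
    exact_mod_cast hnat
  have h1 := G1x186.repQ (nodes S u c) hdeg (mul_St_ne u c)
  have h2 := tail_g_sites (P := f * P) (om_monic S u c).ne_zero (om_halfRoots S u c)
    (by rw [natDegree_om]; exact hnat) X0 (S.e1 * u) (fun m hm => om_neg_ne u c hS hm) ha ha3
  have h3 := h2.mul_left ((2 * π * I : ℂ)⁻¹)
  rw [om_eq] at h1
  have h4 := split_off (f := fun l => (2 * (Real.pi : ℂ) * Complex.I)⁻¹ * ∮ s in C(PsiJ.ce l, 1 / 4),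
      G1x186.J1 s * (f.eval s * P.eval s / (P3.om S u c).eval s)) X0 h1 (B := _) (by
    refine h3.congr_fun ?_
    intro l
    simp only [eval_mul])
  have h5 : P3.BQ S u c P f = P3.lamQ S u c P f := rfl
  rw [h5, lamQ_eq]
  -- w-nodes
  have hW : (∑ i ∈ (nodes S u c).W, (2 * (Real.pi : ℂ) * Complex.I)⁻¹ *
      ∮ s in C((nodes S u c).z i, 1 / 4), 2 * G1x186.g1L s *
        (f.eval s * P.eval s / (P3.om S u c).eval s)) =
      ∑ l ∈ Finset.range X0, (2 * (Real.pi : ℂ) * Complex.I)⁻¹ *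
      ∮ s in C(PsiJ.ce l, 1 / 4), 2 * G1x186.g1L s *
        (f.eval s * P.eval s / (P3.om S u c).eval s) := by
    rw [sum_W S u c (fun y => (2 * (Real.pi : ℂ) * Complex.I)⁻¹ * ∮ s in C(y, 1 / 4),
      2 * G1x186.g1L s * (f.eval s * P.eval s / (P3.om S u c).eval s))]
    apply Finset.sum_subset
    · intro l hl
      rw [Finset.mem_range] at hl ⊢
      omega
    · intro l _ hl
      rw [Finset.mem_range, not_lt] at hl
      have h6 := G1x186.circle_zero (z := (nodes S u c).z) (m := (nodes S u c).mul)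
        (far_ce S u c hl) (gL_diffOn l) (f * P)
      have h7 : (∮ s in C(PsiJ.ce l, 1 / 4), 2 * G1x186.g1L s *
          (f.eval s * P.eval s / (P3.om S u c).eval s)) = 0 := by
        rw [← h6]
        refine circleIntegral.integral_congr (by norm_num) fun s _ => ?_
        simp only [G1x186.dens, om_eq, eval_mul]
      rw [h7, mul_zero]
  -- stars
  have hSt : (∑ i ∈ (nodes S u c).St, (2 * (Real.pi : ℂ) * Complex.I)⁻¹ *
      ∮ s in C((nodes S u c).z i, 1 / 4), (G1x186.J1 s - 2 * G1x186.g1L s) *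
        (f.eval s * P.eval s / (P3.om S u c).eval s)) =
      ∑ l ∈ Finset.range (S.h1 * u), ci (Base724.star l) (1 / 4) (PhiQwf S u c P f) := by
    rw [sum_St u c hS (fun y => (2 * (Real.pi : ℂ) * Complex.I)⁻¹ * ∮ s in C(y, 1 / 4),
      (G1x186.J1 s - 2 * G1x186.g1L s) * (f.eval s * P.eval s / (P3.om S u c).eval s))]
    rfl
  -- the circles at the sites
  have hS2 : ∑ l ∈ Finset.range X0, ci (PsiJ.ce l) (1 / 4) (PhiQwf S u c P f) =
      (∑ l ∈ Finset.range X0, (2 * (Real.pi : ℂ) * Complex.I)⁻¹ * ∮ s in C(PsiJ.ce l, 1 / 4),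
        G1x186.J1 s * (f.eval s * P.eval s / (P3.om S u c).eval s)) -
      ∑ l ∈ Finset.range X0, (2 * (Real.pi : ℂ) * Complex.I)⁻¹ *
      ∮ s in C(PsiJ.ce l, 1 / 4), 2 * G1x186.g1L s *
        (f.eval s * P.eval s / (P3.om S u c).eval s) := by
    rw [← Finset.sum_sub_distrib]
    refine Finset.sum_congr rfl fun l _ => ?_
    have hc := contOn_frac S u c P f (ce_half l)
    have i1 : CircleIntegrable (fun s => G1x186.J1 s *
        (f.eval s * P.eval s / (P3.om S u c).eval s)) (PsiJ.ce l) (1 / 4) := by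
      have := (G1x186.J1_cont_sphere l).mul hc
      exact ContinuousOn.circleIntegrable (by norm_num) this
    have i2 : CircleIntegrable (fun s => 2 * G1x186.g1L s *
        (f.eval s * P.eval s / (P3.om S u c).eval s)) (PsiJ.ce l) (1 / 4) := by
      have := ((gL_diffOn l).continuousOn.mono sphere_subset_closedBall).mul hc
      exact ContinuousOn.circleIntegrable (by norm_num) this
    unfold ci
    rw [← mul_sub, ← circleIntegral.integral_sub i1 i2]
    congr 1
    refine circleIntegral.integral_congr (by norm_num) fun s _ => ?_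
    simp only [PhiQwf, P3.JQ, P3.gL]
    ring
  rw [hW, hSt] at h4
  have h8 : (2 * π * I : ℂ)⁻¹ * (rays X0 a (fun z => G1x186.J1 z * ((f * P).eval z /
      (P3.om S u c).eval z)) - ∑ m ∈ Finset.Ioc X0 (S.e1 * u), ∮ z in C(-(m : ℂ), 1 / 4),
        G1x186.J1 z * ((f * P).eval z / (P3.om S u c).eval z)) =
      (2 * π * I)⁻¹ * rays X0 a (PhiQf S u c P f) -
        ∑ m ∈ Finset.Ioc X0 (S.e1 * u), ci (-(m : ℂ)) (1 / 4) (PhiQf S u c P f) := by
    rw [mul_sub, Finset.mul_sum]
    have e1 : (fun z => G1x186.J1 z * ((f * P).eval z / (P3.om S u c).eval z)) =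
        PhiQf S u c P f := by
      funext z
      rw [eval_mul]
      rfl
    rw [e1]
    rfl
  rw [h8] at h4
  rw [hS2]
  linear_combination -h4

end Crest.Agent.R006.Fin576
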