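import Crest.Agent.R006.P3_Fixed2_257
import Crest.Agent.R006.P3_Fin3_186
import Crest.Agent.R006.P3_DiscFin_819

/-!
# Row 6, block P3: the discrete inequality (helper257)

`Disc_holds : S.Good → Disc S c`.
-/

set_option autoImplicit false

open Complex

namespace Crest.Agent.R006.P3

open Polynomial Metric Crest.Agent.R006.D Crest.Agent.R006.Bord

/-- **the contour representation of the `Q`-functional** -/
theorem repQ {S : Shape} (hS : S.Good) (u c : ℕ) : RepQ S u c := by
  refine repQ_of u c fun P f hP => ?_
  exact Fin576.BQ_formula u c hS P f (by omega) (S.w * u) le_rfl (a := 1) one_pos (by norm_num)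

/-- **the inequality at fixed `u`** -/
theorem fixed_bound {S : Shape} (hS : S.Good) : FixedBound S := by
  intro u c r h W Z Y hW hZ hY B LR LQ LU μ ν hB hLR hLQ hLU hμ hν hrR hrQ hcW hcR hcQ hcQ' hu
  exact fixed_bound_of hS u c (repR hS u c) (repQ hS u c) (holR hS u c) (holQ hS u c) r h W Z Y
    hW hZ hY B LR LQ LU μ ν hB hLR hLQ hLU hμ hν hrR hrQ hcW hcR hcQ hcQ' hu

/-- **the discrete inequality** -/
theorem Disc_holds {S : Shape} (hS : S.Good) (c : ℕ) : Disc S c := disc_of hS c (fixed_bound hS)

end Crest.Agent.R006.P3
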