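import Crest.Agent.R006.P3_Disc_390
import Crest.Agent.R006.Cert_112

/-!
# Row 6, block P3: the leaves consumed by `P3_Final_390` (helper390)

Literal statements (as `def … : Prop`), in units `v`, `u = K v`. `er v s = 1 + log (v + ‖s‖)` is the
only error scale. `P3_Final_390` proves `Cert.Claim` from `Disc` and these.
-/

set_option autoImplicit false

namespace Crest.Agent.R006.P3

open Crest.Agent.R006.D Crest.Agent.R006.Cert Crest.Agent.R006.NumSegx464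
  Crest.Agent.R006.ConstX673

/-- error scale -/
noncomputable def er (v : ℕ) (s : ℂ) : ℝ := 1 + Real.log (v + ‖s‖)

/-- LEAF REF (943 + 884): reference points for a list of pieces of mass `m`, with `c` extra points
(real, far to the right). `W0 = K w`. -/
def RefPack (W0 : ℤ) (L : List Piece) (m c : ℕ) : Prop :=
  ∃ C M : ℝ, 0 ≤ C ∧ 0 ≤ M ∧ ∀ v : ℕ, 1 ≤ v →
    ∃ w : Fin (m * v + c) → ℂ, Function.Injective w ∧ (∀ i, ‖w i‖ ≤ M * v) ∧
      Real.exp ((v : ℝ) ^ 2 * ((m : ℝ) ^ 2 / 2 * Real.log v + selfE (segs W0 L))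
          - C * (v * (1 + Real.log v))) ≤ vdm w ∧
      ∀ i s, oth w i s ≤
        Real.exp (v * (m * Real.log v + potL (segs W0 L) (s / v)) + C * er v s)

/-- LEAF MOD (170): modulus of continuity of the potential of a list of segments -/
def ModPot (L : List WSeg) : Prop :=
  ∃ C : ℝ, 0 ≤ C ∧ ∀ v : ℕ, 1 ≤ v → ∀ s s' : ℂ, ‖s - s'‖ ≤ 1 →
    |v * potL L (s / v) - v * potL L (s' / v)| ≤ C * er v s

/-- LEAF NODES (673): `|N_S|` from below at distance `≥ 1/8` from `½ℤ` -/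
def NodesGe (S : Shape) (K c : ℕ) : Prop :=
  ∃ C : ℝ, 0 ≤ C ∧ ∀ v : ℕ, 1 ≤ v → ∀ s : ℂ, (∀ k : ℤ, 1 / 8 ≤ ‖s - (k : ℂ) / 2‖) →
    Real.exp (v * ((K * S.rows : ℕ) * Real.log v + potL (LS S K) (s / v)) - C * er v s)
      ≤ NSn S (K * v) c s

/-- LEAF RHO (673): `|ρ|` from above -/
def RhoLe (S : Shape) (K : ℕ) : Prop :=
  ∃ C : ℝ, 0 ≤ C ∧ ∀ v : ℕ, 1 ≤ v → ∀ s : ℂ,
    rhon S (K * v) s ≤
      Real.exp (v * ((K * (S.a1 + S.a2 + S.i1 + S.r1) : ℕ) * Real.log v + potL (LG S K) (s / v))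
        + C * er v s)

/-- LEAF TAIL (650): a real function on the ray with slope `-1` at infinity -/
def Tail (f : ℝ → ℝ) (l : ℝ) : Prop :=
  ∃ T1 : ℝ, 0 ≤ T1 ∧ ∀ T : ℝ, T1 ≤ T → f T ≤ l - (T - T1)

/-- LEAF KAPPA (929): the constant, `u = K v` -/
def KapLe (S : Shape) (K c : ℕ) : Prop :=
  ∃ C : ℝ, 0 ≤ C ∧ ∀ v : ℕ, 1 ≤ v →
    logV S (K * v) c - Real.log (kden S (K * v)) ≤
      (v : ℝ) ^ 2 * ((K : ℝ) ^ 2 * kapA S * Real.log v
        + (selfE (LS S K) - (K : ℝ) ^ 2 * (NL S + NC S * Real.log K)))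
      + C * (v * (1 + Real.log v))

/-- LEAF SYM (200): the potentials on the lower ray -/
def SymPhi (S : Shape) (d : Data) : Prop :=
  ∀ s : ℂ, PhiR S d ((starRingEnd ℂ) s) = PhiR S d s ∧ PhiQ S d ((starRingEnd ℂ) s) = PhiQ S d s

/-- level of the slots at the real point `x` (units `v`) -/
noncomputable def slotG (S : Shape) (d : Data) (x : ℝ) : ℝ :=
  max (PhiR S d (x : ℂ) - (d.lR : ℝ) / d.D) (PhiQ S d (x : ℂ) - (d.lQ : ℝ) / d.D)

/-- LEAF CELLS (530): the sum over all slots of `ord * max(0, v G(ctr / v))` -/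
def Cells (S : Shape) (d : Data) : Prop :=
  ∃ C : ℝ, 0 ≤ C ∧ ∀ v : ℕ, 1 ≤ v →
    ∑ k : Slot S (d.K * v), (ord S (d.K * v) k : ℝ) * max 0 (v * slotG S d (ctr S (d.K * v) k / v))
      ≤ (v : ℝ) ^ 2 * ((slot2 S d : ℝ) / (2 * d.D)) + C * v

end Crest.Agent.R006.P3
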