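import Crest.Agent.R006.P3_Kap_200
import Crest.Agent.R006.P3_Leaf_390

/-! Row 6, block P3: leaf KAPPA of `P3_Leaf_390` from `P3_Kap_200` (helper200). -/

set_option autoImplicit false

namespace Crest.Agent.R006.P3

open Crest.Agent.R006.D Crest.Agent.R006.Cert Crest.Agent.R006.ConstX673 Crest.Agent.R006.Kap200

theorem kapLe200 (S : Shape) {K : ℕ} (hK : 0 < K) (c : ℕ) : KapLe S K c := by
  obtain ⟨C, hC, h⟩ := logkappa_mul S c hK
  refine ⟨C, hC, fun v hv => ?_⟩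
  have h1 := (abs_le.mp (h v hv)).2
  have e : (v : ℝ) ^ 2 * ((K : ℝ) ^ 2 * kapA S * Real.log v
        + (NumSegx464.selfE (LS S K) - (K : ℝ) ^ 2 * (NL S + NC S * Real.log K)))
      = kapA S * (K : ℝ) ^ 2 * ((v : ℝ) ^ 2 * Real.log v)
          + (v : ℝ) ^ 2 * (NumSegx464.selfE (LS S K) - (K : ℝ) ^ 2 * (NL S + NC S * Real.log K)) := by
    ring
  rw [e]
  linarith

end Crest.Agent.R006.P3
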