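import Crest.Agent.R006.P3_PotLag_943

/-! Row 6, block P3, leaf POT, part 8 (helper943): modulus of continuity of the potentials
(`abs_Iseg_sub_le`, `abs_U_sub_le`) and their growth at infinity. -/

set_option autoImplicit false

namespace Crest.Agent.R006.Potx943

open MeasureTheory Set

/-! ### modulus of continuity of `Re (w log w)` -/

theorem abs_re_mul_log_sub_real (w : ℂ) :
    |(w * Complex.log w).re - w.re * Real.log w.re| ≤ (1 + Real.pi) * |w.im| := by
  have hpi := Real.pi_pos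
  have h1 : (w * Complex.log w).re = w.re * Real.log ‖w‖ - w.im * Complex.arg w := by
    rw [Complex.mul_re, Complex.log_re, Complex.log_im]
  have h2 : |w.im * Complex.arg w| ≤ Real.pi * |w.im| := by
    rw [abs_mul, mul_comm]
    exact mul_le_mul_of_nonneg_right (Complex.abs_arg_le_pi w) (abs_nonneg _)
  have h3 : |w.re * Real.log ‖w‖ - w.re * Real.log w.re| ≤ |w.im| := by
    rcases eq_or_ne w.re 0 with h0 | h0
    · rw [h0]; simp
    · have hx : 0 < |w.re| := abs_pos.mpr h0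
      have hle : |w.re| ≤ ‖w‖ := Complex.abs_re_le_norm w
      have hle2 : ‖w‖ ≤ |w.re| + |w.im| := Complex.norm_le_abs_re_add_abs_im w
      have hn : 0 < ‖w‖ := lt_of_lt_of_le hx hle
      rw [← mul_sub, abs_mul, ← Real.log_abs w.re, ← Real.log_div hn.ne' hx.ne']
      have h4 : 0 ≤ Real.log (‖w‖ / |w.re|) := Real.log_nonneg (by rw [le_div_iff₀ hx]; linarith)
      rw [abs_of_nonneg h4]
      have h5 : Real.log (‖w‖ / |w.re|) ≤ ‖w‖ / |w.re| - 1 := Real.log_le_sub_one_of_pos (by positivity)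
      calc |w.re| * Real.log (‖w‖ / |w.re|) ≤ |w.re| * (‖w‖ / |w.re| - 1) :=
            mul_le_mul_of_nonneg_left h5 hx.le
        _ = ‖w‖ - |w.re| := by field_simp
        _ ≤ |w.im| := by linarith
  rw [h1]
  calc |w.re * Real.log ‖w‖ - w.im * Complex.arg w - w.re * Real.log w.re|
      = |(w.re * Real.log ‖w‖ - w.re * Real.log w.re) - w.im * Complex.arg w| := by congr 1; ring
    _ ≤ |w.re * Real.log ‖w‖ - w.re * Real.log w.re| + |w.im * Complex.arg w| := abs_sub _ _
    _ ≤ |w.im| + Real.pi * |w.im| := add_le_add h3 h2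
    _ = _ := by ring

/-- `x log x`, ordered case -/
theorem abs_xlogx_sub_aux {x y c R : ℝ} (hc : 1 ≤ c) (h : |x - y| ≤ c) (hxy : |y| ≤ |x|)
    (hR : |x| ≤ R) (hR1 : 1 ≤ R) :
    |x * Real.log x - y * Real.log y| ≤ 3 * c + c * Real.log R := by
  have hlR : 0 ≤ Real.log R := Real.log_nonneg hR1
  rw [← Real.log_abs x, ← Real.log_abs y]
  rcases eq_or_ne x 0 with h0 | h0
  · have : y = 0 := by
      rw [h0, abs_zero] at hxy
      exact abs_eq_zero.mp (le_antisymm hxy (abs_nonneg _))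
    rw [h0, this]; simp
    have : 0 ≤ c * Real.log R := mul_nonneg (by linarith) hlR
    linarith
  have hx : 0 < |x| := abs_pos.mpr h0
  have e : x * Real.log |x| - y * Real.log |y| = (x - y) * Real.log |x|
      + y * (Real.log |x| - Real.log |y|) := by ring
  rw [e]
  have h1 : |(x - y) * Real.log (|x|)| ≤ 2 * c + c * Real.log R := by
    rw [abs_mul]
    rcases le_or_gt 1 |x| with h1 | h1
    · rw [abs_of_nonneg (Real.log_nonneg h1)]
      have h2 : Real.log |x| ≤ Real.log R := Real.log_le_log hx hR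
      have h3 := Real.log_nonneg h1
      calc |x - y| * Real.log |x| ≤ c * Real.log R := mul_le_mul h h2 h3 (by linarith)
        _ ≤ _ := by linarith
    · have h2 : |x - y| ≤ 2 * |x| := (abs_sub _ _).trans (by linarith)
      rw [abs_of_nonpos (Real.log_nonpos hx.le h1.le)]
      have h3 := xlogx_ge hx
      have h4 : 0 ≤ -Real.log |x| := by have := Real.log_nonpos hx.le h1.le; linarith
      have h5 : 0 ≤ c * Real.log R := mul_nonneg (by linarith) hlR
      calc |x - y| * -Real.log |x| ≤ 2 * |x| * -Real.log |x| := mul_le_mul_of_nonneg_right h2 h4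
        _ ≤ 2 := by nlinarith
        _ ≤ _ := by linarith
  have h2 : |y * (Real.log (|x|) - Real.log (|y|))| ≤ c := by
    rcases eq_or_ne y 0 with hy0 | hy0
    · rw [hy0]; simp; linarith
    · have hy : 0 < |y| := abs_pos.mpr hy0
      rw [abs_mul, ← Real.log_div hx.ne' hy.ne']
      have h4 : 0 ≤ Real.log (|x| / |y|) := Real.log_nonneg (by rw [le_div_iff₀ hy]; linarith)
      rw [abs_of_nonneg h4]
      have h5 : Real.log (|x| / |y|) ≤ |x| / |y| - 1 := Real.log_le_sub_one_of_pos (by positivity)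
      calc |y| * Real.log (|x| / |y|) ≤ |y| * (|x| / |y| - 1) := mul_le_mul_of_nonneg_left h5 hy.le
        _ = |x| - |y| := by field_simp
        _ ≤ |x - y| := abs_sub_abs_le_abs_sub _ _
        _ ≤ c := h
  calc _ ≤ |(x - y) * Real.log (|x|)| + |y * (Real.log (|x|) - Real.log (|y|))| := abs_add_le _ _
    _ ≤ _ := by linarith

theorem abs_xlogx_sub {x y c R : ℝ} (hc : 1 ≤ c) (h : |x - y| ≤ c)
    (hx : |x| ≤ R) (hy : |y| ≤ R) (hR1 : 1 ≤ R) :
    |x * Real.log x - y * Real.log y| ≤ 3 * c + c * Real.log R := by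
  rcases le_total |y| |x| with h1 | h1
  · exact abs_xlogx_sub_aux hc h h1 hx hR1
  · rw [abs_sub_comm]
    rw [abs_sub_comm] at h
    exact abs_xlogx_sub_aux hc h h1 hy hR1

/-- mean value theorem away from the real axis -/
theorem norm_wlogw_sub_le {w w' : ℂ} {S : Set ℂ} (hS : Convex ℝ S) {R : ℝ}
    (h1 : ∀ z ∈ S, 1 ≤ |z.im|) (h2 : ∀ z ∈ S, ‖z‖ ≤ R) (hw : w ∈ S) (hw' : w' ∈ S) :
    ‖w * Complex.log w - w' * Complex.log w'‖ ≤ (Real.log R + 5) * ‖w - w'‖ := by
  have key : ∀ z ∈ S, HasDerivWithinAt (fun z : ℂ => z * Complex.log z) (Complex.log z + 1) S z := by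
    intro z hz
    have hz1 := h1 z hz
    have him : z.im ≠ 0 := by
      intro h0; rw [h0] at hz1; simp at hz1; linarith
    have hsl : z ∈ Complex.slitPlane := Or.inr him
    have hz0 : z ≠ 0 := Complex.slitPlane_ne_zero hsl
    have h3 := (hasDerivAt_id z).mul (Complex.hasDerivAt_log hsl)
    have e : (1 : ℂ) * Complex.log z + id z * z⁻¹ = Complex.log z + 1 := by
      simp [hz0]
    rw [e] at h3
    exact h3.hasDerivWithinAt
  refine Convex.norm_image_sub_le_of_norm_hasDerivWithin_le (f := fun z : ℂ => z * Complex.log z)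
    key ?_ hS hw' hw
  intro z hz
  have hz1 : 1 ≤ ‖z‖ := (h1 z hz).trans (Complex.abs_im_le_norm z)
  have h4 : ‖Complex.log z‖ ≤ |(Complex.log z).re| + |(Complex.log z).im| :=
    Complex.norm_le_abs_re_add_abs_im _
  rw [Complex.log_re, Complex.log_im, abs_of_nonneg (Real.log_nonneg hz1)] at h4
  have h5 := Complex.abs_arg_le_pi z
  have h6 : Real.log ‖z‖ ≤ Real.log R := Real.log_le_log (by linarith) (h2 z hz)
  have h7 := Real.pi_lt_d2
  calc ‖Complex.log z + 1‖ ≤ ‖Complex.log z‖ + ‖(1 : ℂ)‖ := norm_add_le _ _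
    _ ≤ _ := by rw [norm_one]; linarith

theorem abs_wlogw_sub_le {w w' : ℂ} {c R : ℝ} (hc : 1 ≤ c) (h : ‖w - w'‖ ≤ c) (hw : ‖w‖ ≤ R)
    (hw' : ‖w'‖ ≤ R) (hR : 1 ≤ R) :
    |(w * Complex.log w).re - (w' * Complex.log w').re| ≤ 24 * c * (1 + Real.log R) := by
  have hlR : 0 ≤ Real.log R := Real.log_nonneg hR
  have hclR : 0 ≤ c * Real.log R := mul_nonneg (by linarith) hlR
  have hpi := Real.pi_pos
  have hpi2 := Real.pi_lt_d2
  have him : |w.im - w'.im| ≤ c := by
    have := Complex.abs_im_le_norm (w - w')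
    rw [Complex.sub_im] at this
    exact this.trans h
  have hre : |w.re - w'.re| ≤ c := by
    have := Complex.abs_re_le_norm (w - w')
    rw [Complex.sub_re] at this
    exact this.trans h
  rcases le_or_gt |w.im| (2 * c) with hA | hB
  · have hA' : |w'.im| ≤ 3 * c := by
      have h1 : |w'.im| ≤ |w.im| + |w.im - w'.im| := by
        have e : w'.im = w.im - (w.im - w'.im) := by ring
        calc |w'.im| = |w.im - (w.im - w'.im)| := by rw [← e]
          _ ≤ _ := abs_sub _ _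
      linarith
    have h1 := abs_re_mul_log_sub_real w
    have h2 := abs_re_mul_log_sub_real w'
    have h3 := abs_xlogx_sub hc hre ((Complex.abs_re_le_norm w).trans hw)
      ((Complex.abs_re_le_norm w').trans hw') hR
    have h4 : (1 + Real.pi) * |w.im| ≤ (1 + Real.pi) * (2 * c) :=
      mul_le_mul_of_nonneg_left hA (by linarith)
    have h5 : (1 + Real.pi) * |w'.im| ≤ (1 + Real.pi) * (3 * c) :=
      mul_le_mul_of_nonneg_left hA' (by linarith)
    have h6 : (1 + Real.pi) * (2 * c) + (1 + Real.pi) * (3 * c) ≤ 21 * c := by nlinarith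
    rw [abs_le] at *
    constructor <;> nlinarith
  · have hcase : (1 ≤ w.im ∧ 1 ≤ w'.im) ∨ (w.im ≤ -1 ∧ w'.im ≤ -1) := by
      rw [abs_le] at him
      rcases lt_abs.mp hB with h1 | h1
      · left; constructor <;> linarith
      · right; constructor <;> linarith
    have hfin : ∀ S : Set ℂ, Convex ℝ S → (∀ z ∈ S, 1 ≤ |z.im|) → w ∈ S → w' ∈ S →
        |(w * Complex.log w).re - (w' * Complex.log w').re| ≤ 24 * c * (1 + Real.log R) := by
      intro S hS hS1 hwS hwS'
      have h1 := norm_wlogw_sub_le (S := S ∩ Metric.closedBall 0 R) (R := R)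
        (hS.inter (convex_closedBall 0 R)) (fun z hz => hS1 z hz.1)
        (fun z hz => by simpa using hz.2) (w := w) (w' := w')
        ⟨hwS, by simpa using hw⟩ ⟨hwS', by simpa using hw'⟩
      have h2 := Complex.abs_re_le_norm (w * Complex.log w - w' * Complex.log w')
      rw [Complex.sub_re] at h2
      have h3 : (Real.log R + 5) * ‖w - w'‖ ≤ (Real.log R + 5) * c :=
        mul_le_mul_of_nonneg_left h (by linarith)
      nlinarith
    rcases hcase with ⟨h1, h2⟩ | ⟨h1, h2⟩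
    · refine hfin {z | 1 ≤ z.im} (convex_halfSpace_im_ge 1) ?_ h1 h2
      intro z hz
      exact (show (1 : ℝ) ≤ z.im from hz).trans (le_abs_self _)
    · refine hfin {z | z.im ≤ -1} (convex_halfSpace_im_le (-1)) ?_ h1 h2
      intro z hz
      have h3 : z.im ≤ -1 := hz
      have h4 := neg_le_abs z.im
      linarith

/-- modulus of continuity of the potential of a segment -/
theorem abs_Iseg_sub_le {a d s s' : ℂ} (hd : d ≠ 0) {m c R : ℝ} (hm : 0 ≤ m) (hc : 1 ≤ c)
    (h : ‖(s - s') / d‖ ≤ c) (hR : c + ‖(s - a) / d‖ + m ≤ R) :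
    |Iseg a d m s - Iseg a d m s'| ≤ 48 * c * (1 + Real.log R) := by
  have hn := norm_nonneg ((s - a) / d)
  have hR1 : 1 ≤ R := by linarith
  have e : (s - a) / d - (s' - a) / d = (s - s') / d := by ring
  have hw' : ‖(s' - a) / d‖ ≤ ‖(s - a) / d‖ + c := by
    have e2 : (s' - a) / d = (s - a) / d - (s - s') / d := by ring
    rw [e2]
    exact (norm_sub_le _ _).trans (by linarith)
  have hm' : ‖(m : ℂ)‖ = m := by rw [Complex.norm_real, Real.norm_eq_abs, abs_of_nonneg hm]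
  have h1 := abs_wlogw_sub_le (w := (s - a) / d) (w' := (s' - a) / d) hc (by rw [e]; exact h)
    (R := R) (by linarith) (by linarith) hR1
  have h2 := abs_wlogw_sub_le (w := (s - a) / d - m) (w' := (s' - a) / d - m) hc
    (by rw [sub_sub_sub_cancel_right, e]; exact h) (R := R)
    ((norm_sub_le _ _).trans (by rw [hm']; linarith))
    ((norm_sub_le _ _).trans (by rw [hm']; linarith)) hR1
  rw [Iseg_closed hd, Iseg_closed hd]
  rw [abs_le] at *
  constructor <;> linarith

/-- scaled window version -/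
theorem abs_Iseg_scaled_sub_le {a d : ℂ} (hd : d ≠ 0) {m : ℝ} (hm : 0 ≤ m) {D : ℝ} (hD : 0 ≤ D) :
    ∃ C : ℝ, 0 ≤ C ∧ ∀ N : ℕ, 0 < N → ∀ s s' : ℂ, ‖s - s'‖ ≤ D →
      |N * Iseg a d m (s / N) - N * Iseg a d m (s' / N)| ≤ C * (1 + Real.log (N + ‖s‖)) := by
  set c : ℝ := 1 + D / ‖d‖ with hc
  have hd' : 0 < ‖d‖ := norm_pos_iff.mpr hd
  have hc1 : 1 ≤ c := by
    have : 0 ≤ D / ‖d‖ := by positivity
    linarith
  set K : ℝ := c + (1 + ‖a‖) / ‖d‖ + m with hK
  have hK1 : 1 ≤ K := by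
    have : 0 ≤ (1 + ‖a‖) / ‖d‖ := by positivity
    linarith
  have hlK := Real.log_nonneg hK1
  refine ⟨48 * c * (1 + Real.log K), by positivity, fun N hN s s' hss => ?_⟩
  have hN' : (0 : ℝ) < N := by exact_mod_cast hN
  have hN1 : (1 : ℝ) ≤ N := by exact_mod_cast hN
  have hNc : (N : ℂ) ≠ 0 := by exact_mod_cast hN.ne'
  have hs := norm_nonneg s
  have hlN : 0 ≤ Real.log (N + ‖s‖) := Real.log_nonneg (by linarith)
  have key : ∀ z : ℂ, (N : ℝ) * Iseg a d m (z / N) = Iseg ((N : ℂ) * a) d (N * m) z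
      - N * m * Real.log N := by
    intro z
    have h := Iseg_scale (a := a) (d := d) (s := z / N) m hN' hd
    push_cast at h
    rw [mul_div_cancel₀ _ hNc] at h
    rw [h]; ring
  rw [key, key]
  have e1 : Iseg ((N : ℂ) * a) d (N * m) s - N * m * Real.log N
      - (Iseg ((N : ℂ) * a) d (N * m) s' - N * m * Real.log N)
      = Iseg ((N : ℂ) * a) d (N * m) s - Iseg ((N : ℂ) * a) d (N * m) s' := by ring
  rw [e1]
  have h1 : ‖(s - s') / d‖ ≤ c := by
    rw [norm_div]
    have : ‖s - s'‖ / ‖d‖ ≤ D / ‖d‖ := by gcongr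
    linarith
  have h2 : c + ‖(s - (N : ℂ) * a) / d‖ + N * m ≤ K * (N + ‖s‖) := by
    rw [norm_div]
    have h3 : ‖s - (N : ℂ) * a‖ ≤ ‖s‖ + N * ‖a‖ := by
      refine (norm_sub_le _ _).trans ?_
      rw [norm_mul, Complex.norm_natCast]
    have h4 : ‖s - (N : ℂ) * a‖ / ‖d‖ ≤ (1 + ‖a‖) / ‖d‖ * (N + ‖s‖) := by
      rw [div_mul_eq_mul_div]
      have ha := norm_nonneg a
      have : ‖s‖ + N * ‖a‖ ≤ (1 + ‖a‖) * (N + ‖s‖) := by nlinarith
      gcongr
      linarith
    have h5 : c ≤ c * (N + ‖s‖) := by nlinarith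
    have h6 : N * m ≤ m * (N + ‖s‖) := by nlinarith
    rw [hK]
    nlinarith
  have h3 := abs_Iseg_sub_le (a := (N : ℂ) * a) hd (m := N * m) (by positivity) hc1 h1 h2
  refine h3.trans ?_
  have h4 : Real.log (K * (N + ‖s‖)) = Real.log K + Real.log (N + ‖s‖) :=
    Real.log_mul (by linarith) (by linarith)
  rw [h4]
  have h5 : 0 ≤ Real.log K * Real.log (N + ‖s‖) := mul_nonneg hlK hlN
  have h6 : 1 + (Real.log K + Real.log (N + ‖s‖)) ≤ (1 + Real.log K) * (1 + Real.log (N + ‖s‖)) := by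
    nlinarith
  calc 48 * c * (1 + (Real.log K + Real.log (N + ‖s‖)))
      ≤ 48 * c * ((1 + Real.log K) * (1 + Real.log (N + ‖s‖))) := by gcongr
    _ = _ := by ring

/-- **modulus of continuity** of `N U_F(s / N)` on bounded distances -/
theorem abs_U_sub_le {r : ℕ} (F : Fin r → Fam) (hd : ∀ f, (F f).d ≠ 0) {D : ℝ} (hD : 0 ≤ D) :
    ∃ C : ℝ, 0 ≤ C ∧ ∀ N : ℕ, 0 < N → ∀ s s' : ℂ, ‖s - s'‖ ≤ D →
      |N * U F (s / N) - N * U F (s' / N)| ≤ C * (1 + Real.log (N + ‖s‖)) := by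
  choose C hC0 hC using fun f => abs_Iseg_scaled_sub_le (a := (F f).a) (hd f)
    (m := (F f).n) (by positivity) hD
  refine ⟨∑ f, ((F f).mu : ℝ) * C f, Finset.sum_nonneg fun f _ => mul_nonneg (by positivity) (hC0 f),
    fun N hN s s' hss => ?_⟩
  have e : N * U F (s / N) - N * U F (s' / N) = ∑ f, ((F f).mu : ℝ) *
      (N * Iseg (F f).a (F f).d (F f).n (s / N) - N * Iseg (F f).a (F f).d (F f).n (s' / N)) := by
    unfold U
    rw [Finset.mul_sum, Finset.mul_sum, ← Finset.sum_sub_distrib]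
    apply Finset.sum_congr rfl
    intro f _
    ring
  rw [e, Finset.sum_mul]
  refine (Finset.abs_sum_le_sum_abs _ _).trans (Finset.sum_le_sum fun f _ => ?_)
  rw [abs_mul, abs_of_nonneg (by positivity : (0 : ℝ) ≤ ((F f).mu : ℝ)), mul_assoc]
  exact mul_le_mul_of_nonneg_left (hC f N hN s s' hss) (by positivity)

/-! ### growth -/

theorem Iseg_le_log {a d s : ℂ} {m M : ℝ} (hm : 0 ≤ m) (hM : 1 ≤ M)
    (h : ∀ t ∈ Icc (0 : ℝ) m, ‖s - (a + t * d)‖ ≤ M) :
    Iseg a d m s ≤ m * Real.log M := by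
  have h1 : Iseg a d m s ≤ ∫ _t in (0 : ℝ)..m, Real.log M := by
    unfold Iseg
    apply intervalIntegral.integral_mono_on hm _ (by simp)
    · intro t ht
      rcases eq_or_ne ‖s - (a + t * d)‖ 0 with h0 | h0
      · rw [h0, Real.log_zero]; exact Real.log_nonneg hM
      · exact Real.log_le_log (lt_of_le_of_ne (norm_nonneg _) (Ne.symm h0)) (h t ht)
    · exact intervalIntegrable_Iseg 0 m
  rw [intervalIntegral.integral_const, smul_eq_mul, sub_zero] at h1
  exact h1

theorem log_le_Iseg {a d s : ℂ} {m ρ : ℝ} (hm : 0 ≤ m) (hρ : 0 < ρ)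
    (h : ∀ t ∈ Icc (0 : ℝ) m, ρ ≤ ‖s - (a + t * d)‖) :
    m * Real.log ρ ≤ Iseg a d m s := by
  have h1 : ∫ _t in (0 : ℝ)..m, Real.log ρ ≤ Iseg a d m s := by
    unfold Iseg
    apply intervalIntegral.integral_mono_on hm (by simp)
    · exact intervalIntegrable_Iseg 0 m
    · intro t ht
      exact Real.log_le_log hρ (h t ht)
  rw [intervalIntegral.integral_const, smul_eq_mul, sub_zero] at h1
  exact h1

theorem U_le_log {r : ℕ} (F : Fin r → Fam) (s : ℂ) :
    U F s ≤ mass F * Real.log (‖s‖ + (1 + ∑ f, (‖(F f).a‖ + (F f).n * ‖(F f).d‖))) := by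
  unfold U mass
  push_cast
  rw [Finset.sum_mul]
  apply Finset.sum_le_sum
  intro f _
  rw [mul_assoc]
  apply mul_le_mul_of_nonneg_left _ (by positivity)
  have hs := norm_nonneg s
  have h0 : ∀ g : Fin r, 0 ≤ ‖(F g).a‖ + (F g).n * ‖(F g).d‖ := fun g => by positivity
  have h1 : ‖(F f).a‖ + (F f).n * ‖(F f).d‖ ≤ ∑ f, (‖(F f).a‖ + (F f).n * ‖(F f).d‖) :=
    Finset.single_le_sum (f := fun f => ‖(F f).a‖ + (F f).n * ‖(F f).d‖) (fun g _ => h0 g)
      (Finset.mem_univ f)
  have h2 : 0 ≤ ∑ f, (‖(F f).a‖ + (F f).n * ‖(F f).d‖) := Finset.sum_nonneg fun g _ => h0 g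
  apply Iseg_le_log (by positivity) (by linarith)
  intro t ht
  calc ‖s - ((F f).a + t * (F f).d)‖ ≤ ‖s‖ + ‖(F f).a + t * (F f).d‖ := norm_sub_le _ _
    _ ≤ ‖s‖ + (‖(F f).a‖ + ‖(t : ℂ) * (F f).d‖) := by gcongr; exact norm_add_le _ _
    _ ≤ _ := by
      rw [norm_mul, Complex.norm_real, Real.norm_eq_abs, abs_of_nonneg ht.1]
      have : t * ‖(F f).d‖ ≤ (F f).n * ‖(F f).d‖ := mul_le_mul_of_nonneg_right ht.2 (norm_nonneg _)
      linarith

theorem log_le_U {r : ℕ} (F : Fin r → Fam) {s : ℂ} {ρ : ℝ} (hρ : 0 < ρ)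
    (h : ∀ f, ∀ t ∈ Icc (0 : ℝ) (F f).n, ρ ≤ ‖s - ((F f).a + t * (F f).d)‖) :
    mass F * Real.log ρ ≤ U F s := by
  unfold U mass
  push_cast
  rw [Finset.sum_mul]
  apply Finset.sum_le_sum
  intro f _
  rw [mul_assoc]
  apply mul_le_mul_of_nonneg_left _ (by positivity)
  exact log_le_Iseg (by positivity) hρ (h f)

/-- a real window seen from a point off the real axis -/
theorem log_abs_im_le_Iseg {x : ℝ} {s : ℂ} {m : ℝ} (hm : 0 ≤ m) (hs : s.im ≠ 0) :
    m * Real.log |s.im| ≤ Iseg (x : ℂ) 1 m s := by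
  apply log_le_Iseg hm (abs_pos.mpr hs)
  intro t _
  have h := Complex.abs_im_le_norm (s - ((x : ℂ) + t * 1))
  simpa using h

end Crest.Agent.R006.Potx943
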