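import Crest.Agent.R006.P3_Leaf_390
import Crest.Agent.R006.P3_PotW_943
import Crest.Agent.R006.NumBr_464

/-!
# Row 6, block P3, leaf MOD of `P3_Leaf_390` (helper170)

`modPot` : modulus of continuity of the potential of any list of nondegenerate segments, and the
three instances `LS S K`, `LG S K`, `segs W0 L`.
-/

set_option autoImplicit false

namespace Crest.Agent.R006.P3

open Crest.Agent.R006.D Crest.Agent.R006.Cert Crest.Agent.R006.NumSegx464
  Crest.Agent.R006.Potx943

theorem gc_sub_ne {a b : ℤ × ℤ} (h : a ≠ b) : gc b - gc a ≠ 0 := by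
  intro h0
  apply h
  rw [sub_eq_zero] at h0
  have h1 := congrArg Complex.re h0
  have h2 := congrArg Complex.im h0
  simp only [gc_re, gc_im, Int.cast_inj] at h1 h2
  exact Prod.ext h1.symm h2.symm

theorem pot_eq_Iseg (A B s : ℂ) : pot A B s = Iseg A (B - A) 1 s := by
  rw [Iseg_eq_pot]
  simp

theorem er_nonneg {v : ℕ} (hv : 1 ≤ v) (s : ℂ) : 0 ≤ er v s := by
  have h1 : (1 : ℝ) ≤ v := by exact_mod_cast hv
  have h2 : 0 ≤ Real.log (v + ‖s‖) := Real.log_nonneg (by have := norm_nonneg s; linarith)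
  unfold er
  linarith

/-- one segment -/
theorem modPot_seg {A B : ℂ} (h : B - A ≠ 0) :
    ∃ C : ℝ, 0 ≤ C ∧ ∀ v : ℕ, 1 ≤ v → ∀ s s' : ℂ, ‖s - s'‖ ≤ 1 →
      |v * pot A B (s / v) - v * pot A B (s' / v)| ≤ C * er v s := by
  obtain ⟨C, hC, H⟩ := abs_Iseg_scaled_sub_le (a := A) h (m := 1) zero_le_one (D := 1) zero_le_one
  refine ⟨C, hC, fun v hv s s' hs => ?_⟩
  rw [pot_eq_Iseg, pot_eq_Iseg]
  exact H v hv s s' hs

/-- **LEAF MOD** -/
theorem modPot : ∀ (L : List WSeg), (∀ p ∈ L, p.1 ≠ p.2.1) → ModPot L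
  | [], _ => ⟨0, le_rfl, fun v _ s s' _ => by simp [potL]⟩
  | p :: L, h => by
    obtain ⟨C1, hC1, H1⟩ := modPot_seg (gc_sub_ne (h p (by simp)))
    obtain ⟨C2, hC2, H2⟩ := modPot L fun q hq => h q (by simp [hq])
    refine ⟨|(p.2.2 : ℝ)| * C1 + C2, by positivity, fun v hv s s' hs => ?_⟩
    have h1 := H1 v hv s s' hs
    have h2 := H2 v hv s s' hs
    have e : (v : ℝ) * potL (p :: L) (s / v) - v * potL (p :: L) (s' / v)
        = (p.2.2 : ℝ) * (v * pot (gc p.1) (gc p.2.1) (s / v) - v * pot (gc p.1) (gc p.2.1) (s' / v))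
          + (v * potL L (s / v) - v * potL L (s' / v)) := by
      simp only [potL]; ring
    rw [e]
    refine (abs_add_le _ _).trans ?_
    rw [abs_mul, add_mul, mul_assoc]
    exact add_le_add (mul_le_mul_of_nonneg_left h1 (abs_nonneg _)) h2

/-! ### the instances -/

theorem ne_of_mem_rseg {a b m : ℤ} (h : m ≠ 0 → a ≠ b) {p : WSeg} (hp : p ∈ rseg a b m) :
    p.1 ≠ p.2.1 := by
  unfold rseg at hp
  split_ifs at hp with hm
  · simp at hp
  · simp only [List.mem_singleton] at hp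
    subst hp
    intro h0
    exact h hm (congrArg Prod.fst h0)

theorem LS_ne (S : Shape) (K : ℕ) : ∀ p ∈ LS S K, p.1 ≠ p.2.1 := by
  intro p hp
  simp only [LS, List.mem_append] at hp
  rcases hp with ((((((hp | hp) | hp) | hp) | hp) | hp) | hp) | hp <;>
    exact ne_of_mem_rseg (by intro h1 h2; apply h1; omega) hp

theorem LG_ne (S : Shape) (K : ℕ) : ∀ p ∈ LG S K, p.1 ≠ p.2.1 := by
  intro p hp
  simp only [LG, List.mem_append] at hp
  rcases hp with ((hp | hp) | hp) | hp <;>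
    exact ne_of_mem_rseg (by intro h1 h2; apply h1; omega) hp

theorem modPot_LS (S : Shape) (K : ℕ) : ModPot (LS S K) := modPot _ (LS_ne S K)

theorem modPot_LG (S : Shape) (K : ℕ) : ModPot (LG S K) := modPot _ (LG_ne S K)

theorem good_of_listOK : ∀ {L : List Piece}, listOK L = true → ∀ p ∈ L, p.good = true
  | [], _, p, hp => by simp at hp
  | q :: L, h, p, hp => by
    simp only [listOK, Bool.and_eq_true] at h
    rcases List.mem_cons.1 hp with rfl | hp
    · exact h.1.1
    · exact good_of_listOK h.2 p hp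

theorem seg_ne {W : ℤ} {p : Piece} (h : p.good = true) : (p.seg W).1 ≠ (p.seg W).2.1 := by
  have h1 : p.lo < p.hi := by
    simp only [Piece.good, Bool.and_eq_true, decide_eq_true_eq] at h
    exact h.1.1
  rcases p with ⟨a, b, m⟩ | ⟨a, b, m⟩ | ⟨a, b, m⟩ <;> simp only [Piece.lo, Piece.hi] at h1 <;>
    simp only [Piece.seg, ne_eq, Prod.mk.injEq, not_and] <;> intro h2 <;> omega

theorem segs_ne {W0 : ℤ} {L : List Piece} (h : listOK L = true) :
    ∀ p ∈ segs W0 L, p.1 ≠ p.2.1 := by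
  intro p hp
  simp only [segs, List.mem_map] at hp
  obtain ⟨q, hq, rfl⟩ := hp
  exact seg_ne (good_of_listOK h q hq)

theorem modPot_segs (W0 : ℤ) {L : List Piece} (h : listOK L = true) : ModPot (segs W0 L) :=
  modPot _ (segs_ne h)

end Crest.Agent.R006.P3
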