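import Crest.Agent.R006.P3_Const2_673
import Crest.Agent.R006.Cert_112
import Crest.Agent.R006.NumBr_464

/-! Row 6, block P3, leaf KAP (helper673): the explicit constant of the determinant bound at the
scale `u = K v` in the form used by `Cert.alphaV` of `Cert_112`:
`logV - log kden = v² (selfE (LS S K) - K² (NL S + NC S log K)) + (rows²/2 - NC S) K² v² log v
+ O(v (1 + log v))`. -/

set_option autoImplicit false

namespace Crest.Agent.R006.ConstX673

open Crest.Agent.R006.Potx943 Crest.Agent.R006.NumSegx464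

/-! ### closed form of the pair energy of two real segments of density one -/

lemma Fpair_symm (D m m' : ℝ) : Fpair (-D) m' m = Fpair D m m' := by
  unfold Fpair
  rw [show -D + m' = -(D - m') by ring, show -(D - m') - m = -(D + m - m') by ring,
    show -D - m = -(D + m) by ring, F_neg, F_neg, F_neg, F_neg]
  ring

lemma mutE_real (A A' m m' : ℝ) :
    Potx943.mutE (A : ℂ) 1 m (A' : ℂ) 1 m' = Fpair (A - A') m m' := by
  rw [mut_closed_real (x0 := A - A') (ρ := 1) one_ne_zero one_ne_zero (by push_cast; simp)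
    (by simp)]
  simp only [norm_one, Real.log_one, mul_zero, mul_one, div_one, Fpair, F_eq_G2r]
  rw [show A - A' - m' + m = A - A' + m - m' by ring]
  ring

/-- weighted real segment `[A, A+m]` of mass `m` -/
def rs (A m : ℤ) : WSeg := ((A, 0), (A + m, 0), m)

lemma pairE_rs (A m A' m' : ℤ) :
    pairE (rs A m) (rs A' m') = Fpair ((A : ℝ) - A') m m' := by
  unfold pairE rs
  simp only
  have h := mutE_eq_segE ((A' : ℝ) : ℂ) 1 (m' : ℝ) ((A : ℝ) : ℂ) 1 (m : ℝ)
  rw [mutE_real] at h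
  have e1 : gc (A, 0) = ((A : ℝ) : ℂ) := by
    apply Complex.ext <;> simp
  have e2 : gc (A + m, 0) = ((A : ℝ) : ℂ) + (m : ℝ) * 1 := by
    apply Complex.ext <;> simp
  have e3 : gc (A', 0) = ((A' : ℝ) : ℂ) := by
    apply Complex.ext <;> simp
  have e4 : gc (A' + m', 0) = ((A' : ℝ) : ℂ) + (m' : ℝ) * 1 := by
    apply Complex.ext <;> simp
  rw [e1, e2, e3, e4]
  push_cast at h ⊢
  rw [mul_comm (m : ℝ) m', ← h, ← Fpair_symm]
  congr 1
  ring

lemma pairE_rs_scale {K : ℕ} (hK : 1 ≤ K) (a : ℤ) (n : ℕ) (a' : ℤ) (n' : ℕ) :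
    pairE (rs (K * a) (K * n)) (rs (K * a') (K * n'))
      = (K : ℝ) ^ 2 * Fpair ((a : ℝ) - a') n n' + n * n' * ((K : ℝ) ^ 2 * Real.log K) := by
  have hK0 : (0 : ℝ) < K := by exact_mod_cast hK
  rw [pairE_rs, ← Fpair_scale hK0]
  push_cast
  rw [mul_sub]

lemma pairE_zero_left (p q : WSeg) (h : p.2.2 = 0) : pairE p q = 0 := by
  unfold pairE; rw [h]; simp

lemma pairE_zero_right (p q : WSeg) (h : q.2.2 = 0) : pairE p q = 0 := by
  unfold pairE; rw [h]; simp

lemma rowE_rseg (p : WSeg) (A m : ℤ) (L : List WSeg) :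
    rowE p (Cert.rseg A (A + m) m ++ L) = pairE p (rs A m) + rowE p L := by
  unfold Cert.rseg
  split_ifs with h
  · rw [pairE_zero_right _ _ (by simpa [rs] using h)]
    simp
  · simp only [List.singleton_append, rowE]
    rfl

lemma rowE_rseg' (p : WSeg) (A m : ℤ) :
    rowE p (Cert.rseg A (A + m) m) = pairE p (rs A m) := by
  have := rowE_rseg p A m []
  simpa [rowE] using this

lemma selfE_rseg (A m : ℤ) (L : List WSeg) :
    selfE (Cert.rseg A (A + m) m ++ L)
      = pairE (rs A m) (rs A m) / 2 + rowE (rs A m) L + selfE L := by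
  have hz : m = 0 → rowE (rs A m) L = 0 := by
    intro h
    induction L with
    | nil => rfl
    | cons q L ih =>
      simp only [rowE]
      rw [pairE_zero_left _ _ (by simpa [rs] using h), ih]
      simp
  unfold Cert.rseg
  split_ifs with h
  · rw [pairE_zero_right _ _ (by simpa [rs] using h), hz h]
    simp
  · simp only [List.singleton_append, selfE, Nat.cast_ofNat]
    rfl

lemma selfE_rseg' (A m : ℤ) :
    selfE (Cert.rseg A (A + m) m) = pairE (rs A m) (rs A m) / 2 := by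
  have := selfE_rseg A m []
  simpa [selfE, rowE] using this

/-- **the self energy of the nodes** -/
theorem selfE_LS (S : D.Shape) {K : ℕ} (hK : 1 ≤ K) :
    selfE (Cert.LS S K) = (K : ℝ) ^ 2 * (eV S + (S.rows : ℝ) ^ 2 / 2 * Real.log K) := by
  have hLS : Cert.LS S K =
      Cert.rseg (K * wst S 0) (K * wst S 0 + K * wlen S 0) (K * wlen S 0) ++
      (Cert.rseg (K * wst S 1) (K * wst S 1 + K * wlen S 1) (K * wlen S 1) ++
      (Cert.rseg (K * wst S 2) (K * wst S 2 + K * wlen S 2) (K * wlen S 2) ++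
      (Cert.rseg (K * wst S 3) (K * wst S 3 + K * wlen S 3) (K * wlen S 3) ++
      (Cert.rseg (K * wst S 4) (K * wst S 4 + K * wlen S 4) (K * wlen S 4) ++
      (Cert.rseg (K * wst S 5) (K * wst S 5 + K * wlen S 5) (K * wlen S 5) ++
      (Cert.rseg (K * wst S 6) (K * wst S 6 + K * wlen S 6) (K * wlen S 6) ++
      Cert.rseg (K * wst S 7) (K * wst S 7 + K * wlen S 7) (K * wlen S 7))))))) := by
    simp only [Cert.LS, wst, wlen, List.append_assoc, mul_zero, zero_add, mul_neg, neg_add_cancel]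
  rw [hLS]
  simp only [selfE_rseg, rowE_rseg, rowE_rseg', selfE_rseg', pairE_rs_scale hK]
  have hs : ∀ i j : Fin 8, Fpair ((wst S j : ℝ) - wst S i) (wlen S j) (wlen S i)
      = Fpair ((wst S i : ℝ) - wst S j) (wlen S i) (wlen S j) := by
    intro i j
    rw [← Fpair_symm]
    congr 1
    ring
  have e1 : eV S = 1 / 2 * ∑ i : Fin 8, ∑ j : Fin 8,
    Fpair ((wst S i : ℝ) - wst S j) (wlen S i) (wlen S j) := rfl
  have e2 : (S.rows : ℝ) = ∑ i : Fin 8, (wlen S i : ℝ) := (sum_wlen S).symm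
  rw [e1, e2]
  simp only [Fin.sum_univ_eight]
  rw [hs 0 1, hs 0 2, hs 0 3, hs 0 4, hs 0 5, hs 0 6, hs 0 7, hs 1 2, hs 1 3, hs 1 4, hs 1 5,
    hs 1 6, hs 1 7, hs 2 3, hs 2 4, hs 2 5, hs 2 6, hs 2 7, hs 3 4, hs 3 5, hs 3 6, hs 3 7,
    hs 4 5, hs 4 6, hs 4 7, hs 5 6, hs 5 7, hs 6 7]
  ring

/-! ### rescaling `u = K v` -/

lemma ef_mul_le {K v : ℕ} (hK : 1 ≤ K) (hv : 1 ≤ v) :
    ef (K * v) ≤ ((K : ℝ) * (1 + Real.log K)) * ef v := by
  have hK1 : (1 : ℝ) ≤ K := by exact_mod_cast hK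
  have hv1 : (1 : ℝ) ≤ v := by exact_mod_cast hv
  have hlK : 0 ≤ Real.log (K : ℝ) := Real.log_nonneg hK1
  have hlv : 0 ≤ Real.log (v : ℝ) := Real.log_nonneg hv1
  unfold ef
  push_cast
  rw [Real.log_mul (by linarith) (by linarith)]
  have : 0 ≤ (K : ℝ) * v * (Real.log K * Real.log v) := by positivity
  nlinarith

/-- a small sequence along `u = K v` -/
lemma Sm.comp_mul {f : ℕ → ℝ} (hf : Sm f) {K : ℕ} (hK : 1 ≤ K) : Sm fun v => f (K * v) := by
  obtain ⟨C, hC⟩ := hf
  have hK1 : (1 : ℝ) ≤ K := by exact_mod_cast hK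
  have hlK : 0 ≤ Real.log (K : ℝ) := Real.log_nonneg hK1
  refine ⟨|C| * ((K : ℝ) * (1 + Real.log K)), fun v hv => ?_⟩
  have h1 := hC (K * v) (Nat.mul_pos hK hv)
  have h2 := ef_mul_le hK hv
  have h3 : 0 ≤ ef (K * v) := le_trans zero_le_one (one_le_ef (Nat.mul_pos hK hv))
  calc |f (K * v)| ≤ C * ef (K * v) := h1
    _ ≤ |C| * ef (K * v) := mul_le_mul_of_nonneg_right (le_abs_self C) h3
    _ ≤ |C| * (((K : ℝ) * (1 + Real.log K)) * ef v) :=
        mul_le_mul_of_nonneg_left h2 (abs_nonneg C)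
    _ = _ := by ring

lemma kapA_eq (S : D.Shape) : kapA S = (S.rows : ℝ) ^ 2 / 2 - D.NC S := by
  unfold kapA D.NC
  ring

lemma kapE_eq (S : D.Shape) : kapE S = eV S - D.NL S := by
  have h : ∀ x : ℝ, F x = sfF x := fun x => rfl
  unfold kapE D.NL D.phi
  simp only [h]
  ring

/-- **the constant of the determinant bound at the scale `u = K v`** -/
theorem Sm_kap_scaled (S : D.Shape) (c : ℕ) {K : ℕ} (hK : 1 ≤ K) :
    Sm fun v => (logV S (K * v) c - Real.log (kden S (K * v)))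
      - (((S.rows : ℝ) ^ 2 / 2 - D.NC S) * (K : ℝ) ^ 2 * ((v : ℝ) ^ 2 * Real.log v)
        + (v : ℝ) ^ 2 * (selfE (Cert.LS S K)
          - (K : ℝ) ^ 2 * (D.NL S + D.NC S * Real.log K))) := by
  refine ((Sm_logkappa S c).comp_mul hK).congr fun v hv => ?_
  have hK1 : (0 : ℝ) < K := by exact_mod_cast hK
  have hv1 : (0 : ℝ) < v := by exact_mod_cast hv
  rw [selfE_LS S hK, kapA_eq, kapE_eq]
  push_cast
  rw [Real.log_mul hK1.ne' hv1.ne']
  ring

/-- the coefficient of `v² log v`, in terms of `k, q, g` and the gauge -/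
lemma rows_NC (S : D.Shape) (h : S.q + S.g ≤ S.rows) :
    (S.rows : ℝ) ^ 2 / 2 - D.NC S
      = S.k * S.q + S.k * S.g + S.q * S.g - S.k * ((S.a1 : ℝ) + S.a2 + S.i1 + S.r1) := by
  have hr : (S.rows : ℝ) = S.k + S.q + S.g := by
    have : S.rows = S.k + S.q + S.g := by unfold D.Shape.k; omega
    rw [this]; push_cast; ring
  rw [hr]
  unfold D.NC
  ring

lemma log_exp_logV_div (S : D.Shape) (u c : ℕ) :
    Real.log (Real.exp (logV S u c) / kden S u) = logV S u c - Real.log (kden S u) := by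
  rw [Real.log_div (Real.exp_pos _).ne' (kden_pos S u).ne', Real.log_exp]

end Crest.Agent.R006.ConstX673
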