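import Crest.Agent.R006.P3_Leaf_390
import Crest.Agent.R006.P3_PotN_673
import Crest.Agent.R006.P3_Kap_673

/-! Row 6, block P3, leaves NODES and RHO of `P3_Leaf_390` (helper673). -/

set_option autoImplicit false

namespace Crest.Agent.R006.P3

open Crest.Agent.R006.D Crest.Agent.R006.Potx943 Crest.Agent.R006.ConstX673
  Crest.Agent.R006.PotNx673 Crest.Agent.R006.NumSegx464

/-! ### `potL` of real segments of density one -/

lemma gc_real (A : ℤ) : gc (A, 0) = ((A : ℝ) : ℂ) := by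
  apply Complex.ext <;> simp

lemma mass_mul_pot (A m : ℤ) (s : ℂ) :
    (m : ℝ) * pot (gc (A, 0)) (gc (A + m, 0)) s = Iseg (A : ℂ) 1 m s := by
  rw [Iseg_eq_pot, gc_real, gc_real]
  push_cast
  rw [mul_one]

lemma potL_rseg (A m : ℤ) (L : List WSeg) (s : ℂ) :
    potL (Cert.rseg A (A + m) m ++ L) s = Iseg (A : ℂ) 1 m s + potL L s := by
  unfold Cert.rseg
  split_ifs with h
  · subst h
    rw [← mass_mul_pot]
    simp
  · simp only [List.singleton_append, potL]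
    rw [← mass_mul_pot]

lemma potL_rseg' (A m : ℤ) (s : ℂ) :
    potL (Cert.rseg A (A + m) m) s = Iseg (A : ℂ) 1 m s := by
  have := potL_rseg A m [] s
  simpa [potL] using this

/-- potential of the nodes -/
theorem potL_LS (S : Shape) (K : ℕ) (s : ℂ) :
    potL (Cert.LS S K) s = ∑ i, Iseg ((K * wst S i : ℤ) : ℂ) 1 ((K * wlen S i : ℕ) : ℝ) s := by
  have hLS : Cert.LS S K =
      Cert.rseg (K * wst S 0) (K * wst S 0 + K * wlen S 0) (K * wlen S 0) ++
      (Cert.rseg (K * wst S 1) (K * wst S 1 + K * wlen S 1) (K * wlen S 1) ++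
      (Cert.rseg (K * wst S 2) (K * wst S 2 + K * wlen S 2) (K * wlen S 2) ++
      (Cert.rseg (K * wst S 3) (K * wst S 3 + K * wlen S 3) (K * wlen S 3) ++
      (Cert.rseg (K * wst S 4) (K * wst S 4 + K * wlen S 4) (K * wlen S 4) ++
      (Cert.rseg (K * wst S 5) (K * wst S 5 + K * wlen S 5) (K * wlen S 5) ++
      (Cert.rseg (K * wst S 6) (K * wst S 6 + K * wlen S 6) (K * wlen S 6) ++
      Cert.rseg (K * wst S 7) (K * wst S 7 + K * wlen S 7) (K * wlen S 7))))))) := by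
    simp only [Cert.LS, wst, wlen, List.append_assoc, mul_zero, zero_add, mul_neg, neg_add_cancel]
  rw [hLS]
  simp only [potL_rseg, potL_rseg', Fin.sum_univ_eight]
  push_cast
  ring

/-- potential of the zeros of the gauge -/
theorem potL_LG (S : Shape) (K : ℕ) (s : ℂ) :
    potL (Cert.LG S K) s = Iseg 0 1 ((K * S.a1 : ℕ) : ℝ) s + Iseg 0 1 ((K * S.a2 : ℕ) : ℝ) s
      + Iseg ((-(K * S.i1 : ℕ) : ℤ) : ℂ) 1 ((K * S.i1 : ℕ) : ℝ) s
      + Iseg ((-(K * S.r1 : ℕ) : ℤ) : ℂ) 1 ((K * S.r1 : ℕ) : ℝ) s := by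
  have hLG : Cert.LG S K =
      Cert.rseg 0 (0 + K * S.a1) (K * S.a1) ++ (Cert.rseg 0 (0 + K * S.a2) (K * S.a2) ++
      (Cert.rseg (-(K * S.i1)) (-(K * S.i1) + K * S.i1) (K * S.i1) ++
      Cert.rseg (-(K * S.r1)) (-(K * S.r1) + K * S.r1) (K * S.r1))) := by
    simp only [Cert.LG, List.append_assoc, zero_add, neg_add_cancel]
  rw [hLG]
  simp only [potL_rseg, potL_rseg']
  push_cast
  ring

/-! ### scaling of one window -/

lemma Iseg_scale_v {v : ℕ} (hv : 1 ≤ v) (a : ℤ) (n : ℕ) (s : ℂ) :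
    Iseg ((a * v : ℤ) : ℂ) 1 ((n * v : ℕ) : ℝ) s
      = v * (n * Real.log v + Iseg (a : ℂ) 1 n (s / v)) := by
  have hv0 : (v : ℂ) ≠ 0 := by
    have : v ≠ 0 := by omega
    exact_mod_cast this
  have h := Iseg_win_scale hv a n (s / v)
  rw [show (v : ℂ) * (s / v) = s by field_simp] at h
  exact h

lemma er_pos {v : ℕ} (hv : 1 ≤ v) (s : ℂ) : 1 ≤ er v s := by
  have h1 : (1 : ℝ) ≤ v := by exact_mod_cast hv
  have h2 : 0 ≤ Real.log (v + ‖s‖) := Real.log_nonneg (by have := norm_nonneg s; linarith)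
  unfold er
  linarith

lemma log_le_er {v : ℕ} (hv : 1 ≤ v) (s : ℂ) {b : ℝ} (hb : 0 ≤ b) :
    Real.log (2 + ‖s‖ + b * v) ≤ (1 + Real.log (3 + b)) * er v s := by
  have h1 : (1 : ℝ) ≤ v := by exact_mod_cast hv
  have hs := norm_nonneg s
  have h2 : 2 + ‖s‖ + b * v ≤ (3 + b) * (v + ‖s‖) := by nlinarith
  have h3 : 0 ≤ Real.log (v + ‖s‖) := Real.log_nonneg (by linarith)
  have h4 : 0 ≤ Real.log (3 + b) := Real.log_nonneg (by linarith)
  calc Real.log (2 + ‖s‖ + b * v) ≤ Real.log ((3 + b) * (v + ‖s‖)) :=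
        Real.log_le_log (by positivity) h2
    _ = Real.log (3 + b) + Real.log (v + ‖s‖) := Real.log_mul (by linarith) (by linarith)
    _ ≤ (1 + Real.log (3 + b)) * er v s := by unfold er; nlinarith

/-! ### NODES -/

lemma NSn_eq (S : Shape) (hS : S.Good) (u c : ℕ) (s : ℂ) :
    NSn S u c s = ∏ i, ∏ t ∈ Finset.range (wL S u c i), ‖s - wpt (whalf i) (wst S i * u) t‖ := by
  rw [← norm_NS (ι := {z // z ∈ Bordx929.sites S u c}) S u c (fun z => z.1)
    Subtype.val_injective (fun z hz => ⟨⟨z, Bordx929.mem_sites u c hS hz⟩, rfl⟩) s]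
  unfold NSn
  rw [← Finset.prod_coe_sort]
  rfl

theorem nodesGe {S : Shape} (hS : S.Good) {K : ℕ} (hK : 0 < K) (c : ℕ) : NodesGe S K c := by
  refine ⟨200 + (88 + c) * Real.log 8 + 8 * (1 + Real.log (3 + 2 * S.rows * K)), ?_, ?_⟩
  · have h1 : 0 ≤ Real.log 8 := Real.log_nonneg (by norm_num)
    have h2 : 0 ≤ Real.log (3 + 2 * S.rows * K : ℝ) :=
      Real.log_nonneg (by have : (0 : ℝ) ≤ 2 * S.rows * K := by positivity
                          linarith)
    positivity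
  intro v hv s hs
  rw [NSn_eq S hS]
  have hd : ∀ z : Site, S.mult (K * v) c z ≠ 0 → (1 / 8 : ℝ) ≤ ‖s - cv z‖ := by
    intro z _
    rcases z with i | i
    · have := hs (2 * i)
      have e : ((2 * i : ℤ) : ℂ) / 2 = cv (Site.Z i) := by
        unfold cv; simp only [Site.val]; push_cast; ring
      rwa [e] at this
    · have := hs (2 * i + 1)
      have e : ((2 * i + 1 : ℤ) : ℂ) / 2 = cv (Site.H i) := by
        unfold cv; simp only [Site.val]; push_cast; ring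
      rwa [e] at this
  have h := NS_ge S (K * v) c s (δ := 1 / 8) (by norm_num) (by norm_num) hd
  refine le_trans (Real.exp_le_exp.mpr ?_) h
  have e1 : ∀ i : Fin 8, Iseg ((wst S i * (K * v : ℕ) : ℤ) : ℂ) 1 ((wlen S i * (K * v) : ℕ) : ℝ) s
      = v * ((K * wlen S i : ℕ) * Real.log v
        + Iseg ((K * wst S i : ℤ) : ℂ) 1 ((K * wlen S i : ℕ) : ℝ) (s / v)) := by
    intro i
    rw [← Iseg_scale_v hv]
    congr 2
    · push_cast; ring
    · ring
  simp_rw [e1]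
  rw [← Finset.mul_sum, Finset.sum_add_distrib, ← Finset.sum_mul, ← potL_LS]
  have e2 : ∑ i : Fin 8, ((K * wlen S i : ℕ) : ℝ) = ((K * S.rows : ℕ) : ℝ) := by
    push_cast
    rw [← Finset.mul_sum, sum_wlen]
  rw [e2, one_div_one_div]
  have h3 := log_le_er hv s (b := 2 * S.rows * K) (by positivity)
  have h4 := er_pos hv s
  have h5 : 0 ≤ Real.log 8 := Real.log_nonneg (by norm_num)
  have h6 : (2 : ℝ) + ‖s‖ + 2 * S.rows * ((K * v : ℕ) : ℝ) = 2 + ‖s‖ + 2 * S.rows * K * v := by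
    push_cast; ring
  rw [h6]
  have h7 : (200 : ℝ) + (88 + c) * Real.log 8 ≤ (200 + (88 + c) * Real.log 8) * er v s := by
    have : 0 ≤ 200 + (88 + (c : ℝ)) * Real.log 8 := by positivity
    nlinarith
  nlinarith

/-! ### RHO -/

lemma prod_reflect_half (n : ℕ) (s : ℂ) :
    ∏ m ∈ Finset.range n, ‖s + ((m : ℂ) + 1 / 2)‖
      = ∏ t ∈ Finset.range n, ‖s - wpt true (-(n : ℤ)) t‖ := by
  rw [← Finset.prod_range_reflect]
  refine Finset.prod_congr rfl fun t ht => ?_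
  have h := Finset.mem_range.mp ht
  rw [wpt_true, pt_window_half]
  congr 1
  have e : ((n - 1 - t : ℕ) : ℂ) = (n : ℂ) - 1 - t := by
    rw [Nat.cast_sub (by omega), Nat.cast_sub (by omega)]; push_cast; ring
  rw [e]
  push_cast
  ring

lemma prod_reflect_int (n : ℕ) (s : ℂ) :
    ∏ m ∈ Finset.range n, ‖s + ((m : ℂ) + 1)‖
      = ∏ t ∈ Finset.range n, ‖s - wpt false (-(n : ℤ)) t‖ := by
  rw [← Finset.prod_range_reflect]
  refine Finset.prod_congr rfl fun t ht => ?_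
  have h := Finset.mem_range.mp ht
  rw [wpt_false]
  congr 1
  have e : ((n - 1 - t : ℕ) : ℂ) = (n : ℂ) - 1 - t := by
    rw [Nat.cast_sub (by omega), Nat.cast_sub (by omega)]; push_cast; ring
  rw [e]
  push_cast
  ring

lemma prod_zero_int (n : ℕ) (s : ℂ) :
    ∏ m ∈ Finset.range n, ‖s - (m : ℂ)‖ = ∏ t ∈ Finset.range n, ‖s - wpt false 0 t‖ := by
  refine Finset.prod_congr rfl fun t _ => ?_
  rw [wpt_false]
  push_cast
  rw [zero_add]

/-- one window of the gauge -/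
lemma win_le_er {K v : ℕ} (hv : 1 ≤ v) (h : Bool) (a : ℤ) (n : ℕ)
    (ha : |(a : ℝ)| ≤ (K * n : ℕ)) (s : ℂ) :
    ∏ t ∈ Finset.range (n * (K * v)), ‖s - wpt h (a * v) t‖ ≤
      Real.exp (v * ((K * n : ℕ) * Real.log v + Iseg (a : ℂ) 1 ((K * n : ℕ) : ℝ) (s / v))
        + (25 + (1 + Real.log (3 + (K * n : ℕ)))) * er v s) := by
  refine (win_prod_le h (a * v) (n * (K * v)) s).trans (Real.exp_le_exp.mpr ?_)
  rw [show n * (K * v) = (K * n) * v by ring, Iseg_scale_v hv]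
  have h1 : Real.log (2 + ‖s - ((a * v : ℤ) : ℂ)‖) ≤ Real.log (2 + ‖s‖ + (K * n : ℕ) * v) := by
    apply Real.log_le_log (by positivity)
    have h2 := norm_sub_le s ((a * v : ℤ) : ℂ)
    have h3 : ‖((a * v : ℤ) : ℂ)‖ ≤ (K * n : ℕ) * v := by
      rw [Complex.norm_intCast]
      push_cast
      rw [abs_mul, Nat.abs_cast]
      have := mul_le_mul_of_nonneg_right ha (Nat.cast_nonneg v : (0 : ℝ) ≤ v)
      push_cast at this
      exact this
    linarith
  have h4 := log_le_er hv s (b := ((K * n : ℕ) : ℝ)) (Nat.cast_nonneg _)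
  have h5 := er_pos hv s
  nlinarith

theorem rhoLe (S : Shape) {K : ℕ} (hK : 0 < K) : RhoLe S K := by
  have hpos : ∀ n : ℕ, 0 ≤ (25 : ℝ) + (1 + Real.log (3 + ((K * n : ℕ) : ℝ))) := by
    intro n
    have h2 : 0 ≤ Real.log (3 + ((K * n : ℕ) : ℝ)) :=
      Real.log_nonneg (by have : (0 : ℝ) ≤ ((K * n : ℕ) : ℝ) := Nat.cast_nonneg _
                          linarith)
    linarith
  refine ⟨(25 + (1 + Real.log (3 + ((K * S.a1 : ℕ) : ℝ)))) + (25 + (1 + Real.log (3 + ((K * S.a2 : ℕ) : ℝ))))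
    + (25 + (1 + Real.log (3 + ((K * S.i1 : ℕ) : ℝ)))) + (25 + (1 + Real.log (3 + ((K * S.r1 : ℕ) : ℝ)))),
    by have := hpos S.a1; have := hpos S.a2; have := hpos S.i1; have := hpos S.r1; linarith, ?_⟩
  intro v hv s
  unfold rhon
  have w1 := win_le_er (K := K) hv false 0 S.a1 (by simp; positivity) s
  have w2 := win_le_er (K := K) hv false 0 S.a2 (by simp; positivity) s
  have w3 := win_le_er (K := K) hv true (-(K * S.i1 : ℕ)) S.i1 (by
    push_cast; rw [abs_neg, abs_of_nonneg (by positivity)]) s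
  have w4 := win_le_er (K := K) hv false (-(K * S.r1 : ℕ)) S.r1 (by
    push_cast; rw [abs_neg, abs_of_nonneg (by positivity)]) s
  have n1 : ∏ n ∈ Finset.range (S.a1 * (K * v)), ‖s - (n : ℂ)‖
      = ∏ t ∈ Finset.range (S.a1 * (K * v)), ‖s - wpt false (0 * v) t‖ := by
    rw [prod_zero_int, zero_mul]
  have n2 : ∏ n ∈ Finset.range (S.a2 * (K * v)), ‖s - (n : ℂ)‖
      = ∏ t ∈ Finset.range (S.a2 * (K * v)), ‖s - wpt false (0 * v) t‖ := by
    rw [prod_zero_int, zero_mul]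
  have n3 : ∏ m ∈ Finset.range (S.i1 * (K * v)), ‖s + ((m : ℂ) + 1 / 2)‖
      = ∏ t ∈ Finset.range (S.i1 * (K * v)), ‖s - wpt true (-(K * S.i1 : ℕ) * v) t‖ := by
    rw [prod_reflect_half]
    refine Finset.prod_congr rfl fun t _ => ?_
    congr 3
    push_cast; ring
  have n4 : ∏ m ∈ Finset.range (S.r1 * (K * v)), ‖s + ((m : ℂ) + 1)‖
      = ∏ t ∈ Finset.range (S.r1 * (K * v)), ‖s - wpt false (-(K * S.r1 : ℕ) * v) t‖ := by
    rw [prod_reflect_int]
    refine Finset.prod_congr rfl fun t _ => ?_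
    congr 3
    push_cast; ring
  rw [n1, n2, n3, n4]
  have p1 : 0 ≤ ∏ t ∈ Finset.range (S.a1 * (K * v)), ‖s - wpt false (0 * v) t‖ :=
    Finset.prod_nonneg fun _ _ => norm_nonneg _
  have p2 : 0 ≤ ∏ t ∈ Finset.range (S.a2 * (K * v)), ‖s - wpt false (0 * v) t‖ :=
    Finset.prod_nonneg fun _ _ => norm_nonneg _
  have p3 : 0 ≤ ∏ t ∈ Finset.range (S.i1 * (K * v)), ‖s - wpt true (-(K * S.i1 : ℕ) * v) t‖ :=
    Finset.prod_nonneg fun _ _ => norm_nonneg _
  have p4 : 0 ≤ ∏ t ∈ Finset.range (S.r1 * (K * v)), ‖s - wpt false (-(K * S.r1 : ℕ) * v) t‖ :=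
    Finset.prod_nonneg fun _ _ => norm_nonneg _
  have h := mul_le_mul (mul_le_mul (mul_le_mul w1 w2 p2 (Real.exp_pos _).le) w3 p3
    (mul_pos (Real.exp_pos _) (Real.exp_pos _)).le) w4 p4
    (mul_pos (mul_pos (Real.exp_pos _) (Real.exp_pos _)) (Real.exp_pos _)).le
  refine h.trans (le_of_eq ?_)
  rw [← Real.exp_add, ← Real.exp_add, ← Real.exp_add, potL_LG]
  congr 1
  push_cast
  ring

end Crest.Agent.R006.P3
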