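import Crest.Agent.R006.P3_Pot3_943
import Crest.Agent.R006.LeibnizArch_257

/-! Row 6, block P3, leaf POT, part 4 (helper943): the confluent Vandermonde `V w m` (helper257) of a
configuration that is a finite union of families `pt (N a_f) d_f j`, `j < n_f N`, with multiplicities
`mu_f`, on the scale `N^2`; potentials of such configurations on the scale `N`. -/

set_option autoImplicit false

namespace Crest.Agent.R006.Potx943

open MeasureTheory Set

/-! ### ordered pair energies -/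

/-- sum over ordered pairs (the diagonal contributes `log 0 = 0`) -/
noncomputable def LE {ι : Type*} [Fintype ι] (w : ι → ℂ) (m : ι → ℕ) : ℝ :=
  ∑ x, ∑ y, (m x : ℝ) * m y * Real.log ‖w x - w y‖

theorem LE_comp {ι κ : Type*} [Fintype ι] [Fintype κ] (e : ι ≃ κ) (w : κ → ℂ) (m : κ → ℕ) :
    LE (fun x => w (e x)) (fun x => m (e x)) = LE w m := by
  unfold LE
  rw [← Equiv.sum_comp e (fun x => ∑ y, (m x : ℝ) * m y * Real.log ‖w x - w y‖)]
  apply Finset.sum_congr rfl
  intro x _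
  exact Equiv.sum_comp e (fun y => (m (e x) : ℝ) * m y * Real.log ‖w (e x) - w y‖)

theorem sum_ordered_eq {s : ℕ} (f : Fin s → Fin s → ℝ) (hsym : ∀ k l, f k l = f l k)
    (hdiag : ∀ k, f k k = 0) : ∑ k, ∑ l, f k l = 2 * ∑ k, ∑ l ∈ Finset.Ioi k, f k l := by
  have h1 : ∀ k, ∑ l, f k l = ∑ l ∈ Finset.Iio k, f k l + ∑ l ∈ Finset.Ioi k, f k l := by
    intro k
    have h2 : (Finset.univ : Finset (Fin s)) = (Finset.Iio k ∪ Finset.Ioi k) ∪ {k} := by
      ext a
      simp only [Finset.mem_univ, Finset.mem_union, Finset.mem_Iio, Finset.mem_Ioi,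
        Finset.mem_singleton, true_iff]
      rcases lt_trichotomy a k with h | h | h <;> simp [h]
    rw [h2, Finset.sum_union, Finset.sum_union]
    · simp [hdiag]
    · rw [Finset.disjoint_left]
      intro a ha hb
      rw [Finset.mem_Iio] at ha
      rw [Finset.mem_Ioi] at hb
      exact lt_asymm ha hb
    · rw [Finset.disjoint_left]
      intro a ha hb
      rw [Finset.mem_singleton] at hb
      subst hb
      simp at ha
  simp_rw [h1]
  rw [Finset.sum_add_distrib]
  have h3 : ∑ k, ∑ l ∈ Finset.Iio k, f k l = ∑ k, ∑ l ∈ Finset.Ioi k, f k l := by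
    rw [Finset.sum_comm' (t' := Finset.univ) (s' := fun l => Finset.Ioi l)]
    · apply Finset.sum_congr rfl
      intro k _
      apply Finset.sum_congr rfl
      intro l _
      exact hsym _ _
    · intro x y
      simp
  rw [h3]; ring

theorem two_log_norm_V {s : ℕ} (w : Fin s → ℂ) (m : Fin s → ℕ) (hw : Function.Injective w) :
    2 * Real.log ‖Leib257.V w m‖ = LE w m := by
  unfold LE
  rw [sum_ordered_eq (fun x y => (m x : ℝ) * m y * Real.log ‖w x - w y‖)
    (by intro k l; rw [norm_sub_rev]; ring) (by intro k; simp)]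
  congr 1
  unfold Leib257.V
  rw [norm_prod, Real.log_prod]
  · apply Finset.sum_congr rfl
    intro k _
    rw [norm_prod, Real.log_prod]
    · apply Finset.sum_congr rfl
      intro l _
      rw [norm_pow, Real.log_pow]
      push_cast; ring
    · intro l hl
      rw [norm_ne_zero_iff]
      apply pow_ne_zero
      rw [sub_ne_zero]
      intro h
      exact (ne_of_lt (Finset.mem_Ioi.1 hl)) (hw h)
  · intro k _
    rw [norm_ne_zero_iff]
    refine Finset.prod_ne_zero_iff.2 fun l hl => pow_ne_zero _ ?_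
    rw [sub_ne_zero]
    intro h
    exact (ne_of_lt (Finset.mem_Ioi.1 hl)) (hw h)

/-! ### families -/

/-- a family: segment from `a`, spacing `d`, `n` points per unit of `N`, multiplicity `mu` -/
structure Fam where
  a : ℂ
  d : ℂ
  n : ℕ
  mu : ℕ

variable {r : ℕ} (F : Fin r → Fam)

/-- the index set of the configuration of size `N` -/
abbrev Idx (N : ℕ) : Type := Σ f : Fin r, Fin ((F f).n * N)

/-- the points -/
noncomputable def pts (N : ℕ) (x : Idx F N) : ℂ := pt ((N : ℂ) * (F x.1).a) (F x.1).d x.2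

/-- the multiplicities -/
def mus (N : ℕ) (x : Idx F N) : ℕ := (F x.1).mu

/-- mass of the configuration per unit of `N` -/
def mass : ℕ := ∑ f, (F f).mu * (F f).n

/-- potential -/
noncomputable def U (s : ℂ) : ℝ := ∑ f, ((F f).mu : ℝ) * Iseg (F f).a (F f).d (F f).n s

/-- energy (ordered pairs) -/
noncomputable def En : ℝ :=
  ∑ f, ((F f).mu : ℝ) ^ 2 * (((F f).n : ℝ) ^ 2 * Real.log ‖(F f).d‖
      + ((F f).n : ℝ) ^ 2 * Real.log (F f).n - 3 / 2 * ((F f).n : ℝ) ^ 2)
    + 2 * ∑ f, ∑ g ∈ Finset.Ioi f, ((F f).mu : ℝ) * (F g).mu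
      * mutE (F f).a (F f).d (F f).n (F g).a (F g).d (F g).n

/-- upper bound of the product over the configuration, every `s` -/
theorem prod_pts_le (hd : ∀ f, (F f).d ≠ 0) {N : ℕ} (hN : 0 < N) (s : ℂ) :
    ∏ x : Idx F N, ‖(N : ℂ) * s - pts F N x‖ ^ mus F N x ≤
      Real.exp (N * (mass F * Real.log N + U F s) + 22 * ∑ f, ((F f).mu : ℝ)) := by
  have hN' : (0 : ℝ) < N := by exact_mod_cast hN
  rw [Fintype.prod_sigma]
  have h1 : ∀ f : Fin r, ∏ j : Fin ((F f).n * N), ‖(N : ℂ) * s - pts F N ⟨f, j⟩‖ ^ mus F N ⟨f, j⟩ ≤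
      Real.exp (N * ((F f).mu * (F f).n * Real.log N + (F f).mu * Iseg (F f).a (F f).d (F f).n s)
        + 22 * (F f).mu) := by
    intro f
    simp only [pts, mus]
    rw [Finset.prod_pow, Finset.prod_range (n := (F f).n * N)
      (f := fun j => ‖(N : ℂ) * s - pt ((N : ℂ) * (F f).a) (F f).d j‖) |>.symm]
    have h2 := prod_le_exp_Iseg (a := (N : ℂ) * (F f).a) (hd f) ((F f).n * N) ((N : ℂ) * s)
    have h3 := Iseg_scale (a := (F f).a) (d := (F f).d) (s := s) ((F f).n : ℝ) hN' (hd f)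
    have e : (((F f).n * N : ℕ) : ℝ) = (N : ℝ) * (F f).n := by push_cast; ring
    rw [e] at h2
    push_cast at h3
    rw [h3] at h2
    calc _ ≤ (Real.exp (N * ((F f).n * Real.log N + Iseg (F f).a (F f).d (F f).n s) + 22)) ^ (F f).mu := by
          apply pow_le_pow_left₀ (Finset.prod_nonneg fun _ _ => norm_nonneg _)
          exact h2
      _ = _ := by
          rw [← Real.exp_nat_mul]
          congr 1
          ring
  refine (Finset.prod_le_prod (fun f _ => Finset.prod_nonneg fun _ _ => by positivity)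
    (fun f _ => h1 f)).trans ?_
  rw [← Real.exp_sum]
  apply Real.exp_le_exp.mpr
  apply le_of_eq
  unfold mass U
  rw [Finset.sum_add_distrib, ← Finset.mul_sum, ← Finset.mul_sum, Finset.sum_add_distrib]
  push_cast
  rw [Finset.sum_mul]

/-- two-sided estimate of the sum of the logs over the configuration -/
theorem abs_sum_log_pts_sub_le (hd : ∀ f, (F f).d ≠ 0) {N : ℕ} (hN : 0 < N) (s : ℂ) {δ : ℝ}
    (hδ : 0 < δ) (hδ1 : δ ≤ 1) (hsep : ∀ x : Idx F N, δ * ‖(F x.1).d‖ ≤ ‖(N : ℂ) * s - pts F N x‖) :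
    |∑ x : Idx F N, (mus F N x : ℝ) * Real.log ‖(N : ℂ) * s - pts F N x‖
      - N * (mass F * Real.log N + U F s)| ≤
      (22 + 11 * Real.log (1 / δ)) * ∑ f, ((F f).mu : ℝ) := by
  have hN' : (0 : ℝ) < N := by exact_mod_cast hN
  rw [Fintype.sum_sigma]
  have h1 : ∀ f : Fin r, |∑ j : Fin ((F f).n * N), (mus F N ⟨f, j⟩ : ℝ)
        * Real.log ‖(N : ℂ) * s - pts F N ⟨f, j⟩‖
      - N * ((F f).mu * (F f).n * Real.log N + (F f).mu * Iseg (F f).a (F f).d (F f).n s)|
      ≤ (22 + 11 * Real.log (1 / δ)) * (F f).mu := by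
    intro f
    have hs := fun j : Fin ((F f).n * N) => hsep ⟨f, j⟩
    simp only [pts, mus] at hs ⊢
    rw [← Finset.mul_sum, Finset.sum_range (n := (F f).n * N)
      (f := fun j => Real.log ‖(N : ℂ) * s - pt ((N : ℂ) * (F f).a) (F f).d j‖) |>.symm]
    have h2 := abs_sum_log_sub_Iseg_le (a := (N : ℂ) * (F f).a) (hd f) (m := (F f).n * N)
      (s := (N : ℂ) * s) hδ hδ1 (fun j hj => hs ⟨j, hj⟩)
    have h3 := Iseg_scale (a := (F f).a) (d := (F f).d) (s := s) ((F f).n : ℝ) hN' (hd f)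
    have e : (((F f).n * N : ℕ) : ℝ) = (N : ℝ) * (F f).n := by push_cast; ring
    rw [e] at h2
    push_cast at h3
    rw [h3] at h2
    set A := ∑ j ∈ Finset.range ((F f).n * N), Real.log ‖(N : ℂ) * s - pt ((N : ℂ) * (F f).a) (F f).d j‖
    have e2 : (F f).mu * A - N * ((F f).mu * (F f).n * Real.log N
        + (F f).mu * Iseg (F f).a (F f).d (F f).n s)
        = (F f).mu * (A - N * ((F f).n * Real.log N + Iseg (F f).a (F f).d (F f).n s)) := by ring
    rw [e2, abs_mul, Nat.abs_cast, mul_comm]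
    gcongr
  have e3 : (N : ℝ) * (mass F * Real.log N + U F s) = ∑ f, (N : ℝ) * ((F f).mu * (F f).n * Real.log N
      + (F f).mu * Iseg (F f).a (F f).d (F f).n s) := by
    unfold mass U
    rw [← Finset.mul_sum, Finset.sum_add_distrib]
    push_cast
    rw [Finset.sum_mul]
  rw [e3, ← Finset.sum_sub_distrib]
  refine (Finset.abs_sum_le_sum_abs _ _).trans ?_
  refine (Finset.sum_le_sum fun f _ => h1 f).trans ?_
  rw [← Finset.mul_sum]

/-- separation of the families, uniformly in `N`: the points of `g` keep a distance `ρ` from the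
whole segment of `f`, for `f < g` -/
def Sep (ρ : ℝ) : Prop := ∀ N : ℕ, 0 < N → ∀ f g : Fin r, f < g → ∀ t ∈ Set.Icc (0 : ℝ) ((F f).n * N),
  ∀ j < (F g).n * N, ρ ≤ ‖((N : ℂ) * (F f).a + t * (F f).d) - pt ((N : ℂ) * (F g).a) (F g).d j‖

theorem pair_sum_self {a d : ℂ} (hd : d ≠ 0) (n : ℕ) :
    ∑ i ∈ Finset.range n, ∑ j ∈ Finset.range n, Real.log ‖pt a d i - pt a d j‖
      = 2 * (lsf n + (n : ℝ) * (n - 1) / 2 * Real.log ‖d‖) := by
  rw [← sum_pairs_pt (a := a) hd n]
  induction n with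
  | zero => simp
  | succ n ih =>
    rw [Finset.sum_range_succ, Finset.sum_range_succ (f := fun i => ∑ j ∈ Finset.range i,
      Real.log ‖pt a d i - pt a d j‖), mul_add, ← ih]
    rw [Finset.sum_range_succ (f := fun j => Real.log ‖pt a d n - pt a d j‖)]
    have h1 : ∑ i ∈ Finset.range n, ∑ j ∈ Finset.range (n + 1), Real.log ‖pt a d i - pt a d j‖
        = ∑ i ∈ Finset.range n, ∑ j ∈ Finset.range n, Real.log ‖pt a d i - pt a d j‖
          + ∑ i ∈ Finset.range n, Real.log ‖pt a d n - pt a d i‖ := by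
      rw [← Finset.sum_add_distrib]
      apply Finset.sum_congr rfl
      intro i _
      rw [Finset.sum_range_succ, norm_sub_rev (pt a d i) (pt a d n)]
    rw [h1]
    simp
    ring

theorem self_estimate {a d : ℂ} (hd : d ≠ 0) (n : ℕ) {N : ℕ} (hN : 0 < N) :
    |∑ i ∈ Finset.range (n * N), ∑ j ∈ Finset.range (n * N), Real.log ‖pt a d i - pt a d j‖
      - (N : ℝ) ^ 2 * ((n : ℝ) ^ 2 * Real.log N + ((n : ℝ) ^ 2 * Real.log ‖d‖
        + (n : ℝ) ^ 2 * Real.log n - 3 / 2 * (n : ℝ) ^ 2))|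
      ≤ (n : ℝ) * N * (2 * Real.log N + 2 * Real.log n + 2 + |Real.log ‖d‖|) := by
  have hN' : (0 : ℝ) < N := by exact_mod_cast hN
  rcases Nat.eq_zero_or_pos n with h | h
  · subst h; simp
  have hn : (0 : ℝ) < n := by exact_mod_cast h
  rw [pair_sum_self hd]
  have h1 := lsf_ge (n * N)
  have h2 := lsf_le (n * N)
  have hl : Real.log ((n * N : ℕ) : ℝ) = Real.log n + Real.log N := by
    push_cast; rw [Real.log_mul hn.ne' hN'.ne']
  rw [hl] at h1 h2
  push_cast at h1 h2 ⊢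
  have h3 : |(n : ℝ) * N * Real.log ‖d‖| = n * N * |Real.log ‖d‖| := by
    rw [abs_mul, abs_of_pos (by positivity)]
  have h4 := abs_le.mp (le_of_eq h3)
  have hlN : 0 ≤ Real.log (N : ℝ) := Real.log_nonneg (by exact_mod_cast hN)
  have hln : 0 ≤ Real.log (n : ℝ) := Real.log_nonneg (by exact_mod_cast h)
  have h5 : 0 ≤ (n : ℝ) * N := by positivity
  rw [abs_le]
  constructor
  · nlinarith [h4.1, h4.2]
  · nlinarith [h4.1, h4.2]

theorem LE_pts (N : ℕ) : LE (pts F N) (mus F N)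
    = ∑ f, ∑ g, ((F f).mu : ℝ) * (F g).mu * ∑ i ∈ Finset.range ((F f).n * N),
      ∑ j ∈ Finset.range ((F g).n * N),
        Real.log ‖pt ((N : ℂ) * (F f).a) (F f).d i - pt ((N : ℂ) * (F g).a) (F g).d j‖ := by
  unfold LE
  rw [Fintype.sum_sigma]
  apply Finset.sum_congr rfl
  intro f _
  have h1 : ∀ i : Fin ((F f).n * N), ∑ y : Idx F N, (mus F N ⟨f, i⟩ : ℝ) * mus F N y
      * Real.log ‖pts F N ⟨f, i⟩ - pts F N y‖
      = ∑ g, ((F f).mu : ℝ) * (F g).mu * ∑ j ∈ Finset.range ((F g).n * N),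
        Real.log ‖pt ((N : ℂ) * (F f).a) (F f).d i - pt ((N : ℂ) * (F g).a) (F g).d j‖ := by
    intro i
    rw [Fintype.sum_sigma]
    apply Finset.sum_congr rfl
    intro g _
    rw [Finset.sum_range, Finset.mul_sum]
    rfl
  simp_rw [h1]
  rw [Finset.sum_comm]
  apply Finset.sum_congr rfl
  intro g _
  rw [Finset.sum_range, ← Finset.mul_sum]

/-- the confluent Vandermonde energy on the scale `N^2` -/
theorem LE_estimate (hd : ∀ f, (F f).d ≠ 0) {ρ : ℝ} (hρ : 0 < ρ) (hsep : Sep F ρ) :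
    ∃ C : ℝ, 0 ≤ C ∧ ∀ N : ℕ, 0 < N →
      |LE (pts F N) (mus F N) - (N : ℝ) ^ 2 * ((mass F : ℝ) ^ 2 * Real.log N + En F)|
        ≤ C * (N * (1 + Real.log N)) := by
  -- a common delta
  obtain ⟨δ, hδ, hδ1, hδd⟩ : ∃ δ : ℝ, 0 < δ ∧ δ ≤ 1 ∧ ∀ f, δ * ‖(F f).d‖ ≤ ρ := by
    set D : ℝ := ∑ f, ‖(F f).d‖ with hD
    have hD0 : 0 ≤ D := Finset.sum_nonneg fun _ _ => norm_nonneg _
    refine ⟨min 1 (ρ / (D + 1)), by positivity, min_le_left _ _, fun f => ?_⟩
    have h1 : ‖(F f).d‖ ≤ D := Finset.single_le_sum (f := fun f => ‖(F f).d‖)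
      (fun _ _ => norm_nonneg _) (Finset.mem_univ f)
    calc min 1 (ρ / (D + 1)) * ‖(F f).d‖ ≤ (ρ / (D + 1)) * (D + 1) := by
          apply mul_le_mul (min_le_right _ _) (by linarith) (norm_nonneg _) (by positivity)
      _ = ρ := by field_simp
  set E : ℝ := 22 + 11 * Real.log (1 / δ) with hE
  have hE0 : 0 ≤ E := by
    have : 0 ≤ Real.log (1 / δ) := Real.log_nonneg (by rw [le_div_iff₀ hδ]; linarith)
    positivity
  set Cs : Fin r → ℝ := fun f => ((F f).mu : ℝ) ^ 2 * ((F f).n * (2 + 2 * Real.log (F f).n + 2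
    + |Real.log ‖(F f).d‖|)) with hCs
  set Cm : Fin r → Fin r → ℝ := fun f g => ((F f).mu : ℝ) * (F g).mu * (((F f).n + (F g).n) * E) with hCm
  have hlogn : ∀ f, 0 ≤ Real.log ((F f).n : ℝ) := fun f => Real.log_natCast_nonneg _
  have hCs0 : ∀ f, 0 ≤ Cs f := fun f => by
    have := hlogn f
    simp only [hCs]; positivity
  have hCm0 : ∀ f g, 0 ≤ Cm f g := fun f g => by simp only [hCm]; positivity
  refine ⟨∑ f, Cs f + 2 * ∑ f, ∑ g ∈ Finset.Ioi f, Cm f g, ?_, ?_⟩
  · have h1 : 0 ≤ ∑ f, Cs f := Finset.sum_nonneg fun f _ => hCs0 f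
    have h2 : 0 ≤ ∑ f, ∑ g ∈ Finset.Ioi f, Cm f g :=
      Finset.sum_nonneg fun f _ => Finset.sum_nonneg fun g _ => hCm0 f g
    linarith
  intro N hN
  have hN' : (0 : ℝ) < N := by exact_mod_cast hN
  have hlN : 0 ≤ Real.log (N : ℝ) := Real.log_nonneg (by exact_mod_cast hN)
  rw [LE_pts]
  -- split diagonal / off-diagonal families
  set S : Fin r → Fin r → ℝ := fun f g => ((F f).mu : ℝ) * (F g).mu *
    ∑ i ∈ Finset.range ((F f).n * N), ∑ j ∈ Finset.range ((F g).n * N),
        Real.log ‖pt ((N : ℂ) * (F f).a) (F f).d i - pt ((N : ℂ) * (F g).a) (F g).d j‖ with hS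
  have hSsym : ∀ f g, S f g = S g f := by
    intro f g
    simp only [hS]
    rw [Finset.sum_comm]
    rw [mul_comm ((F f).mu : ℝ)]
    congr 1
    apply Finset.sum_congr rfl
    intro i _
    apply Finset.sum_congr rfl
    intro j _
    rw [norm_sub_rev]
  have hsplit : ∑ f, ∑ g, S f g = ∑ f, S f f + 2 * ∑ f, ∑ g ∈ Finset.Ioi f, S f g := by
    have h1 := sum_ordered_eq (fun f g => if f = g then 0 else S f g)
      (by intro k l; by_cases h : k = l
          · simp [h]
          · rw [if_neg h, if_neg (Ne.symm h)]; exact hSsym k l) (by intro k; simp)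
    have h2 : ∑ f, ∑ g ∈ Finset.Ioi f, (fun f g => if f = g then (0 : ℝ) else S f g) f g
        = ∑ f, ∑ g ∈ Finset.Ioi f, S f g := by
      apply Finset.sum_congr rfl
      intro f _
      apply Finset.sum_congr rfl
      intro g hg
      simp only
      rw [if_neg (ne_of_lt (Finset.mem_Ioi.1 hg))]
    rw [h2] at h1
    rw [← h1, ← Finset.sum_add_distrib]
    apply Finset.sum_congr rfl
    intro f _
    have h3 : ∀ g, S f g = (if f = g then S f g else 0) + (if f = g then 0 else S f g) := by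
      intro g; by_cases h : f = g <;> simp [h]
    rw [Finset.sum_congr rfl (fun g _ => h3 g), Finset.sum_add_distrib]
    congr 1
    simp
  rw [show (∑ f, ∑ g, ((F f).mu : ℝ) * (F g).mu * ∑ i ∈ Finset.range ((F f).n * N),
      ∑ j ∈ Finset.range ((F g).n * N),
        Real.log ‖pt ((N : ℂ) * (F f).a) (F f).d i - pt ((N : ℂ) * (F g).a) (F g).d j‖)
      = ∑ f, ∑ g, S f g from rfl, hsplit]
  -- targets
  set Ts : Fin r → ℝ := fun f => (N : ℝ) ^ 2 * (((F f).mu : ℝ) ^ 2 * (((F f).n : ℝ) ^ 2 * Real.log N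
    + (((F f).n : ℝ) ^ 2 * Real.log ‖(F f).d‖ + ((F f).n : ℝ) ^ 2 * Real.log (F f).n
      - 3 / 2 * ((F f).n : ℝ) ^ 2))) with hTs
  set Tm : Fin r → Fin r → ℝ := fun f g => (N : ℝ) ^ 2 * (((F f).mu : ℝ) * (F g).mu
    * (((F f).n : ℝ) * (F g).n * Real.log N
      + mutE (F f).a (F f).d (F f).n (F g).a (F g).d (F g).n)) with hTm
  have hself : ∀ f, |S f f - Ts f| ≤ Cs f * (N * (1 + Real.log N)) := by
    intro f
    have h1 := self_estimate (a := (N : ℂ) * (F f).a) (hd f) (F f).n hN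
    have e : S f f - Ts f = ((F f).mu : ℝ) ^ 2 *
        (∑ i ∈ Finset.range ((F f).n * N), ∑ j ∈ Finset.range ((F f).n * N),
          Real.log ‖pt ((N : ℂ) * (F f).a) (F f).d i - pt ((N : ℂ) * (F f).a) (F f).d j‖
          - (N : ℝ) ^ 2 * (((F f).n : ℝ) ^ 2 * Real.log N
            + (((F f).n : ℝ) ^ 2 * Real.log ‖(F f).d‖
              + ((F f).n : ℝ) ^ 2 * Real.log (F f).n - 3 / 2 * ((F f).n : ℝ) ^ 2))) := by
      simp only [hS, hTs]; ring
    rw [e, abs_mul, abs_of_nonneg (by positivity)]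
    have h2 : ((F f).n : ℝ) * N * (2 * Real.log N + 2 * Real.log (F f).n + 2 + |Real.log ‖(F f).d‖|)
        ≤ ((F f).n * (2 + 2 * Real.log (F f).n + 2 + |Real.log ‖(F f).d‖|))
          * (N * (1 + Real.log N)) := by
      have h3 := hlogn f
      have h4 : 0 ≤ ((F f).n : ℝ) * N := by positivity
      have h5 : 2 * Real.log N + 2 * Real.log (F f).n + 2 + |Real.log ‖(F f).d‖|
          ≤ (2 + 2 * Real.log (F f).n + 2 + |Real.log ‖(F f).d‖|) * (1 + Real.log N) := by
        have h6 := abs_nonneg (Real.log ‖(F f).d‖)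
        nlinarith [mul_nonneg h3 hlN, mul_nonneg h6 hlN]
      calc _ ≤ ((F f).n : ℝ) * N * ((2 + 2 * Real.log (F f).n + 2 + |Real.log ‖(F f).d‖|)
            * (1 + Real.log N)) := by gcongr
        _ = _ := by ring
    calc _ ≤ ((F f).mu : ℝ) ^ 2 * (((F f).n * (2 + 2 * Real.log (F f).n + 2 + |Real.log ‖(F f).d‖|))
          * (N * (1 + Real.log N))) := by
            gcongr
            exact h1.trans h2
      _ = _ := by simp only [hCs]; ring
  have hmut : ∀ f g, f < g → |S f g - Tm f g| ≤ Cm f g * (N * (1 + Real.log N)) := by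
    intro f g hfg
    have hs := hsep N hN f g hfg
    have h1 := abs_mutual_sub_le (a := (N : ℂ) * (F f).a) (d := (F f).d) (a' := (N : ℂ) * (F g).a)
      (d' := (F g).d) (hd f) (hd g) (m := (F f).n * N) (m' := (F g).n * N) hδ hδ1
      (by
        intro i hi j hj
        have h2 := hs ((i : ℝ) + 1 / 2) ⟨by positivity, by
          have : (i : ℝ) + 1 ≤ ((F f).n * N : ℕ) := by exact_mod_cast hi
          push_cast at this; linarith⟩ j hj
        have e : (N : ℂ) * (F f).a + (((i : ℝ) + 1 / 2 : ℝ) : ℂ) * (F f).d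
            = pt ((N : ℂ) * (F f).a) (F f).d i := by
          unfold pt; push_cast; ring
        rw [e, norm_sub_rev] at h2
        exact (hδd f).trans h2)
      (by
        intro t ht j hj
        have h2 := hs t (by push_cast at ht; exact ht) j hj
        exact (hδd g).trans h2)
    have h3 := mut_scale (a := (F f).a) (d := (F f).d) (a' := (F g).a) (d' := (F g).d)
      ((F f).n : ℝ) ((F g).n : ℝ) hN' (hd g)
    have h4 : ∫ t in (0 : ℝ)..(((F f).n * N : ℕ) : ℝ), Iseg ((N : ℂ) * (F g).a) (F g).d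
        (((F g).n * N : ℕ) : ℝ) ((N : ℂ) * (F f).a + t * (F f).d)
        = (N : ℝ) ^ 2 * (((F f).n : ℝ) * (F g).n * Real.log N
          + mutE (F f).a (F f).d (F f).n (F g).a (F g).d (F g).n) := by
      rw [← h3]
      unfold mutE
      have e1 : (((F f).n * N : ℕ) : ℝ) = (N : ℝ) * (F f).n := by push_cast; ring
      have e2 : (((F g).n * N : ℕ) : ℝ) = (N : ℝ) * (F g).n := by push_cast; ring
      rw [e1, e2]
      push_cast
      rfl
    rw [h4] at h1
    have e : S f g - Tm f g = ((F f).mu : ℝ) * (F g).mu *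
        (∑ j ∈ Finset.range ((F g).n * N), ∑ i ∈ Finset.range ((F f).n * N),
          Real.log ‖pt ((N : ℂ) * (F g).a) (F g).d j - pt ((N : ℂ) * (F f).a) (F f).d i‖
          - (N : ℝ) ^ 2 * (((F f).n : ℝ) * (F g).n * Real.log N
          + mutE (F f).a (F f).d (F f).n (F g).a (F g).d (F g).n)) := by
      rw [hSsym]
      simp only [hS, hTm]
      ring
    rw [e, abs_mul, abs_of_nonneg (by positivity)]
    have h5 : ((((F f).n * N : ℕ) : ℝ) + (((F g).n * N : ℕ) : ℝ)) * (22 + 11 * Real.log (1 / δ))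
        ≤ (((F f).n + (F g).n) * E) * (N * (1 + Real.log N)) := by
      rw [← hE]
      push_cast
      have h6 : 0 ≤ (((F f).n : ℝ) + (F g).n) * E * N := by positivity
      nlinarith [mul_nonneg h6 hlN]
    calc _ ≤ ((F f).mu : ℝ) * (F g).mu * ((((F f).n + (F g).n) * E) * (N * (1 + Real.log N))) := by
          gcongr
          exact h1.trans h5
      _ = _ := by simp only [hCm]; ring
  -- assembly
  have htot : (N : ℝ) ^ 2 * ((mass F : ℝ) ^ 2 * Real.log N + En F)
      = ∑ f, Ts f + 2 * ∑ f, ∑ g ∈ Finset.Ioi f, Tm f g := by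
    have hm2 : (mass F : ℝ) ^ 2 = ∑ f, ((F f).mu : ℝ) ^ 2 * ((F f).n : ℝ) ^ 2
        + 2 * ∑ f, ∑ g ∈ Finset.Ioi f, ((F f).mu : ℝ) * (F g).mu * ((F f).n * (F g).n) := by
      have h1 : (mass F : ℝ) ^ 2 = ∑ f, ∑ g, (((F f).mu : ℝ) * (F f).n) * (((F g).mu : ℝ) * (F g).n) := by
        unfold mass
        push_cast
        rw [sq, Finset.sum_mul_sum]
      have h2 := sum_ordered_eq (fun f g => if f = g then 0 else
          (((F f).mu : ℝ) * (F f).n) * (((F g).mu : ℝ) * (F g).n))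
        (by intro k l; by_cases h : k = l
            · simp [h]
            · rw [if_neg h, if_neg (Ne.symm h)]; ring) (by intro k; simp)
      have h3 : ∑ f, ∑ g ∈ Finset.Ioi f, (fun f g => if f = g then (0 : ℝ) else
          (((F f).mu : ℝ) * (F f).n) * (((F g).mu : ℝ) * (F g).n)) f g
          = ∑ f, ∑ g ∈ Finset.Ioi f, ((F f).mu : ℝ) * (F g).mu * ((F f).n * (F g).n) := by
        apply Finset.sum_congr rfl
        intro f _
        apply Finset.sum_congr rfl
        intro g hg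
        simp only
        rw [if_neg (ne_of_lt (Finset.mem_Ioi.1 hg))]
        ring
      rw [h3] at h2
      rw [h1, ← h2, ← Finset.sum_add_distrib]
      apply Finset.sum_congr rfl
      intro f _
      have h4 : ∀ g, (((F f).mu : ℝ) * (F f).n) * (((F g).mu : ℝ) * (F g).n)
          = (if f = g then (((F f).mu : ℝ) * (F f).n) * (((F g).mu : ℝ) * (F g).n) else 0)
            + (if f = g then 0 else (((F f).mu : ℝ) * (F f).n) * (((F g).mu : ℝ) * (F g).n)) := by
        intro g; by_cases h : f = g <;> simp [h]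
      rw [Finset.sum_congr rfl (fun g _ => h4 g), Finset.sum_add_distrib]
      congr 1
      simp
      ring
    have t1 : ∑ f, Ts f = (N : ℝ) ^ 2 * ((∑ f, ((F f).mu : ℝ) ^ 2 * ((F f).n : ℝ) ^ 2) * Real.log N
        + ∑ f, ((F f).mu : ℝ) ^ 2 * (((F f).n : ℝ) ^ 2 * Real.log ‖(F f).d‖
      + ((F f).n : ℝ) ^ 2 * Real.log (F f).n - 3 / 2 * ((F f).n : ℝ) ^ 2)) := by
      rw [Finset.sum_mul, ← Finset.sum_add_distrib, Finset.mul_sum]
      apply Finset.sum_congr rfl
      intro f _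
      simp only [hTs]; ring
    have t2 : ∑ f, ∑ g ∈ Finset.Ioi f, Tm f g = (N : ℝ) ^ 2 * ((∑ f, ∑ g ∈ Finset.Ioi f,
        ((F f).mu : ℝ) * (F g).mu * ((F f).n * (F g).n)) * Real.log N
        + ∑ f, ∑ g ∈ Finset.Ioi f, ((F f).mu : ℝ) * (F g).mu
      * mutE (F f).a (F f).d (F f).n (F g).a (F g).d (F g).n) := by
      rw [Finset.sum_mul, ← Finset.sum_add_distrib, Finset.mul_sum]
      apply Finset.sum_congr rfl
      intro f _
      rw [Finset.sum_mul, ← Finset.sum_add_distrib, Finset.mul_sum]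
      apply Finset.sum_congr rfl
      intro g _
      simp only [hTm]; ring
    unfold En
    rw [hm2, t1, t2]
    ring
  rw [htot]
  have e : ∑ f, S f f + 2 * ∑ f, ∑ g ∈ Finset.Ioi f, S f g
      - (∑ f, Ts f + 2 * ∑ f, ∑ g ∈ Finset.Ioi f, Tm f g)
      = ∑ f, (S f f - Ts f) + 2 * ∑ f, ∑ g ∈ Finset.Ioi f, (S f g - Tm f g) := by
    simp only [Finset.sum_sub_distrib]
    ring
  rw [e]
  have h1 : |∑ f, (S f f - Ts f)| ≤ (∑ f, Cs f) * (N * (1 + Real.log N)) := by
    rw [Finset.sum_mul]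
    exact (Finset.abs_sum_le_sum_abs _ _).trans (Finset.sum_le_sum fun f _ => hself f)
  have h2 : |∑ f, ∑ g ∈ Finset.Ioi f, (S f g - Tm f g)|
      ≤ (∑ f, ∑ g ∈ Finset.Ioi f, Cm f g) * (N * (1 + Real.log N)) := by
    rw [Finset.sum_mul]
    refine (Finset.abs_sum_le_sum_abs _ _).trans (Finset.sum_le_sum fun f _ => ?_)
    rw [Finset.sum_mul]
    exact (Finset.abs_sum_le_sum_abs _ _).trans
      (Finset.sum_le_sum fun g hg => hmut f g (Finset.mem_Ioi.1 hg))
  calc _ ≤ |∑ f, (S f f - Ts f)| + |2 * ∑ f, ∑ g ∈ Finset.Ioi f, (S f g - Tm f g)| := abs_add_le _ _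
    _ = |∑ f, (S f f - Ts f)| + 2 * |∑ f, ∑ g ∈ Finset.Ioi f, (S f g - Tm f g)| := by
        rw [abs_mul]; norm_num
    _ ≤ _ := by linarith

theorem sep_aux_g {N ag dg c ρ ng j : ℝ} (hN : 1 ≤ N) (hng : 1 ≤ ng) (h3 : c ≤ ag)
    (h4 : c ≤ ag + ng * dg) (h5 : ρ * (2 * ng) ≤ (ag - c) + (ag + ng * dg - c))
    (hj0 : 0 ≤ j) (hj : j + 1 ≤ ng * N) : N * c + ρ ≤ N * ag + (j + 1 / 2) * dg := by
  rcases le_or_gt 0 dg with h6 | h6
  · have h7 : (1 / 2) * dg ≤ (j + 1 / 2) * dg := by nlinarith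
    have h8 : ρ ≤ (ag - c) / ng + dg / 2 := by
      rw [div_add_div _ _ (by positivity) (by norm_num), le_div_iff₀ (by positivity)]
      linarith
    have h9 : (ag - c) / ng ≤ ag - c := div_le_self (by linarith) hng
    have h10 : ag - c ≤ N * (ag - c) := le_mul_of_one_le_left (by linarith) hN
    have h11 : N * (ag - c) = N * ag - N * c := by ring
    linarith
  · have h7 : (ng * N - 1 / 2) * dg ≤ (j + 1 / 2) * dg := by nlinarith
    have h8 : ρ ≤ (ag + ng * dg - c) / ng - dg / 2 := by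
      rw [div_sub_div _ _ (by positivity) (by norm_num), le_div_iff₀ (by positivity)]
      linarith
    have h9 : (ag + ng * dg - c) / ng ≤ ag + ng * dg - c := div_le_self (by linarith) hng
    have h10 : ag + ng * dg - c ≤ N * (ag + ng * dg - c) :=
      le_mul_of_one_le_left (by linarith) hN
    have h11 : N * (ag + ng * dg - c) = N * ag + ng * N * dg - N * c := by ring
    have h12 : (ng * N - 1 / 2) * dg = ng * N * dg - 1 / 2 * dg := by ring
    linarith

theorem sep_aux_f {N af df c nf t : ℝ} (hN : 0 ≤ N) (h1 : af ≤ c) (h2 : af + nf * df ≤ c)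
    (ht0 : 0 ≤ t) (ht : t ≤ nf * N) : N * af + t * df ≤ N * c := by
  rcases le_or_gt df 0 with h6 | h6
  · have h7 : t * df ≤ 0 := mul_nonpos_of_nonneg_of_nonpos ht0 h6
    have h8 : N * af ≤ N * c := mul_le_mul_of_nonneg_left h1 hN
    linarith
  · have h7 : t * df ≤ nf * N * df := mul_le_mul_of_nonneg_right ht h6.le
    have h8 : N * (af + nf * df) ≤ N * c := mul_le_mul_of_nonneg_left h2 hN
    have h9 : N * (af + nf * df) = N * af + nf * N * df := by ring
    linarith

/-- criterion for the separation by linear functionals (checkable with rational data) -/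
theorem sep_of_functional {ρ : ℝ} (hρ : 0 ≤ ρ)
    (h : ∀ f g : Fin r, f < g → ∃ (e : ℂ) (c : ℝ), ‖e‖ ≤ 1 ∧
      (e * (F f).a).re ≤ c ∧ (e * ((F f).a + (F f).n * (F f).d)).re ≤ c ∧
      c ≤ (e * (F g).a).re ∧ c ≤ (e * ((F g).a + (F g).n * (F g).d)).re ∧
      ρ * (2 * (F g).n) ≤ ((e * (F g).a).re - c) + ((e * ((F g).a + (F g).n * (F g).d)).re - c)) :
    Sep F ρ := by
  intro N hN f g hfg t ht j hj
  obtain ⟨e, c, he, h1, h2, h3, h4, h5⟩ := h f g hfg
  have hN' : (0 : ℝ) < N := by exact_mod_cast hN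
  -- real coordinates
  set af := (e * (F f).a).re with haf
  set df := (e * (F f).d).re with hdf
  set ag := (e * (F g).a).re with hag
  set dg := (e * (F g).d).re with hdg
  have r1 : (e * ((F f).a + (F f).n * (F f).d)).re = af + (F f).n * df := by
    have : e * ((F f).a + (F f).n * (F f).d) = e * (F f).a + (((F f).n : ℝ) : ℂ) * (e * (F f).d) := by
      push_cast; ring
    rw [this, Complex.add_re, Complex.re_ofReal_mul]
  have r2 : (e * ((F g).a + (F g).n * (F g).d)).re = ag + (F g).n * dg := by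
    have : e * ((F g).a + (F g).n * (F g).d) = e * (F g).a + (((F g).n : ℝ) : ℂ) * (e * (F g).d) := by
      push_cast; ring
    rw [this, Complex.add_re, Complex.re_ofReal_mul]
  rw [r1] at h2
  rw [r2] at h4 h5
  have hj' : (j : ℝ) + 1 ≤ (F g).n * N := by exact_mod_cast hj
  have hng : (0 : ℝ) < (F g).n := by
    rcases Nat.eq_zero_or_pos (F g).n with h0 | h0
    · rw [h0] at hj; simp at hj
    · exact_mod_cast h0
  have hN1 : (1 : ℝ) ≤ N := by exact_mod_cast hN
  have hng1 : (1 : ℝ) ≤ (F g).n := by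
    have h0 : 0 < (F g).n := by exact_mod_cast hng
    exact_mod_cast h0
  have hf : N * af + t * df ≤ N * c := sep_aux_f hN'.le h1 h2 ht.1 ht.2
  have hg : N * c + ρ ≤ N * ag + ((j : ℝ) + 1 / 2) * dg :=
    sep_aux_g hN1 hng1 h3 h4 h5 (by positivity) hj'
  have e1 : (e * (((N : ℂ) * (F f).a + t * (F f).d) - pt ((N : ℂ) * (F g).a) (F g).d j)).re
      = (N * af + t * df) - (N * ag + ((j : ℝ) + 1 / 2) * dg) := by
    have : e * (((N : ℂ) * (F f).a + t * (F f).d) - pt ((N : ℂ) * (F g).a) (F g).d j)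
        = (((N : ℝ) : ℂ) * (e * (F f).a) + (t : ℂ) * (e * (F f).d))
          - (((N : ℝ) : ℂ) * (e * (F g).a) + (((j : ℝ) + 1 / 2 : ℝ) : ℂ) * (e * (F g).d)) := by
      unfold pt; push_cast; ring
    rw [this]
    simp only [Complex.sub_re, Complex.add_re, Complex.re_ofReal_mul, haf, hdf, hag, hdg]
  have e2 := Complex.abs_re_le_norm (e * (((N : ℂ) * (F f).a + t * (F f).d)
    - pt ((N : ℂ) * (F g).a) (F g).d j))
  rw [e1, norm_mul] at e2
  have e3 : ρ ≤ |(N * af + t * df) - (N * ag + ((j : ℝ) + 1 / 2) * dg)| := by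
    rw [abs_sub_comm]
    refine le_trans ?_ (le_abs_self _)
    linarith
  calc ρ ≤ ‖e‖ * ‖((N : ℂ) * (F f).a + t * (F f).d) - pt ((N : ℂ) * (F g).a) (F g).d j‖ := e3.trans e2
    _ ≤ 1 * ‖((N : ℂ) * (F f).a + t * (F f).d) - pt ((N : ℂ) * (F g).a) (F g).d j‖ := by gcongr
    _ = _ := one_mul _

theorem pts_injective (hd : ∀ f, (F f).d ≠ 0) {ρ : ℝ} (hρ : 0 < ρ) (hsep : Sep F ρ) {N : ℕ}
    (hN : 0 < N) : Function.Injective (pts F N) := by
  have key : ∀ (f g : Fin r) (i : Fin ((F f).n * N)) (j : Fin ((F g).n * N)), f < g →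
      pts F N ⟨f, i⟩ ≠ pts F N ⟨g, j⟩ := by
    intro f g i j hfg heq
    have h1 := hsep N hN f g hfg ((i : ℝ) + 1 / 2) ⟨by positivity, by
      have : ((i : ℕ) : ℝ) + 1 ≤ ((F f).n * N : ℕ) := by exact_mod_cast i.2
      push_cast at this; linarith⟩ j j.2
    have e : (N : ℂ) * (F f).a + (((i : ℝ) + 1 / 2 : ℝ) : ℂ) * (F f).d
        = pt ((N : ℂ) * (F f).a) (F f).d i := by
      unfold pt; push_cast; ring
    simp only [pts] at heq
    rw [e, heq, sub_self, norm_zero] at h1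
    linarith
  rintro ⟨f, i⟩ ⟨g, j⟩ heq
  rcases lt_trichotomy f g with h | h | h
  · exact absurd heq (key f g i j h)
  · subst h
    simp only [pts, pt] at heq
    have h1 : ((i : ℕ) : ℂ) = ((j : ℕ) : ℂ) := by
      have h2 := add_left_cancel heq
      have h3 := mul_right_cancel₀ (hd f) h2
      linear_combination h3
    have h4 : (i : ℕ) = j := by exact_mod_cast h1
    have h5 : i = j := Fin.ext h4
    rw [h5]
  · exact absurd heq.symm (key g f j i h)

/-- (P3)+(P4) in the form of helper257's `V w m`: both bounds -/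
theorem V_bounds (hd : ∀ f, (F f).d ≠ 0) {ρ : ℝ} (hρ : 0 < ρ) (hsep : Sep F ρ) :
    ∃ C : ℝ, 0 ≤ C ∧ ∀ N : ℕ, 0 < N → ∀ (s : ℕ) (e : Fin s ≃ Idx F N),
      Real.exp ((N : ℝ) ^ 2 / 2 * ((mass F : ℝ) ^ 2 * Real.log N + En F) - C * (N * (1 + Real.log N)))
        ≤ ‖Leib257.V (fun x => pts F N (e x)) (fun x => mus F N (e x))‖ ∧
      ‖Leib257.V (fun x => pts F N (e x)) (fun x => mus F N (e x))‖ ≤
        Real.exp ((N : ℝ) ^ 2 / 2 * ((mass F : ℝ) ^ 2 * Real.log N + En F)
          + C * (N * (1 + Real.log N))) := by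
  obtain ⟨C, hC, h⟩ := LE_estimate F hd hρ hsep
  refine ⟨C, hC, fun N hN s e => ?_⟩
  have hinj : Function.Injective (fun x => pts F N (e x)) :=
    (pts_injective F hd hρ hsep hN).comp e.injective
  have h1 := two_log_norm_V _ (fun x => mus F N (e x)) hinj
  rw [LE_comp e] at h1
  have h2 := abs_le.mp (h N hN)
  have hpos : 0 < ‖Leib257.V (fun x => pts F N (e x)) (fun x => mus F N (e x))‖ :=
    norm_pos_iff.mpr (Leib257.V_ne_zero _ _ hinj)
  have hN' : (0 : ℝ) < N := by exact_mod_cast hN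
  have hlN : 0 ≤ Real.log (N : ℝ) := Real.log_nonneg (by exact_mod_cast hN)
  have hE : 0 ≤ C * (N * (1 + Real.log N)) := by positivity
  constructor
  · rw [← Real.le_log_iff_exp_le hpos]
    linarith [h2.1]
  · rw [← Real.log_le_iff_le_exp hpos]
    linarith [h2.2]

end Crest.Agent.R006.Potx943
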