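import Crest.Agent.R006.NumBr_464

/-!
# Row 6: symmetry of the mutual energy of two segments (helper884)

* `segE_symm` : `segE A B C D = segE C D A B` (Fubini);
* `segE_self` : `segE A B A B = log ‖B - A‖ - 3/2`;
* `pairE_comm`, `rowE_append`, `selfE_append`, `selfE_perm` : the energy of a list of weighted
  segments does not depend on the order;
* `potL_append`, `potL_perm`.
-/

set_option autoImplicit false

namespace Crest.Agent.R006.NumSegx464

open Real MeasureTheory Set Crest.Agent.R006.Potx943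

theorem segE_symm {A B C D : ℂ} (hAB : B - A ≠ 0) : segE A B C D = segE C D A B := by
  set f : ℝ → ℝ → ℝ := fun τ κ => Real.log ‖(C + τ * (D - C)) - (A + κ * (B - A))‖ with hf
  set M : ℝ := ‖C‖ + ‖D - C‖ + ‖A‖ + ‖B - A‖ with hM
  have hfM : ∀ τ ∈ Ioc (0 : ℝ) 1, ∀ κ ∈ Ioc (0 : ℝ) 1, f τ κ ≤ M := by
    intro τ hτ κ hκ
    refine (Real.log_le_self (norm_nonneg _)).trans ?_
    have h1 : ‖(τ : ℂ) * (D - C)‖ ≤ ‖D - C‖ := by
      rw [norm_mul, Complex.norm_of_nonneg hτ.1.le]
      exact mul_le_of_le_one_left (norm_nonneg _) hτ.2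
    have h2 : ‖(κ : ℂ) * (B - A)‖ ≤ ‖B - A‖ := by
      rw [norm_mul, Complex.norm_of_nonneg hκ.1.le]
      exact mul_le_of_le_one_left (norm_nonneg _) hκ.2
    calc ‖(C + τ * (D - C)) - (A + κ * (B - A))‖ ≤ ‖C + τ * (D - C)‖ + ‖A + κ * (B - A)‖ :=
          norm_sub_le _ _
      _ ≤ (‖C‖ + ‖(τ : ℂ) * (D - C)‖) + (‖A‖ + ‖(κ : ℂ) * (B - A)‖) :=
          add_le_add (norm_add_le _ _) (norm_add_le _ _)
      _ ≤ M := by rw [hM]; linarith
  have hM0 : 0 ≤ M := by positivity
  have hmeas : AEStronglyMeasurable (Function.uncurry f)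
      ((volume.restrict (Ioc (0 : ℝ) 1)).prod (volume.restrict (Ioc (0 : ℝ) 1))) := by
    apply Measurable.aestronglyMeasurable
    apply Real.measurable_log.comp
    apply Measurable.norm
    fun_prop
  have hint1 : ∀ τ : ℝ, Integrable (fun κ => f τ κ) (volume.restrict (Ioc (0 : ℝ) 1)) := by
    intro τ
    have := intervalIntegrable_Iseg (a := A) (d := B - A) (s := C + τ * (D - C)) 0 1
    rw [intervalIntegrable_iff_integrableOn_Ioc_of_le zero_le_one] at this
    exact this
  have hint : Integrable (Function.uncurry f)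
      ((volume.restrict (Ioc (0 : ℝ) 1)).prod (volume.restrict (Ioc (0 : ℝ) 1))) := by
    rw [integrable_prod_iff hmeas]
    refine ⟨Filter.Eventually.of_forall fun τ => hint1 τ, ?_⟩
    have hc : Continuous fun τ : ℝ => 2 * M - ∫ κ in (0:ℝ)..1, f τ κ :=
      continuous_const.sub ((continuous_inner hAB).comp (by fun_prop))
    have hg : Integrable (fun τ : ℝ => 2 * M - ∫ κ in (0:ℝ)..1, f τ κ)
        (volume.restrict (Ioc (0 : ℝ) 1)) := by
      have := hc.intervalIntegrable (μ := volume) 0 1
      rw [intervalIntegrable_iff_integrableOn_Ioc_of_le zero_le_one] at this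
      exact this
    refine hg.mono' hmeas.norm.integral_prod_right' ?_
    rw [ae_restrict_iff' measurableSet_Ioc]
    refine Filter.Eventually.of_forall fun τ hτ => ?_
    rw [Real.norm_of_nonneg (integral_nonneg fun _ => norm_nonneg _),
      intervalIntegral.integral_of_le zero_le_one]
    have e : (2 * M - ∫ κ in Ioc (0:ℝ) 1, f τ κ) = ∫ κ in Ioc (0:ℝ) 1, (2 * M - f τ κ) := by
      rw [integral_sub (integrable_const _) (hint1 τ)]
      simp
    rw [e]
    refine setIntegral_mono_on (hint1 τ).norm ((integrable_const _).sub (hint1 τ))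
      measurableSet_Ioc fun κ hκ => ?_
    have h := hfM τ hτ κ hκ
    simp only [Function.uncurry_apply_pair, Real.norm_eq_abs]
    rcases abs_cases (f τ κ) with h' | h' <;> linarith [h'.1]
  have hswap := integral_integral_swap hint
  unfold segE
  rw [intervalIntegral.integral_of_le zero_le_one, intervalIntegral.integral_of_le zero_le_one]
  simp only [intervalIntegral.integral_of_le zero_le_one]
  simp only [hf] at hswap
  rw [hswap]
  congr 1; funext κ
  congr 1; funext τ
  rw [norm_sub_rev]

theorem segE_self {A B : ℂ} (h : B - A ≠ 0) : segE A B A B = Real.log ‖B - A‖ - 3 / 2 := by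
  have h1 := mutE_eq_segE A (B - A) 1 A (B - A) 1
  have e : A + ((1 : ℝ) : ℂ) * (B - A) = B := by push_cast; ring
  rw [e] at h1
  have h2 := mut_closed_real (a := A) (d := B - A) (a' := A) (d' := B - A) (x0 := 0) (ρ := 1)
    one_ne_zero h (m := 1) (m' := 1) (by simp) (by rw [div_self h]; simp)
  rw [h2] at h1
  have e0 : G2r 0 = 0 := by simp [G2r]
  have e1 : G2r 1 = -(1 / 4) := by simp [G2r]
  have e2 : G2r (-1) = -(1 / 4) := by simp [G2r]
  norm_num at h1
  rw [e0, e1, e2] at h1
  linarith

/-- nondegenerate segment -/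
def nd (p : WSeg) : Prop := gc p.2.1 - gc p.1 ≠ 0

theorem pairE_comm {p q : WSeg} (hp : nd p) : pairE p q = pairE q p := by
  unfold pairE
  rw [segE_symm hp, mul_comm p.2.2]

theorem rowE_append (p : WSeg) : ∀ L L' : List WSeg, rowE p (L ++ L') = rowE p L + rowE p L'
  | [], L' => by simp [rowE]
  | q :: L, L' => by simp only [List.cons_append, rowE, rowE_append p L L']; ring

theorem rowE_eq_sum (p : WSeg) : ∀ L : List WSeg, rowE p L = (L.map (pairE p)).sum
  | [] => rfl
  | q :: L => by simp only [rowE, List.map_cons, List.sum_cons, rowE_eq_sum p L]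

theorem potL_eq_sum (s : ℂ) : ∀ L : List WSeg,
    potL L s = (L.map fun p => (p.2.2 : ℝ) * pot (gc p.1) (gc p.2.1) s).sum
  | [] => rfl
  | q :: L => by simp only [potL, List.map_cons, List.sum_cons, potL_eq_sum s L]

theorem potL_append (s : ℂ) (L L' : List WSeg) : potL (L ++ L') s = potL L s + potL L' s := by
  simp [potL_eq_sum]

theorem potL_perm (s : ℂ) {L L' : List WSeg} (h : L.Perm L') : potL L s = potL L' s := by
  rw [potL_eq_sum, potL_eq_sum]
  exact (h.map _).sum_eq

theorem rowE_perm (p : WSeg) {L L' : List WSeg} (h : L.Perm L') : rowE p L = rowE p L' := by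
  rw [rowE_eq_sum, rowE_eq_sum]
  exact (h.map _).sum_eq

theorem selfE_perm {L L' : List WSeg} (h : L.Perm L') (hL : ∀ p ∈ L, nd p) :
    selfE L = selfE L' := by
  induction h with
  | nil => rfl
  | cons p h ih =>
    simp only [selfE]
    rw [rowE_perm p h, ih fun q hq => hL q (List.mem_cons_of_mem _ hq)]
  | swap p q L =>
    simp only [selfE, rowE]
    have h1 : pairE q p = pairE p q := pairE_comm (hL q (by simp))
    rw [h1]; ring
  | trans h1 h2 ih1 ih2 =>
    rw [ih1 hL, ih2 fun p hp => hL p (h1.mem_iff.2 hp)]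

end Crest.Agent.R006.NumSegx464
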