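import Crest.Agent.R006.Cert_112
import Crest.Agent.R006.SegSymm_884
import Crest.Agent.R006.P3_PotV_943

/-!
# Row 6, block P3: pieces of the certificate as families of reference points (helper884)

`fam W p` : the family (943's `Fam`) of a piece, `F W L : Fin (srt L).length → Fam` the families of
a list of pieces (real pieces first). If `listOK L`:

* `U_eq_potL`  : `U (F W L) s = potL (segs W L) s`;
* `En_eq_selfE` : `En (F W L) = 2 * selfE (segs W L)`;
* `mass_eq` : `(mass (F W L) : ℤ) = massL L`;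
* `F_mu`, `F_d_ne`, `sep_of_listOK` : multiplicities one, steps nonzero, separated.
-/

set_option autoImplicit false

namespace Crest.Agent.R006.Cert

open D NumSegx464 Potx943

/-- the family of a piece (`-W` = apex) -/
noncomputable def fam (W : ℤ) (p : Piece) : Fam where
  a := gc (p.seg W).1
  d := (gc (p.seg W).2.1 - gc (p.seg W).1) / (p.mass : ℂ)
  n := p.mass.toNat
  mu := 1

/-- the families of a list -/
noncomputable def G (W : ℤ) (L : List Piece) (i : Fin L.length) : Fam := fam W L[i]

/-- real pieces first -/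
def srt (L : List Piece) : List Piece :=
  L.filter (fun p => decide (p.line = 0)) ++ L.filter (fun p => !decide (p.line = 0))

/-- the families of a list, real pieces first -/
noncomputable def F (W : ℤ) (L : List Piece) : Fin (srt L).length → Fam := G W (srt L)

theorem srt_perm (L : List Piece) : (srt L).Perm L :=
  List.filter_append_perm _ L

theorem mass_seg (W : ℤ) (p : Piece) : (p.seg W).2.2 = p.mass := by
  cases p <;> rfl

theorem good_iff {p : Piece} : p.good = true ↔
    p.lo < p.hi ∧ 0 < p.mass ∧ (p.line = 0 ∨ 0 ≤ p.lo) := by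
  simp [Piece.good, and_assoc]

theorem nd_seg (W : ℤ) {p : Piece} (h : p.good = true) : nd (p.seg W) := by
  obtain ⟨h1, -, -⟩ := good_iff.1 h
  unfold nd
  intro h0
  rcases p with ⟨a, b, m⟩ | ⟨a, b, m⟩ | ⟨a, b, m⟩
  · have h1' : (a : ℝ) < b := by exact_mod_cast h1
    have := congrArg Complex.re h0
    simp [Piece.seg, gc] at this
    linarith
  · have h1' : (a : ℝ) < b := by exact_mod_cast h1
    have := congrArg Complex.im h0
    simp [Piece.seg, gc] at this
    linarith
  · have h1' : (a : ℝ) < b := by exact_mod_cast h1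
    have := congrArg Complex.im h0
    simp [Piece.seg, gc] at this
    linarith

theorem fam_n (W : ℤ) {p : Piece} (h : p.good = true) : ((fam W p).n : ℤ) = p.mass := by
  obtain ⟨-, h2, -⟩ := good_iff.1 h
  exact Int.toNat_of_nonneg h2.le

theorem fam_n' (W : ℤ) {p : Piece} (h : p.good = true) : ((fam W p).n : ℝ) = p.mass := by
  exact_mod_cast fam_n W h

theorem fam_n_c (W : ℤ) {p : Piece} (h : p.good = true) : (((fam W p).n : ℝ) : ℂ) = p.mass := by
  rw [fam_n' W h]; push_cast; rfl

theorem mass_ne {p : Piece} (h : p.good = true) : (p.mass : ℂ) ≠ 0 := by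
  obtain ⟨-, h2, -⟩ := good_iff.1 h
  exact_mod_cast h2.ne'

theorem fam_d_ne (W : ℤ) {p : Piece} (h : p.good = true) : (fam W p).d ≠ 0 :=
  div_ne_zero (nd_seg W h) (mass_ne h)

theorem fam_end (W : ℤ) {p : Piece} (h : p.good = true) :
    (fam W p).a + (((fam W p).n : ℝ) : ℂ) * (fam W p).d = gc (p.seg W).2.1 := by
  rw [fam_n_c W h]
  have := mass_ne h
  simp only [fam]
  field_simp
  ring

theorem fam_pot (W : ℤ) {p : Piece} (h : p.good = true) (s : ℂ) :
    Iseg (fam W p).a (fam W p).d (fam W p).n s =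
      ((p.seg W).2.2 : ℝ) * pot (gc (p.seg W).1) (gc (p.seg W).2.1) s := by
  rw [Iseg_eq_pot, fam_end W h, fam_n' W h, mass_seg]
  rfl

theorem fam_mut (W : ℤ) {p q : Piece} (hp : p.good = true) (hq : q.good = true) :
    Potx943.mutE (fam W p).a (fam W p).d (fam W p).n (fam W q).a (fam W q).d (fam W q).n =
      pairE (p.seg W) (q.seg W) := by
  have ea : ∀ p : Piece, (fam W p).a = gc (p.seg W).1 := fun _ => rfl
  rw [mutE_eq_segE, fam_end W hp, fam_end W hq, fam_n' W hp, fam_n' W hq, ea, ea,
    segE_symm (nd_seg W hq)]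
  unfold pairE
  rw [mass_seg, mass_seg]
  push_cast
  rfl

theorem fam_self (W : ℤ) {p : Piece} (h : p.good = true) :
    ((fam W p).mu : ℝ) ^ 2 * (((fam W p).n : ℝ) ^ 2 * Real.log ‖(fam W p).d‖
      + ((fam W p).n : ℝ) ^ 2 * Real.log (fam W p).n - 3 / 2 * ((fam W p).n : ℝ) ^ 2) =
      pairE (p.seg W) (p.seg W) := by
  have hm : (0 : ℝ) < p.mass := by
    obtain ⟨-, h2, -⟩ := good_iff.1 h
    exact_mod_cast h2
  have hn := nd_seg W h
  have e1 : Real.log ‖(fam W p).d‖ =
      Real.log ‖gc (p.seg W).2.1 - gc (p.seg W).1‖ - Real.log p.mass := by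
    simp only [fam]
    rw [norm_div, Real.log_div (norm_ne_zero_iff.2 hn) (norm_ne_zero_iff.2 (mass_ne h))]
    congr 2
    rw [Complex.norm_intCast, abs_of_pos hm]
  unfold pairE
  rw [segE_self hn, e1, fam_n' W h, mass_seg]
  have e2 : ((fam W p).mu : ℝ) = 1 := by simp [fam]
  rw [e2]
  push_cast
  ring

variable (W : ℤ)

theorem G_U (s : ℂ) : ∀ L : List Piece, (∀ p ∈ L, p.good = true) →
    U (G W L) s = potL (segs W L) s
  | [], _ => by simp [U, segs, potL]
  | p :: L, h => by
    have ih := G_U s L fun q hq => h q (List.mem_cons_of_mem _ hq)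
    have h1 : U (G W (p :: L)) s = ((fam W p).mu : ℝ) * Iseg (fam W p).a (fam W p).d (fam W p).n s
        + U (G W L) s := Fin.sum_univ_succ _
    rw [h1, ih, fam_pot W (h p List.mem_cons_self)]
    simp [segs, potL, fam]

theorem G_mass : ∀ L : List Piece, (∀ p ∈ L, p.good = true) → (mass (G W L) : ℤ) = massL L
  | [], _ => by simp [mass, massL]
  | p :: L, h => by
    have ih := G_mass L fun q hq => h q (List.mem_cons_of_mem _ hq)
    have h1 : mass (G W (p :: L)) = (fam W p).mu * (fam W p).n + mass (G W L) :=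
      Fin.sum_univ_succ _
    rw [h1]
    push_cast
    rw [ih, fam_n W (h p List.mem_cons_self)]
    simp [massL, fam]

theorem G_row {p : Piece} (hp : p.good = true) : ∀ L : List Piece, (∀ p ∈ L, p.good = true) →
    ∑ g, ((fam W p).mu : ℝ) * (G W L g).mu * Potx943.mutE (fam W p).a (fam W p).d (fam W p).n
      (G W L g).a (G W L g).d (G W L g).n = rowE (p.seg W) (segs W L)
  | [], _ => by simp [segs, rowE]
  | q :: L, h => by
    have ih := G_row hp L fun q hq => h q (List.mem_cons_of_mem _ hq)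
    have h1 : ∑ g, ((fam W p).mu : ℝ) * (G W (q :: L) g).mu *
        Potx943.mutE (fam W p).a (fam W p).d (fam W p).n
          (G W (q :: L) g).a (G W (q :: L) g).d (G W (q :: L) g).n =
        ((fam W p).mu : ℝ) * (fam W q).mu * Potx943.mutE (fam W p).a (fam W p).d (fam W p).n
          (fam W q).a (fam W q).d (fam W q).n +
        ∑ g, ((fam W p).mu : ℝ) * (G W L g).mu * Potx943.mutE (fam W p).a (fam W p).d (fam W p).n
      (G W L g).a (G W L g).d (G W L g).n := Fin.sum_univ_succ _
    rw [h1, ih, fam_mut W hp (h q List.mem_cons_self)]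
    simp [segs, rowE, fam]

theorem G_En : ∀ L : List Piece, (∀ p ∈ L, p.good = true) →
    En (G W L) = 2 * selfE (segs W L)
  | [], _ => by simp [En, segs, selfE]
  | p :: L, h => by
    have hp := h p List.mem_cons_self
    have hL := fun q hq => h q (List.mem_cons_of_mem p hq)
    have ih := G_En L hL
    have hrow := G_row W hp L hL
    have hself := fam_self W hp
    have h1 : En (G W (p :: L)) = ((fam W p).mu : ℝ) ^ 2 * (((fam W p).n : ℝ) ^ 2 *
        Real.log ‖(fam W p).d‖ + ((fam W p).n : ℝ) ^ 2 * Real.log (fam W p).n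
          - 3 / 2 * ((fam W p).n : ℝ) ^ 2) +
        2 * (∑ g, ((fam W p).mu : ℝ) * (G W L g).mu *
          Potx943.mutE (fam W p).a (fam W p).d (fam W p).n
            (G W L g).a (G W L g).d (G W L g).n) + En (G W L) := by
      unfold En
      simp only [List.length_cons]
      rw [Fin.sum_univ_succ, Fin.sum_univ_succ (f := fun f => ∑ g ∈ Finset.Ioi f, _),
        Fin.sum_Ioi_zero]
      simp only [Fin.sum_Ioi_succ]
      have e0 : G W (p :: L) 0 = fam W p := rfl
      have e1 : ∀ i, G W (p :: L) (Fin.succ i) = G W L i := fun _ => rfl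
      simp only [e0, e1]
      ring
    rw [h1, hrow, hself, ih]
    simp only [segs, List.map_cons, selfE]
    push_cast
    ring

theorem good_of_listOK : ∀ {L : List Piece}, listOK L = true → ∀ p ∈ L, p.good = true
  | [], _, p, hp => by simp at hp
  | q :: L, h, p, hp => by
    simp only [listOK, Bool.and_eq_true] at h
    rcases List.mem_cons.1 hp with rfl | hp
    · exact h.1.1
    · exact good_of_listOK h.2 p hp

theorem pairwise_of_listOK : ∀ {L : List Piece}, listOK L = true →
    L.Pairwise fun p q => apart p q = true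
  | [], _ => List.Pairwise.nil
  | q :: L, h => by
    simp only [listOK, Bool.and_eq_true] at h
    exact List.Pairwise.cons (fun p hp => List.all_eq_true.1 h.1.2 p hp)
      (pairwise_of_listOK h.2)

theorem mem_srt {L : List Piece} {p : Piece} : p ∈ srt L ↔ p ∈ L := (srt_perm L).mem_iff

theorem good_srt {L : List Piece} (h : listOK L = true) : ∀ p ∈ srt L, p.good = true :=
  fun p hp => good_of_listOK h p (mem_srt.1 hp)

theorem U_eq_potL {L : List Piece} (h : listOK L = true) (s : ℂ) :
    U (F W L) s = potL (segs W L) s := by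
  unfold F
  rw [G_U W s _ (good_srt h)]
  exact NumSegx464.potL_perm s ((srt_perm L).map _)

theorem En_eq_selfE {L : List Piece} (h : listOK L = true) :
    En (F W L) = 2 * selfE (segs W L) := by
  unfold F
  rw [G_En W _ (good_srt h)]
  congr 1
  refine selfE_perm ((srt_perm L).map _) fun q hq => ?_
  simp only [segs, List.mem_map] at hq
  obtain ⟨p, hp, rfl⟩ := hq
  exact nd_seg W (good_srt h p hp)

theorem mass_eq {L : List Piece} (h : listOK L = true) : (mass (F W L) : ℤ) = massL L := by
  unfold F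
  rw [G_mass W _ (good_srt h)]
  unfold massL
  exact ((srt_perm L).map _).sum_eq

theorem F_mu (L : List Piece) (f : Fin (srt L).length) : (F W L f).mu = 1 := rfl

theorem F_d_ne {L : List Piece} (h : listOK L = true) (f : Fin (srt L).length) :
    (F W L f).d ≠ 0 :=
  fam_d_ne W (good_srt h _ (List.getElem_mem _))

/-- the parameter of the point `N a + τ d` of a family -/
noncomputable def par (p : Piece) (N τ : ℝ) : ℝ := N * p.lo + τ * ((p.hi - p.lo) / p.mass)

theorem re_pt {p : Piece} (h : p.line = 0) (N τ : ℝ) :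
    ((N : ℂ) * (fam W p).a + τ * (fam W p).d).re = par p N τ := by
  rcases p with ⟨a, b, m⟩ | ⟨a, b, m⟩ | ⟨a, b, m⟩
  · simp [fam, Piece.seg, gc, par, Piece.lo, Piece.hi, Piece.mass, Complex.div_intCast_re]
  · simp [Piece.line] at h
  · simp [Piece.line] at h

theorem im_pt (p : Piece) (N τ : ℝ) :
    ((N : ℂ) * (fam W p).a + τ * (fam W p).d).im =
      if p.line = 0 then 0 else if p.line = 1 then par p N τ else - par p N τ := by
  rcases p with ⟨a, b, m⟩ | ⟨a, b, m⟩ | ⟨a, b, m⟩
  · simp [fam, Piece.seg, gc, par, Piece.lo, Piece.hi, Piece.mass, Piece.line,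
      Complex.div_intCast_im]
  · simp [fam, Piece.seg, gc, par, Piece.lo, Piece.hi, Piece.mass, Piece.line,
      Complex.div_intCast_im]
  · simp [fam, Piece.seg, gc, par, Piece.lo, Piece.hi, Piece.mass, Piece.line,
      Complex.div_intCast_im]
    ring

theorem par_mem {p : Piece} (h : p.good = true) {N τ ε : ℝ} (h0 : ε ≤ τ)
    (h1 : τ + ε ≤ N * p.mass) :
    N * p.lo + ε * ((p.hi - p.lo) / p.mass) ≤ par p N τ ∧
      par p N τ ≤ N * p.hi - ε * ((p.hi - p.lo) / p.mass) := by
  obtain ⟨a1, a2, -⟩ := good_iff.1 h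
  have b1 : (p.lo : ℝ) < p.hi := by exact_mod_cast a1
  have b2 : (0 : ℝ) < p.mass := by exact_mod_cast a2
  have b3 : 0 < ((p.hi : ℝ) - p.lo) / p.mass := div_pos (by linarith) b2
  have b4 : (p.mass : ℝ) * (((p.hi : ℝ) - p.lo) / p.mass) = p.hi - p.lo := by field_simp
  have b5 := mul_le_mul_of_nonneg_right h1 b3.le
  have b6 := mul_le_mul_of_nonneg_right h0 b3.le
  have b7 : N * p.mass * (((p.hi : ℝ) - p.lo) / p.mass) = N * (p.hi - p.lo) := by
    rw [mul_assoc, b4]
  rw [b7] at b5
  unfold par
  constructor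
  · linarith
  · linarith

theorem pair_sep {p q : Piece} (hp : p.good = true) (hq : q.good = true)
    (ha : apart p q = true) (hr : p.line = 0 ∨ ¬ q.line = 0) {N : ℕ} (hN : 0 < N) {t : ℝ}
    (ht : t ∈ Set.Icc (0 : ℝ) ((fam W p).n * N)) {j : ℕ} (hj : j < (fam W q).n * N) :
    (1 / 2) * (((q.hi : ℝ) - q.lo) / q.mass) ≤
      ‖((N : ℂ) * (fam W p).a + t * (fam W p).d) - pt ((N : ℂ) * (fam W q).a) (fam W q).d j‖ := by
  set δ : ℝ := (1 / 2) * (((q.hi : ℝ) - q.lo) / q.mass) with hδ
  have hN' : (0 : ℝ) < N := by exact_mod_cast hN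
  obtain ⟨q1, q2, q3⟩ := good_iff.1 hq
  obtain ⟨p1, p2, p3⟩ := good_iff.1 hp
  have c1 : (q.lo : ℝ) < q.hi := by exact_mod_cast q1
  have c2 : (0 : ℝ) < q.mass := by exact_mod_cast q2
  have hδ0 : 0 < δ := by
    have := div_pos (sub_pos.2 c1) c2
    positivity
  have hpar := par_mem hp (N := N) (τ := t) (ε := 0) (by linarith [ht.1])
    (by have := ht.2; rw [fam_n' W hp] at this; linarith)
  have hj' : ((j : ℝ) + 1 / 2) + 1 / 2 ≤ N * q.mass := by
    have h1 : ((j + 1 : ℕ) : ℝ) ≤ (((fam W q).n * N : ℕ) : ℝ) := by exact_mod_cast hj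
    push_cast at h1
    rw [fam_n' W hq] at h1
    linarith
  have hqar := par_mem hq (N := N) (τ := (j : ℝ) + 1 / 2) (ε := 1 / 2)
    (by have : (0 : ℝ) ≤ j := Nat.cast_nonneg j
        linarith) hj'
  rw [← hδ] at hqar
  rw [zero_mul, add_zero, sub_zero] at hpar
  have ept : pt ((N : ℂ) * (fam W q).a) (fam W q).d j =
      ((N : ℝ) : ℂ) * (fam W q).a + (((j : ℝ) + 1 / 2 : ℝ) : ℂ) * (fam W q).d := by
    unfold pt; push_cast; ring
  have ep : ((N : ℂ) * (fam W p).a + t * (fam W p).d) =
      ((N : ℝ) : ℂ) * (fam W p).a + (t : ℂ) * (fam W p).d := by push_cast; ring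
  rw [ept, ep]
  have hre := Complex.abs_re_le_norm ((((N : ℝ) : ℂ) * (fam W p).a + (t : ℂ) * (fam W p).d) -
    (((N : ℝ) : ℂ) * (fam W q).a + (((j : ℝ) + 1 / 2 : ℝ) : ℂ) * (fam W q).d))
  have him := Complex.abs_im_le_norm ((((N : ℝ) : ℂ) * (fam W p).a + (t : ℂ) * (fam W p).d) -
    (((N : ℝ) : ℂ) * (fam W q).a + (((j : ℝ) + 1 / 2 : ℝ) : ℂ) * (fam W q).d))
  rw [Complex.sub_re] at hre
  rw [Complex.sub_im, im_pt, im_pt] at him
  set x := par p N t
  set y := par q N ((j : ℝ) + 1 / 2)
  have hlin : p.line = q.line → δ ≤ |x - y| := by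
    intro hl
    have h1 : p.hi ≤ q.lo ∨ q.hi ≤ p.lo := by
      simpa [apart, hl] using ha
    rcases h1 with h1 | h1
    · have h2 : (p.hi : ℝ) ≤ q.lo := by exact_mod_cast h1
      have h3 := mul_le_mul_of_nonneg_left h2 hN'.le
      rw [abs_sub_comm]
      exact le_trans (by linarith [hpar.2, hqar.1]) (le_abs_self _)
    · have h2 : (q.hi : ℝ) ≤ p.lo := by exact_mod_cast h1
      have h3 := mul_le_mul_of_nonneg_left h2 hN'.le
      exact le_trans (by linarith [hpar.1, hqar.2]) (le_abs_self _)
  have hx0 : ¬ p.line = 0 → 0 ≤ x := by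
    intro hl
    have h1 : (0 : ℝ) ≤ p.lo := by exact_mod_cast p3.resolve_left hl
    have h2 := mul_nonneg hN'.le h1
    linarith [hpar.1]
  have hy0 : ¬ q.line = 0 → δ ≤ y := by
    intro hl
    have h1 : (0 : ℝ) ≤ q.lo := by exact_mod_cast q3.resolve_left hl
    have h2 := mul_nonneg hN'.le h1
    linarith [hqar.1]
  have hl3 : ∀ p : Piece, p.line = 0 ∨ p.line = 1 ∨ p.line = 2 := by
    intro p; cases p <;> simp [Piece.line]
  rcases hl3 q with hq0 | hq1 | hq2
  · -- both real
    have hp0 : p.line = 0 := hr.resolve_right (fun h => h hq0)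
    rw [re_pt W hp0, re_pt W hq0] at hre
    exact (hlin (by rw [hp0, hq0])).trans hre
  · rcases hl3 p with hp0 | hp1 | hp2
    · simp only [hp0, hq1, if_true, one_ne_zero, if_false] at him
      refine (hy0 (by omega)).trans (le_trans ?_ him)
      rw [zero_sub, abs_neg]; exact le_abs_self _
    · simp only [hp1, hq1, one_ne_zero, if_true, if_false] at him
      exact (hlin (by rw [hp1, hq1])).trans him
    · simp only [hp2, hq1, one_ne_zero, OfNat.ofNat_ne_zero, OfNat.ofNat_ne_one, if_true,
        if_false] at him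
      refine (hy0 (by omega)).trans (le_trans ?_ him)
      rw [abs_sub_comm]
      exact le_trans (by linarith [hx0 (by omega)]) (le_abs_self _)
  · rcases hl3 p with hp0 | hp1 | hp2
    · simp only [hp0, hq2, OfNat.ofNat_ne_zero, OfNat.ofNat_ne_one, if_true, if_false] at him
      refine (hy0 (by omega)).trans (le_trans ?_ him)
      exact le_trans (by linarith) (le_abs_self _)
    · simp only [hp1, hq2, one_ne_zero, OfNat.ofNat_ne_zero, OfNat.ofNat_ne_one, if_true,
        if_false] at him
      refine (hy0 (by omega)).trans (le_trans ?_ him)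
      exact le_trans (by linarith [hx0 (by omega)]) (le_abs_self _)
    · simp only [hp2, hq2, OfNat.ofNat_ne_zero, OfNat.ofNat_ne_one, if_false] at him
      refine (hlin (by rw [hp2, hq2])).trans (le_trans (le_of_eq ?_) him)
      rw [abs_sub_comm]; congr 1; ring

theorem mass_le_massL {L : List Piece} (h : ∀ p ∈ L, p.good = true) :
    0 ≤ massL L ∧ ∀ p ∈ L, p.mass ≤ massL L := by
  induction L with
  | nil => simp [massL]
  | cons q L ih =>
    have ih' := ih fun p hp => h p (List.mem_cons_of_mem _ hp)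
    have hq := (good_iff.1 (h q List.mem_cons_self)).2.1
    have e : massL (q :: L) = q.mass + massL L := by simp [massL]
    rw [e]
    refine ⟨by linarith [ih'.1], fun p hp => ?_⟩
    rcases List.mem_cons.1 hp with rfl | hp
    · linarith [ih'.1]
    · linarith [ih'.2 p hp]

/-- the order: apart, and a ray piece is never before a real piece -/
theorem srt_pairwise {L : List Piece} (h : listOK L = true) :
    (srt L).Pairwise fun p q => apart p q = true ∧ (p.line = 0 ∨ ¬ q.line = 0) := by
  have hp := pairwise_of_listOK h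
  unfold srt
  rw [List.pairwise_append]
  refine ⟨?_, ?_, ?_⟩
  · refine List.Pairwise.imp_of_mem ?_ (hp.filter _)
    intro p q hp hq hpq
    rw [List.mem_filter, decide_eq_true_eq] at hp
    exact ⟨hpq, Or.inl hp.2⟩
  · refine List.Pairwise.imp_of_mem ?_ (hp.filter _)
    intro p q hp hq hpq
    rw [List.mem_filter] at hq
    exact ⟨hpq, Or.inr (by simpa using hq.2)⟩
  · intro p hp q hq
    rw [List.mem_filter] at hp hq
    have h1 : p.line = 0 := by simpa using hp.2
    have h2 : ¬ q.line = 0 := by simpa using hq.2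
    refine ⟨?_, Or.inl h1⟩
    have h3 : ¬ p.line = q.line := by rw [h1]; exact fun h => h2 h.symm
    simp [apart, h3]

/-- **separation** -/
theorem sep_of_listOK {L : List Piece} (h : listOK L = true) :
    ∃ ρ : ℝ, 0 < ρ ∧ Sep (F W L) ρ := by
  have hg := good_srt h
  obtain ⟨hM0, hM⟩ := mass_le_massL hg
  have hM0' : (0 : ℝ) ≤ massL (srt L) := by exact_mod_cast hM0
  refine ⟨1 / 2 * (1 / (massL (srt L) + 1)), by positivity, ?_⟩
  intro N hN f g hfg t ht j hj
  have hpw := List.pairwise_iff_getElem.1 (srt_pairwise h) f g f.2 g.2 hfg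
  have hgg := hg _ (List.getElem_mem g.2)
  refine le_trans ?_ (pair_sep W (hg _ (List.getElem_mem f.2)) hgg hpw.1 hpw.2 hN ht hj)
  apply mul_le_mul_of_nonneg_left _ (by norm_num)
  obtain ⟨q1, q2, -⟩ := good_iff.1 hgg
  have c1 : (1 : ℝ) ≤ ((srt L)[(g : ℕ)].hi : ℝ) - (srt L)[(g : ℕ)].lo := by
    have : (1 : ℤ) ≤ (srt L)[(g : ℕ)].hi - (srt L)[(g : ℕ)].lo := by omega
    exact_mod_cast this
  have c2 : (0 : ℝ) < (srt L)[(g : ℕ)].mass := by exact_mod_cast q2
  have c3 : ((srt L)[(g : ℕ)].mass : ℝ) ≤ massL (srt L) + 1 := by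
    have := hM _ (List.getElem_mem g.2)
    have : ((srt L)[(g : ℕ)].mass : ℝ) ≤ massL (srt L) := by exact_mod_cast this
    linarith
  exact div_le_div₀ (by linarith) c1 c2 c3

end Crest.Agent.R006.Cert
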