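import Crest.Agent.R006.P3_RefPackA_943
import Crest.Agent.R006.P3_Pieces_884

/-! Row 6, block P3, LEAF REF (helper943, on helper884's Pieces). -/

set_option autoImplicit false

namespace Crest.Agent.R006.P3

open Crest.Agent.R006.D Crest.Agent.R006.Cert Crest.Agent.R006.NumSegx464
  Crest.Agent.R006.Potx943

/-- **LEAF REF** -/
theorem refPack {W0 : ℤ} {L : List Piece} {m : ℕ} (h : listOK L = true) (hm : massL L = m) (c : ℕ) :
    RefPack W0 L m c := by
  obtain ⟨ρ, hρ, hsep⟩ := sep_of_listOK W0 h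
  refine refPack_of (F W0 L) (F_d_ne W0 h) (fun f => F_mu W0 L f) hρ hsep ?_ (U_eq_potL W0 h)
    (En_eq_selfE W0 h) c
  have h1 := mass_eq W0 h
  rw [hm] at h1
  exact_mod_cast h1

end Crest.Agent.R006.P3
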