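import Crest.Agent.R006.P3_Leaf_390

/-!
# Row 6, block P3: conjugation symmetry of the certificate (helper200)

`symL L` (decidable, `Cert_112`): the list of pieces is invariant (as a multiset) under the
exchange of the two rays. Then `PhiR`, `PhiQ` are invariant under complex conjugation and the bounds of
`Cert.OK` on the upper ray hold on the lower ray.
-/

set_option autoImplicit false

namespace Crest.Agent.R006.Sym200

open D NumSegx464 Cert

theorem symL_perm {L : List Piece} (h : symL L = true) : (L.map Piece.conj).Perm L :=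
  List.isPerm_iff.mp h

theorem pot_conj (A B s : ℂ) :
    pot ((starRingEnd ℂ) A) ((starRingEnd ℂ) B) ((starRingEnd ℂ) s) = pot A B s := by
  unfold pot
  congr 1
  funext κ
  rw [← Complex.norm_conj (s - (A + κ * (B - A)))]
  simp

theorem conj_gc (z : ℤ × ℤ) : (starRingEnd ℂ) (gc z) = gc (z.1, -z.2) := by
  apply Complex.ext <;> simp

theorem potL_eq_sum_map (s : ℂ) : ∀ L : List WSeg,
    potL L s = (L.map fun p => (p.2.2 : ℝ) * pot (gc p.1) (gc p.2.1) s).sum
  | [] => rfl
  | p :: L => by
    simp only [potL, List.map_cons, List.sum_cons]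
    rw [potL_eq_sum_map s L]

theorem potL_append (s : ℂ) (L L' : List WSeg) : potL (L ++ L') s = potL L s + potL L' s := by
  rw [potL_eq_sum_map, potL_eq_sum_map, potL_eq_sum_map, List.map_append, List.sum_append]

theorem potL_perm (s : ℂ) {L L' : List WSeg} (h : L.Perm L') : potL L s = potL L' s := by
  rw [potL_eq_sum_map, potL_eq_sum_map]
  exact (h.map _).sum_eq

theorem seg_conj_pot (W : ℤ) (p : Piece) (s : ℂ) :
    pot (gc (p.seg W).1) (gc (p.seg W).2.1) ((starRingEnd ℂ) s)
      = pot (gc (p.conj.seg W).1) (gc (p.conj.seg W).2.1) s := by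
  rw [← pot_conj (gc (p.seg W).1) (gc (p.seg W).2.1) ((starRingEnd ℂ) s), Complex.conj_conj,
    conj_gc, conj_gc]
  cases p <;> simp [Piece.seg, Piece.conj]

theorem seg_conj_mass (W : ℤ) (p : Piece) : (p.conj.seg W).2.2 = (p.seg W).2.2 := by
  cases p <;> simp [Piece.seg, Piece.conj]

theorem potL_segs_conj (W : ℤ) (L : List Piece) (s : ℂ) :
    potL (segs W L) ((starRingEnd ℂ) s) = potL (segs W (L.map Piece.conj)) s := by
  rw [potL_eq_sum_map, potL_eq_sum_map]
  unfold segs
  rw [List.map_map, List.map_map, List.map_map]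
  congr 1
  apply List.map_congr_left
  intro p _
  simp only [Function.comp]
  rw [seg_conj_pot, seg_conj_mass]

/-- symmetric lists have symmetric potentials -/
theorem potL_segs_sym (W : ℤ) {L : List Piece} (h : symL L = true) (s : ℂ) :
    potL (segs W L) ((starRingEnd ℂ) s) = potL (segs W L) s := by
  rw [potL_segs_conj]
  apply potL_perm
  unfold segs
  exact (symL_perm h).map _

/-- all segments are real -/
def RealL (L : List WSeg) : Prop := ∀ p ∈ L, p.1.2 = 0 ∧ p.2.1.2 = 0

theorem RealL.append {L L' : List WSeg} (h : RealL L) (h' : RealL L') : RealL (L ++ L') := by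
  intro p hp
  rcases List.mem_append.mp hp with h1 | h1
  · exact h p h1
  · exact h' p h1

theorem realL_rseg (a b m : ℤ) : RealL (rseg a b m) := by
  unfold rseg
  split_ifs
  · intro p hp
    simp at hp
  · intro p hp
    rw [List.mem_singleton] at hp
    subst hp
    exact ⟨rfl, rfl⟩

theorem realL_LS (S : Shape) (K : ℤ) : RealL (LS S K) := by
  unfold LS
  exact ((((((((realL_rseg _ _ _).append (realL_rseg _ _ _)).append (realL_rseg _ _ _)).append
    (realL_rseg _ _ _)).append (realL_rseg _ _ _)).append (realL_rseg _ _ _)).append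
    (realL_rseg _ _ _)).append (realL_rseg _ _ _))

theorem realL_LG (S : Shape) (K : ℤ) : RealL (LG S K) := by
  unfold LG
  exact (((realL_rseg _ _ _).append (realL_rseg _ _ _)).append (realL_rseg _ _ _)).append
    (realL_rseg _ _ _)

theorem potL_real_conj {L : List WSeg} (h : RealL L) (s : ℂ) :
    potL L ((starRingEnd ℂ) s) = potL L s := by
  rw [potL_eq_sum_map, potL_eq_sum_map]
  congr 1
  apply List.map_congr_left
  intro p hp
  obtain ⟨h1, h2⟩ := h p hp
  rw [← pot_conj (gc p.1) (gc p.2.1) ((starRingEnd ℂ) s), Complex.conj_conj, conj_gc, conj_gc,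
    h1, h2, neg_zero]
  congr 2
  · apply Complex.ext <;> simp [h1]
  · apply Complex.ext <;> simp [h2]

theorem PhiR_conj (S : Shape) (d : Data) (hW : symL d.W = true) (hZ : symL d.Z = true) (s : ℂ) :
    PhiR S d ((starRingEnd ℂ) s) = PhiR S d s := by
  unfold PhiR
  rw [potL_segs_sym _ hW, potL_segs_sym _ hZ, potL_real_conj (realL_LG S d.K),
    potL_real_conj (realL_LS S d.K), Complex.conj_re, Complex.conj_im, abs_neg]

theorem PhiQ_conj (S : Shape) (d : Data) (hW : symL d.W = true) (hY : symL d.Y = true) (s : ℂ) :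
    PhiQ S d ((starRingEnd ℂ) s) = PhiQ S d s := by
  unfold PhiQ
  rw [potL_segs_sym _ hW, potL_segs_sym _ hY, potL_real_conj (realL_LS S d.K), Complex.conj_im,
    abs_neg]

/-- the point of the lower ray with parameter `T` -/
noncomputable def rayD (S : Shape) (d : Data) (T : ℝ) : ℂ := ⟨-(d.K * S.w : ℝ) - T, -T⟩

theorem conj_ray (S : Shape) (d : Data) (T : ℝ) : (starRingEnd ℂ) (ray S d T) = rayD S d T := by
  apply Complex.ext <;> simp [ray, rayD]

theorem rayR_dn {S : Shape} {d : Data} (h : OK S d) (hW : symL d.W = true)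
    (hZ : symL d.Z = true) (T : ℝ) (hT : 0 ≤ T) : PhiR S d (rayD S d T) ≤ (d.lR : ℝ) / d.D := by
  rw [← conj_ray, PhiR_conj S d hW hZ]
  exact h.rayR T hT

theorem rayQ_dn {S : Shape} {d : Data} (h : OK S d) (hW : symL d.W = true)
    (hY : symL d.Y = true) (T : ℝ) (hT : 0 ≤ T) : PhiQ S d (rayD S d T) ≤ (d.lQ : ℝ) / d.D := by
  rw [← conj_ray, PhiQ_conj S d hW hY]
  exact h.rayQ T hT

theorem wf2_sym {S : Shape} {d : Data} (h : wf2 S d = true) :
    symL d.Z = true ∧ symL d.Y = true ∧ symL d.W = true := by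
  unfold wf2 at h
  simp only [Bool.and_eq_true] at h
  exact ⟨h.1.1.1.1.1, h.1.1.1.1.2, h.1.1.1.2⟩

end Crest.Agent.R006.Sym200

namespace Crest.Agent.R006.P3

open Crest.Agent.R006.D Crest.Agent.R006.Cert Crest.Agent.R006.Sym200

/-- LEAF SYM of `P3_Leaf_390` -/
theorem symPhi {S : Shape} {d : Data} (h : wf2 S d = true) : SymPhi S d := by
  obtain ⟨hZ, hY, hW⟩ := wf2_sym h
  exact fun s => ⟨PhiR_conj S d hW hZ s, PhiQ_conj S d hW hY s⟩

end Crest.Agent.R006.P3
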