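import Crest.Agent.R006.ArchS_650
import Crest.Agent.R006.P3_PotV_943

set_option autoImplicit false

/-!
# Row 6, block P3: tails of the exponents on the rays (helper650, leaf (d) of 390)

* `LogLe f` : `f z ≤ D log (C + ‖z‖)`; `logLe_U`, `logLe_Iseg`, `LogLe.add`;
* `UN_nonneg` : `0 ≤ UN S z` for `1 ≤ |Im z|`;
* `tail_phi` : `f z - UN S z + κ Re z - ω |Im z| ≤ l - (T - T1)` on `z = -w + T (-c ± i)`, `T ≥ T1`.
-/

namespace Crest.Agent.R006.TailSlotx650

open Finset MeasureTheory Crest.Agent.R006.D Crest.Agent.R006.Potx943 Crest.Agent.R006.VVx929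
  Crest.Agent.R006.ArchSx650

/-! ### growth -/

/-- logarithmic growth from above -/
def LogLe (f : ℂ → ℝ) : Prop :=
  ∃ D C : ℝ, 0 ≤ D ∧ 1 ≤ C ∧ ∀ z, f z ≤ D * Real.log (C + ‖z‖)

lemma LogLe.add {f g : ℂ → ℝ} (hf : LogLe f) (hg : LogLe g) : LogLe (fun z => f z + g z) := by
  obtain ⟨D, C, hD, hC, h⟩ := hf
  obtain ⟨D', C', hD', hC', h'⟩ := hg
  refine ⟨D + D', max C C', by linarith, le_max_of_le_left hC, fun z => ?_⟩
  have hz := norm_nonneg z
  have h1 : Real.log (C + ‖z‖) ≤ Real.log (max C C' + ‖z‖) :=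
    Real.log_le_log (by linarith) (by linarith [le_max_left C C'])
  have h2 : Real.log (C' + ‖z‖) ≤ Real.log (max C C' + ‖z‖) :=
    Real.log_le_log (by linarith) (by linarith [le_max_right C C'])
  have h3 := mul_le_mul_of_nonneg_left h1 hD
  have h4 := mul_le_mul_of_nonneg_left h2 hD'
  have := h z
  have := h' z
  simp only
  linarith

lemma LogLe.mul {f : ℂ → ℝ} (hf : LogLe f) {k : ℝ} (hk : 0 ≤ k) : LogLe (fun z => k * f z) := by
  obtain ⟨D, C, hD, hC, h⟩ := hf
  refine ⟨k * D, C, by positivity, hC, fun z => ?_⟩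
  have := mul_le_mul_of_nonneg_left (h z) hk
  simp only
  linarith

lemma logLe_zero : LogLe (fun _ => 0) :=
  ⟨0, 1, le_refl _, le_refl _, fun z => by simp⟩

lemma LogLe.sum {α : Type*} (s : Finset α) {f : α → ℂ → ℝ} (h : ∀ a ∈ s, LogLe (f a)) :
    LogLe (fun z => ∑ a ∈ s, f a z) := by
  induction s using Finset.cons_induction with
  | empty => simpa using logLe_zero
  | cons a s ha ih =>
    have := (h a (Finset.mem_cons_self a s)).add (ih fun b hb => h b (Finset.mem_cons_of_mem hb))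
    simpa [Finset.sum_cons] using this

theorem Iseg_le_log (a d : ℂ) {m : ℝ} (hm : 0 ≤ m) (s : ℂ) :
    Iseg a d m s ≤ m * Real.log ((1 + ‖a‖ + m * ‖d‖) + ‖s‖) := by
  have h := intervalIntegral.integral_mono_on (μ := volume) hm
    (intervalIntegrable_Iseg (a := a) (d := d) (s := s) 0 m)
    (intervalIntegrable_const (c := Real.log ((1 + ‖a‖ + m * ‖d‖) + ‖s‖))) (fun t ht => ?_)
  · rw [intervalIntegral.integral_const, smul_eq_mul, sub_zero] at h
    exact h
  · have hb : ‖s - (a + t * d)‖ ≤ (1 + ‖a‖ + m * ‖d‖) + ‖s‖ := by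
      have h1 : ‖s - (a + t * d)‖ ≤ ‖s‖ + (‖a‖ + ‖(t : ℂ) * d‖) :=
        (norm_sub_le _ _).trans (by gcongr; exact norm_add_le _ _)
      have h2 : ‖(t : ℂ) * d‖ ≤ m * ‖d‖ := by
        rw [norm_mul, Complex.norm_real, Real.norm_eq_abs, abs_of_nonneg ht.1]
        exact mul_le_mul_of_nonneg_right ht.2 (norm_nonneg _)
      linarith
    rcases eq_or_lt_of_le (norm_nonneg (s - (a + t * d))) with h0 | h0
    · rw [← h0, Real.log_zero]
      exact Real.log_nonneg (by
        have := norm_nonneg a; have := norm_nonneg s; have := mul_nonneg hm (norm_nonneg d)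
        linarith)
    · exact Real.log_le_log h0 hb

lemma logLe_Iseg (a d : ℂ) {m : ℝ} (hm : 0 ≤ m) : LogLe (fun s => Iseg a d m s) :=
  ⟨m, 1 + ‖a‖ + m * ‖d‖, hm, by
    have := norm_nonneg a; have := mul_nonneg hm (norm_nonneg d); linarith,
    fun z => Iseg_le_log a d hm z⟩

lemma logLe_U {r : ℕ} (F : Fin r → Fam) : LogLe (fun s => U F s) := by
  unfold U
  exact LogLe.sum _ fun f _ => (logLe_Iseg _ _ (Nat.cast_nonneg _)).mul (Nat.cast_nonneg _)

/-- a real segment seen from above -/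
theorem Iseg_ge_log_im (a : ℝ) {m : ℝ} (hm : 0 ≤ m) {s : ℂ} (hs : s.im ≠ 0) :
    m * Real.log |s.im| ≤ Iseg (a : ℂ) 1 m s := by
  have h := intervalIntegral.integral_mono_on (μ := volume) hm
    (intervalIntegrable_const (c := Real.log |s.im|))
    (intervalIntegrable_Iseg (a := (a : ℂ)) (d := 1) (s := s) 0 m) (fun t ht => ?_)
  · rw [intervalIntegral.integral_const, smul_eq_mul, sub_zero] at h
    exact h
  · apply Real.log_le_log (abs_pos.mpr hs)
    have := Complex.abs_im_le_norm (s - ((a : ℂ) + t * 1))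
    simpa using this

theorem UN_ge (S : Shape) {z : ℂ} (hz : z.im ≠ 0) : S.rows * Real.log |z.im| ≤ UN S z := by
  rw [← VVx929.sum_len S, UN, Finset.sum_mul]
  refine Finset.sum_le_sum fun w _ => ?_
  unfold Uw
  have h1 : (0 : ℝ) ≤ (hiW S w : ℝ) - loW S w := by
    have := loW_le_hiW S w
    have : (loW S w : ℝ) ≤ hiW S w := by exact_mod_cast this
    linarith
  have := Iseg_ge_log_im (loW S w : ℝ) h1 hz
  push_cast at this
  exact this

theorem UN_nonneg (S : Shape) {z : ℂ} (hz : 1 ≤ |z.im|) : 0 ≤ UN S z := by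
  have h0 : z.im ≠ 0 := by
    intro h; rw [h, abs_zero] at hz; linarith
  refine le_trans ?_ (UN_ge S h0)
  exact mul_nonneg (Nat.cast_nonneg _) (Real.log_nonneg hz)

/-! ### tails -/

theorem tail_abs {A D K K' c : ℝ} (hD : 0 ≤ D) (hK : 0 < K) (hK' : 0 ≤ K') (hc : 1 < c) (l : ℝ) :
    ∃ T1 : ℝ, 1 ≤ T1 ∧ ∀ T, T1 ≤ T → A + D * Real.log (K + K' * T) - c * T ≤ l - (T - T1) := by
  set ρ : ℝ := 2 * D * K' / (c - 1) + 1 with hρ
  have hc1 : 0 < c - 1 := by linarith
  have hρ0 : 0 < ρ := by positivity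
  have hρ1 : D * K' / ρ ≤ (c - 1) / 2 := by
    rw [div_le_iff₀ hρ0, hρ]
    have : (c - 1) / 2 * (2 * D * K' / (c - 1) + 1) = D * K' + (c - 1) / 2 := by
      field_simp
    rw [this]; linarith
  set A' : ℝ := A + D * (K / ρ + Real.log ρ) with hA'
  refine ⟨max 1 (A' - l), le_max_left _ _, fun T hT => ?_⟩
  have hT1 : 1 ≤ T := (le_max_left _ _).trans hT
  have hlog : Real.log (K + K' * T) ≤ (K + K' * T) / ρ + Real.log ρ := by
    have hx : 0 < K + K' * T := by positivity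
    have h1 := Real.log_le_sub_one_of_pos (div_pos hx hρ0)
    rw [Real.log_div hx.ne' hρ0.ne'] at h1
    linarith
  have h2 := mul_le_mul_of_nonneg_left hlog hD
  have h3 : D * ((K + K' * T) / ρ + Real.log ρ) = D * (K / ρ + Real.log ρ) + D * K' / ρ * T := by
    ring
  have h4 : D * K' / ρ * T ≤ (c - 1) / 2 * T := mul_le_mul_of_nonneg_right hρ1 (by linarith)
  have h5 : A' - l ≤ max 1 (A' - l) := le_max_right _ _
  have h6 : 0 ≤ (c - 1) / 2 * T := by positivity
  nlinarith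

/-- the point of the ray -/
noncomputable def rayPt (w c σ T : ℝ) : ℂ := ((-w - c * T : ℝ) : ℂ) + ((σ * T : ℝ) : ℂ) * Complex.I

lemma rayPt_re (w c σ T : ℝ) : (rayPt w c σ T).re = -w - c * T := by simp [rayPt]

lemma rayPt_im (w c σ T : ℝ) : (rayPt w c σ T).im = σ * T := by simp [rayPt]

/-- **tail of an exponent on the rays** `z = -w + T (-c + σ i)`, `|σ| = 1` -/
theorem tail_phi (S : Shape) {f : ℂ → ℝ} (hf : LogLe f) {w c κ ω : ℝ} (hc : 0 ≤ c)
    (hκω : 1 < c * κ + ω) (l : ℝ) :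
    ∃ T1 : ℝ, 1 ≤ T1 ∧ ∀ T, T1 ≤ T → ∀ z : ℂ, z.re = -w - c * T → |z.im| = T →
      f z - UN S z + κ * z.re - ω * |z.im| ≤ l - (T - T1) := by
  obtain ⟨D, C, hD, hC, h⟩ := hf
  obtain ⟨T1, h1, h2⟩ := tail_abs (A := -(κ * w)) (K := C + |w|) (K' := c + 1) hD
    (by have := abs_nonneg w; linarith) (by linarith) hκω l
  refine ⟨T1, h1, fun T hT z hre him => ?_⟩
  refine le_trans ?_ (h2 T hT)
  have hT1 : 1 ≤ T := h1.trans hT
  have hN := UN_nonneg S (z := z) (by rw [him]; exact hT1)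
  have hz : ‖z‖ ≤ |w| + (c + 1) * T := by
    refine (Complex.norm_le_abs_re_add_abs_im z).trans ?_
    rw [hre, him]
    have : |-w - c * T| ≤ |w| + c * T := by
      have h3 := abs_sub (-w) (c * T)
      rw [abs_neg, abs_of_nonneg (by positivity : 0 ≤ c * T)] at h3
      exact h3
    linarith
  have hlog : Real.log (C + ‖z‖) ≤ Real.log (C + |w| + (c + 1) * T) :=
    Real.log_le_log (by have := norm_nonneg z; linarith) (by linarith)
  have h3 := mul_le_mul_of_nonneg_left hlog hD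
  have h4 := h z
  rw [hre, him]
  have e : κ * (-w - c * T) - ω * T = -(κ * w) - (c * κ + ω) * T := by ring
  linarith

end Crest.Agent.R006.TailSlotx650
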