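import Crest.Agent.R006.Cert_112
import Crest.Agent.R006.P3_TailSlot_650

set_option autoImplicit false

/-!
# Row 6, block P3: tails of `Cert.PhiR`, `Cert.PhiQ` on the rays (helper650)

`tail_R`, `tail_Q` : `PhiR S d z ≤ lR / D - (T - T1)` for `T ≥ T1` and `z = -K w - T ± i T`
(both rays), no hypothesis except `Cert.wf S d`.
-/

namespace Crest.Agent.R006.Cert650

open MeasureTheory Crest.Agent.R006.D Crest.Agent.R006.Cert Crest.Agent.R006.NumSegx464 Crest.Agent.R006.Potx943
  Crest.Agent.R006.TailSlotx650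

lemma pot_eq_Iseg (A B s : ℂ) : pot A B s = Iseg A (B - A) 1 s := rfl

lemma logLe_pot (A B : ℂ) : LogLe (fun s => pot A B s) := by
  simp only [pot_eq_Iseg]
  exact logLe_Iseg _ _ zero_le_one

/-- lists with nonnegative masses -/
def NonnegL (L : List WSeg) : Prop := ∀ p ∈ L, 0 ≤ p.2.2

lemma NonnegL.append {L L' : List WSeg} (h : NonnegL L) (h' : NonnegL L') : NonnegL (L ++ L') := by
  intro p hp
  rcases List.mem_append.mp hp with hp | hp
  · exact h p hp
  · exact h' p hp

lemma logLe_potL : ∀ {L : List WSeg}, NonnegL L → LogLe (fun s => potL L s)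
  | [], _ => logLe_zero
  | p :: L, h => by
    have h1 : (0 : ℝ) ≤ p.2.2 := by exact_mod_cast h p (List.mem_cons_self ..)
    exact ((logLe_pot (gc p.1) (gc p.2.1)).mul h1).add
      (logLe_potL (L := L) fun q hq => h q (List.mem_cons_of_mem _ hq))

lemma potL_append650 : ∀ (L L' : List WSeg) (s : ℂ), potL (L ++ L') s = potL L s + potL L' s
  | [], L', s => by simp [potL]
  | p :: L, L', s => by
    rw [List.cons_append, potL, potL, potL_append650 L L' s]; ring

lemma nonneg_rseg {a b m : ℤ} (hm : 0 ≤ m) : NonnegL (rseg a b m) := by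
  intro p hp
  unfold rseg at hp
  split_ifs at hp with h
  · simp at hp
  · rw [List.mem_singleton] at hp
    rw [hp]; exact hm

/-- potential of a real segment seen from above -/
lemma pot_real_ge {a b : ℤ} (hab : a ≤ b) {s : ℂ} (hs : s.im ≠ 0) :
    Real.log |s.im| ≤ pot (gc (a, 0)) (gc (b, 0)) s := by
  have h := intervalIntegral.integral_mono_on (μ := volume) (a := 0) (b := 1) zero_le_one
    (intervalIntegrable_const (c := Real.log |s.im|))
    (intervalIntegrable_Iseg (a := gc (a, 0)) (d := gc (b, 0) - gc (a, 0)) (s := s) 0 1)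
    (fun t _ => ?_)
  · rw [intervalIntegral.integral_const, smul_eq_mul, sub_zero, one_mul] at h
    exact h
  · apply Real.log_le_log (abs_pos.mpr hs)
    have := Complex.abs_im_le_norm (s - (gc (a, 0) + t * (gc (b, 0) - gc (a, 0))))
    simpa [gc] using this

lemma potL_rseg_nonneg {a b m : ℤ} (hab : a ≤ b) (hm : 0 ≤ m) {s : ℂ} (hs : 1 ≤ |s.im|) :
    0 ≤ potL (rseg a b m) s := by
  unfold rseg
  split_ifs with h
  · simp [potL]
  · have h0 : s.im ≠ 0 := by
      intro h'; rw [h', abs_zero] at hs; linarith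
    have h1 := pot_real_ge hab h0
    have h2 : (0 : ℝ) ≤ m := by exact_mod_cast hm
    have h3 := Real.log_nonneg hs
    simp only [potL, add_zero]
    exact mul_nonneg h2 (h3.trans h1)

lemma potL_LS_nonneg (S : Shape) (K : ℕ) {s : ℂ} (hs : 1 ≤ |s.im|) : 0 ≤ potL (LS S K) s := by
  have e : ∀ a : ℕ, (0 : ℤ) ≤ (K : ℤ) * a := fun a => by positivity
  have e' : ∀ a : ℕ, -((K : ℤ) * a) ≤ 0 := fun a => by have := e a; linarith
  unfold LS
  simp only [potL_append650]
  have h1 := potL_rseg_nonneg (e S.B) (e S.B) hs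
  have h2 := potL_rseg_nonneg (e' S.e1) (e S.e1) hs
  have h3 := potL_rseg_nonneg (e' S.e2) (e S.e2) hs
  have h4 := potL_rseg_nonneg (e' S.e3) (e S.e3) hs
  have h5 := potL_rseg_nonneg (e S.h1) (e S.h1) hs
  have h6 := potL_rseg_nonneg (e S.h2) (e S.h2) hs
  have h7 := potL_rseg_nonneg (e S.h3) (e S.h3) hs
  have h8 := potL_rseg_nonneg (e' S.w) (e S.w) hs
  linarith

lemma nonneg_LG (S : Shape) (K : ℕ) : NonnegL (LG S K) := by
  have e : ∀ a : ℕ, (0 : ℤ) ≤ (K : ℤ) * a := fun a => by positivity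
  unfold LG
  exact (((nonneg_rseg (e _)).append (nonneg_rseg (e _))).append (nonneg_rseg (e _))).append
    (nonneg_rseg (e _))

lemma nonneg_segs (W : ℤ) : ∀ {L : List Piece}, listOK L = true → NonnegL (segs W L)
  | [], _ => by intro p hp; simp [segs] at hp
  | q :: L, h => by
    simp only [listOK, Piece.good, Bool.and_eq_true, decide_eq_true_eq] at h
    intro p hp
    simp only [segs, List.map_cons, List.mem_cons] at hp
    rcases hp with rfl | hp
    · have : 0 < q.mass := by tauto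
      cases q <;> simpa [Piece.seg, Piece.mass] using this.le
    · exact nonneg_segs W (L := L) h.2 p hp

/-- tail of a potential difference along both rays -/
theorem tail_gen {f h : ℂ → ℝ} (hf : LogLe f) (hh : ∀ z : ℂ, 1 ≤ |z.im| → 0 ≤ h z)
    {w κ ω : ℝ} (hκω : 1 < κ + ω) (l : ℝ) :
    ∃ T1 : ℝ, 1 ≤ T1 ∧ ∀ T, T1 ≤ T → ∀ z : ℂ, z.re = -w - T → |z.im| = T →
      f z - h z + κ * z.re - ω * |z.im| ≤ l - (T - T1) := by
  obtain ⟨D, C, hD, hC, hf⟩ := hf
  obtain ⟨T1, h1, h2⟩ := tail_abs (A := -(κ * w)) (K := C + |w|) (K' := 2) hD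
    (by have := abs_nonneg w; linarith) (by norm_num) hκω l
  refine ⟨T1, h1, fun T hT z hre him => ?_⟩
  refine le_trans ?_ (h2 T hT)
  have hT1 : 1 ≤ T := h1.trans hT
  have hN := hh z (by rw [him]; exact hT1)
  have hz : ‖z‖ ≤ |w| + 2 * T := by
    refine (Complex.norm_le_abs_re_add_abs_im z).trans ?_
    rw [hre, him]
    have h3 := abs_sub (-w) T
    rw [abs_neg, abs_of_nonneg (by linarith : 0 ≤ T)] at h3
    linarith
  have hlog : Real.log (C + ‖z‖) ≤ Real.log (C + |w| + 2 * T) :=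
    Real.log_le_log (by have := norm_nonneg z; linarith) (by linarith)
  have h3 := mul_le_mul_of_nonneg_left hlog hD
  have h4 := hf z
  rw [hre, him]
  have e : κ * (-w - T) - ω * T = -(κ * w) - (κ + ω) * T := by ring
  linarith

lemma wf_lists {S : Shape} {d : Data} (h : Cert.wf S d = true) :
    listOK d.Z = true ∧ listOK d.Y = true ∧ listOK d.W = true := by
  simp only [Cert.wf, Bool.and_eq_true] at h
  tauto

/-- **tail of `PhiR`**, both rays -/
theorem tail_R {S : Shape} {d : Data} (h : Cert.wf S d = true) (l : ℝ) :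
    ∃ T1 : ℝ, 1 ≤ T1 ∧ ∀ T, T1 ≤ T → ∀ z : ℂ, z.re = -(d.K * S.w : ℝ) - T → |z.im| = T →
      PhiR S d z ≤ l - (T - T1) := by
  obtain ⟨hZ, hY, hW⟩ := wf_lists h
  have h8 : (1 : ℝ) < Real.log 8 + Real.pi := by
    have := Real.log_nonneg (show (1 : ℝ) ≤ 8 by norm_num)
    linarith [Real.pi_gt_three]
  obtain ⟨T1, h1, h2⟩ := tail_gen (((logLe_potL (nonneg_segs (d.K * S.w) hW)).add
    (logLe_potL (nonneg_segs (d.K * S.w) hZ))).add (logLe_potL (nonneg_LG S d.K)))
    (fun z hz => potL_LS_nonneg S d.K hz) (w := (d.K * S.w : ℝ)) h8 l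
  exact ⟨T1, h1, fun T hT z hre him => h2 T hT z hre him⟩

/-- **tail of `PhiQ`**, both rays -/
theorem tail_Q {S : Shape} {d : Data} (h : Cert.wf S d = true) (l : ℝ) :
    ∃ T1 : ℝ, 1 ≤ T1 ∧ ∀ T, T1 ≤ T → ∀ z : ℂ, z.re = -(d.K * S.w : ℝ) - T → |z.im| = T →
      PhiQ S d z ≤ l - (T - T1) := by
  obtain ⟨hZ, hY, hW⟩ := wf_lists h
  have h8 : (1 : ℝ) < 0 + 2 * Real.pi := by linarith [Real.pi_gt_three]
  obtain ⟨T1, h1, h2⟩ := tail_gen ((logLe_potL (nonneg_segs (d.K * S.w) hW)).add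
    (logLe_potL (nonneg_segs (d.K * S.w) hY)))
    (fun z hz => potL_LS_nonneg S d.K hz) (w := (d.K * S.w : ℝ)) h8 l
  refine ⟨T1, h1, fun T hT z hre him => ?_⟩
  have h3 := h2 T hT z hre him
  unfold PhiQ
  simp only [zero_mul, add_zero] at h3
  exact h3

end Crest.Agent.R006.Cert650
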