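import Crest.Agent.R006.P3_Final_390
import Crest.Agent.R006.P3_DiscPf_257
import Crest.Agent.R006.P3_RefPack_943
import Crest.Agent.R006.P3_Mod_170
import Crest.Agent.R006.P3_NodesV_673
import Crest.Agent.R006.P3_TailC_650
import Crest.Agent.R006.P3_KapLe_200
import Crest.Agent.R006.P3_Sym_200
import Crest.Agent.R006.P3_CellsF_530
import Crest.Agent.R006.ArchSN_103

/-!
# Row 6, block P3: `Cert.Claim` (helper257, shadow of helper390's last file)
-/

set_option autoImplicit false

namespace Crest.Agent.R006.P3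

open Crest.Agent.R006.D Crest.Agent.R006.Cert

theorem leaves_257 {S : Shape} (hS : S.Good) {d : Data} (h : OK S d) (c : ℕ) : Leaves S d c := by
  have hwf := h.wf
  simp only [Cert.wf, Bool.and_eq_true, decide_eq_true_eq] at hwf
  obtain ⟨⟨⟨⟨⟨⟨⟨⟨⟨hK, hD⟩, hZ⟩, hY⟩, hW⟩, mZ⟩, mY⟩, mW⟩, hcells⟩, hchain⟩ := hwf
  have hray : ∀ T : ℝ, 0 ≤ T → (ray S d T).re = -(d.K * S.w : ℝ) - T ∧ |(ray S d T).im| = T :=
    fun T hT => ⟨rfl, abs_of_nonneg hT⟩
  have htR : Tail (fun T => PhiR S d (ray S d T)) ((d.lR : ℝ) / d.D) := by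
    obtain ⟨T1, h1, h2⟩ := Cert650.tail_R h.wf ((d.lR : ℝ) / d.D)
    exact ⟨T1, by linarith, fun T hT =>
      h2 T hT _ (hray T (by linarith)).1 (hray T (by linarith)).2⟩
  have htQ : Tail (fun T => PhiQ S d (ray S d T)) ((d.lQ : ℝ) / d.D) := by
    obtain ⟨T1, h1, h2⟩ := Cert650.tail_Q h.wf ((d.lQ : ℝ) / d.D)
    exact ⟨T1, by linarith, fun T hT =>
      h2 T hT _ (hray T (by linarith)).1 (hray T (by linarith)).2⟩
  exact
    { K_pos := hK
      rows := hS.kpos.le
      disc := Disc_holds hS c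
      W := refPack hW (by rw [mW]; push_cast; ring) c
      Z := refPack hZ (by rw [mZ]; push_cast; ring) 0
      Y := refPack hY (by rw [mY]; push_cast; ring) 0
      mW := modPot_segs _ hW
      mZ := modPot_segs _ hZ
      mY := modPot_segs _ hY
      mS := modPot_LS S d.K
      mG := modPot_LG S d.K
      nodes := nodesGe hS hK c
      rho := rhoLe S hK
      sR := h.rayR
      sQ := h.rayQ
      tR := htR
      tQ := htQ
      kap := kapLe200 S hK c
      sym := symPhi h.wf2
      cells := CellsF530.cells S hS d h }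

theorem claim_257 {S : Shape} (hS : S.Good) (d : Data) : Claim S d :=
  fun h c => archK_of_leaves (leaves_257 hS h c)

end Crest.Agent.R006.P3

namespace Crest.Agent.R006.D

/-- **P3 for the frozen shape** -/
theorem arch_SN_257 (c : ℕ) {aa : ℝ} (ha : -751 ≤ aa) : ArchK SN c 100 aa :=
  arch_SN_of_claim' (P3.claim_257 SN_good _) c ha

end Crest.Agent.R006.D
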