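import Crest.Agent.R006.P3_Final_390
import Crest.Agent.R006.P3_RefPack_943
import Crest.Agent.R006.P3_Mod_170
import Crest.Agent.R006.P3_NodesV_673
import Crest.Agent.R006.P3_TailC_650
import Crest.Agent.R006.P3_KapLe_200
import Crest.Agent.R006.P3_Sym_200
import Crest.Agent.R006.P3_CellsF_530
import Crest.Agent.R006.P3_DiscPf_257

/-!
# Row 6, block P3: the claim of the certificate (helper378, glue of the leaves)
-/

set_option autoImplicit false

namespace Crest.Agent.R006.Claimx378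

open Crest.Agent.R006.D Crest.Agent.R006.Cert Crest.Agent.R006.P3

theorem tail_of {f : ℂ → ℝ} {S : Shape} {d : Data} {l : ℝ}
    (h : ∃ T1 : ℝ, 1 ≤ T1 ∧ ∀ T, T1 ≤ T → ∀ z : ℂ, z.re = -(d.K * S.w : ℝ) - T → |z.im| = T →
      f z ≤ l - (T - T1)) : P3.Tail (fun T => f (ray S d T)) l := by
  obtain ⟨T1, h1, h2⟩ := h
  refine ⟨T1, by linarith, fun T hT => ?_⟩
  have h0 : (0 : ℝ) ≤ T := by linarith
  refine h2 T hT _ ?_ ?_
  · rfl
  · simp only [ray]; exact abs_of_nonneg h0

theorem leaves {S : Shape} (hS : S.Good) {d : Data} (h : OK S d) (c : ℕ) : P3.Leaves S d c := by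
  have hwf := h.wf
  have hwf0 := hwf
  simp only [Cert.wf, Bool.and_eq_true, decide_eq_true_eq] at hwf
  obtain ⟨⟨⟨⟨⟨⟨⟨⟨⟨hK, hD⟩, hZ⟩, hY⟩, hW⟩, mZ⟩, mY⟩, mW⟩, -⟩, -⟩ := hwf
  exact
    { K_pos := hK
      rows := by have := hS.kpos; omega
      disc := P3.Disc_holds hS c
      W := P3.refPack hW (by rw [mW]; push_cast; ring) c
      Z := P3.refPack hZ (by rw [mZ]; push_cast; ring) 0
      Y := P3.refPack hY (by rw [mY]; push_cast; ring) 0
      mW := P3.modPot_segs _ hW
      mZ := P3.modPot_segs _ hZ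
      mY := P3.modPot_segs _ hY
      mS := P3.modPot_LS S d.K
      mG := P3.modPot_LG S d.K
      nodes := P3.nodesGe hS hK c
      rho := P3.rhoLe S hK
      sR := h.rayR
      sQ := h.rayQ
      tR := tail_of (Cert650.tail_R hwf0 _)
      tQ := tail_of (Cert650.tail_Q hwf0 _)
      kap := P3.kapLe200 S hK c
      sym := P3.symPhi h.wf2
      cells := CellsF530.cells S hS d h }

/-- **the claim** -/
theorem claim {S : Shape} (hS : S.Good) (d : Data) : Cert.Claim S d :=
  fun h c => P3.archK_of_leaves (leaves hS h c)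

end Crest.Agent.R006.Claimx378
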