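import Mathlib
import Crest.Agent.R006.ConfV_340
import Crest.Agent.R006.Lam_89

/-!
Row 6 (helper340): the value of helper89's confluent Vandermonde `Lam.vmat`:
`det = ± ∏_{l < i} (z i - z l) ^ (m i * m l)`, and its norm, logarithm and p-adic valuation
(ordered and order-free, symmetric, forms).
-/

set_option autoImplicit false
set_option linter.unusedSectionVars false
set_option linter.unusedVariables false

namespace Crest.Agent.R006.VmatValx340

open Finset Matrix Polynomial Crest.Agent.R006.ConfVx340 Crest.Agent.R006.Lam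

section ordered

variable {K : Type*} [Field K] {ι : Type*} [Fintype ι] [LinearOrder ι] {a q : ℕ}

lemma vmat_submatrix (z : ι → K) (m : ι → ℕ) (e : Fin a ⊕ Fin q ≃ Row m) :
    (vmat z m K e).submatrix finSumFinEquiv.symm finSumFinEquiv.symm =
      confS z m (finSumFinEquiv.symm.trans e) := by
  ext r c
  change PowerSeries.coeff ((e (finSumFinEquiv.symm r)).2 : ℕ)
    (pgerm z K (X ^ (idx (finSumFinEquiv.symm c))) (e (finSumFinEquiv.symm r)).1) = _
  rw [idx_eq, Equiv.apply_symm_apply]
  unfold pgerm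
  rw [PowerSeries.coeff_map]
  unfold germ
  rw [Polynomial.coeff_coe, taylor_apply, X_pow_comp]
  rfl

/-- **value of `det vmat`**. -/
theorem det_vmat_eq (z : ι → K) (hz : Function.Injective z) (m : ι → ℕ)
    (e : Fin a ⊕ Fin q ≃ Row m) :
    ∃ u : K, (u = 1 ∨ u = -1) ∧ (vmat z m K e).det =
      u * ∏ s, ∏ s' ∈ univ.filter (fun s' => s' < s), (z s - z s') ^ (m s * m s') := by
  obtain ⟨u, hu, h⟩ := det_conf z hz m (finSumFinEquiv.symm.trans e)
  refine ⟨u, hu, ?_⟩
  rw [← Matrix.det_submatrix_equiv_self (finSumFinEquiv (m := a) (n := q)).symm,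
    vmat_submatrix, h]
  rfl

/-- the same over a `K`-algebra. -/
theorem det_vmat_eq_alg {A : Type*} [CommRing A] [Algebra K A] (z : ι → K)
    (hz : Function.Injective z) (m : ι → ℕ) (e : Fin a ⊕ Fin q ≃ Row m) :
    (vmat z m A e).det = algebraMap K A (vmat z m K e).det := by
  rw [vmat_eq_map, ← RingHom.mapMatrix_apply, ← RingHom.map_det]

end ordered

section ordered2

variable {ι : Type*} [Fintype ι] [LinearOrder ι] {a q : ℕ}

lemma sum_lt_symm {M : Type*} [AddCommMonoid M] (f : ι → ι → M)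
    (hf : ∀ s s', f s s' = f s' s) :
    (∑ s, ∑ s' ∈ univ.filter (fun s' => s' < s), f s s') +
      (∑ s, ∑ s' ∈ univ.filter (fun s' => s' < s), f s s') =
      ∑ s, ∑ s' ∈ univ.filter (fun s' => s' ≠ s), f s s' := by
  have h1 : (∑ s, ∑ s' ∈ univ.filter (fun s' => s' < s), f s s') =
      ∑ s, ∑ s' ∈ univ.filter (fun s' => s < s'), f s s' := by
    rw [Finset.sum_comm' (t' := univ) (s' := fun s' => univ.filter (fun s => s' < s))
      (fun x y => by simp)]
    refine Finset.sum_congr rfl fun s _ => Finset.sum_congr rfl fun s' _ => hf _ _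
  nth_rewrite 1 [h1]
  rw [← Finset.sum_add_distrib]
  refine Finset.sum_congr rfl fun s _ => ?_
  rw [← Finset.sum_union]
  · refine Finset.sum_congr ?_ fun _ _ => rfl
    ext s'
    simp only [Finset.mem_union, Finset.mem_filter, Finset.mem_univ, true_and]
    constructor
    · rintro (h | h)
      · exact h.ne'
      · exact h.ne
    · intro h
      rcases lt_or_gt_of_ne h with h | h
      · exact Or.inr h
      · exact Or.inl h
  · rw [Finset.disjoint_left]
    intro s' h1 h2
    rw [Finset.mem_filter] at h1 h2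
    exact lt_asymm h1.2 h2.2

/-- norm of the confluent Vandermonde. -/
theorem norm_det_vmat {K : Type*} [NormedField K] (z : ι → K) (hz : Function.Injective z)
    (m : ι → ℕ) (e : Fin a ⊕ Fin q ≃ Row m) :
    ‖(vmat z m K e).det‖ =
      ∏ s, ∏ s' ∈ univ.filter (fun s' => s' < s), ‖z s - z s'‖ ^ (m s * m s') := by
  obtain ⟨u, hu, h⟩ := det_vmat_eq z hz m e
  have hu' : ‖u‖ = 1 := by
    rcases hu with rfl | rfl
    · exact norm_one
    · rw [norm_neg, norm_one]
  rw [h, norm_mul, hu', one_mul]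
  simp only [norm_prod, norm_pow]

lemma log_prod_pow (S : Finset ι) (f : ι → ℝ) (n : ι → ℕ) (hf : ∀ s ∈ S, f s ≠ 0) :
    Real.log (∏ s ∈ S, f s ^ n s) = ∑ s ∈ S, (n s : ℝ) * Real.log (f s) := by
  rw [Real.log_prod (fun s hs => pow_ne_zero _ (hf s hs))]
  refine Finset.sum_congr rfl fun s _ => ?_
  rw [Real.log_pow]

/-- logarithm of the norm of the confluent Vandermonde. -/
theorem log_norm_det_vmat {K : Type*} [NormedField K] (z : ι → K) (hz : Function.Injective z)
    (m : ι → ℕ) (e : Fin a ⊕ Fin q ≃ Row m) :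
    Real.log ‖(vmat z m K e).det‖ =
      ∑ s, ∑ s' ∈ univ.filter (fun s' => s' < s),
        ((m s * m s' : ℕ) : ℝ) * Real.log ‖z s - z s'‖ := by
  have hne : ∀ s, ∀ s' ∈ univ.filter (fun s' => s' < s), ‖z s - z s'‖ ≠ 0 := by
    intro s s' hs'
    rw [Finset.mem_filter] at hs'
    exact norm_ne_zero_iff.2 (sub_ne_zero.2 fun he => hs'.2.ne' (hz he))
  rw [norm_det_vmat z hz m e, Real.log_prod (fun s _ => Finset.prod_ne_zero_iff.2 fun s' hs' =>
    pow_ne_zero _ (hne s s' hs'))]
  refine Finset.sum_congr rfl fun s _ => ?_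
  rw [log_prod_pow _ _ (fun s' => m s * m s') (hne s)]

/-- `p`-adic valuation of the confluent Vandermonde over `ℚ`. -/
theorem padicValRat_det_vmat (p : ℕ) [Fact p.Prime] (z : ι → ℚ) (hz : Function.Injective z)
    (m : ι → ℕ) (e : Fin a ⊕ Fin q ≃ Row m) :
    padicValRat p (vmat z m ℚ e).det =
      ∑ s, ∑ s' ∈ univ.filter (fun s' => s' < s),
        ((m s * m s' : ℕ) : ℤ) * padicValRat p (z s - z s') := by
  rw [← Matrix.det_submatrix_equiv_self (finSumFinEquiv (m := a) (n := q)).symm,
    vmat_submatrix]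
  exact padicValRat_det_conf p z hz m _

end ordered2

section free

variable {ι : Type*} [Fintype ι] [DecidableEq ι] {a q : ℕ}

/-- order-free form of the logarithm. -/
theorem two_log_norm_det_vmat {K : Type*} [NormedField K] (z : ι → K)
    (hz : Function.Injective z) (m : ι → ℕ) (e : Fin a ⊕ Fin q ≃ Row m) :
    2 * Real.log ‖(vmat z m K e).det‖ =
      ∑ s, ∑ s' ∈ univ.erase s, ((m s * m s' : ℕ) : ℝ) * Real.log ‖z s - z s'‖ := by
  letI : LinearOrder ι := LinearOrder.lift' (Fintype.equivFin ι) (Fintype.equivFin ι).injective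
  have h := sum_lt_symm (fun s s' => ((m s * m s' : ℕ) : ℝ) * Real.log ‖z s - z s'‖)
    (fun s s' => by rw [norm_sub_rev, mul_comm (m s)])
  rw [log_norm_det_vmat z hz m e, two_mul, h]
  refine Finset.sum_congr rfl fun s _ => Finset.sum_congr ?_ fun _ _ => rfl
  ext s'
  simp

/-- order-free form of the `p`-adic valuation. -/
theorem two_padicValRat_det_vmat (p : ℕ) [Fact p.Prime] (z : ι → ℚ)
    (hz : Function.Injective z) (m : ι → ℕ) (e : Fin a ⊕ Fin q ≃ Row m) :
    2 * padicValRat p (vmat z m ℚ e).det =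
      ∑ s, ∑ s' ∈ univ.erase s, ((m s * m s' : ℕ) : ℤ) * padicValRat p (z s - z s') := by
  letI : LinearOrder ι := LinearOrder.lift' (Fintype.equivFin ι) (Fintype.equivFin ι).injective
  have h := sum_lt_symm (fun s s' => ((m s * m s' : ℕ) : ℤ) * padicValRat p (z s - z s'))
    (fun s s' => by
      rw [mul_comm (m s), ← padicValRat.neg (z s - z s'), neg_sub])
  rw [padicValRat_det_vmat p z hz m e, two_mul, h]
  refine Finset.sum_congr rfl fun s _ => Finset.sum_congr ?_ fun _ _ => rfl
  ext s'
  simp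

end free

end Crest.Agent.R006.VmatValx340
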