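import Crest.Agent.R006.P3_Const_673
import Crest.Agent.R006.Defs
import Crest.Agent.R006.VmatVal_340

/-! Row 6, block P3, leaf CONST (helper673), part 2: the asymptotics of the explicit constant
`V_S / (factorials)` of the bordered identity, for a general `Shape` with `c` extra rows:
leading coefficients of `u² log u` and `u²`, error `O(u (1 + log u))`. -/

set_option autoImplicit false

namespace Crest.Agent.R006.ConstX673

open Crest.Agent.R006.Potx943 Crest.Agent.R006.D

/-! ### scaling -/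

lemma F_scale {u : ℝ} (hu : 0 < u) (x : ℝ) :
    F (u * x) = u ^ 2 * F x + x ^ 2 / 2 * (u ^ 2 * Real.log u) := by
  rcases eq_or_ne x 0 with h | h
  · simp [h]
  · unfold F
    rw [Real.log_mul hu.ne' h]
    ring

lemma Fpair_scale {u : ℝ} (hu : 0 < u) (D m m' : ℝ) :
    Fpair (u * D) (u * m) (u * m') = u ^ 2 * Fpair D m m' + m * m' * (u ^ 2 * Real.log u) := by
  unfold Fpair
  rw [show u * D + u * m = u * (D + m) by ring, show u * (D + m) - u * m' = u * (D + m - m') by
    ring, show u * D - u * m' = u * (D - m') by ring, F_scale hu, F_scale hu, F_scale hu,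
    F_scale hu]
  ring

/-- the error function `u (1 + log u)` -/
noncomputable def ef (u : ℕ) : ℝ := (u : ℝ) * (1 + Real.log u)

lemma ef_ge {u : ℕ} (hu : 1 ≤ u) : (u : ℝ) ≤ ef u := by
  have h1 : (1 : ℝ) ≤ u := by exact_mod_cast hu
  have h2 : 0 ≤ Real.log (u : ℝ) := Real.log_nonneg h1
  unfold ef
  nlinarith

lemma one_le_ef {u : ℕ} (hu : 1 ≤ u) : (1 : ℝ) ≤ ef u := by
  have h1 : (1 : ℝ) ≤ u := by exact_mod_cast hu
  exact h1.trans (ef_ge hu)

/-- `O(u (1+log u))`, as a predicate on sequences -/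
def Sm (f : ℕ → ℝ) : Prop := ∃ C : ℝ, ∀ u : ℕ, 1 ≤ u → |f u| ≤ C * ef u

lemma Sm.add {f g : ℕ → ℝ} (hf : Sm f) (hg : Sm g) : Sm fun u => f u + g u := by
  obtain ⟨C, h⟩ := hf
  obtain ⟨C', h'⟩ := hg
  refine ⟨C + C', fun u hu => (abs_add_le _ _).trans ?_⟩
  have := h u hu
  have := h' u hu
  rw [add_mul]
  linarith

lemma Sm.neg {f : ℕ → ℝ} (hf : Sm f) : Sm fun u => -f u := by
  obtain ⟨C, h⟩ := hf
  exact ⟨C, fun u hu => by rw [abs_neg]; exact h u hu⟩

lemma Sm.sub {f g : ℕ → ℝ} (hf : Sm f) (hg : Sm g) : Sm fun u => f u - g u := by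
  have := hf.add hg.neg
  simpa [sub_eq_add_neg] using this

lemma Sm.const_mul {f : ℕ → ℝ} (a : ℝ) (hf : Sm f) : Sm fun u => a * f u := by
  obtain ⟨C, h⟩ := hf
  refine ⟨|a| * C, fun u hu => ?_⟩
  rw [abs_mul, mul_assoc]
  exact mul_le_mul_of_nonneg_left (h u hu) (abs_nonneg a)

lemma Sm.of_abs_le {f : ℕ → ℝ} (C : ℝ) (h : ∀ u : ℕ, 1 ≤ u → |f u| ≤ C * ef u) : Sm f := ⟨C, h⟩

lemma Sm.of_abs_le_u {f : ℕ → ℝ} (C : ℝ) (hC : 0 ≤ C) (h : ∀ u : ℕ, 1 ≤ u → |f u| ≤ C * u) :
    Sm f :=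
  ⟨C, fun u hu => (h u hu).trans (mul_le_mul_of_nonneg_left (ef_ge hu) hC)⟩

lemma Sm.sum {ι : Type*} (s : Finset ι) {f : ι → ℕ → ℝ} (hf : ∀ i ∈ s, Sm (f i)) :
    Sm fun u => ∑ i ∈ s, f i u := by
  classical
  induction s using Finset.induction_on with
  | empty => exact ⟨0, fun u _ => by simp⟩
  | insert a s ha ih =>
    have h1 := (hf a (Finset.mem_insert_self a s)).add
      (ih fun i hi => hf i (Finset.mem_insert_of_mem hi))
    refine (show (fun u => ∑ i ∈ insert a s, f i u) = fun u => f a u + ∑ i ∈ s, f i u from ?_) ▸ h1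
    funext u
    rw [Finset.sum_insert ha]

lemma Sm.congr {f g : ℕ → ℝ} (hf : Sm f) (h : ∀ u : ℕ, 1 ≤ u → f u = g u) : Sm g := by
  obtain ⟨C, hC⟩ := hf
  exact ⟨C, fun u hu => by rw [← h u hu]; exact hC u hu⟩

/-- shifting the argument of `F` by a bounded amount -/
lemma Sm_F_shift (x ε : ℝ) : Sm fun u => F (u * x + ε) - F (u * x) := by
  set A : ℝ := |x| + |ε| + 1 with hA
  have hA1 : 1 ≤ A := by have := abs_nonneg x; have := abs_nonneg ε; linarith
  have hlA : 0 ≤ Real.log A := Real.log_nonneg hA1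
  refine ⟨(1 + A + A * (1 + Real.log A)) * |ε|, fun u hu => ?_⟩
  have h1 : (1 : ℝ) ≤ u := by exact_mod_cast hu
  have hlu : 0 ≤ Real.log (u : ℝ) := Real.log_nonneg h1
  have hM : 1 ≤ A * u := by nlinarith
  have b1 : |(u : ℝ) * x| ≤ A * u := by
    rw [abs_mul, abs_of_nonneg (by linarith : (0 : ℝ) ≤ u), mul_comm]
    apply mul_le_mul_of_nonneg_right _ (by linarith)
    have := abs_nonneg ε; linarith
  have b2 : |(u : ℝ) * x + ε| ≤ A * u := by
    refine (abs_add_le _ _).trans ?_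
    rw [abs_mul, abs_of_nonneg (by linarith : (0 : ℝ) ≤ u)]
    have : |ε| ≤ |ε| * u := by nlinarith [abs_nonneg ε]
    rw [hA]; nlinarith [abs_nonneg x]
  have h2 := abs_F_sub_le hM b1 b2
  refine h2.trans ?_
  rw [show (u : ℝ) * x + ε - u * x = ε by ring, Real.log_mul (by linarith) (by linarith)]
  have h3 : (1 + A * u + A * u * (Real.log A + Real.log u))
      ≤ (1 + A + A * (1 + Real.log A)) * ef u := by
    have h4 := ef_ge hu
    have h5 := one_le_ef hu
    have h6 : (u : ℝ) * Real.log u ≤ ef u := by unfold ef; nlinarith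
    have h7 : A * u ≤ A * ef u := mul_le_mul_of_nonneg_left h4 (by linarith)
    have h8 : A * u * Real.log A ≤ A * Real.log A * ef u := by
      have : A * Real.log A * u ≤ A * Real.log A * ef u :=
        mul_le_mul_of_nonneg_left h4 (by positivity)
      linarith
    have h9 : A * (u * Real.log u) ≤ A * ef u := mul_le_mul_of_nonneg_left h6 (by linarith)
    nlinarith
  calc (1 + A * u + A * u * (Real.log A + Real.log u)) * |ε|
      ≤ ((1 + A + A * (1 + Real.log A)) * ef u) * |ε| :=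
        mul_le_mul_of_nonneg_right h3 (abs_nonneg ε)
    _ = _ := by ring

/-- `F` at a point `u x + ε` -/
lemma Sm_F (x ε : ℝ) :
    Sm fun u => F (u * x + ε) - (x ^ 2 / 2 * ((u : ℝ) ^ 2 * Real.log u) + (u : ℝ) ^ 2 * F x) := by
  refine (Sm_F_shift x ε).congr fun u hu => ?_
  have h1 : (0 : ℝ) < u := by exact_mod_cast hu
  rw [F_scale h1]
  ring

lemma Sm_Fpair (D m m' δ μ μ' : ℝ) :
    Sm fun u => Fpair (u * D + δ) (u * m + μ) (u * m' + μ')
      - (m * m' * ((u : ℝ) ^ 2 * Real.log u) + (u : ℝ) ^ 2 * Fpair D m m') := by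
  have h1 := Sm_F (D + m) (δ + μ)
  have h2 := Sm_F D δ
  have h3 := Sm_F (D + m - m') (δ + μ - μ')
  have h4 := Sm_F (D - m') (δ - μ')
  refine (((h1.sub h2).sub h3).add h4).congr fun u _ => ?_
  simp only [Fpair]
  rw [show (u : ℝ) * D + δ + (u * m + μ) = u * (D + m) + (δ + μ) by ring,
    show (u : ℝ) * (D + m) + (δ + μ) - (u * m' + μ') = u * (D + m - m') + (δ + μ - μ') by ring,
    show (u : ℝ) * D + δ - (u * m' + μ') = u * (D - m') + (δ - μ') by ring]
  ring

/-- the double sum over two windows -/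
lemma Sm_pair (D m m' δ μ μ' : ℝ) (M M' : ℕ → ℕ) (hM : ∀ u, ((M u : ℕ) : ℝ) = u * m + μ)
    (hM' : ∀ u, ((M' u : ℕ) : ℝ) = u * m' + μ')
    (h : ∀ u : ℕ, ∀ k : ℤ, u * D + δ + k = 0 ∨ 1 / 2 ≤ |u * D + δ + (k : ℝ)|) :
    Sm fun u => ∑ i ∈ Finset.range (M u), ∑ j ∈ Finset.range (M' u), Real.log (u * D + δ + i - j)
      - (m * m' * ((u : ℝ) ^ 2 * Real.log u) + (u : ℝ) ^ 2 * Fpair D m m') := by
  have h1 : Sm fun u => ∑ i ∈ Finset.range (M u), ∑ j ∈ Finset.range (M' u),
      Real.log (u * D + δ + i - j) - Fpair (u * D + δ) (u * m + μ) (u * m' + μ') := by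
    refine ⟨5500 * (|m| + |μ|), fun u hu => ?_⟩
    have h2 := abs_pair_sub_le (u * D + δ) (M u) (M' u) (by
      intro i _ j _
      have := h u ((i : ℤ) - j)
      push_cast at this
      have e : (u : ℝ) * D + δ + ((i : ℝ) - j) = u * D + δ + i - j := by ring
      rwa [e] at this)
    rw [hM, hM'] at h2
    refine h2.trans ?_
    have h3 : (u : ℝ) * m + μ ≤ (|m| + |μ|) * u := by
      have h4 : (1 : ℝ) ≤ u := by exact_mod_cast hu
      nlinarith [le_abs_self m, le_abs_self μ, abs_nonneg μ, abs_nonneg m]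
    have h5 := ef_ge hu
    have h6 : (|m| + |μ|) * u ≤ (|m| + |μ|) * ef u :=
      mul_le_mul_of_nonneg_left h5 (by positivity)
    nlinarith
  refine (h1.add (Sm_Fpair D m m' δ μ μ')).congr fun u _ => ?_
  ring

/-! ### the windows of a shape -/

/-- start of the window (per unit) -/
def wst (S : Shape) : Fin 8 → ℤ
  | 0 => 0
  | 1 => -(S.e1 : ℤ)
  | 2 => -(S.e2 : ℤ)
  | 3 => -(S.e3 : ℤ)
  | 4 => 0
  | 5 => 0
  | 6 => 0
  | 7 => -(S.w : ℤ)

/-- length of the window (per unit) -/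
def wlen (S : Shape) : Fin 8 → ℕ
  | 0 => S.B
  | 1 => S.e1
  | 2 => S.e2
  | 3 => S.e3
  | 4 => S.h1
  | 5 => S.h2
  | 6 => S.h3
  | 7 => S.w

/-- extra length -/
def wex (c : ℕ) : Fin 8 → ℕ
  | 0 => c
  | _ => 0

/-- is the window a window of half-integers? -/
def whalf : Fin 8 → Bool
  | 0 => false
  | 1 => false
  | 2 => false
  | 3 => false
  | _ => true

/-- offset -/
noncomputable def woff (i : Fin 8) : ℝ := if whalf i then 1 / 2 else 0

/-- the `t`-th site of a window -/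
def wsite (S : Shape) (u : ℕ) (i : Fin 8) (t : ℕ) : Site :=
  if whalf i then Site.H (wst S i * u + t) else Site.Z (wst S i * u + t)

lemma val_wsite (S : Shape) (u : ℕ) (i : Fin 8) (t : ℕ) :
    ((wsite S u i t).val : ℝ) = u * (wst S i : ℝ) + woff i + t := by
  unfold wsite woff
  split_ifs
  · simp only [Site.val]; push_cast; ring
  · simp only [Site.val]; push_cast; ring

/-- length of the window at scale `u` -/
def wL (S : Shape) (u c : ℕ) (i : Fin 8) : ℕ := wlen S i * u + wex c i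

/-- indicator of a window -/
def wind (S : Shape) (u c : ℕ) (i : Fin 8) (z : Site) : ℕ :=
  match whalf i, z with
  | false, Site.Z k => if wst S i * u ≤ k ∧ k < wst S i * u + wL S u c i then 1 else 0
  | true, Site.H k => if wst S i * u ≤ k ∧ k < wst S i * u + wL S u c i then 1 else 0
  | _, _ => 0

lemma wind_zero_or_one (S : Shape) (u c : ℕ) (i : Fin 8) (z : Site) :
    wind S u c i z = 0 ∨ wind S u c i z = 1 := by
  unfold wind
  split
  · split_ifs
    · exact Or.inr rfl
    · exact Or.inl rfl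
  · split_ifs
    · exact Or.inr rfl
    · exact Or.inl rfl
  · exact Or.inl rfl

lemma wsite_inj (S : Shape) (u : ℕ) (i : Fin 8) {t t' : ℕ} (h : wsite S u i t = wsite S u i t') :
    t = t' := by
  unfold wsite at h
  split_ifs at h
  · injection h with h; omega
  · injection h with h; omega

lemma wind_wsite (S : Shape) (u c : ℕ) (i : Fin 8) {t : ℕ} (ht : t < wL S u c i) :
    wind S u c i (wsite S u i t) = 1 := by
  unfold wind wsite
  rcases h : whalf i with _ | _
  · simp only [Bool.false_eq_true, if_false]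
    rw [if_pos ⟨by omega, by omega⟩]
  · simp only [if_true]
    rw [if_pos ⟨by omega, by omega⟩]

lemma exists_of_wind (S : Shape) (u c : ℕ) (i : Fin 8) {z : Site} (h : wind S u c i z = 1) :
    ∃ t < wL S u c i, wsite S u i t = z := by
  unfold wind at h
  rcases hh : whalf i with _ | _ <;> rcases z with k | k <;> simp only [hh] at h
  · split_ifs at h with h1
    refine ⟨(k - wst S i * u).toNat, by omega, ?_⟩
    unfold wsite
    rw [hh]
    simp only [Bool.false_eq_true, if_false]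
    congr 1
    omega
  · exact absurd h (by norm_num)
  · exact absurd h (by norm_num)
  · split_ifs at h with h1
    refine ⟨(k - wst S i * u).toNat, by omega, ?_⟩
    unfold wsite
    rw [hh]
    simp only [if_true]
    congr 1
    omega

lemma mult_eq (S : Shape) (u c : ℕ) (z : Site) : S.mult u c z = ∑ i, wind S u c i z := by
  rw [Fin.sum_univ_eight]
  rcases z with k | k
  · simp only [Shape.mult, wind, whalf, wst, wL, wlen, wex, add_zero, zero_mul, neg_mul,
      zero_add]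
    push_cast
    split_ifs <;> omega
  · simp only [Shape.mult, wind, whalf, wst, wL, wlen, wex, add_zero, zero_mul, neg_mul,
      zero_add]
    push_cast
    split_ifs <;> omega

section sums

variable {ι : Type*} [Fintype ι]

lemma sum_wind (S : Shape) (u c : ℕ) (σ : ι → Site) (hσ : Function.Injective σ) (i : Fin 8)
    (hcov : ∀ t < wL S u c i, wsite S u i t ∈ Set.range σ) (g : Site → ℝ) :
    ∑ s, (wind S u c i (σ s) : ℝ) * g (σ s)
      = ∑ t ∈ Finset.range (wL S u c i), g (wsite S u i t) := by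
  classical
  have h1 : ∑ s, (wind S u c i (σ s) : ℝ) * g (σ s)
      = ∑ s ∈ Finset.univ.filter (fun s => wind S u c i (σ s) = 1), g (σ s) := by
    rw [Finset.sum_filter]
    refine Finset.sum_congr rfl fun s _ => ?_
    rcases wind_zero_or_one S u c i (σ s) with h | h
    · rw [h]; simp
    · rw [h]; simp
  rw [h1]
  symm
  refine Finset.sum_bij (fun t ht => (hcov t (Finset.mem_range.mp ht)).choose) ?_ ?_ ?_ ?_
  · intro t ht
    rw [Finset.mem_filter]
    refine ⟨Finset.mem_univ _, ?_⟩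
    rw [(hcov t (Finset.mem_range.mp ht)).choose_spec]
    exact wind_wsite S u c i (Finset.mem_range.mp ht)
  · intro t ht t' ht' h
    have e1 := (hcov t (Finset.mem_range.mp ht)).choose_spec
    have e2 := (hcov t' (Finset.mem_range.mp ht')).choose_spec
    rw [h, e2] at e1
    exact (wsite_inj S u i e1).symm
  · intro s hs
    obtain ⟨t, ht, hz⟩ := exists_of_wind S u c i (Finset.mem_filter.mp hs).2
    refine ⟨t, Finset.mem_range.mpr ht, ?_⟩
    apply hσ
    rw [(hcov t ht).choose_spec, hz]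
  · intro t ht
    rw [(hcov t (Finset.mem_range.mp ht)).choose_spec]

lemma sum_mult (S : Shape) (u c : ℕ) (σ : ι → Site) (hσ : Function.Injective σ)
    (hcov : ∀ z, S.mult u c z ≠ 0 → z ∈ Set.range σ) (g : Site → ℝ) :
    ∑ s, (S.mult u c (σ s) : ℝ) * g (σ s)
      = ∑ i, ∑ t ∈ Finset.range (wL S u c i), g (wsite S u i t) := by
  have h1 : ∀ s : ι, (S.mult u c (σ s) : ℝ) * g (σ s)
      = ∑ i, (wind S u c i (σ s) : ℝ) * g (σ s) := by
    intro s
    rw [mult_eq, Nat.cast_sum, Finset.sum_mul]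
  simp_rw [h1]
  rw [Finset.sum_comm]
  refine Finset.sum_congr rfl fun i _ => ?_
  apply sum_wind S u c σ hσ i
  intro t ht
  apply hcov
  rw [mult_eq]
  have h2 := wind_wsite S u c i ht
  intro h0
  rw [Finset.sum_eq_zero_iff] at h0
  have := h0 i (Finset.mem_univ _)
  omega

/-- `log V_S` through the windows -/
noncomputable def logV (S : Shape) (u c : ℕ) : ℝ :=
  1 / 2 * ∑ i : Fin 8, ∑ j : Fin 8, ∑ t ∈ Finset.range (wL S u c i),
    ∑ t' ∈ Finset.range (wL S u c j),
      Real.log (((wsite S u i t).val : ℝ) - ((wsite S u j t').val : ℝ))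

theorem double_sum (S : Shape) (u c : ℕ) (σ : ι → Site) (hσ : Function.Injective σ)
    (hcov : ∀ z, S.mult u c z ≠ 0 → z ∈ Set.range σ) :
    ∑ s, ∑ s', (S.mult u c (σ s) : ℝ) * (S.mult u c (σ s') : ℝ) *
        Real.log (((σ s).val : ℝ) - ((σ s').val : ℝ)) = 2 * logV S u c := by
  have h1 : ∀ s : ι, ∑ s', (S.mult u c (σ s) : ℝ) * (S.mult u c (σ s') : ℝ) *
        Real.log (((σ s).val : ℝ) - ((σ s').val : ℝ))
      = (S.mult u c (σ s) : ℝ) * ∑ j, ∑ t' ∈ Finset.range (wL S u c j),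
          Real.log (((σ s).val : ℝ) - ((wsite S u j t').val : ℝ)) := by
    intro s
    rw [← sum_mult S u c σ hσ hcov (fun z => Real.log (((σ s).val : ℝ) - (z.val : ℝ))),
      Finset.mul_sum]
    refine Finset.sum_congr rfl fun s' _ => ?_
    ring
  simp_rw [h1]
  rw [sum_mult S u c σ hσ hcov (fun z => ∑ j, ∑ t' ∈ Finset.range (wL S u c j),
          Real.log ((z.val : ℝ) - ((wsite S u j t').val : ℝ)))]
  unfold logV
  rw [← mul_assoc, show (2 : ℝ) * (1 / 2) = 1 by norm_num, one_mul]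
  refine Finset.sum_congr rfl fun i _ => ?_
  rw [Finset.sum_comm]

/-- the logarithm of the norm of the confluent Vandermonde determinant of `Lam_89` -/
theorem log_norm_det_vmat [DecidableEq ι] (S : Shape) (u c : ℕ) (σ : ι → Site)
    (hσ : Function.Injective fun s => (σ s).val)
    (hcov : ∀ z, S.mult u c z ≠ 0 → z ∈ Set.range σ) {a q : ℕ}
    (e : Fin a ⊕ Fin q ≃ Lam.Row (fun s => S.mult u c (σ s))) :
    Real.log |(((Lam.vmat (fun s => (σ s).val) (fun s => S.mult u c (σ s)) ℚ e).det : ℚ) : ℝ)|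
      = logV S u c := by
  have hσ' : Function.Injective σ := fun a b h => hσ (congrArg Site.val h)
  have h1 := VmatValx340.two_log_norm_det_vmat (fun s => (σ s).val) hσ
    (fun s => S.mult u c (σ s)) e
  have h2 := double_sum S u c σ hσ' hcov
  have h3 : ∑ s, ∑ s' ∈ Finset.univ.erase s,
      ((S.mult u c (σ s) * S.mult u c (σ s') : ℕ) : ℝ) * Real.log ‖(σ s).val - (σ s').val‖
      = ∑ s, ∑ s', (S.mult u c (σ s) : ℝ) * (S.mult u c (σ s') : ℝ) *
        Real.log (((σ s).val : ℝ) - ((σ s').val : ℝ)) := by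
    refine Finset.sum_congr rfl fun s _ => ?_
    rw [← Finset.sum_erase (s := Finset.univ) (a := s)
      (f := fun s' => (S.mult u c (σ s) : ℝ) * (S.mult u c (σ s') : ℝ) *
        Real.log (((σ s).val : ℝ) - ((σ s').val : ℝ))) (by simp)]
    refine Finset.sum_congr rfl fun s' _ => ?_
    rw [Nat.cast_mul, ← Rat.norm_cast_real, Real.norm_eq_abs, Real.log_abs]
    push_cast
    rfl
  rw [h3, h2] at h1
  rw [← Real.norm_eq_abs, Rat.norm_cast_real]
  linarith

end sums

/-! ### asymptotics of `logV` -/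

/-- energy of the nodes of a shape -/
noncomputable def eV (S : Shape) : ℝ :=
  1 / 2 * ∑ i : Fin 8, ∑ j : Fin 8,
    Fpair ((wst S i : ℝ) - wst S j) (wlen S i) (wlen S j)

lemma sum_wlen (S : Shape) : ∑ i, (wlen S i : ℝ) = S.rows := by
  rw [Fin.sum_univ_eight]
  simp only [wlen, Shape.rows]
  push_cast
  ring

lemma half_int (i j : Fin 8) (S : Shape) (u : ℕ) (k : ℤ) :
    (u : ℝ) * ((wst S i : ℝ) - wst S j) + (woff i - woff j) + k = 0 ∨
      1 / 2 ≤ |(u : ℝ) * ((wst S i : ℝ) - wst S j) + (woff i - woff j) + (k : ℝ)| := by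
  have key : ∃ n : ℤ, (u : ℝ) * ((wst S i : ℝ) - wst S j) + (woff i - woff j) + k = (n : ℝ) / 2 := by
    have h : ∀ i : Fin 8, ∃ n : ℤ, woff i = (n : ℝ) / 2 := by
      intro i
      unfold woff
      split_ifs
      · exact ⟨1, by norm_num⟩
      · exact ⟨0, by norm_num⟩
    obtain ⟨n1, h1⟩ := h i
    obtain ⟨n2, h2⟩ := h j
    refine ⟨2 * (u * (wst S i - wst S j)) + (n1 - n2) + 2 * k, ?_⟩
    rw [h1, h2]
    push_cast
    ring
  obtain ⟨n, hn⟩ := key
  rw [hn]
  rcases eq_or_ne n 0 with h | h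
  · left; rw [h]; simp
  · right
    rw [abs_div, abs_of_pos (show (0 : ℝ) < 2 by norm_num)]
    have : (1 : ℝ) ≤ |(n : ℝ)| := by
      have := Int.one_le_abs h
      exact_mod_cast this
    linarith

/-- **asymptotics of `log V_S`** -/
theorem Sm_logV (S : Shape) (c : ℕ) :
    Sm fun u => logV S u c
      - ((S.rows : ℝ) ^ 2 / 2 * ((u : ℝ) ^ 2 * Real.log u) + (u : ℝ) ^ 2 * eV S) := by
  have h1 : ∀ i ∈ (Finset.univ : Finset (Fin 8)), ∀ j ∈ (Finset.univ : Finset (Fin 8)),
      Sm fun u => ∑ t ∈ Finset.range (wL S u c i), ∑ t' ∈ Finset.range (wL S u c j),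
        Real.log (((wsite S u i t).val : ℝ) - ((wsite S u j t').val : ℝ))
        - ((wlen S i : ℝ) * (wlen S j : ℝ) * ((u : ℝ) ^ 2 * Real.log u)
          + (u : ℝ) ^ 2 * Fpair ((wst S i : ℝ) - wst S j) (wlen S i) (wlen S j)) := by
    intro i _ j _
    have h := Sm_pair ((wst S i : ℝ) - wst S j) (wlen S i) (wlen S j) (woff i - woff j)
      (wex c i) (wex c j) (fun u => wL S u c i) (fun u => wL S u c j)
      (by intro u; simp only [wL]; push_cast; ring) (by intro u; simp only [wL]; push_cast; ring)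
      (fun u k => half_int i j S u k)
    refine h.congr fun u _ => ?_
    congr 1
    refine Finset.sum_congr rfl fun t _ => Finset.sum_congr rfl fun t' _ => ?_
    rw [val_wsite, val_wsite]
    congr 1
    ring
  have h2 := (Sm.sum Finset.univ fun i hi => Sm.sum Finset.univ fun j hj => h1 i hi j hj).const_mul
    (1 / 2)
  refine h2.congr fun u _ => ?_
  have h3 : ∑ i : Fin 8, ∑ j : Fin 8, ((wlen S i : ℝ) * (wlen S j : ℝ) * ((u : ℝ) ^ 2 * Real.log u)
          + (u : ℝ) ^ 2 * Fpair ((wst S i : ℝ) - wst S j) (wlen S i) (wlen S j))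
      = (S.rows : ℝ) ^ 2 * ((u : ℝ) ^ 2 * Real.log u) + (u : ℝ) ^ 2 * (2 * eV S) := by
    unfold eV
    simp_rw [Finset.sum_add_distrib]
    congr 1
    · rw [← sum_wlen, sq (∑ i, (wlen S i : ℝ)), Finset.sum_mul_sum, Finset.sum_mul]
      refine Finset.sum_congr rfl fun i _ => ?_
      rw [Finset.sum_mul]
    · simp_rw [← Finset.mul_sum]
      ring
  simp_rw [Finset.sum_sub_distrib]
  rw [h3]
  unfold logV
  ring

/-! ### factorials -/

lemma abs_lsf_sub_le (m : ℕ) : |lsf m - F m| ≤ m * Real.log m + m := by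
  have h1 := lsf_ge m
  have h2 := lsf_le m
  have h0 : (0 : ℝ) ≤ m := Nat.cast_nonneg m
  unfold F
  rw [abs_le]
  constructor <;> linarith

lemma Sm_lsf (n : ℕ) :
    Sm fun u => lsf (n * u) - ((n : ℝ) ^ 2 / 2 * ((u : ℝ) ^ 2 * Real.log u) + (u : ℝ) ^ 2 * F n) := by
  have h1 : Sm fun u => lsf (n * u) - F ((u : ℝ) * n) := by
    refine ⟨n * (1 + |Real.log n|), fun u hu => ?_⟩
    have hu1 : (1 : ℝ) ≤ u := by exact_mod_cast hu
    have hlu : 0 ≤ Real.log (u : ℝ) := Real.log_nonneg hu1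
    have h2 := abs_lsf_sub_le (n * u)
    push_cast at h2
    simp only []
    rw [mul_comm (u : ℝ) n]
    refine h2.trans ?_
    rcases Nat.eq_zero_or_pos n with h | h
    · subst h; simp
    have hn : (0 : ℝ) < n := by exact_mod_cast h
    rw [Real.log_mul hn.ne' (by linarith)]
    have h3 := le_abs_self (Real.log (n : ℝ))
    have h4 : (n : ℝ) * u * Real.log n ≤ n * |Real.log n| * ef u := by
      have h5 := ef_ge hu
      calc (n : ℝ) * u * Real.log n ≤ n * u * |Real.log n| :=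
            mul_le_mul_of_nonneg_left h3 (by positivity)
        _ = n * |Real.log n| * u := by ring
        _ ≤ _ := mul_le_mul_of_nonneg_left h5 (by positivity)
    have h6 : (n : ℝ) * u * Real.log u + n * u = n * ef u := by unfold ef; ring
    nlinarith
  refine h1.congr fun u hu => ?_
  have h1 : (0 : ℝ) < u := by exact_mod_cast hu
  rw [F_scale h1]
  ring

lemma Sm_lfac (n : ℕ) :
    Sm fun u => (u : ℝ) * Real.log ((n * u).factorial)
      - ((n : ℝ) * ((u : ℝ) ^ 2 * Real.log u) + (u : ℝ) ^ 2 * (n * Real.log n - n)) := by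
  refine ⟨|Real.log n| + 1, fun u hu => ?_⟩
  have hu1 : (1 : ℝ) ≤ u := by exact_mod_cast hu
  have hlu : 0 ≤ Real.log (u : ℝ) := Real.log_nonneg hu1
  rcases Nat.eq_zero_or_pos n with h | h
  · subst h
    have := one_le_ef hu
    have h9 := abs_nonneg (Real.log ((0 : ℕ) : ℝ))
    simp only [zero_mul, Nat.factorial_zero, Nat.cast_one, Real.log_one, mul_zero, Nat.cast_zero,
      sub_zero, add_zero, abs_zero]
    positivity
  have hn : (1 : ℝ) ≤ n := by exact_mod_cast h
  have hnu : 1 ≤ n * u := Nat.mul_pos h hu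
  have h2 := log_factorial_le hnu
  have h3 := log_factorial_ge (n * u)
  push_cast at h2 h3
  rw [Real.log_mul (by linarith) (by linarith)] at h2 h3
  have h4 : |Real.log ((n * u).factorial) - (n * u * (Real.log n + Real.log u) - n * u)|
      ≤ Real.log n + Real.log u + 1 := by
    have h5 : 0 ≤ Real.log (n : ℝ) := Real.log_nonneg hn
    rw [abs_le]
    constructor <;> linarith
  have e : (u : ℝ) * Real.log ((n * u).factorial)
      - ((n : ℝ) * ((u : ℝ) ^ 2 * Real.log u) + (u : ℝ) ^ 2 * (n * Real.log n - n))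
      = u * (Real.log ((n * u).factorial) - (n * u * (Real.log n + Real.log u) - n * u)) := by ring
  simp only []
  rw [e, abs_mul, abs_of_nonneg (by linarith : (0 : ℝ) ≤ u)]
  have h6 := le_abs_self (Real.log (n : ℝ))
  have h7 := ef_ge hu
  calc (u : ℝ) * _ ≤ u * (Real.log n + Real.log u + 1) :=
        mul_le_mul_of_nonneg_left h4 (by linarith)
    _ = u * Real.log n + ef u := by unfold ef; ring
    _ ≤ u * |Real.log n| + ef u := by
        have := mul_le_mul_of_nonneg_left h6 (by linarith : (0 : ℝ) ≤ u)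
        linarith
    _ ≤ ef u * |Real.log n| + ef u := by
        have := mul_le_mul_of_nonneg_right h7 (abs_nonneg (Real.log (n : ℝ)))
        linarith
    _ = _ := by ring

/-- the denominator of `κ` -/
noncomputable def kden (S : Shape) (u : ℕ) : ℝ :=
  (∏ l ∈ Finset.range (S.q * u), (l.factorial : ℝ)) *
    (∏ l ∈ Finset.range (S.k * u), ((S.a1 * u + l).factorial : ℝ)) *
    (((S.a2 * u).factorial : ℝ) * ((S.i1 * u).factorial : ℝ) * ((S.r1 * u).factorial : ℝ)) ^ (S.k * u)
    * (∏ l ∈ Finset.range (S.g * u), (l.factorial : ℝ))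

lemma kden_pos (S : Shape) (u : ℕ) : 0 < kden S u := by
  unfold kden
  have h : ∀ n : ℕ, (0 : ℝ) < n.factorial := fun n => by exact_mod_cast n.factorial_pos
  have h1 : ∀ (s : Finset ℕ) (f : ℕ → ℕ), (0 : ℝ) < ∏ l ∈ s, ((f l).factorial : ℝ) :=
    fun s f => Finset.prod_pos fun l _ => h _
  have := h1 (Finset.range (S.q * u)) id
  have := h1 (Finset.range (S.g * u)) id
  have := h1 (Finset.range (S.k * u)) (fun l => S.a1 * u + l)
  have := h (S.a2 * u)
  have := h (S.i1 * u)
  have := h (S.r1 * u)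
  simp only [id] at *
  positivity

lemma log_prod_factorial (m : ℕ) :
    Real.log (∏ l ∈ Finset.range m, (l.factorial : ℝ)) = lsf m := by
  unfold lsf
  rw [Real.log_prod]
  intro l _
  exact_mod_cast l.factorial_ne_zero

lemma sum_log_factorial_shift (a m : ℕ) :
    ∑ l ∈ Finset.range m, Real.log ((a + l).factorial) = lsf (a + m) - lsf a := by
  unfold lsf
  rw [Finset.sum_range_add]
  ring

lemma log_kden (S : Shape) (u : ℕ) :
    Real.log (kden S u) = lsf (S.q * u) + (lsf ((S.a1 + S.k) * u) - lsf (S.a1 * u))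
      + S.k * (u * Real.log ((S.a2 * u).factorial) + u * Real.log ((S.i1 * u).factorial)
        + u * Real.log ((S.r1 * u).factorial)) + lsf (S.g * u) := by
  have h : ∀ n : ℕ, (n.factorial : ℝ) ≠ 0 := fun n => by exact_mod_cast n.factorial_ne_zero
  have h1 : ∏ l ∈ Finset.range (S.q * u), (l.factorial : ℝ) ≠ 0 :=
    Finset.prod_ne_zero_iff.mpr fun l _ => h l
  have h2 : ∏ l ∈ Finset.range (S.g * u), (l.factorial : ℝ) ≠ 0 :=
    Finset.prod_ne_zero_iff.mpr fun l _ => h l
  have h3 : ∏ l ∈ Finset.range (S.k * u), ((S.a1 * u + l).factorial : ℝ) ≠ 0 :=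
    Finset.prod_ne_zero_iff.mpr fun l _ => h _
  have h4 : ((S.a2 * u).factorial : ℝ) * ((S.i1 * u).factorial : ℝ) * ((S.r1 * u).factorial : ℝ) ≠ 0 :=
    mul_ne_zero (mul_ne_zero (h _) (h _)) (h _)
  unfold kden
  rw [Real.log_mul (mul_ne_zero (mul_ne_zero h1 h3) (pow_ne_zero _ h4)) h2,
    Real.log_mul (mul_ne_zero h1 h3) (pow_ne_zero _ h4), Real.log_mul h1 h3, Real.log_pow,
    Real.log_mul (mul_ne_zero (h _) (h _)) (h _), Real.log_mul (h _) (h _), log_prod_factorial,
    log_prod_factorial, Real.log_prod (fun l _ => h _), sum_log_factorial_shift,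
    show S.a1 * u + S.k * u = (S.a1 + S.k) * u by ring]
  push_cast
  ring

/-- coefficient of `u² log u` of `log κ` -/
noncomputable def kapA (S : Shape) : ℝ :=
  ((S.rows : ℝ) ^ 2 - (S.q : ℝ) ^ 2 - (((S.a1 : ℝ) + S.k) ^ 2 - (S.a1 : ℝ) ^ 2)
    - 2 * S.k * ((S.a2 : ℝ) + S.i1 + S.r1) - (S.g : ℝ) ^ 2) / 2

/-- coefficient of `u²` of `log κ` -/
noncomputable def kapE (S : Shape) : ℝ :=
  eV S - (F S.q + (F ((S.a1 : ℝ) + S.k) - F S.a1)
    + S.k * (((S.a2 : ℝ) * Real.log S.a2 - S.a2) + ((S.i1 : ℝ) * Real.log S.i1 - S.i1)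
      + ((S.r1 : ℝ) * Real.log S.r1 - S.r1)) + F S.g)

/-- **asymptotics of `log κ`** -/
theorem Sm_logkappa (S : Shape) (c : ℕ) :
    Sm fun u => (logV S u c - Real.log (kden S u))
      - (kapA S * ((u : ℝ) ^ 2 * Real.log u) + (u : ℝ) ^ 2 * kapE S) := by
  have hV := Sm_logV S c
  have h1 := Sm_lsf S.q
  have h2 := Sm_lsf (S.a1 + S.k)
  have h3 := Sm_lsf S.a1
  have h4 := ((Sm_lfac S.a2).add (Sm_lfac S.i1)).add (Sm_lfac S.r1)
  have h5 := Sm_lsf S.g
  refine (hV.sub (((h1.add (h2.sub h3)).add (h4.const_mul S.k)).add h5)).congr fun u _ => ?_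
  rw [log_kden]
  unfold kapA kapE
  push_cast
  ring

/-- `ef u` is small against `u²` -/
lemma ef_le {δ : ℝ} (hδ : 0 < δ) : ∀ᶠ u : ℕ in Filter.atTop, ef u ≤ δ * (u : ℝ) ^ 2 := by
  have h1 : (fun u : ℝ => 1 + Real.log u) =o[Filter.atTop] fun u : ℝ => u := by
    apply Asymptotics.IsLittleO.add
    · exact Asymptotics.isLittleO_const_left.mpr (Or.inr tendsto_norm_atTop_atTop)
    · exact Real.isLittleO_log_id_atTop
  have h2 := (h1.bound hδ)
  have h3 := tendsto_natCast_atTop_atTop (R := ℝ) |>.eventually h2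
  filter_upwards [h3, Filter.eventually_ge_atTop 1] with u hu hu1
  have h4 : (1 : ℝ) ≤ u := by exact_mod_cast hu1
  rw [Real.norm_eq_abs, Real.norm_eq_abs, abs_of_nonneg (by linarith : (0 : ℝ) ≤ u)] at hu
  have h5 := (le_abs_self _).trans hu
  unfold ef
  nlinarith

/-- a small sequence is eventually below `δ u²` -/
lemma Sm.eventually {f : ℕ → ℝ} (hf : Sm f) {δ : ℝ} (hδ : 0 < δ) :
    ∀ᶠ u : ℕ in Filter.atTop, |f u| ≤ δ * (u : ℝ) ^ 2 := by
  obtain ⟨C, hC⟩ := hf
  have h1 := ef_le (δ := δ / (|C| + 1)) (by positivity)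
  filter_upwards [h1, Filter.eventually_ge_atTop 1] with u hu hu1
  have h2 := hC u hu1
  have h3 : C * ef u ≤ (|C| + 1) * ef u := by
    apply mul_le_mul_of_nonneg_right _ (le_trans zero_le_one (one_le_ef hu1))
    linarith [le_abs_self C]
  have h4 : (|C| + 1) * ef u ≤ δ * (u : ℝ) ^ 2 := by
    have := mul_le_mul_of_nonneg_left hu (show 0 ≤ |C| + 1 by positivity)
    have e : (|C| + 1) * (δ / (|C| + 1) * (u : ℝ) ^ 2) = δ * (u : ℝ) ^ 2 := by field_simp
    linarith
  linarith

end Crest.Agent.R006.ConstX673
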