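import Crest.Agent.R006.P3_Const2_673
import Crest.Agent.R006.Bord_929

/-! Row 6, block P3, leaf CONST (helper673), part 3: link with `VV` of `Bord_929`. -/

set_option autoImplicit false

namespace Crest.Agent.R006.ConstX673

open Crest.Agent.R006.Potx943 Crest.Agent.R006.D

/-- `log |V_S|` for the Vandermonde of `Bord_929` -/
theorem log_VV (S : Shape) (u c : ℕ) (hS : S.Good) :
    Real.log |((Bordx929.VV S u c hS : ℚ) : ℝ)| = logV S u c := by
  have h := log_norm_det_vmat (ι := Bordx929.SI S u c) S u c (fun s => s.1)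
    (Bordx929.zz_injective u c)
    (fun z hz => ⟨⟨z, Bordx929.mem_sites u c hS hz⟩, rfl⟩) (Bordx929.ER S u c hS)
  exact h

/-- **upper bound for `κ = |V_S| / kden`**: `κ ≤ exp (kapA u² log u + (kapE + δ) u²)` eventually -/
theorem kappa_le (S : Shape) (c : ℕ) (hS : S.Good) {δ : ℝ} (hδ : 0 < δ) :
    ∀ᶠ u : ℕ in Filter.atTop, |((Bordx929.VV S u c hS : ℚ) : ℝ)| / kden S u
      ≤ Real.exp (kapA S * ((u : ℝ) ^ 2 * Real.log u) + (kapE S + δ) * (u : ℝ) ^ 2) := by
  filter_upwards [(Sm_logkappa S c).eventually hδ] with u hu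
  have hV : 0 < |((Bordx929.VV S u c hS : ℚ) : ℝ)| := by
    rw [abs_pos]
    exact_mod_cast Bordx929.VV_ne_zero u c hS
  have hk := kden_pos S u
  rw [← Real.log_le_iff_le_exp (div_pos hV hk), Real.log_div hV.ne' hk.ne', log_VV]
  have h1 := (abs_le.mp hu).2
  nlinarith

end Crest.Agent.R006.ConstX673
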