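import Crest.Agent.R006.P3_Const3_673
import Crest.Agent.R006.BordM_89

/-! Row 6, block P3, leaf CONST (helper673), part 4: link with `kap` and `VV` of `BordM_89`. -/

set_option autoImplicit false

namespace Crest.Agent.R006.ConstX673

open Crest.Agent.R006.Potx943 Crest.Agent.R006.D

/-- `kap S u = 1 / kden S u` -/
theorem kap_eq (S : Shape) (u : ℕ) : ((Bord.kap S u : ℚ) : ℝ) = (kden S u)⁻¹ := by
  unfold Bord.kap Bord.vR kden
  push_cast
  rw [Fin.prod_univ_eq_prod_range (fun l => ((((S.a2 * u).factorial : ℝ)⁻¹ *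
      ((S.i1 * u).factorial : ℝ)⁻¹ * ((S.r1 * u).factorial : ℝ)⁻¹) *
      ((S.a1 * u + l).factorial : ℝ)⁻¹)) (S.k * u),
    Fin.prod_univ_eq_prod_range (fun l => ((l.factorial : ℝ)⁻¹)) (S.q * u),
    Fin.prod_univ_eq_prod_range (fun l => ((l.factorial : ℝ)⁻¹)) (S.g * u),
    Finset.prod_mul_distrib, Finset.prod_const, Finset.card_range]
  simp only [Finset.prod_inv_distrib, mul_inv, mul_pow, inv_pow]
  ring

/-- `log |V_S|` for the Vandermonde of `BordM_89` -/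
theorem log_VV_bord (S : Shape) (u c : ℕ) (e : Col S u ⊕ Fin c ≃ Bord.Rw S u c) :
    Real.log |((Bord.VV S u c e : ℚ) : ℝ)| = logV S u c :=
  log_norm_det_vmat (ι := Bord.St S u c) S u c (fun s => s.1)
    (Bord.zz_injective S u c)
    (fun z hz => ⟨⟨z, Bord.mem_sites_of_mult S u c hz⟩, rfl⟩) ((Bord.sig S u c).trans e)

theorem VV_bord_ne_zero (S : Shape) (u c : ℕ) (e : Col S u ⊕ Fin c ≃ Bord.Rw S u c) :
    Bord.VV S u c e ≠ 0 :=
  Lam.det_vmat_ne_zero (Bord.mm S u c) (Bord.zz_injective S u c) _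

/-- **upper bound for the prefactor of `minor_eq`** -/
theorem kap_VV_le (S : Shape) (c : ℕ) {δ : ℝ} (hδ : 0 < δ) :
    ∀ᶠ u : ℕ in Filter.atTop, ∀ e : Col S u ⊕ Fin c ≃ Bord.Rw S u c,
      |((Bord.kap S u * Bord.VV S u c e : ℚ) : ℝ)|
        ≤ Real.exp (kapA S * ((u : ℝ) ^ 2 * Real.log u) + (kapE S + δ) * (u : ℝ) ^ 2) := by
  filter_upwards [(Sm_logkappa S c).eventually hδ] with u hu e
  have hV : 0 < |((Bord.VV S u c e : ℚ) : ℝ)| := by
    rw [abs_pos]
    exact_mod_cast VV_bord_ne_zero S u c e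
  have hk := kden_pos S u
  rw [Rat.cast_mul, kap_eq, abs_mul, abs_of_pos (inv_pos.mpr hk),
    ← Real.log_le_iff_le_exp (mul_pos (inv_pos.mpr hk) hV),
    Real.log_mul (inv_pos.mpr hk).ne' hV.ne', Real.log_inv, log_VV_bord]
  have h1 := (abs_le.mp hu).2
  nlinarith

end Crest.Agent.R006.ConstX673
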