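import Crest.Agent.R006.P3_Pot3_943

/-! Row 6, block P3, leaf CONST (helper673), part 1: double sums of logarithms over two windows of
equally spaced real points (same lattice or shifted by one half) in closed form, error `O(length)`.
`F x = x²/2 log|x| - 3/4 x²` is the second primitive of `log |x|`. -/

set_option autoImplicit false

namespace Crest.Agent.R006.ConstX673

open Crest.Agent.R006.Potx943 MeasureTheory

/-- second primitive of `log |x|` -/
noncomputable def F (x : ℝ) : ℝ := x ^ 2 / 2 * Real.log x - 3 / 4 * x ^ 2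

@[simp] lemma F_zero : F 0 = 0 := by simp [F]

@[simp] lemma F_neg (x : ℝ) : F (-x) = F x := by
  simp [F, Real.log_neg_eq_log]

lemma F_eq_G2r (x : ℝ) : F x = G2r x - x ^ 2 / 2 := by
  unfold F G2r; ring

lemma F_sub (α β : ℝ) : F β - F α = ∫ x in α..β, (x * Real.log x - x) := by
  rw [intervalIntegral.integral_sub (Real.continuous_mul_log.intervalIntegrable _ _)
    ((show Continuous fun x : ℝ => x from continuous_id).intervalIntegrable _ _),
    integral_mul_log, integral_id, F_eq_G2r, F_eq_G2r]
  ring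

lemma hasDerivAt_F {x : ℝ} (h : x ≠ 0) : HasDerivAt F (x * Real.log x - x) x := by
  have h1 := hasDerivAt_G2r h
  have h2 : HasDerivAt (fun w : ℝ => w ^ 2 / 2) x x := by
    have := (hasDerivAt_pow 2 x).div_const 2
    simpa using this
  have h3 := h1.sub h2
  have e : F = fun w => G2r w - w ^ 2 / 2 := funext F_eq_G2r
  rw [e]
  exact h3

lemma abs_mul_log_le {x M : ℝ} (hM : 1 ≤ M) (hx : |x| ≤ M) :
    |x * Real.log x| ≤ 1 + M * Real.log M := by
  have hl : 0 ≤ Real.log M := Real.log_nonneg hM
  rw [abs_mul, ← Real.log_abs x]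
  rcases eq_or_lt_of_le (abs_nonneg x) with h | h
  · rw [← h]; simp; positivity
  rcases le_or_gt |x| 1 with h1 | h1
  · have h2 := Real.abs_log_mul_self_lt |x| h h1
    rw [abs_mul, abs_abs, mul_comm] at h2
    have : 0 ≤ M * Real.log M := by positivity
    linarith
  · have h2 : 0 ≤ Real.log |x| := Real.log_nonneg h1.le
    have h3 : Real.log |x| ≤ Real.log M := Real.log_le_log h hx
    rw [abs_of_nonneg h2]
    have : |x| * Real.log |x| ≤ M * Real.log M := by
      apply mul_le_mul hx h3 h2; linarith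
    linarith

/-- size of the increments of `F` -/
lemma abs_F_sub_le {α β M : ℝ} (hM : 1 ≤ M) (hα : |α| ≤ M) (hβ : |β| ≤ M) :
    |F β - F α| ≤ (1 + M + M * Real.log M) * |β - α| := by
  rw [F_sub]
  have := intervalIntegral.norm_integral_le_of_norm_le_const (a := α) (b := β)
    (f := fun x : ℝ => x * Real.log x - x) (C := 1 + M + M * Real.log M) ?_
  · simpa [Real.norm_eq_abs] using this
  intro x hx
  have hxM : |x| ≤ M := by
    rw [Set.uIoc, Set.mem_Ioc] at hx
    rw [abs_le] at hα hβ ⊢
    constructor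
    · have := le_min hα.1 hβ.1
      linarith [hx.1]
    · have := max_le hα.2 hβ.2
      linarith [hx.2]
  rw [Real.norm_eq_abs]
  have h1 := abs_mul_log_le hM hxM
  have h2 := abs_sub (x * Real.log x) x
  linarith

lemma log_three_le : Real.log 3 ≤ 2 := by
  have := Real.log_le_sub_one_of_pos (show (0 : ℝ) < 3 by norm_num)
  linarith

lemma abs_F_le {x : ℝ} (hx : |x| ≤ 3) : |F x| ≤ 30 := by
  have h := abs_F_sub_le (α := 0) (β := x) (M := 3) (by norm_num) (by simp) hx
  rw [F_zero, sub_zero, sub_zero] at h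
  have h3 := log_three_le
  have h4 : 0 ≤ Real.log 3 := Real.log_nonneg (by norm_num)
  nlinarith [abs_nonneg x]

/-- second difference of `F` for large arguments -/
lemma c2_large {x : ℝ} (hx : 2 ≤ x) :
    |F (x + 1) - 2 * F x + F (x - 1) - Real.log x| ≤ 2 / x ^ 2 := by
  set φ : ℝ → ℝ := fun h => F (x + h) + F (x - h) - h ^ 2 * Real.log x with hφ
  set ψ : ℝ → ℝ := fun h => ((x + h) * Real.log (x + h) - (x + h))
    - ((x - h) * Real.log (x - h) - (x - h)) - 2 * h * Real.log x with hψ
  have hx0 : 0 < x := by linarith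
  have hd1 : ∀ h ∈ Set.Icc (0 : ℝ) 1, HasDerivAt φ (ψ h) h := by
    intro h hh
    have h1 : x + h ≠ 0 := by linarith [hh.1]
    have h2 : x - h ≠ 0 := by linarith [hh.2]
    have e1 := (hasDerivAt_F h1).comp h ((hasDerivAt_id h).const_add x)
    have e2 := (hasDerivAt_F h2).comp h ((hasDerivAt_id h).const_sub x)
    have e3 := (hasDerivAt_pow 2 h).mul_const (Real.log x)
    have e4 := (e1.add e2).sub e3
    refine e4.congr_deriv ?_
    simp only [hψ]
    push_cast
    ring
  have hd2 : ∀ h ∈ Set.Icc (0 : ℝ) 1,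
      HasDerivAt ψ (Real.log (x + h) + Real.log (x - h) - 2 * Real.log x) h := by
    intro h hh
    have h1 : x + h ≠ 0 := by linarith [hh.1]
    have h2 : x - h ≠ 0 := by linarith [hh.2]
    have k1 : HasDerivAt (fun y : ℝ => y * Real.log y - y) (Real.log (x + h)) (x + h) := by
      have := ((hasDerivAt_id (x + h)).mul (Real.hasDerivAt_log h1)).sub (hasDerivAt_id (x + h))
      refine this.congr_deriv ?_
      simp only [id]
      field_simp
      ring
    have k2 : HasDerivAt (fun y : ℝ => y * Real.log y - y) (Real.log (x - h)) (x - h) := by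
      have := ((hasDerivAt_id (x - h)).mul (Real.hasDerivAt_log h2)).sub (hasDerivAt_id (x - h))
      refine this.congr_deriv ?_
      simp only [id]
      field_simp
      ring
    have e1 := k1.comp h ((hasDerivAt_id h).const_add x)
    have e2 := k2.comp h ((hasDerivAt_id h).const_sub x)
    have e3 := ((hasDerivAt_id h).const_mul 2).mul_const (Real.log x)
    have e4 := (e1.sub e2).sub e3
    refine e4.congr_deriv ?_
    ring
  have hb : ∀ h ∈ Set.Icc (0 : ℝ) 1,
      ‖Real.log (x + h) + Real.log (x - h) - 2 * Real.log x‖ ≤ 2 / x ^ 2 := by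
    intro h hh
    have h1 : 0 < x + h := by linarith [hh.1]
    have h2 : 0 < x - h := by linarith [hh.2]
    have e : Real.log (x + h) + Real.log (x - h) - 2 * Real.log x
        = Real.log (1 - h ^ 2 / x ^ 2) := by
      rw [← Real.log_mul h1.ne' h2.ne', show (2 : ℝ) * Real.log x = Real.log (x ^ 2) by
        rw [Real.log_pow]; norm_num, ← Real.log_div (by positivity) (by positivity)]
      congr 1
      field_simp
      ring
    set y : ℝ := h ^ 2 / x ^ 2 with hy
    have hy0 : 0 ≤ y := by positivity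
    have hy1 : y ≤ 1 / x ^ 2 := by
      rw [hy]
      apply div_le_div_of_nonneg_right _ (by positivity)
      nlinarith [hh.1, hh.2]
    have hx2 : 1 / x ^ 2 ≤ 1 / 4 := by
      apply one_div_le_one_div_of_le (by norm_num)
      nlinarith
    have h3 := Real.log_le_sub_one_of_pos (show 0 < 1 - y by linarith)
    have h4 := Real.one_sub_inv_le_log_of_pos (show 0 < 1 - y by linarith)
    have h5 : -(2 * y) ≤ 1 - (1 - y)⁻¹ := by
      have : (1 - y)⁻¹ ≤ 1 + 2 * y := by
        rw [inv_le_comm₀ (by linarith) (by linarith)]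
        rw [inv_le_iff_one_le_mul₀ (by linarith)]
        nlinarith
      linarith
    rw [e, Real.norm_eq_abs, abs_le]
    have h6 : 2 / x ^ 2 = 2 * (1 / x ^ 2) := by ring
    constructor
    · rw [h6]; linarith
    · rw [h6]; linarith
  have hψ0 : ψ 0 = 0 := by simp [hψ]
  have hφ0 : φ 0 = 2 * F x := by simp [hφ]; ring
  have hψb : ∀ h ∈ Set.Icc (0 : ℝ) 1, ‖ψ h‖ ≤ 2 / x ^ 2 := by
    intro h hh
    have := (convex_Icc (0 : ℝ) 1).norm_image_sub_le_of_norm_hasDerivWithin_le
      (fun t ht => (hd2 t ht).hasDerivWithinAt) hb (Set.left_mem_Icc.mpr zero_le_one) hh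
    rw [hψ0, sub_zero, sub_zero] at this
    refine this.trans ?_
    rw [Real.norm_eq_abs, abs_of_nonneg hh.1]
    have h7 : 0 ≤ 2 / x ^ 2 := by positivity
    nlinarith [hh.2]
  have hfin := (convex_Icc (0 : ℝ) 1).norm_image_sub_le_of_norm_hasDerivWithin_le
    (fun t ht => (hd1 t ht).hasDerivWithinAt) hψb (Set.left_mem_Icc.mpr zero_le_one)
    (Set.right_mem_Icc.mpr zero_le_one)
  rw [hφ0] at hfin
  have e : φ 1 - 2 * F x = F (x + 1) - 2 * F x + F (x - 1) - Real.log x := by
    simp only [hφ]; ring
  rw [e, Real.norm_eq_abs] at hfin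
  simpa using hfin

/-- second difference of `F` at the points of a half-integer lattice -/
lemma c2_le {x : ℝ} (hx : x = 0 ∨ 1 / 2 ≤ |x|) :
    |F (x + 1) - 2 * F x + F (x - 1) - Real.log x| ≤ 500 * (1 / (max 1 |x|) ^ 2) := by
  -- reduce to `0 ≤ x`
  wlog h0 : 0 ≤ x generalizing x with H
  · have h1 := H (x := -x) (by simpa using hx) (by linarith)
    have e1 : F (-x + 1) = F (x - 1) := by rw [← F_neg (x - 1)]; congr 1; ring
    have e2 : F (-x - 1) = F (x + 1) := by rw [← F_neg (x + 1)]; congr 1; ring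
    rw [e1, e2, F_neg, Real.log_neg_eq_log, abs_neg] at h1
    have e3 : F (x - 1) - 2 * F x + F (x + 1) - Real.log x
        = F (x + 1) - 2 * F x + F (x - 1) - Real.log x := by ring
    rwa [e3] at h1
  rw [abs_of_nonneg h0] at hx ⊢
  rcases le_or_gt 2 x with h | h
  · rw [max_eq_right (by linarith)]
    have h1 := c2_large h
    have h2 : 2 / x ^ 2 ≤ 500 * (1 / x ^ 2) := by
      rw [mul_one_div]
      apply div_le_div_of_nonneg_right _ (by positivity)
      norm_num
    linarith
  · have hm : (max 1 x) ^ 2 ≤ 4 := by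
      have : max 1 x ≤ 2 := max_le (by norm_num) h.le
      have h3 : 0 ≤ max 1 x := le_trans zero_le_one (le_max_left _ _)
      nlinarith
    have hm0 : 0 < (max 1 x) ^ 2 := by
      have : 0 < max 1 x := lt_of_lt_of_le one_pos (le_max_left _ _)
      positivity
    have h4 : 125 ≤ 500 * (1 / (max 1 x) ^ 2) := by
      rw [mul_one_div, le_div_iff₀ hm0]
      linarith
    have h5 : |Real.log x| ≤ 1 := by
      rcases hx with rfl | hx
      · simp
      · rw [abs_le]
        have h6 := Real.one_sub_inv_le_log_of_pos (show 0 < x by linarith)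
        have h7 := Real.log_le_sub_one_of_pos (show 0 < x by linarith)
        have h8 : x⁻¹ ≤ 2 := by
          rw [inv_le_comm₀ (by linarith) (by norm_num)]
          linarith
        constructor <;> linarith
    have a1 := abs_F_le (x := x + 1) (by rw [abs_le]; constructor <;> linarith)
    have a2 := abs_F_le (x := x) (by rw [abs_le]; constructor <;> linarith)
    have a3 := abs_F_le (x := x - 1) (by rw [abs_le]; constructor <;> linarith)
    rw [abs_le] at a1 a2 a3 h5 ⊢
    constructor <;> linarith [a1.1, a1.2, a2.1, a2.2, a3.1, a3.2, h5.1, h5.2]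

/-- energy of the pair `[D, D+m)`, `[0, m')` -/
noncomputable def Fpair (D m m' : ℝ) : ℝ := F (D + m) - F D - F (D + m - m') + F (D - m')

lemma sum_c2_inner (D : ℝ) (m' : ℕ) :
    ∑ j ∈ Finset.range m', (F (D - j + 1) - 2 * F (D - j) + F (D - j - 1))
      = (F (D + 1) - F D) - (F (D - m' + 1) - F (D - m')) := by
  induction m' with
  | zero => simp
  | succ n ih =>
    rw [Finset.sum_range_succ, ih]
    push_cast
    have e1 : D - (n + 1 : ℝ) + 1 = D - n := by ring
    have e2 : D - (n + 1 : ℝ) = D - n - 1 := by ring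
    rw [e1, e2]
    ring

lemma sum_c2 (D : ℝ) (m m' : ℕ) :
    ∑ i ∈ Finset.range m, ∑ j ∈ Finset.range m',
      (F (D + i - j + 1) - 2 * F (D + i - j) + F (D + i - j - 1)) = Fpair D m m' := by
  have h1 : ∀ i ∈ Finset.range m, ∑ j ∈ Finset.range m',
      (F (D + i - j + 1) - 2 * F (D + i - j) + F (D + i - j - 1))
        = (F (D + i + 1) - F (D - m' + i + 1)) - (F (D + i) - F (D - m' + i)) := by
    intro i _
    rw [sum_c2_inner (D + i) m']
    have e1 : D + (i : ℝ) - m' = D - m' + i := by ring
    rw [e1]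
    ring
  rw [Finset.sum_congr rfl h1]
  have h2 := Finset.sum_range_sub (fun i : ℕ => F (D + i) - F (D - m' + i)) m
  have h3 : ∀ i ∈ Finset.range m,
      (F (D + i + 1) - F (D - m' + i + 1)) - (F (D + i) - F (D - m' + i))
        = (fun i : ℕ => F (D + i) - F (D - m' + i)) (i + 1)
          - (fun i : ℕ => F (D + i) - F (D - m' + i)) i := by
    intro i _
    simp only
    push_cast
    rw [show D + ((i : ℝ) + 1) = D + i + 1 by ring, show D - m' + ((i : ℝ) + 1) = D - m' + i + 1 by
      ring]
  rw [Finset.sum_congr rfl h3, h2]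
  simp only [Nat.cast_zero, add_zero, Fpair]
  rw [show D - (m' : ℝ) + m = D + m - m' by ring]
  ring

/-- **double sum of logarithms over two windows**, error `O(m)` -/
theorem abs_pair_sub_le (D : ℝ) (m m' : ℕ)
    (h : ∀ i < m, ∀ j < m', D + i - j = 0 ∨ 1 / 2 ≤ |D + i - j|) :
    |∑ i ∈ Finset.range m, ∑ j ∈ Finset.range m', Real.log (D + i - j) - Fpair D m m'|
      ≤ 5500 * m := by
  rw [← sum_c2 D m m', ← Finset.sum_sub_distrib]
  have h1 : ∀ i ∈ Finset.range m, |∑ j ∈ Finset.range m', Real.log (D + i - j)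
      - ∑ j ∈ Finset.range m', (F (D + i - j + 1) - 2 * F (D + i - j) + F (D + i - j - 1))|
      ≤ 5500 := by
    intro i hi
    rw [← Finset.sum_sub_distrib]
    refine (Finset.abs_sum_le_sum_abs _ _).trans ?_
    have h2 : ∀ j ∈ Finset.range m', |Real.log (D + i - j)
        - (F (D + i - j + 1) - 2 * F (D + i - j) + F (D + i - j - 1))|
        ≤ 500 * (1 / (max 1 |(D + i + 1 / 2) - ((j : ℝ) + 1 / 2)|) ^ 2) := by
      intro j hj
      have := c2_le (h i (Finset.mem_range.mp hi) j (Finset.mem_range.mp hj))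
      rw [abs_sub_comm] at this
      have e : (D + i + 1 / 2) - ((j : ℝ) + 1 / 2) = D + i - j := by ring
      rw [e]
      exact this
    refine (Finset.sum_le_sum h2).trans ?_
    rw [← Finset.mul_sum]
    have h3 := sum_inv_sq_le (D + i + 1 / 2) m'
    linarith
  refine (Finset.abs_sum_le_sum_abs _ _).trans ?_
  refine (Finset.sum_le_sum h1).trans ?_
  rw [Finset.sum_const, Finset.card_range, nsmul_eq_mul]
  linarith

end Crest.Agent.R006.ConstX673
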