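import Crest.Agent.R006.Bord_89
import Crest.Agent.R006.PsiJ4_576
import Crest.Agent.R006.G1Base_186

/-!
# Row 6, block P3: shared definitions of the spine (helper257)

Plain two-species bound.  Everything over `ℂ`.

* `zc, om` : positions of the sites, node polynomial `ω_S`;
* `lamR P f`, `lamQ P f` : the functional `∑ residues of P F / ω_S` for the columns `f` (R-type) and
  `f` (Q-type) at `X = G`;
* `JR = J vv` (helper576), `JQ = J1` (helper186), `ray2 κ Φ` = integral over the two rays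
  `-κ + t (-1 ± i)`;
* `gau` : the monic gauge (`R = gau * f`);
(The continuous side, `PhiR`, `PhiQ`, `Cert`, is in `P3_Defs_390`.)
-/

set_option autoImplicit false

open Complex MeasureTheory Set

namespace Crest.Agent.R006.P3

open Crest.Agent.R006.D Crest.Agent.R006.NV Crest.Agent.R006.PsiInf Crest.Agent.R006.Bord

section functional

variable (S : Shape) (u c : ℕ)

/-- position of a site, over `ℂ` -/
noncomputable def zc (z : St S u c) : ℂ := ((zz S u c z : ℚ) : ℂ)

/-- node polynomial `ω_S` over `ℂ` -/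
noncomputable def om : Polynomial ℂ := Lam.NS (zc S u c) (mm S u c)

/-- germ of `ψ` at a site, `X = G` -/
noncomputable def psiC (z : Site) : PowerSeries ℂ :=
  PowerSeries.map (algebraMap ℚ ℂ) (psi0 z) -
    PowerSeries.C (GG : ℂ) * PowerSeries.map (algebraMap ℚ ℂ) (psi1 z)

/-- polynomial part of `f ψ_∞` -/
noncomputable def tauC : Polynomial ℂ →ₗ[ℂ] Polynomial ℂ := TR (fun j => ((mu j : ℚ) : ℂ))

/-- germs of `f ψ - τ(f)` -/
noncomputable def FR (f : Polynomial ℂ) (z : St S u c) : PowerSeries ℂ :=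
  gm (zc S u c z) f * psiC z.1 - gm (zc S u c z) (tauC f)

/-- germs of `f g` -/
noncomputable def FQ (f : Polynomial ℂ) (z : St S u c) : PowerSeries ℂ :=
  gm (zc S u c z) f * PowerSeries.map (algebraMap ℚ ℂ) (gam z.1)

/-- `∑ Res (f ψ - τ(f)) P / ω_S` -/
noncomputable def lamR (P f : Polynomial ℂ) : ℂ := Lam.lam (zc S u c) (mm S u c) P (FR S u c f)

/-- `∑ Res f g P / ω_S` -/
noncomputable def lamQ (P f : Polynomial ℂ) : ℂ := Lam.lam (zc S u c) (mm S u c) P (FQ S u c f)

end functional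

/-- the jump function of `ψ` (helper576) -/
noncomputable def JR : ℂ → ℂ := PsiJ.J PsiJ.vv

/-- the jump function of `g` (helper186) -/
noncomputable def JQ : ℂ → ℂ := G1x186.J1

/-- `h²/π`: the germ of `g` at the half integers (helper186) -/
noncomputable def gL : ℂ → ℂ := G1x186.g1L

/-- integral over the two rays `-κ + t (-1 ± i)` -/
noncomputable def ray2 (κ : ℝ) (Φ : ℂ → ℂ) : ℂ :=
  (-1 + I) * (∫ t in Ioi (0 : ℝ), Φ (-(κ : ℂ) + t * (-1 + I))) -
    (-1 - I) * (∫ t in Ioi (0 : ℝ), Φ (-(κ : ℂ) + t * (-1 - I)))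

/-- the monic gauge: zeros `[0,a1 u)`, `[0,a2 u)`, `-1/2-m` (`m < i1 u`), `-m` (`1 ≤ m ≤ r1 u`) -/
noncomputable def gau (S : Shape) (u : ℕ) : Polynomial ℂ :=
  (∏ n ∈ Finset.range (S.a1 * u), (Polynomial.X - Polynomial.C (n : ℂ))) *
  (∏ n ∈ Finset.range (S.a2 * u), (Polynomial.X - Polynomial.C (n : ℂ))) *
  (∏ n ∈ Finset.range (S.i1 * u), (Polynomial.X - Polynomial.C (-(1 / 2) - (n : ℂ)))) *
  (∏ n ∈ Finset.range (S.r1 * u), (Polynomial.X - Polynomial.C (-1 - (n : ℂ))))

/-! ### simple reference points -/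

section ref
variable {ι : Type*} [Fintype ι] [DecidableEq ι]

/-- Lagrange basis `ω_W / (X - W i)` -/
noncomputable def ell (W : ι → ℂ) (i : ι) : Polynomial ℂ :=
  ∏ j ∈ Finset.univ.erase i, (Polynomial.X - Polynomial.C (W j))

/-- `|V(W)|²`, independent of an order of the points -/
noncomputable def disc (W : ι → ℂ) : ℝ := ∏ i, ∏ j ∈ Finset.univ.erase i, ‖W i - W j‖

end ref

end Crest.Agent.R006.P3
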