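import Crest.Agent.R006.Defs
import Crest.Agent.R006.P3_PotV_943
import Crest.Agent.R006.P3_Const2_673

/-!
# Row 6, block P3: the continuous side, definitions (helper390)

For a general `Shape` (apply it to `K • S` for `u = K v`). Scaled variable `z = s / u`.

* `UN S`  : potential of the nodes of `N_S` (8 windows of 673), mass `S.rows`;
* `Urho S`: potential of the zeros of the monic gauge `ρ` (windows `a1, a2, i1, r1`);
* `PhiR`, `PhiQ` : the two weight functions (`W` test points, `Z` points of the `R`-columns,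
  `Y` points of the `Q`-columns);
* `Steps` : step functions that bound the slot costs;
* `Cert` : the data of the certificate together with its inequalities; `Cert.alpha`.
-/

set_option autoImplicit false

namespace Crest.Agent.R006.P3

open Crest.Agent.R006.D Crest.Agent.R006.Potx943 Crest.Agent.R006.ConstX673

/-- potential of the nodes -/
noncomputable def UN (S : Shape) (z : ℂ) : ℝ :=
  ∑ i : Fin 8, Iseg (wst S i : ℤ) 1 (wlen S i) z

/-- potential of the zeros of the monic gauge polynomial -/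
noncomputable def Urho (S : Shape) (z : ℂ) : ℝ :=
  Iseg 0 1 S.a1 z + Iseg 0 1 S.a2 z + Iseg (-(S.i1 : ℂ)) 1 S.i1 z + Iseg (-(S.r1 : ℂ)) 1 S.r1 z

/-- mass of the gauge -/
def mrho (S : Shape) : ℕ := S.a1 + S.a2 + S.i1 + S.r1

/-- weight of the `R`-columns -/
noncomputable def PhiR (S : Shape) {rW rZ : ℕ} (W : Fin rW → Fam) (Z : Fin rZ → Fam) (z : ℂ) : ℝ :=
  U W z + U Z z + Urho S z - UN S z + z.re * Real.log 8 - Real.pi * |z.im|

/-- weight of the `Q`-columns -/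
noncomputable def PhiQ (S : Shape) {rW rY : ℕ} (W : Fin rW → Fam) (Y : Fin rY → Fam) (z : ℂ) : ℝ :=
  U W z + U Y z - UN S z - 2 * Real.pi * |z.im|

/-! ### step functions -/

/-- `L` is a list of `(a, b, η)`: consecutive intervals from `lo` to `hi`, `η ≥ 0`,
`G ≤ η` on `[a,b]` -/
def Steps (G : ℝ → ℝ) : ℝ → ℝ → List (ℝ × ℝ × ℝ) → Prop
  | lo, hi, [] => lo = hi
  | lo, hi, (a, b, η) :: L =>
      a = lo ∧ a ≤ b ∧ 0 ≤ η ∧ (∀ x ∈ Set.Icc a b, G x ≤ η) ∧ Steps G b hi L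

/-- cost of a step function -/
def cost (L : List (ℝ × ℝ × ℝ)) : ℝ := (L.map fun x => (x.2.1 - x.1) * x.2.2).sum

/-! ### the certificate -/

/-- reference configurations: all multiplicities one, nonzero steps, separated, right masses -/
structure Ref {r : ℕ} (F : Fin r → Fam) (m : ℕ) : Prop where
  mu : ∀ f, (F f).mu = 1
  d : ∀ f, (F f).d ≠ 0
  sep : ∃ ρ : ℝ, 0 < ρ ∧ Sep F ρ
  mass : mass F = m

/-- the certificate -/
structure Cert (S : Shape) where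
  rW : ℕ
  rZ : ℕ
  rY : ℕ
  W : Fin rW → Fam
  Z : Fin rZ → Fam
  Y : Fin rY → Fam
  /-- slopes of the two contours: directions `-c ± i` -/
  cR : ℝ
  cQ : ℝ
  lR : ℝ
  lQ : ℝ
  /-- slot costs: sites `-x`, `x ∈ [0,w]` (three slots each) -/
  Lw : List (ℝ × ℝ × ℝ)
  /-- stars: windows `[0,h_i]` -/
  Lh : Fin 3 → List (ℝ × ℝ × ℝ)
  /-- nodes `-x`, `x ∈ [w, e_i]` -/
  Le : Fin 3 → List (ℝ × ℝ × ℝ)
  refW : Ref W (S.k + S.g)
  refZ : Ref Z S.k
  refY : Ref Y S.g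
  cR_pos : 0 < cR
  cR_le : cR ^ 2 ≤ 3
  cQ_pos : 0 < cQ
  cQ_le : cQ ^ 2 ≤ 3
  /-- sup on the rays from the apex `-w` -/
  hR : ∀ T : ℝ, 0 ≤ T → ∀ v : ℂ, v = -cR + Complex.I ∨ v = -cR - Complex.I →
    PhiR S W Z (-(S.w : ℂ) + T * v) ≤ lR
  hQ : ∀ T : ℝ, 0 ≤ T → ∀ v : ℂ, v = -cQ + Complex.I ∨ v = -cQ - Complex.I →
    PhiQ S W Y (-(S.w : ℂ) + T * v) ≤ lQ
  hw : Steps (fun x => max (PhiR S W Z (-(x : ℂ)) - lR) (PhiQ S W Y (-(x : ℂ)) - lQ)) 0 S.w Lw
  hh : ∀ i, Steps (fun x => max (PhiR S W Z (x : ℂ) - lR) (PhiQ S W Y (x : ℂ) - lQ)) 0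
    (![S.h1, S.h2, S.h3] i : ℕ) (Lh i)
  he : ∀ i, Steps (fun x => max (PhiR S W Z (-(x : ℂ)) - lR) (PhiQ S W Y (-(x : ℂ)) - lQ)) S.w
    (max S.w (![S.e1, S.e2, S.e3] i) : ℕ) (Le i)

/-- the exponent -/
noncomputable def Cert.alpha {S : Shape} (C : Cert S) : ℝ :=
  kapE S - (En C.W + En C.Z + En C.Y) / 2 + S.k * C.lR + S.g * C.lQ
    + (3 * cost C.Lw + ∑ i, cost (C.Lh i) + ∑ i, cost (C.Le i))

end Crest.Agent.R006.P3
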