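import Crest.Agent.R006.RayNorm_516
import Crest.Agent.R006.P3_Defs_257

/-!
Row 6 (Catalan), block P3 (helper516).  The tail theorems and the norm bounds in the notation of
257's spine (`JR`, `JQ`, `ray2`).

`hasSum_R`, `hasSum_Q`: the sum over ALL site circles equals the circles `l < X0`, minus the integer
circles `-m`, `X0 < m ≤ M`, plus `ray2 (X0 + 1/4)`.
-/

set_option autoImplicit false

open Complex MeasureTheory Set Filter Topology Polynomial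
open scoped Real

noncomputable section

namespace Crest.Agent.R006.Tail516

open Crest.Agent.R006.P3

lemma rays_eq_ray2 (k0 : ℕ) (Φ : ℂ → ℂ) : rays k0 1 Φ = ray2 ((k0 : ℝ) + 1 / 4) Φ := by
  unfold rays ray2
  simp only [ofReal_one]

/-- **tail, `R`-side**: all site circles -/
theorem hasSum_R {P N : ℂ[X]} (hN : N ≠ 0) (hr : HalfRoots N) (X0 M : ℕ)
    (hM : ∀ m : ℕ, M < m → N.eval (-(m : ℂ)) ≠ 0) :
    HasSum (fun l : ℕ => ∮ z in C(PsiJ.ce l, 1 / 4), JR z * (P.eval z / N.eval z))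
      (∑ l ∈ Finset.range X0, (∮ z in C(PsiJ.ce l, 1 / 4), JR z * (P.eval z / N.eval z)) -
        ∑ m ∈ Finset.Ioc X0 M, (∮ z in C(-(m : ℂ), 1 / 4), JR z * (P.eval z / N.eval z)) +
        ray2 ((X0 : ℝ) + 1 / 4) (fun z => JR z * (P.eval z / N.eval z))) := by
  have h := tail_psi_sites PsiJ.vv (P := P) hN hr X0 M hM (c := 1) one_pos (by norm_num)
  rw [rays_eq_ray2] at h
  have h2 := (hasSum_nat_add_iff (f := fun l : ℕ => ∮ z in C(PsiJ.ce l, 1 / 4),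
    PsiJ.J PsiJ.vv z * (P.eval z / N.eval z)) X0).1 (by
      simpa only [add_comm X0] using h)
  have e : ∀ a b c : ℂ, a - b + c = c - b + a := fun a b c => by ring
  rw [e]
  exact h2

/-- **tail, `Q`-side**: all site circles -/
theorem hasSum_Q {P N : ℂ[X]} (hN : N ≠ 0) (hr : HalfRoots N) (hd : P.natDegree < N.natDegree)
    (X0 M : ℕ) (hM : ∀ m : ℕ, M < m → N.eval (-(m : ℂ)) ≠ 0) :
    HasSum (fun l : ℕ => ∮ z in C(PsiJ.ce l, 1 / 4), JQ z * (P.eval z / N.eval z))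
      (∑ l ∈ Finset.range X0, (∮ z in C(PsiJ.ce l, 1 / 4), JQ z * (P.eval z / N.eval z)) -
        ∑ m ∈ Finset.Ioc X0 M, (∮ z in C(-(m : ℂ), 1 / 4), JQ z * (P.eval z / N.eval z)) +
        ray2 ((X0 : ℝ) + 1 / 4) (fun z => JQ z * (P.eval z / N.eval z))) := by
  have h := tail_g_sites (P := P) hN hr hd X0 M hM (c := 1) one_pos (by norm_num)
  rw [rays_eq_ray2] at h
  have h2 := (hasSum_nat_add_iff (f := fun l : ℕ => ∮ z in C(PsiJ.ce l, 1 / 4),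
    G1x186.J1 z * (P.eval z / N.eval z)) X0).1 (by
      simpa only [add_comm X0] using h)
  have e : ∀ a b c : ℂ, a - b + c = c - b + a := fun a b c => by ring
  rw [e]
  exact h2

/-- norm of `ray2` -/
theorem norm_ray2_le {X0 : ℕ} {M : ℝ} {Φ : ℂ → ℂ}
    (h1 : ∀ t : ℝ, 0 < t → ‖Φ (-(((X0 : ℝ) + 1 / 4 : ℝ) : ℂ) + t * (-1 + I))‖ ≤ M / (1 + t) ^ 2)
    (h2 : ∀ t : ℝ, 0 < t → ‖Φ (-(((X0 : ℝ) + 1 / 4 : ℝ) : ℂ) + t * (-1 - I))‖ ≤ M / (1 + t) ^ 2) :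
    ‖ray2 ((X0 : ℝ) + 1 / 4) Φ‖ ≤ 4 * M := by
  rw [← rays_eq_ray2]
  have := norm_rays_le (k0 := X0) (c := 1) (M := M) (Φ := Φ) one_pos
    (fun t ht => by simpa using h1 t ht) (fun t ht => by simpa using h2 t ht)
  linarith

/-- norm of `ray2` from a pointwise exponent inequality -/
theorem norm_ray2_exp {X0 : ℕ} {A l T1 u : ℝ} {D : ℕ} {G1 G2 : ℝ → ℝ} (hA : 0 ≤ A)
    (hu : 1 ≤ u) (hT1 : 0 ≤ T1)
    (hG1 : ∀ T, 0 ≤ T → G1 T ≤ l) (hG1' : ∀ T, T1 ≤ T → G1 T ≤ l - (T - T1))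
    (hG2 : ∀ T, 0 ≤ T → G2 T ≤ l) (hG2' : ∀ T, T1 ≤ T → G2 T ≤ l - (T - T1)) {Φ : ℂ → ℂ}
    (h1 : ∀ t : ℝ, 0 < t → ‖Φ (-(((X0 : ℝ) + 1 / 4 : ℝ) : ℂ) + t * (-1 + I))‖ ≤
      A * (1 + t) ^ D * Real.exp (u * G1 (t / u)))
    (h2 : ∀ t : ℝ, 0 < t → ‖Φ (-(((X0 : ℝ) + 1 / 4 : ℝ) : ℂ) + t * (-1 - I))‖ ≤
      A * (1 + t) ^ D * Real.exp (u * G2 (t / u))) :
    ‖ray2 ((X0 : ℝ) + 1 / 4) Φ‖ ≤ 4 * (A * (rayC D T1 * (1 + u) ^ (D + 2) * Real.exp (u * l))) := by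
  rw [← rays_eq_ray2]
  have := norm_rays_exp (k0 := X0) (c := 1) (Φ := Φ) one_pos hA hu hT1 hG1 hG1' hG2 hG2'
    (fun t ht => by simpa using h1 t ht) (fun t ht => by simpa using h2 t ht)
  linarith

end Crest.Agent.R006.Tail516
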