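import Crest.Agent.R006.P3_Disc_390
import Crest.Agent.R006.P3_Bridge_257
import Crest.Agent.R006.P3_Slot_283
import Crest.Agent.R006.Ray2_516

/-!
# Row 6, block P3: the discrete inequality at fixed `u` (helper257)

`fixed_bound_of`: from the contour representations `RepR`, `RepQ` (circles around the slots and two
rays) and the local form of the integrands at the slots (`HolR`, `HolQ`), the sup bounds give the
bound of the minor.
-/

set_option autoImplicit false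

open Complex

namespace Crest.Agent.R006.P3

open Polynomial Metric Crest.Agent.R006.D Crest.Agent.R006.NV Crest.Agent.R006.PsiInf
open Crest.Agent.R006.Bord Crest.Agent.R006.Border410 Crest.Agent.R006.P3Slot

/-- sign of a slot in the contour representation -/
def eps (S : Shape) (u : ℕ) : Slot S u → ℂ
  | .inl _ => 1
  | .inr (.inl _) => 1
  | .inr (.inr _) => -1

lemma norm_eps (S : Shape) (u : ℕ) (k : Slot S u) : ‖eps S u k‖ = 1 := by
  rcases k with l | (l | j) <;> simp [eps]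

/-- weight of the `Q`-columns at a slot -/
noncomputable def JW (S : Shape) (u : ℕ) : Slot S u → ℂ → ℂ
  | .inl _ => fun s => JQ s - 2 * gL s
  | .inr (.inl _) => fun s => JQ s - 2 * gL s
  | .inr (.inr _) => JQ

/-- contour representation of the `R`-functional -/
def RepR (S : Shape) (u c : ℕ) : Prop :=
  ∀ P f : ℂ[X], P.natDegree < S.rows * u + c →
    BR S u c P f = -(∑ k : Slot S u, eps S u k * ci (ctr S u k : ℂ) (1 / 4) (fun s =>
        P.eval s * (JR s * ((rhoC S u * f).eval s / (om S u c).eval s))) +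
      (2 * Real.pi * I)⁻¹ * ray2 ((S.w * u : ℕ) + 1 / 4) (fun s =>
        JR s * ((rhoC S u * f).eval s * P.eval s / (om S u c).eval s)))

/-- contour representation of the `Q`-functional -/
def RepQ (S : Shape) (u c : ℕ) : Prop :=
  ∀ P f : ℂ[X], P.natDegree + f.natDegree + 2 ≤ S.rows * u + c →
    BQ S u c P f = -(∑ k : Slot S u, eps S u k * ci (ctr S u k : ℂ) (1 / 4) (fun s =>
        P.eval s * (JW S u k s * (f.eval s / (om S u c).eval s))) +
      (2 * Real.pi * I)⁻¹ * ray2 ((S.w * u : ℕ) + 1 / 4) (fun s =>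
        JQ s * (f.eval s * P.eval s / (om S u c).eval s)))

/-- local form of the `R`-integrand at the slots -/
def HolR (S : Shape) (u c : ℕ) : Prop :=
  ∀ (k : Slot S u) (f : ℂ[X]), ∃ H : ℂ → ℂ,
    DifferentiableOn ℂ H (closedBall (ctr S u k : ℂ) (1 / 4)) ∧
    ∀ s ∈ sphere (ctr S u k : ℂ) (1 / 4), JR s * ((rhoC S u * f).eval s / (om S u c).eval s) =
      H s * ((s - (ctr S u k : ℂ)) ^ (ord S u k))⁻¹

/-- local form of the `Q`-integrand at the slots -/
def HolQ (S : Shape) (u c : ℕ) : Prop :=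
  ∀ (k : Slot S u) (f : ℂ[X]), ∃ H : ℂ → ℂ,
    DifferentiableOn ℂ H (closedBall (ctr S u k : ℂ) (1 / 4)) ∧
    ∀ s ∈ sphere (ctr S u k : ℂ) (1 / 4), JW S u k s * (f.eval s / (om S u c).eval s) =
      H s * ((s - (ctr S u k : ℂ)) ^ (ord S u k))⁻¹

/-- slots with their order -/
abbrev SL (S : Shape) (u : ℕ) : Type := Σ k : Slot S u, Fin (ord S u k)

/-- one circle in the slot form, with bounds of the coefficients -/
lemma circle_slots {y : ℂ} {m : ℕ} {G H : ℂ → ℂ} (hH : DifferentiableOn ℂ H (closedBall y (1 / 4)))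
    (hG : ∀ s ∈ sphere y (1 / 4), G s = H s * ((s - y) ^ m)⁻¹) :
    (∀ P : ℂ[X], ci y (1 / 4) (fun s => P.eval s * G s) =
      ∑ α : Fin m, tc y P α * cf y (1 / 4) H (m - 1 - α)) ∧
    ∀ M : ℝ, (∀ s ∈ sphere y (1 / 4), ‖G s‖ ≤ M) → ∀ α : Fin m,
      ‖cf y (1 / 4) H (m - 1 - α)‖ ≤ M * (1 / 4) ^ (1 + (α : ℕ)) := by
  have hr : (0 : ℝ) < 1 / 4 := by norm_num
  constructor
  · intro P
    rw [Fin.sum_univ_eq_sum_range (fun α => tc y P α * cf y (1 / 4) H (m - 1 - α)) m,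
      ← slot_form hr hH P m]
    refine ci_congr hr.le fun s hs => ?_
    simp only [hG s hs]
  · intro M hM α
    have h1 : ∀ s ∈ sphere y (1 / 4), ‖H s‖ ≤ M * (1 / 4) ^ m := by
      intro s hs
      have h2 := hM s hs
      have h3 : ‖s - y‖ = 1 / 4 := by rwa [mem_sphere, dist_eq_norm] at hs
      rw [hG s hs, norm_mul, norm_inv, norm_pow, h3] at h2
      have h4 : (0 : ℝ) < (1 / 4) ^ m := by positivity
      rwa [← div_eq_mul_inv, div_le_iff₀ h4] at h2
    refine (norm_cf_le hr h1 (m - 1 - α)).trans (le_of_eq ?_)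
    have h8 : (1 / 4 : ℝ) ^ m = (1 / 4) ^ (m - 1 - (α : ℕ)) * (1 / 4) ^ (1 + (α : ℕ)) := by
      rw [← pow_add]
      congr 1
      have := α.2
      omega
    have h7 : ((1 / 4 : ℝ) ^ (m - 1 - (α : ℕ))) ≠ 0 := by positivity
    rw [h8]
    field_simp

/-- a functional of the form `-(∑ ε (circle) + (2πi)⁻¹ rays)` is `∑ slots` up to the rays -/
lemma rep_slots {S : Shape} {u : ℕ} {G : Slot S u → ℂ → ℂ} {H : Slot S u → ℂ → ℂ}
    (hH : ∀ k, DifferentiableOn ℂ (H k) (closedBall (ctr S u k : ℂ) (1 / 4)))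
    (hG : ∀ k, ∀ s ∈ sphere (ctr S u k : ℂ) (1 / 4),
      G k s = H k s * ((s - (ctr S u k : ℂ)) ^ (ord S u k))⁻¹)
    (P : ℂ[X]) (A R : ℂ)
    (hA : A = -(∑ k : Slot S u, eps S u k * ci (ctr S u k : ℂ) (1 / 4) (fun s => P.eval s * G k s) +
      (2 * Real.pi * I)⁻¹ * R)) :
    A - ∑ s : SL S u, tc (ctr S u s.1 : ℂ) P s.2 *
      (-(eps S u s.1) * cf (ctr S u s.1 : ℂ) (1 / 4) (H s.1) (ord S u s.1 - 1 - s.2)) =
      -((2 * Real.pi * I)⁻¹ * R) := by
  rw [hA, Fintype.sum_sigma]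
  have h1 : ∀ k : Slot S u, eps S u k * ci (ctr S u k : ℂ) (1 / 4) (fun s => P.eval s * G k s) =
      -∑ α : Fin (ord S u k), tc (ctr S u k : ℂ) P α *
        (-(eps S u k) * cf (ctr S u k : ℂ) (1 / 4) (H k) (ord S u k - 1 - α)) := by
    intro k
    rw [(circle_slots (hH k) (hG k)).1 P, Finset.mul_sum, ← Finset.sum_neg_distrib]
    refine Finset.sum_congr rfl fun α _ => ?_
    ring
  simp only [h1, Finset.sum_neg_distrib]
  ring

lemma norm_rays_part {X0 : ℕ} {M : ℝ} {Φ : ℂ → ℂ}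
    (h1 : ∀ t : ℝ, 0 < t → ‖Φ (-(((X0 : ℝ) + 1 / 4 : ℝ) : ℂ) + t * (-1 + I))‖ ≤ M / (1 + t) ^ 2)
    (h2 : ∀ t : ℝ, 0 < t → ‖Φ (-(((X0 : ℝ) + 1 / 4 : ℝ) : ℂ) + t * (-1 - I))‖ ≤ M / (1 + t) ^ 2) :
    ‖-((2 * Real.pi * I : ℂ)⁻¹ * ray2 ((X0 : ℝ) + 1 / 4) Φ)‖ ≤ M := by
  rw [norm_neg, norm_mul, norm_two_pi_I_inv]
  have h3 := Tail516.norm_ray2_le h1 h2
  have h4 : (2 * Real.pi)⁻¹ ≤ 1 / 4 := by
    rw [inv_le_comm₀ (by positivity) (by norm_num)]
    have := Real.pi_gt_three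
    norm_num
    linarith
  calc (2 * Real.pi)⁻¹ * ‖ray2 ((X0 : ℝ) + 1 / 4) Φ‖ ≤ 1 / 4 * (4 * M) := by gcongr
    _ = M := by ring

/-- **the discrete inequality at fixed `u`**, from the contour representations -/
theorem fixed_bound_of {S : Shape} (hS : S.Good) (u c : ℕ) (hRR : RepR S u c) (hRQ : RepQ S u c)
    (hHR : HolR S u c) (hHQ : HolQ S u c) (r : D.Col S u → D.Row) (h : Adm S u c r)
    (W : Fin (S.k * u + S.g * u + c) → ℂ) (Z : Fin (S.k * u) → ℂ) (Y : Fin (S.g * u) → ℂ)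
    (hW : Function.Injective W) (hZ : Function.Injective Z) (hY : Function.Injective Y)
    (B LR LQ LU : ℝ) (μ ν : Slot S u → ℝ) (hB : 0 ≤ B) (hLR : 0 ≤ LR) (hLQ : 0 ≤ LQ)
    (hLU : 0 ≤ LU) (hμ : ∀ k, 0 < μ k) (hν : ∀ k, 0 ≤ ν k)
    (hrR : ∀ i j (t : ℝ), 0 < t → ∀ v : ℂ, v = -1 + I ∨ v = -1 - I →
      ‖JR (rayPt S u v t) * ((rhoC S u * lg Z j).eval (rayPt S u v t) *
        (lg W i).eval (rayPt S u v t) / (om S u c).eval (rayPt S u v t))‖ ≤ B * LR / (1 + t) ^ 2)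
    (hrQ : ∀ i j (t : ℝ), 0 < t → ∀ v : ℂ, v = -1 + I ∨ v = -1 - I →
      ‖JQ (rayPt S u v t) * ((lg Y j).eval (rayPt S u v t) *
        (lg W i).eval (rayPt S u v t) / (om S u c).eval (rayPt S u v t))‖ ≤ B * LQ / (1 + t) ^ 2)
    (hcW : ∀ k i (s : ℂ), ‖s - (ctr S u k : ℂ)‖ = 1 / 4 → ‖(lg W i).eval s‖ ≤ B * μ k)
    (hcR : ∀ k j (s : ℂ), ‖s - (ctr S u k : ℂ)‖ = 1 / 4 →
      ‖JR s * ((rhoC S u * lg Z j).eval s / (om S u c).eval s)‖ ≤ ν k * LR)
    (hcQ : ∀ k j (s : ℂ), ‖s - (ctr S u k : ℂ)‖ = 1 / 4 →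
      ‖JQ s * ((lg Y j).eval s / (om S u c).eval s)‖ ≤ ν k * LQ)
    (hcQ' : ∀ k j (s : ℂ), ‖s - (ctr S u k : ℂ)‖ = 1 / 4 →
      ‖(JQ s - 2 * gL s) * ((lg Y j).eval s / (om S u c).eval s)‖ ≤ ν k * LQ)
    (hu : ∀ (J : Rw S u c) i, ‖BU S u c J (lg W i)‖ ≤ B * LU) :
    ∃ e : D.Col S u ⊕ Fin c ≃ Rw S u c,
      |aeval GG (Minor S u r)| * (‖(Matrix.vandermonde W).det‖ *
        (‖(Matrix.vandermonde Z).det‖ * ‖(Matrix.vandermonde Y).det‖)) ≤
      |((kap S u * VV S u c e : ℚ) : ℝ)| *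
        ((S.k * u + S.g * u + c + ∑ k, ord S u k).factorial *
          (B ^ (S.k * u + S.g * u + c) * (LR ^ (S.k * u) * (LQ ^ (S.g * u) * LU ^ c)) *
            ∏ k, max 1 (μ k * ν k) ^ ord S u k)) := by
  classical
  have hrows : S.rows = S.k + S.q + S.g := by
    have := hS.kpos
    unfold D.Shape.k
    omega
  have hrows' : S.rows * u = S.k * u + S.q * u + S.g * u := by rw [hrows]; ring
  have hgq : S.g * u ≤ S.q * u := Nat.mul_le_mul_right u hS.gq
  choose HR hHRd hHRe using hHR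
  choose HQ hHQd hHQe using hHQ
  have hpt : ∀ (v : ℂ) (t : ℝ), rayPt S u v t =
      -((((S.w * u : ℕ) : ℝ) + 1 / 4 : ℝ) : ℂ) + t * v := by
    intro v t
    unfold rayPt
    push_cast
    ring
  have hJW : ∀ k j (s : ℂ), ‖s - (ctr S u k : ℂ)‖ = 1 / 4 →
      ‖JW S u k s * ((lg Y j).eval s / (om S u c).eval s)‖ ≤ ν k * LQ := by
    intro k j s hs
    rcases k with l | (l | l)
    · exact hcQ' _ j s hs
    · exact hcQ' _ j s hs
    · exact hcQ _ j s hs
  have hmem : ∀ {y s : ℂ}, s ∈ sphere y (1 / 4) → ‖s - y‖ = 1 / 4 := fun hs => by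
    rwa [mem_sphere, dist_eq_norm] at hs
  obtain ⟨e, he⟩ := plain_bound (hS.kpos.le) r h (σ := SL S u) W Z Y hW hZ hY
    (fun s i => tc (ctr S u s.1 : ℂ) (lg W i) s.2)
    (fun s j => -(eps S u s.1) * cf (ctr S u s.1 : ℂ) (1 / 4) (HR s.1 (lg Z j))
      (ord S u s.1 - 1 - s.2))
    (fun s j => -(eps S u s.1) * cf (ctr S u s.1 : ℂ) (1 / 4) (HQ s.1 (lg Y j))
      (ord S u s.1 - 1 - s.2))
    B LR LQ LU (fun s => μ s.1 * 4 ^ (s.2 : ℕ)) (fun s => ν s.1 * (1 / 4) ^ (1 + (s.2 : ℕ)))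
    hB hLR hLQ hLU (fun s => by have := hμ s.1; positivity)
    (fun s => by have := hν s.1; positivity)
    (by
      intro i j
      have hdeg := lg_natDegree_lt W i
      have h1 := hRR (lg W i) (lg Z j) (by omega)
      rw [rep_slots (H := fun k => HR k (lg Z j)) (fun k => hHRd k (lg Z j))
        (fun k => hHRe k (lg Z j)) (lg W i) _ _ h1]
      refine norm_rays_part ?_ ?_
      · intro t ht
        have := hrR i j t ht _ (Or.inl rfl)
        rwa [hpt] at this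
      · intro t ht
        have := hrR i j t ht _ (Or.inr rfl)
        rwa [hpt] at this)
    (by
      intro i j
      have hdeg := lg_natDegree_lt W i
      have hdeg' := lg_natDegree_lt Y j
      have h1 := hRQ (lg W i) (lg Y j) (by omega)
      rw [rep_slots (H := fun k => HQ k (lg Y j)) (fun k => hHQd k (lg Y j))
        (fun k => hHQe k (lg Y j)) (lg W i) _ _ h1]
      refine norm_rays_part ?_ ?_
      · intro t ht
        have := hrQ i j t ht _ (Or.inl rfl)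
        rwa [hpt] at this
      · intro t ht
        have := hrQ i j t ht _ (Or.inr rfl)
        rwa [hpt] at this)
    hu
    (by
      intro s i
      have h1 := norm_tc_le (y := (ctr S u s.1 : ℂ)) (r := 1 / 4) (by norm_num)
        (P := lg W i) (fun x hx => hcW s.1 i x (hmem hx)) s.2
      refine h1.trans (le_of_eq ?_)
      rw [one_div, inv_pow, inv_inv]
      ring)
    (by
      intro s j
      rw [norm_mul, norm_neg, norm_eps, one_mul]
      refine ((circle_slots (hHRd s.1 (lg Z j)) (hHRe s.1 (lg Z j))).2 (ν s.1 * LR)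
        (fun x hx => hcR s.1 j x (hmem hx)) s.2).trans (le_of_eq ?_)
      ring)
    (by
      intro s j
      rw [norm_mul, norm_neg, norm_eps, one_mul]
      refine ((circle_slots (hHQd s.1 (lg Y j)) (hHQe s.1 (lg Y j))).2 (ν s.1 * LQ)
        (fun x hx => hJW s.1 j x (hmem hx)) s.2).trans (le_of_eq ?_)
      ring)
  refine ⟨e, he.trans ?_⟩
  have hcard : Fintype.card (SL S u) = ∑ k, ord S u k := by
    rw [Fintype.card_sigma]
    simp
  have hprod : ∏ s : SL S u, max 1 (μ s.1 * 4 ^ (s.2 : ℕ) * (ν s.1 * (1 / 4) ^ (1 + (s.2 : ℕ)))) ≤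
      ∏ k, max 1 (μ k * ν k) ^ ord S u k := by
    rw [Fintype.prod_sigma]
    refine Finset.prod_le_prod (fun k _ => Finset.prod_nonneg fun α _ => by positivity)
      fun k _ => ?_
    have h1 : ∀ α : Fin (ord S u k),
        max 1 (μ k * 4 ^ (α : ℕ) * (ν k * (1 / 4) ^ (1 + (α : ℕ)))) ≤ max 1 (μ k * ν k) := by
      intro α
      refine max_le_max le_rfl ?_
      have e1 : μ k * 4 ^ (α : ℕ) * (ν k * (1 / 4) ^ (1 + (α : ℕ))) = μ k * ν k * (1 / 4) := by
        rw [pow_add, pow_one, one_div, inv_pow]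
        field_simp
      rw [e1]
      have h2 : 0 ≤ μ k * ν k := mul_nonneg (hμ k).le (hν k)
      linarith
    calc ∏ α : Fin (ord S u k), max 1 (μ k * 4 ^ (α : ℕ) * (ν k * (1 / 4) ^ (1 + (α : ℕ))))
        ≤ ∏ _α : Fin (ord S u k), max 1 (μ k * ν k) :=
          Finset.prod_le_prod (fun α _ => by positivity) fun α _ => h1 α
      _ = max 1 (μ k * ν k) ^ ord S u k := by simp
  rw [hcard]
  gcongr

end Crest.Agent.R006.P3
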