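import Crest.Agent.R006.P3_DiscFin_819
import Crest.Agent.R006.P3_Fixed_257

/-!
# Row 6, block P3: `Disc` from the contour representations (helper819)

`disc_of_rep`: `RepR`, `RepQ`, `HolR`, `HolQ` (helper257) for all `u`, `c` give `Disc S c`.
-/

set_option autoImplicit false

namespace Crest.Agent.R006.P3

open Crest.Agent.R006.D

theorem fixedBound_of_rep {S : Shape} (hS : S.Good) (hRR : ∀ u c, RepR S u c)
    (hRQ : ∀ u c, RepQ S u c) (hHR : ∀ u c, HolR S u c) (hHQ : ∀ u c, HolQ S u c) :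
    FixedBound S := by
  intro u c r h W Z Y hW hZ hY B LR LQ LU μ ν hB hLR hLQ hLU hμ hν hrR hrQ hcW hcR hcQ hcQ' hu
  exact fixed_bound_of hS u c (hRR u c) (hRQ u c) (hHR u c) (hHQ u c) r h W Z Y hW hZ hY B LR LQ
    LU μ ν hB hLR hLQ hLU hμ hν hrR hrQ hcW hcR hcQ hcQ' hu

theorem disc_of_rep {S : Shape} (hS : S.Good) (hRR : ∀ u c, RepR S u c)
    (hRQ : ∀ u c, RepQ S u c) (hHR : ∀ u c, HolR S u c) (hHQ : ∀ u c, HolQ S u c) (c : ℕ) :
    Disc S c :=
  disc_of hS c (fixedBound_of_rep hS hRR hRQ hHR hHQ)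

end Crest.Agent.R006.P3
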