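import Crest.Agent.R006.P3_PotV_943
import Crest.Agent.R006.P3_Const2_673
import Crest.Agent.R006.NVBorder_938
import Crest.Agent.R006.Bord_929

/-!
# Row 6, block P3: the discrete inequality, statement (helper390)

`Disc S c` is what the algebraic/analytic side (bridge, REP, slots) has to deliver, for arbitrary
reference points; `P3_Final_390` deduces `Cert.Claim` from it.

All hypotheses are sup bounds of explicit products on the two rays from the apex `-(w u + 1/4)` and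
on circles of radius `1/4` around the slots.
-/

set_option autoImplicit false

namespace Crest.Agent.R006.P3

open Crest.Agent.R006.D Crest.Agent.R006.Potx943 Crest.Agent.R006.ConstX673

/-- `|N_S(s)|` -/
noncomputable def NSn (S : Shape) (u c : ℕ) (s : ℂ) : ℝ :=
  ∏ z ∈ Bordx929.sites S u c, ‖s - ((z.val : ℚ) : ℂ)‖ ^ (S.mult u c z)

/-- `|ρ(s)|`, `ρ` the monic gauge polynomial of the `R`-columns -/
noncomputable def rhon (S : Shape) (u : ℕ) (s : ℂ) : ℝ :=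
  (∏ n ∈ Finset.range (S.a1 * u), ‖s - (n : ℂ)‖) *
    (∏ n ∈ Finset.range (S.a2 * u), ‖s - (n : ℂ)‖) *
    (∏ m ∈ Finset.range (S.i1 * u), ‖s + ((m : ℂ) + 1 / 2)‖) *
    (∏ m ∈ Finset.range (S.r1 * u), ‖s + ((m : ℂ) + 1)‖)

/-- weight of the `R`-columns, `|ρ| 8^{Re s} e^{-π|Im s|} / |N_S|` -/
noncomputable def wtR (S : Shape) (u c : ℕ) (s : ℂ) : ℝ :=
  rhon S u s * Real.exp (s.re * Real.log 8 - Real.pi * |s.im|) / NSn S u c s

/-- weight of the `Q`-columns, `e^{-2π|Im s|} / |N_S|` -/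
noncomputable def wtQ (S : Shape) (u c : ℕ) (s : ℂ) : ℝ :=
  Real.exp (-(2 * Real.pi * |s.im|)) / NSn S u c s

/-- product of the distances to the other points of the family `w` -/
noncomputable def oth {ι : Type} [Fintype ι] [DecidableEq ι] (w : ι → ℂ) (i : ι) (s : ℂ) : ℝ :=
  ∏ j ∈ Finset.univ.erase i, ‖s - w j‖

/-- modulus of the Vandermonde product of the family `w` (`LE` = sum over ordered pairs) -/
noncomputable def vdm {ι : Type} [Fintype ι] (w : ι → ℂ) : ℝ :=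
  Real.exp (LE w (fun _ => 1) / 2)

/-- the slots: `w`-sites, stars, `e`-nodes to the left of the apex -/
abbrev Slot (S : Shape) (u : ℕ) : Type :=
  Fin (S.w * u) ⊕ (Fin (S.h1 * u) ⊕ Fin (S.e1 * u - S.w * u))

/-- centre of a slot -/
noncomputable def ctr (S : Shape) (u : ℕ) : Slot S u → ℝ
  | .inl l => -((l : ℕ) + 1 / 2 : ℝ)
  | .inr (.inl l) => ((l : ℕ) + 1 / 2 : ℝ)
  | .inr (.inr j) => -((S.w * u + 1 + (j : ℕ) : ℕ) : ℝ)

/-- order of a slot -/
def ord (S : Shape) (u : ℕ) : Slot S u → ℕ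
  | .inl _ => 3
  | .inr (.inl l) => (if (l : ℕ) < S.h1 * u then 1 else 0) + (if (l : ℕ) < S.h2 * u then 1 else 0)
      + (if (l : ℕ) < S.h3 * u then 1 else 0)
  | .inr (.inr j) => (if S.w * u + 1 + (j : ℕ) ≤ S.e1 * u then 1 else 0)
      + (if S.w * u + 1 + (j : ℕ) ≤ S.e2 * u then 1 else 0)
      + (if S.w * u + 1 + (j : ℕ) ≤ S.e3 * u then 1 else 0)

/-- point of a ray from the apex `-(w u + 1/4)` -/
noncomputable def rayPt (S : Shape) (u : ℕ) (v : ℂ) (t : ℝ) : ℂ :=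
  -((S.w * u : ℕ) + 1 / 4 : ℂ) + t * v

/-- **the discrete inequality** -/
def Disc (S : Shape) (c : ℕ) : Prop :=
  ∃ C : ℝ, 0 ≤ C ∧ ∀ u : ℕ, 1 ≤ u → ∀ r : Col S u → D.Row, Adm S u c r →
    ∀ (ιW ιZ ιY : Type) [Fintype ιW] [DecidableEq ιW] [Fintype ιZ] [DecidableEq ιZ]
      [Fintype ιY] [DecidableEq ιY] (w : ιW → ℂ) (z : ιZ → ℂ) (y : ιY → ℂ),
    Function.Injective w → Function.Injective z → Function.Injective y →
    Fintype.card ιW = S.k * u + (S.g * u + c) → Fintype.card ιZ = S.k * u →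
    Fintype.card ιY = S.g * u →
    ∀ (LR LQ HW : ℝ) (μ ν : Slot S u → ℝ), 0 < LR → 0 < LQ → 0 < HW → (∀ k, 0 < μ k) →
      (∀ k, 0 ≤ ν k) →
    -- the rays, slope one
    (∀ (i : ιW) (j : ιZ) (t : ℝ), 0 ≤ t → ∀ v : ℂ, v = -1 + Complex.I ∨ v = -1 - Complex.I →
      oth w i (rayPt S u v t) * oth z j (rayPt S u v t) * wtR S u c (rayPt S u v t) * (1 + t) ^ 2
        ≤ LR) →
    (∀ (i : ιW) (j : ιY) (t : ℝ), 0 ≤ t → ∀ v : ℂ, v = -1 + Complex.I ∨ v = -1 - Complex.I →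
      oth w i (rayPt S u v t) * oth y j (rayPt S u v t) * wtQ S u c (rayPt S u v t) * (1 + t) ^ 2
        ≤ LQ) →
    -- the circles
    (∀ (k : Slot S u) (i : ιW) (s : ℂ), ‖s - (ctr S u k : ℂ)‖ = 1 / 4 → oth w i s ≤ μ k) →
    (∀ (k : Slot S u) (j : ιZ) (s : ℂ), ‖s - (ctr S u k : ℂ)‖ = 1 / 4 →
      oth z j s * wtR S u c s ≤ ν k * LR) →
    (∀ (k : Slot S u) (j : ιY) (s : ℂ), ‖s - (ctr S u k : ℂ)‖ = 1 / 4 →
      oth y j s * wtQ S u c s ≤ ν k * LQ) →
    -- crude bound of the test polynomials near the nodes (unit columns)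
    (∀ (i : ιW) (s : ℂ), ‖s‖ ≤ (S.B + S.e1 + S.h1 + S.w + 1 : ℕ) * u + c + 1 → oth w i s ≤ HW) →
    |Polynomial.aeval GG (Minor S u r)| * (vdm w * vdm z * vdm y) ≤
      Real.exp (C * (u * (1 + Real.log u))) * (Real.exp (logV S u c) / kden S u) *
        LR ^ (S.k * u) * LQ ^ (S.g * u) * HW ^ c * ∏ k, (max 1 (μ k * ν k)) ^ ord S u k

end Crest.Agent.R006.P3
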