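import Crest.Agent.R006.NumSum_464
import Crest.Agent.R006.P3_Const2_673
import Crest.Agent.R006.VAsym_252

/-!
# Row 6, block P3, certified numerics of the shape constants (helper103)

Computable enclosures (`Enc`, scale `2^48`) of
* `F n`, `Fpair`, `eV S`, `kapE S` of `P3_Const2_673`,
* `sfF`, `phi`, `VL S`, `NL S` of `VAsym_252`, and `VL S - NL S = kapE S`.
-/

set_option autoImplicit false

namespace Crest.Agent.R006.EnShape103

open Real Num482 Crest.Agent.R006.NumSegx464 Crest.Agent.R006.ConstX673 Crest.Agent.R006.D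

theorem log_natAbs (n : ℤ) : Real.log ((n.natAbs : ℕ) : ℝ) = Real.log (n : ℝ) := by
  rw [Nat.cast_natAbs, Int.cast_abs, Real.log_abs]

/-- `F n = n²/2 log|n| - 3/4 n²` -/
def FI (n : ℤ) : ℤ × ℤ :=
  subI (nsmulI (n.natAbs * n.natAbs) (hlN n.natAbs)) (divI (3 * n * n * 281474976710656, 3 * n * n * 281474976710656) 4)

theorem enc_int (n : ℤ) : Enc (n : ℝ) (n * 281474976710656, n * 281474976710656) := by
  constructor <;> push_cast <;> exact le_rfl

theorem enc_FI (n : ℤ) : Enc (F (n : ℝ)) (FI n) := by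
  have h1 := (enc_hlN n.natAbs).nsmul (n.natAbs * n.natAbs)
  have h2 := (enc_int (3 * n * n)).divN (q := 4) (by norm_num)
  have := h1.sub h2
  unfold FI
  refine (Eq.subst (motive := fun r : ℝ => Enc r _) ?_ this)
  have e : ((n.natAbs * n.natAbs : ℕ) : ℝ) = (n : ℝ) ^ 2 := by
    rw [Nat.cast_mul, Nat.cast_natAbs, Int.cast_abs, ← pow_two, sq_abs]
  rw [e, log_natAbs]
  unfold F
  push_cast
  ring

/-- `Fpair D m m' = F (D+m) - F D - F (D+m-m') + F (D-m')` -/
def FpI (D m m' : ℤ) : ℤ × ℤ :=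
  addI (subI (subI (FI (D + m)) (FI D)) (FI (D + m - m'))) (FI (D - m'))

theorem enc_FpI (D m m' : ℤ) : Enc (Fpair (D : ℝ) m m') (FpI D m m') := by
  have := (((enc_FI (D + m)).sub (enc_FI D)).sub (enc_FI (D + m - m'))).add (enc_FI (D - m'))
  refine (Eq.subst (motive := fun r : ℝ => Enc r _) ?_ this)
  unfold Fpair
  push_cast
  ring

/-- sum of eight intervals -/
def sum8 (f : Fin 8 → ℤ × ℤ) : ℤ × ℤ :=
  addI (addI (addI (addI (addI (addI (addI (f 0) (f 1)) (f 2)) (f 3)) (f 4)) (f 5)) (f 6)) (f 7)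

theorem enc_sum8 {r : Fin 8 → ℝ} {f : Fin 8 → ℤ × ℤ} (h : ∀ i, Enc (r i) (f i)) :
    Enc (∑ i, r i) (sum8 f) := by
  rw [Fin.sum_univ_eight]
  exact (((((((h 0).add (h 1)).add (h 2)).add (h 3)).add (h 4)).add (h 5)).add (h 6)).add (h 7)

/-- enclosure of `eV S` -/
def eVI (S : Shape) : ℤ × ℤ :=
  divI (sum8 fun i => sum8 fun j => FpI (wst S i - wst S j) (wlen S i) (wlen S j)) 2

theorem enc_eVI (S : Shape) : Enc (eV S) (eVI S) := by
  have h : Enc (∑ i : Fin 8, ∑ j : Fin 8, Fpair ((wst S i : ℝ) - wst S j) (wlen S i) (wlen S j))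
      (sum8 fun i => sum8 fun j => FpI (wst S i - wst S j) (wlen S i) (wlen S j)) := by
    refine enc_sum8 fun i => enc_sum8 fun j => ?_
    have := enc_FpI (wst S i - wst S j) (wlen S i) (wlen S j)
    push_cast at this
    exact this
  have := h.divN (q := 2) (by norm_num)
  unfold eVI
  refine (Eq.subst (motive := fun r : ℝ => Enc r _) ?_ this)
  unfold eV
  push_cast
  ring

/-- `n log n - n` -/
def phI (n : ℕ) : ℤ × ℤ := subI (nsmulI (2 * n) (hlN n)) (n * 281474976710656, n * 281474976710656)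

theorem enc_phI (n : ℕ) : Enc ((n : ℝ) * Real.log n - n) (phI n) := by
  have h2 := enc_int (n : ℤ)
  have := ((enc_hlN n).nsmul (2 * n)).sub h2
  refine (Eq.subst (motive := fun r : ℝ => Enc r _) ?_ this)
  push_cast
  ring

/-- enclosure of `kapE S` -/
def kapEI (S : Shape) : ℤ × ℤ :=
  subI (eVI S) (addI (addI (addI (FI S.q) (subI (FI (S.a1 + S.k)) (FI S.a1)))
    (nsmulI S.k (addI (addI (phI S.a2) (phI S.i1)) (phI S.r1)))) (FI S.g))

theorem enc_kapEI (S : Shape) : Enc (kapE S) (kapEI S) := by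
  have h1 := enc_FI S.q
  have h2 := enc_FI (S.a1 + S.k)
  have h3 := enc_FI S.a1
  have h4 := (((enc_phI S.a2).add (enc_phI S.i1)).add (enc_phI S.r1)).nsmul S.k
  have h5 := enc_FI S.g
  have := (enc_eVI S).sub (((h1.add (h2.sub h3)).add h4).add h5)
  refine (Eq.subst (motive := fun r : ℝ => Enc r _) ?_ this)
  unfold kapE
  push_cast
  ring

/-! ### the constants of `VAsym_252` -/

theorem F_eq_sfF (x : ℝ) : F x = sfF x := rfl

theorem QW_eq_Fpair (a b a' b' : ℝ) : QW a b a' b' = Fpair (a - a') (b - a) (b' - a') := by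
  unfold QW Fpair
  simp only [F_eq_sfF]
  rw [show a - a' + (b - a) = b - a' by ring, show b - a' - (b' - a') = b - b' by ring,
    show a - a' - (b' - a') = a - b' by ring]

theorem wlo_eq (S : Shape) (i : Fin 8) : wlo S i = wst S i := by
  fin_cases i <;> rfl

theorem whi_eq (S : Shape) (i : Fin 8) : (whi S i : ℝ) = wst S i + wlen S i := by
  fin_cases i <;> simp [whi, wst, wlen]

theorem VL_eq (S : Shape) : VL S = eV S := by
  unfold VL eV
  congr 1
  refine Finset.sum_congr rfl fun i _ => Finset.sum_congr rfl fun j _ => ?_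
  rw [QW_eq_Fpair, whi_eq, whi_eq, wlo_eq, wlo_eq]
  congr 1 <;> ring

theorem VL_sub_NL (S : Shape) : VL S - NL S = kapE S := by
  rw [VL_eq]
  unfold kapE NL phi
  simp only [F_eq_sfF]
  ring

theorem enc_VL_sub_NL (S : Shape) : Enc (VL S - NL S) (kapEI S) := by
  rw [VL_sub_NL]; exact enc_kapEI S

end Crest.Agent.R006.EnShape103
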