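import Crest.Agent.R006.Tail3_516

/-!
Row 6 (Catalan), block P3 (helper516).  Circle sums to the left of the apex `-(k0+1/4)` equal two
ray integrals.  Part 4: `tail_g` for `G1x186.J1`, and the corollaries with finitely many integer
circles.
-/

set_option autoImplicit false

open Complex MeasureTheory Set Filter Topology intervalIntegral Metric Function Polynomial
open scoped Real Interval

noncomputable section

namespace Crest.Agent.R006.Tail516

open Crest.Agent.R006.Wedge516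

lemma bound_g {P N : ℂ[X]} (hN : N ≠ 0) (hr : HalfRoots N) (hd : P.natDegree < N.natDegree) :
    ∃ C : ℝ, 0 < C ∧ ∀ z : ℂ, Far z → z.re ≤ -1 / 4 →
      ‖G1x186.J1 z * (P.eval z / N.eval z)‖ ≤
        C / ((-z.re) * (1 + -z.re)) * Real.exp (-(2 * π * |z.im|)) := by
  obtain ⟨C, hC, hb⟩ := rat_bound_down (P := P) hN hr hd
  refine ⟨36 * C, by positivity, fun z hz h1 => ?_⟩
  have hx : 0 < -z.re := by linarith
  have h2 := G1x186.norm_J1_le h1 (fun l => by
    have := far_ne_ce hz l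
    rwa [show PsiJ.ce l = -1 / 2 - (l : ℂ) by unfold PsiJ.ce; ring] at this)
  have h3 := hb z hz
  have h4 : -z.re ≤ ‖z‖ := (neg_le_abs _).trans (Complex.abs_re_le_norm z)
  have h5 : C / (1 + ‖z‖) ≤ C / (1 + -z.re) := by gcongr
  rw [norm_mul]
  calc ‖G1x186.J1 z‖ * ‖P.eval z / N.eval z‖
      ≤ (36 / (-z.re) * Real.exp (-(2 * π * |z.im|))) * (C / (1 + -z.re)) := by
        refine mul_le_mul h2 (h3.trans h5) (norm_nonneg _) ?_
        exact mul_nonneg (div_nonneg (by norm_num) hx.le) (Real.exp_pos _).le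
    _ = _ := by
        field_simp

/-- the integrals on the rays converge -/
theorem ray_integrable_g {P N : ℂ[X]} (hN : N ≠ 0) (hr : HalfRoots N)
    (hd : P.natDegree < N.natDegree) (k0 : ℕ) {c : ℝ} (hc : 0 < c) (hc3 : c ^ 2 ≤ 3) {w : ℂ}
    (hw : w = -c + I ∨ w = -c - I) :
    IntegrableOn (fun t : ℝ => G1x186.J1 (-(((k0 : ℝ) + 1 / 4 : ℝ) : ℂ) + t * w) *
      (P.eval (-(((k0 : ℝ) + 1 / 4 : ℝ) : ℂ) + t * w) /
        N.eval (-(((k0 : ℝ) + 1 / 4 : ℝ) : ℂ) + t * w))) (Ioi 0) := by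
  obtain ⟨C, hC, hb⟩ := bound_g (P := P) hN hr hd
  set Φ : ℂ → ℂ := fun z => G1x186.J1 z * (P.eval z / N.eval z) with hΦ
  have hk0 : (0 : ℝ) ≤ k0 := Nat.cast_nonneg k0
  have hcell := fun l => cell_poles (P := P) jump_g hN hr k0 l
  have hray : ∀ t : ℝ, 0 ≤ t →
      ‖Φ (-(((k0 : ℝ) + 1 / 4 : ℝ) : ℂ) + t * w)‖ ≤ 16 * C * Real.exp (-(2 * π) * t) := by
    intro t ht
    obtain ⟨g1, g2⟩ := geo_ray (k0 := k0) hc ht hw
    have hct : 0 ≤ c * t := by positivity
    have h := hb _ (far_ray (t := t) hc3 hw) (by rw [g1]; linarith)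
    refine h.trans ?_
    rw [g1, g2]
    have h1 : C / (-(-((k0 : ℝ) + 1 / 4) - c * t) * (1 + -(-((k0 : ℝ) + 1 / 4) - c * t))) ≤
        16 * C := by
      rw [div_le_iff₀ (by nlinarith)]
      have : 1 / 4 * 1 ≤ -(-((k0 : ℝ) + 1 / 4) - c * t) * (1 + -(-((k0 : ℝ) + 1 / 4) - c * t)) :=
        mul_le_mul (by linarith) (by linarith) (by norm_num) (by linarith)
      nlinarith
    rw [show -(2 * π * t) = -(2 * π) * t by ring]
    exact mul_le_mul_of_nonneg_right h1 (Real.exp_pos _).le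
  have hg : IntegrableOn (fun t : ℝ => 16 * C * Real.exp (-(2 * π) * t)) (Ioi 0) :=
    (exp_neg_integrableOn_Ioi 0 (by positivity)).const_mul _
  refine Integrable.mono' hg (((ray_continuousOn_m (κ := (k0 : ℝ) + 1 / 4) hc offM hcell hw).mono
    Ioi_subset_Ici_self).aestronglyMeasurable measurableSet_Ioi) ?_
  filter_upwards [ae_restrict_mem measurableSet_Ioi] with t ht
  exact hray t (le_of_lt ht)

/-- the integrals on the rays converge -/
theorem ray_integrable_psi (v : Fin 3 → ℂ) {P N : ℂ[X]} (hN : N ≠ 0) (hr : HalfRoots N) (k0 : ℕ)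
    {c : ℝ} (hc : 0 < c) (hc3 : c ^ 2 ≤ 3) {w : ℂ} (hw : w = -c + I ∨ w = -c - I) :
    IntegrableOn (fun t : ℝ => PsiJ.J v (-(((k0 : ℝ) + 1 / 4 : ℝ) : ℂ) + t * w) *
      (P.eval (-(((k0 : ℝ) + 1 / 4 : ℝ) : ℂ) + t * w) /
        N.eval (-(((k0 : ℝ) + 1 / 4 : ℝ) : ℂ) + t * w))) (Ioi 0) := by
  obtain ⟨M, hM, hb⟩ := bound_psi v (P := P) hN hr k0 (a := 1 / c) (by positivity)
  set Φ : ℂ → ℂ := fun z => PsiJ.J v z * (P.eval z / N.eval z) with hΦ
  have hray : ∀ t : ℝ, 0 ≤ t →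
      ‖Φ (-(((k0 : ℝ) + 1 / 4 : ℝ) : ℂ) + t * w)‖ ≤ M * Real.exp (-c * t) := by
    intro t ht
    obtain ⟨g1, g2⟩ := geo_ray (k0 := k0) hc ht hw
    have h := hb _ (far_ray (t := t) hc3 hw) (by rw [g1]; nlinarith) (by
      rw [g1, g2]
      have : 1 / c * (-(-((k0 : ℝ) + 1 / 4) - c * t) - ((k0 : ℝ) + 1 / 4)) = t := by
        field_simp; ring
      rw [this]; linarith)
    refine h.trans ?_
    rw [g1]
    gcongr
    linarith
  have hg : IntegrableOn (fun t : ℝ => M * Real.exp (-c * t)) (Ioi 0) :=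
    (exp_neg_integrableOn_Ioi 0 hc).const_mul _
  refine Integrable.mono' hg (((ray_continuousOn_m (κ := (k0 : ℝ) + 1 / 4) hc offM
    (fun l => cell_poles (P := P) (jump_psi v) hN hr k0 l) hw).mono
    Ioi_subset_Ici_self).aestronglyMeasurable measurableSet_Ioi) ?_
  filter_upwards [ae_restrict_mem measurableSet_Ioi] with t ht
  exact hray t (le_of_lt ht)

/-- **Tail theorem for `g`.** -/
theorem tail_g {P N : ℂ[X]} (hN : N ≠ 0) (hr : HalfRoots N) (hd : P.natDegree < N.natDegree)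
    (k0 : ℕ) {c : ℝ} (hc : 0 < c) (hc3 : c ^ 2 ≤ 3) :
    HasSum (circs k0 (fun z => G1x186.J1 z * (P.eval z / N.eval z)))
      (rays k0 c (fun z => G1x186.J1 z * (P.eval z / N.eval z))) := by
  obtain ⟨C, hC, hb⟩ := bound_g (P := P) hN hr hd
  set Φ : ℂ → ℂ := fun z => G1x186.J1 z * (P.eval z / N.eval z) with hΦ
  have hk0 : (0 : ℝ) ≤ k0 := Nat.cast_nonneg k0
  have hexp1 : ∀ y : ℝ, Real.exp (-(2 * π * |y|)) ≤ 1 := by
    intro y
    rw [Real.exp_le_one_iff]
    have := Real.pi_pos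
    have := abs_nonneg y
    nlinarith
  have hcell := fun l => cell_poles (P := P) jump_g hN hr k0 l
  have hray : ∀ w : ℂ, (w = -c + I ∨ w = -c - I) → ∀ t : ℝ, 0 ≤ t →
      ‖Φ (-(((k0 : ℝ) + 1 / 4 : ℝ) : ℂ) + t * w)‖ ≤ 16 * C * Real.exp (-(2 * π) * t) := by
    intro w hw t ht
    obtain ⟨g1, g2⟩ := geo_ray (k0 := k0) hc ht hw
    have hct : 0 ≤ c * t := by positivity
    have h := hb _ (far_ray (t := t) hc3 hw) (by rw [g1]; linarith)
    refine h.trans ?_
    rw [g1, g2]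
    have h1 : C / (-(-((k0 : ℝ) + 1 / 4) - c * t) * (1 + -(-((k0 : ℝ) + 1 / 4) - c * t))) ≤
        16 * C := by
      rw [div_le_iff₀ (by nlinarith)]
      have : 1 / 4 * 1 ≤ -(-((k0 : ℝ) + 1 / 4) - c * t) * (1 + -(-((k0 : ℝ) + 1 / 4) - c * t)) :=
        mul_le_mul (by linarith) (by linarith) (by norm_num) (by linarith)
      nlinarith
    rw [show -(2 * π * t) = -(2 * π) * t by ring]
    exact mul_le_mul_of_nonneg_right h1 (Real.exp_pos _).le
  have hintv : ∀ w : ℂ, (w = -c + I ∨ w = -c - I) →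
      IntegrableOn (fun t : ℝ => Φ (-(((k0 : ℝ) + 1 / 4 : ℝ) : ℂ) + t * w)) (Ioi 0) := by
    intro w hw
    have hg : IntegrableOn (fun t : ℝ => 16 * C * Real.exp (-(2 * π) * t)) (Ioi 0) :=
      (exp_neg_integrableOn_Ioi 0 (by positivity)).const_mul _
    refine Integrable.mono' hg (((ray_continuousOn_m hc offM hcell hw).mono
      Ioi_subset_Ici_self).aestronglyMeasurable measurableSet_Ioi) ?_
    filter_upwards [ae_restrict_mem measurableSet_Ioi] with t ht
    exact hray w hw t (le_of_lt ht)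
  have htend := wedge_tendsto_m (κ := (k0 : ℝ) + 1 / 4) hc offM hcell (hintv _ (Or.inl rfl))
    (hintv _ (Or.inr rfl)) ?_
  · have e : circs k0 Φ = fun l : ℕ => ∑ φ ∈ Off,
        (∮ z in C((-(((k0 : ℝ) + 1 / 4) + l + φ) : ℝ), 1 / 4), Φ z) := by
      funext l
      exact (sum_off k0 l Φ).symm
    have hsum : Summable (circs k0 Φ) := by
      rw [e]
      refine Summable.of_norm_bounded
        (g := fun l : ℕ => ∑ φ ∈ Off, 2 * π * (1 / 4) * (4 * C * (1 / ((l : ℝ) + 1) ^ 2)))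
        ?_ fun l => ?_
      · refine summable_sum fun φ _ => ?_
        refine (Summable.mul_left _ ?_).mul_left _
        have := (summable_nat_add_iff 1).2 (Real.summable_one_div_nat_pow.2 (one_lt_two))
        refine this.congr fun l => ?_
        push_cast
        rfl
      · refine (norm_sum_le _ _).trans (Finset.sum_le_sum fun φ hφ => ?_)
        refine circleIntegral.norm_integral_le_of_norm_le_const (by norm_num) fun z hz => ?_
        rw [mem_sphere, dist_eq_norm] at hz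
        obtain ⟨g1, g2, g3⟩ := geo_circ hφ hz
        have hl : (0 : ℝ) ≤ l := Nat.cast_nonneg l
        have h := hb z g1 (by linarith)
        refine h.trans ?_
        have hp : ((l : ℝ) + 1) ^ 2 / 4 ≤ (-z.re) * (1 + -z.re) := by
          have h1 : ((l : ℝ) + 1) / 4 ≤ -z.re := by linarith
          have h2 : (l : ℝ) + 1 ≤ 1 + -z.re := by linarith
          have := mul_le_mul h1 h2 (by linarith) (by linarith)
          calc _ = ((l : ℝ) + 1) / 4 * (l + 1) := by ring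
            _ ≤ _ := this
        calc C / ((-z.re) * (1 + -z.re)) * Real.exp (-(2 * π * |z.im|))
            ≤ C / (((l : ℝ) + 1) ^ 2 / 4) * 1 := by
              refine mul_le_mul ?_ (hexp1 _) (Real.exp_pos _).le (by positivity)
              exact div_le_div_of_nonneg_left hC.le (by positivity) hp
          _ = _ := by
              field_simp
    rw [e] at hsum ⊢
    exact (hsum.hasSum_iff_tendsto_nat).2 htend
  · rw [tendsto_zero_iff_norm_tendsto_zero]
    have hlim : Tendsto (fun n : ℕ => 8 / c * C * (1 / ((n : ℝ) + 1))) atTop (𝓝 0) := by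
      have := (tendsto_one_div_add_atTop_nhds_zero_nat (𝕜 := ℝ)).const_mul (8 / c * C)
      rwa [mul_zero] at this
    refine squeeze_zero (fun _ => norm_nonneg _) (fun n => ?_) hlim
    have hn : (0 : ℝ) ≤ n := Nat.cast_nonneg n
    have hn0 : (0 : ℝ) ≤ (n : ℝ) / c := by positivity
    unfold sg
    rw [norm_mul, Complex.norm_I, one_mul]
    have h7 := intervalIntegral.norm_integral_le_of_norm_le_const
      (a := -((n : ℝ) / c)) (b := (n : ℝ) / c)
      (f := fun y : ℝ => Φ (((-(((k0 : ℝ) + 1 / 4) + n) : ℝ) : ℂ) + y * I))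
      (C := 4 * C * (1 / ((n : ℝ) + 1) ^ 2)) (fun y hy => ?_)
    · refine h7.trans ?_
      rw [sub_neg_eq_add, abs_of_nonneg (by linarith)]
      have h8 : (n : ℝ) / (n + 1) ≤ 1 := by
        rw [div_le_one (by positivity)]; linarith
      calc 4 * C * (1 / ((n : ℝ) + 1) ^ 2) * ((n : ℝ) / c + n / c)
          = 8 / c * C * (1 / ((n : ℝ) + 1)) * (n / (n + 1)) := by
            field_simp; ring
        _ ≤ 8 / c * C * (1 / ((n : ℝ) + 1)) * 1 := by
            exact mul_le_mul_of_nonneg_left h8 (by positivity)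
        _ = _ := by ring
    · have g1 : (((-(((k0 : ℝ) + 1 / 4) + n) : ℝ) : ℂ) + y * I).re =
          -((k0 : ℝ) + 1 / 4 + n) := by simp
      have h := hb _ (far_vert (k0 := k0) (n := n) (y := y)) (by rw [g1]; linarith)
      refine h.trans ?_
      rw [g1, neg_neg]
      have hp : ((n : ℝ) + 1) ^ 2 / 4 ≤ ((k0 : ℝ) + 1 / 4 + n) * (1 + ((k0 : ℝ) + 1 / 4 + n)) := by
        have h1 : ((n : ℝ) + 1) / 4 ≤ (k0 : ℝ) + 1 / 4 + n := by linarith
        have h2 : (n : ℝ) + 1 ≤ 1 + ((k0 : ℝ) + 1 / 4 + n) := by linarith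
        have := mul_le_mul h1 h2 (by linarith) (by linarith)
        calc _ = ((n : ℝ) + 1) / 4 * (n + 1) := by ring
          _ ≤ _ := this
      calc C / (((k0 : ℝ) + 1 / 4 + n) * (1 + ((k0 : ℝ) + 1 / 4 + n))) *
            Real.exp (-(2 * π * |(((-(((k0 : ℝ) + 1 / 4) + n) : ℝ) : ℂ) + y * I).im|))
          ≤ C / (((n : ℝ) + 1) ^ 2 / 4) * 1 := by
            refine mul_le_mul ?_ (hexp1 _) (Real.exp_pos _).le (by positivity)
            exact div_le_div_of_nonneg_left hC.le (by positivity) hp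
        _ = _ := by
            field_simp

/-! ### finitely many integer circles -/

lemma Jump.differentiableAt {𝒥 : ℂ → ℂ} (hJ : Jump 𝒥) {z : ℂ} (L : ℕ)
    (hz : z ∈ strip (-L - 11 / 8) (-L - 1 / 8)) (h : z ≠ PsiJ.ce L) : DifferentiableAt ℂ 𝒥 z := by
  obtain ⟨Jr, h1, h2⟩ := hJ L
  have hn : strip (-(L : ℝ) - 11 / 8) (-L - 1 / 8) ∈ 𝓝 z := (isOpen_strip _ _).mem_nhds hz
  have h3 : DifferentiableAt ℂ (fun z => Jr z / (z - PsiJ.ce L) ^ 3) z := by
    refine ((h1 z hz).differentiableAt hn).div (by fun_prop) (pow_ne_zero _ (sub_ne_zero.2 h))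
  refine h3.congr_of_eventuallyEq ?_
  filter_upwards [hn, isOpen_ne.mem_nhds h] with w hw hw'
  exact h2 w hw hw'

/-- the circle around an integer which is not a root of `N` contributes nothing -/
lemma circ_int_zero {𝒥 : ℂ → ℂ} (hJ : Jump 𝒥) {P N : ℂ[X]} (hr : HalfRoots N) (L : ℕ)
    (h0 : N.eval (-((L + 1 : ℕ) : ℂ)) ≠ 0) :
    (∮ z in C(-((L + 1 : ℕ) : ℂ), 1 / 4), 𝒥 z * (P.eval z / N.eval z)) = 0 := by
  have hd : ∀ z ∈ closedBall (-((L + 1 : ℕ) : ℂ)) (1 / 4),
      DifferentiableAt ℂ (fun z => 𝒥 z * (P.eval z / N.eval z)) z := by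
    intro z hz
    rw [mem_closedBall, dist_eq_norm] at hz
    have h1 := (Complex.abs_re_le_norm _).trans hz
    simp only [sub_re, neg_re, natCast_re] at h1
    rw [abs_le] at h1
    push_cast at h1
    obtain ⟨h1, h2⟩ := h1
    have hs : z ∈ strip (-(L : ℝ) - 11 / 8) (-L - 1 / 8) := by
      constructor <;> linarith
    have hne : z ≠ PsiJ.ce L := by
      rintro rfl
      rw [PsiJ.ce_re] at h2
      linarith
    have hNz : N.eval z ≠ 0 := by
      intro h
      obtain ⟨k, rfl⟩ := hr z h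
      have h3 := half_in_strip (k0 := L) (l := 0) (k := k) (by simpa using hs)
      rcases h3 with h3 | h3
      · exact hne (by simpa using h3)
      · rw [h3] at h
        exact h0 (by simpa using h)
    exact (hJ.differentiableAt L hs hne).mul (P.differentiableAt.div N.differentiableAt hNz)
  exact Complex.circleIntegral_eq_zero_of_differentiable_on_off_countable (by norm_num)
    Set.countable_empty (fun z hz => (hd z hz).continuousAt.continuousWithinAt)
    (fun z hz => hd z (ball_subset_closedBall hz.1))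

lemma split_ints {𝒥 : ℂ → ℂ} (hJ : Jump 𝒥) {P N : ℂ[X]} (hr : HalfRoots N) (k0 M : ℕ)
    (hM : ∀ m : ℕ, M < m → N.eval (-(m : ℂ)) ≠ 0) {S : ℂ}
    (h : HasSum (circs k0 (fun z => 𝒥 z * (P.eval z / N.eval z))) S) :
    HasSum (fun l : ℕ => ∮ z in C(PsiJ.ce (k0 + l), 1 / 4), 𝒥 z * (P.eval z / N.eval z))
      (S - ∑ m ∈ Finset.Ioc k0 M, ∮ z in C(-(m : ℂ), 1 / 4), 𝒥 z * (P.eval z / N.eval z)) := by
  set B : ℕ → ℂ := fun l => ∮ z in C(-((k0 + l + 1 : ℕ) : ℂ), 1 / 4),
    𝒥 z * (P.eval z / N.eval z) with hB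
  have h1 : HasSum B (∑ l ∈ Finset.range (M - k0), B l) := by
    refine hasSum_sum_of_ne_finset_zero fun l hl => ?_
    rw [Finset.mem_range, not_lt] at hl
    exact circ_int_zero hJ hr (k0 + l) (hM _ (by omega))
  have h2 := h.sub h1
  have h3 : ∑ m ∈ Finset.Ioc k0 M, (∮ z in C(-(m : ℂ), 1 / 4), 𝒥 z * (P.eval z / N.eval z)) =
      ∑ l ∈ Finset.range (M - k0), B l := by
    have h4 : Finset.Ioc k0 M = Finset.Ico (k0 + 1) (M + 1) := by
      ext x; simp
    rw [h4, Finset.sum_Ico_eq_sum_range, show M + 1 - (k0 + 1) = M - k0 by omega]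
    refine Finset.sum_congr rfl fun l _ => ?_
    rw [hB, show k0 + 1 + l = k0 + l + 1 by ring]
  rw [h3]
  refine h2.congr_fun ?_
  intro l
  simp [circs, hB]

/-- **Tail theorem for `ψ`**: the site circles to the left of `-(k0+1/4)`, the integer circles
`-m`, `k0 < m ≤ M` (all others are empty) and the two rays. -/
theorem tail_psi_sites (v : Fin 3 → ℂ) {P N : ℂ[X]} (hN : N ≠ 0) (hr : HalfRoots N) (k0 M : ℕ)
    (hM : ∀ m : ℕ, M < m → N.eval (-(m : ℂ)) ≠ 0) {c : ℝ} (hc : 0 < c) (hc3 : c ^ 2 ≤ 3) :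
    HasSum (fun l : ℕ => ∮ z in C(PsiJ.ce (k0 + l), 1 / 4),
        PsiJ.J v z * (P.eval z / N.eval z))
      (rays k0 c (fun z => PsiJ.J v z * (P.eval z / N.eval z)) -
        ∑ m ∈ Finset.Ioc k0 M, ∮ z in C(-(m : ℂ), 1 / 4), PsiJ.J v z * (P.eval z / N.eval z)) :=
  split_ints (jump_psi v) hr k0 M hM (tail_psi v hN hr k0 hc hc3)

/-- **Tail theorem for `g`**, same form. -/
theorem tail_g_sites {P N : ℂ[X]} (hN : N ≠ 0) (hr : HalfRoots N)
    (hd : P.natDegree < N.natDegree) (k0 M : ℕ)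
    (hM : ∀ m : ℕ, M < m → N.eval (-(m : ℂ)) ≠ 0) {c : ℝ} (hc : 0 < c) (hc3 : c ^ 2 ≤ 3) :
    HasSum (fun l : ℕ => ∮ z in C(PsiJ.ce (k0 + l), 1 / 4),
        G1x186.J1 z * (P.eval z / N.eval z))
      (rays k0 c (fun z => G1x186.J1 z * (P.eval z / N.eval z)) -
        ∑ m ∈ Finset.Ioc k0 M, ∮ z in C(-(m : ℂ), 1 / 4), G1x186.J1 z * (P.eval z / N.eval z)) :=
  split_ints jump_g hr k0 M hM (tail_g hN hr hd k0 hc hc3)

end Crest.Agent.R006.Tail516
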