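import Crest.Agent.R006.RepR_724
import Crest.Agent.R006.Tail4_516
import Crest.Agent.R006.P3_Slot_283

/-!
# Row 6, P3: from the series of circles to finitely many circles and two rays (helper576)

For node data `N` (helper724) and `f = R' P / N.den`:

* `hasSum_psi_value`, `hasSum_g_value`: if `∑_l (2πi)⁻¹ ∮_{C(ce l)} J f = A` then
  `A = ∑_{l<k0} (circle at ce l) + (2πi)⁻¹ (two rays from -(k0+1/4)) - ∑_{k0<m≤M} (circle at -m)`.
* `denAt y`, `mAt y`: `N.den = (X - y)^(mAt y) * denAt y`, `denAt y ≠ 0` near `y`.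
* `slot_eq`: every circle of radius `1/4` at a half-integer point is a sum of slots.
-/

set_option autoImplicit false

open Complex MeasureTheory Set Filter Topology Polynomial Metric
open scoped Real

noncomputable section

namespace Crest.Agent.R006.Fin576

open Crest.Agent.R006.Base724 Crest.Agent.R006.Tail516 Crest.Agent.R006.P3Slot
open Crest.Agent.R006

variable (N : Nodes)

lemma den_monic : N.den.Monic :=
  monic_prod_of_monic _ _ fun _ _ => (monic_X_sub_C _).pow _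

lemma den_ne_zero : N.den ≠ 0 := (den_monic N).ne_zero

lemma natDegree_den : N.den.natDegree = ∑ i ∈ Finset.univ \ N.W, N.mul i := by
  unfold Nodes.den NSoff
  rw [natDegree_prod_of_monic _ _ fun i _ => (monic_X_sub_C _).pow _]
  refine Finset.sum_congr rfl fun i _ => ?_
  rw [natDegree_pow, natDegree_X_sub_C, mul_one]

lemma z_eq (i : N.A) : N.z i = ((dbl i.1 : ℤ) : ℂ) / 2 := by
  unfold Nodes.z
  exact val_eq i.1

lemma den_halfRoots : HalfRoots N.den := by
  intro z hz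
  by_contra hcon
  apply N.den_ne_of_dist (s := z) _ hz
  intro i _ h
  exact hcon ⟨dbl i.1, by rw [h, z_eq]⟩

/-- no node at `-m` for `m > M` -/
def FreeLeft (M : ℕ) : Prop := ∀ m : ℕ, M < m → D.Site.Z (-(m : ℤ)) ∉ N.A

lemma den_neg_ne {M : ℕ} (h : FreeLeft N M) {m : ℕ} (hm : M < m) : N.den.eval (-(m : ℂ)) ≠ 0 := by
  apply N.den_ne_of_dist
  intro i _ hi
  have h1 : i.1 = D.Site.Z (-(m : ℤ)) := by
    by_contra hne
    have := val_dist hne
    have h2 : ((((D.Site.Z (-(m : ℤ))).val : ℚ)) : ℂ) = -(m : ℂ) := by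
      simp [D.Site.val]
    rw [h2, hi] at this
    unfold Nodes.z at this
    rw [sub_self, norm_zero] at this
    linarith
  exact h m hm (h1 ▸ i.2)

lemma fR_eval (R' P : ℂ[X]) (s : ℂ) :
    N.fR R' P s = (R' * P).eval s / N.den.eval s := by
  unfold Nodes.fR
  rw [eval_mul]

/-- splitting off the first `k0` circles -/
lemma split_off {f : ℕ → ℂ} {A B : ℂ} (k0 : ℕ) (h : HasSum f A)
    (h' : HasSum (fun l => f (k0 + l)) B) : A = ∑ l ∈ Finset.range k0, f l + B := by
  have h1 : HasSum (fun l => f (l + k0)) B := by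
    refine h'.congr_fun ?_
    intro l
    rw [add_comm]
  have h2 := (hasSum_nat_add_iff k0).mp h1
  rw [h.unique h2]
  ring

/-- **`ψ`-side**: the series of circles as finitely many circles and two rays -/
theorem psi_value (v : Fin 3 → ℂ) (R' P : ℂ[X]) {A : ℂ}
    (h : HasSum (fun l => PsiJ.L v l (N.fR R' P)) A) (k0 M : ℕ) (hM : FreeLeft N M)
    {c : ℝ} (hc : 0 < c) (hc3 : c ^ 2 ≤ 3) :
    A = ∑ l ∈ Finset.range k0, ci (PsiJ.ce l) (1 / 4) (fun s => PsiJ.J v s * N.fR R' P s) +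
      ((2 * π * I)⁻¹ * rays k0 c (fun s => PsiJ.J v s * N.fR R' P s) -
        ∑ m ∈ Finset.Ioc k0 M, ci (-(m : ℂ)) (1 / 4) (fun s => PsiJ.J v s * N.fR R' P s)) := by
  have h1 := tail_psi_sites v (P := R' * P) (den_ne_zero N) (den_halfRoots N) k0 M
    (fun m hm => den_neg_ne N hM hm) hc hc3
  have h2 := h1.mul_left ((2 * π * I : ℂ)⁻¹)
  have h3 := split_off (f := fun l => PsiJ.L v l (N.fR R' P)) k0 h (B := _) (by
    refine h2.congr_fun ?_
    intro l
    unfold PsiJ.L PsiJ.Lr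
    simp only [fR_eval])
  rw [h3]
  simp only [fR_eval, ci, PsiJ.L, PsiJ.Lr, mul_sub, Finset.mul_sum]

/-- **`g`-side** -/
theorem g_value (Q P : ℂ[X]) {A : ℂ} (hd : (Q * P).natDegree < N.den.natDegree)
    (h : HasSum (fun l => ci (PsiJ.ce l) (1 / 4) (fun s => G1x186.J1 s * N.fR Q P s)) A)
    (k0 M : ℕ) (hM : FreeLeft N M) {c : ℝ} (hc : 0 < c) (hc3 : c ^ 2 ≤ 3) :
    A = ∑ l ∈ Finset.range k0, ci (PsiJ.ce l) (1 / 4) (fun s => G1x186.J1 s * N.fR Q P s) +
      ((2 * π * I)⁻¹ * rays k0 c (fun s => G1x186.J1 s * N.fR Q P s) -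
        ∑ m ∈ Finset.Ioc k0 M, ci (-(m : ℂ)) (1 / 4) (fun s => G1x186.J1 s * N.fR Q P s)) := by
  have h1 := tail_g_sites (P := Q * P) (den_ne_zero N) (den_halfRoots N) hd k0 M
    (fun m hm => den_neg_ne N hM hm) hc hc3
  have h2 := h1.mul_left ((2 * π * I : ℂ)⁻¹)
  have h3 := split_off (f := fun l => ci (PsiJ.ce l) (1 / 4)
      (fun s => G1x186.J1 s * N.fR Q P s)) k0 h (B := _) (by
    refine h2.congr_fun ?_
    intro l
    unfold ci
    simp only [fR_eval])
  rw [h3]
  simp only [fR_eval, ci, mul_sub, Finset.mul_sum]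

/-! ### the denominator at a point -/

open Classical in
/-- multiplicity of the denominator at `y` -/
def mAt (y : ℂ) : ℕ := ∑ i ∈ (Finset.univ \ N.W).filter (fun i => N.z i = y), N.mul i

open Classical in
/-- denominator without the nodes at `y` -/
def denAt (y : ℂ) : ℂ[X] :=
  ∏ i ∈ (Finset.univ \ N.W).filter (fun i => ¬ N.z i = y), (X - C (N.z i)) ^ (N.mul i)

lemma den_eq_at (y : ℂ) : N.den = (X - C y) ^ (mAt N y) * denAt N y := by
  classical
  unfold Nodes.den NSoff denAt mAt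
  rw [← Finset.prod_filter_mul_prod_filter_not (Finset.univ \ N.W) (fun i => N.z i = y)]
  congr 1
  rw [← Finset.prod_pow_eq_pow_sum]
  refine Finset.prod_congr rfl fun i hi => ?_
  rw [(Finset.mem_filter.mp hi).2]

lemma denAt_ne {y s : ℂ} (hy : ∃ k : ℤ, y = (k : ℂ) / 2) (hs : ‖s - y‖ ≤ 1 / 4) :
    (denAt N y).eval s ≠ 0 := by
  classical
  unfold denAt
  rw [eval_prod, Finset.prod_ne_zero_iff]
  intro i hi
  rw [eval_pow, eval_sub, eval_X, eval_C]
  refine pow_ne_zero _ (sub_ne_zero.mpr ?_)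
  rintro rfl
  obtain ⟨k, rfl⟩ := hy
  have h1 := (Finset.mem_filter.mp hi).2
  rw [z_eq] at h1 hs
  have hne : dbl i.1 ≠ k := by
    rintro rfl
    exact h1 rfl
  have := dist_half hne
  linarith

/-- **slots** of a circle: `JJ` the holomorphic part of the jump function `Jf` at `y`, pole of
order `q`. -/
theorem slot_eq (Jf JJ : ℂ → ℂ) {y : ℂ} (hy : ∃ k : ℤ, y = (k : ℂ) / 2) (q : ℕ)
    (hJ : ∀ s, ‖s - y‖ = 1 / 4 → Jf s = JJ s / (s - y) ^ q)
    (hd : ∀ s, ‖s - y‖ ≤ 1 / 4 → DifferentiableAt ℂ JJ s) (R' P : ℂ[X]) :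
    ci y (1 / 4) (fun s => Jf s * N.fR R' P s) =
      ∑ α ∈ Finset.range (q + mAt N y), tc y P α *
        cf y (1 / 4) (fun s => JJ s * R'.eval s / (denAt N y).eval s) (q + mAt N y - 1 - α) := by
  have hH : DifferentiableOn ℂ (fun s => JJ s * R'.eval s / (denAt N y).eval s)
      (closedBall y (1 / 4)) := by
    intro s hs
    rw [mem_closedBall, dist_eq_norm] at hs
    exact (((hd s hs).mul R'.differentiable.differentiableAt).div
      (denAt N y).differentiable.differentiableAt (denAt_ne N hy hs)).differentiableWithinAt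
  rw [← slot_form (by norm_num) hH P (q + mAt N y)]
  refine ci_congr (by norm_num) fun s hs => ?_
  rw [mem_sphere_iff_norm] at hs
  have h0 : s - y ≠ 0 := by
    intro h; rw [h, norm_zero] at hs; norm_num at hs
  have h1 := denAt_ne N hy hs.le
  rw [hJ s hs]
  unfold Nodes.fR
  rw [den_eq_at N y, eval_mul, eval_pow, eval_sub, eval_X, eval_C, pow_add]
  field_simp

/-- the slot coefficients are bounded by the jump function on the circle -/
theorem norm_slot_le (Jf JJ : ℂ → ℂ) {y : ℂ} (q : ℕ)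
    (hJ : ∀ s, ‖s - y‖ = 1 / 4 → Jf s = JJ s / (s - y) ^ q) (R' : ℂ[X]) {B : ℝ}
    (hB : ∀ s, ‖s - y‖ = 1 / 4 → ‖Jf s * (R'.eval s / N.den.eval s)‖ ≤ B) {α : ℕ}
    (hα : α < q + mAt N y) :
    ‖cf y (1 / 4) (fun s => JJ s * R'.eval s / (denAt N y).eval s) (q + mAt N y - 1 - α)‖ ≤
      B * (1 / 4) ^ (α + 1) := by
  have h1 : ‖cf y (1 / 4) (fun s => JJ s * R'.eval s / (denAt N y).eval s)
      (q + mAt N y - 1 - α)‖ ≤ (B * (1 / 4) ^ (q + mAt N y)) * ((1 / 4) ^ (q + mAt N y - 1 - α))⁻¹ := by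
    refine norm_cf_le (by norm_num) (fun s hs => ?_) _
    rw [mem_sphere_iff_norm] at hs
    have h0 : s - y ≠ 0 := by
      intro h; rw [h, norm_zero] at hs; norm_num at hs
    have h2 := hB s hs
    rw [hJ s hs, den_eq_at N y, eval_mul, eval_pow, eval_sub, eval_X, eval_C] at h2
    have e : JJ s * R'.eval s / (denAt N y).eval s =
        (JJ s / (s - y) ^ q * (R'.eval s / ((s - y) ^ mAt N y * (denAt N y).eval s))) *
          (s - y) ^ (q + mAt N y) := by
      rw [pow_add]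
      have h3 : (s - y) ^ q ≠ 0 := pow_ne_zero _ h0
      have h4 : (s - y) ^ mAt N y ≠ 0 := pow_ne_zero _ h0
      by_cases h5 : (denAt N y).eval s = 0
      · rw [h5]; simp
      · field_simp
    rw [e, norm_mul, norm_pow, hs]
    gcongr
  refine h1.trans (le_of_eq ?_)
  have e : q + mAt N y = (q + mAt N y - 1 - α) + (α + 1) := by omega
  have h6 : ((1 / 4 : ℝ)) ^ (q + mAt N y - 1 - α) ≠ 0 := by positivity
  calc B * (1 / 4) ^ (q + mAt N y) * ((1 / 4) ^ (q + mAt N y - 1 - α))⁻¹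
      = B * ((1 / 4) ^ ((q + mAt N y - 1 - α) + (α + 1))) *
          ((1 / 4) ^ (q + mAt N y - 1 - α))⁻¹ := by rw [← e]
    _ = B * (1 / 4) ^ (α + 1) := by
        rw [pow_add]
        field_simp

end Crest.Agent.R006.Fin576
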