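import Crest.Agent.R006.P3_Fin1_576
import Crest.Agent.R006.RepRC_724
import Crest.Agent.R006.P3_Defs_257
import Crest.Agent.R006.P3_Bridge_257
import Crest.Agent.R006.P3_Disc_390

/-!
# Row 6, P3: the sites of `Bord_89` as node data of helper724; the `R`-side formula (helper576)

* `lam_transfer`: sites of multiplicity `0` can be dropped.
* `nodes S u c`: the node data; `wprod n = ∏_{k<n} (X - ce k)`.
* `BR_formula`.
-/

set_option autoImplicit false

open Complex MeasureTheory Set Filter Topology Polynomial Metric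
open scoped Real

noncomputable section

namespace Crest.Agent.R006.Fin576

open Crest.Agent.R006.Base724 Crest.Agent.R006.Tail516 Crest.Agent.R006.P3Slot
open Crest.Agent.R006

/-! ### dropping sites of multiplicity zero -/

section transfer

variable {K : Type*} [Field K] {A : Type*} [CommRing A] [Algebra K A]
  {ι ι' : Type*} [Fintype ι] [DecidableEq ι] [Fintype ι'] [DecidableEq ι']
  (e : ι ↪ ι') (z' : ι' → K) (m' : ι' → ℕ)

lemma prod_transfer (h0 : ∀ i', i' ∉ Set.range e → m' i' = 0) (s : Finset ι') :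
    ∏ i' ∈ s, (X - C (z' i')) ^ (m' i') =
      ∏ i ∈ Finset.univ.filter (fun i => e i ∈ s), (X - C (z' (e i))) ^ (m' (e i)) := by
  classical
  have h1 : ∏ i ∈ Finset.univ.filter (fun i => e i ∈ s), (X - C (z' (e i))) ^ (m' (e i)) =
      ∏ i' ∈ (Finset.univ.filter (fun i => e i ∈ s)).map e, (X - C (z' i')) ^ (m' i') := by
    rw [Finset.prod_map]
  rw [h1]
  symm
  apply Finset.prod_subset
  · intro i' hi'
    rw [Finset.mem_map] at hi'
    obtain ⟨i, hi, rfl⟩ := hi'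
    exact (Finset.mem_filter.mp hi).2
  · intro i' hi' hn
    have : i' ∉ Set.range e := by
      rintro ⟨i, rfl⟩
      exact hn (Finset.mem_map.mpr ⟨i, Finset.mem_filter.mpr ⟨Finset.mem_univ _, hi'⟩, rfl⟩)
    rw [h0 _ this, pow_zero]

lemma NS_transfer (h0 : ∀ i', i' ∉ Set.range e → m' i' = 0) :
    Lam.NS (fun i => z' (e i)) (fun i => m' (e i)) = Lam.NS z' m' := by
  unfold Lam.NS
  rw [prod_transfer e z' m' h0]
  simp

lemma Nhat_transfer (h0 : ∀ i', i' ∉ Set.range e → m' i' = 0) (i : ι) :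
    Lam.Nhat (fun i => z' (e i)) (fun i => m' (e i)) i = Lam.Nhat z' m' (e i) := by
  unfold Lam.Nhat
  rw [prod_transfer e z' m' h0]
  apply Finset.prod_congr _ fun _ _ => rfl
  ext j
  simp

/-- bijection of the rows -/
def rowE (h0 : ∀ i', i' ∉ Set.range e → m' i' = 0) :
    Lam.Row (fun i => m' (e i)) ≃ Lam.Row m' :=
  Equiv.ofBijective (fun r => ⟨e r.1, r.2⟩) (by
    constructor
    · rintro ⟨i, j⟩ ⟨i', j'⟩ h
      simp only [Sigma.mk.injEq] at h
      obtain ⟨h1, h2⟩ := h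
      have h3 := e.injective h1
      subst h3
      rw [eq_of_heq h2]
    · rintro ⟨i', j⟩
      have : i' ∈ Set.range e := by
        by_contra h
        have := h0 _ h
        exact absurd j.2 (by omega)
      obtain ⟨i, rfl⟩ := this
      exact ⟨⟨i, j⟩, rfl⟩)

lemma u_transfer (h0 : ∀ i', i' ∉ Set.range e → m' i' = 0) (p : K[X])
    (r : Lam.Row (fun i => m' (e i))) :
    Lam.u (fun i => z' (e i)) (fun i => m' (e i)) p r = Lam.u z' m' p (rowE e m' h0 r) := by
  unfold Lam.u Lam.wt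
  rw [Nhat_transfer e z' m' h0]
  rfl

lemma lam_transfer (h0 : ∀ i', i' ∉ Set.range e → m' i' = 0) (p : K[X])
    (F : ι' → PowerSeries A) :
    Lam.lam (fun i => z' (e i)) (fun i => m' (e i)) p (fun i => F (e i)) = Lam.lam z' m' p F := by
  unfold Lam.lam
  rw [← (rowE e m' h0).sum_comp]
  refine Finset.sum_congr rfl fun r _ => ?_
  rw [u_transfer e z' m' h0]
  rfl

end transfer

/-! ### node data -/

variable (S : D.Shape) (u c : ℕ)

/-- the node data of the design -/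
def nodes : Nodes where
  A := (Bord.sites S u c).filter fun z => S.mult u c z ≠ 0
  m := S.mult u c
  hZ i hi := by
    simp only [D.Shape.mult, hi, if_true]
    split_ifs <;> omega
  hZ' i hi := by
    have h : ¬ 0 ≤ i := not_le.mpr hi
    simp only [D.Shape.mult, h, if_false]
    split_ifs <;> omega
  hH i hi := by
    simp only [D.Shape.mult, hi, if_true]
    split_ifs <;> omega
  hW i hA hi := by
    have h := (Finset.mem_filter.mp hA).2
    have h' : ¬ 0 ≤ i := not_le.mpr hi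
    simp only [D.Shape.mult, h', if_false] at h ⊢
    split_ifs at h ⊢ with h1
    · rfl
    · exact absurd rfl h

lemma mem_nodes {z : D.Site} : z ∈ (nodes S u c).A ↔ S.mult u c z ≠ 0 := by
  change z ∈ (Bord.sites S u c).filter (fun z => S.mult u c z ≠ 0) ↔ _
  rw [Finset.mem_filter]
  exact ⟨fun h => h.2, fun h => ⟨Bord.mem_sites_of_mult S u c h, h⟩⟩

/-- inclusion in the window of `Bord_89` -/
def inc : (nodes S u c).A ↪ Bord.St S u c where
  toFun i := ⟨i.1, (Finset.mem_filter.mp i.2).1⟩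
  inj' a b h := Subtype.ext (congrArg (fun x : Bord.St S u c => x.1) h)

lemma mm_zero (i' : Bord.St S u c) (h : i' ∉ Set.range (inc S u c)) : Bord.mm S u c i' = 0 := by
  by_contra h1
  apply h
  exact ⟨⟨i'.1, (mem_nodes S u c).mpr h1⟩, rfl⟩

lemma om_eq : Lam.NS (nodes S u c).z (nodes S u c).mul = P3.om S u c := by
  unfold P3.om
  rw [← NS_transfer (inc S u c) _ _ (mm_zero S u c)]
  rfl

lemma lamR_eq (P f : ℂ[X]) : P3.lamR S u c P f =
    Lam.lam (nodes S u c).z (nodes S u c).mul P (fun i : (nodes S u c).A => colRC f i.1) := by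
  unfold P3.lamR
  rw [← lam_transfer (inc S u c) _ _ (mm_zero S u c)]
  rfl

lemma lamQ_eq (P f : ℂ[X]) : P3.lamQ S u c P f =
    Lam.lam (nodes S u c).z (nodes S u c).mul P (fun i : (nodes S u c).A =>
      NV.gm ((nodes S u c).z i) f * PowerSeries.map (algebraMap ℚ ℂ) (D.gam i.1)) := by
  unfold P3.lamQ
  rw [← lam_transfer (inc S u c) _ _ (mm_zero S u c)]
  rfl

lemma sum_mul_nodes : ∑ i, (nodes S u c).mul i = S.rows * u + c := by
  have h1 : ∑ i, (nodes S u c).mul i = ∑ z ∈ (nodes S u c).A, S.mult u c z :=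
    Finset.sum_coe_sort (nodes S u c).A (fun z => S.mult u c z)
  have h2 : ∑ z ∈ (nodes S u c).A, S.mult u c z = ∑ z ∈ Bord.sites S u c, S.mult u c z := by
    apply Finset.sum_subset (Finset.filter_subset _ _)
    intro z hz hn
    by_contra h
    exact hn ((mem_nodes S u c).mpr h)
  have h3 : Fintype.card (Bord.Rw S u c) = ∑ z ∈ Bord.sites S u c, S.mult u c z := by
    rw [Fintype.card_sigma]
    simp only [Fintype.card_fin]
    exact Finset.sum_coe_sort (Bord.sites S u c) (fun z => S.mult u c z)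
  rw [h1, h2, ← h3, Bord.card_Rw]

/-- `∏_{k<n} (X - (-1/2-k))` -/
def wprod (n : ℕ) : ℂ[X] := ∏ k ∈ Finset.range n, (X - C (PsiJ.ce k))

lemma wprod_split {a b : ℕ} (h : a ≤ b) :
    wprod b = wprod a * ∏ k ∈ Finset.Ico a b, (X - C (PsiJ.ce k)) := by
  unfold wprod
  rw [← Finset.prod_range_mul_prod_Ico _ h]

lemma desc_map (n : ℕ) : (descPochhammer ℚ n).map (algebraMap ℚ ℂ) = descPochhammer ℂ n := by
  rw [descPochhammer_map]

/-- the half-integer factor of the gauge -/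
lemma gauge_half (n : ℕ) :
    ((descPochhammer ℚ n).comp (X + C ((n : ℕ) - 1 / 2 : ℚ))).map (algebraMap ℚ ℂ) = wprod n := by
  apply Polynomial.funext
  intro s
  rw [Polynomial.map_comp, desc_map, eval_comp, Polynomial.map_add, Polynomial.map_X,
    Polynomial.map_C, eval_add, eval_X, eval_C, descPochhammer_eval_eq_prod_range]
  unfold wprod
  rw [eval_prod, ← Finset.prod_range_reflect]
  refine Finset.prod_congr rfl fun k hk => ?_
  rw [Finset.mem_range] at hk
  rw [eval_sub, eval_X, eval_C]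
  unfold PsiJ.ce
  have e : ((n - 1 - k : ℕ) : ℂ) = (n : ℂ) - 1 - k := by
    rw [Nat.cast_sub (by omega), Nat.cast_sub (by omega)]
    simp
  rw [e]
  simp
  ring

/-- `rho` without the w-nodes -/
def rhoOff : ℂ[X] :=
  (∏ k ∈ Finset.Ico (S.w * u) (S.i1 * u), (X - C (PsiJ.ce k))) *
    (descPochhammer ℂ (S.a2 * u)
      * (descPochhammer ℂ (S.r1 * u)).comp (X + C ((S.r1 * u : ℕ) : ℂ))
      * descPochhammer ℂ (S.a1 * u))

lemma rhoC_eq {S : D.Shape} (hw : S.w ≤ S.i1) : P3.rhoC S u = wprod (S.w * u) * rhoOff S u := by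
  unfold P3.rhoC Bord.rho rhoOff
  rw [Polynomial.map_mul, Polynomial.map_mul, Polynomial.map_mul, gauge_half, desc_map, desc_map,
    Polynomial.map_comp, desc_map, Polynomial.map_add, Polynomial.map_X, Polynomial.map_C,
    wprod_split (Nat.mul_le_mul_right u hw)]
  have e : (algebraMap ℚ ℂ) ((S.r1 * u : ℕ) : ℚ) = ((S.r1 * u : ℕ) : ℂ) := by
    rw [map_natCast]
  rw [e]
  ring

/-! ### w-nodes, stars, e-nodes -/

/-- the w-node `-1/2-k` -/
def wN {k : ℕ} (hk : k < S.w * u) : (nodes S u c).A :=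
  ⟨D.Site.H (-(k : ℤ) - 1), (mem_nodes S u c).mpr (by
    have h : ¬ (0 : ℤ) ≤ -(k : ℤ) - 1 := by omega
    have h2 : -(-(k : ℤ) - 1) ≤ (S.w : ℤ) * u := by
      have : ((k : ℤ)) < (S.w * u : ℕ) := by exact_mod_cast hk
      push_cast at this
      omega
    simp only [D.Shape.mult, h, if_false, h2, if_true]
    exact one_ne_zero)⟩

lemma z_wN {k : ℕ} (hk : k < S.w * u) : (nodes S u c).z (wN S u c hk) = PsiJ.ce k := by
  unfold Nodes.z PsiJ.ce wN
  simp [D.Site.val]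
  ring

lemma mem_W {i : (nodes S u c).A} : i ∈ (nodes S u c).W ↔ IsW i.1 := by
  unfold Nodes.W
  simp

lemma mem_St {i : (nodes S u c).A} : i ∈ (nodes S u c).St ↔ IsSt i.1 := by
  unfold Nodes.St
  simp

lemma exists_wN {i : (nodes S u c).A} (hi : i ∈ (nodes S u c).W) :
    ∃ (k : ℕ) (hk : k < S.w * u), i = wN S u c hk := by
  rw [mem_W] at hi
  obtain ⟨i, hiA⟩ := i
  rcases i with j | j
  · exact absurd hi id
  · have hj : j < 0 := hi
    have hm := (mem_nodes S u c).mp hiA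
    have h' : ¬ 0 ≤ j := not_le.mpr hj
    simp only [D.Shape.mult, h', if_false] at hm
    have h2 : -j ≤ (S.w : ℤ) * u := by
      by_contra h3
      rw [if_neg h3] at hm
      exact hm rfl
    obtain ⟨k, hk⟩ := Int.eq_ofNat_of_zero_le (show 0 ≤ -j - 1 by omega)
    have hj2 : j = -(k : ℤ) - 1 := by omega
    subst hj2
    refine ⟨k, ?_, rfl⟩
    have : ((k : ℤ)) < (S.w * u : ℕ) := by push_cast; omega
    exact_mod_cast this

/-- a product over the w-nodes -/
lemma prod_W {M : Type*} [CommMonoid M] (g : ℂ → M) :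
    ∏ i ∈ (nodes S u c).W, g ((nodes S u c).z i) = ∏ k ∈ Finset.range (S.w * u), g (PsiJ.ce k) := by
  symm
  refine Finset.prod_bij (fun k hk => wN S u c (Finset.mem_range.mp hk)) ?_ ?_ ?_ ?_
  · intro k hk
    rw [mem_W]
    show -(k : ℤ) - 1 < 0
    omega
  · intro a _ b _ h
    have h1 := congrArg (fun x : (nodes S u c).A => x.1) h
    simp only [wN, D.Site.H.injEq] at h1
    omega
  · intro i hi
    obtain ⟨k, hk, rfl⟩ := exists_wN S u c hi
    exact ⟨k, Finset.mem_range.mpr hk, rfl⟩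
  · intro k hk
    rw [z_wN]

variable {S} in
lemma mult_H (hS : S.Good) (l : ℕ) : S.mult u c (D.Site.H l) ≠ 0 ↔ l < S.h1 * u := by
  have h1 := Nat.mul_le_mul_right u hS.h32
  have h2 := Nat.mul_le_mul_right u hS.h21
  have h0 : (0 : ℤ) ≤ (l : ℤ) := Int.natCast_nonneg l
  simp only [D.Shape.mult, h0, if_true]
  have e1 : ((l : ℤ) < (S.h1 : ℤ) * u) ↔ l < S.h1 * u := by exact_mod_cast Iff.rfl
  have e2 : ((l : ℤ) < (S.h2 : ℤ) * u) ↔ l < S.h2 * u := by exact_mod_cast Iff.rfl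
  have e3 : ((l : ℤ) < (S.h3 : ℤ) * u) ↔ l < S.h3 * u := by exact_mod_cast Iff.rfl
  simp only [e1, e2, e3]
  split_ifs <;> omega

variable {S} in
/-- the star node `k + 1/2` -/
def sN (hS : S.Good) {k : ℕ} (hk : k < S.h1 * u) : (nodes S u c).A :=
  ⟨D.Site.H k, (mem_nodes S u c).mpr ((mult_H u c hS k).mpr hk)⟩

variable {S} in
lemma z_sN (hS : S.Good) {k : ℕ} (hk : k < S.h1 * u) :
    (nodes S u c).z (sN u c hS hk) = Base724.star k := by
  unfold Nodes.z Base724.star sN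
  simp [D.Site.val]

variable {S} in
lemma exists_sN (hS : S.Good) {i : (nodes S u c).A} (hi : i ∈ (nodes S u c).St) :
    ∃ (k : ℕ) (hk : k < S.h1 * u), i = sN u c hS hk := by
  rw [mem_St] at hi
  obtain ⟨i, hiA⟩ := i
  obtain ⟨l, rfl⟩ := IsSt.exists hi
  exact ⟨l, (mult_H u c hS l).mp ((mem_nodes S u c).mp hiA), rfl⟩

variable {S} in
/-- a sum over the star nodes -/
lemma sum_St (hS : S.Good) (g : ℂ → ℂ) :
    ∑ i ∈ (nodes S u c).St, g ((nodes S u c).z i) = ∑ k ∈ Finset.range (S.h1 * u), g (Base724.star k) := by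
  symm
  refine Finset.sum_bij (fun k hk => sN u c hS (Finset.mem_range.mp hk)) ?_ ?_ ?_ ?_
  · intro k hk
    rw [mem_St]
    exact Int.natCast_nonneg k
  · intro a _ b _ h
    have h1 := congrArg (fun x : (nodes S u c).A => x.1) h
    simp only [sN, D.Site.H.injEq] at h1
    omega
  · intro i hi
    obtain ⟨k, hk, rfl⟩ := exists_sN u c hS hi
    exact ⟨k, Finset.mem_range.mpr hk, rfl⟩
  · intro k hk
    rw [z_sN]

variable {S} in
lemma mul_St_ne : ∀ i ∈ (nodes S u c).St, (nodes S u c).mul i ≠ 0 := by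
  intro i _
  exact (mem_nodes S u c).mp i.2

lemma freeLeft {S : D.Shape} (hS : S.Good) : FreeLeft (nodes S u c) (S.e1 * u) := by
  have h1 := Nat.mul_le_mul_right u hS.e32
  have h2 := Nat.mul_le_mul_right u hS.e21
  intro m hm hmem
  apply (mem_nodes S u c).mp hmem
  have h : ¬ (0 : ℤ) ≤ -(m : ℤ) := by omega
  simp only [D.Shape.mult, h, if_false]
  have e1 : (- -(m : ℤ) ≤ (S.e1 : ℤ) * u) ↔ m ≤ S.e1 * u := by
    rw [neg_neg]; exact_mod_cast Iff.rfl
  have e2 : (- -(m : ℤ) ≤ (S.e2 : ℤ) * u) ↔ m ≤ S.e2 * u := by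
    rw [neg_neg]; exact_mod_cast Iff.rfl
  have e3 : (- -(m : ℤ) ≤ (S.e3 : ℤ) * u) ↔ m ≤ S.e3 * u := by
    rw [neg_neg]; exact_mod_cast Iff.rfl
  simp only [e1, e2, e3]
  split_ifs <;> omega

/-! ### the `R`-side -/

/-- `Φ_R = JR · (ρ f) · P / ω_S` -/
def PhiRf (P f : ℂ[X]) (s : ℂ) : ℂ :=
  P3.JR s * ((P3.rhoC S u * f).eval s * P.eval s / (P3.om S u c).eval s)

variable {S} in
lemma rhoC_fac (hw : S.w ≤ S.i1) (f : ℂ[X]) : P3.rhoC S u * f =
    (∏ i ∈ (nodes S u c).W, (X - C ((nodes S u c).z i))) * (rhoOff S u * f) := by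
  rw [rhoC_eq u hw, prod_W S u c (fun x => X - C x), wprod, mul_assoc]

variable {S} in
/-- off the half integers `Φ_R` is `JR · fR` -/
lemma PhiRf_eq (hw : S.w ≤ S.i1) (P f : ℂ[X]) {s : ℂ} (hs : ∀ i, s ≠ (nodes S u c).z i) :
    P3.JR s * (nodes S u c).fR (rhoOff S u * f) P s = PhiRf S u c P f s := by
  unfold PhiRf
  rw [(nodes S u c).fRC_eq (rhoC_fac u c hw f) hs, om_eq]

/-- a point of a sphere of radius `1/4` around a half-integer point is not a node -/
lemma sphere_ne_node (N : Nodes) {y s : ℂ} (hy : ∃ k : ℤ, y = (k : ℂ) / 2) (hs : ‖s - y‖ = 1 / 4)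
    (i : N.A) : s ≠ N.z i := by
  rintro rfl
  obtain ⟨k, rfl⟩ := hy
  rw [z_eq] at hs
  by_cases h : dbl i.1 = k
  · rw [h] at hs; simp at hs
  · have := dist_half h
    linarith

lemma far_ne_node (N : Nodes) {s : ℂ} (hs : Far s) (i : N.A) : s ≠ N.z i := by
  rintro rfl
  have := hs (dbl i.1)
  rw [z_eq, sub_self, norm_zero] at this
  norm_num at this

lemma ce_half (l : ℕ) : ∃ k : ℤ, PsiJ.ce l = (k : ℂ) / 2 := by
  refine ⟨-(2 * (l : ℤ)) - 1, ?_⟩
  unfold PsiJ.ce; push_cast; ring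

lemma star_half (l : ℕ) : ∃ k : ℤ, Base724.star l = (k : ℂ) / 2 := by
  refine ⟨2 * (l : ℤ) + 1, ?_⟩
  unfold Base724.star; push_cast; ring

lemma neg_half (m : ℕ) : ∃ k : ℤ, (-(m : ℂ)) = (k : ℂ) / 2 := by
  refine ⟨-(2 * (m : ℤ)), ?_⟩
  push_cast; ring

variable {S} in
lemma ci_PhiR (hw : S.w ≤ S.i1) (P f : ℂ[X]) {y : ℂ} (hy : ∃ k : ℤ, y = (k : ℂ) / 2) :
    ci y (1 / 4) (fun s => P3.JR s * (nodes S u c).fR (rhoOff S u * f) P s) =
      ci y (1 / 4) (PhiRf S u c P f) := by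
  refine ci_congr (by norm_num) fun s hs => ?_
  rw [mem_sphere_iff_norm] at hs
  exact PhiRf_eq u c hw P f (sphere_ne_node _ hy hs)

/-- the two rays see only far points -/
lemma rays_congr {k0 : ℕ} {c : ℝ} (hc3 : c ^ 2 ≤ 3) {Φ Ψ : ℂ → ℂ}
    (h : ∀ s, Far s → Φ s = Ψ s) : rays k0 c Φ = rays k0 c Ψ := by
  unfold rays
  have h1 : ∀ t : ℝ, Φ (-(((k0 : ℝ) + 1 / 4 : ℝ) : ℂ) + t * (-c + I)) =
      Ψ (-(((k0 : ℝ) + 1 / 4 : ℝ) : ℂ) + t * (-c + I)) := fun t =>
    h _ (far_ray (t := t) hc3 (Or.inl rfl))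
  have h2 : ∀ t : ℝ, Φ (-(((k0 : ℝ) + 1 / 4 : ℝ) : ℂ) + t * (-c - I)) =
      Ψ (-(((k0 : ℝ) + 1 / 4 : ℝ) : ℂ) + t * (-c - I)) := fun t =>
    h _ (far_ray (t := t) hc3 (Or.inr rfl))
  simp only [h1, h2]

variable {S} in
/-- **REP, `R`-side, on 257's functional.** -/
theorem BR_formula (hS : S.Good) (P f : ℂ[X]) (hP : P.natDegree < S.rows * u + c) (X0 : ℕ)
    {a : ℝ} (ha : 0 < a) (ha3 : a ^ 2 ≤ 3) :
    P3.BR S u c P f = -(∑ l ∈ Finset.range X0, ci (PsiJ.ce l) (1 / 4) (PhiRf S u c P f) +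
      ∑ l ∈ Finset.range (S.h1 * u), ci (Base724.star l) (1 / 4) (PhiRf S u c P f) -
      ∑ m ∈ Finset.Ioc X0 (S.e1 * u), ci (-(m : ℂ)) (1 / 4) (PhiRf S u c P f) +
      (2 * π * I)⁻¹ * rays X0 a (PhiRf S u c P f)) := by
  have hdeg : P.degree < (∑ i, (nodes S u c).mul i : ℕ) := by
    rw [sum_mul_nodes]
    refine lt_of_le_of_lt degree_le_natDegree ?_
    exact_mod_cast hP
  have h1 := (nodes S u c).repC (rhoC_fac u c hS.wi f) hdeg (mul_St_ne u c)
  have h2 := psi_value (nodes S u c) PsiJ.vv (rhoOff S u * f) P h1 X0 (S.e1 * u) (freeLeft u c hS)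
    ha ha3
  have h3 : P3.BR S u c P f = P3.lamR S u c P (P3.rhoC S u * f) := rfl
  rw [h3, lamR_eq]
  have h4 : ∑ i ∈ (nodes S u c).St, (2 * (Real.pi : ℂ) * Complex.I)⁻¹ *
      ∮ s in C((nodes S u c).z i, 1 / 4), PsiJ.J PsiJ.vv s *
        (nodes S u c).fR (rhoOff S u * f) P s =
      ∑ l ∈ Finset.range (S.h1 * u), ci (Base724.star l) (1 / 4) (PhiRf S u c P f) := by
    rw [sum_St u c hS (fun y => (2 * (Real.pi : ℂ) * Complex.I)⁻¹ *
      ∮ s in C(y, 1 / 4), PsiJ.J PsiJ.vv s * (nodes S u c).fR (rhoOff S u * f) P s)]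
    refine Finset.sum_congr rfl fun l _ => ?_
    exact ci_PhiR u c hS.wi P f (star_half l)
  rw [h4] at h2
  have h5 : ∑ l ∈ Finset.range X0, ci (PsiJ.ce l) (1 / 4)
      (fun s => PsiJ.J PsiJ.vv s * (nodes S u c).fR (rhoOff S u * f) P s) =
      ∑ l ∈ Finset.range X0, ci (PsiJ.ce l) (1 / 4) (PhiRf S u c P f) :=
    Finset.sum_congr rfl fun l _ => ci_PhiR u c hS.wi P f (ce_half l)
  have h6 : ∑ m ∈ Finset.Ioc X0 (S.e1 * u), ci (-(m : ℂ)) (1 / 4)
      (fun s => PsiJ.J PsiJ.vv s * (nodes S u c).fR (rhoOff S u * f) P s) =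
      ∑ m ∈ Finset.Ioc X0 (S.e1 * u), ci (-(m : ℂ)) (1 / 4) (PhiRf S u c P f) :=
    Finset.sum_congr rfl fun m _ => ci_PhiR u c hS.wi P f (neg_half m)
  have h7 : rays X0 a (fun s => PsiJ.J PsiJ.vv s * (nodes S u c).fR (rhoOff S u * f) P s) =
      rays X0 a (PhiRf S u c P f) :=
    rays_congr ha3 fun s hs => PhiRf_eq u c hS.wi P f (far_ne_node _ hs)
  rw [h5, h6, h7] at h2
  linear_combination -h2

end Crest.Agent.R006.Fin576
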