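import Crest.Agent.R006.P3_Gen2_390

/-!
# Row 6, block P3: `Disc` + the leaves imply the bound at every level `v` (helper390)
-/

set_option autoImplicit false

namespace Crest.Agent.R006.P3

open Crest.Agent.R006.D Crest.Agent.R006.Cert Crest.Agent.R006.NumSegx464
  Crest.Agent.R006.ConstX673 Complex

/-! ### the two weights -/

lemma NSn_nonneg (S : Shape) (u c : ℕ) (s : ℂ) : 0 ≤ NSn S u c s :=
  Finset.prod_nonneg fun _ _ => pow_nonneg (norm_nonneg _) _

lemma rhon_nonneg (S : Shape) (u : ℕ) (s : ℂ) : 0 ≤ rhon S u s := by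
  unfold rhon
  have h : ∀ (n : ℕ) (f : ℕ → ℂ), 0 ≤ ∏ m ∈ Finset.range n, ‖f m‖ :=
    fun n f => Finset.prod_nonneg fun _ _ => norm_nonneg _
  have := h (S.a1 * u) (fun n => s - n)
  have := h (S.a2 * u) (fun n => s - n)
  have := h (S.i1 * u) (fun m => s + ((m : ℂ) + 1 / 2))
  have := h (S.r1 * u) (fun m => s + ((m : ℂ) + 1))
  positivity

lemma wtR_nonneg (S : Shape) (u c : ℕ) (s : ℂ) : 0 ≤ wtR S u c s :=
  div_nonneg (mul_nonneg (rhon_nonneg _ _ _) (Real.exp_pos _).le) (NSn_nonneg _ _ _ _)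

lemma wtQ_nonneg (S : Shape) (u c : ℕ) (s : ℂ) : 0 ≤ wtQ S u c s :=
  div_nonneg (Real.exp_pos _).le (NSn_nonneg _ _ _ _)

/-- total mass of the gauge per unit `v` -/
def mG (S : Shape) (K : ℕ) : ℕ := K * (S.a1 + S.a2 + S.i1 + S.r1)

theorem wtR_Wt (S : Shape) (K c : ℕ) (hN : NodesGe S K c) (hρ : RhoLe S K) :
    Wt (LG S K) (LS S K) (mG S K) ((K * S.rows : ℕ) : ℝ) (Real.log 8) Real.pi
      (fun v s => wtR S (K * v) c s) := by
  refine ⟨fun v s => wtR_nonneg _ _ _ _, ?_⟩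
  obtain ⟨C1, h1, H1⟩ := hN
  obtain ⟨C2, h2, H2⟩ := hρ
  refine ⟨C1 + C2, by positivity, fun v hv s hs => ?_⟩
  have e1 := H1 v hv s hs
  have e2 := H2 v hv s
  have hpos : 0 < NSn S (K * v) c s := lt_of_lt_of_le (Real.exp_pos _) e1
  simp only [wtR]
  rw [div_le_iff₀ hpos]
  calc rhon S (K * v) s * Real.exp (s.re * Real.log 8 - Real.pi * |s.im|)
      ≤ Real.exp (v * ((K * (S.a1 + S.a2 + S.i1 + S.r1) : ℕ) * Real.log v
          + potL (LG S K) (s / v)) + C2 * er v s)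
          * Real.exp (s.re * Real.log 8 - Real.pi * |s.im|) :=
        mul_le_mul_of_nonneg_right e2 (Real.exp_pos _).le
    _ = Real.exp (v * (((mG S K : ℕ) - ((K * S.rows : ℕ) : ℝ)) * Real.log v
          + potL (LG S K) (s / v) - potL (LS S K) (s / v))
          + (Real.log 8 * s.re - Real.pi * |s.im|) + (C1 + C2) * er v s)
        * Real.exp (v * ((K * S.rows : ℕ) * Real.log v + potL (LS S K) (s / v)) - C1 * er v s) := by
        rw [← Real.exp_add, ← Real.exp_add]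
        congr 1
        unfold mG
        ring
    _ ≤ _ := mul_le_mul_of_nonneg_left e1 (Real.exp_pos _).le

theorem wtQ_Wt (S : Shape) (K c : ℕ) (hN : NodesGe S K c) :
    Wt [] (LS S K) 0 ((K * S.rows : ℕ) : ℝ) 0 (2 * Real.pi)
      (fun v s => wtQ S (K * v) c s) := by
  refine ⟨fun v s => wtQ_nonneg _ _ _ _, ?_⟩
  obtain ⟨C1, h1, H1⟩ := hN
  refine ⟨C1, by positivity, fun v hv s hs => ?_⟩
  have e1 := H1 v hv s hs
  have hpos : 0 < NSn S (K * v) c s := lt_of_lt_of_le (Real.exp_pos _) e1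
  simp only [wtQ, potL]
  rw [div_le_iff₀ hpos]
  calc Real.exp (-(2 * Real.pi * |s.im|))
      = Real.exp (v * ((0 - ((K * S.rows : ℕ) : ℝ)) * Real.log v
          + 0 - potL (LS S K) (s / v))
          + (0 * s.re - 2 * Real.pi * |s.im|) + C1 * er v s)
        * Real.exp (v * ((K * S.rows : ℕ) * Real.log v + potL (LS S K) (s / v)) - C1 * er v s) := by
        rw [← Real.exp_add]
        congr 1
        ring
    _ ≤ _ := mul_le_mul_of_nonneg_left e1 (Real.exp_pos _).le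

theorem modPot_nil : ModPot [] := ⟨0, le_refl _, fun v _ s s' _ => by simp [potL]⟩

/-- `PhiR` in the generic form -/
lemma PhiR_eq' (S : Shape) (d : Data) (s : ℂ) :
    PhiR S d s = Phi (segs (d.K * S.w) d.W) (segs (d.K * S.w) d.Z) (LG S d.K) (LS S d.K)
      (Real.log 8) Real.pi s := rfl

/-- `PhiQ` in the generic form -/
lemma PhiQ_eq' (S : Shape) (d : Data) (s : ℂ) :
    PhiQ S d s = Phi (segs (d.K * S.w) d.W) (segs (d.K * S.w) d.Y) [] (LS S d.K)
      0 (2 * Real.pi) s := by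
  simp [PhiQ, Phi, potL]

/-! ### slots -/

lemma ctr_abs (S : Shape) (u : ℕ) (k : Slot S u) :
    |ctr S u k| ≤ ((S.w + S.h1 + S.e1 : ℕ) : ℝ) * u := by
  rcases k with l | l | j
  · have h : ((l : ℕ) : ℝ) + 1 ≤ (S.w * u : ℕ) := by exact_mod_cast l.2
    have h0 : (0 : ℝ) ≤ ((l : ℕ) : ℝ) := Nat.cast_nonneg _
    simp only [ctr]
    rw [abs_neg, abs_of_nonneg (by linarith)]
    push_cast at h ⊢
    have : (0 : ℝ) ≤ ((S.h1 : ℝ) + S.e1) * u := by positivity
    nlinarith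
  · have h : ((l : ℕ) : ℝ) + 1 ≤ (S.h1 * u : ℕ) := by exact_mod_cast l.2
    have h0 : (0 : ℝ) ≤ ((l : ℕ) : ℝ) := Nat.cast_nonneg _
    simp only [ctr]
    rw [abs_of_nonneg (by linarith)]
    push_cast at h ⊢
    have : (0 : ℝ) ≤ ((S.w : ℝ) + S.e1) * u := by positivity
    nlinarith
  · have h : S.w * u + 1 + (j : ℕ) ≤ S.e1 * u := by
      have := j.2
      omega
    have h' : ((S.w * u + 1 + (j : ℕ) : ℕ) : ℝ) ≤ ((S.e1 * u : ℕ) : ℝ) := by exact_mod_cast h
    simp only [ctr]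
    rw [abs_neg, abs_of_nonneg (Nat.cast_nonneg _)]
    refine h'.trans ?_
    push_cast
    have : (0 : ℝ) ≤ ((S.w : ℝ) + S.h1) * u := by positivity
    nlinarith

lemma ctr_half (S : Shape) (u : ℕ) (k : Slot S u) : ∃ n : ℤ, ctr S u k = (n : ℝ) / 2 := by
  rcases k with l | l | j
  · exact ⟨-(2 * (l : ℕ) + 1), by simp only [ctr]; push_cast; ring⟩
  · exact ⟨2 * (l : ℕ) + 1, by simp only [ctr]; push_cast; ring⟩
  · exact ⟨-(2 * (S.w * u + 1 + (j : ℕ) : ℕ)), by simp only [ctr]; push_cast; ring⟩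

lemma ord_le (S : Shape) (u : ℕ) (k : Slot S u) : ord S u k ≤ 3 := by
  rcases k with l | l | j
  · exact le_refl _
  · simp only [ord]; split_ifs <;> omega
  · simp only [ord]; split_ifs <;> omega

lemma card_slot (S : Shape) (u : ℕ) :
    (Fintype.card (Slot S u) : ℝ) ≤ ((S.w + S.h1 + S.e1 : ℕ) : ℝ) * u := by
  have : Fintype.card (Slot S u) = S.w * u + (S.h1 * u + (S.e1 * u - S.w * u)) := by
    simp [Slot]
  rw [this]
  have h : S.w * u + (S.h1 * u + (S.e1 * u - S.w * u)) ≤ (S.w + S.h1 + S.e1) * u := by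
    have : (S.w + S.h1 + S.e1) * u = S.w * u + S.h1 * u + S.e1 * u := by ring
    omega
  exact_mod_cast h

/-- the product over the slots -/
lemma prod_slots_le (S : Shape) (u : ℕ) (a : Slot S u → ℝ) (b A : ℝ) (hb : 0 ≤ b)
    (hA : ∑ k, (ord S u k : ℝ) * max 0 (a k) ≤ A) (φ : Slot S u → ℝ)
    (hφ : ∀ k, φ k ≤ Real.exp (a k + b)) :
    ∏ k, (max 1 (φ k)) ^ ord S u k ≤
      Real.exp (A + 3 * b * (((S.w + S.h1 + S.e1 : ℕ) : ℝ) * u)) := by
  have h1 : ∀ k, (max 1 (φ k)) ^ ord S u k ≤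
      Real.exp ((ord S u k : ℝ) * max 0 (a k) + 3 * b) := by
    intro k
    have h2 : max 1 (φ k) ≤ Real.exp (max 0 (a k) + b) := by
      apply max_le
      · rw [← Real.exp_zero]
        exact Real.exp_le_exp.mpr (add_nonneg (le_max_left _ _) hb)
      · refine (hφ k).trans (Real.exp_le_exp.mpr ?_)
        linarith [le_max_right 0 (a k)]
    calc (max 1 (φ k)) ^ ord S u k ≤ (Real.exp (max 0 (a k) + b)) ^ ord S u k :=
          pow_le_pow_left₀ (by positivity) h2 _
      _ = Real.exp ((ord S u k : ℝ) * (max 0 (a k) + b)) := by rw [← Real.exp_nat_mul]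
      _ ≤ _ := by
          apply Real.exp_le_exp.mpr
          have h3 : (ord S u k : ℝ) ≤ 3 := by exact_mod_cast ord_le S u k
          nlinarith
  calc ∏ k, (max 1 (φ k)) ^ ord S u k
      ≤ ∏ k, Real.exp ((ord S u k : ℝ) * max 0 (a k) + 3 * b) :=
        Finset.prod_le_prod (fun k _ => by positivity) (fun k _ => h1 k)
    _ = Real.exp (∑ k, ((ord S u k : ℝ) * max 0 (a k) + 3 * b)) := (Real.exp_sum _ _).symm
    _ ≤ _ := by
        apply Real.exp_le_exp.mpr
        rw [Finset.sum_add_distrib, Finset.sum_const, Finset.card_univ, nsmul_eq_mul]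
        have := card_slot S u
        nlinarith

/-! ### crude bound of the test polynomials -/

lemma oth_crude {n : ℕ} (w : Fin n → ℂ) {M R : ℝ} {v : ℕ} (hv : 1 ≤ v) (hM : 0 ≤ M) (hR : 0 ≤ R)
    (hw : ∀ i, ‖w i‖ ≤ M * v) (i : Fin n) {s : ℂ} (hs : ‖s‖ ≤ R * v) {A : ℝ}
    (hn : (n : ℝ) ≤ A * v) :
    oth w i s ≤ Real.exp (A * (1 + Real.log (1 + R + M)) * (v * (1 + Real.log v))) := by
  have hv' : (1 : ℝ) ≤ v := by exact_mod_cast hv
  have hlv := log_nonneg' hv
  have hL : 0 ≤ Real.log (1 + R + M) := Real.log_nonneg (by linarith)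
  have h1 : oth w i s ≤ ∏ _j ∈ Finset.univ.erase i, Real.exp (Real.log (1 + R + M) + Real.log v) := by
    unfold oth
    apply Finset.prod_le_prod (fun _ _ => norm_nonneg _)
    intro j _
    rw [Real.exp_add, Real.exp_log (by linarith), Real.exp_log (by linarith)]
    calc ‖s - w j‖ ≤ ‖s‖ + ‖w j‖ := norm_sub_le _ _
      _ ≤ R * v + M * v := add_le_add hs (hw j)
      _ ≤ _ := by nlinarith
  refine h1.trans ?_
  rw [Finset.prod_const, ← Real.exp_nat_mul]
  apply Real.exp_le_exp.mpr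
  have h2 : (((Finset.univ.erase i).card : ℕ) : ℝ) ≤ n := by
    have : (Finset.univ.erase i).card ≤ n := by
      refine (Finset.card_erase_le).trans ?_
      simp
    exact_mod_cast this
  have h3 : Real.log (1 + R + M) + Real.log v ≤ (1 + Real.log (1 + R + M)) * (1 + Real.log v) := by
    nlinarith
  have h4 : (0 : ℝ) ≤ (1 + Real.log (1 + R + M)) * (1 + Real.log v) := by positivity
  calc (((Finset.univ.erase i).card : ℕ) : ℝ) * (Real.log (1 + R + M) + Real.log v)
      ≤ (A * v) * ((1 + Real.log (1 + R + M)) * (1 + Real.log v)) := by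
        apply mul_le_mul (h2.trans hn) h3 (by positivity)
        exact le_trans (Nat.cast_nonneg _) hn
    _ = _ := by ring

end Crest.Agent.R006.P3
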