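import Crest.Agent.R006.P3_Fin_390

/-!
# Row 6, block P3: `Disc` + the leaves imply `Claim` (helper390)
-/

set_option autoImplicit false



namespace Crest.Agent.R006.P3

open Crest.Agent.R006.D Crest.Agent.R006.Cert Crest.Agent.R006.NumSegx464
  Crest.Agent.R006.ConstX673 Complex

/-- everything `P3_Final` needs, for one shape, one certificate, one `c` -/
structure Leaves (S : Shape) (d : Data) (c : ℕ) : Prop where
  K_pos : 0 < d.K
  rows : S.q + S.g ≤ S.rows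
  disc : Disc S c
  W : RefPack ((d.K : ℤ) * S.w) d.W (d.K * (S.k + S.g)) c
  Z : RefPack ((d.K : ℤ) * S.w) d.Z (d.K * S.k) 0
  Y : RefPack ((d.K : ℤ) * S.w) d.Y (d.K * S.g) 0
  mW : ModPot (segs ((d.K : ℤ) * S.w) d.W)
  mZ : ModPot (segs ((d.K : ℤ) * S.w) d.Z)
  mY : ModPot (segs ((d.K : ℤ) * S.w) d.Y)
  mS : ModPot (LS S d.K)
  mG : ModPot (LG S d.K)
  nodes : NodesGe S d.K c
  rho : RhoLe S d.K
  sR : ∀ T : ℝ, 0 ≤ T → PhiR S d (ray S d T) ≤ (d.lR : ℝ) / d.D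
  sQ : ∀ T : ℝ, 0 ≤ T → PhiQ S d (ray S d T) ≤ (d.lQ : ℝ) / d.D
  tR : Tail (fun T => PhiR S d (ray S d T)) ((d.lR : ℝ) / d.D)
  tQ : Tail (fun T => PhiQ S d (ray S d T)) ((d.lQ : ℝ) / d.D)
  kap : KapLe S d.K c
  sym : SymPhi S d
  cells : Cells S d

lemma coef_zero (S : Shape) (K : ℕ) (h : S.q + S.g ≤ S.rows) :
    (K : ℝ) ^ 2 * kapA S
      + (K : ℝ) * S.k * (((K * (S.k + S.g) : ℕ) : ℝ) + ((K * S.k : ℕ) : ℝ) + (mG S K : ℝ)
          - ((K * S.rows : ℕ) : ℝ))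
      + (K : ℝ) * S.g * (((K * (S.k + S.g) : ℕ) : ℝ) + ((K * S.g : ℕ) : ℝ) + 0
          - ((K * S.rows : ℕ) : ℝ))
      - ((((K * (S.k + S.g) : ℕ) : ℝ)) ^ 2 / 2 + (((K * S.k : ℕ) : ℝ)) ^ 2 / 2
          + (((K * S.g : ℕ) : ℝ)) ^ 2 / 2) = 0 := by
  have hr : (S.rows : ℝ) = S.k + S.q + S.g := by
    have : S.rows = S.k + S.q + S.g := by
      unfold Shape.k; omega
    exact_mod_cast this
  unfold kapA mG
  push_cast
  rw [hr]
  ring

theorem level_bound {S : Shape} {d : Data} {c : ℕ} (H : Leaves S d c) :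
    ∃ C : ℝ, 0 ≤ C ∧ ∀ v : ℕ, 1 ≤ v → ∀ r : Col S (d.K * v) → D.Row, Adm S (d.K * v) c r →
      |Polynomial.aeval GG (Minor S (d.K * v) r)| ≤
        Real.exp ((v : ℝ) ^ 2 * alphaV S d + C * (v * (1 + Real.log v))) := by
  obtain ⟨CD, hCD, HD⟩ := H.disc
  obtain ⟨CW, MW, hCW, hMW, HW⟩ := H.W
  obtain ⟨CZ, MZ, hCZ, hMZ, HZ⟩ := H.Z
  obtain ⟨CY, MY, hCY, hMY, HY⟩ := H.Y
  obtain ⟨Ck, hCk, Hk⟩ := H.kap
  obtain ⟨Cc, hCc, Hc⟩ := H.cells
  have hWtR := wtR_Wt S d.K c H.nodes H.rho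
  have hWtQ := wtQ_Wt S d.K c H.nodes
  set P1 := segs ((d.K : ℤ) * S.w) d.W with hP1
  set P2 := segs ((d.K : ℤ) * S.w) d.Z with hP2
  set P3 := segs ((d.K : ℤ) * S.w) d.Y with hP3
  set m1 : ℝ := ((d.K * (S.k + S.g) : ℕ) : ℝ) with hm1
  set m2 : ℝ := ((d.K * S.k : ℕ) : ℝ) with hm2
  set m3 : ℝ := ((d.K * S.g : ℕ) : ℝ) with hm3
  set mN : ℝ := ((d.K * S.rows : ℕ) : ℝ) with hmN
  set lR : ℝ := (d.lR : ℝ) / d.D with hlR
  set lQ : ℝ := (d.lQ : ℝ) / d.D with hlQ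
  obtain ⟨CR, hCR, HR⟩ := ray_gen S d P1 P2 (LG S d.K) (LS S d.K) m1 m2 (mG S d.K) mN
    (Real.log 8) Real.pi lR CW CZ hCW hCZ _ hWtR H.mW H.mZ H.mG H.mS H.sR H.tR
    (fun s => (H.sym s).1)
  obtain ⟨CQ, hCQ, HQ⟩ := ray_gen S d P1 P3 [] (LS S d.K) m1 m3 0 mN
    0 (2 * Real.pi) lQ CW CY hCW hCY _ hWtQ H.mW H.mY modPot_nil H.mS
    (fun T hT => by rw [← PhiQ_eq']; exact H.sQ T hT)
    (by have := H.tQ; simpa only [PhiQ_eq'] using this)
    (fun s => by rw [← PhiQ_eq', ← PhiQ_eq']; exact (H.sym s).2)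
  -- the circles
  set Rs : ℝ := ((S.w + S.h1 + S.e1 : ℕ) : ℝ) * d.K with hRs
  have hRs0 : 0 ≤ Rs := by positivity
  obtain ⟨Cm, hCm, Hm⟩ := circW_gen P1 m1 CW Rs hCW hRs0 H.mW
  obtain ⟨Cr, hCr, Hr⟩ := circZ_gen P1 P2 (LG S d.K) (LS S d.K) m2 (mG S d.K) mN
    (Real.log 8) Real.pi CZ Rs hCZ hRs0 _ hWtR H.mW H.mZ H.mG H.mS
  obtain ⟨Cq, hCq, Hq⟩ := circZ_gen P1 P3 [] (LS S d.K) m3 0 mN
    0 (2 * Real.pi) CY Rs hCY hRs0 _ hWtQ H.mW H.mY modPot_nil H.mS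
  -- units
  set Ru : ℝ := ((S.B + S.e1 + S.h1 + S.w + 1 : ℕ) : ℝ) * d.K + c + 1 with hRu
  have hRu0 : 0 ≤ Ru := by positivity
  set A : ℝ := ((d.K * (S.k + S.g) + c : ℕ) : ℝ) with hA
  have hA0 : 0 ≤ A := by positivity
  set CH : ℝ := A * (1 + Real.log (1 + Ru + MW)) with hCH
  have hCH0 : 0 ≤ CH := by
    have : 0 ≤ Real.log (1 + Ru + MW) := Real.log_nonneg (by linarith)
    positivity
  have hKr : (1 : ℝ) ≤ d.K := by exact_mod_cast H.K_pos
  have hlogK : 0 ≤ Real.log (d.K : ℝ) := Real.log_nonneg hKr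
  set Ct : ℝ := CD * (d.K * (1 + Real.log d.K)) + Ck + d.K * S.k * CR + d.K * S.g * CQ + c * CH
    + (Cc + 3 * (Cm + (Cr + Cq)) * (((S.w + S.h1 + S.e1 : ℕ) : ℝ) * d.K)) + (CW + CZ + CY) with hCt
  refine ⟨Ct, by positivity, fun v hv r hr => ?_⟩
  have hv' : (1 : ℝ) ≤ v := by exact_mod_cast hv
  have hv0 : (0 : ℝ) < v := by linarith
  have hLv := log_nonneg' hv
  set L := Real.log (v : ℝ) with hL
  obtain ⟨w, hwi, hwM, hwV, hwO⟩ := HW v hv
  obtain ⟨z, hzi, hzM, hzV, hzO⟩ := HZ v hv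
  obtain ⟨y, hyi, hyM, hyV, hyO⟩ := HY v hv
  have hu : 1 ≤ d.K * v := Nat.mul_pos H.K_pos hv
  -- the levels
  set aR : ℝ := m1 + m2 + (mG S d.K : ℝ) - mN with haR
  set aQ : ℝ := m1 + m3 + 0 - mN with haQ
  set LR : ℝ := Real.exp (v * lR + aR * (v * L) + CR * (1 + L)) with hLR
  set LQ : ℝ := Real.exp (v * lQ + aQ * (v * L) + CQ * (1 + L)) with hLQ
  set HH : ℝ := Real.exp (CH * (v * (1 + L))) with hHH
  set xk : Slot S (d.K * v) → ℝ := fun k => ctr S (d.K * v) k / v with hxk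
  set μ : Slot S (d.K * v) → ℝ := fun k =>
    Real.exp (v * (m1 * L + potL P1 ((xk k : ℝ) : ℂ)) + Cm * (1 + L)) with hμ
  set ν : Slot S (d.K * v) → ℝ := fun k =>
    Real.exp (-(v * (m1 * L + potL P1 ((xk k : ℝ) : ℂ))) + v * slotG S d (xk k)
      + (Cr + Cq) * (1 + L)) with hν
  have hctr : ∀ k : Slot S (d.K * v), |ctr S (d.K * v) k| ≤ Rs * v := by
    intro k
    have := ctr_abs S (d.K * v) k
    push_cast at this ⊢
    rw [hRs]; push_cast
    linarith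
  have key := HD (d.K * v) hu r hr (Fin _) (Fin _) (Fin _) w z y hwi hzi hyi
    (by rw [Fintype.card_fin]; ring) (by rw [Fintype.card_fin]; ring)
    (by rw [Fintype.card_fin]; ring) LR LQ HH μ ν (Real.exp_pos _) (Real.exp_pos _)
    (Real.exp_pos _) (fun k => Real.exp_pos _) (fun k => (Real.exp_pos _).le)
    (fun i j t ht e he => HR v hv w z hwO hzO i j t ht e he)
    (fun i j t ht e he => HQ v hv w y hwO hyO i j t ht e he)
    (fun k i s hs => Hm v hv w hwO i _ (hctr k) s hs)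
    (fun k j s hs => by
      refine (Hr v hv z hzO j _ (hctr k) (ctr_half _ _ k) s hs).trans ?_
      simp only [hν, hLR]
      rw [← Real.exp_add]
      apply Real.exp_le_exp.mpr
      have h1 : PhiR S d ((xk k : ℝ) : ℂ) ≤ slotG S d (xk k) + lR := by
        have := le_max_left (PhiR S d ((xk k : ℝ) : ℂ) - lR) (PhiQ S d ((xk k : ℝ) : ℂ) - lQ)
        unfold slotG
        linarith
      have h2 := mul_le_mul_of_nonneg_left h1 hv0.le
      rw [PhiR_eq'] at h2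
      have h3 : (0 : ℝ) ≤ (Cq + CR) * (1 + L) := by positivity
      simp only [hxk] at h2 ⊢
      simp only [haR]
      linarith only [h2, h3])
    (fun k j s hs => by
      refine (Hq v hv y hyO j _ (hctr k) (ctr_half _ _ k) s hs).trans ?_
      simp only [hν, hLQ]
      rw [← Real.exp_add]
      apply Real.exp_le_exp.mpr
      have h1 : PhiQ S d ((xk k : ℝ) : ℂ) ≤ slotG S d (xk k) + lQ := by
        have := le_max_right (PhiR S d ((xk k : ℝ) : ℂ) - lR) (PhiQ S d ((xk k : ℝ) : ℂ) - lQ)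
        unfold slotG
        linarith
      have h2 := mul_le_mul_of_nonneg_left h1 hv0.le
      rw [PhiQ_eq'] at h2
      have h3 : (0 : ℝ) ≤ (Cr + CQ) * (1 + L) := by positivity
      simp only [hxk] at h2 ⊢
      simp only [haQ]
      linarith only [h2, h3])
    (fun i s hs => by
      have hsR : ‖s‖ ≤ Ru * v := by
        refine hs.trans ?_
        rw [hRu]
        push_cast
        have : (0 : ℝ) ≤ ((c : ℝ) + 1) * (v - 1) :=
          mul_nonneg (by positivity) (by linarith only [hv'])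
        linarith only [this]
      have hn : (((d.K * (S.k + S.g) * v + c : ℕ) : ℕ) : ℝ) ≤ A * v := by
        rw [hA]
        push_cast
        have : (0 : ℝ) ≤ (c : ℝ) * (v - 1) :=
          mul_nonneg (by positivity) (by linarith only [hv'])
        linarith only [this]
      exact oth_crude w hv hMW hRu0 hwM i hsR hn)
  -- the slots
  have hslots : ∏ k, (max 1 (μ k * ν k)) ^ ord S (d.K * v) k ≤
      Real.exp (((v : ℝ) ^ 2 * ((slot2 S d : ℝ) / (2 * d.D)) + Cc * v)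
        + 3 * ((Cm + (Cr + Cq)) * (1 + L)) * (((S.w + S.h1 + S.e1 : ℕ) : ℝ) * ((d.K * v : ℕ) : ℝ))) := by
    apply prod_slots_le S (d.K * v) (fun k => v * slotG S d (xk k)) _ _ (by positivity)
      (Hc v hv)
    intro k
    simp only [hμ, hν]
    rw [← Real.exp_add]
    apply Real.exp_le_exp.mpr
    apply le_of_eq; ring
  -- kappa
  have hkap : Real.exp (logV S (d.K * v) c) / kden S (d.K * v) ≤
      Real.exp ((v : ℝ) ^ 2 * ((d.K : ℝ) ^ 2 * kapA S * L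
        + (selfE (LS S d.K) - (d.K : ℝ) ^ 2 * (NL S + NC S * Real.log d.K)))
        + Ck * (v * (1 + L))) := by
    have hk := kden_pos S (d.K * v)
    have e : Real.exp (logV S (d.K * v) c) / kden S (d.K * v) =
        Real.exp (logV S (d.K * v) c - Real.log (kden S (d.K * v))) := by
      rw [Real.exp_sub, Real.exp_log hk]
    rw [e]
    exact Real.exp_le_exp.mpr (Hk v hv)
  -- the right side
  have hLRp : LR ^ (S.k * (d.K * v)) =
      Real.exp ((d.K * S.k : ℝ) * (v * (v * lR + aR * (v * L) + CR * (1 + L)))) := by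
    rw [hLR, ← Real.exp_nat_mul]
    congr 1; push_cast; ring
  have hLQp : LQ ^ (S.g * (d.K * v)) =
      Real.exp ((d.K * S.g : ℝ) * (v * (v * lQ + aQ * (v * L) + CQ * (1 + L)))) := by
    rw [hLQ, ← Real.exp_nat_mul]
    congr 1; push_cast; ring
  have hHp : HH ^ c = Real.exp ((c : ℝ) * (CH * (v * (1 + L)))) := by
    rw [hHH, ← Real.exp_nat_mul]
  have hDp : Real.exp (CD * (((d.K * v : ℕ) : ℝ) * (1 + Real.log ((d.K * v : ℕ) : ℝ)))) ≤
      Real.exp (CD * (d.K * (1 + Real.log d.K)) * (v * (1 + L))) := by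
    apply Real.exp_le_exp.mpr
    have e : Real.log ((d.K * v : ℕ) : ℝ) = Real.log d.K + L := by
      push_cast
      rw [Real.log_mul (by linarith) (by linarith)]
    rw [e]
    have h1 : 1 + (Real.log (d.K : ℝ) + L) ≤ (1 + Real.log d.K) * (1 + L) := by
      have := mul_nonneg hlogK hLv
      linarith only [this]
    have h2 : (((d.K * v : ℕ) : ℝ) * (1 + (Real.log (d.K : ℝ) + L))) ≤
        (d.K * v) * ((1 + Real.log d.K) * (1 + L)) := by
      push_cast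
      exact mul_le_mul_of_nonneg_left h1 (by positivity)
    calc _ ≤ CD * ((d.K * v) * ((1 + Real.log d.K) * (1 + L))) :=
          mul_le_mul_of_nonneg_left h2 hCD
      _ = _ := by ring
  set X : ℝ := |Polynomial.aeval GG (Minor S (d.K * v) r)| with hX
  have hX0 : 0 ≤ X := abs_nonneg _
  have hVV : Real.exp (((v : ℝ) ^ 2 * (m1 ^ 2 / 2 * L + selfE P1) - CW * (v * (1 + L)))
        + ((v : ℝ) ^ 2 * (m2 ^ 2 / 2 * L + selfE P2) - CZ * (v * (1 + L)))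
        + ((v : ℝ) ^ 2 * (m3 ^ 2 / 2 * L + selfE P3) - CY * (v * (1 + L))))
      ≤ vdm w * vdm z * vdm y := by
    rw [Real.exp_add, Real.exp_add]
    exact mul_le_mul (mul_le_mul hwV hzV (Real.exp_pos _).le (Real.exp_pos _).le) hyV
      (Real.exp_pos _).le (mul_nonneg (Real.exp_pos _).le (Real.exp_pos _).le)
  have hmain : X * Real.exp (((v : ℝ) ^ 2 * (m1 ^ 2 / 2 * L + selfE P1) - CW * (v * (1 + L)))
        + ((v : ℝ) ^ 2 * (m2 ^ 2 / 2 * L + selfE P2) - CZ * (v * (1 + L)))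
        + ((v : ℝ) ^ 2 * (m3 ^ 2 / 2 * L + selfE P3) - CY * (v * (1 + L)))) ≤
      Real.exp (CD * (d.K * (1 + Real.log d.K)) * (v * (1 + L))) *
        Real.exp ((v : ℝ) ^ 2 * ((d.K : ℝ) ^ 2 * kapA S * L
          + (selfE (LS S d.K) - (d.K : ℝ) ^ 2 * (NL S + NC S * Real.log d.K)))
          + Ck * (v * (1 + L))) *
        Real.exp ((d.K * S.k : ℝ) * (v * (v * lR + aR * (v * L) + CR * (1 + L)))) *
        Real.exp ((d.K * S.g : ℝ) * (v * (v * lQ + aQ * (v * L) + CQ * (1 + L)))) *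
        Real.exp ((c : ℝ) * (CH * (v * (1 + L)))) *
        Real.exp (((v : ℝ) ^ 2 * ((slot2 S d : ℝ) / (2 * d.D)) + Cc * v)
          + 3 * ((Cm + (Cr + Cq)) * (1 + L)) * (((S.w + S.h1 + S.e1 : ℕ) : ℝ) * ((d.K * v : ℕ) : ℝ))) := by
    refine (mul_le_mul_of_nonneg_left hVV hX0).trans (key.trans ?_)
    rw [hLRp, hLQp, hHp]
    have h0 : 0 ≤ Real.exp (logV S (d.K * v) c) / kden S (d.K * v) :=
      div_nonneg (Real.exp_pos _).le (kden_pos _ _).le
    have hprod0 : 0 ≤ ∏ k, (max 1 (μ k * ν k)) ^ ord S (d.K * v) k :=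
      Finset.prod_nonneg fun k _ => by positivity
    gcongr
  have hfin : X ≤ Real.exp ((CD * (d.K * (1 + Real.log d.K)) * (v * (1 + L))) +
        ((v : ℝ) ^ 2 * ((d.K : ℝ) ^ 2 * kapA S * L
          + (selfE (LS S d.K) - (d.K : ℝ) ^ 2 * (NL S + NC S * Real.log d.K)))
          + Ck * (v * (1 + L))) +
        ((d.K * S.k : ℝ) * (v * (v * lR + aR * (v * L) + CR * (1 + L)))) +
        ((d.K * S.g : ℝ) * (v * (v * lQ + aQ * (v * L) + CQ * (1 + L)))) +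
        ((c : ℝ) * (CH * (v * (1 + L)))) +
        (((v : ℝ) ^ 2 * ((slot2 S d : ℝ) / (2 * d.D)) + Cc * v)
          + 3 * ((Cm + (Cr + Cq)) * (1 + L)) * (((S.w + S.h1 + S.e1 : ℕ) : ℝ) * ((d.K * v : ℕ) : ℝ)))
        - (((v : ℝ) ^ 2 * (m1 ^ 2 / 2 * L + selfE P1) - CW * (v * (1 + L)))
        + ((v : ℝ) ^ 2 * (m2 ^ 2 / 2 * L + selfE P2) - CZ * (v * (1 + L)))
        + ((v : ℝ) ^ 2 * (m3 ^ 2 / 2 * L + selfE P3) - CY * (v * (1 + L))))) := by
    rw [Real.exp_sub, le_div_iff₀ (Real.exp_pos _)]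
    refine hmain.trans (le_of_eq ?_)
    rw [← Real.exp_add, ← Real.exp_add, ← Real.exp_add, ← Real.exp_add, ← Real.exp_add]
  refine hfin.trans (Real.exp_le_exp.mpr ?_)
  have hcoef := coef_zero S d.K H.rows
  rw [← hm1, ← hm2, ← hm3, ← hmN] at hcoef
  have hcoef' : (v : ℝ) ^ 2 * L * ((d.K : ℝ) ^ 2 * kapA S + (d.K : ℝ) * S.k * aR
      + (d.K : ℝ) * S.g * aQ - (m1 ^ 2 / 2 + m2 ^ 2 / 2 + m3 ^ 2 / 2)) = 0 := by
    rw [haR, haQ, hcoef, mul_zero]
  have halpha : alphaV S d = selfE (LS S d.K) - ((d.K : ℝ) ^ 2 * (NL S + NC S * Real.log d.K))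
      + (d.K * S.k : ℝ) * lR + (d.K * S.g : ℝ) * lQ + (slot2 S d : ℝ) / (2 * d.D)
      - selfE P1 - selfE P2 - selfE P3 := by
    rw [hlR, hlQ, hP1, hP2, hP3]
    unfold alphaV
    push_cast
    ring
  rw [halpha, hCt]
  have hcv : Cc * v ≤ Cc * (v * (1 + L)) := by
    apply mul_le_mul_of_nonneg_left _ hCc
    have := mul_nonneg hv0.le hLv
    linarith only [this]
  push_cast at hcv hcoef' ⊢
  linarith only [hcv, hcoef']

/-- **the interface** -/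
theorem archK_of_leaves {S : Shape} {d : Data} {c : ℕ} (H : Leaves S d c) :
    ArchK S c d.K (alphaV S d / (d.K : ℝ) ^ 2) := by
  obtain ⟨C, hC, HC⟩ := level_bound H
  intro δ hδ
  have hKr : (0 : ℝ) < d.K := by exact_mod_cast H.K_pos
  have h1 : ∀ᶠ v : ℕ in Filter.atTop, ef v ≤ (δ * (d.K : ℝ) ^ 2 / (C + 1)) * (v : ℝ) ^ 2 :=
    ef_le (by positivity)
  filter_upwards [h1, Filter.eventually_ge_atTop 1] with v hv hv1 r hr
  refine (HC v hv1 r hr).trans (Real.exp_le_exp.mpr ?_)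
  have hv' : (1 : ℝ) ≤ v := by exact_mod_cast hv1
  have hef : ef v = (v : ℝ) * (1 + Real.log v) := rfl
  rw [hef] at hv
  have h2 : 0 ≤ (v : ℝ) * (1 + Real.log v) := by
    have := log_nonneg' hv1
    positivity
  have h3 : C * (v * (1 + Real.log v)) ≤ δ * (d.K : ℝ) ^ 2 * (v : ℝ) ^ 2 := by
    calc C * (v * (1 + Real.log v)) ≤ (C + 1) * (v * (1 + Real.log v)) := by nlinarith
      _ ≤ (C + 1) * ((δ * (d.K : ℝ) ^ 2 / (C + 1)) * (v : ℝ) ^ 2) :=
          mul_le_mul_of_nonneg_left hv (by positivity)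
      _ = _ := by field_simp
  push_cast
  have e : (alphaV S d / (d.K : ℝ) ^ 2 + δ) * ((d.K : ℝ) * v) ^ 2 =
      (v : ℝ) ^ 2 * alphaV S d + δ * (d.K : ℝ) ^ 2 * (v : ℝ) ^ 2 := by
    field_simp
  rw [e]
  linarith

end Crest.Agent.R006.P3
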