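import Crest.Agent.R006.P3_SlotB_724
import Crest.Agent.R006.G1W_186
import Crest.Agent.R006.Star_516

/-!
Row 6 (helper283): slot functions of the `Q`-side, twin of helper724's `P3_SlotB`.

`D = Lam.NS N.z N.mul` (all nodes), `Dh = Lam.Nhat N.z N.mul i`.

* w-node `i` at the site `ce l` (`mul i = 1`): `Jw = J1 - 2 g1L`, order `3` (`bwQ`);
* star node: `Jw = J1 - 2 g1L`, order `mul i` (`bstQ`);
* e-node (negative integer): `J1`, order `mul i` (`beQ`).
-/

set_option autoImplicit false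

namespace Crest.Agent.R006.Base724

open Polynomial Filter Topology Metric
open Crest.Agent.R006.NV Crest.Agent.R006.Germ724 Crest.Agent.R006.G1x186
open Crest.Agent.R006.P3Slot (ci)

/-- the jump on the w-sites and at the stars -/
noncomputable def Jw (s : ℂ) : ℂ := J1 s - 2 * g1L s

/-! ### reduced jumps -/

/-- `(s - ce l)^2 J1 s` -/
noncomputable def UQ (l : ℕ) : ℂ → ℂ := (exists_num l).choose

lemma UQ_diffOn (l : ℕ) : DifferentiableOn ℂ (UQ l) (closedBall (PsiJ.ce l) (1 / 4)) :=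
  (exists_num l).choose_spec.1

lemma UQ_red (l : ℕ) {s : ℂ} (h : ‖s - PsiJ.ce l‖ ≤ 1 / 4) (hs : s ≠ PsiJ.ce l) :
    J1 s * (s - PsiJ.ce l) ^ 2 = UQ l s := by
  have h1 := (exists_num l).choose_spec.2 s (by rwa [mem_closedBall, dist_eq_norm]) hs
  have h0 : (s - PsiJ.ce l) ^ 2 ≠ 0 := pow_ne_zero 2 (sub_ne_zero.mpr hs)
  rw [h1]
  change UQ l s / (s - PsiJ.ce l) ^ 2 * (s - PsiJ.ce l) ^ 2 = UQ l s
  field_simp

lemma re_neg_of_near_ce {l : ℕ} {s : ℂ} (h : ‖s - PsiJ.ce l‖ ≤ 1 / 4) : s.re < 0 := by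
  have h1 := (abs_le.mp ((Complex.abs_re_le_norm (s - PsiJ.ce l)).trans h)).2
  have h2 : (PsiJ.ce l).re = -(1 / 2) - l := by unfold PsiJ.ce; simp
  rw [Complex.sub_re, h2] at h1
  have : (0 : ℝ) ≤ l := Nat.cast_nonneg l
  linarith

/-- `(s - ce l)^2 Jw s` -/
noncomputable def UQw (l : ℕ) (s : ℂ) : ℂ := UQ l s - 2 * g1L s * (s - PsiJ.ce l) ^ 2

lemma g1L_diffOn_ce (l : ℕ) : DifferentiableOn ℂ g1L (closedBall (PsiJ.ce l) (1 / 4)) := by
  intro s hs
  rw [mem_closedBall, dist_eq_norm] at hs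
  exact (differentiableAt_g1L (re_neg_of_near_ce hs)).differentiableWithinAt

lemma UQw_diffOn (l : ℕ) : DifferentiableOn ℂ (UQw l) (closedBall (PsiJ.ce l) (1 / 4)) := by
  unfold UQw
  exact (UQ_diffOn l).sub (((g1L_diffOn_ce l).const_mul 2).mul (by fun_prop))

lemma UQw_red (l : ℕ) {s : ℂ} (h : ‖s - PsiJ.ce l‖ ≤ 1 / 4) (hs : s ≠ PsiJ.ce l) :
    Jw s * (s - PsiJ.ce l) ^ 2 = UQw l s := by
  unfold Jw UQw
  rw [← UQ_red l h hs]
  ring

/-- the jump `Jw` near a star, with the removable singularity removed -/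
noncomputable def JsQ (s : ℂ) : ℂ := g1 s / Complex.sin (Real.pi * s) ^ 2 - 2 * g1L s

lemma re_star_near {l : ℕ} {s : ℂ} (h : ‖s - star l‖ ≤ 1 / 4) : 1 / 4 ≤ s.re := by
  have h1 := (abs_le.mp ((Complex.abs_re_le_norm (s - star l)).trans h)).1
  rw [Complex.sub_re, re_star] at h1
  have : (0 : ℝ) ≤ l := Nat.cast_nonneg l
  linarith

lemma dist_nat_star {l : ℕ} {s : ℂ} (h : ‖s - star l‖ ≤ 1 / 4) (n : ℕ) : 1 / 8 ≤ ‖s - n‖ := by
  have h3 := dist_half (a := 2 * (l : ℤ) + 1) (b := 2 * (n : ℤ)) (by omega)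
  have e : (((2 * (l : ℤ) + 1 : ℤ)) : ℂ) / 2 - ((2 * (n : ℤ) : ℤ) : ℂ) / 2 =
      (s - n) - (s - star l) := by
    unfold star; push_cast; ring
  rw [e] at h3
  have h4 := norm_sub_le (s - (n : ℂ)) (s - star l)
  linarith

lemma sin_ne_star {l : ℕ} {s : ℂ} (h : ‖s - star l‖ ≤ 1 / 4) :
    Complex.sin (Real.pi * s) ≠ 0 :=
  Star516.sin_ne (Star516.dist_int (re_star_near h) (dist_nat_star h))

lemma JsQ_differentiableAt {l : ℕ} {s : ℂ} (h : ‖s - star l‖ ≤ 1 / 4) :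
    DifferentiableAt ℂ JsQ s := by
  have hre := re_star_near h
  have h1 : DifferentiableAt ℂ g1 s := (analyticAt_g1 (fun l' e => by
    have : s.re < 0 := re_neg_of_near_ce (l := l') (by rw [e, sub_self, norm_zero]; norm_num)
    linarith)).differentiableAt
  have h2 : DifferentiableAt ℂ g1L s := (analyticAt_g1L (fun n e => by
    have := dist_nat_star h n
    rw [e, sub_self, norm_zero] at this
    norm_num at this)).differentiableAt
  have h3 : DifferentiableAt ℂ (fun s : ℂ => Complex.sin (Real.pi * s) ^ 2) s := by fun_prop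
  unfold JsQ
  exact (h1.div h3 (pow_ne_zero 2 (sin_ne_star h))).sub (h2.const_mul 2)

lemma cos_ne_near_star {l : ℕ} {s : ℂ} (h : ‖s - star l‖ ≤ 1 / 4) (hs : s ≠ star l) :
    Complex.cos (Real.pi * s) ≠ 0 := by
  intro hc
  rw [Complex.cos_eq_zero_iff] at hc
  obtain ⟨k, hk⟩ := hc
  have hpi : (Real.pi : ℂ) ≠ 0 := by exact_mod_cast Real.pi_ne_zero
  have e : s = ((2 * k + 1 : ℤ) : ℂ) / 2 := by
    have h1 : (Real.pi : ℂ) * s = Real.pi * (((2 * k + 1 : ℤ) : ℂ) / 2) := by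
      rw [hk]; push_cast; ring
    exact mul_left_cancel₀ hpi h1
  have est : star l = ((2 * (l : ℤ) + 1 : ℤ) : ℂ) / 2 := by unfold star; push_cast; ring
  have hne : (2 * k + 1 : ℤ) ≠ 2 * (l : ℤ) + 1 := by
    intro h2
    apply hs
    rw [e, est, h2]
  have h3 := dist_half hne
  rw [← e, ← est] at h3
  linarith

lemma JsQ_red {l : ℕ} {s : ℂ} (h : ‖s - star l‖ ≤ 1 / 4) (hs : s ≠ star l) :
    Jw s * (s - star l) ^ 0 = JsQ s := by
  have hsin := sin_ne_star h
  have hcos := cos_ne_near_star h hs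
  have hre := re_star_near h
  unfold Jw JsQ J1
  rw [pow_zero, mul_one, Star516.g1L_eq_right (by linarith) hsin]
  field_simp

lemma J1_diffOn_neg (m : ℕ) : DifferentiableOn ℂ J1 (closedBall (-(m : ℂ) - 1) (1 / 4)) := by
  intro s hs
  rw [mem_closedBall, dist_eq_norm] at hs
  have h1 : |(s - (-(m : ℂ) - 1)).re| ≤ 1 / 4 := (Complex.abs_re_le_norm _).trans hs
  have h2 : (s - (-(m : ℂ) - 1)).re = s.re + m + 1 := by simp; ring
  rw [h2] at h1
  have h3 := (abs_le.mp h1).2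
  have hm : (0 : ℝ) ≤ m := Nat.cast_nonneg m
  refine (J1_differentiableAt (by linarith) ?_).differentiableWithinAt
  rintro l rfl
  rw [ce_eq_site, site_eq_half] at hs
  have h3 := dist_half (a := -(2 * (l : ℤ)) - 1) (b := -(2 * (m : ℤ)) - 2) (by omega)
  have e : (((-(2 * (m : ℤ)) - 2 : ℤ)) : ℂ) / 2 = -(m : ℂ) - 1 := by push_cast; ring
  rw [e] at h3
  linarith

/-! ### slot functions -/

namespace Nodes

variable (N : Nodes)

lemma Nhat_ne {i : N.A} {s : ℂ} (hs : ‖s - N.z i‖ ≤ 1 / 4) :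
    (Lam.Nhat N.z N.mul i).eval s ≠ 0 := by
  rw [Lam.Nhat, eval_prod, Finset.prod_ne_zero_iff]
  intro k hk
  rw [eval_pow, eval_sub, eval_X, eval_C]
  exact pow_ne_zero _ (sub_ne_zero.mpr (N.near_node_ne (Finset.mem_erase.mp hk).1 hs))

/-- w-site slot function, order `3` -/
noncomputable def bwQ (l : ℕ) (i : N.A) (B : ℂ[X]) : ℂ → ℂ :=
  slotB (UQw l) B (Lam.Nhat N.z N.mul i)

/-- star slot function, order `mul i` -/
noncomputable def bstQ (i : N.A) (B : ℂ[X]) : ℂ → ℂ := slotB JsQ B (Lam.Nhat N.z N.mul i)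

/-- slot function at a negative integer, order `mul i` -/
noncomputable def beQ (i : N.A) (B : ℂ[X]) : ℂ → ℂ := slotB J1 B (Lam.Nhat N.z N.mul i)

section
variable {r : ℝ} (hr : 0 < r) (hr' : r ≤ 1 / 4)

include hr'

lemma bwQ_diffOn {l : ℕ} {i : N.A} (hz : N.z i = PsiJ.ce l) (B : ℂ[X]) :
    DifferentiableOn ℂ (N.bwQ l i B) (closedBall (N.z i) r) :=
  slotB_diffOn (by rw [hz]; exact (UQw_diffOn l).mono (closedBall_subset_closedBall hr'))
    (fun s hs => N.Nhat_ne (by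
      rw [mem_closedBall, dist_eq_norm] at hs; exact hs.trans hr')) B

lemma bstQ_diffOn {l : ℕ} {i : N.A} (hz : N.z i = star l) (B : ℂ[X]) :
    DifferentiableOn ℂ (N.bstQ i B) (closedBall (N.z i) r) :=
  slotB_diffOn (by
      intro s hs
      rw [hz, mem_closedBall, dist_eq_norm] at hs
      exact (JsQ_differentiableAt (hs.trans hr')).differentiableWithinAt)
    (fun s hs => N.Nhat_ne (by
      rw [mem_closedBall, dist_eq_norm] at hs; exact hs.trans hr')) B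

lemma beQ_diffOn {m : ℕ} {i : N.A} (hz : N.z i = -(m : ℂ) - 1) (B : ℂ[X]) :
    DifferentiableOn ℂ (N.beQ i B) (closedBall (N.z i) r) :=
  slotB_diffOn (by rw [hz]; exact (J1_diffOn_neg m).mono (closedBall_subset_closedBall hr'))
    (fun s hs => N.Nhat_ne (by
      rw [mem_closedBall, dist_eq_norm] at hs; exact hs.trans hr')) B

include hr

/-- the circle at a w-node, `b = bwQ`, order `3` -/
theorem ci_bwQ {l : ℕ} {i : N.A} (hz : N.z i = PsiJ.ce l) (hm : N.mul i = 1) (B P : ℂ[X]) :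
    ci (N.z i) r (fun s => Jw s * (B.eval s * P.eval s / (Lam.NS N.z N.mul).eval s)) =
      ci (N.z i) r (fun s => P.eval s * (N.bwQ l i B s * ((s - N.z i) ^ 3)⁻¹)) := by
  have h := slotB_ci (y := N.z i) hr (J := Jw) (Jr := UQw l) (p := 2) (q := N.mul i)
    (D := Lam.NS N.z N.mul) (Dh := Lam.Nhat N.z N.mul i) (Lam.NS_eq N.z N.mul i)
    (fun s hs => by
      rw [hz]
      rw [hz] at hs
      refine UQw_red l ?_ (sub_ne_zero.mp (P3Slot.sphere_ne hr hs))
      rw [mem_sphere, dist_eq_norm] at hs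
      rw [hs]; exact hr')
    (fun s hs => N.Nhat_ne (by
      rw [mem_closedBall, dist_eq_norm] at hs; exact hs.trans hr')) B P
  have e3 : 2 + N.mul i = 3 := by rw [hm]
  rw [e3] at h
  exact h

/-- the circle at a star node, `b = bstQ`, order `mul i` -/
theorem ci_bstQ {l : ℕ} {i : N.A} (hz : N.z i = star l) (B P : ℂ[X]) :
    ci (N.z i) r (fun s => Jw s * (B.eval s * P.eval s / (Lam.NS N.z N.mul).eval s)) =
      ci (N.z i) r (fun s => P.eval s * (N.bstQ i B s * ((s - N.z i) ^ N.mul i)⁻¹)) := by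
  have h := slotB_ci (y := N.z i) hr (J := Jw) (Jr := JsQ) (p := 0) (q := N.mul i)
    (D := Lam.NS N.z N.mul) (Dh := Lam.Nhat N.z N.mul i) (Lam.NS_eq N.z N.mul i)
    (fun s hs => by
      rw [hz]
      rw [hz] at hs
      refine JsQ_red ?_ (sub_ne_zero.mp (P3Slot.sphere_ne hr hs))
      rw [mem_sphere, dist_eq_norm] at hs
      rw [hs]; exact hr')
    (fun s hs => N.Nhat_ne (by
      rw [mem_closedBall, dist_eq_norm] at hs; exact hs.trans hr')) B P
  rw [zero_add] at h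
  exact h

/-- the circle at a negative integer, `b = beQ`, order `mul i` -/
theorem ci_beQ (i : N.A) (B P : ℂ[X]) :
    ci (N.z i) r (fun s => J1 s * (B.eval s * P.eval s / (Lam.NS N.z N.mul).eval s)) =
      ci (N.z i) r (fun s => P.eval s * (N.beQ i B s * ((s - N.z i) ^ N.mul i)⁻¹)) := by
  have h := slotB_ci (y := N.z i) hr (J := J1) (Jr := J1) (p := 0) (q := N.mul i)
    (D := Lam.NS N.z N.mul) (Dh := Lam.Nhat N.z N.mul i) (Lam.NS_eq N.z N.mul i)
    (fun s _ => by rw [pow_zero, mul_one])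
    (fun s hs => N.Nhat_ne (by
      rw [mem_closedBall, dist_eq_norm] at hs; exact hs.trans hr')) B P
  rw [zero_add] at h
  exact h

lemma bwQ_norm {l : ℕ} {i : N.A} (hz : N.z i = PsiJ.ce l) (hm : N.mul i = 1)
    (B : ℂ[X]) {s : ℂ} (hs : s ∈ sphere (N.z i) r) :
    ‖N.bwQ l i B s‖ =
      ‖Jw s‖ * (‖B.eval s‖ / ‖(Lam.NS N.z N.mul).eval s‖) * r ^ 3 := by
  have hne := sub_ne_zero.mp (P3Slot.sphere_ne hr hs)
  have hs' : ‖s - N.z i‖ = r := by rwa [mem_sphere, dist_eq_norm] at hs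
  have h := slotB_norm (y := N.z i) (J := Jw) (Jr := UQw l) (p := 2) (q := N.mul i)
    (D := Lam.NS N.z N.mul) (Dh := Lam.Nhat N.z N.mul i) (Lam.NS_eq N.z N.mul i) (s := s) (by
      rw [hz] at hne hs' ⊢
      exact UQw_red l (hs'.le.trans hr') hne) B hne
  have e3 : 2 + N.mul i = 3 := by rw [hm]
  rw [hs', e3] at h
  exact h

lemma bstQ_norm {l : ℕ} {i : N.A} (hz : N.z i = star l)
    (B : ℂ[X]) {s : ℂ} (hs : s ∈ sphere (N.z i) r) :
    ‖N.bstQ i B s‖ =
      ‖Jw s‖ * (‖B.eval s‖ / ‖(Lam.NS N.z N.mul).eval s‖) * r ^ N.mul i := by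
  have hne := sub_ne_zero.mp (P3Slot.sphere_ne hr hs)
  have hs' : ‖s - N.z i‖ = r := by rwa [mem_sphere, dist_eq_norm] at hs
  have h := slotB_norm (y := N.z i) (J := Jw) (Jr := JsQ) (p := 0) (q := N.mul i)
    (D := Lam.NS N.z N.mul) (Dh := Lam.Nhat N.z N.mul i) (Lam.NS_eq N.z N.mul i) (s := s) (by
      rw [hz] at hne hs' ⊢
      exact JsQ_red (hs'.le.trans hr') hne) B hne
  rw [hs', zero_add] at h
  exact h

omit hr'

lemma beQ_norm (i : N.A) (B : ℂ[X]) {s : ℂ} (hs : s ∈ sphere (N.z i) r) :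
    ‖N.beQ i B s‖ =
      ‖J1 s‖ * (‖B.eval s‖ / ‖(Lam.NS N.z N.mul).eval s‖) * r ^ N.mul i := by
  have hne := sub_ne_zero.mp (P3Slot.sphere_ne hr hs)
  have hs' : ‖s - N.z i‖ = r := by rwa [mem_sphere, dist_eq_norm] at hs
  have h := slotB_norm (y := N.z i) (J := J1) (Jr := J1) (p := 0) (q := N.mul i)
    (D := Lam.NS N.z N.mul) (Dh := Lam.Nhat N.z N.mul i) (Lam.NS_eq N.z N.mul i) (s := s)
    (by rw [pow_zero, mul_one]) B hne
  rw [hs', zero_add] at h
  exact h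

end

end Nodes

end Crest.Agent.R006.Base724
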