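import Crest.Agent.R006.P3_Fixed_257
import Crest.Agent.R006.P3_Fin2_576
import Crest.Agent.R006.P3_SlotQ_283

/-!
# Row 6, block P3: the contour data at fixed `u` (helper257)

`repR`, `holR`, `holQ` discharge three of the four hypotheses of `fixed_bound_of`; the fourth,
`RepQ`, is reduced to the circle formula of the `Q`-side (`repQ_of`).
-/

set_option autoImplicit false

open Complex

namespace Crest.Agent.R006.P3

open Polynomial Metric Crest.Agent.R006.D Crest.Agent.R006.NV Crest.Agent.R006.PsiInf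
open Crest.Agent.R006.Bord Crest.Agent.R006.Border410 Crest.Agent.R006.P3Slot
open Crest.Agent.R006.Base724 Crest.Agent.R006.Fin576 Crest.Agent.R006.Tail516

lemma ctr_w (S : Shape) (u : ℕ) (l : Fin (S.w * u)) :
    ((ctr S u (.inl l) : ℝ) : ℂ) = PsiJ.ce l := by
  unfold ctr PsiJ.ce
  push_cast
  ring

lemma ctr_h (S : Shape) (u : ℕ) (l : Fin (S.h1 * u)) :
    ((ctr S u (.inr (.inl l)) : ℝ) : ℂ) = Base724.star l := by
  unfold ctr Base724.star
  push_cast
  ring

lemma ctr_e (S : Shape) (u : ℕ) (j : Fin (S.e1 * u - S.w * u)) :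
    ((ctr S u (.inr (.inr j)) : ℝ) : ℂ) = -((S.w * u + 1 + (j : ℕ) : ℕ) : ℂ) := by
  unfold ctr
  push_cast
  ring

lemma sum_slots (S : Shape) (u : ℕ) (Fw Fe : ℂ → ℂ) (F : Slot S u → ℂ)
    (hw : ∀ l : Fin (S.w * u), F (.inl l) = Fw (PsiJ.ce l))
    (hh : ∀ l : Fin (S.h1 * u), F (.inr (.inl l)) = Fw (Base724.star l))
    (he : ∀ j : Fin (S.e1 * u - S.w * u),
      F (.inr (.inr j)) = Fe (-((S.w * u + 1 + (j : ℕ) : ℕ) : ℂ))) :
    ∑ k, eps S u k * F k = ∑ l ∈ Finset.range (S.w * u), Fw (PsiJ.ce l) +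
      ∑ l ∈ Finset.range (S.h1 * u), Fw (Base724.star l) -
      ∑ m ∈ Finset.Ioc (S.w * u) (S.e1 * u), Fe (-(m : ℂ)) := by
  rw [Fintype.sum_sum_type, Fintype.sum_sum_type]
  simp only [eps, one_mul, hw, hh, he]
  rw [Fin.sum_univ_eq_sum_range (fun l => Fw (PsiJ.ce l)),
    Fin.sum_univ_eq_sum_range (fun l => Fw (Base724.star l)),
    Fin.sum_univ_eq_sum_range (fun j => -1 * Fe (-((S.w * u + 1 + j : ℕ) : ℂ)))]
  have h1 : Finset.Ioc (S.w * u) (S.e1 * u) = Finset.Ico (S.w * u + 1) (S.e1 * u + 1) := by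
    ext m
    simp only [Finset.mem_Ioc, Finset.mem_Ico]
    omega
  rw [h1, Finset.sum_Ico_eq_sum_range]
  have h2 : S.e1 * u + 1 - (S.w * u + 1) = S.e1 * u - S.w * u := by omega
  rw [h2, ← Finset.mul_sum]
  ring

/-- **the contour representation of the `R`-functional** -/
theorem repR {S : Shape} (hS : S.Good) (u c : ℕ) : RepR S u c := by
  intro P f hP
  have h1 := BR_formula u c hS P f hP (S.w * u) (a := 1) one_pos (by norm_num)
  rw [rays_eq_ray2] at h1
  have h2 := sum_slots S u (fun y => ci y (1 / 4) (PhiRf S u c P f))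
    (fun y => ci y (1 / 4) (PhiRf S u c P f))
    (fun k => ci (ctr S u k : ℂ) (1 / 4) (fun s =>
        P.eval s * (JR s * ((rhoC S u * f).eval s / (om S u c).eval s))))
    (fun l => by
      simp only [ctr_w]
      refine ci_congr (by norm_num) fun s _ => ?_
      simp only [PhiRf]; ring)
    (fun l => by
      simp only [ctr_h]
      refine ci_congr (by norm_num) fun s _ => ?_
      simp only [PhiRf]; ring)
    (fun l => by
      simp only [ctr_e]
      refine ci_congr (by norm_num) fun s _ => ?_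
      simp only [PhiRf]; ring)
  rw [h2, h1]
  rfl

/-! ### the nodes at the slots -/

lemma ord_h {S : Shape} (hS : S.Good) (u c : ℕ) (l : Fin (S.h1 * u)) :
    (nodes S u c).mul (sN u c hS l.2) = ord S u (.inr (.inl l)) := by
  have h0 : (0 : ℤ) ≤ ((l : ℕ) : ℤ) := Int.natCast_nonneg _
  have e1 : (((l : ℕ) : ℤ) < (S.h1 : ℤ) * u) ↔ (l : ℕ) < S.h1 * u := by exact_mod_cast Iff.rfl
  have e2 : (((l : ℕ) : ℤ) < (S.h2 : ℤ) * u) ↔ (l : ℕ) < S.h2 * u := by exact_mod_cast Iff.rfl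
  have e3 : (((l : ℕ) : ℤ) < (S.h3 : ℤ) * u) ↔ (l : ℕ) < S.h3 * u := by exact_mod_cast Iff.rfl
  unfold Nodes.mul sN nodes ord
  simp only [D.Shape.mult, h0, if_true, e1, e2, e3]

lemma mult_e (S : Shape) (u c m : ℕ) (hm : 0 < m) : S.mult u c (D.Site.Z (-(m : ℤ))) =
    (if m ≤ S.e1 * u then 1 else 0) + (if m ≤ S.e2 * u then 1 else 0)
      + (if m ≤ S.e3 * u then 1 else 0) := by
  have h : ¬ (0 : ℤ) ≤ -(m : ℤ) := by omega
  have e1 : (- -(m : ℤ) ≤ (S.e1 : ℤ) * u) ↔ m ≤ S.e1 * u := by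
    rw [neg_neg]; exact_mod_cast Iff.rfl
  have e2 : (- -(m : ℤ) ≤ (S.e2 : ℤ) * u) ↔ m ≤ S.e2 * u := by
    rw [neg_neg]; exact_mod_cast Iff.rfl
  have e3 : (- -(m : ℤ) ≤ (S.e3 : ℤ) * u) ↔ m ≤ S.e3 * u := by
    rw [neg_neg]; exact_mod_cast Iff.rfl
  simp only [D.Shape.mult, h, if_false, e1, e2, e3]

/-- the node `-(w u + 1 + j)` -/
def eN (S : Shape) (u c : ℕ) (j : Fin (S.e1 * u - S.w * u)) : (nodes S u c).A :=
  ⟨D.Site.Z (-((S.w * u + 1 + (j : ℕ) : ℕ) : ℤ)), (mem_nodes S u c).mpr (by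
    rw [mult_e S u c _ (by omega)]
    have h1 : S.w * u + 1 + (j : ℕ) ≤ S.e1 * u := by have := j.2; omega
    rw [if_pos h1]
    omega)⟩

lemma z_eN (S : Shape) (u c : ℕ) (j : Fin (S.e1 * u - S.w * u)) :
    (nodes S u c).z (eN S u c j) = -((S.w * u + 1 + (j : ℕ) : ℕ) : ℂ) := by
  unfold Nodes.z eN
  simp [D.Site.val]

lemma ord_e (S : Shape) (u c : ℕ) (j : Fin (S.e1 * u - S.w * u)) :
    (nodes S u c).mul (eN S u c j) = ord S u (.inr (.inr j)) :=
  mult_e S u c _ (by omega)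

lemma eN_W (S : Shape) (u c : ℕ) (j : Fin (S.e1 * u - S.w * u)) :
    eN S u c j ∉ (nodes S u c).W := by
  intro h
  rw [mem_W] at h
  exact h

lemma sN_W {S : Shape} (hS : S.Good) (u c : ℕ) (l : Fin (S.h1 * u)) :
    sN u c hS l.2 ∉ (nodes S u c).W := by
  intro h
  rw [mem_W] at h
  have h1 : ((l : ℕ) : ℤ) < 0 := h
  omega

/-- on the spheres the `R`-integrand is `JR R'/den` -/
lemma R_red {S : Shape} (hS : S.Good) (u c : ℕ) (f : ℂ[X]) {y s : ℂ}
    (hy : ∃ k : ℤ, y = (k : ℂ) / 2) (hs : ‖s - y‖ = 1 / 4) :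
    JR s * ((rhoC S u * f).eval s / (om S u c).eval s) =
      JR s * ((rhoOff S u * f).eval s * (1 : ℂ[X]).eval s / (nodes S u c).den.eval s) := by
  have h := (nodes S u c).fRC_eq (P := 1) (rhoC_fac u c hS.wi f) (sphere_ne_node _ hy hs)
  rw [om_eq, eval_one, mul_one] at h
  rw [← h]
  rfl

theorem holR {S : Shape} (hS : S.Good) (u c : ℕ) : HolR S u c := by
  rintro (l | (l | j)) f
  · refine ⟨(nodes S u c).bw PsiJ.vv l (rhoOff S u * f), ?_, ?_⟩
    · rw [ctr_w]
      exact (nodes S u c).bw_diffOn le_rfl PsiJ.vv l _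
    · intro s hs
      rw [ctr_w] at hs ⊢
      have hs' : ‖s - PsiJ.ce l‖ = 1 / 4 := by rwa [mem_sphere, dist_eq_norm] at hs
      have h0 : s ≠ PsiJ.ce l := sub_ne_zero.mp (P3Slot.sphere_ne (by norm_num) hs)
      rw [R_red hS u c f (ce_half l) hs']
      have h := slotB_eq (y := PsiJ.ce l) (J := PsiJ.J PsiJ.vv) (Jr := UP PsiJ.vv l) (p := 3)
        (q := 0) (D := (nodes S u c).den) (Dh := (nodes S u c).den)
        (by rw [pow_zero, one_mul]) h0 (UP_red PsiJ.vv l h0) ((nodes S u c).den_ne_site hs'.le)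
        (rhoOff S u * f) 1
      rw [show JR = PsiJ.J PsiJ.vv from rfl, h, eval_one, one_mul]
      rfl
  · have hz := z_sN u c hS l.2
    refine ⟨(nodes S u c).bst PsiJ.vv l (sN u c hS l.2) (rhoOff S u * f), ?_, ?_⟩
    · rw [ctr_h, ← hz]
      exact (nodes S u c).bst_diffOn le_rfl PsiJ.vv hz _
    · intro s hs
      rw [ctr_h] at hs ⊢
      have hs' : ‖s - Base724.star l‖ = 1 / 4 := by rwa [mem_sphere, dist_eq_norm] at hs
      have h0 : s ≠ Base724.star l := sub_ne_zero.mp (P3Slot.sphere_ne (by norm_num) hs)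
      rw [R_red hS u c f (star_half l) hs']
      have h := slotB_eq (y := Base724.star l) (J := PsiJ.J PsiJ.vv) (Jr := Jst PsiJ.vv l) (p := 0)
        (q := (nodes S u c).mul (sN u c hS l.2)) (D := (nodes S u c).den)
        (Dh := (nodes S u c).denh (sN u c hS l.2))
        (by rw [(nodes S u c).den_eq (sN_W hS u c l), hz]) h0 (Jst_red PsiJ.vv l hs'.le h0)
        ((nodes S u c).denh_ne (by rw [hz]; exact hs'.le))
        (rhoOff S u * f) 1
      rw [show JR = PsiJ.J PsiJ.vv from rfl, h, eval_one, one_mul, zero_add, ord_h]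
      rfl
  · have hz := z_eN S u c j
    have hz' : (nodes S u c).z (eN S u c j) = -((S.w * u + (j : ℕ) : ℕ) : ℂ) - 1 := by
      rw [hz]; push_cast; ring
    refine ⟨(nodes S u c).be PsiJ.vv (eN S u c j) (rhoOff S u * f), ?_, ?_⟩
    · rw [ctr_e, ← hz]
      exact (nodes S u c).be_diffOn le_rfl PsiJ.vv hz' _
    · intro s hs
      rw [ctr_e] at hs ⊢
      have hs' : ‖s - -((S.w * u + 1 + (j : ℕ) : ℕ) : ℂ)‖ = 1 / 4 := by
        rwa [mem_sphere, dist_eq_norm] at hs
      have h0 : s ≠ -((S.w * u + 1 + (j : ℕ) : ℕ) : ℂ) :=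
        sub_ne_zero.mp (P3Slot.sphere_ne (by norm_num) hs)
      rw [R_red hS u c f (neg_half _) hs']
      have h := slotB_eq (y := -((S.w * u + 1 + (j : ℕ) : ℕ) : ℂ)) (J := PsiJ.J PsiJ.vv)
        (Jr := PsiJ.J PsiJ.vv) (p := 0)
        (q := (nodes S u c).mul (eN S u c j)) (D := (nodes S u c).den)
        (Dh := (nodes S u c).denh (eN S u c j))
        (by rw [(nodes S u c).den_eq (eN_W S u c j), hz]) h0 (by rw [pow_zero, mul_one])
        ((nodes S u c).denh_ne (by rw [hz]; exact hs'.le))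
        (rhoOff S u * f) 1
      rw [show JR = PsiJ.J PsiJ.vv from rfl, h, eval_one, one_mul, zero_add, ord_e]
      rfl

lemma mul_wN (S : Shape) (u c : ℕ) {k : ℕ} (hk : k < S.w * u) :
    (nodes S u c).mul (wN S u c hk) = 1 := by
  have h : ¬ (0 : ℤ) ≤ -(k : ℤ) - 1 := by omega
  have h2 : -(-(k : ℤ) - 1) ≤ (S.w : ℤ) * u := by
    have : ((k : ℤ)) < (S.w * u : ℕ) := by exact_mod_cast hk
    push_cast at this
    omega
  unfold Nodes.mul nodes wN
  simp only [D.Shape.mult, h, if_false, h2, if_true]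

lemma Q_red (S : Shape) (u c : ℕ) (J : ℂ → ℂ) (f : ℂ[X]) (s : ℂ) :
    J s * (f.eval s / (om S u c).eval s) =
      J s * (f.eval s * (1 : ℂ[X]).eval s / (Lam.NS (nodes S u c).z (nodes S u c).mul).eval s) := by
  rw [om_eq, eval_one, mul_one]

theorem holQ {S : Shape} (hS : S.Good) (u c : ℕ) : HolQ S u c := by
  rintro (l | (l | j)) f
  · have hz := z_wN S u c l.2
    refine ⟨(nodes S u c).bwQ l (wN S u c l.2) f, ?_, ?_⟩
    · rw [ctr_w, ← hz]
      exact (nodes S u c).bwQ_diffOn le_rfl hz _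
    · intro s hs
      rw [ctr_w] at hs ⊢
      have hs' : ‖s - PsiJ.ce l‖ = 1 / 4 := by rwa [mem_sphere, dist_eq_norm] at hs
      have h0 : s ≠ PsiJ.ce l := sub_ne_zero.mp (P3Slot.sphere_ne (by norm_num) hs)
      rw [Q_red S u c (JW S u (.inl l)) f s]
      have h := slotB_eq (y := PsiJ.ce l) (J := Jw) (Jr := UQw l) (p := 2)
        (q := (nodes S u c).mul (wN S u c l.2)) (D := Lam.NS (nodes S u c).z (nodes S u c).mul)
        (Dh := Lam.Nhat (nodes S u c).z (nodes S u c).mul (wN S u c l.2))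
        (by rw [Lam.NS_eq (nodes S u c).z (nodes S u c).mul (wN S u c l.2), hz]) h0
        (UQw_red l hs'.le h0)
        ((nodes S u c).Nhat_ne (by rw [hz]; exact hs'.le)) f 1
      rw [show JW S u (.inl l) = Jw from rfl, h, eval_one, one_mul, mul_wN S u c l.2]
      rfl
  · have hz := z_sN u c hS l.2
    refine ⟨(nodes S u c).bstQ (sN u c hS l.2) f, ?_, ?_⟩
    · rw [ctr_h, ← hz]
      exact (nodes S u c).bstQ_diffOn le_rfl hz _
    · intro s hs
      rw [ctr_h] at hs ⊢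
      have hs' : ‖s - Base724.star l‖ = 1 / 4 := by rwa [mem_sphere, dist_eq_norm] at hs
      have h0 : s ≠ Base724.star l := sub_ne_zero.mp (P3Slot.sphere_ne (by norm_num) hs)
      rw [Q_red S u c (JW S u (.inr (.inl l))) f s]
      have h := slotB_eq (y := Base724.star l) (J := Jw) (Jr := JsQ) (p := 0)
        (q := (nodes S u c).mul (sN u c hS l.2)) (D := Lam.NS (nodes S u c).z (nodes S u c).mul)
        (Dh := Lam.Nhat (nodes S u c).z (nodes S u c).mul (sN u c hS l.2))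
        (by rw [Lam.NS_eq (nodes S u c).z (nodes S u c).mul (sN u c hS l.2), hz]) h0
        (JsQ_red hs'.le h0)
        ((nodes S u c).Nhat_ne (by rw [hz]; exact hs'.le)) f 1
      rw [show JW S u (.inr (.inl l)) = Jw from rfl, h, eval_one, one_mul, zero_add, ord_h]
      rfl
  · have hz := z_eN S u c j
    have hz' : (nodes S u c).z (eN S u c j) = -((S.w * u + (j : ℕ) : ℕ) : ℂ) - 1 := by
      rw [hz]; push_cast; ring
    refine ⟨(nodes S u c).beQ (eN S u c j) f, ?_, ?_⟩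
    · rw [ctr_e, ← hz]
      exact (nodes S u c).beQ_diffOn le_rfl hz' _
    · intro s hs
      rw [ctr_e] at hs ⊢
      have hs' : ‖s - -((S.w * u + 1 + (j : ℕ) : ℕ) : ℂ)‖ = 1 / 4 := by
        rwa [mem_sphere, dist_eq_norm] at hs
      have h0 : s ≠ -((S.w * u + 1 + (j : ℕ) : ℕ) : ℂ) :=
        sub_ne_zero.mp (P3Slot.sphere_ne (by norm_num) hs)
      rw [Q_red S u c (JW S u (.inr (.inr j))) f s]
      have h := slotB_eq (y := -((S.w * u + 1 + (j : ℕ) : ℕ) : ℂ)) (J := G1x186.J1)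
        (Jr := G1x186.J1) (p := 0)
        (q := (nodes S u c).mul (eN S u c j)) (D := Lam.NS (nodes S u c).z (nodes S u c).mul)
        (Dh := Lam.Nhat (nodes S u c).z (nodes S u c).mul (eN S u c j))
        (by rw [Lam.NS_eq (nodes S u c).z (nodes S u c).mul (eN S u c j), hz]) h0
        (by rw [pow_zero, mul_one])
        ((nodes S u c).Nhat_ne (by rw [hz]; exact hs'.le)) f 1
      rw [show JW S u (.inr (.inr j)) = G1x186.J1 from rfl, h, eval_one, one_mul, zero_add, ord_e]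
      rfl

/-- the `RepQ` hypothesis from the circle formula of the `Q`-side -/
theorem repQ_of {S : Shape} (u c : ℕ)
    (hBQ : ∀ P f : ℂ[X], P.natDegree + f.natDegree + 2 ≤ S.rows * u + c →
      BQ S u c P f = -(∑ l ∈ Finset.range (S.w * u), ci (PsiJ.ce l) (1 / 4) (fun s =>
          (JQ s - 2 * gL s) * (f.eval s * P.eval s / (om S u c).eval s)) +
        ∑ l ∈ Finset.range (S.h1 * u), ci (Base724.star l) (1 / 4) (fun s =>
          (JQ s - 2 * gL s) * (f.eval s * P.eval s / (om S u c).eval s)) -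
        ∑ m ∈ Finset.Ioc (S.w * u) (S.e1 * u), ci (-(m : ℂ)) (1 / 4) (fun s =>
          JQ s * (f.eval s * P.eval s / (om S u c).eval s)) +
        (2 * Real.pi * I)⁻¹ * rays (S.w * u) 1 (fun s =>
          JQ s * (f.eval s * P.eval s / (om S u c).eval s)))) : RepQ S u c := by
  intro P f hP
  have h1 := hBQ P f hP
  rw [rays_eq_ray2] at h1
  have h2 := sum_slots S u (fun y => ci y (1 / 4) (fun s =>
          (JQ s - 2 * gL s) * (f.eval s * P.eval s / (om S u c).eval s)))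
    (fun y => ci y (1 / 4) (fun s =>
          JQ s * (f.eval s * P.eval s / (om S u c).eval s)))
    (fun k => ci (ctr S u k : ℂ) (1 / 4) (fun s =>
        P.eval s * (JW S u k s * (f.eval s / (om S u c).eval s))))
    (fun l => by
      simp only [ctr_w]
      refine ci_congr (by norm_num) fun s _ => ?_
      simp only [JW]; ring)
    (fun l => by
      simp only [ctr_h]
      refine ci_congr (by norm_num) fun s _ => ?_
      simp only [JW]; ring)
    (fun l => by
      simp only [ctr_e]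
      refine ci_congr (by norm_num) fun s _ => ?_
      simp only [JW]; ring)
  rw [h2, h1]

end Crest.Agent.R006.P3
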