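import Crest.Agent.R006.P3_JBound_853

/-!
# Row 6, block P3: the comparison function `f#` of the third contour (helper283)

`fs z = π 8^(-z) / (Γ(1/2+z) Γ(-z))` is entire, `‖fs z‖ ≤ Cg (1+‖z‖) 8^(-Re z) e^(π|Im z|)` on all
of `ℂ`, and for `J = JJ c0 0 c2` (the jump of `ψ`, no odd term)
`fs * J = c2 * JG + (c0 - c2) * (Γ(-z)/Γ(1/2-z))²` off the sites.
-/

set_option autoImplicit false

namespace Crest.Agent.R006.P3Fs

open Complex
open Crest.Agent.R006.P3_JBoundx853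

/-- the comparison function -/
noncomputable def fs (z : ℂ) : ℂ :=
  (8 : ℂ) ^ (-z) * (Real.pi * ((Gamma (1 / 2 + z))⁻¹ * (Gamma (-z))⁻¹))

theorem fs_differentiable : Differentiable ℂ fs := by
  unfold fs
  have h1 : Differentiable ℂ fun z : ℂ => (Gamma (1 / 2 + z))⁻¹ :=
    differentiable_one_div_Gamma.comp (by fun_prop : Differentiable ℂ fun z : ℂ => 1 / 2 + z)
  have h2 : Differentiable ℂ fun z : ℂ => (Gamma (-z))⁻¹ :=
    differentiable_one_div_Gamma.comp (by fun_prop : Differentiable ℂ fun z : ℂ => -z)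
  have h3 : Differentiable ℂ fun z : ℂ => (8 : ℂ) ^ (-z) := by
    intro z
    exact (differentiableAt_id.neg).const_cpow (Or.inl (by norm_num))
  exact h3.mul ((differentiable_const _).mul (h1.mul h2))

/-- reflection, half-integer form, junk-proof -/
lemma pi_inv_Gamma_half (z : ℂ) (h : Gamma (1 / 2 - z) ≠ 0) :
    (Real.pi : ℂ) * (Gamma (1 / 2 + z))⁻¹ = Complex.cos (Real.pi * z) * Gamma (1 / 2 - z) := by
  have h1 := Complex.Gamma_mul_Gamma_one_sub (1 / 2 + z)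
  have h2 : (1 : ℂ) - (1 / 2 + z) = 1 / 2 - z := by ring
  have h3 : Complex.sin (Real.pi * (1 / 2 + z)) = Complex.cos (Real.pi * z) := by
    rw [show (Real.pi : ℂ) * (1 / 2 + z) = Real.pi * z + Real.pi / 2 by ring,
      Complex.sin_add_pi_div_two]
  rw [h2, h3] at h1
  have hpi : (Real.pi : ℂ) ≠ 0 := by exact_mod_cast Real.pi_ne_zero
  by_cases hc : Complex.cos (Real.pi * z) = 0
  · rw [hc, div_zero] at h1
    have h4 : Gamma (1 / 2 + z) = 0 := (mul_eq_zero.mp h1).resolve_right h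
    rw [h4, hc]; simp
  · have h4 : Gamma (1 / 2 + z) ≠ 0 := by
      intro h5
      rw [h5, zero_mul, eq_comm, div_eq_zero_iff] at h1
      rcases h1 with h1 | h1
      · exact hpi h1
      · exact hc h1
    rw [eq_div_iff hc] at h1
    rw [← div_eq_mul_inv, div_eq_iff h4]
    linear_combination -h1

/-- reflection, integer form, junk-proof -/
lemma pi_inv_Gamma_neg (z : ℂ) (h : Gamma (1 + z) ≠ 0) :
    (Real.pi : ℂ) * (Gamma (-z))⁻¹ = -Complex.sin (Real.pi * z) * Gamma (1 + z) := by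
  have h1 := Complex.Gamma_mul_Gamma_one_sub (-z)
  have h2 : (1 : ℂ) - (-z) = 1 + z := by ring
  have h3 : Complex.sin (Real.pi * (-z)) = -Complex.sin (Real.pi * z) := by
    rw [mul_neg, Complex.sin_neg]
  rw [h2, h3] at h1
  have hpi : (Real.pi : ℂ) ≠ 0 := by exact_mod_cast Real.pi_ne_zero
  by_cases hc : Complex.sin (Real.pi * z) = 0
  · rw [hc, neg_zero, div_zero] at h1
    have h4 : Gamma (-z) = 0 := (mul_eq_zero.mp h1).resolve_right h
    rw [h4, hc]; simp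
  · have hc' : -Complex.sin (Real.pi * z) ≠ 0 := neg_ne_zero.mpr hc
    have h4 : Gamma (-z) ≠ 0 := by
      intro h5
      rw [h5, zero_mul, eq_comm, div_eq_zero_iff] at h1
      rcases h1 with h1 | h1
      · exact hpi h1
      · exact hc' h1
    rw [eq_div_iff hc'] at h1
    rw [← div_eq_mul_inv, div_eq_iff h4]
    linear_combination -h1

/-- the left form of `fs` -/
theorem fs_left (z : ℂ) (h : Gamma (1 / 2 - z) ≠ 0) :
    fs z = (8 : ℂ) ^ (-z) * (Complex.cos (Real.pi * z) * (Gamma (1 / 2 - z) * (Gamma (-z))⁻¹)) := by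
  unfold fs
  have := pi_inv_Gamma_half z h
  linear_combination (8 : ℂ) ^ (-z) * (Gamma (-z))⁻¹ * this

/-- the right form of `fs` -/
theorem fs_right (z : ℂ) (h : Gamma (1 + z) ≠ 0) :
    fs z = -((8 : ℂ) ^ (-z) *
      (Complex.sin (Real.pi * z) * (Gamma (1 + z) * (Gamma (1 / 2 + z))⁻¹))) := by
  unfold fs
  have := pi_inv_Gamma_neg z h
  linear_combination (8 : ℂ) ^ (-z) * (Gamma (1 / 2 + z))⁻¹ * this

/-- **the column operation** `fs * J = c2 JG + (c0 - c2) (Γ(-z)/Γ(1/2-z))²` -/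
theorem fs_mul_JJ (c0 c2 z : ℂ) (hc : Complex.cos (Real.pi * z) ≠ 0) (h1 : Gamma (1 / 2 - z) ≠ 0)
    (h2 : Gamma (-z) ≠ 0) :
    fs z * JJ c0 0 c2 z = c2 * JG z + (c0 - c2) * (Gamma (-z) / Gamma (1 / 2 - z)) ^ 2 := by
  rw [fs_left z h1]
  unfold JJ JG HL
  have h8 : (8 : ℂ) ^ (-z) * (8 : ℂ) ^ z = 1 := by
    rw [← Complex.cpow_add _ _ (by norm_num), neg_add_cancel, Complex.cpow_zero]
  have ht : Complex.tan (Real.pi * z) ^ 2 = 1 / Complex.cos (Real.pi * z) ^ 2 - 1 := by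
    rw [Complex.tan, div_pow]
    have := Complex.sin_sq_add_cos_sq (Real.pi * z)
    field_simp
    linear_combination this
  rw [ht]
  have e : (8 : ℂ) ^ (-z) * (Complex.cos (Real.pi * z) * (Gamma (1 / 2 - z) * (Gamma (-z))⁻¹)) *
      ((8 : ℂ) ^ z * (Gamma (-z) / Gamma (1 / 2 - z)) ^ 3 / Complex.cos (Real.pi * z) *
        (c2 * (1 / Complex.cos (Real.pi * z) ^ 2 - 1) + 0 * Complex.tan (Real.pi * z) + c0)) =
      ((8 : ℂ) ^ (-z) * (8 : ℂ) ^ z) *
        ((Gamma (-z) / Gamma (1 / 2 - z)) ^ 2 *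
        (c2 * (1 / Complex.cos (Real.pi * z) ^ 2 - 1) + c0)) := by
    generalize Complex.cos (Real.pi * z) = C at *
    generalize Complex.tan (Real.pi * z) = T at *
    generalize Gamma (-z) = A at *
    generalize Gamma (1 / 2 - z) = B at *
    field_simp
    ring
  rw [e, h8]
  ring

lemma norm_cos_le (z : ℂ) :
    ‖Complex.cos (Real.pi * z)‖ ≤ Real.exp (Real.pi * |z.im|) := by
  have h := norm_sin_le (z + 1 / 2)
  have h1 : Complex.sin (Real.pi * (z + 1 / 2)) = Complex.cos (Real.pi * z) := by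
    rw [show (Real.pi : ℂ) * (z + 1 / 2) = Real.pi * z + Real.pi / 2 by ring,
      Complex.sin_add_pi_div_two]
  have h2 : (z + 1 / 2 : ℂ).im = z.im := by
    simp
  rwa [h1, h2] at h

/-- **growth of the comparison function** -/
theorem norm_fs_le (z : ℂ) :
    ‖fs z‖ ≤ Cg * (1 + ‖z‖) * ((8 : ℝ) ^ (-z.re) * Real.exp (Real.pi * |z.im|)) := by
  have hCg := Cg_nonneg
  have h8 : ‖(8 : ℂ) ^ (-z)‖ = (8 : ℝ) ^ (-z.re) := by rw [norm_eight_cpow]; simp
  have h8p : (0 : ℝ) ≤ (8 : ℝ) ^ (-z.re) := by positivity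
  rcases le_total z.re 0 with hz | hz
  · have h1 : Gamma (1 / 2 - z) ≠ 0 := by
      apply Gamma_ne_zero_of_re_pos
      simp only [sub_re, one_div, inv_re, re_ofNat, normSq_ofNat]
      have : (2 : ℝ) / (2 * 2) = 1 / 2 := by norm_num
      rw [this]; linarith
    rw [fs_left z h1, one_div_Gamma_eq_self_mul_one_div_Gamma_add_one (-z)]
    have h2 := norm_gq_le (-z + 1 / 2) (by
      simp only [add_re, neg_re, one_div, inv_re, re_ofNat, normSq_ofNat]
      have : (2 : ℝ) / (2 * 2) = 1 / 2 := by norm_num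
      rw [this]; linarith)
    have e1 : -z + 1 / 2 = 1 / 2 - z := by ring
    have e2 : -z + 1 / 2 + 1 / 2 = -z + 1 := by ring
    rw [e2, e1, div_eq_mul_inv] at h2
    have h3 := norm_cos_le z
    have e3 : (8 : ℂ) ^ (-z) * (Complex.cos (Real.pi * z) *
        (Gamma (1 / 2 - z) * (-z * (Gamma (-z + 1))⁻¹))) =
        (8 : ℂ) ^ (-z) * Complex.cos (Real.pi * z) *
          (-z * (Gamma (1 / 2 - z) * (Gamma (-z + 1))⁻¹)) := by ring
    rw [e3, norm_mul, norm_mul, norm_mul, h8, norm_neg]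
    calc (8 : ℝ) ^ (-z.re) * ‖Complex.cos (Real.pi * z)‖ *
          (‖z‖ * ‖Gamma (1 / 2 - z) * (Gamma (-z + 1))⁻¹‖)
        ≤ (8 : ℝ) ^ (-z.re) * Real.exp (Real.pi * |z.im|) * ((1 + ‖z‖) * Cg) := by
          gcongr
          linarith
      _ = _ := by ring
  · have h1 : Gamma (1 + z) ≠ 0 := by
      apply Gamma_ne_zero_of_re_pos
      simp only [add_re, one_re]; linarith
    rw [fs_right z h1, one_div_Gamma_eq_self_mul_one_div_Gamma_add_one (1 / 2 + z)]
    have h2 := norm_gq_le (1 + z) (by simp only [add_re, one_re]; linarith)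
    have e2 : 1 + z + 1 / 2 = 1 / 2 + z + 1 := by ring
    rw [e2, div_eq_mul_inv] at h2
    have h3 := norm_sin_le z
    have e3 : (8 : ℂ) ^ (-z) * (Complex.sin (Real.pi * z) *
        (Gamma (1 + z) * ((1 / 2 + z) * (Gamma (1 / 2 + z + 1))⁻¹))) =
        (8 : ℂ) ^ (-z) * Complex.sin (Real.pi * z) *
          ((1 / 2 + z) * (Gamma (1 + z) * (Gamma (1 / 2 + z + 1))⁻¹)) := by ring
    have h4 : ‖(1 / 2 + z : ℂ)‖ ≤ 1 + ‖z‖ := by
      refine (norm_add_le _ _).trans (add_le_add ?_ le_rfl)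
      rw [norm_div, norm_one, Complex.norm_ofNat]; norm_num
    rw [e3, norm_neg, norm_mul, norm_mul, norm_mul, h8]
    calc (8 : ℝ) ^ (-z.re) * ‖Complex.sin (Real.pi * z)‖ *
          (‖(1 / 2 + z : ℂ)‖ * ‖Gamma (1 + z) * (Gamma (1 / 2 + z + 1))⁻¹‖)
        ≤ (8 : ℝ) ^ (-z.re) * Real.exp (Real.pi * |z.im|) * ((1 + ‖z‖) * Cg) := by
          gcongr
      _ = _ := by ring

end Crest.Agent.R006.P3Fs
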