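import Mathlib

/-!
# Row 6 (Catalan), block P3 (helper103): Gauss' summation theorem for real parameters

`gauss_sum : ∑ (a)_k (b)_k / ((c)_k k!) = Γ(c) Γ(c-a-b) / (Γ(c-a) Γ(c-b))` for `a, b > 0`, `c > a+b`.
-/

set_option autoImplicit false

namespace Crest.Agent.R006.Gauss103

open Finset Filter Topology

/-- telescoping criterion -/
theorem tele {f : ℕ → ℝ} (hf : ∀ k, 0 ≤ f k) {α β : ℝ} (hα : 0 ≤ α) (hβ : 0 < β)
    (h : ∀ k : ℕ, β * f k ≤ (k + α) * f k - (k + 1 + α) * f (k + 1)) :
    Summable f ∧ ∑' k, f k ≤ α * f 0 / β := by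
  have hsum : ∀ n : ℕ, β * ∑ k ∈ range n, f k ≤ α * f 0 - (n + α) * f n := by
    intro n
    induction n with
    | zero => simp
    | succ n ih =>
      rw [sum_range_succ, mul_add]
      have := h n
      push_cast
      linarith
  have hb : ∀ n : ℕ, ∑ k ∈ range n, f k ≤ α * f 0 / β := by
    intro n
    rw [le_div_iff₀ hβ, mul_comm]
    have h1 := hsum n
    have h2 : 0 ≤ ((n : ℝ) + α) * f n := mul_nonneg (by positivity) (hf n)
    linarith
  have hs := summable_of_sum_range_le hf hb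
  exact ⟨hs, hs.tsum_le_of_sum_range_le hb⟩

theorem tele_tendsto {f : ℕ → ℝ} (hf : ∀ k, 0 ≤ f k) {α β : ℝ} (hα : 0 ≤ α) (hβ : 0 < β)
    (h : ∀ k : ℕ, β * f k ≤ (k + α) * f k - (k + 1 + α) * f (k + 1)) :
    Tendsto (fun k : ℕ => (k + α) * f k) atTop (𝓝 0) := by
  have hs := (tele hf hα hβ h).1
  have hanti : Antitone (fun k : ℕ => ((k : ℝ) + α) * f k) := by
    apply antitone_nat_of_succ_le
    intro n
    have h1 := h n
    have h2 : 0 ≤ β * f n := mul_nonneg hβ.le (hf n)
    push_cast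
    linarith
  have hnn : ∀ k : ℕ, 0 ≤ ((k : ℝ) + α) * f k := fun k => mul_nonneg (by positivity) (hf k)
  have hbdd : BddBelow (Set.range (fun k : ℕ => ((k : ℝ) + α) * f k)) :=
    ⟨0, by rintro _ ⟨k, rfl⟩; exact hnn k⟩
  have ht := tendsto_atTop_ciInf hanti hbdd
  set ℓ := ⨅ k : ℕ, ((k : ℝ) + α) * f k with hℓ
  have hℓ0 : 0 ≤ ℓ := le_ciInf hnn
  rcases hℓ0.eq_or_lt with h0 | h0
  · rw [← h0] at ht; exact ht
  · exfalso
    have hlow : ∀ k : ℕ, ℓ ≤ ((k : ℝ) + α) * f k := fun k => ciInf_le hbdd k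
    -- then f (k) ≥ ℓ/(k+α)
    have hcmp : Summable (fun k : ℕ => ℓ / ((k : ℝ) + 1 + α)) := by
      have hs1 := (summable_nat_add_iff 1).mpr hs
      refine Summable.of_nonneg_of_le (fun k => by positivity) (fun k => ?_) hs1
      rw [div_le_iff₀ (by positivity)]
      have := hlow (k + 1)
      push_cast at this
      linarith
    obtain ⟨m, hm⟩ := exists_nat_ge α
    have hcmp2 : Summable (fun k : ℕ => ℓ * (1 / (((k + (m + 1) : ℕ) : ℝ)))) := by
      refine Summable.of_nonneg_of_le (fun k => by positivity) (fun k => ?_) hcmp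
      rw [mul_one_div]
      apply div_le_div_of_nonneg_left h0.le (by positivity)
      push_cast
      linarith
    have hcmp3 : Summable (fun k : ℕ => (1 / ((k : ℕ) : ℝ))) := by
      have h4 := hcmp2.mul_left ℓ⁻¹
      have h5 : (fun k : ℕ => ℓ⁻¹ * (ℓ * (1 / (((k + (m + 1) : ℕ) : ℝ))))) =
          fun k : ℕ => (1 / (((k + (m + 1) : ℕ) : ℝ))) := by
        funext k
        rw [← mul_assoc, inv_mul_cancel₀ h0.ne', one_mul]
      rw [h5] at h4
      exact (summable_nat_add_iff (f := fun k : ℕ => (1 / ((k : ℕ) : ℝ))) (m + 1)).mp h4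
    exact Real.not_summable_one_div_natCast hcmp3

/-- term of the Gauss series -/
noncomputable def gf (a b c : ℝ) : ℕ → ℝ
  | 0 => 1
  | k + 1 => gf a b c k * ((a + k) * (b + k) / ((c + k) * (k + 1)))

lemma gf_succ (a b c : ℝ) (k : ℕ) :
    gf a b c (k + 1) = gf a b c k * ((a + k) * (b + k) / ((c + k) * (k + 1))) := rfl

variable {a b c : ℝ}

lemma gf_pos (ha : 0 < a) (hb : 0 < b) (hc : 0 < c) (k : ℕ) : 0 < gf a b c k := by
  induction k with
  | zero => simp [gf]
  | succ k ih => rw [gf_succ]; positivity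

lemma gf_step (hc : 0 < c) (k : ℕ) :
    (k : ℝ) * gf a b c k - (k + 1) * gf a b c (k + 1) =
      gf a b c k * (((c - a - b) * k - a * b) / (c + k)) := by
  have h1 : c + (k : ℝ) ≠ 0 := by positivity
  have h2 : (k : ℝ) + 1 ≠ 0 := by positivity
  rw [gf_succ]
  field_simp
  ring

/-- a shifted version of `tele` for the tail -/
lemma gf_tail (ha : 0 < a) (hb : 0 < b) (hab : a + b < c) :
    Summable (gf a b c) ∧ Tendsto (fun k : ℕ => (k : ℝ) * gf a b c k) atTop (𝓝 0) := by
  have hc : 0 < c := by linarith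
  have hs : 0 < c - a - b := by linarith
  obtain ⟨K, hK⟩ := exists_nat_ge (c + 2 * (a * b) / (c - a - b))
  have key : ∀ k : ℕ, ((c - a - b) / 2) * gf a b c (k + K) ≤
      ((k : ℝ) + K) * gf a b c (k + K) - (k + 1 + K) * gf a b c (k + 1 + K) := by
    intro k
    have h1 := gf_step (a := a) (b := b) hc (k + K)
    have e : k + 1 + K = k + K + 1 := by ring
    rw [e]
    push_cast at h1
    have e2 : ((k : ℝ) + 1 + K) = k + K + 1 := by ring
    rw [e2, h1, mul_comm]
    apply mul_le_mul_of_nonneg_left _ (gf_pos ha hb hc _).le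
    rw [le_div_iff₀ (by positivity)]
    have h3 : c + 2 * (a * b) / (c - a - b) ≤ (k : ℝ) + K := by
      have : (0 : ℝ) ≤ k := Nat.cast_nonneg k
      linarith
    have h4 : 2 * (a * b) ≤ ((k : ℝ) + K - c) * (c - a - b) := by
      have : 2 * (a * b) / (c - a - b) ≤ (k : ℝ) + K - c := by linarith
      rwa [div_le_iff₀ hs] at this
    nlinarith
  have h1 := tele (f := fun k => gf a b c (k + K)) (fun k => (gf_pos ha hb hc _).le)
    (Nat.cast_nonneg K) (by linarith : 0 < (c - a - b) / 2) key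
  have h2 := tele_tendsto (f := fun k => gf a b c (k + K)) (fun k => (gf_pos ha hb hc _).le)
    (Nat.cast_nonneg K) (by linarith : 0 < (c - a - b) / 2) key
  refine ⟨(summable_nat_add_iff K).mp h1.1, ?_⟩
  rw [← tendsto_add_atTop_iff_nat K]
  refine h2.congr (fun k => ?_)
  push_cast
  ring

noncomputable def GF (a b c : ℝ) : ℝ := ∑' k, gf a b c k

lemma gf_shift (hc : 0 < c) (k : ℕ) : gf a b (c + 1) k = gf a b c k * (c / (c + k)) := by
  induction k with
  | zero => simp [gf, hc.ne']
  | succ k ih =>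
    rw [gf_succ, gf_succ, ih]
    have h1 : c + (k : ℝ) ≠ 0 := by positivity
    have h2 : (k : ℝ) + 1 ≠ 0 := by positivity
    have h3 : c + 1 + (k : ℝ) ≠ 0 := by positivity
    have h4 : c + ((k + 1 : ℕ) : ℝ) ≠ 0 := by positivity
    push_cast at h4 ⊢
    have h5 : c + ((k : ℝ) + 1) = c + 1 + k := by ring
    rw [h5]
    field_simp

/-- contiguous relation -/
theorem GF_contig (ha : 0 < a) (hb : 0 < b) (hab : a + b < c) :
    c * (c - a - b) * GF a b c = (c - a) * (c - b) * GF a b (c + 1) := by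
  have hc : 0 < c := by linarith
  obtain ⟨hs, ht⟩ := gf_tail ha hb hab
  obtain ⟨hs1, -⟩ := gf_tail (c := c + 1) ha hb (by linarith)
  have hterm : ∀ k : ℕ, c * (c - a - b) * gf a b c k - (c - a) * (c - b) * gf a b (c + 1) k =
      c * ((k : ℝ) * gf a b c k - (k + 1 : ℕ) * gf a b c (k + 1)) := by
    intro k
    push_cast
    rw [gf_step hc k, gf_shift hc k]
    have h1 : c + (k : ℝ) ≠ 0 := by positivity
    field_simp
    ring
  have hsum : HasSum (fun k : ℕ => ((k : ℝ) * gf a b c k - (k + 1 : ℕ) * gf a b c (k + 1))) 0 := by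
    have h1 : Summable (fun k : ℕ => c * ((k : ℝ) * gf a b c k - (k + 1 : ℕ) * gf a b c (k + 1))) := by
      refine ((hs.mul_left (c * (c - a - b))).sub (hs1.mul_left ((c - a) * (c - b)))).congr ?_
      intro k
      exact hterm k
    have h2 : Summable (fun k : ℕ => ((k : ℝ) * gf a b c k - (k + 1 : ℕ) * gf a b c (k + 1))) :=
      (summable_mul_left_iff hc.ne').mp h1
    have h3 := h2.hasSum.tendsto_sum_nat
    have h4 : ∀ n : ℕ, ∑ k ∈ range n, ((k : ℝ) * gf a b c k - (k + 1 : ℕ) * gf a b c (k + 1)) =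
        - ((n : ℝ) * gf a b c n) := by
      intro n
      have := Finset.sum_range_sub' (fun k : ℕ => (k : ℝ) * gf a b c k) n
      simp only [Nat.cast_zero, zero_mul, zero_sub] at this
      exact this
    simp_rw [h4] at h3
    have h5 : Tendsto (fun n : ℕ => - ((n : ℝ) * gf a b c n)) atTop (𝓝 0) := by
      simpa using ht.neg
    have h6 := tendsto_nhds_unique h3 h5
    rw [← h6]
    exact h2.hasSum
  have h7 : HasSum (fun k : ℕ => c * (c - a - b) * gf a b c k - (c - a) * (c - b) * gf a b (c + 1) k)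
      (c * 0) := by
    simp_rw [hterm]
    exact hsum.mul_left c
  have h8 := ((hs.hasSum.mul_left (c * (c - a - b))).sub (hs1.hasSum.mul_left ((c - a) * (c - b))))
  have h9 := h7.unique h8
  unfold GF
  linarith

lemma gf_antitone_c (ha : 0 < a) (hb : 0 < b) {c c' : ℝ} (hc : 0 < c) (h : c ≤ c') (k : ℕ) :
    gf a b c' k ≤ gf a b c k := by
  induction k with
  | zero => simp [gf]
  | succ k ih =>
    rw [gf_succ, gf_succ]
    have hc' : 0 < c' := by linarith
    apply mul_le_mul ih _ (by positivity) (gf_pos ha hb hc k).le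
    apply div_le_div_of_nonneg_left (by positivity) (by positivity)
    apply mul_le_mul_of_nonneg_right _ (by positivity)
    linarith

lemma gf_tendsto (ha : 0 < a) (hb : 0 < b) (hc : 0 < c) (k : ℕ) :
    Tendsto (fun N : ℕ => gf a b (c + N) k) atTop (𝓝 (if k = 0 then 1 else 0)) := by
  rcases k with _ | k
  · simp [gf]
  · simp only [Nat.add_eq_zero_iff, one_ne_zero, and_false, if_false]
    -- gf (c+N) (k+1) ≤ gf c k * const / (c+N)
    have hb1 : ∀ N : ℕ, gf a b (c + N) (k + 1) ≤ (gf a b c k * ((a + k) * (b + k))) / (c + N) := by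
      intro N
      have h1 := gf_antitone_c (c := c) (c' := c + N) ha hb hc (by
        have : (0 : ℝ) ≤ N := Nat.cast_nonneg N
        linarith) k
      rw [gf_succ]
      have h2 : (a + (k : ℝ)) * (b + k) / ((c + N + k) * (k + 1)) ≤ (a + k) * (b + k) / (c + N) := by
        apply div_le_div_of_nonneg_left (by positivity) (by positivity)
        have hN : (0 : ℝ) ≤ N := Nat.cast_nonneg N
        have hk : (0 : ℝ) ≤ k := Nat.cast_nonneg k
        nlinarith [mul_nonneg hN hk, mul_nonneg hc.le hk, mul_nonneg hk hk]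
      calc gf a b (c + N) k * ((a + k) * (b + k) / ((c + N + k) * (k + 1)))
          ≤ gf a b c k * ((a + k) * (b + k) / (c + N)) :=
            mul_le_mul h1 h2 (by positivity) (gf_pos ha hb hc k).le
        _ = _ := by ring
    refine squeeze_zero (fun N => (gf_pos ha hb (by positivity) _).le) hb1 ?_
    have : Tendsto (fun N : ℕ => c + (N : ℝ)) atTop atTop :=
      tendsto_atTop_add_const_left _ _ tendsto_natCast_atTop_atTop
    exact this.const_div_atTop _

lemma GF_tendsto (ha : 0 < a) (hb : 0 < b) (hab : a + b < c) :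
    Tendsto (fun N : ℕ => GF a b (c + N)) atTop (𝓝 1) := by
  have hc : 0 < c := by linarith
  have h := tendsto_tsum_of_dominated_convergence (𝓕 := atTop)
    (f := fun N : ℕ => gf a b (c + N)) (g := fun k => if k = 0 then (1 : ℝ) else 0)
    (bound := gf a b c) (gf_tail ha hb hab).1 (fun k => gf_tendsto ha hb hc k)
    (Eventually.of_forall (fun N k => by
      rw [Real.norm_of_nonneg (gf_pos ha hb (by positivity) _).le]
      exact gf_antitone_c ha hb hc (by
        have : (0 : ℝ) ≤ N := Nat.cast_nonneg N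
        linarith) k))
  simpa [GF] using h

/-- Gauss's theorem -/
theorem gauss_sum (ha : 0 < a) (hb : 0 < b) (hab : a + b < c) :
    ∑' k, gf a b c k =
      Real.Gamma c * Real.Gamma (c - a - b) / (Real.Gamma (c - a) * Real.Gamma (c - b)) := by
  have hc : 0 < c := by linarith
  have hs : 0 < c - a - b := by linarith
  have hca : 0 < c - a := by linarith
  have hcb : 0 < c - b := by linarith
  -- Q x N = x (x+1) ... (x+N)
  set Q : ℝ → ℕ → ℝ := fun x N => ∏ j ∈ range (N + 1), (x + j) with hQ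
  have hQpos : ∀ x : ℝ, 0 < x → ∀ N, 0 < Q x N := by
    intro x hx N
    apply prod_pos
    intro j _
    positivity
  have hrec : ∀ N : ℕ, Q c N * Q (c - a - b) N * GF a b c =
      Q (c - a) N * Q (c - b) N * GF a b (c + (N + 1 : ℕ)) := by
    intro N
    induction N with
    | zero =>
      simp only [hQ, zero_add, prod_range_one, Nat.cast_zero, add_zero, Nat.cast_one]
      exact GF_contig ha hb hab
    | succ N ih =>
      have h1 := GF_contig (c := c + (N + 1 : ℕ)) ha hb (by
        have : (0 : ℝ) ≤ ((N + 1 : ℕ) : ℝ) := Nat.cast_nonneg _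
        linarith)
      have e : ∀ x : ℝ, Q x (N + 1) = Q x N * (x + (N + 1 : ℕ)) := by
        intro x
        simp only [hQ]
        rw [prod_range_succ]
      rw [e, e, e, e]
      have e3 : c + ((N + 1 + 1 : ℕ) : ℝ) = c + ((N + 1 : ℕ) : ℝ) + 1 := by push_cast; ring
      rw [e3]
      calc Q c N * (c + (N + 1 : ℕ)) * (Q (c - a - b) N * (c - a - b + (N + 1 : ℕ))) * GF a b c
          = (Q c N * Q (c - a - b) N * GF a b c) *
              ((c + (N + 1 : ℕ)) * (c - a - b + (N + 1 : ℕ))) := by ring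
        _ = (Q (c - a) N * Q (c - b) N) * ((c + (N + 1 : ℕ)) * (c + (N + 1 : ℕ) - a - b) *
              GF a b (c + (N + 1 : ℕ))) := by rw [ih]; ring
        _ = (Q (c - a) N * Q (c - b) N) * ((c + (N + 1 : ℕ) - a) * (c + (N + 1 : ℕ) - b) *
              GF a b (c + (N + 1 : ℕ) + 1)) := by rw [h1]
        _ = _ := by ring
  have hseq : ∀ N : ℕ, 1 ≤ N → GF a b c =
      (Real.GammaSeq c N * Real.GammaSeq (c - a - b) N /
        (Real.GammaSeq (c - a) N * Real.GammaSeq (c - b) N)) * GF a b (c + (N + 1 : ℕ)) := by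
    intro N hN
    have hNpos : (0 : ℝ) < N := by exact_mod_cast hN
    have hG : ∀ x : ℝ, Real.GammaSeq x N = (N : ℝ) ^ x * N.factorial / Q x N := by
      intro x
      rfl
    rw [hG, hG, hG, hG]
    have hr := hrec N
    have p1 := (hQpos c hc N).ne'
    have p2 := (hQpos _ hs N).ne'
    have p3 := (hQpos _ hca N).ne'
    have p4 := (hQpos _ hcb N).ne'
    have f0 : ((N.factorial : ℕ) : ℝ) ≠ 0 := by positivity
    have hpow : (N : ℝ) ^ c * (N : ℝ) ^ (c - a - b) = (N : ℝ) ^ (c - a) * (N : ℝ) ^ (c - b) := by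
      rw [← Real.rpow_add hNpos, ← Real.rpow_add hNpos]
      congr 1
      ring
    have q1 : (N : ℝ) ^ (c - a) ≠ 0 := (Real.rpow_pos_of_pos hNpos _).ne'
    have q2 : (N : ℝ) ^ (c - b) ≠ 0 := (Real.rpow_pos_of_pos hNpos _).ne'
    have e1 : (N : ℝ) ^ c * N.factorial / Q c N * ((N : ℝ) ^ (c - a - b) * N.factorial / Q (c - a - b) N) /
        ((N : ℝ) ^ (c - a) * N.factorial / Q (c - a) N * ((N : ℝ) ^ (c - b) * N.factorial / Q (c - b) N))
        = ((N : ℝ) ^ c * (N : ℝ) ^ (c - a - b)) / ((N : ℝ) ^ (c - a) * (N : ℝ) ^ (c - b)) *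
          (Q (c - a) N * Q (c - b) N / (Q c N * Q (c - a - b) N)) := by
      field_simp
    rw [e1, hpow, div_self (mul_ne_zero q1 q2), one_mul]
    field_simp
    linarith
  have hlim : Tendsto (fun N : ℕ => (Real.GammaSeq c N * Real.GammaSeq (c - a - b) N /
        (Real.GammaSeq (c - a) N * Real.GammaSeq (c - b) N)) * GF a b (c + (N + 1 : ℕ))) atTop
      (𝓝 ((Real.Gamma c * Real.Gamma (c - a - b) / (Real.Gamma (c - a) * Real.Gamma (c - b))) * 1)) := by
    refine Tendsto.mul (Tendsto.div ?_ ?_ ?_) ?_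
    · exact (Real.GammaSeq_tendsto_Gamma c).mul (Real.GammaSeq_tendsto_Gamma _)
    · exact (Real.GammaSeq_tendsto_Gamma _).mul (Real.GammaSeq_tendsto_Gamma _)
    · exact mul_ne_zero (Real.Gamma_pos_of_pos hca).ne' (Real.Gamma_pos_of_pos hcb).ne'
    · exact (GF_tendsto ha hb hab).comp (tendsto_add_atTop_nat 1)
  have hconst : Tendsto (fun N : ℕ => (Real.GammaSeq c N * Real.GammaSeq (c - a - b) N /
        (Real.GammaSeq (c - a) N * Real.GammaSeq (c - b) N)) * GF a b (c + (N + 1 : ℕ))) atTop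
      (𝓝 (GF a b c)) := by
    refine tendsto_const_nhds.congr' ?_
    filter_upwards [eventually_ge_atTop 1] with N hN
    exact hseq N hN
  have := tendsto_nhds_unique hconst hlim
  rw [mul_one] at this
  exact this

end Crest.Agent.R006.Gauss103
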