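import Crest.Agent.R006.P3_Gen_390

/-!
# Row 6, block P3: generic ray and circle bounds, part 2 (helper390)
-/

set_option autoImplicit false

namespace Crest.Agent.R006.P3

open Crest.Agent.R006.D Crest.Agent.R006.Cert Crest.Agent.R006.NumSegx464
  Crest.Agent.R006.ConstX673 Complex

/-- `A log (1+τ) ≤ τ + B` -/
lemma log_le_lin {A : ℝ} (hA : 0 ≤ A) : ∃ B : ℝ, 0 ≤ B ∧ ∀ τ : ℝ, 0 ≤ τ →
    A * Real.log (1 + τ) ≤ τ + B := by
  rcases eq_or_lt_of_le hA with h | h
  · refine ⟨0, le_refl _, fun τ hτ => ?_⟩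
    rw [← h]; linarith
  · refine ⟨1 + A * |Real.log A|, by positivity, fun τ hτ => ?_⟩
    have h1 : Real.log (1 + τ) ≤ (1 + τ) / A - 1 + Real.log A := by
      have e : Real.log (1 + τ) = Real.log ((1 + τ) / A) + Real.log A := by
        rw [Real.log_div (by linarith) h.ne']; ring
      rw [e]
      have := Real.log_le_sub_one_of_pos (x := (1 + τ) / A) (by positivity)
      linarith
    have h2 : A * Real.log (1 + τ) ≤ A * ((1 + τ) / A - 1 + Real.log A) :=
      mul_le_mul_of_nonneg_left h1 hA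
    have h3 : A * ((1 + τ) / A - 1 + Real.log A) = 1 + τ - A + A * Real.log A := by
      field_simp
    have h4 : A * Real.log A ≤ A * |Real.log A| :=
      mul_le_mul_of_nonneg_left (le_abs_self _) hA
    linarith

/-- the ray point against the scaled ray -/
lemma rayPt_close (S : Shape) (d : Data) {v : ℕ} (hv : 1 ≤ v) {e : ℂ}
    (he : e = -1 + I ∨ e = -1 - I) (t : ℝ) :
    ∃ s' : ℂ, ‖rayPt S (d.K * v) e t - s'‖ ≤ 1 ∧
      (s' / v = ray S d (t / v) ∨ s' / v = (starRingEnd ℂ) (ray S d (t / v))) := by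
  have hv' : (v : ℝ) ≠ 0 := by positivity
  have hvc : (v : ℂ) ≠ 0 := by exact_mod_cast hv'
  rcases he with rfl | rfl
  · refine ⟨v * ray S d (t / v), ?_, Or.inl (by field_simp)⟩
    have : rayPt S (d.K * v) (-1 + I) t - v * ray S d (t / v) = ((-(1 / 4) : ℝ) : ℂ) := by
      unfold rayPt ray
      apply Complex.ext
      · simp; field_simp; ring
      · simp; field_simp; ring
    rw [this, Complex.norm_real]; norm_num
  · refine ⟨v * (starRingEnd ℂ) (ray S d (t / v)), ?_, Or.inr (by field_simp)⟩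
    have : rayPt S (d.K * v) (-1 - I) t - v * (starRingEnd ℂ) (ray S d (t / v)) =
        ((-(1 / 4) : ℝ) : ℂ) := by
      unfold rayPt ray
      apply Complex.ext
      · simp; field_simp; ring
      · simp; field_simp; ring
    rw [this, Complex.norm_real]; norm_num

/-- error scale on the ray -/
lemma er_ray (S : Shape) (K : ℕ) {v : ℕ} (hv : 1 ≤ v) {e : ℂ}
    (he : e = -1 + I ∨ e = -1 - I) {t : ℝ} (ht : 0 ≤ t) :
    er v (rayPt S (K * v) e t) ≤
      (1 + Real.log (4 + S.w * K)) + Real.log v + Real.log (1 + t) := by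
  have hv' : (1 : ℝ) ≤ v := by exact_mod_cast hv
  have h1 : ‖rayPt S (K * v) e t‖ ≤ S.w * K * v + 1 / 4 + 2 * t := by
    refine (Complex.norm_le_abs_re_add_abs_im _).trans ?_
    rw [rayPt_re S _ he, rayPt_im S _ he, abs_of_nonneg ht]
    have h2 : (0 : ℝ) ≤ ((S.w * (K * v) : ℕ) : ℝ) := Nat.cast_nonneg _
    have h3 : |(-((S.w * (K * v) : ℕ) : ℝ) - 1 / 4 - t)| = ((S.w * (K * v) : ℕ) : ℝ) + 1 / 4 + t := by
      rw [abs_of_nonpos (by linarith)]; ring
    rw [h3]
    push_cast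
    nlinarith
  have hK : (0 : ℝ) ≤ (S.w : ℝ) * K := by positivity
  have h4 : (v : ℝ) + ‖rayPt S (K * v) e t‖ ≤ (4 + S.w * K) * v * (1 + t) := by
    have h5 : (S.w : ℝ) * K * v ≤ S.w * K * v * (1 + t) := by
      have : (0 : ℝ) ≤ (S.w : ℝ) * K * v * t := by positivity
      linarith
    have h6 : (0 : ℝ) ≤ (v - 1) * t := mul_nonneg (by linarith) ht
    nlinarith
  unfold er
  have h7 : Real.log (v + ‖rayPt S (K * v) e t‖) ≤
      Real.log (4 + S.w * K) + Real.log v + Real.log (1 + t) := by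
    rw [← Real.log_mul (by linarith) (by linarith), ← Real.log_mul (by positivity) (by linarith)]
    exact Real.log_le_log (by linarith [norm_nonneg (rayPt S (K * v) e t)]) h4
  linarith

/-- **rays** -/
theorem ray_gen (S : Shape) (d : Data) (P1 P2 G N : List WSeg)
    (m1 m2 mG mN lam om l Cw Cz : ℝ) (hCw : 0 ≤ Cw) (hCz : 0 ≤ Cz) (wt : ℕ → ℂ → ℝ)
    (hwt : Wt G N mG mN lam om wt)
    (mo1 : ModPot P1) (mo2 : ModPot P2) (moG : ModPot G) (moN : ModPot N)
    (hsup : ∀ T : ℝ, 0 ≤ T → Phi P1 P2 G N lam om (ray S d T) ≤ l)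
    (htail : Tail (fun T => Phi P1 P2 G N lam om (ray S d T)) l)
    (hsym : ∀ s, Phi P1 P2 G N lam om ((starRingEnd ℂ) s) = Phi P1 P2 G N lam om s) :
    ∃ C : ℝ, 0 ≤ C ∧ ∀ v : ℕ, 1 ≤ v → ∀ {n n' : ℕ} (w : Fin n → ℂ) (z : Fin n' → ℂ),
      OthLe P1 m1 Cw v w → OthLe P2 m2 Cz v z → ∀ i j (t : ℝ), 0 ≤ t →
      ∀ e : ℂ, e = -1 + I ∨ e = -1 - I →
      oth w i (rayPt S (d.K * v) e t) * oth z j (rayPt S (d.K * v) e t)
          * wt v (rayPt S (d.K * v) e t) * (1 + t) ^ 2 ≤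
        Real.exp (v * l + (m1 + m2 + mG - mN) * (v * Real.log v) + C * (1 + Real.log v)) := by
  obtain ⟨C1, hC1, H1⟩ := full_le P1 P2 G N m1 m2 mG mN lam om wt hwt Cw Cz hCw hCz
  obtain ⟨C2, hC2, H2⟩ := phi_mod P1 P2 G N lam om mo1 mo2 moG moN
  obtain ⟨T1, hT1, HT⟩ := htail
  obtain ⟨B, hB, HB⟩ := log_le_lin (A := C1 + C2 + 2) (by positivity)
  set c0 : ℝ := 1 + Real.log (4 + S.w * d.K) with hc0
  have hc0' : 1 ≤ c0 := by
    have : 0 ≤ Real.log (4 + (S.w : ℝ) * d.K) := Real.log_nonneg (by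
      have : (0 : ℝ) ≤ (S.w : ℝ) * d.K := by positivity
      linarith)
    linarith
  have hL1 : 0 ≤ Real.log (1 + T1) := Real.log_nonneg (by linarith)
  refine ⟨(C1 + C2) * c0 + (C1 + C2) + (C1 + C2 + 2) * (Real.log (1 + T1) + 1) + B,
    by positivity, fun v hv n n' w z hw hz i j t ht e he => ?_⟩
  have hv' : (1 : ℝ) ≤ v := by exact_mod_cast hv
  have hv0 : (0 : ℝ) < v := by linarith
  set s := rayPt S (d.K * v) e t with hs
  have hlogv := log_nonneg' hv
  -- the potential at the ray point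
  obtain ⟨s', hs', hs''⟩ := rayPt_close S d hv he t
  have hphi : v * Phi P1 P2 G N lam om (s / v) ≤
      v * Phi P1 P2 G N lam om (ray S d (t / v)) + C2 * er v s := by
    have h1 := H2 v hv s s' hs'
    rcases hs'' with h | h
    · rw [h] at h1; exact h1
    · rw [h, hsym] at h1; exact h1
  -- sup and tail in one
  have htv : (v : ℝ) * Phi P1 P2 G N lam om (ray S d (t / v)) ≤ v * l - max 0 (t - T1 * v) := by
    rcases le_or_gt (t - T1 * v) 0 with h | h
    · rw [max_eq_left h, sub_zero]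
      exact mul_le_mul_of_nonneg_left (hsup _ (by positivity)) hv0.le
    · rw [max_eq_right h.le]
      have h1 : T1 ≤ t / v := by
        rw [le_div_iff₀ hv0]; linarith
      have h2 := mul_le_mul_of_nonneg_left (HT (t / v) h1) hv0.le
      have h3 : (v : ℝ) * (l - (t / v - T1)) = v * l - (t - T1 * v) := by
        field_simp
      simp only at h2
      rw [h3] at h2
      exact h2
  set τ := max 0 (t - T1 * v) with hτ
  have hτ0 : 0 ≤ τ := le_max_left _ _
  -- log (1+t)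
  have hlt : Real.log (1 + t) ≤ Real.log (1 + T1) + Real.log v + Real.log (1 + τ) := by
    rw [← Real.log_mul (by linarith) (by linarith), ← Real.log_mul (by positivity) (by linarith)]
    apply Real.log_le_log (by linarith)
    have h1 : t - T1 * v ≤ τ := le_max_right _ _
    have h2 : (0 : ℝ) ≤ ((1 + T1) * v - 1) * τ := mul_nonneg (by nlinarith) hτ0
    nlinarith
  have hl0 : 0 ≤ Real.log (1 + t) := Real.log_nonneg (by linarith)
  have her := er_ray S d.K hv he ht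
  rw [← hs] at her
  have hBτ := HB τ hτ0
  have hfull := H1 v hv w z hw hz i j s (by rw [hs]; exact far_rayPt S _ he ht)
  have hsq : (1 + t) ^ 2 = Real.exp (2 * Real.log (1 + t)) := by
    rw [two_mul, Real.exp_add, Real.exp_log (by linarith)]; ring
  calc oth w i s * oth z j s * wt v s * (1 + t) ^ 2
      ≤ Real.exp (v * Phi P1 P2 G N lam om (s / v) + (m1 + m2 + mG - mN) * (v * Real.log v)
          + C1 * er v s) * Real.exp (2 * Real.log (1 + t)) := by
        rw [hsq]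
        exact mul_le_mul_of_nonneg_right hfull (Real.exp_pos _).le
    _ ≤ _ := by
        rw [← Real.exp_add]
        apply Real.exp_le_exp.mpr
        have k1 : (C1 + C2) * er v s ≤ (C1 + C2) * (c0 + Real.log v + Real.log (1 + t)) :=
          mul_le_mul_of_nonneg_left her (by positivity)
        have k2 : (C1 + C2 + 2) * Real.log (1 + t) ≤
            (C1 + C2 + 2) * (Real.log (1 + T1) + Real.log v + Real.log (1 + τ)) :=
          mul_le_mul_of_nonneg_left hlt (by positivity)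
        have k3 : (0 : ℝ) ≤ ((C1 + C2) * c0 + (C1 + C2 + 2) * Real.log (1 + T1) + B) * Real.log v :=
          by positivity
        nlinarith

/-- **circles**: the test polynomials -/
theorem circW_gen (P1 : List WSeg) (m1 Cw R : ℝ) (hCw : 0 ≤ Cw) (hR : 0 ≤ R) (mo1 : ModPot P1) :
    ∃ C : ℝ, 0 ≤ C ∧ ∀ v : ℕ, 1 ≤ v → ∀ {n : ℕ} (w : Fin n → ℂ),
      OthLe P1 m1 Cw v w → ∀ i (y : ℝ), |y| ≤ R * v → ∀ s : ℂ, ‖s - (y : ℂ)‖ = 1 / 4 →
      oth w i s ≤ Real.exp (v * (m1 * Real.log v + potL P1 ((y / v : ℝ) : ℂ))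
        + C * (1 + Real.log v)) := by
  obtain ⟨C1, hC1, H1⟩ := mo1
  have hL : 0 ≤ Real.log (1 + (R + 1)) := Real.log_nonneg (by linarith)
  refine ⟨(C1 + Cw) * (1 + Real.log (1 + (R + 1))), by positivity,
    fun v hv n w hw i y hy s hs => ?_⟩
  have hv' : (1 : ℝ) ≤ v := by exact_mod_cast hv
  have hsn : ‖s‖ ≤ (R + 1) * v := by
    calc ‖s‖ = ‖(s - y) + y‖ := by congr 1; ring
      _ ≤ ‖s - y‖ + ‖(y : ℂ)‖ := norm_add_le _ _
      _ ≤ 1 / 4 + R * v := by
          rw [hs, Complex.norm_real, Real.norm_eq_abs]; linarith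
      _ ≤ _ := by nlinarith
  have her := er_le hv (by linarith : (0 : ℝ) ≤ R + 1) hsn
  have h1 := (abs_le.mp (H1 v hv s (y : ℂ) (by rw [hs]; norm_num))).2
  have e : ((y : ℂ) / v) = ((y / v : ℝ) : ℂ) := by push_cast; ring
  rw [e] at h1
  refine (hw i s).trans (Real.exp_le_exp.mpr ?_)
  have k1 : (C1 + Cw) * er v s ≤ (C1 + Cw) * ((1 + Real.log (1 + (R + 1))) * (1 + Real.log v)) :=
    mul_le_mul_of_nonneg_left her (by positivity)
  nlinarith

/-- **circles**: the columns -/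
theorem circZ_gen (P1 P2 G N : List WSeg) (m2 mG mN lam om Cz R : ℝ)
    (hCz : 0 ≤ Cz) (hR : 0 ≤ R) (wt : ℕ → ℂ → ℝ) (hwt : Wt G N mG mN lam om wt)
    (mo1 : ModPot P1) (mo2 : ModPot P2) (moG : ModPot G) (moN : ModPot N) :
    ∃ C : ℝ, 0 ≤ C ∧ ∀ v : ℕ, 1 ≤ v → ∀ {n' : ℕ} (z : Fin n' → ℂ),
      OthLe P2 m2 Cz v z → ∀ j (y : ℝ), |y| ≤ R * v → (∃ k : ℤ, y = (k : ℝ) / 2) →
      ∀ s : ℂ, ‖s - (y : ℂ)‖ = 1 / 4 →
      oth z j s * wt v s ≤
        Real.exp (v * Phi P1 P2 G N lam om ((y / v : ℝ) : ℂ) - v * potL P1 ((y / v : ℝ) : ℂ)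
          + (m2 + mG - mN) * (v * Real.log v) + C * (1 + Real.log v)) := by
  obtain ⟨C1, hC1, H1⟩ := part_le P1 P2 G N m2 mG mN lam om wt hwt Cz hCz
  obtain ⟨C2, hC2, H2⟩ := phi_mod P1 P2 G N lam om mo1 mo2 moG moN
  obtain ⟨C3, hC3, H3⟩ := mo1
  have hL : 0 ≤ Real.log (1 + (R + 1)) := Real.log_nonneg (by linarith)
  refine ⟨(C1 + C2 + C3) * (1 + Real.log (1 + (R + 1))), by positivity,
    fun v hv n' z hz j y hy hk s hs => ?_⟩
  have hv' : (1 : ℝ) ≤ v := by exact_mod_cast hv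
  have hsn : ‖s‖ ≤ (R + 1) * v := by
    calc ‖s‖ = ‖(s - y) + y‖ := by congr 1; ring
      _ ≤ ‖s - y‖ + ‖(y : ℂ)‖ := norm_add_le _ _
      _ ≤ 1 / 4 + R * v := by
          rw [hs, Complex.norm_real, Real.norm_eq_abs]; linarith
      _ ≤ _ := by nlinarith
  have her := er_le hv (by linarith : (0 : ℝ) ≤ R + 1) hsn
  have hd : ‖s - (y : ℂ)‖ ≤ 1 := by rw [hs]; norm_num
  have h2 := H2 v hv s (y : ℂ) hd
  have h3 := (abs_le.mp (H3 v hv s (y : ℂ) hd)).1
  have e : ((y : ℂ) / v) = ((y / v : ℝ) : ℂ) := by push_cast; ring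
  rw [e] at h2 h3
  refine (H1 v hv z hz j s (far_circle hk hs)).trans (Real.exp_le_exp.mpr ?_)
  have k1 : (C1 + C2 + C3) * er v s ≤
      (C1 + C2 + C3) * ((1 + Real.log (1 + (R + 1))) * (1 + Real.log v)) :=
    mul_le_mul_of_nonneg_left her (by positivity)
  nlinarith

end Crest.Agent.R006.P3
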