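import Crest.Agent.R006.P3_Leaf_390

/-!
# Row 6, block P3: generic ray and circle bounds (helper390)
-/

set_option autoImplicit false

namespace Crest.Agent.R006.P3

open Crest.Agent.R006.D Crest.Agent.R006.Cert Crest.Agent.R006.NumSegx464
  Crest.Agent.R006.ConstX673 Complex

/-! ### the error scale -/

lemma er_ge_one {v : ℕ} (hv : 1 ≤ v) (s : ℂ) : 1 ≤ er v s := by
  have hv' : (1 : ℝ) ≤ v := by exact_mod_cast hv
  have : 0 ≤ Real.log (v + ‖s‖) := Real.log_nonneg (by linarith [norm_nonneg s])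
  unfold er; linarith

lemma log_nonneg' {v : ℕ} (hv : 1 ≤ v) : 0 ≤ Real.log (v : ℝ) :=
  Real.log_nonneg (by exact_mod_cast hv)

lemma er_le {v : ℕ} (hv : 1 ≤ v) {s : ℂ} {R : ℝ} (hR : 0 ≤ R) (hs : ‖s‖ ≤ R * v) :
    er v s ≤ (1 + Real.log (1 + R)) * (1 + Real.log v) := by
  have hv' : (1 : ℝ) ≤ v := by exact_mod_cast hv
  have h1 : Real.log (v + ‖s‖) ≤ Real.log (1 + R) + Real.log v := by
    rw [← Real.log_mul (by linarith) (by linarith)]
    apply Real.log_le_log (by linarith [norm_nonneg s])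
    nlinarith
  have h2 : 0 ≤ Real.log (1 + R) := Real.log_nonneg (by linarith)
  have h3 := log_nonneg' hv
  unfold er
  nlinarith

/-- comparison of the error scale at two close points -/
lemma er_close {v : ℕ} (hv : 1 ≤ v) {s s' : ℂ} (h : ‖s - s'‖ ≤ 1) : er v s ≤ 2 * er v s' := by
  have hv' : (1 : ℝ) ≤ v := by exact_mod_cast hv
  have h1 : ‖s‖ ≤ ‖s'‖ + 1 := by
    calc ‖s‖ = ‖s' + (s - s')‖ := by congr 1; ring
      _ ≤ ‖s'‖ + ‖s - s'‖ := norm_add_le _ _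
      _ ≤ _ := by linarith
  have h2 : Real.log (v + ‖s‖) ≤ Real.log 2 + Real.log (v + ‖s'‖) := by
    rw [← Real.log_mul (by norm_num) (by linarith [norm_nonneg s'])]
    apply Real.log_le_log (by linarith [norm_nonneg s])
    nlinarith [norm_nonneg s']
  have h3 : 0 ≤ Real.log (v + ‖s'‖) := Real.log_nonneg (by linarith [norm_nonneg s'])
  have h4 : Real.log 2 ≤ 1 := by
    have := Real.log_two_lt_d9; linarith
  unfold er
  linarith

/-- far from the half integers -/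
def Far (s : ℂ) : Prop := ∀ k : ℤ, 1 / 8 ≤ ‖s - (k : ℂ) / 2‖

/-! ### generic potential -/

/-- the generic weight function -/
noncomputable def Phi (P1 P2 G N : List WSeg) (lam om : ℝ) (s : ℂ) : ℝ :=
  potL P1 s + potL P2 s + potL G s - potL N s + lam * s.re - om * |s.im|

/-- bound of a weight -/
structure Wt (G N : List WSeg) (mG mN lam om : ℝ) (wt : ℕ → ℂ → ℝ) : Prop where
  nonneg : ∀ v s, 0 ≤ wt v s
  le : ∃ C : ℝ, 0 ≤ C ∧ ∀ v : ℕ, 1 ≤ v → ∀ s : ℂ, Far s →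
    wt v s ≤ Real.exp (v * ((mG - mN) * Real.log v + potL G (s / v) - potL N (s / v))
      + (lam * s.re - om * |s.im|) + C * er v s)

/-- bound of the products over the other reference points -/
def OthLe {n : ℕ} (P : List WSeg) (m C : ℝ) (v : ℕ) (w : Fin n → ℂ) : Prop :=
  ∀ i s, oth w i s ≤ Real.exp (v * (m * Real.log v + potL P (s / v)) + C * er v s)

lemma oth_nonneg {ι : Type} [Fintype ι] [DecidableEq ι] (w : ι → ℂ) (i : ι) (s : ℂ) :
    0 ≤ oth w i s := Finset.prod_nonneg fun _ _ => norm_nonneg _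

lemma re_div_nat (s : ℂ) (v : ℕ) : (s / (v : ℂ)).re = s.re / v := by
  simp

lemma im_div_nat (s : ℂ) (v : ℕ) : (s / (v : ℂ)).im = s.im / v := by
  simp

lemma mul_phi {v : ℕ} (hv : 1 ≤ v) (P1 P2 G N : List WSeg) (lam om : ℝ) (s : ℂ) :
    v * Phi P1 P2 G N lam om (s / v) =
      v * potL P1 (s / v) + v * potL P2 (s / v) + v * potL G (s / v) - v * potL N (s / v)
        + (lam * s.re - om * |s.im|) := by
  have hv' : (0 : ℝ) < v := by exact_mod_cast hv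
  unfold Phi
  rw [re_div_nat, im_div_nat, abs_div, abs_of_pos hv']
  field_simp
  ring

/-- modulus of continuity of the generic weight function -/
lemma phi_mod (P1 P2 G N : List WSeg) (lam om : ℝ) (m1 : ModPot P1) (m2 : ModPot P2)
    (mG : ModPot G) (mN : ModPot N) :
    ∃ C : ℝ, 0 ≤ C ∧ ∀ v : ℕ, 1 ≤ v → ∀ s s' : ℂ, ‖s - s'‖ ≤ 1 →
      v * Phi P1 P2 G N lam om (s / v) ≤ v * Phi P1 P2 G N lam om (s' / v) + C * er v s := by
  obtain ⟨C1, h1, H1⟩ := m1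
  obtain ⟨C2, h2, H2⟩ := m2
  obtain ⟨C3, h3, H3⟩ := mG
  obtain ⟨C4, h4, H4⟩ := mN
  refine ⟨C1 + C2 + C3 + C4 + (|lam| + |om|), by positivity, fun v hv s s' hs => ?_⟩
  have e1 := (abs_le.mp (H1 v hv s s' hs)).2
  have e2 := (abs_le.mp (H2 v hv s s' hs)).2
  have e3 := (abs_le.mp (H3 v hv s s' hs)).2
  have e4 := (abs_le.mp (H4 v hv s s' hs)).1
  have her := er_ge_one hv s
  rw [mul_phi hv, mul_phi hv]
  have hre : |s.re - s'.re| ≤ 1 := by
    have := Complex.abs_re_le_norm (s - s')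
    rw [Complex.sub_re] at this; linarith
  have him : |(|s.im| - |s'.im|)| ≤ 1 := by
    have := Complex.abs_im_le_norm (s - s')
    rw [Complex.sub_im] at this
    have h5 := abs_abs_sub_abs_le_abs_sub s.im s'.im
    linarith
  have f1 : lam * (s.re - s'.re) ≤ |lam| := by
    calc lam * (s.re - s'.re) ≤ |lam * (s.re - s'.re)| := le_abs_self _
      _ = |lam| * |s.re - s'.re| := abs_mul _ _
      _ ≤ |lam| * 1 := mul_le_mul_of_nonneg_left hre (abs_nonneg _)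
      _ = |lam| := mul_one _
  have f2 : -(om * (|s.im| - |s'.im|)) ≤ |om| := by
    calc -(om * (|s.im| - |s'.im|)) ≤ |om * (|s.im| - |s'.im|)| := neg_le_abs _
      _ = |om| * |(|s.im| - |s'.im|)| := abs_mul _ _
      _ ≤ |om| * 1 := mul_le_mul_of_nonneg_left him (abs_nonneg _)
      _ = |om| := mul_one _
  have g : (|lam| + |om|) * 1 ≤ (|lam| + |om|) * er v s :=
    mul_le_mul_of_nonneg_left her (by positivity)
  nlinarith

/-- pointwise bound of the full product -/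
lemma full_le (P1 P2 G N : List WSeg) (m1 m2 mG mN lam om : ℝ) (wt : ℕ → ℂ → ℝ)
    (hwt : Wt G N mG mN lam om wt) (Cw Cz : ℝ) (hCw : 0 ≤ Cw) (hCz : 0 ≤ Cz) :
    ∃ C : ℝ, 0 ≤ C ∧ ∀ v : ℕ, 1 ≤ v → ∀ {n n' : ℕ} (w : Fin n → ℂ) (z : Fin n' → ℂ),
      OthLe P1 m1 Cw v w → OthLe P2 m2 Cz v z → ∀ i j s, Far s →
      oth w i s * oth z j s * wt v s ≤
        Real.exp (v * Phi P1 P2 G N lam om (s / v) + (m1 + m2 + mG - mN) * (v * Real.log v)
          + C * er v s) := by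
  obtain ⟨C1, h1, H1⟩ := hwt.le
  refine ⟨C1 + Cw + Cz, by positivity, fun v hv n n' w z hw hz i j s hs => ?_⟩
  have e := mul_le_mul (mul_le_mul (hw i s) (hz j s) (oth_nonneg _ _ _) (Real.exp_pos _).le)
    (H1 v hv s hs) (hwt.nonneg _ _) (by positivity)
  refine e.trans (le_of_eq ?_)
  rw [← Real.exp_add, ← Real.exp_add, mul_phi hv]
  congr 1
  ring

/-- pointwise bound of the product without the test polynomial -/
lemma part_le (P1 P2 G N : List WSeg) (m2 mG mN lam om : ℝ) (wt : ℕ → ℂ → ℝ)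
    (hwt : Wt G N mG mN lam om wt) (Cz : ℝ) (hCz : 0 ≤ Cz) :
    ∃ C : ℝ, 0 ≤ C ∧ ∀ v : ℕ, 1 ≤ v → ∀ {n' : ℕ} (z : Fin n' → ℂ),
      OthLe P2 m2 Cz v z → ∀ j s, Far s →
      oth z j s * wt v s ≤
        Real.exp (v * Phi P1 P2 G N lam om (s / v) - v * potL P1 (s / v)
          + (m2 + mG - mN) * (v * Real.log v) + C * er v s) := by
  obtain ⟨C1, h1, H1⟩ := hwt.le
  refine ⟨C1 + Cz, by positivity, fun v hv n' z hz j s hs => ?_⟩
  have e := mul_le_mul (hz j s) (H1 v hv s hs) (hwt.nonneg _ _) (by positivity)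
  refine e.trans (le_of_eq ?_)
  rw [← Real.exp_add, mul_phi hv]
  congr 1
  ring

/-! ### geometry of the rays and circles -/

lemma quarter (n k : ℤ) : (1 : ℝ) / 4 ≤ |(n : ℝ) - 1 / 4 - (k : ℝ) / 2| := by
  have h : ((4 * n - 1 - 2 * k : ℤ) : ℝ) = 4 * ((n : ℝ) - 1 / 4 - (k : ℝ) / 2) := by
    push_cast; ring
  have h2 : (4 * n - 1 - 2 * k : ℤ) ≠ 0 := by omega
  have h3 : (1 : ℝ) ≤ |((4 * n - 1 - 2 * k : ℤ) : ℝ)| := by
    rw [← Int.cast_abs]
    exact_mod_cast Int.one_le_abs h2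
  rw [h, abs_mul, abs_of_pos (by norm_num : (0 : ℝ) < 4)] at h3
  linarith

lemma rayPt_re (S : Shape) (u : ℕ) {e : ℂ} (he : e = -1 + I ∨ e = -1 - I) (t : ℝ) :
    (rayPt S u e t).re = -((S.w * u : ℕ) : ℝ) - 1 / 4 - t := by
  unfold rayPt
  rcases he with rfl | rfl <;> simp <;> ring

lemma rayPt_im (S : Shape) (u : ℕ) {e : ℂ} (he : e = -1 + I ∨ e = -1 - I) (t : ℝ) :
    |(rayPt S u e t).im| = |t| := by
  unfold rayPt
  rcases he with rfl | rfl <;> simp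

lemma far_rayPt (S : Shape) (u : ℕ) {e : ℂ} (he : e = -1 + I ∨ e = -1 - I) {t : ℝ}
    (ht : 0 ≤ t) : Far (rayPt S u e t) := by
  intro k
  have hk : ((k : ℂ) / 2).re = (k : ℝ) / 2 := by
    have : ((k : ℂ) / 2) = (((k : ℝ) / 2 : ℝ) : ℂ) := by push_cast; ring
    rw [this, Complex.ofReal_re]
  have hk' : ((k : ℂ) / 2).im = 0 := by
    have : ((k : ℂ) / 2) = (((k : ℝ) / 2 : ℝ) : ℂ) := by push_cast; ring
    rw [this, Complex.ofReal_im]
  rcases le_or_gt (1 / 8) t with h | h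
  · refine le_trans ?_ (Complex.abs_im_le_norm _)
    rw [Complex.sub_im, hk', sub_zero, rayPt_im S u he, abs_of_nonneg ht]
    exact h
  · refine le_trans ?_ (Complex.abs_re_le_norm _)
    rw [Complex.sub_re, hk, rayPt_re S u he]
    have h1 := quarter (-((S.w * u : ℕ) : ℤ)) k
    push_cast at h1 ⊢
    have h2 : |(-((S.w : ℝ) * u) - 1 / 4 - (k : ℝ) / 2)| ≤
        |(-((S.w : ℝ) * u) - 1 / 4 - t - (k : ℝ) / 2)| + |t| := by
      calc _ = |(-((S.w : ℝ) * u) - 1 / 4 - t - (k : ℝ) / 2) + t| := by congr 1; ring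
        _ ≤ _ := abs_add_le _ _
    rw [abs_of_nonneg ht] at h2
    linarith

lemma far_circle {y : ℝ} (hy : ∃ n : ℤ, y = (n : ℝ) / 2) {s : ℂ} (hs : ‖s - (y : ℂ)‖ = 1 / 4) :
    Far s := by
  intro k
  obtain ⟨n, rfl⟩ := hy
  rcases eq_or_ne n k with h | h
  · subst h
    have : (((n : ℝ) / 2 : ℝ) : ℂ) = (n : ℂ) / 2 := by push_cast; ring
    rw [this] at hs
    rw [hs]; norm_num
  · have h1 : (1 : ℝ) / 2 ≤ ‖((((n : ℝ) / 2 : ℝ) : ℂ)) - (k : ℂ) / 2‖ := by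
      have : ((((n : ℝ) / 2 : ℝ) : ℂ)) - (k : ℂ) / 2 = ((((n - k : ℤ) : ℝ) / 2 : ℝ) : ℂ) := by
        push_cast; ring
      rw [this, Complex.norm_real, Real.norm_eq_abs, abs_div, abs_of_pos (by norm_num : (0:ℝ) < 2)]
      have h2 : (1 : ℝ) ≤ |((n - k : ℤ) : ℝ)| := by
        rw [← Int.cast_abs]
        exact_mod_cast Int.one_le_abs (sub_ne_zero.mpr h)
      linarith
    have h2 : ‖((((n : ℝ) / 2 : ℝ) : ℂ)) - (k : ℂ) / 2‖ ≤
        ‖s - (k : ℂ) / 2‖ + ‖s - ((((n : ℝ) / 2 : ℝ) : ℂ))‖ := by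
      calc _ = ‖(s - (k : ℂ) / 2) - (s - ((((n : ℝ) / 2 : ℝ) : ℂ)))‖ := by congr 1; ring
        _ ≤ _ := norm_sub_le _ _
    rw [hs] at h2
    linarith

end Crest.Agent.R006.P3
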