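import Crest.Agent.R006.P3_Bridge_257
import Crest.Agent.R006.P3_Disc_390
import Crest.Agent.R006.P3_Const4_673

/-!
# Row 6, block P3: glue between `plain_bound` (257/410) and `Disc` (390) (helper410)

* `norm_eval_lg`, `norm_eval_om`, `norm_eval_rhoC` : norms of the polynomials = explicit products;
* `norm_vandermonde_eq_vdm` : Vandermonde determinant = `vdm`;
* `kap_VV_eq` : `|κ V_S| = exp (logV) / kden`;
* `fact_mul_pow_le` : the combinatorial factor is `exp (O(u (1 + log u)))`.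
-/

set_option autoImplicit false

open Complex

namespace Crest.Agent.R006.P3.Glue410

open Polynomial Crest.Agent.R006.D Crest.Agent.R006.NV Crest.Agent.R006.Bord
open Crest.Agent.R006.Border410 Crest.Agent.R006.Potx943 Crest.Agent.R006.ConstX673

/-! ### Lagrange polynomials -/

lemma norm_eval_lg {n : ℕ} (W : Fin n → ℂ) (i : Fin n) (s : ℂ) :
    ‖eval s (lg W i)‖ = oth W i s := by
  rw [eval_lg, norm_prod]; rfl

lemma oth_comp {ι κ : Type} [Fintype ι] [DecidableEq ι] [Fintype κ] [DecidableEq κ]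
    (e : κ ≃ ι) (w : ι → ℂ) (i : κ) (s : ℂ) : oth (fun k => w (e k)) i s = oth w (e i) s := by
  unfold oth
  refine Finset.prod_bij (fun k _ => e k) ?_ ?_ ?_ ?_
  · intro k hk
    rw [Finset.mem_erase] at hk ⊢
    exact ⟨fun h => hk.1 (e.injective h), Finset.mem_univ _⟩
  · intro a _ b _ h; exact e.injective h
  · intro b hb
    rw [Finset.mem_erase] at hb
    refine ⟨e.symm b, ?_, e.apply_symm_apply b⟩
    rw [Finset.mem_erase]
    refine ⟨fun h => hb.1 ?_, Finset.mem_univ _⟩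
    rw [← h, e.apply_symm_apply]
  · intro k _; rfl

lemma oth_nonneg {ι : Type} [Fintype ι] [DecidableEq ι] (w : ι → ℂ) (i : ι) (s : ℂ) :
    0 ≤ oth w i s := Finset.prod_nonneg fun _ _ => norm_nonneg _

lemma vdm_comp {ι κ : Type} [Fintype ι] [Fintype κ] (e : κ ≃ ι) (w : ι → ℂ) :
    vdm (fun k => w (e k)) = vdm w := by
  unfold vdm
  rw [← LE_comp e w (fun _ => 1)]

theorem norm_vandermonde_eq_vdm {n : ℕ} (W : Fin n → ℂ) (hW : Function.Injective W) :
    ‖(Matrix.vandermonde W).det‖ = vdm W := by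
  have h1 : ‖Leib257.V W (fun _ => 1)‖ = ‖(Matrix.vandermonde W).det‖ := by
    rw [Matrix.det_vandermonde, Leib257.V, norm_prod, norm_prod]
    refine Finset.prod_congr rfl fun i _ => ?_
    rw [norm_prod, norm_prod]
    refine Finset.prod_congr rfl fun j _ => ?_
    rw [mul_one, pow_one, norm_sub_rev]
  have h2 : 0 < ‖Leib257.V W (fun _ => 1)‖ := by
    rw [h1]
    exact norm_pos_iff.2 (Matrix.det_vandermonde_ne_zero_iff.2 hW)
  unfold vdm
  rw [← two_log_norm_V W (fun _ => 1) hW, ← h1]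
  rw [show 2 * Real.log ‖Leib257.V W (fun _ => 1)‖ / 2 = Real.log ‖Leib257.V W (fun _ => 1)‖ by
    ring, Real.exp_log h2]

/-! ### the node polynomial and the gauge -/

lemma mult_ne_zero_mem {S : Shape} {u c : ℕ} (hS : S.Good) {z : Site} (h : S.mult u c z ≠ 0) :
    z ∈ Bordx929.sites S u c := by
  have e21 : S.e2 * u ≤ S.e1 * u := Nat.mul_le_mul_right _ hS.e21
  have e32 : S.e3 * u ≤ S.e2 * u := Nat.mul_le_mul_right _ hS.e32
  have h21 : S.h2 * u ≤ S.h1 * u := Nat.mul_le_mul_right _ hS.h21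
  have h32 : S.h3 * u ≤ S.h2 * u := Nat.mul_le_mul_right _ hS.h32
  unfold Bordx929.sites
  rw [Finset.mem_disjUnion]
  have f1 : ((S.e1 * u : ℕ) : ℤ) = (S.e1 : ℤ) * u := by push_cast; ring
  have f2 : ((S.e2 * u : ℕ) : ℤ) = (S.e2 : ℤ) * u := by push_cast; ring
  have f3 : ((S.e3 * u : ℕ) : ℤ) = (S.e3 : ℤ) * u := by push_cast; ring
  have f4 : ((S.B * u + c : ℕ) : ℤ) = (S.B : ℤ) * u + c := by push_cast; ring
  have g1 : ((S.h1 * u : ℕ) : ℤ) = (S.h1 : ℤ) * u := by push_cast; ring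
  have g2 : ((S.h2 * u : ℕ) : ℤ) = (S.h2 : ℤ) * u := by push_cast; ring
  have g3 : ((S.h3 * u : ℕ) : ℤ) = (S.h3 : ℤ) * u := by push_cast; ring
  have g4 : ((S.w * u : ℕ) : ℤ) = (S.w : ℤ) * u := by push_cast; ring
  zify at e21 e32 h21 h32
  rcases z with i | i
  · left
    rw [Finset.mem_map]
    refine ⟨i, ?_, rfl⟩
    rw [Finset.mem_Ico]
    simp only [Shape.mult] at h
    rw [f1, f4]
    split_ifs at h <;> constructor <;> omega
  · right
    rw [Finset.mem_map]
    refine ⟨i, ?_, rfl⟩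
    rw [Finset.mem_Ico]
    simp only [Shape.mult] at h
    rw [g1, g4]
    split_ifs at h <;> constructor <;> omega

theorem norm_eval_om {S : Shape} {u c : ℕ} (hS : S.Good) (s : ℂ) :
    ‖eval s (om S u c)‖ = NSn S u c s := by
  classical
  unfold om NSn Lam.NS
  rw [eval_prod, norm_prod]
  have h1 : ∏ z : St S u c, ‖eval s ((X - C (zc S u c z)) ^ mm S u c z)‖ =
      ∏ z ∈ Bord.sites S u c, ‖s - ((z.val : ℚ) : ℂ)‖ ^ (S.mult u c z) := by
    rw [← Finset.prod_coe_sort (Bord.sites S u c)]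
    refine Finset.prod_congr rfl fun z _ => ?_
    rw [eval_pow, norm_pow, eval_sub, eval_X, eval_C]
    rfl
  rw [h1]
  refine Eq.trans (b := ∏ z ∈ Bord.sites S u c ∪ Bordx929.sites S u c,
    ‖s - ((z.val : ℚ) : ℂ)‖ ^ (S.mult u c z)) ?_ ?_
  · refine Finset.prod_subset Finset.subset_union_left fun z _ hz => ?_
    have : S.mult u c z = 0 := by
      by_contra h0
      exact hz (mem_sites_of_mult S u c h0)
    rw [this, pow_zero]
  · refine (Finset.prod_subset Finset.subset_union_right fun z _ hz => ?_).symm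
    have : S.mult u c z = 0 := by
      by_contra h0
      exact hz (mult_ne_zero_mem hS h0)
    rw [this, pow_zero]

lemma eval_descPoch_shift (n : ℕ) (a s : ℂ) :
    eval s ((descPochhammer ℂ n).comp (X + C ((n : ℂ) - 1 + a))) =
      ∏ m ∈ Finset.range n, (s + ((m : ℂ) + a)) := by
  rw [eval_comp, descPochhammer_eval_eq_prod_range, eval_add, eval_X, eval_C,
    ← Finset.prod_range_reflect]
  refine Finset.prod_congr rfl fun j hj => ?_
  rw [Finset.mem_range] at hj
  have : ((n - 1 - j : ℕ) : ℂ) = (n : ℂ) - 1 - j := by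
    rw [Nat.cast_sub (by omega), Nat.cast_sub (by omega)]; simp
  rw [this]; ring

theorem norm_eval_rhoC (S : Shape) (u : ℕ) (s : ℂ) :
    ‖eval s (rhoC S u)‖ = rhon S u s := by
  have h : rhoC S u = descPochhammer ℂ (S.a2 * u)
    * (descPochhammer ℂ (S.i1 * u)).comp (X + C (((S.i1 * u : ℕ) : ℂ) - 1 + 1 / 2))
    * (descPochhammer ℂ (S.r1 * u)).comp (X + C (((S.r1 * u : ℕ) : ℂ) - 1 + 1))
    * descPochhammer ℂ (S.a1 * u) := by
    unfold rhoC rho
    simp only [Polynomial.map_mul, Polynomial.map_comp, descPochhammer_map, Polynomial.map_add,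
      Polynomial.map_X, Polynomial.map_C]
    congr 4
    · congr 3
      push_cast
      simp
      ring
    · congr 3
      push_cast
      simp
  rw [h, eval_mul, eval_mul, eval_mul, eval_descPoch_shift, eval_descPoch_shift,
    descPochhammer_eval_eq_prod_range, descPochhammer_eval_eq_prod_range, norm_mul, norm_mul,
    norm_mul, norm_prod, norm_prod, norm_prod, norm_prod]
  unfold rhon
  ring

/-! ### the constant -/

theorem kap_VV_eq (S : Shape) (u c : ℕ) (e : D.Col S u ⊕ Fin c ≃ Rw S u c) :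
    |((kap S u * VV S u c e : ℚ) : ℝ)| = Real.exp (logV S u c) / kden S u := by
  have hV : 0 < |((VV S u c e : ℚ) : ℝ)| := by
    rw [abs_pos]
    exact_mod_cast VV_bord_ne_zero S u c e
  rw [Rat.cast_mul, kap_eq, abs_mul, abs_of_pos (inv_pos.mpr (kden_pos S u)),
    ← log_VV_bord S u c e, Real.exp_log hV]
  rw [div_eq_mul_inv, mul_comm]

lemma fact_le_exp (n : ℕ) : ((n.factorial : ℕ) : ℝ) ≤ Real.exp (n * Real.log (n + 1)) := by
  have h : ((n.factorial : ℕ) : ℝ) ≤ ((n : ℝ) + 1) ^ n := by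
    have h1 := Nat.factorial_le_pow n
    have h2 : n ^ n ≤ (n + 1) ^ n := Nat.pow_le_pow_left (Nat.le_succ n) n
    exact_mod_cast h1.trans h2
  refine h.trans (le_of_eq ?_)
  rw [Real.exp_nat_mul, Real.exp_log (by positivity)]

/-- everything combinatorial is `exp (O(u (1 + log u)))` -/
theorem comb_le (a b : ℕ) (K : ℝ) (hK : 1 ≤ K) : ∃ C : ℝ, 0 ≤ C ∧ ∀ u : ℕ, 1 ≤ u → ∀ n : ℕ,
    n ≤ a * u + b → ((n.factorial : ℕ) : ℝ) * K ^ n ≤ Real.exp (C * (u * (1 + Real.log u))) := by
  have hlK : 0 ≤ Real.log K := Real.log_nonneg hK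
  set A : ℝ := (a : ℝ) + b with hA
  have hA0 : 0 ≤ A := by positivity
  refine ⟨A * (Real.log (A + 1) + 1 + Real.log K), ?_, ?_⟩
  · have : 0 ≤ Real.log (A + 1) := Real.log_nonneg (by linarith)
    positivity
  intro u hu n hn
  have hu1 : (1 : ℝ) ≤ u := by exact_mod_cast hu
  have hu0 : (0 : ℝ) < u := by linarith
  have hlu : 0 ≤ Real.log u := Real.log_nonneg hu1
  have hlA : 0 ≤ Real.log (A + 1) := Real.log_nonneg (by linarith)
  have hnA : (n : ℝ) ≤ A * u := by
    have h1 : (n : ℝ) ≤ a * u + b := by exact_mod_cast hn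
    have h2 : (b : ℝ) ≤ b * u := by
      have : (0 : ℝ) ≤ b := Nat.cast_nonneg b
      nlinarith
    rw [hA]; linarith
  have hn1 : Real.log ((n : ℝ) + 1) ≤ Real.log (A + 1) + Real.log u := by
    rw [← Real.log_mul (by linarith) hu0.ne']
    apply Real.log_le_log (by positivity)
    nlinarith
  have hKn : K ^ n = Real.exp (n * Real.log K) := by
    rw [Real.exp_nat_mul, Real.exp_log (by linarith)]
  rw [hKn]
  refine (mul_le_mul_of_nonneg_right (fact_le_exp n) (Real.exp_pos _).le).trans ?_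
  rw [← Real.exp_add]
  apply Real.exp_le_exp.mpr
  have hn0 : (0 : ℝ) ≤ n := Nat.cast_nonneg n
  have h3 : (n : ℝ) * Real.log (n + 1) ≤ A * u * (Real.log (A + 1) + Real.log u) :=
    mul_le_mul hnA hn1 (Real.log_nonneg (by linarith)) (by positivity)
  have h4 : (n : ℝ) * Real.log K ≤ A * u * Real.log K := mul_le_mul_of_nonneg_right hnA hlK
  have h5 : 0 ≤ A * u * Real.log (A + 1) * Real.log u := by positivity
  have h6 : 0 ≤ A * u * Real.log K * Real.log u := by positivity
  have h7 : 0 ≤ A * u := by positivity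
  nlinarith

/-! ### the assembly -/

/-- What the analytic side has to deliver at one `u`: slot functionals with sup bounds on the slot
circles, the representation formulas with sup bounds on the rays, and the unit columns. -/
structure RepAt (S : Shape) (c u : ℕ) (K E : ℝ) where
  U : ∀ k : Slot S u, Fin (ord S u k) → ℂ[X] → ℂ
  VR : ∀ k : Slot S u, Fin (ord S u k) → ℂ[X] → ℂ
  VQ : ∀ k : Slot S u, Fin (ord S u k) → ℂ[X] → ℂ
  hU : ∀ k a (P : ℂ[X]) (μ : ℝ), (∀ s : ℂ, ‖s - (ctr S u k : ℂ)‖ = 1 / 4 → ‖eval s P‖ ≤ μ) →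
    ‖U k a P‖ ≤ K * μ
  hVR : ∀ k a (f : ℂ[X]) (ν : ℝ), (∀ s : ℂ, ‖s - (ctr S u k : ℂ)‖ = 1 / 4 →
    ‖eval s f‖ * wtR S u c s ≤ ν) → ‖VR k a f‖ ≤ K * ν
  hVQ : ∀ k a (f : ℂ[X]) (ν : ℝ), (∀ s : ℂ, ‖s - (ctr S u k : ℂ)‖ = 1 / 4 →
    ‖eval s f‖ * wtQ S u c s ≤ ν) → ‖VQ k a f‖ ≤ K * ν
  hR : ∀ (P f : ℂ[X]) (M : ℝ), P.natDegree < S.rows * u + c →
    (∀ t : ℝ, 0 ≤ t → ∀ v : ℂ, v = -1 + I ∨ v = -1 - I →
      ‖eval (rayPt S u v t) P‖ * ‖eval (rayPt S u v t) f‖ * wtR S u c (rayPt S u v t)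
        * (1 + t) ^ 2 ≤ M) →
    ‖BR S u c P f - ∑ k, ∑ a, U k a P * VR k a f‖ ≤ K * M
  hQ : ∀ (P f : ℂ[X]) (M : ℝ), P.natDegree + f.natDegree + 2 ≤ S.rows * u + c →
    (∀ t : ℝ, 0 ≤ t → ∀ v : ℂ, v = -1 + I ∨ v = -1 - I →
      ‖eval (rayPt S u v t) P‖ * ‖eval (rayPt S u v t) f‖ * wtQ S u c (rayPt S u v t)
        * (1 + t) ^ 2 ≤ M) →
    ‖BQ S u c P f - ∑ k, ∑ a, U k a P * VQ k a f‖ ≤ K * M
  hBU : ∀ (J : Rw S u c) (P : ℂ[X]) (M : ℝ), (∀ s : ℂ,
    ‖s‖ ≤ (S.B + S.e1 + S.h1 + S.w + 1 : ℕ) * u + c + 1 → ‖eval s P‖ ≤ M) →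
    ‖BU S u c J P‖ ≤ E * M

lemma ord_le_three (S : Shape) (u : ℕ) (k : Slot S u) : ord S u k ≤ 3 := by
  rcases k with l | (l | j)
  · exact le_rfl
  · simp only [ord]; split_ifs <;> omega
  · simp only [ord]; split_ifs <;> omega

lemma card_slots_le (S : Shape) (u : ℕ) :
    Fintype.card (Σ k : Slot S u, Fin (ord S u k)) ≤ 3 * (S.w + S.h1 + S.e1) * u := by
  rw [Fintype.card_sigma]
  simp only [Fintype.card_fin]
  refine (Finset.sum_le_card_nsmul _ _ 3 fun k _ => ord_le_three S u k).trans ?_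
  simp only [Finset.card_univ, Fintype.card_sum, Fintype.card_fin, smul_eq_mul]
  have : S.e1 * u - S.w * u ≤ S.e1 * u := Nat.sub_le _ _
  nlinarith

lemma lg_natDegree {n : ℕ} (w : Fin n → ℂ) (i : Fin n) : (lg w i).natDegree = n - 1 := by
  unfold lg
  rw [natDegree_prod_of_monic _ _ fun i _ => monic_X_sub_C (w i)]
  simp only [natDegree_X_sub_C, Finset.sum_const, Finset.card_erase_of_mem (Finset.mem_univ i),
    Finset.card_univ, Fintype.card_fin, smul_eq_mul, mul_one]

/-- **Assembly of the discrete inequality** from the analytic input. -/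
theorem disc_of_rep {S : Shape} (hS : S.Good) (c : ℕ) (K C0 : ℝ)
    (h : ∀ u : ℕ, 1 ≤ u → Nonempty (RepAt S c u K (Real.exp (C0 * (u * (1 + Real.log u)))))) :
    Disc S c := by
  classical
  set K' : ℝ := max 1 K with hK'
  have hK1 : 1 ≤ K' := le_max_left _ _
  have hKK : K ≤ K' := le_max_right _ _
  obtain ⟨C1, hC1, hcomb⟩ := comb_le (S.k + S.g + 3 * (S.w + S.h1 + S.e1)) c K' hK1
  refine ⟨C1 + c * |C0|, by positivity, ?_⟩
  intro u hu r hr ιW ιZ ιY _ _ _ _ _ _ w z y hw hz hy cW cZ cY LR LQ HW μ ν hLR hLQ hHW hμ hν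
    hrayR hrayQ hcW hcZ hcY hH
  obtain ⟨D⟩ := h u hu
  set E : ℝ := Real.exp (C0 * (u * (1 + Real.log u))) with hE
  have hE0 : 0 < E := Real.exp_pos _
  have hu1 : (1 : ℝ) ≤ u := by exact_mod_cast hu
  have hlu : 0 ≤ Real.log u := Real.log_nonneg hu1
  have hk : S.q + S.g ≤ S.rows := hS.kpos.le
  have hrows : S.k + S.q + S.g = S.rows := by
    unfold Shape.k; omega
  have hgq := hS.gq
  -- reindexing
  let eW : Fin (S.k * u + S.g * u + c) ≃ ιW := (Fintype.equivFinOfCardEq (by omega)).symm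
  let eZ : Fin (S.k * u) ≃ ιZ := (Fintype.equivFinOfCardEq cZ).symm
  let eY : Fin (S.g * u) ≃ ιY := (Fintype.equivFinOfCardEq cY).symm
  have hrowsu : S.rows * u = S.k * u + S.q * u + S.g * u := by
    rw [← hrows]; ring
  have hgqu : S.g * u ≤ S.q * u := Nat.mul_le_mul_right _ hgq
  obtain ⟨e, he⟩ := plain_bound (S := S) (u := u) (c := c) hk r hr
    (σ := Σ k : Slot S u, Fin (ord S u k))
    (fun i => w (eW i)) (fun i => z (eZ i)) (fun i => y (eY i))
    (hw.comp eW.injective) (hz.comp eZ.injective) (hy.comp eY.injective)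
    (fun s i => D.U s.1 s.2 (lg (fun i => w (eW i)) i))
    (fun s j => D.VR s.1 s.2 (lg (fun i => z (eZ i)) j))
    (fun s j => D.VQ s.1 s.2 (lg (fun i => y (eY i)) j))
    K' LR LQ (E * HW) (fun s => μ s.1) (fun s => K' * ν s.1)
    (by linarith) hLR.le hLQ.le (by positivity) (fun s => hμ s.1)
    (fun s => mul_nonneg (by linarith) (hν s.1))
    (fun i j => by
      rw [Fintype.sum_sigma]
      refine (D.hR _ _ LR ?_ ?_).trans (mul_le_mul_of_nonneg_right hKK hLR.le)
      · rw [lg_natDegree]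
        have := i.2
        omega
      · intro t ht v hv
        rw [norm_eval_lg, norm_eval_lg, oth_comp, oth_comp]
        exact hrayR _ _ t ht v hv)
    (fun i j => by
      rw [Fintype.sum_sigma]
      refine (D.hQ _ _ LQ ?_ ?_).trans (mul_le_mul_of_nonneg_right hKK hLQ.le)
      · rw [lg_natDegree, lg_natDegree]
        have := i.2
        have := j.2
        omega
      · intro t ht v hv
        rw [norm_eval_lg, norm_eval_lg, oth_comp, oth_comp]
        exact hrayQ _ _ t ht v hv)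
    (fun J i => by
      have h1 := D.hBU J (lg (fun i => w (eW i)) i) HW (fun s hs => by
        rw [norm_eval_lg, oth_comp]
        exact hH _ s hs)
      refine h1.trans ?_
      have : 0 ≤ E * HW := by positivity
      nlinarith)
    (fun s i => by
      refine (D.hU s.1 s.2 _ (μ s.1) ?_).trans (mul_le_mul_of_nonneg_right hKK (hμ s.1).le)
      intro s' hs'
      rw [norm_eval_lg, oth_comp]
      exact hcW _ _ _ hs')
    (fun s j => by
      have h1 := D.hVR s.1 s.2 (lg (fun i => z (eZ i)) j) (ν s.1 * LR) (fun s' hs' => by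
        rw [norm_eval_lg, oth_comp]
        exact hcZ _ _ _ hs')
      refine h1.trans ?_
      have : 0 ≤ ν s.1 * LR := mul_nonneg (hν _) hLR.le
      nlinarith)
    (fun s j => by
      have h1 := D.hVQ s.1 s.2 (lg (fun i => y (eY i)) j) (ν s.1 * LQ) (fun s' hs' => by
        rw [norm_eval_lg, oth_comp]
        exact hcY _ _ _ hs')
      refine h1.trans ?_
      have : 0 ≤ ν s.1 * LQ := mul_nonneg (hν _) hLQ.le
      nlinarith)
  have evw : ‖(Matrix.vandermonde (fun i => w (eW i))).det‖ = vdm w := by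
    rw [norm_vandermonde_eq_vdm (fun i => w (eW i)) (hw.comp eW.injective)]
    exact vdm_comp eW w
  have evz : ‖(Matrix.vandermonde (fun i => z (eZ i))).det‖ = vdm z := by
    rw [norm_vandermonde_eq_vdm (fun i => z (eZ i)) (hz.comp eZ.injective)]
    exact vdm_comp eZ z
  have evy : ‖(Matrix.vandermonde (fun i => y (eY i))).det‖ = vdm y := by
    rw [norm_vandermonde_eq_vdm (fun i => y (eY i)) (hy.comp eY.injective)]
    exact vdm_comp eY y
  rw [kap_VV_eq, evw, evz, evy] at he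
  have hprod : ∏ s : (Σ k : Slot S u, Fin (ord S u k)), max 1 (μ s.1 * (K' * ν s.1)) ≤
      K' ^ Fintype.card (Σ k : Slot S u, Fin (ord S u k)) *
        ∏ k, (max 1 (μ k * ν k)) ^ ord S u k := by
    have h1 : ∀ k : Slot S u, max 1 (μ k * (K' * ν k)) ≤ K' * max 1 (μ k * ν k) := by
      intro k
      have hm : 0 ≤ μ k * ν k := mul_nonneg (hμ k).le (hν k)
      apply max_le
      · calc (1 : ℝ) = 1 * 1 := by ring
          _ ≤ K' * max 1 (μ k * ν k) :=
            mul_le_mul hK1 (le_max_left _ _) zero_le_one (by linarith)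
      · calc μ k * (K' * ν k) = K' * (μ k * ν k) := by ring
          _ ≤ K' * max 1 (μ k * ν k) :=
            mul_le_mul_of_nonneg_left (le_max_right _ _) (by linarith)
    calc ∏ s : (Σ k : Slot S u, Fin (ord S u k)), max 1 (μ s.1 * (K' * ν s.1))
        ≤ ∏ s : (Σ k : Slot S u, Fin (ord S u k)), K' * max 1 (μ s.1 * ν s.1) :=
          Finset.prod_le_prod (fun s _ => le_trans zero_le_one (le_max_left _ _))
            fun s _ => h1 s.1
      _ = _ := by
          rw [Finset.prod_mul_distrib, Finset.prod_const, Finset.card_univ, Fintype.prod_sigma]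
          congr 1
          refine Finset.prod_congr rfl fun k _ => ?_
          simp
  set m : ℕ := Fintype.card (Σ k : Slot S u, Fin (ord S u k)) with hm
  have hmle : m ≤ 3 * (S.w + S.h1 + S.e1) * u := card_slots_le S u
  set n : ℕ := S.k * u + S.g * u + c with hn
  have hcomb' := hcomb u hu (n + m) (by
    rw [hn]
    calc S.k * u + S.g * u + c + m ≤ S.k * u + S.g * u + c + 3 * (S.w + S.h1 + S.e1) * u := by
          omega
      _ = _ := by ring)
  have hPpos : (0 : ℝ) ≤ ∏ k, (max 1 (μ k * ν k)) ^ ord S u k :=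
    Finset.prod_nonneg fun k _ => pow_nonneg (le_trans zero_le_one (le_max_left _ _)) _
  have hκ : 0 ≤ Real.exp (logV S u c) / kden S u := by
    have := kden_pos S u
    positivity
  have hA : 0 ≤ LR ^ (S.k * u) * (LQ ^ (S.g * u) * (E * HW) ^ c) := by positivity
  have hE' : E ^ c ≤ Real.exp (c * |C0| * (u * (1 + Real.log u))) := by
    rw [hE, ← Real.exp_nat_mul]
    apply Real.exp_le_exp.mpr
    have h1 : C0 * (u * (1 + Real.log u)) ≤ |C0| * (u * (1 + Real.log u)) :=
      mul_le_mul_of_nonneg_right (le_abs_self _) (by positivity)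
    have h2 : (0 : ℝ) ≤ c := Nat.cast_nonneg c
    nlinarith
  calc |aeval GG (Minor S u r)| * (vdm w * vdm z * vdm y)
      = |aeval GG (Minor S u r)| * (vdm w * (vdm z * vdm y)) := by ring
    _ ≤ Real.exp (logV S u c) / kden S u * ((n + m).factorial *
          (K' ^ n * (LR ^ (S.k * u) * (LQ ^ (S.g * u) * (E * HW) ^ c)) *
            ∏ s : (Σ k : Slot S u, Fin (ord S u k)), max 1 (μ s.1 * (K' * ν s.1)))) := he
    _ ≤ Real.exp (logV S u c) / kden S u * ((n + m).factorial *
          (K' ^ n * (LR ^ (S.k * u) * (LQ ^ (S.g * u) * (E * HW) ^ c)) *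
            (K' ^ m * ∏ k, (max 1 (μ k * ν k)) ^ ord S u k))) := by
        refine mul_le_mul_of_nonneg_left (mul_le_mul_of_nonneg_left
          (mul_le_mul_of_nonneg_left hprod ?_) (by positivity)) hκ
        exact mul_nonneg (by positivity) hA
    _ = ((n + m).factorial * K' ^ (n + m)) * E ^ c * (Real.exp (logV S u c) / kden S u *
          LR ^ (S.k * u) * LQ ^ (S.g * u) * HW ^ c * ∏ k, (max 1 (μ k * ν k)) ^ ord S u k) := by
        rw [mul_pow, pow_add]; ring
    _ ≤ (Real.exp (C1 * (u * (1 + Real.log u))) * Real.exp (c * |C0| * (u * (1 + Real.log u)))) *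
          (Real.exp (logV S u c) / kden S u *
          LR ^ (S.k * u) * LQ ^ (S.g * u) * HW ^ c * ∏ k, (max 1 (μ k * ν k)) ^ ord S u k) := by
        refine mul_le_mul_of_nonneg_right (mul_le_mul hcomb' hE' (by positivity)
          (Real.exp_pos _).le) ?_
        have := hLR.le
        have := hLQ.le
        have := hHW.le
        positivity
    _ = _ := by
        rw [← Real.exp_add]
        ring_nf

end Crest.Agent.R006.P3.Glue410
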