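import Crest.Agent.R006.BordMap_819
import Crest.Agent.R006.Germ_724
import Crest.Agent.R006.P3_Const2_673

/-!
# Row 6, block P3: the unit columns (helper819), item (i) of note 3016

* `norm_u_le`: `|Lam.u z m P row| ≤ M * 4 ^ (rows u + c)` if `|P| ≤ M` on the circle of radius `1/4`
  around the site of the row.
* `norm_u_prod_le`: for `P = ∏ (X - x_i)`, at most `n` points in the disc of radius `R`:
  `|Lam.u z m P row| ≤ (L + 1 + R) ^ n * 4 ^ (rows u + c)`, `L` a bound for `|site|`.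
* `norm_u_le_exp`: `≤ exp (C * ef u)` if `R = C0 u`, `n ≤ C1 u`, uniformly.
* `lam_unitCol_norm`: the same for the entries of the unit columns of `lmat`.
-/

set_option autoImplicit false

namespace Crest.Agent.R006.P3Unit

open Polynomial Crest.Agent.R006.D Crest.Agent.R006.NV Crest.Agent.R006.Bord
  Crest.Agent.R006.BordK

noncomputable section

variable {S : Shape} {u c : ℕ}

/-- two different sites are at distance at least `1/2` -/
lemma dist_val {a b : Site} (h : a ≠ b) : (1 / 2 : ℝ) ≤ |((a.val : ℚ) : ℝ) - ((b.val : ℚ) : ℝ)| := by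
  obtain ⟨i, hi⟩ : ∃ i : ℤ, a.val = (i : ℚ) / 2 := by
    rcases a with i | i
    · exact ⟨2 * i, by simp only [Site.val]; push_cast; ring⟩
    · exact ⟨2 * i + 1, by simp only [Site.val]; push_cast; ring⟩
  obtain ⟨j, hj⟩ : ∃ j : ℤ, b.val = (j : ℚ) / 2 := by
    rcases b with i | i
    · exact ⟨2 * i, by simp only [Site.val]; push_cast; ring⟩
    · exact ⟨2 * i + 1, by simp only [Site.val]; push_cast; ring⟩
  have hij : i ≠ j := by
    intro hij
    apply h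
    apply Bord.val_injective
    rw [hi, hj, hij]
  have h1 : (1 : ℝ) ≤ |((i - j : ℤ) : ℝ)| := by
    rw [← Int.cast_abs]
    exact_mod_cast Int.one_le_abs (sub_ne_zero.mpr hij)
  rw [hi, hj]
  have h2 : (((i : ℚ) / 2 : ℚ) : ℝ) - (((j : ℚ) / 2 : ℚ) : ℝ) = ((i - j : ℤ) : ℝ) / 2 := by
    push_cast; ring
  rw [h2, abs_div, abs_two]
  linarith

lemma norm_zK_sub {a b : St S u c} (h : a ≠ b) :
    (1 / 2 : ℝ) ≤ ‖zK S u c ℂ a - zK S u c ℂ b‖ := by
  have h1 : zK S u c ℂ a - zK S u c ℂ b =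
      ((((a.1.val : ℚ) : ℝ) - ((b.1.val : ℚ) : ℝ) : ℝ) : ℂ) := by
    simp only [zK, zz]
    push_cast
    ring
  rw [h1, Complex.norm_real, Real.norm_eq_abs]
  exact dist_val fun hab => h (Subtype.ext hab)

/-- `|Nhat|` on the circle -/
lemma norm_Nhat_ge (i : St S u c) {s : ℂ} (hs : ‖s - zK S u c ℂ i‖ = 1 / 4) :
    (1 / 4 : ℝ) ^ (∑ l ∈ Finset.univ.erase i, mm S u c l) ≤
      ‖(Lam.Nhat (zK S u c ℂ) (mm S u c) i).eval s‖ := by
  rw [Lam.Nhat, eval_prod, norm_prod, ← Finset.prod_pow_eq_pow_sum]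
  refine Finset.prod_le_prod (fun l _ => by positivity) fun l hl => ?_
  rw [eval_pow, eval_sub, eval_X, eval_C, norm_pow]
  refine pow_le_pow_left₀ (by norm_num) ?_ _
  have h1 := norm_zK_sub (Finset.ne_of_mem_erase hl)
  have h2 : zK S u c ℂ l - zK S u c ℂ i = (s - zK S u c ℂ i) - (s - zK S u c ℂ l) := by ring
  have h3 := norm_sub_le (s - zK S u c ℂ i) (s - zK S u c ℂ l)
  rw [← h2, hs] at h3
  linarith

lemma sum_mm : ∑ l, mm S u c l = S.rows * u + c := by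
  have h := card_Rw S u c
  rw [← h, Fintype.card_sigma]
  simp

/-- **weights of a row** -/
theorem norm_u_le (P : ℂ[X]) (ρ : Rw S u c) {M : ℝ}
    (hM : ∀ s, ‖s - zK S u c ℂ ρ.1‖ = 1 / 4 → ‖P.eval s‖ ≤ M) :
    ‖Lam.u (zK S u c ℂ) (mm S u c) P ρ‖ ≤ M * 4 ^ (S.rows * u + c) := by
  set z := zK S u c ℂ ρ.1 with hz
  set N := Lam.Nhat (zK S u c ℂ) (mm S u c) ρ.1 with hN
  set n := mm S u c ρ.1 - 1 - (ρ.2 : ℕ) with hn
  have hM0 : 0 ≤ M := (norm_nonneg _).trans (hM (z + 1 / 4) (by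
    rw [add_sub_cancel_left]; norm_num))
  have hNz : N.eval z ≠ 0 := Lam.Nhat_eval_ne (mm S u c) (zK_injective S u c ℂ) ρ.1
  have hT : Lam.wt (zK S u c ℂ) (mm S u c) P ρ.1 =
      Germ724.T (fun s => P.eval s / N.eval s) z := by
    rw [Germ724.T_div (Germ724.analyticAt_eval P z) (Germ724.analyticAt_eval N z) hNz,
      Germ724.T_eval, Germ724.T_eval]
    rfl
  have hball : ∀ s ∈ Metric.closedBall z (1 / 4 : ℝ), N.eval s ≠ 0 := by
    intro s hs
    rw [hN, Lam.Nhat, eval_prod, Finset.prod_ne_zero_iff]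
    intro l hl
    rw [eval_pow, eval_sub, eval_X, eval_C]
    refine pow_ne_zero _ (sub_ne_zero.mpr fun h => ?_)
    have h1 := norm_zK_sub (Finset.ne_of_mem_erase hl)
    rw [mem_closedBall_iff_norm, h] at hs
    rw [← hz] at h1
    linarith
  have hd : DifferentiableOn ℂ (fun s => P.eval s / N.eval s) (Metric.closedBall z (1 / 4 : ℝ)) :=
    (P.differentiable.differentiableOn).div (N.differentiable.differentiableOn) hball
  have hc := Germ724.circle_eq (r := 1 / 4) (by norm_num) hd n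
  set E := ∑ l ∈ Finset.univ.erase ρ.1, mm S u c l with hE
  have hint : ‖∮ w in C(z, 1 / 4), (P.eval w / N.eval w) / (w - z) ^ (n + 1)‖ ≤
      2 * Real.pi * (1 / 4) * (M * 4 ^ E * 4 ^ (n + 1)) := by
    refine circleIntegral.norm_integral_le_of_norm_le_const (by norm_num) fun s hs => ?_
    rw [mem_sphere_iff_norm] at hs
    rw [norm_div, norm_div, norm_pow, hs]
    have h1 := norm_Nhat_ge ρ.1 hs
    rw [← hN, ← hE] at h1
    have h2 : (0 : ℝ) < (1 / 4 : ℝ) ^ E := by positivity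
    have h3 : ‖P.eval s‖ / ‖N.eval s‖ ≤ M / (1 / 4 : ℝ) ^ E :=
      div_le_div₀ hM0 (hM s hs) h2 h1
    calc ‖P.eval s‖ / ‖N.eval s‖ / (1 / 4 : ℝ) ^ (n + 1)
        ≤ M / (1 / 4 : ℝ) ^ E / (1 / 4 : ℝ) ^ (n + 1) := by gcongr
      _ = M * 4 ^ E * 4 ^ (n + 1) := by
          rw [one_div, inv_pow, inv_pow, div_inv_eq_mul, div_inv_eq_mul]
  have hcoef : PowerSeries.coeff n (Germ724.T (fun s => P.eval s / N.eval s) z) =
      (2 * Real.pi * Complex.I)⁻¹ *
        ∮ w in C(z, 1 / 4), (P.eval w / N.eval w) / (w - z) ^ (n + 1) := by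
    rw [hc, inv_mul_cancel_left₀]
    simp [Real.pi_ne_zero]
  have hpi := Real.pi_pos
  have hEn : n + E ≤ S.rows * u + c := by
    rw [← sum_mm (S := S) (u := u) (c := c),
      ← Finset.add_sum_erase Finset.univ (mm S u c) (Finset.mem_univ ρ.1), ← hE]
    omega
  rw [Lam.u, hT, hcoef, norm_mul, norm_inv]
  have h2pi : ‖(2 * Real.pi * Complex.I : ℂ)‖ = 2 * Real.pi := by
    simp [abs_of_pos Real.pi_pos]
  rw [h2pi]
  calc (2 * Real.pi)⁻¹ * ‖∮ w in C(z, 1 / 4), (P.eval w / N.eval w) / (w - z) ^ (n + 1)‖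
      ≤ (2 * Real.pi)⁻¹ * (2 * Real.pi * (1 / 4) * (M * 4 ^ E * 4 ^ (n + 1))) := by gcongr
    _ = M * 4 ^ (n + E) := by
        rw [pow_succ, pow_add]; field_simp
    _ ≤ M * 4 ^ (S.rows * u + c) := by
        refine mul_le_mul_of_nonneg_left (pow_le_pow_right₀ (by norm_num) hEn) hM0

/-- bound for the positions -/
lemma norm_zK_le (z : St S u c) : ‖zK S u c ℂ z‖ ≤ L S u c + 1 := by
  have h1 : ‖zK S u c ℂ z‖ = |((z.1.val : ℚ) : ℝ)| := by
    have : zK S u c ℂ z = (((z.1.val : ℚ) : ℝ) : ℂ) := by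
      simp only [zK, zz]; push_cast; ring
    rw [this, Complex.norm_real, Real.norm_eq_abs]
  rw [h1]
  obtain ⟨z, hz⟩ := z
  simp only [sites, Finset.mem_union, Finset.mem_image, Finset.mem_Icc] at hz
  rcases hz with ⟨i, ⟨g1, g2⟩, rfl⟩ | ⟨i, ⟨g1, g2⟩, rfl⟩
  · have h1' : (-(L S u c : ℝ)) ≤ (i : ℝ) := by exact_mod_cast g1
    have h2' : (i : ℝ) ≤ L S u c := by exact_mod_cast g2
    simp only [Site.val, Rat.cast_intCast]
    rw [abs_le]
    constructor <;> linarith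
  · have h1' : (-(L S u c : ℝ)) ≤ (i : ℝ) := by exact_mod_cast g1
    have h2' : (i : ℝ) ≤ L S u c := by exact_mod_cast g2
    simp only [Site.val]
    push_cast
    rw [abs_le]
    constructor <;> linarith

/-- product of linear factors -/
theorem norm_u_prod_le {ι : Type*} (s : Finset ι) (x : ι → ℂ) (ρ : Rw S u c) {R : ℝ} (hR : 0 ≤ R)
    (hx : ∀ i ∈ s, ‖x i‖ ≤ R) {n : ℕ} (hn : s.card ≤ n) :
    ‖Lam.u (zK S u c ℂ) (mm S u c) (∏ i ∈ s, (X - C (x i))) ρ‖ ≤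
      (L S u c + 2 + R) ^ n * 4 ^ (S.rows * u + c) := by
  refine norm_u_le _ ρ fun w hw => ?_
  rw [eval_prod, norm_prod]
  have h1 : ∀ i ∈ s, ‖(X - C (x i) : ℂ[X]).eval w‖ ≤ L S u c + 2 + R := by
    intro i hi
    rw [eval_sub, eval_X, eval_C]
    have h2 : w - x i = (w - zK S u c ℂ ρ.1) + zK S u c ℂ ρ.1 - x i := by ring
    have h3 := norm_sub_le ((w - zK S u c ℂ ρ.1) + zK S u c ℂ ρ.1) (x i)
    have h4 := norm_add_le (w - zK S u c ℂ ρ.1) (zK S u c ℂ ρ.1)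
    have h5 := norm_zK_le ρ.1
    have h6 := hx i hi
    rw [h2]
    rw [hw] at h4
    linarith
  have h0 : (1 : ℝ) ≤ L S u c + 2 + R := by
    have : (0 : ℝ) ≤ L S u c := Nat.cast_nonneg _
    linarith
  calc ∏ i ∈ s, ‖(X - C (x i) : ℂ[X]).eval w‖ ≤ ∏ _i ∈ s, ((L S u c : ℝ) + 2 + R) :=
        Finset.prod_le_prod (fun i _ => norm_nonneg _) h1
    _ = ((L S u c : ℝ) + 2 + R) ^ s.card := by rw [Finset.prod_const]
    _ ≤ ((L S u c : ℝ) + 2 + R) ^ n := pow_le_pow_right₀ h0 hn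

lemma pow_eq_exp {a : ℝ} (ha : 0 < a) (n : ℕ) : a ^ n = Real.exp (n * Real.log a) := by
  rw [Real.exp_nat_mul, Real.exp_log ha]

open Crest.Agent.R006.ConstX673 in
/-- **unit columns, exponential form** -/
theorem norm_u_le_exp (S : Shape) (c : ℕ) (C0 : ℝ) (hC0 : 0 ≤ C0) (C1 : ℕ) :
    ∃ E : ℝ, 0 ≤ E ∧ ∀ u : ℕ, 1 ≤ u → ∀ (ρ : Rw S u c) {ι : Type} (s : Finset ι) (x : ι → ℂ),
      (∀ i ∈ s, ‖x i‖ ≤ C0 * u) → s.card ≤ C1 * u →
      ‖Lam.u (zK S u c ℂ) (mm S u c) (∏ i ∈ s, (X - C (x i))) ρ‖ ≤ Real.exp (E * ef u) := by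
  set A : ℕ := S.B + S.e1 + S.e2 + S.e3 + S.h1 + S.h2 + S.h3 + S.w with hA
  set D : ℝ := A + c + 2 + C0 with hD
  have hD1 : 1 ≤ D := by
    have h1 : (0 : ℝ) ≤ A := Nat.cast_nonneg _
    have h2 : (0 : ℝ) ≤ c := Nat.cast_nonneg _
    linarith
  have hlogD : 0 ≤ Real.log D := Real.log_nonneg hD1
  have hlog4 : 0 ≤ Real.log 4 := Real.log_nonneg (by norm_num)
  refine ⟨C1 * (Real.log D + 1) + (S.rows + c) * Real.log 4, by positivity, ?_⟩
  intro u hu ρ ι s x hx hs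
  have hu1 : (1 : ℝ) ≤ u := by exact_mod_cast hu
  have hu0 : (0 : ℝ) < u := by linarith
  have h1 := norm_u_prod_le s x ρ (R := C0 * u) (by positivity) hx hs
  refine h1.trans ?_
  have hL : (L S u c : ℝ) + 2 + C0 * u ≤ D * u := by
    have e : (L S u c : ℝ) = A * u + c := by
      rw [L, hA]; push_cast; ring
    rw [e, hD]
    have h2 : (0 : ℝ) ≤ c := Nat.cast_nonneg _
    nlinarith
  have hL0 : (0 : ℝ) < (L S u c : ℝ) + 2 + C0 * u := by positivity
  have e1 : (D * (u : ℝ)) ^ (C1 * u) * 4 ^ (S.rows * u + c) =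
      Real.exp ((C1 * u) * (Real.log D + Real.log u) + (S.rows * u + c) * Real.log 4) := by
    have hDu : 0 < D * (u : ℝ) := mul_pos (by linarith) hu0
    rw [Real.exp_add, ← Real.log_mul (by linarith) hu0.ne', pow_eq_exp hDu,
      pow_eq_exp (by norm_num : (0 : ℝ) < 4)]
    push_cast
    rfl
  have hef : (u : ℝ) ≤ ef u := ef_ge hu
  have hul : (u : ℝ) * Real.log u ≤ ef u := by
    unfold ef; nlinarith
  calc ((L S u c : ℝ) + 2 + C0 * u) ^ (C1 * u) * 4 ^ (S.rows * u + c)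
      ≤ (D * (u : ℝ)) ^ (C1 * u) * 4 ^ (S.rows * u + c) := by gcongr
    _ = Real.exp ((C1 * u) * (Real.log D + Real.log u) + (S.rows * u + c) * Real.log 4) := e1
    _ ≤ Real.exp ((C1 * (Real.log D + 1) + (S.rows + c) * Real.log 4) * ef u) := by
        rw [Real.exp_le_exp]
        have hc1 : (0 : ℝ) ≤ C1 := Nat.cast_nonneg _
        have hr : (0 : ℝ) ≤ S.rows := Nat.cast_nonneg _
        have hc : (0 : ℝ) ≤ c := Nat.cast_nonneg _
        have t1 : (C1 * u : ℝ) * Real.log D ≤ C1 * Real.log D * ef u := by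
          have := mul_le_mul_of_nonneg_left hef (mul_nonneg hc1 hlogD)
          linarith
        have t2 : (C1 * u : ℝ) * Real.log u ≤ C1 * ef u := by
          have := mul_le_mul_of_nonneg_left hul hc1
          linarith
        have t3 : (S.rows * u + c : ℝ) * Real.log 4 ≤ (S.rows + c) * Real.log 4 * ef u := by
          have h3 : (S.rows * u + c : ℝ) ≤ (S.rows + c) * ef u := by
            have h4 : (1 : ℝ) ≤ ef u := one_le_ef hu
            nlinarith
          have := mul_le_mul_of_nonneg_right h3 hlog4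
          linarith
        calc (C1 * u : ℝ) * (Real.log D + Real.log u) + (S.rows * u + c) * Real.log 4
            = (C1 * u : ℝ) * Real.log D + (C1 * u : ℝ) * Real.log u +
              (S.rows * u + c : ℝ) * Real.log 4 := by ring
          _ ≤ C1 * Real.log D * ef u + C1 * ef u + (S.rows + c) * Real.log 4 * ef u := by
              linarith
          _ = _ := by ring

/-- entries of the unit columns of `lmat` -/
theorem norm_lam_unitCol_le (S : Shape) (c : ℕ) (C0 : ℝ) (hC0 : 0 ≤ C0) (C1 : ℕ) :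
    ∃ E : ℝ, 0 ≤ E ∧ ∀ u : ℕ, 1 ≤ u → ∀ (ρ : Rw S u c) {ι : Type} (s : Finset ι) (x : ι → ℂ),
      (∀ i ∈ s, ‖x i‖ ≤ C0 * u) → s.card ≤ C1 * u →
      ‖Lam.lam (zK S u c ℂ) (mm S u c) (∏ i ∈ s, (X - C (x i)))
        (Lam.unitCol (mm S u c) ℂ ρ)‖ ≤ Real.exp (E * ConstX673.ef u) := by
  obtain ⟨E, hE, h⟩ := norm_u_le_exp S c C0 hC0 C1
  refine ⟨E, hE, fun u hu ρ ι s x hx hs => ?_⟩
  rw [Lam.lam_unitCol]
  exact h u hu ρ s x hx hs

end

end Crest.Agent.R006.P3Unit
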