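import Crest.Agent.R006.P3_Bridge_257
import Crest.Agent.R006.P3_Disc_390
import Crest.Agent.R006.P3_Unit_819

/-!
# Row 6, block P3: glue between `plain_bound` (helper257) and `Disc` (helper390) (helper819)

* `vdm_eq_819`, `oth_eq`: reindexing;
* `kapVV_eq_819`: `|kap * VV e| = exp logV / kden`;
* `norm_BU_le_819`: the unit columns;
* `plain_bound_819`: `plain_bound` for arbitrary index types, in the format of `Disc`.
-/

set_option autoImplicit false

namespace Crest.Agent.R006.P3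

open Polynomial Crest.Agent.R006.D Crest.Agent.R006.NV Crest.Agent.R006.Bord
  Crest.Agent.R006.Potx943 Crest.Agent.R006.ConstX673 Crest.Agent.R006.Border410

/-! ### reindexing -/

lemma vdm_fin_819 {n : ℕ} (w : Fin n → ℂ) (hw : Function.Injective w) :
    vdm w = ‖(Matrix.vandermonde w).det‖ := by
  have h1 := two_log_norm_V w (fun _ => 1) hw
  have h2 : ‖Leib257.V w (fun _ => 1)‖ = ‖(Matrix.vandermonde w).det‖ := by
    rw [Leib257.V, Matrix.det_vandermonde, norm_prod, norm_prod]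
    refine Finset.prod_congr rfl fun i _ => ?_
    rw [norm_prod, norm_prod]
    refine Finset.prod_congr rfl fun j _ => ?_
    rw [mul_one, pow_one, norm_sub_rev]
  have h3 : ‖(Matrix.vandermonde w).det‖ ≠ 0 := by
    rw [norm_ne_zero_iff]
    exact Matrix.det_vandermonde_ne_zero_iff.2 hw
  have h4 : 0 < ‖(Matrix.vandermonde w).det‖ := lt_of_le_of_ne (norm_nonneg _) h3.symm
  rw [vdm, ← h1, h2, mul_div_cancel_left₀ _ (two_ne_zero), Real.exp_log h4]

lemma vdm_comp_819 {ι κ : Type} [Fintype ι] [Fintype κ] (e : ι ≃ κ) (w : κ → ℂ) :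
    vdm (fun x => w (e x)) = vdm w := by
  have h := LE_comp e w (fun _ => 1)
  rw [vdm, vdm, h]

lemma vdm_eq_819 {ι : Type} [Fintype ι] {n : ℕ} (e : Fin n ≃ ι) (w : ι → ℂ)
    (hw : Function.Injective w) : vdm w = ‖(Matrix.vandermonde fun i => w (e i)).det‖ := by
  rw [← vdm_comp_819 e w]
  exact vdm_fin_819 (fun i => w (e i)) (hw.comp e.injective)

/-- Lagrange polynomials for an arbitrary index type -/
noncomputable def lgT_819 {ι : Type} [Fintype ι] [DecidableEq ι] (w : ι → ℂ) (i : ι) : ℂ[X] :=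
  ∏ j ∈ Finset.univ.erase i, (X - C (w j))

lemma lg_eq_819 {ι : Type} [Fintype ι] [DecidableEq ι] {n : ℕ} (e : Fin n ≃ ι) (w : ι → ℂ)
    (i : Fin n) : lg (fun i => w (e i)) i = lgT_819 w (e i) := by
  rw [lg, lgT_819]
  refine Finset.prod_bij (fun j _ => e j) ?_ ?_ ?_ ?_
  · intro j hj
    rw [Finset.mem_erase] at hj ⊢
    exact ⟨fun h => hj.1 (e.injective h), Finset.mem_univ _⟩
  · intro a _ b _ h
    exact e.injective h
  · intro j hj
    rw [Finset.mem_erase] at hj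
    refine ⟨e.symm j, ?_, e.apply_symm_apply j⟩
    rw [Finset.mem_erase]
    refine ⟨fun h => hj.1 ?_, Finset.mem_univ _⟩
    rw [← h, e.apply_symm_apply]
  · intro j _
    rfl

lemma norm_eval_lgT_819 {ι : Type} [Fintype ι] [DecidableEq ι] (w : ι → ℂ) (i : ι) (s : ℂ) :
    ‖(lgT_819 w i).eval s‖ = oth w i s := by
  rw [lgT_819, oth, eval_prod, norm_prod]
  refine Finset.prod_congr rfl fun j _ => ?_
  rw [eval_sub, eval_X, eval_C]

lemma lgT_natDegree_lt_819 {ι : Type} [Fintype ι] [DecidableEq ι] (w : ι → ℂ) (i : ι) :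
    (lgT_819 w i).natDegree < Fintype.card ι := by
  unfold lgT_819
  rw [natDegree_prod_of_monic _ _ fun i _ => monic_X_sub_C (w i)]
  simp only [natDegree_X_sub_C, Finset.sum_const, Finset.card_erase_of_mem (Finset.mem_univ i),
    Finset.card_univ, smul_eq_mul, mul_one]
  have : 0 < Fintype.card ι := Fintype.card_pos_iff.mpr ⟨i⟩
  omega

/-! ### the constant -/

lemma kap_eq_819 (S : Shape) (u : ℕ) : ((kap S u : ℚ) : ℝ) = (kden S u)⁻¹ := by
  unfold kap kden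
  simp only [vR]
  push_cast
  rw [Fin.prod_univ_eq_prod_range (fun l => (((l).factorial : ℝ))⁻¹) (S.q * u),
    Fin.prod_univ_eq_prod_range (fun l => (((l).factorial : ℝ))⁻¹) (S.g * u),
    Fin.prod_univ_eq_prod_range (fun l => (((S.a2 * u).factorial : ℝ)⁻¹ *
      ((S.i1 * u).factorial : ℝ)⁻¹ * ((S.r1 * u).factorial : ℝ)⁻¹) *
        (((S.a1 * u + l).factorial : ℝ))⁻¹) (S.k * u),
    Finset.prod_mul_distrib, Finset.prod_const, Finset.card_range]
  simp only [Finset.prod_inv_distrib, mul_inv, mul_pow, inv_pow]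
  ring

lemma kapVV_eq_819 (S : Shape) (u c : ℕ) (e : D.Col S u ⊕ Fin c ≃ Rw S u c) :
    |((kap S u * VV S u c e : ℚ) : ℝ)| = Real.exp (logV S u c) / kden S u := by
  have h1 := log_norm_det_vmat (ι := St S u c) S u c (fun s => s.1) (zz_injective S u c)
    (fun z hz => ⟨⟨z, mem_sites_of_mult S u c hz⟩, rfl⟩) ((sig S u c).trans e)
  have h2 : VV S u c e = (Lam.vmat (fun s : St S u c => s.1.val)
      (fun s : St S u c => S.mult u c s.1) ℚ ((sig S u c).trans e)).det := rfl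
  have h3 : VV S u c e ≠ 0 := Lam.det_vmat_ne_zero _ (zz_injective S u c) _
  have h4 : 0 < |((VV S u c e : ℚ) : ℝ)| := by
    rw [abs_pos]
    exact_mod_cast h3
  rw [← h2] at h1
  rw [← h1, Real.exp_log h4, Rat.cast_mul, abs_mul, kap_eq_819, abs_inv, abs_of_pos (kden_pos S u)]
  field_simp

/-! ### unit columns -/

lemma norm_zc_le_819 {S : Shape} {u c : ℕ} (hS : S.Good) (ρ : Rw S u c) :
    ‖zc S u c ρ.1‖ ≤ (S.B + S.e1 + S.h1 + S.w : ℕ) * u + c + 1 / 2 := by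
  have h1 : ‖zc S u c ρ.1‖ = |((ρ.1.1.val : ℚ) : ℝ)| := by
    have : zc S u c ρ.1 = (((ρ.1.1.val : ℚ) : ℝ) : ℂ) := by
      simp only [zc, zz]; push_cast; ring
    rw [this, Complex.norm_real, Real.norm_eq_abs]
  rw [h1]
  obtain ⟨⟨z, hz⟩, j⟩ := ρ
  have hj : 0 < S.mult u c z := lt_of_le_of_lt (Nat.zero_le _) j.2
  have e21 : S.e2 * u ≤ S.e1 * u := Nat.mul_le_mul_right u hS.e21
  have e32 : S.e3 * u ≤ S.e2 * u := Nat.mul_le_mul_right u hS.e32
  have g21 : S.h2 * u ≤ S.h1 * u := Nat.mul_le_mul_right u hS.h21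
  have g32 : S.h3 * u ≤ S.h2 * u := Nat.mul_le_mul_right u hS.h32
  have p1 : (0 : ℤ) ≤ (S.B : ℤ) * u := by positivity
  have p2 : (0 : ℤ) ≤ (S.w : ℤ) * u := by positivity
  have p3 : (0 : ℤ) ≤ (S.h1 : ℤ) * u := by positivity
  have p4 : (0 : ℤ) ≤ (S.e1 : ℤ) * u := by positivity
  have e : ((S.B + S.e1 + S.h1 + S.w : ℕ) : ℝ) * u =
      ((S.B * u : ℕ) : ℝ) + (S.e1 * u : ℕ) + (S.h1 * u : ℕ) + (S.w * u : ℕ) := by
    push_cast; ring
  have q1 : (0 : ℝ) ≤ (S.B * u : ℕ) := Nat.cast_nonneg _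
  have q2 : (0 : ℝ) ≤ (S.e1 * u : ℕ) := Nat.cast_nonneg _
  have q3 : (0 : ℝ) ≤ (S.h1 * u : ℕ) := Nat.cast_nonneg _
  have q4 : (0 : ℝ) ≤ (S.w * u : ℕ) := Nat.cast_nonneg _
  have q5 : (0 : ℝ) ≤ (c : ℝ) := Nat.cast_nonneg _
  rw [e]
  simp only
  rcases z with i | i
  · have hi : (-(S.e1 * u : ℕ) : ℤ) ≤ i ∧ i ≤ (S.B * u + c : ℕ) := by
      simp only [Shape.mult] at hj
      split_ifs at hj <;> push_cast at * <;> omega
    have h2 : (-(S.e1 * u : ℕ) : ℝ) ≤ (i : ℝ) := by exact_mod_cast hi.1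
    have h3 : (i : ℝ) ≤ (S.B * u : ℕ) + (c : ℝ) := by exact_mod_cast hi.2
    simp only [Site.val, Rat.cast_intCast]
    rw [abs_le]
    constructor <;> linarith
  · have hi : (-(S.w * u : ℕ) : ℤ) ≤ i ∧ i ≤ (S.h1 * u : ℕ) := by
      simp only [Shape.mult] at hj
      split_ifs at hj <;> push_cast at * <;> omega
    have h2 : (-(S.w * u : ℕ) : ℝ) ≤ (i : ℝ) := by exact_mod_cast hi.1
    have h3 : (i : ℝ) ≤ (S.h1 * u : ℕ) := by exact_mod_cast hi.2
    simp only [Site.val]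
    push_cast at *
    rw [abs_le]
    constructor <;> linarith

theorem norm_BU_le_819 {S : Shape} {u c : ℕ} (hS : S.Good) {ι : Type} [Fintype ι] [DecidableEq ι]
    (w : ι → ℂ) (i : ι) {HW : ℝ} (hw : ∀ s : ℂ,
      ‖s‖ ≤ (S.B + S.e1 + S.h1 + S.w + 1 : ℕ) * u + c + 1 → oth w i s ≤ HW) (J : Rw S u c) :
    ‖BU S u c J (lgT_819 w i)‖ ≤ HW * 4 ^ (S.rows * u + c) := by
  rw [BU_apply]
  refine P3Unit.norm_u_le (lgT_819 w i) J fun s hs => ?_
  rw [norm_eval_lgT_819]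
  apply hw
  have h1 := norm_zc_le_819 hS J
  have h2 : ‖s‖ ≤ ‖s - zc S u c J.1‖ + ‖zc S u c J.1‖ := by
    have := norm_add_le (s - zc S u c J.1) (zc S u c J.1)
    rwa [sub_add_cancel] at this
  have h3 : ‖s - zc S u c J.1‖ = 1 / 4 := hs
  have h4 : (0 : ℝ) ≤ u := Nat.cast_nonneg _
  push_cast at *
  nlinarith

/-! ### `plain_bound` for arbitrary index types -/

/-- **`plain_bound` in the format of `Disc`** -/
theorem plain_bound_819 {S : Shape} {u c : ℕ} (hS : S.Good) (r : D.Col S u → D.Row)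
    (h : Adm S u c r) {σ ιW ιZ ιY : Type} [Fintype σ] [DecidableEq σ]
    [Fintype ιW] [DecidableEq ιW] [Fintype ιZ] [DecidableEq ιZ] [Fintype ιY] [DecidableEq ιY]
    (w : ιW → ℂ) (z : ιZ → ℂ) (y : ιY → ℂ)
    (hw : Function.Injective w) (hz : Function.Injective z) (hy : Function.Injective y)
    (cW : Fintype.card ιW = S.k * u + (S.g * u + c)) (cZ : Fintype.card ιZ = S.k * u)
    (cY : Fintype.card ιY = S.g * u)
    (U : σ → ιW → ℂ) (VR : σ → ιZ → ℂ) (VQ : σ → ιY → ℂ) (B LR LQ HW : ℝ) (μ ν : σ → ℝ)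
    (hB : 1 ≤ B) (hLR : 0 ≤ LR) (hLQ : 0 ≤ LQ) (hHW : 0 ≤ HW)
    (hμ : ∀ s, 0 < μ s) (hν : ∀ s, 0 ≤ ν s)
    (hR : ∀ i j, ‖BR S u c (lgT_819 w i) (lgT_819 z j) - ∑ s, U s i * VR s j‖ ≤ B * LR)
    (hQ : ∀ i j, ‖BQ S u c (lgT_819 w i) (lgT_819 y j) - ∑ s, U s i * VQ s j‖ ≤ B * LQ)
    (hH : ∀ (i : ιW) (s : ℂ), ‖s‖ ≤ (S.B + S.e1 + S.h1 + S.w + 1 : ℕ) * u + c + 1 →
      oth w i s ≤ HW)
    (hU : ∀ s i, ‖U s i‖ ≤ B * μ s)
    (hVR : ∀ s j, ‖VR s j‖ ≤ ν s * LR) (hVQ : ∀ s j, ‖VQ s j‖ ≤ ν s * LQ) :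
    |aeval GG (Minor S u r)| * (vdm w * vdm z * vdm y) ≤
      (Real.exp (logV S u c) / kden S u) *
        ((S.k * u + S.g * u + c + Fintype.card σ).factorial *
          (B ^ (S.k * u + S.g * u + c) * (LR ^ (S.k * u) * (LQ ^ (S.g * u) *
            (HW * 4 ^ (S.rows * u + c)) ^ c)) * ∏ s, max 1 (μ s * ν s))) := by
  classical
  set eW : Fin (S.k * u + S.g * u + c) ≃ ιW :=
    (Fintype.equivFinOfCardEq (by rw [cW, add_assoc])).symm with heW
  set eZ : Fin (S.k * u) ≃ ιZ := (Fintype.equivFinOfCardEq cZ).symm with heZ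
  set eY : Fin (S.g * u) ≃ ιY := (Fintype.equivFinOfCardEq cY).symm with heY
  obtain ⟨e, he⟩ := plain_bound (σ := σ) hS.kpos.le r h (fun i => w (eW i)) (fun i => z (eZ i))
    (fun i => y (eY i)) (hw.comp eW.injective) (hz.comp eZ.injective) (hy.comp eY.injective)
    (fun s i => U s (eW i)) (fun s i => VR s (eZ i)) (fun s i => VQ s (eY i)) B LR LQ
    (HW * 4 ^ (S.rows * u + c)) μ ν (by linarith) hLR hLQ (by positivity) hμ hν
    (fun i j => by rw [lg_eq_819 eW w, lg_eq_819 eZ z]; exact hR _ _)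
    (fun i j => by rw [lg_eq_819 eW w, lg_eq_819 eY y]; exact hQ _ _)
    (fun J i => by
      rw [lg_eq_819 eW w]
      refine (norm_BU_le_819 hS w _ (hH _) J).trans ?_
      have : 0 ≤ HW * 4 ^ (S.rows * u + c) := by positivity
      nlinarith)
    (fun s i => hU s _) (fun s j => hVR s _) (fun s j => hVQ s _)
  rw [kapVV_eq_819, ← vdm_eq_819 eW w hw, ← vdm_eq_819 eZ z hz, ← vdm_eq_819 eY y hy] at he
  rw [mul_assoc (vdm w)]
  exact he

/-! ### absorption of the constants -/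

lemma log_factorial_le_819 (n : ℕ) : Real.log (n.factorial : ℝ) ≤ n * Real.log n := by
  rcases Nat.eq_zero_or_pos n with rfl | hn
  · simp
  have h1 : (n.factorial : ℝ) ≤ (n : ℝ) ^ n := by exact_mod_cast Nat.factorial_le_pow n
  have h2 : (0 : ℝ) < n.factorial := by exact_mod_cast n.factorial_pos
  have h3 := Real.log_le_log h2 h1
  rwa [Real.log_pow] at h3

/-- `m ≤ C2 u` gives `log m! ≤ C u (1 + log u)` -/
lemma factorial_le_exp_819 (C2 : ℕ) : ∃ C : ℝ, 0 ≤ C ∧ ∀ u : ℕ, 1 ≤ u → ∀ m : ℕ, m ≤ C2 * u →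
    (m.factorial : ℝ) ≤ Real.exp (C * ef u) := by
  refine ⟨C2 * (Real.log (C2 + 1) + 1), ?_, ?_⟩
  · have : 0 ≤ Real.log ((C2 : ℝ) + 1) := Real.log_nonneg (by
      have : (0 : ℝ) ≤ C2 := Nat.cast_nonneg _
      linarith)
    positivity
  intro u hu m hm
  have hu1 : (1 : ℝ) ≤ u := by exact_mod_cast hu
  have hu0 : (0 : ℝ) < u := by linarith
  have hC : (0 : ℝ) ≤ C2 := Nat.cast_nonneg _
  have h1 : (m.factorial : ℝ) ≤ ((C2 * u).factorial : ℝ) := by
    exact_mod_cast Nat.factorial_le hm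
  refine h1.trans ?_
  have h2 := log_factorial_le_819 (C2 * u)
  have h3 : (0 : ℝ) < (C2 * u).factorial := by exact_mod_cast Nat.factorial_pos _
  rw [← Real.log_le_iff_le_exp h3]
  refine h2.trans ?_
  push_cast
  have hl : Real.log ((C2 : ℝ) * u) ≤ Real.log (C2 + 1) + Real.log u := by
    rcases Nat.eq_zero_or_pos C2 with h0 | h0
    · subst h0
      simp only [Nat.cast_zero, zero_mul, Real.log_zero, zero_add, Real.log_one]
      exact Real.log_nonneg hu1
    · rw [← Real.log_mul (by linarith) hu0.ne']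
      refine Real.log_le_log (by positivity) ?_
      nlinarith
  have hlC : 0 ≤ Real.log ((C2 : ℝ) + 1) := Real.log_nonneg (by linarith)
  have hlu : 0 ≤ Real.log (u : ℝ) := Real.log_nonneg hu1
  have h5 : (C2 : ℝ) * u * Real.log ((C2 : ℝ) * u) ≤
      C2 * u * (Real.log (C2 + 1) + Real.log u) :=
    mul_le_mul_of_nonneg_left hl (by positivity)
  refine h5.trans ?_
  unfold ef
  have h6 : (u : ℝ) * (Real.log (C2 + 1) + Real.log u) ≤
      (Real.log (C2 + 1) + 1) * (u * (1 + Real.log u)) := by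
    nlinarith [mul_nonneg hlC (mul_nonneg hu0.le hlu)]
  calc (C2 : ℝ) * u * (Real.log (C2 + 1) + Real.log u)
      = C2 * (u * (Real.log (C2 + 1) + Real.log u)) := by ring
    _ ≤ C2 * ((Real.log (C2 + 1) + 1) * (u * (1 + Real.log u))) :=
        mul_le_mul_of_nonneg_left h6 hC
    _ = _ := by ring

/-- **absorption**: `(n + #σ)! B^n 4^((rows u + c) c) ≤ exp (C u (1 + log u))` if `#σ ≤ C2 u` and
`B ≤ exp (C3 (1 + log u))` -/
theorem absorb_819 (S : Shape) (c C2 : ℕ) (C3 : ℝ) (hC3 : 0 ≤ C3) :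
    ∃ C : ℝ, 0 ≤ C ∧ ∀ u : ℕ, 1 ≤ u → ∀ m : ℕ, m ≤ C2 * u → ∀ B : ℝ, 0 ≤ B →
      B ≤ Real.exp (C3 * (1 + Real.log u)) →
      ((S.k * u + S.g * u + c + m).factorial : ℝ) * B ^ (S.k * u + S.g * u + c) *
        ((4 : ℝ) ^ (S.rows * u + c)) ^ c ≤ Real.exp (C * (u * (1 + Real.log u))) := by
  obtain ⟨C4, hC4, h4⟩ := factorial_le_exp_819 (S.k + S.g + c + C2)
  refine ⟨C4 + (S.k + S.g + c) * C3 + (S.rows + c) * c * Real.log 4, ?_, ?_⟩
  · have : 0 ≤ Real.log 4 := Real.log_nonneg (by norm_num)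
    positivity
  intro u hu m hm B hB hB2
  have hu1 : (1 : ℝ) ≤ u := by exact_mod_cast hu
  have hu0 : (0 : ℝ) < u := by linarith
  have hlu : 0 ≤ Real.log (u : ℝ) := Real.log_nonneg hu1
  have hc : (0 : ℝ) ≤ c := Nat.cast_nonneg _
  have hef := ef_ge hu
  have h1ef := one_le_ef hu
  have e1 : ((S.k * u + S.g * u + c + m).factorial : ℝ) ≤ Real.exp (C4 * ef u) := by
    apply h4 u hu
    have : c ≤ c * u := Nat.le_mul_of_pos_right c hu
    calc S.k * u + S.g * u + c + m ≤ S.k * u + S.g * u + c * u + C2 * u := by omega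
      _ = (S.k + S.g + c + C2) * u := by ring
  have e2 : B ^ (S.k * u + S.g * u + c) ≤ Real.exp ((S.k + S.g + c) * C3 * ef u) := by
    have h5 : B ^ (S.k * u + S.g * u + c) ≤
        Real.exp (C3 * (1 + Real.log u)) ^ (S.k * u + S.g * u + c) :=
      pow_le_pow_left₀ hB hB2 _
    refine h5.trans ?_
    rw [← Real.exp_nat_mul, Real.exp_le_exp]
    push_cast
    have h6 : (S.k * u + S.g * u + c : ℝ) ≤ (S.k + S.g + c) * u := by nlinarith
    have h7 : 0 ≤ C3 * (1 + Real.log u) := by positivity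
    calc (S.k * u + S.g * u + c : ℝ) * (C3 * (1 + Real.log u))
        ≤ (S.k + S.g + c) * u * (C3 * (1 + Real.log u)) := mul_le_mul_of_nonneg_right h6 h7
      _ = (S.k + S.g + c) * C3 * ef u := by unfold ef; ring
  have e3 : ((4 : ℝ) ^ (S.rows * u + c)) ^ c ≤
      Real.exp ((S.rows + c) * c * Real.log 4 * ef u) := by
    have hl4 : 0 ≤ Real.log 4 := Real.log_nonneg (by norm_num)
    rw [← pow_mul, P3Unit.pow_eq_exp (by norm_num : (0 : ℝ) < 4), Real.exp_le_exp]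
    push_cast
    have h8 : ((S.rows : ℝ) * u + c) * c ≤ (S.rows + c) * c * ef u := by
      have h9 : (S.rows : ℝ) * u + c ≤ (S.rows + c) * ef u := by
        have hr : (0 : ℝ) ≤ S.rows := Nat.cast_nonneg _
        nlinarith
      calc ((S.rows : ℝ) * u + c) * c ≤ (S.rows + c) * ef u * c :=
            mul_le_mul_of_nonneg_right h9 hc
        _ = _ := by ring
    calc ((S.rows : ℝ) * u + c) * c * Real.log 4 ≤ (S.rows + c) * c * ef u * Real.log 4 :=
          mul_le_mul_of_nonneg_right h8 hl4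
      _ = _ := by ring
  have hexp : Real.exp ((C4 + (S.k + S.g + c) * C3 + (S.rows + c) * c * Real.log 4) *
      (u * (1 + Real.log u))) = Real.exp (C4 * ef u) * Real.exp ((S.k + S.g + c) * C3 * ef u) *
        Real.exp ((S.rows + c) * c * Real.log 4 * ef u) := by
    rw [← Real.exp_add, ← Real.exp_add]
    congr 1
    unfold ef
    ring
  rw [hexp]
  have hf0 : (0 : ℝ) ≤ (S.k * u + S.g * u + c + m).factorial := Nat.cast_nonneg _
  gcongr

end Crest.Agent.R006.P3
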