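import Crest.Agent.R006.P3_Loop_283

/-!
# Row 6, block P3: Hermite interpolation seen from outside a loop (helper283)

`hermite_loop`: `f` holomorphic on the convex open set `U`, `L` a loop functional on `P ⊆ U` around
the points of `Zin`, `Zout` outside `U`.  The polynomial `r` of degree `< |Zin| + |Zout|` with
`f - r = O(ω_in)` on `U` and `ω_out ∣ r` satisfies, for all `s ∉ U`,
`r s = - ω s * (2πi)⁻¹ * L (f / (ω (u - s)))`.
-/

set_option autoImplicit false

namespace Crest.Agent.R006.P3Loop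

open Complex Polynomial Set Filter Topology MeasureTheory
open scoped Real

noncomputable section

/-- closed loop functionals -/
structure IsLoop (U P Z : Set ℂ) (L : (ℂ → ℂ) → ℂ) : Prop where
  sub : P ⊆ U
  Zsub : Z ⊆ U
  disj : ∀ z ∈ Z, z ∉ P
  add : ∀ f g : ℂ → ℂ, ContinuousOn f P → ContinuousOn g P → L (fun z => f z + g z) = L f + L g
  smul : ∀ (c : ℂ) (f : ℂ → ℂ), L (fun z => c * f z) = c * L f
  congr : ∀ f g : ℂ → ℂ, EqOn f g P → L f = L g
  holo : ∀ f : ℂ → ℂ, DifferentiableOn ℂ f U → L f = 0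
  inv : ∀ z ∈ Z, L (fun u => (u - z)⁻¹) = 2 * π * I
  pow : ∀ z ∈ Z, ∀ m : ℕ, L (fun u => ((u - z) ^ (m + 2))⁻¹) = 0

/-- polygonal loops -/
theorem isLoop_pint {U : Set ℂ} (hU : IsOpen U) (hc : Convex ℝ U) {A B : ℝ} {l l' : List ℂ}
    (h1 : pend A l = B) (h2 : pend B l' = A)
    (hs : pset A (l ++ l') ⊆ U)
    (hu : ∀ u ∈ pset A l, 0 ≤ u.im) (hl : ∀ u ∈ pset B l', u.im ≤ 0) :
    IsLoop U (pset A (l ++ l'))
      {z : ℂ | z ∈ U ∧ z ∉ pset A (l ++ l') ∧ ∃ x : ℝ, B < x ∧ x < A ∧ z = x}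
      (pint A (l ++ l')) where
  sub := hs
  Zsub := fun z hz => hz.1
  disj := fun z hz => hz.2.1
  add := fun f g hf hg => pint_add _ _ hf hg
  smul := fun c f => pint_smul c f _ _
  congr := fun f g h => pint_congr _ _ h
  holo := fun f hf => pint_holo hU hc hs (by rw [pend_append, h1, h2]) hf
  inv := by
    rintro z ⟨-, hz, x, hx1, hx2, rfl⟩
    rw [pset_append, h1] at hz
    exact pint_inv hx1 hx2 h1 h2 (fun h => hz (Or.inl h)) (fun h => hz (Or.inr h)) hu hl
  pow := fun z hz m => pint_pow (by rw [pend_append, h1, h2]) hz.2.1 m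

/-- the nodal polynomial of a multiset -/
def om (M : Multiset ℂ) : ℂ[X] := (M.map fun z => X - C z).prod

@[simp] lemma om_zero : om 0 = 1 := by simp [om]

lemma om_cons (z : ℂ) (M : Multiset ℂ) : om (z ::ₘ M) = (X - C z) * om M := by simp [om]

lemma om_add (M N : Multiset ℂ) : om (M + N) = om M * om N := by simp [om]

lemma om_nsmul (n : ℕ) (z : ℂ) : om (n • {z}) = (X - C z) ^ n := by
  simp [om, Multiset.map_nsmul, Multiset.prod_nsmul]

lemma om_sum {ι : Type*} (s : Finset ι) (F : ι → Multiset ℂ) :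
    om (∑ i ∈ s, F i) = ∏ i ∈ s, om (F i) := by
  classical
  induction s using Finset.induction_on with
  | empty => simp
  | insert a s ha ih => rw [Finset.sum_insert ha, Finset.prod_insert ha, om_add, ih]

lemma om_monic (M : Multiset ℂ) : (om M).Monic :=
  monic_multiset_prod_of_monic _ _ fun _ _ => monic_X_sub_C _

lemma om_natDegree (M : Multiset ℂ) : (om M).natDegree = Multiset.card M := by
  simp [om]

lemma om_eval_cons (z : ℂ) (M : Multiset ℂ) (u : ℂ) :
    (om (z ::ₘ M)).eval u = (u - z) * (om M).eval u := by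
  rw [om_cons, eval_mul, eval_sub, eval_X, eval_C]

@[simp] lemma om_eval_singleton (z u : ℂ) : (om {z}).eval u = u - z := by simp [om]

lemma om_eval_ne {M : Multiset ℂ} {u : ℂ} (h : u ∉ M) : (om M).eval u ≠ 0 := by
  rw [om, eval_multiset_prod, Multiset.map_map, Ne, Multiset.prod_eq_zero_iff]
  intro h0
  obtain ⟨z, hz, h1⟩ := Multiset.mem_map.mp h0
  simp only [Function.comp_apply, eval_sub, eval_X, eval_C] at h1
  exact h (by rw [sub_eq_zero.mp h1]; exact hz)

section

variable {U P Z : Set ℂ} {L : (ℂ → ℂ) → ℂ}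

lemma IsLoop.cont_inv (hL : IsLoop U P Z L) {M : Multiset ℂ} (hM : ∀ z ∈ M, z ∈ Z) :
    ContinuousOn (fun u => ((om M).eval u)⁻¹) P :=
  ContinuousOn.inv₀ (om M).continuous.continuousOn fun u hu =>
    om_eval_ne fun h => hL.disj u (hM u h) hu

lemma IsLoop.sub' (hL : IsLoop U P Z L) {f g : ℂ → ℂ} (hf : ContinuousOn f P)
    (hg : ContinuousOn g P) : L (fun z => f z - g z) = L f - L g := by
  have h1 : L (fun z => f z - g z) = L (fun z => f z + (-1) * g z) :=
    hL.congr _ _ fun z _ => by ring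
  have h2 := hL.add f (fun z => (-1) * g z) hf (continuousOn_const.mul hg)
  rw [h1, h2, hL.smul]; ring

lemma IsLoop.add_mul (hL : IsLoop U P Z L) (c : ℂ) {f g : ℂ → ℂ} (hf : ContinuousOn f P)
    (hg : ContinuousOn g P) : L (fun z => c * f z + g z) = c * L f + L g := by
  have h2 := hL.add (fun z => c * f z) g (continuousOn_const.mul hf) hg
  rw [h2, hL.smul]

lemma IsLoop.zero' (hL : IsLoop U P Z L) : L (fun _ => 0) = 0 :=
  hL.holo _ (differentiableOn_const 0)

/-- two or more simple factors -/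
lemma IsLoop.prod_inv (hL : IsLoop U P Z L) : ∀ (n : ℕ) (M : Multiset ℂ), Multiset.card M = n →
    2 ≤ n → (∀ z ∈ M, z ∈ Z) → L (fun u => ((om M).eval u)⁻¹) = 0 := by
  intro n
  induction n with
  | zero => intro M _ h; omega
  | succ n ih =>
    intro M hM h2 hZ
    by_cases hall : ∃ z, ∀ w ∈ M, w = z
    · obtain ⟨z, hz⟩ := hall
      have hM' : M = (n + 1) • {z} := by
        rw [Multiset.nsmul_singleton]
        exact Multiset.eq_replicate.mpr ⟨hM, hz⟩
      have hzM : z ∈ M := by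
        rw [hM', Multiset.nsmul_singleton]
        exact Multiset.mem_replicate.mpr ⟨by omega, rfl⟩
      obtain ⟨m, rfl⟩ : ∃ m, n = m + 1 := ⟨n - 1, by omega⟩
      rw [hM']
      have := hL.pow z (hZ z hzM) m
      rw [← this]
      refine hL.congr _ _ fun u _ => ?_
      simp only [om_nsmul, eval_pow, eval_sub, eval_X, eval_C]
    · push Not at hall
      have hne : M ≠ 0 := by rintro rfl; simp at hM
      obtain ⟨z, hz⟩ := Multiset.exists_mem_of_ne_zero hne
      obtain ⟨w, hw, hwz⟩ := hall z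
      obtain ⟨M1, rfl⟩ := Multiset.exists_cons_of_mem hz
      rw [Multiset.mem_cons] at hw
      have hw1 : w ∈ M1 := hw.resolve_left hwz
      obtain ⟨M2, rfl⟩ := Multiset.exists_cons_of_mem hw1
      have hzZ : z ∈ Z := hZ z (by simp)
      have hwZ : w ∈ Z := hZ w (by simp)
      have hzw : z - w ≠ 0 := sub_ne_zero.mpr (Ne.symm hwz)
      have hA : ∀ x ∈ z ::ₘ M2, x ∈ Z := by
        intro x hx
        rw [Multiset.mem_cons] at hx
        rcases hx with rfl | hx
        · exact hzZ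
        · exact hZ x (by simp [hx])
      have hB : ∀ x ∈ w ::ₘ M2, x ∈ Z := by
        intro x hx
        rw [Multiset.mem_cons] at hx
        rcases hx with rfl | hx
        · exact hwZ
        · exact hZ x (by simp [hx])
      have hC : ∀ x ∈ M2, x ∈ Z := fun x hx => hZ x (by simp [hx])
      have e : EqOn (fun u => ((om (z ::ₘ w ::ₘ M2)).eval u)⁻¹)
          (fun u => (z - w)⁻¹ * (((om (z ::ₘ M2)).eval u)⁻¹ - ((om (w ::ₘ M2)).eval u)⁻¹)) P := by
        intro u hu
        simp only [om_eval_cons]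
        have h1 : u - z ≠ 0 := fun h => hL.disj z hzZ (by rw [← sub_eq_zero.1 h]; exact hu)
        have h2 : u - w ≠ 0 := fun h => hL.disj w hwZ (by rw [← sub_eq_zero.1 h]; exact hu)
        have h3 : (om M2).eval u ≠ 0 := om_eval_ne fun h => hL.disj u (hC u h) hu
        field_simp
        ring
      rw [hL.congr _ _ e, hL.smul, hL.sub' (hL.cont_inv hA) (hL.cont_inv hB)]
      have hcard : Multiset.card M2 + 1 = n := by simpa using hM
      by_cases hn : 2 ≤ n
      · rw [ih (z ::ₘ M2) (by simpa using hcard) hn hA, ih (w ::ₘ M2) (by simpa using hcard) hn hB]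
        simp
      · have hM2 : M2 = 0 := by
          rw [← Multiset.card_eq_zero]; omega
        subst hM2
        have h1 : L (fun u => ((om (z ::ₘ 0)).eval u)⁻¹) = 2 * π * I := by
          rw [← hL.inv z hzZ]
          exact hL.congr _ _ fun u _ => by simp
        have h2 : L (fun u => ((om (w ::ₘ 0)).eval u)⁻¹) = 2 * π * I := by
          rw [← hL.inv w hwZ]
          exact hL.congr _ _ fun u _ => by simp
        rw [h1, h2]; simp

lemma cont_out (hPU : P ⊆ U) {s : ℂ} (hs : s ∉ U) : ContinuousOn (fun u : ℂ => (u - s)⁻¹) P :=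
  ContinuousOn.inv₀ (by fun_prop) fun _ hu h => hs (by rw [← sub_eq_zero.1 h]; exact hPU hu)

/-- the Cauchy kernel outside -/
lemma IsLoop.kernel_one (hL : IsLoop U P Z L) {s : ℂ} (hs : s ∉ U) :
    ∀ M : Multiset ℂ, M ≠ 0 → (∀ z ∈ M, z ∈ Z) →
    L (fun u => ((om M).eval u)⁻¹ * (u - s)⁻¹) = -(2 * π * I) * ((om M).eval s)⁻¹ := by
  intro M
  induction M using Multiset.induction_on with
  | empty => intro h; exact absurd rfl h
  | cons z M ih =>
    intro _ hZ
    have hzZ : z ∈ Z := hZ z (by simp)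
    have hMZ : ∀ x ∈ M, x ∈ Z := fun x hx => hZ x (by simp [hx])
    have hsz : s - z ≠ 0 := fun h => hs (by rw [sub_eq_zero.1 h]; exact hL.Zsub hzZ)
    have e : EqOn (fun u => ((om (z ::ₘ M)).eval u)⁻¹ * (u - s)⁻¹)
        (fun u => (s - z)⁻¹ * (((om M).eval u)⁻¹ * (u - s)⁻¹ - ((om (z ::ₘ M)).eval u)⁻¹)) P := by
      intro u hu
      simp only [om_eval_cons]
      have h1 : u - z ≠ 0 := fun h => hL.disj z hzZ (by rw [← sub_eq_zero.1 h]; exact hu)
      have h2 : u - s ≠ 0 := fun h => hs (by rw [← sub_eq_zero.1 h]; exact hL.sub hu)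
      have h3 : (om M).eval u ≠ 0 := om_eval_ne fun h => hL.disj u (hMZ u h) hu
      field_simp
      ring
    have hcc : ContinuousOn (fun u => ((om M).eval u)⁻¹ * (u - s)⁻¹) P :=
      (hL.cont_inv hMZ).mul (cont_out hL.sub hs)
    rw [hL.congr _ _ e, hL.smul, hL.sub' hcc (hL.cont_inv hZ)]
    by_cases hM : M = 0
    · subst hM
      have h1 : L (fun u => ((om (0 : Multiset ℂ)).eval u)⁻¹ * (u - s)⁻¹) = 0 := by
        refine hL.holo _ ?_
        simp only [om_zero, eval_one, inv_one, one_mul]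
        exact DifferentiableOn.inv (by fun_prop) fun u hu h =>
          hs (by rw [← sub_eq_zero.1 h]; exact hu)
      have h2 : L (fun u => ((om (z ::ₘ 0)).eval u)⁻¹) = 2 * π * I := by
        rw [← hL.inv z hzZ]
        exact hL.congr _ _ fun u _ => by simp
      rw [h1, h2]
      simp only [om_eval_cons, om_zero, eval_one, mul_one]
      ring
    · have hc : 2 ≤ Multiset.card (z ::ₘ M) := by
        have : 0 < Multiset.card M := Multiset.card_pos.mpr hM
        simp; omega
      rw [ih hM hMZ, hL.prod_inv _ _ rfl hc hZ, om_eval_cons, mul_inv]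
      ring

/-- proper rational functions -/
lemma IsLoop.kernel (hL : IsLoop U P Z L) {s : ℂ} (hs : s ∉ U) :
    ∀ (M : Multiset ℂ) (ρ : ℂ[X]), (∀ z ∈ M, z ∈ Z) → ρ.degree < (Multiset.card M : ℕ) →
    L (fun u => ρ.eval u * (((om M).eval u)⁻¹ * (u - s)⁻¹)) =
      -(2 * π * I) * (ρ.eval s * ((om M).eval s)⁻¹) := by
  intro M
  induction M using Multiset.induction_on with
  | empty =>
    intro ρ _ hρ
    have : ρ = 0 := by
      rw [Multiset.card_zero, Nat.cast_zero, Nat.WithBot.lt_zero_iff, degree_eq_bot] at hρ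
      exact hρ
    subst this
    simp only [eval_zero, zero_mul, mul_zero]
    exact hL.zero'
  | cons z M ih =>
    intro ρ hZ hρ
    have hzZ : z ∈ Z := hZ z (by simp)
    have hMZ : ∀ x ∈ M, x ∈ Z := fun x hx => hZ x (by simp [hx])
    have hsz : s - z ≠ 0 := fun h => hs (by rw [sub_eq_zero.1 h]; exact hL.Zsub hzZ)
    set ρ' : ℂ[X] := ρ /ₘ (X - C z) with hρ'
    have hdec : ρ = C (ρ.eval z) + (X - C z) * ρ' := by
      have := modByMonic_add_div ρ (X - C z)
      rw [modByMonic_X_sub_C_eq_C_eval] at this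
      exact this.symm
    have hdeg : ρ'.degree < (Multiset.card M : ℕ) := by
      by_cases h0 : ρ' = 0
      · rw [h0, degree_zero]; exact WithBot.bot_lt_coe _
      · have h1 : (X - C z).degree ≤ ρ.degree := by
          by_contra h
          exact h0 ((divByMonic_eq_zero_iff (monic_X_sub_C z)).mpr (not_le.mp h))
        have h2 := degree_add_divByMonic (monic_X_sub_C z) h1
        rw [degree_X_sub_C] at h2
        rw [← h2, Multiset.card_cons, Nat.cast_add, Nat.cast_one, add_comm] at hρ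
        exact lt_of_add_lt_add_right hρ
    have hcont : ContinuousOn (fun u => ((om (z ::ₘ M)).eval u)⁻¹ * (u - s)⁻¹) P :=
      (hL.cont_inv hZ).mul (cont_out hL.sub hs)
    have hcont' : ContinuousOn (fun u => ρ'.eval u * (((om M).eval u)⁻¹ * (u - s)⁻¹)) P :=
      ρ'.continuous.continuousOn.mul ((hL.cont_inv hMZ).mul (cont_out hL.sub hs))
    have e : EqOn (fun u => ρ.eval u * (((om (z ::ₘ M)).eval u)⁻¹ * (u - s)⁻¹))
        (fun u => ρ.eval z * (((om (z ::ₘ M)).eval u)⁻¹ * (u - s)⁻¹) +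
          ρ'.eval u * (((om M).eval u)⁻¹ * (u - s)⁻¹)) P := by
      intro u hu
      have h1 : u - z ≠ 0 := fun h => hL.disj z hzZ (by rw [← sub_eq_zero.1 h]; exact hu)
      have h2 : ρ.eval u = ρ.eval z + (u - z) * ρ'.eval u := by
        conv_lhs => rw [hdec]
        simp
      simp only [om_eval_cons, h2, mul_inv]
      field_simp
    rw [hL.congr _ _ e, hL.add_mul _ hcont hcont',
      hL.kernel_one hs _ (Multiset.cons_ne_zero) hZ, ih ρ' hMZ hdeg]
    have h2 : ρ.eval s = ρ.eval z + (s - z) * ρ'.eval s := by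
      conv_lhs => rw [hdec]
      simp
    rw [om_eval_cons, h2, mul_inv]
    field_simp
    ring

end

/-- Hermite interpolation with holomorphic remainder -/
lemma hermite_exists {U : Set ℂ} (hU : IsOpen U) : ∀ (M : Multiset ℂ) (g : ℂ → ℂ),
    (∀ z ∈ M, z ∈ U) → DifferentiableOn ℂ g U →
    ∃ ρ : ℂ[X], ρ.degree < (Multiset.card M : ℕ) ∧ ∃ h : ℂ → ℂ, DifferentiableOn ℂ h U ∧
      ∀ u ∈ U, g u = ρ.eval u + (om M).eval u * h u := by
  intro M
  induction M using Multiset.induction_on with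
  | empty =>
    intro g _ hg
    refine ⟨0, ?_, g, hg, fun u _ => by simp⟩
    rw [degree_zero]; exact WithBot.bot_lt_coe _
  | cons z M ih =>
    intro g hZ hg
    have hz : U ∈ 𝓝 z := hU.mem_nhds (hZ z (by simp))
    have hd : DifferentiableOn ℂ (dslope g z) U := (differentiableOn_dslope hz).2 hg
    obtain ⟨ρ, hρ, h, hh, he⟩ := ih (dslope g z) (fun x hx => hZ x (by simp [hx])) hd
    refine ⟨C (g z) + (X - C z) * ρ, ?_, h, hh, fun u hu => ?_⟩
    · refine lt_of_le_of_lt (degree_add_le _ _) (max_lt ?_ ?_)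
      · refine lt_of_le_of_lt degree_C_le ?_
        rw [Multiset.card_cons]; exact_mod_cast Nat.succ_pos _
      · rw [degree_mul, degree_X_sub_C, Multiset.card_cons, Nat.cast_add, Nat.cast_one, add_comm]
        by_cases h0 : ρ = 0
        · rw [h0, degree_zero, WithBot.bot_add]
          exact_mod_cast WithBot.bot_lt_coe _
        · rw [degree_eq_natDegree h0] at hρ ⊢
          exact_mod_cast Nat.succ_lt_succ (by exact_mod_cast hρ)
    · have h1 : g u = g z + (u - z) * dslope g z u := by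
        have := sub_smul_dslope g z u
        rw [smul_eq_mul] at this
        rw [this]; ring
      rw [h1, he u hu, om_eval_cons]
      simp only [eval_add, eval_C, eval_mul, eval_sub, eval_X]
      ring

/-- **Hermite interpolation seen from outside a loop.** -/
theorem hermite_loop {U P Z : Set ℂ} {L : (ℂ → ℂ) → ℂ} (hU : IsOpen U) (hL : IsLoop U P Z L)
    (Min Mout : Multiset ℂ) (hin : ∀ z ∈ Min, z ∈ Z) (hout : ∀ z ∈ Mout, z ∉ U)
    {f : ℂ → ℂ} (hf : DifferentiableOn ℂ f U) :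
    ∃ r : ℂ[X], r.degree < (Multiset.card (Min + Mout) : ℕ) ∧ om Mout ∣ r ∧
      (∃ h : ℂ → ℂ, DifferentiableOn ℂ h U ∧ ∀ u ∈ U, f u = r.eval u + (om Min).eval u * h u) ∧
      ∀ s : ℂ, s ∉ U → r.eval s = -(om (Min + Mout)).eval s * ((2 * π * I)⁻¹ *
        L (fun u => f u * (((om (Min + Mout)).eval u)⁻¹ * (u - s)⁻¹))) := by
  have hoU : ∀ u ∈ U, (om Mout).eval u ≠ 0 := fun u hu => om_eval_ne fun h => hout u h hu
  set g : ℂ → ℂ := fun u => f u * ((om Mout).eval u)⁻¹ with hg
  have hgd : DifferentiableOn ℂ g U :=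
    hf.mul (DifferentiableOn.inv (om Mout).differentiable.differentiableOn hoU)
  obtain ⟨ρ, hρ, h, hh, he⟩ := hermite_exists hU Min g (fun z hz => hL.Zsub (hin z hz)) hgd
  refine ⟨om Mout * ρ, ?_, dvd_mul_right _ _, ⟨fun u => (om Mout).eval u * h u,
    (om Mout).differentiable.differentiableOn.mul hh, fun u hu => ?_⟩, fun s hs => ?_⟩
  · rw [degree_mul, Multiset.card_add, degree_eq_natDegree (om_monic Mout).ne_zero, om_natDegree,
      add_comm (Multiset.card Min)]
    by_cases h0 : ρ = 0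
    · rw [h0, degree_zero, WithBot.add_bot]
      exact WithBot.bot_lt_coe _
    · rw [degree_eq_natDegree h0] at hρ ⊢
      exact_mod_cast Nat.add_lt_add_left (by exact_mod_cast hρ) _
  · have h1 := he u hu
    have h2 := hoU u hu
    have h3 : f u = (om Mout).eval u * g u := by rw [hg]; field_simp
    rw [h3, h1, eval_mul]; ring
  · have hsin : s ∉ Min := fun h => hs (hL.Zsub (hin s h))
    have hsi : (om Min).eval s ≠ 0 := om_eval_ne hsin
    have hMin : ∀ z ∈ Min, z ∈ Z := hin
    have e : EqOn (fun u => f u * (((om (Min + Mout)).eval u)⁻¹ * (u - s)⁻¹))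
        (fun u => ρ.eval u * (((om Min).eval u)⁻¹ * (u - s)⁻¹) + h u * (u - s)⁻¹) P := by
      intro u hu
      have hu' := hL.sub hu
      have h1 := he u hu'
      have h2 := hoU u hu'
      have h3 : f u = (om Mout).eval u * g u := by rw [hg]; field_simp
      have h4 : (om Min).eval u ≠ 0 := om_eval_ne fun h => hL.disj u (hMin u h) hu
      have h5 : u - s ≠ 0 := fun h => hs (by rw [← sub_eq_zero.1 h]; exact hu')
      simp only [om_add, eval_mul, h3, h1]
      field_simp
    have hc1 : ContinuousOn (fun u => ρ.eval u * (((om Min).eval u)⁻¹ * (u - s)⁻¹)) P :=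
      ρ.continuous.continuousOn.mul ((hL.cont_inv hMin).mul (cont_out hL.sub hs))
    have hd2 : DifferentiableOn ℂ (fun u => h u * (u - s)⁻¹) U :=
      hh.mul (DifferentiableOn.inv (by fun_prop) fun u hu h =>
        hs (by rw [← sub_eq_zero.1 h]; exact hu))
    rw [hL.congr _ _ e, hL.add _ _ hc1 (hd2.continuousOn.mono hL.sub), hL.holo _ hd2, add_zero,
      hL.kernel hs Min ρ hMin hρ, om_add, eval_mul, eval_mul]
    have hpi : (2 * π * I : ℂ) ≠ 0 := by simp [Real.pi_ne_zero]
    field_simp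

/-- the bound outside -/
theorem loop_bound {p : ℂ} {l : List ℂ} {ω : ℂ → ℂ} {f : ℂ → ℂ} {M d : ℝ} (hd : 0 < d) {s : ℂ}
    (hs : ∀ u ∈ pset p l, d ≤ ‖u - s‖) (hM : ∀ u ∈ pset p l, ‖f u‖ ≤ M * ‖ω u‖) (hM0 : 0 ≤ M)
    (hω : ∀ u ∈ pset p l, ω u ≠ 0) :
    ‖-ω s * ((2 * π * I)⁻¹ * pint p l (fun u => f u * ((ω u)⁻¹ * (u - s)⁻¹)))‖ ≤
      ‖ω s‖ * (plen p l / (2 * π * d) * M) := by
  have h1 : ‖pint p l (fun u => f u * ((ω u)⁻¹ * (u - s)⁻¹))‖ ≤ plen p l * (M * d⁻¹) := by
    refine norm_pint_le p l fun u hu => ?_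
    rw [norm_mul, norm_mul, norm_inv, norm_inv]
    have h2 := hs u hu
    have h3 : 0 < ‖ω u‖ := norm_pos_iff.mpr (hω u hu)
    calc ‖f u‖ * (‖ω u‖⁻¹ * ‖u - s‖⁻¹) ≤ (M * ‖ω u‖) * (‖ω u‖⁻¹ * d⁻¹) := by
          gcongr
          exact hM u hu
      _ = M * d⁻¹ := by field_simp
  rw [norm_mul, norm_mul, norm_neg]
  refine mul_le_mul_of_nonneg_left ?_ (norm_nonneg _)
  have h4 : ‖(2 * π * I : ℂ)⁻¹‖ = (2 * π)⁻¹ := by
    rw [norm_inv]
    simp [abs_of_pos Real.pi_pos]
  rw [h4]
  calc (2 * π)⁻¹ * ‖pint p l (fun u => f u * ((ω u)⁻¹ * (u - s)⁻¹))‖ ≤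
        (2 * π)⁻¹ * (plen p l * (M * d⁻¹)) :=
          mul_le_mul_of_nonneg_left h1 (by positivity)
    _ = _ := by
      field_simp

end

end Crest.Agent.R006.P3Loop
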