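import Mathlib

set_option autoImplicit false

/-!
# Row 6 (Catalan), block P3: decay of the jump functions (helper853)

`gq w = Γ(w)/Γ(w+1/2)` is bounded for `Re w ≥ 1/4` (beta integral), `|cos π z| ≥ e^{π|Im z|}/4` at
distance `≥ 1/4` from the half integers.  Hence, for `Re z ≤ -1/4` and `z` at distance `≥ 1/4` from
the half integers,
`‖8^z gq(-z)^3 (c2 tan² + c1 tan + c0)/cos‖ ≤ C 8^{Re z} e^{-π|Im z|}` and
`‖gq(-z)^2/cos²‖ ≤ C e^{-2π|Im z|}`.
-/

namespace Crest.Agent.R006.P3_JBoundx853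

open Complex MeasureTheory Set

/-- the constant `(∫_0^1 x^{-3/4} (1-x)^{-1/2} dx) / √π` -/
noncomputable def Cg : ℝ :=
  (∫ x : ℝ in (0 : ℝ)..1, ‖(x : ℂ) ^ ((1 / 4 : ℂ) - 1) * (1 - (x : ℂ)) ^ ((1 / 2 : ℂ) - 1)‖) /
    Real.sqrt Real.pi

lemma Cg_nonneg : 0 ≤ Cg := by
  unfold Cg
  refine div_nonneg ?_ (Real.sqrt_nonneg _)
  exact intervalIntegral.integral_nonneg (by norm_num) fun x _ => norm_nonneg _

/-- `gq w = Γ(w)/Γ(w+1/2)` is bounded for `Re w ≥ 1/4`. -/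
theorem norm_gq_le (w : ℂ) (hw : 1 / 4 ≤ w.re) :
    ‖Gamma w / Gamma (w + 1 / 2)‖ ≤ Cg := by
  have hhalf : (0 : ℝ) < ((1 / 2 : ℂ)).re := by norm_num
  have hw0 : 0 < w.re := by linarith
  have h1 := betaIntegral_eq_Gamma_mul_div w (1 / 2) hw0 hhalf
  have hG : Gamma (1 / 2 : ℂ) = ((Real.sqrt Real.pi : ℝ) : ℂ) := by
    rw [Complex.Gamma_one_half_eq, Real.sqrt_eq_rpow, Complex.ofReal_cpow Real.pi_pos.le]
    norm_num
  have hsp : 0 < Real.sqrt Real.pi := Real.sqrt_pos.mpr Real.pi_pos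
  have h2 : Gamma w / Gamma (w + 1 / 2) = betaIntegral w (1 / 2) / ((Real.sqrt Real.pi : ℝ) : ℂ) := by
    rw [h1, hG]
    have : ((Real.sqrt Real.pi : ℝ) : ℂ) ≠ 0 := by
      exact_mod_cast hsp.ne'
    field_simp
  rw [h2, norm_div, Complex.norm_real, Real.norm_of_nonneg hsp.le]
  unfold Cg
  refine div_le_div_of_nonneg_right ?_ hsp.le
  unfold betaIntegral
  refine intervalIntegral.norm_integral_le_of_norm_le (by norm_num) ?_ ?_
  · refine Filter.Eventually.of_forall fun x hx => ?_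
    have hx0 : 0 < x := hx.1
    have hx1 : x ≤ 1 := hx.2
    rw [norm_mul, norm_mul]
    refine mul_le_mul_of_nonneg_right ?_ (norm_nonneg _)
    rw [norm_cpow_eq_rpow_re_of_pos hx0, norm_cpow_eq_rpow_re_of_pos hx0]
    refine Real.rpow_le_rpow_of_exponent_ge hx0 hx1 ?_
    simp only [sub_re, one_re]
    norm_num
    linarith
  · have h := betaIntegral_convergent (u := (1 / 4 : ℂ)) (v := (1 / 2 : ℂ)) (by norm_num)
      (by norm_num)
    exact h.norm

/-- `|cos (x + i y)|² = cos² x + sinh² y` -/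
lemma normSq_cos (z : ℂ) : ‖Complex.cos z‖ ^ 2 = Real.cos z.re ^ 2 + Real.sinh z.im ^ 2 := by
  rw [← Complex.normSq_eq_norm_sq]
  have h : Complex.cos z = ((Real.cos z.re * Real.cosh z.im : ℝ) : ℂ) -
      ((Real.sin z.re * Real.sinh z.im : ℝ) : ℂ) * I := by
    conv_lhs => rw [Complex.cos_eq z]
    push_cast
    ring
  rw [h, Complex.normSq_apply]
  simp only [sub_re, ofReal_re, mul_re, I_re, mul_zero, ofReal_im, I_im, mul_one, sub_zero, sub_im,
    mul_im, zero_sub, add_zero]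
  have h1 := Real.sin_sq_add_cos_sq z.re
  have h2 := Real.cosh_sq z.im
  nlinarith [h1, h2, sq_nonneg (Real.sin z.re), sq_nonneg (Real.sinh z.im)]

/-- `|sin (x + i y)|² = sin² x + sinh² y` -/
lemma normSq_sin (z : ℂ) : ‖Complex.sin z‖ ^ 2 = Real.sin z.re ^ 2 + Real.sinh z.im ^ 2 := by
  have h := normSq_cos (z - (Real.pi / 2 : ℝ))
  have h1 : Complex.cos (z - (Real.pi / 2 : ℝ)) = Complex.sin z := by
    push_cast
    exact Complex.cos_sub_pi_div_two z
  rw [h1] at h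
  rw [h]
  simp only [sub_re, ofReal_re, sub_im, ofReal_im, sub_zero, Real.cos_sub_pi_div_two]

/-- lower bound for the cosine away from its zeros -/
theorem norm_cos_ge (z : ℂ) (hz : ∀ k : ℤ, 1 / 4 ≤ ‖z - ((k : ℂ) + 1 / 2)‖) :
    Real.exp (Real.pi * |z.im|) / 4 ≤ ‖Complex.cos (Real.pi * z)‖ := by
  set y := z.im with hy
  set k : ℤ := round (z.re - 1 / 2) with hk
  set u : ℝ := z.re - 1 / 2 - k with hu
  have hu2 : |u| ≤ 1 / 2 := abs_sub_round _
  have hS := normSq_cos (Real.pi * z)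
  have hre : ((Real.pi : ℂ) * z).re = Real.pi * z.re := by simp
  have him : ((Real.pi : ℂ) * z).im = Real.pi * y := by simp [hy]
  rw [hre, him] at hS
  have hcos : Real.cos (Real.pi * z.re) ^ 2 = Real.sin (Real.pi * u) ^ 2 := by
    have : Real.pi * z.re = (Real.pi * u + Real.pi / 2) + k * Real.pi := by
      rw [hu]; ring
    rw [this, Real.cos_add_int_mul_pi, mul_pow, Real.cos_add_pi_div_two]
    have h1 : ((-1 : ℝ) ^ k) ^ 2 = 1 := by
      rw [← zpow_natCast, ← zpow_mul, mul_comm, zpow_mul]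
      norm_num
    rw [h1]; ring
  have hsin : 4 * u ^ 2 ≤ Real.sin (Real.pi * u) ^ 2 := by
    have h1 : 2 * |u| ≤ Real.sin (Real.pi * |u|) := by
      have h := Real.mul_le_sin (x := Real.pi * |u|) (by positivity)
        (by nlinarith [Real.pi_pos, abs_nonneg u])
      have h2 : 2 / Real.pi * (Real.pi * |u|) = 2 * |u| := by
        field_simp
      rw [h2] at h
      exact h
    have h2 : Real.sin (Real.pi * |u|) ^ 2 = Real.sin (Real.pi * u) ^ 2 := by
      rcases abs_choice u with h | h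
      · rw [h]
      · rw [h, mul_neg, Real.sin_neg]; ring
    rw [← h2]
    have h3 : 4 * u ^ 2 = (2 * |u|) ^ 2 := by rw [mul_pow, sq_abs]; ring
    rw [h3]
    exact pow_le_pow_left₀ (by positivity) h1 2
  have hsinh : 4 * y ^ 2 ≤ Real.sinh (Real.pi * y) ^ 2 := by
    have h1 : Real.pi * |y| ≤ Real.sinh (Real.pi * |y|) :=
      Real.self_le_sinh_iff.mpr (by positivity)
    have h2 : Real.sinh (Real.pi * |y|) ^ 2 = Real.sinh (Real.pi * y) ^ 2 := by
      rcases abs_choice y with h | h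
      · rw [h]
      · rw [h, mul_neg, Real.sinh_neg]; ring
    rw [← h2]
    have h3 : 4 * y ^ 2 = (2 * |y|) ^ 2 := by rw [mul_pow, sq_abs]; ring
    rw [h3]
    refine pow_le_pow_left₀ (by positivity) (le_trans ?_ h1) 2
    nlinarith [Real.pi_gt_three, abs_nonneg y]
  have hdist : 1 / 16 ≤ u ^ 2 + y ^ 2 := by
    have h := hz k
    have h2 : ‖z - ((k : ℂ) + 1 / 2)‖ ^ 2 = u ^ 2 + y ^ 2 := by
      rw [← Complex.normSq_eq_norm_sq, Complex.normSq_apply]
      have h3 : (z - ((k : ℂ) + 1 / 2)).re = u := by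
        simp [hu]; ring
      have h4 : (z - ((k : ℂ) + 1 / 2)).im = y := by
        simp [hy]
      rw [h3, h4]; ring
    rw [← h2]
    have : (1 / 16 : ℝ) = (1 / 4) ^ 2 := by norm_num
    rw [this]
    exact pow_le_pow_left₀ (by norm_num) h 2
  set E := Real.exp (Real.pi * |y|) with hE
  have hE1 : 1 ≤ E := Real.one_le_exp (by positivity)
  have hE0 : 0 < E := Real.exp_pos _
  have hsh : Real.sinh (Real.pi * y) ^ 2 = (E - E⁻¹) ^ 2 / 4 := by
    have h2 : Real.sinh (Real.pi * |y|) ^ 2 = Real.sinh (Real.pi * y) ^ 2 := by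
      rcases abs_choice y with h | h
      · rw [h]
      · rw [h, mul_neg, Real.sinh_neg]; ring
    rw [← h2, Real.sinh_eq, Real.exp_neg, ← hE]
    ring
  have hkey : (E / 4) ^ 2 ≤ ‖Complex.cos (Real.pi * z)‖ ^ 2 := by
    rw [hS, hcos]
    have hI : E * E⁻¹ = 1 := mul_inv_cancel₀ hE0.ne'
    rcases le_total E 2 with h | h
    · nlinarith [hsin, hsinh, hdist]
    · rw [hsh]
      have hI0 : 0 < E⁻¹ := inv_pos.mpr hE0
      nlinarith [sq_nonneg (Real.sin (Real.pi * u)), sq_nonneg (E⁻¹), hI]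
  exact le_of_sq_le_sq hkey (norm_nonneg _)

/-- upper bound for the sine -/
theorem norm_sin_le (z : ℂ) :
    ‖Complex.sin (Real.pi * z)‖ ≤ Real.exp (Real.pi * |z.im|) := by
  have hS := normSq_sin (Real.pi * z)
  have him : ((Real.pi : ℂ) * z).im = Real.pi * z.im := by simp
  rw [him] at hS
  have h2 : Real.cosh (Real.pi * z.im) = Real.cosh (Real.pi * |z.im|) := by
    rcases abs_choice z.im with h | h
    · rw [h]
    · rw [h, mul_neg, Real.cosh_neg]
  have h3 : Real.cosh (Real.pi * |z.im|) ≤ Real.exp (Real.pi * |z.im|) := by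
    rw [Real.cosh_eq]
    have : Real.exp (-(Real.pi * |z.im|)) ≤ Real.exp (Real.pi * |z.im|) := by
      apply Real.exp_le_exp.mpr
      have : 0 ≤ Real.pi * |z.im| := by positivity
      linarith
    linarith
  refine le_trans ?_ h3
  rw [← h2]
  have hc : 0 ≤ Real.cosh (Real.pi * z.im) := (Real.cosh_pos _).le
  refine le_of_sq_le_sq ?_ hc
  rw [hS, Real.cosh_sq]
  have h1 := Real.sin_sq_le_one ((Real.pi : ℂ) * z).re
  linarith

/-- `|tan|` is bounded away from the poles -/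
theorem norm_tan_le (z : ℂ) (hz : ∀ k : ℤ, 1 / 4 ≤ ‖z - ((k : ℂ) + 1 / 2)‖) :
    ‖Complex.tan (Real.pi * z)‖ ≤ 4 := by
  unfold Complex.tan
  rw [norm_div]
  have h1 := norm_sin_le z
  have h2 := norm_cos_ge z hz
  have h0 : 0 < Real.exp (Real.pi * |z.im|) := Real.exp_pos _
  have h3 : 0 < ‖Complex.cos (Real.pi * z)‖ := lt_of_lt_of_le (by positivity) h2
  rw [div_le_iff₀ h3]
  linarith

/-- `‖1/cos‖ ≤ 4 e^{-π|Im z|}` -/
theorem norm_inv_cos_le (z : ℂ) (hz : ∀ k : ℤ, 1 / 4 ≤ ‖z - ((k : ℂ) + 1 / 2)‖) :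
    ‖(Complex.cos (Real.pi * z))⁻¹‖ ≤ 4 * Real.exp (-(Real.pi * |z.im|)) := by
  rw [norm_inv, Real.exp_neg]
  have h2 := norm_cos_ge z hz
  have h0 : 0 < Real.exp (Real.pi * |z.im|) := Real.exp_pos _
  have h3 : 0 < ‖Complex.cos (Real.pi * z)‖ := lt_of_lt_of_le (by positivity) h2
  rw [show (4 : ℝ) * (Real.exp (Real.pi * |z.im|))⁻¹ = (Real.exp (Real.pi * |z.im|) / 4)⁻¹ by
    field_simp]
  exact inv_anti₀ (by positivity) h2

lemma cos_ne_zero_of_sep (z : ℂ) (hz : ∀ k : ℤ, 1 / 4 ≤ ‖z - ((k : ℂ) + 1 / 2)‖) :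
    Complex.cos (Real.pi * z) ≠ 0 := by
  have h2 := norm_cos_ge z hz
  have h0 : 0 < Real.exp (Real.pi * |z.im|) := Real.exp_pos _
  have h3 : 0 < ‖Complex.cos (Real.pi * z)‖ := lt_of_lt_of_le (by positivity) h2
  exact norm_pos_iff.mp h3

/-- the homogeneous solution `8^z (Γ(-z)/Γ(1/2-z))^3` (left normalisation) -/
noncomputable def HL (z : ℂ) : ℂ := (8 : ℂ) ^ z * (Gamma (-z) / Gamma (1 / 2 - z)) ^ 3

/-- the general psi-jump `HL/cos (c2 tan² + c1 tan + c0)` -/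
noncomputable def JJ (c0 c1 c2 : ℂ) (z : ℂ) : ℂ :=
  HL z / Complex.cos (Real.pi * z) *
    (c2 * Complex.tan (Real.pi * z) ^ 2 + c1 * Complex.tan (Real.pi * z) + c0)

/-- the g1-jump (up to a constant) `(Γ(-z)/Γ(1/2-z))²/cos²` -/
noncomputable def JG (z : ℂ) : ℂ :=
  (Gamma (-z) / Gamma (1 / 2 - z)) ^ 2 / Complex.cos (Real.pi * z) ^ 2

lemma norm_gq_neg_le (z : ℂ) (hz : z.re ≤ -(1 / 4)) :
    ‖Gamma (-z) / Gamma (1 / 2 - z)‖ ≤ Cg := by
  have h := norm_gq_le (-z) (by simp only [neg_re]; linarith)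
  have h1 : -z + 1 / 2 = 1 / 2 - z := by ring
  rw [h1] at h
  exact h

lemma norm_eight_cpow (z : ℂ) : ‖(8 : ℂ) ^ z‖ = (8 : ℝ) ^ z.re := by
  have h := norm_cpow_eq_rpow_re_of_pos (show (0 : ℝ) < 8 by norm_num) z
  push_cast at h
  exact h

theorem norm_HL_le (z : ℂ) (hz : z.re ≤ -(1 / 4)) : ‖HL z‖ ≤ Cg ^ 3 * (8 : ℝ) ^ z.re := by
  unfold HL
  rw [norm_mul, norm_pow, norm_eight_cpow, mul_comm]
  exact mul_le_mul_of_nonneg_right
    (pow_le_pow_left₀ (norm_nonneg _) (norm_gq_neg_le z hz) 3) (by positivity)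

/-- **decay of the psi-jump** -/
theorem norm_JJ_le (c0 c1 c2 : ℂ) (z : ℂ) (hz : z.re ≤ -(1 / 4))
    (hs : ∀ k : ℤ, 1 / 4 ≤ ‖z - ((k : ℂ) + 1 / 2)‖) :
    ‖JJ c0 c1 c2 z‖ ≤ (4 * Cg ^ 3 * (16 * ‖c2‖ + 4 * ‖c1‖ + ‖c0‖)) *
      ((8 : ℝ) ^ z.re * Real.exp (-(Real.pi * |z.im|))) := by
  unfold JJ
  rw [div_eq_mul_inv, norm_mul, norm_mul]
  have h1 := norm_HL_le z hz
  have h2 := norm_inv_cos_le z hs
  have h3 := norm_tan_le z hs
  have h4 : ‖c2 * Complex.tan (Real.pi * z) ^ 2 + c1 * Complex.tan (Real.pi * z) + c0‖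
      ≤ 16 * ‖c2‖ + 4 * ‖c1‖ + ‖c0‖ := by
    refine (norm_add_le _ _).trans (add_le_add ((norm_add_le _ _).trans (add_le_add ?_ ?_)) le_rfl)
    · rw [norm_mul, norm_pow]
      have : ‖Complex.tan (Real.pi * z)‖ ^ 2 ≤ 4 ^ 2 := pow_le_pow_left₀ (norm_nonneg _) h3 2
      nlinarith [norm_nonneg c2]
    · rw [norm_mul]
      nlinarith [norm_nonneg c1]
  have hCg := Cg_nonneg
  have h5 : ‖HL z‖ * ‖(Complex.cos (Real.pi * z))⁻¹‖ ≤
      (Cg ^ 3 * (8 : ℝ) ^ z.re) * (4 * Real.exp (-(Real.pi * |z.im|))) :=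
    mul_le_mul h1 h2 (norm_nonneg _) (by positivity)
  calc ‖HL z‖ * ‖(Complex.cos (Real.pi * z))⁻¹‖ *
      ‖c2 * Complex.tan (Real.pi * z) ^ 2 + c1 * Complex.tan (Real.pi * z) + c0‖
      ≤ ((Cg ^ 3 * (8 : ℝ) ^ z.re) * (4 * Real.exp (-(Real.pi * |z.im|)))) *
        (16 * ‖c2‖ + 4 * ‖c1‖ + ‖c0‖) :=
        mul_le_mul h5 h4 (norm_nonneg _) (by positivity)
    _ = _ := by ring

/-- **decay of the g1-jump** -/
theorem norm_JG_le (z : ℂ) (hz : z.re ≤ -(1 / 4))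
    (hs : ∀ k : ℤ, 1 / 4 ≤ ‖z - ((k : ℂ) + 1 / 2)‖) :
    ‖JG z‖ ≤ (16 * Cg ^ 2) * Real.exp (-(2 * Real.pi * |z.im|)) := by
  unfold JG
  rw [div_eq_mul_inv, norm_mul, norm_pow, ← inv_pow, norm_pow]
  have h1 := norm_gq_neg_le z hz
  have h2 := norm_inv_cos_le z hs
  have hCg := Cg_nonneg
  have h3 : ‖Gamma (-z) / Gamma (1 / 2 - z)‖ ^ 2 ≤ Cg ^ 2 :=
    pow_le_pow_left₀ (norm_nonneg _) h1 2
  have h4 : ‖(Complex.cos (Real.pi * z))⁻¹‖ ^ 2 ≤ (4 * Real.exp (-(Real.pi * |z.im|))) ^ 2 :=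
    pow_le_pow_left₀ (norm_nonneg _) h2 2
  have h5 : (4 * Real.exp (-(Real.pi * |z.im|))) ^ 2
      = 16 * Real.exp (-(2 * Real.pi * |z.im|)) := by
    rw [mul_pow, ← Real.exp_nat_mul]
    push_cast
    congr 1
    · norm_num
    · congr 1; ring
  rw [h5] at h4
  calc ‖Gamma (-z) / Gamma (1 / 2 - z)‖ ^ 2 * ‖(Complex.cos (Real.pi * z))⁻¹‖ ^ 2
      ≤ Cg ^ 2 * (16 * Real.exp (-(2 * Real.pi * |z.im|))) :=
        mul_le_mul h3 h4 (by positivity) (by positivity)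
    _ = _ := by ring

/-- differentiability of the Gamma quotient in the open left half plane -/
lemma differentiableAt_gq (z : ℂ) (hz : z.re < 0) :
    DifferentiableAt ℂ (fun z : ℂ => Gamma (-z) / Gamma (1 / 2 - z)) z := by
  have h1 : DifferentiableAt ℂ (fun z : ℂ => Gamma (-z)) z := by
    have h : DifferentiableAt ℂ Gamma (-z) := by
      apply differentiableAt_Gamma
      intro m hm
      have := congrArg Complex.re hm
      simp only [neg_re, natCast_re] at this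
      have hm0 : (0 : ℝ) ≤ m := Nat.cast_nonneg m
      linarith
    exact h.comp z differentiableAt_id.neg
  have h2 : DifferentiableAt ℂ (fun z : ℂ => (Gamma (1 / 2 - z))⁻¹) z := by
    have h := differentiable_one_div_Gamma (1 / 2 - z)
    exact h.comp z ((differentiableAt_const _).sub differentiableAt_id)
  simp only [div_eq_mul_inv]
  exact h1.mul h2

lemma differentiableAt_HL (z : ℂ) (hz : z.re < 0) : DifferentiableAt ℂ HL z := by
  unfold HL
  refine DifferentiableAt.mul ?_ ((differentiableAt_gq z hz).pow 3)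
  exact differentiableAt_id.const_cpow (Or.inl (by norm_num))

theorem differentiableAt_JJ (c0 c1 c2 : ℂ) (z : ℂ) (hz : z.re < 0)
    (hc : Complex.cos (Real.pi * z) ≠ 0) : DifferentiableAt ℂ (JJ c0 c1 c2) z := by
  unfold JJ
  have h0 : DifferentiableAt ℂ (fun z : ℂ => (Real.pi : ℂ) * z) z :=
    (differentiableAt_const _).mul differentiableAt_id
  have h1 : DifferentiableAt ℂ (fun z : ℂ => Complex.cos (Real.pi * z)) z := h0.ccos
  have h2 : DifferentiableAt ℂ (fun z : ℂ => Complex.tan (Real.pi * z)) z :=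
    (Complex.differentiableAt_tan.mpr hc).comp z h0
  exact ((differentiableAt_HL z hz).div h1 hc).mul
    ((((h2.pow 2).const_mul _).add (h2.const_mul _)).add (differentiableAt_const _))

theorem differentiableAt_JG (z : ℂ) (hz : z.re < 0)
    (hc : Complex.cos (Real.pi * z) ≠ 0) : DifferentiableAt ℂ JG z := by
  unfold JG
  have h0 : DifferentiableAt ℂ (fun z : ℂ => (Real.pi : ℂ) * z) z :=
    (differentiableAt_const _).mul differentiableAt_id
  have h1 : DifferentiableAt ℂ (fun z : ℂ => Complex.cos (Real.pi * z)) z := h0.ccos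
  exact ((differentiableAt_gq z hz).pow 2).div (h1.pow 2) (pow_ne_zero 2 hc)

end Crest.Agent.R006.P3_JBoundx853
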