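import Crest.Agent.R006.P3_JBound_853

set_option autoImplicit false

/-!
# Row 6 (Catalan), block P3: recurrences of the jump functions (helper853)
-/

namespace Crest.Agent.R006.P3_JRecx853

open Complex MeasureTheory Set
open Crest.Agent.R006.P3_JBoundx853

/-- `gq(-z-1) = ((z+1/2)/(z+1)) gq(-z)` -/
lemma gq_rec (z : ℂ) (hz : z ≠ -1) :
    Gamma (-(z + 1)) / Gamma (1 / 2 - (z + 1)) =
      ((2 * z + 1) / (2 * (z + 1))) * (Gamma (-z) / Gamma (1 / 2 - z)) := by
  have hz1 : z + 1 ≠ 0 := fun h => hz (by linear_combination h)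
  have h1 : Gamma (-z) = -(z + 1) * Gamma (-(z + 1)) := by
    have h := Complex.Gamma_add_one (-(z + 1)) (neg_ne_zero.mpr hz1)
    rw [← h]; congr 1; ring
  by_cases hh : 2 * z + 1 = 0
  · have hz2 : z = -(1 / 2) := by linear_combination hh / 2
    subst hz2
    have h0 : Gamma (1 / 2 - (-(1 / 2) + 1)) = 0 := by
      have : (1 / 2 - (-(1 / 2) + 1) : ℂ) = 0 := by norm_num
      rw [this, Complex.Gamma_zero]
    rw [h0]
    norm_num
  · have hh2 : -(z + 1 / 2) ≠ 0 := by
      intro h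
      apply hh
      linear_combination -2 * h
    have h2 : Gamma (1 / 2 - z) = -(z + 1 / 2) * Gamma (1 / 2 - (z + 1)) := by
      have h := Complex.Gamma_add_one (-(z + 1 / 2)) hh2
      have e1 : -(z + 1 / 2) + 1 = 1 / 2 - z := by ring
      have e2 : -(z + 1 / 2) = 1 / 2 - (z + 1) := by ring
      rw [e1] at h
      rw [h, e2]
    rw [h1, h2]
    generalize Gamma (1 / 2 - (z + 1)) = a at *
    generalize Gamma (-(z + 1)) = b at *
    by_cases hG : a = 0
    · rw [hG]; simp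
    · have hz4 : z + 1 / 2 = (2 * z + 1) / 2 := by ring
      rw [hz4]
      field_simp

theorem HL_rec (z : ℂ) (hz : z ≠ -1) : (z + 1) ^ 3 * HL (z + 1) = (2 * z + 1) ^ 3 * HL z := by
  unfold HL
  rw [gq_rec z hz]
  have hz1 : z + 1 ≠ 0 := fun h => hz (by linear_combination h)
  have h8 : (8 : ℂ) ^ (z + 1) = 8 * (8 : ℂ) ^ z := by
    rw [cpow_add _ _ (by norm_num), cpow_one]; ring
  rw [h8]
  field_simp
  ring

lemma cos_pi_add_one (z : ℂ) : Complex.cos (Real.pi * (z + 1)) = -Complex.cos (Real.pi * z) := by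
  rw [mul_add, mul_one, Complex.cos_add_pi]

lemma sin_pi_add_one (z : ℂ) : Complex.sin (Real.pi * (z + 1)) = -Complex.sin (Real.pi * z) := by
  rw [mul_add, mul_one, Complex.sin_add_pi]

lemma tan_pi_add_one (z : ℂ) : Complex.tan (Real.pi * (z + 1)) = Complex.tan (Real.pi * z) := by
  unfold Complex.tan
  rw [cos_pi_add_one, sin_pi_add_one, neg_div_neg_eq]

/-- the psi-jump solves the homogeneous recurrence -/
theorem JJ_rec (c0 c1 c2 z : ℂ) (hz : z ≠ -1) :
    (z + 1) ^ 3 * JJ c0 c1 c2 (z + 1) = -((2 * z + 1) ^ 3 * JJ c0 c1 c2 z) := by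
  unfold JJ
  rw [tan_pi_add_one, cos_pi_add_one]
  have h := HL_rec z hz
  have : (z + 1) ^ 3 * (HL (z + 1) / -Complex.cos (Real.pi * z) *
      (c2 * Complex.tan (Real.pi * z) ^ 2 + c1 * Complex.tan (Real.pi * z) + c0))
      = ((z + 1) ^ 3 * HL (z + 1)) / -Complex.cos (Real.pi * z) *
      (c2 * Complex.tan (Real.pi * z) ^ 2 + c1 * Complex.tan (Real.pi * z) + c0) := by ring
  rw [this, h, div_neg]
  ring

/-- the g1-jump solves the recurrence of g1 -/
theorem JG_rec (z : ℂ) (hz : z ≠ -1) :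
    4 * (z + 1) ^ 2 * JG (z + 1) = (2 * z + 1) ^ 2 * JG z := by
  unfold JG
  rw [cos_pi_add_one, gq_rec z hz]
  have hz1 : z + 1 ≠ 0 := fun h => hz (by linear_combination h)
  have : (-Complex.cos (Real.pi * z)) ^ 2 = Complex.cos (Real.pi * z) ^ 2 := by ring
  rw [this]
  field_simp
  ring

end Crest.Agent.R006.P3_JRecx853
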