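import Crest.Agent.R006.Cert_112
import Crest.Agent.R006.P3_Const2_673
import Crest.Agent.R006.NumBr_464

/-!
# Row 6, block P3: the constant of the certificate (helper200)

`selfE (LS S K) = K² (eV S + rows²/2 log K)`, so that 673's asymptotics of
`log κ = logV - log kden` at `u = K v` has the `v²` coefficient used by `Cert.alphaV`:
`selfE (LS S K) - K² (NL S + NC S log K)`.
-/

set_option autoImplicit false

namespace Crest.Agent.R006.Kap200

open D NumSegx464 ConstX673 Potx943 Cert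

/-! ### list sums -/

theorem rowE_eq_sum (p : WSeg) : ∀ L : List WSeg, rowE p L = (L.map fun q => pairE p q).sum
  | [] => rfl
  | q :: L => by
    simp only [rowE, List.map_cons, List.sum_cons]
    rw [rowE_eq_sum p L]

theorem two_selfE : ∀ L : List WSeg, (∀ p ∈ L, ∀ q ∈ L, pairE p q = pairE q p) →
    2 * selfE L = (L.map fun p => (L.map fun q => pairE p q).sum).sum
  | [], _ => by simp [selfE]
  | p :: L, h => by
    have ih := two_selfE L (fun a ha b hb => h a (List.mem_cons_of_mem _ ha) b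
      (List.mem_cons_of_mem _ hb))
    simp only [selfE, List.map_cons, List.sum_cons]
    rw [rowE_eq_sum]
    have h1 : (L.map fun a => pairE a p + (L.map fun q => pairE a q).sum).sum
        = (L.map fun a => pairE p a).sum + (L.map fun a => (L.map fun q => pairE a q).sum).sum := by
      rw [List.sum_map_add]
      congr 2
      apply List.map_congr_left
      intro a ha
      exact h a (List.mem_cons_of_mem _ ha) p List.mem_cons_self
    rw [h1, ← ih]
    push_cast
    ring

/-! ### real segments of density one -/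

theorem pairE_real (a a' m m' : ℤ) :
    pairE ((a, 0), (a + m, 0), m) ((a', 0), (a' + m', 0), m') = Fpair ((a : ℝ) - a') m m' := by
  have h := mutE_eq_segE (a' : ℂ) 1 (m' : ℝ) (a : ℂ) 1 (m : ℝ)
  have hc := mut_closed_real (a := (a' : ℂ)) (d := 1) (a' := (a : ℂ)) (d' := 1)
    (x0 := (a' : ℝ) - a) (ρ := 1) one_ne_zero one_ne_zero (m := (m' : ℝ)) (m' := (m : ℝ))
    (by push_cast; ring) (by norm_num)
  have e1 : gc (a, 0) = (a : ℂ) := by apply Complex.ext <;> simp
  have e2 : gc (a + m, 0) = (a : ℂ) + ((m : ℝ) : ℂ) * 1 := by apply Complex.ext <;> simp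
  have e3 : gc (a', 0) = (a' : ℂ) := by apply Complex.ext <;> simp
  have e4 : gc (a' + m', 0) = (a' : ℂ) + ((m' : ℝ) : ℂ) * 1 := by apply Complex.ext <;> simp
  unfold pairE
  simp only
  rw [e1, e2, e3, e4, Int.cast_mul, mul_comm (m : ℝ) (m' : ℝ), ← h, hc]
  unfold Fpair
  rw [show (a : ℝ) - a' + m = -((a' : ℝ) - a - m) by ring, F_neg,
    show (a : ℝ) - a' = -((a' : ℝ) - a) by ring, F_neg,
    show -((a' : ℝ) - a - m) - m' = -((a' : ℝ) - a - m + m') by ring, F_neg,
    show -((a' : ℝ) - a) - m' = -((a' : ℝ) - a + m') by ring, F_neg,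
    F_eq_G2r, F_eq_G2r, F_eq_G2r, F_eq_G2r]
  simp only [norm_one, Real.log_one, mul_one, div_one]
  ring

theorem Fpair_symm (D m m' : ℝ) : Fpair (-D) m' m = Fpair D m m' := by
  unfold Fpair
  rw [show -D + m' = -(D - m') by ring, F_neg, F_neg, show -(D - m') - m = -(D + m - m') by ring,
    F_neg, show -D - m = -(D + m) by ring, F_neg]
  ring

/-- the window `i` of the nodes, units `v` -/
def wseg (S : Shape) (K : ℤ) (i : Fin 8) : WSeg :=
  ((K * wst S i, 0), (K * wst S i + K * wlen S i, 0), K * wlen S i)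

theorem pairE_wseg (S : Shape) (K : ℤ) (i j : Fin 8) :
    pairE (wseg S K i) (wseg S K j) =
      Fpair (K * ((wst S i : ℝ) - wst S j)) (K * wlen S i) (K * wlen S j) := by
  unfold wseg
  rw [pairE_real]
  push_cast
  congr 1
  ring

theorem pairE_wseg_symm (S : Shape) (K : ℤ) (i j : Fin 8) :
    pairE (wseg S K i) (wseg S K j) = pairE (wseg S K j) (wseg S K i) := by
  rw [pairE_wseg, pairE_wseg, ← Fpair_symm]
  congr 1
  ring

theorem sum_rseg (f : WSeg → ℝ) (hf : ∀ A B, f (A, B, 0) = 0) (a b m : ℤ) :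
    ((rseg a b m).map f).sum = f ((a, 0), (b, 0), m) := by
  unfold rseg
  split_ifs with h
  · subst h
    simp [hf]
  · simp

theorem mem_LS {S : Shape} {K : ℤ} {p : WSeg} (h : p ∈ LS S K) : ∃ i, p = wseg S K i := by
  have key : ∀ (a b m : ℤ), p ∈ rseg a b m → p = ((a, 0), (b, 0), m) := by
    intro a b m hp
    unfold rseg at hp
    split_ifs at hp
    · simp at hp
    · exact List.mem_singleton.mp hp
  unfold LS at h
  simp only [List.mem_append] at h
  rcases h with ((((((h | h) | h) | h) | h) | h) | h) | h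
  · exact ⟨0, by rw [key _ _ _ h]; simp [wseg, wst, wlen]⟩
  · exact ⟨1, by rw [key _ _ _ h]; simp [wseg, wst, wlen]⟩
  · exact ⟨2, by rw [key _ _ _ h]; simp [wseg, wst, wlen]⟩
  · exact ⟨3, by rw [key _ _ _ h]; simp [wseg, wst, wlen]⟩
  · exact ⟨4, by rw [key _ _ _ h]; simp [wseg, wst, wlen]⟩
  · exact ⟨5, by rw [key _ _ _ h]; simp [wseg, wst, wlen]⟩
  · exact ⟨6, by rw [key _ _ _ h]; simp [wseg, wst, wlen]⟩
  · exact ⟨7, by rw [key _ _ _ h]; simp [wseg, wst, wlen]⟩

theorem sum_LS (S : Shape) (K : ℤ) (f : WSeg → ℝ) (hf : ∀ A B, f (A, B, 0) = 0) :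
    ((LS S K).map f).sum = ∑ i : Fin 8, f (wseg S K i) := by
  rw [Fin.sum_univ_eight]
  unfold LS
  simp only [List.map_append, List.sum_append, sum_rseg f hf]
  simp only [wseg, wst, wlen]
  simp

/-- energy of the nodes on the scale `K` -/
theorem selfE_LS (S : Shape) {K : ℕ} (hK : 0 < K) :
    selfE (LS S K) = (K : ℝ) ^ 2 * (eV S + (S.rows : ℝ) ^ 2 / 2 * Real.log K) := by
  have hKr : (0 : ℝ) < K := by exact_mod_cast hK
  have h1 := two_selfE (LS S K) (by
    intro p hp q hq
    obtain ⟨i, rfl⟩ := mem_LS hp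
    obtain ⟨j, rfl⟩ := mem_LS hq
    exact pairE_wseg_symm S K i j)
  have h2 : ((LS S K).map fun p => ((LS S K).map fun q => pairE p q).sum).sum
      = ∑ i : Fin 8, ∑ j : Fin 8, pairE (wseg S K i) (wseg S K j) := by
    rw [sum_LS S K _ (by
      intro A B
      have : (fun q => pairE (A, B, 0) q) = fun _ => (0 : ℝ) := by
        funext q; simp [pairE]
      rw [this]
      simp)]
    apply Finset.sum_congr rfl
    intro i _
    exact sum_LS S K _ (by intro A B; simp [pairE])
  have hF : ∀ x : ℝ, F (K * x) = (K : ℝ) ^ 2 * (F x + x ^ 2 / 2 * Real.log K) := by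
    intro x
    rcases eq_or_ne x 0 with h | h
    · subst h; simp
    · unfold F
      rw [Real.log_mul hKr.ne' h]
      ring
  have hFp : ∀ D m m' : ℝ, Fpair (K * D) (K * m) (K * m')
      = (K : ℝ) ^ 2 * (Fpair D m m' + m * m' * Real.log K) := by
    intro D m m'
    unfold Fpair
    rw [show (K : ℝ) * D + K * m = K * (D + m) by ring,
      show (K : ℝ) * (D + m) - K * m' = K * (D + m - m') by ring,
      show (K : ℝ) * D - K * m' = K * (D - m') by ring, hF, hF, hF, hF]
    ring
  have h3 : ∑ i : Fin 8, ∑ j : Fin 8, pairE (wseg S K i) (wseg S K j)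
      = (K : ℝ) ^ 2 * (2 * eV S + (S.rows : ℝ) ^ 2 * Real.log K) := by
    have e : ∀ i j : Fin 8, pairE (wseg S K i) (wseg S K j)
        = (K : ℝ) ^ 2 * Fpair ((wst S i : ℝ) - wst S j) (wlen S i) (wlen S j)
          + (K : ℝ) ^ 2 * Real.log K * ((wlen S i : ℝ) * wlen S j) := by
      intro i j
      rw [pairE_wseg]
      push_cast
      rw [hFp]
      ring
    simp_rw [e, Finset.sum_add_distrib, ← Finset.mul_sum]
    have e2 : ∑ i : Fin 8, (wlen S i : ℝ) * ∑ j : Fin 8, (wlen S j : ℝ) = (S.rows : ℝ) ^ 2 := by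
      rw [← Finset.sum_mul, sum_wlen]
      ring
    rw [e2]
    unfold eV
    ring
  rw [h2, h3] at h1
  linarith

/-- **the `v²` coefficient** -/
theorem kap_eq (S : Shape) {K : ℕ} (hK : 0 < K) :
    (K : ℝ) ^ 2 * (kapE S + kapA S * Real.log K)
      = selfE (LS S K) - (K : ℝ) ^ 2 * (NL S + NC S * Real.log K) := by
  rw [selfE_LS S hK]
  unfold kapE kapA NL NC sfF phi F
  ring

/-- **asymptotics of `log κ` at `u = K v`** -/
theorem logkappa_mul (S : Shape) (c : ℕ) {K : ℕ} (hK : 0 < K) :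
    ∃ C : ℝ, 0 ≤ C ∧ ∀ v : ℕ, 1 ≤ v →
      |(logV S (K * v) c - Real.log (kden S (K * v)))
        - (kapA S * (K : ℝ) ^ 2 * ((v : ℝ) ^ 2 * Real.log v)
          + (v : ℝ) ^ 2 * (selfE (LS S K) - (K : ℝ) ^ 2 * (NL S + NC S * Real.log K)))|
        ≤ C * (v * (1 + Real.log v)) := by
  obtain ⟨C, hC⟩ := Sm_logkappa S c
  have hKr : (1 : ℝ) ≤ K := by exact_mod_cast hK
  have hlK : 0 ≤ Real.log (K : ℝ) := Real.log_nonneg hKr
  refine ⟨|C| * (K * (1 + Real.log K)), by positivity, fun v hv => ?_⟩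
  have hv1 : (1 : ℝ) ≤ v := by exact_mod_cast hv
  have hlv : 0 ≤ Real.log (v : ℝ) := Real.log_nonneg hv1
  have h1 := hC (K * v) (by nlinarith)
  have hlog : Real.log ((K * v : ℕ) : ℝ) = Real.log K + Real.log v := by
    push_cast
    rw [Real.log_mul (by positivity) (by positivity)]
  simp only at h1
  rw [hlog] at h1
  push_cast at h1
  have e : kapA S * (((K : ℝ) * v) ^ 2 * (Real.log K + Real.log v)) + ((K : ℝ) * v) ^ 2 * kapE S
      = kapA S * (K : ℝ) ^ 2 * ((v : ℝ) ^ 2 * Real.log v)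
        + (v : ℝ) ^ 2 * (selfE (LS S K) - (K : ℝ) ^ 2 * (NL S + NC S * Real.log K)) := by
    rw [← kap_eq S hK]
    ring
  rw [e] at h1
  refine h1.trans ?_
  have h2 : ef (K * v) ≤ K * (1 + Real.log K) * (v * (1 + Real.log v)) := by
    unfold ef
    rw [hlog]
    push_cast
    have h3 : 1 + (Real.log (K : ℝ) + Real.log v) ≤ (1 + Real.log K) * (1 + Real.log v) := by
      nlinarith [mul_nonneg hlK hlv]
    have h4 : (0 : ℝ) ≤ (K : ℝ) * v := by positivity
    calc (K : ℝ) * v * (1 + (Real.log K + Real.log v))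
        ≤ (K : ℝ) * v * ((1 + Real.log K) * (1 + Real.log v)) :=
          mul_le_mul_of_nonneg_left h3 h4
      _ = _ := by ring
  have h5 : 0 ≤ ef (K * v) := by
    unfold ef
    have : 0 ≤ Real.log ((K * v : ℕ) : ℝ) := by rw [hlog]; positivity
    positivity
  calc C * ef (K * v) ≤ |C| * ef (K * v) := mul_le_mul_of_nonneg_right (le_abs_self C) h5
    _ ≤ |C| * (K * (1 + Real.log K) * (v * (1 + Real.log v))) :=
        mul_le_mul_of_nonneg_left h2 (abs_nonneg C)
    _ = _ := by ring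

end Crest.Agent.R006.Kap200
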