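import Mathlib

set_option autoImplicit false

/-!
# Row 6 (Catalan), block P3: negative definiteness of the logarithmic kernel (helper853)

* `gauss_pd` : the Gaussian kernel `exp (-s |z-w|^2)` is positive semidefinite on the plane;
* `log_cnd`  : for neutral charges `∑ σ_a σ_b log (1 + |z_a - z_b|^2) ≤ 0`.

The kernel `log (1 + |z-w|^2)` dominates `2 log |z-w|` and vanishes on the diagonal, so it is the
natural regularisation for upper bounds of products of differences (no self energy at all).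
-/

namespace Crest.Agent.R006.P3_LogEnergyx853

open Finset Filter Topology MeasureTheory Set

variable {ι : Type*}

/-- powers of the real inner product are positive semidefinite -/
lemma inner_pow_pd (t : Finset ι) (x y σ : ι → ℝ) (n : ℕ) :
    0 ≤ ∑ a ∈ t, ∑ b ∈ t, σ a * σ b * (x a * x b + y a * y b) ^ n := by
  have h : ∑ a ∈ t, ∑ b ∈ t, σ a * σ b * (x a * x b + y a * y b) ^ n
      = ∑ k ∈ range (n + 1), (n.choose k : ℝ) *
          (∑ a ∈ t, σ a * (x a ^ k * y a ^ (n - k))) ^ 2 := by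
    have h1 : ∀ a b : ι, σ a * σ b * (x a * x b + y a * y b) ^ n
        = ∑ k ∈ range (n + 1), (n.choose k : ℝ) *
          ((σ a * (x a ^ k * y a ^ (n - k))) * (σ b * (x b ^ k * y b ^ (n - k)))) := by
      intro a b
      rw [add_pow, Finset.mul_sum]
      refine Finset.sum_congr rfl fun k _ => ?_
      rw [mul_pow, mul_pow]
      ring
    simp_rw [h1]
    have h2 : ∀ a ∈ t, ∑ b ∈ t, ∑ k ∈ range (n + 1), (n.choose k : ℝ) *
          ((σ a * (x a ^ k * y a ^ (n - k))) * (σ b * (x b ^ k * y b ^ (n - k))))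
        = ∑ k ∈ range (n + 1), ∑ b ∈ t, (n.choose k : ℝ) *
          ((σ a * (x a ^ k * y a ^ (n - k))) * (σ b * (x b ^ k * y b ^ (n - k)))) :=
      fun a _ => Finset.sum_comm
    rw [Finset.sum_congr rfl h2, Finset.sum_comm]
    refine Finset.sum_congr rfl fun k _ => ?_
    rw [sq, Finset.sum_mul_sum, Finset.mul_sum]
    refine Finset.sum_congr rfl fun a _ => ?_
    rw [Finset.mul_sum]
  rw [h]
  exact Finset.sum_nonneg fun k _ => by positivity

/-- the exponential of the real inner product is positive semidefinite -/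
lemma exp_inner_pd (t : Finset ι) (x y σ : ι → ℝ) (c : ℝ) (hc : 0 ≤ c) :
    0 ≤ ∑ a ∈ t, ∑ b ∈ t, σ a * σ b * Real.exp (c * (x a * x b + y a * y b)) := by
  have hs : ∀ a b : ι, HasSum (fun n : ℕ => σ a * σ b * ((c ^ n / n.factorial) *
      (x a * x b + y a * y b) ^ n))
      (σ a * σ b * Real.exp (c * (x a * x b + y a * y b))) := by
    intro a b
    have h := NormedSpace.expSeries_div_hasSum_exp (c * (x a * x b + y a * y b))
    rw [← Real.exp_eq_exp_ℝ] at h
    have h2 := h.mul_left (σ a * σ b)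
    have h3 : (fun n : ℕ => σ a * σ b * ((c ^ n / n.factorial) *
        (x a * x b + y a * y b) ^ n)) = (fun n : ℕ => σ a * σ b *
        ((c * (x a * x b + y a * y b)) ^ n / n.factorial)) := by
      funext n
      rw [mul_pow]
      ring
    rw [h3]
    exact h2
  have hsum := hasSum_sum (s := t) fun a _ => hasSum_sum (s := t) fun b _ => hs a b
  refine hsum.nonneg fun n => ?_
  have h := inner_pow_pd t x y σ n
  have h3 : ∑ a ∈ t, ∑ b ∈ t, σ a * σ b * ((c ^ n / n.factorial) *
      (x a * x b + y a * y b) ^ n) = (c ^ n / n.factorial) *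
      ∑ a ∈ t, ∑ b ∈ t, σ a * σ b * (x a * x b + y a * y b) ^ n := by
    rw [Finset.mul_sum]
    refine Finset.sum_congr rfl fun a _ => ?_
    rw [Finset.mul_sum]
    refine Finset.sum_congr rfl fun b _ => ?_
    ring
  rw [h3]
  positivity

/-- the Gaussian kernel is positive semidefinite on the plane -/
lemma gauss_pd (t : Finset ι) (x y σ : ι → ℝ) (s : ℝ) (hs : 0 ≤ s) :
    0 ≤ ∑ a ∈ t, ∑ b ∈ t, σ a * σ b *
      Real.exp (-(s * ((x a - x b) ^ 2 + (y a - y b) ^ 2))) := by
  have h := exp_inner_pd t x y (fun a => σ a * Real.exp (-(s * (x a ^ 2 + y a ^ 2)))) (2 * s)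
    (by positivity)
  refine h.trans (le_of_eq ?_)
  refine Finset.sum_congr rfl fun a _ => Finset.sum_congr rfl fun b _ => ?_
  have : Real.exp (-(s * ((x a - x b) ^ 2 + (y a - y b) ^ 2)))
      = Real.exp (-(s * (x a ^ 2 + y a ^ 2))) * Real.exp (-(s * (x b ^ 2 + y b ^ 2))) *
        Real.exp (2 * s * (x a * x b + y a * y b)) := by
    rw [← Real.exp_add, ← Real.exp_add]
    congr 1
    ring
  rw [this]
  ring

/-- `∫_0^∞ e^{-c s} ds = 1/c` -/
lemma integral_exp_neg (c : ℝ) (hc : 0 < c) :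
    ∫ s in Ioi (0 : ℝ), Real.exp (-(c * s)) = 1 / c := by
  have h := integral_exp_mul_Ioi (a := -c) (by linarith) 0
  simp only [neg_mul, mul_zero, Real.exp_zero] at h
  rw [h]
  field_simp

lemma integrable_exp_neg (c : ℝ) (hc : 0 < c) :
    IntegrableOn (fun s => Real.exp (-(c * s))) (Ioi (0 : ℝ)) := by
  have h := integrableOn_exp_mul_Ioi (a := -c) (by linarith) 0
  simpa [neg_mul] using h

/-- the kernel `1/(τ + |z-w|^2)` is positive semidefinite -/
lemma cauchy_pd (t : Finset ι) (x y σ : ι → ℝ) (τ : ℝ) (hτ : 0 < τ) :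
    0 ≤ ∑ a ∈ t, ∑ b ∈ t, σ a * σ b *
      (1 / (τ + ((x a - x b) ^ 2 + (y a - y b) ^ 2))) := by
  have hpos : ∀ a b : ι, 0 < τ + ((x a - x b) ^ 2 + (y a - y b) ^ 2) := by
    intro a b; positivity
  have h : ∑ a ∈ t, ∑ b ∈ t, σ a * σ b *
      (1 / (τ + ((x a - x b) ^ 2 + (y a - y b) ^ 2)))
      = ∫ s in Ioi (0 : ℝ), ∑ a ∈ t, ∑ b ∈ t, σ a * σ b *
        Real.exp (-((τ + ((x a - x b) ^ 2 + (y a - y b) ^ 2)) * s)) := by
    rw [integral_finsetSum]
    · refine Finset.sum_congr rfl fun a _ => ?_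
      rw [integral_finsetSum]
      · refine Finset.sum_congr rfl fun b _ => ?_
        rw [integral_const_mul, integral_exp_neg _ (hpos a b)]
      · intro b _
        exact (integrable_exp_neg _ (hpos a b)).const_mul _
    · intro a _
      exact integrable_finsetSum _ fun b _ => (integrable_exp_neg _ (hpos a b)).const_mul _
  rw [h]
  refine setIntegral_nonneg measurableSet_Ioi fun s hs => ?_
  have hs0 : 0 ≤ s := le_of_lt hs
  have h2 : ∑ a ∈ t, ∑ b ∈ t, σ a * σ b *
        Real.exp (-((τ + ((x a - x b) ^ 2 + (y a - y b) ^ 2)) * s))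
      = Real.exp (-(τ * s)) * ∑ a ∈ t, ∑ b ∈ t, σ a * σ b *
        Real.exp (-(s * ((x a - x b) ^ 2 + (y a - y b) ^ 2))) := by
    rw [Finset.mul_sum]
    refine Finset.sum_congr rfl fun a _ => ?_
    rw [Finset.mul_sum]
    refine Finset.sum_congr rfl fun b _ => ?_
    have : Real.exp (-((τ + ((x a - x b) ^ 2 + (y a - y b) ^ 2)) * s))
        = Real.exp (-(τ * s)) * Real.exp (-(s * ((x a - x b) ^ 2 + (y a - y b) ^ 2))) := by
      rw [← Real.exp_add]; congr 1; ring
    rw [this]; ring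
  rw [h2]
  exact mul_nonneg (Real.exp_nonneg _) (gauss_pd t x y σ s hs0)

/-- **Conditional negative definiteness of `log (1 + |z-w|^2)`** : for neutral charges in the plane
the regularised logarithmic energy is `≤ 0`. -/
theorem log_cnd (t : Finset ι) (x y σ : ι → ℝ) (hσ : ∑ a ∈ t, σ a = 0) :
    ∑ a ∈ t, ∑ b ∈ t, σ a * σ b *
      Real.log (1 + ((x a - x b) ^ 2 + (y a - y b) ^ 2)) ≤ 0 := by
  set u : ι → ι → ℝ := fun a b => (x a - x b) ^ 2 + (y a - y b) ^ 2 with hu
  have hu0 : ∀ a b, 0 ≤ u a b := fun a b => by simp only [hu]; positivity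
  set f : ℝ → ℝ := fun τ => ∑ a ∈ t, ∑ b ∈ t, σ a * σ b * Real.log (τ + u a b) with hf
  have hderiv : ∀ τ : ℝ, 0 < τ → HasDerivAt f (∑ a ∈ t, ∑ b ∈ t, σ a * σ b *
      (1 / (τ + u a b))) τ := by
    intro τ hτ
    refine HasDerivAt.fun_sum fun a _ => HasDerivAt.fun_sum fun b _ => ?_
    refine HasDerivAt.const_mul _ ?_
    have h1 : HasDerivAt (fun τ : ℝ => τ + u a b) 1 τ := (hasDerivAt_id τ).add_const _
    exact h1.log (by have := hu0 a b; positivity)
  have hmono : MonotoneOn f (Set.Ioi 0) := by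
    refine monotoneOn_of_deriv_nonneg (convex_Ioi 0) ?_ ?_ ?_
    · intro τ hτ
      exact (hderiv τ hτ).continuousAt.continuousWithinAt
    · intro τ hτ
      rw [interior_Ioi] at hτ
      exact (hderiv τ hτ).differentiableAt.differentiableWithinAt
    · intro τ hτ
      rw [interior_Ioi] at hτ
      rw [(hderiv τ hτ).deriv]
      exact cauchy_pd t x y σ τ hτ
  have hneutral : ∀ τ : ℝ, 0 < τ → f τ = ∑ a ∈ t, ∑ b ∈ t, σ a * σ b *
      Real.log (1 + u a b / τ) := by
    intro τ hτ
    have h0 : ∑ a ∈ t, ∑ b ∈ t, σ a * σ b * Real.log τ = 0 := by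
      have : ∑ a ∈ t, ∑ b ∈ t, σ a * σ b * Real.log τ
          = (∑ a ∈ t, σ a) * (∑ b ∈ t, σ b) * Real.log τ := by
        rw [Finset.sum_mul_sum, Finset.sum_mul]
        refine Finset.sum_congr rfl fun a _ => ?_
        rw [Finset.sum_mul]
      rw [this, hσ]; ring
    have h1 : f τ = f τ - ∑ a ∈ t, ∑ b ∈ t, σ a * σ b * Real.log τ := by rw [h0]; ring
    rw [h1, hf]
    simp only
    rw [← Finset.sum_sub_distrib]
    refine Finset.sum_congr rfl fun a _ => ?_
    rw [← Finset.sum_sub_distrib]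
    refine Finset.sum_congr rfl fun b _ => ?_
    have h2 : 1 + u a b / τ = (τ + u a b) / τ := by field_simp
    have h3 : 0 < τ + u a b := by have := hu0 a b; positivity
    rw [h2, Real.log_div h3.ne' hτ.ne']
    ring
  have hlim : Tendsto f atTop (𝓝 0) := by
    have h1 : Tendsto (fun τ : ℝ => ∑ a ∈ t, ∑ b ∈ t, σ a * σ b *
        Real.log (1 + u a b / τ)) atTop (𝓝 (∑ a ∈ t, ∑ b ∈ t, σ a * σ b * Real.log (1 + 0))) := by
      refine tendsto_finsetSum _ fun a _ => tendsto_finsetSum _ fun b _ => ?_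
      refine Tendsto.const_mul _ ?_
      refine (Real.continuousAt_log (by norm_num)).tendsto.comp ?_
      exact tendsto_const_nhds.add (tendsto_const_nhds.div_atTop tendsto_id)
    simp only [add_zero, Real.log_one, mul_zero, Finset.sum_const_zero] at h1
    refine h1.congr' ?_
    filter_upwards [eventually_gt_atTop (0 : ℝ)] with τ hτ
    exact (hneutral τ hτ).symm
  have hfinal : f 1 ≤ 0 := by
    refine ge_of_tendsto hlim ?_
    filter_upwards [eventually_ge_atTop (1 : ℝ)] with τ hτ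
    exact hmono (by simp) (by simp only [Set.mem_Ioi]; linarith) hτ
  exact hfinal

end Crest.Agent.R006.P3_LogEnergyx853
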