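import Mathlib

/-!
# Row 6, block P3: closed polygonal loops, Hermite interpolation outside the loop (helper283)

* `pint p l f`   : integral of `f` over the polygonal line `p, l`.
* `IsLoop U P Z L` : `L` is a closed loop functional on the curve `P` in `U`, winding once around
  the points of `Z`.
* `isLoop_pint`  : polygonal loops, symmetric position: upper half from `A` to `B`, lower half back.
* `hermite_loop` : the interpolation polynomial of `f` at `Zin` (zero at `Zout`), and its
  representation `r s = - ω s (2πi)⁻¹ ∮ f/(ω (u-s))` outside.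
-/

set_option autoImplicit false

namespace Crest.Agent.R006.P3Loop

open Complex Polynomial Set Filter Topology MeasureTheory
open scoped Real

noncomputable section

/-- integral over the segment from `p` to `q` -/
def seg (p q : ℂ) (f : ℂ → ℂ) : ℂ := (q - p) * ∫ t in (0 : ℝ)..1, f (p + t * (q - p))

/-- integral over the polygonal line `p, l` -/
def pint : ℂ → List ℂ → (ℂ → ℂ) → ℂ
  | _, [], _ => 0
  | p, q :: l, f => seg p q f + pint q l f

/-- the points of the polygonal line -/
def pset : ℂ → List ℂ → Set ℂ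
  | p, [] => {p}
  | p, q :: l => segment ℝ p q ∪ pset q l

/-- end point -/
def pend : ℂ → List ℂ → ℂ
  | p, [] => p
  | _, q :: l => pend q l

/-- length -/
def plen : ℂ → List ℂ → ℝ
  | _, [] => 0
  | p, q :: l => ‖q - p‖ + plen q l

lemma mem_segment_line {p q : ℂ} {t : ℝ} (h0 : 0 ≤ t) (h1 : t ≤ 1) :
    p + (t : ℂ) * (q - p) ∈ segment ℝ p q := by
  refine ⟨1 - t, t, by linarith, h0, by ring, ?_⟩
  simp only [real_smul]; push_cast; ring

lemma line_mem {p q : ℂ} {t : ℝ} (ht : t ∈ uIcc (0 : ℝ) 1) :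
    p + (t : ℂ) * (q - p) ∈ segment ℝ p q := by
  rw [uIcc_of_le zero_le_one] at ht
  exact mem_segment_line ht.1 ht.2

lemma cont_line {p q : ℂ} {f : ℂ → ℂ} (hf : ContinuousOn f (segment ℝ p q)) :
    ContinuousOn (fun t : ℝ => f (p + t * (q - p))) (uIcc (0 : ℝ) 1) :=
  hf.comp (by fun_prop) fun _ ht => line_mem ht

lemma seg_ftc {p q : ℂ} {f G : ℂ → ℂ} (h : ∀ z ∈ segment ℝ p q, HasDerivAt G (f z) z)
    (hf : ContinuousOn f (segment ℝ p q)) : seg p q f = G q - G p := by
  have h1 : ∀ t ∈ uIcc (0 : ℝ) 1,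
      HasDerivAt (fun t : ℝ => G (p + t * (q - p))) ((q - p) * f (p + t * (q - p))) t := by
    intro t ht
    have h2 : HasDerivAt (fun t : ℝ => p + (t : ℂ) * (q - p)) (q - p) t := by
      have h3 : HasDerivAt (fun t : ℝ => (t : ℂ)) 1 t := (hasDerivAt_id t).ofReal_comp
      simpa using (h3.mul_const (q - p)).const_add p
    have h3 := (h _ (line_mem ht)).comp_of_eq t h2 rfl
    rw [mul_comm] at h3
    exact h3
  have h2 := intervalIntegral.integral_eq_sub_of_hasDerivAt h1
    ((continuousOn_const.mul (cont_line hf)).intervalIntegrable)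
  rw [intervalIntegral.integral_const_mul] at h2
  unfold seg
  rw [h2]
  simp

lemma seg_add {p q : ℂ} {f g : ℂ → ℂ} (hf : ContinuousOn f (segment ℝ p q))
    (hg : ContinuousOn g (segment ℝ p q)) :
    seg p q (fun z => f z + g z) = seg p q f + seg p q g := by
  unfold seg
  rw [intervalIntegral.integral_add (cont_line hf).intervalIntegrable
    (cont_line hg).intervalIntegrable]
  ring

lemma seg_smul {p q : ℂ} (c : ℂ) (f : ℂ → ℂ) : seg p q (fun z => c * f z) = c * seg p q f := by
  unfold seg
  rw [intervalIntegral.integral_const_mul]; ring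

lemma seg_congr {p q : ℂ} {f g : ℂ → ℂ} (h : EqOn f g (segment ℝ p q)) :
    seg p q f = seg p q g := by
  unfold seg
  rw [intervalIntegral.integral_congr (fun t ht => h (line_mem ht))]

lemma norm_seg_le {p q : ℂ} {f : ℂ → ℂ} {M : ℝ} (h : ∀ z ∈ segment ℝ p q, ‖f z‖ ≤ M) :
    ‖seg p q f‖ ≤ ‖q - p‖ * M := by
  unfold seg
  rw [norm_mul]
  refine mul_le_mul_of_nonneg_left ?_ (norm_nonneg _)
  have := intervalIntegral.norm_integral_le_of_norm_le_const (a := (0 : ℝ)) (b := 1)
    (f := fun t : ℝ => f (p + t * (q - p))) (C := M) (by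
      intro t ht
      rw [uIoc_of_le zero_le_one] at ht
      exact h _ (mem_segment_line ht.1.le ht.2))
  simpa using this

lemma start_mem (p : ℂ) (l : List ℂ) : p ∈ pset p l := by
  cases l with
  | nil => exact rfl
  | cons q l => exact Or.inl (left_mem_segment ℝ p q)

lemma pint_ftc {f G : ℂ → ℂ} : ∀ (p : ℂ) (l : List ℂ), (∀ z ∈ pset p l, HasDerivAt G (f z) z) →
    ContinuousOn f (pset p l) → pint p l f = G (pend p l) - G p
  | p, [], _, _ => by simp [pint, pend]
  | p, q :: l, h, hf => by
    have h1 := seg_ftc (fun z hz => h z (Or.inl hz)) (hf.mono subset_union_left)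
    have h2 := pint_ftc q l (fun z hz => h z (Or.inr hz)) (hf.mono subset_union_right)
    simp only [pint, pend]
    rw [h1, h2]; ring

lemma pint_add {f g : ℂ → ℂ} : ∀ (p : ℂ) (l : List ℂ), ContinuousOn f (pset p l) →
    ContinuousOn g (pset p l) → pint p l (fun z => f z + g z) = pint p l f + pint p l g
  | p, [], _, _ => by simp [pint]
  | p, q :: l, hf, hg => by
    simp only [pint]
    rw [seg_add (hf.mono subset_union_left) (hg.mono subset_union_left),
      pint_add q l (hf.mono subset_union_right) (hg.mono subset_union_right)]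
    ring

lemma pint_smul (c : ℂ) (f : ℂ → ℂ) : ∀ (p : ℂ) (l : List ℂ),
    pint p l (fun z => c * f z) = c * pint p l f
  | p, [] => by simp [pint]
  | p, q :: l => by
    simp only [pint]
    rw [seg_smul, pint_smul c f q l]; ring

lemma pint_congr {f g : ℂ → ℂ} : ∀ (p : ℂ) (l : List ℂ), EqOn f g (pset p l) →
    pint p l f = pint p l g
  | p, [], _ => rfl
  | p, q :: l, h => by
    simp only [pint]
    rw [seg_congr (h.mono subset_union_left), pint_congr q l (h.mono subset_union_right)]

lemma norm_pint_le {f : ℂ → ℂ} {M : ℝ} : ∀ (p : ℂ) (l : List ℂ), (∀ z ∈ pset p l, ‖f z‖ ≤ M) →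
    ‖pint p l f‖ ≤ plen p l * M
  | p, [], _ => by simp [pint, plen]
  | p, q :: l, h => by
    have h1 := norm_seg_le (fun z hz => h z (Or.inl hz))
    have h2 := norm_pint_le q l (fun z hz => h z (Or.inr hz))
    simp only [pint, plen]
    calc _ ≤ _ := norm_add_le _ _
      _ ≤ _ := by rw [add_mul]; exact add_le_add h1 h2

lemma plen_nonneg : ∀ (p : ℂ) (l : List ℂ), 0 ≤ plen p l
  | _, [] => le_rfl
  | _, q :: l => add_nonneg (norm_nonneg _) (plen_nonneg q l)

lemma pint_append {f : ℂ → ℂ} : ∀ (p : ℂ) (l l' : List ℂ),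
    pint p (l ++ l') f = pint p l f + pint (pend p l) l' f
  | p, [], l' => by simp [pint, pend]
  | p, q :: l, l' => by
    simp only [List.cons_append, pint, pend]
    rw [pint_append q l l']; ring

lemma pend_append : ∀ (p : ℂ) (l l' : List ℂ), pend p (l ++ l') = pend (pend p l) l'
  | p, [], l' => rfl
  | p, q :: l, l' => by simp only [List.cons_append, pend]; exact pend_append q l l'

lemma plen_append : ∀ (p : ℂ) (l l' : List ℂ), plen p (l ++ l') = plen p l + plen (pend p l) l'
  | p, [], l' => by simp [plen, pend]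
  | p, q :: l, l' => by
    simp only [List.cons_append, plen, pend]
    rw [plen_append q l l']; ring

lemma pset_append : ∀ (p : ℂ) (l l' : List ℂ), pset p (l ++ l') = pset p l ∪ pset (pend p l) l'
  | p, [], l' => by
    simp only [List.nil_append, pset, pend]
    exact (union_eq_self_of_subset_left (singleton_subset_iff.mpr (start_mem p l'))).symm
  | p, q :: l, l' => by
    simp only [List.cons_append, pset, pend]
    rw [pset_append q l l', union_assoc]

/-! ### primitives -/

lemma pint_holo {U : Set ℂ} (hU : IsOpen U) (hc : Convex ℝ U) {p : ℂ} {l : List ℂ}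
    (hs : pset p l ⊆ U) (hcl : pend p l = p) {f : ℂ → ℂ} (hf : DifferentiableOn ℂ f U) :
    pint p l f = 0 := by
  obtain ⟨G, hG⟩ := hc.exists_forall_hasDerivWithinAt hf
  rw [pint_ftc (G := G) p l (fun z hz => (hG z (hs hz)).hasDerivAt (hU.mem_nhds (hs hz)))
    (hf.continuousOn.mono hs), hcl, sub_self]

lemma sub_ne {P : Set ℂ} {s : ℂ} (hs : s ∉ P) : ∀ z ∈ P, z - s ≠ 0 :=
  fun z hz h => hs (by rw [← sub_eq_zero.1 h]; exact hz)

lemma pint_pow {p : ℂ} {l : List ℂ} (hcl : pend p l = p) {s : ℂ} (hs : s ∉ pset p l) (m : ℕ) :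
    pint p l (fun z => ((z - s) ^ (m + 2))⁻¹) = 0 := by
  have hne := sub_ne hs
  have key : pint p l (fun z => ((z - s) ^ (m + 2))⁻¹) = _ := pint_ftc
    (G := fun z => -((m : ℂ) + 1)⁻¹ * (z - s) ^ (-((m : ℤ) + 1))) p l ?_ ?_
  · rw [key, hcl, sub_self]
  · intro z hz
    have h1 : HasDerivAt (fun z : ℂ => z - s) 1 z := (hasDerivAt_id z).sub_const s
    have h2 := (hasDerivAt_zpow (-((m : ℤ) + 1)) (z - s) (Or.inl (hne z hz))).comp z h1
    have h3 := h2.const_mul (-((m : ℂ) + 1)⁻¹)
    refine h3.congr_deriv ?_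
    have hm : (m : ℂ) + 1 ≠ 0 := by exact_mod_cast Nat.succ_ne_zero m
    have h4 : (z - s) ^ (-((m : ℤ) + 1) - 1) = ((z - s) ^ (m + 2))⁻¹ := by
      rw [← zpow_natCast, ← zpow_neg, show -((m : ℤ) + 1) - 1 = -((m + 2 : ℕ) : ℤ) by
        push_cast; ring]
    rw [h4]
    push_cast
    field_simp
  · exact ContinuousOn.inv₀ (by fun_prop) (fun z hz => pow_ne_zero _ (hne z hz))

/-- upper half: `∫ du/(u-z) = log (-i (B-z)) - log (-i (A-z))` -/
lemma pint_inv_upper {p : ℂ} {l : List ℂ} {z : ℝ} (hz : (z : ℂ) ∉ pset p l)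
    (him : ∀ u ∈ pset p l, 0 ≤ u.im) :
    pint p l (fun u => (u - z)⁻¹) =
      Complex.log (-I * (pend p l - z)) - Complex.log (-I * (p - z)) := by
  have hne := sub_ne hz
  refine pint_ftc (G := fun u => Complex.log (-I * (u - z))) p l (fun u hu => ?_)
    (ContinuousOn.inv₀ (by fun_prop) hne)
  have hsl : -I * (u - z) ∈ slitPlane := by
    have h0 := hne u hu
    have h1 := him u hu
    rw [mem_slitPlane_iff]
    simp only [neg_mul, neg_re, mul_re, I_re, zero_mul, sub_re, ofReal_re, I_im, sub_im, ofReal_im,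
      sub_zero, one_mul, zero_sub, neg_neg, neg_im, mul_im, zero_add]
    rcases h1.lt_or_eq with h | h
    · exact Or.inl h
    · right
      intro h2
      apply h0
      apply Complex.ext
      · simp; linarith
      · simp [← h]
  have h1 : HasDerivAt (fun u : ℂ => -I * (u - z)) (-I) u := by
    simpa using ((hasDerivAt_id u).sub_const (z : ℂ)).const_mul (-I)
  have h2 := h1.clog hsl
  refine h2.congr_deriv ?_
  have h0 := hne u hu
  field_simp

/-- lower half -/
lemma pint_inv_lower {p : ℂ} {l : List ℂ} {z : ℝ} (hz : (z : ℂ) ∉ pset p l)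
    (him : ∀ u ∈ pset p l, u.im ≤ 0) :
    pint p l (fun u => (u - z)⁻¹) =
      Complex.log (I * (pend p l - z)) - Complex.log (I * (p - z)) := by
  have hne := sub_ne hz
  refine pint_ftc (G := fun u => Complex.log (I * (u - z))) p l (fun u hu => ?_)
    (ContinuousOn.inv₀ (by fun_prop) hne)
  have hsl : I * (u - z) ∈ slitPlane := by
    have h0 := hne u hu
    have h1 := him u hu
    rw [mem_slitPlane_iff]
    simp only [mul_re, I_re, zero_mul, sub_re, ofReal_re, I_im, sub_im, ofReal_im,
      sub_zero, one_mul, zero_sub, mul_im, zero_add]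
    rcases h1.lt_or_eq with h | h
    · exact Or.inl (by linarith)
    · right
      intro h2
      apply h0
      apply Complex.ext
      · simpa using h2
      · simp [h]
  have h1 : HasDerivAt (fun u : ℂ => I * (u - z)) I u := by
    simpa using ((hasDerivAt_id u).sub_const (z : ℂ)).const_mul I
  have h2 := h1.clog hsl
  refine h2.congr_deriv ?_
  have h0 := hne u hu
  field_simp

lemma log_I_mul_pos {r : ℝ} (hr : 0 < r) : Complex.log (I * r) = Real.log r + π / 2 * I := by
  rw [mul_comm, Complex.log_ofReal_mul hr I_ne_zero, Complex.log_I]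

lemma log_negI_mul_pos {r : ℝ} (hr : 0 < r) :
    Complex.log (-I * r) = Real.log r - π / 2 * I := by
  rw [mul_comm, Complex.log_ofReal_mul hr (neg_ne_zero.mpr I_ne_zero), Complex.log_neg_I]
  ring

/-- the winding number of a loop made of an upper and a lower half -/
theorem pint_inv {A B z : ℝ} {l l' : List ℂ} (hAB : B < z) (hzA : z < A)
    (h1 : pend A l = B) (h2 : pend B l' = A)
    (hz : (z : ℂ) ∉ pset A l) (hz' : (z : ℂ) ∉ pset B l')
    (hu : ∀ u ∈ pset A l, 0 ≤ u.im) (hl : ∀ u ∈ pset B l', u.im ≤ 0) :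
    pint A (l ++ l') (fun u => (u - z)⁻¹) = 2 * π * I := by
  rw [pint_append, h1, pint_inv_upper hz hu, pint_inv_lower hz' hl, h1, h2]
  have e1 : -I * ((B : ℂ) - z) = I * ((z - B : ℝ) : ℂ) := by push_cast; ring
  have e2 : -I * ((A : ℂ) - z) = -I * ((A - z : ℝ) : ℂ) := by push_cast; ring
  have e3 : I * ((A : ℂ) - z) = I * ((A - z : ℝ) : ℂ) := by push_cast; ring
  have e4 : I * ((B : ℂ) - z) = -I * ((z - B : ℝ) : ℂ) := by push_cast; ring
  rw [e1, e2, e3, e4, log_I_mul_pos (by linarith), log_negI_mul_pos (by linarith),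
    log_I_mul_pos (by linarith), log_negI_mul_pos (by linarith)]
  ring

end

end Crest.Agent.R006.P3Loop
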