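import Crest.Agent.R006.P3_PotW_943

/-! Row 6, block P3 (helper943): symmetry of the mutual energy of two segments (Fubini) and the
closed form of the self energy. -/

set_option autoImplicit false

namespace Crest.Agent.R006.Potx943

open MeasureTheory Set

theorem Iseg_lower {a d s : ℂ} (hd : d ≠ 0) {m : ℝ} (hm : 0 < m) :
    m * (Real.log (m * ‖d‖) - 2) ≤ Iseg a d m s := by
  have hmc : (m : ℂ) ≠ 0 := by exact_mod_cast hm.ne'
  have h1 : Iseg a d m s = m * Iseg a (m * d) 1 s := by
    unfold Iseg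
    have h2 := intervalIntegral.integral_comp_mul_left (a := 0) (b := 1)
      (fun t : ℝ => Real.log ‖s - (a + (t : ℂ) * d)‖) hm.ne'
    simp only [mul_zero, mul_one, smul_eq_mul] at h2
    have h3 : ∫ t in (0 : ℝ)..1, Real.log ‖s - (a + (t : ℂ) * (m * d))‖
        = ∫ t in (0 : ℝ)..1, Real.log ‖s - (a + ((m * t : ℝ) : ℂ) * d)‖ := by
      apply intervalIntegral.integral_congr
      intro t _
      simp only
      congr 2
      push_cast; ring
    rw [h3, h2, ← mul_assoc, mul_inv_cancel₀ hm.ne', one_mul]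
  rw [h1, Iseg_eq (mul_ne_zero hmc hd)]
  have h4 := seg_eq_sum ((s - a) / (m * d)) 1
  rw [Finset.sum_range_one, Nat.cast_one] at h4
  have h5 := cell_ge ((s - a) / (m * d) - (((0 : ℕ) : ℂ) + 1 / 2))
  rw [h4, norm_mul, Complex.norm_real, Real.norm_eq_abs, abs_of_pos hm, one_mul]
  apply mul_le_mul_of_nonneg_left _ hm.le
  linarith

theorem abs_log_le_two_mul {x M : ℝ} (hx : 0 ≤ x) (hxM : x ≤ M) (hM : 1 ≤ M) :
    |Real.log x| ≤ 2 * Real.log M - Real.log x := by
  have hlM := Real.log_nonneg hM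
  rcases eq_or_lt_of_le hx with h | h
  · rw [← h]; simp [hlM]
  have h1 := Real.log_le_log h hxM
  rw [abs_le]
  constructor <;> linarith

theorem mutE_comm {a d a' d' : ℂ} {m m' : ℝ} (hm : 0 ≤ m) (hm' : 0 ≤ m') (hd' : d' ≠ 0) :
    mutE a d m a' d' m' = mutE a' d' m' a d m := by
  rcases eq_or_lt_of_le hm' with h0 | hm'0
  · rw [← h0]
    unfold mutE Iseg
    simp
  set f : ℝ → ℝ → ℝ := fun t t' => Real.log ‖(a + t * d) - (a' + t' * d')‖ with hf
  set μ := volume.restrict (Ioc (0 : ℝ) m) with hμ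
  set ν := volume.restrict (Ioc (0 : ℝ) m') with hν
  have hmeas : Measurable (Function.uncurry f) := by
    have hc : Continuous fun p : ℝ × ℝ => ‖(a + (p.1 : ℂ) * d) - (a' + (p.2 : ℂ) * d')‖ := by fun_prop
    exact Real.measurable_log.comp hc.measurable
  have hasm : AEStronglyMeasurable (Function.uncurry f) (μ.prod ν) := hmeas.aestronglyMeasurable
  set M : ℝ := max 1 (‖a‖ + m * ‖d‖ + (‖a'‖ + m' * ‖d'‖)) with hM
  have hM1 : 1 ≤ M := le_max_left _ _
  have hb : ∀ t ∈ Ioc (0 : ℝ) m, ∀ t' ∈ Ioc (0 : ℝ) m', ‖(a + t * d) - (a' + t' * d')‖ ≤ M := by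
    intro t ht t' ht'
    have h1 : ‖a + (t : ℂ) * d‖ ≤ ‖a‖ + m * ‖d‖ := by
      refine (norm_add_le _ _).trans ?_
      rw [norm_mul, Complex.norm_real, Real.norm_eq_abs, abs_of_pos ht.1]
      gcongr
      exact ht.2
    have h2 : ‖a' + (t' : ℂ) * d'‖ ≤ ‖a'‖ + m' * ‖d'‖ := by
      refine (norm_add_le _ _).trans ?_
      rw [norm_mul, Complex.norm_real, Real.norm_eq_abs, abs_of_pos ht'.1]
      gcongr
      exact ht'.2
    exact ((norm_sub_le _ _).trans (add_le_add h1 h2)).trans (le_max_right _ _)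
  have hint1 : ∀ t : ℝ, Integrable (f t) ν := by
    intro t
    have h1 := intervalIntegrable_Iseg (a := a') (d := d') (s := a + t * d) 0 m'
    rw [intervalIntegrable_iff_integrableOn_Ioc_of_le hm'] at h1
    exact h1
  have hI : ∀ t : ℝ, ∫ t', f t t' ∂ν = Iseg a' d' m' (a + t * d) := by
    intro t
    unfold Iseg
    rw [intervalIntegral.integral_of_le hm']
  set K : ℝ := 2 * m' * Real.log M - m' * (Real.log (m' * ‖d'‖) - 2) with hK
  have hbound : ∀ t ∈ Ioc (0 : ℝ) m, ∫ t', ‖f t t'‖ ∂ν ≤ K := by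
    intro t ht
    have h1 : ∫ t', ‖f t t'‖ ∂ν ≤ ∫ t', (2 * Real.log M - f t t') ∂ν := by
      apply integral_mono_ae (hint1 t).norm ((integrable_const _).sub (hint1 t))
      rw [hν]
      filter_upwards [ae_restrict_mem measurableSet_Ioc] with t' ht'
      rw [Real.norm_eq_abs]
      exact abs_log_le_two_mul (norm_nonneg _) (hb t ht t' ht') hM1
    have h2 : ∫ t', (2 * Real.log M - f t t') ∂ν = 2 * m' * Real.log M - Iseg a' d' m' (a + t * d) := by
      rw [integral_sub (integrable_const _) (hint1 t), hI t]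
      congr 1
      rw [integral_const, smul_eq_mul, hν]
      simp [Measure.real, hm']
      ring
    rw [h2] at h1
    have h3 := Iseg_lower (a := a') (s := a + t * d) hd' hm'0
    rw [hK]; linarith
  have hint : Integrable (Function.uncurry f) (μ.prod ν) := by
    rw [integrable_prod_iff hasm]
    refine ⟨Filter.Eventually.of_forall fun t => hint1 t, ?_⟩
    apply Integrable.of_bound hasm.norm.integral_prod_right' K
    rw [hμ]
    filter_upwards [ae_restrict_mem measurableSet_Ioc] with t ht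
    rw [Real.norm_eq_abs, abs_of_nonneg (integral_nonneg fun _ => norm_nonneg _)]
    exact hbound t ht
  have hswap := integral_integral_swap hint
  have e1 : mutE a d m a' d' m' = ∫ t, ∫ t', f t t' ∂ν ∂μ := by
    unfold mutE
    rw [intervalIntegral.integral_of_le hm]
    apply integral_congr_ae
    filter_upwards with t
    exact (hI t).symm
  have e2 : mutE a' d' m' a d m = ∫ t', ∫ t, f t t' ∂μ ∂ν := by
    unfold mutE
    rw [intervalIntegral.integral_of_le hm']
    apply integral_congr_ae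
    filter_upwards with t'
    unfold Iseg
    rw [intervalIntegral.integral_of_le hm]
    apply integral_congr_ae
    filter_upwards with t
    simp only [hf]
    rw [norm_sub_rev]
  rw [e1, e2, hswap]

theorem mutE_self {a d : ℂ} (hd : d ≠ 0) (m : ℝ) :
    mutE a d m a d m = m ^ 2 * Real.log ‖d‖ + m ^ 2 * Real.log m - 3 / 2 * m ^ 2 := by
  have h := mut_closed_real (a := a) (d := d) (a' := a) (d' := d) (x0 := 0) (ρ := 1) one_ne_zero hd
    (m := m) (m' := m) (by simp) (by simp [hd])
  rw [h]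
  unfold G2r
  simp
  ring

end Crest.Agent.R006.Potx943
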