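import Crest.Agent.R006.P3_Bridge_257
import Crest.Agent.R006.P3_Disc_390

/-!
# Row 6, block P3: `NSn = |ω_S|`, `rhon = |ρ|` (helper143)

* `NSn_eq`  : `NSn S u c s = ‖(om S u c).eval s‖`  (for `S.Good`);
* `rhon_eq` : `rhon S u s = ‖(rhoC S u).eval s‖`.
-/

set_option autoImplicit false

namespace Crest.Agent.R006.P3.NSrho143

open Polynomial Crest.Agent.R006.D Crest.Agent.R006.NV Crest.Agent.R006.Bord

variable {S : Shape}

/-- `|N_S| = |ω_S|` -/
theorem NSn_eq (hS : S.Good) (u c : ℕ) (s : ℂ) : NSn S u c s = ‖(om S u c).eval s‖ := by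
  classical
  have h1 : ‖(om S u c).eval s‖ =
      ∏ z ∈ Bord.sites S u c, ‖s - ((z.val : ℚ) : ℂ)‖ ^ (S.mult u c z) := by
    rw [om, Lam.NS, eval_prod, norm_prod,
      ← Finset.prod_coe_sort (Bord.sites S u c) (fun z => ‖s - ((z.val : ℚ) : ℂ)‖ ^ (S.mult u c z))]
    refine Finset.prod_congr rfl fun l _ => ?_
    rw [eval_pow, eval_sub, eval_X, eval_C, norm_pow]
    rfl
  have h0 : ∀ z : Site, S.mult u c z = 0 → ‖s - ((z.val : ℚ) : ℂ)‖ ^ (S.mult u c z) = 1 := by
    intro z hz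
    rw [hz, pow_zero]
  rw [h1, NSn]
  have e1 : ∏ z ∈ Bordx929.sites S u c, ‖s - ((z.val : ℚ) : ℂ)‖ ^ (S.mult u c z) =
      ∏ z ∈ Bordx929.sites S u c ∪ Bord.sites S u c,
        ‖s - ((z.val : ℚ) : ℂ)‖ ^ (S.mult u c z) :=
    Finset.prod_subset Finset.subset_union_left fun z _ hz =>
      h0 z (by by_contra h; exact hz (Bordx929.mem_sites u c hS h))
  have e2 : ∏ z ∈ Bord.sites S u c, ‖s - ((z.val : ℚ) : ℂ)‖ ^ (S.mult u c z) =
      ∏ z ∈ Bordx929.sites S u c ∪ Bord.sites S u c,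
        ‖s - ((z.val : ℚ) : ℂ)‖ ^ (S.mult u c z) :=
    Finset.prod_subset Finset.subset_union_right fun z _ hz =>
      h0 z (by by_contra h; exact hz (mem_sites_of_mult S u c h))
  rw [e1, e2]

/-- value of a falling factorial polynomial over `ℂ` -/
lemma eval_descP_143 (n : ℕ) (s : ℂ) :
    ((descPochhammer ℚ n).map (algebraMap ℚ ℂ)).eval s = ∏ j ∈ Finset.range n, (s - j) := by
  rw [descPochhammer_map, descPochhammer_eval_eq_prod_range]

/-- value of a shifted falling factorial polynomial over `ℂ` -/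
lemma eval_descP_comp_143 (n : ℕ) (a : ℚ) (s : ℂ) :
    (((descPochhammer ℚ n).comp (X + C ((n : ℕ) - 1 + a : ℚ))).map (algebraMap ℚ ℂ)).eval s =
      ∏ m ∈ Finset.range n, (s + ((m : ℂ) + (a : ℂ))) := by
  rw [Polynomial.map_comp, eval_comp, eval_descP_143, ← Finset.prod_range_reflect]
  refine Finset.prod_congr rfl fun j hj => ?_
  rw [Finset.mem_range] at hj
  simp only [Polynomial.map_add, map_X, map_C, eval_add, eval_X, eval_C]
  have h : ((n - 1 - j : ℕ) : ℂ) = n - 1 - j := by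
    rw [Nat.cast_sub (by omega), Nat.cast_sub (by omega)]
    push_cast
    ring
  rw [h]
  simp only [eq_ratCast]
  push_cast
  ring

/-- the two forms of the gauge agree in modulus -/
theorem rhon_eq (S : Shape) (u : ℕ) (s : ℂ) : rhon S u s = ‖(rhoC S u).eval s‖ := by
  have hi : ((S.i1 * u : ℕ) - 1 / 2 : ℚ) = ((S.i1 * u : ℕ) : ℚ) - 1 + 1 / 2 := by ring
  have hr : ((S.r1 * u : ℕ) : ℚ) = ((S.r1 * u : ℕ) : ℚ) - 1 + 1 := by ring
  rw [rhoC, Bord.rho, Polynomial.map_mul, Polynomial.map_mul, Polynomial.map_mul, eval_mul,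
    eval_mul, eval_mul, eval_descP_143, eval_descP_143, hi, eval_descP_comp_143, hr,
    eval_descP_comp_143, norm_mul, norm_mul, norm_mul, norm_prod, norm_prod, norm_prod, norm_prod,
    rhon]
  push_cast
  ring

end Crest.Agent.R006.P3.NSrho143
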