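import Crest.Agent.R006.P3_Point_650
import Crest.Agent.R006.P3_Leaf_390

set_option autoImplicit false

/-!
# Row 6, block P3: the leaves NODES, RHO, TAIL of `P3_Leaf_390` (helper650)

Units `v`, `u = K v`, errors `C * er v s`, `er v s = 1 + log (v + ‖s‖)`.
* `nodesGe`, `rhoLe`, `tailR`, `tailQ` : literally the leaves of `P3_Leaf_390`;
* `wtR_le`, `wtQ_le` : the weights of `P3_Disc_390` against the potentials at `s / v`.
-/

namespace Crest.Agent.R006.Cert650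

open MeasureTheory Crest.Agent.R006.D Crest.Agent.R006.Cert Crest.Agent.R006.NumSegx464 Crest.Agent.R006.Potx943
  Crest.Agent.R006.TailSlotx650 Crest.Agent.R006.ArchSx650 Crest.Agent.R006.VVx929

lemma er_K {K v : ℕ} (hK : 0 < K) (hv : 1 ≤ v) (s : ℂ) :
    er (K * v) s ≤ (1 + Real.log K) * er v s := by
  have h1 : (1 : ℝ) ≤ v := by exact_mod_cast hv
  have hK1 : (1 : ℝ) ≤ K := by exact_mod_cast hK
  have hs := norm_nonneg s
  have h2 : Real.log (((K * v : ℕ) : ℝ) + ‖s‖) ≤ Real.log ((K : ℝ) * (v + ‖s‖)) := by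
    apply Real.log_le_log
    · push_cast; nlinarith
    · push_cast; nlinarith
  rw [Real.log_mul (by positivity) (by positivity)] at h2
  have h3 := Real.log_nonneg hK1
  have h4 := Real.log_nonneg (show (1 : ℝ) ≤ v + ‖s‖ by linarith)
  unfold er
  nlinarith

/-- mass of the gauge -/
def mrho (S : Shape) : ℕ := S.a1 + S.a2 + S.i1 + S.r1

lemma scale_pot {K v : ℕ} (hK : 0 < K) (hv : 1 ≤ v) (s : ℂ) :
    (K : ℂ) * (s / ((K * v : ℕ) : ℂ)) = s / v := by
  have h1 : (K : ℂ) ≠ 0 := by exact_mod_cast hK.ne'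
  have h2 : (v : ℂ) ≠ 0 := by exact_mod_cast (by omega : v ≠ 0)
  push_cast
  field_simp

theorem NSn_ge' {S : Shape} (hS : S.Good) {K : ℕ} (hK : 0 < K) (c : ℕ) :
    ∃ C : ℝ, 0 ≤ C ∧ ∀ v : ℕ, 1 ≤ v → ∀ s : ℂ, Tail516.Far s →
      Real.exp (v * potL (LS S K) (s / v) + (K * S.rows : ℝ) * (v * Real.log v) - C * er v s) ≤
        P3.NSn S (K * v) c s := by
  obtain ⟨C, hC, h⟩ := NSn_ge hS c
  have hlK : 0 ≤ Real.log K := Real.log_nonneg (by exact_mod_cast hK)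
  refine ⟨C * (1 + Real.log K), by positivity, fun v hv s hs => ?_⟩
  have hv0 : (0 : ℝ) < v := by exact_mod_cast hv
  have hK0 : (0 : ℝ) < K := by exact_mod_cast hK
  refine le_trans (Real.exp_le_exp.mpr ?_) (h (K * v) (Nat.mul_pos hK hv) s (far_apart hs S _ c))
  rw [← scale_pot hK hv s, potL_LS_eq S hK]
  have h1 := mul_le_mul_of_nonneg_left (er_K hK hv s) hC
  have h2 : Real.log ((K * v : ℕ) : ℝ) = Real.log K + Real.log v := by
    push_cast; exact Real.log_mul hK0.ne' hv0.ne'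
  rw [h2]
  push_cast at h1 ⊢
  linarith

theorem rhon_le' (S : Shape) {K : ℕ} (hK : 0 < K) :
    ∃ C : ℝ, 0 ≤ C ∧ ∀ v : ℕ, 1 ≤ v → ∀ s : ℂ,
      P3.rhon S (K * v) s ≤
        Real.exp (v * potL (LG S K) (s / v) + (K * mrho S : ℝ) * (v * Real.log v) + C * er v s) := by
  obtain ⟨C, hC, h⟩ := rhon_le S
  have hlK : 0 ≤ Real.log K := Real.log_nonneg (by exact_mod_cast hK)
  refine ⟨C * (1 + Real.log K), by positivity, fun v hv s => ?_⟩
  have hv0 : (0 : ℝ) < v := by exact_mod_cast hv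
  have hK0 : (0 : ℝ) < K := by exact_mod_cast hK
  refine (h (K * v) (Nat.mul_pos hK hv) s).trans (Real.exp_le_exp.mpr ?_)
  rw [← scale_pot hK hv s, potL_LG_eq S hK]
  have h1 := mul_le_mul_of_nonneg_left (er_K hK hv s) hC
  have h2 : Real.log ((K * v : ℕ) : ℝ) = Real.log K + Real.log v := by
    push_cast; exact Real.log_mul hK0.ne' hv0.ne'
  rw [h2, mrho]
  push_cast at h1 ⊢
  linarith

theorem wtR_le {S : Shape} (hS : S.Good) {K : ℕ} (hK : 0 < K) (c : ℕ) :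
    ∃ C : ℝ, 0 ≤ C ∧ ∀ v : ℕ, 1 ≤ v → ∀ s : ℂ, Tail516.Far s →
      P3.wtR S (K * v) c s ≤
        Real.exp (v * (potL (LG S K) (s / v) - potL (LS S K) (s / v)) +
          (K * mrho S - K * S.rows : ℝ) * (v * Real.log v) +
          (Real.log 8 * s.re - Real.pi * |s.im|) + C * er v s) := by
  obtain ⟨C1, hC1, h1⟩ := NSn_ge' hS hK c
  obtain ⟨C2, hC2, h2⟩ := rhon_le' S hK
  refine ⟨C1 + C2, by positivity, fun v hv s hs => ?_⟩
  have hN := h1 v hv s hs
  have hR := h2 v hv s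
  have hN0 : 0 < P3.NSn S (K * v) c s := (Real.exp_pos _).trans_le hN
  unfold P3.wtR
  rw [div_le_iff₀ hN0]
  refine (mul_le_mul_of_nonneg_right hR (Real.exp_pos _).le).trans ?_
  refine le_trans ?_ (mul_le_mul_of_nonneg_left hN (Real.exp_pos _).le)
  rw [← Real.exp_add, ← Real.exp_add]
  apply Real.exp_le_exp.mpr
  linarith

theorem wtQ_le {S : Shape} (hS : S.Good) {K : ℕ} (hK : 0 < K) (c : ℕ) :
    ∃ C : ℝ, 0 ≤ C ∧ ∀ v : ℕ, 1 ≤ v → ∀ s : ℂ, Tail516.Far s →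
      P3.wtQ S (K * v) c s ≤
        Real.exp (v * (-potL (LS S K) (s / v)) - (K * S.rows : ℝ) * (v * Real.log v) -
          2 * Real.pi * |s.im| + C * er v s) := by
  obtain ⟨C1, hC1, h1⟩ := NSn_ge' hS hK c
  refine ⟨C1, by positivity, fun v hv s hs => ?_⟩
  have hN := h1 v hv s hs
  have hN0 : 0 < P3.NSn S (K * v) c s := (Real.exp_pos _).trans_le hN
  unfold P3.wtQ
  rw [div_le_iff₀ hN0]
  refine le_trans ?_ (mul_le_mul_of_nonneg_left hN (Real.exp_pos _).le)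
  rw [← Real.exp_add]
  apply Real.exp_le_exp.mpr
  linarith

/-! ### the leaves of `P3_Leaf_390` -/

/-- LEAF NODES of `P3_Leaf_390` -/
theorem nodesGe {S : Shape} (hS : S.Good) {K : ℕ} (hK : 0 < K) (c : ℕ) : P3.NodesGe S K c := by
  obtain ⟨C, hC, h⟩ := NSn_ge' hS hK c
  refine ⟨C, hC, fun v hv s hs => ?_⟩
  refine le_trans (Real.exp_le_exp.mpr (le_of_eq ?_)) (h v hv s hs)
  rw [P3.er, er]
  push_cast
  ring

/-- LEAF RHO of `P3_Leaf_390` -/
theorem rhoLe (S : Shape) {K : ℕ} (hK : 0 < K) : P3.RhoLe S K := by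
  obtain ⟨C, hC, h⟩ := rhon_le' S hK
  refine ⟨C, hC, fun v hv s => ?_⟩
  refine (h v hv s).trans (Real.exp_le_exp.mpr (le_of_eq ?_))
  rw [P3.er, er, mrho]
  push_cast
  ring

/-- LEAF TAIL of `P3_Leaf_390`, `R`-side -/
theorem tailR {S : Shape} {d : Data} (h : Cert.wf S d = true) (l : ℝ) :
    P3.Tail (fun T => PhiR S d (ray S d T)) l := by
  obtain ⟨T1, h1, h2⟩ := tail_R h l
  refine ⟨T1, by linarith, fun T hT => h2 T hT _ (by simp [ray]) ?_⟩
  simp only [ray]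
  exact abs_of_nonneg (by linarith)

/-- LEAF TAIL of `P3_Leaf_390`, `Q`-side -/
theorem tailQ {S : Shape} {d : Data} (h : Cert.wf S d = true) (l : ℝ) :
    P3.Tail (fun T => PhiQ S d (ray S d T)) l := by
  obtain ⟨T1, h1, h2⟩ := tail_Q h l
  refine ⟨T1, by linarith, fun T hT => h2 T hT _ (by simp [ray]) ?_⟩
  simp only [ray]
  exact abs_of_nonneg (by linarith)

end Crest.Agent.R006.Cert650
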