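import Crest.Agent.R006.Wedge3_516
import Crest.Agent.R006.PsiJ2_576

/-!
Row 6 (Catalan), block P3 (helper516).  Circle sums to the left of the apex `-(k0+1/4)` equal two
ray integrals, for densities `𝒥 z * (P z / N z)`, `N` with roots in `(1/2)ℤ`.
Part 1: polynomial bounds, distances, pole structure.
-/

set_option autoImplicit false

open Complex MeasureTheory Set Filter Topology intervalIntegral Metric Function Polynomial
open scoped Real Interval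

noncomputable section

namespace Crest.Agent.R006.Tail516

open Crest.Agent.R006.Wedge516

/-! ### polynomial bounds -/

lemma poly_upper (P : ℂ[X]) : ∃ C : ℝ, 0 < C ∧ ∀ z : ℂ,
    ‖P.eval z‖ ≤ C * (1 + ‖z‖) ^ P.natDegree := by
  refine ⟨∑ i ∈ Finset.range (P.natDegree + 1), ‖P.coeff i‖ + 1, by positivity, fun z => ?_⟩
  rw [Polynomial.eval_eq_sum_range]
  have h1 : (1 : ℝ) ≤ 1 + ‖z‖ := by linarith [norm_nonneg z]
  calc ‖∑ i ∈ Finset.range (P.natDegree + 1), P.coeff i * z ^ i‖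
      ≤ ∑ i ∈ Finset.range (P.natDegree + 1), ‖P.coeff i * z ^ i‖ := norm_sum_le _ _
    _ ≤ ∑ i ∈ Finset.range (P.natDegree + 1), ‖P.coeff i‖ * (1 + ‖z‖) ^ P.natDegree := by
        refine Finset.sum_le_sum fun i hi => ?_
        rw [norm_mul, norm_pow]
        refine mul_le_mul_of_nonneg_left ?_ (norm_nonneg _)
        calc ‖z‖ ^ i ≤ (1 + ‖z‖) ^ i := by gcongr; linarith
          _ ≤ (1 + ‖z‖) ^ P.natDegree :=
            pow_le_pow_right₀ h1 (Nat.lt_succ_iff.1 (Finset.mem_range.1 hi))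
    _ = (∑ i ∈ Finset.range (P.natDegree + 1), ‖P.coeff i‖) * (1 + ‖z‖) ^ P.natDegree := by
        rw [Finset.sum_mul]
    _ ≤ _ := by
        gcongr
        linarith

lemma multiset_lower (M : Multiset ℂ) : ∃ c : ℝ, 0 < c ∧ ∀ z : ℂ, (∀ x ∈ M, 1 / 8 ≤ ‖z - x‖) →
    c * (1 + ‖z‖) ^ (Multiset.card M) ≤ ‖(M.map fun x => z - x).prod‖ := by
  induction M using Multiset.induction_on with
  | empty => exact ⟨1, one_pos, fun z _ => by simp⟩
  | cons a M ih =>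
    obtain ⟨c, hc, h⟩ := ih
    have ha : 0 < 8 * (1 + ‖a‖) + 1 := by positivity
    refine ⟨c / (8 * (1 + ‖a‖) + 1), by positivity, fun z hz => ?_⟩
    have h1 := h z fun x hx => hz x (Multiset.mem_cons_of_mem hx)
    have h2 := hz a (Multiset.mem_cons_self _ _)
    have h3 : (1 + ‖z‖) / (8 * (1 + ‖a‖) + 1) ≤ ‖z - a‖ := by
      rw [div_le_iff₀ ha]
      have h4 : ‖z‖ ≤ ‖z - a‖ + ‖a‖ := by
        have := norm_add_le (z - a) a
        simpa using this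
      nlinarith [norm_nonneg a, norm_nonneg (z - a)]
    rw [Multiset.card_cons, Multiset.map_cons, Multiset.prod_cons, norm_mul]
    calc c / (8 * (1 + ‖a‖) + 1) * (1 + ‖z‖) ^ (Multiset.card M + 1)
        = ((1 + ‖z‖) / (8 * (1 + ‖a‖) + 1)) * (c * (1 + ‖z‖) ^ (Multiset.card M)) := by
          rw [pow_succ]; ring
      _ ≤ ‖z - a‖ * ‖(M.map fun x => z - x).prod‖ := by
          refine mul_le_mul h3 h1 (by positivity) (norm_nonneg _)

lemma poly_lower (N : ℂ[X]) (hN : N ≠ 0) : ∃ c : ℝ, 0 < c ∧ ∀ z : ℂ,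
    (∀ x ∈ N.roots, 1 / 8 ≤ ‖z - x‖) → c * (1 + ‖z‖) ^ N.natDegree ≤ ‖N.eval z‖ := by
  obtain ⟨c, hc, h⟩ := multiset_lower N.roots
  have hs : N.Splits := IsAlgClosed.splits N
  have hcard : Multiset.card N.roots = N.natDegree := hs.natDegree_eq_card_roots.symm
  refine ⟨‖N.leadingCoeff‖ * c, mul_pos (norm_pos_iff.2 (leadingCoeff_ne_zero.2 hN)) hc,
    fun z hz => ?_⟩
  have h1 := h z hz
  rw [hcard] at h1
  have h2 : N.eval z = N.leadingCoeff * (N.roots.map fun x => z - x).prod := by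
    conv_lhs => rw [hs.eq_prod_roots]
    rw [eval_mul, eval_C, eval_multiset_prod, Multiset.map_map]
    simp
  rw [h2, norm_mul, mul_assoc]
  exact mul_le_mul_of_nonneg_left h1 (norm_nonneg _)

/-- all roots of `N` lie in `(1/2)ℤ` -/
def HalfRoots (N : ℂ[X]) : Prop := ∀ z : ℂ, N.eval z = 0 → ∃ k : ℤ, z = (k : ℂ) / 2

/-- distance at least `1/8` from `(1/2)ℤ` -/
def Far (z : ℂ) : Prop := ∀ k : ℤ, 1 / 8 ≤ ‖z - (k : ℂ) / 2‖

lemma rat_bound {P N : ℂ[X]} (hN : N ≠ 0) (hr : HalfRoots N) : ∃ C : ℝ, 0 < C ∧ ∀ z : ℂ, Far z →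
    ‖P.eval z / N.eval z‖ * (1 + ‖z‖) ^ N.natDegree ≤ C * (1 + ‖z‖) ^ P.natDegree := by
  obtain ⟨C, hC, h1⟩ := poly_upper P
  obtain ⟨c, hc, h2⟩ := poly_lower N hN
  refine ⟨C / c, by positivity, fun z hz => ?_⟩
  have h3 := h2 z fun x hx => by
    obtain ⟨k, rfl⟩ := hr x (isRoot_of_mem_roots hx)
    exact hz k
  have h4 := h1 z
  have hpos : 0 < c * (1 + ‖z‖) ^ N.natDegree := by positivity
  have h5 : 0 < ‖N.eval z‖ := hpos.trans_le h3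
  rw [norm_div, div_mul_eq_mul_div, div_le_iff₀ h5]
  calc ‖P.eval z‖ * (1 + ‖z‖) ^ N.natDegree
      ≤ (C * (1 + ‖z‖) ^ P.natDegree) * (1 + ‖z‖) ^ N.natDegree := by gcongr
    _ = C / c * (1 + ‖z‖) ^ P.natDegree * (c * (1 + ‖z‖) ^ N.natDegree) := by
        field_simp
    _ ≤ C / c * (1 + ‖z‖) ^ P.natDegree * ‖N.eval z‖ := by gcongr

/-- crude upper bound -/
lemma rat_bound_up {P N : ℂ[X]} (hN : N ≠ 0) (hr : HalfRoots N) : ∃ C : ℝ, 0 < C ∧ ∀ z : ℂ,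
    Far z → ‖P.eval z / N.eval z‖ ≤ C * (1 + ‖z‖) ^ P.natDegree := by
  obtain ⟨C, hC, h⟩ := rat_bound (P := P) hN hr
  refine ⟨C, hC, fun z hz => ?_⟩
  have h1 : (1 : ℝ) ≤ (1 + ‖z‖) ^ N.natDegree := one_le_pow₀ (by linarith [norm_nonneg z])
  calc ‖P.eval z / N.eval z‖ ≤ ‖P.eval z / N.eval z‖ * (1 + ‖z‖) ^ N.natDegree :=
        le_mul_of_one_le_right (norm_nonneg _) h1
    _ ≤ _ := h z hz

/-- decay when `deg P < deg N` -/
lemma rat_bound_down {P N : ℂ[X]} (hN : N ≠ 0) (hr : HalfRoots N)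
    (hd : P.natDegree < N.natDegree) : ∃ C : ℝ, 0 < C ∧ ∀ z : ℂ,
    Far z → ‖P.eval z / N.eval z‖ ≤ C / (1 + ‖z‖) := by
  obtain ⟨C, hC, h⟩ := rat_bound (P := P) hN hr
  refine ⟨C, hC, fun z hz => ?_⟩
  have h0 : (0 : ℝ) < 1 + ‖z‖ := by positivity
  have h1 : (1 + ‖z‖) ^ P.natDegree * (1 + ‖z‖) ≤ (1 + ‖z‖) ^ N.natDegree := by
    rw [← pow_succ]
    exact pow_le_pow_right₀ (by linarith [norm_nonneg z]) hd
  rw [le_div_iff₀ h0]
  have h2 := h z hz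
  have h3 : 0 < (1 + ‖z‖) ^ P.natDegree := by positivity
  have h4 : ‖P.eval z / N.eval z‖ * (1 + ‖z‖) * (1 + ‖z‖) ^ P.natDegree ≤
      C * (1 + ‖z‖) ^ P.natDegree := by
    refine le_trans ?_ h2
    rw [mul_assoc, mul_comm (1 + ‖z‖)]
    exact mul_le_mul_of_nonneg_left h1 (norm_nonneg _)
  exact le_of_mul_le_mul_right h4 h3

/-! ### distances -/

lemma quarter_le (n : ℤ) : (1 : ℝ) / 4 ≤ |(n : ℝ) / 2 + 1 / 4| := by
  have h : (1 : ℤ) ≤ |2 * n + 1| := by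
    exact Int.one_le_abs (by omega)
  have h2 : (1 : ℝ) ≤ |2 * (n : ℝ) + 1| := by exact_mod_cast h
  have h3 : (n : ℝ) / 2 + 1 / 4 = (2 * n + 1) / 4 := by ring
  rw [h3, abs_div, abs_of_pos (by norm_num : (0 : ℝ) < 4)]
  linarith

/-- points on the rays are far from `(1/2)ℤ` -/
lemma far_ray {k0 : ℕ} {c t : ℝ} (hc : c ^ 2 ≤ 3) {v : ℂ}
    (hv : v = -c + I ∨ v = -c - I) : Far (-(((k0 : ℝ) + 1 / 4 : ℝ) : ℂ) + t * v) := by
  intro k
  have h1 : ‖-(((k0 : ℝ) + 1 / 4 : ℝ) : ℂ) + t * v - (k : ℂ) / 2‖ ^ 2 =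
      (((2 * k0 + k : ℤ) : ℝ) / 2 + 1 / 4 + c * t) ^ 2 + t ^ 2 := by
    rw [← Complex.normSq_eq_norm_sq, Complex.normSq_apply]
    rcases hv with rfl | rfl
    · have e1 : (-(((k0 : ℝ) + 1 / 4 : ℝ) : ℂ) + t * (-c + I) - (k : ℂ) / 2) =
          ((-(k0 + 1 / 4) - c * t - k / 2 : ℝ) : ℂ) + ((t : ℝ) : ℂ) * I := by
        push_cast; ring
      rw [e1]
      simp
      ring
    · have e1 : (-(((k0 : ℝ) + 1 / 4 : ℝ) : ℂ) + t * (-c - I) - (k : ℂ) / 2) =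
          ((-(k0 + 1 / 4) - c * t - k / 2 : ℝ) : ℂ) + ((-t : ℝ) : ℂ) * I := by
        push_cast; ring
      rw [e1]
      simp
      ring
  set d : ℝ := ((2 * k0 + k : ℤ) : ℝ) / 2 + 1 / 4 with hd
  have h2 : 1 / 16 ≤ d ^ 2 := by
    have := quarter_le (2 * k0 + k)
    rw [← hd] at this
    rw [← sq_abs]
    nlinarith
  have h3 : d ^ 2 ≤ 4 * ((d + c * t) ^ 2 + t ^ 2) := by
    have h4 : d ^ 2 ≤ (1 + c ^ 2) * ((d + c * t) ^ 2 + t ^ 2) := by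
      nlinarith [sq_nonneg (c * d + (1 + c ^ 2) * t)]
    have h5 : (1 + c ^ 2) * ((d + c * t) ^ 2 + t ^ 2) ≤ 4 * ((d + c * t) ^ 2 + t ^ 2) := by
      apply mul_le_mul_of_nonneg_right (by linarith) (by positivity)
    linarith
  have h6 : (1 / 8 : ℝ) ^ 2 ≤ ‖-(((k0 : ℝ) + 1 / 4 : ℝ) : ℂ) + t * v - (k : ℂ) / 2‖ ^ 2 := by
    rw [h1]; linarith
  exact le_of_sq_le_sq h6 (norm_nonneg _)

lemma far_vert {k0 n : ℕ} {y : ℝ} : Far (((-(((k0 : ℝ) + 1 / 4) + n) : ℝ) : ℂ) + y * I) := by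
  intro k
  have h1 := Complex.abs_re_le_norm (((-(((k0 : ℝ) + 1 / 4) + n) : ℝ) : ℂ) + y * I - (k : ℂ) / 2)
  have h2 : (((-(((k0 : ℝ) + 1 / 4) + n) : ℝ) : ℂ) + y * I - (k : ℂ) / 2).re =
      -(((2 * k0 + 2 * n + k : ℤ) : ℝ) / 2 + 1 / 4) := by
    have e1 : (((-(((k0 : ℝ) + 1 / 4) + n) : ℝ) : ℂ) + y * I - (k : ℂ) / 2) =
      ((-(((2 * k0 + 2 * n + k : ℤ) : ℝ) / 2 + 1 / 4) : ℝ) : ℂ) + y * I := by
      push_cast; ring
    rw [e1]
    simp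
  rw [h2, abs_neg] at h1
  have h3 := quarter_le (2 * k0 + 2 * n + k)
  linarith

/-- points at distance `1/4` from a point of `(1/2)ℤ` are far -/
lemma far_circle {h : ℤ} {z : ℂ} (hz : ‖z - (h : ℂ) / 2‖ = 1 / 4) : Far z := by
  intro k
  by_cases hk : k = h
  · subst hk; rw [hz]; norm_num
  · have h1 : (1 : ℝ) / 2 ≤ ‖(h : ℂ) / 2 - (k : ℂ) / 2‖ := by
      have e1 : (h : ℂ) / 2 - (k : ℂ) / 2 = ((h - k : ℤ) : ℂ) / 2 := by push_cast; ring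
      rw [e1, norm_div, Complex.norm_intCast]
      have h2 : (1 : ℝ) ≤ |((h - k : ℤ) : ℝ)| := by
        have : (1 : ℤ) ≤ |h - k| := by
          exact Int.one_le_abs (by omega)
        exact_mod_cast this
      have h3 : ‖(2 : ℂ)‖ = 2 := by simp
      rw [h3]
      linarith
    have h2 : ‖(h : ℂ) / 2 - (k : ℂ) / 2‖ ≤ ‖z - (k : ℂ) / 2‖ + ‖z - (h : ℂ) / 2‖ := by
      have := norm_sub_le (z - (k : ℂ) / 2) (z - (h : ℂ) / 2)
      rwa [show z - (k : ℂ) / 2 - (z - (h : ℂ) / 2) = (h : ℂ) / 2 - (k : ℂ) / 2 by ring] at this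
    rw [hz] at h2
    linarith

lemma far_ne_ce {z : ℂ} (hz : Far z) (l : ℕ) : 1 / 8 ≤ ‖z - PsiJ.ce l‖ := by
  have := hz (-(2 * l + 1))
  convert this using 2
  unfold PsiJ.ce
  push_cast
  ring

end Crest.Agent.R006.Tail516
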