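import Crest.Agent.R006.P3_Disc_390
import Crest.Agent.R006.P3_TailC_650
import Crest.Agent.R006.P3_PotW_943
import Crest.Agent.R006.Tail1_516
import Crest.Agent.R006.NumBr_464

set_option autoImplicit false

/-!
# Row 6, block P3: pointwise bounds of the weights `wtR`, `wtQ` of `P3_Disc_390` (helper650)

Units `v`, `u = K v`.
* `far_apart` : `Far s` (516) gives distance `≥ 1/8` from all nodes;
* `wtR_le`, `wtQ_le` : the weights against `potL (LG S K)`, `potL (LS S K)` at `s / v`;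
* `potL_mod` : moving `s` by at most `1`.
-/

namespace Crest.Agent.R006.Cert650

open MeasureTheory Crest.Agent.R006.D Crest.Agent.R006.Cert Crest.Agent.R006.NumSegx464 Crest.Agent.R006.Potx943
  Crest.Agent.R006.TailSlotx650 Crest.Agent.R006.ArchSx650 Crest.Agent.R006.VVx929

/-! ### distances -/

lemma far_apart {s : ℂ} (hs : Tail516.Far s) (S : Shape) (u c : ℕ) : Apart S u c (1 / 8) s := by
  intro z _
  rcases z with i | i
  · have h := hs (2 * i)
    have e : (((2 * i : ℤ) : ℂ)) / 2 = (((Site.Z i).val : ℝ) : ℂ) := by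
      simp [Site.val]
    rwa [e] at h
  · have h := hs (2 * i + 1)
    have e : (((2 * i + 1 : ℤ) : ℂ)) / 2 = (((Site.H i).val : ℝ) : ℂ) := by
      simp [Site.val]; ring
    rwa [e] at h

/-! ### the potentials of the nodes and of the gauge in the two notations -/

lemma potL_rseg {a b m : ℤ} (h : b = a + m) (s : ℂ) :
    potL (rseg a b m) s = Iseg (a : ℂ) 1 m s := by
  unfold rseg
  split_ifs with h0
  · subst h0; simp [potL, Iseg]
  · rw [potL, potL, add_zero, Iseg_eq_pot]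
    have e1 : gc (a, 0) = (a : ℂ) := by simp [gc, Complex.ext_iff]
    have e2 : gc (b, 0) = (a : ℂ) + (m : ℝ) * 1 := by
      subst h; simp [gc, Complex.ext_iff]
    rw [e1, e2]

/-- potential of the gauge (units `u`) -/
noncomputable def UG (S : Shape) (z : ℂ) : ℝ :=
  Iseg 0 1 S.a1 z + Iseg 0 1 S.a2 z + Iseg (-(S.i1 : ℂ)) 1 S.i1 z + Iseg (-(S.r1 : ℂ)) 1 S.r1 z

lemma Iseg_K {K : ℕ} (hK : 0 < K) (a : ℤ) (m : ℕ) (z : ℂ) :
    Iseg ((K * a : ℤ) : ℂ) 1 ((K * m : ℤ) : ℝ) (K * z) =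
      K * (m * Real.log K + Iseg (a : ℂ) 1 m z) := by
  have hK0 : (0 : ℝ) < K := by exact_mod_cast hK
  rw [← Iseg_scale _ hK0 one_ne_zero]
  congr 1 <;> push_cast <;> ring

lemma potL_LS_eq (S : Shape) {K : ℕ} (hK : 0 < K) (z : ℂ) :
    potL (LS S K) (K * z) = K * (S.rows * Real.log K + UN S z) := by
  unfold LS
  simp only [potL_append650]
  rw [potL_rseg (by ring), potL_rseg (by ring), potL_rseg (by ring), potL_rseg (by ring),
    potL_rseg (by ring), potL_rseg (by ring), potL_rseg (by ring), potL_rseg (by ring)]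
  have h1 := Iseg_K hK 0 S.B z
  have h2 := Iseg_K hK (-S.e1) S.e1 z
  have h3 := Iseg_K hK (-S.e2) S.e2 z
  have h4 := Iseg_K hK (-S.e3) S.e3 z
  have h5 := Iseg_K hK 0 S.h1 z
  have h6 := Iseg_K hK 0 S.h2 z
  have h7 := Iseg_K hK 0 S.h3 z
  have h8 := Iseg_K hK (-S.w) S.w z
  simp only [mul_zero, mul_neg] at h1 h2 h3 h4 h5 h6 h7 h8
  rw [h1, h2, h3, h4, h5, h6, h7, h8, UN, Fin.sum_univ_eight]
  simp only [Uw, loW, hiW, Shape.rows, Matrix.cons_val_zero, Matrix.cons_val_one,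
    Matrix.cons_val]
  push_cast
  simp only [sub_zero, zero_sub, neg_neg]
  ring

lemma potL_LG_eq (S : Shape) {K : ℕ} (hK : 0 < K) (z : ℂ) :
    potL (LG S K) (K * z) =
      K * (((S.a1 + S.a2 + S.i1 + S.r1 : ℕ) : ℝ) * Real.log K + UG S z) := by
  unfold LG
  simp only [potL_append650]
  rw [potL_rseg (by ring), potL_rseg (by ring), potL_rseg (by ring), potL_rseg (by ring)]
  have h1 := Iseg_K hK 0 S.a1 z
  have h2 := Iseg_K hK 0 S.a2 z
  have h3 := Iseg_K hK (-S.i1) S.i1 z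
  have h4 := Iseg_K hK (-S.r1) S.r1 z
  simp only [mul_zero, mul_neg] at h1 h2 h3 h4
  rw [h1, h2, h3, h4, UG]
  push_cast
  ring

/-! ### the node polynomial and the gauge -/

/-- error term -/
noncomputable def er (u : ℕ) (s : ℂ) : ℝ := 1 + Real.log (u + ‖s‖)

lemma er_nonneg {u : ℕ} (hu : 1 ≤ u) (s : ℂ) : 1 ≤ er u s := by
  have h1 : (1 : ℝ) ≤ u := by exact_mod_cast hu
  have := Real.log_nonneg (show (1 : ℝ) ≤ u + ‖s‖ by linarith [norm_nonneg s])
  unfold er; linarith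

lemma log_aff_le {u : ℕ} (hu : 1 ≤ u) (s : ℂ) {a : ℝ} (ha : 0 ≤ a) :
    Real.log (2 + ‖s‖ + a * u) ≤ (2 + a) * er u s := by
  have h1 : (1 : ℝ) ≤ u := by exact_mod_cast hu
  have hs := norm_nonneg s
  have h2 : 2 + ‖s‖ + a * u ≤ (2 + a) * (u + ‖s‖) := by nlinarith
  have h3 : Real.log (2 + ‖s‖ + a * u) ≤ Real.log ((2 + a) * (u + ‖s‖)) :=
    Real.log_le_log (by positivity) h2
  rw [Real.log_mul (by positivity) (by positivity)] at h3
  have h4 : Real.log (2 + a) ≤ 1 + a := by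
    have := Real.log_le_sub_one_of_pos (show (0 : ℝ) < 2 + a by linarith)
    linarith
  have h5 := Real.log_nonneg (show (1 : ℝ) ≤ u + ‖s‖ by linarith)
  unfold er
  nlinarith

theorem NSn_ge {S : Shape} (hS : S.Good) (c : ℕ) : ∃ C : ℝ, 0 ≤ C ∧ ∀ u : ℕ, 1 ≤ u → ∀ s : ℂ,
    Apart S u c (1 / 8) s →
    Real.exp ((u : ℝ) * ((S.rows : ℝ) * Real.log u + UN S (s / u)) - C * er u s) ≤
      P3.NSn S u c s := by
  set a : ℝ := (S.B + S.h1 + S.h2 + S.h3 : ℝ) with ha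
  have ha0 : 0 ≤ a := by positivity
  have hl : 0 ≤ Real.log (1 / (1 / 8)) := Real.log_nonneg (by norm_num)
  refine ⟨8 * (25 + (11 + c) * Real.log (1 / (1 / 8)) + (2 + a)), by positivity,
    fun u hu s hs => ?_⟩
  have h := prod_nodes_ge hS hu (δ := 1 / 8) (by norm_num) (by norm_num) hs
  have e : P3.NSn S u c s = ∏ z ∈ Bordx929.sites S u c, ‖s - ((z.val : ℝ) : ℂ)‖ ^ S.mult u c z := by
    unfold P3.NSn
    refine Finset.prod_congr rfl fun z _ => ?_
    push_cast; rfl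
  rw [e]
  refine le_trans (Real.exp_le_exp.mpr ?_) h
  have h1 := log_aff_le hu s ha0
  have h2 := er_nonneg hu s
  have h3 : (25 + (11 + c) * Real.log (1 / (1 / 8))) ≤
      (25 + (11 + (c : ℝ)) * Real.log (1 / (1 / 8))) * er u s := by
    have : 0 ≤ 25 + (11 + (c : ℝ)) * Real.log (1 / (1 / 8)) := by positivity
    nlinarith
  rw [ha] at h1
  nlinarith

lemma prod_int_le (a u : ℕ) (hu : 1 ≤ u) (s : ℂ) :
    ∏ n ∈ Finset.range (a * u), ‖s - (n : ℂ)‖ ≤
      Real.exp ((u : ℝ) * ((a : ℝ) * Real.log u + Iseg 0 1 a (s / u)) + 27 * er u s) := by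
  have h := window_le (lo := 0) (hi := a) (by positivity) hu (e := 0) (Or.inl rfl) s
  have hp := prod_Ico_range 0 (a * u) (fun i => ‖s - (((i : ℝ) + 0 : ℝ) : ℂ)‖)
  have e0 : (0 : ℤ) * u = 0 := by ring
  have e1 : (a : ℤ) * u = 0 + ((a * u : ℕ) : ℤ) := by push_cast; ring
  rw [e0, e1, hp] at h
  refine le_trans (le_of_eq ?_) (h.trans (Real.exp_le_exp.mpr ?_))
  · refine Finset.prod_congr rfl fun n _ => ?_
    push_cast; congr 1; ring
  · have h1 := log_aff_le hu s (le_refl (0 : ℝ))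
    have h2 := er_nonneg hu s
    have e2 : ((0 : ℤ) : ℂ) * (u : ℂ) = 0 := by simp
    rw [e2, sub_zero]
    rw [zero_mul, add_zero, add_zero] at h1
    push_cast
    rw [sub_zero]
    linarith

lemma prod_half_le (a u : ℕ) (hu : 1 ≤ u) (s : ℂ) :
    ∏ m ∈ Finset.range (a * u), ‖s + ((m : ℂ) + 1 / 2)‖ ≤
      Real.exp ((u : ℝ) * ((a : ℝ) * Real.log u + Iseg (-(a : ℂ)) 1 a (s / u)) +
        (27 + a) * er u s) := by
  have h := window_le (lo := -a) (hi := 0) (by omega) hu (e := 1 / 2) (Or.inr rfl) s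
  have hp := prod_Ico_range (-(a * u : ℕ)) (a * u) (fun i => ‖s - (((i : ℝ) + 1 / 2 : ℝ) : ℂ)‖)
  have e0 : (-(a : ℤ)) * u = -((a * u : ℕ) : ℤ) := by push_cast; ring
  have e1 : (0 : ℤ) * u = -((a * u : ℕ) : ℤ) + ((a * u : ℕ) : ℤ) := by ring
  rw [e0, e1, hp, ← Finset.prod_range_reflect] at h
  refine le_trans (le_of_eq ?_) (h.trans (Real.exp_le_exp.mpr ?_))
  · refine Finset.prod_congr rfl fun n hn => ?_
    rw [Finset.mem_range] at hn
    congr 1
    have : ((a * u - 1 - n : ℕ) : ℝ) = (a * u : ℕ) - 1 - n := by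
      rw [Nat.cast_sub (by omega), Nat.cast_sub (by omega)]; push_cast; ring
    push_cast at this ⊢
    rw [show ((a * u - 1 - n : ℕ) : ℂ) = (a : ℂ) * u - 1 - n from by
      exact_mod_cast congrArg (fun x : ℝ => (x : ℂ)) this]
    ring
  · have h1 := log_aff_le hu s (a := (a : ℝ)) (by positivity)
    have h2 := er_nonneg hu s
    have h3 : ‖s - ((-(a : ℤ) : ℤ) : ℂ) * (u : ℂ)‖ ≤ ‖s‖ + a * u := by
      refine (norm_sub_le _ _).trans (le_of_eq ?_)
      simp
    have h4 : Real.log (2 + ‖s - ((-(a : ℤ) : ℤ) : ℂ) * (u : ℂ)‖) ≤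
        Real.log (2 + ‖s‖ + a * u) := Real.log_le_log (by positivity) (by linarith)
    have e3 : (((0 : ℤ) : ℝ) - ((-(a : ℤ) : ℤ) : ℝ)) = a := by push_cast; ring
    rw [e3]
    push_cast at h4 ⊢
    linarith

lemma prod_neg_le (a u : ℕ) (hu : 1 ≤ u) (s : ℂ) :
    ∏ m ∈ Finset.range (a * u), ‖s + ((m : ℂ) + 1)‖ ≤
      Real.exp ((u : ℝ) * ((a : ℝ) * Real.log u + Iseg (-(a : ℂ)) 1 a (s / u)) +
        (27 + a) * er u s) := by
  have h := window_le (lo := -a) (hi := 0) (by omega) hu (e := 0) (Or.inl rfl) s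
  have hp := prod_Ico_range (-(a * u : ℕ)) (a * u) (fun i => ‖s - (((i : ℝ) + 0 : ℝ) : ℂ)‖)
  have e0 : (-(a : ℤ)) * u = -((a * u : ℕ) : ℤ) := by push_cast; ring
  have e1 : (0 : ℤ) * u = -((a * u : ℕ) : ℤ) + ((a * u : ℕ) : ℤ) := by ring
  rw [e0, e1, hp, ← Finset.prod_range_reflect] at h
  refine le_trans (le_of_eq ?_) (h.trans (Real.exp_le_exp.mpr ?_))
  · refine Finset.prod_congr rfl fun n hn => ?_
    rw [Finset.mem_range] at hn
    congr 1
    have : ((a * u - 1 - n : ℕ) : ℝ) = (a * u : ℕ) - 1 - n := by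
      rw [Nat.cast_sub (by omega), Nat.cast_sub (by omega)]; push_cast; ring
    push_cast at this ⊢
    rw [show ((a * u - 1 - n : ℕ) : ℂ) = (a : ℂ) * u - 1 - n from by
      exact_mod_cast congrArg (fun x : ℝ => (x : ℂ)) this]
    ring
  · have h1 := log_aff_le hu s (a := (a : ℝ)) (by positivity)
    have h2 := er_nonneg hu s
    have h3 : ‖s - ((-(a : ℤ) : ℤ) : ℂ) * (u : ℂ)‖ ≤ ‖s‖ + a * u := by
      refine (norm_sub_le _ _).trans (le_of_eq ?_)
      simp
    have h4 : Real.log (2 + ‖s - ((-(a : ℤ) : ℤ) : ℂ) * (u : ℂ)‖) ≤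
        Real.log (2 + ‖s‖ + a * u) := Real.log_le_log (by positivity) (by linarith)
    have e3 : (((0 : ℤ) : ℝ) - ((-(a : ℤ) : ℤ) : ℝ)) = a := by push_cast; ring
    rw [e3]
    push_cast at h4 ⊢
    linarith

theorem rhon_le (S : Shape) : ∃ C : ℝ, 0 ≤ C ∧ ∀ u : ℕ, 1 ≤ u → ∀ s : ℂ,
    P3.rhon S u s ≤ Real.exp ((u : ℝ) * (((S.a1 + S.a2 + S.i1 + S.r1 : ℕ) : ℝ) * Real.log u +
      UG S (s / u)) + C * er u s) := by
  refine ⟨108 + S.i1 + S.r1, by positivity, fun u hu s => ?_⟩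
  have h1 := prod_int_le S.a1 u hu s
  have h2 := prod_int_le S.a2 u hu s
  have h3 := prod_half_le S.i1 u hu s
  have h4 := prod_neg_le S.r1 u hu s
  unfold P3.rhon
  refine (mul_le_mul (mul_le_mul (mul_le_mul h1 h2 (by positivity) (by positivity)) h3
    (by positivity) (by positivity)) h4 (by positivity) (by positivity)).trans (le_of_eq ?_)
  rw [← Real.exp_add, ← Real.exp_add, ← Real.exp_add, UG]
  congr 1
  push_cast
  ring

end Crest.Agent.R006.Cert650
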