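import Crest.Agent.R006.P3_PotV_943

/-! Row 6, block P3, leaf POT, part 6 (helper943): the same as `P3_PotV_943`, with an offset
`eps` (`|eps| ≤ 1`) of every family: points `N a + (j + 1/2 + eps) d`. -/

set_option autoImplicit false

namespace Crest.Agent.R006.Potx943

open MeasureTheory Set

/-! ### shifts -/

/-- two-sided shift of a segment by `ε d`, `|ε| ≤ 1` -/
theorem abs_Iseg_shift_le {a d s : ℂ} (hd : d ≠ 0) {m : ℝ} (hm : 0 ≤ m) {ε : ℝ} (hε : |ε| ≤ 1) :
    |Iseg (a + ε * d) d m s - Iseg a d m s| ≤ 3 + Real.log (2 + ‖(s - a) / d‖ + m) := by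
  have hle := abs_le.mp hε
  have hn := norm_nonneg ((s - a) / d)
  have hnm : ‖(s - a) / d - m‖ ≤ ‖(s - a) / d‖ + m := by
    refine (norm_sub_le _ _).trans ?_
    rw [Complex.norm_real, Real.norm_eq_abs, abs_of_nonneg hm]
  rcases le_or_gt 0 ε with h | h
  · have h1 := Iseg_shift (a := a) (s := s) hd m h hle.2
    have h2 : Real.log (1 + ‖(s - a) / d - m‖) ≤ Real.log (2 + ‖(s - a) / d‖ + m) :=
      Real.log_le_log (by positivity) (by linarith)
    have h3 : Real.log (1 + ‖(s - a) / d‖) ≤ Real.log (2 + ‖(s - a) / d‖ + m) :=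
      Real.log_le_log (by positivity) (by linarith)
    rw [abs_le]
    constructor <;> linarith [h1.1, h1.2]
  · have h1 := Iseg_shift (a := a + ε * d) (s := s) hd m (ε := -ε) (by linarith) (by linarith [hle.1])
    have e : a + ε * d + ((-ε : ℝ) : ℂ) * d = a := by push_cast; ring
    rw [e] at h1
    have e2 : (s - (a + ε * d)) / d = (s - a) / d - ε := by field_simp; ring
    have h4 : ‖(s - (a + ε * d)) / d‖ ≤ ‖(s - a) / d‖ + 1 := by
      rw [e2]
      refine (norm_sub_le _ _).trans ?_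
      rw [Complex.norm_real, Real.norm_eq_abs]
      linarith
    have h5 : ‖(s - (a + ε * d)) / d - m‖ ≤ ‖(s - a) / d‖ + 1 + m := by
      refine (norm_sub_le _ _).trans ?_
      rw [Complex.norm_real, Real.norm_eq_abs, abs_of_nonneg hm]
      linarith
    have h2 : Real.log (1 + ‖(s - (a + ε * d)) / d - m‖) ≤ Real.log (2 + ‖(s - a) / d‖ + m) :=
      Real.log_le_log (by positivity) (by linarith)
    have h3 : Real.log (1 + ‖(s - (a + ε * d)) / d‖) ≤ Real.log (2 + ‖(s - a) / d‖ + m) :=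
      Real.log_le_log (by positivity) (by linarith)
    rw [abs_le]
    constructor <;> linarith [h1.1, h1.2]

theorem norm_mul_abs_log_le {x R : ℝ} (hx : 0 ≤ x) (hxR : x ≤ R) (hR : 1 ≤ R) :
    x * |Real.log x| ≤ R * Real.log R + 1 := by
  have hRl : 0 ≤ R * Real.log R := mul_nonneg (by linarith) (Real.log_nonneg hR)
  rcases eq_or_lt_of_le hx with h | h
  · rw [← h]; simp; linarith
  rcases le_or_gt 1 x with h1 | h1
  · rw [abs_of_nonneg (Real.log_nonneg h1)]
    have h2 : Real.log x ≤ Real.log R := Real.log_le_log h hxR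
    have h3 := Real.log_nonneg h1
    nlinarith
  · have h4 := xlogx_ge h
    rw [abs_of_nonpos (Real.log_nonpos hx h1.le)]
    nlinarith

/-- size of the potential -/
theorem abs_Iseg_le {a d s : ℂ} (hd : d ≠ 0) {m R : ℝ} (hm : 0 ≤ m)
    (hR : 1 + ‖(s - a) / d‖ + m ≤ R) :
    |Iseg a d m s| ≤ (|Real.log ‖d‖| + 1) * R + 2 * (R * Real.log R + 1 + Real.pi * R) := by
  have hn := norm_nonneg ((s - a) / d)
  have hR1 : 1 ≤ R := by linarith
  have key : ∀ w : ℂ, ‖w‖ ≤ R → |(w * Complex.log w).re| ≤ R * Real.log R + 1 + Real.pi * R := by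
    intro w hw
    have h1 : |(w * Complex.log w).re| ≤ ‖w‖ * |Real.log ‖w‖| + ‖w‖ * |Complex.arg w| := by
      rw [Complex.mul_re, Complex.log_re, Complex.log_im]
      calc |w.re * Real.log ‖w‖ - w.im * Complex.arg w|
          ≤ |w.re * Real.log ‖w‖| + |w.im * Complex.arg w| := abs_sub _ _
        _ = |w.re| * |Real.log ‖w‖| + |w.im| * |Complex.arg w| := by rw [abs_mul, abs_mul]
        _ ≤ _ := by
            gcongr
            · exact Complex.abs_re_le_norm w
            · exact Complex.abs_im_le_norm w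
    have h2 : ‖w‖ * |Complex.arg w| ≤ Real.pi * R := by
      have := Complex.abs_arg_le_pi w
      have hp := Real.pi_pos
      calc ‖w‖ * |Complex.arg w| ≤ R * Real.pi := by gcongr
        _ = _ := mul_comm _ _
    have h3 := norm_mul_abs_log_le (norm_nonneg w) hw hR1
    linarith
  have hw1 : ‖(s - a) / d‖ ≤ R := by linarith
  have hw2 : ‖(s - a) / d - m‖ ≤ R := by
    refine (norm_sub_le _ _).trans ?_
    rw [Complex.norm_real, Real.norm_eq_abs, abs_of_nonneg hm]
    linarith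
  have k1 := key _ hw1
  have k2 := key _ hw2
  rw [Iseg_closed hd]
  set P := (((s - a) / d) * Complex.log ((s - a) / d)).re
  set Q := (((s - a) / d - m) * Complex.log ((s - a) / d - m)).re
  have h4 : |m * Real.log ‖d‖| ≤ |Real.log ‖d‖| * R := by
    rw [abs_mul, abs_of_nonneg hm, mul_comm]
    gcongr
    linarith
  calc |m * Real.log ‖d‖ + P - Q - m| ≤ |m * Real.log ‖d‖ + P - Q| + |m| := abs_sub _ _
    _ ≤ (|m * Real.log ‖d‖ + P| + |Q|) + |m| := by gcongr; exact abs_sub _ _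
    _ ≤ ((|m * Real.log ‖d‖| + |P|) + |Q|) + |m| := by gcongr; exact abs_add_le _ _
    _ ≤ _ := by
      rw [abs_of_nonneg hm]
      linarith

/-- moving both segments of a mutual energy by `ε d`, `ε' d'` -/
theorem abs_mutE_shift_le {a d a' d' : ℂ} (_hd : d ≠ 0) (hd' : d' ≠ 0) {m m' R : ℝ} (hm : 0 ≤ m)
    (hm' : 0 ≤ m') {ε ε' : ℝ} (hε : |ε| ≤ 1) (hε' : |ε'| ≤ 1)
    (hR : 2 + (‖(a - a') / d'‖ + (m + 2) * ‖d / d'‖) + m' ≤ R) :
    |mutE (a + ε * d) d m (a' + ε' * d') d' m' - mutE a d m a' d' m'|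
      ≤ m * (3 + Real.log R) + 2 * ((|Real.log ‖d'‖| + 1) * R + 2 * (R * Real.log R + 1 + Real.pi * R)) := by
  have hle := abs_le.mp hε
  have hR1 : 1 ≤ R := by
    have := norm_nonneg ((a - a') / d')
    have := norm_nonneg (d / d')
    nlinarith
  -- distance bound along the line
  have hline : ∀ t : ℝ, |t| ≤ m + 1 → ‖(a + t * d - a') / d'‖ ≤ ‖(a - a') / d'‖ + (m + 1) * ‖d / d'‖ := by
    intro t ht
    have e : (a + t * d - a') / d' = (a - a') / d' + t * (d / d') := by field_simp; ring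
    rw [e]
    refine (norm_add_le _ _).trans ?_
    rw [norm_mul, Complex.norm_real, Real.norm_eq_abs]
    gcongr
  -- step 1 : shift of the second segment
  have s1 : |mutE (a + ε * d) d m (a' + ε' * d') d' m' - mutE (a + ε * d) d m a' d' m'|
      ≤ m * (3 + Real.log R) := by
    unfold mutE
    rw [← intervalIntegral.integral_sub (intervalIntegrable_Iseg_line hd' _ _ _)
      (intervalIntegrable_Iseg_line hd' _ _ _)]
    have hb : ∀ t ∈ Set.uIoc (0 : ℝ) m,
        ‖Iseg (a' + ε' * d') d' m' (a + ε * d + t * d) - Iseg a' d' m' (a + ε * d + t * d)‖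
          ≤ 3 + Real.log R := by
      intro t ht
      rw [Set.uIoc_of_le hm] at ht
      rw [Real.norm_eq_abs]
      refine (abs_Iseg_shift_le hd' hm' hε').trans ?_
      have e : a + ε * d + t * d - a' = a + ((ε + t : ℝ) : ℂ) * d - a' := by push_cast; ring
      have h1 := hline (ε + t) (by rw [abs_le]; constructor <;> linarith [ht.1, ht.2])
      rw [e]
      have h2 : 0 ≤ ‖d / d'‖ := norm_nonneg _
      have h3 := Real.log_le_log (x := 2 + ‖(a + ((ε + t : ℝ) : ℂ) * d - a') / d'‖ + m') (y := R)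
        (by positivity) (by nlinarith)
      linarith
    have h := intervalIntegral.norm_integral_le_of_norm_le_const hb
    rw [Real.norm_eq_abs, sub_zero, abs_of_nonneg hm] at h
    linarith
  -- step 2 : shift of the first segment
  have s2 : |mutE (a + ε * d) d m a' d' m' - mutE a d m a' d' m'|
      ≤ 2 * ((|Real.log ‖d'‖| + 1) * R + 2 * (R * Real.log R + 1 + Real.pi * R)) := by
    set M := (|Real.log ‖d'‖| + 1) * R + 2 * (R * Real.log R + 1 + Real.pi * R) with hM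
    have hM0 : 0 ≤ M := by
      have := Real.pi_pos
      have := Real.log_nonneg hR1
      positivity
    set g : ℝ → ℝ := fun t => Iseg a' d' m' (a + t * d) with hg
    have hgi : ∀ α β : ℝ, IntervalIntegrable g volume α β := fun α β =>
      intervalIntegrable_Iseg_line hd' _ _ _
    have e1 : mutE (a + ε * d) d m a' d' m' = ∫ t in ε..(m + ε), g t := by
      unfold mutE
      have h := intervalIntegral.integral_comp_add_right (a := (0 : ℝ)) (b := m) g ε
      rw [zero_add] at h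
      rw [← h]
      apply intervalIntegral.integral_congr
      intro t _
      simp only [hg]
      congr 1
      push_cast; ring
    have e2 : mutE a d m a' d' m' = ∫ t in (0 : ℝ)..m, g t := rfl
    have e3 : (∫ t in ε..(m + ε), g t) - ∫ t in (0 : ℝ)..m, g t
        = (∫ t in m..(m + ε), g t) - ∫ t in (0 : ℝ)..ε, g t := by
      have h3 := intervalIntegral.integral_add_adjacent_intervals (hgi 0 ε) (hgi ε (m + ε))
      have h4 := intervalIntegral.integral_add_adjacent_intervals (hgi 0 m) (hgi m (m + ε))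
      linarith
    have hsup : ∀ t : ℝ, |t| ≤ m + 1 → ‖g t‖ ≤ M := by
      intro t ht
      rw [Real.norm_eq_abs]
      apply abs_Iseg_le hd' hm'
      have h1 := hline t ht
      have h2 : 0 ≤ ‖d / d'‖ := norm_nonneg _
      nlinarith
    have b1 : ‖∫ t in m..(m + ε), g t‖ ≤ M * |m + ε - m| := by
      apply intervalIntegral.norm_integral_le_of_norm_le_const
      intro t ht
      apply hsup
      rw [abs_le]
      rw [Set.mem_uIoc] at ht
      rcases ht with ht | ht <;> constructor <;> linarith [ht.1, ht.2]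
    have b2 : ‖∫ t in (0 : ℝ)..ε, g t‖ ≤ M * |ε - 0| := by
      apply intervalIntegral.norm_integral_le_of_norm_le_const
      intro t ht
      apply hsup
      rw [abs_le]
      rw [Set.mem_uIoc] at ht
      rcases ht with ht | ht <;> constructor <;> linarith [ht.1, ht.2]
    rw [e1, e2, e3]
    have c1 : M * |m + ε - m| ≤ M := by
      have : m + ε - m = ε := by ring
      rw [this]
      nlinarith
    have c2 : M * |ε - 0| ≤ M := by
      rw [sub_zero]
      nlinarith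
    rw [Real.norm_eq_abs] at b1 b2
    calc _ ≤ |∫ t in m..(m + ε), g t| + |∫ t in (0 : ℝ)..ε, g t| := abs_sub _ _
      _ ≤ 2 * M := by linarith
  calc _ = |(mutE (a + ε * d) d m (a' + ε' * d') d' m' - mutE (a + ε * d) d m a' d' m')
        + (mutE (a + ε * d) d m a' d' m' - mutE a d m a' d' m')| := by congr 1; ring
    _ ≤ _ := (abs_add_le _ _).trans (add_le_add s1 s2)

/-! ### families with offset -/

/-- a family: points `N a + (j + 1/2 + eps) d`, `j < n N`, multiplicity `mu` -/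
structure FamE where
  a : ℂ
  d : ℂ
  n : ℕ
  mu : ℕ
  eps : ℝ

/-- forget the offset -/
def FamE.fam (f : FamE) : Fam := ⟨f.a, f.d, f.n, f.mu⟩

variable {r : ℕ} (F : Fin r → FamE)

/-- the index set of the configuration of size `N` -/
abbrev IdxE (N : ℕ) : Type := Σ f : Fin r, Fin ((F f).n * N)

/-- the points -/
noncomputable def ptsE (N : ℕ) (x : IdxE F N) : ℂ :=
  pt ((N : ℂ) * (F x.1).a + (F x.1).eps * (F x.1).d) (F x.1).d x.2

/-- the multiplicities -/
def musE (N : ℕ) (x : IdxE F N) : ℕ := (F x.1).mu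

/-- mass per unit -/
def massE : ℕ := ∑ f, (F f).mu * (F f).n

/-- potential -/
noncomputable def UE (s : ℂ) : ℝ := ∑ f, ((F f).mu : ℝ) * Iseg (F f).a (F f).d (F f).n s

/-- energy (ordered pairs) -/
noncomputable def EnE : ℝ :=
  ∑ f, ((F f).mu : ℝ) ^ 2 * (((F f).n : ℝ) ^ 2 * Real.log ‖(F f).d‖
      + ((F f).n : ℝ) ^ 2 * Real.log (F f).n - 3 / 2 * ((F f).n : ℝ) ^ 2)
    + 2 * ∑ f, ∑ g ∈ Finset.Ioi f, ((F f).mu : ℝ) * (F g).mu
      * mutE (F f).a (F f).d (F f).n (F g).a (F g).d (F g).n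

/-- the conditions on the data -/
structure OkE : Prop where
  d0 : ∀ f, (F f).d ≠ 0
  eps1 : ∀ f, |(F f).eps| ≤ 1

/-- separation, uniformly in `N` -/
def SepE (ρ : ℝ) : Prop := ∀ N : ℕ, 0 < N → ∀ f g : Fin r, f < g →
  ∀ t ∈ Set.Icc (0 : ℝ) ((F f).n * N), ∀ j < (F g).n * N,
    ρ ≤ ‖((N : ℂ) * (F f).a + (F f).eps * (F f).d + t * (F f).d)
      - pt ((N : ℂ) * (F g).a + (F g).eps * (F g).d) (F g).d j‖

/-- rational criterion for the separation -/
theorem sepE_of_functional {ρ : ℝ}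
    (h : ∀ f g : Fin r, f < g → ∃ (e : ℂ) (c : ℝ), ‖e‖ ≤ 1 ∧
      (e * (F f).a).re ≤ c ∧ (e * (F f).a).re + (F f).n * (e * (F f).d).re ≤ c ∧
      c ≤ (e * (F g).a).re ∧ c ≤ (e * (F g).a).re + (F g).n * (e * (F g).d).re ∧
      ρ ≤ ((e * (F g).a).re - c) + (1 / 2 + (F g).eps) * (e * (F g).d).re
        - (F f).eps * (e * (F f).d).re ∧
      ρ ≤ ((e * (F g).a).re + (F g).n * (e * (F g).d).re - c)
        - (1 / 2 - (F g).eps) * (e * (F g).d).re - (F f).eps * (e * (F f).d).re) :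
    SepE F ρ := by
  intro N hN f g hfg t ht j hj
  obtain ⟨e, c, he, h1, h2, h3, h4, h5, h6⟩ := h f g hfg
  have hN1 : (1 : ℝ) ≤ N := by exact_mod_cast hN
  set af := (e * (F f).a).re with haf
  set df := (e * (F f).d).re with hdf
  set ag := (e * (F g).a).re with hag
  set dg := (e * (F g).d).re with hdg
  have hj' : (j : ℝ) + 1 ≤ (F g).n * N := by exact_mod_cast hj
  have hj0 : (0 : ℝ) ≤ j := by positivity
  have hf : N * af + t * df ≤ N * c := sep_aux_f (by linarith) h1 h2 ht.1 ht.2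
  have hg : N * c + ρ + (F f).eps * df ≤ N * ag + ((j : ℝ) + 1 / 2 + (F g).eps) * dg := by
    rcases le_or_gt 0 dg with h7 | h7
    · have h8 : ag - c ≤ N * (ag - c) := le_mul_of_one_le_left (by linarith) hN1
      have h9 : 0 ≤ (j : ℝ) * dg := mul_nonneg hj0 h7
      have e1 : N * (ag - c) = N * ag - N * c := by ring
      have e2 : ((j : ℝ) + 1 / 2 + (F g).eps) * dg = j * dg + (1 / 2 + (F g).eps) * dg := by ring
      linarith
    · have h8 : ag + (F g).n * dg - c ≤ N * (ag + (F g).n * dg - c) :=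
        le_mul_of_one_le_left (by linarith) hN1
      have h9 : ((F g).n * N - 1) * dg ≤ j * dg :=
        mul_le_mul_of_nonpos_right (by linarith) h7.le
      have e1 : N * (ag + (F g).n * dg - c) = N * ag + (F g).n * N * dg - N * c := by ring
      have e2 : ((j : ℝ) + 1 / 2 + (F g).eps) * dg = j * dg + (1 / 2 + (F g).eps) * dg := by ring
      have e3 : ((F g).n * N - 1) * dg = (F g).n * N * dg - dg := by ring
      linarith
  have e1 : (e * (((N : ℂ) * (F f).a + (F f).eps * (F f).d + t * (F f).d)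
      - pt ((N : ℂ) * (F g).a + (F g).eps * (F g).d) (F g).d j)).re
      = (N * af + (F f).eps * df + t * df) - (N * ag + ((j : ℝ) + 1 / 2 + (F g).eps) * dg) := by
    have : e * (((N : ℂ) * (F f).a + (F f).eps * (F f).d + t * (F f).d)
        - pt ((N : ℂ) * (F g).a + (F g).eps * (F g).d) (F g).d j)
        = (((N : ℝ) : ℂ) * (e * (F f).a) + ((F f).eps : ℂ) * (e * (F f).d) + (t : ℂ) * (e * (F f).d))
          - (((N : ℝ) : ℂ) * (e * (F g).a) + (((j : ℝ) + 1 / 2 + (F g).eps : ℝ) : ℂ) * (e * (F g).d)) := by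
      unfold pt; push_cast; ring
    rw [this]
    simp only [Complex.sub_re, Complex.add_re, Complex.re_ofReal_mul, haf, hdf, hag, hdg]
  have e2 := Complex.abs_re_le_norm (e * (((N : ℂ) * (F f).a + (F f).eps * (F f).d + t * (F f).d)
    - pt ((N : ℂ) * (F g).a + (F g).eps * (F g).d) (F g).d j))
  rw [e1, norm_mul] at e2
  have e3 : ρ ≤ |(N * af + (F f).eps * df + t * df) - (N * ag + ((j : ℝ) + 1 / 2 + (F g).eps) * dg)| := by
    rw [abs_sub_comm]
    refine le_trans ?_ (le_abs_self _)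
    linarith
  calc ρ ≤ ‖e‖ * ‖((N : ℂ) * (F f).a + (F f).eps * (F f).d + t * (F f).d)
        - pt ((N : ℂ) * (F g).a + (F g).eps * (F g).d) (F g).d j‖ := e3.trans e2
    _ ≤ 1 * ‖((N : ℂ) * (F f).a + (F f).eps * (F f).d + t * (F f).d)
        - pt ((N : ℂ) * (F g).a + (F g).eps * (F g).d) (F g).d j‖ := by gcongr
    _ = _ := one_mul _

theorem ptsE_injective (hF : OkE F) {ρ : ℝ} (hρ : 0 < ρ) (hsep : SepE F ρ) {N : ℕ}
    (hN : 0 < N) : Function.Injective (ptsE F N) := by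
  have key : ∀ (f g : Fin r) (i : Fin ((F f).n * N)) (j : Fin ((F g).n * N)), f < g →
      ptsE F N ⟨f, i⟩ ≠ ptsE F N ⟨g, j⟩ := by
    intro f g i j hfg heq
    have h1 := hsep N hN f g hfg ((i : ℝ) + 1 / 2) ⟨by positivity, by
      have : ((i : ℕ) : ℝ) + 1 ≤ ((F f).n * N : ℕ) := by exact_mod_cast i.2
      push_cast at this; linarith⟩ j j.2
    have e : (N : ℂ) * (F f).a + (F f).eps * (F f).d + (((i : ℝ) + 1 / 2 : ℝ) : ℂ) * (F f).d
        = pt ((N : ℂ) * (F f).a + (F f).eps * (F f).d) (F f).d i := by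
      unfold pt; push_cast; ring
    simp only [ptsE] at heq
    rw [e, heq, sub_self, norm_zero] at h1
    linarith
  rintro ⟨f, i⟩ ⟨g, j⟩ heq
  rcases lt_trichotomy f g with h | h | h
  · exact absurd heq (key f g i j h)
  · subst h
    simp only [ptsE, pt] at heq
    have h1 : ((i : ℕ) : ℂ) = ((j : ℕ) : ℂ) := by
      have h2 := add_left_cancel heq
      have h3 := mul_right_cancel₀ (hF.d0 f) h2
      linear_combination h3
    have h4 : (i : ℕ) = j := by exact_mod_cast h1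
    have h5 : i = j := Fin.ext h4
    rw [h5]
  · exact absurd heq.symm (key g f j i h)

theorem log_affine_le {C : ℝ} (hC : 1 ≤ C) {N : ℕ} (hN : 0 < N) :
    Real.log (C * N) ≤ (1 + Real.log C) * (1 + Real.log N) := by
  have hN' : (0 : ℝ) < N := by exact_mod_cast hN
  have hlN : 0 ≤ Real.log (N : ℝ) := Real.log_nonneg (by exact_mod_cast hN)
  have hlC : 0 ≤ Real.log C := Real.log_nonneg hC
  rw [Real.log_mul (by positivity) hN'.ne']
  nlinarith [mul_nonneg hlC hlN]

theorem assemble_B {m K L D N lKN : ℝ} (hm : 0 ≤ m) (hK : 1 ≤ K) (_hL0 : 0 ≤ L) (hD : 0 ≤ D)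
    (hN : 1 ≤ N) (hlN : 0 ≤ Real.log N) (hl : lKN ≤ L * (1 + Real.log N)) :
    N * m * (3 + lKN) + 2 * (D * (K * N) + 2 * (K * N * lKN + 1 + Real.pi * (K * N)))
      ≤ (m * (3 + L) + 2 * (D * K + 2 * (K * L + 1 + Real.pi * K))) * (N * (1 + Real.log N)) := by
  have hN0 : 0 ≤ N := by linarith
  have hK0 : 0 ≤ K := by linarith
  have hpi := Real.pi_pos.le
  have t1 : N * m * (3 + lKN) ≤ m * (3 + L) * (N * (1 + Real.log N)) := by
    have h1 : 3 + lKN ≤ (3 + L) * (1 + Real.log N) := by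
      have : (3 + L) * (1 + Real.log N) = 3 + 3 * Real.log N + L * (1 + Real.log N) := by ring
      rw [this]; linarith
    have h2 : 0 ≤ N * m := mul_nonneg hN0 hm
    calc _ ≤ N * m * ((3 + L) * (1 + Real.log N)) := mul_le_mul_of_nonneg_left h1 h2
      _ = _ := by ring
  have t2 : D * (K * N) ≤ D * K * (N * (1 + Real.log N)) := by
    have h0 : 0 ≤ D * K * N := mul_nonneg (mul_nonneg hD hK0) hN0
    have h1 : D * K * N * 1 ≤ D * K * N * (1 + Real.log N) :=
      mul_le_mul_of_nonneg_left (by linarith) h0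
    calc _ = D * K * N * 1 := by ring
      _ ≤ _ := h1
      _ = _ := by ring
  have t3 : K * N * lKN ≤ K * L * (N * (1 + Real.log N)) := by
    have h0 : 0 ≤ K * N := mul_nonneg hK0 hN0
    calc _ ≤ K * N * (L * (1 + Real.log N)) := mul_le_mul_of_nonneg_left hl h0
      _ = _ := by ring
  have t4 : (1 : ℝ) ≤ 1 * (N * (1 + Real.log N)) := by
    have : N * 1 ≤ N * (1 + Real.log N) := mul_le_mul_of_nonneg_left (by linarith) hN0
    linarith
  have t5 : Real.pi * (K * N) ≤ Real.pi * K * (N * (1 + Real.log N)) := by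
    have h0 : 0 ≤ Real.pi * K * N := mul_nonneg (mul_nonneg hpi hK0) hN0
    have h1 : Real.pi * K * N * 1 ≤ Real.pi * K * N * (1 + Real.log N) :=
      mul_le_mul_of_nonneg_left (by linarith) h0
    calc _ = Real.pi * K * N * 1 := by ring
      _ ≤ _ := h1
      _ = _ := by ring
  have e : (m * (3 + L) + 2 * (D * K + 2 * (K * L + 1 + Real.pi * K))) * (N * (1 + Real.log N))
      = m * (3 + L) * (N * (1 + Real.log N)) + 2 * (D * K * (N * (1 + Real.log N))
        + 2 * (K * L * (N * (1 + Real.log N)) + 1 * (N * (1 + Real.log N))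
          + Real.pi * K * (N * (1 + Real.log N)))) := by ring
  rw [e]
  linarith

set_option maxHeartbeats 1000000 in
/-- mutual energy of two families with offsets on the scale `N^2` -/
theorem mutual_estimateE (f g : FamE) (hdf : f.d ≠ 0) (hdg : g.d ≠ 0) (hef : |f.eps| ≤ 1)
    (heg : |g.eps| ≤ 1) {ρ : ℝ} (hρ : 0 < ρ)
    (hsep : ∀ N : ℕ, 0 < N → ∀ t ∈ Set.Icc (0 : ℝ) (f.n * N), ∀ j < g.n * N,
      ρ ≤ ‖((N : ℂ) * f.a + f.eps * f.d + t * f.d) - pt ((N : ℂ) * g.a + g.eps * g.d) g.d j‖) :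
    ∃ C : ℝ, 0 ≤ C ∧ ∀ N : ℕ, 0 < N →
      |∑ i ∈ Finset.range (f.n * N), ∑ j ∈ Finset.range (g.n * N),
          Real.log ‖pt ((N : ℂ) * f.a + f.eps * f.d) f.d i - pt ((N : ℂ) * g.a + g.eps * g.d) g.d j‖
        - (N : ℝ) ^ 2 * ((f.n : ℝ) * g.n * Real.log N + mutE f.a f.d f.n g.a g.d g.n)|
        ≤ C * (N * (1 + Real.log N)) := by
  obtain ⟨δ, hδ, hδ1, hδf, hδg⟩ : ∃ δ : ℝ, 0 < δ ∧ δ ≤ 1 ∧ δ * ‖f.d‖ ≤ ρ ∧ δ * ‖g.d‖ ≤ ρ := by
    have hf0 := norm_nonneg f.d
    have hg0 := norm_nonneg g.d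
    have hpos : 0 < ‖f.d‖ + ‖g.d‖ + 1 := by linarith
    have key : ∀ x : ℝ, 0 ≤ x → x ≤ ‖f.d‖ + ‖g.d‖ + 1 → min 1 (ρ / (‖f.d‖ + ‖g.d‖ + 1)) * x ≤ ρ := by
      intro x hx0 hx
      calc min 1 (ρ / (‖f.d‖ + ‖g.d‖ + 1)) * x ≤ (ρ / (‖f.d‖ + ‖g.d‖ + 1)) * (‖f.d‖ + ‖g.d‖ + 1) := by
            apply mul_le_mul (min_le_right _ _) hx hx0 (by positivity)
        _ = ρ := by field_simp
    exact ⟨min 1 (ρ / (‖f.d‖ + ‖g.d‖ + 1)), by positivity, min_le_left _ _,
      key _ hf0 (by linarith), key _ hg0 (by linarith)⟩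
  set E : ℝ := 22 + 11 * Real.log (1 / δ) with hE
  have hE0 : 0 ≤ E := by
    have : 0 ≤ Real.log (1 / δ) := Real.log_nonneg (by rw [le_div_iff₀ hδ]; linarith)
    positivity
  -- radius constant
  set K : ℝ := 2 + (‖(f.a - g.a) / g.d‖ + (f.n + 2) * ‖f.d / g.d‖) + g.n with hK
  have hK1 : 1 ≤ K := by
    have h1 : 0 ≤ ‖(f.a - g.a) / g.d‖ := norm_nonneg _
    have h2 : 0 ≤ ((f.n : ℝ) + 2) * ‖f.d / g.d‖ := by positivity
    have h3 : (0 : ℝ) ≤ g.n := by positivity
    linarith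
  set L : ℝ := 1 + Real.log K with hL
  have hL0 : 0 ≤ L := by have := Real.log_nonneg hK1; linarith
  have hpi := Real.pi_pos
  set C2 : ℝ := f.n * (3 + L) + 2 * ((|Real.log ‖g.d‖| + 1) * K + 2 * (K * L + 1 + Real.pi * K)) with hC2
  have hC20 : 0 ≤ C2 := by positivity
  refine ⟨((f.n : ℝ) + g.n) * E + C2, by positivity, fun N hN => ?_⟩
  have hN' : (0 : ℝ) < N := by exact_mod_cast hN
  have hN1 : (1 : ℝ) ≤ N := by exact_mod_cast hN
  have hlN : 0 ≤ Real.log (N : ℝ) := Real.log_nonneg hN1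
  have hs := hsep N hN
  have h1 := abs_mutual_sub_le (a := (N : ℂ) * f.a + f.eps * f.d) (d := f.d)
      (a' := (N : ℂ) * g.a + g.eps * g.d)
      (d' := g.d) hdf hdg (m := f.n * N) (m' := g.n * N) hδ hδ1
      (by
        intro i hi j hj
        have h2 := hs ((i : ℝ) + 1 / 2) ⟨by positivity, by
          have : (i : ℝ) + 1 ≤ (f.n * N : ℕ) := by exact_mod_cast hi
          push_cast at this; linarith⟩ j hj
        have e : (N : ℂ) * f.a + f.eps * f.d + (((i : ℝ) + 1 / 2 : ℝ) : ℂ) * f.d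
            = pt ((N : ℂ) * f.a + f.eps * f.d) f.d i := by
          unfold pt; push_cast; ring
        rw [e, norm_sub_rev] at h2
        exact hδf.trans h2)
      (by
        intro t ht j hj
        have h2 := hs t (by push_cast at ht; exact ht) j hj
        exact hδg.trans h2)
  have e1 : (((f.n * N : ℕ) : ℝ)) = (N : ℝ) * f.n := by push_cast; ring
  have e2 : (((g.n * N : ℕ) : ℝ)) = (N : ℝ) * g.n := by push_cast; ring
  have h3 : ∫ t in (0 : ℝ)..((f.n * N : ℕ) : ℝ), Iseg ((N : ℂ) * g.a + g.eps * g.d) g.d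
        ((g.n * N : ℕ) : ℝ) ((N : ℂ) * f.a + f.eps * f.d + t * f.d)
      = mutE ((N : ℂ) * f.a + f.eps * f.d) f.d ((N : ℝ) * f.n)
        ((N : ℂ) * g.a + g.eps * g.d) g.d ((N : ℝ) * g.n) := by
    unfold mutE
    rw [e1, e2]
  rw [h3] at h1
  have h4 := mut_scale (a := f.a) (d := f.d) (a' := g.a) (d' := g.d) (f.n : ℝ) (g.n : ℝ) hN' hdg
  push_cast at h4
  -- the radius for size N
  have hR : 2 + (‖((N : ℂ) * f.a - (N : ℂ) * g.a) / g.d‖ + ((N : ℝ) * f.n + 2) * ‖f.d / g.d‖)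
      + (N : ℝ) * g.n ≤ K * N := by
    have e3 : ((N : ℂ) * f.a - (N : ℂ) * g.a) / g.d = (N : ℂ) * ((f.a - g.a) / g.d) := by ring
    rw [e3, norm_mul, Complex.norm_natCast]
    have h5 : 0 ≤ ‖f.d / g.d‖ := norm_nonneg _
    have h6 : ((N : ℝ) * f.n + 2) * ‖f.d / g.d‖ ≤ N * ((f.n + 2) * ‖f.d / g.d‖) := by
      have : (N : ℝ) * f.n + 2 ≤ N * (f.n + 2) := by nlinarith
      calc _ ≤ (N * (f.n + 2)) * ‖f.d / g.d‖ := by gcongr
        _ = _ := by ring
    have h7 : (2 : ℝ) ≤ 2 * N := by linarith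
    have e4 : K * N = 2 * N + (N * ‖(f.a - g.a) / g.d‖ + N * ((f.n + 2) * ‖f.d / g.d‖)) + N * g.n := by
      rw [hK]; ring
    rw [e4]
    linarith
  have h5 := abs_mutE_shift_le (a := (N : ℂ) * f.a) (d := f.d) (a' := (N : ℂ) * g.a) (d' := g.d)
    hdf hdg (m := (N : ℝ) * f.n) (m' := (N : ℝ) * g.n) (R := K * N) (by positivity) (by positivity)
    hef heg hR
  have hlogKN : Real.log (K * N) ≤ L * (1 + Real.log N) := log_affine_le hK1 hN
  have hB : (N : ℝ) * f.n * (3 + Real.log (K * N)) + 2 * ((|Real.log ‖g.d‖| + 1) * (K * N)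
      + 2 * (K * N * Real.log (K * N) + 1 + Real.pi * (K * N))) ≤ C2 * (N * (1 + Real.log N)) := by
    rw [hC2]
    exact assemble_B (by positivity) hK1 hL0 (by positivity) hN1 hlN hlogKN
  have hA : (((f.n * N : ℕ) : ℝ) + ((g.n * N : ℕ) : ℝ)) * (22 + 11 * Real.log (1 / δ))
      ≤ ((f.n : ℝ) + g.n) * E * (N * (1 + Real.log N)) := by
    rw [← hE, e1, e2]
    have h6 : 0 ≤ ((f.n : ℝ) + g.n) * E * N := by positivity
    have h7 := mul_nonneg h6 hlN
    have e6 : ((N : ℝ) * f.n + N * g.n) * E = ((f.n : ℝ) + g.n) * E * N := by ring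
    have e7 : ((f.n : ℝ) + g.n) * E * (N * (1 + Real.log N))
      = ((f.n : ℝ) + g.n) * E * N + ((f.n : ℝ) + g.n) * E * N * Real.log N := by ring
    rw [e6, e7]
    linarith
  have hsum : ∑ i ∈ Finset.range (f.n * N), ∑ j ∈ Finset.range (g.n * N),
          Real.log ‖pt ((N : ℂ) * f.a + f.eps * f.d) f.d i - pt ((N : ℂ) * g.a + g.eps * g.d) g.d j‖
      = ∑ j ∈ Finset.range (g.n * N), ∑ i ∈ Finset.range (f.n * N),
          Real.log ‖pt ((N : ℂ) * g.a + g.eps * g.d) g.d j - pt ((N : ℂ) * f.a + f.eps * f.d) f.d i‖ := by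
    rw [Finset.sum_comm]
    apply Finset.sum_congr rfl
    intro i _
    apply Finset.sum_congr rfl
    intro j _
    rw [norm_sub_rev]
  rw [hsum, ← h4]
  calc _ = |(∑ j ∈ Finset.range (g.n * N), ∑ i ∈ Finset.range (f.n * N),
          Real.log ‖pt ((N : ℂ) * g.a + g.eps * g.d) g.d j - pt ((N : ℂ) * f.a + f.eps * f.d) f.d i‖
          - mutE ((N : ℂ) * f.a + f.eps * f.d) f.d ((N : ℝ) * f.n)
            ((N : ℂ) * g.a + g.eps * g.d) g.d ((N : ℝ) * g.n))
        + (mutE ((N : ℂ) * f.a + f.eps * f.d) f.d ((N : ℝ) * f.n)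
            ((N : ℂ) * g.a + g.eps * g.d) g.d ((N : ℝ) * g.n)
          - mutE ((N : ℂ) * f.a) f.d ((N : ℝ) * f.n) ((N : ℂ) * g.a) g.d ((N : ℝ) * g.n))| := by
        congr 1; ring
    _ ≤ _ := (abs_add_le _ _).trans (add_le_add (h1.trans hA) (h5.trans hB))
    _ = _ := by ring

theorem LE_ptsE (N : ℕ) : LE (ptsE F N) (musE F N)
    = ∑ f, ∑ g, ((F f).mu : ℝ) * (F g).mu * ∑ i ∈ Finset.range ((F f).n * N),
      ∑ j ∈ Finset.range ((F g).n * N),
        Real.log ‖pt ((N : ℂ) * (F f).a + (F f).eps * (F f).d) (F f).d i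
          - pt ((N : ℂ) * (F g).a + (F g).eps * (F g).d) (F g).d j‖ := by
  unfold LE
  rw [Fintype.sum_sigma]
  apply Finset.sum_congr rfl
  intro f _
  have h1 : ∀ i : Fin ((F f).n * N), ∑ y : IdxE F N, (musE F N ⟨f, i⟩ : ℝ) * musE F N y
      * Real.log ‖ptsE F N ⟨f, i⟩ - ptsE F N y‖
      = ∑ g, ((F f).mu : ℝ) * (F g).mu * ∑ j ∈ Finset.range ((F g).n * N),
        Real.log ‖pt ((N : ℂ) * (F f).a + (F f).eps * (F f).d) (F f).d i
          - pt ((N : ℂ) * (F g).a + (F g).eps * (F g).d) (F g).d j‖ := by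
    intro i
    rw [Fintype.sum_sigma]
    apply Finset.sum_congr rfl
    intro g _
    rw [Finset.sum_range, Finset.mul_sum]
    rfl
  simp_rw [h1]
  rw [Finset.sum_comm]
  apply Finset.sum_congr rfl
  intro g _
  rw [Finset.sum_range, ← Finset.mul_sum]

/-- the confluent Vandermonde energy on the scale `N^2` -/
theorem LE_estimateE (hF : OkE F) {ρ : ℝ} (hρ : 0 < ρ) (hsep : SepE F ρ) :
    ∃ C : ℝ, 0 ≤ C ∧ ∀ N : ℕ, 0 < N →
      |LE (ptsE F N) (musE F N) - (N : ℝ) ^ 2 * ((massE F : ℝ) ^ 2 * Real.log N + EnE F)|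
        ≤ C * (N * (1 + Real.log N)) := by
  have hm := fun f g : Fin r => fun hfg : f < g =>
    mutual_estimateE (F f) (F g) (hF.d0 f) (hF.d0 g) (hF.eps1 f) (hF.eps1 g) hρ
      (fun N hN t ht j hj => hsep N hN f g hfg t ht j hj)
  have hm' : ∀ f g : Fin r, ∃ C : ℝ, 0 ≤ C ∧ (f < g → ∀ N : ℕ, 0 < N →
      |∑ i ∈ Finset.range ((F f).n * N), ∑ j ∈ Finset.range ((F g).n * N),
          Real.log ‖pt ((N : ℂ) * (F f).a + (F f).eps * (F f).d) (F f).d i
            - pt ((N : ℂ) * (F g).a + (F g).eps * (F g).d) (F g).d j‖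
        - (N : ℝ) ^ 2 * (((F f).n : ℝ) * (F g).n * Real.log N
          + mutE (F f).a (F f).d (F f).n (F g).a (F g).d (F g).n)|
        ≤ C * (N * (1 + Real.log N))) := by
    intro f g
    by_cases h : f < g
    · obtain ⟨C, hC, h2⟩ := hm f g h
      exact ⟨C, hC, fun _ => h2⟩
    · exact ⟨0, le_rfl, fun h' => absurd h' h⟩
  choose Cm0 hCm0' hCm' using hm'
  set Cs : Fin r → ℝ := fun f => ((F f).mu : ℝ) ^ 2 * ((F f).n * (2 + 2 * Real.log (F f).n + 2
    + |Real.log ‖(F f).d‖|)) with hCs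
  set Cm : Fin r → Fin r → ℝ := fun f g => ((F f).mu : ℝ) * (F g).mu * Cm0 f g with hCm
  have hlogn : ∀ f, 0 ≤ Real.log ((F f).n : ℝ) := fun f => Real.log_natCast_nonneg _
  have hCs0 : ∀ f, 0 ≤ Cs f := fun f => by
    have := hlogn f
    simp only [hCs]; positivity
  have hCm0 : ∀ f g, 0 ≤ Cm f g := fun f g => by
    have := hCm0' f g
    simp only [hCm]; positivity
  refine ⟨∑ f, Cs f + 2 * ∑ f, ∑ g ∈ Finset.Ioi f, Cm f g, ?_, ?_⟩
  · have h1 : 0 ≤ ∑ f, Cs f := Finset.sum_nonneg fun f _ => hCs0 f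
    have h2 : 0 ≤ ∑ f, ∑ g ∈ Finset.Ioi f, Cm f g :=
      Finset.sum_nonneg fun f _ => Finset.sum_nonneg fun g _ => hCm0 f g
    linarith
  intro N hN
  have hN' : (0 : ℝ) < N := by exact_mod_cast hN
  have hlN : 0 ≤ Real.log (N : ℝ) := Real.log_nonneg (by exact_mod_cast hN)
  rw [LE_ptsE]
  set S : Fin r → Fin r → ℝ := fun f g => ((F f).mu : ℝ) * (F g).mu *
    ∑ i ∈ Finset.range ((F f).n * N), ∑ j ∈ Finset.range ((F g).n * N),
        Real.log ‖pt ((N : ℂ) * (F f).a + (F f).eps * (F f).d) (F f).d i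
          - pt ((N : ℂ) * (F g).a + (F g).eps * (F g).d) (F g).d j‖ with hS
  have hSsym : ∀ f g, S f g = S g f := by
    intro f g
    simp only [hS]
    rw [Finset.sum_comm]
    rw [mul_comm ((F f).mu : ℝ)]
    congr 1
    apply Finset.sum_congr rfl
    intro i _
    apply Finset.sum_congr rfl
    intro j _
    rw [norm_sub_rev]
  have hsplit : ∑ f, ∑ g, S f g = ∑ f, S f f + 2 * ∑ f, ∑ g ∈ Finset.Ioi f, S f g := by
    have h1 := sum_ordered_eq (fun f g => if f = g then 0 else S f g)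
      (by intro k l; by_cases h : k = l
          · simp [h]
          · rw [if_neg h, if_neg (Ne.symm h)]; exact hSsym k l) (by intro k; simp)
    have h2 : ∑ f, ∑ g ∈ Finset.Ioi f, (fun f g => if f = g then (0 : ℝ) else S f g) f g
        = ∑ f, ∑ g ∈ Finset.Ioi f, S f g := by
      apply Finset.sum_congr rfl
      intro f _
      apply Finset.sum_congr rfl
      intro g hg
      simp only
      rw [if_neg (ne_of_lt (Finset.mem_Ioi.1 hg))]
    rw [h2] at h1
    rw [← h1, ← Finset.sum_add_distrib]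
    apply Finset.sum_congr rfl
    intro f _
    have h3 : ∀ g, S f g = (if f = g then S f g else 0) + (if f = g then 0 else S f g) := by
      intro g; by_cases h : f = g <;> simp [h]
    rw [Finset.sum_congr rfl (fun g _ => h3 g), Finset.sum_add_distrib]
    congr 1
    simp
  rw [show (∑ f, ∑ g, ((F f).mu : ℝ) * (F g).mu * ∑ i ∈ Finset.range ((F f).n * N),
      ∑ j ∈ Finset.range ((F g).n * N),
        Real.log ‖pt ((N : ℂ) * (F f).a + (F f).eps * (F f).d) (F f).d i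
          - pt ((N : ℂ) * (F g).a + (F g).eps * (F g).d) (F g).d j‖)
      = ∑ f, ∑ g, S f g from rfl, hsplit]
  set Ts : Fin r → ℝ := fun f => (N : ℝ) ^ 2 * (((F f).mu : ℝ) ^ 2 * (((F f).n : ℝ) ^ 2 * Real.log N
    + (((F f).n : ℝ) ^ 2 * Real.log ‖(F f).d‖ + ((F f).n : ℝ) ^ 2 * Real.log (F f).n
      - 3 / 2 * ((F f).n : ℝ) ^ 2))) with hTs
  set Tm : Fin r → Fin r → ℝ := fun f g => (N : ℝ) ^ 2 * (((F f).mu : ℝ) * (F g).mu
    * (((F f).n : ℝ) * (F g).n * Real.log N
      + mutE (F f).a (F f).d (F f).n (F g).a (F g).d (F g).n)) with hTm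
  have hself : ∀ f, |S f f - Ts f| ≤ Cs f * (N * (1 + Real.log N)) := by
    intro f
    have h1 := self_estimate (a := (N : ℂ) * (F f).a + (F f).eps * (F f).d) (hF.d0 f) (F f).n hN
    have e : S f f - Ts f = ((F f).mu : ℝ) ^ 2 *
        (∑ i ∈ Finset.range ((F f).n * N), ∑ j ∈ Finset.range ((F f).n * N),
          Real.log ‖pt ((N : ℂ) * (F f).a + (F f).eps * (F f).d) (F f).d i
            - pt ((N : ℂ) * (F f).a + (F f).eps * (F f).d) (F f).d j‖
          - (N : ℝ) ^ 2 * (((F f).n : ℝ) ^ 2 * Real.log N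
            + (((F f).n : ℝ) ^ 2 * Real.log ‖(F f).d‖
              + ((F f).n : ℝ) ^ 2 * Real.log (F f).n - 3 / 2 * ((F f).n : ℝ) ^ 2))) := by
      simp only [hS, hTs]; ring
    rw [e, abs_mul, abs_of_nonneg (by positivity)]
    have h2 : ((F f).n : ℝ) * N * (2 * Real.log N + 2 * Real.log (F f).n + 2 + |Real.log ‖(F f).d‖|)
        ≤ ((F f).n * (2 + 2 * Real.log (F f).n + 2 + |Real.log ‖(F f).d‖|))
          * (N * (1 + Real.log N)) := by
      have h3 := hlogn f
      have h4 : 0 ≤ ((F f).n : ℝ) * N := by positivity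
      have h5 : 2 * Real.log N + 2 * Real.log (F f).n + 2 + |Real.log ‖(F f).d‖|
          ≤ (2 + 2 * Real.log (F f).n + 2 + |Real.log ‖(F f).d‖|) * (1 + Real.log N) := by
        have h6 := abs_nonneg (Real.log ‖(F f).d‖)
        nlinarith [mul_nonneg h3 hlN, mul_nonneg h6 hlN]
      calc _ ≤ ((F f).n : ℝ) * N * ((2 + 2 * Real.log (F f).n + 2 + |Real.log ‖(F f).d‖|)
            * (1 + Real.log N)) := by gcongr
        _ = _ := by ring
    calc _ ≤ ((F f).mu : ℝ) ^ 2 * (((F f).n * (2 + 2 * Real.log (F f).n + 2 + |Real.log ‖(F f).d‖|))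
          * (N * (1 + Real.log N))) := by
            gcongr
            exact h1.trans h2
      _ = _ := by simp only [hCs]; ring
  have hmut : ∀ f g, f < g → |S f g - Tm f g| ≤ Cm f g * (N * (1 + Real.log N)) := by
    intro f g hfg
    have h1 := hCm' f g hfg N hN
    have e : S f g - Tm f g = ((F f).mu : ℝ) * (F g).mu *
        (∑ i ∈ Finset.range ((F f).n * N), ∑ j ∈ Finset.range ((F g).n * N),
          Real.log ‖pt ((N : ℂ) * (F f).a + (F f).eps * (F f).d) (F f).d i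
            - pt ((N : ℂ) * (F g).a + (F g).eps * (F g).d) (F g).d j‖
          - (N : ℝ) ^ 2 * (((F f).n : ℝ) * (F g).n * Real.log N
          + mutE (F f).a (F f).d (F f).n (F g).a (F g).d (F g).n)) := by
      simp only [hS, hTm]
      ring
    rw [e, abs_mul, abs_of_nonneg (by positivity)]
    calc _ ≤ ((F f).mu : ℝ) * (F g).mu * (Cm0 f g * (N * (1 + Real.log N))) := by gcongr
      _ = _ := by simp only [hCm]; ring
  have htot : (N : ℝ) ^ 2 * ((massE F : ℝ) ^ 2 * Real.log N + EnE F)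
      = ∑ f, Ts f + 2 * ∑ f, ∑ g ∈ Finset.Ioi f, Tm f g := by
    have hm2 : (massE F : ℝ) ^ 2 = ∑ f, ((F f).mu : ℝ) ^ 2 * ((F f).n : ℝ) ^ 2
        + 2 * ∑ f, ∑ g ∈ Finset.Ioi f, ((F f).mu : ℝ) * (F g).mu * ((F f).n * (F g).n) := by
      have h1 : (massE F : ℝ) ^ 2 = ∑ f, ∑ g, (((F f).mu : ℝ) * (F f).n) * (((F g).mu : ℝ) * (F g).n) := by
        unfold massE
        push_cast
        rw [sq, Finset.sum_mul_sum]
      have h2 := sum_ordered_eq (fun f g => if f = g then 0 else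
          (((F f).mu : ℝ) * (F f).n) * (((F g).mu : ℝ) * (F g).n))
        (by intro k l; by_cases h : k = l
            · simp [h]
            · rw [if_neg h, if_neg (Ne.symm h)]; ring) (by intro k; simp)
      have h3 : ∑ f, ∑ g ∈ Finset.Ioi f, (fun f g => if f = g then (0 : ℝ) else
          (((F f).mu : ℝ) * (F f).n) * (((F g).mu : ℝ) * (F g).n)) f g
          = ∑ f, ∑ g ∈ Finset.Ioi f, ((F f).mu : ℝ) * (F g).mu * ((F f).n * (F g).n) := by
        apply Finset.sum_congr rfl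
        intro f _
        apply Finset.sum_congr rfl
        intro g hg
        simp only
        rw [if_neg (ne_of_lt (Finset.mem_Ioi.1 hg))]
        ring
      rw [h3] at h2
      rw [h1, ← h2, ← Finset.sum_add_distrib]
      apply Finset.sum_congr rfl
      intro f _
      have h4 : ∀ g, (((F f).mu : ℝ) * (F f).n) * (((F g).mu : ℝ) * (F g).n)
          = (if f = g then (((F f).mu : ℝ) * (F f).n) * (((F g).mu : ℝ) * (F g).n) else 0)
            + (if f = g then 0 else (((F f).mu : ℝ) * (F f).n) * (((F g).mu : ℝ) * (F g).n)) := by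
        intro g; by_cases h : f = g <;> simp [h]
      rw [Finset.sum_congr rfl (fun g _ => h4 g), Finset.sum_add_distrib]
      congr 1
      simp
      ring
    have t1 : ∑ f, Ts f = (N : ℝ) ^ 2 * ((∑ f, ((F f).mu : ℝ) ^ 2 * ((F f).n : ℝ) ^ 2) * Real.log N
        + ∑ f, ((F f).mu : ℝ) ^ 2 * (((F f).n : ℝ) ^ 2 * Real.log ‖(F f).d‖
      + ((F f).n : ℝ) ^ 2 * Real.log (F f).n - 3 / 2 * ((F f).n : ℝ) ^ 2)) := by
      rw [Finset.sum_mul, ← Finset.sum_add_distrib, Finset.mul_sum]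
      apply Finset.sum_congr rfl
      intro f _
      simp only [hTs]; ring
    have t2 : ∑ f, ∑ g ∈ Finset.Ioi f, Tm f g = (N : ℝ) ^ 2 * ((∑ f, ∑ g ∈ Finset.Ioi f,
        ((F f).mu : ℝ) * (F g).mu * ((F f).n * (F g).n)) * Real.log N
        + ∑ f, ∑ g ∈ Finset.Ioi f, ((F f).mu : ℝ) * (F g).mu
      * mutE (F f).a (F f).d (F f).n (F g).a (F g).d (F g).n) := by
      rw [Finset.sum_mul, ← Finset.sum_add_distrib, Finset.mul_sum]
      apply Finset.sum_congr rfl
      intro f _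
      rw [Finset.sum_mul, ← Finset.sum_add_distrib, Finset.mul_sum]
      apply Finset.sum_congr rfl
      intro g _
      simp only [hTm]; ring
    unfold EnE
    rw [hm2, t1, t2]
    ring
  rw [htot]
  have e : ∑ f, S f f + 2 * ∑ f, ∑ g ∈ Finset.Ioi f, S f g
      - (∑ f, Ts f + 2 * ∑ f, ∑ g ∈ Finset.Ioi f, Tm f g)
      = ∑ f, (S f f - Ts f) + 2 * ∑ f, ∑ g ∈ Finset.Ioi f, (S f g - Tm f g) := by
    simp only [Finset.sum_sub_distrib]
    ring
  rw [e]
  have h1 : |∑ f, (S f f - Ts f)| ≤ (∑ f, Cs f) * (N * (1 + Real.log N)) := by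
    rw [Finset.sum_mul]
    exact (Finset.abs_sum_le_sum_abs _ _).trans (Finset.sum_le_sum fun f _ => hself f)
  have h2 : |∑ f, ∑ g ∈ Finset.Ioi f, (S f g - Tm f g)|
      ≤ (∑ f, ∑ g ∈ Finset.Ioi f, Cm f g) * (N * (1 + Real.log N)) := by
    rw [Finset.sum_mul]
    refine (Finset.abs_sum_le_sum_abs _ _).trans (Finset.sum_le_sum fun f _ => ?_)
    rw [Finset.sum_mul]
    exact (Finset.abs_sum_le_sum_abs _ _).trans
      (Finset.sum_le_sum fun g hg => hmut f g (Finset.mem_Ioi.1 hg))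
  calc _ ≤ |∑ f, (S f f - Ts f)| + |2 * ∑ f, ∑ g ∈ Finset.Ioi f, (S f g - Tm f g)| := abs_add_le _ _
    _ = |∑ f, (S f f - Ts f)| + 2 * |∑ f, ∑ g ∈ Finset.Ioi f, (S f g - Tm f g)| := by
        rw [abs_mul]; norm_num
    _ ≤ _ := by linarith

/-- both bounds of the confluent Vandermonde (helper257's `V w m`) -/
theorem V_boundsE (hF : OkE F) {ρ : ℝ} (hρ : 0 < ρ) (hsep : SepE F ρ) :
    ∃ C : ℝ, 0 ≤ C ∧ ∀ N : ℕ, 0 < N → ∀ (s : ℕ) (e : Fin s ≃ IdxE F N),
      Real.exp ((N : ℝ) ^ 2 / 2 * ((massE F : ℝ) ^ 2 * Real.log N + EnE F) - C * (N * (1 + Real.log N)))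
        ≤ ‖Leib257.V (fun x => ptsE F N (e x)) (fun x => musE F N (e x))‖ ∧
      ‖Leib257.V (fun x => ptsE F N (e x)) (fun x => musE F N (e x))‖ ≤
        Real.exp ((N : ℝ) ^ 2 / 2 * ((massE F : ℝ) ^ 2 * Real.log N + EnE F)
          + C * (N * (1 + Real.log N))) := by
  obtain ⟨C, hC, h⟩ := LE_estimateE F hF hρ hsep
  refine ⟨C, hC, fun N hN s e => ?_⟩
  have hinj : Function.Injective (fun x => ptsE F N (e x)) :=
    (ptsE_injective F hF hρ hsep hN).comp e.injective
  have h1 := two_log_norm_V _ (fun x => musE F N (e x)) hinj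
  rw [LE_comp e] at h1
  have h2 := abs_le.mp (h N hN)
  have hpos : 0 < ‖Leib257.V (fun x => ptsE F N (e x)) (fun x => musE F N (e x))‖ :=
    norm_pos_iff.mpr (Leib257.V_ne_zero _ _ hinj)
  have hN' : (0 : ℝ) < N := by exact_mod_cast hN
  have hlN : 0 ≤ Real.log (N : ℝ) := Real.log_nonneg (by exact_mod_cast hN)
  have hE : 0 ≤ C * (N * (1 + Real.log N)) := by positivity
  constructor
  · rw [← Real.le_log_iff_exp_le hpos]
    linarith [h2.1]
  · rw [← Real.log_le_iff_le_exp hpos]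
    linarith [h2.2]

end Crest.Agent.R006.Potx943
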