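import Crest.Agent.R006.P3_PotE_943

/-! Row 6, block P3, leaf POT, part 5 (helper943): products with one factor removed, i.e. the values of
the Lagrange-Hermite basis `lag` of helper257 at arbitrary points `s` (no distance condition). -/

set_option autoImplicit false

namespace Crest.Agent.R006.Potx943

open MeasureTheory Set

/-- sum with one term removed, every `w` -/
theorem sum_log_erase_le (w : ℂ) (m k : ℕ) (hk : k < m) :
    ∑ j ∈ (Finset.range m).erase k, Real.log ‖w - ((j : ℂ) + 1 / 2)‖ ≤ seg w m + 24 := by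
  rw [seg_eq_sum]
  have h1 : ∀ j ∈ Finset.range m, Real.log ‖w - ((j : ℂ) + 1 / 2)‖ ≤
      cell (w - ((j : ℂ) + 1 / 2)) + 2 * (1 / (max 1 |w.re - ((j : ℝ) + 1 / 2)|) ^ 2) := by
    intro j _
    have h := cell_upper (w - ((j : ℂ) + 1 / 2))
    have e : (w - ((j : ℂ) + 1 / 2)).re = w.re - ((j : ℝ) + 1 / 2) := by
      simp
    rw [e] at h
    linarith
  have h2 : ∑ j ∈ (Finset.range m).erase k, Real.log ‖w - ((j : ℂ) + 1 / 2)‖ ≤
      ∑ j ∈ (Finset.range m).erase k, (cell (w - ((j : ℂ) + 1 / 2))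
        + 2 * (1 / (max 1 |w.re - ((j : ℝ) + 1 / 2)|) ^ 2)) :=
    Finset.sum_le_sum fun j hj => h1 j (Finset.mem_of_mem_erase hj)
  rw [Finset.sum_add_distrib, ← Finset.mul_sum] at h2
  have h3 : ∑ j ∈ (Finset.range m).erase k, 1 / (max 1 |w.re - ((j : ℝ) + 1 / 2)|) ^ 2 ≤ 11 :=
    (Finset.sum_le_sum_of_subset_of_nonneg (Finset.erase_subset _ _)
      (fun _ _ _ => by positivity)).trans (sum_inv_sq_le w.re m)
  have h4 := Finset.add_sum_erase (Finset.range m) (fun j => cell (w - ((j : ℂ) + 1 / 2)))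
    (Finset.mem_range.mpr hk)
  have h5 := cell_ge (w - ((k : ℂ) + 1 / 2))
  linarith

theorem prod_erase_le_exp_Iseg {a d : ℂ} (hd : d ≠ 0) (m k : ℕ) (hk : k < m) (s : ℂ) :
    ∏ j ∈ (Finset.range m).erase k, ‖s - pt a d j‖
      ≤ Real.exp (Iseg a d m s + 24 + |Real.log ‖d‖|) := by
  by_cases h : ∃ j ∈ (Finset.range m).erase k, ‖s - pt a d j‖ = 0
  · obtain ⟨j, hj, h0⟩ := h
    rw [Finset.prod_eq_zero hj h0]
    positivity
  · push Not at h
    have hpos : ∀ j ∈ (Finset.range m).erase k, 0 < ‖s - pt a d j‖ := fun j hj =>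
      lt_of_le_of_ne (norm_nonneg _) (Ne.symm (h j hj))
    rw [← Real.log_le_iff_le_exp (Finset.prod_pos hpos), Real.log_prod (fun j hj => (hpos j hj).ne')]
    have hcard : (((Finset.range m).erase k).card : ℝ) = m - 1 := by
      rw [Finset.card_erase_of_mem (Finset.mem_range.mpr hk), Finset.card_range]
      rw [Nat.cast_sub (by omega)]; simp
    have h1 : ∑ j ∈ (Finset.range m).erase k, Real.log ‖s - pt a d j‖
        = (m - 1) * Real.log ‖d‖
          + ∑ j ∈ (Finset.range m).erase k, Real.log ‖(s - a) / d - ((j : ℂ) + 1 / 2)‖ := by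
      rw [← hcard, ← nsmul_eq_mul, ← Finset.sum_const, ← Finset.sum_add_distrib]
      apply Finset.sum_congr rfl
      intro j hj
      have h2 := h j hj
      rw [norm_sub_pt hd] at h2 ⊢
      exact Real.log_mul (left_ne_zero_of_mul h2) (right_ne_zero_of_mul h2)
    rw [h1, Iseg_eq hd]
    have h2 := sum_log_erase_le ((s - a) / d) m k hk
    have h3 := neg_abs_le (Real.log ‖d‖)
    linarith


/-! ### products over sigma types with one factor partly removed -/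

theorem pow_aux {A b E : ℝ} (hA0 : 0 ≤ A) (hb0 : 0 ≤ b) (h1 : A ≤ E) (h2 : b * A ≤ E) {i m : ℕ}
    (hi : i ≤ m) : A ^ m * b ^ i ≤ E ^ m := by
  obtain ⟨l, rfl⟩ := Nat.exists_eq_add_of_le hi
  have hE : 0 ≤ E := hA0.trans h1
  calc A ^ (i + l) * b ^ i = (b * A) ^ i * A ^ l := by rw [pow_add, mul_pow]; ring
    _ ≤ E ^ i * E ^ l :=
        mul_le_mul (pow_le_pow_left₀ (mul_nonneg hb0 hA0) h2 i) (pow_le_pow_left₀ hA0 h1 l)
          (pow_nonneg hA0 l) (pow_nonneg hE i)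
    _ = E ^ (i + l) := by rw [pow_add]

theorem mk_inj {r : ℕ} {n : Fin r → ℕ} (f : Fin r) :
    Function.Injective (fun j : Fin (n f) => (⟨f, j⟩ : Σ f, Fin (n f))) := by
  intro a b h
  exact eq_of_heq (Sigma.mk.inj_iff.mp h).2

theorem sigma_erase {r : ℕ} {n : Fin r → ℕ} (f : Fin r) (k : Fin (n f)) :
    (Finset.univ.erase (⟨f, k⟩ : Σ f, Fin (n f)))
      = ((Finset.univ.erase f).sigma fun _ => Finset.univ)
        ∪ (Finset.univ.erase k).map ⟨fun j => (⟨f, j⟩ : Σ f, Fin (n f)), mk_inj f⟩ := by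
  ext ⟨g, j⟩
  simp only [Finset.mem_erase, Finset.mem_univ, and_true, Finset.mem_union, Finset.mem_sigma,
    Finset.mem_map, Function.Embedding.coeFn_mk]
  constructor
  · intro h
    by_cases hg : g = f
    · subst hg
      right
      refine ⟨j, ?_, rfl⟩
      intro hj; apply h; rw [hj]
    · left; exact hg
  · rintro (h | ⟨j', hj', heq⟩)
    · intro heq
      apply h
      exact congrArg Sigma.fst heq
    · intro heq2
      rw [← heq] at heq2
      exact hj' (mk_inj f heq2)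

theorem sigma_prod_erase {r : ℕ} {n : Fin r → ℕ} (Q : (Σ f, Fin (n f)) → ℝ) (f : Fin r)
    (k : Fin (n f)) :
    ∏ y ∈ Finset.univ.erase (⟨f, k⟩ : Σ f, Fin (n f)), Q y
      = (∏ g ∈ Finset.univ.erase f, ∏ j, Q ⟨g, j⟩) * ∏ j ∈ Finset.univ.erase k, Q ⟨f, j⟩ := by
  rw [sigma_erase, Finset.prod_union, Finset.prod_sigma, Finset.prod_map]
  · rfl
  · rw [Finset.disjoint_left]
    rintro ⟨g, j⟩ h1 h2
    simp only [Finset.mem_sigma, Finset.mem_erase, Finset.mem_univ, and_true] at h1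
    simp only [Finset.mem_map, Function.Embedding.coeFn_mk] at h2
    obtain ⟨j', _, heq⟩ := h2
    exact h1 (congrArg Sigma.fst heq).symm

/-- abstract form: bounds for the products over each family, full and with one factor removed -/
theorem sigma_prod_erase_le {r : ℕ} {n mu : Fin r → ℕ} (P : (Σ f, Fin (n f)) → ℝ)
    (hP : ∀ y, 0 ≤ P y) (X : Fin r → ℝ)
    (h1 : ∀ f, ∏ j, P ⟨f, j⟩ ≤ Real.exp (X f))
    (h2 : ∀ f k, ∏ j ∈ Finset.univ.erase k, P ⟨f, j⟩ ≤ Real.exp (X f))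
    (x : Σ f, Fin (n f)) {i : ℕ} (hi : i ≤ mu x.1) :
    (∏ y ∈ Finset.univ.erase x, P y ^ mu y.1) * P x ^ i ≤ Real.exp (∑ f, (mu f : ℝ) * X f) := by
  obtain ⟨f, k⟩ := x
  rw [sigma_prod_erase (fun y => P y ^ mu y.1), mul_assoc]
  have hother : ∀ g : Fin r, ∏ j : Fin (n g), P ⟨g, j⟩ ^ mu g ≤ Real.exp ((mu g : ℝ) * X g) := by
    intro g
    rw [Finset.prod_pow, Real.exp_nat_mul]
    exact pow_le_pow_left₀ (Finset.prod_nonneg fun _ _ => hP _) (h1 g) _
  have hown : (∏ j ∈ Finset.univ.erase k, P ⟨f, j⟩ ^ mu f) * P ⟨f, k⟩ ^ i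
      ≤ Real.exp ((mu f : ℝ) * X f) := by
    rw [Finset.prod_pow, Real.exp_nat_mul]
    refine pow_aux (Finset.prod_nonneg fun _ _ => hP _) (hP _) (h2 f k) ?_ hi
    rw [Finset.mul_prod_erase Finset.univ (fun j => P ⟨f, j⟩) (Finset.mem_univ k)]
    exact h1 f
  have h3 : (∏ g ∈ Finset.univ.erase f, ∏ j : Fin (n g), P ⟨g, j⟩ ^ mu g) ≤
      ∏ g ∈ Finset.univ.erase f, Real.exp ((mu g : ℝ) * X g) :=
    Finset.prod_le_prod (fun g _ => Finset.prod_nonneg fun _ _ => pow_nonneg (hP _) _)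
      (fun g _ => hother g)
  have h4 : 0 ≤ (∏ j ∈ Finset.univ.erase k, P ⟨f, j⟩ ^ mu f) * P ⟨f, k⟩ ^ i :=
    mul_nonneg (Finset.prod_nonneg fun _ _ => pow_nonneg (hP _) _) (pow_nonneg (hP _) _)
  refine (mul_le_mul h3 hown h4 (Finset.prod_nonneg fun _ _ => (Real.exp_pos _).le)).trans ?_
  rw [mul_comm, Finset.mul_prod_erase Finset.univ (fun g => Real.exp ((mu g : ℝ) * X g))
    (Finset.mem_univ f), ← Real.exp_sum]

theorem prod_fin_erase {M : ℕ} (Q : ℕ → ℝ) (i : Fin M) :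
    ∏ j ∈ Finset.univ.erase i, Q j = ∏ j ∈ (Finset.range M).erase (i : ℕ), Q j := by
  have e : (Finset.range M).erase (i : ℕ) = (Finset.univ.erase i).map Fin.valEmbedding := by
    ext j
    simp only [Finset.mem_erase, Finset.mem_range, Finset.mem_map, Finset.mem_univ, and_true,
      Fin.valEmbedding_apply]
    constructor
    · rintro ⟨h1, h2⟩
      exact ⟨⟨j, h2⟩, fun h => h1 (by rw [← h]), rfl⟩
    · rintro ⟨j', h1, rfl⟩
      exact ⟨fun h => h1 (Fin.ext h), j'.2⟩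
  rw [e, Finset.prod_map]
  rfl

/-! ### families without offset -/

section noOffset

variable {r : ℕ} (F : Fin r → Fam)

theorem fam_prod_le (hd : ∀ f, (F f).d ≠ 0) {N : ℕ} (hN : 0 < N) (s : ℂ) (f : Fin r) :
    ∏ j : Fin ((F f).n * N), ‖(N : ℂ) * s - pts F N ⟨f, j⟩‖ ≤
      Real.exp (N * ((F f).n * Real.log N + Iseg (F f).a (F f).d (F f).n s) + 22) := by
  have hN' : (0 : ℝ) < N := by exact_mod_cast hN
  simp only [pts]
  rw [Finset.prod_range (n := (F f).n * N)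
      (f := fun j => ‖(N : ℂ) * s - pt ((N : ℂ) * (F f).a) (F f).d j‖) |>.symm]
  have h2 := prod_le_exp_Iseg (a := (N : ℂ) * (F f).a) (hd f) ((F f).n * N) ((N : ℂ) * s)
  have h3 := Iseg_scale (a := (F f).a) (d := (F f).d) (s := s) ((F f).n : ℝ) hN' (hd f)
  have e : (((F f).n * N : ℕ) : ℝ) = (N : ℝ) * (F f).n := by push_cast; ring
  rw [e] at h2
  push_cast at h3
  rw [h3] at h2
  exact h2

theorem fam_prod_erase_le (hd : ∀ f, (F f).d ≠ 0) {N : ℕ} (hN : 0 < N) (s : ℂ) (f : Fin r)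
    (i : Fin ((F f).n * N)) :
    ∏ j ∈ Finset.univ.erase i, ‖(N : ℂ) * s - pts F N ⟨f, j⟩‖ ≤
      Real.exp (N * ((F f).n * Real.log N + Iseg (F f).a (F f).d (F f).n s) + 24
        + |Real.log ‖(F f).d‖|) := by
  have hN' : (0 : ℝ) < N := by exact_mod_cast hN
  have h1 : ∏ j ∈ Finset.univ.erase i, ‖(N : ℂ) * s - pts F N ⟨f, j⟩‖
      = ∏ j ∈ (Finset.range ((F f).n * N)).erase (i : ℕ),
        ‖(N : ℂ) * s - pt ((N : ℂ) * (F f).a) (F f).d j‖ :=
    prod_fin_erase (fun j => ‖(N : ℂ) * s - pt ((N : ℂ) * (F f).a) (F f).d j‖) i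
  rw [h1]
  have h2 := prod_erase_le_exp_Iseg (a := (N : ℂ) * (F f).a) (hd f) ((F f).n * N) i i.2 ((N : ℂ) * s)
  have h3 := Iseg_scale (a := (F f).a) (d := (F f).d) (s := s) ((F f).n : ℝ) hN' (hd f)
  have e : (((F f).n * N : ℕ) : ℝ) = (N : ℝ) * (F f).n := by push_cast; ring
  rw [e] at h2
  push_cast at h3
  rw [h3] at h2
  exact h2

/-- value of a Lagrange–Hermite basis polynomial at an arbitrary point: the factor of the removed
point enters with an exponent `i ≤ mu` -/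
theorem prod_erase_pts_le (hd : ∀ f, (F f).d ≠ 0) {N : ℕ} (hN : 0 < N) (s : ℂ) (x : Idx F N)
    {i : ℕ} (hi : i ≤ mus F N x) :
    (∏ y ∈ Finset.univ.erase x, ‖(N : ℂ) * s - pts F N y‖ ^ mus F N y)
        * ‖(N : ℂ) * s - pts F N x‖ ^ i ≤
      Real.exp (N * (mass F * Real.log N + U F s) + ∑ f, ((F f).mu : ℝ) * (24 + |Real.log ‖(F f).d‖|)) := by
  have h := sigma_prod_erase_le (n := fun f => (F f).n * N) (mu := fun f => (F f).mu)
    (fun y => ‖(N : ℂ) * s - pts F N y‖) (fun _ => norm_nonneg _)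
    (fun f => N * ((F f).n * Real.log N + Iseg (F f).a (F f).d (F f).n s) + 24
        + |Real.log ‖(F f).d‖|)
    (fun f => (fam_prod_le F hd hN s f).trans (Real.exp_le_exp.mpr (by
      have := abs_nonneg (Real.log ‖(F f).d‖)
      linarith)))
    (fun f k => fam_prod_erase_le F hd hN s f k) x hi
  refine h.trans (le_of_eq ?_)
  congr 1
  unfold mass U
  push_cast
  rw [Finset.sum_mul, ← Finset.sum_add_distrib, Finset.mul_sum, ← Finset.sum_add_distrib]
  apply Finset.sum_congr rfl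
  intro g _
  ring

/-- the same for an unscaled point `z = N s` -/
theorem prod_erase_pts_le' (hd : ∀ f, (F f).d ≠ 0) {N : ℕ} (hN : 0 < N) (z : ℂ) (x : Idx F N)
    {i : ℕ} (hi : i ≤ mus F N x) :
    (∏ y ∈ Finset.univ.erase x, ‖z - pts F N y‖ ^ mus F N y) * ‖z - pts F N x‖ ^ i ≤
      Real.exp (N * (mass F * Real.log N + U F (z / N))
        + ∑ f, ((F f).mu : ℝ) * (24 + |Real.log ‖(F f).d‖|)) := by
  have hN' : (N : ℂ) ≠ 0 := by exact_mod_cast hN.ne'
  have h := prod_erase_pts_le F hd hN (z / N) x hi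
  rwa [mul_div_cancel₀ _ hN'] at h

end noOffset

/-! ### families with offset -/

section offset

variable {r : ℕ} (F : Fin r → FamE)

theorem log_two_add_scale {x c : ℝ} (hx : 0 ≤ x) (hc : 0 ≤ c) {N : ℕ} (hN : 0 < N) :
    Real.log (2 + N * x + N * c) ≤ Real.log N + Real.log (2 + c + x) := by
  have hN' : (0 : ℝ) < N := by exact_mod_cast hN
  have hN1 : (1 : ℝ) ≤ N := by exact_mod_cast hN
  rw [← Real.log_mul hN'.ne' (by positivity)]
  apply Real.log_le_log (by positivity)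
  nlinarith

/-- the offset error -/
noncomputable def offE (f : FamE) (N : ℕ) (s : ℂ) : ℝ :=
  3 + Real.log N + Real.log (2 + (f.n : ℝ) + ‖(s - f.a) / f.d‖)

theorem offE_nonneg (f : FamE) {N : ℕ} (hN : 0 < N) (s : ℂ) : 0 ≤ offE f N s := by
  unfold offE
  have h1 : 0 ≤ Real.log (N : ℝ) := Real.log_nonneg (by exact_mod_cast hN)
  have h2 : 0 ≤ Real.log (2 + (f.n : ℝ) + ‖(s - f.a) / f.d‖) := by
    apply Real.log_nonneg
    have := norm_nonneg ((s - f.a) / f.d)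
    have : (0 : ℝ) ≤ f.n := by positivity
    linarith
  linarith

theorem Iseg_offset_scale (f : FamE) (hd : f.d ≠ 0) (he : |f.eps| ≤ 1) {N : ℕ} (hN : 0 < N) (s : ℂ) :
    |Iseg ((N : ℂ) * f.a + f.eps * f.d) f.d (((f.n * N : ℕ)) : ℝ) ((N : ℂ) * s)
      - N * (f.n * Real.log N + Iseg f.a f.d f.n s)| ≤ offE f N s := by
  have hN' : (0 : ℝ) < N := by exact_mod_cast hN
  have hNc : (N : ℂ) ≠ 0 := by exact_mod_cast hN.ne'
  have e : (((f.n * N : ℕ) : ℝ)) = (N : ℝ) * f.n := by push_cast; ring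
  have h3 := Iseg_scale (a := f.a) (d := f.d) (s := s) (f.n : ℝ) hN' hd
  push_cast at h3
  rw [e, ← h3]
  have h4 := abs_Iseg_shift_le (a := (N : ℂ) * f.a) (s := (N : ℂ) * s) hd (m := (N : ℝ) * f.n)
    (by positivity) he
  refine h4.trans ?_
  unfold offE
  have e2 : ((N : ℂ) * s - (N : ℂ) * f.a) / f.d = (N : ℂ) * ((s - f.a) / f.d) := by ring
  rw [e2, norm_mul, Complex.norm_natCast]
  have h5 := log_two_add_scale (norm_nonneg ((s - f.a) / f.d)) (c := f.n) (by positivity) hN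
  linarith

theorem famE_prod_le (hF : ∀ f, (F f).d ≠ 0) (he : ∀ f, |(F f).eps| ≤ 1) {N : ℕ} (hN : 0 < N)
    (s : ℂ) (f : Fin r) :
    ∏ j : Fin ((F f).n * N), ‖(N : ℂ) * s - ptsE F N ⟨f, j⟩‖ ≤
      Real.exp (N * ((F f).n * Real.log N + Iseg (F f).a (F f).d (F f).n s) + (22 + offE (F f) N s)) := by
  simp only [ptsE]
  rw [Finset.prod_range (n := (F f).n * N)
      (f := fun j => ‖(N : ℂ) * s - pt ((N : ℂ) * (F f).a + (F f).eps * (F f).d) (F f).d j‖) |>.symm]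
  have h2 := prod_le_exp_Iseg (a := (N : ℂ) * (F f).a + (F f).eps * (F f).d) (hF f) ((F f).n * N)
    ((N : ℂ) * s)
  have h3 := (abs_le.mp (Iseg_offset_scale (F f) (hF f) (he f) hN s)).2
  refine h2.trans (Real.exp_le_exp.mpr ?_)
  linarith

theorem famE_prod_erase_le (hF : ∀ f, (F f).d ≠ 0) (he : ∀ f, |(F f).eps| ≤ 1) {N : ℕ} (hN : 0 < N)
    (s : ℂ) (f : Fin r) (i : Fin ((F f).n * N)) :
    ∏ j ∈ Finset.univ.erase i, ‖(N : ℂ) * s - ptsE F N ⟨f, j⟩‖ ≤
      Real.exp (N * ((F f).n * Real.log N + Iseg (F f).a (F f).d (F f).n s)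
        + (24 + |Real.log ‖(F f).d‖| + offE (F f) N s)) := by
  have h1 : ∏ j ∈ Finset.univ.erase i, ‖(N : ℂ) * s - ptsE F N ⟨f, j⟩‖
      = ∏ j ∈ (Finset.range ((F f).n * N)).erase (i : ℕ),
        ‖(N : ℂ) * s - pt ((N : ℂ) * (F f).a + (F f).eps * (F f).d) (F f).d j‖ :=
    prod_fin_erase (fun j => ‖(N : ℂ) * s
      - pt ((N : ℂ) * (F f).a + (F f).eps * (F f).d) (F f).d j‖) i
  rw [h1]
  have h2 := prod_erase_le_exp_Iseg (a := (N : ℂ) * (F f).a + (F f).eps * (F f).d) (hF f)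
    ((F f).n * N) i i.2 ((N : ℂ) * s)
  have h3 := (abs_le.mp (Iseg_offset_scale (F f) (hF f) (he f) hN s)).2
  refine h2.trans (Real.exp_le_exp.mpr ?_)
  linarith

theorem prod_erase_ptsE_le (hF : ∀ f, (F f).d ≠ 0) (he : ∀ f, |(F f).eps| ≤ 1) {N : ℕ} (hN : 0 < N)
    (s : ℂ) (x : IdxE F N) {i : ℕ} (hi : i ≤ musE F N x) :
    (∏ y ∈ Finset.univ.erase x, ‖(N : ℂ) * s - ptsE F N y‖ ^ musE F N y)
        * ‖(N : ℂ) * s - ptsE F N x‖ ^ i ≤
      Real.exp (N * (massE F * Real.log N + UE F s)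
        + ∑ f, ((F f).mu : ℝ) * (24 + |Real.log ‖(F f).d‖| + offE (F f) N s)) := by
  have h := sigma_prod_erase_le (n := fun f => (F f).n * N) (mu := fun f => (F f).mu)
    (fun y => ‖(N : ℂ) * s - ptsE F N y‖) (fun _ => norm_nonneg _)
    (fun f => N * ((F f).n * Real.log N + Iseg (F f).a (F f).d (F f).n s)
        + (24 + |Real.log ‖(F f).d‖| + offE (F f) N s))
    (fun f => (famE_prod_le F hF he hN s f).trans (Real.exp_le_exp.mpr (by
      have := abs_nonneg (Real.log ‖(F f).d‖)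
      linarith)))
    (fun f k => famE_prod_erase_le F hF he hN s f k) x hi
  refine h.trans (le_of_eq ?_)
  congr 1
  unfold massE UE
  push_cast
  rw [Finset.sum_mul, ← Finset.sum_add_distrib, Finset.mul_sum, ← Finset.sum_add_distrib]
  apply Finset.sum_congr rfl
  intro g _
  ring

/-- the full product -/
theorem prod_ptsE_le (hF : ∀ f, (F f).d ≠ 0) (he : ∀ f, |(F f).eps| ≤ 1) {N : ℕ} (hN : 0 < N)
    (s : ℂ) :
    ∏ y : IdxE F N, ‖(N : ℂ) * s - ptsE F N y‖ ^ musE F N y ≤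
      Real.exp (N * (massE F * Real.log N + UE F s)
        + ∑ f, ((F f).mu : ℝ) * (22 + offE (F f) N s)) := by
  rw [Fintype.prod_sigma]
  have h3 : (∏ f : Fin r, ∏ j : Fin ((F f).n * N), ‖(N : ℂ) * s - ptsE F N ⟨f, j⟩‖ ^ musE F N ⟨f, j⟩)
      ≤ ∏ f : Fin r, Real.exp (((F f).mu : ℝ) * (N * ((F f).n * Real.log N
        + Iseg (F f).a (F f).d (F f).n s) + (22 + offE (F f) N s))) := by
    apply Finset.prod_le_prod (fun g _ => Finset.prod_nonneg fun _ _ => pow_nonneg (norm_nonneg _) _)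
    intro g _
    simp only [musE]
    rw [Finset.prod_pow, Real.exp_nat_mul]
    exact pow_le_pow_left₀ (Finset.prod_nonneg fun _ _ => norm_nonneg _) (famE_prod_le F hF he hN s g) _
  refine h3.trans (le_of_eq ?_)
  rw [← Real.exp_sum]
  congr 1
  unfold massE UE
  push_cast
  rw [Finset.sum_mul, ← Finset.sum_add_distrib, Finset.mul_sum, ← Finset.sum_add_distrib]
  apply Finset.sum_congr rfl
  intro g _
  ring

end offset

end Crest.Agent.R006.Potx943
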