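import Mathlib

/-!
# Row 6, block P3: turning a ray (helper606)

`ray z0 θ r = z0 + r e^{iθ}`, `rayInt f z0 θ = ∫_0^∞ f(z0 + r e^{iθ}) e^{iθ} dr`.
`ray_shift`: for `f` holomorphic on a closed sector with `r sup |f| → 0` at both ends the ray
integrals over the two sides of the sector agree.  Only Cauchy's theorem for rectangles is used
(in the coordinate `s = z0 + e^w`).
-/

set_option autoImplicit false

namespace Crest.Agent.R006.P3R

open Set Filter Topology MeasureTheory Complex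

/-- the point at distance `r` on the ray from `z0` with angle `θ` -/
noncomputable def ray (z0 : ℂ) (θ : ℝ) (r : ℝ) : ℂ := z0 + r * cexp (θ * I)

/-- the complex line integral of `f` over the ray -/
noncomputable def rayInt (f : ℂ → ℂ) (z0 : ℂ) (θ : ℝ) : ℂ :=
  ∫ r in Ioi (0 : ℝ), f (ray z0 θ r) * cexp (θ * I)

lemma ray_cont (z0 : ℂ) (θ : ℝ) : Continuous (ray z0 θ) := by
  unfold ray; fun_prop

lemma ray_exp (z0 : ℂ) (θ x : ℝ) : ray z0 θ (Real.exp x) = z0 + cexp (x + θ * I) := by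
  unfold ray; rw [Complex.exp_add, ofReal_exp]

/-- bounded-rectangle version -/
lemma ray_rect (f : ℂ → ℂ) (z0 : ℂ) {θ1 θ2 : ℝ} (h12 : θ1 ≤ θ2)
    (hd : ∀ θ ∈ Icc θ1 θ2, ∀ r : ℝ, 0 < r → DifferentiableAt ℂ f (ray z0 θ r)) (U V : ℝ) :
    (∫ r in Real.exp U..Real.exp V, f (ray z0 θ1 r) * cexp (θ1 * I)) -
      (∫ r in Real.exp U..Real.exp V, f (ray z0 θ2 r) * cexp (θ2 * I)) +
      I • (∫ y in θ1..θ2, f (ray z0 y (Real.exp V)) * cexp (V + y * I)) -
      I • (∫ y in θ1..θ2, f (ray z0 y (Real.exp U)) * cexp (U + y * I)) = 0 := by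
  set g : ℂ → ℂ := fun w => f (z0 + cexp w) * cexp w with hg
  have key := Complex.integral_boundary_rect_eq_zero_of_differentiableOn g
    ((U : ℂ) + θ1 * I) ((V : ℂ) + θ2 * I) (by
      intro w hw
      have hw2 : w.im ∈ Set.uIcc θ1 θ2 := by
        have := hw.2
        simpa using this
      rw [uIcc_of_le h12] at hw2
      have e1 : z0 + cexp w = ray z0 w.im (Real.exp w.re) := by
        rw [ray_exp, Complex.re_add_im]
      have h1 : DifferentiableAt ℂ f (z0 + cexp w) := by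
        rw [e1]; exact hd _ hw2 _ (Real.exp_pos _)
      have h2 : DifferentiableAt ℂ (fun w : ℂ => z0 + cexp w) w := by fun_prop
      have h3 : DifferentiableAt ℂ (fun w : ℂ => f (z0 + cexp w)) w :=
        DifferentiableAt.comp w h1 h2
      exact (h3.mul (by fun_prop)).differentiableWithinAt)
  have hside : ∀ θ ∈ Icc θ1 θ2, (∫ x in U..V, g (x + θ * I)) =
      ∫ r in Real.exp U..Real.exp V, f (ray z0 θ r) * cexp (θ * I) := by
    intro θ hθ
    have hc := intervalIntegral.integral_deriv_smul_comp' (a := U) (b := V)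
      (f := Real.exp) (f' := Real.exp) (g := fun r => f (ray z0 θ r) * cexp (θ * I))
      (fun x _ => Real.hasDerivAt_exp x) Real.continuous_exp.continuousOn (by
        intro r hr
        obtain ⟨x, _, rfl⟩ := hr
        have h1 : ContinuousAt f (ray z0 θ (Real.exp x)) :=
          (hd θ hθ _ (Real.exp_pos x)).continuousAt
        have h2 : ContinuousAt (fun r => f (ray z0 θ r)) (Real.exp x) :=
          ContinuousAt.comp h1 (ray_cont z0 θ).continuousAt
        exact (h2.mul continuousAt_const).continuousWithinAt)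
    rw [← hc]
    refine intervalIntegral.integral_congr fun x _ => ?_
    simp only [hg, Function.comp]
    rw [ray_exp, Complex.exp_add, real_smul, ofReal_exp]
    ring
  have ez : ((U : ℂ) + θ1 * I).re = U := by simp
  have ez' : ((U : ℂ) + θ1 * I).im = θ1 := by simp
  have ew : ((V : ℂ) + θ2 * I).re = V := by simp
  have ew' : ((V : ℂ) + θ2 * I).im = θ2 := by simp
  rw [ez, ez', ew, ew', hside θ1 ⟨le_rfl, h12⟩, hside θ2 ⟨h12, le_rfl⟩] at key
  rw [← key]
  congr 2
  · congr 1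
    refine intervalIntegral.integral_congr fun y _ => ?_
    simp only [hg]; rw [ray_exp]
  · refine intervalIntegral.integral_congr fun y _ => ?_
    simp only [hg]; rw [ray_exp]

/-- **turning a ray** -/
theorem ray_shift (f : ℂ → ℂ) (z0 : ℂ) {θ1 θ2 : ℝ} (h12 : θ1 ≤ θ2)
    (hd : ∀ θ ∈ Icc θ1 θ2, ∀ r : ℝ, 0 < r → DifferentiableAt ℂ f (ray z0 θ r))
    (h0 : ∀ ε : ℝ, 0 < ε → ∃ δ : ℝ, 0 < δ ∧ ∀ r : ℝ, 0 < r → r < δ → ∀ θ ∈ Icc θ1 θ2,
      r * ‖f (ray z0 θ r)‖ ≤ ε)
    (hi : ∀ ε : ℝ, 0 < ε → ∃ M : ℝ, ∀ r : ℝ, M ≤ r → ∀ θ ∈ Icc θ1 θ2,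
      r * ‖f (ray z0 θ r)‖ ≤ ε)
    (h1 : IntegrableOn (fun r => f (ray z0 θ1 r)) (Ioi 0))
    (h2 : IntegrableOn (fun r => f (ray z0 θ2 r)) (Ioi 0)) :
    rayInt f z0 θ1 = rayInt f z0 θ2 := by
  -- limits of the truncated integrals
  have hlim : ∀ θ : ℝ, IntegrableOn (fun r => f (ray z0 θ r)) (Ioi 0) →
      Tendsto (fun U : ℝ => ∫ r in Real.exp (-U)..Real.exp U, f (ray z0 θ r) * cexp (θ * I))
        atTop (𝓝 (rayInt f z0 θ)) := by
    intro θ h
    set F : ℝ → ℂ := fun r => f (ray z0 θ r) * cexp (θ * I) with hF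
    have hFi : IntegrableOn F (Ioi 0) := h.mul_const _
    have t1 : Tendsto (fun U : ℝ => ∫ r in (0 : ℝ)..Real.exp U, F r) atTop
        (𝓝 (∫ r in Ioi (0 : ℝ), F r)) :=
      intervalIntegral_tendsto_integral_Ioi 0 hFi Real.tendsto_exp_atTop
    have hFi' : ∀ a b : ℝ, 0 ≤ a → 0 ≤ b → IntervalIntegrable F volume a b := by
      intro a b ha hb
      rw [intervalIntegrable_iff]
      refine hFi.mono_set ?_
      intro x hx
      rcases le_total a b with hab | hab
      · rw [uIoc_of_le hab] at hx; exact lt_of_le_of_lt ha hx.1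
      · rw [uIoc_of_ge hab] at hx; exact lt_of_le_of_lt hb hx.1
    have t2 : Tendsto (fun U : ℝ => ∫ r in (0 : ℝ)..Real.exp (-U), F r) atTop (𝓝 0) := by
      have hc : ContinuousOn (fun b : ℝ => ∫ r in (0 : ℝ)..b, F r) (Icc 0 1) := by
        have := intervalIntegral.continuousOn_primitive_interval (a := (0 : ℝ)) (b := 1) (f := F)
          (μ := volume) (by
            rw [uIcc_of_le zero_le_one]
            exact (integrableOn_Icc_iff_integrableOn_Ioc).2
              (hFi.mono_set fun x hx => hx.1))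
        rwa [uIcc_of_le zero_le_one] at this
      have h00 : ContinuousWithinAt (fun b : ℝ => ∫ r in (0 : ℝ)..b, F r) (Icc 0 1) 0 :=
        hc 0 ⟨le_rfl, zero_le_one⟩
      have h01 : Tendsto (fun U : ℝ => Real.exp (-U)) atTop (𝓝[Icc 0 1] 0) := by
        rw [tendsto_nhdsWithin_iff]
        refine ⟨Real.tendsto_exp_neg_atTop_nhds_zero, ?_⟩
        filter_upwards [eventually_ge_atTop (0 : ℝ)] with U hU
        exact ⟨(Real.exp_pos _).le, Real.exp_le_one_iff.2 (by linarith)⟩
      have := h00.tendsto.comp h01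
      simpa [Function.comp_def] using this
    have t3 := t1.sub t2
    rw [sub_zero] at t3
    refine t3.congr fun U => ?_
    rw [intervalIntegral.integral_interval_sub_left
      (hFi' _ _ le_rfl (Real.exp_pos _).le) (hFi' _ _ le_rfl (Real.exp_pos _).le)]
  have l1 := hlim θ1 h1
  have l2 := hlim θ2 h2
  -- the arcs
  have harc : ∀ s : ℝ → ℝ, (∀ ε : ℝ, 0 < ε → ∀ᶠ U in atTop, ∀ θ ∈ Icc θ1 θ2,
      Real.exp (s U) * ‖f (ray z0 θ (Real.exp (s U)))‖ ≤ ε) →
      Tendsto (fun U : ℝ => ∫ y in θ1..θ2, f (ray z0 y (Real.exp (s U))) * cexp (s U + y * I))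
        atTop (𝓝 0) := by
    intro s hs
    rw [Metric.tendsto_nhds]
    intro ε hε
    have hpos : 0 < θ2 - θ1 + 1 := by linarith
    filter_upwards [hs (ε / (2 * (θ2 - θ1 + 1))) (by positivity)] with U hU
    rw [dist_zero_right]
    have hb : ‖∫ y in θ1..θ2, f (ray z0 y (Real.exp (s U))) * cexp (s U + y * I)‖ ≤
        ε / (2 * (θ2 - θ1 + 1)) * |θ2 - θ1| := by
      refine intervalIntegral.norm_integral_le_of_norm_le_const fun y hy => ?_
      rw [uIoc_of_le h12] at hy
      have h3 := hU y ⟨hy.1.le, hy.2⟩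
      rw [norm_mul, Complex.norm_exp]
      have : ((s U : ℂ) + y * I).re = s U := by simp
      rw [this, mul_comm]
      exact h3
    refine lt_of_le_of_lt hb ?_
    rw [abs_of_nonneg (by linarith)]
    rw [div_mul_eq_mul_div, div_lt_iff₀ (by positivity)]
    nlinarith
  have aV := harc (fun U => U) (by
    intro ε hε
    obtain ⟨M, hM⟩ := hi ε hε
    filter_upwards [Real.tendsto_exp_atTop.eventually_ge_atTop M] with U hU θ hθ
    exact hM _ hU θ hθ)
  have aU := harc (fun U => -U) (by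
    intro ε hε
    obtain ⟨δ, hδ, hM⟩ := h0 ε hε
    filter_upwards [(Real.tendsto_exp_neg_atTop_nhds_zero).eventually (gt_mem_nhds hδ)]
      with U hU θ hθ
    exact hM _ (Real.exp_pos _) hU θ hθ)
  have hz : Tendsto (fun U : ℝ =>
      (∫ r in Real.exp (-U)..Real.exp U, f (ray z0 θ1 r) * cexp (θ1 * I)) -
      (∫ r in Real.exp (-U)..Real.exp U, f (ray z0 θ2 r) * cexp (θ2 * I)) +
      I • (∫ y in θ1..θ2, f (ray z0 y (Real.exp U)) * cexp (U + y * I)) -
      I • (∫ y in θ1..θ2, f (ray z0 y (Real.exp (-U))) * cexp (((-U : ℝ) : ℂ) + y * I)))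
      atTop (𝓝 (rayInt f z0 θ1 - rayInt f z0 θ2 + I • (0 : ℂ) - I • (0 : ℂ))) :=
    ((l1.sub l2).add (aV.const_smul I)).sub (aU.const_smul I)
  have hz' : Tendsto (fun _ : ℝ => (0 : ℂ)) atTop
      (𝓝 (rayInt f z0 θ1 - rayInt f z0 θ2 + I • (0 : ℂ) - I • (0 : ℂ))) := by
    refine hz.congr fun U => ?_
    exact ray_rect f z0 h12 hd (-U) U
  have := tendsto_nhds_unique hz' tendsto_const_nhds
  simp only [smul_zero, add_zero, sub_zero] at this
  exact sub_eq_zero.1 this

end Crest.Agent.R006.P3R
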