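import Crest.Agent.R006.P3_RefW_943
import Crest.Agent.R006.P3_Leaf_390

/-! Row 6, block P3, LEAF REF, abstract part (helper943): `RefPack` from a family `F` with the right
potential and energy. -/

set_option autoImplicit false

namespace Crest.Agent.R006.P3

open Crest.Agent.R006.D Crest.Agent.R006.Cert Crest.Agent.R006.NumSegx464
  Crest.Agent.R006.Potx943

theorem oth_comp943 {ι κ : Type} [Fintype ι] [DecidableEq ι] [Fintype κ] [DecidableEq κ] (e : κ ≃ ι)
    (w : ι → ℂ) (i : κ) (s : ℂ) : oth (w ∘ e) i s = oth w (e i) s := by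
  unfold oth
  apply Finset.prod_bij (fun j _ => e j)
  · intro j hj
    rw [Finset.mem_erase] at hj ⊢
    exact ⟨fun h => hj.1 (e.injective h), Finset.mem_univ _⟩
  · intro a _ b _ h
    exact e.injective h
  · intro b hb
    refine ⟨e.symm b, ?_, by simp⟩
    rw [Finset.mem_erase] at hb ⊢
    refine ⟨fun h => hb.1 ?_, Finset.mem_univ _⟩
    rw [← h]; simp
  · intro j _
    rfl

theorem vdm_comp943 {ι κ : Type} [Fintype ι] [Fintype κ] (e : κ ≃ ι) (w : ι → ℂ) :
    vdm (w ∘ e) = vdm w := by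
  unfold vdm
  congr 2
  unfold Potx943.LE
  rw [← Equiv.sum_comp e]
  apply Finset.sum_congr rfl
  intro x _
  rw [← Equiv.sum_comp e]
  rfl

theorem refPack_of {r : ℕ} (F : Fin r → Fam) (hd : ∀ f, (F f).d ≠ 0) (hmu : ∀ f, (F f).mu = 1)
    {ρ : ℝ} (hρ : 0 < ρ) (hsep : Sep F ρ) {W0 : ℤ} {L : List Piece} {m : ℕ} (hm : mass F = m)
    (hU : ∀ s, U F s = potL (segs W0 L) s) (hE : En F = 2 * selfE (segs W0 L)) (c : ℕ) :
    RefPack W0 L m c := by
  obtain ⟨C1, hC1, h1⟩ := vdm_ptsX_ge F hd hmu hρ hsep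
  obtain ⟨C2, hC2, h2⟩ := oth_ptsX_le F hd hmu c
  have hr := rad_nonneg F
  refine ⟨C1 + C2, rad F + 1 + c, by positivity, by positivity, fun v hv => ?_⟩
  have hv0 : 0 < v := hv
  have hv1 : (1 : ℝ) ≤ v := by exact_mod_cast hv
  have hcard : Fintype.card (Fin (m * v + c)) = Fintype.card (Idx F v ⊕ Fin c) := by
    rw [Fintype.card_fin, card_IdxX F hmu, hm]
  set e : Fin (m * v + c) ≃ (Idx F v ⊕ Fin c) := Fintype.equivOfCardEq hcard with he
  refine ⟨ptsX F v c ∘ e, (ptsX_injective F hd hρ hsep hv0 c).comp e.injective, ?_, ?_, ?_⟩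
  · intro i
    simp only [Function.comp_apply]
    have hb : ∀ x : Idx F v ⊕ Fin c, ‖ptsX F v c x‖ ≤ (rad F + 1 + c) * v := by
      have e3 : (rad F + 1 + c) * v = v * rad F + v + c * v := by ring
      have hc0 : (0 : ℝ) ≤ c := by positivity
      have h5 : (c : ℝ) * 1 ≤ c * v := mul_le_mul_of_nonneg_left hv1 hc0
      rintro (x | t)
      · simp only [ptsX, Sum.elim_inl]
        have h4 := norm_pts_le F v x
        rw [e3]
        linarith
      · simp only [ptsX, Sum.elim_inr]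
        have h4 : ‖extra F v t‖ = v * rad F + 1 + (t : ℕ) := by
          unfold extra
          rw [Complex.norm_real, Real.norm_eq_abs, abs_of_nonneg (by positivity)]
        have ht : ((t : ℕ) : ℝ) ≤ c := by exact_mod_cast t.2.le
        rw [h4, e3]
        linarith
    exact hb _
  · rw [vdm_comp943]
    refine le_trans (Real.exp_le_exp.mpr ?_) (h1 v hv0 c)
    rw [hm, hE]
    have hl : 0 ≤ Real.log (v : ℝ) := Real.log_nonneg hv1
    have h3 : 0 ≤ C2 * (v * (1 + Real.log v)) := by positivity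
    have e3 : (v : ℝ) ^ 2 * ((m : ℝ) ^ 2 / 2 * Real.log v + selfE (segs W0 L))
        = (v : ℝ) ^ 2 / 2 * ((m : ℝ) ^ 2 * Real.log v + 2 * selfE (segs W0 L)) := by ring
    rw [e3]
    linarith
  · intro i s
    rw [oth_comp943]
    refine (h2 v hv0 (e i) s).trans (Real.exp_le_exp.mpr ?_)
    rw [hm, hU]
    have hs := norm_nonneg s
    have hl : 0 ≤ Real.log (v + ‖s‖) := Real.log_nonneg (by linarith)
    unfold er
    have h3 : 0 ≤ C1 * (1 + Real.log (v + ‖s‖)) := by positivity
    linarith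

end Crest.Agent.R006.P3
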