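import Crest.Agent.R006.P3_MutComm_943
import Crest.Agent.R006.P3_Disc_390

/-! Row 6, block P3 (helper943): reference configurations with `c` extra points: Vandermonde from
below and the products over the other points from above, in the notation of `P3_Disc_390`. -/

set_option autoImplicit false

namespace Crest.Agent.R006.Potx943

open MeasureTheory Set Crest.Agent.R006.P3

section

variable {r : ℕ} (F : Fin r → Fam)

/-- radius of the configuration (per unit of `N`) -/
noncomputable def rad : ℝ := ∑ f, (‖(F f).a‖ + (F f).n * ‖(F f).d‖)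

theorem rad_nonneg : 0 ≤ rad F := Finset.sum_nonneg fun _ _ => by positivity

/-- the extra points -/
noncomputable def extra (N : ℕ) (t : ℕ) : ℂ := ((N * rad F + 1 + t : ℝ) : ℂ)

/-- the points together with `c` extra points on the far right -/
noncomputable def ptsX (N c : ℕ) : Idx F N ⊕ Fin c → ℂ :=
  Sum.elim (pts F N) (fun t => extra F N t)

theorem norm_pts_le (N : ℕ) (x : Idx F N) : ‖pts F N x‖ ≤ N * rad F := by
  obtain ⟨f, j⟩ := x
  have hj : (j : ℝ) + 1 ≤ (F f).n * N := by exact_mod_cast j.2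
  have h1 : ‖(F f).a‖ + (F f).n * ‖(F f).d‖ ≤ rad F :=
    Finset.single_le_sum (f := fun f => ‖(F f).a‖ + (F f).n * ‖(F f).d‖)
      (fun g _ => by positivity) (Finset.mem_univ f)
  have hN : (0 : ℝ) ≤ N := by positivity
  unfold pts pt
  have h2 : ‖(((j : ℕ) : ℂ) + 1 / 2)‖ = (j : ℝ) + 1 / 2 := by
    have e : (((j : ℕ) : ℂ) + 1 / 2) = (((j : ℕ) : ℝ) + 1 / 2 : ℝ) := by push_cast; ring
    rw [e, Complex.norm_real, Real.norm_eq_abs, abs_of_nonneg (by positivity)]
  calc ‖(N : ℂ) * (F f).a + (((j : ℕ) : ℂ) + 1 / 2) * (F f).d‖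
      ≤ ‖(N : ℂ) * (F f).a‖ + ‖(((j : ℕ) : ℂ) + 1 / 2) * (F f).d‖ := norm_add_le _ _
    _ = N * ‖(F f).a‖ + ((j : ℝ) + 1 / 2) * ‖(F f).d‖ := by
        rw [norm_mul, norm_mul, Complex.norm_natCast, h2]
    _ ≤ N * ‖(F f).a‖ + ((F f).n * N) * ‖(F f).d‖ := by
        gcongr
        linarith
    _ = N * (‖(F f).a‖ + (F f).n * ‖(F f).d‖) := by ring
    _ ≤ N * rad F := by gcongr

theorem one_le_extra_sub_pts (N : ℕ) (x : Idx F N) (t : ℕ) : 1 ≤ ‖extra F N t - pts F N x‖ := by
  have h1 := norm_pts_le F N x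
  have h2 : ‖extra F N t‖ = N * rad F + 1 + t := by
    unfold extra
    have := rad_nonneg F
    rw [Complex.norm_real, Real.norm_eq_abs, abs_of_nonneg (by positivity)]
  have h3 := norm_sub_norm_le (extra F N t) (pts F N x)
  have h4 : (0 : ℝ) ≤ t := by positivity
  linarith

theorem one_le_extra_sub_extra (N : ℕ) {t t' : ℕ} (h : t ≠ t') :
    1 ≤ ‖extra F N t - extra F N t'‖ := by
  unfold extra
  rw [← Complex.ofReal_sub, Complex.norm_real, Real.norm_eq_abs]
  have e : (N * rad F + 1 + (t : ℝ)) - (N * rad F + 1 + (t' : ℝ)) = ((t : ℤ) - (t' : ℤ) : ℤ) := by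
    push_cast; ring
  rw [e, ← Int.cast_abs]
  have h1 : (1 : ℤ) ≤ |(t : ℤ) - t'| := Int.one_le_abs (by omega)
  exact_mod_cast h1

theorem log_extra_nonneg (N : ℕ) (x : Idx F N) (t : ℕ) :
    0 ≤ Real.log ‖pts F N x - extra F N t‖ := by
  rw [norm_sub_rev]
  exact Real.log_nonneg (one_le_extra_sub_pts F N x t)

theorem log_extra_nonneg' (N : ℕ) (t t' : ℕ) : 0 ≤ Real.log ‖extra F N t - extra F N t'‖ := by
  rcases eq_or_ne t t' with h | h
  · rw [h]; simp
  · exact Real.log_nonneg (one_le_extra_sub_extra F N h)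

/-- adding the extra points does not decrease the energy -/
theorem LE_ptsX_ge (hmu : ∀ f, (F f).mu = 1) (N c : ℕ) :
    LE (pts F N) (mus F N) ≤ LE (ptsX F N c) (fun _ => 1) := by
  have e : LE (pts F N) (mus F N) = ∑ x : Idx F N, ∑ y : Idx F N, Real.log ‖pts F N x - pts F N y‖ := by
    unfold LE
    apply Finset.sum_congr rfl
    intro x _
    apply Finset.sum_congr rfl
    intro y _
    simp [mus, hmu]
  rw [e]
  unfold LE
  rw [Fintype.sum_sum_type]
  simp only [Fintype.sum_sum_type, ptsX, Sum.elim_inl, Sum.elim_inr, Nat.cast_one, one_mul]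
  have h1 : 0 ≤ ∑ x : Idx F N, ∑ t : Fin c, Real.log ‖pts F N x - extra F N t‖ :=
    Finset.sum_nonneg fun x _ => Finset.sum_nonneg fun t _ => log_extra_nonneg F N x t
  have h2 : 0 ≤ ∑ t : Fin c, (∑ x : Idx F N, Real.log ‖extra F N t - pts F N x‖
      + ∑ t' : Fin c, Real.log ‖extra F N t - extra F N t'‖) := by
    apply Finset.sum_nonneg
    intro t _
    apply add_nonneg
    · apply Finset.sum_nonneg
      intro x _
      rw [norm_sub_rev]
      exact log_extra_nonneg F N x t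
    · exact Finset.sum_nonneg fun t' _ => log_extra_nonneg' F N t t'
  rw [Finset.sum_add_distrib]
  linarith

theorem ptsX_injective (hd : ∀ f, (F f).d ≠ 0) {ρ : ℝ} (hρ : 0 < ρ) (hsep : Sep F ρ) {N : ℕ}
    (hN : 0 < N) (c : ℕ) : Function.Injective (ptsX F N c) := by
  have h0 := pts_injective F hd hρ hsep hN
  rintro (x | t) (y | t') h
  · simp only [ptsX, Sum.elim_inl] at h
    rw [h0 h]
  · simp only [ptsX, Sum.elim_inl, Sum.elim_inr] at h
    have := one_le_extra_sub_pts F N x t'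
    rw [h, sub_self, norm_zero] at this
    linarith
  · simp only [ptsX, Sum.elim_inl, Sum.elim_inr] at h
    have := one_le_extra_sub_pts F N y t
    rw [h, sub_self, norm_zero] at this
    linarith
  · simp only [ptsX, Sum.elim_inr] at h
    by_contra hne
    have h1 : (t : ℕ) ≠ t' := fun h2 => hne (by rw [Fin.ext h2])
    have := one_le_extra_sub_extra F N h1
    rw [h, sub_self, norm_zero] at this
    linarith

theorem card_Idx (hmu : ∀ f, (F f).mu = 1) (N : ℕ) : Fintype.card (Idx F N) = mass F * N := by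
  rw [Fintype.card_sigma]
  simp only [Fintype.card_fin]
  unfold mass
  rw [Finset.sum_mul]
  apply Finset.sum_congr rfl
  intro f _
  rw [hmu, one_mul]

theorem card_IdxX (hmu : ∀ f, (F f).mu = 1) (N c : ℕ) :
    Fintype.card (Idx F N ⊕ Fin c) = mass F * N + c := by
  rw [Fintype.card_sum, card_Idx F hmu, Fintype.card_fin]

/-- **Vandermonde from below**, with the extra points -/
theorem vdm_ptsX_ge (hd : ∀ f, (F f).d ≠ 0) (hmu : ∀ f, (F f).mu = 1) {ρ : ℝ} (hρ : 0 < ρ)
    (hsep : Sep F ρ) :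
    ∃ C : ℝ, 0 ≤ C ∧ ∀ N : ℕ, 0 < N → ∀ c : ℕ,
      Real.exp ((N : ℝ) ^ 2 / 2 * ((mass F : ℝ) ^ 2 * Real.log N + En F) - C * (N * (1 + Real.log N)))
        ≤ vdm (ptsX F N c) := by
  obtain ⟨C, hC, h⟩ := LE_estimate F hd hρ hsep
  refine ⟨C, hC, fun N hN c => ?_⟩
  unfold vdm
  apply Real.exp_le_exp.mpr
  have h1 := (abs_le.mp (h N hN)).1
  have h2 := LE_ptsX_ge F hmu N c
  have hN' : (0 : ℝ) < N := by exact_mod_cast hN
  have hlN : 0 ≤ Real.log (N : ℝ) := Real.log_nonneg (by exact_mod_cast hN)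
  have hE : 0 ≤ C * (N * (1 + Real.log N)) := by positivity
  linarith

/-- the same without extra points -/
theorem vdm_pts_ge (hd : ∀ f, (F f).d ≠ 0) (hmu : ∀ f, (F f).mu = 1) {ρ : ℝ} (hρ : 0 < ρ)
    (hsep : Sep F ρ) :
    ∃ C : ℝ, 0 ≤ C ∧ ∀ N : ℕ, 0 < N →
      Real.exp ((N : ℝ) ^ 2 / 2 * ((mass F : ℝ) ^ 2 * Real.log N + En F) - C * (N * (1 + Real.log N)))
        ≤ vdm (pts F N) := by
  obtain ⟨C, hC, h⟩ := LE_estimate F hd hρ hsep
  refine ⟨C, hC, fun N hN => ?_⟩
  unfold vdm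
  apply Real.exp_le_exp.mpr
  have h1 := (abs_le.mp (h N hN)).1
  have e : LE (pts F N) (fun _ => 1) = LE (pts F N) (mus F N) := by
    unfold LE
    apply Finset.sum_congr rfl
    intro x _
    apply Finset.sum_congr rfl
    intro y _
    simp [mus, hmu]
  rw [e]
  have hN' : (0 : ℝ) < N := by exact_mod_cast hN
  have hlN : 0 ≤ Real.log (N : ℝ) := Real.log_nonneg (by exact_mod_cast hN)
  have hE : 0 ≤ C * (N * (1 + Real.log N)) := by positivity
  linarith

/-- products over the other points, from above, every `s` -/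
theorem oth_pts_le (hd : ∀ f, (F f).d ≠ 0) (hmu : ∀ f, (F f).mu = 1) :
    ∃ C : ℝ, 0 ≤ C ∧ ∀ N : ℕ, 0 < N → ∀ (x : Idx F N) (s : ℂ),
      oth (pts F N) x s ≤ Real.exp (N * (mass F * Real.log N + U F (s / N)) + C) := by
  refine ⟨∑ f, ((F f).mu : ℝ) * (24 + |Real.log ‖(F f).d‖|),
    Finset.sum_nonneg fun f _ => by positivity, fun N hN x s => ?_⟩
  have h := prod_erase_pts_le' F hd hN s x (i := 0) (Nat.zero_le _)
  simp only [pow_zero, mul_one, mus, hmu, pow_one] at h
  unfold oth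
  simpa [hmu] using h

theorem prod_pts_le_all (hd : ∀ f, (F f).d ≠ 0) (hmu : ∀ f, (F f).mu = 1) :
    ∃ C : ℝ, 0 ≤ C ∧ ∀ N : ℕ, 0 < N → ∀ (s : ℂ),
      ∏ x : Idx F N, ‖s - pts F N x‖ ≤ Real.exp (N * (mass F * Real.log N + U F (s / N)) + C) := by
  refine ⟨∑ f, ((F f).mu : ℝ) * 22, Finset.sum_nonneg fun f _ => by positivity, fun N hN s => ?_⟩
  have hNc : (N : ℂ) ≠ 0 := by exact_mod_cast hN.ne'
  rw [Fintype.prod_sigma]
  have h3 : (∏ f : Fin r, ∏ j : Fin ((F f).n * N), ‖s - pts F N ⟨f, j⟩‖)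
      ≤ ∏ f : Fin r, Real.exp (N * ((F f).n * Real.log N + Iseg (F f).a (F f).d (F f).n (s / N)) + 22) := by
    apply Finset.prod_le_prod (fun g _ => Finset.prod_nonneg fun _ _ => norm_nonneg _)
    intro g _
    have h := fam_prod_le F hd hN (s / N) g
    rwa [mul_div_cancel₀ _ hNc] at h
  refine h3.trans (le_of_eq ?_)
  rw [← Real.exp_sum]
  congr 1
  unfold mass U
  push_cast
  rw [Finset.sum_mul, ← Finset.sum_add_distrib, Finset.mul_sum, ← Finset.sum_add_distrib]
  apply Finset.sum_congr rfl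
  intro g _
  rw [hmu]
  push_cast
  ring

theorem extra_factor_le (N c : ℕ) (hN : 0 < N) (s : ℂ) (T : Finset (Fin c)) :
    ∏ t ∈ T, ‖s - extra F N t‖ ≤ Real.exp (c * (Real.log (2 + rad F + c) + Real.log (N + ‖s‖))) := by
  have hN1 : (1 : ℝ) ≤ N := by exact_mod_cast hN
  have hr := rad_nonneg F
  have hs := norm_nonneg s
  set M : ℝ := (2 + rad F + c) * (N + ‖s‖) with hM
  have hc0 : (0 : ℝ) ≤ c := by positivity
  have hM1 : 1 ≤ M := by
    have : 1 * 1 ≤ (2 + rad F + c) * (N + ‖s‖) := by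
      apply mul_le_mul <;> linarith
    linarith
  have h1 : ∀ t : Fin c, ‖s - extra F N t‖ ≤ M := by
    intro t
    have h2 : ‖extra F N t‖ = N * rad F + 1 + (t : ℕ) := by
      unfold extra
      rw [Complex.norm_real, Real.norm_eq_abs, abs_of_nonneg (by positivity)]
    have ht : ((t : ℕ) : ℝ) ≤ c := by exact_mod_cast t.2.le
    refine (norm_sub_le _ _).trans ?_
    rw [h2, hM]
    have h3 : (2 + rad F + c) * (N + ‖s‖) = (N * rad F + 2 * N + c * N) + (2 + rad F + c) * ‖s‖ := by ring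
    rw [h3]
    have h4 : (c : ℝ) * 1 ≤ c * N := mul_le_mul_of_nonneg_left hN1 hc0
    have h5 : 1 * ‖s‖ ≤ (2 + rad F + c) * ‖s‖ := mul_le_mul_of_nonneg_right (by linarith) hs
    linarith
  calc ∏ t ∈ T, ‖s - extra F N t‖ ≤ ∏ _t ∈ T, M :=
        Finset.prod_le_prod (fun _ _ => norm_nonneg _) (fun t _ => h1 t)
    _ = M ^ T.card := by rw [Finset.prod_const]
    _ ≤ M ^ c := pow_le_pow_right₀ hM1 (by simpa using Finset.card_le_univ T)
    _ = Real.exp (c * (Real.log (2 + rad F + c) + Real.log (N + ‖s‖))) := by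
        rw [← Real.log_mul (by positivity) (by linarith), ← hM, mul_comm, Real.exp_mul,
          Real.exp_log (by linarith)]
        simp

/-- **products over the other points**, with the extra points, from above, every `s` -/
theorem oth_ptsX_le (hd : ∀ f, (F f).d ≠ 0) (hmu : ∀ f, (F f).mu = 1) (c : ℕ) :
    ∃ C : ℝ, 0 ≤ C ∧ ∀ N : ℕ, 0 < N → ∀ (x : Idx F N ⊕ Fin c) (s : ℂ),
      oth (ptsX F N c) x s ≤
        Real.exp (N * (mass F * Real.log N + U F (s / N)) + C * (1 + Real.log (N + ‖s‖))) := by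
  obtain ⟨C1, hC1, h1⟩ := oth_pts_le F hd hmu
  obtain ⟨C2, hC2, h2⟩ := prod_pts_le_all F hd hmu
  have hr := rad_nonneg F
  have hc0 : (0 : ℝ) ≤ c := by positivity
  have hl0 : 0 ≤ Real.log (2 + rad F + c) := Real.log_nonneg (by linarith)
  refine ⟨C1 + C2 + c * (1 + Real.log (2 + rad F + c)), by positivity, fun N hN x s => ?_⟩
  have hN1 : (1 : ℝ) ≤ N := by exact_mod_cast hN
  have hs := norm_nonneg s
  have hl : 0 ≤ Real.log (N + ‖s‖) := Real.log_nonneg (by linarith)
  set L := Real.log (N + ‖s‖) with hL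
  set K := Real.log (2 + rad F + c) with hK
  set X := N * (mass F * Real.log N + U F (s / N)) with hX
  have hfin : ∀ C' : ℝ, 0 ≤ C' → C' ≤ C1 + C2 → Real.exp (X + C') * Real.exp (c * (K + L))
      ≤ Real.exp (X + (C1 + C2 + c * (1 + K)) * (1 + L)) := by
    intro C' _ hC''
    rw [← Real.exp_add]
    apply Real.exp_le_exp.mpr
    have e : (C1 + C2 + c * (1 + K)) * (1 + L) = (C1 + C2) + (C1 + C2) * L + c * (K + L) + c
      + c * (K * L) := by ring
    rw [e]
    have h3 : 0 ≤ (C1 + C2) * L := by positivity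
    have h4 : 0 ≤ c * (K * L) := by positivity
    linarith
  rcases x with x | t
  · have e : oth (ptsX F N c) (Sum.inl x) s = oth (pts F N) x s * ∏ t : Fin c, ‖s - extra F N t‖ := by
      unfold oth
      have e1 : Finset.univ.erase (Sum.inl x : Idx F N ⊕ Fin c)
          = Finset.disjSum (Finset.univ.erase x) (Finset.univ : Finset (Fin c)) := by
        ext y
        rcases y with y | y <;> simp
      rw [e1, Finset.prod_disjSum]
      rfl
    rw [e]
    refine (mul_le_mul (h1 N hN x s) (extra_factor_le F N c hN s Finset.univ)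
      (Finset.prod_nonneg fun _ _ => norm_nonneg _) (Real.exp_pos _).le).trans ?_
    exact hfin C1 hC1 (by linarith)
  · have e : oth (ptsX F N c) (Sum.inr t) s = (∏ x : Idx F N, ‖s - pts F N x‖)
        * ∏ t' ∈ Finset.univ.erase t, ‖s - extra F N t'‖ := by
      unfold oth
      have e1 : Finset.univ.erase (Sum.inr t : Idx F N ⊕ Fin c)
          = Finset.disjSum (Finset.univ : Finset (Idx F N)) (Finset.univ.erase t) := by
        ext y
        rcases y with y | y <;> simp
      rw [e1, Finset.prod_disjSum]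
      rfl
    rw [e]
    refine (mul_le_mul (h2 N hN s) (extra_factor_le F N c hN s _)
      (Finset.prod_nonneg fun _ _ => norm_nonneg _) (Real.exp_pos _).le).trans ?_
    exact hfin C2 hC2 (by linarith)

end

end Crest.Agent.R006.Potx943
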