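import Crest.Agent.R006.RepRC_724
import Crest.Agent.R006.P3_Slot_283

/-!
Row 6 (helper724): the functions `b` of `P3Slot.slots_det_bound` for the circles of REP.

`slotB Jr B Dh s = Jr s * B s / Dh s`. For a denominator `D = (X - y)^q Dh`, `Dh ≠ 0` on the disc,
and `J s * (s - y)^p = Jr s` off `y`:
`J s * (B s * P s / D s) = P s * (slotB Jr B Dh s * ((s - y)^(p + q))⁻¹)` off `y`,
`slotB` is holomorphic on the closed disc, and on the sphere of radius `r`
`‖slotB‖ = ‖J s‖ * (‖B s‖ / ‖D s‖) * r ^ (p + q)`.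

Instances: `J v` at the sites `-1/2-l` (`p = 3`, `Jr = UP v l`), at the stars `l + 1/2`
(`p = 0`, `Jr = Jst v l`), at the negative integers (`p = 0`, `Jr = J v`).
-/

set_option autoImplicit false

namespace Crest.Agent.R006.Base724

open Polynomial Filter Topology Metric
open Crest.Agent.R006.NV Crest.Agent.R006.Germ724
open Crest.Agent.R006.P3Slot (ci)

/-- slot function -/
noncomputable def slotB (Jr : ℂ → ℂ) (B Dh : ℂ[X]) (s : ℂ) : ℂ := Jr s * B.eval s / Dh.eval s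

lemma slotB_diffOn {y : ℂ} {r : ℝ} {Jr : ℂ → ℂ} {Dh : ℂ[X]}
    (hd : DifferentiableOn ℂ Jr (closedBall y r)) (hne : ∀ s ∈ closedBall y r, Dh.eval s ≠ 0)
    (B : ℂ[X]) : DifferentiableOn ℂ (slotB Jr B Dh) (closedBall y r) :=
  (hd.mul B.differentiable.differentiableOn).div Dh.differentiable.differentiableOn hne

lemma slotB_eq {y : ℂ} {J Jr : ℂ → ℂ} {p q : ℕ} {D Dh : ℂ[X]} (hD : D = (X - C y) ^ q * Dh) {s : ℂ}
    (hs : s ≠ y) (hJ : J s * (s - y) ^ p = Jr s) (hne : Dh.eval s ≠ 0) (B P : ℂ[X]) :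
    J s * (B.eval s * P.eval s / D.eval s) =
      P.eval s * (slotB Jr B Dh s * ((s - y) ^ (p + q))⁻¹) := by
  have h0 : s - y ≠ 0 := sub_ne_zero.mpr hs
  have e : D.eval s = (s - y) ^ q * Dh.eval s := by
    rw [hD, eval_mul, eval_pow, eval_sub, eval_X, eval_C]
  unfold slotB
  rw [e, ← hJ, pow_add]
  field_simp

lemma slotB_norm {y : ℂ} {J Jr : ℂ → ℂ} {p q : ℕ} {D Dh : ℂ[X]} (hD : D = (X - C y) ^ q * Dh)
    {s : ℂ} (hJ : J s * (s - y) ^ p = Jr s) (B : ℂ[X]) (hs : s ≠ y) :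
    ‖slotB Jr B Dh s‖ = ‖J s‖ * (‖B.eval s‖ / ‖D.eval s‖) * ‖s - y‖ ^ (p + q) := by
  have h0 : ‖s - y‖ ≠ 0 := norm_ne_zero_iff.mpr (sub_ne_zero.mpr hs)
  have e : D.eval s = (s - y) ^ q * Dh.eval s := by
    rw [hD, eval_mul, eval_pow, eval_sub, eval_X, eval_C]
  unfold slotB
  rw [e, ← hJ, pow_add]
  simp only [norm_mul, norm_div, norm_pow]
  by_cases hz : ‖Dh.eval s‖ = 0
  · rw [hz]; simp
  · field_simp

/-- circle integral in the form of `slots_det_bound` -/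
lemma slotB_ci {y : ℂ} {r : ℝ} (hr : 0 < r) {J Jr : ℂ → ℂ} {p q : ℕ} {D Dh : ℂ[X]}
    (hD : D = (X - C y) ^ q * Dh) (hJ : ∀ s ∈ sphere y r, J s * (s - y) ^ p = Jr s)
    (hne : ∀ s ∈ closedBall y r, Dh.eval s ≠ 0) (B P : ℂ[X]) :
    ci y r (fun s => J s * (B.eval s * P.eval s / D.eval s)) =
      ci y r (fun s => P.eval s * (slotB Jr B Dh s * ((s - y) ^ (p + q))⁻¹)) := by
  refine P3Slot.ci_congr hr.le fun s hs => ?_
  have h0 : s ≠ y := sub_ne_zero.mp (P3Slot.sphere_ne hr hs)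
  exact slotB_eq hD h0 (hJ s hs) (hne s (sphere_subset_closedBall hs)) B P

/-! ### reduced jumps of `J v` -/

lemma UP_red (v : Fin 3 → ℂ) (l : ℕ) {s : ℂ} (hs : s ≠ PsiJ.ce l) :
    PsiJ.J v s * (s - PsiJ.ce l) ^ 3 = UP v l s := by
  have hs' : s ≠ site l := by rw [← ce_eq_site]; exact hs
  have h0 : s - PsiJ.ce l ≠ 0 := sub_ne_zero.mpr hs
  rw [PsiJ.J_eq v l hs]
  unfold UP
  field_simp

lemma UP_diffOn (v : Fin 3 → ℂ) (l : ℕ) {r : ℝ} (hr : r ≤ 1 / 4) :
    DifferentiableOn ℂ (UP v l) (closedBall (PsiJ.ce l) r) := by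
  intro s hs
  rw [mem_closedBall, dist_eq_norm] at hs
  exact (UP_differentiableAt v l (by rw [← ce_eq_site]; exact hs.trans hr)).differentiableWithinAt

lemma Jst_red (v : Fin 3 → ℂ) (l : ℕ) {s : ℂ} (h : ‖s - star l‖ ≤ 1 / 4) (hs : s ≠ star l) :
    PsiJ.J v s * (s - star l) ^ 0 = Jst v l s := by
  rw [pow_zero, mul_one, Jst_eq v l h hs]

lemma Jst_diffOn (v : Fin 3 → ℂ) (l : ℕ) {r : ℝ} (hr : r ≤ 1 / 4) :
    DifferentiableOn ℂ (Jst v l) (closedBall (star l) r) := by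
  intro s hs
  rw [mem_closedBall, dist_eq_norm] at hs
  exact (Jst_differentiableAt v l (hs.trans hr)).differentiableWithinAt

/-- `J v` is holomorphic on the discs around the negative integers -/
lemma J_diffOn_neg (v : Fin 3 → ℂ) (m : ℕ) {r : ℝ} (hr : r ≤ 1 / 4) :
    DifferentiableOn ℂ (PsiJ.J v) (closedBall (-(m : ℂ) - 1) r) := by
  intro s hs
  rw [mem_closedBall, dist_eq_norm] at hs
  have hs' := hs.trans hr
  refine (PsiJ.J_differentiableAt v ?_ ?_).differentiableWithinAt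
  · have h1 : |(s - (-(m : ℂ) - 1)).re| ≤ 1 / 4 := (Complex.abs_re_le_norm _).trans hs'
    have h2 : (s - (-(m : ℂ) - 1)).re = s.re + m + 1 := by simp; ring
    rw [h2] at h1
    have := (abs_le.mp h1).2
    have hm : (0 : ℝ) ≤ m := Nat.cast_nonneg m
    linarith
  · rintro l rfl
    rw [ce_eq_site, site_eq_half] at hs'
    have h3 := dist_half (a := -(2 * (l : ℤ)) - 1) (b := -(2 * (m : ℤ)) - 2) (by omega)
    have e : (((-(2 * (m : ℤ)) - 2 : ℤ)) : ℂ) / 2 = -(m : ℂ) - 1 := by push_cast; ring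
    rw [e] at h3
    linarith

/-! ### node polynomials -/

namespace Nodes

variable (N : Nodes)

/-- `den` without the factor of the node `i` -/
noncomputable def denh (i : N.A) : ℂ[X] :=
  ∏ k ∈ (Finset.univ \ N.W).erase i, (X - C (N.z k)) ^ N.mul k

lemma den_eq {i : N.A} (hi : i ∉ N.W) : N.den = (X - C (N.z i)) ^ N.mul i * N.denh i := by
  unfold den denh NSoff
  rw [Finset.mul_prod_erase (Finset.univ \ N.W) (fun k => (X - C (N.z k)) ^ N.mul k)
    (Finset.mem_sdiff.mpr ⟨Finset.mem_univ _, hi⟩)]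

lemma denh_ne {i : N.A} {s : ℂ} (hs : ‖s - N.z i‖ ≤ 1 / 4) : (N.denh i).eval s ≠ 0 := by
  unfold denh
  rw [eval_prod, Finset.prod_ne_zero_iff]
  intro k hk
  rw [eval_pow, eval_sub, eval_X, eval_C]
  exact pow_ne_zero _ (sub_ne_zero.mpr (N.near_node_ne (Finset.mem_erase.mp hk).1 hs))

lemma den_ne_site {l : ℕ} {s : ℂ} (hs : ‖s - PsiJ.ce l‖ ≤ 1 / 4) : N.den.eval s ≠ 0 := by
  apply N.den_ne_of_dist
  intro i hi
  exact N.near_site_ne (by rw [← ce_eq_site]; exact hs) hi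

/-- site slot function, order `3` -/
noncomputable def bw (v : Fin 3 → ℂ) (l : ℕ) (B : ℂ[X]) : ℂ → ℂ := slotB (UP v l) B N.den

/-- star slot function, order `mul i` -/
noncomputable def bst (v : Fin 3 → ℂ) (l : ℕ) (i : N.A) (B : ℂ[X]) : ℂ → ℂ :=
  slotB (Jst v l) B (N.denh i)

/-- slot function at a negative integer, order `mul i` -/
noncomputable def be (v : Fin 3 → ℂ) (i : N.A) (B : ℂ[X]) : ℂ → ℂ :=
  slotB (PsiJ.J v) B (N.denh i)

section
variable {r : ℝ} (hr : 0 < r) (hr' : r ≤ 1 / 4)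
include hr'

lemma bw_diffOn (v : Fin 3 → ℂ) (l : ℕ) (B : ℂ[X]) :
    DifferentiableOn ℂ (N.bw v l B) (closedBall (PsiJ.ce l) r) :=
  slotB_diffOn (UP_diffOn v l hr') (fun s hs => N.den_ne_site (by
    rw [mem_closedBall, dist_eq_norm] at hs; exact hs.trans hr')) B

lemma bst_diffOn (v : Fin 3 → ℂ) {l : ℕ} {i : N.A} (hz : N.z i = star l) (B : ℂ[X]) :
    DifferentiableOn ℂ (N.bst v l i B) (closedBall (N.z i) r) :=
  slotB_diffOn (by rw [hz]; exact Jst_diffOn v l hr') (fun s hs => N.denh_ne (by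
    rw [mem_closedBall, dist_eq_norm] at hs; exact hs.trans hr')) B

lemma be_diffOn (v : Fin 3 → ℂ) {m : ℕ} {i : N.A} (hz : N.z i = -(m : ℂ) - 1) (B : ℂ[X]) :
    DifferentiableOn ℂ (N.be v i B) (closedBall (N.z i) r) :=
  slotB_diffOn (by rw [hz]; exact J_diffOn_neg v m hr') (fun s hs => N.denh_ne (by
    rw [mem_closedBall, dist_eq_norm] at hs; exact hs.trans hr')) B

include hr

/-- the circle at the site `-1/2-l`, `b = bw`, order `3` -/
theorem ci_bw (v : Fin 3 → ℂ) (l : ℕ) (B P : ℂ[X]) :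
    ci (PsiJ.ce l) r (fun s => PsiJ.J v s * N.fR B P s) =
      ci (PsiJ.ce l) r (fun s => P.eval s * (N.bw v l B s * ((s - PsiJ.ce l) ^ 3)⁻¹)) := by
  have h := slotB_ci (y := PsiJ.ce l) hr (J := PsiJ.J v) (Jr := UP v l) (p := 3) (q := 0)
    (D := N.den) (Dh := N.den) (by rw [pow_zero, one_mul])
    (fun s hs => UP_red v l (sub_ne_zero.mp (P3Slot.sphere_ne hr hs)))
    (fun s hs => N.den_ne_site (by
      rw [mem_closedBall, dist_eq_norm] at hs; exact hs.trans hr')) B P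
  exact h

/-- the circle at a star node, `b = bst`, order `mul i` -/
theorem ci_bst (v : Fin 3 → ℂ) {l : ℕ} {i : N.A} (hz : N.z i = star l) (hi : i ∉ N.W)
    (B P : ℂ[X]) :
    ci (N.z i) r (fun s => PsiJ.J v s * N.fR B P s) =
      ci (N.z i) r (fun s => P.eval s * (N.bst v l i B s * ((s - N.z i) ^ N.mul i)⁻¹)) := by
  have h := slotB_ci (y := N.z i) hr (J := PsiJ.J v) (Jr := Jst v l) (p := 0) (q := N.mul i)
    (D := N.den) (Dh := N.denh i) (N.den_eq hi)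
    (fun s hs => by
      rw [hz]
      rw [hz] at hs
      refine Jst_red v l ?_ (sub_ne_zero.mp (P3Slot.sphere_ne hr hs))
      rw [mem_sphere, dist_eq_norm] at hs
      rw [hs]; exact hr')
    (fun s hs => N.denh_ne (by
      rw [mem_closedBall, dist_eq_norm] at hs; exact hs.trans hr')) B P
  rw [zero_add] at h
  exact h

/-- the circle at a negative integer, `b = be`, order `mul i` -/
theorem ci_be (v : Fin 3 → ℂ) {i : N.A} (hi : i ∉ N.W) (B P : ℂ[X]) :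
    ci (N.z i) r (fun s => PsiJ.J v s * N.fR B P s) =
      ci (N.z i) r (fun s => P.eval s * (N.be v i B s * ((s - N.z i) ^ N.mul i)⁻¹)) := by
  have h := slotB_ci (y := N.z i) hr (J := PsiJ.J v) (Jr := PsiJ.J v) (p := 0) (q := N.mul i)
    (D := N.den) (Dh := N.denh i) (N.den_eq hi)
    (fun s _ => by rw [pow_zero, mul_one])
    (fun s hs => N.denh_ne (by
      rw [mem_closedBall, dist_eq_norm] at hs; exact hs.trans hr')) B P
  rw [zero_add] at h
  exact h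

omit hr'

lemma bw_norm (v : Fin 3 → ℂ) (l : ℕ) (B : ℂ[X]) {s : ℂ} (hs : s ∈ sphere (PsiJ.ce l) r) :
    ‖N.bw v l B s‖ = ‖PsiJ.J v s‖ * (‖B.eval s‖ / ‖N.den.eval s‖) * r ^ 3 := by
  have hne := sub_ne_zero.mp (P3Slot.sphere_ne hr hs)
  have h := slotB_norm (y := PsiJ.ce l) (J := PsiJ.J v) (Jr := UP v l) (p := 3) (q := 0)
    (D := N.den) (Dh := N.den) (by rw [pow_zero, one_mul]) (UP_red v l hne) B hne
  rw [mem_sphere, dist_eq_norm] at hs
  rw [hs] at h
  exact h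

include hr'

lemma bst_norm (v : Fin 3 → ℂ) {l : ℕ} {i : N.A} (hz : N.z i = star l) (hi : i ∉ N.W)
    (B : ℂ[X]) {s : ℂ} (hs : s ∈ sphere (N.z i) r) :
    ‖N.bst v l i B s‖ = ‖PsiJ.J v s‖ * (‖B.eval s‖ / ‖N.den.eval s‖) * r ^ N.mul i := by
  have hne := sub_ne_zero.mp (P3Slot.sphere_ne hr hs)
  have hs' : ‖s - N.z i‖ = r := by rwa [mem_sphere, dist_eq_norm] at hs
  have h := slotB_norm (y := N.z i) (J := PsiJ.J v) (Jr := Jst v l) (p := 0) (q := N.mul i)
    (D := N.den) (Dh := N.denh i) (N.den_eq hi) (s := s) (by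
      rw [hz] at hne hs' ⊢
      exact Jst_red v l (hs'.le.trans hr') hne) B hne
  rw [hs', zero_add] at h
  exact h

omit hr'

lemma be_norm (v : Fin 3 → ℂ) {i : N.A} (hi : i ∉ N.W)
    (B : ℂ[X]) {s : ℂ} (hs : s ∈ sphere (N.z i) r) :
    ‖N.be v i B s‖ = ‖PsiJ.J v s‖ * (‖B.eval s‖ / ‖N.den.eval s‖) * r ^ N.mul i := by
  have hne := sub_ne_zero.mp (P3Slot.sphere_ne hr hs)
  have hs' : ‖s - N.z i‖ = r := by rwa [mem_sphere, dist_eq_norm] at hs
  have h := slotB_norm (y := N.z i) (J := PsiJ.J v) (Jr := PsiJ.J v) (p := 0) (q := N.mul i)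
    (D := N.den) (Dh := N.denh i) (N.den_eq hi) (s := s) (by rw [pow_zero, mul_one]) B hne
  rw [hs', zero_add] at h
  exact h

end

end Nodes

end Crest.Agent.R006.Base724
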