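import Mathlib

/-!
Helper530: slot sums of P3 (note 3016 (e)): a step-function majorant of the level function gives
the bound of the sum over the slots.
-/

namespace Crest.Agent.R006.P3SS530

open Finset

/-- number of integer points `i` with `a u ≤ i + θ ≤ b u`. -/
theorem card_window (F : Finset ℤ) (a b θ u : ℝ) (hu : 0 < u) (hab : a ≤ b) :
    (((F.filter fun i : ℤ => a ≤ ((i : ℝ) + θ) / u ∧ ((i : ℝ) + θ) / u ≤ b).card : ℕ) : ℝ)
      ≤ (b - a) * u + 1 := by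
  have hsub : (F.filter fun i : ℤ => a ≤ ((i : ℝ) + θ) / u ∧ ((i : ℝ) + θ) / u ≤ b)
      ⊆ Finset.Icc ⌈a * u - θ⌉ ⌊b * u - θ⌋ := by
    intro i hi
    rw [Finset.mem_filter] at hi
    obtain ⟨_, h1, h2⟩ := hi
    rw [le_div_iff₀ hu] at h1
    rw [div_le_iff₀ hu] at h2
    rw [Finset.mem_Icc]
    refine ⟨Int.ceil_le.2 (by linarith), Int.le_floor.2 (by linarith)⟩
  have h1 := Finset.card_le_card hsub
  rw [Int.card_Icc] at h1
  have h3 : (((⌊b * u - θ⌋ + 1 - ⌈a * u - θ⌉).toNat : ℕ) : ℝ) ≤ (b - a) * u + 1 := by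
    have h4 : (((⌊b * u - θ⌋ + 1 - ⌈a * u - θ⌉).toNat : ℕ) : ℝ)
        = (((⌊b * u - θ⌋ + 1 - ⌈a * u - θ⌉).toNat : ℤ) : ℝ) := by norm_cast
    rw [h4, Int.toNat_eq_max, Int.cast_max]
    have h5 : (⌊b * u - θ⌋ : ℝ) ≤ b * u - θ := Int.floor_le _
    have h6 : a * u - θ ≤ (⌈a * u - θ⌉ : ℝ) := Int.le_ceil _
    have h7 : 0 ≤ (b - a) * u := mul_nonneg (by linarith) hu.le
    apply max_le
    · push_cast; linarith
    · push_cast; linarith
  exact (Nat.cast_le.2 h1).trans h3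

/-- **Slot sum**: `G ≤ η_j` on `[a_j, b_j]`, the pieces cover `[lo, hi]`, the points are
`x_i = (i + θ)/u ∈ [lo, hi]`. -/
theorem slot_sum (L : List (ℝ × ℝ × ℝ)) (G : ℝ → ℝ) (lo hi θ u : ℝ) (hu : 0 < u)
    (F : Finset ℤ)
    (hF : ∀ i ∈ F, lo ≤ ((i : ℝ) + θ) / u ∧ ((i : ℝ) + θ) / u ≤ hi)
    (hL : ∀ s ∈ L, s.1 ≤ s.2.1 ∧ 0 ≤ s.2.2)
    (hcov : ∀ x, lo ≤ x → x ≤ hi → ∃ s ∈ L, s.1 ≤ x ∧ x ≤ s.2.1 ∧ G x ≤ s.2.2) :
    ∑ i ∈ F, max 0 (u * G (((i : ℝ) + θ) / u))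
      ≤ u ^ 2 * (L.map fun s => (s.2.1 - s.1) * s.2.2).sum + u * (L.map fun s => s.2.2).sum := by
  classical
  have key : ∀ i ∈ F, max 0 (u * G (((i : ℝ) + θ) / u))
      ≤ (L.map fun s => if (s.1 ≤ ((i : ℝ) + θ) / u ∧ ((i : ℝ) + θ) / u ≤ s.2.1)
          then u * s.2.2 else 0).sum := by
    intro i hi
    have hnn : ∀ y ∈ (L.map fun s => if (s.1 ≤ ((i : ℝ) + θ) / u ∧ ((i : ℝ) + θ) / u ≤ s.2.1)
          then u * s.2.2 else 0), 0 ≤ y := by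
      intro y hy
      rw [List.mem_map] at hy
      obtain ⟨s, hs, rfl⟩ := hy
      split_ifs
      · exact mul_nonneg hu.le (hL s hs).2
      · exact le_rfl
    apply max_le
    · exact List.sum_nonneg hnn
    · obtain ⟨s, hs, h1, h2, h3⟩ := hcov _ (hF i hi).1 (hF i hi).2
      have h4 : u * G (((i : ℝ) + θ) / u) ≤ u * s.2.2 := mul_le_mul_of_nonneg_left h3 hu.le
      refine h4.trans ?_
      have h5 : u * s.2.2 ∈ (L.map fun s => if (s.1 ≤ ((i : ℝ) + θ) / u ∧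
          ((i : ℝ) + θ) / u ≤ s.2.1) then u * s.2.2 else 0) := by
        rw [List.mem_map]
        exact ⟨s, hs, by rw [if_pos ⟨h1, h2⟩]⟩
      exact List.single_le_sum hnn _ h5
  refine (Finset.sum_le_sum key).trans ?_
  clear key hcov hF
  induction L with
  | nil => simp
  | cons s L ih =>
    have hL' : ∀ s ∈ L, s.1 ≤ s.2.1 ∧ 0 ≤ s.2.2 := fun t ht => hL t (List.mem_cons_of_mem _ ht)
    have ih' := ih hL'
    have hs := hL s List.mem_cons_self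
    simp only [List.map_cons, List.sum_cons]
    rw [Finset.sum_add_distrib]
    have h1 : ∑ i ∈ F, (if (s.1 ≤ ((i : ℝ) + θ) / u ∧ ((i : ℝ) + θ) / u ≤ s.2.1)
          then u * s.2.2 else 0) ≤ u * s.2.2 * ((s.2.1 - s.1) * u + 1) := by
      rw [← Finset.sum_filter, Finset.sum_const, nsmul_eq_mul, mul_comm]
      exact mul_le_mul_of_nonneg_left (card_window F s.1 s.2.1 θ u hu hs.1)
        (mul_nonneg hu.le hs.2)
    nlinarith [h1, ih']

/-- Chain form: breakpoints `x₀ ≤ x₁ ≤ …` with a level on every piece. -/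
def chain : ℝ → List (ℝ × ℝ) → List (ℝ × ℝ × ℝ)
  | _, [] => []
  | x, (y, e) :: L => (x, y, e) :: chain y L

def chainOK (G : ℝ → ℝ) : ℝ → List (ℝ × ℝ) → Prop
  | _, [] => True
  | x, (y, e) :: L => x ≤ y ∧ 0 ≤ e ∧ (∀ z, x ≤ z → z ≤ y → G z ≤ e) ∧ chainOK G y L

def chainEnd : ℝ → List (ℝ × ℝ) → ℝ
  | x, [] => x
  | _, (y, _) :: L => chainEnd y L

theorem chain_nonneg {G : ℝ → ℝ} : ∀ (x : ℝ) (L : List (ℝ × ℝ)), chainOK G x L →
    ∀ s ∈ chain x L, s.1 ≤ s.2.1 ∧ 0 ≤ s.2.2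
  | _, [], _ => by intro s hs; simp [chain] at hs
  | x, (y, e) :: L, h => by
    intro s hs
    simp only [chain, List.mem_cons] at hs
    rcases hs with rfl | hs
    · exact ⟨h.1, h.2.1⟩
    · exact chain_nonneg y L h.2.2.2 s hs

theorem chain_cover {G : ℝ → ℝ} : ∀ (x : ℝ) (L : List (ℝ × ℝ)), chainOK G x L → L ≠ [] →
    ∀ z, x ≤ z → z ≤ chainEnd x L → ∃ s ∈ chain x L, s.1 ≤ z ∧ z ≤ s.2.1 ∧ G z ≤ s.2.2
  | _, [], _, hne => absurd rfl hne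
  | x, (y, e) :: L, h, _ => by
    intro z hz1 hz2
    by_cases hzy : z ≤ y
    · exact ⟨(x, y, e), by simp [chain], hz1, hzy, h.2.2.1 z hz1 hzy⟩
    · push Not at hzy
      have hne : L ≠ [] := by
        rintro rfl
        simp only [chainEnd] at hz2
        linarith
      obtain ⟨s, hs, h1⟩ := chain_cover y L h.2.2.2 hne z hzy.le hz2
      exact ⟨s, by simp [chain, hs], h1⟩

/-- **Slot sum with a capacity and with an error term per slot**: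
`∑_i cap · max(0, u G(x_i) + R) ≤ cap (u² Σ_j (b_j - a_j) η_j + u Σ_j η_j + #F · R)`. -/
theorem slot_sum_cap (L : List (ℝ × ℝ × ℝ)) (G : ℝ → ℝ) (lo hi θ u cap R : ℝ) (hu : 0 < u)
    (hcap : 0 ≤ cap) (hR : 0 ≤ R) (F : Finset ℤ)
    (hF : ∀ i ∈ F, lo ≤ ((i : ℝ) + θ) / u ∧ ((i : ℝ) + θ) / u ≤ hi)
    (hL : ∀ s ∈ L, s.1 ≤ s.2.1 ∧ 0 ≤ s.2.2)
    (hcov : ∀ x, lo ≤ x → x ≤ hi → ∃ s ∈ L, s.1 ≤ x ∧ x ≤ s.2.1 ∧ G x ≤ s.2.2)
    (g : ℤ → ℝ) (hg : ∀ i ∈ F, g i ≤ u * G (((i : ℝ) + θ) / u) + R) :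
    ∑ i ∈ F, cap * max 0 (g i)
      ≤ cap * (u ^ 2 * (L.map fun s => (s.2.1 - s.1) * s.2.2).sum
        + u * (L.map fun s => s.2.2).sum + F.card * R) := by
  rw [← Finset.mul_sum]
  apply mul_le_mul_of_nonneg_left _ hcap
  have h1 : ∀ i ∈ F, max 0 (g i) ≤ max 0 (u * G (((i : ℝ) + θ) / u)) + R := by
    intro i hi
    apply max_le
    · have := le_max_left 0 (u * G (((i : ℝ) + θ) / u)); linarith
    · have := le_max_right 0 (u * G (((i : ℝ) + θ) / u)); linarith [hg i hi]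
  refine (Finset.sum_le_sum h1).trans ?_
  rw [Finset.sum_add_distrib, Finset.sum_const, nsmul_eq_mul]
  have := slot_sum L G lo hi θ u hu F hF hL hcov
  linarith

end Crest.Agent.R006.P3SS530
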