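import Crest.Agent.R006.P3_Slot_283
import Crest.Agent.R006.P3_Defs_257
import Crest.Agent.R006.Border_410

/-!
# Row 6, block P3: the unit columns (helper89)

`coeff_ci`: Taylor coefficient of `P/D` as a circle integral;
`u_eq_ci`: `Lam.u z m P r = (2πi)⁻¹ ∮ (s-z)^j P/ω_S`; `norm_u_le`, `norm_u_lg_le`: bounds.
-/

set_option autoImplicit false

open Complex Metric Polynomial Finset

namespace Crest.Agent.R006.P3Unit89

open Crest.Agent.R006.P3Slot Crest.Agent.R006.Lam

/-- `(2πi)⁻¹ ∮ P (s-y)^(-n-1)` is the Taylor coefficient -/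
lemma ci_eval {y : ℂ} {r : ℝ} (hr : 0 < r) (P : ℂ[X]) (n : ℕ) :
    ci y r (fun s => P.eval s * ((s - y) ^ (n + 1))⁻¹) = (taylor y P).coeff n := by
  have h0 : ci y r (fun s => P.eval s * ((s - y) ^ (n + 1))⁻¹) =
      ci y r (fun s => P.eval s * ((1 : ℂ) * ((s - y) ^ (n + 1))⁻¹)) := by
    simp only [one_mul]
  rw [h0, slot_form hr (differentiableOn_const (1 : ℂ)) P (n + 1), Finset.sum_eq_single n]
  · have : cf y r (fun _ => (1 : ℂ)) (n + 1 - 1 - n) = 1 := by
      have e0 : n + 1 - 1 - n = 0 := by omega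
      rw [e0]
      unfold cf ci
      have := circleIntegral.integral_sub_center_inv y hr.ne'
      simp only [zero_add, pow_one, one_mul]
      rw [this]
      have hpi : (2 * Real.pi * I : ℂ) ≠ 0 := by simp [Real.pi_ne_zero]
      field_simp
    rw [this, mul_one]; rfl
  · intro β hβ hne
    have hlt : β < n := lt_of_le_of_ne (Nat.lt_succ_iff.mp (Finset.mem_range.mp hβ)) hne
    have : cf y r (fun _ => (1 : ℂ)) (n + 1 - 1 - β) = 0 := by
      unfold cf ci
      obtain ⟨k, hk⟩ : ∃ k : ℕ, n + 1 - 1 - β = k + 1 := ⟨n - β - 1, by omega⟩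
      rw [hk]
      have h2 := circleIntegral.integral_sub_zpow_of_ne (n := -((k : ℤ) + 2)) (by omega) y y r
      have h3 : (∮ s in C(y, r), (1 : ℂ) * ((s - y) ^ (k + 1 + 1))⁻¹) = 0 := by
        rw [← h2]
        refine circleIntegral.integral_congr hr.le fun s _ => ?_
        simp only [one_mul]
        rw [zpow_neg]
        norm_cast
      rw [h3, mul_zero]
    rw [this, mul_zero]
  · intro h; exact absurd (Finset.mem_range.mpr (Nat.lt_succ_self n)) h

/-- **Taylor coefficient of `P/D` as a circle integral** -/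
theorem coeff_ci {y : ℂ} {r : ℝ} (hr : 0 < r) (P D : ℂ[X])
    (hD : ∀ s ∈ closedBall y r, D.eval s ≠ 0) (n : ℕ) :
    PowerSeries.coeff n (germ y P * (germ y D)⁻¹) =
      ci y r (fun s => P.eval s / D.eval s * ((s - y) ^ (n + 1))⁻¹) := by
  set w : PowerSeries ℂ := germ y P * (germ y D)⁻¹ with hw
  have hy : D.eval y ≠ 0 := hD y (mem_closedBall_self hr.le)
  have hc : PowerSeries.constantCoeff (germ y D) ≠ 0 := by rwa [constantCoeff_germ]
  have hP : germ y P = w * germ y D := by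
    rw [hw, mul_assoc, PowerSeries.inv_mul_cancel _ hc, mul_one]
  set T0 : ℂ[X] := PowerSeries.trunc (n + 1) w with hT0
  set T : ℂ[X] := taylor (-y) T0 with hT
  have hgT : germ y T = (T0 : PowerSeries ℂ) := by
    rw [germ, hT, taylor_taylor]
    simp
  have hdvd : (PowerSeries.X : PowerSeries ℂ) ^ (n + 1) ∣ germ y (P - D * T) := by
    have e : germ y (P - D * T) = germ y D * (w - T0) := by
      rw [germ_sub, germ_mul, hgT, hP]; ring
    rw [e]
    refine Dvd.dvd.mul_left ?_ _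
    rw [PowerSeries.X_pow_dvd_iff]
    intro m hm
    rw [map_sub, Polynomial.coeff_coe, hT0, PowerSeries.coeff_trunc, if_pos hm, sub_self]
  rw [X_pow_dvd_germ_iff] at hdvd
  obtain ⟨Q, hQ⟩ := hdvd
  have hcont : ∀ F : ℂ[X], ContinuousOn (fun s => F.eval s) (sphere y r) :=
    fun F => F.continuous.continuousOn
  have h1 : ci y r (fun s => P.eval s / D.eval s * ((s - y) ^ (n + 1))⁻¹) =
      ci y r (fun s => T.eval s * ((s - y) ^ (n + 1))⁻¹ + Q.eval s / D.eval s) := by
    refine ci_congr hr.le fun s hs => ?_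
    have h2 : P.eval s = D.eval s * T.eval s + (s - y) ^ (n + 1) * Q.eval s := by
      have := congrArg (fun p => Polynomial.eval s p) hQ
      simp only [eval_sub, eval_mul, eval_pow, eval_X, eval_C] at this
      linear_combination this
    have h3 := hD s (sphere_subset_closedBall hs)
    have h4 := sphere_ne hr hs
    rw [h2]
    field_simp
  have hint1 : CircleIntegrable (fun s => T.eval s * ((s - y) ^ (n + 1))⁻¹) y r := by
    refine ContinuousOn.circleIntegrable hr.le ((hcont T).mul ?_)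
    exact ContinuousOn.inv₀ (by fun_prop) fun s hs => pow_ne_zero _ (sphere_ne hr hs)
  have hint2 : CircleIntegrable (fun s => Q.eval s / D.eval s) y r :=
    ContinuousOn.circleIntegrable hr.le ((hcont Q).div (hcont D)
      fun s hs => hD s (sphere_subset_closedBall hs))
  rw [h1, ci_add hint1 hint2, ci_eval hr]
  have h5 : ci y r (fun s => Q.eval s / D.eval s) = 0 := by
    refine ci_holo hr.le ?_
    exact (Q.differentiable.differentiableOn).div (D.differentiable.differentiableOn)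
      fun s hs => hD s hs
  rw [h5, add_zero, hT, taylor_taylor]
  simp only [add_neg_cancel, taylor_zero]
  rw [hT0, PowerSeries.coeff_trunc, if_pos (Nat.lt_succ_self n)]

section
variable {ι : Type*} [Fintype ι] [DecidableEq ι] (z : ι → ℂ) (m : ι → ℕ)

variable {z} in
omit [Fintype ι] [DecidableEq ι] in
lemma dist_ge (hz : ∀ i j, i ≠ j → 1 / 2 ≤ ‖z i - z j‖) {i l : ι} (hl : l ≠ i) {s : ℂ}
    (hs : s ∈ closedBall (z i) (1 / 4)) : 1 / 4 ≤ ‖s - z l‖ := by
  have h1 := hz l i hl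
  have h2 : ‖s - z i‖ ≤ 1 / 4 := by rwa [mem_closedBall_iff_norm] at hs
  have h3 : ‖z l - z i‖ ≤ ‖s - z l‖ + ‖s - z i‖ := by
    have : z l - z i = (s - z i) - (s - z l) := by ring
    rw [this]
    refine (norm_sub_le _ _).trans (le_of_eq ?_)
    ring
  linarith

lemma eval_Nhat (i : ι) (s : ℂ) :
    (Nhat z m i).eval s = ∏ l ∈ univ.erase i, (s - z l) ^ (m l) := by
  simp [Nhat, eval_prod]

variable {z} in
lemma Nhat_ne (hz : ∀ i j, i ≠ j → 1 / 2 ≤ ‖z i - z j‖) (i : ι) {s : ℂ}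
    (hs : s ∈ closedBall (z i) (1 / 4)) : (Nhat z m i).eval s ≠ 0 := by
  rw [eval_Nhat, Finset.prod_ne_zero_iff]
  intro l hl
  refine pow_ne_zero _ fun h => ?_
  have := dist_ge hz (Finset.mem_erase.mp hl).1 hs
  rw [h, norm_zero] at this
  norm_num at this

variable {z} in
lemma norm_Nhat_ge (hz : ∀ i j, i ≠ j → 1 / 2 ≤ ‖z i - z j‖) (i : ι) {s : ℂ}
    (hs : s ∈ closedBall (z i) (1 / 4)) :
    (1 / 4 : ℝ) ^ (∑ l ∈ univ.erase i, m l) ≤ ‖(Nhat z m i).eval s‖ := by
  rw [eval_Nhat, norm_prod, ← Finset.prod_pow_eq_pow_sum]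
  refine Finset.prod_le_prod (fun _ _ => by positivity) fun l hl => ?_
  rw [norm_pow]
  exact pow_le_pow_left₀ (by norm_num) (dist_ge hz (Finset.mem_erase.mp hl).1 hs) _

variable {z} in
/-- **the weight of a row as a circle integral** -/
theorem u_eq_ci (hz : ∀ i j, i ≠ j → 1 / 2 ≤ ‖z i - z j‖) (P : ℂ[X]) (r : Row m) :
    Lam.u z m P r = ci (z r.1) (1 / 4)
      (fun s => (s - z r.1) ^ (r.2 : ℕ) * P.eval s / (NS z m).eval s) := by
  rw [Lam.u, wt, coeff_ci (by norm_num : (0 : ℝ) < 1 / 4) P (Nhat z m r.1)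
    (fun s hs => Nhat_ne m hz r.1 hs)]
  refine ci_congr (by norm_num) fun s hs => ?_
  have h1 := Nhat_ne m hz r.1 (sphere_subset_closedBall hs)
  have h2 := sphere_ne (by norm_num : (0 : ℝ) < 1 / 4) hs
  have h3 : (NS z m).eval s = (s - z r.1) ^ (m r.1) * (Nhat z m r.1).eval s := by
    rw [NS_eq z m r.1, eval_mul, eval_pow, eval_sub, eval_X, eval_C]
  have h4 : (s - z r.1) ^ (m r.1) = (s - z r.1) ^ (r.2 : ℕ) *
      (s - z r.1) ^ (m r.1 - 1 - r.2 + 1) := by
    rw [← pow_add]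
    congr 1
    have := r.2.2
    omega
  rw [h3, h4]
  field_simp

variable {z} in
theorem norm_u_le (hz : ∀ i j, i ≠ j → 1 / 2 ≤ ‖z i - z j‖) (P : ℂ[X]) (r : Row m) {M : ℝ}
    (h : ∀ s ∈ sphere (z r.1) (1 / 4), ‖P.eval s / (NS z m).eval s‖ ≤ M) :
    ‖Lam.u z m P r‖ ≤ 1 / 4 * M := by
  rw [u_eq_ci m hz]
  refine norm_ci_le (by norm_num) fun s hs => ?_
  rw [mul_div_assoc, norm_mul, norm_pow, mem_sphere_iff_norm.mp hs]
  have h1 : (1 / 4 : ℝ) ^ (r.2 : ℕ) ≤ 1 := pow_le_one₀ (by norm_num) (by norm_num)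
  calc (1 / 4 : ℝ) ^ (r.2 : ℕ) * ‖P.eval s / (NS z m).eval s‖
      ≤ 1 * ‖P.eval s / (NS z m).eval s‖ := mul_le_mul_of_nonneg_right h1 (norm_nonneg _)
    _ ≤ M := by rw [one_mul]; exact h s hs

variable {z} in
lemma norm_NS_ge (hz : ∀ i j, i ≠ j → 1 / 2 ≤ ‖z i - z j‖) (i : ι) {s : ℂ}
    (hs : s ∈ sphere (z i) (1 / 4)) : (1 / 4 : ℝ) ^ (∑ l, m l) ≤ ‖(NS z m).eval s‖ := by
  rw [NS_eq z m i, eval_mul, eval_pow, eval_sub, eval_X, eval_C, norm_mul, norm_pow,
    mem_sphere_iff_norm.mp hs, ← Finset.add_sum_erase univ m (mem_univ i), pow_add]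
  exact mul_le_mul_of_nonneg_left (norm_Nhat_ge m hz i (sphere_subset_closedBall hs))
    (by positivity)

variable {z} in
/-- explicit crude bound for the Lagrange rows: `exp (O(u log u))` -/
theorem norm_u_lg_le (hz : ∀ i j, i ≠ j → 1 / 2 ≤ ‖z i - z j‖) {n : ℕ} (w : Fin n → ℂ) {R : ℝ}
    (hR : 1 ≤ R) (hzR : ∀ i, ‖z i‖ ≤ R) (hw : ∀ j, ‖w j‖ ≤ R) (i : Fin n) (r : Row m) :
    ‖Lam.u z m (Border410.lg w i) r‖ ≤ (3 * R) ^ n * 4 ^ (∑ l, m l) := by
  have hR0 : (0 : ℝ) ≤ R := by linarith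
  have h1 : ∀ s ∈ sphere (z r.1) (1 / 4), ‖(Border410.lg w i).eval s / (NS z m).eval s‖ ≤
      (3 * R) ^ n * 4 ^ (∑ l, m l) := by
    intro s hs
    have hs1 : ‖s‖ ≤ R + 1 / 4 := by
      have h2 : ‖s - z r.1‖ = 1 / 4 := mem_sphere_iff_norm.mp hs
      calc ‖s‖ = ‖z r.1 + (s - z r.1)‖ := by ring_nf
        _ ≤ ‖z r.1‖ + ‖s - z r.1‖ := norm_add_le _ _
        _ ≤ R + 1 / 4 := by rw [h2]; linarith [hzR r.1]
    have h3 : ‖(Border410.lg w i).eval s‖ ≤ (3 * R) ^ n := by
      rw [Border410.eval_lg, norm_prod]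
      calc ∏ j ∈ univ.erase i, ‖s - w j‖ ≤ ∏ j ∈ univ.erase i, (3 * R) := by
            refine Finset.prod_le_prod (fun _ _ => norm_nonneg _) fun j _ => ?_
            refine (norm_sub_le _ _).trans ?_
            linarith [hw j]
        _ = (3 * R) ^ (n - 1) := by
            rw [Finset.prod_const, Finset.card_erase_of_mem (mem_univ i), Finset.card_univ,
              Fintype.card_fin]
        _ ≤ (3 * R) ^ n := pow_le_pow_right₀ (by linarith) (Nat.sub_le _ _)
    have h4 := norm_NS_ge m hz r.1 hs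
    have h5 : 0 < (1 / 4 : ℝ) ^ (∑ l, m l) := by positivity
    rw [norm_div, div_le_iff₀ (h5.trans_le h4)]
    calc ‖(Border410.lg w i).eval s‖ ≤ (3 * R) ^ n := h3
      _ = (3 * R) ^ n * 4 ^ (∑ l, m l) * (1 / 4 : ℝ) ^ (∑ l, m l) := by
          rw [mul_assoc, ← mul_pow]; norm_num
      _ ≤ _ := mul_le_mul_of_nonneg_left h4 (by positivity)
  refine (norm_u_le m hz _ r h1).trans ?_
  have : 0 ≤ (3 * R) ^ n * (4 : ℝ) ^ (∑ l, m l) := by positivity
  linarith

end

/-! ### the sites of the design -/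

section design
open Crest.Agent.R006.D Crest.Agent.R006.Bord Crest.Agent.R006.P3

lemma val_sep {a b : Site} (h : a ≠ b) : (1 / 2 : ℚ) ≤ |a.val - b.val| := by
  have key : ∀ k : ℤ, k ≠ 0 → (1 / 2 : ℚ) ≤ |(k : ℚ) / 2| := by
    intro k hk
    have h1 : (1 : ℤ) ≤ |k| := Int.one_le_abs hk
    have h2 : (1 : ℚ) ≤ |(k : ℚ)| := by exact_mod_cast h1
    rw [abs_div, abs_two]
    linarith
  rcases a with i | i <;> rcases b with j | j
  · have e : (Site.Z i).val - (Site.Z j).val = ((2 * (i - j) : ℤ) : ℚ) / 2 := by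
      simp only [Site.val]; push_cast; ring
    rw [e]
    exact key _ fun h0 => h (by rw [show i = j by omega])
  · have e : (Site.Z i).val - (Site.H j).val = ((2 * (i - j) - 1 : ℤ) : ℚ) / 2 := by
      simp only [Site.val]; push_cast; ring
    rw [e]
    exact key _ fun h0 => by omega
  · have e : (Site.H i).val - (Site.Z j).val = ((2 * (i - j) + 1 : ℤ) : ℚ) / 2 := by
      simp only [Site.val]; push_cast; ring
    rw [e]
    exact key _ fun h0 => by omega
  · have e : (Site.H i).val - (Site.H j).val = ((2 * (i - j) : ℤ) : ℚ) / 2 := by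
      simp only [Site.val]; push_cast; ring
    rw [e]
    exact key _ fun h0 => h (by rw [show i = j by omega])

lemma zc_sep (S : Shape) (u c : ℕ) (i j : St S u c) (h : i ≠ j) :
    1 / 2 ≤ ‖zc S u c i - zc S u c j‖ := by
  have h1 : i.1 ≠ j.1 := fun h0 => h (Subtype.ext h0)
  have h2 := val_sep h1
  have e : zc S u c i - zc S u c j = (((i.1.val - j.1.val : ℚ) : ℝ) : ℂ) := by
    simp only [zc, Bord.zz]; push_cast; ring
  rw [e, Complex.norm_real, Real.norm_eq_abs, ← Rat.cast_abs]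
  have : ((1 / 2 : ℚ) : ℝ) ≤ ((|i.1.val - j.1.val| : ℚ) : ℝ) := by exact_mod_cast h2
  simpa using this

/-- all sites are bounded by `L + 1` -/
lemma norm_zc_le (S : Shape) (u c : ℕ) (i : St S u c) : ‖zc S u c i‖ ≤ (L S u c : ℝ) + 1 := by
  have hq : |i.1.val| ≤ (L S u c : ℚ) + 1 := by
    have hi : i.1 ∈ ((Finset.Icc (-(L S u c : ℤ)) (L S u c)).image Site.Z) ∪
      ((Finset.Icc (-(L S u c : ℤ)) (L S u c)).image Site.H) := i.2
    rw [Finset.mem_union, Finset.mem_image, Finset.mem_image] at hi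
    rw [abs_le]
    rcases hi with ⟨k, hk, hk'⟩ | ⟨k, hk, hk'⟩
    · rw [Finset.mem_Icc] at hk
      have h1 : (-(L S u c : ℤ) : ℚ) ≤ k := by exact_mod_cast hk.1
      have h2 : (k : ℚ) ≤ (L S u c : ℤ) := by exact_mod_cast hk.2
      push_cast at h1 h2
      rw [← hk']
      simp only [Site.val]
      constructor <;> linarith
    · rw [Finset.mem_Icc] at hk
      have h1 : (-(L S u c : ℤ) : ℚ) ≤ k := by exact_mod_cast hk.1
      have h2 : (k : ℚ) ≤ (L S u c : ℤ) := by exact_mod_cast hk.2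
      push_cast at h1 h2
      rw [← hk']
      simp only [Site.val]
      constructor <;> linarith
  have e : zc S u c i = (((i.1.val : ℚ) : ℝ) : ℂ) := by
    simp only [zc, Bord.zz]; push_cast; ring
  rw [e, Complex.norm_real, Real.norm_eq_abs, ← Rat.cast_abs]
  have : ((|i.1.val| : ℚ) : ℝ) ≤ (((L S u c : ℚ) + 1 : ℚ) : ℝ) := by exact_mod_cast hq
  simpa using this

/-- **the unit columns for the design** -/
theorem unit_bound (S : Shape) (u c : ℕ) {n : ℕ} (W : Fin n → ℂ) {R : ℝ}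
    (hR : (L S u c : ℝ) + 1 ≤ R) (hW : ∀ j, ‖W j‖ ≤ R) (i : Fin n) (J : Rw S u c) :
    ‖Lam.u (zc S u c) (mm S u c) (Border410.lg W i) J‖ ≤ (3 * R) ^ n * 4 ^ (S.rows * u + c) := by
  have h := norm_u_lg_le (mm S u c) (zc_sep S u c) W (R := R)
    (by have : (0 : ℝ) ≤ (L S u c : ℝ) := Nat.cast_nonneg _
        linarith) (fun i => (norm_zc_le S u c i).trans hR) hW i J
  have e : ∑ l, mm S u c l = S.rows * u + c := by
    rw [← card_Rw]; simp
  rwa [e] at h

/-- `exp (C u log u)` form, for all reference points with `|W j| ≤ A u` -/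
theorem unit_exp (S : Shape) (c : ℕ) (A : ℝ) : ∃ C : ℝ, 0 ≤ C ∧ ∀ u : ℕ, 2 ≤ u →
    ∀ W : Fin (S.k * u + S.g * u + c) → ℂ, (∀ j, ‖W j‖ ≤ A * u) →
    ∀ (i : Fin (S.k * u + S.g * u + c)) (J : Rw S u c),
      ‖Lam.u (zc S u c) (mm S u c) (Border410.lg W i) J‖ ≤ Real.exp (C * (u * Real.log u)) := by
  set a : ℕ := S.B + S.e1 + S.e2 + S.e3 + S.h1 + S.h2 + S.h3 + S.w with ha
  set M : ℝ := max A ((a : ℝ) + c + 1) with hM
  have hM1 : 1 ≤ M := by
    refine le_trans ?_ (le_max_right _ _)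
    have h1 : (0 : ℝ) ≤ a := Nat.cast_nonneg _
    have h2 : (0 : ℝ) ≤ c := Nat.cast_nonneg _
    linarith
  have hl2 : 0 < Real.log 2 := Real.log_pos (by norm_num)
  set n1 : ℝ := (S.k : ℝ) + S.g + c with hn1
  set n2 : ℝ := (S.rows : ℝ) + c with hn2
  have hn1' : 0 ≤ n1 := by positivity
  have hn2' : 0 ≤ n2 := by positivity
  have hlM : 0 ≤ Real.log (3 * M) := Real.log_nonneg (by linarith)
  have hl4 : 0 ≤ Real.log 4 := Real.log_nonneg (by norm_num)
  refine ⟨n1 * (Real.log (3 * M) / Real.log 2 + 1) + n2 * (Real.log 4 / Real.log 2),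
    by positivity, ?_⟩
  intro u hu W hW i J
  have hu1 : (1 : ℝ) ≤ u := by exact_mod_cast (by omega : 1 ≤ u)
  have hu2 : (2 : ℝ) ≤ u := by exact_mod_cast hu
  have hu0 : (0 : ℝ) < u := by linarith
  have hR : (L S u c : ℝ) + 1 ≤ M * u := by
    have h1 : (L S u c : ℝ) = a * u + c := by
      simp only [L, ha]; push_cast; ring
    rw [h1]
    have h2 : ((a : ℝ) + c + 1) * u ≤ M * u :=
      mul_le_mul_of_nonneg_right (le_max_right _ _) hu0.le
    have h3 : (c : ℝ) ≤ c * u := le_mul_of_one_le_right (Nat.cast_nonneg _) hu1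
    nlinarith
  have hW' : ∀ j, ‖W j‖ ≤ M * u := fun j => (hW j).trans
    (mul_le_mul_of_nonneg_right (le_max_left _ _) hu0.le)
  refine (unit_bound S u c W hR hW' i J).trans ?_
  have hlu : Real.log 2 ≤ Real.log u := Real.log_le_log (by norm_num) hu2
  have hlu0 : 0 < Real.log u := hl2.trans_le hlu
  have hpos : 0 < 3 * (M * u) := by positivity
  have e1 : (3 * (M * (u : ℝ))) ^ (S.k * u + S.g * u + c) =
      Real.exp (((S.k * u + S.g * u + c : ℕ) : ℝ) * Real.log (3 * (M * u))) := by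
    rw [← Real.rpow_natCast, Real.rpow_def_of_pos hpos, mul_comm]
  have e2 : (4 : ℝ) ^ (S.rows * u + c) =
      Real.exp (((S.rows * u + c : ℕ) : ℝ) * Real.log 4) := by
    rw [← Real.rpow_natCast, Real.rpow_def_of_pos (by norm_num : (0 : ℝ) < 4), mul_comm]
  rw [e1, e2, ← Real.exp_add]
  apply Real.exp_le_exp.mpr
  have h3 : (((S.k * u + S.g * u + c : ℕ) : ℝ)) ≤ n1 * u := by
    push_cast
    have : (c : ℝ) ≤ c * u := le_mul_of_one_le_right (Nat.cast_nonneg _) hu1
    rw [hn1]; nlinarith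
  have h4 : (((S.rows * u + c : ℕ) : ℝ)) ≤ n2 * u := by
    push_cast
    have : (c : ℝ) ≤ c * u := le_mul_of_one_le_right (Nat.cast_nonneg _) hu1
    rw [hn2]; nlinarith
  have h5 : Real.log (3 * (M * u)) = Real.log (3 * M) + Real.log u := by
    rw [← mul_assoc, Real.log_mul (by positivity) (by positivity)]
  have h6 : Real.log (3 * M) ≤ Real.log (3 * M) / Real.log 2 * Real.log u := by
    rw [div_mul_eq_mul_div, le_div_iff₀ hl2]
    exact mul_le_mul_of_nonneg_left hlu hlM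
  have h7 : Real.log 4 ≤ Real.log 4 / Real.log 2 * Real.log u := by
    rw [div_mul_eq_mul_div, le_div_iff₀ hl2]
    exact mul_le_mul_of_nonneg_left hlu hl4
  have h8 : 0 ≤ Real.log (3 * (M * u)) := by rw [h5]; linarith
  calc (((S.k * u + S.g * u + c : ℕ) : ℝ)) * Real.log (3 * (M * u)) +
        ((S.rows * u + c : ℕ) : ℝ) * Real.log 4
      ≤ n1 * u * Real.log (3 * (M * u)) + n2 * u * Real.log 4 :=
        add_le_add (mul_le_mul_of_nonneg_right h3 h8) (mul_le_mul_of_nonneg_right h4 hl4)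
    _ ≤ n1 * u * (Real.log (3 * M) / Real.log 2 * Real.log u + Real.log u) +
        n2 * u * (Real.log 4 / Real.log 2 * Real.log u) := by
        rw [h5]
        refine add_le_add (mul_le_mul_of_nonneg_left (by linarith) (by positivity))
          (mul_le_mul_of_nonneg_left h7 (by positivity))
    _ = _ := by ring

end design

end Crest.Agent.R006.P3Unit89
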