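import Crest.Agent.R006.PsiJ4_576
import Crest.Agent.R006.P3_TSer_103

/-!
# Row 6 (Catalan), block P3 (helper103): the exact jump function

`vv_eq : vv = ![√π/8, 3√π/16, 3√π/16]` for the official parameters `PsiJ.vv` (helper576).
-/

set_option autoImplicit false

open Complex Filter Topology Metric Set Asymptotics
open scoped Real

namespace Crest.Agent.R006.VV103

open Crest.Agent.R006.PsiJ Crest.Agent.R006.TSer103

/-! ### two lemmas on `O(t^3)` -/

lemma poly_zero' {a b c : ℂ}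
    (h : (fun t : ℝ => a + b * t + c * t ^ 2) =O[𝓝[>] (0 : ℝ)] (fun t : ℝ => t ^ 3)) :
    a = 0 ∧ b = 0 ∧ c = 0 := by
  have hz : ∀ n : ℕ, 0 < n → Tendsto (fun t : ℝ => t ^ n) (𝓝[>] (0 : ℝ)) (𝓝 0) := by
    intro n hn
    have h1 : Tendsto (fun t : ℝ => t ^ n) (𝓝 (0 : ℝ)) (𝓝 (0 ^ n)) := (continuous_pow n).tendsto 0
    rw [zero_pow hn.ne'] at h1
    exact h1.mono_left nhdsWithin_le_nhds
  have hdiv : ∀ (f : ℝ → ℂ) (n : ℕ), (fun t : ℝ => (t : ℂ) * f t) =O[𝓝[>] (0 : ℝ)]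
      (fun t : ℝ => t ^ (n + 1)) → f =O[𝓝[>] (0 : ℝ)] (fun t : ℝ => t ^ n) := by
    intro f n hf
    have h1 : (fun t : ℝ => ((t⁻¹ : ℝ) : ℂ)) =O[𝓝[>] (0 : ℝ)] (fun t : ℝ => t⁻¹) :=
      isBigO_of_le _ (fun t => by simp)
    have h2 : (fun t : ℝ => (t : ℂ) * f t * ((t⁻¹ : ℝ) : ℂ)) =O[𝓝[>] (0 : ℝ)]
        (fun t : ℝ => t ^ (n + 1) * t⁻¹) := hf.mul h1
    refine (h2.congr' ?_ ?_)
    · filter_upwards [self_mem_nhdsWithin] with t ht
      have ht0 : (t : ℂ) ≠ 0 := by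
        have : (0 : ℝ) < t := ht
        exact_mod_cast this.ne'
      push_cast
      field_simp
    · filter_upwards [self_mem_nhdsWithin] with t ht
      have ht0 : t ≠ 0 := (show (0 : ℝ) < t from ht).ne'
      rw [pow_succ]
      field_simp
  have hlim : ∀ (f : ℝ → ℂ) (n : ℕ), Continuous f → 0 < n →
      f =O[𝓝[>] (0 : ℝ)] (fun t : ℝ => t ^ n) → f 0 = 0 := by
    intro f n hf hn hO
    have h1 : Tendsto f (𝓝[>] (0 : ℝ)) (𝓝 (f 0)) := hf.continuousAt.tendsto.mono_left nhdsWithin_le_nhds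
    have h2 := hO.trans_tendsto (hz n hn)
    exact tendsto_nhds_unique h1 h2
  have ha : a = 0 := by simpa using hlim _ 3 (by fun_prop) (by norm_num) h
  subst ha
  have h2 : (fun t : ℝ => b + c * t) =O[𝓝[>] (0 : ℝ)] (fun t : ℝ => t ^ 2) := by
    apply hdiv
    refine h.congr_left (fun t => ?_)
    ring
  have hb : b = 0 := by simpa using hlim _ 2 (by fun_prop) (by norm_num) h2
  subst hb
  have h3 : (fun _ : ℝ => c) =O[𝓝[>] (0 : ℝ)] (fun t : ℝ => t ^ 1) := by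
    apply hdiv
    refine h2.congr_left (fun t => ?_)
    ring
  have hc : c = 0 := by simpa using hlim _ 1 (by fun_prop) (by norm_num) h3
  exact ⟨rfl, rfl, hc⟩

lemma taylor2 {f : ℂ → ℂ} {c : ℂ} (hf : AnalyticAt ℂ f c) :
    (fun t : ℝ => f (c + t) - (f c + deriv f c * t + iteratedDeriv 2 f c / 2 * t ^ 2))
      =O[𝓝 (0 : ℝ)] (fun t : ℝ => t ^ 3) := by
  have h := hf.hasFPowerSeriesAt.isBigO_sub_partialSum_pow 3
  have hco : Tendsto (fun t : ℝ => (t : ℂ)) (𝓝 0) (𝓝 0) := by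
    have := (Complex.continuous_ofReal).tendsto (0 : ℝ)
    simpa using this
  have h2 := h.comp_tendsto hco
  refine (h2.congr_left ?_).trans (isBigO_of_le _ ?_)
  · intro t
    simp only [Function.comp_apply, FormalMultilinearSeries.partialSum,
      FormalMultilinearSeries.ofScalars_apply_eq, Finset.sum_range_succ, Finset.sum_range_zero,
      iteratedDeriv_zero, iteratedDeriv_one, Nat.factorial, smul_eq_mul]
    push_cast
    ring
  · intro t
    simp

/-! ### `psi` on the real axis -/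

lemma psi_real {x : ℝ} (hx : -(1 / 2) < x) : psi (x : ℂ) = -(1 / 2) * (S x : ℂ) := by
  have hce : ∀ (y : ℝ), -(1 / 2) < y → ∀ l, (y : ℂ) ≠ ce l := by
    intro y hy l h
    have h1 := congrArg Complex.re h
    rw [Complex.ofReal_re, ce_re] at h1
    have h2 : (0 : ℝ) ≤ l := Nat.cast_nonneg l
    linarith
  set f : ℕ → ℂ := fun n => psi ((x + n : ℝ) : ℂ) + 1 / 2 * (S (x + n) : ℂ) with hf
  set ρ : ℕ → ℂ := fun n => -((2 * ((x : ℂ) + n) + 1) ^ 3 / ((x : ℂ) + n + 1) ^ 3) with hρ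
  have hpos : ∀ n : ℕ, (0 : ℝ) < x + n + 1 := by
    intro n
    have : (0 : ℝ) ≤ n := Nat.cast_nonneg n
    linarith
  have hne : ∀ n : ℕ, (x : ℂ) + n + 1 ≠ 0 := by
    intro n
    have := (hpos n).ne'
    exact_mod_cast this
  have hrec : ∀ n, f (n + 1) = ρ n * f n := by
    intro n
    have hn : (0 : ℝ) ≤ n := Nat.cast_nonneg n
    have h1 := psi_rec (z := ((x + n + 1 : ℝ) : ℂ)) (hce _ (by linarith)) (by
      intro l
      have := hce (x + n) (by linarith) l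
      push_cast at this ⊢
      rwa [add_sub_cancel_right])
    have h2 := rec_S (z := x + n + 1) (by linarith)
    rw [add_sub_cancel_right] at h2
    have h2' : (((x + n + 1 : ℝ) : ℂ)) ^ 3 * (S (x + n + 1) : ℂ) +
        (2 * ((x + n + 1 : ℝ) : ℂ) - 1) ^ 3 * (S (x + n) : ℂ) = 3 * ((x + n + 1 : ℝ) : ℂ) - 1 := by
      exact_mod_cast h2
    have e1 : ((x + n + 1 : ℝ) : ℂ) - 1 = ((x + n : ℝ) : ℂ) := by push_cast; ring
    rw [e1] at h1
    have e2 : (x + ((n + 1 : ℕ) : ℝ)) = x + n + 1 := by push_cast; ring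
    have h3 : ((x : ℂ) + n + 1) ^ 3 ≠ 0 := pow_ne_zero _ (hne n)
    simp only [hf, hρ, e2]
    rw [eq_comm, neg_mul, div_mul_eq_mul_div, ← neg_div, div_eq_iff h3]
    push_cast at h1 h2' ⊢
    linear_combination -h1 - h2' / 2
  have hρ0 : ∀ n, ρ n ≠ 0 := by
    intro n
    simp only [hρ]
    rw [neg_ne_zero]
    refine div_ne_zero (pow_ne_zero _ ?_) (pow_ne_zero _ (hne n))
    have h1 : (0 : ℝ) < 2 * (x + n) + 1 := by
      have : (0 : ℝ) ≤ n := Nat.cast_nonneg n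
      linarith
    have := h1.ne'
    exact_mod_cast this
  obtain ⟨B, hB⟩ := psiF_bounded vv
  have hfB : ∀ᶠ n in atTop, ‖f n‖ ≤ B + 1 / 2 := by
    have hev : ∀ᶠ n : ℕ in atTop, 1 / 2 - x ≤ (n : ℝ) :=
      tendsto_natCast_atTop_atTop.eventually_ge_atTop _
    filter_upwards [hev] with n hn
    have h1 := hB ((x + n : ℝ) : ℂ) (by rw [Complex.ofReal_re]; linarith)
    have h2 := S_bound (z := x + n) (by linarith)
    have h3 := S_nonneg (z := x + n) (by linarith)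
    simp only [hf]
    refine (norm_add_le _ _).trans (add_le_add h1 ?_)
    rw [norm_mul, Complex.norm_real, Real.norm_eq_abs, abs_of_nonneg h3]
    norm_num
    linarith
  have h0 := eq_zero_of_ratio f ρ hrec hρ0 (ratio_eventually (x : ℂ)) _ hfB 0
  simp only [hf, Nat.cast_zero, add_zero] at h0
  linear_combination h0

/-! ### the principal part at `-1/2` -/

/-- `t^3 psi(-1/2+t)` agrees with `U P` up to `O(t^3)` -/
lemma UP_near : (fun t : ℝ => U 0 (ce 0 + t) * P vv (ce 0 + t) - (t : ℂ) ^ 3 * psi (ce 0 + t))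
    =O[𝓝[>] (0 : ℝ)] (fun t : ℝ => t ^ 3) := by
  -- Taylor expansion of U P
  have hana : AnalyticAt ℂ (fun s => U 0 s * P vv s) (ce 0) := by
    apply DifferentiableOn.analyticAt (s := ball (ce 0) (1 / 4)) _ (ball_mem_nhds _ (by norm_num))
    intro s hs
    rw [mem_ball, dist_eq_norm] at hs
    exact ((U_differentiableAt 0 hs.le).mul (P_differentiable vv s)).differentiableWithinAt
  have h1 := (taylor2 hana).mono (nhdsWithin_le_nhds (s := Ioi 0))
  have e0 : U 0 (ce 0) * P vv (ce 0) = p vv 0 2 := by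
    have := p_zero_eq vv (n := 0) (by norm_num)
    simpa using this.symm
  have e1 : deriv (fun s => U 0 s * P vv s) (ce 0) = p vv 0 1 := by
    have := p_zero_eq vv (n := 1) (by norm_num)
    rw [iteratedDeriv_one] at this
    simpa using this.symm
  have e2 : iteratedDeriv 2 (fun s => U 0 s * P vv s) (ce 0) / 2 = p vv 0 0 := by
    have := p_zero_eq vv (n := 2) (by norm_num)
    rw [show 2 - 2 = 0 from rfl] at this
    rw [this]
    simp [Nat.factorial]
    ring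
  simp only [e0, e1, e2] at h1
  -- the other terms of psi
  obtain ⟨K, hK, hpol⟩ := norm_pol_le vv
  set K' : ℝ := ∑' l : ℕ, K * (1 / 8) ^ (l + 1) / (3 / 4) ^ 3 with hK'
  have h2 : (fun t : ℝ => (p vv 0 2 + p vv 0 1 * t + p vv 0 0 * t ^ 2) - (t : ℂ) ^ 3 * psi (ce 0 + t))
      =O[𝓝[>] (0 : ℝ)] (fun t : ℝ => t ^ 3) := by
    apply IsBigO.of_bound K'
    have hI : Ioc (0 : ℝ) (1 / 4) ∈ 𝓝[>] (0 : ℝ) := Ioc_mem_nhdsGT (by norm_num)
    filter_upwards [hI] with t ht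
    obtain ⟨ht, ht4⟩ := ht
    set z : ℂ := ce 0 + t with hz
    have hzre : z.re = -(1 / 2) + t := by rw [hz]; simp [ce]
    have hzce : ∀ l, z ≠ ce l := by
      intro l h
      have h1 := congrArg Complex.re h
      rw [hzre, ce_re] at h1
      have h2 : (0 : ℝ) ≤ l := Nat.cast_nonneg l
      linarith
    have hsum := hasSum_psiF vv hzce
    have h1 : pol vv 0 z + ∑' l, pol vv (l + 1) z = psi z := by
      have := hsum.summable.sum_add_tsum_nat_add 1
      rw [hsum.tsum_eq] at this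
      unfold psi
      simpa using this
    have hb : ∀ l : ℕ, ‖pol vv (l + 1) z‖ ≤ K * (1 / 8) ^ (l + 1) / (3 / 4) ^ 3 := by
      intro l
      apply hpol (l + 1) z (3 / 4) (by norm_num) (by norm_num)
      have h2 : |(z - ce (l + 1)).re| ≤ ‖z - ce (l + 1)‖ := Complex.abs_re_le_norm _
      rw [Complex.sub_re, hzre, ce_re] at h2
      have h3 : (0 : ℝ) ≤ l := Nat.cast_nonneg l
      have h4 := le_abs_self (-(1 / 2) + t - (-(1 / 2) - ((l + 1 : ℕ) : ℝ)))
      push_cast at h4 h2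
      linarith
    have hsm : Summable (fun l : ℕ => K * (1 / 8) ^ (l + 1) / (3 / 4) ^ 3) := by
      have := (summable_geo8.mul_left (K * (1 / 8) / (3 / 4) ^ 3))
      refine this.congr ?_
      intro l; rw [pow_succ]; ring
    have h3 : ‖∑' l, pol vv (l + 1) z‖ ≤ K' := tsum_of_norm_bounded hsm.hasSum hb
    have h5 : pol vv 0 z * t ^ 3 = p vv 0 2 + p vv 0 1 * t + p vv 0 0 * t ^ 2 := by
      unfold pol
      have : z - ce 0 = t := by rw [hz]; ring
      rw [this]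
      have ht0 : (t : ℂ) ≠ 0 := by exact_mod_cast ht.ne'
      simp only [Finset.sum_range_succ, Finset.sum_range_zero, zero_add]
      field_simp
      ring
    rw [← h5]
    have h6 : pol vv 0 z * t ^ 3 - (t : ℂ) ^ 3 * psi z = -((t : ℂ) ^ 3 * ∑' l, pol vv (l + 1) z) := by
      rw [← h1]; ring
    rw [h6, norm_neg, norm_mul, norm_pow, Complex.norm_real, Real.norm_eq_abs, abs_of_pos ht,
      Real.norm_eq_abs, abs_of_pos (by positivity), mul_comm]
    gcongr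
  refine (h1.add h2).congr_left (fun t => ?_)
  ring

/-- closed form of `U 0` -/
lemma U_closed {t : ℝ} (ht : 0 < t) (ht4 : t ≤ 1 / 4) :
    U 0 (ce 0 + t) = (8 : ℂ) ^ (ce 0 + t) *
      (Complex.Gamma (1 + t) / (Complex.cos (π * t) * Complex.Gamma (1 / 2 + t))) ^ 3 := by
  have ht0 : (t : ℂ) ≠ 0 := by exact_mod_cast ht.ne'
  have hπ : (π : ℂ) ≠ 0 := by exact_mod_cast Real.pi_ne_zero
  unfold U
  rw [add_sub_cancel_left, Dd_of_ne ht0]
  have hs : Complex.sin (π * t) ≠ 0 := by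
    have : 0 < Real.sin (π * t) := by
      apply Real.sin_pos_of_pos_of_lt_pi (by positivity)
      have := Real.pi_pos
      nlinarith
    have h2 := this.ne'
    exact_mod_cast h2
  have hc : Complex.cos (π * t) ≠ 0 := by
    have : 0 < Real.cos (π * t) := by
      apply Real.cos_pos_of_mem_Ioo
      have := Real.pi_pos
      constructor <;> nlinarith
    have h2 := this.ne'
    exact_mod_cast h2
  have g1 := Complex.Gamma_mul_Gamma_one_sub (1 / 2 + (t : ℂ))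
  have g2 := Complex.Gamma_mul_Gamma_one_sub (t : ℂ)
  have g3 := Complex.Gamma_add_one (t : ℂ) ht0
  have e1 : (1 : ℂ) - (1 / 2 + t) = 1 / 2 - t := by ring
  have e2 : Complex.sin (π * (1 / 2 + (t : ℂ))) = Complex.cos (π * t) := by
    rw [show (π : ℂ) * (1 / 2 + t) = π * t + π / 2 by ring, Complex.sin_add_pi_div_two]
  rw [e1, e2] at g1
  have G1 : Complex.Gamma (1 / 2 + (t : ℂ)) ≠ 0 := by
    apply Complex.Gamma_ne_zero_of_re_pos
    simp; linarith
  have G2 : Complex.Gamma (t : ℂ) ≠ 0 := by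
    apply Complex.Gamma_ne_zero_of_re_pos
    simpa using ht
  have G3 : Complex.Gamma (1 - (t : ℂ)) ≠ 0 := by
    apply Complex.Gamma_ne_zero_of_re_pos
    simp; linarith
  have e3 : -(ce 0 + (t : ℂ)) = 1 / 2 - t := by unfold ce; push_cast; ring
  have hBt : Bt (-(ce 0 + (t : ℂ))) / (Complex.sin (π * t) / t) =
      Complex.Gamma (1 + t) / (Complex.cos (π * t) * Complex.Gamma (1 / 2 + t)) := by
    unfold Bt
    rw [e3, show (1 : ℂ) / 2 - t + 1 / 2 = 1 - t by ring, add_comm (1 : ℂ) (t : ℂ), g3]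
    have g1' : Complex.Gamma (1 / 2 - (t : ℂ)) = π / Complex.cos (π * t) / Complex.Gamma (1 / 2 + t) := by
      rw [eq_div_iff G1, mul_comm]; exact g1
    have g2' : Complex.Gamma (1 - (t : ℂ)) = π / Complex.sin (π * t) / Complex.Gamma t := by
      rw [eq_div_iff G2, mul_comm]; exact g2
    rw [g1', g2']
    field_simp
  rw [← hBt, div_pow]
  simp
  ring

/-- the function `A` -/
noncomputable def A (w : ℂ) : ℂ :=
  Complex.Gamma (1 / 2 + w) ^ 3 * Complex.cos (π * w) ^ 3 / Complex.Gamma (1 / 2 + 3 * w)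

lemma Gamma_diff {w : ℂ} (hw : 0 < w.re) : DifferentiableAt ℂ Complex.Gamma w := by
  apply Complex.differentiableAt_Gamma
  intro m h
  rw [h] at hw
  simp at hw
  have : (0 : ℝ) ≤ m := Nat.cast_nonneg m
  linarith

lemma A_analytic : AnalyticAt ℂ A 0 := by
  apply DifferentiableOn.analyticAt (s := ball (0 : ℂ) (1 / 8)) _ (ball_mem_nhds _ (by norm_num))
  intro w hw
  rw [mem_ball, dist_zero_right] at hw
  have h1 : |w.re| ≤ ‖w‖ := Complex.abs_re_le_norm _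
  have h2 := abs_le.mp h1
  apply DifferentiableAt.differentiableWithinAt
  unfold A
  have hr1 : 0 < (1 / 2 + w).re := by simp; linarith
  have hr2 : 0 < (1 / 2 + 3 * w).re := by simp; linarith
  have d1 : DifferentiableAt ℂ (fun w : ℂ => Complex.Gamma (1 / 2 + w)) w :=
    DifferentiableAt.comp w (Gamma_diff hr1) (by fun_prop)
  have d2 : DifferentiableAt ℂ (fun w : ℂ => Complex.Gamma (1 / 2 + 3 * w)) w :=
    DifferentiableAt.comp w (f := fun w : ℂ => 1 / 2 + 3 * w) (Gamma_diff hr2) (by fun_prop)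
  exact ((d1.pow 3).mul (by fun_prop)).div d2 (Complex.Gamma_ne_zero_of_re_pos hr2)

/-- the comparison `P = -(1/(4√π)) A + O(t^3)` -/
lemma P_near : (fun t : ℝ => P vv (ce 0 + t) + 1 / (4 * (Real.sqrt π : ℂ)) * A t)
    =O[𝓝[>] (0 : ℝ)] (fun t : ℝ => t ^ 3) := by
  -- the bounded multiplier
  set m : ℝ → ℂ := fun t => (8 : ℂ) ^ (1 / 2 - (t : ℂ)) * Complex.cos (π * t) ^ 3 *
    Complex.Gamma (1 / 2 + t) ^ 3 / Complex.Gamma (1 + t) ^ 3 with hm
  have hmb : m =O[𝓝[>] (0 : ℝ)] (fun _ => (1 : ℝ)) := by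
    have hc : ContinuousAt m 0 := by
      have d1 : ContinuousAt (fun t : ℝ => Complex.Gamma (1 / 2 + (t : ℂ))) 0 := by
        apply ContinuousAt.comp (f := fun t : ℝ => 1 / 2 + (t : ℂ))
        · exact (Gamma_diff (by simp)).continuousAt
        · fun_prop
      have d2 : ContinuousAt (fun t : ℝ => Complex.Gamma (1 + (t : ℂ))) 0 := by
        apply ContinuousAt.comp (f := fun t : ℝ => 1 + (t : ℂ))
        · exact (Gamma_diff (by simp)).continuousAt
        · fun_prop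
      have d3 : ContinuousAt (fun t : ℝ => (8 : ℂ) ^ (1 / 2 - (t : ℂ))) 0 := by
        apply ContinuousAt.const_cpow (by fun_prop)
        left; norm_num
      refine ((d3.mul (by fun_prop)).mul (d1.pow 3)).div (d2.pow 3) ?_
      apply pow_ne_zero
      apply Complex.Gamma_ne_zero_of_re_pos
      simp
    exact (hc.tendsto.mono_left nhdsWithin_le_nhds).isBigO_one ℝ
  -- the two asymptotics
  have h1 := UP_near
  have h2 : (fun t : ℝ => (t : ℂ) ^ 3 * psi (ce 0 + t) +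
      1 / 8 * (Complex.Gamma (1 + t) ^ 3 * (2 : ℂ) ^ (3 * (t : ℂ) - 1 / 2) /
        ((Real.sqrt π : ℂ) * Complex.Gamma (1 / 2 + 3 * t)))) =O[𝓝[>] (0 : ℝ)]
      (fun t : ℝ => t ^ 3) := by
    apply IsBigO.of_bound 1
    have hI : Ioc (0 : ℝ) (1 / 4) ∈ 𝓝[>] (0 : ℝ) := Ioc_mem_nhdsGT (by norm_num)
    filter_upwards [hI] with t ht
    obtain ⟨ht, ht4⟩ := ht
    have h3 := S_near ht ht4
    have e1 : ce 0 + (t : ℂ) = ((-(1 / 2) + t : ℝ) : ℂ) := by unfold ce; push_cast; ring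
    rw [e1, psi_real (by linarith)]
    have e2 : ((t : ℂ) ^ 3 * (-(1 / 2) * (S (-(1 / 2) + t) : ℂ)) +
      1 / 8 * (Complex.Gamma (1 + t) ^ 3 * (2 : ℂ) ^ (3 * (t : ℂ) - 1 / 2) /
        ((Real.sqrt π : ℂ) * Complex.Gamma (1 / 2 + 3 * t)))) =
        ((-(1 / 8) * (4 * t ^ 3 * S (-(1 / 2) + t) -
      Real.Gamma (1 + t) ^ 3 * (2 : ℝ) ^ (3 * t - 1 / 2) /
        (Real.sqrt Real.pi * Real.Gamma (1 / 2 + 3 * t))) : ℝ) : ℂ) := by
      push_cast [Complex.ofReal_cpow (by norm_num : (0 : ℝ) ≤ 2)]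
      rw [← Complex.Gamma_ofReal, ← Complex.Gamma_ofReal]
      push_cast
      ring
    rw [e2, Complex.norm_real, norm_mul, Real.norm_eq_abs, Real.norm_eq_abs]
    have : |(-(1 / 8) : ℝ)| = 1 / 8 := by norm_num
    rw [this, Real.norm_eq_abs, abs_of_pos (by positivity : 0 < t ^ 3)]
    linarith
  have h3 := (h1.add h2).mul hmb
  have h4 : (fun t : ℝ => t ^ 3 * (1 : ℝ)) = fun t => t ^ 3 := by funext t; ring
  rw [h4] at h3
  refine h3.congr' ?_ (EventuallyEq.refl _ _)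
  have hI : Ioc (0 : ℝ) (1 / 4) ∈ 𝓝[>] (0 : ℝ) := Ioc_mem_nhdsGT (by norm_num)
  filter_upwards [hI] with t ht
  obtain ⟨ht, ht4⟩ := ht
  rw [U_closed ht ht4]
  simp only [hm]
  unfold A
  have hc : Complex.cos (π * t) ≠ 0 := by
    have : 0 < Real.cos (π * t) := by
      apply Real.cos_pos_of_mem_Ioo
      have := Real.pi_pos
      constructor <;> nlinarith
    have h2 := this.ne'
    exact_mod_cast h2
  have G1 : Complex.Gamma (1 / 2 + (t : ℂ)) ≠ 0 := by
    apply Complex.Gamma_ne_zero_of_re_pos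
    simp; linarith
  have G2 : Complex.Gamma (1 + (t : ℂ)) ≠ 0 := by
    apply Complex.Gamma_ne_zero_of_re_pos
    simp; linarith
  have G3 : Complex.Gamma (1 / 2 + 3 * (t : ℂ)) ≠ 0 := by
    apply Complex.Gamma_ne_zero_of_re_pos
    simp; linarith
  have hsp : (Real.sqrt π : ℂ) ≠ 0 := by
    have := (Real.sqrt_pos.mpr Real.pi_pos).ne'
    exact_mod_cast this
  have k1 : (8 : ℂ) ^ (ce 0 + t) * (8 : ℂ) ^ (1 / 2 - (t : ℂ)) = 1 := by
    rw [← Complex.cpow_add _ _ (by norm_num)]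
    have : ce 0 + (t : ℂ) + (1 / 2 - t) = 0 := by unfold ce; push_cast; ring
    rw [this, Complex.cpow_zero]
  have k2 : (2 : ℂ) ^ (3 * (t : ℂ) - 1 / 2) * (8 : ℂ) ^ (1 / 2 - (t : ℂ)) = 2 := by
    have h8 : (8 : ℂ) ^ (1 / 2 - (t : ℂ)) = (2 : ℂ) ^ (3 * (1 / 2 - (t : ℂ))) := by
      rw [show (8 : ℂ) = ((8 : ℝ) : ℂ) by norm_num, show (2 : ℂ) = ((2 : ℝ) : ℂ) by norm_num,
        show (1 / ((2 : ℝ) : ℂ) - (t : ℂ)) = ((1 / 2 - t : ℝ) : ℂ) by push_cast; ring,
        show (3 : ℂ) * ((1 / 2 - t : ℝ) : ℂ) = ((3 * (1 / 2 - t) : ℝ) : ℂ) by push_cast; ring,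
        ← Complex.ofReal_cpow (by norm_num), ← Complex.ofReal_cpow (by norm_num)]
      congr 1
      rw [Real.rpow_mul (by norm_num)]
      norm_num
    rw [h8, ← Complex.cpow_add _ _ (by norm_num)]
    have : 3 * (t : ℂ) - 1 / 2 + 3 * (1 / 2 - t) = 1 := by ring
    rw [this, Complex.cpow_one]
  generalize (8 : ℂ) ^ (ce 0 + (t : ℂ)) = x1 at k1 ⊢
  generalize (8 : ℂ) ^ (1 / 2 - (t : ℂ)) = x2 at k1 k2 ⊢
  generalize (2 : ℂ) ^ (3 * (t : ℂ) - 1 / 2) = x3 at k2 ⊢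
  generalize psi (ce 0 + (t : ℂ)) = y1
  generalize P vv (ce 0 + (t : ℂ)) = y2
  generalize Complex.cos (π * t) = c at *
  generalize Complex.Gamma (1 / 2 + (t : ℂ)) = g1 at *
  generalize Complex.Gamma (1 + (t : ℂ)) = g2 at *
  generalize Complex.Gamma (1 / 2 + 3 * (t : ℂ)) = g3 at *
  generalize (Real.sqrt π : ℂ) = q at *
  have e : (x1 * (g2 / (c * g1)) ^ 3 * y2 - (t : ℂ) ^ 3 * y1 +
      ((t : ℂ) ^ 3 * y1 + 1 / 8 * (g2 ^ 3 * x3 / (q * g3)))) * (x2 * c ^ 3 * g1 ^ 3 / g2 ^ 3) =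
      (x1 * x2) * y2 + 1 / 8 * (x3 * x2) * (g1 ^ 3 * c ^ 3 / (q * g3)) := by
    field_simp
    ring
  rw [e, k1, k2]
  field_simp
  ring

/-! ### Taylor coefficients of `A` -/

lemma iteratedDeriv_two' (f : ℂ → ℂ) : iteratedDeriv 2 f = deriv (deriv f) := by
  rw [iteratedDeriv_succ, iteratedDeriv_one]

lemma Gamma_half_sq : Complex.Gamma (1 / 2) * Complex.Gamma (1 / 2) = π := by
  have h := Complex.Gamma_mul_Gamma_one_sub (1 / 2)
  rw [show (1 : ℂ) - 1 / 2 = 1 / 2 by ring, show (π : ℂ) * (1 / 2) = π / 2 by ring,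
    Complex.sin_pi_div_two, div_one] at h
  exact h

lemma A_zero : A 0 = π := by
  unfold A
  rw [mul_zero, mul_zero, add_zero, Complex.cos_zero, ← Gamma_half_sq]
  have : Complex.Gamma (1 / 2) ≠ 0 := Complex.Gamma_ne_zero_of_re_pos (by norm_num)
  field_simp

lemma A_deriv : deriv A 0 = 0 := by
  have hg : DifferentiableAt ℂ Complex.Gamma (1 / 2) := Gamma_diff (by norm_num)
  have hG : Complex.Gamma (1 / 2) ≠ 0 := Complex.Gamma_ne_zero_of_re_pos (by norm_num)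
  have h1 : HasDerivAt (fun w : ℂ => Complex.Gamma (1 / 2 + w)) (deriv Complex.Gamma (1 / 2) * 1) 0 := by
    have k1 : HasDerivAt Complex.Gamma (deriv Complex.Gamma (1 / 2)) (1 / 2 + 0) := by
      rw [add_zero]; exact hg.hasDerivAt
    have k2 : HasDerivAt (fun w : ℂ => 1 / 2 + w) 1 0 := (hasDerivAt_id (0 : ℂ)).const_add (1 / 2)
    exact HasDerivAt.comp (0 : ℂ) k1 k2
  have h2 : HasDerivAt (fun w : ℂ => Complex.Gamma (1 / 2 + 3 * w))
      (deriv Complex.Gamma (1 / 2) * (3 * 1)) 0 := by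
    have k1 : HasDerivAt Complex.Gamma (deriv Complex.Gamma (1 / 2)) (1 / 2 + 3 * 0) := by
      rw [mul_zero, add_zero]; exact hg.hasDerivAt
    have k2 : HasDerivAt (fun w : ℂ => 1 / 2 + 3 * w) (3 * 1) 0 :=
      ((hasDerivAt_id (0 : ℂ)).const_mul 3).const_add (1 / 2)
    exact HasDerivAt.comp (0 : ℂ) k1 k2
  have h3 : HasDerivAt (fun w : ℂ => Complex.cos (π * w)) (-Complex.sin (π * 0) * (π * 1)) 0 :=
    ((hasDerivAt_id (0 : ℂ)).const_mul (π : ℂ)).ccos
  have h4 := ((h1.pow 3).mul (h3.pow 3)).div h2 (by simpa using hG)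
  have h5 : deriv A 0 = _ := h4.deriv
  rw [h5]
  simp only [mul_zero, add_zero, Complex.sin_zero, Complex.cos_zero, Pi.pow_apply, Pi.mul_apply,
    neg_zero, zero_mul]
  field_simp
  ring

lemma sin_near : (fun t : ℝ => Complex.sin (π * t) - π * t) =O[𝓝 (0 : ℝ)] (fun t : ℝ => t ^ 3) := by
  have hd : ∀ w : ℂ, HasDerivAt (fun w : ℂ => Complex.sin (π * w)) (Complex.cos (π * w) * π) w := by
    intro w
    have := ((hasDerivAt_id w).const_mul (π : ℂ)).csin
    simpa using this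
  have hd2 : deriv (fun w : ℂ => Complex.sin (π * w)) = fun w => Complex.cos (π * w) * π := by
    funext w; exact (hd w).deriv
  have h3 : HasDerivAt (fun w : ℂ => Complex.cos (π * w) * π) (-Complex.sin (π * 0) * (π * 1) * π) 0 :=
    (((hasDerivAt_id (0 : ℂ)).const_mul (π : ℂ)).ccos).mul_const (π : ℂ)
  have ha : AnalyticAt ℂ (fun w : ℂ => Complex.sin (π * w)) 0 := by
    apply Differentiable.analyticAt
    intro w
    exact (hd w).differentiableAt
  have h := taylor2 ha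
  have e2 : iteratedDeriv 2 (fun w : ℂ => Complex.sin (π * w)) 0 = 0 := by
    rw [iteratedDeriv_two', hd2, h3.deriv]
    simp
  rw [e2, hd2] at h
  refine h.congr_left (fun t => ?_)
  simp

/-- real variable small powers -/
lemma pow_isBigO {m n : ℕ} (h : n ≤ m) :
    (fun t : ℝ => t ^ m) =O[𝓝 (0 : ℝ)] (fun t : ℝ => t ^ n) := by
  obtain ⟨k, rfl⟩ := Nat.exists_eq_add_of_le h
  have h1 : (fun t : ℝ => t ^ k) =O[𝓝 (0 : ℝ)] (fun _ => (1 : ℝ)) :=
    ((continuous_pow k).tendsto 0).isBigO_one ℝ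
  have h2 := (isBigO_refl (fun t : ℝ => t ^ n) (𝓝 (0 : ℝ))).mul h1
  refine (h2.congr (fun t => ?_) (fun t => ?_))
  · rw [pow_add]
  · ring

lemma A_refl {t : ℝ} (ht : 0 < t) (ht4 : t < 1 / 6) :
    A t * A (-t) = π ^ 2 * (1 - 6 * Complex.sin (π * t) ^ 2 + 9 * Complex.sin (π * t) ^ 4 -
      4 * Complex.sin (π * t) ^ 6) := by
  have g1 := Complex.Gamma_mul_Gamma_one_sub (1 / 2 + (t : ℂ))
  have g2 := Complex.Gamma_mul_Gamma_one_sub (1 / 2 + 3 * (t : ℂ))
  rw [show (1 : ℂ) - (1 / 2 + t) = 1 / 2 + -t by ring,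
    show (π : ℂ) * (1 / 2 + t) = π * t + π / 2 by ring, Complex.sin_add_pi_div_two] at g1
  rw [show (1 : ℂ) - (1 / 2 + 3 * t) = 1 / 2 + 3 * -t by ring,
    show (π : ℂ) * (1 / 2 + 3 * t) = 3 * (π * t) + π / 2 by ring, Complex.sin_add_pi_div_two,
    Complex.cos_three_mul] at g2
  have hc : Complex.cos (π * t) ≠ 0 := by
    have : 0 < Real.cos (π * t) := by
      apply Real.cos_pos_of_mem_Ioo
      have := Real.pi_pos
      constructor <;> nlinarith
    have h2 := this.ne'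
    exact_mod_cast h2
  have hc3 : 4 * Complex.cos (π * t) ^ 3 - 3 * Complex.cos (π * t) ≠ 0 := by
    rw [← Complex.cos_three_mul]
    have : 0 < Real.cos (3 * (π * t)) := by
      apply Real.cos_pos_of_mem_Ioo
      have := Real.pi_pos
      constructor <;> nlinarith
    have h2 := this.ne'
    exact_mod_cast h2
  have G3 : Complex.Gamma (1 / 2 + 3 * (t : ℂ)) ≠ 0 := by
    apply Complex.Gamma_ne_zero_of_re_pos
    simp; linarith
  have G4 : Complex.Gamma (1 / 2 + 3 * -(t : ℂ)) ≠ 0 := by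
    apply Complex.Gamma_ne_zero_of_re_pos
    simp; linarith
  have hπ : (π : ℂ) ≠ 0 := by exact_mod_cast Real.pi_ne_zero
  unfold A
  have e1 : Complex.cos (π * -(t : ℂ)) = Complex.cos (π * t) := by
    rw [mul_neg, Complex.cos_neg]
  rw [e1]
  have e2 : Complex.Gamma (1 / 2 + (t : ℂ)) ^ 3 * Complex.cos (π * t) ^ 3 /
      Complex.Gamma (1 / 2 + 3 * t) * (Complex.Gamma (1 / 2 + -(t : ℂ)) ^ 3 * Complex.cos (π * t) ^ 3 /
      Complex.Gamma (1 / 2 + 3 * -(t : ℂ))) =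
      (Complex.Gamma (1 / 2 + (t : ℂ)) * Complex.Gamma (1 / 2 + -(t : ℂ))) ^ 3 *
        Complex.cos (π * t) ^ 6 /
        (Complex.Gamma (1 / 2 + 3 * t) * Complex.Gamma (1 / 2 + 3 * -(t : ℂ))) := by
    field_simp
  rw [e2, g1, g2]
  have e3 : (π / Complex.cos (π * t)) ^ 3 * Complex.cos (π * t) ^ 6 /
      (π / (4 * Complex.cos (π * t) ^ 3 - 3 * Complex.cos (π * t))) =
      π ^ 2 * (Complex.cos (π * t) ^ 3 * (4 * Complex.cos (π * t) ^ 3 - 3 * Complex.cos (π * t))) := by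
    field_simp
  rw [e3]
  have hs : Complex.cos (π * t) ^ 2 = 1 - Complex.sin (π * t) ^ 2 := by
    rw [Complex.cos_sq']
  have e4 : Complex.cos (π * t) ^ 3 * (4 * Complex.cos (π * t) ^ 3 - 3 * Complex.cos (π * t)) =
      4 * (Complex.cos (π * t) ^ 2) ^ 3 - 3 * (Complex.cos (π * t) ^ 2) ^ 2 := by ring
  rw [e4, hs]
  ring

lemma A_two : iteratedDeriv 2 A 0 / 2 = -3 * π ^ 3 := by
  set α : ℂ := iteratedDeriv 2 A 0 / 2 with hα
  have hA := taylor2 A_analytic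
  rw [A_zero, A_deriv, ← hα] at hA
  have h1 : (fun t : ℝ => A t - (π + α * t ^ 2)) =O[𝓝 (0 : ℝ)] (fun t : ℝ => t ^ 3) := by
    refine hA.congr_left (fun t => ?_)
    rw [zero_add]; ring
  have h2 : (fun t : ℝ => A (-t) - (π + α * t ^ 2)) =O[𝓝 (0 : ℝ)] (fun t : ℝ => t ^ 3) := by
    have hneg : Tendsto (fun t : ℝ => -t) (𝓝 0) (𝓝 0) := by
      have := (continuous_neg (G := ℝ)).tendsto 0
      simpa using this
    have := h1.comp_tendsto hneg
    refine (this.congr_left (fun t => ?_)).trans (isBigO_of_le _ (fun t => ?_))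
    · simp only [Function.comp_apply]
      push_cast
      ring
    · simp only [Function.comp_apply]
      rw [norm_pow, norm_pow, norm_neg]
  -- boundedness
  have hbA : (fun t : ℝ => A (-t)) =O[𝓝 (0 : ℝ)] (fun _ => (1 : ℝ)) := by
    have hc : ContinuousAt (fun t : ℝ => A (-(t : ℂ))) 0 := by
      apply ContinuousAt.comp (g := A) (f := fun t : ℝ => -(t : ℂ))
      · simpa using A_analytic.continuousAt
      · fun_prop
    exact hc.tendsto.isBigO_one ℝ
  have hbp : (fun t : ℝ => (π : ℂ) + α * t ^ 2) =O[𝓝 (0 : ℝ)] (fun _ => (1 : ℝ)) := by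
    have hc : ContinuousAt (fun t : ℝ => (π : ℂ) + α * (t : ℂ) ^ 2) 0 := by fun_prop
    exact hc.tendsto.isBigO_one ℝ
  have h3 : (fun t : ℝ => A t * A (-t) - (π + α * t ^ 2) ^ 2) =O[𝓝 (0 : ℝ)] (fun t : ℝ => t ^ 3) := by
    have k1 := h1.mul hbA
    have k2 := hbp.mul h2
    have k3 : (fun t : ℝ => (A t - (π + α * t ^ 2)) * A (-t) +
        (π + α * t ^ 2) * (A (-t) - (π + α * t ^ 2))) =O[𝓝 (0 : ℝ)] (fun t : ℝ => t ^ 3) := by
      refine IsBigO.add (k1.congr_right (fun t => by ring)) (k2.congr_right (fun t => by ring))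
    refine k3.congr_left (fun t => ?_)
    ring
  -- the sine
  have hs := sin_near
  have hsb : (fun t : ℝ => Complex.sin (π * t)) =O[𝓝 (0 : ℝ)] (fun t : ℝ => t) := by
    have k1 : (fun t : ℝ => (π : ℂ) * (t : ℂ)) =O[𝓝 (0 : ℝ)] (fun t : ℝ => t) := by
      apply IsBigO.of_bound π
      refine Eventually.of_forall (fun t => ?_)
      rw [norm_mul, Complex.norm_real, Complex.norm_real, Real.norm_of_nonneg Real.pi_pos.le]
    have k2 := (hs.trans ((pow_isBigO (m := 3) (n := 1) (by norm_num)).congr_right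
      (fun t => pow_one t))).add k1
    refine k2.congr_left (fun t => ?_)
    ring
  have hs2 : (fun t : ℝ => Complex.sin (π * t) ^ 2 - π ^ 2 * t ^ 2) =O[𝓝 (0 : ℝ)]
      (fun t : ℝ => t ^ 3) := by
    have k1 : (fun t : ℝ => (π : ℂ) * (t : ℂ)) =O[𝓝 (0 : ℝ)] (fun t : ℝ => t) := by
      apply IsBigO.of_bound π
      refine Eventually.of_forall (fun t => ?_)
      rw [norm_mul, Complex.norm_real, Complex.norm_real, Real.norm_of_nonneg Real.pi_pos.le]
    have k2 := hs.mul (hsb.add k1)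
    have k3 : (fun t : ℝ => t ^ 3 * t) =O[𝓝 (0 : ℝ)] (fun t : ℝ => t ^ 3) :=
      (pow_isBigO (m := 4) (n := 3) (by norm_num)).congr_left (fun t => by ring)
    refine (k2.trans k3).congr_left (fun t => ?_)
    ring
  have hs4 : (fun t : ℝ => Complex.sin (π * t) ^ 4) =O[𝓝 (0 : ℝ)] (fun t : ℝ => t ^ 3) :=
    (hsb.pow 4).trans (pow_isBigO (by norm_num))
  have hs6 : (fun t : ℝ => Complex.sin (π * t) ^ 6) =O[𝓝 (0 : ℝ)] (fun t : ℝ => t ^ 3) :=
    (hsb.pow 6).trans (pow_isBigO (by norm_num))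
  have hcb : ∀ c : ℂ, ∀ f : ℝ → ℂ, f =O[𝓝 (0 : ℝ)] (fun t : ℝ => t ^ 3) →
      (fun t => c * f t) =O[𝓝 (0 : ℝ)] (fun t : ℝ => t ^ 3) := fun c f hf => hf.const_mul_left c
  have h4 : (fun t : ℝ => (π : ℂ) ^ 2 * (1 - 6 * Complex.sin (π * t) ^ 2 + 9 * Complex.sin (π * t) ^ 4 -
      4 * Complex.sin (π * t) ^ 6) - π ^ 2 * (1 - 6 * (π ^ 2 * t ^ 2))) =O[𝓝 (0 : ℝ)]
      (fun t : ℝ => t ^ 3) := by
    have k := ((hcb (-6 * π ^ 2) _ hs2).add (hcb (9 * π ^ 2) _ hs4)).add (hcb (-4 * π ^ 2) _ hs6)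
    refine k.congr_left (fun t => ?_)
    ring
  have h5 : (fun t : ℝ => A t * A (-t) - π ^ 2 * (1 - 6 * (π ^ 2 * t ^ 2))) =O[𝓝[>] (0 : ℝ)]
      (fun t : ℝ => t ^ 3) := by
    refine (h4.mono nhdsWithin_le_nhds).congr' ?_ (EventuallyEq.refl _ _)
    have hI : Ioo (0 : ℝ) (1 / 6) ∈ 𝓝[>] (0 : ℝ) := Ioo_mem_nhdsGT (by norm_num)
    filter_upwards [hI] with t ht
    rw [A_refl ht.1 ht.2]
  have h6 : (fun t : ℝ => (α : ℂ) ^ 2 * t ^ 4) =O[𝓝[>] (0 : ℝ)] (fun t : ℝ => t ^ 3) := by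
    have k : (fun t : ℝ => (t : ℂ) ^ 4) =O[𝓝 (0 : ℝ)] (fun t : ℝ => t ^ 3) := by
      refine IsBigO.trans (isBigO_of_le _ (fun t => ?_)) (pow_isBigO (m := 4) (n := 3) (by norm_num))
      simp
    exact (hcb _ _ k).mono nhdsWithin_le_nhds
  have h7 : (fun t : ℝ => (0 : ℂ) + 0 * t + (2 * π * α + 6 * π ^ 4) * t ^ 2) =O[𝓝[>] (0 : ℝ)]
      (fun t : ℝ => t ^ 3) := by
    have k := (h5.sub (h3.mono nhdsWithin_le_nhds)).sub h6
    refine k.congr_left (fun t => ?_)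
    ring
  obtain ⟨-, -, h8⟩ := poly_zero' h7
  have hπ : (π : ℂ) ≠ 0 := by exact_mod_cast Real.pi_ne_zero
  have h9 : (2 * π : ℂ) * (α + 3 * π ^ 3) = 0 := by linear_combination h8
  rcases mul_eq_zero.mp h9 with h | h
  · exfalso
    apply hπ
    linear_combination h / 2
  · linear_combination h

/-! ### the parameters -/

lemma vv_rel : vv 0 - vv 1 - vv 2 = -((Real.sqrt π : ℂ) / 4) ∧ vv 1 = vv 2 ∧
    vv 1 + vv 2 = 3 * (Real.sqrt π : ℂ) / 8 := by
  have hsp : (Real.sqrt π : ℂ) ≠ 0 := by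
    have := (Real.sqrt_pos.mpr Real.pi_pos).ne'
    exact_mod_cast this
  have hspi : (Real.sqrt π : ℂ) ^ 2 = π := by
    have := Real.sq_sqrt Real.pi_pos.le
    exact_mod_cast this
  have hπ : (π : ℂ) ≠ 0 := by exact_mod_cast Real.pi_ne_zero
  have hP := taylor2 ((P_differentiable vv).analyticAt (ce 0))
  have hd : deriv (P vv) = P ![0, 2 * π * I * vv 1, -(2 * π * I) * vv 2] := by
    funext s; exact (P_hasDeriv vv s).deriv
  have e2 : iteratedDeriv 2 (P vv) (ce 0) = (2 * π * I) * (2 * π * I) * (-vv 1 - vv 2) := by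
    rw [iteratedDeriv_two', hd, (P_hasDeriv _ _).deriv, P_at]
    simp
    ring
  have e1 : deriv (P vv) (ce 0) = -(2 * π * I) * (vv 1 - vv 2) := by
    rw [hd, P_at]
    simp
    ring
  rw [e2, e1, P_at] at hP
  have hA := taylor2 A_analytic
  rw [A_zero, A_deriv, A_two] at hA
  have h1 := (hP.mono (nhdsWithin_le_nhds (s := Ioi (0 : ℝ))))
  have h2 := ((hA.const_mul_left (1 / (4 * (Real.sqrt π : ℂ)))).mono
    (nhdsWithin_le_nhds (s := Ioi (0 : ℝ))))
  have h3 := (P_near.sub h1).sub h2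
  have h4 : (fun t : ℝ => (vv 0 - vv 1 - vv 2 + 1 / (4 * (Real.sqrt π : ℂ)) * π) +
      (-(2 * π * I) * (vv 1 - vv 2)) * t + ((2 * π * I) * (2 * π * I) * (-vv 1 - vv 2) / 2 +
      1 / (4 * (Real.sqrt π : ℂ)) * (-3 * π ^ 3)) * t ^ 2) =O[𝓝[>] (0 : ℝ)] (fun t : ℝ => t ^ 3) := by
    refine h3.congr_left (fun t => ?_)
    rw [zero_add]
    ring
  obtain ⟨k0, k1, k2⟩ := poly_zero' h4
  have hI : (2 * π * I : ℂ) ≠ 0 := Complex.two_pi_I_ne_zero
  have r1 : vv 1 = vv 2 := by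
    have : (2 * π * I : ℂ) * (vv 1 - vv 2) = 0 := by linear_combination -k1
    rcases mul_eq_zero.mp this with h | h
    · exact absurd h hI
    · linear_combination h
  refine ⟨?_, r1, ?_⟩
  · have : 1 / (4 * (Real.sqrt π : ℂ)) * π = (Real.sqrt π : ℂ) / 4 := by
      rw [← hspi]; field_simp
    linear_combination k0 - this
  · have hII : (I : ℂ) * I = -1 := Complex.I_mul_I
    have h5 : 2 * (π : ℂ) ^ 2 * (vv 1 + vv 2) = 3 * π ^ 3 / (4 * (Real.sqrt π : ℂ)) := by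
      have : (2 * π * I : ℂ) * (2 * π * I) * (-vv 1 - vv 2) / 2 = 2 * (π : ℂ) ^ 2 * (vv 1 + vv 2) := by
        linear_combination (-2 * (π : ℂ) ^ 2 * (vv 1 + vv 2)) * hII
      rw [this] at k2
      linear_combination k2
    have h6 : 3 * (π : ℂ) ^ 3 / (4 * (Real.sqrt π : ℂ)) = 2 * (π : ℂ) ^ 2 * (3 * (Real.sqrt π : ℂ) / 8) := by
      rw [← hspi]; field_simp
      ring
    rw [h6] at h5
    exact mul_left_cancel₀ (mul_ne_zero two_ne_zero (pow_ne_zero _ hπ)) h5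

/-- **the exact parameters of the jump of `ψ`** -/
theorem vv_eq : vv = ![(Real.sqrt π : ℂ) / 8, 3 * (Real.sqrt π : ℂ) / 16, 3 * (Real.sqrt π : ℂ) / 16] := by
  obtain ⟨h0, h1, h2⟩ := vv_rel
  have e2 : vv 2 = 3 * (Real.sqrt π : ℂ) / 16 := by linear_combination h2 / 2 - h1 / 2
  have e1 : vv 1 = 3 * (Real.sqrt π : ℂ) / 16 := by rw [h1, e2]
  have e0 : vv 0 = (Real.sqrt π : ℂ) / 8 := by linear_combination h0 + e1 + e2
  funext i
  fin_cases i
  · simpa using e0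
  · simpa using e1
  · simpa using e2

theorem vv_one_eq_vv_two : vv 1 = vv 2 := vv_rel.2.1

/-- the trigonometric numerator -/
theorem P_vv (s : ℂ) : P vv s = (Real.sqrt π : ℂ) / 4 * (3 * Complex.cos (π * s) ^ 2 - 1) := by
  rw [vv_eq]
  unfold P
  have h : cexp (2 * π * I * s) + cexp (-(2 * π * I * s)) = 2 * Complex.cos (2 * (π * s)) := by
    have := Complex.two_cos (2 * (π * s))
    rw [this]
    congr 2 <;> ring
  have h2 : Complex.cos (2 * (π * s)) = 2 * Complex.cos (π * s) ^ 2 - 1 := Complex.cos_two_mul _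
  simp
  linear_combination (3 * (Real.sqrt π : ℂ) / 16) * h + (3 * (Real.sqrt π : ℂ) / 8) * h2

/-- **the exact jump function** -/
theorem J_vv (s : ℂ) : J vv s = (Real.sqrt π : ℂ) / 4 * (8 : ℂ) ^ s *
    (Complex.Gamma (-s) / Complex.Gamma (1 / 2 - s)) ^ 3 * (3 * Complex.cos (π * s) ^ 2 - 1) /
      Complex.cos (π * s) ^ 3 := by
  unfold J
  rw [P_vv]
  unfold Bt
  rw [show -s + 1 / 2 = 1 / 2 - s by ring]
  ring

/-- the exact jump function, right form: `ρ(s) = Γ(s+1/2)/Γ(s+1)` -/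
theorem J_vv' {s : ℂ} (hs : Complex.sin (π * s) ≠ 0) (hc : Complex.cos (π * s) ≠ 0) :
    J vv s = (8 : ℂ) ^ s * (Complex.Gamma (s + 1 / 2) / Complex.Gamma (s + 1)) ^ 3 *
      ((Real.sqrt π : ℂ) / 4 / Complex.sin (π * s) -
        (Real.sqrt π : ℂ) / 2 * Complex.cos (π * s) ^ 2 / Complex.sin (π * s) ^ 3) := by
  have hπ : (π : ℂ) ≠ 0 := by exact_mod_cast Real.pi_ne_zero
  -- reflection
  have g1 := Complex.Gamma_mul_Gamma_one_sub (s + 1 / 2)
  rw [show (1 : ℂ) - (s + 1 / 2) = 1 / 2 - s by ring,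
    show (π : ℂ) * (s + 1 / 2) = π * s + π / 2 by ring, Complex.sin_add_pi_div_two] at g1
  have g2 := Complex.Gamma_mul_Gamma_one_sub (-s)
  rw [show (1 : ℂ) - -s = s + 1 by ring, show (π : ℂ) * -s = -(π * s) by ring, Complex.sin_neg] at g2
  have G1 : Complex.Gamma (s + 1 / 2) ≠ 0 := by
    intro h
    rw [h, zero_mul] at g1
    exact (div_ne_zero hπ hc) g1.symm
  have G1' : Complex.Gamma (1 / 2 - s) ≠ 0 := by
    intro h
    rw [h, mul_zero] at g1
    exact (div_ne_zero hπ hc) g1.symm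
  have G2 : Complex.Gamma (s + 1) ≠ 0 := by
    intro h
    rw [h, mul_zero] at g2
    exact (div_ne_zero hπ (neg_ne_zero.mpr hs)) g2.symm
  have e1 : Complex.Gamma (-s) / Complex.Gamma (1 / 2 - s) =
      -(Complex.cos (π * s) / Complex.sin (π * s)) *
        (Complex.Gamma (s + 1 / 2) / Complex.Gamma (s + 1)) := by
    have a1 : Complex.Gamma (-s) = π / -Complex.sin (π * s) / Complex.Gamma (s + 1) := by
      rw [eq_div_iff G2]; exact g2
    have a2 : Complex.Gamma (1 / 2 - s) = π / Complex.cos (π * s) / Complex.Gamma (s + 1 / 2) := by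
      rw [eq_div_iff G1, mul_comm]; exact g1
    rw [a1, a2]
    field_simp
  rw [J_vv, e1]
  have hs2 : Complex.sin (π * s) ^ 2 = 1 - Complex.cos (π * s) ^ 2 := Complex.sin_sq _
  have e2 : ∀ (x : ℂ), (Real.sqrt π : ℂ) / 4 * (8 : ℂ) ^ s *
      (-(Complex.cos (π * s) / Complex.sin (π * s)) * x) ^ 3 * (3 * Complex.cos (π * s) ^ 2 - 1) /
      Complex.cos (π * s) ^ 3 = (8 : ℂ) ^ s * x ^ 3 * (-((Real.sqrt π : ℂ) / 4) *
        (3 * Complex.cos (π * s) ^ 2 - 1) / Complex.sin (π * s) ^ 3) := by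
    intro x
    field_simp
    try ring
  rw [e2]
  congr 1
  have e3 : (Real.sqrt π : ℂ) / 4 / Complex.sin (π * s) =
      (Real.sqrt π : ℂ) / 4 * Complex.sin (π * s) ^ 2 / Complex.sin (π * s) ^ 3 := by
    field_simp
  rw [e3, hs2, ← sub_div]
  congr 1
  ring

end Crest.Agent.R006.VV103
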