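import Crest.Agent.R006.P4Side_955
import Crest.Agent.R006.P4Fin_814
import Crest.Agent.R006.P5b_Inst_481

/-!
# Row 6, block P4 for the frozen shape `SN`, `c = 40` (helper955)

* `matrixSide_SN` : `MatrixSide SN 40 164`;
* `classForm_SN` : the class form for all lists of strips (814);
* `pw_SN` : 481's prime windows.
-/

set_option autoImplicit false

namespace Crest.Agent.R006.P4Close955

open Crest.Agent.R006 Crest.Agent.R006.D Crest.Agent.R006.P8 Crest.Agent.R006.P4If

/-- **The matrix side for the frozen shape.** -/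
theorem matrixSide_SN : MatrixSide SN 40 164 := P4S.matrixSide SN 40 SN_good rfl rfl

/-- **P4 for the frozen shape.** -/
theorem classForm_SN {L : List St}
    (hL : ∀ s ∈ L.dropLast, 0 < s.u ∧ 0 < s.v ∧ gcOK SN s = true ∧ 3 ≤ s.t.length) :
    ClassForm SN 40 (bdS SN) kapT (extT SN) L :=
  P4If.classForm_SN matrixSide_SN hL

/-- **P5b for the frozen shape.** -/
theorem pw_SN (x0 : ℝ) : P5b.PW SN 40 (377 : ℝ) x0 (7 / 2) (9 / 4) 21 6 := by
  have h := P5b.pw_SN matrixSide_SN x0
  norm_num at h
  exact h

end Crest.Agent.R006.P4Close955
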