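import Crest.Agent.R006.Lam_89
import Crest.Agent.R006.Pre_L3_764

/-!
# Row 6: the confluent Vandermonde determinant `V_S` (value, p-adic valuation, logarithm)

`vmat` of `Lam_89` is the confluent Vandermonde matrix.  We prove the order free formula
`det (vmat)^2 = ± ∏_i ∏_{l ≠ i} (z i - z l)^{m i * m l}`.
-/

set_option autoImplicit false

namespace Crest.Agent.R006.VSx102

open Polynomial Finset Crest.Agent.R006.Lam

lemma det_antitri' {R : Type*} [CommRing R] {n : ℕ} (B : Matrix (Fin n) (Fin n) R) (g : R)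
    (h0 : ∀ i j : Fin n, n < (i : ℕ) + j + 1 → B i j = 0)
    (h1 : ∀ i j : Fin n, (i : ℕ) + j + 1 = n → B i j = g) :
    B.det = (((Equiv.Perm.sign (Fin.revPerm : Equiv.Perm (Fin n)) : ℤˣ) : ℤ) : R) * g ^ n := by
  have hp := Matrix.det_permute (Fin.revPerm : Equiv.Perm (Fin n)) B
  have hB : (B.submatrix (Fin.revPerm : Equiv.Perm (Fin n)) id).det = g ^ n := by
    rw [Matrix.det_of_isLowerTriangular]
    · rw [Finset.prod_congr rfl (g := fun _ => g), Finset.prod_const, Finset.card_univ,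
        Fintype.card_fin]
      intro i _
      rw [Matrix.submatrix_apply, id, Fin.revPerm_apply]
      apply h1
      rw [Fin.val_rev]
      omega
    · intro i j hij
      rw [Matrix.submatrix_apply, id, Fin.revPerm_apply]
      apply h0
      have hij' : (i : ℕ) < j := hij
      rw [Fin.val_rev]
      omega
  rw [hB] at hp
  have hs : (((Equiv.Perm.sign (Fin.revPerm : Equiv.Perm (Fin n)) : ℤˣ) : ℤ) : R) *
      (((Equiv.Perm.sign (Fin.revPerm : Equiv.Perm (Fin n)) : ℤˣ) : ℤ) : R) = 1 := by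
    rw [← Int.cast_mul, ← Units.val_mul, Int.units_mul_self]
    simp
  linear_combination (-(((Equiv.Perm.sign (Fin.revPerm : Equiv.Perm (Fin n)) : ℤˣ) : ℤ) : R)) * hp
    + (-B.det) * hs

variable {K : Type*} [Field K] {ι : Type*} [Fintype ι] [DecidableEq ι] (z : ι → K) (m : ι → ℕ)

/-- the block diagonal matrix of the germs `1 / Nhat_i` -/
noncomputable def DD : Matrix (Row m) (Row m) K := Matrix.of fun r s =>
  if r.1 = s.1 then (if (r.2 : ℕ) + s.2 + 1 ≤ m s.1 then
    PowerSeries.coeff (m s.1 - 1 - s.2 - r.2) (germ (z s.1) (Nhat z m s.1))⁻¹ else 0) else 0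

theorem det_DD : ∃ s : ℤˣ, (DD z m).det = ((s : ℤ) : K) *
    ∏ i, (((Nhat z m i).eval (z i))⁻¹) ^ (m i) := by
  classical
  let _ : LinearOrder ι := LinearOrder.lift' (Fintype.equivFin ι) (Fintype.equivFin ι).injective
  have hbt : (DD z m).BlockTriangular (fun r : Row m => r.1) := by
    intro r s hrs
    have : r.1 ≠ s.1 := ne_of_gt hrs
    simp [DD, this]
  have hdet := hbt.det_fintype
  have hblock : ∀ i : ι, ((DD z m).toSquareBlock (fun r : Row m => r.1) i).det =
      (((Equiv.Perm.sign (Fin.revPerm : Equiv.Perm (Fin (m i))) : ℤˣ) : ℤ) : K) *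
        (((Nhat z m i).eval (z i))⁻¹) ^ (m i) := by
    intro i
    let f : Fin (m i) ≃ {r : Row m // r.1 = i} :=
      { toFun := fun j => ⟨⟨i, j⟩, rfl⟩
        invFun := fun r => ⟨(r.1.2 : ℕ), lt_of_lt_of_eq r.1.2.2 (congrArg m r.2)⟩
        left_inv := fun j => rfl
        right_inv := by
          rintro ⟨⟨i', j⟩, h⟩
          simp only at h
          subst h
          rfl }
    rw [← Matrix.det_submatrix_equiv_self f]
    apply det_antitri'
    · intro a b hab
      simp only [Matrix.submatrix_apply, Matrix.toSquareBlock_def, Matrix.of_apply, DD, f,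
        Equiv.coe_fn_mk]
      rw [if_pos trivial, if_neg (by omega)]
    · intro a b hab
      simp only [Matrix.submatrix_apply, Matrix.toSquareBlock_def, Matrix.of_apply, DD, f,
        Equiv.coe_fn_mk]
      rw [if_pos trivial, if_pos (by omega)]
      have : m i - 1 - (b : ℕ) - (a : ℕ) = 0 := by omega
      rw [this, PowerSeries.coeff_zero_eq_constantCoeff_apply,
        PowerSeries.constantCoeff_inv, constantCoeff_germ]
  rw [hdet, Finset.prod_congr rfl (fun i _ => hblock i), Finset.prod_mul_distrib]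
  refine ⟨∏ i, Equiv.Perm.sign (Fin.revPerm : Equiv.Perm (Fin (m i))), ?_⟩
  congr 1
  push_cast
  rfl

variable {a q : ℕ}

variable {z} in
/-- **square of the confluent Vandermonde determinant** -/
theorem det_vmat_sq (hz : Function.Injective z) (e : Fin a ⊕ Fin q ≃ Row m) :
    ∃ s : ℤˣ, (vmat z m K e).det ^ 2 = ((s : ℤ) : K) *
      ∏ i, ((Nhat z m i).eval (z i)) ^ (m i) := by
  obtain ⟨s1, hs1⟩ := det_umat_mul_vmat (A := K) m hz (fun k => X ^ k)
    (fun k => ⟨monic_X_pow k, natDegree_X_pow k⟩) e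
  obtain ⟨s2, hs2⟩ := det_DD z m
  have hfac : umat z m K (fun k => X ^ k) e = (vmat z m K e).transpose *
      (DD z m).submatrix e e := by
    ext k r
    rw [Matrix.mul_apply]
    simp only [umat, vmat, mat, Matrix.transpose_apply, Matrix.of_apply, Matrix.submatrix_apply,
      Algebra.algebraMap_self, RingHom.id_apply]
    rw [Equiv.sum_comp e (fun t : Row m => PowerSeries.coeff (t.2 : ℕ)
      (pgerm z K (X ^ idx k) t.1) * DD z m t (e r)), Fintype.sum_sigma]
    obtain ⟨i, j⟩ := e r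
    rw [Finset.sum_eq_single i]
    · have hj : (j : ℕ) < m i := j.2
      simp only [u, wt]
      rw [PowerSeries.coeff_mul, Finset.Nat.sum_antidiagonal_eq_sum_range_succ
        (fun a b => PowerSeries.coeff a (germ (z i) (X ^ idx k)) *
          PowerSeries.coeff b (germ (z i) (Nhat z m i))⁻¹)]
      have hsub : ∑ x : Fin (m i), PowerSeries.coeff ((⟨i, x⟩ : Row m).2 : ℕ)
            (pgerm z K (X ^ idx k) (⟨i, x⟩ : Row m).1) * DD z m ⟨i, x⟩ ⟨i, j⟩
          = ∑ x ∈ range (m i), if x + (j : ℕ) + 1 ≤ m i then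
              PowerSeries.coeff x (germ (z i) (X ^ idx k)) *
              PowerSeries.coeff (m i - 1 - j - x) (germ (z i) (Nhat z m i))⁻¹ else 0 := by
        rw [← Fin.sum_univ_eq_sum_range (fun x => if x + (j : ℕ) + 1 ≤ m i then
              PowerSeries.coeff x (germ (z i) (X ^ idx k)) *
              PowerSeries.coeff (m i - 1 - j - x) (germ (z i) (Nhat z m i))⁻¹ else 0) (m i)]
        refine Finset.sum_congr rfl fun x _ => ?_
        simp only [DD, Matrix.of_apply, if_true]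
        split_ifs with h
        · congr 1
        · rw [mul_zero]
      rw [hsub, ← Finset.sum_filter]
      apply Finset.sum_congr
      · ext x
        simp only [Finset.mem_range, Finset.mem_filter]
        omega
      · intro x _
        rfl
    · intro i' _ hi'
      apply Finset.sum_eq_zero
      intro x _
      have : ¬ ((⟨i', x⟩ : Row m).1 = (⟨i, j⟩ : Row m).1) := hi'
      simp only [DD, Matrix.of_apply, if_neg this, mul_zero]
    · intro h; exact absurd (mem_univ _) h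
  rw [hfac, Matrix.det_mul, Matrix.det_transpose, Matrix.det_submatrix_equiv_self, hs2] at hs1
  have hne : ∏ i, ((Nhat z m i).eval (z i)) ^ (m i) ≠ 0 :=
    Finset.prod_ne_zero_iff.mpr fun i _ => pow_ne_zero _ (Nhat_eval_ne m hz i)
  have hinv : ∏ i, (((Nhat z m i).eval (z i))⁻¹) ^ (m i) =
      (∏ i, ((Nhat z m i).eval (z i)) ^ (m i))⁻¹ := by
    rw [← Finset.prod_inv_distrib]
    exact Finset.prod_congr rfl fun i _ => inv_pow _ _
  rw [hinv] at hs1
  have hss : ((s2 : ℤ) : K) * ((s2 : ℤ) : K) = 1 := by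
    rw [← Int.cast_mul, ← Units.val_mul, Int.units_mul_self]; simp
  refine ⟨s1 * s2, ?_⟩
  have h3 : (vmat z m K e).det ^ 2 * ((s2 : ℤ) : K) = ((s1 : ℤ) : K) *
      ∏ i, ((Nhat z m i).eval (z i)) ^ (m i) := by
    rw [← hs1]
    field_simp
  push_cast
  linear_combination ((s2 : ℤ) : K) * h3 - (vmat z m K e).det ^ 2 * hss

theorem eval_Nhat (i : ι) : (Nhat z m i).eval (z i) = ∏ l ∈ univ.erase i, (z i - z l) ^ m l := by
  rw [Nhat, eval_prod]
  simp

/-! ### valuation of `V_S` for nodes in `(1/2) ℤ` -/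

/-- exactly one class: for `N` odd, `[N ∣ y - y'] = ∑_{c<N} [N ∣ y - 2c][N ∣ y' - 2c]` -/
theorem sum_class (N : ℕ) (hN : Odd N) (y y' : ℤ) (u v : ℕ) :
    ∑ c ∈ range N, (if (N : ℤ) ∣ y - 2 * c then u else 0) * (if (N : ℤ) ∣ y' - 2 * c then v else 0)
      = if (N : ℤ) ∣ y - y' then u * v else 0 := by
  have hNpos : 0 < N := hN.pos
  have hNz : (0 : ℤ) < N := by exact_mod_cast hNpos
  obtain ⟨h, hh⟩ := hN
  -- the inverse of `2` is `h + 1`
  set c0 : ℕ := ((y * (h + 1)) % (N : ℤ)).toNat with hc0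
  have hmod0 : 0 ≤ (y * (h + 1)) % (N : ℤ) := Int.emod_nonneg _ hNz.ne'
  have hmodlt : (y * (h + 1)) % (N : ℤ) < N := Int.emod_lt_of_pos _ hNz
  have hc0z : (c0 : ℤ) = (y * (h + 1)) % (N : ℤ) := Int.toNat_of_nonneg hmod0
  have hc0N : c0 < N := by
    have : (c0 : ℤ) < N := by rw [hc0z]; exact hmodlt
    exact_mod_cast this
  have hy0 : (N : ℤ) ∣ y - 2 * c0 := by
    have h1 : (N : ℤ) ∣ y * (h + 1) - c0 := by
      rw [hc0z]; exact Int.dvd_self_sub_emod
    have h2 : (N : ℤ) ∣ 2 * (y * (h + 1) - c0) := Dvd.dvd.mul_left h1 2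
    have h3 : y - 2 * (c0 : ℤ) = 2 * (y * (h + 1) - c0) - y * N := by rw [hh]; push_cast; ring
    rw [h3]
    exact dvd_sub h2 (Dvd.intro_left y rfl)
  have hcop : IsCoprime (N : ℤ) 2 := ⟨1, -(h : ℤ), by rw [hh]; push_cast; ring⟩
  have huniq : ∀ c ∈ range N, (N : ℤ) ∣ y - 2 * c → c = c0 := by
    intro c hc hd
    have hcN := Finset.mem_range.mp hc
    have h1 : (N : ℤ) ∣ 2 * ((c : ℤ) - c0) := by
      have := dvd_sub hy0 hd
      have h2 : y - 2 * (c0 : ℤ) - (y - 2 * (c : ℤ)) = 2 * ((c : ℤ) - c0) := by ring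
      rwa [h2] at this
    have h2 : (N : ℤ) ∣ (c : ℤ) - c0 := hcop.dvd_of_dvd_mul_left h1
    have h3 : (c : ℤ) - c0 = 0 := by
      apply Int.eq_zero_of_abs_lt_dvd h2
      rw [abs_lt]; constructor <;> omega
    omega
  rw [Finset.sum_eq_single c0]
  · rw [if_pos hy0]
    by_cases hd : (N : ℤ) ∣ y - y'
    · rw [if_pos hd, if_pos]
      have := dvd_sub hy0 hd
      have h2 : y - 2 * (c0 : ℤ) - (y - y') = y' - 2 * c0 := by ring
      rwa [h2] at this
    · rw [if_neg hd, if_neg, mul_zero]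
      intro hd'
      apply hd
      have := dvd_sub hy0 hd'
      have h2 : y - 2 * (c0 : ℤ) - (y' - 2 * c0) = y - y' := by ring
      rwa [h2] at this
  · intro c hc hne
    rw [if_neg fun hd => hne (huniq c hc hd), zero_mul]
  · intro h; exact absurd (Finset.mem_range.mpr hc0N) h

/-- total multiplicity of the nodes `y/2` in the class of `c` modulo `N` -/
def Mc (y : ι → ℤ) (m : ι → ℕ) (N : ℕ) (c : ℕ) : ℕ :=
  ∑ i, if (N : ℤ) ∣ y i - 2 * c then m i else 0

omit [DecidableEq ι] in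
theorem sum_Mc_sq (y : ι → ℤ) (m : ι → ℕ) (N : ℕ) (hN : Odd N) :
    ∑ c ∈ range N, (Mc y m N c) ^ 2
      = ∑ i, ∑ l, if (N : ℤ) ∣ y i - y l then m i * m l else 0 := by
  have : ∀ c ∈ range N, (Mc y m N c) ^ 2 = ∑ i, ∑ l,
      (if (N : ℤ) ∣ y i - 2 * c then m i else 0) * (if (N : ℤ) ∣ y l - 2 * c then m l else 0) := by
    intro c _
    rw [Mc, sq, Finset.sum_mul_sum]
  rw [Finset.sum_congr rfl this, Finset.sum_comm]
  refine Finset.sum_congr rfl fun i _ => ?_
  rw [Finset.sum_comm]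
  exact Finset.sum_congr rfl fun l _ => sum_class N hN _ _ _ _

omit [DecidableEq ι] in
/-- sum over classes -/
theorem sum_Mc (y : ι → ℤ) (m : ι → ℕ) (N : ℕ) (hN : Odd N) :
    ∑ c ∈ range N, Mc y m N c = ∑ i, m i := by
  simp only [Mc]
  rw [Finset.sum_comm]
  refine Finset.sum_congr rfl fun i _ => ?_
  have := sum_class N hN (y i) (y i) (m i) 1
  rw [sub_self, if_pos (dvd_zero _), mul_one] at this
  refine Eq.trans (Finset.sum_congr rfl fun c _ => ?_) this
  split_ifs <;> simp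

theorem valRat_prod {κ : Type*} (p : ℕ) [hp : Fact p.Prime] (s : Finset κ) (f : κ → ℚ)
    (hf : ∀ i ∈ s, f i ≠ 0) :
    padicValRat p (∏ i ∈ s, f i) = ∑ i ∈ s, padicValRat p (f i) := by
  classical
  induction s using Finset.induction_on with
  | empty => simp
  | insert a s ha ih =>
    rw [Finset.prod_insert ha, Finset.sum_insert ha, padicValRat.mul (hf a (by simp))
      (Finset.prod_ne_zero_iff.mpr fun i hi => hf i (by simp [hi])),
      ih fun i hi => hf i (by simp [hi])]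

variable {z} in
/-- **valuation of `V_S`** for nodes `z i = y i / 2`, `p` odd: class formula at all levels. -/
theorem val_vmat (p : ℕ) [hp : Fact p.Prime] (hp2 : p ≠ 2) {ι : Type*} [Fintype ι]
    [DecidableEq ι] {z : ι → ℚ} {m : ι → ℕ} (hz : Function.Injective z) (y : ι → ℤ)
    (hy : ∀ i, z i = (y i : ℚ) / 2) (e : Fin a ⊕ Fin q ≃ Row m) (b : ℕ)
    (hb : ∀ i l, (y i - y l).natAbs < p ^ b) :
    2 * padicValRat p (vmat z m ℚ e).det + ((b - 1 : ℕ) : ℤ) * ∑ i, ((m i : ℤ)) ^ 2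
      = ∑ k ∈ Ico 1 b, ∑ c ∈ range (p ^ k), ((Mc y m (p ^ k) c : ℕ) : ℤ) ^ 2 := by
  obtain ⟨s, hs⟩ := det_vmat_sq (K := ℚ) m hz e
  have hv2 : padicValRat p (2 : ℚ) = 0 := by
    have h1 : padicValRat p ((2 : ℕ) : ℚ) = 0 := by
      rw [padicValRat.of_nat]
      have : padicValNat p 2 = 0 := by
        apply padicValNat.eq_zero_of_not_dvd
        intro h
        exact hp2 ((Nat.prime_dvd_prime_iff_eq hp.out Nat.prime_two).mp h)
      simp [this]
    exact_mod_cast h1
  have hyz : ∀ i l, i ≠ l → y i - y l ≠ 0 := by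
    intro i l hil h
    apply hil
    apply hz
    rw [hy, hy, sub_eq_zero.mp h]
  have hval : ∀ i l, i ≠ l → padicValRat p (z i - z l) =
      ((∑ k ∈ Ico 1 b, if ((p ^ k : ℕ) : ℤ) ∣ y i - y l then 1 else 0 : ℕ) : ℤ) := by
    intro i l hil
    have h1 : z i - z l = ((y i - y l : ℤ) : ℚ) / 2 := by rw [hy, hy]; push_cast; ring
    have hne : ((y i - y l : ℤ) : ℚ) ≠ 0 := by exact_mod_cast hyz i l hil
    rw [h1, padicValRat.div hne two_ne_zero, hv2, sub_zero, padicValRat.of_int,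
      PreL3x764.val_eq_sum p _ (hyz i l hil) b (hb i l)]
    push_cast
    rfl
  have hdet0 : (vmat z m ℚ e).det ≠ 0 := det_vmat_ne_zero m hz e
  have hzz : ∀ i, ∀ l ∈ univ.erase i, z i - z l ≠ 0 := by
    intro i l hl h
    exact (Finset.mem_erase.mp hl).1 (hz (sub_eq_zero.mp h)).symm
  have h2 : 2 * padicValRat p (vmat z m ℚ e).det
      = ∑ i, ∑ l ∈ univ.erase i, ((m i * m l *
        (∑ k ∈ Ico 1 b, if ((p ^ k : ℕ) : ℤ) ∣ y i - y l then 1 else 0) : ℕ) : ℤ) := by
    have e1 : 2 * padicValRat p (vmat z m ℚ e).det = padicValRat p ((vmat z m ℚ e).det ^ 2) := by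
      rw [padicValRat.pow]; push_cast; ring
    rw [e1, hs]
    have hprod_ne : ∀ i, ((Nhat z m i).eval (z i)) ^ (m i) ≠ 0 :=
      fun i => pow_ne_zero _ (Nhat_eval_ne m hz i)
    have hs0 : (((s : ℤ) : ℚ)) ≠ 0 := by
      have : (s : ℤ) ≠ 0 := Units.ne_zero s
      exact_mod_cast this
    have hvs : padicValRat p ((s : ℤ) : ℚ) = 0 := by
      rcases Int.units_eq_one_or s with h | h <;> simp [h]
    rw [padicValRat.mul hs0 (Finset.prod_ne_zero_iff.mpr fun i _ => hprod_ne i), hvs, zero_add,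
      valRat_prod p univ _ fun i _ => hprod_ne i]
    refine Finset.sum_congr rfl fun i _ => ?_
    rw [padicValRat.pow, eval_Nhat,
      valRat_prod p _ _ fun l hl => pow_ne_zero _ (hzz i l hl), Finset.mul_sum]
    refine Finset.sum_congr rfl fun l hl => ?_
    rw [padicValRat.pow, hval i l (Finset.mem_erase.mp hl).1.symm]
    push_cast
    ring
  rw [h2]
  have hN : ∀ k, Odd (p ^ k) := fun k => (hp.out.odd_of_ne_two hp2).pow
  have h3 : ∀ k ∈ Ico 1 b, ∑ c ∈ range (p ^ k), ((Mc y m (p ^ k) c : ℕ) : ℤ) ^ 2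
      = (∑ i, ∑ l ∈ univ.erase i, ((if ((p ^ k : ℕ) : ℤ) ∣ y i - y l then m i * m l else 0 : ℕ) : ℤ))
        + ∑ i, ((m i : ℤ)) ^ 2 := by
    intro k _
    have := sum_Mc_sq y m (p ^ k) (hN k)
    have h4 : ∑ c ∈ range (p ^ k), ((Mc y m (p ^ k) c : ℕ) : ℤ) ^ 2
        = ((∑ i, ∑ l, if ((p ^ k : ℕ) : ℤ) ∣ y i - y l then m i * m l else 0 : ℕ) : ℤ) := by
      rw [← this]; push_cast; rfl
    rw [h4, ← Finset.sum_add_distrib]
    push_cast
    refine Finset.sum_congr rfl fun i _ => ?_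
    rw [← Finset.sum_erase_add univ _ (Finset.mem_univ i)]
    congr 1
    rw [sub_self, if_pos (dvd_zero _)]
    ring
  rw [Finset.sum_congr rfl h3, Finset.sum_add_distrib, Finset.sum_const, Nat.card_Ico, nsmul_eq_mul]
  congr 1
  rw [Finset.sum_comm]
  refine Finset.sum_congr rfl fun i _ => ?_
  rw [Finset.sum_comm]
  refine Finset.sum_congr rfl fun l _ => ?_
  push_cast
  rw [Finset.mul_sum]
  refine Finset.sum_congr rfl fun k _ => ?_
  split_ifs <;> ring

end Crest.Agent.R006.VSx102
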