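import Crest.Agent.R006.Defs
import Crest.Agent.R006.Lam_89
import Crest.Agent.R006.VS_102
import Crest.Agent.R006.P4Toll_961

set_option autoImplicit false

/-!
# Row 6, block P4: the extended matrix (helper814)

The zeros of the gauge (`R(n) = 0`, `R(-m) = 0`, `R(-1/2-m) = 0`) as additional rows, the full
polynomial space as `R`-columns:

`det Ext = det V_Z * det Mon`, `Mon` = matrix with the monic gauge basis, `V_Z` = confluent
Vandermonde of the zeros.
-/

namespace Crest.Agent.R006.P4Extx814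

open Polynomial Crest.Agent.R006.D Crest.Agent.R006.NV

/-! ### linear entries -/

/-- entry of an `R`-column -/
noncomputable def eR (R : ℚ[X]) (ρ : Row) : ℚ[X] := C (ent0 R ρ) - X * C (ent1 R ρ)

/-- entry of a `T`-column -/
noncomputable def eT (T : ℚ[X]) (ρ : Row) : ℚ[X] := C (entT T ρ)

/-- entry of a `Q`-column -/
noncomputable def eQ (Q : ℚ[X]) (ρ : Row) : ℚ[X] := C (entQ Q ρ)

lemma ent0_C_mul (a : ℚ) (R : ℚ[X]) (ρ : Row) : ent0 (C a * R) ρ = a * ent0 R ρ := by
  have h : tau (C a * R) = C a * tau R := by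
    unfold tau
    rw [← smul_eq_C_mul, map_smul, smul_eq_C_mul]
  unfold ent0
  rw [h, gm_mul, gm_mul, gm_C, mul_assoc, ← mul_sub, PowerSeries.coeff_C_mul]

lemma ent1_C_mul (a : ℚ) (R : ℚ[X]) (ρ : Row) : ent1 (C a * R) ρ = a * ent1 R ρ := by
  unfold ent1
  rw [gm_mul, gm_C, mul_assoc, PowerSeries.coeff_C_mul]

lemma eR_C_mul (a : ℚ) (R : ℚ[X]) (ρ : Row) : eR (C a * R) ρ = C a * eR R ρ := by
  unfold eR
  rw [ent0_C_mul, ent1_C_mul, C_mul, C_mul]
  ring

lemma eT_C_mul (a : ℚ) (T : ℚ[X]) (ρ : Row) : eT (C a * T) ρ = C a * eT T ρ := by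
  unfold eT entT
  rw [gm_mul, gm_C, PowerSeries.coeff_C_mul, C_mul]

lemma eQ_C_mul (a : ℚ) (Q : ℚ[X]) (ρ : Row) : eQ (C a * Q) ρ = C a * eQ Q ρ := by
  unfold eQ entQ
  rw [gm_mul, gm_C, mul_assoc, PowerSeries.coeff_C_mul, C_mul]

/-! ### the zeros of the gauge -/

section zeros

variable (S : Shape) (u : ℕ)

/-- index set of the zeros of the gauge -/
abbrev ZI := Fin (S.a1 * u) ⊕ (Fin (S.r1 * u) ⊕ Fin (S.i1 * u))

/-- the site of a zero -/
def zsite : ZI S u → Site
  | .inl n => .Z ((n : ℕ) : ℤ)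
  | .inr (.inl m) => .Z (-(((m : ℕ) : ℤ) + 1))
  | .inr (.inr m) => .H (-(((m : ℕ) : ℤ) + 1))

/-- the multiplicity of a zero -/
def zmul : ZI S u → ℕ
  | .inl n => if (n : ℕ) < S.a2 * u then 2 else 1
  | .inr _ => 1

/-- the position of a zero -/
def zval (z : ZI S u) : ℚ := (zsite S u z).val

/-- twice the position of a zero -/
def zy : ZI S u → ℤ
  | .inl n => 2 * ((n : ℕ) : ℤ)
  | .inr (.inl m) => -2 * (((m : ℕ) : ℤ) + 1)
  | .inr (.inr m) => -2 * (((m : ℕ) : ℤ) + 1) + 1

lemma zval_eq (z : ZI S u) : zval S u z = (zy S u z : ℚ) / 2 := by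
  rcases z with n | m | m
  · simp [zval, zsite, Site.val, zy]
  · simp only [zval, zsite, Site.val, zy]; push_cast; ring
  · simp only [zval, zsite, Site.val, zy]; push_cast; ring

lemma zy_injective : Function.Injective (zy S u) := by
  intro a b h
  rcases a with n | n | n <;> rcases b with m | m | m <;> simp only [zy] at h
  · have : (n : ℕ) = m := by omega
    rw [Fin.ext this]
  · omega
  · omega
  · omega
  · have : (n : ℕ) = m := by omega
    rw [Fin.ext this]
  · omega
  · omega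
  · omega
  · have : (n : ℕ) = m := by omega
    rw [Fin.ext this]

lemma zval_injective : Function.Injective (zval S u) := by
  intro a b h
  rw [zval_eq, zval_eq] at h
  have h2 : (zy S u a : ℚ) = zy S u b := by linarith
  exact zy_injective S u (by exact_mod_cast h2)

/-- the rows of the zeros -/
abbrev ZRow := Lam.Row (zmul S u)

/-- number of the zeros with multiplicity -/
abbrev zz : ℕ := ∑ z, zmul S u z

/-- the monic gauge -/
noncomputable def NSz : ℚ[X] := Lam.NS (zval S u) (zmul S u)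

/-- `(X - a1 u) (X - a1 u - 1) ...`, `l` factors -/
noncomputable def dp (l : ℕ) : ℚ[X] :=
  ∏ i ∈ Finset.range l, (X - C (((S.a1 * u + i : ℕ) : ℚ)))

lemma dp_monic (l : ℕ) : (dp S u l).Monic := monic_prod_of_monic _ _ fun _ _ => monic_X_sub_C _

lemma NSz_monic : (NSz S u).Monic := Lam.NS_monic (z := zval S u) (zmul S u)

lemma coeff_gm_NSz (ρ : ZRow S u) (P : ℚ[X]) :
    PowerSeries.coeff (ρ.2 : ℕ) (gm (zval S u ρ.1) (NSz S u * P)) = 0 := by
  have h1 : (X - C (zval S u ρ.1)) ^ (zmul S u ρ.1) ∣ NSz S u * P := by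
    unfold NSz
    rw [Lam.NS_eq, mul_assoc]
    exact Dvd.intro _ rfl
  have h2 : (PowerSeries.X : PowerSeries ℚ) ^ (zmul S u ρ.1) ∣ gm (zval S u ρ.1) (NSz S u * P) :=
    Lam.X_pow_dvd_germ_iff.2 h1
  exact PowerSeries.X_pow_dvd_iff.1 h2 _ ρ.2.2

/-! ### the extended matrix -/

/-- row labels of the extended matrix -/
abbrev EI := ZRow S u ⊕ Col S u

/-- `R`-columns of the extended matrix -/
abbrev ER := Fin (zz S u) ⊕ Fin (S.k * u)

/-- column labels of the extended matrix -/
abbrev EC := P4Toll961.Col (ER S u) (Fin (S.q * u)) (Fin (S.g * u)) (Fin 0)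

/-- the `R`-polynomials -/
noncomputable def polE : ER S u → ℚ[X]
  | .inl b => X ^ (b : ℕ)
  | .inr l => NSz S u * dp S u l

/-- rows of the extended matrix -/
noncomputable def erow (r : Col S u → Row) : EI S u → EC S u → ℚ[X]
  | .inl ρ, .inl j => C (PowerSeries.coeff (ρ.2 : ℕ) (gm (zval S u ρ.1) (polE S u j)))
  | .inl _, .inr _ => 0
  | .inr i, .inl j => eR (polE S u j) (r i)
  | .inr i, .inr (.inl l) => eT (descPochhammer ℚ l) (r i)
  | .inr i, .inr (.inr (.inl l)) => eQ (descPochhammer ℚ l) (r i)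
  | .inr _, .inr (.inr (.inr _)) => 0

/-- the matrix with the monic bases -/
noncomputable def Mon (r : Col S u → Row) : Matrix (Col S u) (Col S u) ℚ[X] :=
  Matrix.of fun i j => match j with
    | .inl l => eR (NSz S u * dp S u l) (r i)
    | .inr (.inl l) => eT (descPochhammer ℚ l) (r i)
    | .inr (.inr l) => eQ (descPochhammer ℚ l) (r i)

lemma card_ZRow : Fintype.card (ZRow S u) = zz S u := by simp

/-- numbering of the zero rows -/
noncomputable def e0 : ZRow S u ≃ Fin (zz S u) := Fintype.equivFinOfCardEq (card_ZRow S u)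

/-- columns of the block form -/
def cmap : Fin (zz S u) ⊕ Col S u → EC S u
  | .inl b => .inl (.inl b)
  | .inr (.inl l) => .inl (.inr l)
  | .inr (.inr (.inl l)) => .inr (.inl l)
  | .inr (.inr (.inr l)) => .inr (.inr (.inl l))

/-- inverse of `cmap` -/
def cinv : EC S u → Fin (zz S u) ⊕ Col S u
  | .inl (.inl b) => .inl b
  | .inl (.inr l) => .inr (.inl l)
  | .inr (.inl l) => .inr (.inr (.inl l))
  | .inr (.inr (.inl l)) => .inr (.inr (.inr l))
  | .inr (.inr (.inr l)) => l.elim0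

/-- `cmap` as an equivalence -/
def cequiv : Fin (zz S u) ⊕ Col S u ≃ EC S u where
  toFun := cmap S u
  invFun := cinv S u
  left_inv := by rintro (b | l | l | l) <;> rfl
  right_inv := by
    rintro ((b | l) | l | l | l)
    · rfl
    · rfl
    · rfl
    · rfl
    · exact l.elim0

/-- row labels ≃ column labels -/
noncomputable def eEq : EI S u ≃ EC S u :=
  (Equiv.sumCongr (e0 S u) (Equiv.refl _)).trans (cequiv S u)

/-- the extended matrix -/
noncomputable def Ext (r : Col S u → Row) : Matrix (EI S u) (EI S u) ℚ[X] :=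
  Matrix.of fun i j => erow S u r i (eEq S u j)

/-- confluent Vandermonde matrix of the zeros -/
noncomputable def VZ : Matrix (ZRow S u) (ZRow S u) ℚ :=
  Matrix.of fun ρ ρ' =>
    PowerSeries.coeff (ρ.2 : ℕ) (gm (zval S u ρ.1) (X ^ (e0 S u ρ' : ℕ)))

/-- **block form** -/
theorem Ext_eq (r : Col S u → Row) :
    Ext S u r = Matrix.fromBlocks ((VZ S u).map (C : ℚ → ℚ[X])) 0
      (Matrix.of fun i ρ' => eR (X ^ (e0 S u ρ' : ℕ)) (r i)) (Mon S u r) := by
  refine Matrix.ext fun i j => ?_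
  rcases i with ρ | i <;> rcases j with ρ' | l | l | l
  · rfl
  · simp only [Ext, Matrix.of_apply, Matrix.fromBlocks_apply₁₂, Matrix.zero_apply]
    show C (PowerSeries.coeff (ρ.2 : ℕ) (gm (zval S u ρ.1) (NSz S u * dp S u l))) = 0
    rw [coeff_gm_NSz, C_0]
  · rfl
  · rfl
  · rfl
  · rfl
  · rfl
  · rfl

theorem det_Ext (r : Col S u → Row) :
    (Ext S u r).det = C (VZ S u).det * (Mon S u r).det := by
  rw [Ext_eq, Matrix.det_fromBlocks_zero₁₂]
  congr 1
  exact (RingHom.map_det C (VZ S u)).symm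

/-! ### the valuation of `det V_Z` -/

/-- the labelling of `Lam` -/
noncomputable def e1 : Fin (zz S u) ⊕ Fin 0 ≃ ZRow S u :=
  (Equiv.sumEmpty (Fin (zz S u)) (Fin 0)).trans (e0 S u).symm

lemma det_VZ_eq : (VZ S u).det = (Lam.vmat (zval S u) (zmul S u) ℚ (e1 S u)).det := by
  rw [← Matrix.det_submatrix_equiv_self (e1 S u) (VZ S u)]
  congr 1
  ext i j
  rcases j with j | j
  · rcases i with i | i
    · simp [VZ, Lam.vmat, Lam.mat, Lam.pgerm, e1, Lam.idx, gm, Lam.germ]
    · exact i.elim0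
  · exact j.elim0

lemma det_VZ_ne : (VZ S u).det ≠ 0 := by
  rw [det_VZ_eq]
  exact Lam.det_vmat_ne_zero _ (zval_injective S u) _

/-- `2 v_p(det V_Z) + ∑ m² = ∑_c (number of zeros in the class c)²` -/
theorem val_VZ (p : ℕ) [hp : Fact p.Prime] (hp2 : p ≠ 2)
    (hb : ∀ i l, (zy S u i - zy S u l).natAbs < p ^ 2) :
    2 * padicValRat p (VZ S u).det + ∑ i, ((zmul S u i : ℤ)) ^ 2
      = ∑ c ∈ Finset.range p, ((VSx102.Mc (zy S u) (zmul S u) p c : ℕ) : ℤ) ^ 2 := by
  have h := VSx102.val_vmat p hp2 (m := zmul S u) (zval_injective S u) (zy S u) (zval_eq S u)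
    (e1 S u) 2 hb
  rw [← det_VZ_eq] at h
  simpa using h

end zeros

/-! ### passing to the filtration -/

section fil

variable (p : ℕ) [hp : Fact p.Prime]

lemma C_mem {a : ℚ} (ha : a ≠ 0) : (C a : ℚ[X]) ∈ (P4Toll961.pbFil p).F (padicValRat p a) := by
  show ProdBound481.PB p (padicValRat p a) (C a)
  intro k
  rw [coeff_C]
  split_ifs
  · rw [padicNorm.eq_zpow_of_nonzero ha]
  · rw [padicNorm.zero]; positivity

/-- the bound for `det Mon` from a bound for `det Ext` -/
theorem Mon_mem (S : Shape) (u : ℕ) (r : Col S u → Row) {E : ℤ}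
    (h : (Ext S u r).det ∈ (P4Toll961.pbFil p).F E) :
    (Mon S u r).det ∈ (P4Toll961.pbFil p).F (E - padicValRat p (VZ S u).det) := by
  have hV := det_VZ_ne S u
  have h1 : (Mon S u r).det = C ((VZ S u).det)⁻¹ * (Ext S u r).det := by
    rw [det_Ext, ← mul_assoc, ← C_mul, inv_mul_cancel₀ hV, C_1, one_mul]
  rw [h1]
  have h2 := (P4Toll961.pbFil p).mul_mem (C_mem p (inv_ne_zero hV)) h
  refine (P4Toll961.pbFil p).mono (le_of_eq ?_) h2
  rw [padicValRat.inv]
  ring

end fil

end Crest.Agent.R006.P4Extx814
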