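import Mathlib

/-!
Row 6, block P4 (team of helper657): substitution `ε = p/2` at the half-integers.

`E` is a commutative ring, `O` a subring (the `p`-integral elements), `hf = 1/2 ∈ O`,
`h = p * hf = p/2`, `p = 2N+1`.  `PO O p k x` : `x ∈ p^k O`.
`ev h f = f_0 + h f_1 + h^2 f_2` for a germ `f ∈ E⟦X⟧` with coefficients in `O`.

* `ev_mul` : `ev h (f g) = ev h f * ev h g` mod `p^3`.
* `psi_star` : the value of `ψ` at `N+1+l` is `ev h` of the germ of `ψ_*` at `l+1/2`, mod `p^3`.
* `g_star` : the value of `g` at `N+1+l` is `ev h` of the germ of the half chain of `g` at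
  `l+1/2`, mod `p^3` (so `g(N+1+l) = p^2 c_l / 4` mod `p^3`).
* `g_half` : the value of `g` at `N-m` is the value of the half chain at `-1/2-m`, mod `p`.
-/

set_option autoImplicit false

namespace Crest.Agent.R006.P4G226

open Finset

variable {E : Type*} [CommRing E]

/-- `x ∈ p^k O` -/
def PO (O : Subring E) (p k : ℕ) (x : E) : Prop := ∃ y ∈ O, x = (p : E) ^ k * y

namespace PO

variable {O : Subring E} {p k : ℕ} {x y c : E}

theorem zero : PO O p k 0 := ⟨0, O.zero_mem, by ring⟩

theorem add (hx : PO O p k x) (hy : PO O p k y) : PO O p k (x + y) := by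
  obtain ⟨a, ha, rfl⟩ := hx
  obtain ⟨b, hb, rfl⟩ := hy
  exact ⟨a + b, O.add_mem ha hb, by ring⟩

theorem neg (hx : PO O p k x) : PO O p k (-x) := by
  obtain ⟨a, ha, rfl⟩ := hx
  exact ⟨-a, O.neg_mem ha, by ring⟩

theorem sub (hx : PO O p k x) (hy : PO O p k y) : PO O p k (x - y) := by
  rw [sub_eq_add_neg]; exact hx.add hy.neg

theorem mul_left (hc : c ∈ O) (hx : PO O p k x) : PO O p k (c * x) := by
  obtain ⟨a, ha, rfl⟩ := hx
  exact ⟨c * a, O.mul_mem hc ha, by ring⟩

theorem mul_right (hx : PO O p k x) (hc : c ∈ O) : PO O p k (x * c) := by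
  rw [mul_comm]; exact hx.mul_left hc

theorem mono {j : ℕ} (hx : PO O p k x) (hj : j ≤ k) : PO O p j x := by
  obtain ⟨a, ha, rfl⟩ := hx
  refine ⟨(p : E) ^ (k - j) * a, O.mul_mem (O.pow_mem (natCast_mem O p) _) ha, ?_⟩
  rw [← mul_assoc, ← pow_add, Nat.add_sub_cancel' hj]

theorem mul {j : ℕ} (hx : PO O p k x) (hy : PO O p j y) : PO O p (k + j) (x * y) := by
  obtain ⟨a, ha, rfl⟩ := hx
  obtain ⟨b, hb, rfl⟩ := hy
  exact ⟨a * b, O.mul_mem ha hb, by ring⟩

theorem pow {n : ℕ} (hx : PO O p k x) : PO O p (k * n) (x ^ n) := by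
  obtain ⟨a, ha, rfl⟩ := hx
  exact ⟨a ^ n, O.pow_mem ha n, by rw [mul_pow, pow_mul]⟩

theorem of_mem (hx : x ∈ O) : PO O p 0 x := ⟨x, hx, by ring⟩

theorem mem (hx : PO O p k x) : x ∈ O := by
  obtain ⟨a, ha, rfl⟩ := hx
  exact O.mul_mem (O.pow_mem (natCast_mem O p) _) ha

theorem sum {ι : Type*} (s : Finset ι) (f : ι → E) (hf : ∀ i ∈ s, PO O p k (f i)) :
    PO O p k (∑ i ∈ s, f i) := by
  classical
  induction s using Finset.induction_on with
  | empty => simpa using zero
  | insert a s ha ih =>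
    rw [Finset.sum_insert ha]
    exact (hf a (Finset.mem_insert_self _ _)).add (ih fun i hi => hf i (Finset.mem_insert_of_mem hi))

/-- cancel a unit of `O` -/
theorem cancel {a w : E} (hw : w ∈ O) (hwa : w * a = 1) (hx : PO O p k (a * x)) : PO O p k x := by
  have : x = w * (a * x) := by rw [← mul_assoc, hwa, one_mul]
  rw [this]; exact hx.mul_left hw

end PO

/-- germ with coefficients in `O` -/
def IntS (O : Subring E) (f : PowerSeries E) : Prop := ∀ n, PowerSeries.coeff n f ∈ O

namespace IntS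

variable {O : Subring E} {f g : PowerSeries E}

theorem add (hf : IntS O f) (hg : IntS O g) : IntS O (f + g) := fun n => by
  rw [map_add]; exact O.add_mem (hf n) (hg n)

theorem neg (hf : IntS O f) : IntS O (-f) := fun n => by
  rw [map_neg]; exact O.neg_mem (hf n)

theorem mul (hf : IntS O f) (hg : IntS O g) : IntS O (f * g) := fun n => by
  rw [PowerSeries.coeff_mul]
  exact O.sum_mem fun x _ => O.mul_mem (hf _) (hg _)

theorem C {c : E} (hc : c ∈ O) : IntS O (PowerSeries.C c) := fun n => by
  rw [PowerSeries.coeff_C]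
  split_ifs
  · exact hc
  · exact O.zero_mem

theorem X : IntS O (PowerSeries.X : PowerSeries E) := fun n => by
  rw [PowerSeries.coeff_X]
  split_ifs
  · exact O.one_mem
  · exact O.zero_mem

theorem one : IntS O (1 : PowerSeries E) := fun n => by
  rw [PowerSeries.coeff_one]
  split_ifs
  · exact O.one_mem
  · exact O.zero_mem

theorem zero : IntS O (0 : PowerSeries E) := fun n => by
  rw [map_zero]; exact O.zero_mem

theorem pow (hf : IntS O f) (n : ℕ) : IntS O (f ^ n) := by
  induction n with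
  | zero => rw [pow_zero]; exact one
  | succ n ih => rw [pow_succ]; exact ih.mul hf

theorem ptC {c : E} (hc : c ∈ O) : IntS O (PowerSeries.X + PowerSeries.C c) := X.add (C hc)

/-- division by a germ with a unit constant coefficient -/
theorem of_mul {a x : PowerSeries E} (ha : IntS O a)
    (hu : ∃ w ∈ O, w * PowerSeries.coeff 0 a = 1) (h : IntS O (a * x)) : IntS O x := by
  obtain ⟨w, hw, hwa⟩ := hu
  intro n
  induction n using Nat.strong_induction_on with
  | _ n ih =>
    have h1 := h n
    rw [PowerSeries.coeff_mul, ← Finset.sum_erase_add _ _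
      (show (0, n) ∈ antidiagonal n by simp)] at h1
    have h2 : ∑ y ∈ (antidiagonal n).erase (0, n),
        PowerSeries.coeff y.1 a * PowerSeries.coeff y.2 x ∈ O := by
      refine O.sum_mem fun y hy => O.mul_mem (ha _) (ih _ ?_)
      rw [Finset.mem_erase, HasAntidiagonal.mem_antidiagonal] at hy
      obtain ⟨hne, hy⟩ := hy
      rcases Nat.eq_zero_or_pos y.1 with h0 | h0
      · exact absurd (Prod.ext h0 (by simp only; omega)) hne
      · omega
    have h3 : PowerSeries.coeff n x = w * (PowerSeries.coeff 0 a * PowerSeries.coeff n x) := by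
      rw [← mul_assoc, hwa, one_mul]
    rw [h3]
    refine O.mul_mem hw ?_
    have := O.sub_mem h1 h2
    simpa using this

end IntS

/-- truncated evaluation at `ε = h` -/
noncomputable def ev (h : E) (f : PowerSeries E) : E :=
  PowerSeries.coeff 0 f + h * PowerSeries.coeff 1 f + h ^ 2 * PowerSeries.coeff 2 f

theorem ev_add (h : E) (f g : PowerSeries E) : ev h (f + g) = ev h f + ev h g := by
  unfold ev; rw [map_add, map_add, map_add]; ring

theorem ev_neg (h : E) (f : PowerSeries E) : ev h (-f) = -ev h f := by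
  unfold ev; rw [map_neg, map_neg, map_neg]; ring

theorem ev_sub (h : E) (f g : PowerSeries E) : ev h (f - g) = ev h f - ev h g := by
  rw [sub_eq_add_neg, ev_add, ev_neg, sub_eq_add_neg]

theorem ev_C_mul (h c : E) (f : PowerSeries E) : ev h (PowerSeries.C c * f) = c * ev h f := by
  unfold ev; rw [PowerSeries.coeff_C_mul, PowerSeries.coeff_C_mul, PowerSeries.coeff_C_mul]; ring

theorem ev_C (h c : E) : ev h (PowerSeries.C c) = c := by
  unfold ev; simp [PowerSeries.coeff_C]

theorem ev_zero (h : E) : ev h (0 : PowerSeries E) = 0 := by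
  unfold ev; simp

theorem ev_X (h : E) : ev h (PowerSeries.X : PowerSeries E) = h := by
  unfold ev; simp [PowerSeries.coeff_X]

theorem ev_pt (h s : E) : ev h (PowerSeries.X + PowerSeries.C s) = s + h := by
  rw [ev_add, ev_X, ev_C, add_comm]

theorem ev_sum {ι : Type*} (h : E) (s : Finset ι) (f : ι → PowerSeries E) :
    ev h (∑ i ∈ s, f i) = ∑ i ∈ s, ev h (f i) := by
  classical
  induction s using Finset.induction_on with
  | empty => simpa using ev_zero h
  | insert a s ha ih => rw [Finset.sum_insert ha, Finset.sum_insert ha, ev_add, ih]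

theorem ev_mem {O : Subring E} {h : E} (hh : h ∈ O) {f : PowerSeries E} (hf : IntS O f) :
    ev h f ∈ O :=
  O.add_mem (O.add_mem (hf 0) (O.mul_mem hh (hf 1))) (O.mul_mem (O.pow_mem hh 2) (hf 2))

/-- `ev h` is multiplicative mod `p^3` if `h ∈ p O` -/
theorem ev_mul {O : Subring E} {p : ℕ} {h : E} (hh : PO O p 1 h) {f g : PowerSeries E}
    (hf : IntS O f) (hg : IntS O g) : PO O p 3 (ev h (f * g) - ev h f * ev h g) := by
  have e0 : PowerSeries.coeff 0 (f * g) = PowerSeries.coeff 0 f * PowerSeries.coeff 0 g := by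
    rw [PowerSeries.coeff_mul, Finset.Nat.sum_antidiagonal_eq_sum_range_succ_mk]; simp
  have e1 : PowerSeries.coeff 1 (f * g) = PowerSeries.coeff 0 f * PowerSeries.coeff 1 g +
      PowerSeries.coeff 1 f * PowerSeries.coeff 0 g := by
    rw [PowerSeries.coeff_mul, Finset.Nat.sum_antidiagonal_eq_sum_range_succ_mk]
    simp [Finset.sum_range_succ]
  have e2 : PowerSeries.coeff 2 (f * g) = PowerSeries.coeff 0 f * PowerSeries.coeff 2 g +
      PowerSeries.coeff 1 f * PowerSeries.coeff 1 g +
      PowerSeries.coeff 2 f * PowerSeries.coeff 0 g := by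
    rw [PowerSeries.coeff_mul, Finset.Nat.sum_antidiagonal_eq_sum_range_succ_mk]
    simp [Finset.sum_range_succ]
  have e : ev h (f * g) - ev h f * ev h g = h ^ 3 * -(PowerSeries.coeff 1 f * PowerSeries.coeff 2 g
      + PowerSeries.coeff 2 f * PowerSeries.coeff 1 g
      + h * (PowerSeries.coeff 2 f * PowerSeries.coeff 2 g)) := by
    unfold ev; rw [e0, e1, e2]; ring
  rw [e]
  refine PO.mul_right (by simpa using hh.pow (n := 3)) (O.neg_mem ?_)
  exact O.add_mem (O.add_mem (O.mul_mem (hf _) (hg _)) (O.mul_mem (hf _) (hg _)))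
    (O.mul_mem hh.mem (O.mul_mem (hf _) (hg _)))

theorem ev_pt_mul {O : Subring E} {p : ℕ} {h : E} (hh : PO O p 1 h) {s : E} (hs : s ∈ O)
    {f : PowerSeries E} (hf : IntS O f) :
    PO O p 3 (ev h ((PowerSeries.X + PowerSeries.C s) * f) - (s + h) * ev h f) := by
  have := ev_mul hh (IntS.ptC hs) hf
  rwa [ev_pt] at this

theorem ev_pt_pow_mul {O : Subring E} {p : ℕ} {h : E} (hh : PO O p 1 h) {s : E} (hs : s ∈ O)
    {f : PowerSeries E} (hf : IntS O f) (k : ℕ) :
    PO O p 3 (ev h ((PowerSeries.X + PowerSeries.C s) ^ k * f) - (s + h) ^ k * ev h f) := by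
  induction k with
  | zero => simpa using PO.zero
  | succ k ih =>
    have h1 := ev_pt_mul hh hs (((IntS.ptC hs).pow k).mul hf)
    have h2 := ih.mul_left (O.add_mem hs hh.mem)
    have e : (PowerSeries.X + PowerSeries.C s) ^ (k + 1) * f =
        (PowerSeries.X + PowerSeries.C s) * ((PowerSeries.X + PowerSeries.C s) ^ k * f) := by ring
    rw [e]
    have := h1.add h2
    have e2 : ev h ((PowerSeries.X + PowerSeries.C s) * ((PowerSeries.X + PowerSeries.C s) ^ k * f))
        - (s + h) * ev h ((PowerSeries.X + PowerSeries.C s) ^ k * f) +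
        (s + h) * (ev h ((PowerSeries.X + PowerSeries.C s) ^ k * f) - (s + h) ^ k * ev h f) =
        ev h ((PowerSeries.X + PowerSeries.C s) * ((PowerSeries.X + PowerSeries.C s) ^ k * f)) -
        (s + h) ^ (k + 1) * ev h f := by ring
    rwa [e2] at this

end Crest.Agent.R006.P4G226
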