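import Crest.Agent.R006.P4G1_226

/-!
Row 6, block P4: the congruences between the integer chains and the half-integer chains
(`p = 2N+1`, `hf = 1/2`, `h = p/2`).

* `psi_star` : `a (N+1+l) = ev h (s l)` mod `p^3` (`N+1+l < p`).
* `g_half` : `b (N-m) = b m` mod `p` (`m ≤ N`).
* `g_star` : `b (N+1+l) = ev h (t l)` mod `p^3`.
-/

set_option autoImplicit false

namespace Crest.Agent.R006.P4G226

open Finset

variable {E : Type*} [CommRing E]

/-- the integers `0 < m < p` are units of `O` -/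
def USmall (O : Subring E) (p : ℕ) : Prop :=
  ∀ m : ℕ, 0 < m → m < p → ∃ w ∈ O, w * (m : E) = 1

section

variable {O : Subring E} {p N : ℕ} {hf : E}

theorem po_h (hfO : hf ∈ O) : PO O p 1 ((p : E) * hf) := ⟨hf, hfO, by ring⟩

theorem site_add (hp : p = 2 * N + 1) (hh : hf * 2 = 1) (l : E) :
    l + hf + (p : E) * hf = (N : E) + 1 + l := by
  subst hp
  push_cast
  linear_combination ((N : E) + 1) * hh

/-- `l + 1/2` is a unit if `2l+1 < p` -/
theorem unit_half (hU : USmall O p) (hh : hf * 2 = 1) (l : ℕ) (hl : 2 * l + 1 < p) :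
    ∃ w ∈ O, w * ((l : E) + hf) = 1 := by
  obtain ⟨w, hw, hw1⟩ := hU (2 * l + 1) (by omega) hl
  refine ⟨2 * w, O.mul_mem (ofNat_mem O 2) hw, ?_⟩
  push_cast at hw1
  linear_combination hw1 + w * hh

theorem unit_pow {a : E} (h : ∃ w ∈ O, w * a = 1) (k : ℕ) : ∃ w ∈ O, w * a ^ k = 1 := by
  obtain ⟨w, hw, hwa⟩ := h
  exact ⟨w ^ k, O.pow_mem hw k, by rw [← mul_pow, hwa, one_pow]⟩

theorem coeff_zero_pt_pow (s : E) (k : ℕ) :
    PowerSeries.coeff 0 ((PowerSeries.X + PowerSeries.C s) ^ k) = s ^ k := by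
  rw [PowerSeries.coeff_zero_eq_constantCoeff_apply, map_pow, map_add,
    PowerSeries.constantCoeff_X, PowerSeries.constantCoeff_C, zero_add]

theorem two_pt (hh : hf * 2 = 1) (x : E) :
    (2 * (PowerSeries.X + PowerSeries.C x) + 1 : PowerSeries E) =
      PowerSeries.C 2 * (PowerSeries.X + PowerSeries.C (x + hf)) := by
  have h2 : (PowerSeries.C 2 : PowerSeries E) = 2 := map_ofNat PowerSeries.C 2
  have h1 : (PowerSeries.C hf * 2 : PowerSeries E) = 1 := by
    rw [← h2, ← map_mul, hh, map_one]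
  rw [h2, map_add]
  linear_combination -h1

theorem rhs_eq (x : E) :
    (-(PowerSeries.C hf * (3 * (PowerSeries.X + PowerSeries.C x) + 2)) : PowerSeries E) =
      -(PowerSeries.C hf * (PowerSeries.C 3 * (PowerSeries.X + PowerSeries.C x) +
        PowerSeries.C 2)) := by
  have h2 : (PowerSeries.C 2 : PowerSeries E) = 2 := map_ofNat PowerSeries.C 2
  have h3 : (PowerSeries.C 3 : PowerSeries E) = 3 := map_ofNat PowerSeries.C 3
  rw [h2, h3]

theorem ev_rhs (h x : E) :
    ev h (-(PowerSeries.C hf * (3 * (PowerSeries.X + PowerSeries.C x) + 2)) : PowerSeries E) =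
      -(hf * (3 * (x + h) + 2)) := by
  rw [rhs_eq, ev_neg, ev_C_mul, ev_add, ev_C_mul, ev_pt, ev_C]

theorem int_rhs (hfO : hf ∈ O) {x : E} (hx : x ∈ O) :
    IntS O (-(PowerSeries.C hf * (3 * (PowerSeries.X + PowerSeries.C x) + 2)) :
      PowerSeries E) := by
  rw [rhs_eq]
  exact (IntS.mul (IntS.C hfO) ((IntS.mul (IntS.C (ofNat_mem O 3)) (IntS.ptC hx)).add
    (IntS.C (ofNat_mem O 2)))).neg

/-- germs of the star chain of `ψ` are integral -/
theorem psi_star_int (hU : USmall O p) (hh : hf * 2 = 1) (hfO : hf ∈ O)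
    {s : ℕ → PowerSeries E}
    (hs0 : (PowerSeries.X + PowerSeries.C hf) ^ 3 * s 0 =
      -(PowerSeries.C hf * (3 * (PowerSeries.X + PowerSeries.C (-hf)) + 2)))
    (hs : ∀ l : ℕ, (PowerSeries.X + PowerSeries.C ((l : E) + 1 + hf)) ^ 3 * s (l + 1) +
      (2 * (PowerSeries.X + PowerSeries.C ((l : E) + hf)) + 1) ^ 3 * s l =
      -(PowerSeries.C hf * (3 * (PowerSeries.X + PowerSeries.C ((l : E) + hf)) + 2))) :
    ∀ l : ℕ, 2 * l + 1 < p → IntS O (s l) := by
  intro l
  induction l with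
  | zero =>
    intro hl
    refine IntS.of_mul ((IntS.ptC hfO).pow 3) ?_ ?_ (x := s 0)
    · rw [coeff_zero_pt_pow]
      have := unit_half hU hh 0 hl
      simpa using unit_pow this 3
    · rw [hs0]; exact int_rhs hfO (O.neg_mem hfO)
  | succ l ih =>
    intro hl
    have hlO : ((l : E) + hf) ∈ O := O.add_mem (natCast_mem O l) hfO
    have hl1O : ((l : E) + 1 + hf) ∈ O := O.add_mem (O.add_mem (natCast_mem O l) O.one_mem) hfO
    refine IntS.of_mul ((IntS.ptC hl1O).pow 3) ?_ ?_ (x := s (l + 1))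
    · rw [coeff_zero_pt_pow]
      have := unit_half hU hh (l + 1) hl
      push_cast at this
      exact unit_pow this 3
    · have e : (PowerSeries.X + PowerSeries.C ((l : E) + 1 + hf)) ^ 3 * s (l + 1) =
          -(PowerSeries.C hf * (3 * (PowerSeries.X + PowerSeries.C ((l : E) + hf)) + 2)) +
          -((2 * (PowerSeries.X + PowerSeries.C ((l : E) + hf)) + 1) ^ 3 * s l) := by
        rw [← hs l]; ring
      rw [e, two_pt hh]
      exact (int_rhs hfO hlO).add (((IntS.mul (IntS.C (ofNat_mem O 2))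
        (IntS.ptC (O.add_mem hlO hfO))).pow 3).mul (ih (by omega))).neg

/-- `ev` of `(2x+1)^3 f` -/
theorem ev_two_pt_cube (hfO : hf ∈ O) (hh : hf * 2 = 1) {x : E} (hx : x ∈ O)
    {f : PowerSeries E} (hfi : IntS O f) :
    PO O p 3 (ev ((p : E) * hf) ((2 * (PowerSeries.X + PowerSeries.C x) + 1) ^ 3 * f) -
      (2 * (x + (p : E) * hf) + 1) ^ 3 * ev ((p : E) * hf) f) := by
  have h1 := (ev_pt_pow_mul (po_h (p := p) hfO) (O.add_mem hx hfO) hfi 3).mul_left
    (c := 8) (ofNat_mem O 8)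
  have h8 : (PowerSeries.C 8 : PowerSeries E) = PowerSeries.C 2 ^ 3 := by
    rw [← map_pow]; norm_num
  rw [two_pt hh, mul_pow, ← h8, mul_assoc, ev_C_mul]
  have e : 8 * ev ((p : E) * hf) ((PowerSeries.X + PowerSeries.C (x + hf)) ^ 3 * f) -
      (2 * (x + (p : E) * hf) + 1) ^ 3 * ev ((p : E) * hf) f =
      8 * (ev ((p : E) * hf) ((PowerSeries.X + PowerSeries.C (x + hf)) ^ 3 * f) -
      (x + hf + (p : E) * hf) ^ 3 * ev ((p : E) * hf) f) := by
    have e1 : (2 * (x + (p : E) * hf) + 1) = 2 * (x + hf + (p : E) * hf) := by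
      linear_combination -hh
    rw [e1]; ring
  rw [e]; exact h1

/-- **the star congruence for `ψ`** : `ψ(N+1+l) = ψ_*(l + 1/2 + p/2)` mod `p^3` -/
theorem psi_star (hp : p = 2 * N + 1) (hU : USmall O p) (hh : hf * 2 = 1) (hfO : hf ∈ O)
    {s : ℕ → PowerSeries E}
    (hs0 : (PowerSeries.X + PowerSeries.C hf) ^ 3 * s 0 =
      -(PowerSeries.C hf * (3 * (PowerSeries.X + PowerSeries.C (-hf)) + 2)))
    (hs : ∀ l : ℕ, (PowerSeries.X + PowerSeries.C ((l : E) + 1 + hf)) ^ 3 * s (l + 1) +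
      (2 * (PowerSeries.X + PowerSeries.C ((l : E) + hf)) + 1) ^ 3 * s l =
      -(PowerSeries.C hf * (3 * (PowerSeries.X + PowerSeries.C ((l : E) + hf)) + 2)))
    {a : ℕ → E} (haN : a N ∈ O)
    (ha : ∀ n : ℕ, N ≤ n → ((n : E) + 1) ^ 3 * a (n + 1) + (2 * (n : E) + 1) ^ 3 * a n =
      -(hf * (3 * (n : E) + 2))) :
    ∀ l : ℕ, N + 1 + l < p → PO O p 3 (a (N + 1 + l) - ev ((p : E) * hf) (s l)) := by
  have hph := po_h (p := p) hfO
  intro l
  induction l with
  | zero =>
    intro hl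
    have hint := psi_star_int hU hh hfO hs0 hs 0 (by omega)
    obtain ⟨w, hw, hw1⟩ := hU (N + 1) (by omega) (by omega)
    have h1 := ev_pt_pow_mul hph hfO hint 3
    rw [hs0, ev_rhs] at h1
    have h2 := ha N le_rfl
    have hsite := site_add hp hh (0 : E)
    have h3 : PO O p 3 ((2 * (N : E) + 1) ^ 3 * a N) := by
      refine ⟨a N, haN, ?_⟩
      rw [hp]; push_cast; ring
    refine PO.cancel (a := ((N : E) + 1) ^ 3) (w := w ^ 3) (O.pow_mem hw 3) ?_ ?_
    · rw [← mul_pow]; push_cast at hw1; rw [hw1, one_pow]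
    · rw [add_zero]
      have e : ((N : E) + 1) ^ 3 * (a (N + 1) - ev ((p : E) * hf) (s 0)) =
          (-(hf * (3 * (-hf + (p : E) * hf) + 2)) -
            (hf + (p : E) * hf) ^ 3 * ev ((p : E) * hf) (s 0)) -
          (2 * (N : E) + 1) ^ 3 * a N := by
        have e1 : hf + (p : E) * hf = (N : E) + 1 := by linear_combination hsite
        have e2 : -hf + (p : E) * hf = (N : E) := by linear_combination e1 - hh
        rw [e1, e2]
        linear_combination h2
      rw [e]
      exact h1.sub h3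
  | succ l ih =>
    intro hl
    have hD := ih (by omega)
    have hint := psi_star_int hU hh hfO hs0 hs l (by omega)
    have hint1 := psi_star_int hU hh hfO hs0 hs (l + 1) (by omega)
    obtain ⟨w, hw, hw1⟩ := hU (N + 1 + l + 1) (by omega) (by omega)
    have hlO : ((l : E) + hf) ∈ O := O.add_mem (natCast_mem O l) hfO
    have hl1O : ((l : E) + 1 + hf) ∈ O := O.add_mem (O.add_mem (natCast_mem O l) O.one_mem) hfO
    have h1 := ev_pt_pow_mul hph hl1O hint1 3
    have h2 := ev_two_pt_cube (p := p) hfO hh hlO hint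
    have h3 := ha (N + 1 + l) (by omega)
    have h4 := congrArg (ev ((p : E) * hf)) (hs l)
    rw [ev_add, ev_rhs] at h4
    have hsite := site_add hp hh (l : E)
    have hn : (((N + 1 + l : ℕ)) : E) = (l : E) + hf + (p : E) * hf := by
      push_cast; linear_combination -hsite
    rw [hn] at h3
    refine PO.cancel (a := (((N + 1 + l + 1 : ℕ)) : E) ^ 3) (w := w ^ 3) (O.pow_mem hw 3) ?_ ?_
    · rw [← mul_pow, hw1, one_pow]
    · have hcO : (-(2 * ((l : E) + hf + (p : E) * hf) + 1) ^ 3) ∈ O :=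
        O.neg_mem (O.pow_mem (O.add_mem (O.mul_mem (ofNat_mem O 2)
          (O.add_mem hlO hph.mem)) O.one_mem) 3)
      have h5 := (h1.add h2).add (hD.mul_left hcO)
      have e : (((N + 1 + l + 1 : ℕ)) : E) ^ 3 *
          (a (N + 1 + (l + 1)) - ev ((p : E) * hf) (s (l + 1))) =
          (ev ((p : E) * hf) ((PowerSeries.X + PowerSeries.C ((l : E) + 1 + hf)) ^ 3 * s (l + 1)) -
            ((l : E) + 1 + hf + (p : E) * hf) ^ 3 * ev ((p : E) * hf) (s (l + 1))) +
          (ev ((p : E) * hf) ((2 * (PowerSeries.X + PowerSeries.C ((l : E) + hf)) + 1) ^ 3 * s l) -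
            (2 * ((l : E) + hf + (p : E) * hf) + 1) ^ 3 * ev ((p : E) * hf) (s l)) +
          (-(2 * ((l : E) + hf + (p : E) * hf) + 1) ^ 3) *
            (a (N + 1 + l) - ev ((p : E) * hf) (s l)) := by
        have e1 : (((N + 1 + l + 1 : ℕ)) : E) = (l : E) + hf + (p : E) * hf + 1 := by
          rw [Nat.cast_add, hn]; norm_num
        have e2 : N + 1 + (l + 1) = N + 1 + l + 1 := by ring
        rw [e1, e2]
        linear_combination h3 - h4
      rw [e]; exact h5

end

end Crest.Agent.R006.P4G226
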