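import Crest.Agent.R006.P4G2_226

/-!
Row 6, block P4: the congruences of the chain of `g` (`p = 2N+1` prime, `hf = 1/2`, `h = p/2`).
-/

set_option autoImplicit false

namespace Crest.Agent.R006.P4G226

open Finset

/-- `(1·3·…·(2N-1))^2 = (2·4·…·2N)^2` mod `p = 2N+1` -/
theorem dvd_oddEven (N : ℕ) :
    ((2 * N + 1 : ℕ) : ℤ) ∣ (∏ i ∈ range N, (2 * (i : ℤ) + 1)) ^ 2 -
      (∏ i ∈ range N, (2 * (i : ℤ) + 2)) ^ 2 := by
  have h1 : ∏ i ∈ range N, (2 * (i : ℤ) + 1) = ∏ i ∈ range N, (2 * ((N - 1 - i : ℕ) : ℤ) + 1) :=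
    (Finset.prod_range_reflect (fun i : ℕ => (2 * (i : ℤ) + 1)) N).symm
  have h2 : ∀ i ∈ range N, (((2 * ((N - 1 - i : ℕ) : ℤ) + 1 : ℤ)) : ZMod (2 * N + 1)) =
      -(((2 * (i : ℤ) + 2 : ℤ)) : ZMod (2 * N + 1)) := by
    intro i hi
    rw [Finset.mem_range] at hi
    have h3 : ((N - 1 - i : ℕ) : ℤ) = (N : ℤ) - 1 - i := by omega
    have h4 : (((2 * N + 1 : ℕ) : ℤ) : ZMod (2 * N + 1)) = 0 := by
      rw [Int.cast_natCast, ZMod.natCast_self]
    rw [h3]
    push_cast at h4 ⊢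
    linear_combination h4
  rw [← ZMod.intCast_zmod_eq_zero_iff_dvd, h1]
  rw [Int.cast_sub, Int.cast_pow, Int.cast_pow, Int.cast_prod, Int.cast_prod,
    Finset.prod_congr rfl h2, Finset.prod_neg, mul_pow, ← pow_mul, mul_comm _ 2, pow_mul,
    neg_one_sq, one_pow, one_mul, sub_self]

variable {E : Type*} [CommRing E] {O : Subring E} {p N : ℕ} {hf : E}

theorem unit_prod {ι : Type*} (s : Finset ι) (f : ι → E)
    (h : ∀ i ∈ s, ∃ w ∈ O, w * f i = 1) : ∃ w ∈ O, w * ∏ i ∈ s, f i = 1 := by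
  classical
  induction s using Finset.induction_on with
  | empty => exact ⟨1, O.one_mem, by simp⟩
  | insert a s ha ih =>
    obtain ⟨w, hw, hw1⟩ := ih fun i hi => h i (Finset.mem_insert_of_mem hi)
    obtain ⟨v, hv, hv1⟩ := h a (Finset.mem_insert_self _ _)
    refine ⟨v * w, O.mul_mem hv hw, ?_⟩
    rw [Finset.prod_insert ha]
    linear_combination (w * ∏ i ∈ s, f i) * hv1 + hw1

/-- `g(n) (2·4·…·2n)^2 = (1·3·…·(2n-1))^2` -/
theorem g_prod (hh : hf * 2 = 1) {b : ℕ → E} (hb0 : b 0 = 1)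
    (hb : ∀ n : ℕ, ((n : E) + 1) ^ 2 * b (n + 1) = ((n : E) + hf) ^ 2 * b n) (n : ℕ) :
    (∏ i ∈ range n, (2 * (i : E) + 2)) ^ 2 * b n = (∏ i ∈ range n, (2 * (i : E) + 1)) ^ 2 := by
  induction n with
  | zero => simp [hb0]
  | succ n ih =>
    rw [Finset.prod_range_succ, Finset.prod_range_succ, mul_pow, mul_pow, ← ih]
    have e : (2 * (n : E) + 1) = 2 * ((n : E) + hf) := by linear_combination -hh
    rw [e]
    linear_combination 4 * (∏ i ∈ range n, (2 * (i : E) + 2)) ^ 2 * hb n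

/-- `g((p-1)/2) = 1` mod `p` -/
theorem g_mid (hp : p = 2 * N + 1) (hU : USmall O p) (hh : hf * 2 = 1) {b : ℕ → E}
    (hb0 : b 0 = 1)
    (hb : ∀ n : ℕ, ((n : E) + 1) ^ 2 * b (n + 1) = ((n : E) + hf) ^ 2 * b n) :
    PO O p 1 (b N - 1) := by
  have h1 := g_prod hh hb0 hb N
  obtain ⟨k, hk⟩ := dvd_oddEven N
  have h2 := congrArg (fun z : ℤ => (z : E)) hk
  push_cast at h2
  obtain ⟨w, hw, hw1⟩ := unit_prod (O := O) (range N) (fun i : ℕ => (2 * (i : E) + 2)) (by
    intro i hi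
    rw [Finset.mem_range] at hi
    obtain ⟨w, hw, hw1⟩ := hU (2 * i + 2) (by omega) (by omega)
    exact ⟨w, hw, by push_cast at hw1; exact hw1⟩)
  refine PO.cancel (a := (∏ i ∈ range N, (2 * (i : E) + 2)) ^ 2) (w := w ^ 2) (O.pow_mem hw 2)
    (by rw [← mul_pow, hw1, one_pow]) ?_
  refine ⟨(k : E), intCast_mem O k, ?_⟩
  rw [pow_one, hp, mul_sub, h1]
  push_cast
  linear_combination h2

/-- values of the chain of `g` are integral for `n < p` -/
theorem g_int (hU : USmall O p) (hfO : hf ∈ O) {b : ℕ → E} (hb0 : b 0 = 1)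
    (hb : ∀ n : ℕ, ((n : E) + 1) ^ 2 * b (n + 1) = ((n : E) + hf) ^ 2 * b n) :
    ∀ n : ℕ, n < p → b n ∈ O := by
  intro n
  induction n with
  | zero => intro _; rw [hb0]; exact O.one_mem
  | succ n ih =>
    intro hn
    obtain ⟨w, hw, hw1⟩ := hU (n + 1) (by omega) hn
    push_cast at hw1
    have : b (n + 1) = w ^ 2 * (((n : E) + hf) ^ 2 * b n) := by
      rw [← hb n, ← mul_assoc, ← mul_pow, hw1, one_pow, one_mul]
    rw [this]
    exact O.mul_mem (O.pow_mem hw 2) (O.mul_mem (O.pow_mem (O.add_mem (natCast_mem O n) hfO) 2)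
      (ih (by omega)))

/-- **the half congruence** : `g(N-m) = g(m)` mod `p` for `m ≤ N` -/
theorem g_half (hp : p = 2 * N + 1) (hU : USmall O p) (hh : hf * 2 = 1) (hfO : hf ∈ O)
    {b : ℕ → E} (hb0 : b 0 = 1)
    (hb : ∀ n : ℕ, ((n : E) + 1) ^ 2 * b (n + 1) = ((n : E) + hf) ^ 2 * b n) :
    ∀ m : ℕ, m ≤ N → PO O p 1 (b (N - m) - b m) := by
  intro m
  induction m with
  | zero => intro _; rw [Nat.sub_zero, hb0]; exact g_mid hp hU hh hb0 hb
  | succ m ih =>
    intro hm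
    have hD := ih (by omega)
    have hI := g_int hU hfO hb0 hb (N - (m + 1)) (by omega)
    have hI2 := g_int hU hfO hb0 hb (N - m) (by omega)
    have h1 := hb (N - (m + 1))
    have h2 := hb m
    have e1 : N - (m + 1) + 1 = N - m := by omega
    have e2 : ((N - (m + 1) : ℕ) : E) = (N : E) - (m + 1) := by
      rw [Nat.cast_sub hm]; push_cast; ring
    rw [e1, e2] at h1
    obtain ⟨w, hw, hw1⟩ := hU (2 * m + 2) (by omega) (by omega)
    push_cast at hw1
    have hpE : (p : E) = 2 * (N : E) + 1 := by rw [hp]; push_cast; ring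
    have hmO : (m : E) ∈ O := natCast_mem O m
    refine PO.cancel (a := (2 * (m : E) + 2) ^ 2) (w := w ^ 2) (O.pow_mem hw 2)
      (by rw [← mul_pow, hw1, one_pow]) ?_
    -- (2m+2)^2 b(N-m-1) = (2m+1)^2 b(N-m) mod p
    have h3 : PO O p 1 ((2 * (m : E) + 2) ^ 2 * b (N - (m + 1)) -
        (2 * (m : E) + 1) ^ 2 * b (N - m)) := by
      refine ⟨(2 * (2 * (m : E) + 2) - (p : E)) * b (N - (m + 1)) -
        (2 * (2 * (m : E) + 1) - (p : E)) * b (N - m), ?_, ?_⟩
      · refine O.sub_mem (O.mul_mem (O.sub_mem (O.mul_mem (ofNat_mem O 2) (O.add_mem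
          (O.mul_mem (ofNat_mem O 2) hmO) (ofNat_mem O 2))) (natCast_mem O p)) hI)
          (O.mul_mem (O.sub_mem (O.mul_mem (ofNat_mem O 2) (O.add_mem
          (O.mul_mem (ofNat_mem O 2) hmO) O.one_mem)) (natCast_mem O p)) hI2)
      · rw [pow_one, hpE]
        -- multiply h1 by 4
        have e4 : (2 * ((N : E) - (m + 1)) + 1) ^ 2 = 4 * ((N : E) - (m + 1) + hf) ^ 2 := by
          have : (2 * ((N : E) - (m + 1)) + 1) = 2 * ((N : E) - (m + 1) + hf) := by
            linear_combination -hh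
          rw [this]; ring
        linear_combination (-4) * h1 + (b (N - (m + 1))) * e4
    have h4 : (2 * (m : E) + 2) ^ 2 * b (m + 1) = (2 * (m : E) + 1) ^ 2 * b m := by
      have : (2 * (m : E) + 1) = 2 * ((m : E) + hf) := by linear_combination -hh
      rw [this]; linear_combination 4 * h2
    have h5 := h3.add (hD.mul_left (c := (2 * (m : E) + 1) ^ 2)
      (O.pow_mem (O.add_mem (O.mul_mem (ofNat_mem O 2) hmO) O.one_mem) 2))
    have e5 : (2 * (m : E) + 2) ^ 2 * (b (N - (m + 1)) - b (m + 1)) =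
        (2 * (m : E) + 2) ^ 2 * b (N - (m + 1)) - (2 * (m : E) + 1) ^ 2 * b (N - m) +
        (2 * (m : E) + 1) ^ 2 * (b (N - m) - b m) := by
      linear_combination -h4
    rw [e5]; exact h5

/-- germs of the half chain of `g` at `l + 1/2` are integral -/
theorem g_star_int (hU : USmall O p) (hh : hf * 2 = 1) (hfO : hf ∈ O)
    {t : ℕ → PowerSeries E}
    (ht0 : (PowerSeries.X + PowerSeries.C hf) ^ 2 * t 0 = PowerSeries.X ^ 2)
    (ht : ∀ l : ℕ, (PowerSeries.X + PowerSeries.C ((l : E) + 1 + hf)) ^ 2 * t (l + 1) =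
      (PowerSeries.X + PowerSeries.C ((l : E) + 1)) ^ 2 * t l) :
    ∀ l : ℕ, 2 * l + 1 < p → IntS O (t l) := by
  intro l
  induction l with
  | zero =>
    intro hl
    refine IntS.of_mul ((IntS.ptC hfO).pow 2) ?_ ?_ (x := t 0)
    · rw [coeff_zero_pt_pow]
      have := unit_half hU hh 0 hl
      simpa using unit_pow this 2
    · rw [ht0]; exact IntS.X.pow 2
  | succ l ih =>
    intro hl
    have hl1O : ((l : E) + 1 + hf) ∈ O := O.add_mem (O.add_mem (natCast_mem O l) O.one_mem) hfO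
    refine IntS.of_mul ((IntS.ptC hl1O).pow 2) ?_ ?_ (x := t (l + 1))
    · rw [coeff_zero_pt_pow]
      have := unit_half hU hh (l + 1) hl
      push_cast at this
      exact unit_pow this 2
    · rw [ht l]
      exact ((IntS.ptC (O.add_mem (natCast_mem O l) O.one_mem)).pow 2).mul (ih (by omega))

theorem ev_X_sq (h : E) : ev h (PowerSeries.X ^ 2 : PowerSeries E) = h ^ 2 := by
  unfold ev
  rw [PowerSeries.coeff_X_pow, PowerSeries.coeff_X_pow, PowerSeries.coeff_X_pow]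
  simp

/-- **the star congruence for `g`** : `g(N+1+l) = g^-(l + 1/2 + p/2)` mod `p^3` -/
theorem g_star (hp : p = 2 * N + 1) (hU : USmall O p) (hh : hf * 2 = 1) (hfO : hf ∈ O)
    {t : ℕ → PowerSeries E}
    (ht0 : (PowerSeries.X + PowerSeries.C hf) ^ 2 * t 0 = PowerSeries.X ^ 2)
    (ht : ∀ l : ℕ, (PowerSeries.X + PowerSeries.C ((l : E) + 1 + hf)) ^ 2 * t (l + 1) =
      (PowerSeries.X + PowerSeries.C ((l : E) + 1)) ^ 2 * t l)
    {b : ℕ → E} (hb0 : b 0 = 1)
    (hb : ∀ n : ℕ, ((n : E) + 1) ^ 2 * b (n + 1) = ((n : E) + hf) ^ 2 * b n) :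
    ∀ l : ℕ, N + 1 + l < p → PO O p 3 (b (N + 1 + l) - ev ((p : E) * hf) (t l)) := by
  have hph := po_h (p := p) hfO
  intro l
  induction l with
  | zero =>
    intro hl
    have hint := g_star_int hU hh hfO ht0 ht 0 (by omega)
    obtain ⟨w, hw, hw1⟩ := hU (N + 1) (by omega) (by omega)
    have h1 := ev_pt_pow_mul hph hfO hint 2
    rw [ht0, ev_X_sq] at h1
    have h2 := hb N
    have hsite := site_add hp hh (0 : E)
    have hmid := g_mid hp hU hh hb0 hb
    have h3 : PO O p 3 (((p : E) * hf) ^ 2 * (b N - 1)) := by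
      have := (hph.pow (n := 2)).mul hmid
      simpa using this
    refine PO.cancel (a := ((N : E) + 1) ^ 2) (w := w ^ 2) (O.pow_mem hw 2) ?_ ?_
    · rw [← mul_pow]; push_cast at hw1; rw [hw1, one_pow]
    · rw [add_zero]
      have e : ((N : E) + 1) ^ 2 * (b (N + 1) - ev ((p : E) * hf) (t 0)) =
          (((p : E) * hf) ^ 2 - (hf + (p : E) * hf) ^ 2 * ev ((p : E) * hf) (t 0)) +
          ((p : E) * hf) ^ 2 * (b N - 1) := by
        have e1 : hf + (p : E) * hf = (N : E) + 1 := by linear_combination hsite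
        have e2 : (N : E) + hf = (p : E) * hf := by linear_combination hh - e1
        rw [e2] at h2
        rw [e1]
        linear_combination h2
      rw [e]
      exact h1.add h3
  | succ l ih =>
    intro hl
    have hD := ih (by omega)
    have hint := g_star_int hU hh hfO ht0 ht l (by omega)
    have hint1 := g_star_int hU hh hfO ht0 ht (l + 1) (by omega)
    obtain ⟨w, hw, hw1⟩ := hU (N + 1 + l + 1) (by omega) (by omega)
    have hl0O : ((l : E) + 1) ∈ O := O.add_mem (natCast_mem O l) O.one_mem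
    have hl1O : ((l : E) + 1 + hf) ∈ O := O.add_mem hl0O hfO
    have h1 := ev_pt_pow_mul hph hl1O hint1 2
    have h2 := ev_pt_pow_mul hph hl0O hint 2
    have h3 := hb (N + 1 + l)
    have h4 := congrArg (ev ((p : E) * hf)) (ht l)
    have hsite := site_add hp hh (l : E)
    have hn : (((N + 1 + l : ℕ)) : E) = (l : E) + hf + (p : E) * hf := by
      push_cast; linear_combination -hsite
    rw [hn] at h3
    refine PO.cancel (a := (((N + 1 + l + 1 : ℕ)) : E) ^ 2) (w := w ^ 2) (O.pow_mem hw 2) ?_ ?_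
    · rw [← mul_pow, hw1, one_pow]
    · have hcO : ((l : E) + 1 + (p : E) * hf) ^ 2 ∈ O :=
        O.pow_mem (O.add_mem hl0O hph.mem) 2
      have h5 := (h1.sub h2).add (hD.mul_left hcO)
      have e : (((N + 1 + l + 1 : ℕ)) : E) ^ 2 *
          (b (N + 1 + (l + 1)) - ev ((p : E) * hf) (t (l + 1))) =
          (ev ((p : E) * hf) ((PowerSeries.X + PowerSeries.C ((l : E) + 1 + hf)) ^ 2 * t (l + 1)) -
            ((l : E) + 1 + hf + (p : E) * hf) ^ 2 * ev ((p : E) * hf) (t (l + 1))) -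
          (ev ((p : E) * hf) ((PowerSeries.X + PowerSeries.C ((l : E) + 1)) ^ 2 * t l) -
            ((l : E) + 1 + (p : E) * hf) ^ 2 * ev ((p : E) * hf) (t l)) +
          ((l : E) + 1 + (p : E) * hf) ^ 2 *
            (b (N + 1 + l) - ev ((p : E) * hf) (t l)) := by
        have e1 : (((N + 1 + l + 1 : ℕ)) : E) = (l : E) + hf + (p : E) * hf + 1 := by
          rw [Nat.cast_add, hn]; norm_num
        have e2 : N + 1 + (l + 1) = N + 1 + l + 1 := by ring
        have e3 : (l : E) + hf + (p : E) * hf + hf = (l : E) + 1 + (p : E) * hf := by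
          linear_combination hh
        rw [e3] at h3
        rw [e1, e2]
        linear_combination h3 - h4
      rw [e]; exact h5

/-- only the coefficient of `ε^2` counts: `g(N+1+l) = (p/2)^2 c_l` mod `p^3` -/
theorem g_star_coeff (hp : p = 2 * N + 1) (hU : USmall O p) (hh : hf * 2 = 1) (hfO : hf ∈ O)
    {t : ℕ → PowerSeries E}
    (ht0 : (PowerSeries.X + PowerSeries.C hf) ^ 2 * t 0 = PowerSeries.X ^ 2)
    (ht : ∀ l : ℕ, (PowerSeries.X + PowerSeries.C ((l : E) + 1 + hf)) ^ 2 * t (l + 1) =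
      (PowerSeries.X + PowerSeries.C ((l : E) + 1)) ^ 2 * t l)
    {b : ℕ → E} (hb0 : b 0 = 1)
    (hb : ∀ n : ℕ, ((n : E) + 1) ^ 2 * b (n + 1) = ((n : E) + hf) ^ 2 * b n)
    {l : ℕ} (hl : N + 1 + l < p) (h0 : PowerSeries.coeff 0 (t l) = 0)
    (h1 : PowerSeries.coeff 1 (t l) = 0) :
    PO O p 3 (b (N + 1 + l) - ((p : E) * hf) ^ 2 * PowerSeries.coeff 2 (t l)) := by
  have h := g_star hp hU hh hfO ht0 ht hb0 hb l hl
  unfold ev at h
  rw [h0, h1] at h
  simpa using h

end Crest.Agent.R006.P4G226
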