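import Crest.Agent.R006.P4Row_538

/-!
# Row 6, block P4: jets (helper305)

`jetFilt F` : the filtration `coeff_j ∈ F_(v-j)` of `A⟦X⟧` (`X = ε` has level `1`, like `p`).
Valuations of all the coefficients of a jet row (`z = x - c = C z0 + X`):
* `coeff_zpow`, `zpow_eq_zero`, `zpow_mem` : `coeff_j (z^s) = C(s,j) z0^(s-j)`;
* `own_mem` : `coeff_j (z^l φ - ∑_{u<l} a_u z^(l-1-u))` from the levels of `φ` and of the moments.
-/

set_option autoImplicit false
set_option linter.unusedSectionVars false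

namespace Crest.Agent.R006.P4Jet305

open Finset
open Crest.Agent.R006.P4Chain657

variable {A : Type*} [CommRing A]

/-- the filtration of the jets: `coeff_j ∈ F_(v-j)` -/
def jetFilt (F : Filt A) : Filt (PowerSeries A) where
  mem v f := ∀ j : ℕ, F.mem (v - j) (PowerSeries.coeff j f)
  zero v j := by rw [map_zero]; exact F.zero _
  one j := by
    rw [PowerSeries.coeff_one]
    split_ifs with h
    · subst h; simpa using F.one
    · exact F.zero _
  add h1 h2 j := by rw [map_add]; exact F.add (h1 j) (h2 j)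
  neg h j := by rw [map_neg]; exact F.neg (h j)
  mul := by
    intro v w a b h1 h2 j
    rw [PowerSeries.coeff_mul]
    refine F.sum _ _ fun q hq => ?_
    have hq' := Finset.HasAntidiagonal.mem_antidiagonal.mp hq
    refine F.mono (F.mul (h1 q.1) (h2 q.2)) (le_of_eq ?_)
    have : (j : ℤ) = (q.1 : ℤ) + (q.2 : ℤ) := by exact_mod_cast hq'.symm
    rw [this]; ring
  mono h1 hw j := F.mono (h1 j) (by linarith)

variable (F : Filt A)

theorem jet_iff {v : ℤ} {f : PowerSeries A} :
    (jetFilt F).mem v f ↔ ∀ j : ℕ, F.mem (v - j) (PowerSeries.coeff j f) := Iff.rfl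

theorem jet_C {v : ℤ} {a : A} (h : F.mem v a) : (jetFilt F).mem v (PowerSeries.C a) := by
  intro j
  rw [PowerSeries.coeff_C]
  split_ifs with hj
  · subst hj; simpa using h
  · exact F.zero _

theorem jet_C_iff {v : ℤ} {a : A} : (jetFilt F).mem v (PowerSeries.C a) ↔ F.mem v a := by
  refine ⟨fun h => ?_, jet_C F⟩
  have := h 0
  simpa using this

theorem jet_X : (jetFilt F).mem 1 (PowerSeries.X : PowerSeries A) := by
  intro j
  rw [PowerSeries.coeff_X]
  split_ifs with hj
  · subst hj; simpa using F.one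
  · exact F.zero _

theorem jet_X_pow (n : ℕ) : (jetFilt F).mem n ((PowerSeries.X : PowerSeries A) ^ n) := by
  intro j
  rw [PowerSeries.coeff_X_pow]
  split_ifs with hj
  · subst hj; simpa using F.one
  · exact F.zero _

/-- powers -/
theorem Filt.pow {B : Type*} [CommRing B] (G : Filt B) {v : ℤ} {a : B} (h : G.mem v a) (n : ℕ) :
    G.mem (n * v) (a ^ n) := by
  induction n with
  | zero => simpa using G.one
  | succ n ih =>
    rw [pow_succ]
    refine G.mono (G.mul ih h) (le_of_eq ?_)
    push_cast; ring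

theorem Filt.pow0 {B : Type*} [CommRing B] (G : Filt B) {a : B} (h : G.mem 0 a) (n : ℕ) :
    G.mem 0 (a ^ n) := by
  have := Filt.pow G h n
  simpa using this

/-- the local coordinate `z = z0 + ε` -/
noncomputable def zz (z0 : A) : PowerSeries A := PowerSeries.C z0 + PowerSeries.X

theorem coeff_zpow (z0 : A) (s j : ℕ) :
    PowerSeries.coeff j (zz z0 ^ s) = (s.choose j : A) * z0 ^ (s - j) := by
  rw [zz, add_comm, add_pow, map_sum]
  rcases le_or_gt j s with h | h
  · rw [Finset.sum_eq_single j]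
    · rw [← map_pow, mul_assoc, ← map_natCast (PowerSeries.C (R := A)) (s.choose j), ← map_mul,
        PowerSeries.coeff_mul_C, PowerSeries.coeff_X_pow, if_pos rfl]
      ring
    · intro k _ hk
      rw [← map_pow, mul_assoc, ← map_natCast (PowerSeries.C (R := A)) (s.choose k), ← map_mul,
        PowerSeries.coeff_mul_C, PowerSeries.coeff_X_pow, if_neg (Ne.symm hk), zero_mul]
    · intro h'; exact absurd (Finset.mem_range.mpr (by omega)) h'
  · rw [Nat.choose_eq_zero_of_lt h, Nat.cast_zero, zero_mul]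
    refine Finset.sum_eq_zero fun k hk => ?_
    have hk' := Finset.mem_range.mp hk
    rw [← map_pow, mul_assoc, ← map_natCast (PowerSeries.C (R := A)) (s.choose k), ← map_mul,
        PowerSeries.coeff_mul_C, PowerSeries.coeff_X_pow, if_neg (by omega), zero_mul]

/-- a jet of order `j` of `z^s` vanishes for `s < j` -/
theorem zpow_eq_zero (z0 : A) {s j : ℕ} (h : s < j) : PowerSeries.coeff j (zz z0 ^ s) = 0 := by
  rw [coeff_zpow, Nat.choose_eq_zero_of_lt h, Nat.cast_zero, zero_mul]

/-- `z` has level `1` if `z0` has -/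
theorem zz_mem {z0 : A} (h : F.mem 1 z0) : (jetFilt F).mem 1 (zz z0) :=
  (jetFilt F).add (jet_C F h) (jet_X F)

theorem zpow_mem' {z0 : A} (h : F.mem 1 z0) (s : ℕ) : (jetFilt F).mem s (zz z0 ^ s) := by
  simpa using Filt.pow (jetFilt F) (zz_mem F h) s

/-- `coeff_j (z^s) ∈ F_(s-j)` and `∈ F_0` -/
theorem zpow_mem {z0 : A} (h : F.mem 1 z0) (s j : ℕ) :
    F.mem (max 0 ((s : ℤ) - j)) (PowerSeries.coeff j (zz z0 ^ s)) := by
  rcases le_or_gt j s with h1 | h1
  · rw [max_eq_right (by omega)]
    exact zpow_mem' F h s j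
  · rw [zpow_eq_zero z0 h1]; exact F.zero _

/-- coefficient of a product with a constant series -/
theorem coeff_C_mul' (a : A) (f : PowerSeries A) (j : ℕ) :
    PowerSeries.coeff j (PowerSeries.C a * f) = a * PowerSeries.coeff j f :=
  PowerSeries.coeff_C_mul j f a

/-- the own class coefficient of `R^[l](c)` in the row: `z^l φ - ∑_{u<l} a_u z^(l-1-u)` -/
noncomputable def own (φ : PowerSeries A) (a : ℕ → A) (z0 : A) (l : ℕ) : PowerSeries A :=
  zz z0 ^ l * φ - ∑ u ∈ range l, PowerSeries.C (a u) * zz z0 ^ (l - 1 - u)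

/-- level form: germ `φ` of level `e`, moments `a_u` of level `≥ u + 1 + e`
(polar `e = -2`: `a_u ∈ F_(u-1)`; regular `e = 1`: `a_u ∈ F_(u+2)`): the coefficient of
`R^[l](c)` has level `l + e`, a jet of order `j` loses `j`. -/
theorem own_mem {φ : PowerSeries A} {a : ℕ → A} {z0 : A} {e : ℤ} (hz : F.mem 1 z0)
    (hφ : (jetFilt F).mem e φ) (ha : ∀ u : ℕ, F.mem (u + 1 + e) (a u)) (l : ℕ) :
    (jetFilt F).mem (l + e) (own φ a z0 l) := by
  refine (jetFilt F).sub ((jetFilt F).mul (zpow_mem' F hz l) hφ) ?_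
  refine (jetFilt F).sum _ _ fun u hu => ?_
  have hu' := Finset.mem_range.mp hu
  refine (jetFilt F).mono ((jetFilt F).mul (jet_C F (ha u)) (zpow_mem' F hz (l - 1 - u)))
    (le_of_eq ?_)
  have : ((l - 1 - u : ℕ) : ℤ) = (l : ℤ) - 1 - u := by omega
  rw [this]; ring

/-- the coefficient of `ε^j`, level form -/
theorem own_coeff_mem {φ : PowerSeries A} {a : ℕ → A} {z0 : A} {e : ℤ} (hz : F.mem 1 z0)
    (hφ : (jetFilt F).mem e φ) (ha : ∀ u : ℕ, F.mem (u + 1 + e) (a u)) (l j : ℕ) :
    F.mem (l + e - j) (PowerSeries.coeff j (own φ a z0 l)) :=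
  own_mem F hz hφ ha l j

/-- integral germ, integral moments: the coefficient is integral -/
theorem own_coeff_mem_zero {φ : PowerSeries A} {a : ℕ → A} {z0 : A} (hz : F.mem 0 z0) (j : ℕ)
    (hφ : ∀ i ≤ j, F.mem 0 (PowerSeries.coeff i φ)) (ha : ∀ u, F.mem 0 (a u)) (l : ℕ) :
    F.mem 0 (PowerSeries.coeff j (own φ a z0 l)) := by
  rw [own, map_sub, map_sum]
  have hp : ∀ s i : ℕ, F.mem 0 (PowerSeries.coeff i (zz z0 ^ s)) := by
    intro s i
    rw [coeff_zpow]
    simpa using F.mul (F.natCast (s.choose i)) (Filt.pow0 F hz (s - i))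
  refine F.sub ?_ ?_
  · rw [PowerSeries.coeff_mul]
    refine F.sum _ _ fun q hq => ?_
    have hq' := Finset.HasAntidiagonal.mem_antidiagonal.mp hq
    simpa using F.mul (hp l q.1) (hφ q.2 (by omega))
  · refine F.sum _ _ fun u _ => ?_
    rw [coeff_C_mul']
    simpa using F.mul (ha u) (hp _ _)

/-- sharper: germ with integral coefficients and moments `a_u ∈ F_((u-1)^+)` (polar class, `e = -2`)
or `a_u ∈ F_(u+2)` (regular class, `e = 1`): both bounds at once -/
theorem own_coeff_mem_max {φ : PowerSeries A} {a : ℕ → A} {z0 : A} {e : ℤ} (hz : F.mem 1 z0)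
    (hφ : (jetFilt F).mem e φ) (ha : ∀ u : ℕ, F.mem (u + 1 + e) (a u)) (j : ℕ)
    (hφ0 : ∀ i ≤ j, F.mem 0 (PowerSeries.coeff i φ)) (ha0 : ∀ u, F.mem 0 (a u)) (l : ℕ) :
    F.mem (max 0 (l + e - j)) (PowerSeries.coeff j (own φ a z0 l)) := by
  rcases le_total 0 ((l : ℤ) + e - j) with h | h
  · rw [max_eq_right h]; exact own_coeff_mem F hz hφ ha l j
  · rw [max_eq_left h]
    exact own_coeff_mem_zero F (F.mono hz (by norm_num)) j hφ0 ha0 l

/-- the `Q` part: `z^u g` -/
theorem q_coeff_mem {g : PowerSeries A} {z0 : A} {e : ℤ} (hz : F.mem 1 z0)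
    (hg : (jetFilt F).mem e g) (u j : ℕ) :
    F.mem (u + e - j) (PowerSeries.coeff j (zz z0 ^ u * g)) :=
  (jetFilt F).mul (zpow_mem' F hz u) hg j

/-- the `Q` part when the germ `g` starts at order `j`: only `u = 0` contributes -/
theorem q_coeff_eq {g : PowerSeries A} {z0 : A} {j : ℕ}
    (hg : ∀ i < j, PowerSeries.coeff i g = 0) (u : ℕ) :
    PowerSeries.coeff j (zz z0 ^ u * g) = z0 ^ u * PowerSeries.coeff j g := by
  rw [PowerSeries.coeff_mul, Finset.sum_eq_single (0, j)]
  · rw [coeff_zpow, Nat.choose_zero_right, Nat.cast_one, one_mul, Nat.sub_zero]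
  · rintro ⟨a, b⟩ hq hne
    have hq' := Finset.HasAntidiagonal.mem_antidiagonal.mp hq
    simp only at hq'
    have hb : b < j := by
      rcases Nat.eq_zero_or_pos a with h0 | h0
      · exact absurd (by simp [h0]; omega) hne
      · omega
    rw [hg b hb, mul_zero]
  · intro h; exact absurd (Finset.HasAntidiagonal.mem_antidiagonal.mpr (by simp)) h

/-! ### the point of a class and the inverses of the distances to the other classes -/

section point

variable {K : Type*} [Field K] [Algebra K A]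

/-- the site `x = n0 + ε` -/
noncomputable def pt (A : Type*) [CommRing A] [Algebra K A] (n0 : K) : PowerSeries A :=
  PowerSeries.C (algebraMap K A n0) + PowerSeries.X

/-- `i_x = (x - c)/P` -/
noncomputable def ix (A : Type*) [CommRing A] [Algebra K A] (n0 c P : K) : PowerSeries A :=
  PowerSeries.C (algebraMap K A ((n0 - c) / P)) + PowerSeries.C (algebraMap K A P⁻¹) *
    PowerSeries.X

/-- `1/(x - c)`, `u = 1/(n0 - c)` -/
noncomputable def wx (A : Type*) [CommRing A] [Algebra K A] (u : K) : PowerSeries A :=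
  PowerSeries.mk fun k => (-1) ^ k * algebraMap K A u ^ (k + 1)

theorem algebraMap_eq (k : K) :
    algebraMap K (PowerSeries A) k = PowerSeries.C (algebraMap K A k) :=
  PowerSeries.algebraMap_apply

theorem pt_eq (n0 c P : K) (hP : P ≠ 0) :
    pt A n0 = algebraMap K (PowerSeries A) c + algebraMap K (PowerSeries A) P * ix A n0 c P := by
  have h1 : PowerSeries.C (algebraMap K A P) * PowerSeries.C (algebraMap K A ((n0 - c) / P))
      = (PowerSeries.C (algebraMap K A (n0 - c)) : PowerSeries A) := by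
    rw [← map_mul, ← map_mul, mul_div_cancel₀ _ hP]
  have h2 : PowerSeries.C (algebraMap K A P) * PowerSeries.C (algebraMap K A P⁻¹)
      = (1 : PowerSeries A) := by
    rw [← map_mul, ← map_mul, mul_inv_cancel₀ hP, map_one, map_one]
  rw [pt, ix, algebraMap_eq, algebraMap_eq, mul_add, h1, ← mul_assoc, h2, map_sub, map_sub]
  ring

theorem pt_sub (n0 c : K) :
    pt A n0 - algebraMap K (PowerSeries A) c = zz (algebraMap K A (n0 - c)) := by
  rw [pt, zz, algebraMap_eq, map_sub, map_sub]; ring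

theorem ix_mem {n0 c P : K} (h1 : F.mem 0 (algebraMap K A ((n0 - c) / P)))
    (h2 : F.mem (-1) (algebraMap K A P⁻¹)) : (jetFilt F).mem 0 (ix A n0 c P) := by
  refine (jetFilt F).add (jet_C F h1) ?_
  simpa using (jetFilt F).mul (jet_C F h2) (jet_X F)

theorem wx_mul (n0 c u : K) (hu : (n0 - c) * u = 1) :
    (pt A n0 - algebraMap K (PowerSeries A) c) * wx A u = 1 := by
  rw [pt_sub, zz]
  ext k
  rw [add_mul, map_add, coeff_C_mul', PowerSeries.coeff_one]
  have hu' : algebraMap K A (n0 - c) * algebraMap K A u = 1 := by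
    rw [← map_mul, hu, map_one]
  cases k with
  | zero =>
    rw [PowerSeries.coeff_zero_X_mul, wx, PowerSeries.coeff_mk]
    simpa using hu'
  | succ k =>
    rw [PowerSeries.coeff_succ_X_mul, wx, PowerSeries.coeff_mk, PowerSeries.coeff_mk,
      if_neg (Nat.succ_ne_zero k)]
    linear_combination ((-1) ^ (k + 1) * algebraMap K A u ^ (k + 1)) * hu'

theorem wx_mem {u : K} (hu : F.mem 0 (algebraMap K A u)) : (jetFilt F).mem 0 (wx A u) := by
  intro k
  rw [wx, PowerSeries.coeff_mk]
  have h1 : F.mem 0 ((-1) ^ k * algebraMap K A u ^ (k + 1)) := by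
    simpa using F.mul (Filt.pow0 F (F.neg F.one) k) (Filt.pow0 F hu (k + 1))
  exact F.mono h1 (by simp)

/-- all coefficients of `1/(x-c)^n` are integral -/
theorem wx_pow_coeff {u : K} (hu : F.mem 0 (algebraMap K A u)) (n j : ℕ) :
    F.mem 0 (PowerSeries.coeff j (wx A u ^ n)) := by
  induction n generalizing j with
  | zero =>
    rw [pow_zero, PowerSeries.coeff_one]
    split_ifs
    · exact F.one
    · exact F.zero _
  | succ n ih =>
    rw [pow_succ, PowerSeries.coeff_mul]
    refine F.sum _ _ fun q _ => ?_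
    have h1 : F.mem 0 (PowerSeries.coeff q.2 (wx A u)) := by
      rw [wx, PowerSeries.coeff_mk]
      simpa using F.mul (Filt.pow0 F (F.neg F.one) q.2) (Filt.pow0 F hu (q.2 + 1))
    simpa using F.mul (ih q.1) h1

/-- **The jet rows**: coefficient of `ε^j` of the row formula of 538. -/
theorem jet_row {ι : Type*} [Fintype ι] [DecidableEq ι] (m : ℕ → K) (c : ι → K)
    (e : ι → Polynomial K) (he : ∑ i, e i = 1) (P : K) (hP : P ≠ 0) (J : ℕ) (R : Polynomial K)
    (hR : R.natDegree < J) (i₀ : ι) (n0 : K) (u : ι → K)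
    (hu : ∀ i, i ≠ i₀ → (n0 - c i) * u i = 1) (psi : PowerSeries A) (j : ℕ) :
    PowerSeries.coeff j (Polynomial.aeval (pt A n0) R * psi
        - Polynomial.aeval (pt A n0) (PsiInf.TR m R))
      = ∑ t ∈ range J, algebraMap K A (P4Rowx538.rr c P i₀ t R) *
          PowerSeries.coeff j (P4Rowx538.br m c e P i₀
            (P4Rowx538.psi' m c e J i₀ (fun i => wx A (u i)) psi) (ix A n0 (c i₀) P) t)
        + ∑ i ∈ univ.erase i₀, ∑ s ∈ range J, algebraMap K A (P4Rowx538.rr c P i s R) *
          PowerSeries.coeff j (P4Rowx538.W m c e P J (fun i => wx A (u i)) i s) := by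
  have h := P4Rowx538.row_formula (A := PowerSeries A) m c e he P hP J R hR i₀ (pt A n0)
    (ix A n0 (c i₀) P) psi (pt_eq n0 (c i₀) P hP) (fun i => wx A (u i))
    (fun i hi => wx_mul n0 (c i) (u i) (hu i hi))
  rw [h, map_add, map_sum, map_sum]
  simp_rw [map_sum, algebraMap_eq, coeff_C_mul']

end point

end Crest.Agent.R006.P4Jet305
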