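import Crest.Agent.R006.P4L_nodes_869
import Crest.Agent.R006.P4L_hc_830

/-!
Row 6, block P4, local input (L2), assembly (helper869): chains (P4L_nodes_869) + the recurrence
of `h_c` (P4L_hc_830).

`f : B →+* E`, `O = f.range`, `p` a unit in `E`; `L : B[X] →ₗ[B] B` the moment functional,
`e c` the class idempotents at level `N`. Sites `x = r + p t`, `r : ℤ`
(integers: `t = τ`; half-integers `i - 1/2 + pτ`: `r = i + (p-1)/2`, `t = τ - 1/2`);
`hS r = h_c(x)`, `c = r mod p`. For every solution `ψ : sites → E` of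
`2 (x^3 ψ(x) + (2x-1)^3 ψ(x-1)) = -(3x-1)` started in `O`, `ψ - f (hS)` is in the lattice of the
state of the site.
-/

set_option autoImplicit false

namespace Crest.Agent.R006.P4L869

open Polynomial Finset Crest.Agent.R006.P4Row Crest.Agent.R006.P4Hc830

variable {B E : Type*} [CommRing B] [CommRing E]

/-- the local data at `p` over the integral ring `B` -/
structure Loc (p K N : ℕ) (L : B[X] →ₗ[B] B) (e : ℕ → B[X]) : Prop where
  key : ∀ P : B[X], L (X ^ 3 * P + (2 * X + 1) ^ 3 * P.comp (X + 1)) = 0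
  one : L 1 = 0
  hX : 6 * L X = -1
  hX2 : 54 * L (X ^ 2) = 7
  sum : ∑ c ∈ range p, e c = 1
  J : ∀ a < p, ∀ b < p, a ≠ b → e a ∈ P4Hc830.J (p : B) (b : B) ^ N
  err : ∀ F : B[X], (∀ b < p, F ∈ P4Hc830.J (p : B) (b : B) ^ N) → (p : B) ^ K ∣ L F
  pol : ∀ c < p, 2 * c < p → ∀ F ∈ P4Hc830.J (p : B) (c : B) ^ 2, (p : B) ∣ L (e c * F)
  reg : ∀ c < p, p < 2 * c → ∀ F : B[X], (p : B) ^ 2 ∣ L (e c * F)

/-- the site `r + p t` -/
def xS (p : ℕ) (t : B) (r : ℤ) : B := (r : B) + p * t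

/-- class of the site -/
def cS (p : ℕ) (r : ℤ) : ℕ := (r % (p : ℤ)).toNat

/-- the analytic part at the site -/
noncomputable def hS (p N : ℕ) (L : B[X] →ₗ[B] B) (e : ℕ → B[X]) (t : B) (r : ℤ) : B :=
  hfun p N L e (cS p r) (fun c' => Ring.inverse (xS p t r - c'))

/-- right hand side of the recurrence of `ψ - h` -/
noncomputable def dS (p N : ℕ) (L : B[X] →ₗ[B] B) (e : ℕ → B[X]) (t : B) (r : ℤ) : B :=
  (9 * xS p t r + 4) * L X + 9 * L (X ^ 2)
    - (xS p t r ^ 3 * hS p N L e t r + (2 * xS p t r - 1) ^ 3 * hS p N L e t (r - 1))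

theorem cS_lt {p : ℕ} (hp : 0 < p) (r : ℤ) : cS p r < p := by
  unfold cS
  have h1 := Int.emod_lt_of_pos r (by exact_mod_cast hp : (0 : ℤ) < p)
  have h2 := Int.emod_nonneg r (by exact_mod_cast hp.ne' : (p : ℤ) ≠ 0)
  omega

theorem cS_cast {p : ℕ} (hp : 0 < p) (r : ℤ) : ((cS p r : ℕ) : ℤ) = r % p := by
  unfold cS
  exact Int.toNat_of_nonneg (Int.emod_nonneg r (by exact_mod_cast hp.ne' : (p : ℤ) ≠ 0))

theorem cS_spec {p : ℕ} (hp : 0 < p) (r : ℤ) : ∃ k : ℤ, r = cS p r + p * k :=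
  ⟨r / p, by rw [cS_cast hp]; exact (Int.emod_add_mul_ediv r p).symm⟩

theorem cS_unique {p : ℕ} (hp : 0 < p) {r : ℤ} {c : ℕ} (hc : c < p) {k : ℤ}
    (h : r = c + p * k) : cS p r = c := by
  unfold cS
  rw [h, Int.add_mul_emod_self_left, Int.emod_eq_of_lt (by positivity) (by exact_mod_cast hc)]
  simp

theorem cS_pred {p : ℕ} (hp : 0 < p) (r : ℤ) : Pred p (cS p r) (cS p (r - 1)) := by
  obtain ⟨k, hk⟩ := cS_spec hp r
  have hlt := cS_lt hp r
  by_cases h0 : cS p r = 0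
  · right
    refine ⟨h0, ?_⟩
    have : cS p (r - 1) = p - 1 := by
      refine cS_unique (k := k - 1) hp (by omega) ?_
      rw [h0] at hk
      push_cast [Nat.cast_sub hp]
      push_cast at hk
      rw [hk]; ring
    omega
  · left
    have : cS p (r - 1) = cS p r - 1 := by
      refine cS_unique (k := k) hp (by omega) ?_
      rw [Nat.cast_sub (by omega)]
      push_cast
      omega
    omega

theorem cS_natCast (p n : ℕ) : cS p (n : ℤ) = n % p := by
  unfold cS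
  have : ((n : ℤ) % (p : ℤ)) = ((n % p : ℕ) : ℤ) := by push_cast; rfl
  rw [this, Int.toNat_natCast]

section

variable {p K N : ℕ} {L : B[X] →ₗ[B] B} {e : ℕ → B[X]} {t : B}

theorem site_unit (hp : 0 < p)
    (hu : ∀ m : ℤ, ¬ (p : ℤ) ∣ m → IsUnit ((m : B) + p * t))
    (r : ℤ) {c' : ℕ} (hc' : c' < p) (hne : c' ≠ cS p r) : IsUnit (xS p t r - c') := by
  have : xS p t r - c' = ((r - c' : ℤ) : B) + p * t := by unfold xS; push_cast; ring
  rw [this]
  apply hu
  rintro ⟨k, hk⟩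
  exact hne (cS_unique (k := k) hp hc' (by omega)).symm

/-- the recurrence of `h` with the bound of the right hand side -/
theorem dS_dvd (hL : Loc p K N L e) (hp : p.Prime) (h2 : p ≠ 2) (hK : 2 ≤ K)
    (hu : ∀ m : ℤ, ¬ (p : ℤ) ∣ m → IsUnit ((m : B) + p * t)) (r : ℤ)
    (hc : cS p r = 0 ∨ p < 2 * cS p r) : (p : B) ∣ dS p N L e t r := by
  have hodd : p % 2 = 1 := hp.eq_two_or_odd.resolve_left h2
  have hp3 : 3 ≤ p := by
    rcases hp.two_le.lt_or_eq with h | h
    · omega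
    · exact absurd h.symm h2
  obtain ⟨δ', h1, _, h3, _⟩ := hfun_rec (K := K) (N := N) hL.key hL.one hL.sum hL.J hL.err hL.pol
    hL.reg hodd hp3 hK (cS_lt hp.pos r) (cS_lt hp.pos (r - 1)) (cS_pred hp.pos r) (xS p t r)
    (by
      obtain ⟨k, hk⟩ := cS_spec hp.pos r
      refine ⟨(k : B) + t, ?_⟩
      have : (r : B) = (cS p r : B) + p * k := by
        have := congrArg (Int.cast : ℤ → B) hk
        push_cast at this
        exact this
      unfold xS
      rw [this]; ring)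
    (fun c' => Ring.inverse (xS p t r - c')) (fun c' => Ring.inverse (xS p t (r - 1) - c'))
    (fun c' hc' hne => Ring.mul_inverse_cancel _ (site_unit hp.pos hu r hc' hne))
    (fun c' hc' hne => by
      have e1 : xS p t r - 1 - c' = xS p t (r - 1) - c' := by unfold xS; push_cast; ring
      rw [e1]
      exact Ring.mul_inverse_cancel _ (site_unit hp.pos hu (r - 1) hc' hne))
  have h4 : dS p N L e t r = δ' := by
    unfold dS hS
    linear_combination -h1
  rw [h4]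
  exact h3 hc

end

section final

variable (f : B →+* E) {p K N : ℕ} {L : B[X] →ₗ[B] B} {e : ℕ → B[X]}

/-- `m + kτ` is a unit of `B` for `m` prime to `p` -/
def BUnits (p : ℕ) (τ : B) : Prop := ∀ m : ℤ, ¬ (p : ℤ) ∣ m → ∀ k : ℕ, IsUnit ((m : B) + k * τ)

theorem BUnits.tau {τ : B} (h : BUnits p τ) : TauUnits f.range p (f τ) := by
  intro m hm k
  obtain ⟨u, hu⟩ := h m hm k
  refine ⟨⟨(m : B) + k * τ, by simp⟩, f ((u⁻¹ : Bˣ) : B), ⟨_, rfl⟩, ?_⟩
  have : (m : E) + k * f τ = f (u : B) := by rw [hu]; simp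
  rw [this, ← map_mul, Units.inv_mul, map_one]

theorem inP_of_dvd {b : B} (h : (p : B) ∣ b) : InP f.range p (f b) := by
  obtain ⟨k, rfl⟩ := h
  exact ⟨f k, ⟨k, rfl⟩, by simp⟩

/-- the recurrence of `φ = ψ - f h` from the one of `ψ` -/
theorem phi_rec (hL : Loc p K N L e) {t : B} {r : ℤ} {y y' : E}
    (h2E : IsUnit (2 : E)) (h3E : IsUnit (3 : E))
    (h : 2 * (f (xS p t r) ^ 3 * y + (2 * f (xS p t r) - 1) ^ 3 * y')
      = -(3 * f (xS p t r) - 1)) :
    f (xS p t r) ^ 3 * (y - f (hS p N L e t r))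
      + (2 * f (xS p t r) - 1) ^ 3 * (y' - f (hS p N L e t (r - 1)))
      = -(-f (dS p N L e t r)) := by
  have h6 : IsUnit (6 : E) := by
    have : (6 : E) = 2 * 3 := by norm_num
    rw [this]; exact h2E.mul h3E
  have e1 : 6 * f (L X) = -1 := by
    have := congrArg f hL.hX
    rwa [map_mul, map_neg, map_one, map_ofNat] at this
  have e2 : 54 * f (L (X ^ 2)) = 7 := by
    have := congrArg f hL.hX2
    rwa [map_mul, map_ofNat, map_ofNat] at this
  rw [← sub_eq_zero]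
  obtain ⟨u, hu⟩ := h6
  rw [← Units.mul_right_eq_zero u, hu]
  unfold dS
  simp only [map_sub, map_add, map_mul, map_pow, map_ofNat, map_one, neg_neg]
  linear_combination 3 * h - (9 * f (xS p t r) + 4) * e1 - e2

variable {τ : B}

/-- **Integer sites `n ≥ 0`.** -/
theorem int_up (hL : Loc p K N L e) (hp : p.Prime) (h5 : 5 ≤ p) (hK : 2 ≤ K)
    (hE : IsUnit (p : E)) (hB : BUnits p τ) {ψ : ℤ → E} (h0 : ψ 0 ∈ f.range)
    (h : ∀ r : ℤ, 0 < r → r < p ^ 2 →
      2 * (f (xS p τ r) ^ 3 * ψ r + (2 * f (xS p τ r) - 1) ^ 3 * ψ (r - 1))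
        = -(3 * f (xS p τ r) - 1)) :
    ∀ n : ℕ, n < p ^ 2 → Good f.range p (sUp p n) (ψ n - f (hS p N L e τ n)) := by
  have h2 : p ≠ 2 := by omega
  have hT := hB.tau f
  have h2E : IsUnit (2 : E) := by
    obtain ⟨_, w, _, hw⟩ := hT 2 (by
      intro hd
      have := Int.le_of_dvd (by norm_num) hd
      omega) 0
    refine IsUnit.of_mul_eq_one w ?_
    rw [mul_comm]; simpa using hw
  have h3E : IsUnit (3 : E) := by
    obtain ⟨_, w, _, hw⟩ := hT 3 (by
      intro hd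
      have := Int.le_of_dvd (by norm_num) hd
      omega) 0
    refine IsUnit.of_mul_eq_one w ?_
    rw [mul_comm]; simpa using hw
  have hu : ∀ m : ℤ, ¬ (p : ℤ) ∣ m → IsUnit ((m : B) + p * τ) := fun m hm => hB m hm p
  have hx : ∀ n : ℕ, f (xS p τ (n : ℤ)) = (n : E) + p * f τ := by
    intro n; unfold xS; simp
  refine up_chain (O := f.range) (τ := f τ) (δ := fun n => -f (dS p N L e τ n)) hp h2 hE
    ⟨τ, rfl⟩ hT ?_ ?_ ?_ ?_
  · exact Subring.sub_mem _ (by simpa using h0) ⟨_, rfl⟩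
  · intro n _ _; exact Subring.neg_mem _ ⟨_, rfl⟩
  · intro n _ _ hc
    refine (inP_of_dvd f (dS_dvd hL hp h2 hK hu n ?_)).neg
    rw [cS_natCast]; exact hc
  · intro n hn hn2
    have h1 := phi_rec f hL (t := τ) (r := (n : ℤ)) h2E h3E
      (h n (by exact_mod_cast hn) (by exact_mod_cast hn2))
    rw [hx] at h1
    have e1 : ((n : ℤ) - 1) = ((n - 1 : ℕ) : ℤ) := by push_cast [Nat.cast_sub hn]; ring
    rw [e1] at h1
    exact h1

/-- **Integer sites `-m`, `m ≥ 1`.** -/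
theorem int_down (hL : Loc p K N L e) (hp : p.Prime) (h5 : 5 ≤ p) (hK : 2 ≤ K)
    (hE : IsUnit (p : E)) (hB : BUnits p τ) {M : ℕ} (hM : 2 * M ≤ p ^ 2)
    {ψ : ℤ → E} (h0 : ψ 0 ∈ f.range)
    (h : ∀ r : ℤ, r ≤ 0 → 1 - (M : ℤ) < r →
      2 * (f (xS p τ r) ^ 3 * ψ r + (2 * f (xS p τ r) - 1) ^ 3 * ψ (r - 1))
        = -(3 * f (xS p τ r) - 1)) :
    ∀ m : ℕ, 0 < m → m < M →
      Good f.range p (sDown p m) (ψ (-(m : ℤ)) - f (hS p N L e τ (-(m : ℤ)))) := by
  have h2 : p ≠ 2 := by omega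
  have hT := hB.tau f
  have h2E : IsUnit (2 : E) := by
    obtain ⟨_, w, _, hw⟩ := hT 2 (by
      intro hd
      have := Int.le_of_dvd (by norm_num) hd
      omega) 0
    refine IsUnit.of_mul_eq_one w ?_
    rw [mul_comm]; simpa using hw
  have h3E : IsUnit (3 : E) := by
    obtain ⟨_, w, _, hw⟩ := hT 3 (by
      intro hd
      have := Int.le_of_dvd (by norm_num) hd
      omega) 0
    refine IsUnit.of_mul_eq_one w ?_
    rw [mul_comm]; simpa using hw
  have hu : ∀ m : ℤ, ¬ (p : ℤ) ∣ m → IsUnit ((m : B) + p * τ) := fun m hm => hB m hm p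
  have hx : ∀ n : ℕ, f (xS p τ (-(n : ℤ))) = -(n : E) + p * f τ := by
    intro n; unfold xS; simp
  have hcl : ∀ m : ℕ, 2 * (m % p) < p →
      cS p (-(m : ℤ)) = 0 ∨ p < 2 * cS p (-(m : ℤ)) := by
    intro m hm
    have hdm := Nat.mod_add_div m p
    by_cases hz : m % p = 0
    · left
      refine cS_unique (k := -((m / p : ℕ) : ℤ)) hp.pos hp.pos ?_
      rw [hz] at hdm
      have : (m : ℤ) = p * (m / p : ℕ) := by
        rw [zero_add] at hdm; exact_mod_cast hdm.symm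
      push_cast at this ⊢
      linarith
    · right
      have : cS p (-(m : ℤ)) = p - m % p := by
        refine cS_unique (k := -((m / p : ℕ) : ℤ) - 1) hp.pos (by omega) ?_
        rw [Nat.cast_sub (Nat.mod_lt m hp.pos).le]
        push_cast
        have := Int.emod_add_mul_ediv (m : ℤ) p
        linarith
      rw [this]; omega
  refine down_chain (O := f.range) (τ := f τ) (φ := fun m => ψ (-(m : ℤ)) - f (hS p N L e τ (-(m : ℤ))))
    (δ := fun m => -f (dS p N L e τ (-(m : ℤ)))) hp h2 hE ⟨τ, rfl⟩ hT hM ?_ ?_ ?_ ?_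
  · intro m _ _; exact Subring.neg_mem _ ⟨_, rfl⟩
  · intro m _ _ hc
    exact (inP_of_dvd f (dS_dvd hL hp h2 hK hu _ (hcl m hc))).neg
  · intro hM1
    have h1 := phi_rec f hL (t := τ) (r := 0) h2E h3E (h 0 le_rfl (by
      have : (1 : ℤ) < M := by exact_mod_cast hM1
      linarith))
    have hx0 : f (xS p τ 0) = 0 + p * f τ := by unfold xS; simp
    rw [hx0] at h1
    have hd : InP f.range p (f (dS p N L e τ 0)) :=
      inP_of_dvd f (dS_dvd hL hp h2 hK hu 0 (by
        left; exact cS_unique (k := 0) hp.pos hp.pos (by simp)))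
    have hφ0 : ψ 0 - f (hS p N L e τ 0) ∈ f.range := Subring.sub_mem _ h0 ⟨_, rfl⟩
    have hp3 : InP f.range p ((0 + (p : E) * f τ) ^ 3 * (ψ 0 - f (hS p N L e τ 0))) :=
      InP.cube_mul' ⟨f τ, ⟨τ, rfl⟩, by ring⟩ hφ0
    have e1 : (2 * (0 + (p : E) * f τ) - 1) ^ 3 *
        (ψ (-((1 : ℕ) : ℤ)) - f (hS p N L e τ (-((1 : ℕ) : ℤ)))) =
        f (dS p N L e τ 0) + -((0 + (p : E) * f τ) ^ 3 * (ψ 0 - f (hS p N L e τ 0))) := by
      have e2 : (-((1 : ℕ) : ℤ)) = (0 : ℤ) - 1 := by norm_num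
      rw [e2]
      linear_combination h1
    rw [e1]
    exact hd.add hp3.neg
  · intro m hm hmM
    have h1 := phi_rec f hL (t := τ) (r := -(m : ℤ)) h2E h3E (h _ (by
      have : (0 : ℤ) ≤ m := by positivity
      linarith) (by
      have : (m : ℤ) + 1 < M := by exact_mod_cast hmM
      linarith))
    rw [hx] at h1
    have e1 : (-(m : ℤ) - 1) = -((m + 1 : ℕ) : ℤ) := by push_cast; ring
    rw [e1] at h1
    exact h1

/-- **Half-integer sites `l + 1/2`, `l ≥ 0`** (star germs; `ψ i` is the germ at `i - 1/2`). -/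
theorem half_up (hL : Loc p K N L e) (hp : p.Prime) (h5 : 5 ≤ p) (hK : 2 ≤ K)
    (hE : IsUnit (p : E)) (hB : BUnits p τ) {hf : B} (hhf : 2 * hf = 1)
    {M : ℕ} (hM : 2 * M ≤ p ^ 2) {ψ : ℤ → E} (h0 : ψ 0 ∈ f.range)
    (h : ∀ i : ℤ, 0 < i → i ≤ M →
      2 * (((i : E) - f hf + p * f τ) ^ 3 * ψ i
        + (2 * ((i : E) - f hf + p * f τ) - 1) ^ 3 * ψ (i - 1))
        = -(3 * ((i : E) - f hf + p * f τ) - 1)) :
    ∀ l : ℕ, l < M → Good f.range p (sStar p l)
      (ψ (l + 1) - f (hS p N L e (τ - hf) (l + 1 + ((p - 1) / 2 : ℕ)))) := by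
  have h2 : p ≠ 2 := by omega
  have hodd : p % 2 = 1 := hp.eq_two_or_odd.resolve_left h2
  obtain ⟨g, hg⟩ : ∃ g, p = 2 * g + 1 := ⟨p / 2, by omega⟩
  have hg2 : (p - 1) / 2 = g := by omega
  rw [hg2]
  have hT := hB.tau f
  have h2nd : ¬ (p : ℤ) ∣ 2 := by
    intro hd
    have := Int.le_of_dvd (by norm_num) hd
    omega
  have h3nd : ¬ (p : ℤ) ∣ 3 := by
    intro hd
    have := Int.le_of_dvd (by norm_num) hd
    omega
  have h2E : IsUnit (2 : E) := by
    obtain ⟨_, w, _, hw⟩ := hT 2 h2nd 0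
    refine IsUnit.of_mul_eq_one w ?_
    rw [mul_comm]; simpa using hw
  have h3E : IsUnit (3 : E) := by
    obtain ⟨_, w, _, hw⟩ := hT 3 h3nd 0
    refine IsUnit.of_mul_eq_one w ?_
    rw [mul_comm]; simpa using hw
  have hpB : (p : B) = 2 * g + 1 := by rw [hg]; push_cast; ring
  have hhfE : 2 * f hf = 1 := by
    have := congrArg f hhf
    rwa [map_mul, map_one, map_ofNat] at this
  have hpE : (p : E) = 2 * g + 1 := by rw [hg]; push_cast; ring
  have hu : ∀ m : ℤ, ¬ (p : ℤ) ∣ m → IsUnit ((m : B) + p * (τ - hf)) := by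
    intro m hm
    have h1 := hB (2 * m - p) (by
      intro hd
      have h3 : (p : ℤ) ∣ 2 * m := by
        have := dvd_add hd (dvd_refl (p : ℤ))
        rwa [sub_add_cancel] at this
      rcases (Nat.prime_iff_prime_int.mp hp).dvd_or_dvd h3 with h | h
      · exact h2nd h
      · exact hm h) (2 * p)
    have hhu : IsUnit hf := IsUnit.of_mul_eq_one 2 (by rw [mul_comm]; exact hhf)
    have := hhu.mul h1
    have e1 : (m : B) + p * (τ - hf) = hf * (((2 * m - p : ℤ) : B) + ((2 * p : ℕ) : B) * τ) := by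
      push_cast; linear_combination (-(m : B) - p * τ) * hhf
    rw [e1]; exact this
  have hx : ∀ i : ℤ, f (xS p (τ - hf) (i + g)) = (i : E) - f hf + p * f τ := by
    intro i
    unfold xS
    simp only [map_add, map_mul, map_sub, map_intCast, map_natCast, Int.cast_add,
      Int.cast_natCast]
    linear_combination (-(f hf)) * hpE - (g : E) * hhfE
  have hrec : ∀ i : ℤ, 0 < i → i ≤ M → ((i : E) - f hf + p * f τ) ^ 3 *
        (ψ i - f (hS p N L e (τ - hf) (i + g)))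
      + (2 * ((i : E) - f hf + p * f τ) - 1) ^ 3 *
        (ψ (i - 1) - f (hS p N L e (τ - hf) (i - 1 + g)))
      = -(-f (dS p N L e (τ - hf) (i + g))) := by
    intro i hi hiM
    have h1 := phi_rec f hL (t := τ - hf) (r := i + g) (y := ψ i) (y' := ψ (i - 1)) h2E h3E (by
      rw [hx]; exact h i hi hiM)
    rw [hx] at h1
    have e1 : i + g - 1 = i - 1 + g := by ring
    rw [e1] at h1
    exact h1
  have hcl : ∀ l : ℕ, 2 * (l % p) + 1 ≤ p →
      cS p ((l : ℤ) + 1 + g) = 0 ∨ p < 2 * cS p ((l : ℤ) + 1 + g) := by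
    intro l hl
    have hdm := Nat.mod_add_div l p
    have hdm' : ((l % p : ℕ) : ℤ) + p * (l / p : ℕ) = l := by exact_mod_cast hdm
    by_cases hz : l % p = g
    · left
      refine cS_unique (k := (l / p : ℕ) + 1) hp.pos hp.pos ?_
      rw [hz] at hdm'
      have hp' : (p : ℤ) = 2 * g + 1 := by rw [hg]; push_cast; ring
      rw [← hdm']
      push_cast
      linear_combination -hp'
    · right
      have : cS p ((l : ℤ) + 1 + g) = l % p + 1 + g := by
        refine cS_unique (k := (l / p : ℕ)) hp.pos (by omega) ?_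
        have h6 := Int.emod_add_mul_ediv (l : ℤ) p
        push_cast
        linarith
      rw [this]; omega
  refine star_chain (O := f.range) (τ := f τ) (hf := f hf)
    (φ := fun l => ψ (l + 1) - f (hS p N L e (τ - hf) (l + 1 + g)))
    (δ := fun l => -f (dS p N L e (τ - hf) (l + 1 + g))) hp h2 hE ⟨τ, rfl⟩ hT ⟨hf, rfl⟩ hhfE hM
    ?_ ?_ ?_ ?_
  · intro m _ _; exact Subring.neg_mem _ ⟨_, rfl⟩
  · intro m _ _ hc
    exact (inP_of_dvd f (dS_dvd hL hp h2 hK hu _ (hcl m hc))).neg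
  · intro hM1
    have h1 := hrec 1 (by norm_num) (by exact_mod_cast hM1)
    have hd : InP f.range p (f (dS p N L e (τ - hf) (1 + g))) := by
      have := inP_of_dvd f (dS_dvd hL hp h2 hK hu _ (hcl 0 (by simp; omega)))
      simpa using this
    have hφ0 : ψ 0 - f (hS p N L e (τ - hf) (0 + g)) ∈ f.range :=
      Subring.sub_mem _ h0 ⟨_, rfl⟩
    have hp3 : InP f.range p ((2 * (1 - f hf + (p : E) * f τ) - 1) ^ 3 *
        (ψ 0 - f (hS p N L e (τ - hf) (0 + g)))) :=
      InP.cube_mul' ⟨2 * f τ, ⟨2 * τ, by rw [map_mul, map_ofNat]⟩, by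
        linear_combination (-1) * hhfE⟩ hφ0
    have e0 : (1 : ℤ) - 1 = 0 := by norm_num
    rw [e0] at h1
    have e1 : (f hf + (p : E) * f τ) ^ 3 *
        (ψ (((0 : ℕ) : ℤ) + 1) - f (hS p N L e (τ - hf) (((0 : ℕ) : ℤ) + 1 + g))) =
        f (dS p N L e (τ - hf) (1 + g)) + -((2 * (1 - f hf + (p : E) * f τ) - 1) ^ 3 *
        (ψ 0 - f (hS p N L e (τ - hf) (0 + g)))) := by
      have e2 : (f hf + (p : E) * f τ) = ((1 : ℤ) : E) - f hf + p * f τ := by
        push_cast; linear_combination hhfE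
      rw [e2]
      simp only [Nat.cast_zero, zero_add] at h1 ⊢
      push_cast at h1 ⊢
      linear_combination h1
    show InP f.range p ((f hf + (p : E) * f τ) ^ 3 *
        (ψ (((0 : ℕ) : ℤ) + 1) - f (hS p N L e (τ - hf) (((0 : ℕ) : ℤ) + 1 + g))))
    rw [e1]
    exact hd.add hp3.neg
  · intro l hl hlM
    have h1 := hrec (l + 1) (by positivity) (by exact_mod_cast hlM)
    have e1 : ((l : ℤ) + 1 - 1) = ((l - 1 : ℕ) : ℤ) + 1 := by push_cast [Nat.cast_sub hl]; ring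
    have e2 : (l : E) + f hf + p * f τ = ((l + 1 : ℤ) : E) - f hf + p * f τ := by
      push_cast; linear_combination hhfE
    rw [e1] at h1
    show ((l : E) + f hf + p * f τ) ^ 3 * (ψ (l + 1) - f (hS p N L e (τ - hf) (l + 1 + g)))
      + (2 * ((l : E) + f hf + p * f τ) - 1) ^ 3 *
        (ψ (((l - 1 : ℕ) : ℤ) + 1) - f (hS p N L e (τ - hf) (((l - 1 : ℕ) : ℤ) + 1 + g)))
      = -(-f (dS p N L e (τ - hf) (l + 1 + g)))
    rw [e2]
    exact h1

/-- **Half-integer sites `-l - 1/2`, `l ≥ 0`** (`ψ i` is the germ at `i - 1/2`). -/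
theorem half_down (hL : Loc p K N L e) (hp : p.Prime) (h5 : 5 ≤ p) (hK : 2 ≤ K)
    (hE : IsUnit (p : E)) (hB : BUnits p τ) {hf : B} (hhf : 2 * hf = 1)
    {M : ℕ} (hM : M ≤ p ^ 2) {ψ : ℤ → E} (h0 : ψ 0 ∈ f.range)
    (h : ∀ i : ℤ, i ≤ 0 → 1 - (M : ℤ) < i →
      2 * (((i : E) - f hf + p * f τ) ^ 3 * ψ i
        + (2 * ((i : E) - f hf + p * f τ) - 1) ^ 3 * ψ (i - 1))
        = -(3 * ((i : E) - f hf + p * f τ) - 1)) :
    ∀ l : ℕ, l < M → Good f.range p (sUp p l)
      (ψ (-(l : ℤ)) - f (hS p N L e (τ - hf) (-(l : ℤ) + ((p - 1) / 2 : ℕ)))) := by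
  have h2 : p ≠ 2 := by omega
  have hodd : p % 2 = 1 := hp.eq_two_or_odd.resolve_left h2
  obtain ⟨g, hg⟩ : ∃ g, p = 2 * g + 1 := ⟨p / 2, by omega⟩
  have hg2 : (p - 1) / 2 = g := by omega
  rw [hg2]
  have hT := hB.tau f
  have h2nd : ¬ (p : ℤ) ∣ 2 := by
    intro hd
    have := Int.le_of_dvd (by norm_num) hd
    omega
  have h3nd : ¬ (p : ℤ) ∣ 3 := by
    intro hd
    have := Int.le_of_dvd (by norm_num) hd
    omega
  have h2E : IsUnit (2 : E) := by
    obtain ⟨_, w, _, hw⟩ := hT 2 h2nd 0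
    refine IsUnit.of_mul_eq_one w ?_
    rw [mul_comm]; simpa using hw
  have h3E : IsUnit (3 : E) := by
    obtain ⟨_, w, _, hw⟩ := hT 3 h3nd 0
    refine IsUnit.of_mul_eq_one w ?_
    rw [mul_comm]; simpa using hw
  have hpB : (p : B) = 2 * g + 1 := by rw [hg]; push_cast; ring
  have hhfE : 2 * f hf = 1 := by
    have := congrArg f hhf
    rwa [map_mul, map_one, map_ofNat] at this
  have hpE : (p : E) = 2 * g + 1 := by rw [hg]; push_cast; ring
  have hu : ∀ m : ℤ, ¬ (p : ℤ) ∣ m → IsUnit ((m : B) + p * (τ - hf)) := by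
    intro m hm
    have h1 := hB (2 * m - p) (by
      intro hd
      have h3 : (p : ℤ) ∣ 2 * m := by
        have := dvd_add hd (dvd_refl (p : ℤ))
        rwa [sub_add_cancel] at this
      rcases (Nat.prime_iff_prime_int.mp hp).dvd_or_dvd h3 with h | h
      · exact h2nd h
      · exact hm h) (2 * p)
    have hhu : IsUnit hf := IsUnit.of_mul_eq_one 2 (by rw [mul_comm]; exact hhf)
    have := hhu.mul h1
    have e1 : (m : B) + p * (τ - hf) = hf * (((2 * m - p : ℤ) : B) + ((2 * p : ℕ) : B) * τ) := by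
      push_cast; linear_combination (-(m : B) - p * τ) * hhf
    rw [e1]; exact this
  have hx : ∀ i : ℤ, f (xS p (τ - hf) (i + g)) = (i : E) - f hf + p * f τ := by
    intro i
    unfold xS
    simp only [map_add, map_mul, map_sub, map_intCast, map_natCast, Int.cast_add,
      Int.cast_natCast]
    linear_combination (-(f hf)) * hpE - (g : E) * hhfE
  have hrec : ∀ i : ℤ, i ≤ 0 → 1 - (M : ℤ) < i → ((i : E) - f hf + p * f τ) ^ 3 *
        (ψ i - f (hS p N L e (τ - hf) (i + g)))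
      + (2 * ((i : E) - f hf + p * f τ) - 1) ^ 3 *
        (ψ (i - 1) - f (hS p N L e (τ - hf) (i - 1 + g)))
      = -(-f (dS p N L e (τ - hf) (i + g))) := by
    intro i hi hiM
    have h1 := phi_rec f hL (t := τ - hf) (r := i + g) (y := ψ i) (y' := ψ (i - 1)) h2E h3E (by
      rw [hx]; exact h i hi hiM)
    rw [hx] at h1
    have e1 : i + g - 1 = i - 1 + g := by ring
    rw [e1] at h1
    exact h1
  have hcl : ∀ l : ℕ, p ≤ 2 * (l % p) + 1 →
      cS p (-(l : ℤ) + g) = 0 ∨ p < 2 * cS p (-(l : ℤ) + g) := by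
    intro l hl
    have hlt := Nat.mod_lt l hp.pos
    have hdm := Nat.mod_add_div l p
    have hdm' : ((l % p : ℕ) : ℤ) + p * (l / p : ℕ) = l := by exact_mod_cast hdm
    by_cases hz : l % p = g
    · left
      refine cS_unique (k := -((l / p : ℕ) : ℤ)) hp.pos hp.pos ?_
      rw [hz] at hdm'
      rw [← hdm']
      push_cast
      ring
    · right
      have : cS p (-(l : ℤ) + g) = p + g - l % p := by
        refine cS_unique (k := -((l / p : ℕ) : ℤ) - 1) hp.pos (by omega) ?_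
        rw [Nat.cast_sub (by omega)]
        have h6 := Int.emod_add_mul_ediv (l : ℤ) p
        push_cast
        linarith
      rw [this]; omega
  refine w_chain (O := f.range) (τ := f τ) (hf := f hf)
    (φ := fun l => ψ (-(l : ℤ)) - f (hS p N L e (τ - hf) (-(l : ℤ) + g)))
    (δ := fun l => -f (dS p N L e (τ - hf) (-(l : ℤ) + g))) hp h2 hE ⟨τ, rfl⟩ hT ⟨hf, rfl⟩ hhfE hM
    ?_ ?_ ?_ ?_
  · refine Subring.sub_mem _ (by simpa using h0) ⟨_, rfl⟩
  · intro m _; exact Subring.neg_mem _ ⟨_, rfl⟩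
  · intro m _ hc
    exact (inP_of_dvd f (dS_dvd hL hp h2 hK hu _ (hcl m hc))).neg
  · intro l hlM
    have h1 := hrec (-(l : ℤ)) (by
      have : (0 : ℤ) ≤ l := by positivity
      linarith) (by
      have : (l : ℤ) + 1 < M := by exact_mod_cast hlM
      linarith)
    have e1 : (-(l : ℤ) - 1) = -((l + 1 : ℕ) : ℤ) := by push_cast; ring
    have e2 : (-((l : E) + f hf) + p * f τ) = (((-(l : ℤ)) : ℤ) : E) - f hf + p * f τ := by
      push_cast; ring
    rw [e1] at h1
    rw [e2]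
    exact h1

end final

end Crest.Agent.R006.P4L869
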