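import Crest.Agent.R006.P4L_nodes_869

/-!
Row 6, block P4, local input (L2): instances of the chain for `ℤ_p ⊂ ℚ_p` (values, `τ = 0`)
and for `ℤ_p⟦τ⟧ ⊂ ℚ_p⟦τ⟧` (jets, `x = n + p τ`), and the translation of `Good` to norms of
coefficients (helper869).
-/

set_option autoImplicit false

namespace Crest.Agent.R006.P4L869

open PowerSeries

section Range

variable {A E : Type*} [CommRing A] [CommRing E] (f : A →+* E)

theorem unitIn_range {a : A} (ha : IsUnit a) : UnitIn f.range (f a) := by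
  obtain ⟨u, rfl⟩ := ha
  refine ⟨⟨u, rfl⟩, f ((u⁻¹ : Aˣ) : A), ⟨_, rfl⟩, ?_⟩
  rw [← map_mul, Units.inv_mul, map_one]

theorem inP_range_iff (p : ℕ) (x : E) : InP f.range p x ↔ ∃ a : A, x = (p : E) * f a := by
  constructor
  · rintro ⟨y, ⟨a, rfl⟩, rfl⟩; exact ⟨a, rfl⟩
  · rintro ⟨a, rfl⟩; exact ⟨f a, ⟨a, rfl⟩, rfl⟩

theorem inM_range_iff (p : ℕ) (x : E) : InM f.range p x ↔ ∃ a : A, f a = (p : E) ^ 2 * x :=
  Iff.rfl

end Range

variable (p : ℕ) [hp : Fact p.Prime]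

/-- an integer prime to `p` is a unit of `ℤ_p` -/
theorem isUnit_intCast {m : ℤ} (hm : ¬ (p : ℤ) ∣ m) : IsUnit (m : ℤ_[p]) := by
  rw [PadicInt.isUnit_iff]
  exact PadicInt.norm_intCast_eq_one_iff.mpr
    ((Int.isCoprime_iff_gcd_eq_one.mpr (by
      have hpr := Nat.prime_iff_prime_int.mp hp.out
      rw [Int.gcd_comm]
      exact Int.isCoprime_iff_gcd_eq_one.mp ((Prime.coprime_iff_not_dvd hpr).mpr hm))))

/-- `ℤ_p` inside `ℚ_p` -/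
noncomputable abbrev OZ : Subring ℚ_[p] := (PadicInt.Coe.ringHom (p := p)).range

/-- `ℤ_p⟦τ⟧` inside `ℚ_p⟦τ⟧` -/
noncomputable abbrev OT : Subring ℚ_[p]⟦X⟧ :=
  (PowerSeries.map (PadicInt.Coe.ringHom (p := p))).range

theorem tauUnits_OZ : TauUnits (OZ p) p 0 := by
  intro m hm k
  have := unitIn_range (PadicInt.Coe.ringHom (p := p)) (isUnit_intCast p hm)
  simpa using this

theorem tauUnits_OT : TauUnits (OT p) p (X : ℚ_[p]⟦X⟧) := by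
  intro m hm k
  have hu : IsUnit ((m : ℤ_[p]⟦X⟧) + (k : ℤ_[p]⟦X⟧) * X) := by
    rw [PowerSeries.isUnit_iff_constantCoeff]
    simpa using isUnit_intCast p hm
  have := unitIn_range (PowerSeries.map (PadicInt.Coe.ringHom (p := p))) hu
  simpa using this

theorem X_mem_OT : (X : ℚ_[p]⟦X⟧) ∈ OT p := ⟨X, by simp⟩

theorem isUnit_p : IsUnit ((p : ℕ) : ℚ_[p]) :=
  isUnit_iff_ne_zero.mpr (by exact_mod_cast hp.out.ne_zero)

theorem isUnit_pT : IsUnit ((p : ℕ) : ℚ_[p]⟦X⟧) := by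
  rw [PowerSeries.isUnit_iff_constantCoeff]
  simpa using isUnit_p p

/-- the half in `ℤ_p` -/
theorem exists_half (h2 : p ≠ 2) : ∃ h : ℤ_[p], 2 * h = 1 := by
  have : IsUnit ((2 : ℤ) : ℤ_[p]) := isUnit_intCast p (by
    intro hd
    have h1 := Int.le_of_dvd (by norm_num) hd
    have h3 := hp.out.two_le
    omega)
  obtain ⟨u, hu⟩ := this
  refine ⟨((u⁻¹ : ℤ_[p]ˣ) : ℤ_[p]), ?_⟩
  have : (2 : ℤ_[p]) = u := by rw [hu]; norm_num
  rw [this, Units.mul_inv]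

/-- norms: membership in `ℤ_p` -/
theorem mem_OZ {x : ℚ_[p]} : x ∈ OZ p ↔ ‖x‖ ≤ 1 := by
  constructor
  · rintro ⟨a, rfl⟩; exact a.2
  · intro h; exact ⟨⟨x, h⟩, rfl⟩

theorem mem_OT {x : ℚ_[p]⟦X⟧} : x ∈ OT p ↔ ∀ j, ‖coeff j x‖ ≤ 1 := by
  constructor
  · rintro ⟨a, rfl⟩ j
    rw [PowerSeries.coeff_map]
    exact (coeff j a).2
  · intro h
    let g : ℕ → ℤ_[p] := fun j => ⟨coeff j x, h j⟩
    refine ⟨PowerSeries.mk g, ?_⟩
    ext j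
    rw [PowerSeries.coeff_map, PowerSeries.coeff_mk]
    rfl

theorem inP_OZ {x : ℚ_[p]} : InP (OZ p) p x ↔ ‖x‖ ≤ (p : ℝ)⁻¹ := by
  have hp0 : (p : ℚ_[p]) ≠ 0 := by exact_mod_cast hp.out.ne_zero
  have hpr : (0 : ℝ) < p := by exact_mod_cast hp.out.pos
  constructor
  · rintro ⟨y, hy, rfl⟩
    rw [norm_mul, Padic.norm_p]
    have := (mem_OZ p).mp hy
    calc (p : ℝ)⁻¹ * ‖y‖ ≤ (p : ℝ)⁻¹ * 1 := by gcongr
      _ = _ := mul_one _
  · intro h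
    refine ⟨(p : ℚ_[p])⁻¹ * x, (mem_OZ p).mpr ?_, by field_simp⟩
    rw [norm_mul, norm_inv, Padic.norm_p, inv_inv]
    calc (p : ℝ) * ‖x‖ ≤ p * (p : ℝ)⁻¹ := by gcongr
      _ = 1 := mul_inv_cancel₀ hpr.ne'

theorem inM_OZ {x : ℚ_[p]} : InM (OZ p) p x ↔ ‖x‖ ≤ (p : ℝ) ^ 2 := by
  have hpr : (0 : ℝ) < p := by exact_mod_cast hp.out.pos
  unfold InM
  rw [mem_OZ, norm_mul, norm_pow, Padic.norm_p, inv_pow]
  constructor
  · intro h
    have := mul_le_mul_of_nonneg_left h (by positivity : (0 : ℝ) ≤ (p : ℝ) ^ 2)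
    rwa [← mul_assoc, mul_inv_cancel₀ (by positivity), one_mul, mul_one] at this
  · intro h
    rw [inv_mul_le_iff₀ (by positivity)]
    linarith

theorem coeff_natCast_mul (j : ℕ) (x : ℚ_[p]⟦X⟧) :
    coeff j ((p : ℚ_[p]⟦X⟧) * x) = (p : ℚ_[p]) * coeff j x := by
  have : (p : ℚ_[p]⟦X⟧) = C (p : ℚ_[p]) := by simp
  rw [this, PowerSeries.coeff_C_mul]

theorem inP_OT {x : ℚ_[p]⟦X⟧} : InP (OT p) p x ↔ ∀ j, ‖coeff j x‖ ≤ (p : ℝ)⁻¹ := by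
  have hp0 : (p : ℚ_[p]) ≠ 0 := by exact_mod_cast hp.out.ne_zero
  constructor
  · rintro ⟨y, hy, rfl⟩ j
    rw [coeff_natCast_mul]
    exact (inP_OZ p).mp ⟨_, (mem_OZ p).mpr ((mem_OT p).mp hy j), rfl⟩
  · intro h
    refine ⟨C (p : ℚ_[p])⁻¹ * x, (mem_OT p).mpr ?_, ?_⟩
    · intro j
      rw [PowerSeries.coeff_C_mul]
      obtain ⟨y, hy, hxy⟩ := (inP_OZ p).mpr (h j)
      rw [hxy, ← mul_assoc, inv_mul_cancel₀ hp0, one_mul]
      exact (mem_OZ p).mp hy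
    · ext j
      rw [coeff_natCast_mul, PowerSeries.coeff_C_mul, ← mul_assoc, mul_inv_cancel₀ hp0, one_mul]

theorem inM_OT {x : ℚ_[p]⟦X⟧} : InM (OT p) p x ↔ ∀ j, ‖coeff j x‖ ≤ (p : ℝ) ^ 2 := by
  have e : ∀ j, coeff j ((p : ℚ_[p]⟦X⟧) ^ 2 * x) = (p : ℚ_[p]) ^ 2 * coeff j x := by
    intro j
    rw [pow_two, mul_assoc, coeff_natCast_mul, coeff_natCast_mul]; ring
  constructor
  · intro h j
    have := (mem_OT p).mp h j
    rw [e] at this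
    exact (inM_OZ p).mp ((mem_OZ p).mpr this)
  · intro h
    refine (mem_OT p).mpr fun j => ?_
    rw [e]
    exact (mem_OZ p).mp ((inM_OZ p).mpr (h j))

end Crest.Agent.R006.P4L869
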