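import Crest.Agent.R006.Defs_89
import Crest.Agent.R006.NVTau_938
import Crest.Agent.R006.PsiInf_294
import Crest.Agent.R006.P4_Row_110

/-!
# Row 6, block P4, matrix side: bridge between `Defs_89` and the row formula (helper531)

* `cinf_succ` : `NV.cinf (i+1) = PsiInf.mu i` (the coefficients of `ψ_∞`);
* `TRB`, `eval_TRB` : `T_R(x) = lin m (R /ₘ (X - C x))` over any commutative ring;
* `germ_eq_eval` : the germ of a polynomial at `z` is its value at `x = z + ε`, over any ring;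
* `colX_R`, `colX_Q`, `colX_U` : the columns of `Design.Delta` in the form
  `R(x) ψ - L(R /ₘ (X - x))`, `- Q(x) g`, unit vectors, `x = k/2 + ε` in `ℚ[X]⟦ε⟧`.
-/

set_option autoImplicit false

namespace Crest.Agent.R006.P4M531

open Polynomial Finset

/-! ### the coefficients of `ψ_∞` -/

section cinf

variable {K : Type*} [Field K] [CharZero K]

theorem coeff_EE_pinf (j : ℕ) :
    (NV.EE (j + 3) (NV.pinf (j + 3) : K[X])).coeff (j + 5) =
      ∑ i ∈ range (j + 3), (PsiInf.shp K j).coeff i * NV.cinf (i + 1) := by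
  set p : K[X] := NV.pinf (j + 3) with hp
  set E : K[X] := NV.EE (j + 3) p with hE
  have hEd : E.natDegree ≤ j + 5 := NV.EE_pinf_natDegree (K := K) (j + 3)
  set G : K[X] := PsiInf.shp K j * p +
    X ^ (j + 3) * (taylor 1 p + C (1 / 2) * (3 * X + 2) * (X + 1) ^ j) with hG
  have hX1 : ∀ k : ℕ, ((X + 1 : K[X]) ^ k).natDegree ≤ k := fun k =>
    NV.nd_pow k NV.natDegree_X_add_one.le le_rfl
  have hX1m : (X + 1 : K[X]).Monic := by
    have : (X + 1 : K[X]) = X + C 1 := by rw [C_1]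
    rw [this]; exact monic_X_add_C 1
  have hc1 : ∀ k : ℕ, ((X + 1 : K[X]) ^ k).coeff k = 1 := by
    intro k
    have h1 := (hX1m.pow k).coeff_natDegree
    rwa [hX1m.natDegree_pow, NV.natDegree_X_add_one, mul_one] at h1
  have key : (X + 1) ^ j * E = (X + 1) ^ (j + 3) * G := by
    rw [hE, hG, NV.EE, PsiInf.shp]
    ring
  have h1 : ((X + 1) ^ j * E).coeff (j + (j + 5)) = E.coeff (j + 5) := by
    rw [coeff_mul_add_eq_of_natDegree_le (hX1 j) hEd, hc1, one_mul]
  have hGd : G.natDegree ≤ j + 2 := by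
    by_cases h0 : G = 0
    · rw [h0]; simp
    have h2 : ((X + 1) ^ (j + 3) * G).natDegree = (j + 3) + G.natDegree := by
      rw [(hX1m.pow (j + 3)).natDegree_mul' h0, hX1m.natDegree_pow, NV.natDegree_X_add_one,
        mul_one]
    have h3 : ((X + 1) ^ j * E).natDegree ≤ j + (j + 5) := natDegree_mul_le_of_le (hX1 j) hEd
    rw [key, h2] at h3
    omega
  have h4 : ((X + 1) ^ (j + 3) * G).coeff ((j + 3) + (j + 2)) = G.coeff (j + 2) := by
    rw [coeff_mul_add_eq_of_natDegree_le (hX1 (j + 3)) hGd, hc1, one_mul]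
  have h5 : E.coeff (j + 5) = G.coeff (j + 2) := by
    rw [← h1, key, show j + (j + 5) = (j + 3) + (j + 2) by ring, h4]
  rw [h5, hG, coeff_add, coeff_X_pow_mul', if_neg (by omega), add_zero, coeff_mul,
    Nat.sum_antidiagonal_eq_sum_range_succ (fun a b => (PsiInf.shp K j).coeff a * p.coeff b)]
  refine sum_congr rfl fun i hi => ?_
  rw [mem_range] at hi
  rw [hp, NV.pinf_coeff, if_pos (by omega), show j + 3 - (j + 2 - i) = i + 1 by omega]

theorem cinf_one : (NV.cinf 1 : K) = 0 := by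
  rw [NV.cinf, NV.pinf]
  simp only [NV.EE, mul_zero, map_zero, add_zero, zero_add, pow_zero, mul_one]
  have h3 : (C (1 / 2) * (3 * X + 2) : K[X]) = C (3 / 2) * X ^ 1 + C 1 * X ^ 0 := by
    rw [NV.three_eq_C, NV.two_eq_C, mul_add, ← mul_assoc, ← C_mul, ← C_mul]
    norm_num
  rw [h3]
  simp only [coeff_add, coeff_C_mul, coeff_X_pow]
  norm_num

theorem cinf_two : (NV.cinf 2 : K) = -1 / 6 := by
  have h0 : (NV.pinf 1 : K[X]) = 0 := by
    rw [NV.pinf_succ, cinf_one, NV.pinf]; simp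
  rw [NV.cinf, h0]
  have h3 : NV.EE 1 (0 : K[X]) = C (3 / 2) * X ^ 3 + C (5 / 2) * X ^ 2 + C 1 * X ^ 1 := by
    rw [NV.EE]
    simp only [mul_zero, map_zero, add_zero, zero_add, pow_one]
    have e3 : (3 : K[X]) = C 3 := NV.three_eq_C
    have a1 : (C (3 / 2) : K[X]) = C (1 / 2) * 3 := by rw [e3, ← C_mul]; norm_num
    have a2 : (C (5 / 2) : K[X]) = C (1 / 2) * 5 := by
      rw [show (5 : K[X]) = C 5 from (map_ofNat C 5).symm, ← C_mul]; norm_num
    have a3 : (C 1 : K[X]) = C (1 / 2) * 2 := by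
      rw [NV.two_eq_C, ← C_mul]; norm_num
    rw [a1, a2, a3]; ring
  rw [h3]
  simp only [coeff_add, coeff_C_mul, coeff_X_pow]
  norm_num

theorem cinf_three : (NV.cinf 3 : K) = 7 / 54 := by
  have h0 : (NV.pinf 2 : K[X]) = C (-1 / 6) := by
    rw [NV.pinf_succ, NV.pinf_succ, cinf_one, cinf_two, NV.pinf]; simp
  rw [NV.cinf, h0]
  have h3 : NV.EE 2 (C (-1 / 6) : K[X]) = C (-7 / 6) * X ^ 4 + C (-20 / 6) * X ^ 3
      + C (-20 / 6) * X ^ 2 + C (-8 / 6) * X ^ 1 + C (-1 / 6) * X ^ 0 := by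
    rw [NV.EE, taylor_C]
    have a1 : (C (1 / 2) : K[X]) = C (-1 / 6) * (-3) := by
      rw [NV.three_eq_C, ← C_neg, ← C_mul]; norm_num
    have a2 : (C (-7 / 6) : K[X]) = C (-1 / 6) * 7 := by
      rw [show (7 : K[X]) = C 7 from (map_ofNat C 7).symm, ← C_mul]; norm_num
    have a3 : (C (-20 / 6) : K[X]) = C (-1 / 6) * 20 := by
      rw [show (20 : K[X]) = C 20 from (map_ofNat C 20).symm, ← C_mul]; norm_num
    have a4 : (C (-8 / 6) : K[X]) = C (-1 / 6) * 8 := by
      rw [show (8 : K[X]) = C 8 from (map_ofNat C 8).symm, ← C_mul]; norm_num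
    rw [a1, a2, a3, a4]; ring
  rw [h3]
  simp only [coeff_add, coeff_C_mul, coeff_X_pow]
  norm_num

/-- **the coefficients of `ψ_∞`** in `NVInf_664` and in `PsiInf_294` agree. -/
theorem cinf_succ (i : ℕ) : (NV.cinf (i + 1) : K) = ((PsiInf.mu i : ℚ) : K) := by
  have hk : PsiInf.Key (fun i => (NV.cinf (i + 1) : K)) := by
    rw [PsiInf.key_iff]
    intro j
    have h1 : (NV.cinf (j + 3 + 1) : K) =
        -(1 / 9) * (NV.EE (j + 3) (NV.pinf (j + 3) : K[X])).coeff (j + 3 + 2) := rfl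
    have h2 := coeff_EE_pinf (K := K) j
    rw [show j + 3 + 2 = j + 5 by ring, h2] at h1
    show 9 * (NV.cinf (j + 3 + 1) : K) = _
    rw [h1]
    ring
  have h := PsiInf.key_unique hk (PsiInf.key_mu_cast K) (by simp [cinf_one])
    (by
      show (NV.cinf 2 : K) = ((PsiInf.mu 1 : ℚ) : K)
      rw [cinf_two, PsiInf.mu_one]; push_cast; ring)
    (by
      show (NV.cinf 3 : K) = ((PsiInf.mu 2 : ℚ) : K)
      rw [cinf_three, PsiInf.mu_two]; push_cast; ring)
  exact congrFun h i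

end cinf

/-! ### `T_R(x)` over a commutative ring -/

section TRB

variable {B : Type*} [CommRing B]

/-- `T_R`, polynomial part of `R ψ_∞`, moments `m`, over a commutative ring. -/
noncomputable def TRB (m : ℕ → B) (R : B[X]) : B[X] :=
  ∑ k ∈ range (R.natDegree + 1), C (R.coeff k) * ∑ i ∈ range k, C (m i) * X ^ (k - 1 - i)

theorem TRB_eq (m : ℕ → B) (R : B[X]) {n : ℕ} (hn : R.natDegree < n) :
    TRB m R = ∑ k ∈ range n, C (R.coeff k) * ∑ i ∈ range k, C (m i) * X ^ (k - 1 - i) := by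
  rw [TRB]
  refine sum_subset (range_subset_range.mpr (by omega)) (fun k _ hk => ?_)
  rw [mem_range, not_lt] at hk
  rw [coeff_eq_zero_of_natDegree_lt (by omega), C_0, zero_mul]

theorem lin_C_mul (m : ℕ → B) (c : B) (P : B[X]) :
    P4Row.lin m (C c * P) = c * P4Row.lin m P := by
  rw [← smul_eq_C_mul, map_smul, smul_eq_mul]

theorem lin_X_pow (m : ℕ → B) (k : ℕ) : P4Row.lin m (X ^ k) = m k := by
  rw [P4Row.lin_apply, X_pow_eq_monomial, Polynomial.sum_monomial_index]
  · rw [one_mul]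
  · rw [zero_mul]

/-- `T_R(x) = L ((R(z) - R(x))/(z - x))`. -/
theorem eval_TRB (m : ℕ → B) (R : B[X]) (x : B) :
    (TRB m R).eval x = P4Row.lin m (R /ₘ (X - C x)) := by
  have h1 : R /ₘ (X - C x) =
      ∑ k ∈ range (R.natDegree + 1), C (R.coeff k) *
        ∑ i ∈ range k, C (x ^ i) * X ^ (k - 1 - i) := by
    conv_lhs => rw [R.as_sum_range_C_mul_X_pow]
    rw [P4Row.divX_sum]
    refine sum_congr rfl fun k _ => ?_
    rw [P4Row.divX_C_mul]
    have h := P4Row.pow_div (B := B) x 0 k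
    rw [C_0, sub_zero, sub_zero] at h
    rw [h]
  rw [h1, TRB, map_sum, eval_finsetSum]
  refine sum_congr rfl fun k _ => ?_
  rw [lin_C_mul, eval_mul, eval_C, map_sum, eval_finsetSum]
  congr 1
  rw [← sum_range_reflect]
  refine sum_congr rfl fun i hi => ?_
  rw [mem_range] at hi
  rw [lin_C_mul, lin_X_pow, eval_mul, eval_C, eval_pow, eval_X,
    show k - 1 - (k - 1 - i) = i by omega]
  ring

end TRB

/-! ### germs as values at `z + ε` -/

section germs

variable {K : Type*} [Field K] {A : Type*} [CommRing A]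

/-- the point `z + ε` of `A⟦ε⟧`. -/
noncomputable def pt (z : A) : PowerSeries A := PowerSeries.C z + PowerSeries.X

/-- constants: `K → A → A⟦ε⟧`. -/
noncomputable def cst (f : K →+* A) : K →+* PowerSeries A := (PowerSeries.C (R := A)).comp f

theorem cst_apply (f : K →+* A) (a : K) : cst f a = PowerSeries.C (f a) := rfl

/-- the germ of a polynomial at `z` is its value at `z + ε`. -/
theorem germ_eq_eval (f : K →+* A) (z : K) (P : K[X]) :
    PowerSeries.map f (Lam.germ z P) = (P.map (cst f)).eval (pt (f z)) := by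
  induction P using Polynomial.induction_on with
  | C a =>
    rw [Lam.germ_C, PowerSeries.map_C, Polynomial.map_C, eval_C, cst_apply]
  | add P Q hP hQ =>
    rw [Lam.germ_add, map_add, hP, hQ, Polynomial.map_add, eval_add]
  | monomial n a h =>
    have hX : Lam.germ z (X : K[X]) = PowerSeries.C z + PowerSeries.X := by
      have := Lam.germ_X_sub_C z (0 : K)
      rw [C_0, sub_zero, sub_zero] at this
      rw [this, add_comm]
    rw [pow_succ, ← mul_assoc, Lam.germ_mul, map_mul, h, hX, map_add, PowerSeries.map_C,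
      PowerSeries.map_X, Polynomial.map_mul (p := C a * X ^ n), eval_mul, Polynomial.map_X, eval_X,
      pt]

/-- the moments over `A⟦ε⟧`. -/
noncomputable def muB [CharZero K] (f : K →+* A) (i : ℕ) : PowerSeries A :=
  cst f ((PsiInf.mu i : ℚ) : K)

/-- `Tpart` of `Defs_89` is `T_R`. -/
theorem map_Tpart [CharZero K] (f : K →+* A) (R : K[X]) :
    (Tpart R).map (cst f) = TRB (muB f) (R.map (cst f)) := by
  have h1 : Tpart R = ∑ n ∈ range (R.natDegree + 1),
      ∑ i ∈ range (n + 1), C (R.coeff n * NV.cinf i) * X ^ (n - i) := by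
    rw [Tpart, Polynomial.sum_over_range]
    intro n; simp
  rw [h1, TRB_eq (muB f) (R.map (cst f)) (n := R.natDegree + 1)
    (Nat.lt_succ_of_le natDegree_map_le), Polynomial.map_sum]
  refine sum_congr rfl fun n _ => ?_
  rw [sum_range_succ']
  have h0 : (NV.cinf 0 : K) = 0 := by rw [NV.cinf]
  rw [h0, mul_zero, C_0, zero_mul, add_zero, Polynomial.map_sum, mul_sum]
  refine sum_congr rfl fun i hi => ?_
  rw [mem_range] at hi
  rw [Polynomial.map_mul, Polynomial.map_C, Polynomial.map_pow, Polynomial.map_X, map_mul, C_mul,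
    coeff_map, cinf_succ, muB, show n - (i + 1) = n - 1 - i by omega, mul_assoc]

/-- the germ of `Tpart R` at `z` is `L (R /ₘ (X - (z + ε)))`. -/
theorem germ_Tpart [CharZero K] (f : K →+* A) (z : K) (R : K[X]) :
    PowerSeries.map f (Lam.germ z (Tpart R)) =
      P4Row.lin (muB f) ((R.map (cst f)) /ₘ (X - C (pt (f z)))) := by
  rw [germ_eq_eval, map_Tpart, eval_TRB]

end germs

/-! ### the columns of `Design.Delta` -/

section cols

/-- the ring of jets `ℚ[X]⟦ε⟧`. -/
abbrev BB : Type := PowerSeries (ℚ[X])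

/-- `ℚ → ℚ[X]⟦ε⟧`. -/
noncomputable def phi : ℚ →+* BB := cst (C : ℚ →+* ℚ[X])

/-- the site `k/2 + ε`. -/
noncomputable def xk (k : ℤ) : BB := pt (C ((k : ℚ) / 2))

/-- the germ of `ψ` at `k/2`, `X` = Catalan's constant. -/
noncomputable def PsiX (k : ℤ) : BB :=
  PowerSeries.map C (psiG (0 : ℚ) k) +
    PowerSeries.C X * PowerSeries.map C (psiG (1 : ℚ) k - psiG 0 k)

/-- the germ of `g` at `k/2`. -/
noncomputable def GamX (k : ℤ) : BB := PowerSeries.map C (gG (K := ℚ) k)

/-- the functional `L` over `ℚ[X]⟦ε⟧`. -/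
noncomputable def linB : BB[X] →ₗ[BB] BB := P4Row.lin (fun i => phi (PsiInf.mu i))

/-- germ of `F = R ψ - T_R - Q g`. -/
noncomputable def FX (R Q : BB[X]) (k : ℤ) : BB :=
  R.eval (xk k) * PsiX k - linB (R /ₘ (X - C (xk k))) - Q.eval (xk k) * GamX k

theorem muB_eq : muB (C : ℚ →+* ℚ[X]) = fun i => phi (PsiInf.mu i) := by
  funext i
  rw [muB, phi, Rat.cast_id]

/-- general combination of `Fgerm` at `c = 0, 1`. -/
theorem Fgerm_X (R Q : ℚ[X]) (k : ℤ) :
    PowerSeries.map C (Fgerm (0 : ℚ) R (Tpart R) Q k) +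
      PowerSeries.C X * PowerSeries.map C (Fgerm (1 : ℚ) R (Tpart R) Q k -
        Fgerm (0 : ℚ) R (Tpart R) Q k) = FX (R.map phi) (Q.map phi) k := by
  have h1 := germ_Tpart (C : ℚ →+* ℚ[X]) ((k : ℚ) / 2) R
  have h2 := germ_eq_eval (C : ℚ →+* ℚ[X]) ((k : ℚ) / 2) R
  have h3 := germ_eq_eval (C : ℚ →+* ℚ[X]) ((k : ℚ) / 2) Q
  rw [muB_eq] at h1
  rw [FX, linB, xk, phi, ← h2, ← h3]
  rw [phi] at h1
  rw [← h1, PsiX, GamX]
  simp only [Fgerm, map_sub, map_mul]
  ring

theorem map_castHom_self (P : ℚ[X]) : P.map (Rat.castHom ℚ) = P := by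
  have : Rat.castHom ℚ = RingHom.id ℚ := by ext; simp
  rw [this, Polynomial.map_id]

/-- **R-columns**. -/
theorem colX_R (D : Design) (J : Fin D.c0 → D.Row) (l : Fin D.A) (k : D.Site) :
    D.colX J (Sum.inl l) k =
      ((D.rhoR * X ^ (l : ℕ)).map phi).eval (xk k) * PsiX k -
        linB (((D.rhoR * X ^ (l : ℕ)).map phi) /ₘ (X - C (xk k))) := by
  have h := Fgerm_X (D.rhoR * X ^ (l : ℕ)) 0 k
  rw [FX, Polynomial.map_zero, eval_zero, zero_mul, sub_zero] at h
  rw [← h]
  simp only [Design.colX, Design.colK, map_castHom_self]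

/-- **Q-columns**. -/
theorem colX_Q (D : Design) (J : Fin D.c0 → D.Row) (l : Fin D.Kq) (k : D.Site) :
    D.colX J (Sum.inr (Sum.inl l)) k =
      -(((D.rhoQ * X ^ (l : ℕ)).map phi).eval (xk k) * GamX k) := by
  have h := Fgerm_X 0 (D.rhoQ * X ^ (l : ℕ)) k
  have hT : Tpart (0 : ℚ[X]) = 0 := by simp [Tpart]
  rw [FX, Polynomial.map_zero, eval_zero, zero_mul, P4Row.divX_zero, map_zero, sub_zero, zero_sub,
    hT] at h
  rw [← h]
  simp only [Design.colX, Design.colK, map_castHom_self]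

/-- **unit columns**. -/
theorem colX_U (D : Design) (J : Fin D.c0 → D.Row) (i : Fin D.c0) (k : D.Site) :
    D.colX J (Sum.inr (Sum.inr i)) k = PowerSeries.map C (Lam.unitCol D.m ℚ (J i) k) := by
  simp only [Design.colX, Design.colK, sub_self, map_zero, mul_zero, add_zero]

/-- **T-columns** (free polynomial columns): the germ of `P` at `k/2` is `P (k/2 + ε)`. -/
theorem germ_T (P : ℚ[X]) (k : ℤ) :
    PowerSeries.map C (Lam.germ ((k : ℚ) / 2) P) = (P.map phi).eval (xk k) :=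
  germ_eq_eval (C : ℚ →+* ℚ[X]) ((k : ℚ) / 2) P

end cols

end Crest.Agent.R006.P4M531
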