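import Crest.Agent.R006.P4_GW_657
import Crest.Agent.R006.P4MatV_955
import Crest.Agent.R006.KapKinds_305

/-!
# Row 6, block P4, matrix side (helper830): the G-W reduction on 955's `Dat`

Row `i` = value at the node `Z c0` (`c0 = h - l'`, `p = 2h+1`), row `j` = value at the `W`-site
`H (-1-l') = c0 - p/2`, same class, same germ `ps`.  The coefficients of `row i - row j` are in the
table `kG.polC = ⟨⟨1,3⟩,⟨1,1⟩,⟨1,1⟩,false⟩`.
-/

set_option autoImplicit false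

namespace Crest.Agent.R006.P4M

open Polynomial Finset Tollx814 P4Toll961 P4GW657
open Crest.Agent.R006.D Crest.Agent.R006.PsiInf
open Crest.Agent.R006.P4M531 (pt cst phi linB BB)

lemma constCoeff_ys (c : ℕ) (z : Site) :
    PowerSeries.constantCoeff (ys c z) = C (z.val - (c : ℚ)) := by
  rw [ys, map_add, PowerSeries.constantCoeff_X, add_zero]
  exact PowerSeries.constantCoeff_C _

lemma constCoeff_phi (a : ℚ) : PowerSeries.constantCoeff (phi a) = C a :=
  PowerSeries.constantCoeff_C _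

lemma coeff_zero_br {p : ℕ} (e : Fin p → ℚ[X]) (c : Fin p) (z : Site) (ps : BB) (t : ℕ) :
    PowerSeries.coeff 0 (br e c z ps t) =
      PowerSeries.constantCoeff ps * C (z.val - ((c : ℕ) : ℚ)) ^ t -
        ∑ u ∈ range t, C (z.val - ((c : ℕ) : ℚ)) ^ (t - 1 - u) * C (momQ e c u) := by
  rw [PowerSeries.coeff_zero_eq_constantCoeff_apply, br, map_sub, map_mul, map_pow,
    constCoeff_ys, map_sum]
  simp only [map_mul, map_pow, constCoeff_ys, constCoeff_phi]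

/-- the bracket at the node (`y = 0`) -/
lemma node_br {A : Type*} [CommRing A] (psi : A) (m : ℕ → A) (t : ℕ) :
    psi * (0 : A) ^ t - ∑ u ∈ range t, (0 : A) ^ (t - 1 - u) * m u =
      if t = 0 then psi else -m (t - 1) := by
  rcases Nat.eq_zero_or_pos t with rfl | ht
  · simp
  · obtain ⟨t, rfl⟩ : ∃ k, t = k + 1 := ⟨t - 1, by omega⟩
    rw [if_neg (by omega), sum_range_succ, sum_eq_zero]
    · simp
    · intro k hk
      rw [mem_range] at hk
      have : t + 1 - 1 - k ≠ 0 := by omega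
      rw [zero_pow this, zero_mul]

/-- difference of the brackets of the node and of the `W`-site -/
lemma br_sub {p : ℕ} (e : Fin p → ℚ[X]) (c : Fin p) {zi zj : Site} (ps : BB) (t : ℕ)
    (hi : zi.val = ((c : ℕ) : ℚ)) {y : ℚ} (hj : zj.val - ((c : ℕ) : ℚ) = y) :
    PowerSeries.coeff 0 (br e c zi ps t) - PowerSeries.coeff 0 (br e c zj ps t) =
      redA (PowerSeries.constantCoeff ps) (C y) (fun u => C (momQ e c u)) t := by
  rw [coeff_zero_br, coeff_zero_br, hi, sub_self, C_0, node_br, hj, redA]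
  ring

namespace Dat

variable {p : ℕ} [hp : Fact p.Prime] {jR jT jQ jU ι : Type*} {D : Dat p jR jT jQ jU ι}

/-- the situation of the G-W reduction -/
structure GWrow (D : Dat p jR jT jQ jU ι) (i j : ι) : Prop where
  cs : D.cs j = D.cs i
  ps : D.ps j = D.ps i
  /-- `i` is the value at the node `c0` of the polar class `c0` -/
  oi : (D.ro i).2 = 0
  oj : (D.ro j).2 = 0
  ri : (D.ro i).1.val = ((D.cs i : ℕ) : ℚ)
  rj : (D.ro j).1.val - ((D.cs i : ℕ) : ℚ) = -(p : ℚ) / 2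
  pol : 2 * (D.cs i : ℕ) < p
  h2 : p ≠ 2
  psm : D.ps i ∈ (psFil (pbFil p)).F 0

namespace GWrow

variable {i j : ι}

omit hp in
lemma y_eq (p : ℕ) : (C (-(p : ℚ) / 2) : ℚ[X]) = -(C (p : ℚ) * C ((2 : ℚ)⁻¹)) := by
  rw [← C_mul, ← C_neg]
  congr 1
  ring

lemma y_mem1 (h2 : p ≠ 2) : (C (-(p : ℚ) / 2) : ℚ[X]) ∈ (pbFil p).F 1 := by
  rw [y_eq]
  exact AddSubgroup.neg_mem _ (mul_zero_mem _ C_p_mem (C_half_mem h2))

lemma psc (h : D.GWrow i j) : PowerSeries.constantCoeff (D.ps i) ∈ (pbFil p).F 0 := by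
  have := h.psm 0
  rw [PowerSeries.coeff_zero_eq_constantCoeff_apply] at this
  simpa using this

/-- **R-coefficients** -/
theorem cA {NL : ℕ} {z : ℕ → ℕ} (h : D.GWrow i j) (L : LocalInput p NL D.M D.e)
    (hNL : D.G + D.Nb ≤ NL) (hz : D.Zer z) (l : ℕ) :
    D.cA0 i l - D.cA0 j l ∈ (pbFil p).F (1 + P8.pos ((l : ℤ) + z (D.cs i) - 3)) := by
  rw [cA0, cA0]
  split_ifs with hl
  swap
  · rw [sub_zero]; exact AddSubgroup.zero_mem _
  rw [h.cs, h.ps, h.oi, h.oj, ← sum_sub_distrib]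
  refine (pbFil p).sum_mem _ _ _ fun g hg => ?_
  rw [mem_range] at hg
  rw [← mul_sub, br_sub D.e (D.cs i) (D.ps i) (g + l) h.ri h.rj]
  rcases Nat.eq_zero_or_pos (g + l) with h0 | h0
  · rw [h0, redA_zero, mul_zero]; exact AddSubgroup.zero_mem _
  · refine mul_mem' _ (hz (D.cs i) g) (redA_mem (pbFil p) (y_mem1 h.h2) h.psc (n := g + l)
      (fun k hk => L.mom_polar (D.cs i) h.pol k (by omega)) h0 le_rfl) ?_
    rw [P8.pos]
    push_cast
    omega

omit hp in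
lemma coeff_zero_ys_pow (c : ℕ) (z : Site) (s : ℕ) :
    PowerSeries.coeff 0 (ys c z ^ s) = C (z.val - (c : ℚ)) ^ s := by
  rw [PowerSeries.coeff_zero_eq_constantCoeff_apply, map_pow, constCoeff_ys]

/-- **X-coefficients** -/
lemma cB_eq (h : D.GWrow i j) (s : ℕ) :
    D.cB0 i s - D.cB0 j s = redB (C (-(p : ℚ) / 2)) s := by
  rw [cB0, cB0, h.cs, h.oi, h.oj, coeff_zero_ys_pow, coeff_zero_ys_pow, h.ri, h.rj, sub_self, C_0,
    redB, zero_pow_eq]

theorem cB_zero (h : D.GWrow i j) : D.cB0 i 0 - D.cB0 j 0 = 0 := by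
  rw [h.cB_eq, redB_zero]

theorem cB (h : D.GWrow i j) (s : ℕ) :
    D.cB0 i s - D.cB0 j s ∈ (pbFil p).F (1 + P8.pos ((s : ℤ) - 1)) := by
  rw [h.cB_eq]
  rcases Nat.eq_zero_or_pos s with rfl | hs
  · rw [redB_zero]; exact AddSubgroup.zero_mem _
  · refine (pbFil p).mono ?_ (redB_mem (pbFil p) (y_mem1 h.h2) s)
    rw [P8.pos]
    omega

/-- **Q-coefficients** -/
lemma cC_eq (h : D.GWrow i j) (u : ℕ) :
    D.cC0 i u - D.cC0 j u = redC (PowerSeries.constantCoeff (GamX (D.ro i).1))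
      (PowerSeries.constantCoeff (GamX (D.ro j).1)) (C (-(p : ℚ) / 2)) u := by
  rw [cC0, cC0, h.cs, h.oi, h.oj, PowerSeries.coeff_zero_eq_constantCoeff_apply,
    PowerSeries.coeff_zero_eq_constantCoeff_apply, map_mul, map_mul, map_pow, map_pow,
    constCoeff_ys, constCoeff_ys, h.ri, h.rj, sub_self, C_0, redC, zero_pow_eq]
  split_ifs with h0
  · rw [one_mul]
  · rw [zero_mul]

theorem cC (h : D.GWrow i j)
    (hg : PowerSeries.constantCoeff (GamX (D.ro i).1) -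
      PowerSeries.constantCoeff (GamX (D.ro j).1) ∈ (pbFil p).F 1)
    (hgj : GamX (D.ro j).1 ∈ (psFil (pbFil p)).F 0) (u : ℕ) :
    D.cC0 i u - D.cC0 j u ∈ (pbFil p).F (1 + P8.pos ((u : ℤ) - 1)) := by
  rw [h.cC_eq]
  rcases Nat.eq_zero_or_pos u with rfl | hu
  · refine (pbFil p).mono ?_ (redC_zero_mem (pbFil p) hg)
    rw [P8.pos]
    omega
  · have h1 := hgj 0
    rw [PowerSeries.coeff_zero_eq_constantCoeff_apply] at h1
    refine (pbFil p).mono ?_ (redC_mem (pbFil p) (y_mem1 h.h2) (by simpa using h1) hu)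
    rw [P8.pos]
    omega

/-- the whole table, in the form of the rows of `Net0 0` / `Rows0 0` -/
theorem hgam {hh l' : ℕ} (hp2 : p = 2 * hh + 1) (hl' : l' ≤ hh) {i j : ι}
    (hi : (D.ro i).1 = .Z ((hh : ℤ) - l')) (hj : (D.ro j).1 = .H (-1 - (l' : ℤ))) :
    PowerSeries.constantCoeff (GamX (D.ro i).1) -
      PowerSeries.constantCoeff (GamX (D.ro j).1) ∈ (pbFil p).F 1 := by
  rw [hi, hj]
  exact gam_half hp2 hl'

end GWrow

/-- the situation from the sites -/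
theorem gwrow_of {NL : ℕ} (L : LocalInput p NL D.M D.e) {hh l' : ℕ} (hp2 : p = 2 * hh + 1)
    (hl' : l' ≤ hh) {i j : ι} (hi : D.ro i = (.Z ((hh : ℤ) - l'), 0))
    (hj : D.ro j = (.H (-1 - (l' : ℤ)), 0)) (hci : (D.cs i : ℕ) = hh - l')
    (hcj : D.cs j = D.cs i) (hpi : D.ps i = psi' D.e D.M (D.cs i) (D.ro i).1)
    (hpj : D.ps j = D.ps i) : D.GWrow i j where
  cs := hcj
  ps := hpj
  oi := by rw [hi]
  oj := by rw [hj]
  ri := by
    rw [hi, hci, Site.val]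
    push_cast [Nat.cast_sub hl']
    ring
  rj := by
    rw [hj, hci, Site.val, hp2]
    push_cast [Nat.cast_sub hl']
    ring
  pol := by omega
  h2 := by omega
  psm := by
    rw [hpi, hi]
    have e : ((hh : ℤ) - l') = ((hh - l' : ℕ) : ℤ) := by omega
    simp only [e]
    exact L.psi_zero (D.cs i) (hh - l') hci (by omega)

/-- **The table of the reduced row** (`kG.polC`). -/
theorem gw_table {NL : ℕ} {z : ℕ → ℕ} (L : LocalInput p NL D.M D.e) (hNL : D.G + D.Nb ≤ NL)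
    (hz : D.Zer z) {hh l' : ℕ} (hp2 : p = 2 * hh + 1)
    (hl' : l' ≤ hh) {i j : ι} (hi : D.ro i = (.Z ((hh : ℤ) - l'), 0))
    (hj : D.ro j = (.H (-1 - (l' : ℤ)), 0)) (hci : (D.cs i : ℕ) = hh - l')
    (hcj : D.cs j = D.cs i) (hpi : D.ps i = psi' D.e D.M (D.cs i) (D.ro i).1)
    (hpj : D.ps j = D.ps i) (hR : InR p (D.ro j).1)
    (hclj : (D.cs j : ℕ) = cl p (D.ro j).1) (l : ℕ) :
    D.cA0 i l - D.cA0 j l ∈ (pbFil p).F (1 + P8.pos ((l : ℤ) + z (D.cs i) - 3)) ∧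
    D.cB0 i l - D.cB0 j l ∈ (pbFil p).F (1 + P8.pos ((l : ℤ) - 1)) ∧
    D.cC0 i l - D.cC0 j l ∈ (pbFil p).F (1 + P8.pos ((l : ℤ) - 1)) := by
  have h := gwrow_of L hp2 hl' hi hj hci hcj hpi hpj
  refine ⟨h.cA L hNL hz l, h.cB l, h.cC ?_ ?_ l⟩
  · exact GWrow.hgam hp2 hl' (by rw [hi]) (by rw [hj])
  · exact L.gam_polar (D.cs j) (D.ro j).1 hR hclj (by rw [hcj]; exact h.pol)

end Dat

end Crest.Agent.R006.P4M
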