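import Crest.Agent.R006.P4M_Bridge_531

/-!
# Row 6, block P4, matrix side: the recurrences of the germs in `ℚ[X]⟦ε⟧` (helper531)

`x = xk k = k/2 + ε`:
* `PsiX_step` : `(x+1)^3 ψ(k+2) + (2x+1)^3 ψ(k) = -(3x+2)/2`;
* `GamX_step` : `(x+1)^2 g(k+2) = (1/4) (2x+1)^2 g(k)`;
* `PsiX_zero` : `ψ(0) = -X`; `PsiX_negOne` : `ψ(-1/2) = 0`; `GamX_zero`, `GamX_negOne` : `1`.
-/

set_option autoImplicit false

namespace Crest.Agent.R006.P4M531

open Polynomial Finset

theorem xk_add_two (k : ℤ) : xk (k + 2) = xk k + 1 := by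
  rw [xk, xk, pt, pt]
  have : (C (((k + 2 : ℤ) : ℚ) / 2) : ℚ[X]) = C ((k : ℚ) / 2) + 1 := by
    rw [← C_1, ← C_add]; congr 1; push_cast; ring
  rw [this, map_add, map_one]; ring

theorem map_npt (z : ℚ) : PowerSeries.map (C : ℚ →+* ℚ[X]) (NV.pt z) = pt (C z) := by
  rw [NV.pt, map_add, PowerSeries.map_C, PowerSeries.map_X, pt, add_comm]

/-- the recurrence of `ψ` over a field, all sites -/
theorem psiG_step {K : Type*} [Field K] [CharZero K] (c : K) (k : ℤ) :
    (NV.pt ((k : K) / 2) + 1) ^ 3 * psiG c (k + 2) +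
      (2 * NV.pt ((k : K) / 2) + 1) ^ 3 * psiG c k =
      -(PowerSeries.C (1 / 2) * (3 * NV.pt ((k : K) / 2) + 2)) := by
  by_cases hk : k % 2 = 0
  · obtain ⟨i, rfl⟩ : ∃ i, k = 2 * i := ⟨k / 2, by omega⟩
    have h2 : (2 * i + 2) % 2 = 0 := by omega
    rw [psiG, psiG, if_pos hk, if_pos h2, show (2 * i + 2) / 2 = i + 1 by omega,
      show 2 * i / 2 = i by omega]
    have h := (NV.step_Z (-c) i).psi
    have e1 : ((2 * i : ℤ) : K) / 2 = (i : K) := by push_cast; ring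
    have e2 : NV.pt (i : K) + 1 = NV.pt ((i : K) + 1) := by
      simp only [NV.pt, map_add, map_one]; ring
    rw [e1, e2]
    linear_combination h
  · obtain ⟨i, rfl⟩ : ∃ i, k = 2 * i - 1 := ⟨(k + 1) / 2, by omega⟩
    have h2 : ¬ ((2 * i - 1 + 2) % 2 = 0) := by omega
    rw [psiG, psiG, if_neg hk, if_neg h2, show (2 * i - 1 + 2 + 1) / 2 = i + 1 by omega,
      show (2 * i - 1 + 1) / 2 = i by omega]
    have h := (NV.step_H0 (K := K) i).psi
    have e1 : ((2 * i - 1 : ℤ) : K) / 2 = (i : K) - 1 / 2 := by push_cast; ring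
    have e2 : NV.pt ((i : K) - 1 / 2) + 1 = NV.pt ((i : K) - 1 / 2 + 1) := by
      simp only [NV.pt, map_add, map_one]; ring
    rw [e1, e2]
    linear_combination h

theorem gG_step {K : Type*} [Field K] [CharZero K] (k : ℤ) :
    (NV.pt ((k : K) / 2) + 1) ^ 2 * gG (k + 2) =
      PowerSeries.C (1 / 4) * (2 * NV.pt ((k : K) / 2) + 1) ^ 2 * gG k := by
  by_cases hk : k % 2 = 0
  · obtain ⟨i, rfl⟩ : ∃ i, k = 2 * i := ⟨k / 2, by omega⟩
    have h2 : (2 * i + 2) % 2 = 0 := by omega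
    rw [gG, gG, if_pos hk, if_pos h2, show (2 * i + 2) / 2 = i + 1 by omega,
      show 2 * i / 2 = i by omega]
    have h := (NV.step_Z (0 : K) i).gam
    have e1 : ((2 * i : ℤ) : K) / 2 = (i : K) := by push_cast; ring
    have e2 : NV.pt (i : K) + 1 = NV.pt ((i : K) + 1) := by
      simp only [NV.pt, map_add, map_one]; ring
    rw [e1, e2]
    linear_combination h
  · obtain ⟨i, rfl⟩ : ∃ i, k = 2 * i - 1 := ⟨(k + 1) / 2, by omega⟩
    have h2 : ¬ ((2 * i - 1 + 2) % 2 = 0) := by omega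
    rw [gG, gG, if_neg hk, if_neg h2, show (2 * i - 1 + 2 + 1) / 2 = i + 1 by omega,
      show (2 * i - 1 + 1) / 2 = i by omega]
    have h := (NV.step_HG0 (K := K) 1 i).gam
    have hg : ∀ i, (NV.GamH0 (1 : K) i) = GamH0 i := by
      intro i; rw [NV.GamH0, GamH0, map_one]
    rw [hg, hg] at h
    have e1 : ((2 * i - 1 : ℤ) : K) / 2 = (i : K) - 1 / 2 := by push_cast; ring
    have e2 : NV.pt ((i : K) - 1 / 2) + 1 = NV.pt ((i : K) - 1 / 2 + 1) := by
      simp only [NV.pt, map_add, map_one]; ring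
    rw [e1, e2]
    linear_combination h

theorem PsiX_step (k : ℤ) :
    (xk k + 1) ^ 3 * PsiX (k + 2) + (2 * xk k + 1) ^ 3 * PsiX k =
      -(PowerSeries.C (C (1 / 2)) * (3 * xk k + 2)) := by
  have h0 := congrArg (PowerSeries.map (C : ℚ →+* ℚ[X])) (psiG_step (0 : ℚ) k)
  have h1 := congrArg (PowerSeries.map (C : ℚ →+* ℚ[X])) (psiG_step (1 : ℚ) k)
  simp only [map_add, map_mul, map_pow, map_one, map_neg, map_ofNat, map_npt,
    PowerSeries.map_C] at h0 h1
  rw [PsiX, PsiX, map_sub, map_sub, xk]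
  linear_combination (1 - PowerSeries.C X) * h0 + PowerSeries.C X * h1

theorem GamX_step (k : ℤ) :
    (xk k + 1) ^ 2 * GamX (k + 2) =
      PowerSeries.C (C (1 / 4)) * (2 * xk k + 1) ^ 2 * GamX k := by
  have h0 := congrArg (PowerSeries.map (C : ℚ →+* ℚ[X])) (gG_step (K := ℚ) k)
  simp only [map_add, map_mul, map_pow, map_one, map_ofNat, map_npt,
    PowerSeries.map_C] at h0
  rw [GamX, GamX, xk]
  exact h0

theorem PsiX_zero : PsiX 0 = PowerSeries.C (-X) := by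
  have h : ∀ c : ℚ, psiG c 0 = PowerSeries.C (-c) := fun c => by
    rw [psiG, if_pos (by norm_num)]; exact NV.PsiZ_zero (-c)
  rw [PsiX, h, h, ← map_sub, PowerSeries.map_C, PowerSeries.map_C, ← map_mul, ← map_add]
  congr 1
  simp

theorem PsiX_negOne : PsiX (-1) = 0 := by
  have h : ∀ c : ℚ, psiG c (-1) = 0 := fun c => by
    rw [psiG, if_neg (by norm_num)]
    exact NV.PsiH0_zero
  rw [PsiX, h, h, sub_self, map_zero, mul_zero, add_zero]

theorem GamX_zero : GamX 0 = 1 := by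
  rw [GamX, gG, if_pos (by norm_num)]
  have : (0 : ℤ) / 2 = 0 := by norm_num
  rw [this, NV.GamZ_zero, map_one]

theorem GamX_negOne : GamX (-1) = 1 := by
  rw [GamX, gG, if_neg (by norm_num)]
  have : ((-1 : ℤ) + 1) / 2 = 0 := by norm_num
  rw [this]
  have h : (GamH0 0 : PowerSeries ℚ) = 1 := rfl
  rw [h, map_one]

end Crest.Agent.R006.P4M531
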