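import Crest.Agent.R006.P4_LocalInput_955
import Crest.Agent.R006.P4Class_280
import Crest.Agent.R006.P4_BaseO_170
import Crest.Agent.R6K.P4L_Class_630

/-!
Row 6, block P4: the fields `sum_e`, `mom_polar`, `mom_regular` of 955's `LocalInput` (helper280).

* `dvd_polar_of_other`, `dvd_regular_of_other` : the class version of Lemma L for GIVEN `e` (only
  `e ∈ J O p d ^ N` for `d ≠ c` is used), ring-generic.
* `mom_mem_polar`, `mom_mem_regular` : `momQ e c t` for `e c = (eO c).map (O p).subtype`.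
* `mom_int_polar`, `mom_int_regular` : the same for `e c = (eZ c).map (Int.castRingHom ℚ)` with
  630's `IsIdem p N' eZ`; `sum_int` : `∑ c, e c = 1`.
-/

set_option autoImplicit false

open Polynomial Finset

namespace Crest.Agent.R006.P4Mom280

open Crest.Agent.R006.P4Idem280 Crest.Agent.R006.P4Class280
open Tollx814 P4Toll961

section generic

variable {O : Type*} [CommRing O]

theorem ord_of_other {p : ℕ} (hp : 0 < p) {N : ℕ} {e : O[X]} {c : ℕ}
    (he : ∀ d < p, d ≠ c → e ∈ J O p d ^ N) {x : ℕ} {F : O[X]} (hF : F ∈ J O p c ^ x) :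
    Ord O p (c : ℤ) x N (e * F) := by
  rw [J_eq] at hF
  refine ⟨Ideal.mul_mem_left _ _ hF, ?_⟩
  intro d hd
  apply Ideal.mul_mem_right
  have hp' : (0 : ℤ) < p := by exact_mod_cast hp
  have hr0 := Int.emod_nonneg d hp'.ne'
  have hr1 := Int.emod_lt_of_pos d hp'
  obtain ⟨r, hr⟩ := Int.eq_ofNat_of_zero_le hr0
  have hrd : (p : ℤ) ∣ (r : ℤ) - d := by
    rw [← hr]
    exact ⟨-(d / p), by rw [Int.emod_def]; ring⟩
  rw [← Jc_congr p _ _ hrd, ← J_eq]
  have hrp : r < p := by rw [hr] at hr1; exact_mod_cast hr1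
  refine he r hrp ?_
  rintro rfl
  exact hd hrd

variable {p : ℕ} [hp : Fact p.Prime]

theorem lemmaL_Lam (hodd : Odd p) (h2u : IsUnit (2 : O)) (h3u : IsUnit (3 : O))
    {L : O[X] →ₗ[O] O} (hL : LemL255.IsMom L) (k : ℕ) (Q : O[X]) :
    (p : O) ^ (k - 1) ∣ FuncLx170.Lam (fun i => L (X ^ i)) (FuncLx170.theta O p ^ k * Q) := by
  rw [← eq_Lam L, ← theta_eq]
  exact LemL255.lemmaL p hodd h2u h3u L hL k Q

theorem key_Lam {L : O[X] →ₗ[O] O} (hL : LemL255.IsMom L) :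
    FuncLx170.Key (fun i => L (X ^ i)) := by
  intro P
  rw [← eq_Lam L]
  exact hL.key P

/-- all classes -/
theorem dvd_polar_of_other (hodd : Odd p) (h2u : IsUnit (2 : O)) (h3u : IsUnit (3 : O))
    (hu : ∀ a : ℕ, 0 < a → a < p → IsUnit (a : O)) {L : O[X] →ₗ[O] O} (hL : LemL255.IsMom L)
    {N : ℕ} {e : O[X]} {c : ℕ} (he : ∀ d < p, d ≠ c → e ∈ J O p d ^ N) {x : ℕ} {F : O[X]}
    (hF : F ∈ J O p c ^ x) : (p : O) ^ (min x N - 1) ∣ L (e * F) := by
  have h := (ord_of_other hp.out.pos he hF).dvd hp.out.pos hu (lemmaL_Lam hodd h2u h3u hL)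
  rwa [← eq_Lam L] at h

/-- regular classes -/
theorem dvd_regular_of_other (hodd : Odd p) (h2u : IsUnit (2 : O)) (h3u : IsUnit (3 : O))
    (hu : ∀ a : ℕ, 0 < a → a < p → IsUnit (a : O)) {L : O[X] →ₗ[O] O} (hL : LemL255.IsMom L)
    {N : ℕ} {e : O[X]} {c : ℕ} (hc : c < p) (h2c : p < 2 * c)
    (he : ∀ d < p, d ≠ c → e ∈ J O p d ^ N) {x : ℕ} {F : O[X]}
    (hF : F ∈ J O p c ^ x) : (p : O) ^ (min (x + 3) N - 1) ∣ L (e * F) := by
  have h := (ord_of_other hp.out.pos he hF).dvd_regular hp.out.pos hu (key_Lam hL)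
    (lemmaL_Lam hodd h2u h3u hL) h2c hc
  rwa [← eq_Lam L] at h

theorem X_sub_pow_mem (q c t : ℕ) : (X - C (c : O)) ^ t ∈ J O q c ^ t :=
  Ideal.pow_mem_pow (Ideal.subset_span (by simp)) t

end generic

section rational

variable {p : ℕ} [hp : Fact p.Prime]

open P4BaseOx170

/-- divisibility in `ℤ_(p)` gives the filtration. -/
theorem C_mem_of_dvd (x : O p) (k : ℕ) (h : (p : O p) ^ k ∣ x) :
    (C (x : ℚ) : ℚ[X]) ∈ (pbFil p).F (k : ℤ) := by
  rw [mem_pbFil]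
  apply ProdBound481.PB.C
  exact (dvd_pow_iff x k).1 h

variable (hp5 : 5 ≤ p) {e : Fin p → ℚ[X]} {eO : ℕ → (O p)[X]}

include hp5 in
theorem odd_of_five : Odd p := hp.out.odd_of_ne_two (by omega)

theorem momQ_eq (he : ∀ c : Fin p, e c = (eO c).map (O p).subtype) (c : Fin p) (t : ℕ) :
    P4M.momQ e c t
      = ((P4Row.lin (muO p hp5) (eO c * (X - C ((c : ℕ) : O p)) ^ t) : O p) : ℚ) := by
  rw [lin_muO_coe]
  unfold P4M.momQ P4D.mom
  rw [he c]
  have h1 : (C ((c : ℕ) : O p) : (O p)[X]).map (O p).subtype = C ((c : ℕ) : ℚ) := by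
    rw [Polynomial.map_C, map_natCast]
  rw [Polynomial.map_mul, Polynomial.map_pow, Polynomial.map_sub, Polynomial.map_X, h1]

include hp5 in
theorem mom_mem_polar (he : ∀ c : Fin p, e c = (eO c).map (O p).subtype) {N' : ℕ}
    (hoff : ∀ c < p, ∀ d < p, d ≠ c → eO c ∈ J (O p) p d ^ N') {N : ℕ} (hN : N ≤ N')
    (c : Fin p) (t : ℕ) (ht : t ≤ N) :
    C (P4M.momQ e c t) ∈ (pbFil p).F (max 0 ((t : ℤ) - 1)) := by
  have h := dvd_polar_of_other (odd_of_five hp5) (isUnit_two (by omega)) (isUnit_three (by omega))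
    (fun a h0 h1 => isUnit_of_lt h0 h1) (isMom_muO p hp5) (hoff c c.2)
    (X_sub_pow_mem p (c : ℕ) t)
  rw [min_eq_left (ht.trans hN)] at h
  rw [momQ_eq hp5 he]
  have h1 := C_mem_of_dvd _ _ h
  have h2 : ((t - 1 : ℕ) : ℤ) = max 0 ((t : ℤ) - 1) := by omega
  rwa [h2] at h1

include hp5 in
theorem mom_mem_regular (he : ∀ c : Fin p, e c = (eO c).map (O p).subtype) {N' : ℕ}
    (hoff : ∀ c < p, ∀ d < p, d ≠ c → eO c ∈ J (O p) p d ^ N') {N : ℕ} (hN : N + 3 ≤ N')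
    (c : Fin p) (h2c : p < 2 * (c : ℕ)) (t : ℕ) (ht : t ≤ N) :
    C (P4M.momQ e c t) ∈ (pbFil p).F ((t : ℤ) + 2) := by
  have h := dvd_regular_of_other (odd_of_five hp5) (isUnit_two (by omega))
    (isUnit_three (by omega)) (fun a h0 h1 => isUnit_of_lt h0 h1) (isMom_muO p hp5) c.2 h2c
    (hoff c c.2) (X_sub_pow_mem p (c : ℕ) t)
  have h3 : min (t + 3) N' - 1 = t + 2 := by omega
  rw [h3] at h
  rw [momQ_eq hp5 he]
  exact_mod_cast C_mem_of_dvd _ _ h

end rational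

section integers

variable {p : ℕ} [hp : Fact p.Prime] {eZ : ℕ → ℤ[X]} {N' : ℕ}

open P4BaseOx170

theorem J_of_Jz (c d : ℕ) (h : eZ c ∈ R6K.P4L.Jz ℤ p (d : ℤ) ^ N') :
    (eZ c).map (Int.castRingHom (O p)) ∈ J (O p) p d ^ N' := by
  have h1 := Ideal.mem_map_of_mem (Polynomial.mapRingHom (Int.castRingHom (O p))) h
  rw [Ideal.map_pow] at h1
  refine Ideal.pow_right_mono ?_ N' h1
  unfold R6K.P4L.Jz J
  rw [Ideal.map_sup, Ideal.map_span, Ideal.map_span, Set.image_singleton, Set.image_singleton,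
    ← Ideal.span_union]
  apply Ideal.span_mono
  intro x hx
  simp only [Set.mem_union, Set.mem_singleton_iff] at hx
  simp only [Set.mem_insert_iff, Set.mem_singleton_iff]
  rcases hx with rfl | rfl
  · left; simp
  · right; simp

theorem map_map_Q (c : Fin p) : (eZ c).map (Int.castRingHom ℚ)
    = ((eZ c).map (Int.castRingHom (O p))).map (O p).subtype := by
  rw [Polynomial.map_map]
  congr 1

omit hp in
theorem sum_int (he : R6K.P4L.IsIdem p N' eZ) :
    ∑ c : Fin p, (eZ c).map (Int.castRingHom ℚ) = 1 := by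
  have h := congrArg (Polynomial.map (Int.castRingHom ℚ)) he.sum_eq
  rw [Polynomial.map_sum, Polynomial.map_one] at h
  rw [← h]
  exact Fin.sum_univ_eq_sum_range (fun c => (eZ c).map (Int.castRingHom ℚ)) p

/-- field `mom_polar` of `LocalInput` -/
theorem mom_int_polar (hp5 : 5 ≤ p) (he : R6K.P4L.IsIdem p N' eZ) {N : ℕ} (hN : N ≤ N')
    (c : Fin p) (t : ℕ) (ht : t ≤ N) :
    C (P4M.momQ (fun c : Fin p => (eZ c).map (Int.castRingHom ℚ)) c t)
      ∈ (pbFil p).F (max 0 ((t : ℤ) - 1)) :=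
  mom_mem_polar hp5 (eO := fun c => (eZ c).map (Int.castRingHom (O p))) (fun c => map_map_Q c)
    (fun c hc d hd hdc => J_of_Jz c d (he.off c hc d hd hdc)) hN c t ht

/-- field `mom_regular` of `LocalInput` -/
theorem mom_int_regular (hp5 : 5 ≤ p) (he : R6K.P4L.IsIdem p N' eZ) {N : ℕ} (hN : N + 3 ≤ N')
    (c : Fin p) (h2c : p < 2 * (c : ℕ)) (t : ℕ) (ht : t ≤ N) :
    C (P4M.momQ (fun c : Fin p => (eZ c).map (Int.castRingHom ℚ)) c t)
      ∈ (pbFil p).F ((t : ℤ) + 2) :=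
  mom_mem_regular hp5 (eO := fun c => (eZ c).map (Int.castRingHom (O p))) (fun c => map_map_Q c)
    (fun c hc d hd hdc => J_of_Jz c d (he.off c hc d hd hdc)) hN c h2c t ht

end integers

end Crest.Agent.R006.P4Mom280
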