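import Crest.Agent.R006.P4_LocalInput_955
import Crest.Agent.R006.P4M_Bridge_531
import Crest.Agent.R006.P4M_ValZ_538

/-!
# Row 6, block P4, matrix side, part A (helper955): entries of `Defs.lean` as row functionals

* `entR_eq`, `entT_eq`, `entQ_eq` : the entries as coefficients of `R(x) ψ - L(R /ₘ (X - x))`,
  `T(x)`, `Q(x) g` in `ℚ[X]⟦ε⟧`, `x = z + ε`;
* `mom_eq`, `wc_eq` : 305's moments over `ℚ[X]⟦ε⟧` are constants;
* `rowR`, `rowT`, `rowQ` : the expansions in Taylor coefficients at the class of the site.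
-/

set_option autoImplicit false

namespace Crest.Agent.R006.P4M

open Polynomial Finset Tollx814 P4Toll961
open Crest.Agent.R006.D Crest.Agent.R006.PsiInf
open Crest.Agent.R006.P4M531 (pt cst phi linB BB germ_eq_eval eval_TRB TRB TRB_eq cst_apply)

lemma phi_apply (a : ℚ) : phi a = PowerSeries.C (C a) := rfl

lemma coeff_phi_mul (j : ℕ) (a : ℚ) (f : BB) :
    PowerSeries.coeff j (phi a * f) = C a * PowerSeries.coeff j f := by
  rw [phi_apply, PowerSeries.coeff_C_mul]

lemma coeff_mul_phi (j : ℕ) (a : ℚ) (f : BB) :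
    PowerSeries.coeff j (f * phi a) = PowerSeries.coeff j f * C a := by
  rw [mul_comm, coeff_phi_mul, mul_comm]

lemma coeff_phi_zero (j : ℕ) (a : ℚ) : PowerSeries.coeff j (phi a) = if j = 0 then C a else 0 := by
  rw [phi_apply, PowerSeries.coeff_C]

/-- coefficients of the Taylor expansion of a mapped polynomial -/
lemma taylor_map_coeff (c : ℚ) (P : ℚ[X]) (t : ℕ) :
    (taylor (phi c) (P.map phi)).coeff t = phi ((taylor c P).coeff t) := by
  have h : taylor (phi c) (P.map phi) = (taylor c P).map phi := by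
    rw [taylor_apply, taylor_apply, Polynomial.map_comp]
    simp
  rw [h, coeff_map]

/-! ### the entries -/

lemma map_gm (z : ℚ) (P : ℚ[X]) :
    PowerSeries.map C (NV.gm z P) = (P.map phi).eval (PowerSeries.C (C z) + PowerSeries.X) :=
  germ_eq_eval (C : ℚ →+* ℚ[X]) z P

lemma tau_map (R : ℚ[X]) :
    (tau R).map phi = TRB (fun i => phi (mu i)) (R.map phi) := by
  have h1 : tau R = ∑ n ∈ range (R.natDegree + 1),
      C (R.coeff n) * ∑ i ∈ range n, C (mu i) * X ^ (n - 1 - i) := by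
    rw [tau, TR_apply, Polynomial.sum_over_range]
    intro n; simp
  rw [h1, TRB_eq _ (R.map phi) (n := R.natDegree + 1) (Nat.lt_succ_of_le natDegree_map_le),
    Polynomial.map_sum]
  refine sum_congr rfl fun n _ => ?_
  rw [Polynomial.map_mul, Polynomial.map_C, Polynomial.map_sum, coeff_map]
  congr 1
  refine sum_congr rfl fun i _ => ?_
  rw [Polynomial.map_mul, Polynomial.map_C, Polynomial.map_pow, Polynomial.map_X]

lemma map_gm_tau (z : ℚ) (R : ℚ[X]) :
    PowerSeries.map C (NV.gm z (tau R)) =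
      linB ((R.map phi) /ₘ (X - C (PowerSeries.C (C z) + PowerSeries.X : BB))) := by
  rw [map_gm, tau_map, eval_TRB]
  rfl

/-- the `R`-entry -/
theorem entR_eq (R : ℚ[X]) (ro : D.Row) :
    C (ent0 R ro) - X * C (ent1 R ro) = PowerSeries.coeff ro.2
      ((R.map phi).eval (xs ro.1) * PsiX ro.1 - linB ((R.map phi) /ₘ (X - C (xs ro.1)))) := by
  rw [xs, ← map_gm_tau, ← map_gm, PsiX]
  have e : PowerSeries.map C (NV.gm ro.1.val R) *
      (PowerSeries.map C (psi0 ro.1) - PowerSeries.C X * PowerSeries.map C (psi1 ro.1)) -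
      PowerSeries.map C (NV.gm ro.1.val (tau R)) =
      PowerSeries.map C (NV.gm ro.1.val R * psi0 ro.1 - NV.gm ro.1.val (tau R)) -
        PowerSeries.C X * PowerSeries.map C (NV.gm ro.1.val R * psi1 ro.1) := by
    simp only [map_sub, map_mul]
    ring
  rw [e, map_sub, PowerSeries.coeff_C_mul, PowerSeries.coeff_map, PowerSeries.coeff_map]
  rfl

/-- the `T`-entry -/
theorem entT_eq (T : ℚ[X]) (ro : D.Row) :
    C (entT T ro) = PowerSeries.coeff ro.2 ((T.map phi).eval (xs ro.1)) := by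
  rw [xs, ← map_gm, PowerSeries.coeff_map]
  rfl

/-- the `Q`-entry -/
theorem entQ_eq (Q : ℚ[X]) (ro : D.Row) :
    C (entQ Q ro) = PowerSeries.coeff ro.2 ((Q.map phi).eval (xs ro.1) * GamX ro.1) := by
  rw [xs, ← map_gm, GamX, ← map_mul, PowerSeries.coeff_map]
  rfl

lemma xs_eq (c : ℕ) (z : Site) : xs z = phi (c : ℚ) + ys c z := by
  rw [xs, ys, phi_apply, ← add_assoc, ← map_add, ← C_add]
  congr 3
  ring

/-! ### moments -/

variable {p : ℕ}

/-- mapped idempotents, centres, inverse differences -/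
noncomputable def eB (e : Fin p → ℚ[X]) (c : Fin p) : BB[X] := (e c).map phi

/-- centres -/
noncomputable def cB (c : Fin p) : BB := phi ((c : ℕ) : ℚ)

/-- inverse differences -/
noncomputable def dB (c0 c : Fin p) : BB := phi ((((c0 : ℕ) : ℚ) - ((c : ℕ) : ℚ))⁻¹)

lemma lin_mu_eq (P : ℚ[X]) : P4Row.lin mu P = lin mu P := by
  rw [P4Row.lin_apply, PsiInf.lin_apply]

lemma linB_map (P : ℚ[X]) : linB (P.map phi) = phi (lin mu P) := by
  rw [← lin_mu_eq]
  exact P4Row.lin_map phi mu P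

lemma mom_eq (e : Fin p → ℚ[X]) (c : Fin p) (t : ℕ) :
    P4D.mom linB (eB e) cB c t = phi (momQ e c t) := by
  rw [P4D.mom, momQ, P4D.mom, ← linB_map]
  congr 1
  rw [Polynomial.map_mul, Polynomial.map_pow, Polynomial.map_sub, Polynomial.map_X,
    Polynomial.map_C]
  rfl

lemma wc_eq (e : Fin p → ℚ[X]) (M : ℕ) (c0 c : Fin p) (k t : ℕ) :
    P4D.wc linB (eB e) cB (dB c0) M c k t = phi (wcQ e M c0 c k t) := by
  rw [P4D.wc, wcQ, P4D.wc, map_sum]
  refine sum_congr rfl fun m _ => ?_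
  rw [mom_eq, map_mul, map_mul, map_mul, map_pow, map_pow, map_neg, map_one, map_natCast]
  rfl

lemma dB_spec {c0 c : Fin p} (h : c ≠ c0) : (cB c0 - cB c) * dB c0 c = 1 := by
  rw [cB, cB, dB, ← map_sub, ← map_mul, mul_inv_cancel₀, map_one]
  intro h0
  apply h
  have h1 : ((c0 : ℕ) : ℚ) = ((c : ℕ) : ℚ) := sub_eq_zero.mp h0
  exact Fin.ext (by exact_mod_cast h1.symm)

lemma taylor_cB (c : Fin p) (P : ℚ[X]) (t : ℕ) :
    (taylor (cB c) (P.map phi)).coeff t = phi ((taylor ((c : ℕ) : ℚ) P).coeff t) :=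
  taylor_map_coeff _ _ _

/-! ### the row functionals -/

/-- the bracket: coefficient of the `t`-th Taylor coefficient of `R` at the own class -/
noncomputable def br (e : Fin p → ℚ[X]) (c0 : Fin p) (z : Site) (ps : BB) (t : ℕ) : BB :=
  ps * ys c0 z ^ t - ∑ u ∈ range t, ys c0 z ^ (t - 1 - u) * phi (momQ e c0 u)

/-- the error term -/
noncomputable def erR (e : Fin p → ℚ[X]) (M : ℕ) (c0 : Fin p) (z : Site) (R : ℚ[X]) : BB :=
  ∑ c ∈ univ.erase c0, linB (eB e c * ((X - C (cB c) - C (ys c0 z)) * C (dB c0 c)) ^ M *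
    ((R.map phi) /ₘ (X - C (xs z))))

/-- the row formula in `ℚ[X]⟦ε⟧` -/
theorem row_BB (e : Fin p → ℚ[X]) (he : ∑ c, e c = 1) (M : ℕ) (c0 : Fin p) (z : Site)
    (R : ℚ[X]) {n : ℕ} (hn : R.natDegree < n) :
    (R.map phi).eval (xs z) * PsiX z - linB ((R.map phi) /ₘ (X - C (xs z))) =
      ∑ t ∈ range n, phi ((taylor ((c0 : ℕ) : ℚ) R).coeff t) * br e c0 z (psi' e M c0 z) t
      + ∑ c ∈ univ.erase c0, ∑ t ∈ range n, phi ((taylor ((c : ℕ) : ℚ) R).coeff t) *
          ∑ k ∈ range M, ys c0 z ^ k * phi (wcQ e M c0 c k t)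
      - erR e M c0 z R := by
  have hsum : ∑ c, eB e c = 1 := by
    simp only [eB]
    rw [← Polynomial.map_sum, he, Polynomial.map_one]
  have hD : (X - C (xs z)) * ((R.map phi) /ₘ (X - C (xs z))) =
      R.map phi - C ((R.map phi).eval (xs z)) := by
    have := P4Row.eq_eval_add (R.map phi) (xs z)
    linear_combination -this
  have hn' : (R.map phi).natDegree < n := lt_of_le_of_lt natDegree_map_le hn
  have key := P4D.row_identity linB (eB e) hsum cB c0 (dB c0) (fun c hc => dB_spec hc) (xs z)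
    (ys c0 z) (xs_eq c0 z) M (R.map phi) _ hD hn' (PsiX z)
  simp only [taylor_cB, wc_eq, mom_eq] at key
  exact key

/-- `T(x)` in the local coordinate -/
theorem eval_xs (c0 : ℕ) (z : Site) (T : ℚ[X]) {n : ℕ} (hn : T.natDegree < n) :
    (T.map phi).eval (xs z) = ∑ t ∈ range n, phi ((taylor (c0 : ℚ) T).coeff t) * ys c0 z ^ t := by
  rw [xs_eq c0 z, P4D.eval_taylor_sum _ _ _ (lt_of_le_of_lt natDegree_map_le hn)]
  exact sum_congr rfl fun t _ => by rw [taylor_map_coeff]

/-- changing the germ of `ψ` where `R` vanishes -/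
theorem change_psi (e : Fin p → ℚ[X]) (c0 : Fin p) (z : Site) (R : ℚ[X]) (ps ps' : BB)
    {n : ℕ} (hn : R.natDegree < n) :
    ∑ t ∈ range n, phi ((taylor ((c0 : ℕ) : ℚ) R).coeff t) * br e c0 z ps t =
      ∑ t ∈ range n, phi ((taylor ((c0 : ℕ) : ℚ) R).coeff t) * br e c0 z ps' t +
        (R.map phi).eval (xs z) * (ps - ps') := by
  rw [eval_xs c0 z R hn, sum_mul, ← sum_add_distrib]
  refine sum_congr rfl fun t _ => ?_
  simp only [br]
  ring

end Crest.Agent.R006.P4M
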