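import Crest.Agent.R006.P4G4_226

/-!
Row 6, block P4 (helper226, for helper657's row reductions): `evH h H f = ∑_{j<H} h^j [ε^j] f`.

* `evH_X_sub_mul` : `evH h H ((X - h) ψ) = -h^H [ε^(H-1)] ψ`, exactly;
* `evH_pow_mem` : `evH h H ((X - h)^s φ) ∈ F (max H s)` for `s ≥ 1`, `φ` integral, `h ∈ F 1`;
* `evH_pow_one_eq_zero` : it is `0` for `φ = 1`, `1 ≤ s < H`;
* `evH_pow_sq`, `evH_pow_sq_three` : `φ = O(ε^2)`;
* `evH_germ` : `evH h H (R(n - h + ε) φ) = ∑_s R^[s](n) evH h H ((X - h)^s φ)`;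
* `PsiZ_star_H`, `GamZ_star_H` : the congruences for every `H ≤ 3`;
* `eval_sub_eval` : `R(n) - R(n-h) = -∑_{s ≥ 1} R^[s](n) (-h)^s`.
-/

set_option autoImplicit false
set_option linter.unusedSectionVars false

namespace Crest.Agent.R006.P4G226

open Finset

section Ring

variable {A : Type*} [CommRing A]

/-- truncated evaluation -/
noncomputable def evH (h : A) (H : ℕ) (f : PowerSeries A) : A :=
  ∑ j ∈ range H, h ^ j * PowerSeries.coeff j f

theorem evH_zero_len (h : A) (f : PowerSeries A) : evH h 0 f = 0 := by simp [evH]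

theorem evH_three (h : A) (f : PowerSeries A) : evH h 3 f = ev h f := by
  simp [evH, ev, Finset.sum_range_succ]

theorem evH_add (h : A) (H : ℕ) (f g : PowerSeries A) :
    evH h H (f + g) = evH h H f + evH h H g := by
  unfold evH
  rw [← Finset.sum_add_distrib]
  exact Finset.sum_congr rfl fun j _ => by rw [map_add]; ring

theorem evH_C_mul (h c : A) (H : ℕ) (f : PowerSeries A) :
    evH h H (PowerSeries.C c * f) = c * evH h H f := by
  unfold evH
  rw [Finset.mul_sum]
  exact Finset.sum_congr rfl fun j _ => by rw [PowerSeries.coeff_C_mul]; ring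

theorem evH_sum {ι : Type*} (h : A) (H : ℕ) (s : Finset ι) (f : ι → PowerSeries A) :
    evH h H (∑ i ∈ s, f i) = ∑ i ∈ s, evH h H (f i) := by
  classical
  induction s using Finset.induction_on with
  | empty => simp [evH]
  | insert a s ha ih => rw [Finset.sum_insert ha, Finset.sum_insert ha, evH_add, ih]

/-- the telescoping identity -/
theorem evH_X_sub_mul (h : A) (H : ℕ) (ψ : PowerSeries A) :
    evH h (H + 1) ((PowerSeries.X - PowerSeries.C h) * ψ) =
      -(h ^ (H + 1) * PowerSeries.coeff H ψ) := by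
  induction H with
  | zero =>
    simp only [evH, zero_add, Finset.sum_range_one, pow_zero, one_mul]
    rw [sub_mul, map_sub, PowerSeries.coeff_C_mul, PowerSeries.coeff_zero_X_mul]
    ring
  | succ H ih =>
    unfold evH at ih ⊢
    rw [Finset.sum_range_succ, ih, sub_mul, map_sub, PowerSeries.coeff_C_mul,
      PowerSeries.coeff_succ_X_mul]
    ring

variable (Fil : Tollx814.ZFil A)

theorem powF {x : A} (h : x ∈ Fil.F 1) (k : ℕ) : x ^ k ∈ Fil.F k := by
  induction k with
  | zero => simpa using Fil.one_mem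
  | succ k ih =>
    rw [pow_succ]
    have := Fil.mul_mem ih h
    rw [Nat.cast_succ]
    exact this

theorem natF (n : ℕ) : (n : A) ∈ Fil.F 0 := by
  induction n with
  | zero => rw [Nat.cast_zero]; exact (Fil.F 0).zero_mem
  | succ n ih => rw [Nat.cast_succ]; exact (Fil.F 0).add_mem ih Fil.one_mem

/-- `[ε^j] ((X - h)^s φ) ∈ F (s - j)` and `∈ F 0` -/
theorem coeff_pow_mem {h : A} (hh : h ∈ Fil.F 1) {φ : PowerSeries A}
    (hφ : ∀ j, PowerSeries.coeff j φ ∈ Fil.F 0) (s : ℕ) :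
    ∀ j : ℕ, PowerSeries.coeff j ((PowerSeries.X - PowerSeries.C h) ^ s * φ) ∈
      Fil.F (max 0 ((s : ℤ) - (j : ℤ))) := by
  induction s with
  | zero =>
    intro j
    rw [pow_zero, one_mul]
    have : max 0 (((0 : ℕ) : ℤ) - (j : ℤ)) = 0 := by
      rw [Nat.cast_zero]; omega
    rw [this]; exact hφ j
  | succ s ih =>
    intro j
    rw [pow_succ', mul_assoc, sub_mul, map_sub, PowerSeries.coeff_C_mul]
    refine (Fil.F _).sub_mem ?_ ?_
    · cases j with
      | zero => rw [PowerSeries.coeff_zero_X_mul]; exact (Fil.F _).zero_mem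
      | succ j =>
        rw [PowerSeries.coeff_succ_X_mul]
        refine Fil.mono ?_ (ih j)
        push_cast; omega
    · have := Fil.mul_mem hh (ih j)
      refine Fil.mono ?_ this
      push_cast; omega

/-- cost of the index `s ≥ 1` in the reduced row -/
theorem evH_pow_mem {h : A} (hh : h ∈ Fil.F 1) {φ : PowerSeries A}
    (hφ : ∀ j, PowerSeries.coeff j φ ∈ Fil.F 0) (H : ℕ) {s : ℕ} (hs : 1 ≤ s) :
    evH h H ((PowerSeries.X - PowerSeries.C h) ^ s * φ) ∈ Fil.F (max H s) := by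
  cases H with
  | zero => rw [evH_zero_len]; exact (Fil.F _).zero_mem
  | succ H =>
    obtain ⟨s, rfl⟩ : ∃ s', s = s' + 1 := ⟨s - 1, by omega⟩
    rw [pow_succ', mul_assoc, evH_X_sub_mul]
    have h1 := Fil.mul_mem (powF Fil hh (H + 1)) (coeff_pow_mem Fil hh hφ s H)
    refine (Fil.F _).neg_mem (Fil.mono ?_ h1)
    push_cast; omega

/-- no index `1 ≤ s < H` in the polynomial part -/
theorem evH_pow_one_eq_zero (h : A) (H : ℕ) {s : ℕ} (hs : 1 ≤ s) (hsH : s < H) :
    evH h H ((PowerSeries.X - PowerSeries.C h) ^ s * 1) = 0 := by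
  obtain ⟨H, rfl⟩ : ∃ H', H = H' + 1 := ⟨H - 1, by omega⟩
  obtain ⟨s, rfl⟩ : ∃ s', s = s' + 1 := ⟨s - 1, by omega⟩
  rw [pow_succ', mul_assoc, evH_X_sub_mul]
  have hz : PowerSeries.coeff H ((PowerSeries.X - PowerSeries.C h) ^ s * 1) = 0 := by
    have e : ((PowerSeries.X - PowerSeries.C h) ^ s * 1 : PowerSeries A) =
        (((Polynomial.X - Polynomial.C h) ^ s : Polynomial A) : PowerSeries A) := by
      rw [mul_one]; push_cast; rfl
    rw [e, Polynomial.coeff_coe]
    apply Polynomial.coeff_eq_zero_of_natDegree_lt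
    refine lt_of_le_of_lt (Polynomial.natDegree_pow_le_of_le s
      (Polynomial.natDegree_X_sub_C_le h)) ?_
    omega
  rw [hz, mul_zero, neg_zero]

/-- the index `0` of the polynomial part -/
theorem evH_one (h : A) {H : ℕ} (hH : 1 ≤ H) : evH h H (1 : PowerSeries A) = 1 := by
  obtain ⟨H, rfl⟩ : ∃ H', H = H' + 1 := ⟨H - 1, by omega⟩
  unfold evH
  rw [Finset.sum_range_succ']
  have : ∑ k ∈ range H, h ^ (k + 1) * PowerSeries.coeff (k + 1) (1 : PowerSeries A) = 0 :=
    Finset.sum_eq_zero fun k _ => by rw [PowerSeries.coeff_one]; simp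
  rw [this]; simp

/-- `φ = O(ε^2)`, at most two jets: nothing -/
theorem evH_of_sq_dvd (h : A) {H : ℕ} (hH : H ≤ 2) {φ : PowerSeries A}
    (hφ : PowerSeries.X ^ 2 ∣ φ) (s : ℕ) :
    evH h H ((PowerSeries.X - PowerSeries.C h) ^ s * φ) = 0 := by
  have h1 : PowerSeries.X ^ 2 ∣ (PowerSeries.X - PowerSeries.C h) ^ s * φ :=
    Dvd.dvd.mul_left hφ _
  exact Finset.sum_eq_zero fun j hj => by
    rw [PowerSeries.X_pow_dvd_iff.1 h1 j (by rw [Finset.mem_range] at hj; omega), mul_zero]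

/-- `φ = O(ε^2)`, three jets: only `h^2 (-h)^s [ε^2] φ` -/
theorem evH_three_of_sq_dvd (h : A) {φ : PowerSeries A} (hφ : PowerSeries.X ^ 2 ∣ φ) (s : ℕ) :
    evH h 3 ((PowerSeries.X - PowerSeries.C h) ^ s * φ) =
      h ^ 2 * ((-h) ^ s * PowerSeries.coeff 2 φ) := by
  obtain ⟨u, rfl⟩ := hφ
  have e : (PowerSeries.X - PowerSeries.C h) ^ s * (PowerSeries.X ^ 2 * u) =
      PowerSeries.X ^ 2 * ((PowerSeries.X - PowerSeries.C h) ^ s * u) := by ring
  rw [e]
  unfold evH
  rw [Finset.sum_range_succ, Finset.sum_range_succ, Finset.sum_range_one]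
  have h1 : PowerSeries.X ^ 2 ∣ PowerSeries.X ^ 2 * ((PowerSeries.X - PowerSeries.C h) ^ s * u) :=
    dvd_mul_right _ _
  rw [PowerSeries.X_pow_dvd_iff.1 h1 0 (by norm_num),
    PowerSeries.X_pow_dvd_iff.1 h1 1 (by norm_num)]
  have h2 : ∀ v : PowerSeries A, PowerSeries.coeff 2 (PowerSeries.X ^ 2 * v) =
      PowerSeries.coeff 0 v := fun v => by
    have := PowerSeries.coeff_X_pow_mul v 2 0
    simpa using this
  rw [h2, h2]
  simp

/-- Taylor expansion of a germ at the shifted point -/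
theorem evH_germ (h n : A) (H : ℕ) (R : Polynomial A) (φ : PowerSeries A) {d : ℕ}
    (hd : R.natDegree < d) :
    evH h H (((Polynomial.taylor (n - h) R : Polynomial A) : PowerSeries A) * φ) =
      ∑ s ∈ range d, (Polynomial.taylor n R).coeff s *
        evH h H ((PowerSeries.X - PowerSeries.C h) ^ s * φ) := by
  have h1 : Polynomial.taylor (n - h) R =
      ∑ s ∈ range d, Polynomial.C ((Polynomial.taylor n R).coeff s) *
        (Polynomial.X - Polynomial.C h) ^ s := by
    have h2 : Polynomial.taylor (n - h) R = Polynomial.taylor (-h) (Polynomial.taylor n R) := by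
      rw [Polynomial.taylor_taylor]; congr 1; ring_nf
    rw [h2, Polynomial.taylor_apply]
    have h3 : (Polynomial.taylor n R).natDegree < d := by
      rwa [Polynomial.natDegree_taylor]
    rw [Polynomial.comp, Polynomial.eval₂_eq_sum_range' _ h3]
    refine Finset.sum_congr rfl fun s _ => ?_
    rw [Polynomial.C_neg, ← sub_eq_add_neg]
  have h4 : ((Polynomial.taylor (n - h) R : Polynomial A) : PowerSeries A) =
      ∑ s ∈ range d, PowerSeries.C ((Polynomial.taylor n R).coeff s) *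
        (PowerSeries.X - PowerSeries.C h) ^ s := by
    rw [h1]
    rw [← Polynomial.coeToPowerSeries.ringHom_apply, map_sum]
    refine Finset.sum_congr rfl fun s _ => ?_
    simp [Polynomial.coeToPowerSeries.ringHom_apply]
  rw [h4, Finset.sum_mul, evH_sum]
  refine Finset.sum_congr rfl fun s _ => ?_
  rw [mul_assoc, evH_C_mul]

/-- difference of the values at `n` and `n - h` -/
theorem eval_sub_eval (h n : A) (R : Polynomial A) {d : ℕ} (hd : R.natDegree < d + 1) :
    R.eval n - R.eval (n - h) =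
      -∑ s ∈ range d, (Polynomial.taylor n R).coeff (s + 1) * (-h) ^ (s + 1) := by
  have h1 : R.eval (n - h) = (Polynomial.taylor n R).eval (-h) := by
    rw [Polynomial.taylor_eval]; congr 1; ring
  have h3 : (Polynomial.taylor n R).natDegree < d + 1 := by
    rwa [Polynomial.natDegree_taylor]
  rw [h1, Polynomial.eval_eq_sum_range' h3, Finset.sum_range_succ']
  have h4 : (Polynomial.taylor n R).coeff 0 = R.eval n := by
    rw [Polynomial.taylor_coeff_zero]
  rw [h4]; ring

end Ring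

section Field

open Crest.Agent.R006.NV

variable {K : Type*} [Field K] [CharZero K] {Fil : Tollx814.ZFil K} {p N : ℕ}

theorem half_p_mem (hpF : (p : K) ∈ Fil.F 1) (hS : Small Fil p) (hp2 : 2 < p) :
    (p : K) / 2 ∈ Fil.F 1 := by
  rw [div_eq_mul_one_div]
  simpa using Fil.mul_mem hpF ((mem_subF Fil _).1 (hS.half hp2))

theorem ev_sub_evH_mem {h : K} (hh : h ∈ Fil.F 1) {f : PowerSeries K}
    (hf : ∀ j, PowerSeries.coeff j f ∈ Fil.F 0) {H : ℕ} (hH : H ≤ 3) :
    ev h f - evH h H f ∈ Fil.F H := by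
  rw [← evH_three]
  unfold evH
  rw [← Finset.sum_sdiff (Finset.range_subset_range.2 hH), add_sub_cancel_right]
  refine Fil.sum_mem _ _ _ fun j hj => ?_
  rw [Finset.mem_sdiff, Finset.mem_range, Finset.mem_range] at hj
  have := Fil.mul_mem (powF Fil hh j) (hf j)
  refine Fil.mono ?_ this
  omega

/-- **(PSI)**, `H ≤ 3` jets -/
theorem PsiZ_star_H (hpF : (p : K) ∈ Fil.F 1) (hS : Small Fil p) (hp : p = 2 * N + 1) {c : K}
    (hc : c ∈ Fil.F 0) {l : ℕ} (hl : l < N) {H : ℕ} (hH : H ≤ 3) :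
    PowerSeries.coeff 0 (PsiZ (K := K) c ((N + 1 + l : ℕ) : ℤ)) -
      evH ((p : K) / 2) H (PsiH0 (K := K) ((l + 1 : ℕ) : ℤ)) ∈ Fil.F H := by
  have h1 := PsiZ_star hpF hS hp hc hl
  have h2 := ev_sub_evH_mem (half_p_mem hpF hS (by omega))
    (f := PsiH0 (K := K) ((l + 1 : ℕ) : ℤ))
    (fun j => PsiH0_mem hS (by omega) (by omega : 2 * l + 1 < p) j) hH
  have h3 := (Fil.F H).add_mem (Fil.mono (by exact_mod_cast hH) h1) h2
  have e : PowerSeries.coeff 0 (PsiZ (K := K) c ((N + 1 + l : ℕ) : ℤ)) -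
      ev ((p : K) / 2) (PsiH0 (K := K) ((l + 1 : ℕ) : ℤ)) +
      (ev ((p : K) / 2) (PsiH0 (K := K) ((l + 1 : ℕ) : ℤ)) -
        evH ((p : K) / 2) H (PsiH0 (K := K) ((l + 1 : ℕ) : ℤ))) =
      PowerSeries.coeff 0 (PsiZ (K := K) c ((N + 1 + l : ℕ) : ℤ)) -
      evH ((p : K) / 2) H (PsiH0 (K := K) ((l + 1 : ℕ) : ℤ)) := by ring
  rwa [e] at h3

end Field

end Crest.Agent.R006.P4G226
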