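import Mathlib
import Crest.Agent.R006.PsiInf_294
import Crest.Agent.R006.P4Chain_657

/-!
Row 6, block P4, LEAF D of note 2672 (helper538): the ROW FORMULA.

`TR m R` (294) is the polynomial part of `R ψ_∞`.  If `∑ e i = 1` (CRT idempotents of the classes)
and `a i u = lin m (e i (X - c i)^u)`, then for `deg R < J` and every commutative `K`-algebra `A`,
`x ∈ A` with `x = c i₀ + P * ii`, `(x - c i) * w i = 1` (`i ≠ i₀`), EXACTLY (no error term):

`R(x) ψ - TR m R (x) = ∑_{t<J} r_t(i₀) br_t + ∑_{i≠i₀} ∑_{s<J} r_s(i) W i s`,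

`r_t(i) = P^t (t-th Taylor coefficient of R at c i)`.
-/

set_option autoImplicit false

namespace Crest.Agent.R006.P4Rowx538

open Polynomial Finset
open Crest.Agent.R006.PsiInf

section alg

variable {K : Type*} [Field K]

/-- the moments of the local functional `f ↦ lin m (e f)`. -/
noncomputable def loc (m : ℕ → K) (e : K[X]) : ℕ → K := fun k => lin m (e * X ^ k)

theorem lin_loc (m : ℕ → K) (e f : K[X]) : lin (loc m e) f = lin m (e * f) := by
  induction f using Polynomial.induction_on' with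
  | add P Q hP hQ => rw [map_add, hP, hQ, mul_add, map_add]
  | monomial k c =>
    rw [lin_monomial, loc, ← C_mul_X_pow_eq_monomial, ← lin_C_mul]
    congr 1
    ring

theorem TR_moment_sum {ι : Type*} (s : Finset ι) (m : ι → ℕ → K) (R : K[X]) :
    TR (fun k => ∑ i ∈ s, m i k) R = ∑ i ∈ s, TR (m i) R := by
  induction R using Polynomial.induction_on' with
  | add P Q hP hQ =>
    rw [map_add, hP, hQ, ← Finset.sum_add_distrib]
    exact Finset.sum_congr rfl fun i _ => by rw [map_add]
  | monomial k c =>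
    simp only [TR_monomial, map_sum]
    rw [← Finset.mul_sum, Finset.sum_comm]
    congr 1
    refine Finset.sum_congr rfl fun j _ => ?_
    rw [Finset.sum_mul]

theorem TR_loc_sum {ι : Type*} [Fintype ι] (m : ℕ → K) (e : ι → K[X]) (he : ∑ i, e i = 1)
    (R : K[X]) : TR m R = ∑ i, TR (loc m (e i)) R := by
  rw [← TR_moment_sum]
  congr 2
  funext k
  simp only [loc]
  rw [← map_sum, ← Finset.sum_mul, he, one_mul, lin_X_pow]

theorem TR_X_mul (m : ℕ → K) (R : K[X]) : TR m (X * R) = X * TR m R + C (lin m R) := by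
  induction R using Polynomial.induction_on' with
  | add P Q hP hQ =>
    rw [mul_add, map_add, hP, hQ, map_add, map_add, C_add]; ring
  | monomial k c =>
    rw [X_mul_monomial, TR_monomial, TR_monomial, lin_monomial, Finset.sum_range_succ]
    have h1 : ∑ i ∈ range k, C (m i) * (X : K[X]) ^ (k + 1 - 1 - i)
        = X * ∑ i ∈ range k, C (m i) * X ^ (k - 1 - i) := by
      rw [Finset.mul_sum]
      refine Finset.sum_congr rfl fun i hi => ?_
      have hi' := Finset.mem_range.mp hi
      have : k + 1 - 1 - i = (k - 1 - i) + 1 := by omega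
      rw [this, pow_succ]; ring
    rw [h1, show k + 1 - 1 - k = 0 by omega, pow_zero, mul_one, C_mul]
    ring

theorem TR_C_mul (m : ℕ → K) (c : K) (R : K[X]) : TR m (C c * R) = C c * TR m R := by
  rw [← smul_eq_C_mul, map_smul, smul_eq_C_mul]

theorem TR_sub_mul (m : ℕ → K) (c : K) (R : K[X]) :
    TR m ((X - C c) * R) = (X - C c) * TR m R + C (lin m R) := by
  rw [sub_mul, map_sub, TR_X_mul, TR_C_mul]; ring

theorem TR_pow (m : ℕ → K) (c : K) (s : ℕ) :
    TR m ((X - C c) ^ s)
      = ∑ u ∈ range s, C (lin m ((X - C c) ^ u)) * (X - C c) ^ (s - 1 - u) := by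
  induction s with
  | zero =>
    rw [pow_zero, show (1 : K[X]) = monomial 0 1 from rfl, TR_monomial]
    simp
  | succ s ih =>
    rw [pow_succ', TR_sub_mul, ih, Finset.sum_range_succ, Finset.mul_sum,
      show s + 1 - 1 - s = 0 by omega, pow_zero, mul_one]
    congr 1
    refine Finset.sum_congr rfl fun u hu => ?_
    have hu' := Finset.mem_range.mp hu
    have : s + 1 - 1 - u = (s - 1 - u) + 1 := by omega
    rw [this, pow_succ]; ring

theorem eq_sum_taylor (c : K) (R : K[X]) {J : ℕ} (hJ : R.natDegree < J) :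
    R = ∑ t ∈ range J, C ((taylor c R).coeff t) * (X - C c) ^ t := by
  conv_lhs => rw [← sum_taylor_eq R c]
  exact (taylor c R).sum_over_range' (by simp) J (by rwa [natDegree_taylor])

/-- local expansion of the polynomial part. -/
theorem TR_taylor (m : ℕ → K) (c : K) (R : K[X]) {J : ℕ} (hJ : R.natDegree < J) :
    TR m R = ∑ t ∈ range J, C ((taylor c R).coeff t) *
      ∑ u ∈ range t, C (lin m ((X - C c) ^ u)) * (X - C c) ^ (t - 1 - u) := by
  conv_lhs => rw [eq_sum_taylor c R hJ, map_sum]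
  exact Finset.sum_congr rfl fun t _ => by rw [TR_C_mul, TR_pow]

end alg

section row

variable {K : Type*} [Field K] {A : Type*} [CommRing A] [Algebra K A]

theorem aeval_taylor (c : K) (R : K[X]) {J : ℕ} (hJ : R.natDegree < J) (x : A) :
    aeval x R = ∑ t ∈ range J, algebraMap K A ((taylor c R).coeff t) *
      (x - algebraMap K A c) ^ t := by
  conv_lhs => rw [eq_sum_taylor c R hJ]
  simp [map_sum, aeval_C]

theorem aeval_TR_loc (m : ℕ → K) (e : K[X]) (c : K) (R : K[X]) {J : ℕ} (hJ : R.natDegree < J)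
    (x : A) :
    aeval x (TR (loc m e) R) = ∑ t ∈ range J, algebraMap K A ((taylor c R).coeff t) *
      ∑ u ∈ range t, algebraMap K A (lin m (e * (X - C c) ^ u)) *
        (x - algebraMap K A c) ^ (t - 1 - u) := by
  rw [TR_taylor (loc m e) c R hJ]
  simp [map_sum, aeval_C, lin_loc]

/-- telescoping: `y^s ∑_{j<J} w^{j+1} a_j - ∑_{u<s} a_u y^{s-1-u} = ∑_{j<J-s} w^{j+1} a_{s+j}`. -/
theorem tele (y w : A) (h : y * w = 1) (a : ℕ → A) (s J : ℕ) (hs : s ≤ J) :
    y ^ s * ∑ j ∈ range J, w ^ (j + 1) * a j - ∑ u ∈ range s, a u * y ^ (s - 1 - u)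
      = ∑ j ∈ range (J - s), w ^ (j + 1) * a (s + j) := by
  have e1 : ∑ j ∈ range J, w ^ (j + 1) * a j
      = ∑ j ∈ range s, w ^ (j + 1) * a j + ∑ j ∈ range (J - s), w ^ (s + j + 1) * a (s + j) := by
    conv_lhs => rw [show J = s + (J - s) by omega, Finset.sum_range_add]
  have e2 : y ^ s * ∑ j ∈ range s, w ^ (j + 1) * a j = ∑ u ∈ range s, a u * y ^ (s - 1 - u) := by
    rw [Finset.mul_sum]
    refine Finset.sum_congr rfl fun j hj => ?_
    have hj' := Finset.mem_range.mp hj
    have h1 : y ^ s = y ^ (s - 1 - j) * y ^ (j + 1) := by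
      rw [← pow_add]; congr 1; omega
    have h2 : y ^ (j + 1) * w ^ (j + 1) = 1 := by rw [← mul_pow, h, one_pow]
    rw [h1]
    linear_combination (y ^ (s - 1 - j) * a j) * h2
  have e3 : y ^ s * ∑ j ∈ range (J - s), w ^ (s + j + 1) * a (s + j)
      = ∑ j ∈ range (J - s), w ^ (j + 1) * a (s + j) := by
    rw [Finset.mul_sum]
    refine Finset.sum_congr rfl fun j _ => ?_
    have h2 : y ^ s * w ^ s = 1 := by rw [← mul_pow, h, one_pow]
    have h3 : w ^ (s + j + 1) = w ^ s * w ^ (j + 1) := by ring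
    rw [h3]
    linear_combination (w ^ (j + 1) * a (s + j)) * h2
  rw [e1, mul_add, e2, e3]; ring

variable {ι : Type*} [Fintype ι] [DecidableEq ι]

/-- `a i u = L(e_i (z - c_i)^u)` -/
noncomputable def mo (m : ℕ → K) (c : ι → K) (e : ι → K[X]) (i : ι) (u : ℕ) : K :=
  lin m (e i * (X - C (c i)) ^ u)

/-- `r_t^{(i)}(R) = P^t (t-th Taylor coefficient of R at c_i)` -/
noncomputable def rr (c : ι → K) (P : K) (i : ι) (t : ℕ) (R : K[X]) : K :=
  P ^ t * (taylor (c i) R).coeff t

/-- `ψ' = ψ - ∑_{i≠i₀} L(e_i/(x-z))` -/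
noncomputable def psi' (m : ℕ → K) (c : ι → K) (e : ι → K[X]) (J : ℕ) (i₀ : ι) (w : ι → A)
    (psi : A) : A :=
  psi - ∑ i ∈ univ.erase i₀, ∑ j ∈ range J, w i ^ (j + 1) * algebraMap K A (mo m c e i j)

/-- the bracket: coefficient of `r_t^{(i₀)}` in the row of `x = c_{i₀} + P ii`. -/
noncomputable def br (m : ℕ → K) (c : ι → K) (e : ι → K[X]) (P : K) (i₀ : ι) (p' ii : A)
    (t : ℕ) : A :=
  ii ^ t * p' - ∑ u ∈ range t, algebraMap K A (P⁻¹ ^ (u + 1) * mo m c e i₀ u) * ii ^ (t - 1 - u)

/-- coefficient of the particle `r_s^{(i)}`, `i ≠ i₀`. -/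
noncomputable def W (m : ℕ → K) (c : ι → K) (e : ι → K[X]) (P : K) (J : ℕ) (w : ι → A)
    (i : ι) (s : ℕ) : A :=
  algebraMap K A (P⁻¹ ^ s) * ∑ j ∈ range (J - s), w i ^ (j + 1) * algebraMap K A (mo m c e i (s + j))

/-- **ROW FORMULA** (exact). -/
theorem row_formula (m : ℕ → K) (c : ι → K) (e : ι → K[X]) (he : ∑ i, e i = 1) (P : K)
    (hP : P ≠ 0) (J : ℕ) (R : K[X]) (hR : R.natDegree < J) (i₀ : ι) (x ii psi : A)
    (hx : x = algebraMap K A (c i₀) + algebraMap K A P * ii) (w : ι → A)
    (hw : ∀ i, i ≠ i₀ → (x - algebraMap K A (c i)) * w i = 1) :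
    aeval x R * psi - aeval x (TR m R)
      = ∑ t ∈ range J, algebraMap K A (rr c P i₀ t R) *
          br m c e P i₀ (psi' m c e J i₀ w psi) ii t
        + ∑ i ∈ univ.erase i₀, ∑ s ∈ range J, algebraMap K A (rr c P i s R) *
          W m c e P J w i s := by
  classical
  have hTR : aeval x (TR m R) = ∑ i, aeval x (TR (loc m (e i)) R) := by
    rw [TR_loc_sum m e he R, map_sum]
  have hsplit : ∑ i, aeval x (TR (loc m (e i)) R)
      = aeval x (TR (loc m (e i₀)) R) + ∑ i ∈ univ.erase i₀, aeval x (TR (loc m (e i)) R) := by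
    exact (Finset.add_sum_erase univ (fun i => aeval x (TR (loc m (e i)) R))
      (Finset.mem_univ i₀)).symm
  -- other classes
  have hoth : ∀ i ∈ univ.erase i₀,
      aeval x R * ∑ j ∈ range J, w i ^ (j + 1) * algebraMap K A (mo m c e i j)
        - aeval x (TR (loc m (e i)) R)
      = ∑ s ∈ range J, algebraMap K A (rr c P i s R) * W m c e P J w i s := by
    intro i hi
    have hne : i ≠ i₀ := Finset.ne_of_mem_erase hi
    rw [aeval_taylor (c i) R hR x, aeval_TR_loc m (e i) (c i) R hR x, Finset.sum_mul,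
      ← Finset.sum_sub_distrib]
    refine Finset.sum_congr rfl fun s hs => ?_
    have hs' := Finset.mem_range.mp hs
    have ht := tele (x - algebraMap K A (c i)) (w i) (hw i hne)
      (fun j => algebraMap K A (mo m c e i j)) s J hs'.le
    have hp : algebraMap K A (P ^ s) * algebraMap K A (P⁻¹ ^ s) = 1 := by
      rw [← map_mul, ← mul_pow, mul_inv_cancel₀ hP, one_pow, map_one]
    simp only [W, rr, map_mul]
    have ht' : ∑ j ∈ range (J - s), w i ^ (j + 1) * algebraMap K A (mo m c e i (s + j))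
        = (x - algebraMap K A (c i)) ^ s *
            ∑ j ∈ range J, w i ^ (j + 1) * algebraMap K A (mo m c e i j)
          - ∑ u ∈ range s, algebraMap K A (lin m (e i * (X - C (c i)) ^ u)) *
            (x - algebraMap K A (c i)) ^ (s - 1 - u) := by
      rw [← ht]; rfl
    rw [ht']
    linear_combination (-(algebraMap K A ((taylor (c i) R).coeff s)) *
      ((x - algebraMap K A (c i)) ^ s *
            ∑ j ∈ range J, w i ^ (j + 1) * algebraMap K A (mo m c e i j)
          - ∑ u ∈ range s, algebraMap K A (lin m (e i * (X - C (c i)) ^ u)) *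
            (x - algebraMap K A (c i)) ^ (s - 1 - u))) * hp
  -- own class
  have hown : aeval x R * psi' m c e J i₀ w psi - aeval x (TR (loc m (e i₀)) R)
      = ∑ t ∈ range J, algebraMap K A (rr c P i₀ t R) *
          br m c e P i₀ (psi' m c e J i₀ w psi) ii t := by
    rw [aeval_taylor (c i₀) R hR x, aeval_TR_loc m (e i₀) (c i₀) R hR x, Finset.sum_mul,
      ← Finset.sum_sub_distrib]
    refine Finset.sum_congr rfl fun t ht => ?_
    have hxc : x - algebraMap K A (c i₀) = algebraMap K A P * ii := by rw [hx]; ring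
    rw [hxc]
    simp only [br, rr, map_mul, map_pow]
    rw [mul_sub, Finset.mul_sum, Finset.mul_sum]
    have h1 : ∀ u ∈ range t, algebraMap K A ((taylor (c i₀) R).coeff t) *
          (algebraMap K A (lin m (e i₀ * (X - C (c i₀)) ^ u)) *
            (algebraMap K A P * ii) ^ (t - 1 - u))
        = algebraMap K A P ^ t * algebraMap K A ((taylor (c i₀) R).coeff t) *
          (algebraMap K A P⁻¹ ^ (u + 1) * algebraMap K A (mo m c e i₀ u) * ii ^ (t - 1 - u)) := by
      intro u hu
      have hu' := Finset.mem_range.mp hu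
      have hp : algebraMap K A P ^ (u + 1) * algebraMap K A P⁻¹ ^ (u + 1) = 1 := by
        rw [← mul_pow, ← map_mul, mul_inv_cancel₀ hP, map_one, one_pow]
      have e1 : algebraMap K A P ^ t
          = algebraMap K A P ^ (t - 1 - u) * algebraMap K A P ^ (u + 1) := by
        rw [← pow_add]; congr 1; omega
      rw [e1, mul_pow, mo]
      linear_combination (-(algebraMap K A P ^ (t - 1 - u) *
        algebraMap K A ((taylor (c i₀) R).coeff t) *
        (algebraMap K A (lin m (e i₀ * (X - C (c i₀)) ^ u)) * ii ^ (t - 1 - u)))) * hp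
    rw [Finset.sum_congr rfl h1]
    ring
  rw [hTR, hsplit, ← hown]
  have e2 : ∑ i ∈ univ.erase i₀, ∑ s ∈ range J, algebraMap K A (rr c P i s R) *
        W m c e P J w i s
      = aeval x R * ∑ i ∈ univ.erase i₀, ∑ j ∈ range J,
          w i ^ (j + 1) * algebraMap K A (mo m c e i j)
        - ∑ i ∈ univ.erase i₀, aeval x (TR (loc m (e i)) R) := by
    rw [Finset.mul_sum, ← Finset.sum_sub_distrib]
    exact (Finset.sum_congr rfl hoth).symm
  rw [e2, psi']
  ring

end row

end Crest.Agent.R006.P4Rowx538
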