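import Crest.Agent.R006.P4Iface_814
import Crest.Agent.R006.P4SideDat_538
import Crest.Agent.R006.P4_GW_657
import Crest.Agent.R006.P4M_GW_830
import Crest.Agent.R006.P4_B1Input_657
import Crest.Agent.R006.P4MatB_869
import Crest.Agent.R006.P4SideCls_110
import Crest.Agent.R006.P4SidePsi_938
import Crest.Agent.R006.P4SideAux_538
import Crest.Agent.R006.P4_LocalInput_830

/-!
# Row 6, block P4, matrix side (helper955): the definitions of the final record

`DS` : 538's `dat` with the classes `csS`, the germs `psS`, the truncations `MM GG NN`;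
`nrS` : near coefficients (869's `nrB` with 657's `delB` on the classes with `dec = rB`, else `0`);
`WS = Net0 nrS`, `R0S = Rows0 nrS`, `RS` = `R0S` minus the partner rows (657's `gwPartner`).

`Inp` = the hypotheses of the leaves.
-/

set_option autoImplicit false

namespace Crest.Agent.R006.P4S

open Polynomial Finset Tollx814 P4Toll961
open Crest.Agent.R006.D Crest.Agent.R006.Bordx929 Crest.Agent.R006.P4Asmx814
  Crest.Agent.R006.GaugeP555 Crest.Agent.R006.P8 Crest.Agent.R006.P4If Crest.Agent.R006.P4M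
  Crest.Agent.R006.P4SideDatx538
open Crest.Agent.R006.P4M531 (phi BB)
open Crest.Agent.R006.P4B1In657 (delB)

section sub

variable {A : Type*} [CommRing A] {ι : Type*}

/-- subtract the row of the partner -/
def subP {α : Type*} (f : ι → α → A) (pt : ι → Option ι) (i : ι) (x : α) : A :=
  f i x - match pt i with
    | some j => f j x
    | none => 0

lemma subP_none {α : Type*} (f : ι → α → A) {pt : ι → Option ι} {i : ι} (h : pt i = none) (x : α) :
    subP f pt i x = f i x := by
  rw [subP, h, sub_zero]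

lemma subP_some {α : Type*} (f : ι → α → A) {pt : ι → Option ι} {i j : ι} (h : pt i = some j)
    (x : α) : subP f pt i x = f i x - f j x := by
  rw [subP, h]

variable {Cl jR jT jQ jU : Type*} {N : ℕ}

/-- the reduced rows -/
def subRows (R : Rows A Cl jR jT jQ jU N ι) (pt : ι → Option ι) : Rows A Cl jR jT jQ jU N ι where
  cls := R.cls
  cA := subP R.cA pt
  cB := subP R.cB pt
  cC := subP R.cC pt
  err := subP R.err pt

end sub

/-! ### truncations -/

/-- precision -/
def MM (E : ℤ) : ℕ := E.toNat + 1000010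

/-- degree of the gauge `+ 1` -/
def GG (S : Shape) (u : ℕ) : ℕ := (S.a1 + S.a2 + S.i1 + S.r1) * u + 1

/-- number of states -/
def NN (S : Shape) (u : ℕ) (E : ℤ) : ℕ := MM E + GG S u + S.k * u + S.q * u + S.g * u

/-- the length of the local input -/
def NLL (S : Shape) (u : ℕ) (E : ℤ) : ℕ := MM E + GG S u + NN S u E + S.k * u

section defs

variable (S : Shape) (u c : ℕ) {p : ℕ} [hp : Fact p.Prime] (dec : ℕ → Mode)
  (J : Fin c → RI S u c) (E : ℤ) (e : Fin p → ℚ[X])

/-- the class of a row -/
def csS (p : ℕ) [hp : Fact p.Prime] (x : RI S u c) : Fin p :=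
  ⟨clsS p (ofRow u c x).1, P4SideCls110.clsS_lt hp.out.pos _⟩

/-- the germ used for `psi'` at a site: at a `W` site (there the gauge vanishes) it is the germ at the
base node (polar classes), `0` (decomposition A), or the germ with `psi2 = 0` (decomposition B1) -/
noncomputable def psG (M : ℕ) (a : Fin p) : Site → BB
  | .Z i => psi' e M a (.Z i)
  | .H i => if 0 ≤ i then psi' e M a (.H i) else
      match dec (a : ℕ) with
      | .pol => psi' e M a (.Z ((a : ℕ) : ℤ))
      | .rA => 0
      | .rB => ∑ k ∈ range M, ys (a : ℕ) (.H i) ^ k * PowerSeries.C (C (delB e M a k))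

/-- the germ of a row -/
noncomputable def psS (x : RI S u c) : BB := psG dec e (MM E) (csS S u c p x) (ofRow u c x).1

/-- the data -/
noncomputable def DS :
    Dat p (Fin (S.k * u)) (Fin (S.q * u)) (Fin (S.g * u)) (Fin c) (RI S u c) :=
  dat S u c J e (csS S u c p) (psS S u c dec E e) (GG S u) (MM E) (NN S u E) (S.k * u)

/-- near coefficients -/
noncomputable def nrS : Fin p → Fin (NN S u E) → Fin (NN S u E) → ℚ[X] := fun a s l =>
  if dec (a : ℕ) = .rB then (DS S u c dec J E e).nrB (delB e (MM E)) a s l else 0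

/-- **the network** -/
noncomputable def WS : Net ℚ[X] (Fin p) (Fin (S.k * u)) (Fin (S.q * u)) (Fin (S.g * u)) (NN S u E) :=
  (DS S u c dec J E e).Net0 (nrS S u c dec J E e)

/-- the rows before the reduction -/
noncomputable def R0S : Rows ℚ[X] (Fin p) (Fin (S.k * u)) (Fin (S.q * u)) (Fin (S.g * u)) (Fin c)
    (NN S u E) (RI S u c) :=
  (DS S u c dec J E e).Rows0 (nrS S u c dec J E e)

/-- the partner rows -/
noncomputable def ptS (hS : S.Good) (p : ℕ) : RI S u c → Option (RI S u c) :=
  P4GW657.gwPartner S u c hS ((p - 1) / 2)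

/-- **the rows** -/
noncomputable def RS (hS : S.Good) : Rows ℚ[X] (Fin p) (Fin (S.k * u)) (Fin (S.q * u))
    (Fin (S.g * u)) (Fin c) (NN S u E) (RI S u c) :=
  subRows (R0S S u c dec J E e) (ptS S u c hS p)

/-- the number of zeros of the gauge in a class -/
noncomputable def zS (p : ℕ) (a : ℕ) : ℕ := zc S u p ((a : ℕ) : ℤ)

end defs

/-! ### the hypotheses of the leaves -/

/-- hypotheses -/
structure Inp (S : Shape) (u c p : ℕ) [Fact p.Prime] (dec : ℕ → Mode) (E : ℤ) (e : Fin p → ℚ[X]) :
    Prop where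
  good : S.Good
  e3 : S.e3 = 0
  h3 : S.h3 = 0
  h5 : 5 ≤ p
  hC : (2 * (S.B + S.e1 + S.h1 + S.w + c) + 8) * (u + 1) < p ^ 2
  dok : DecOK S u p dec
  L : LocalInput p (NLL S u E) (MM E) e

section api

variable {S : Shape} {u c p : ℕ} [hp : Fact p.Prime] {dec : ℕ → Mode} {E : ℤ} {e : Fin p → ℚ[X]}
  (J : Fin c → RI S u c)

namespace Inp

variable (H : Inp S u c p dec E e)
include H

omit H in
lemma le_NLL (S : Shape) (u : ℕ) (E : ℤ) : GG S u + S.k * u ≤ NLL S u E := by
  unfold NLL; omega

omit H in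
lemma le_NLL' (S : Shape) (u : ℕ) (E : ℤ) : GG S u + NN S u E + S.k * u ≤ NLL S u E := by
  unfold NLL; omega

omit H in
lemma MM_le (S : Shape) (u : ℕ) (E : ℤ) : MM E ≤ NLL S u E := by
  unfold NLL; omega

omit H in
lemma E_le (E : ℤ) : E + 1000010 ≤ (MM E : ℤ) := by
  unfold MM; push_cast; have := Int.self_le_toNat E; omega

lemma odd : p % 2 = 1 := P4SideCls110.odd_of_prime H.h5

lemma ne2 : p ≠ 2 := by have := H.h5; omega

omit H in
lemma p_pos (p : ℕ) [hp : Fact p.Prime] : 0 < p := hp.out.pos

/-- the class of a row for `MatV` -/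
lemma cs_eq (x : RI S u c) : ((DS S u c dec J E e).cs x : ℕ) = cl p ((DS S u c dec J E e).ro x).1 :=
  (P4SideCls110.cl_eq H.odd _).symm

lemma inR (x : RI S u c) : InR p ((DS S u c dec J E e).ro x).1 :=
  P4SideCls110.inR_row H.hC x

/-- polar classes -/
lemma pol_iff (a : Fin p) : dec (a : ℕ) = .pol ↔ 2 * (a : ℕ) < p := H.dok.pol a a.2

lemma reg_iff (a : Fin p) : dec (a : ℕ) ≠ .pol ↔ p < 2 * (a : ℕ) := by
  rw [Ne, H.pol_iff]
  have := H.odd
  omega

end Inp

/-- the cost table of a row -/
noncomputable abbrev tb (S : Shape) (u c p : ℕ) (dec : ℕ → Mode) (x : RI S u c) : Row3 :=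
  tabX S u p dec (ofRow u c x)

end api

end Crest.Agent.R006.P4S
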