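import Crest.Agent.R006.P4SideTab_830
import Crest.Agent.R006.P4SideOp_226
import Crest.Agent.R006.P4SidePsi_938

/-!
# Row 6, block P4, matrix side (helper830): glue for the fields `A`, `B`, `B0`, `C` of `Tables`

For 955's `D : Dat` with `D.ro x = ofRow u c x`, `(D.cs x : ℕ) = clsS p (ofRow u c x).1` and
`R := partRows (D.Rows0 nr) (gwPartner S u c hS ((p-1)/2))`.

* `rowF_of` : the standing facts `Dat.RowF`;
* `partner_none_reg`, `tabX_none`, `tabX_some`;
* `fieldB`, `fieldB0`, `fieldC` : all modes;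
* `fieldA_pol` : polar classes; `fieldA` : all classes from the bound of `Rows0.cA` in the regular
  classes.
-/

set_option autoImplicit false

namespace Crest.Agent.R006.P4M

open Polynomial Finset Tollx814 P4Toll961
open Crest.Agent.R006.D Crest.Agent.R006.PsiInf Crest.Agent.R006.P8 Crest.Agent.R006.P4If
open Crest.Agent.R006.Bordx929 Crest.Agent.R006.P4Asmx814 Crest.Agent.R006.P4GW657
open Crest.Agent.R006.GaugeP555
open Crest.Agent.R006.P4M531 (pt cst phi linB BB)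

namespace Dat

section regular

variable {p : ℕ} [hp : Fact p.Prime] {jR jT jQ jU ι : Type*} {D : Dat p jR jT jQ jU ι}
  {NL : ℕ} {i : ι}

/-- **field `C`, regular classes** -/
theorem RowF.rowC_reg (h : D.RowF i) (L : LocalInput p NL D.M D.e) (hG : GamOrd)
    (hreg : p < 2 * (D.cs i : ℕ)) {d : Mode} (hd : d ≠ .pol) (u : ℕ) :
    D.cC0 i u ∈ (pbFil p).F ((tabU d (kindR (D.ro i)) (jS p (D.ro i).1)).Q.a +
      pos ((u : ℤ) - (tabU d (kindR (D.ro i)) (jS p (D.ro i).1)).Q.b)) := by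
  have h1 := cC0_mem h.h2 i h.cs (w := 2) (L.gam_regular _ _ h.inR h.cs hreg) u
  have key : ∀ k : Kind, ((tabU d k (jS p (D.ro i).1)).Q = k.reg.Q ∨
      (tabU d k (jS p (D.ro i).1)).Q = k.regS.Q ∨ (tabU d k (jS p (D.ro i).1)).Q = k.regB.Q ∨
      (tabU d k (jS p (D.ro i).1)).Q = k.regBS.Q) := by
    intro k
    rcases d with _ | _ | _
    · exact absurd rfl hd
    all_goals simp only [tabU]; split_ifs <;> simp
  rcases h.kind_cases with ⟨hk, ho, n, hn, hn0⟩ | ⟨hk, ho, n, hn, hn0⟩ | ⟨hk, ho, n, hn, hn0⟩ |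
    ⟨hk, ho, n, hn⟩ | ⟨hk, ho, n, hn⟩ | ⟨hk, ho, n, hn, hn0⟩
  · rw [hk]
    refine (pbFil p).mono ?_ h1
    rcases key kG with e | e | e | e <;> rw [e] <;> simp only [kG, pos] <;> omega
  · rw [h.cC_zero hG (Or.inl ⟨n, hn, hn0⟩) u]; exact AddSubgroup.zero_mem _
  · rw [h.cC_zero hG (Or.inl ⟨n, hn, hn0⟩) u]; exact AddSubgroup.zero_mem _
  · rw [h.cC_zero hG (Or.inr ⟨n, hn⟩) u]; exact AddSubgroup.zero_mem _
  · rw [h.cC_zero hG (Or.inr ⟨n, hn⟩) u]; exact AddSubgroup.zero_mem _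
  · rw [hk]
    refine (pbFil p).mono ?_ h1
    rcases key kW with e | e | e | e <;> rw [e] <;> simp only [kW, pos] <;> omega

/-- **field `B0`** : the `X`-coefficients of the node `c` vanish for `s > 0` -/
theorem RowF.rowB0 (h : D.RowF i) (d : Mode)
    (hz0 : (tabU d (kindR (D.ro i)) (jS p (D.ro i).1)).z0 = true) {s : ℕ} (hs : s ≠ 0) :
    D.cB0 i s = 0 := by
  have hkey : kindR (D.ro i) = kG ∧ jS p (D.ro i).1 = 0 := by
    rcases h.kind_cases with ⟨hk, ho, n, hn, hn0⟩ | ⟨hk, ho, n, hn, hn0⟩ |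
      ⟨hk, ho, n, hn, hn0⟩ | ⟨hk, ho, n, hn⟩ | ⟨hk, ho, n, hn⟩ | ⟨hk, ho, n, hn, hn0⟩
    · refine ⟨hk, ?_⟩
      rw [hk] at hz0
      by_contra hj
      rcases d with _ | _ | _
      · simp only [tabU] at hz0
        rw [if_neg (by intro h'; exact hj h')] at hz0
        exact absurd hz0 (by simp [kG])
      · simp only [tabU] at hz0
        rw [if_neg (by intro h'; exact hj h')] at hz0
        exact absurd hz0 (by simp [kG])
      · simp only [tabU] at hz0
        rw [if_neg (by intro h'; exact hj h')] at hz0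
        exact absurd hz0 (by simp [kG])
    all_goals
      exfalso
      rw [hk] at hz0
      rcases d with _ | _ | _ <;> simp only [tabU] at hz0 <;> split_ifs at hz0 <;>
        simp [kE1, kE2, kH1, kH2, kW] at hz0
  rcases h.kind_cases with ⟨hk, ho, n, hn, hn0⟩ | ⟨hk, ho, n, hn, hn0⟩ | ⟨hk, ho, n, hn, hn0⟩ |
    ⟨hk, ho, n, hn⟩ | ⟨hk, ho, n, hn⟩ | ⟨hk, ho, n, hn, hn0⟩
  · have hcl : ((D.cs i : ℕ) : ℤ) = n := by
      rw [h.csS, hn]
      have hj := hkey.2
      rw [hn] at hj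
      exact (P4SideCls110.jS_Z_zero h.odd n).mp hj
    rw [cB0, ho, GWrow.coeff_zero_ys_pow, hn, Site.val, ← hcl]
    rw [Int.cast_natCast, sub_self, C_0, zero_pow hs]
  all_goals
    exfalso
    have h9 := hkey.1
    rw [hk] at h9
    have h10 := congrArg Kind.ia h9
    simp [kG, kE1, kE2, kH1, kH2, kW] at h10

end regular

section glue

variable {p : ℕ} [hp : Fact p.Prime] {S : Shape} {u c : ℕ} {jR jT jQ jU : Type*}
  {D : Dat p jR jT jQ jU (RI S u c)} {NL : ℕ}

/-- (1) the standing facts -/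
theorem rowF_of (hS : S.Good) (he : S.e3 = 0) (hh : S.h3 = 0) (h5 : 5 ≤ p)
    (hC : (2 * (S.B + S.e1 + S.h1 + S.w + c) + 8) * (u + 1) < p ^ 2)
    (hro : ∀ x, D.ro x = ofRow u c x) (hcs : ∀ x, (D.cs x : ℕ) = clsS p (ofRow u c x).1)
    (x : RI S u c) : D.RowF x where
  h5 := h5
  cs := by rw [hcs, hro, P4SideCls110.cl_eq (P4SideCls110.odd_of_prime h5)]
  inR := by rw [hro]; exact P4SideCls110.inR_row hC x
  ord := by rw [hro]; exact P4M938.order_le_one he hh x
  ordZ := by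
    intro n hn hn0
    rw [hro] at hn ⊢
    exact P4M938.order_Z_nonneg x hn hn0
  ordH := by
    intro n hn hn0
    rw [hro] at hn ⊢
    exact (P4M938.order_H_neg x hn hn0).1

/-- the partner row, all facts -/
lemma partner_some (h5 : 5 ≤ p) (hS : S.Good) {x y : RI S u c}
    (hxy : gwPartner S u c hS ((p - 1) / 2) x = some y) :
    ∃ l : ℕ, l ≤ (p - 1) / 2 ∧ l < S.w * u ∧
      ofRow u c x = (.Z ((((p - 1) / 2 : ℕ) : ℤ) - l), 0) ∧
      ofRow u c y = (.H (-1 - (l : ℤ)), 0) ∧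
      clsS p (ofRow u c x).1 = (p - 1) / 2 - l ∧ jS p (ofRow u c x).1 = 0 := by
  obtain ⟨l, hl, hlw, hx, hy⟩ := gwPartner_some S u c hS ((p - 1) / 2) hxy
  have hodd := P4SideCls110.odd_of_prime (p := p) h5
  have h1 := P4SideCls110.cls_jS_Z (p := p) hodd (a := (p - 1) / 2 - l)
    (i := (((p - 1) / 2 : ℕ) : ℤ) - l) (j := 0) (by omega) (by
      rw [zero_mul, add_zero, Nat.cast_sub hl])
  refine ⟨l, hl, hlw, hx, hy, ?_, ?_⟩
  · rw [hx]; exact h1.1
  · rw [hx]; exact h1.2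

/-- (3) no partner in the regular classes -/
lemma partner_none_reg (h5 : 5 ≤ p) (hS : S.Good) {x : RI S u c}
    (hreg : ¬ 2 * clsS p (ofRow u c x).1 < p) :
    gwPartner S u c hS ((p - 1) / 2) x = none := by
  rcases hxy : gwPartner S u c hS ((p - 1) / 2) x with _ | y
  · rfl
  · exfalso
    obtain ⟨l, hl, _, _, _, h1, _⟩ := partner_some h5 hS hxy
    apply hreg
    rw [h1]
    omega

/-- the record of an unreduced row -/
theorem tabX_none (h5 : 5 ≤ p) (hS : S.Good) {dec : ℕ → Mode} (hdec : DecOK S u p dec)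
    {x : RI S u c} (hx : gwPartner S u c hS ((p - 1) / 2) x = none) :
    tabX S u p dec (ofRow u c x) = tabU (dec (clsS p (ofRow u c x).1)) (kindR (ofRow u c x))
      (jS p (ofRow u c x).1) := by
  have hodd := P4SideCls110.odd_of_prime (p := p) h5
  refine tabK_eq_tabU _ _ _ _ ?_
  rintro ⟨hd, hk, hj, hc⟩
  have hcp : 2 * clsS p (ofRow u c x).1 < p := (hdec.pol _
    (P4SideCls110.clsS_lt (by omega) _)).mp hd
  have hlt := P4SideCls110.cond_lt hodd hc hcp
  -- the site is `Z n`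
  have hsite : ∃ n : ℤ, (ofRow u c x).1 = .Z n := by
    rcases hr : ofRow u c x with ⟨n | n, o⟩
    · exact ⟨n, rfl⟩
    · exfalso
      rw [hr] at hk
      simp only [kindR] at hk
      split_ifs at hk
      all_goals
        have h10 := congrArg Kind.ia hk
        simp [kG, kH1, kH2, kW] at h10
  obtain ⟨n, hn⟩ := hsite
  have hcl : ((clsS p (ofRow u c x).1 : ℕ) : ℤ) = n := by
    rw [hn] at hj ⊢
    exact (P4SideCls110.jS_Z_zero hodd n).mp hj
  have h9 := gwPartner_none S u c hS ((p - 1) / 2) hx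
    (l := (p - 1) / 2 - clsS p (ofRow u c x).1) (by omega) hlt
  apply h9
  change (ofRow u c x).1 = _
  have e : n = (((p - 1) / 2 : ℕ) : ℤ) - (((p - 1) / 2 - clsS p (ofRow u c x).1 : ℕ) : ℤ) := by
    omega
  rw [← e]
  exact hn

/-- the record of a reduced row -/
theorem tabX_some (h5 : 5 ≤ p) (hS : S.Good) {dec : ℕ → Mode} (hdec : DecOK S u p dec)
    {x y : RI S u c} (hxy : gwPartner S u c hS ((p - 1) / 2) x = some y) :
    tabX S u p dec (ofRow u c x) = kG.polC := by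
  have hodd := P4SideCls110.odd_of_prime (p := p) h5
  obtain ⟨l, hl, hlw, hx, hy, hcl, hj⟩ := partner_some h5 hS hxy
  have hpol : dec (clsS p (ofRow u c x).1) = .pol :=
    (hdec.pol _ (P4SideCls110.clsS_lt (by omega) _)).mpr (by rw [hcl]; omega)
  rw [tabX, hpol]
  refine tabK_polC ?_ hj ?_
  · rw [hx]
    simp only [kindR]
    rw [if_pos (by omega)]
  · refine P4SideCls110.cond_of_lt hodd (by rw [hcl]; omega) ?_
    rw [hcl]
    omega

variable {z : ℕ → ℕ}

/-- **(2) the reduced rows** -/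
theorem field_red (hS : S.Good) (he : S.e3 = 0) (hh : S.h3 = 0) (h5 : 5 ≤ p)
    (hC : (2 * (S.B + S.e1 + S.h1 + S.w + c) + 8) * (u + 1) < p ^ 2)
    (hro : ∀ x, D.ro x = ofRow u c x) (hcs : ∀ x, (D.cs x : ℕ) = clsS p (ofRow u c x).1)
    {dec : ℕ → Mode} (hdec : DecOK S u p dec) (L : LocalInput p NL D.M D.e)
    (hNL : D.G + D.Nb ≤ NL) (hz : D.Zer z) {gB : RI S u c → BB}
    (hps : ∀ x, D.ps x = psS D.e D.M (D.cs x) (dec (clsS p (ofRow u c x).1)) (gB x)
      (ofRow u c x).1)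
    {x y : RI S u c} (hxy : gwPartner S u c hS ((p - 1) / 2) x = some y) (l : ℕ) :
    D.cA0 x l - D.cA0 y l ∈ (pbFil p).F ((tabX S u p dec (ofRow u c x)).R.a +
      pos ((l : ℤ) + z (D.cs x) - (tabX S u p dec (ofRow u c x)).R.b)) ∧
    D.cB0 x l - D.cB0 y l ∈ (pbFil p).F ((tabX S u p dec (ofRow u c x)).X.a +
      pos ((l : ℤ) - (tabX S u p dec (ofRow u c x)).X.b)) ∧
    D.cC0 x l - D.cC0 y l ∈ (pbFil p).F ((tabX S u p dec (ofRow u c x)).Q.a +
      pos ((l : ℤ) - (tabX S u p dec (ofRow u c x)).Q.b)) ∧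
    D.cs y = D.cs x := by
  have hodd := P4SideCls110.odd_of_prime (p := p) h5
  rw [tabX_some h5 hS hdec hxy]
  obtain ⟨l', hl', hlw, hx, hy, hcl, hj⟩ := partner_some h5 hS hxy
  have hFx := rowF_of hS he hh h5 hC hro hcs x
  have hFy := rowF_of hS he hh h5 hC hro hcs y
  have hcy : clsS p (ofRow u c y).1 = (p - 1) / 2 - l' := by
    rw [hy]
    exact (P4SideCls110.cls_jS_H (p := p) hodd (a := (p - 1) / 2 - l')
      (i := -1 - (l' : ℤ)) (j := -1) (by omega) (by omega)).1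
  have hpx : dec (clsS p (ofRow u c x).1) = .pol :=
    (hdec.pol _ (P4SideCls110.clsS_lt (by omega) _)).mpr (by rw [hcl]; omega)
  have hpy : dec (clsS p (ofRow u c y).1) = .pol :=
    (hdec.pol _ (P4SideCls110.clsS_lt (by omega) _)).mpr (by rw [hcy]; omega)
  refine reduced (gB := 0) hFx hFy L hNL hz hl' (by rw [hro, hx]) (by rw [hro, hy]) ?_ ?_ l
  · rw [hps, hpx, hro, hx]
    rfl
  · rw [hps, hpy, hro, hy, psS_W _ _ _ _ _ (by omega), psS_W _ _ _ _ _ (by omega)]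

variable {nr : Fin p → Fin D.N → Fin D.N → ℚ[X]}

/-- the class of the partner -/
lemma partner_cs (h5 : 5 ≤ p) (hS : S.Good)
    (hcs : ∀ x, (D.cs x : ℕ) = clsS p (ofRow u c x).1) {x y : RI S u c}
    (hxy : gwPartner S u c hS ((p - 1) / 2) x = some y) : D.cs y = D.cs x := by
  have hodd := P4SideCls110.odd_of_prime (p := p) h5
  obtain ⟨l', hl', hlw, hx, hy, hcl, hj⟩ := partner_some h5 hS hxy
  refine Fin.ext ?_
  rw [hcs, hcs, hcl, hy]
  exact (P4SideCls110.cls_jS_H (p := p) hodd (a := (p - 1) / 2 - l')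
    (i := -1 - (l' : ℤ)) (j := -1) (by omega) (by omega)).1

end glue

end Dat

end Crest.Agent.R006.P4M
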