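import Crest.Agent.R006.P4SideDef_955
import Crest.Agent.R006.P4SideGlue_830

/-!
# Row 6, block P4, matrix side (helper830): leaves `A_pol`, `B_pol`, `C_pol` of 955's final record
-/

set_option autoImplicit false

namespace Crest.Agent.R006.P4S

open Polynomial Finset Tollx814 P4Toll961
open Crest.Agent.R006.D Crest.Agent.R006.Bordx929 Crest.Agent.R006.P4Asmx814
  Crest.Agent.R006.GaugeP555 Crest.Agent.R006.P8 Crest.Agent.R006.P4If Crest.Agent.R006.P4M
  Crest.Agent.R006.P4SideDatx538
open Crest.Agent.R006.P4M531 (phi BB)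
open Crest.Agent.R006.P4B1In657 (delB)

variable {S : Shape} {u c p : ℕ} [hp : Fact p.Prime] {dec : ℕ → Mode} {E : ℤ} {e : Fin p → ℚ[X]}
  (J : Fin c → RI S u c)

namespace Inp

variable (H : Inp S u c p dec E e)
include H

/-- the gauge in the classes -/
lemma zer_pol : (DS S u c dec J E e).Zer (zS S u p) := fun a m => by
  have := taylor_gaugeF_mem (p := p) H.ne2 S u ((a : ℕ) : ℤ) m
  rw [Int.cast_natCast] at this
  exact this

lemma rowFP (x : RI S u c) : (DS S u c dec J E e).RowF x :=
  Dat.rowF_of H.good H.e3 H.h3 H.h5 H.hC (fun _ => rfl) (fun _ => rfl) x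

omit H in
lemma psG_eq (M : ℕ) (a : Fin p) (z : Site) : psG dec e M a z =
    P4M.psS e M a (dec (a : ℕ)) (∑ k ∈ range M, ys (a : ℕ) z ^ k *
        PowerSeries.C (C (delB e M a k))) z := by
  rcases z with i | i
  · rfl
  · rfl

omit H in
/-- my germs are 955's germs -/
lemma psS_eq (x : RI S u c) : (DS S u c dec J E e).ps x =
    P4M.psS e (MM E) (csS S u c p x) (dec (clsS p (ofRow u c x).1))
      (∑ k ∈ range (MM E), ys (csS S u c p x : ℕ) (ofRow u c x).1 ^ k *
        PowerSeries.C (C (delB e (MM E) (csS S u c p x) k))) (ofRow u c x).1 :=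
  psG_eq (MM E) (csS S u c p x) (ofRow u c x).1

lemma pol_lt {x : RI S u c} (hx : dec (clsS p (ofRow u c x).1) = .pol) :
    2 * ((DS S u c dec J E e).cs x : ℕ) < p :=
  (H.dok.pol _ (P4SideCls110.clsS_lt (p_pos p) _)).mp hx

omit H in
lemma nr_pol {a : Fin p} (ha : dec (a : ℕ) = .pol) (s l : Fin (NN S u E)) :
    nrS S u c dec J E e a s l = 0 := by
  rw [nrS, if_neg (by rw [ha]; exact fun h => Mode.noConfusion h)]

omit H in
lemma R0_cA_pol {x : RI S u c} (hx : dec (clsS p (ofRow u c x).1) = .pol)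
    (l : Fin (NN S u E)) :
    (R0S S u c dec J E e).cA x l = (DS S u c dec J E e).cA0 x l := by
  show (DS S u c dec J E e).cA0 x l - ∑ s : Fin (NN S u E), (DS S u c dec J E e).cB0 x s *
    nrS S u c dec J E e (csS S u c p x) s l = _
  rw [sum_eq_zero, sub_zero]
  intro s _
  rw [nr_pol J hx, mul_zero]

lemma partner_pol {x y : RI S u c} (hxy : ptS S u c H.good p x = some y) :
    dec (clsS p (ofRow u c x).1) = .pol ∧ dec (clsS p (ofRow u c y).1) = .pol := by
  obtain ⟨l, hl, _, hox, hoy, hcl, _⟩ := Dat.partner_some H.h5 H.good hxy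
  have h2 : clsS p (ofRow u c y).1 = clsS p (ofRow u c x).1 := by
    rw [hcl, hoy]
    exact (P4SideCls110.cls_jS_H (p := p) H.odd (a := (p - 1) / 2 - l)
      (i := -1 - (l : ℤ)) (j := -1) (by have := H.h5; omega)
      (by have := H.odd; omega)).1
  have h3 : dec (clsS p (ofRow u c x).1) = .pol := by
    refine (H.dok.pol _ (P4SideCls110.clsS_lt (p_pos p) _)).mpr ?_
    have := H.odd
    rw [hcl]
    omega
  exact ⟨h3, by rw [h2]; exact h3⟩

theorem A_pol (x : RI S u c) (hx : dec (clsS p (ofRow u c x).1) = .pol) (l : Fin (NN S u E)) :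
    (RS S u c dec J E e H.good).cA x l ∈ (pbFil p).F ((tb S u c p dec x).R.a +
      pos (((l : ℕ) : ℤ) + zS S u p (clsS p (ofRow u c x).1) - (tb S u c p dec x).R.b)) := by
  rcases hxy : ptS S u c H.good p x with _ | y
  · have e1 : (RS S u c dec J E e H.good).cA x l = (R0S S u c dec J E e).cA x l :=
      subP_none _ hxy l
    rw [e1, R0_cA_pol J hx]
    have h2 := (H.rowFP J x).rowA_pol (z := zS S u p) H.L (le_NLL S u E) (H.zer_pol J)
      (H.pol_lt J hx) (by
        have := psS_eq (E := E) (e := e) (dec := dec) J x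
        rw [hx] at this
        exact this) l
    have e2 : tb S u c p dec x = tabU .pol (kindR (ofRow u c x)) (jS p (ofRow u c x).1) := by
      rw [tb, Dat.tabX_none H.h5 H.good H.dok hxy, hx]
    rw [e2]
    exact h2
  · have e1 : (RS S u c dec J E e H.good).cA x l =
        (R0S S u c dec J E e).cA x l - (R0S S u c dec J E e).cA y l :=
      subP_some _ hxy l
    have hy := (H.partner_pol hxy).2
    rw [e1, R0_cA_pol J hx, R0_cA_pol J hy]
    exact (Dat.field_red (z := zS S u p) H.good H.e3 H.h3 H.h5 H.hC (fun _ => rfl) (fun _ => rfl)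
      H.dok H.L (le_NLL S u E) (H.zer_pol J) (psS_eq J) hxy l).1

theorem B_pol (x : RI S u c) (hx : dec (clsS p (ofRow u c x).1) = .pol) (s : Fin (NN S u E)) :
    (RS S u c dec J E e H.good).cB x s ∈ (pbFil p).F ((tb S u c p dec x).X.a +
      pos (((s : ℕ) : ℤ) - (tb S u c p dec x).X.b)) := by
  rcases hxy : ptS S u c H.good p x with _ | y
  · have e1 : (RS S u c dec J E e H.good).cB x s = (R0S S u c dec J E e).cB x s :=
      subP_none _ hxy s
    rw [e1]
    have h2 := (H.rowFP J x).rowB .pol s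
    have e2 : tb S u c p dec x = tabU .pol (kindR (ofRow u c x)) (jS p (ofRow u c x).1) := by
      rw [tb, Dat.tabX_none H.h5 H.good H.dok hxy, hx]
    rw [e2]
    exact h2
  · have e1 : (RS S u c dec J E e H.good).cB x s =
        (R0S S u c dec J E e).cB x s - (R0S S u c dec J E e).cB y s :=
      subP_some _ hxy s
    rw [e1]
    exact (Dat.field_red (z := zS S u p) H.good H.e3 H.h3 H.h5 H.hC (fun _ => rfl) (fun _ => rfl)
      H.dok H.L (le_NLL S u E) (H.zer_pol J) (psS_eq J) hxy s).2.1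

theorem C_pol (x : RI S u c) (hx : dec (clsS p (ofRow u c x).1) = .pol) (s : Fin (NN S u E)) :
    (RS S u c dec J E e H.good).cC x s ∈ (pbFil p).F ((tb S u c p dec x).Q.a +
      pos (((s : ℕ) : ℤ) - (tb S u c p dec x).Q.b)) := by
  rcases hxy : ptS S u c H.good p x with _ | y
  · have e1 : (RS S u c dec J E e H.good).cC x s = (R0S S u c dec J E e).cC x s :=
      subP_none _ hxy s
    rw [e1]
    have h2 := (H.rowFP J x).rowC_pol H.L P4M.gamOrd (H.pol_lt J hx) s
    have e2 : tb S u c p dec x = tabU .pol (kindR (ofRow u c x)) (jS p (ofRow u c x).1) := by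
      rw [tb, Dat.tabX_none H.h5 H.good H.dok hxy, hx]
    rw [e2]
    exact h2
  · have e1 : (RS S u c dec J E e H.good).cC x s =
        (R0S S u c dec J E e).cC x s - (R0S S u c dec J E e).cC y s :=
      subP_some _ hxy s
    rw [e1]
    exact (Dat.field_red (z := zS S u p) H.good H.e3 H.h3 H.h5 H.hC (fun _ => rfl) (fun _ => rfl)
      H.dok H.L (le_NLL S u E) (H.zer_pol J) (psS_eq J) hxy s).2.2.1

end Inp

end Crest.Agent.R006.P4S
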