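import Crest.Agent.R006.P4M_GW_830
import Crest.Agent.R006.P4SideCls_110
import Crest.Agent.R006.P4Iface_814

/-!
# Row 6, block P4, matrix side (helper830): the cost tables of the rows

`tabU` = table without the record `polC`.  On 955's `Dat`:

* `psS` : the choice of the germs;
* `rowA_pol`, `rowB`, `rowC_pol` : the fields `A`, `B`, `C` of `Tables` for the unreduced rows
  (`dec = pol`; `rowB` for all modes);

* `reduced` : the reduced row, record `kG.polC`.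
-/

set_option autoImplicit false

namespace Crest.Agent.R006.P4M

open Polynomial Finset Tollx814 P4Toll961
open Crest.Agent.R006.D Crest.Agent.R006.PsiInf Crest.Agent.R006.P8 Crest.Agent.R006.P4If
open Crest.Agent.R006.P4M531 (pt cst phi linB BB)

/-- the records without `polC` -/
def tabU (d : Mode) (k : Kind) (j : ℤ) : Row3 :=
  match d with
  | .pol => if j = k.j0 then k.polS else k.pol
  | .rA => if j = k.j0 then k.regS else k.reg
  | .rB => if j = k.j0 then k.regBS else k.regB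

lemma kindR_cases (ρ : D.Row) : kindR ρ = kG ∨ kindR ρ = kE1 ∨ kindR ρ = kE2 ∨ kindR ρ = kH1 ∨
    kindR ρ = kH2 ∨ kindR ρ = kW := by
  rcases ρ with ⟨i | i, o⟩
  · simp only [kindR]
    split_ifs <;> simp
  · simp only [kindR]
    split_ifs <;> simp

/-- the record `polC` differs from `polS` for `kG` only -/
lemma tabK_eq_tabU (d : Mode) (ρ : D.Row) (js : List ℤ) (j : ℤ)
    (h : ¬ (d = .pol ∧ kindR ρ = kG ∧ j = 0 ∧ kG.cond js = true)) :
    tabK d (kindR ρ) js j = tabU d (kindR ρ) j := by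
  rcases d with _ | _ | _
  · simp only [tabK, Kind.row3, tabU]
    split_ifs with h1 h2
    · rcases kindR_cases ρ with hk | hk | hk | hk | hk | hk
      · exfalso
        rw [hk] at h1 h2
        exact h ⟨rfl, hk, h1, h2⟩
      all_goals rw [hk]; rfl
    · rfl
    · rfl
  · rfl
  · rfl

lemma tabK_polC {ρ : D.Row} {js : List ℤ} {j : ℤ} (hk : kindR ρ = kG) (hj : j = 0)
    (hc : kG.cond js = true) : tabK .pol (kindR ρ) js j = kG.polC := by
  rw [hk]
  simp only [tabK, Kind.row3]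
  rw [if_pos (by rw [hj]; rfl), if_pos hc]

/-- **the choice of the germs**: `gB` is used in the `W` rows of the classes with `dec = rB` -/
noncomputable def psS {p : ℕ} (e : Fin p → ℚ[X]) (M : ℕ) (c : Fin p) (d : Mode) (gB : BB)
    (z : Site) : BB :=
  match z with
  | .Z i => psi' e M c (.Z i)
  | .H i => if 0 ≤ i then psi' e M c (.H i) else
      match d with
      | .pol => psi' e M c (.Z ((c : ℕ) : ℤ))
      | .rA => 0
      | .rB => gB

lemma psS_Z {p : ℕ} (e : Fin p → ℚ[X]) (M : ℕ) (c : Fin p) (d : Mode) (gB : BB) (i : ℤ) :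
    psS e M c d gB (.Z i) = psi' e M c (.Z i) := rfl

lemma psS_H {p : ℕ} (e : Fin p → ℚ[X]) (M : ℕ) (c : Fin p) (d : Mode) (gB : BB) {i : ℤ}
    (hi : 0 ≤ i) : psS e M c d gB (.H i) = psi' e M c (.H i) := by
  simp only [psS, if_pos hi]

lemma psS_W {p : ℕ} (e : Fin p → ℚ[X]) (M : ℕ) (c : Fin p) (d : Mode) (gB : BB) {i : ℤ}
    (hi : i < 0) : psS e M c d gB (.H i) =
      match d with
      | .pol => psi' e M c (.Z ((c : ℕ) : ℤ))
      | .rA => 0
      | .rB => gB := by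
  simp only [psS, if_neg (not_le.mpr hi)]

namespace Dat

variable {p : ℕ} [hp : Fact p.Prime] {jR jT jQ jU ι : Type*} {D : Dat p jR jT jQ jU ι}
  {z : ℕ → ℕ} {NL : ℕ}

/-- standing facts for one row -/
structure RowF (D : Dat p jR jT jQ jU ι) (i : ι) : Prop where
  h5 : 5 ≤ p
  cs : (D.cs i : ℕ) = cl p (D.ro i).1
  inR : InR p (D.ro i).1
  ord : (D.ro i).2 ≤ 1
  ordZ : ∀ n : ℤ, (D.ro i).1 = .Z n → 0 ≤ n → (D.ro i).2 = 0
  ordH : ∀ n : ℤ, (D.ro i).1 = .H n → n < 0 → (D.ro i).2 = 0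

namespace RowF

variable {i : ι}

lemma h2 (h : D.RowF i) : p ≠ 2 := by have := h.h5; omega

lemma odd (h : D.RowF i) : p % 2 = 1 := P4SideCls110.odd_of_prime h.h5

lemma csS (h : D.RowF i) : (D.cs i : ℕ) = clsS p (D.ro i).1 := by
  rw [h.cs, P4SideCls110.cl_eq h.odd]

/-- order and kind -/
lemma kind_cases (h : D.RowF i) :
    (kindR (D.ro i) = kG ∧ (D.ro i).2 = 0 ∧ ∃ n : ℤ, (D.ro i).1 = .Z n ∧ 0 ≤ n) ∨
    (kindR (D.ro i) = kE1 ∧ (D.ro i).2 = 0 ∧ ∃ m : ℕ, (D.ro i).1 = .Z (-(m : ℤ)) ∧ 0 < m) ∨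
    (kindR (D.ro i) = kE2 ∧ (D.ro i).2 = 1 ∧ ∃ m : ℕ, (D.ro i).1 = .Z (-(m : ℤ)) ∧ 0 < m) ∨
    (kindR (D.ro i) = kH1 ∧ (D.ro i).2 = 0 ∧ ∃ l : ℕ, (D.ro i).1 = .H (l : ℤ)) ∨
    (kindR (D.ro i) = kH2 ∧ (D.ro i).2 = 1 ∧ ∃ l : ℕ, (D.ro i).1 = .H (l : ℤ)) ∨
    (kindR (D.ro i) = kW ∧ (D.ro i).2 = 0 ∧ ∃ n : ℤ, (D.ro i).1 = .H n ∧ n < 0) := by
  have ho := h.ord
  have hZ := h.ordZ
  have hH := h.ordH
  rcases hr : D.ro i with ⟨n | n, o⟩
  · rw [hr] at ho hZ hH
    simp only [kindR]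
    by_cases hn : 0 ≤ n
    · left
      rw [if_pos hn]
      exact ⟨rfl, hZ n rfl hn, n, rfl, hn⟩
    · right
      rw [if_neg hn]
      have e : n = -((n.natAbs : ℕ) : ℤ) := by omega
      by_cases h0 : o = 0
      · left
        rw [if_pos h0]
        exact ⟨rfl, h0, n.natAbs, by rw [← e], by omega⟩
      · right; left
        rw [if_neg h0]
        exact ⟨rfl, by simp only at ho ⊢; omega, n.natAbs, by rw [← e], by omega⟩
  · rw [hr] at ho hZ hH
    simp only [kindR]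
    by_cases hn : 0 ≤ n
    · have e : n = ((n.natAbs : ℕ) : ℤ) := by omega
      right; right; right
      rw [if_pos hn]
      by_cases h0 : o = 0
      · left
        rw [if_pos h0]
        exact ⟨rfl, h0, n.natAbs, by rw [← e]⟩
      · right; left
        rw [if_neg h0]
        exact ⟨rfl, by simp only at ho ⊢; omega, n.natAbs, by rw [← e]⟩
    · right; right; right; right; right
      rw [if_neg hn]
      exact ⟨rfl, hH n rfl (by omega), n, rfl, by omega⟩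

/-! ### polar classes -/

lemma psS_mem (h : D.RowF i) (L : LocalInput p NL D.M D.e) (hpol : 2 * (D.cs i : ℕ) < p)
    (gB : BB) : psS D.e D.M (D.cs i) .pol gB (D.ro i).1 ∈ (psFil (pbFil p)).F (-2) := by
  have hR := h.inR
  have hc := h.cs
  rcases hr : (D.ro i).1 with n | n
  · rw [psS_Z]
    rw [hr] at hR hc
    exact L.psi_polar _ _ hR hc hpol (by intro j hj; cases hj)
  · by_cases hn : 0 ≤ n
    · rw [psS_H _ _ _ _ _ hn]
      rw [hr] at hR hc
      refine L.psi_polar _ _ hR hc hpol ?_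
      intro j hj
      cases hj
      exact hn
    · rw [psS_W _ _ _ _ _ (by omega)]
      exact (psFil (pbFil p)).mono (by norm_num) (L.psi_zero _ _ rfl hpol)

/-- **field `A`, polar classes, unreduced rows** -/
theorem rowA_pol (h : D.RowF i) (L : LocalInput p NL D.M D.e) (hNL : D.G + D.Nb ≤ NL)
    (hz : D.Zer z) (hpol : 2 * (D.cs i : ℕ) < p) {gB : BB}
    (hps : D.ps i = psS D.e D.M (D.cs i) .pol gB (D.ro i).1) (l : ℕ) :
    D.cA0 i l ∈ (pbFil p).F ((tabU .pol (kindR (D.ro i)) (jS p (D.ro i).1)).R.a +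
      pos ((l : ℤ) + z (D.cs i) - (tabU .pol (kindR (D.ro i)) (jS p (D.ro i).1)).R.b)) := by
  have h1 : ∀ v : ℤ, v ≤ (l : ℤ) + z (D.cs i) - 2 - (D.ro i).2 → D.cA0 i l ∈ (pbFil p).F v :=
    fun v hv => (pbFil p).mono hv (cA0_polar L hNL h.h2 hz i h.cs hpol
      (by rw [hps]; exact h.psS_mem L hpol gB) l)
  have h0 : D.ps i ∈ (psFil (pbFil p)).F 0 → ∀ v : ℤ,
      v ≤ max 0 ((l : ℤ) + z (D.cs i) - 2) - (D.ro i).2 → D.cA0 i l ∈ (pbFil p).F v :=
    fun hp0 v hv => (pbFil p).mono hv (cA0_polar0 L hNL h.h2 hz i h.cs hpol hp0 l)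
  rcases h.kind_cases with ⟨hk, ho, n, hn, hn0⟩ | ⟨hk, ho, n, hn, hn0⟩ | ⟨hk, ho, n, hn, hn0⟩ |
    ⟨hk, ho, n, hn⟩ | ⟨hk, ho, n, hn⟩ | ⟨hk, ho, n, hn, hn0⟩
  · rw [hk]
    by_cases hj : jS p (D.ro i).1 = 0
    · have e : tabU .pol kG (jS p (D.ro i).1) = kG.polS := by
        simp only [tabU]
        rw [if_pos (by rw [hj]; rfl)]
      rw [e]
      have hcl : ((D.cs i : ℕ) : ℤ) = n := by
        rw [h.csS, hn]
        rw [hn] at hj
        exact (P4SideCls110.jS_Z_zero h.odd n).mp hj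
      refine h0 ?_ _ ?_
      · rw [hps, hn, psS_Z, ← hcl]
        exact L.psi_zero _ _ rfl hpol
      · simp only [kG, pos]
        omega
    · have e : tabU .pol kG (jS p (D.ro i).1) = kG.pol := by
        simp only [tabU]
        rw [if_neg (by intro h'; exact hj h')]
      rw [e]
      refine h1 _ ?_
      simp only [kG, pos]
      omega
  · have e : tabU .pol kE1 (jS p (D.ro i).1) = kE1.pol := by
      simp only [tabU]; split_ifs <;> rfl
    rw [hk, e]
    refine h1 _ ?_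
    simp only [kE1, pos]
    omega
  · have e : tabU .pol kE2 (jS p (D.ro i).1) = kE2.pol := by
      simp only [tabU]; split_ifs <;> rfl
    rw [hk, e]
    refine h1 _ ?_
    simp only [kE2, pos]
    omega
  · have e : tabU .pol kH1 (jS p (D.ro i).1) = kH1.pol := by
      simp only [tabU]; split_ifs <;> rfl
    rw [hk, e]
    refine h1 _ ?_
    simp only [kH1, pos]
    omega
  · have e : tabU .pol kH2 (jS p (D.ro i).1) = kH2.pol := by
      simp only [tabU]; split_ifs <;> rfl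
    rw [hk, e]
    refine h1 _ ?_
    simp only [kH2, pos]
    omega
  · have e : tabU .pol kW (jS p (D.ro i).1) = kW.pol := by
      simp only [tabU]; split_ifs <;> rfl
    rw [hk, e]
    refine h0 ?_ _ ?_
    · rw [hps, hn, psS_W _ _ _ _ _ hn0]
      exact L.psi_zero _ _ rfl hpol
    · simp only [kW, pos]
      omega

/-- **field `B`, unreduced rows**, all modes -/
theorem rowB (h : D.RowF i) (d : Mode) (s : ℕ) :
    D.cB0 i s ∈ (pbFil p).F ((tabU d (kindR (D.ro i)) (jS p (D.ro i).1)).X.a +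
      pos ((s : ℤ) - (tabU d (kindR (D.ro i)) (jS p (D.ro i).1)).X.b)) := by
  have h1 := cB0_mem h.h2 i h.cs s
  have key : ∀ k : Kind, ((tabU d k (jS p (D.ro i).1)).X = k.pol.X ∨
      (tabU d k (jS p (D.ro i).1)).X = k.polS.X ∨ (tabU d k (jS p (D.ro i).1)).X = k.reg.X ∨
      (tabU d k (jS p (D.ro i).1)).X = k.regS.X ∨ (tabU d k (jS p (D.ro i).1)).X = k.regB.X ∨
      (tabU d k (jS p (D.ro i).1)).X = k.regBS.X) := by
    intro k
    rcases d with _ | _ | _ <;> simp only [tabU] <;> split_ifs <;> simp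
  rcases h.kind_cases with ⟨hk, ho, n, hn, hn0⟩ | ⟨hk, ho, n, hn, hn0⟩ | ⟨hk, ho, n, hn, hn0⟩ |
    ⟨hk, ho, n, hn⟩ | ⟨hk, ho, n, hn⟩ | ⟨hk, ho, n, hn, hn0⟩
  · rw [hk]
    refine (pbFil p).mono ?_ h1
    rcases key kG with e | e | e | e | e | e <;> rw [e] <;> simp only [kG, pos] <;> omega
  · rw [hk]
    refine (pbFil p).mono ?_ h1
    rcases key kE1 with e | e | e | e | e | e <;> rw [e] <;> simp only [kE1, pos] <;> omega
  · rw [hk]
    refine (pbFil p).mono ?_ h1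
    rcases key kE2 with e | e | e | e | e | e <;> rw [e] <;> simp only [kE2, pos] <;> omega
  · rw [hk]
    refine (pbFil p).mono ?_ h1
    rcases key kH1 with e | e | e | e | e | e <;> rw [e] <;> simp only [kH1, pos] <;> omega
  · rw [hk]
    refine (pbFil p).mono ?_ h1
    rcases key kH2 with e | e | e | e | e | e <;> rw [e] <;> simp only [kH2, pos] <;> omega
  · rw [hk]
    refine (pbFil p).mono ?_ h1
    rcases key kW with e | e | e | e | e | e <;> rw [e] <;> simp only [kW, pos] <;> omega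

/-- `g` vanishes in the `E` and `H` rows -/
lemma cC_zero (h : D.RowF i) (hG : GamOrd)
    (hs : (∃ m : ℕ, (D.ro i).1 = .Z (-(m : ℤ)) ∧ 0 < m) ∨ ∃ l : ℕ, (D.ro i).1 = .H (l : ℤ))
    (u : ℕ) : D.cC0 i u = 0 := by
  refine cC0_zero i ?_ u
  have ho := h.ord
  have h2 : (PowerSeries.X : PowerSeries ℚ) ^ ((D.ro i).2 + 1) ∣ PowerSeries.X ^ 2 :=
    pow_dvd_pow _ (by omega)
  rcases hs with ⟨m, hm, hm0⟩ | ⟨l, hl⟩
  · rw [hm]; exact h2.trans (hG.1 m hm0)
  · rw [hl]; exact h2.trans (hG.2 l)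

/-- **field `C`, polar classes, unreduced rows** -/
theorem rowC_pol (h : D.RowF i) (L : LocalInput p NL D.M D.e) (hG : GamOrd)
    (hpol : 2 * (D.cs i : ℕ) < p) (u : ℕ) :
    D.cC0 i u ∈ (pbFil p).F ((tabU .pol (kindR (D.ro i)) (jS p (D.ro i).1)).Q.a +
      pos ((u : ℤ) - (tabU .pol (kindR (D.ro i)) (jS p (D.ro i).1)).Q.b)) := by
  have h1 := cC0_mem h.h2 i h.cs (w := 0) (L.gam_polar _ _ h.inR h.cs hpol) u
  rcases h.kind_cases with ⟨hk, ho, n, hn, hn0⟩ | ⟨hk, ho, n, hn, hn0⟩ | ⟨hk, ho, n, hn, hn0⟩ |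
    ⟨hk, ho, n, hn⟩ | ⟨hk, ho, n, hn⟩ | ⟨hk, ho, n, hn, hn0⟩
  · rw [hk]
    refine (pbFil p).mono ?_ h1
    simp only [tabU]
    split_ifs <;> simp only [kG, pos] <;> omega
  · rw [h.cC_zero hG (Or.inl ⟨n, hn, hn0⟩) u]; exact AddSubgroup.zero_mem _
  · rw [h.cC_zero hG (Or.inl ⟨n, hn, hn0⟩) u]; exact AddSubgroup.zero_mem _
  · rw [h.cC_zero hG (Or.inr ⟨n, hn⟩) u]; exact AddSubgroup.zero_mem _
  · rw [h.cC_zero hG (Or.inr ⟨n, hn⟩) u]; exact AddSubgroup.zero_mem _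
  · rw [hk]
    refine (pbFil p).mono ?_ h1
    simp only [tabU]
    split_ifs <;> simp only [kW, pos] <;> omega

end RowF

/-! ### the reduced row -/

/-- **the reduced row**: record `kG.polC` -/
theorem reduced {i j : ι} (hi : D.RowF i) (hj : D.RowF j) (L : LocalInput p NL D.M D.e)
    (hNL : D.G + D.Nb ≤ NL) (hz : D.Zer z) {l' : ℕ} (hl' : l' ≤ (p - 1) / 2)
    (hri : D.ro i = (.Z ((((p - 1) / 2 : ℕ) : ℤ) - l'), 0))
    (hrj : D.ro j = (.H (-1 - (l' : ℤ)), 0)) {gB : BB}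
    (hpi : D.ps i = psS D.e D.M (D.cs i) .pol gB (D.ro i).1)
    (hpj : D.ps j = psS D.e D.M (D.cs j) .pol gB (D.ro j).1) (l : ℕ) :
    D.cA0 i l - D.cA0 j l ∈ (pbFil p).F (kG.polC.R.a +
      pos ((l : ℤ) + z (D.cs i) - kG.polC.R.b)) ∧
    D.cB0 i l - D.cB0 j l ∈ (pbFil p).F (kG.polC.X.a + pos ((l : ℤ) - kG.polC.X.b)) ∧
    D.cC0 i l - D.cC0 j l ∈ (pbFil p).F (kG.polC.Q.a + pos ((l : ℤ) - kG.polC.Q.b)) ∧
    D.cs j = D.cs i := by
  have hodd := hi.odd
  have hci : (D.cs i : ℕ) = (p - 1) / 2 - l' := by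
    rw [hi.cs, hri, cl]
    have e : (((p - 1) / 2 : ℕ) : ℤ) - l' = (((p - 1) / 2 - l' : ℕ) : ℤ) := by omega
    rw [e, Int.emod_eq_of_lt (by omega) (by omega)]
    rfl
  have hcj : (D.cs j : ℕ) = (p - 1) / 2 - l' := by
    rw [hj.cs, hrj, cl]
    have e : (-1 - (l' : ℤ) + ((p + 1) / 2 : ℕ)) = (((p - 1) / 2 - l' : ℕ) : ℤ) := by omega
    rw [e, Int.emod_eq_of_lt (by omega) (by omega)]
    rfl
  have hcc : D.cs j = D.cs i := Fin.ext (by rw [hci, hcj])
  have hp2 : p = 2 * ((p - 1) / 2) + 1 := by omega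
  have h1 := gw_table (z := z) L hNL hz hp2 hl' hri hrj hci hcc
    (by rw [hpi, hri, psS_Z]) (by
      rw [hpj, hpi, hri, hrj, psS_Z, psS_W _ _ _ _ _ (by omega), hcc]
      simp only [hci]
      congr 1
      simp only [Site.Z.injEq]
      omega) hj.inR hj.cs l
  exact ⟨h1.1, h1.2.1, h1.2.2, hcc⟩

end Dat

end Crest.Agent.R006.P4M
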