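import Crest.Agent.R006.P4SideDef_955
import Crest.Agent.R006.P4SideTab_830
import Crest.Agent.R006.P4SideTabA_110
import Crest.Agent.R006.P4SideTabB_869
import Crest.Agent.R006.P4SideNet_757
import Crest.Agent.R006.P4SideDet2_814
import Crest.Agent.R006.P4SideOK_938

/-!
# Row 6, block P4: the matrix side (helper955)

* `ABC_pol_955` : the fields `A`, `B`, `C` of `Tables` in the polar classes (with 830's rows);
* `side_of_955` : the final record;
* `matrixSide` : 814's `MatrixSide S c C1`, `C1 = 2 (B + e1 + h1 + w + c) + 8`, for `e3 = h3 = 0`.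

Leaves: 110 (`rA`), 869 / 657 (`rB`), 757 (network), 814 / 226 (determinant), 938 (`dsOK`),
830 (polar rows, local input).
-/

set_option autoImplicit false

namespace Crest.Agent.R006.P4S

open Polynomial Finset Tollx814 P4Toll961
open Crest.Agent.R006.D Crest.Agent.R006.Bordx929 Crest.Agent.R006.P4Asmx814
  Crest.Agent.R006.GaugeP555 Crest.Agent.R006.P8 Crest.Agent.R006.P4If Crest.Agent.R006.P4M
  Crest.Agent.R006.P4SideDatx538
open Crest.Agent.R006.P4M531 (phi BB)
open Crest.Agent.R006.P4B1In657 (delB)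

variable {S : Shape} {u c p : ℕ} [hp : Fact p.Prime] {dec : ℕ → Mode} {E : ℤ} {e : Fin p → ℚ[X]}
  (J : Fin c → RI S u c)

namespace Inp

variable (H : Inp S u c p dec E e)
include H

/-! ### auxiliary facts -/

omit H in
lemma dsRo_955 (x : RI S u c) : (DS S u c dec J E e).ro x = ofRow u c x := rfl

omit H in
lemma dsCs_955 (x : RI S u c) : ((DS S u c dec J E e).cs x : ℕ) = clsS p (ofRow u c x).1 := rfl

lemma rowF_955 (x : RI S u c) : (DS S u c dec J E e).RowF x where
  h5 := H.h5
  cs := H.cs_eq J x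
  inR := H.inR J x
  ord := P4M938.order_le_one H.e3 H.h3 x
  ordZ _ h h0 := P4M938.order_Z_nonneg x h h0
  ordH _ h h0 := (P4M938.order_H_neg x h h0).1

omit H in
lemma R0_cA_955 (x : RI S u c) (h : dec (clsS p (ofRow u c x).1) ≠ .rB) (l : Fin (NN S u E)) :
    (R0S S u c dec J E e).cA x l = (DS S u c dec J E e).cA0 x l := by
  show (DS S u c dec J E e).cA0 x l - ∑ s : Fin (NN S u E), (DS S u c dec J E e).cB0 x s *
    nrS S u c dec J E e (csS S u c p x) s l = _
  have h0 : ∀ s, nrS S u c dec J E e (csS S u c p x) s l = 0 := fun s => if_neg h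
  simp only [h0, mul_zero, sum_const_zero, sub_zero]

omit H in
lemma kindR_kG_955 {ρ : D.Row} (h : kindR ρ = kG) : ∃ i, ρ.1 = .Z i ∧ 0 ≤ i := by
  rcases ρ with ⟨i | i, o⟩
  · by_cases hi : 0 ≤ i
    · exact ⟨i, rfl, hi⟩
    · exfalso
      have h1 := congrArg Kind.ia h
      simp only [kindR, if_neg hi] at h1
      split_ifs at h1 <;> simp [kE1, kE2, kG] at h1
  · exfalso
    have h1 := congrArg Kind.ia h
    simp only [kindR] at h1
    split_ifs at h1 <;> simp [kH1, kH2, kW, kG] at h1

/-- a row with partner -/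
lemma pt_some_955 {x y : RI S u c} (h : ptS S u c H.good p x = some y) :
    ∃ l : ℕ, l ≤ (p - 1) / 2 ∧ l < S.w * u ∧
      ofRow u c x = (.Z ((((p - 1) / 2 : ℕ) : ℤ) - l), 0) ∧
      ofRow u c y = (.H (-1 - (l : ℤ)), 0) ∧
      clsS p (ofRow u c x).1 = (p - 1) / 2 - l ∧ jS p (ofRow u c x).1 = 0 := by
  obtain ⟨l, h1, h2, h3, h4⟩ := P4GW657.gwPartner_some S u c H.good _ h
  have h5 := P4SideCls110.cls_jS_Z (p := p) H.odd (a := (p - 1) / 2 - l)
    (i := (((p - 1) / 2 : ℕ) : ℤ) - l) (j := 0) (by have := p_pos p; omega) (by omega)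
  refine ⟨l, h1, h2, h3, h4, ?_, ?_⟩
  · rw [h3]; exact h5.1
  · rw [h3]; exact h5.2

/-- the record of a reduced row -/
lemma tb_some_955 {x y : RI S u c} (hx : dec (clsS p (ofRow u c x).1) = .pol)
    (h : ptS S u c H.good p x = some y) : tb S u c p dec x = kG.polC := by
  obtain ⟨l, h1, h2, h3, h4, h5, h6⟩ := H.pt_some_955 h
  show tabK (dec (clsS p (ofRow u c x).1)) (kindR (ofRow u c x)) _ _ = _
  rw [hx]
  refine tabK_polC ?_ h6 ?_
  · rw [h3]
    simp only [kindR]
    rw [if_pos (by omega)]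
  · rw [h5]
    refine P4SideCls110.cond_of_lt H.odd ?_ ?_
    · have := H.odd; omega
    · omega

/-- the record of an unreduced row -/
lemma tb_none_955 {x : RI S u c} (hx : dec (clsS p (ofRow u c x).1) = .pol)
    (h : ptS S u c H.good p x = none) :
    tb S u c p dec x = tabU .pol (kindR (ofRow u c x)) (jS p (ofRow u c x).1) := by
  show tabK (dec (clsS p (ofRow u c x).1)) (kindR (ofRow u c x)) _ _ = _
  rw [hx]
  refine tabK_eq_tabU _ _ _ _ ?_
  rintro ⟨-, hk, hj, hc⟩
  obtain ⟨i, hi, hi0⟩ := kindR_kG_955 hk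
  have hpol := (H.dok.pol _ (clsS_lt (p_pos p) _)).1 hx
  have h1 := P4SideCls110.cond_lt H.odd hc hpol
  have h2 : i = ((clsS p (ofRow u c x).1 : ℕ) : ℤ) := by
    have h3 : jS p (.Z i) = 0 := by rw [← hi]; exact hj
    have h4 := P4SideCls110.jS_Z_zero_nat H.odd h3
    rw [← hi] at h4
    exact h4
  refine P4GW657.gwPartner_none S u c H.good _ h (l := (p - 1) / 2 - clsS p (ofRow u c x).1)
    (by omega) h1 ?_
  have e1 : i = (((p - 1) / 2 : ℕ) : ℤ) - (((p - 1) / 2 - clsS p (ofRow u c x).1 : ℕ) : ℤ) := by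
    have := H.odd
    omega
  exact hi.trans (congrArg Site.Z e1)

/-- the germs in polar classes -/
lemma ps_pol_955 (x : RI S u c) (hx : dec (clsS p (ofRow u c x).1) = .pol) :
    (DS S u c dec J E e).ps x = P4M.psS (DS S u c dec J E e).e (DS S u c dec J E e).M
      ((DS S u c dec J E e).cs x) .pol 0 ((DS S u c dec J E e).ro x).1 := by
  show psG dec e (MM E) (csS S u c p x) (ofRow u c x).1 =
    P4M.psS e (MM E) (csS S u c p x) .pol 0 (ofRow u c x).1
  have h1 : dec ((csS S u c p x : Fin p) : ℕ) = .pol := hx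
  rcases (ofRow u c x).1 with n | n
  · rfl
  · simp only [psG, P4M.psS, h1]

/-! ### (1) polar classes -/

theorem ABC_pol_955 (x : RI S u c) (hx : dec (clsS p (ofRow u c x).1) = .pol) (l : Fin (NN S u E)) :
    (RS S u c dec J E e H.good).cA x l ∈ (pbFil p).F ((tb S u c p dec x).R.a +
      pos (((l : ℕ) : ℤ) + zS S u p (clsS p (ofRow u c x).1) - (tb S u c p dec x).R.b)) ∧
    (RS S u c dec J E e H.good).cB x l ∈ (pbFil p).F ((tb S u c p dec x).X.a +
      pos (((l : ℕ) : ℤ) - (tb S u c p dec x).X.b)) ∧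
    (RS S u c dec J E e H.good).cC x l ∈ (pbFil p).F ((tb S u c p dec x).Q.a +
      pos (((l : ℕ) : ℤ) - (tb S u c p dec x).Q.b)) := by
  have hpol : 2 * ((DS S u c dec J E e).cs x : ℕ) < p := (H.pol_iff _).1 hx
  rcases h : ptS S u c H.good p x with _ | y
  · have h1 : (RS S u c dec J E e H.good).cA x l = (R0S S u c dec J E e).cA x l :=
      subP_none _ h l
    have h2 : (RS S u c dec J E e H.good).cB x l = (R0S S u c dec J E e).cB x l :=
      subP_none _ h l
    have h3 : (RS S u c dec J E e H.good).cC x l = (R0S S u c dec J E e).cC x l :=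
      subP_none _ h l
    rw [H.tb_none_955 hx h, h1, h2, h3, R0_cA_955 J x (by rw [hx]; simp)]
    exact ⟨(H.rowF_955 J x).rowA_pol H.L (le_NLL S u E) (H.dsZer J) hpol (H.ps_pol_955 J x hx) l,
      (H.rowF_955 J x).rowB .pol l, (H.rowF_955 J x).rowC_pol H.L P4M938.gamOrd hpol l⟩
  · have h1 : (RS S u c dec J E e H.good).cA x l = (R0S S u c dec J E e).cA x l -
        (R0S S u c dec J E e).cA y l := subP_some _ h l
    have h2 : (RS S u c dec J E e H.good).cB x l = (R0S S u c dec J E e).cB x l -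
        (R0S S u c dec J E e).cB y l := subP_some _ h l
    have h3 : (RS S u c dec J E e H.good).cC x l = (R0S S u c dec J E e).cC x l -
        (R0S S u c dec J E e).cC y l := subP_some _ h l
    obtain ⟨l', k1, k2, k3, k4, k5, k6⟩ := H.pt_some_955 h
    have hy : clsS p (ofRow u c y).1 = clsS p (ofRow u c x).1 :=
      P4SideDetx814.gw_cls H.odd H.good h
    have hy' : dec (clsS p (ofRow u c y).1) = .pol := by rw [hy]; exact hx
    rw [H.tb_some_955 hx h, h1, h2, h3, R0_cA_955 J x (by rw [hx]; simp),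
      R0_cA_955 J y (by rw [hy']; simp)]
    have h5 := Dat.reduced (H.rowF_955 J x) (H.rowF_955 J y) H.L (le_NLL S u E) (H.dsZer J) k1 k3 k4
      (gB := 0) (H.ps_pol_955 J x hx) (H.ps_pol_955 J y hy') l
    exact ⟨h5.1, h5.2.1, h5.2.2.1⟩

end Inp

/-- the final record -/
theorem side_of_955 (H : Inp S u c p dec E e) :
    Side p S u c dec J E (NN S u E) (WS S u c dec J E e) (RS S u c dec J E e H.good) where
  det_eq f := H.det_eq_of J (H.dsOK J) f
  cls x := rfl
  errU x t := H.t_errU J x t
  tab :=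
    { rho := H.t_rho J
      th0 := H.t_th0 J
      q := H.t_q J
      A := by
        intro x l
        rcases h : dec (clsS p (ofRow u c x).1) with _ | _ | _
        · exact (H.ABC_pol_955 J x h l).1
        · exact H.A_rA J x h l
        · exact H.A_rB' J (H.dsZer J) x h l
      B := by
        intro x l
        rcases h : dec (clsS p (ofRow u c x).1) with _ | _ | _
        · exact (H.ABC_pol_955 J x h l).2.1
        · exact H.B_rA J x h l
        · exact H.B_rB J x h l
      B0 := fun x s hz hs => H.t_B0 J x s hz hs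
      C := by
        intro x l
        rcases h : dec (clsS p (ofRow u c x).1) with _ | _ | _
        · exact (H.ABC_pol_955 J x h l).2.2
        · exact H.C_rA J x h l
        · exact H.C_rB J x h l
      near := H.t_near' J (H.dsZer J)
      near0 := H.t_near0 J
      far := H.t_far J
      Lamp := H.t_Lamp J
      Lamr := H.t_Lamr J
      err := by
        intro x d hd
        show (if kd d = 3 then 0 else (RS S u c dec J E e H.good).err x d) ∈ _
        rw [if_neg hd]
        exact H.t_err J x d hd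
      errU := by
        intro x t
        have h0 : (zeroU (RS S u c dec J E e H.good)).err x (.inr (.inr (.inr t))) = 0 := by
          simp [zeroU, kd]
        rw [h0]
        exact AddSubgroup.zero_mem _
      errX := fun _ _ _ => AddSubgroup.zero_mem _
      errB := fun _ _ _ => AddSubgroup.zero_mem _ }

/-- **The matrix side.** -/
theorem matrixSide (S : Shape) (c : ℕ) (hS : S.Good) (e3 : S.e3 = 0) (h3 : S.h3 = 0) :
    MatrixSide S c (2 * (S.B + S.e1 + S.h1 + S.w + c) + 8) := by
  intro u p hp h5 hC dec hd J _ E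
  obtain ⟨e, he⟩ := P4Psi830.local_input h5 (NLL S u E) (MM E) (by unfold MM; omega)
  have H : Inp S u c p dec E e := ⟨hS, e3, h3, h5, hC, hd, he⟩
  exact ⟨_, _, _, side_of_955 J H⟩

end Crest.Agent.R006.P4S
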