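import Crest.Agent.R006.RowKinds_757
import Crest.Agent.R006.P4Iface_814

set_option autoImplicit false

/-!
# Row 6, block P4: the sum of the row potentials = the sum over the classes (helper757)

`sum_D0X`    : `∑_x D0X x = ∑_{a<p} kindSum js (oX a) (sX' a) (cX a) kindsF + (the c extra G-rows)`
`sum_D0X_ge` : `∑_x D0X x ≥ ∑_{a<p} kindSum js (oX a) (sX' a) (cX a) kindsF - c M`.
-/

namespace Crest.Agent.R006.P8.RowSumx757

open Finset Crest.Agent.R006 Crest.Agent.R006.P8 Crest.Agent.R006.D Crest.Agent.R006.P4If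
  Crest.Agent.R006.Bordx929 Crest.Agent.R006.P4Asmx814 Crest.Agent.R006.GaugeP555

/-- the record of the ordinary nodes -/
def recO : Mode → Kind → Row3
  | .pol, k => k.pol
  | .rA, k => k.reg
  | .rB, k => k.regB

/-- the record of the special node -/
def recS : Mode → Kind → Row3
  | .pol, k => k.polS
  | .rA, k => k.regS
  | .rB, k => k.regBS

/-- the record of the special node under the condition of the kind -/
def recC : Mode → Kind → Row3
  | .pol, k => k.polC
  | .rA, k => k.regS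
  | .rB, k => k.regBS

lemma tabK_eq (d : Mode) (k : Kind) (js : List ℤ) (j : ℤ) :
    tabK d k js j = if j = k.j0 then (if k.cond js then recC d k else recS d k) else recO d k := by
  cases d <;> simp [tabK, Kind.row3, recO, recS, recC]

variable (S : Shape) (u p : ℕ) (dec : ℕ → Mode) (lam mu : ℤ) (sg sX sQ : ℕ → ℤ)

/-- the potential of the record `r` in the class `a` -/
noncomputable def potC (a : ℕ) (r : Row3) : ℤ :=
  r.Dm (dec a) lam mu (sg a + zc S u p (a : ℤ)) (sX a) (sQ a)

variable {S u p dec lam mu sg sX sQ}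

lemma kindR_eq_kRow {c : ℕ} (h3 : S.e3 = 0) (h3' : S.h3 = 0) (x : RI S u c) :
    kindR (ofRow u c x) = kRow (ofRow u c x) := by
  obtain ⟨⟨z, hz⟩, ⟨o, ho⟩⟩ := x
  have ho' : o < S.mult u c z := ho
  simp only [ofRow]
  rcases z with i | i
  · rw [Shape.mult] at ho'
    by_cases hi : 0 ≤ i
    · simp only [kindR, if_pos hi, kRow_G hi]
    · have hi' : i < 0 := not_le.mp hi
      simp only [if_neg hi, h3, Nat.cast_zero, zero_mul] at ho'
      have : o < 2 := by split_ifs at ho' <;> omega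
      interval_cases o
      · simp only [kindR, if_neg hi, if_true, kRow_E1 hi']
      · simp only [kindR, if_neg hi, one_ne_zero, if_false, kRow_E2 hi']
  · rw [Shape.mult] at ho'
    by_cases hi : 0 ≤ i
    · simp only [if_pos hi, h3', Nat.cast_zero, zero_mul] at ho'
      have : o < 2 := by split_ifs at ho' <;> omega
      interval_cases o
      · simp only [kindR, if_pos hi, if_true, kRow_H1 hi]
      · simp only [kindR, if_pos hi, one_ne_zero, if_false, kRow_H2 hi]
    · have hi' : i < 0 := not_le.mp hi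
      simp only [kindR, if_neg hi, kRow_W hi']

lemma dbl_eq (z : Site) : dbl z = dblx z := by rcases z with i | i <;> rfl

/-- the windows of the kinds -/
lemma isWin_kG : IsWin (bdS S) kG 0 S.B 0 := ⟨by simp [bdS, kG], by simp [bdS, kG], by rfl, by rfl, Or.inl rfl, by positivity⟩
lemma isWin_kE1 : IsWin (bdS S) kE1 (-S.e1) 0 0 := ⟨by simp [bdS, kE1], by simp [bdS, kE1], by rfl, by rfl, Or.inl rfl, by simp⟩
lemma isWin_kE2 : IsWin (bdS S) kE2 (-S.e2) 0 0 := ⟨by simp [bdS, kE2], by simp [bdS, kE2], by rfl, by rfl, Or.inl rfl, by simp⟩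
lemma isWin_kH1 : IsWin (bdS S) kH1 0 S.h1 1 := ⟨by simp [bdS, kH1], by simp [bdS, kH1], by rfl, by rfl, Or.inr rfl, by positivity⟩
lemma isWin_kH2 : IsWin (bdS S) kH2 0 S.h2 1 := ⟨by simp [bdS, kH2], by simp [bdS, kH2], by rfl, by rfl, Or.inr rfl, by positivity⟩
lemma isWin_kW : IsWin (bdS S) kW (-S.w) 0 1 := ⟨by simp [bdS, kW], by simp [bdS, kW], by rfl, by rfl, Or.inr rfl, by simp⟩

lemma le_of_mem_kindsF {k : Kind} (hk : k ∈ kindsF) {a : ℤ} (hp : 0 < p) :
    (jvec (bdS S) u p a).getD k.ia 0 ≤ (jvec (bdS S) u p a).getD k.ib 0 := by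
  have hp' : (0 : ℤ) < p := by exact_mod_cast hp
  have hu : (0 : ℤ) ≤ u := by positivity
  simp only [kindsF, List.mem_cons, List.not_mem_nil, or_false] at hk
  rcases hk with rfl | rfl | rfl | rfl | rfl | rfl
  exacts [isWin_kG.le hp' hu, isWin_kE1.le hp' hu, isWin_kE2.le hp' hu, isWin_kH1.le hp' hu,
    isWin_kH2.le hp' hu, isWin_kW.le hp' hu]

/-- **The sum of the row potentials, class by class.** -/
theorem sum_D0X {c : ℕ} (hS : S.Good) (h3 : S.e3 = 0) (h3' : S.h3 = 0)
    (hp : 0 < p) (hodd : p % 2 = 1) :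
    ∑ x : RI S u c, D0X S u p dec lam mu sg sX sQ (ofRow u c x) =
      ∑ a ∈ range p, kindSum (jvec (bdS S) u p a)
          (fun k => potC S u p dec lam mu sg sX sQ a (recO (dec a) k))
          (fun k => potC S u p dec lam mu sg sX sQ a (recS (dec a) k))
          (fun k => potC S u p dec lam mu sg sX sQ a (recC (dec a) k)) kindsF
        + ∑ n ∈ Ico ((S.B * u : ℕ) : ℤ) ((S.B * u + c : ℕ) : ℤ),
          potC S u p dec lam mu sg sX sQ (cls p (2 * n)).toNat
            (tabK (dec (cls p (2 * n)).toNat) kG (jvec (bdS S) u p (cls p (2 * n)).toNat)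
              (jdx p (2 * n))) := by
  have h := sum_rows_kinds (u := u) (c := c) hS h3 h3' hp hodd
    (fun a k j => potC S u p dec lam mu sg sX sQ a (tabK (dec a) k (jvec (bdS S) u p a) j))
  have h1 : ∀ x : RI S u c, D0X S u p dec lam mu sg sX sQ (ofRow u c x) =
      potC S u p dec lam mu sg sX sQ (clsN p (ofRow u c x))
        (tabK (dec (clsN p (ofRow u c x))) (kRow (ofRow u c x))
          (jvec (bdS S) u p (clsN p (ofRow u c x))) (jdN p (ofRow u c x))) := by
    intro x
    rw [← kindR_eq_kRow h3 h3' x]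
    simp only [D0X, potC, tabX, clsN, jdN, clsS, jS, dbl_eq]
  rw [Finset.sum_congr rfl fun x _ => h1 x]
  refine h.trans ?_
  congr 1
  refine Finset.sum_congr rfl fun a ha => ?_
  rw [kindSum_eq _ _ _ _ _ fun k hk => le_of_mem_kindsF hk hp]
  congr 1
  refine List.map_congr_left fun k _ => ?_
  refine Finset.sum_congr rfl fun j _ => ?_
  rw [tabK_eq]
  split_ifs <;> rfl

/-- **Lower bound**: the `c` extra rows cost at most `c M`. -/
theorem sum_D0X_ge {c : ℕ} (hS : S.Good) (h3 : S.e3 = 0) (h3' : S.h3 = 0)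
    (hp : 0 < p) (hodd : p % 2 = 1) {M : ℤ}
    (hO : ∀ a < p, -M ≤ potC S u p dec lam mu sg sX sQ a (recO (dec a) kG))
    (hS' : ∀ a < p, -M ≤ potC S u p dec lam mu sg sX sQ a (recS (dec a) kG))
    (hC : ∀ a < p, -M ≤ potC S u p dec lam mu sg sX sQ a (recC (dec a) kG)) :
    ∑ a ∈ range p, kindSum (jvec (bdS S) u p a)
        (fun k => potC S u p dec lam mu sg sX sQ a (recO (dec a) k))
        (fun k => potC S u p dec lam mu sg sX sQ a (recS (dec a) k))
        (fun k => potC S u p dec lam mu sg sX sQ a (recC (dec a) k)) kindsF - c * M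
      ≤ ∑ x : RI S u c, D0X S u p dec lam mu sg sX sQ (ofRow u c x) := by
  rw [sum_D0X hS h3 h3' hp hodd]
  have hp' : (0 : ℤ) < p := by exact_mod_cast hp
  have h1 : ∑ _n ∈ Ico ((S.B * u : ℕ) : ℤ) ((S.B * u + c : ℕ) : ℤ), (-M) ≤
      ∑ n ∈ Ico ((S.B * u : ℕ) : ℤ) ((S.B * u + c : ℕ) : ℤ),
          potC S u p dec lam mu sg sX sQ (cls p (2 * n)).toNat
            (tabK (dec (cls p (2 * n)).toNat) kG (jvec (bdS S) u p (cls p (2 * n)).toNat)
              (jdx p (2 * n))) := by
    refine Finset.sum_le_sum fun n _ => ?_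
    have h2 := cls_nonneg (s := 2 * n) hp'
    have h4 := cls_lt (s := 2 * n) hp'
    have h5 : (cls p (2 * n)).toNat < p := by omega
    rw [tabK_eq]
    split_ifs
    exacts [hC _ h5, hS' _ h5, hO _ h5]
  rw [Finset.sum_const, Int.card_Ico, nsmul_eq_mul] at h1
  have h2 : ((((S.B * u + c : ℕ) : ℤ) - ((S.B * u : ℕ) : ℤ)).toNat : ℤ) = c := by
    push_cast; omega
  rw [h2] at h1
  linarith

/-- a record whose costs are at least `-2, 0, 0` has a potential `≥ -(2 + |lam| + |mu|)` -/
lemma le_potC (a : ℕ) {r : Row3} (hR : -2 ≤ r.R.a) (hX : 0 ≤ r.X.a) (hQ : 0 ≤ r.Q.a) :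
    -(2 + |lam| + |mu|) ≤ potC S u p dec lam mu sg sX sQ a r := by
  have e1 : ∀ s, -2 ≤ r.R.val s := fun s => by
    rw [Cst.val]; linarith [pos_nonneg (s - r.R.b)]
  have e2 : ∀ s, 0 ≤ r.X.val s := fun s => by
    rw [Cst.val]; linarith [pos_nonneg (s - r.X.b)]
  have e3 : ∀ s, 0 ≤ r.Q.val s := fun s => by
    rw [Cst.val]; linarith [pos_nonneg (s - r.Q.b)]
  have hl := le_abs_self lam
  have hm := le_abs_self mu
  have hl0 := abs_nonneg lam
  have hm0 := abs_nonneg mu
  have hD : ∀ sR sX' sQ', -(2 + |lam| + |mu|) ≤ r.D lam mu sR sX' sQ' := by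
    intro sR sX' sQ'
    rw [Row3.D, le_min_iff, le_min_iff]
    exact ⟨by linarith [e1 sR], by linarith [e2 sX'], by linarith [e3 sQ']⟩
  rw [potC]
  rcases dec a with _ | _ | _
  · exact hD _ _ _
  · exact hD _ _ _
  · simp only [Row3.Dm, Row3.DB, le_min_iff]
    refine ⟨hD _ _ _, ?_⟩
    split_ifs
    · linarith [e2 (pos (sX a)), pos_nonneg (sg a + (zc S u p (a : ℤ) : ℤ))]
    · linarith [e2 (max (sX a) (pos (sg a + (zc S u p (a : ℤ) : ℤ)) + 1))]

/-- **Lower bound**, with the constant `c (2 + |lam| + |mu|)`. -/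
theorem sum_D0X_ge' {c : ℕ} (hS : S.Good) (h3 : S.e3 = 0) (h3' : S.h3 = 0)
    (hp : 0 < p) (hodd : p % 2 = 1) :
    ∑ a ∈ range p, kindSum (jvec (bdS S) u p a)
        (fun k => potC S u p dec lam mu sg sX sQ a (recO (dec a) k))
        (fun k => potC S u p dec lam mu sg sX sQ a (recS (dec a) k))
        (fun k => potC S u p dec lam mu sg sX sQ a (recC (dec a) k)) kindsF
          - c * (2 + |lam| + |mu|)
      ≤ ∑ x : RI S u c, D0X S u p dec lam mu sg sX sQ (ofRow u c x) := by
  refine sum_D0X_ge hS h3 h3' hp hodd (fun a _ => ?_) (fun a _ => ?_) (fun a _ => ?_)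
  · rcases dec a with _ | _ | _ <;> exact le_potC a (by decide) (by decide) (by decide)
  · rcases dec a with _ | _ | _ <;> exact le_potC a (by decide) (by decide) (by decide)
  · rcases dec a with _ | _ | _ <;> exact le_potC a (by decide) (by decide) (by decide)

/-- upper bound of a row potential: `D ≤ X.val (sX)` -/
lemma potC_le (a : ℕ) (r : Row3) :
    potC S u p dec lam mu sg sX sQ a r ≤ r.X.val (sX a) := by
  have hD : ∀ sR sQ', r.D lam mu sR (sX a) sQ' ≤ r.X.val (sX a) := fun sR sQ' =>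
    (min_le_right _ _).trans (min_le_left _ _)
  rw [potC]
  rcases dec a with _ | _ | _
  · exact hD _ _
  · exact hD _ _
  · exact (min_le_left _ _).trans (hD _ _)

/-- the row potentials are at most `1 + max 0 sX` -/
lemma D0X_le {c : ℕ} (h3 : S.e3 = 0) (h3' : S.h3 = 0) (x : RI S u c) {P : ℤ}
    (hP : ∀ a, sX a ≤ P) (hP0 : 0 ≤ P) :
    D0X S u p dec lam mu sg sX sQ (ofRow u c x) ≤ 1 + P := by
  have h1 : D0X S u p dec lam mu sg sX sQ (ofRow u c x) =
      potC S u p dec lam mu sg sX sQ (clsN p (ofRow u c x))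
        (tabK (dec (clsN p (ofRow u c x))) (kRow (ofRow u c x))
          (jvec (bdS S) u p (clsN p (ofRow u c x))) (jdN p (ofRow u c x))) := by
    rw [← kindR_eq_kRow h3 h3' x]
    simp only [D0X, potC, tabX, clsN, jdN, clsS, jS, dbl_eq]
  rw [h1]
  refine (potC_le _ _).trans ?_
  generalize clsN p (ofRow u c x) = a
  generalize jdN p (ofRow u c x) = j
  have key : ∀ w, ∀ d : Mode, ∀ js : List ℤ,
      (tabK d (kOf w) js j).X.a ≤ 1 ∧ 0 ≤ (tabK d (kOf w) js j).X.b := by
    intro w d js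
    rw [tabK_eq]
    have hw : kOf w ∈ kindsF := by
      match w with
      | 0 | 1 | 2 | 3 | 4 | 5 | 6 => simp [kOf, kindsF]
      | n + 7 => simp [kOf, kindsF]
    generalize kOf w = k at hw
    simp only [kindsF, List.mem_cons, List.not_mem_nil, or_false] at hw
    rcases hw with rfl | rfl | rfl | rfl | rfl | rfl <;> rcases d with _ | _ | _ <;>
      (split_ifs <;> decide)
  have h2 := key (wnd (ofRow u c x)) (dec a) (jvec (bdS S) u p a)
  have h3 := hP a
  rw [kRow, Cst.val, pos_eq]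
  omega

end Crest.Agent.R006.P8.RowSumx757
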