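import Crest.Agent.R006.P4Iface_814
import Crest.Agent.R006.RowD0_757
import Crest.Agent.R006.OddAsm_365

set_option autoImplicit false

/-!
# Row 6, block P4: the top theorem (helper814)

`MatrixSide` (955, 657, 830, 110, 538, 226) + the counts (757, `RowD0_757`) + the constants
(`ConstLe`, 529) give 365's `ClassForm`.
-/

namespace Crest.Agent.R006.P4If

open Polynomial Filter Finset Crest.Agent.R006.D Crest.Agent.R006.P8 Crest.Agent.R006.Bordx929
  Crest.Agent.R006.P4Asmx814 Crest.Agent.R006.P4Toll961 Crest.Agent.R006.GaugeP555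
  Crest.Agent.R006.P8.RowSumx757

/-- value of the class `a` (gauge form) without the tolls -/
noncomputable def classF (S : Shape) (u p : ℕ) (dec : ℕ → Mode) (lam mu : ℤ) (sg sX sQ : ℕ → ℤ)
    (a : ℕ) : ℤ :=
  kindSum (jvec (bdS S) u p a)
    (fun k => potC S u p dec lam mu sg sX sQ a (recO (dec a) k))
    (fun k => potC S u p dec lam mu sg sX sQ a (recS (dec a) k))
    (fun k => potC S u p dec lam mu sg sX sQ a (recC (dec a) k)) kindsF

/-- the constants (529) on the strip that starts at `s` : `B` bounds the tolls `sX` -/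
def ConstLe (S : Shape) (s : St) (B : ℤ) : Prop :=
  ∃ lam mu : ℤ, ∀ᶠ u : ℕ in atTop, ∀ p : ℕ, p.Prime → (s.u : ℝ) / s.v * u < p →
    ∃ (dec : ℕ → Mode) (sg sX sQ : ℕ → ℤ), DecOK S u p dec ∧ (∀ a, sX a ≤ B) ∧
      ∑ a ∈ range p, kapT s.t (jvec (bdS S) u p a) + extT S s.t * u
        ≤ lam * (S.k * u : ℕ) + mu * (S.g * u : ℕ)
          + ∑ a ∈ range p, (classF S u p dec lam mu sg sX sQ a
              - tollC S u p dec lam sg sX sQ a)
          - (padicValNat p (den S u) : ℕ)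

/-! ### the top theorem -/

theorem classStrip_of {S : Shape} (hS : S.Good) (h3 : S.e3 = 0) (h3' : S.h3 = 0) {c C1 : ℕ}
    (hMS : MatrixSide S c C1) {s s' : St} {B : ℤ} (hs : (0 : ℝ) < (s.u : ℝ) / s.v)
    (hk : ConstLe S s B) : ClassStrip S c (bdS S) kapT (extT S) s s' := by
  obtain ⟨lam, mu, hk⟩ := hk
  set M : ℤ := 2 + |lam| + |mu| with hM
  have hM0 : 0 ≤ M := by positivity
  set nu : ℤ := -(1 + pos B) with hnu
  refine ⟨(c : ℝ) * M + (c : ℝ) * (1 + pos B : ℤ), ?_⟩
  set x : ℝ := (s.u : ℝ) / s.v with hx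
  have hev1 : ∀ᶠ u : ℕ in atTop, (5 : ℝ) ≤ x * u := by
    filter_upwards [(tendsto_natCast_atTop_atTop (R := ℝ)).eventually_ge_atTop (5 / x)] with u hu
    rw [div_le_iff₀ hs] at hu
    linarith
  have hev2 : ∀ᶠ u : ℕ in atTop, ((C1 * (u + 1) : ℕ) : ℝ) ≤ (x * u) ^ 2 := by
    filter_upwards [(tendsto_natCast_atTop_atTop (R := ℝ)).eventually_ge_atTop (2 * C1 / x ^ 2),
      eventually_ge_atTop 1] with u hu hu1
    have hu1' : (1 : ℝ) ≤ u := by exact_mod_cast hu1
    rw [div_le_iff₀ (by positivity)] at hu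
    push_cast
    have h3 : (C1 : ℝ) * (u + 1) ≤ 2 * C1 * u := by
      have : (0 : ℝ) ≤ C1 := by positivity
      nlinarith
    have h4 : 2 * (C1 : ℝ) * u ≤ (u * x ^ 2) * u :=
      mul_le_mul_of_nonneg_right hu (by linarith)
    nlinarith
  filter_upwards [hk, hev1, hev2] with u hku h5 hC r hr p hp hlo _
  haveI : Fact p.Prime := ⟨hp⟩
  have hp5 : 5 < p := by
    have : (5 : ℝ) < p := lt_of_le_of_lt h5 hlo
    exact_mod_cast this
  have hodd : p % 2 = 1 := (hp.eq_two_or_odd).resolve_left (by omega)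
  have hpC : C1 * (u + 1) < p ^ 2 := by
    have h1 : (x * u) ^ 2 < (p : ℝ) ^ 2 := by
      have : 0 ≤ x * u := by positivity
      exact pow_lt_pow_left₀ hlo this two_ne_zero
    have h2 : ((C1 * (u + 1) : ℕ) : ℝ) < ((p ^ 2 : ℕ) : ℝ) := by
      push_cast at hC ⊢
      linarith
    exact_mod_cast h2
  obtain ⟨dec, sg, sX, sQ, hdec, hB, hle⟩ := hku p hp hlo
  have hcnt := sum_D0X_ge' (S := S) (u := u) (p := p) (dec := dec) (lam := lam) (mu := mu)
    (sg := sg) (sX := sX) (sQ := sQ) (c := c) hS h3 h3' hp.pos hodd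
  have hB0 := pos_nonneg B
  have hD : ∀ y : RI S u c, D0X S u p dec lam mu sg sX sQ (ofRow u c y) ≤ 1 + pos B := fun y =>
    D0X_le h3 h3' y (fun a => (hB a).trans (by simp only [pos_eq]; omega)) hB0
  set E : ℤ := lam * (S.k * u : ℕ) + mu * (S.g * u : ℕ) + nu * c
        + ∑ x : RI S u c, D0X S u p dec lam mu sg sX sQ (ofRow u c x)
        - ∑ a ∈ Finset.range p, tollC S u p dec lam sg sX sQ a with hE
  have hloss : Loss p (Minor S u r) (-(E : ℝ) + (padicValNat p (den S u) : ℕ)) := by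
    refine loss_of_border S u c hS r hr ?_
    intro J hJ e
    set E0 : ℤ := |lam| + (1 + pos B + max lam (max 0 mu)) with hE0
    have hm0 : 0 ≤ max lam (max 0 mu) := (le_max_left 0 mu).trans (le_max_right _ _)
    obtain ⟨N, W, R, hside⟩ := hMS u p hp5.le hpC dec hdec J hJ E0
    refine hside.det_mem lam mu nu sg sX sQ ?_ ?_ ?_ ?_ e
    · have := le_abs_self lam; rw [hE0]; linarith
    · intro y
      have h1 := hD y
      have := abs_nonneg lam
      rw [hE0]; linarith
    · have := abs_nonneg lam; rw [hE0]; linarith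
    · intro y
      have h1 := hD y
      rw [hnu]; linarith
  refine hloss.mono ?_
  obtain ⟨v, hv⟩ : ∃ v : ℕ, v = padicValNat p (den S u) := ⟨_, rfl⟩
  rw [← hv] at hle ⊢
  have h1 : (∑ a ∈ range p, kapT s.t (jvec (bdS S) u p a) + extT S s.t * u : ℤ)
      ≤ E + c * M + c * (1 + pos B) - (v : ℕ) := by
    rw [hE, hnu]
    rw [Finset.sum_sub_distrib] at hle
    simp only [classF] at hle
    linarith
  have h2 : (((∑ a ∈ range p, kapT s.t (jvec (bdS S) u p a) + extT S s.t * u : ℤ)) : ℝ)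
      ≤ ((E + c * M + c * (1 + pos B) - (v : ℕ) : ℤ) : ℝ) := by
    exact_mod_cast h1
  push_cast at h2 ⊢
  linarith

/-- **P4 for a list of strips.** -/
theorem classForm_of {S : Shape} (hS : S.Good) (h3 : S.e3 = 0) (h3' : S.h3 = 0) {c C1 : ℕ}
    (hMS : MatrixSide S c C1) {L : List St} (hL : ∀ s s' : St, [s, s'] <:+: L →
      (0 : ℝ) < (s.u : ℝ) / s.v ∧ ∃ B, ConstLe S s B) :
    ClassForm S c (bdS S) kapT (extT S) L := by
  intro s s' hss
  obtain ⟨h1, B, h2⟩ := hL s s' hss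
  exact classStrip_of hS h3 h3' hMS h1 h2

end Crest.Agent.R006.P4If
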