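import Crest.Agent.R006.P4_BaseO_170
import Crest.Agent.R006.P4M_PS_955
import Crest.Agent.R006.P4Toll_961
import Crest.Agent.R006.P4Class_280

/-!
Row 6 (S0006), block P4, BASE 2 (helper170, for 110 / 869 / 830 / 955).

`B0 p` = the subring `{f | f ∈ (psFil (pbFil p)).F 0}` of `ℚ[X]⟦ε⟧`, as a commutative ring in which
`p` is not a unit and the integers prime to `p` are units; `p^k ∣ f ↔ f ∈ (psFil (pbFil p)).F k`.
Moments `muB0`, class data, the elements `τ = ε/p` and `x_k = k/2 + ε`.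
-/

set_option autoImplicit false

open Polynomial Finset

namespace Crest.Agent.R006.P4B0x170

open Crest.Agent.R006 Crest.Agent.R006.P4M Crest.Agent.R006.P4Toll961
  Crest.Agent.R006.P4BaseOx170 Crest.Agent.R006.Tollx814

variable (p : ℕ) [hp : Fact p.Prime]

/-- the jet filtration of `ℚ[X]⟦ε⟧`. -/
noncomputable abbrev FB : ZFil (PowerSeries ℚ[X]) := psFil (pbFil p)

/-- the ring of integral elements of `ℚ[X]⟦ε⟧`. -/
noncomputable abbrev B0 : Subring (PowerSeries ℚ[X]) := OO (FB p)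

variable {p}

theorem mem_B0 {f : PowerSeries ℚ[X]} : f ∈ B0 p ↔ f ∈ (FB p).F 0 := Iff.rfl

theorem coe_injective : Function.Injective (fun f : B0 p => (f : PowerSeries ℚ[X])) :=
  Subtype.val_injective

theorem CC_mem {a : ℚ} {v : ℤ} (h : padicNorm p a ≤ (p : ℚ) ^ (-v)) :
    PowerSeries.C (Polynomial.C a) ∈ (FB p).F v :=
  C_mem (pbFil p) (ProdBound481.PB.C h)

theorem padicNorm_p_pow (k : ℕ) : padicNorm p ((p : ℚ) ^ k) = (p : ℚ) ^ (-(k : ℤ)) := by
  have hp0 : (p : ℚ) ≠ 0 := by exact_mod_cast hp.out.ne_zero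
  have hpn : padicNorm p (p : ℚ) = (p : ℚ)⁻¹ := padicNorm.padicNorm_p_of_prime
  induction k with
  | zero => simp
  | succ k ih =>
    rw [pow_succ, padicNorm.mul, ih, hpn]
    push_cast
    rw [neg_add, zpow_add₀ hp0, zpow_neg_one]

theorem p_pow_mem (k : ℕ) : ((p : PowerSeries ℚ[X])) ^ k ∈ (FB p).F k := by
  have e : ((p : PowerSeries ℚ[X])) ^ k = PowerSeries.C (Polynomial.C ((p : ℚ) ^ k)) := by
    rw [map_pow, map_pow, map_natCast, map_natCast]
  rw [e]
  exact CC_mem (padicNorm_p_pow k).le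

theorem p_mem : (p : PowerSeries ℚ[X]) ∈ (FB p).F 1 := by
  have := p_pow_mem (p := p) 1
  simpa using this

theorem pinv_mem (k : ℕ) :
    PowerSeries.C (Polynomial.C (((p : ℚ) ^ k)⁻¹)) ∈ (FB p).F (-(k : ℤ)) := by
  apply CC_mem
  have hp0 : (p : ℚ) ≠ 0 := by exact_mod_cast hp.out.ne_zero
  have h : padicNorm p (((p : ℚ) ^ k)⁻¹) = (p : ℚ) ^ (k : ℤ) := by
    rw [← one_div, padicNorm.div, padicNorm.one, padicNorm_p_pow, zpow_neg, one_div, inv_inv]
  rw [h, neg_neg]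

/-- divisibility in `B0` is the filtration. -/
theorem dvd_pow_iff (x : B0 p) (k : ℕ) :
    (p : B0 p) ^ k ∣ x ↔ (x : PowerSeries ℚ[X]) ∈ (FB p).F k := by
  have hp0 : (p : ℚ) ≠ 0 := by exact_mod_cast hp.out.ne_zero
  constructor
  · rintro ⟨c, rfl⟩
    have h := (FB p).mul_mem (p_pow_mem (p := p) k) c.2
    rw [add_zero] at h
    have e : (((p : B0 p) ^ k * c : B0 p) : PowerSeries ℚ[X])
        = (p : PowerSeries ℚ[X]) ^ k * (c : PowerSeries ℚ[X]) := by
      push_cast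
      rfl
    rw [e]
    exact h
  · intro h
    have h2 := (FB p).mul_mem (pinv_mem (p := p) k) h
    rw [neg_add_cancel] at h2
    refine ⟨⟨PowerSeries.C (Polynomial.C (((p : ℚ) ^ k)⁻¹)) * x, h2⟩, ?_⟩
    apply coe_injective
    change (x : PowerSeries ℚ[X]) = (((p : B0 p) ^ k * _ : B0 p) : PowerSeries ℚ[X])
    have e : (((p : B0 p) ^ k *
          ⟨PowerSeries.C (Polynomial.C (((p : ℚ) ^ k)⁻¹)) * x, h2⟩ : B0 p) : PowerSeries ℚ[X])
        = (p : PowerSeries ℚ[X]) ^ k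
          * (PowerSeries.C (Polynomial.C (((p : ℚ) ^ k)⁻¹)) * (x : PowerSeries ℚ[X])) := by
      push_cast
      rfl
    rw [e, ← mul_assoc]
    have e2 : (p : PowerSeries ℚ[X]) ^ k * PowerSeries.C (Polynomial.C (((p : ℚ) ^ k)⁻¹)) = 1 := by
      have e3 : ((p : PowerSeries ℚ[X])) ^ k = PowerSeries.C (Polynomial.C ((p : ℚ) ^ k)) := by
        rw [map_pow, map_pow, map_natCast, map_natCast]
      rw [e3, ← map_mul, ← map_mul, mul_inv_cancel₀ (pow_ne_zero k hp0), map_one, map_one]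
    rw [e2, one_mul]

theorem dvd_iff (x : B0 p) : (p : B0 p) ∣ x ↔ (x : PowerSeries ℚ[X]) ∈ (FB p).F 1 := by
  have := dvd_pow_iff x 1
  rw [pow_one] at this
  exact this

theorem mem_of_dvd {x : B0 p} {k : ℕ} (h : (p : B0 p) ^ k ∣ x) :
    (x : PowerSeries ℚ[X]) ∈ (FB p).F k := (dvd_pow_iff x k).1 h

variable (p)

theorem phi_mem_B0 (x : O p) : phi p x ∈ B0 p := by
  rw [mem_B0, phi_apply]
  apply CC_mem
  rw [neg_zero, zpow_zero]
  exact x.2

/-- the structure map `O p → B0 p`. -/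
noncomputable def phi0 : O p →+* B0 p := (phi p).codRestrict (B0 p) (phi_mem_B0 p)

theorem phi0_coe (x : O p) : ((phi0 p x : B0 p) : PowerSeries ℚ[X]) = phi p x := rfl

theorem phi0_coe' (x : O p) :
    ((phi0 p x : B0 p) : PowerSeries ℚ[X]) = PowerSeries.C (Polynomial.C (x : ℚ)) := rfl

theorem isUnit_intCast {m : ℤ} (hm : ¬ (p : ℤ) ∣ m) : IsUnit (m : B0 p) := by
  have h := (P4BaseOx170.isUnit_intCast (p := p) hm).map (phi0 p)
  rwa [map_intCast] at h

theorem isUnit_natCast {m : ℕ} (hm : ¬ p ∣ m) : IsUnit (m : B0 p) := by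
  have h := (P4BaseOx170.isUnit_natCast (p := p) hm).map (phi0 p)
  rwa [map_natCast] at h

theorem isUnit_of_lt : ∀ m : ℕ, 0 < m → m < p → IsUnit (m : B0 p) := fun _ h0 h =>
  isUnit_natCast p (Nat.not_dvd_of_pos_of_lt h0 h)

theorem PU_B0 : P4Idem280.PU (B0 p) p := isUnit_of_lt p

theorem isUnit_two (hp2 : p ≠ 2) : IsUnit (2 : B0 p) := by
  have h := (P4BaseOx170.isUnit_two (p := p) hp2).map (phi0 p)
  rwa [map_ofNat] at h

theorem isUnit_three (hp3 : p ≠ 3) : IsUnit (3 : B0 p) := by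
  have h := (P4BaseOx170.isUnit_three (p := p) hp3).map (phi0 p)
  rwa [map_ofNat] at h

/-! ### the moments -/

/-- the moments in `B0 p`. -/
noncomputable def muB0 (hp5 : 5 ≤ p) (k : ℕ) : B0 p := phi0 p (muO p hp5 k)

theorem muB0_coe (hp5 : 5 ≤ p) (k : ℕ) :
    ((muB0 p hp5 k : B0 p) : PowerSeries ℚ[X]) = PowerSeries.C (Polynomial.C (PsiInf.mu k)) := rfl

theorem muB0_coe' (hp5 : 5 ≤ p) : (fun k => ((muB0 p hp5 k : B0 p) : PowerSeries ℚ[X])) = muB := rfl

theorem key_muB0 (hp5 : 5 ≤ p) : FuncLx170.Key (muB0 p hp5) := (key_muO p hp5).map (phi0 p)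

theorem isMom_muB0 (hp5 : 5 ≤ p) : LemL255.IsMom (P4Row.lin (muB0 p hp5)) where
  key := by rw [lin_eq_Lam]; exact key_muB0 p hp5
  m0 := by
    rw [lin_eq_Lam, FuncLx170.Lam_one]
    change phi0 p (muO p hp5 0) = 0
    rw [muO_zero, map_zero]
  m1 := by
    rw [lin_eq_Lam, FuncLx170.Lam_X]
    have h := congrArg (phi0 p) (muO_one p hp5)
    rw [map_mul, map_neg, map_one, map_ofNat] at h
    exact h
  m2 := by
    rw [lin_eq_Lam, FuncLx170.Lam_X_pow]
    have h := congrArg (phi0 p) (muO_two p hp5)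
    rw [map_mul, map_ofNat, map_ofNat] at h
    exact h

/-- the inclusion commutes with the functional. -/
theorem lin_muB0_coe (hp5 : 5 ≤ p) (G : (B0 p)[X]) :
    ((P4Row.lin (muB0 p hp5) G : B0 p) : PowerSeries ℚ[X])
      = P4Row.lin muB (G.map (B0 p).subtype) := by
  have h := P4Row.lin_map (B0 p).subtype (muB0 p hp5) G
  exact h.symm

/-- the functional `lin muB` on polynomials with rational coefficients is `lin mu`. -/
theorem lin_muB_map (P : ℚ[X]) :
    P4Row.lin muB (P.map ((PowerSeries.C (R := ℚ[X])).comp (Polynomial.C (R := ℚ))))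
      = PowerSeries.C (Polynomial.C (PsiInf.lin PsiInf.mu P)) := by
  have h := P4Row.lin_map ((PowerSeries.C (R := ℚ[X])).comp (Polynomial.C (R := ℚ)))
    (PsiInf.mu) P
  exact h

theorem exists_classData (hp5 : 5 ≤ p) (N : ℕ) :
    ∃ e : ℕ → (B0 p)[X], P4Class280.ClassData p N (P4Row.lin (muB0 p hp5)) e :=
  P4Class280.exists_classData p (hp.out.odd_of_ne_two (by omega)) (isUnit_two p (by omega))
    (isUnit_three p (by omega)) (isUnit_of_lt p) _ (isMom_muB0 p hp5) N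

/-! ### `τ` and the sites -/

/-- `ε` as an element of `B0`. -/
noncomputable def epsB : B0 p :=
  ⟨PowerSeries.X, (FB p).mono (by norm_num) (X_mem (pbFil p))⟩

theorem epsB_coe : ((epsB p : B0 p) : PowerSeries ℚ[X]) = PowerSeries.X := rfl

theorem p_dvd_epsB : (p : B0 p) ∣ epsB p := by
  rw [dvd_iff]
  exact X_mem (pbFil p)

/-- `τ = ε / p`. -/
noncomputable def tauB : B0 p := Classical.choose (p_dvd_epsB p)

theorem p_mul_tauB : (p : B0 p) * tauB p = epsB p := (Classical.choose_spec (p_dvd_epsB p)).symm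

theorem half_mem (hp2 : p ≠ 2) (k : ℤ) : ((k : ℚ) / 2) ∈ O p := by
  rw [mem_O, padicNorm.div]
  have h2 : padicNorm p (2 : ℚ) = 1 := by
    have := (padicNorm.nat_eq_one_iff (p := p) 2).2
      (fun h => hp2 ((Nat.prime_dvd_prime_iff_eq hp.out Nat.prime_two).1 h))
    simpa using this
  rw [h2, div_one]
  exact padicNorm.of_int k

/-- the site `x_k = k/2 + ε`. -/
noncomputable def xB (hp2 : p ≠ 2) (k : ℤ) : B0 p := phi0 p ⟨(k : ℚ) / 2, half_mem p hp2 k⟩ + epsB p

theorem xB_coe (hp2 : p ≠ 2) (k : ℤ) :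
    ((xB p hp2 k : B0 p) : PowerSeries ℚ[X])
      = PowerSeries.C (Polynomial.C ((k : ℚ) / 2)) + PowerSeries.X := rfl

/-- `2 x_k = k + 2 ε`. -/
theorem two_mul_xB (hp2 : p ≠ 2) (k : ℤ) : 2 * xB p hp2 k = (k : B0 p) + 2 * epsB p := by
  have h : (2 : O p) * ⟨(k : ℚ) / 2, half_mem p hp2 k⟩ = (k : O p) := by
    apply P4BaseOx170.val_injective
    change (O p).subtype ((2 : O p) * ⟨(k : ℚ) / 2, half_mem p hp2 k⟩) = (O p).subtype (k : O p)
    rw [map_mul, map_ofNat, map_intCast]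
    change (2 : ℚ) * ((k : ℚ) / 2) = k
    ring
  have h2 := congrArg (phi0 p) h
  rw [map_mul, map_ofNat, map_intCast] at h2
  unfold xB
  linear_combination h2

end Crest.Agent.R006.P4B0x170
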