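import Mathlib

/-!
# Row 6, block P4: the congruence behind Lemma L

For a prime `p = 2 m + 1` (`p` odd) one has in `ZMod p`
`∑_{j ≤ m} (3 j + 1) 8^j C(m,j)^3 = 0`.

Proof: a Clausen type identity `P(u)^2 = F(u^2+u)` over `ZMod p`, where
`P = ∑ (-1)^j C(m,j)^2 u^j`, `F = ∑ 4^j C(m,j)^3 w^j` (both sides satisfy the same differential
equation of order three), evaluated to first order at `u = 1`, and the symmetry `j ↦ m - j`.
-/

set_option autoImplicit false

namespace Crest.Agent.R006.P4Congx102

open Polynomial Finset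

section Clausen

variable {K : Type*} [Field K]

/-- Euler operator `X d/dX` -/
noncomputable def th (f : K[X]) : K[X] := X * derivative f

theorem coeff_th (f : K[X]) (n : ℕ) : (th f).coeff n = n * f.coeff n := by
  unfold th
  cases n with
  | zero => simp
  | succ n => rw [coeff_X_mul, coeff_derivative]; push_cast; ring

theorem th_add (f g : K[X]) : th (f + g) = th f + th g := by
  unfold th; rw [derivative_add]; ring

theorem th_sub (f g : K[X]) : th (f - g) = th f - th g := by
  unfold th; rw [derivative_sub]; ring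

theorem th_mul (f g : K[X]) : th (f * g) = f * th g + g * th f := by
  unfold th; rw [derivative_mul]; ring

theorem th_X : th (X : K[X]) = X := by unfold th; simp

theorem th_C (a : K) : th (C a) = 0 := by unfold th; simp

theorem th_one : th (1 : K[X]) = 0 := by unfold th; simp

/-- The third order operator annihilating squares. -/
noncomputable def LL (μ : K) (G : K[X]) : K[X] :=
  (1 + X) * th ((1 + X) * th (th G) + X * th G - 2 * X * C μ * G)
    + X * ((1 + X) * th (th G) + X * th G - 2 * X * C μ * G) - 2 * X * (1 + X) * C μ * th G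

theorem th_dvd {n : ℕ} {f : K[X]} (h : X ^ n ∣ f) : X ^ n ∣ th f := by
  rw [X_pow_dvd_iff] at h ⊢
  intro d hd
  rw [coeff_th, h d hd, mul_zero]

theorem LL_eq (μ : K) (G : K[X]) : ∃ S : K[X], LL μ G = th (th (th G)) + X * S ∧
    ∀ n : ℕ, X ^ n ∣ G → X ^ n ∣ S := by
  have h2 : th (2 : K[X]) = 0 := by
    have : (2 : K[X]) = C 2 := (map_ofNat C 2).symm
    rw [this, th_C]
  refine ⟨th (th (th G)) + (1 + X) * (th (th G) + th (th (th G))) + (1 + X) * (th G + th (th G))
    - (1 + X) * (2 * C μ * G + 2 * C μ * th G) + ((1 + X) * th (th G) + X * th G - 2 * X * C μ * G)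
    - 2 * (1 + X) * C μ * th G, ?_, ?_⟩
  · unfold LL
    simp only [th_add, th_sub, th_mul, th_X, th_C, th_one, h2]
    ring
  · intro n hn
    have h1 := th_dvd hn
    have h2 := th_dvd h1
    have h3 := th_dvd h2
    refine dvd_sub (dvd_add (dvd_sub (dvd_add (dvd_add h3 ?_) ?_) ?_) ?_) ?_
    · exact (dvd_add h2 h3).mul_left _
    · exact (dvd_add h1 h2).mul_left _
    · exact (dvd_add (hn.mul_left _) (h1.mul_left _)).mul_left _
    · exact dvd_sub (dvd_add (h2.mul_left _) (h1.mul_left _)) (hn.mul_left _)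
    · exact h1.mul_left _

theorem LL_sub (μ : K) (G H : K[X]) : LL μ (G - H) = LL μ G - LL μ H := by
  unfold LL
  simp only [th_sub, th_add, th_mul]
  ring

/-- uniqueness of the solution with given constant coefficient -/
theorem eq_zero_of_LL (μ : K) (N : ℕ) (hN : ∀ n : ℕ, 1 ≤ n → n ≤ N → (n : K) ≠ 0) (G : K[X])
    (hdeg : G.natDegree ≤ N) (h0 : G.coeff 0 = 0) (hL : LL μ G = 0) : G = 0 := by
  obtain ⟨S, hS, hdvd⟩ := LL_eq μ G
  have key : ∀ n : ℕ, n ≤ N → X ^ (n + 1) ∣ G := by
    intro n
    induction n with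
    | zero =>
      intro _
      rw [zero_add, pow_one, X_dvd_iff]; exact h0
    | succ n ih =>
      intro hn
      have h1 := ih (by omega)
      rw [X_pow_dvd_iff]
      intro d hd
      rcases Nat.lt_or_ge d (n + 1) with h | h
      · exact (X_pow_dvd_iff.mp h1) d h
      · have hd' : d = n + 1 := by omega
        subst hd'
        have h2 : (LL μ G).coeff (n + 1) = 0 := by rw [hL]; simp
        rw [hS, coeff_add, coeff_X_mul, (X_pow_dvd_iff.mp (hdvd _ h1)) n (by omega), add_zero,
          coeff_th, coeff_th, coeff_th] at h2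
        have h3 : ((n + 1 : ℕ) : K) ≠ 0 := hN _ (by omega) hn
        exact (mul_eq_zero.mp ((mul_eq_zero.mp ((mul_eq_zero.mp h2).resolve_left h3)).resolve_left h3)).resolve_left h3
  by_contra hG
  have h1 := key N le_rfl
  have h2 := natDegree_le_of_dvd h1 hG
  rw [natDegree_X_pow] at h2
  omega

/-- the square of a solution of the Legendre equation -/
theorem LL_sq (μ : K) (P : K[X])
    (hP : (1 + X) * th (th P) = - (X * th P) + X * C μ * P) : LL μ (P * P) = 0 := by
  have h2 : th (2 : K[X]) = 0 := by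
    have : (2 : K[X]) = C 2 := (map_ofNat C 2).symm
    rw [this, th_C]
  have hA : (1 + X) * th (th (P * P)) + X * th (P * P) - 2 * X * C μ * (P * P)
      = 2 * (1 + X) * (th P * th P) := by
    simp only [th_add, th_mul]
    linear_combination (2 * P) * hP
  unfold LL
  rw [hA]
  simp only [th_add, th_mul, th_X, th_one, h2]
  linear_combination (4 * (1 + X) * th P) * hP

theorem LL_comp (μ : K) (F : K[X])
    (hF : th (th (th F)) = 2 * X * (2 * (C μ * th F - th (th (th F)) - th (th F))
      + (C μ * F - th (th F) - th F))) : LL μ (F.comp (X ^ 2 + X)) = 0 := by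
  have h2 : th (2 : K[X]) = 0 := by
    have : (2 : K[X]) = C 2 := (map_ofNat C 2).symm
    rw [this, th_C]
  have step : ∀ f : K[X], (1 + X) * th (f.comp (X ^ 2 + X)) =
      (2 * X + 1) * (th f).comp (X ^ 2 + X) := by
    intro f
    unfold th
    rw [derivative_comp, mul_comp, X_comp]
    simp only [derivative_add, derivative_X_pow, derivative_X]
    simp only [Nat.cast_ofNat, map_ofNat]
    ring
  set g0 := F.comp (X ^ 2 + X) with hg0
  set g1 := (th F).comp (X ^ 2 + X) with hg1
  set g2 := (th (th F)).comp (X ^ 2 + X) with hg2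
  set g3 := (th (th (th F))).comp (X ^ 2 + X) with hg3
  have h01 : (1 + X) * th g0 = (2 * X + 1) * g1 := step F
  have h12 : (1 + X) * th g1 = (2 * X + 1) * g2 := step (th F)
  have h23 : (1 + X) * th g2 = (2 * X + 1) * g3 := step (th (th F))
  have h01' := congrArg th h01
  have h12' := congrArg th h12
  simp only [th_mul, th_add, th_X, th_one, h2] at h01' h12'
  have hB : (1 + X) * th (th g0) + X * th g0 - 2 * X * C μ * g0
      = 2 * X * g1 + (2 * X + 1) * th g1 - 2 * X * C μ * g0 := by
    linear_combination h01'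
  have rel : g3 = 2 * (X ^ 2 + X) * (2 * (C μ * g1 - g3 - g2) + (C μ * g0 - g2 - g1)) := by
    have := congrArg (fun f : K[X] => f.comp (X ^ 2 + X)) hF
    simp only [mul_comp, add_comp, sub_comp, X_comp, C_comp] at this
    have e2 : (2 : K[X]).comp (X ^ 2 + X) = 2 := by
      have : (2 : K[X]) = C 2 := (map_ofNat C 2).symm
      rw [this, C_comp]
    rw [e2] at this
    exact this
  have h1X : (1 + X : K[X]) ≠ 0 := by
    intro h
    have := congrArg (fun f : K[X] => f.coeff 0) h
    simp at this
  have hfin : (1 + X) * LL μ g0 = 0 := by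
    unfold LL
    rw [hB]
    simp only [th_add, th_sub, th_mul, th_X, th_one, th_C, h2]
    linear_combination ((1 + X) * (2 * X + 1)) * h12' + (4 * X * (1 + X)) * h12
      + (2 * X + 1) ^ 2 * h23 - (4 * X * C μ * (1 + X)) * h01 + (2 * X + 1) * rel
  exact (mul_eq_zero.mp hfin).resolve_left h1X

/-- **Clausen's identity**, algebraic form over a field in which `1, …, N` are invertible. -/
theorem clausen (μ : K) (N : ℕ) (hN : ∀ n : ℕ, 1 ≤ n → n ≤ N → (n : K) ≠ 0) (P F : K[X])
    (hP : ∀ j : ℕ, ((j : K) + 1) ^ 2 * P.coeff (j + 1) = (μ - j * (j + 1)) * P.coeff j)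
    (hF : ∀ j : ℕ, ((j : K) + 1) ^ 3 * F.coeff (j + 1)
      = 2 * (2 * j + 1) * (μ - j * (j + 1)) * F.coeff j)
    (hP0 : P.coeff 0 = 1) (hF0 : F.coeff 0 = 1)
    (hdP : 2 * P.natDegree ≤ N) (hdF : 2 * F.natDegree ≤ N) :
    P * P = F.comp (X ^ 2 + X) := by
  have h2C : (2 : K[X]) = C 2 := (map_ofNat C 2).symm
  have odeP : (1 + X) * th (th P) = - (X * th P) + X * C μ * P := by
    ext n
    rw [add_mul, one_mul, mul_assoc]
    cases n with
    | zero => simp [coeff_th]
    | succ n =>
      simp only [coeff_add, coeff_neg, coeff_X_mul, coeff_th, coeff_C_mul]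
      push_cast
      linear_combination hP n
  have odeF : th (th (th F)) = 2 * X * (2 * (C μ * th F - th (th (th F)) - th (th F))
      + (C μ * F - th (th F) - th F)) := by
    ext n
    rw [h2C, mul_assoc (C (2 : K)) X]
    cases n with
    | zero => simp [coeff_th]
    | succ n =>
      simp only [coeff_add, coeff_sub, coeff_X_mul, coeff_th, coeff_C_mul]
      push_cast
      linear_combination hF n
  have hLL : LL μ (P * P - F.comp (X ^ 2 + X)) = 0 := by
    rw [LL_sub, LL_sq μ P odeP, LL_comp μ F odeF, sub_zero]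
  have hdeg : (P * P - F.comp (X ^ 2 + X)).natDegree ≤ N := by
    refine (natDegree_sub_le _ _).trans (max_le ?_ ?_)
    · refine natDegree_mul_le.trans (by omega)
    · refine natDegree_comp_le.trans ?_
      have : (X ^ 2 + X : K[X]).natDegree ≤ 2 := by compute_degree
      calc F.natDegree * (X ^ 2 + X : K[X]).natDegree ≤ F.natDegree * 2 := Nat.mul_le_mul_left _ this
        _ ≤ N := by omega
  have h0 : (P * P - F.comp (X ^ 2 + X)).coeff 0 = 0 := by
    rw [coeff_zero_eq_eval_zero, eval_sub, eval_mul, eval_comp]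
    simp only [eval_add, eval_pow, eval_X]
    rw [show ((0 : K) ^ 2 + 0) = 0 by ring, ← coeff_zero_eq_eval_zero, ← coeff_zero_eq_eval_zero,
      hP0, hF0]
    ring
  exact sub_eq_zero.mp (eq_zero_of_LL μ N hN _ hdeg h0 hLL)

end Clausen

section Cong

/-- in `ZMod (2m+1)`: `(j+1) C(m,j+1) = (m-j) C(m,j)` with an honest difference -/
theorem choose_rec (m j : ℕ) {K : Type*} [Field K] :
    ((j : K) + 1) * (m.choose (j + 1) : K) = ((m : K) - j) * (m.choose j : K) := by
  rcases Nat.lt_or_ge m j with h | h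
  · rw [Nat.choose_eq_zero_of_lt h, Nat.choose_eq_zero_of_lt (by omega)]; simp
  · have := Nat.choose_succ_right_eq m j
    have h2 : ((m.choose (j + 1) * (j + 1) : ℕ) : K) = ((m.choose j * (m - j) : ℕ) : K) := by
      rw [this]
    push_cast [Nat.cast_sub h] at h2
    linear_combination h2

/-- **The congruence.** -/
theorem cong (m : ℕ) (hp : (2 * m + 1).Prime) :
    ∑ j ∈ range (m + 1), (3 * (j : ZMod (2 * m + 1)) + 1) * 8 ^ j
      * (m.choose j : ZMod (2 * m + 1)) ^ 3 = 0 := by
  have : Fact (2 * m + 1).Prime := ⟨hp⟩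
  set K := ZMod (2 * m + 1)
  have hm : (2 : K) * m + 1 = 0 := by
    have : ((2 * m + 1 : ℕ) : K) = 0 := ZMod.natCast_self _
    rw [Nat.cast_add, Nat.cast_mul, Nat.cast_one, Nat.cast_ofNat] at this
    exact this
  have h2 : (2 : K) ≠ 0 := by
    intro h
    rw [h] at hm; simp at hm
  set P : K[X] := ∑ j ∈ range (m + 1), C ((-1) ^ j * (m.choose j : K) ^ 2) * X ^ j with hPdef
  set F : K[X] := ∑ j ∈ range (m + 1), C (4 ^ j * (m.choose j : K) ^ 3) * X ^ j with hFdef
  have hPc : ∀ j, P.coeff j = (-1) ^ j * (m.choose j : K) ^ 2 := by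
    intro j
    rw [hPdef, finsetSum_coeff]
    simp only [coeff_C_mul_X_pow]
    rw [Finset.sum_ite_eq]
    split_ifs with h
    · rfl
    · rw [Nat.choose_eq_zero_of_lt (by simpa using h)]; simp
  have hFc : ∀ j, F.coeff j = 4 ^ j * (m.choose j : K) ^ 3 := by
    intro j
    rw [hFdef, finsetSum_coeff]
    simp only [coeff_C_mul_X_pow]
    rw [Finset.sum_ite_eq]
    split_ifs with h
    · rfl
    · rw [Nat.choose_eq_zero_of_lt (by simpa using h)]; simp
  have hdegP : P.natDegree ≤ m := by
    rw [natDegree_le_iff_coeff_eq_zero]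
    intro j hj
    rw [hPc, Nat.choose_eq_zero_of_lt hj]; simp
  have hdegF : F.natDegree ≤ m := by
    rw [natDegree_le_iff_coeff_eq_zero]
    intro j hj
    rw [hFc, Nat.choose_eq_zero_of_lt hj]; simp
  have hN : ∀ n : ℕ, 1 ≤ n → n ≤ 2 * m → (n : K) ≠ 0 := by
    intro n h1 h2' h
    rw [ZMod.natCast_eq_zero_iff] at h
    have := Nat.le_of_dvd (by omega) h
    omega
  have key : P * P = F.comp (X ^ 2 + X) := by
    refine clausen ((m : K) * (m + 1)) (2 * m) hN P F ?_ ?_ ?_ ?_ (by omega) (by omega)
    · intro j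
      rw [hPc, hPc]
      have h := choose_rec (K := K) m j
      have e1 : (m : K) * (m + 1) - j * (j + 1) = - ((m : K) - j) ^ 2 := by
        linear_combination ((m : K) - j) * hm
      rw [e1, pow_succ]
      linear_combination (-(-1) ^ j * (((j : K) + 1) * (m.choose (j + 1) : K)
        + ((m : K) - j) * (m.choose j : K))) * h
    · intro j
      rw [hFc, hFc]
      have h := choose_rec (K := K) m j
      have e1 : (m : K) * (m + 1) - j * (j + 1) = - ((m : K) - j) ^ 2 := by
        linear_combination ((m : K) - j) * hm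
      have e2 : (2 * (j : K) + 1) = - (2 * ((m : K) - j)) := by linear_combination hm
      rw [e1, e2, pow_succ]
      have h3 : (((j : K) + 1) * (m.choose (j + 1) : K)) ^ 3 = (((m : K) - j) * (m.choose j : K)) ^ 3 := by
        rw [h]
      linear_combination (4 * 4 ^ j) * h3
    · rw [hPc]; simp
    · rw [hFc]; simp
  set S0 : K := ∑ j ∈ range (m + 1), (-1) ^ j * (m.choose j : K) ^ 2 with hS0
  set S1 : K := ∑ j ∈ range (m + 1), (j : K) * ((-1) ^ j * (m.choose j : K) ^ 2) with hS1
  have eP : P.eval 1 = S0 := by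
    rw [hPdef, eval_finsetSum]
    simp [hS0]
  have ePd : (derivative P).eval 1 = S1 := by
    have : (th P).eval 1 = S1 := by
      rw [hPdef]
      unfold th
      rw [derivative_sum, mul_sum, eval_finsetSum, hS1]
      refine Finset.sum_congr rfl fun j _ => ?_
      rw [derivative_C_mul, derivative_X_pow]
      simp
      ring
    rw [← this]; unfold th; simp
  have eF : F.eval 2 = ∑ j ∈ range (m + 1), 8 ^ j * (m.choose j : K) ^ 3 := by
    rw [hFdef, eval_finsetSum]
    refine Finset.sum_congr rfl fun j _ => ?_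
    simp only [eval_mul, eval_C, eval_pow, eval_X]
    rw [show (8 : K) = 4 * 2 by norm_num, mul_pow]
    ring
  have eFd : 2 * (derivative F).eval 2 = ∑ j ∈ range (m + 1), (j : K) * (8 ^ j * (m.choose j : K) ^ 3) := by
    have h : (th F).eval 2 = ∑ j ∈ range (m + 1), (j : K) * (8 ^ j * (m.choose j : K) ^ 3) := by
      rw [hFdef]
      unfold th
      rw [derivative_sum, mul_sum, eval_finsetSum]
      refine Finset.sum_congr rfl fun j _ => ?_
      rw [derivative_C_mul, derivative_X_pow]
      rw [show (8 : K) = 4 * 2 by norm_num, mul_pow]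
      cases j with
      | zero => simp
      | succ j =>
        simp only [eval_mul, eval_C, eval_pow, eval_X, Nat.add_sub_cancel, map_natCast,
          eval_natCast]
        push_cast
        ring
    rw [← h]; unfold th; simp
  have k0 : S0 ^ 2 = F.eval 2 := by
    have := congrArg (fun f : K[X] => f.eval 1) key
    simp only [eval_mul, eval_comp, eval_add, eval_pow, eval_X] at this
    rw [eP, show ((1 : K) ^ 2 + 1) = 2 by norm_num] at this
    rw [← this]; ring
  have k1 : 2 * S0 * S1 = 3 * (derivative F).eval 2 := by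
    have := congrArg (fun f : K[X] => (derivative f).eval 1) key
    simp only [derivative_mul, derivative_comp, eval_mul, eval_comp, eval_add, eval_pow, eval_X,
      derivative_add, derivative_X_pow, derivative_X, map_natCast, eval_natCast, eval_one] at this
    rw [eP, ePd, show ((1 : K) ^ 2 + 1) = 2 by norm_num] at this
    push_cast at this
    linear_combination this
  have hsum : ∑ j ∈ range (m + 1), (3 * (j : K) + 1) * 8 ^ j * (m.choose j : K) ^ 3
      = S0 * (S0 + 4 * S1) := by
    have : ∑ j ∈ range (m + 1), (3 * (j : K) + 1) * 8 ^ j * (m.choose j : K) ^ 3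
        = 3 * (2 * (derivative F).eval 2) + F.eval 2 := by
      rw [eF, eFd, mul_sum, ← sum_add_distrib]
      exact Finset.sum_congr rfl fun j _ => by ring
    rw [this, ← k0]
    linear_combination -2 * k1
  rw [hsum]
  have s0 : S0 = (-1) ^ m * S0 := by
    conv_lhs => rw [hS0, ← Finset.sum_flip]
    rw [hS0, mul_sum]
    refine Finset.sum_congr rfl fun j hj => ?_
    have hj' : j ≤ m := Nat.lt_succ_iff.mp (Finset.mem_range.mp hj)
    rw [Nat.choose_symm hj']
    have : (-1 : K) ^ m * (-1) ^ j = (-1) ^ (m - j) := by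
      rw [← pow_add, show m + j = (m - j) + 2 * j by omega, pow_add, pow_mul]
      simp
    rw [← this]; ring
  have s1 : S1 = (-1) ^ m * (m * S0 - S1) := by
    conv_lhs => rw [hS1, ← Finset.sum_flip]
    rw [hS0, hS1, mul_sum, ← sum_sub_distrib, mul_sum]
    refine Finset.sum_congr rfl fun j hj => ?_
    have hj' : j ≤ m := Nat.lt_succ_iff.mp (Finset.mem_range.mp hj)
    rw [Nat.choose_symm hj', Nat.cast_sub hj']
    have : (-1 : K) ^ m * (-1) ^ j = (-1) ^ (m - j) := by
      rw [← pow_add, show m + j = (m - j) + 2 * j by omega, pow_add, pow_mul]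
      simp
    rw [← this]; ring
  rcases Nat.even_or_odd m with he | ho
  · rw [he.neg_one_pow, one_mul] at s1
    have : 2 * (S0 + 4 * S1) = 0 := by linear_combination 4 * s1 + 2 * S0 * hm
    rw [(mul_eq_zero.mp this).resolve_left h2, mul_zero]
  · rw [ho.neg_one_pow] at s0
    have : 2 * S0 = 0 := by linear_combination s0
    rw [(mul_eq_zero.mp this).resolve_left h2, zero_mul]

/-- **The congruence**, form with a prime `p ≠ 2`, with `C(2j,j)^3 (-8)^{-j}` cleared:
`∑_{j ≤ (p-1)/2} (3j+1) w_j = 0` for every solution `w` of `j^3 w_j = -(2j-1)^3 w_{j-1}`. -/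
theorem cong_rec (p : ℕ) (hp : p.Prime) (hp2 : p ≠ 2) (w : ℕ → ZMod p)
    (hw : ∀ j : ℕ, ((j : ZMod p) + 1) ^ 3 * w (j + 1) = - (2 * (j : ZMod p) + 1) ^ 3 * w j) :
    ∑ j ∈ range ((p - 1) / 2 + 1), (3 * (j : ZMod p) + 1) * w j = 0 := by
  obtain ⟨m, rfl⟩ : ∃ m, p = 2 * m + 1 := by
    obtain ⟨m, hm⟩ := hp.odd_of_ne_two hp2
    exact ⟨m, hm⟩
  have : Fact (2 * m + 1).Prime := ⟨hp⟩
  have e : (2 * m + 1 - 1) / 2 = m := by omega
  rw [e]
  have hm : (2 : ZMod (2 * m + 1)) * m + 1 = 0 := by
    have : ((2 * m + 1 : ℕ) : ZMod (2 * m + 1)) = 0 := ZMod.natCast_self _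
    rw [Nat.cast_add, Nat.cast_mul, Nat.cast_one, Nat.cast_ofNat] at this
    exact this
  have key : ∀ j : ℕ, j ≤ m → w j = 8 ^ j * (m.choose j : ZMod (2 * m + 1)) ^ 3 * w 0 := by
    intro j
    induction j with
    | zero => intro _; simp
    | succ j ih =>
      intro hj
      have h1 := ih (by omega)
      have h2 := hw j
      have h3 : (((j : ZMod (2 * m + 1)) + 1) * (m.choose (j + 1) : ZMod (2 * m + 1))) ^ 3
          = (((m : ZMod (2 * m + 1)) - j) * (m.choose j : ZMod (2 * m + 1))) ^ 3 := by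
        rw [choose_rec]
      have h4 : (2 * (j : ZMod (2 * m + 1)) + 1) = - (2 * ((m : ZMod (2 * m + 1)) - j)) := by
        linear_combination hm
      have h5 : ((j : ZMod (2 * m + 1)) + 1) ^ 3 ≠ 0 := by
        apply pow_ne_zero
        intro h
        have h' : ((j + 1 : ℕ) : ZMod (2 * m + 1)) = 0 := by push_cast; exact h
        rw [ZMod.natCast_eq_zero_iff] at h'
        have := Nat.le_of_dvd (by omega) h'
        omega
      apply mul_left_cancel₀ h5
      rw [h2, h1, h4, pow_succ]
      linear_combination (-8 * 8 ^ j * w 0) * h3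
  rw [Finset.sum_congr rfl (fun j hj => by
    rw [key j (Nat.lt_succ_iff.mp (Finset.mem_range.mp hj))])]
  have := cong m hp
  calc ∑ j ∈ range (m + 1), (3 * (j : ZMod (2 * m + 1)) + 1)
        * (8 ^ j * (m.choose j : ZMod (2 * m + 1)) ^ 3 * w 0)
      = (∑ j ∈ range (m + 1), (3 * (j : ZMod (2 * m + 1)) + 1) * 8 ^ j
      * (m.choose j : ZMod (2 * m + 1)) ^ 3) * w 0 := by
        rw [Finset.sum_mul]; exact Finset.sum_congr rfl fun j _ => by ring
    _ = 0 := by rw [this, zero_mul]

end Cong

end Crest.Agent.R006.P4Congx102
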