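import Crest.Agent.R006.P4_LocalInput_955
import Crest.Agent.R006.P4_GermPoly_620

/-!
Row 6, block P4 (helper939): the fields `psi_flatZ`, `psi_flatH` of 955's `LocalInput` and `GamOrd`.
-/

set_option autoImplicit false

namespace Crest.Agent.R006.P4MF939

open Polynomial Finset Tollx814 P4Toll961
open Crest.Agent.R006.D Crest.Agent.R006.PsiInf Crest.Agent.R006.P4M
open Crest.Agent.R006.NV (pt bi GamZ)

lemma coeff_PsiX (z : Site) (j : ℕ) : PowerSeries.coeff j (PsiX z) = Germ620.jet j z := by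
  simp only [PsiX, Germ620.jet, map_sub, PowerSeries.coeff_map, PowerSeries.coeff_C_mul]

/-- field `psi_flatZ` -/
theorem flatZ_939 (p : ℕ) [Fact p.Prime] (h2 : p ≠ 2) :
    ∀ m : ℕ, 0 < m → 2 * m < p → PsiX (.Z (-(m : ℤ))) ∈ (flFil (pbFil p)).F 0 := by
  intro m _ h j
  rw [coeff_PsiX]
  exact Germ620.PB_jet_Z h2 (by omega) (by omega) j

/-- field `psi_flatH` -/
theorem flatH_939 (p : ℕ) [Fact p.Prime] (h2 : p ≠ 2) :
    ∀ l : ℕ, 2 * l + 1 < p → PsiX (.H (l : ℤ)) ∈ (flFil (pbFil p)).F 0 := by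
  intro l h j
  rw [coeff_PsiX]
  exact Germ620.PB_jet_H h2 h j

lemma pt_zero' : pt (0 : ℚ) = PowerSeries.X := by simp [pt]

lemma X_dvd_half : (PowerSeries.X : PowerSeries ℚ) ∣ 2 * pt (0 - 1 / 2 : ℚ) + 1 := by
  rw [PowerSeries.X_dvd_iff, map_add, map_mul, NV.constantCoeff_pt, map_one]
  have : PowerSeries.constantCoeff (2 : PowerSeries ℚ) = 2 := by
    have : (2 : PowerSeries ℚ) = PowerSeries.C 2 := (map_ofNat PowerSeries.C 2).symm
    rw [this, PowerSeries.constantCoeff_C]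
  rw [this]; norm_num

lemma gamZ_neg (m : ℕ) : PowerSeries.X ^ 2 ∣ (GamZ (Int.negSucc m) : PowerSeries ℚ) := by
  induction m with
  | zero =>
    have e : (GamZ (Int.negSucc 0) : PowerSeries ℚ) = GamZ (-1) := rfl
    rw [e, GamZ, NV.bi_negOne]
    refine Dvd.dvd.mul_right ?_ _
    have e2 : (((-1 : ℤ) : ℚ) + 1) = 0 := by norm_num
    rw [e2, pt_zero', zero_sub]
    exact (Dvd.intro _ rfl).neg_right
  | succ m ih =>
    rw [GamZ, NV.bi_negSucc]
    refine Dvd.dvd.mul_right ?_ _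
    rw [zero_sub]
    exact (Dvd.dvd.mul_left ih _).neg_right

lemma gamH_nat (n : ℕ) : PowerSeries.X ^ 2 ∣ GamH0 ((n + 1 : ℕ) : ℤ) := by
  induction n with
  | zero =>
    rw [GamH0, NV.bi_succ]
    refine Dvd.dvd.mul_right ?_ _
    rw [zero_sub]
    refine (Dvd.dvd.mul_right ?_ _).neg_right
    refine Dvd.dvd.neg_right (Dvd.dvd.mul_left ?_ _)
    apply pow_dvd_pow_of_dvd
    simpa using X_dvd_half
  | succ n ih =>
    rw [GamH0, NV.bi_succ]
    refine Dvd.dvd.mul_right ?_ _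
    rw [zero_sub]
    exact (Dvd.dvd.mul_left ih _).neg_right

theorem gamOrd_939 : GamOrd := by
  refine ⟨fun m hm => ?_, fun l => ?_⟩
  · obtain ⟨n, rfl⟩ : ∃ n, m = n + 1 := ⟨m - 1, by omega⟩
    exact gamZ_neg n
  · exact gamH_nat l

end Crest.Agent.R006.P4MF939
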