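import Crest.Agent.R006.P4_GVal_334
import Crest.Agent.R006.ProdBound_481

/-!
Row 6, block P4: the congruences between the values of `g1`, `kap`, `gs`, as `p`-adic norms of
rational numbers (`p = 2 h + 1`):

* `g1_reflect`: `g1 (h - l) ≡ g1 l (p)`, `l ≤ h`;
* `g1_star`: `g1 (h + 1 + l) ≡ p^2 gs l (p^3)`, `l < h`;
* `g1_neg`: `g1 (p - m) ≡ (p^2 / 4) kap m (p^3)`, `1 ≤ m ≤ h`.
-/

set_option autoImplicit false

namespace Crest.Agent.R006.GCong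

open Nat Crest.Agent.R006.NV

/-- a rational number `N / c`, `p^k ∣ N`, `c` prime to `p`, has norm `≤ p^(-k)`. -/
theorem norm_le_of_mul {p : ℕ} [hp : Fact p.Prime] {x : ℚ} {c N : ℤ} (k : ℕ)
    (hc : ¬ (p : ℤ) ∣ c) (h : (c : ℚ) * x = N) (hN : (p : ℤ) ^ k ∣ N) :
    padicNorm p x ≤ (p : ℚ) ^ (-(k : ℤ)) := by
  have h1 : padicNorm p ((c : ℚ) * x) = padicNorm p (N : ℚ) := by rw [h]
  rw [padicNorm.mul, (padicNorm.int_eq_one_iff c).2 hc, one_mul] at h1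
  rw [h1]
  have hN' : ((p ^ k : ℕ) : ℤ) ∣ N := by exact_mod_cast hN
  exact padicNorm.dvd_iff_norm_le.1 hN'

lemma not_dvd_16 {p : ℕ} (hp : p.Prime) (h2 : p ≠ 2) (n : ℕ) : ¬ (p : ℤ) ∣ 16 ^ n := by
  intro h
  have h' : p ∣ 2 ^ (4 * n) := by
    rw [pow_mul]; exact_mod_cast h
  exact h2 ((Nat.prime_dvd_prime_iff_eq hp Nat.prime_two).1 (hp.dvd_of_dvd_pow h'))

lemma not_dvd_mul {p : ℕ} (hp : p.Prime) {a b : ℤ} (ha : ¬ (p : ℤ) ∣ a) (hb : ¬ (p : ℤ) ∣ b) :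
    ¬ (p : ℤ) ∣ a * b := fun h =>
  ((Nat.prime_iff_prime_int.1 hp).dvd_or_dvd h).elim ha hb

lemma not_dvd_pow {p : ℕ} (hp : p.Prime) {a : ℤ} (ha : ¬ (p : ℤ) ∣ a) (n : ℕ) :
    ¬ (p : ℤ) ∣ a ^ n := fun h => ha ((Nat.prime_iff_prime_int.1 hp).dvd_of_dvd_pow h)

/-- **(G1)** -/
theorem g1_reflect {p h : ℕ} [hp : Fact p.Prime] (hh : p = 2 * h + 1) {l : ℕ} (hl : l ≤ h) :
    padicNorm p (g1 (h - l) - g1 l) ≤ (p : ℚ) ^ (-1 : ℤ) := by
  have h2 : p ≠ 2 := by omega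
  refine norm_le_of_mul (c := 16 ^ h)
    (N := (centralBinom (h - l) : ℤ) ^ 2 * 16 ^ l - (centralBinom l : ℤ) ^ 2 * 16 ^ (h - l)) 1
    (not_dvd_16 hp.out h2 h) ?_ ?_
  · have e : (16 : ℚ) ^ h = 16 ^ (h - l) * 16 ^ l := by rw [← pow_add]; congr 1; omega
    unfold g1
    push_cast
    rw [e]
    field_simp
  · rw [pow_one]
    exact cb_reflect_sq hp.out hh hl

/-- `16^h ≡ 1` -/
lemma sixteen_pow {p h : ℕ} (hp : p.Prime) (hh : p = 2 * h + 1) : (p : ℤ) ∣ 16 ^ h - 1 := by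
  have h2 : p ≠ 2 := by omega
  have hc : IsCoprime (4 : ℤ) p := by
    have : Nat.Coprime 4 p := by
      have h4 : (4 : ℕ) = 2 ^ 2 := rfl
      rw [h4]
      exact Nat.Coprime.pow_left 2 ((Nat.coprime_primes Nat.prime_two hp).2 (Ne.symm h2))
    exact_mod_cast Nat.isCoprime_iff_coprime.2 this
  have h1 := Int.ModEq.pow_card_sub_one_eq_one hp hc
  have h3 : (4 : ℤ) ^ (p - 1) = 16 ^ h := by
    rw [show p - 1 = 2 * h by omega, pow_mul]; norm_num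
  rw [h3] at h1
  exact h1.symm.dvd

/-- **(G2)** -/
theorem g1_star {p h : ℕ} [hp : Fact p.Prime] (hh : p = 2 * h + 1) {l : ℕ} (hl : l < h) :
    padicNorm p (g1 (h + 1 + l) - (p : ℚ) ^ 2 * gs l) ≤ (p : ℚ) ^ (-3 : ℤ) := by
  have h2 : p ≠ 2 := by omega
  obtain ⟨b, hb⟩ := cb_dvd hp.out hh (n := h + 1 + l) (by omega) (by omega)
  obtain ⟨c, hc⟩ := cb_star hp.out hh hl
  obtain ⟨d, hd⟩ := sixteen_pow hp.out hh
  have hp0 : (p : ℤ) ≠ 0 := by exact_mod_cast hp.out.ne_zero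
  rw [hb] at hc
  have hc' : (2 * (l : ℤ) + 1) * centralBinom l * b = (-1) ^ h * 4 ^ (2 * l + 1) + p * c := by
    apply mul_left_cancel₀ hp0
    linear_combination hc
  have hs : ((-1 : ℤ) ^ h) ^ 2 = 1 := by rw [← pow_mul, mul_comm, pow_mul]; simp
  have h16 : ((4 : ℤ) ^ (2 * l + 1)) ^ 2 = 16 * 16 ^ (2 * l) := by
    rw [← pow_mul, show (2 * l + 1) * 2 = 2 * (2 * l + 1) by ring, pow_mul, pow_succ]; norm_num
    ring
  -- square
  have hsq : ((2 * (l : ℤ) + 1) * centralBinom l * b) ^ 2 =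
      16 * 16 ^ (2 * l) + p * (2 * (-1) ^ h * 4 ^ (2 * l + 1) * c + p * c ^ 2) := by
    rw [hc']
    linear_combination h16 + ((4 : ℤ) ^ (2 * l + 1)) ^ 2 * hs
  have hcb : (centralBinom (h + 1 + l) : ℚ) = p * b := by exact_mod_cast hb
  have hu : ¬ (p : ℤ) ∣ ((2 * (l : ℤ) + 1) * centralBinom l) ^ 2 * 16 ^ (h + 1 + l) := by
    refine not_dvd_mul hp.out (not_dvd_pow hp.out (not_dvd_mul hp.out
      (not_dvd_of_lt (by positivity) (by omega)) (not_dvd_cb hp.out (by omega))) 2)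
      (not_dvd_16 hp.out h2 _)
  refine norm_le_of_mul
    (N := (p : ℤ) ^ 3 * (2 * (-1) ^ h * 4 ^ (2 * l + 1) * c + p * c ^ 2 - 16 * 16 ^ (2 * l) * d))
    3 hu ?_ (dvd_mul_right _ _)
  have hd' : (16 : ℤ) ^ h = 1 + p * d := by linear_combination hd
  have hsqQ : ((2 * (l : ℚ) + 1) * centralBinom l * b) ^ 2 =
      16 * 16 ^ (2 * l) + p * (2 * (-1) ^ h * 4 ^ (2 * l + 1) * c + p * c ^ 2) := by
    exact_mod_cast hsq
  have hdQ : (16 : ℚ) ^ h = 1 + p * d := by exact_mod_cast hd'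
  have h1 : (2 * (l : ℚ) + 1) ≠ 0 := by positivity
  have h3 := cb_ne l
  unfold g1 gs
  rw [hcb]
  push_cast
  have e1 : (((2 * (l : ℚ) + 1) * centralBinom l) ^ 2 * 16 ^ (h + 1 + l)) *
      ((p * b) ^ 2 / 16 ^ (h + 1 + l) - (p : ℚ) ^ 2 * (16 ^ l / ((2 * (l : ℚ) + 1) *
        centralBinom l) ^ 2)) =
      (p : ℚ) ^ 2 * (((2 * (l : ℚ) + 1) * centralBinom l * b) ^ 2
        - 16 ^ (h + 1 + l) * 16 ^ l) := by
    field_simp
  rw [e1, hsqQ, show h + 1 + l = h + (1 + l) by ring, pow_add, pow_add, hdQ, mul_comm 2 l, pow_mul]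
  ring

/-- `16^p ≡ 16` -/
lemma sixteen_pow_p {p h : ℕ} (hp : p.Prime) (hh : p = 2 * h + 1) :
    (p : ℤ) ∣ 16 ^ p - 16 := by
  obtain ⟨d, hd⟩ := sixteen_pow hp hh
  have hd' : (16 : ℤ) ^ h = 1 + p * d := by linear_combination hd
  refine ⟨16 * (2 * d + p * d ^ 2), ?_⟩
  conv_lhs => rw [hh]
  rw [pow_succ, mul_comm 2 h, pow_mul, hd']
  ring

/-- **(G4)** -/
theorem g1_neg {p h : ℕ} [hp : Fact p.Prime] (hh : p = 2 * h + 1) {m : ℕ} (h1 : 1 ≤ m)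
    (hm : m ≤ h) : padicNorm p (g1 (p - m) - (p : ℚ) ^ 2 / 4 * kap m) ≤ (p : ℚ) ^ (-3 : ℤ) := by
  have h2 : p ≠ 2 := by omega
  obtain ⟨b, hb⟩ := cb_dvd hp.out hh (n := p - m) (by omega) (by omega)
  obtain ⟨c, hc⟩ := cb_neg hp.out hh h1 hm
  obtain ⟨d, hd⟩ := sixteen_pow_p hp.out hh
  have hp0 : (p : ℤ) ≠ 0 := by exact_mod_cast hp.out.ne_zero
  rw [hb] at hc
  have hc' : (m : ℤ) * centralBinom m * b = -2 + p * c := by
    apply mul_left_cancel₀ hp0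
    linear_combination hc
  have hcb : (centralBinom (p - m) : ℚ) = p * b := by exact_mod_cast hb
  have hu : ¬ (p : ℤ) ∣ ((m : ℤ) * centralBinom m) ^ 2 * (4 * 16 ^ (p - m)) := by
    refine not_dvd_mul hp.out (not_dvd_pow hp.out (not_dvd_mul hp.out
      (not_dvd_of_lt (by positivity) (by omega)) (not_dvd_cb hp.out (by omega))) 2)
      (not_dvd_mul hp.out ?_ (not_dvd_16 hp.out h2 _))
    intro h4
    exact not_dvd_16 hp.out h2 1 (h4.trans ⟨4, by norm_num⟩)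
  refine norm_le_of_mul
    (N := (p : ℤ) ^ 3 * (-16 * c + 4 * p * c ^ 2 - d)) 3 hu ?_ (dvd_mul_right _ _)
  have hcQ : (m : ℚ) * centralBinom m * b = -2 + p * c := by exact_mod_cast hc'
  have hd' : (16 : ℤ) ^ p = 16 + p * d := by linear_combination hd
  have hdQ : (16 : ℚ) ^ p = 16 + p * d := by exact_mod_cast hd'
  have hm0 : (m : ℚ) ≠ 0 := by positivity
  have h3 := cb_ne m
  have e16 : (16 : ℚ) ^ p = 16 ^ (p - m) * 16 ^ m := by rw [← pow_add]; congr 1; omega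
  unfold g1 kap
  rw [hcb]
  push_cast
  have e1 : (((m : ℚ) * centralBinom m) ^ 2 * (4 * 16 ^ (p - m))) *
      ((p * b) ^ 2 / 16 ^ (p - m) - (p : ℚ) ^ 2 / 4 * (16 ^ m / ((m : ℚ) * centralBinom m) ^ 2)) =
      (p : ℚ) ^ 2 * (4 * ((m : ℚ) * centralBinom m * b) ^ 2 - 16 ^ (p - m) * 16 ^ m) := by
    field_simp
  rw [e1, hcQ, ← e16, hdQ]
  ring

end Crest.Agent.R006.GCong
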