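import Mathlib

/-!
Row 6, block P4: congruences for `g1(n) = C(2n,n)^2 / 16^n` modulo an odd prime `p`.
Write `p = 2 h + 1`, `cb = Nat.centralBinom`.

* `cb_modEq`      : `cb n ≡ (-4)^n C(h,n) (mod p)` for `n < p`.
* `cb_reflect`    : `cb (h-l) (-4)^l ≡ cb l (-4)^(h-l) (mod p)`, `l ≤ h`     (sites `-1/2-l`).
* `cb_neg`        : `m cb m cb (p-m) ≡ -2 p (mod p^2)`, `1 ≤ m ≤ h`           (sites `-m`).
* `cb_star`       : `(2l+1) cb l cb (h+1+l) ≡ (-1)^h p 4^(2l+1) (mod p^2)`, `l < h` (stars).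
* ring forms `g1_reflect`, `g1_neg`, `g1_star` in any commutative ring with `16 u = 1`.
-/

set_option autoImplicit false

namespace Crest.Agent.R006.GCong

open Nat

/-- `n! * cb n = 2^n * (2n-1)!!` in product form -/
lemma factorial_mul_cb (n : ℕ) :
    (n ! : ℤ) * (centralBinom n : ℤ) = ∏ i ∈ Finset.range n, (2 * (2 * (i : ℤ) + 1)) := by
  induction n with
  | zero => simp
  | succ n ih =>
    rw [Finset.prod_range_succ, ← ih, Nat.factorial_succ]
    have := Nat.succ_mul_centralBinom_succ n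
    have h' : ((n : ℤ) + 1) * (centralBinom (n + 1) : ℤ) = 2 * (2 * n + 1) * centralBinom n := by
      exact_mod_cast this
    push_cast
    linear_combination (n ! : ℤ) * h'

lemma factorial_mul_choose (h n : ℕ) :
    (n ! : ℤ) * (-4) ^ n * (choose h n : ℤ) =
      ∏ i ∈ Finset.range n, (-4 * ((h : ℤ) - i)) := by
  have : (n ! : ℤ) * (choose h n : ℤ) = ∏ i ∈ Finset.range n, ((h : ℤ) - i) := by
    have h1 := Nat.descFactorial_eq_factorial_mul_choose h n
    have h2 : ((h.descFactorial n : ℕ) : ℤ) = ∏ i ∈ Finset.range n, ((h : ℤ) - i) := by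
      rw [Nat.descFactorial_eq_prod_range]
      rcases le_or_gt n h with hn | hn
      · push_cast
        apply Finset.prod_congr rfl
        intro i hi
        rw [Finset.mem_range] at hi
        rw [Nat.cast_sub (by omega)]
      · rw [Finset.prod_eq_zero (i := h) (Finset.mem_range.2 hn) (by simp)]
        rw [Finset.prod_eq_zero (i := h) (Finset.mem_range.2 hn) (by simp)]
        simp
    rw [← h2, h1]; push_cast; ring
  rw [Finset.prod_mul_distrib, Finset.prod_const, Finset.card_range, ← this]; ring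

/-- `cb n ≡ (-4)^n C(h,n) (mod p)` for `n < p = 2h+1` -/
theorem cb_modEq {p h : ℕ} (hp : p.Prime) (hh : p = 2 * h + 1) {n : ℕ} (hn : n < p) :
    (p : ℤ) ∣ (centralBinom n : ℤ) - (-4) ^ n * (choose h n : ℤ) := by
  have key : (p : ℤ) ∣ (n ! : ℤ) * ((centralBinom n : ℤ) - (-4) ^ n * (choose h n : ℤ)) := by
    have e : (n ! : ℤ) * ((centralBinom n : ℤ) - (-4) ^ n * (choose h n : ℤ)) =
        (∏ i ∈ Finset.range n, (2 * (2 * (i : ℤ) + 1))) -
          ∏ i ∈ Finset.range n, (-4 * ((h : ℤ) - i)) := by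
      rw [← factorial_mul_cb, ← factorial_mul_choose]; ring
    rw [e]
    apply Int.ModEq.dvd
    apply Int.ModEq.symm
    apply Int.ModEq.symm
    have hc : ∀ i ∈ Finset.range n, (-4 * ((h : ℤ) - i)) ≡ (2 * (2 * (i : ℤ) + 1)) [ZMOD p] := by
      intro i _
      apply (Int.modEq_iff_dvd).2
      refine ⟨2, ?_⟩
      rw [hh]; push_cast; ring
    exact Int.ModEq.prod hc
  rcases (Nat.prime_iff_prime_int.1 hp).dvd_or_dvd key with h1 | h1
  · exfalso
    have h2 : p ∣ n ! := by exact_mod_cast h1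
    exact absurd ((Nat.Prime.dvd_factorial hp).1 h2) (by omega)
  · exact h1

lemma cb_dvd {p h : ℕ} (hp : p.Prime) (hh : p = 2 * h + 1) {n : ℕ} (h1 : h < n) (hn : n < p) :
    (p : ℤ) ∣ (centralBinom n : ℤ) := by
  have := cb_modEq hp hh hn
  rw [Nat.choose_eq_zero_of_lt h1] at this
  simpa using this

/-- reflection at the sites `-1/2-l` -/
theorem cb_reflect {p h : ℕ} (hp : p.Prime) (hh : p = 2 * h + 1) {l : ℕ} (hl : l ≤ h) :
    (p : ℤ) ∣ (centralBinom (h - l) : ℤ) * (-4) ^ l - (centralBinom l : ℤ) * (-4) ^ (h - l) := by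
  have h1 := cb_modEq hp hh (n := h - l) (by omega)
  have h2 := cb_modEq hp hh (n := l) (by omega)
  rw [Nat.choose_symm hl] at h1
  have := dvd_sub (h1.mul_right ((-4) ^ l)) (h2.mul_right ((-4) ^ (h - l)))
  have e : (centralBinom (h - l) : ℤ) * (-4) ^ l - (centralBinom l : ℤ) * (-4) ^ (h - l) =
      ((centralBinom (h - l) : ℤ) - (-4) ^ (h - l) * (choose h l : ℤ)) * (-4) ^ l -
        ((centralBinom l : ℤ) - (-4) ^ l * (choose h l : ℤ)) * (-4) ^ (h - l) := by ring
  rw [e]; exact this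

/-- squared form of the reflection: `cb(h-l)^2 16^l ≡ cb(l)^2 16^(h-l) (mod p)` -/
theorem cb_reflect_sq {p h : ℕ} (hp : p.Prime) (hh : p = 2 * h + 1) {l : ℕ} (hl : l ≤ h) :
    (p : ℤ) ∣ (centralBinom (h - l) : ℤ) ^ 2 * 16 ^ l - (centralBinom l : ℤ) ^ 2 * 16 ^ (h - l) := by
  have h1 := cb_reflect hp hh hl
  have := h1.mul_right ((centralBinom (h - l) : ℤ) * (-4) ^ l + (centralBinom l : ℤ) * (-4) ^ (h - l))
  have e1 : (16 : ℤ) ^ l = (-4) ^ l * (-4) ^ l := by rw [← mul_pow]; norm_num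
  have e2 : (16 : ℤ) ^ (h - l) = (-4) ^ (h - l) * (-4) ^ (h - l) := by rw [← mul_pow]; norm_num
  have e : (centralBinom (h - l) : ℤ) ^ 2 * 16 ^ l - (centralBinom l : ℤ) ^ 2 * 16 ^ (h - l) =
      ((centralBinom (h - l) : ℤ) * (-4) ^ l - (centralBinom l : ℤ) * (-4) ^ (h - l)) *
        ((centralBinom (h - l) : ℤ) * (-4) ^ l + (centralBinom l : ℤ) * (-4) ^ (h - l)) := by
    rw [e1, e2]; ring
  rw [e]; exact this

lemma isCoprime_sq {p : ℕ} (hp : p.Prime) {c : ℤ} (hc : ¬ (p : ℤ) ∣ c) :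
    IsCoprime ((p : ℤ) ^ 2) c := by
  apply IsCoprime.pow_left
  exact (Nat.prime_iff_prime_int.1 hp).irreducible.coprime_iff_not_dvd.2 hc

lemma not_dvd_cb {p : ℕ} (hp : p.Prime) {n : ℕ} (hn : 2 * n < p) :
    ¬ (p : ℤ) ∣ (centralBinom n : ℤ) := by
  intro h
  have h1 : p ∣ centralBinom n := by exact_mod_cast h
  have h2 : p ∣ (2 * n)! := by
    rw [Nat.centralBinom_eq_two_mul_choose] at h1
    have h3 := Nat.choose_mul_factorial_mul_factorial (n := 2 * n) (k := n) (by omega)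
    rw [← h3, mul_assoc]
    exact h1.mul_right _
  exact absurd ((Nat.Prime.dvd_factorial hp).1 h2) (by omega)

lemma not_dvd_of_lt {p : ℕ} {c : ℤ} (h0 : 0 < c) (h1 : c < p) : ¬ (p : ℤ) ∣ c := by
  intro h
  exact absurd (Int.le_of_dvd h0 h) (by omega)

lemma cb_rec (n : ℕ) :
    ((n : ℤ) + 1) * (centralBinom (n + 1) : ℤ) = 2 * (2 * n + 1) * centralBinom n := by
  exact_mod_cast Nat.succ_mul_centralBinom_succ n

lemma cb_p {p : ℕ} (hp : p.Prime) : (p : ℤ) ∣ (centralBinom p : ℤ) - 2 := by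
  have := Fact.mk hp
  have h1 := Choose.choose_modEq_choose_mod_mul_choose_div (n := 2 * p) (k := p) (p := p)
  have e1 : 2 * p % p = 0 := Nat.mul_mod_left 2 p
  have e2 : p % p = 0 := Nat.mod_self p
  have e3 : 2 * p / p = 2 := Nat.mul_div_cancel _ hp.pos
  have e4 : p / p = 1 := Nat.div_self hp.pos
  rw [e1, e2, e3, e4] at h1
  rw [Nat.centralBinom_eq_two_mul_choose]
  exact (Int.modEq_iff_dvd.1 h1.symm)

/-- sites `-m`: `m cb m cb (p-m) ≡ -2p (mod p^2)` for `1 ≤ m ≤ h` -/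
theorem cb_neg {p h : ℕ} (hp : p.Prime) (hh : p = 2 * h + 1) {m : ℕ} (h1 : 1 ≤ m) (hm : m ≤ h) :
    (p : ℤ) ^ 2 ∣ (m : ℤ) * centralBinom m * centralBinom (p - m) + 2 * p := by
  induction m, h1 using Nat.le_induction with
  | base =>
    obtain ⟨a, ha⟩ := cb_dvd hp hh (n := p - 1) (by omega) (by omega)
    obtain ⟨c, hc⟩ := cb_p hp
    have hr := cb_rec (p - 1)
    have e : p - 1 + 1 = p := by have := hp.pos; omega
    have e' : ((p - 1 : ℕ) : ℤ) = (p : ℤ) - 1 := by
      have := hp.pos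
      push_cast [Nat.cast_sub (show 1 ≤ p by omega)]; ring
    rw [e, e', ha] at hr
    have h2 : (p : ℤ) ≠ 0 := by exact_mod_cast hp.ne_zero
    -- p * cb p = 2 (2p-1) p a
    have h3 : (centralBinom p : ℤ) = 2 * (2 * p - 1) * a := by
      apply mul_left_cancel₀ h2
      linear_combination hr
    rw [ha]
    have hcb1 : (centralBinom 1 : ℤ) = 2 := by decide
    rw [hcb1]
    -- 2 p a + 2 p = p (2a+2), 2a + 2 = 4 p a - (cb p - 2) = p (4a - c)
    refine ⟨4 * a - c, ?_⟩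
    push_cast
    have h4 : 2 * a + 2 = p * (4 * a - c) := by linear_combination h3 - hc
    linear_combination (p : ℤ) * h4
  | succ m hm1 ih =>
    have ih := ih (by omega)
    obtain ⟨a, ha⟩ := cb_dvd hp hh (n := p - (m + 1)) (by omega) (by omega)
    obtain ⟨b, hb⟩ := cb_dvd hp hh (n := p - m) (by omega) (by omega)
    have hr1 := cb_rec m
    have hr2 := cb_rec (p - (m + 1))
    have e : p - (m + 1) + 1 = p - m := by omega
    have e' : ((p - (m + 1) : ℕ) : ℤ) = (p : ℤ) - m - 1 := by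
      rw [Nat.cast_sub (by omega)]; push_cast; ring
    rw [e, e', hb, ha] at hr2
    rw [hb] at ih
    obtain ⟨c, hc⟩ := ih
    have h2 : (p : ℤ) ≠ 0 := by exact_mod_cast hp.ne_zero
    have hr3 : ((p : ℤ) - m) * b = 2 * (2 * (p - m - 1) + 1) * a := by
      apply mul_left_cancel₀ h2
      linear_combination hr2
    have hc' : (m : ℤ) * centralBinom m * b + 2 = p * c := by
      apply mul_left_cancel₀ h2
      linear_combination hc
    rw [ha]
    have hcop : IsCoprime ((p : ℤ) ^ 2) (2 * m + 1) :=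
      isCoprime_sq hp (not_dvd_of_lt (by positivity) (by omega))
    apply hcop.dvd_of_dvd_mul_left
    refine ⟨4 * (2 * m + 1) * centralBinom m * a - (2 * m + 1) * centralBinom m * b
      + (2 * m + 1) * c, ?_⟩
    push_cast
    linear_combination (2 * (m : ℤ) + 1) * (p * a) * hr1
      + (2 * (m : ℤ) + 1) * centralBinom m * p * hr3 + (2 * (m : ℤ) + 1) * p * hc'
  
/-- star sites `l+1/2`: `(2l+1) cb l cb (h+1+l) ≡ (-1)^h p 4^(2l+1) (mod p^2)` for `l < h` -/
theorem cb_star {p h : ℕ} (hp : p.Prime) (hh : p = 2 * h + 1) {l : ℕ} (hl : l < h) :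
    (p : ℤ) ^ 2 ∣ (2 * (l : ℤ) + 1) * centralBinom l * centralBinom (h + 1 + l) -
      (-1) ^ h * p * 4 ^ (2 * l + 1) := by
  have h2 : (p : ℤ) ≠ 0 := by exact_mod_cast hp.ne_zero
  have hpc : (p : ℤ) = 2 * h + 1 := by exact_mod_cast hh
  induction l with
  | zero =>
    obtain ⟨a, ha⟩ := cb_dvd hp hh (n := h + 1) (by omega) (by omega)
    have hr := cb_rec h
    obtain ⟨c, hc⟩ := cb_modEq hp hh (n := h) (by omega)
    rw [Nat.choose_self] at hc
    have hfer : (p : ℤ) ∣ 2 ^ (p - 1) - 1 := by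
      have := Int.ModEq.pow_card_sub_one_eq_one hp (n := 2) (by
        apply Int.isCoprime_iff_gcd_eq_one.2
        have : Nat.Coprime 2 p := (Nat.coprime_primes Nat.prime_two hp).2 (by omega)
        simpa [Int.gcd] using this)
      exact Int.modEq_iff_dvd.1 this.symm
    obtain ⟨d, hd⟩ := hfer
    have e1 : (2 : ℤ) ^ (p - 1) = 4 ^ h := by
      rw [show p - 1 = 2 * h by omega, pow_mul]; norm_num
    rw [e1] at hd
    have e2 : (-4 : ℤ) ^ h = (-1) ^ h * 4 ^ h := by rw [← mul_pow]; norm_num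
    rw [e2] at hc
    -- (p+1) p a = 4 p cb h
    rw [ha] at hr
    have hr' : ((p : ℤ) + 1) * a = 4 * centralBinom h := by
      apply mul_left_cancel₀ h2
      rw [hpc] at hr ⊢
      linear_combination 2 * hr
    rw [Nat.add_zero, ha, Nat.centralBinom_zero]
    refine ⟨4 * c + 4 * (-1) ^ h * d - a, ?_⟩
    push_cast at hc hd ⊢
    linear_combination (p : ℤ) * hr' + 4 * (p : ℤ) * hc + 4 * (-1) ^ h * p * hd
  | succ l ih =>
    have ih := ih (by omega)
    obtain ⟨a, ha⟩ := cb_dvd hp hh (n := h + 1 + (l + 1)) (by omega) (by omega)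
    obtain ⟨b, hb⟩ := cb_dvd hp hh (n := h + 1 + l) (by omega) (by omega)
    have hr1 := cb_rec l
    have hr2 := cb_rec (h + 1 + l)
    have e : h + 1 + l + 1 = h + 1 + (l + 1) := by omega
    rw [e, hb, ha] at hr2
    have e' : ((h + 1 + l : ℕ) : ℤ) = (h : ℤ) + 1 + l := by push_cast; ring
    rw [e'] at hr2
    -- (p + 2l + 3) a = 4 (p + 2 l + 2) b
    have hr3 : ((p : ℤ) + 2 * l + 3) * a = 4 * (p + 2 * l + 2) * b := by
      apply mul_left_cancel₀ h2
      rw [hpc] at hr2 ⊢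
      linear_combination 2 * hr2
    obtain ⟨c, hc⟩ := ih
    rw [hb] at hc
    have hc' : (2 * (l : ℤ) + 1) * centralBinom l * b - (-1) ^ h * 4 ^ (2 * l + 1) = p * c := by
      apply mul_left_cancel₀ h2
      linear_combination hc
    rw [ha]
    have hcop : IsCoprime ((p : ℤ) ^ 2) (((l : ℤ) + 1) * (2 * l + 3)) := by
      apply IsCoprime.mul_right
      · exact isCoprime_sq hp (not_dvd_of_lt (by positivity) (by omega))
      · exact isCoprime_sq hp (not_dvd_of_lt (by positivity) (by omega))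
    apply hcop.dvd_of_dvd_mul_left
    have e4 : (4 : ℤ) ^ (2 * (l + 1) + 1) = 16 * 4 ^ (2 * l + 1) := by
      rw [show 2 * (l + 1) + 1 = (2 * l + 1) + 2 by ring, pow_add]; ring
    rw [e4]
    refine ⟨16 * ((l : ℤ) + 1) * (2 * l + 3) * c
      + 2 * (2 * (l : ℤ) + 3) * (2 * l + 1) * centralBinom l * (4 * b - a), ?_⟩
    push_cast
    linear_combination (2 * (l : ℤ) + 3) * (2 * l + 3) * p * a * hr1
      + (2 * (l : ℤ) + 3) * (2 * (2 * l + 1) * centralBinom l) * p * hr3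
      + 16 * ((l : ℤ) + 1) * (2 * l + 3) * p * hc'

end Crest.Agent.R006.GCong
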