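import Crest.Agent.R006.P4_GCong_334
import Crest.Agent.R006.NVChain_664

/-!
Row 6, block P4: values, valuations and congruences of `g1` at the integers, in `ℚ_[p]`.

* `g1 n = C(2n,n)^2/16^n` is the constant coefficient of the germ `GamZ n` (`n ≥ 0`),
  `kap m = 16^m/(m C(2m,m))^2` is the coefficient of `ε^2` of the germ at `-m` (`m ≥ 1`),
  `gs l = 16^l/((2l+1) C(2l,l))^2` is the star constant at `l+1/2`.
* `padicValNat_cb`: `v_p(C(2n,n)) = 1` if `p ≤ 2 (n % p)`, else `0`   (`2 n < p^2`).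
* valuations `val_g1`, `val_kap`, `val_gs` (arguments up to `p^2/2`).
* the congruences are in `P4_GCongQ_334`.
-/

set_option autoImplicit false

namespace Crest.Agent.R006.GCong

open Nat Crest.Agent.R006.NV

/-- `g1(n)` -/
noncomputable def g1 (n : ℕ) : ℚ := (centralBinom n : ℚ) ^ 2 / 16 ^ n
/-- `κ_m` -/
noncomputable def kap (m : ℕ) : ℚ := 16 ^ m / ((m : ℚ) * centralBinom m) ^ 2
/-- `g*_l` -/
noncomputable def gs (l : ℕ) : ℚ := 16 ^ l / ((2 * (l : ℚ) + 1) * centralBinom l) ^ 2

lemma cb_ne (n : ℕ) : (centralBinom n : ℚ) ≠ 0 := by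
  exact_mod_cast Nat.centralBinom_ne_zero n

lemma g1_succ (n : ℕ) : ((n : ℚ) + 1) ^ 2 * g1 (n + 1) = 1 / 4 * (2 * n + 1) ^ 2 * g1 n := by
  have h : ((n : ℚ) + 1) * (centralBinom (n + 1) : ℚ) = 2 * (2 * n + 1) * centralBinom n := by
    exact_mod_cast Nat.succ_mul_centralBinom_succ n
  unfold g1
  have e : ((n : ℚ) + 1) ^ 2 * ((centralBinom (n + 1) : ℚ) ^ 2 / 16 ^ (n + 1)) =
    (((n : ℚ) + 1) * (centralBinom (n + 1) : ℚ)) ^ 2 / 16 ^ (n + 1) := by ring
  rw [e, h, pow_succ]
  field_simp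
  ring

lemma kap_succ (m : ℕ) : (2 * (m : ℚ) + 3) ^ 2 * kap (m + 2) = 4 * ((m : ℚ) + 1) ^ 2 * kap (m + 1) := by
  have h : ((m : ℚ) + 2) * (centralBinom (m + 2) : ℚ) =
      2 * (2 * m + 3) * centralBinom (m + 1) := by
    have := Nat.succ_mul_centralBinom_succ (m + 1)
    have h' : (((m + 1 : ℕ) : ℚ) + 1) * (centralBinom (m + 2) : ℚ) =
        2 * (2 * ((m + 1 : ℕ) : ℚ) + 1) * centralBinom (m + 1) := by exact_mod_cast this
    push_cast at h'
    linear_combination h'
  unfold kap
  push_cast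
  rw [h]
  have h1 : (2 * (m : ℚ) + 3) ≠ 0 := by positivity
  have h2 : ((m : ℚ) + 1) ≠ 0 := by positivity
  have h3 := cb_ne (m + 1)
  rw [pow_succ]
  field_simp
  ring

lemma gs_succ (l : ℕ) : (2 * (l : ℚ) + 3) ^ 2 * gs (l + 1) = 4 * ((l : ℚ) + 1) ^ 2 * gs l := by
  have h : ((l : ℚ) + 1) * (centralBinom (l + 1) : ℚ) = 2 * (2 * l + 1) * centralBinom l := by
    exact_mod_cast Nat.succ_mul_centralBinom_succ l
  unfold gs
  have h1 : (2 * (l : ℚ) + 3) ≠ 0 := by positivity
  have h2 : ((l : ℚ) + 1) ≠ 0 := by positivity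
  have h4 : (2 * (l : ℚ) + 1) ≠ 0 := by positivity
  have h3 := cb_ne l
  have h5 : (centralBinom (l + 1) : ℚ) = 2 * (2 * l + 1) * centralBinom l / ((l : ℚ) + 1) := by
    field_simp; linear_combination h
  rw [h5]
  push_cast
  rw [show (2 * ((l : ℚ) + 1) + 1) = 2 * (l : ℚ) + 3 by ring, pow_succ]
  field_simp
  ring

/-! ### the germs -/

theorem GamZ_nat (n : ℕ) : PowerSeries.constantCoeff (GamZ (n : ℤ) : PowerSeries ℚ) = g1 n := by
  induction n with
  | zero => simp [GamZ_zero, g1]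
  | succ n ih =>
    have h := (step_Z (K := ℚ) 0 n).2
    have h1 := congrArg PowerSeries.constantCoeff h
    push_cast
    simp only [map_mul, map_pow, map_add, constantCoeff_pt, constantCoeff_two, map_one,
      PowerSeries.constantCoeff_C] at h1
    rw [ih] at h1
    have h2 := g1_succ n
    have h3 : (((n : ℤ) : ℚ) + 1) ^ 2 ≠ 0 := by positivity
    apply mul_left_cancel₀ h3
    push_cast at h1 ⊢
    linear_combination h1 - h2

lemma exists_quot {v w G : PowerSeries ℚ} (hv : PowerSeries.constantCoeff v ≠ 0)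
    (h : PowerSeries.X ^ 2 * w = v * G) :
    ∃ u : PowerSeries ℚ, G = PowerSeries.X ^ 2 * u ∧
      PowerSeries.constantCoeff v * PowerSeries.constantCoeff u = PowerSeries.constantCoeff w := by
  refine ⟨w * v⁻¹, ?_, ?_⟩
  · have h1 := PowerSeries.mul_inv_cancel v hv
    calc G = (v * v⁻¹) * G := by rw [h1, one_mul]
      _ = (v * G) * v⁻¹ := by ring
      _ = (PowerSeries.X ^ 2 * w) * v⁻¹ := by rw [h]
      _ = PowerSeries.X ^ 2 * (w * v⁻¹) := by ring
  · have h1 := congrArg PowerSeries.constantCoeff (PowerSeries.mul_inv_cancel v hv)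
    rw [map_mul, map_one] at h1
    rw [map_mul]
    linear_combination PowerSeries.constantCoeff w * h1

theorem GamZ_neg (m : ℕ) : ∃ u : PowerSeries ℚ,
    (GamZ (-((m : ℤ) + 1)) : PowerSeries ℚ) = PowerSeries.X ^ 2 * u ∧
      PowerSeries.constantCoeff u = kap (m + 1) := by
  induction m with
  | zero =>
    have h := (step_Z (K := ℚ) 0 (-1)).2
    have e : ((-1 : ℤ) : ℚ) + 1 = 0 := by norm_num
    have e' : (-1 : ℤ) + 1 = 0 := rfl
    rw [e', GamZ_zero, e] at h
    have e2 : (pt (0 : ℚ)) = PowerSeries.X := by simp [pt]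
    rw [e2] at h
    obtain ⟨u, hu, hu'⟩ := exists_quot (v := PowerSeries.C (1 / 4) * (2 * pt ((-1 : ℤ) : ℚ) + 1) ^ 2)
      (w := 1) (G := GamZ (-1)) (by
        rw [map_mul, PowerSeries.constantCoeff_C, map_pow, map_add, map_mul, constantCoeff_pt,
          constantCoeff_two, map_one]; norm_num) h
    refine ⟨u, by simpa using hu, ?_⟩
    rw [map_mul, PowerSeries.constantCoeff_C, map_pow, map_add, map_mul, constantCoeff_pt,
          constantCoeff_two, map_one] at hu'
    have hk : kap (0 + 1) = 4 := by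
      have : centralBinom 1 = 2 := by decide
      simp [kap, this]; norm_num
    rw [hk]
    push_cast at hu'
    linear_combination 4 * hu'
  | succ m ih =>
    obtain ⟨u0, hu0, hk0⟩ := ih
    have h := (step_Z (K := ℚ) 0 (-((m : ℤ) + 1) - 1)).2
    have e' : -((m : ℤ) + 1) - 1 + 1 = -((m : ℤ) + 1) := by ring
    rw [e', hu0] at h
    have e3 : ((-((m : ℤ) + 1) - 1 : ℤ) : ℚ) + 1 = -((m : ℚ) + 1) := by push_cast; ring
    rw [e3] at h
    obtain ⟨u, hu, hu'⟩ := exists_quot
      (v := PowerSeries.C (1 / 4) * (2 * pt ((-((m : ℤ) + 1) - 1 : ℤ) : ℚ) + 1) ^ 2)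
      (w := pt (-((m : ℚ) + 1)) ^ 2 * u0) (G := GamZ (-((m : ℤ) + 1) - 1)) (by
        rw [map_mul, PowerSeries.constantCoeff_C, map_pow, map_add, map_mul, constantCoeff_pt,
          constantCoeff_two, map_one]
        push_cast
        apply mul_ne_zero (by norm_num)
        apply pow_ne_zero
        have : (2 * (m : ℚ) + 3) ≠ 0 := by positivity
        intro hc; apply this; linear_combination -hc) (by linear_combination h)
    refine ⟨u, ?_, ?_⟩
    · rw [← hu]; congr 1
    · rw [map_mul, map_mul, PowerSeries.constantCoeff_C, map_pow, map_pow, map_add, map_mul,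
        constantCoeff_pt, constantCoeff_pt, constantCoeff_two, map_one, hk0] at hu'
      have hk := kap_succ m
      have h3 : (2 * (m : ℚ) + 3) ^ 2 ≠ 0 := by positivity
      apply mul_left_cancel₀ h3
      push_cast at hu'
      rw [show m + 1 + 1 = m + 2 by ring]
      linear_combination 4 * hu' - hk

/-! ### valuations -/

theorem padicValNat_cb {p : ℕ} [hp : Fact p.Prime] {n : ℕ} (hn : 2 * n < p ^ 2) :
    padicValNat p (centralBinom n) = if p ≤ 2 * (n % p) then 1 else 0 := by
  rw [Nat.centralBinom_eq_two_mul_choose]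
  have hlog : Nat.log p (2 * n) < 2 := by
    rcases Nat.eq_zero_or_pos n with h0 | h0
    · subst h0; simp
    · exact (Nat.log_lt_iff_lt_pow hp.out.one_lt (by omega)).2 hn
  rw [padicValNat_choose (k := n) (n := 2 * n) (b := 2) (by omega) hlog]
  have e : 2 * n - n = n := by omega
  rw [e]
  have e2 : Finset.Ico 1 2 = {1} := rfl
  rw [e2, Finset.filter_singleton, pow_one]
  split_ifs with h1 h2 h2
  · rfl
  · omega
  · omega
  · rfl

lemma val16 {p : ℕ} [hp : Fact p.Prime] (h2 : p ≠ 2) (n : ℕ) :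
    padicValRat p ((16 : ℚ) ^ n) = 0 := by
  have h16 : padicValRat p (16 : ℚ) = 0 := by
    have : ((16 : ℕ) : ℚ) = 16 := by norm_num
    rw [← this, padicValRat.of_nat]
    have h : ¬ p ∣ 16 := by
      intro h
      have : p ∣ 2 ^ 4 := by simpa using h
      exact h2 ((Nat.prime_dvd_prime_iff_eq hp.out Nat.prime_two).1 (hp.out.dvd_of_dvd_pow this))
    rw [padicValNat.eq_zero_of_not_dvd h]; rfl
  rw [padicValRat.pow, h16]; ring

theorem val_g1 {p : ℕ} [hp : Fact p.Prime] (h2 : p ≠ 2) {n : ℕ} (hn : 2 * n < p ^ 2) :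
    padicValRat p (g1 n) = if p ≤ 2 * (n % p) then 2 else 0 := by
  unfold g1
  rw [padicValRat.div (pow_ne_zero _ (cb_ne n)) (by positivity), val16 h2,
    padicValRat.pow, padicValRat.of_nat, padicValNat_cb hn]
  split_ifs <;> simp

theorem val_kap {p : ℕ} [hp : Fact p.Prime] (h2 : p ≠ 2) {m : ℕ} (hm0 : 0 < m)
    (hm : 2 * m < p ^ 2) :
    padicValRat p (kap m) = if m % p = 0 ∨ p ≤ 2 * (m % p) then -2 else 0 := by
  have hm' : (m : ℚ) ≠ 0 := by positivity
  unfold kap
  rw [padicValRat.div (by positivity) (pow_ne_zero _ (mul_ne_zero hm' (cb_ne m))), val16 h2,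
    padicValRat.pow, padicValRat.mul hm' (cb_ne m),
    padicValRat.of_nat, padicValRat.of_nat, padicValNat_cb hm]
  have hpp := hp.out.pos
  by_cases h : m % p = 0
  · have hd : p ∣ m := Nat.dvd_of_mod_eq_zero h
    have hv : padicValNat p m = 1 := by
      apply le_antisymm
      · rw [← not_lt]
        intro hlt
        have h3 : p ^ 2 ∣ m := (padicValNat_dvd_iff_le (by omega)).2 hlt
        have := Nat.le_of_dvd hm0 h3
        omega
      · exact one_le_padicValNat_of_dvd (by omega) hd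
    rw [h, hv, if_pos (Or.inl rfl), if_neg (by omega)]; norm_num
  · have hv : padicValNat p m = 0 := by
      apply padicValNat.eq_zero_of_not_dvd
      intro hd; exact h (Nat.mod_eq_zero_of_dvd hd)
    rw [hv]
    by_cases h3 : p ≤ 2 * (m % p)
    · rw [if_pos h3, if_pos (Or.inr h3)]; norm_num
    · rw [if_neg h3, if_neg (by rintro (h4 | h4) <;> contradiction)]; norm_num

theorem val_gs {p : ℕ} [hp : Fact p.Prime] (h2 : p ≠ 2) {l : ℕ} (hl : 2 * l + 1 < p ^ 2) :
    padicValRat p (gs l) = if p ≤ 2 * (l % p) + 1 then -2 else 0 := by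
  have hl' : (2 * (l : ℚ) + 1) ≠ 0 := by positivity
  unfold gs
  have e : (2 * (l : ℚ) + 1) = ((2 * l + 1 : ℕ) : ℚ) := by push_cast; ring
  rw [padicValRat.div (by positivity) (pow_ne_zero _ (mul_ne_zero hl' (cb_ne l))), val16 h2,
    padicValRat.pow, padicValRat.mul hl' (cb_ne l), e,
    padicValRat.of_nat, padicValRat.of_nat, padicValNat_cb (by omega)]
  have hpp := hp.out.pos
  have hodd : p % 2 = 1 := Nat.odd_iff.1 (hp.out.odd_of_ne_two h2)
  have hmod : (2 * l + 1) % p = (2 * (l % p) + 1) % p := by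
    rw [Nat.add_mod, Nat.mul_mod, Nat.add_mod (2 * (l % p)), Nat.mul_mod 2 (l % p), Nat.mod_mod]
  have hlt := Nat.mod_lt l hpp
  by_cases h : p = 2 * (l % p) + 1
  · have hd : p ∣ 2 * l + 1 := by
      apply Nat.dvd_of_mod_eq_zero
      rw [hmod, ← h, Nat.mod_self]
    have hv : padicValNat p (2 * l + 1) = 1 := by
      apply le_antisymm
      · rw [← not_lt]
        intro hlt
        have h3 : p ^ 2 ∣ 2 * l + 1 := (padicValNat_dvd_iff_le (by omega)).2 hlt
        have := Nat.le_of_dvd (by omega) h3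
        omega
      · exact one_le_padicValNat_of_dvd (by omega) hd
    rw [hv, if_neg (by omega), if_pos (by omega)]; norm_num
  · have hv : padicValNat p (2 * l + 1) = 0 := by
      apply padicValNat.eq_zero_of_not_dvd
      intro hd
      have h4 := Nat.mod_eq_zero_of_dvd hd
      rw [hmod] at h4
      obtain ⟨k, hk⟩ := Nat.dvd_of_mod_eq_zero h4
      have hk2 : k < 2 := by
        by_contra hc
        push Not at hc
        have : p * 2 ≤ p * k := Nat.mul_le_mul_left p hc
        omega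
      interval_cases k
      · omega
      · omega
    rw [hv]
    by_cases h3 : p ≤ 2 * (l % p)
    · rw [if_pos h3, if_pos (by omega)]; norm_num
    · rw [if_neg h3, if_neg (by omega)]; norm_num

/-- norm in `ℚ_[p]` from `padicValRat` -/
theorem norm_of_val {p : ℕ} [hp : Fact p.Prime] {q : ℚ} (hq : q ≠ 0) :
    ‖(q : ℚ_[p])‖ = (p : ℝ) ^ (-padicValRat p q) := by
  rw [Padic.eq_padicNorm, padicNorm.eq_zpow_of_nonzero hq]
  push_cast; rfl

end Crest.Agent.R006.GCong
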