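import Crest.Agent.R006.P4M_Step_531
import Crest.Agent.R006.P4M_PS_955
import Crest.Agent.R006.P4Toll_961

/-!
# Row 6, block P4, leaf (5): `p`-adic weights of the germs of `g` (helper556)

In the jet filtration `psFil (pbFil p)` of `ℚ[X]⟦ε⟧` (coefficient `j` has valuation `≥ v - j`):
* `xk_mem`, `xk_inv` : the site `k/2 + ε` lies in `F (w p k)` and has an inverse in `F (-(w p k))`,
  `w p k = 1` if `p ∣ k`, else `0` (for the inverse: `k ≠ 0`, `|k| < p^2`);
* `GamX_mem` : `GamX k ∈ F (W p k)` for all `|k| < p^2`, where `W p k = 0` if `k mod p` is even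
  (polar class) and `2` if `k mod p` is odd (regular class).

No congruences, only weights.  `p` is an odd prime.
-/

set_option autoImplicit false

namespace Crest.Agent.R006.P4GW556

open Polynomial P4M531 P4M P4Toll961 Tollx814 ProdBound481

variable (p : ℕ) [hp : Fact p.Prime]

/-- the jet filtration of `ℚ[X]⟦ε⟧` at `p` -/
noncomputable abbrev FB : ZFil BB := psFil (pbFil p)

/-- weight of the local coordinate of the site `k/2` -/
def w (p : ℕ) (k : ℤ) : ℤ := if (p : ℤ) ∣ k then 1 else 0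

/-- weight of `g` at the site `k/2`: `0` in a polar class, `2` in a regular class -/
def W (p : ℕ) (k : ℤ) : ℤ := if (k % p) % 2 = 0 then 0 else 2

variable {p}

lemma C_mem_pb {v : ℤ} {a : ℚ} (h : padicNorm p a ≤ (p : ℚ) ^ (-v)) :
    (C a : ℚ[X]) ∈ (pbFil p).F v := PB.C h

lemma CC_mem {v : ℤ} {a : ℚ} (h : padicNorm p a ≤ (p : ℚ) ^ (-v)) :
    (PowerSeries.C (C a) : BB) ∈ (FB p).F v := C_mem _ (C_mem_pb h)

lemma norm_two (h2 : p ≠ 2) : padicNorm p 2 = 1 := by
  have := (padicNorm.int_eq_one_iff (p := p) 2).mpr (by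
    intro h
    have h' : p ∣ 2 := by exact_mod_cast h
    exact h2 ((Nat.prime_dvd_prime_iff_eq hp.out Nat.prime_two).mp h'))
  exact_mod_cast this

lemma norm_half_le (h2 : p ≠ 2) (k : ℤ) : padicNorm p ((k : ℚ) / 2) ≤ (p : ℚ) ^ (-(w p k)) := by
  rw [padicNorm.div, norm_two h2, div_one, w]
  split_ifs with h
  · have := (padicNorm.dvd_iff_norm_le (p := p) (n := 1) (z := k)).mp (by simpa using h)
    simpa using this
  · rw [neg_zero, zpow_zero]
    exact padicNorm.of_int k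

/-- `k ≠ 0`, `|k| < p^2`: the valuation of `k` is exactly `w p k` -/
lemma norm_int_eq {k : ℤ} (hk : k ≠ 0) (hk2 : |k| < (p : ℤ) ^ 2) :
    padicNorm p (k : ℚ) = (p : ℚ) ^ (-(w p k)) := by
  rw [w]
  split_ifs with h
  · obtain ⟨m, rfl⟩ := h
    have hm : ¬ ((p : ℤ) ∣ m) := by
      intro hm
      have h1 : (p : ℤ) ^ 2 ∣ (p : ℤ) * m := by
        rw [pow_two]; exact mul_dvd_mul_left _ hm
      have h3 := Int.le_of_dvd (abs_pos.mpr hk) ((dvd_abs _ _).mpr h1)
      omega
    rw [Int.cast_mul, padicNorm.mul, (padicNorm.int_eq_one_iff m).mpr hm, mul_one]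
    rw [Int.cast_natCast, padicNorm.padicNorm_p hp.out.one_lt, zpow_neg, zpow_one]
  · rw [neg_zero, zpow_zero]
    exact (padicNorm.int_eq_one_iff k).mpr h

lemma norm_inv_le (h2 : p ≠ 2) {k : ℤ} (hk : k ≠ 0) (hk2 : |k| < (p : ℤ) ^ 2) :
    padicNorm p (2 / (k : ℚ)) ≤ (p : ℚ) ^ (-(-(w p k))) := by
  rw [padicNorm.div, norm_two h2, norm_int_eq hk hk2, neg_neg, zpow_neg, one_div, inv_inv]

/-- the local coordinate has weight `w p k` -/
theorem xk_mem (h2 : p ≠ 2) (k : ℤ) : xk k ∈ (FB p).F (w p k) := by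
  rw [xk, pt]
  refine AddSubgroup.add_mem _ (CC_mem (norm_half_le h2 k)) ?_
  refine (FB p).mono ?_ (X_mem (pbFil p))
  rw [w]; split_ifs <;> norm_num

/-- the inverse of the local coordinate -/
theorem xk_inv (h2 : p ≠ 2) {k : ℤ} (hk : k ≠ 0) (hk2 : |k| < (p : ℤ) ^ 2) :
    ∃ g ∈ (FB p).F (-(w p k)), g * xk k = 1 := by
  have hc : (PowerSeries.C (C (2 / (k : ℚ))) : BB) ∈ (FB p).F (-(w p k)) :=
    CC_mem (norm_inv_le h2 hk hk2)
  have hf : (1 + PowerSeries.C (C (2 / (k : ℚ))) * PowerSeries.X : BB) ∈ (FB p).F 0 := by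
    refine AddSubgroup.add_mem _ (FB p).one_mem ?_
    refine (FB p).mono ?_ ((FB p).mul_mem hc (X_mem (pbFil p)))
    rw [w]; split_ifs <;> norm_num
  obtain ⟨g, hg, hg1⟩ := exists_inv (pbFil p) hf (w := 1) (pbFil p).one_mem (by simp)
  refine ⟨PowerSeries.C (C (2 / (k : ℚ))) * g, ?_, ?_⟩
  · exact (FB p).mono (by simp) ((FB p).mul_mem hc hg)
  · have hk' : (k : ℚ) ≠ 0 := by exact_mod_cast hk
    have e : xk k = PowerSeries.C (C ((k : ℚ) / 2)) *
        (1 + PowerSeries.C (C (2 / (k : ℚ))) * PowerSeries.X) := by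
      rw [xk, pt, mul_add, mul_one, ← mul_assoc, ← map_mul, ← C_mul]
      have : (k : ℚ) / 2 * (2 / (k : ℚ)) = 1 := by field_simp
      rw [this, C_1, map_one, one_mul]
    have e2 : (PowerSeries.C (C (2 / (k : ℚ))) * PowerSeries.C (C ((k : ℚ) / 2)) : BB) = 1 := by
      rw [← map_mul, ← C_mul]
      have : 2 / (k : ℚ) * ((k : ℚ) / 2) = 1 := by field_simp
      rw [this, C_1, map_one]
    rw [e]
    calc PowerSeries.C (C (2 / (k : ℚ))) * g * (PowerSeries.C (C ((k : ℚ) / 2)) *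
          (1 + PowerSeries.C (C (2 / (k : ℚ))) * PowerSeries.X))
        = (PowerSeries.C (C (2 / (k : ℚ))) * PowerSeries.C (C ((k : ℚ) / 2))) *
          (g * (1 + PowerSeries.C (C (2 / (k : ℚ))) * PowerSeries.X)) := by ring
      _ = 1 := by rw [e2, hg1, one_mul]

/-- the recurrence of `g` in terms of the local coordinates -/
theorem GamX_step' (k : ℤ) : xk (k + 2) ^ 2 * GamX (k + 2) = xk (k + 1) ^ 2 * GamX k := by
  have h := GamX_step k
  have e1 : 2 * xk k + 1 = 2 * xk (k + 1) := by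
    rw [xk, xk, pt, pt]
    have : (C (((k + 1 : ℤ) : ℚ) / 2) : ℚ[X]) = C ((k : ℚ) / 2) + C (1 / 2) := by
      rw [← C_add]; congr 1; push_cast; ring
    rw [this, map_add]
    have h3 : (2 * PowerSeries.C (C (1 / 2 : ℚ)) : BB) = 1 := by
      have : (2 : BB) = PowerSeries.C (C 2) := by rw [map_ofNat, map_ofNat]
      rw [this, ← map_mul, ← C_mul]; norm_num
    linear_combination -h3
  have e3 : (PowerSeries.C (C (1 / 4 : ℚ)) * 4 : BB) = 1 := by
    have : (4 : BB) = PowerSeries.C (C 4) := by rw [map_ofNat, map_ofNat]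
    rw [this, ← map_mul, ← C_mul]; norm_num
  rw [← xk_add_two] at h
  rw [h, e1]
  linear_combination (xk (k + 1) ^ 2 * GamX k) * e3

lemma W_step (h2 : p ≠ 2) (k : ℤ) : W p (k + 2) = W p k + 2 * w p (k + 1) - 2 * w p (k + 2) := by
  have hp3 : 3 ≤ p := by
    have := hp.out.two_le
    omega
  have hodd : p % 2 = 1 := (Nat.Prime.eq_two_or_odd hp.out).resolve_left h2
  have hpz : (0 : ℤ) < p := by exact_mod_cast hp.out.pos
  have hr0 := Int.emod_nonneg k hpz.ne'
  have hr1 := Int.emod_lt_of_pos k hpz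
  have hdiv := Int.emod_add_mul_ediv k p
  set r := k % (p : ℤ) with hr
  have hpo : (p : ℤ) % 2 = 1 := by exact_mod_cast hodd
  have hp3' : (3 : ℤ) ≤ p := by exact_mod_cast hp3
  have d1 : ((p : ℤ) ∣ k + 1) ↔ r = p - 1 := by
    constructor
    · intro h
      have h1 : (p : ℤ) ∣ r + 1 := by
        have : r + 1 = (k + 1) - p * (k / p) := by linarith
        rw [this]; exact dvd_sub h (dvd_mul_right _ _)
      have := Int.le_of_dvd (by omega) h1
      omega
    · intro h
      have : k + 1 = p * (k / p + 1) := by linarith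
      rw [this]; exact dvd_mul_right _ _
  have d2 : ((p : ℤ) ∣ k + 2) ↔ r = p - 2 := by
    constructor
    · intro h
      have h1 : (p : ℤ) ∣ r + 2 := by
        have : r + 2 = (k + 2) - p * (k / p) := by linarith
        rw [this]; exact dvd_sub h (dvd_mul_right _ _)
      obtain ⟨t, ht⟩ := h1
      have ht1 : 0 < t := by
        by_contra hcon
        have : (p : ℤ) * t ≤ 0 := mul_nonpos_of_nonneg_of_nonpos hpz.le (by omega)
        omega
      have ht2 : t < 2 := by
        by_contra hcon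
        have : (p : ℤ) * 2 ≤ p * t := mul_le_mul_of_nonneg_left (by omega) hpz.le
        omega
      have : t = 1 := by omega
      subst this
      omega
    · intro h
      have : k + 2 = p * (k / p + 1) := by linarith
      rw [this]; exact dvd_mul_right _ _
  have e : (k + 2) % (p : ℤ) = if r = p - 1 then 1 else if r = p - 2 then 0 else r + 2 := by
    split_ifs with h1 h3
    · have : k + 2 = 1 + p * (k / p + 1) := by linarith
      rw [this, Int.add_mul_emod_self_left, Int.emod_eq_of_lt (by norm_num) (by omega)]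
    · have : k + 2 = 0 + p * (k / p + 1) := by linarith
      rw [this, Int.add_mul_emod_self_left, Int.emod_eq_of_lt le_rfl hpz]
    · have : k + 2 = (r + 2) + p * (k / p) := by linarith
      rw [this, Int.add_mul_emod_self_left, Int.emod_eq_of_lt (by omega) (by omega)]
  unfold W w
  rw [e, ← hr]
  simp only [d1, d2]
  split_ifs <;> omega

/-- one step to the right -/
lemma up_step (h2 : p ≠ 2) {k : ℤ} (hk : k + 2 ≠ 0) (hk2 : |k + 2| < (p : ℤ) ^ 2)
    (h : GamX k ∈ (FB p).F (W p k)) : GamX (k + 2) ∈ (FB p).F (W p (k + 2)) := by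
  obtain ⟨g, hg, hg1⟩ := xk_inv h2 hk hk2
  have e : GamX (k + 2) = g ^ 2 * (xk (k + 1) ^ 2 * GamX k) := by
    rw [← GamX_step']
    calc GamX (k + 2) = (g * xk (k + 2)) ^ 2 * GamX (k + 2) := by rw [hg1, one_pow, one_mul]
      _ = _ := by ring
  rw [e]
  have h1 := (FB p).mul_mem (pow_mem (FB p) hg 2)
    ((FB p).mul_mem (pow_mem (FB p) (xk_mem h2 (k + 1)) 2) h)
  refine (FB p).mono (le_of_eq ?_) h1
  rw [W_step h2]; push_cast; ring

/-- one step to the left -/
lemma down_step (h2 : p ≠ 2) {k : ℤ} (hk : k + 1 ≠ 0) (hk2 : |k + 1| < (p : ℤ) ^ 2)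
    (h : GamX (k + 2) ∈ (FB p).F (W p (k + 2))) : GamX k ∈ (FB p).F (W p k) := by
  obtain ⟨g, hg, hg1⟩ := xk_inv h2 hk hk2
  have e : GamX k = g ^ 2 * (xk (k + 2) ^ 2 * GamX (k + 2)) := by
    rw [GamX_step']
    calc GamX k = (g * xk (k + 1)) ^ 2 * GamX k := by rw [hg1, one_pow, one_mul]
      _ = _ := by ring
  rw [e]
  have h1 := (FB p).mul_mem (pow_mem (FB p) hg 2)
    ((FB p).mul_mem (pow_mem (FB p) (xk_mem h2 (k + 2)) 2) h)
  refine (FB p).mono (le_of_eq ?_) h1
  rw [W_step h2]; push_cast; ring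

/-- **weights of the germs of `g`**: `0` in polar classes (`k mod p` even), `2` in regular
classes (`k mod p` odd), for all sites `|k| < p^2`, integers and half-integers. -/
theorem GamX_mem (h2 : p ≠ 2) {k : ℤ} (hk : |k| < (p : ℤ) ^ 2) :
    GamX k ∈ (FB p).F (W p k) := by
  have hp3 : 3 ≤ p := by
    have := hp.out.two_le
    omega
  have hodd : p % 2 = 1 := (Nat.Prime.eq_two_or_odd hp.out).resolve_left h2
  have hpz : (0 : ℤ) < p := by exact_mod_cast hp.out.pos
  have h0 : GamX 0 ∈ (FB p).F (W p 0) := by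
    rw [GamX_zero, W, if_pos (by simp)]; exact (FB p).one_mem
  have h1 : GamX (-1) ∈ (FB p).F (W p (-1)) := by
    have e : (-1 : ℤ) % p = p - 1 := by
      have : (-1 : ℤ) = (p - 1 : ℤ) + p * (-1) := by ring
      rw [this, Int.add_mul_emod_self_left, Int.emod_eq_of_lt (by omega) (by omega)]
    rw [GamX_negOne, W, if_pos (by rw [e]; omega)]; exact (FB p).one_mem
  have hu0 : ∀ n : ℕ, ((2 * n : ℕ) : ℤ) < (p : ℤ) ^ 2 →
      GamX ((2 * n : ℕ) : ℤ) ∈ (FB p).F (W p ((2 * n : ℕ) : ℤ)) := by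
    intro n
    induction n with
    | zero => intro _; simpa using h0
    | succ n ih =>
      intro h
      have e : ((2 * (n + 1) : ℕ) : ℤ) = ((2 * n : ℕ) : ℤ) + 2 := by push_cast; ring
      rw [e] at h ⊢
      exact up_step h2 (by omega) (by rw [abs_of_nonneg (by omega)]; exact h) (ih (by omega))
  have hu1 : ∀ n : ℕ, (-1 + (2 * n : ℕ) : ℤ) < (p : ℤ) ^ 2 →
      GamX (-1 + (2 * n : ℕ) : ℤ) ∈ (FB p).F (W p (-1 + (2 * n : ℕ) : ℤ)) := by
    intro n
    induction n with
    | zero => intro _; simpa using h1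
    | succ n ih =>
      intro h
      have e : (-1 + (2 * (n + 1) : ℕ) : ℤ) = (-1 + (2 * n : ℕ) : ℤ) + 2 := by push_cast; ring
      rw [e] at h ⊢
      exact up_step h2 (by omega) (by rw [abs_of_nonneg (by omega)]; exact h) (ih (by omega))
  have hd0 : ∀ n : ℕ, ((2 * n : ℕ) : ℤ) < (p : ℤ) ^ 2 →
      GamX (-(2 * n : ℕ) : ℤ) ∈ (FB p).F (W p (-(2 * n : ℕ) : ℤ)) := by
    intro n
    induction n with
    | zero => intro _; simpa using h0
    | succ n ih =>
      intro h
      have e : (-(2 * (n + 1) : ℕ) : ℤ) + 2 = (-(2 * n : ℕ) : ℤ) := by push_cast; ring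
      have hih := ih (by push_cast at h ⊢; omega)
      rw [← e] at hih
      refine down_step h2 (by push_cast; omega) ?_ hih
      rw [abs_of_nonpos (by push_cast; omega)]
      push_cast at h ⊢; omega
  have hd1 : ∀ n : ℕ, (1 + (2 * n : ℕ) : ℤ) < (p : ℤ) ^ 2 →
      GamX (-(1 + (2 * n : ℕ)) : ℤ) ∈ (FB p).F (W p (-(1 + (2 * n : ℕ)) : ℤ)) := by
    intro n
    induction n with
    | zero => intro _; simpa using h1
    | succ n ih =>
      intro h
      have e : (-(1 + (2 * (n + 1) : ℕ)) : ℤ) + 2 = (-(1 + (2 * n : ℕ)) : ℤ) := by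
        push_cast; ring
      have hih := ih (by push_cast at h ⊢; omega)
      rw [← e] at hih
      refine down_step h2 (by push_cast; omega) ?_ hih
      rw [abs_of_nonpos (by push_cast; omega)]
      push_cast at h ⊢; omega
  rw [abs_lt] at hk
  rcases le_or_gt 0 k with h | h
  · rcases Int.even_or_odd k with ⟨m, hm⟩ | ⟨m, hm⟩
    · obtain ⟨n, rfl⟩ : ∃ n : ℕ, k = ((2 * n : ℕ) : ℤ) := ⟨m.toNat, by push_cast; omega⟩
      exact hu0 n hk.2
    · obtain ⟨n, rfl⟩ : ∃ n : ℕ, k = (-1 + (2 * n : ℕ) : ℤ) := ⟨(m + 1).toNat, by push_cast; omega⟩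
      exact hu1 n hk.2
  · rcases Int.even_or_odd k with ⟨m, hm⟩ | ⟨m, hm⟩
    · obtain ⟨n, rfl⟩ : ∃ n : ℕ, k = (-(2 * n : ℕ) : ℤ) := ⟨(-m).toNat, by push_cast; omega⟩
      exact hd0 n (by omega)
    · obtain ⟨n, rfl⟩ : ∃ n : ℕ, k = (-(1 + (2 * n : ℕ)) : ℤ) :=
        ⟨(-m - 1).toNat, by push_cast; omega⟩
      exact hd1 n (by omega)

/-- in every class `g` is integral -/
theorem GamX_mem_zero (h2 : p ≠ 2) {k : ℤ} (hk : |k| < (p : ℤ) ^ 2) : GamX k ∈ (FB p).F 0 :=
  (FB p).mono (by rw [W]; split_ifs <;> norm_num) (GamX_mem h2 hk)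

/-- in a regular class `g` has weight `2` -/
theorem GamX_mem_two (h2 : p ≠ 2) {k : ℤ} (hk : |k| < (p : ℤ) ^ 2) (hr : (k % p) % 2 = 1) :
    GamX k ∈ (FB p).F 2 := by
  have := GamX_mem (p := p) h2 hk
  rwa [W, if_neg (by omega)] at this

end Crest.Agent.R006.P4GW556
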