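import Crest.Agent.R006.P4_Germ_620

/-!
Row 6, block P4, local half, part 2 (helper620).

* `Zp p : Subring ℚ` (`padicNorm ≤ 1`), `IntS p : Subring ℚ⟦X⟧` (all coefficients in `Zp p`),
  inverses, chains.
* **middle range** (all jets are `p`-integral): `psi0_Z_int`, `psi1_Z_int`, `gam_Z_int` at `i` with
  `-p/2 < i < p`; `psi0_H_int` at `l + 1/2`, `2l+1 < p`; `gam_H_int` at `i + 1/2`, `-p ≤ i`,
  `2i+1 < p`.
-/

set_option autoImplicit false

namespace Crest.Agent.R006.Germ620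

open Polynomial Crest.Agent.R006.NV Crest.Agent.R006.P4L869 Crest.Agent.R006.ProdBound481
open Crest.Agent.R006.D (Site psi0 psi1 gam HomZ)

/-! ### `p`-integral rationals -/

section Zp

variable (p : ℕ) [hp : Fact p.Prime]

/-- `ℤ_(p)` -/
def Zp : Subring ℚ where
  carrier := {x | padicNorm p x ≤ 1}
  mul_mem' := by
    intro a b ha hb
    show padicNorm p (a * b) ≤ 1
    rw [padicNorm.mul]
    exact mul_le_one₀ ha (padicNorm.nonneg _) hb
  one_mem' := by show padicNorm p 1 ≤ 1; rw [padicNorm.one]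
  add_mem' := by
    intro a b ha hb
    exact padicNorm.nonarchimedean.trans (max_le ha hb)
  zero_mem' := by show padicNorm p 0 ≤ 1; rw [padicNorm.zero]; exact zero_le_one
  neg_mem' := by
    intro a ha
    show padicNorm p (-a) ≤ 1
    rw [padicNorm.neg]; exact ha

variable {p}

theorem mem_Zp {x : ℚ} : x ∈ Zp p ↔ padicNorm p x ≤ 1 := Iff.rfl

theorem inv_int_mem {m : ℤ} (hm : ¬ (p : ℤ) ∣ m) : ((m : ℚ))⁻¹ ∈ Zp p := by
  rw [mem_Zp]
  have h1 : padicNorm p (m : ℚ) = 1 := padicNorm.int_eq_one_iff m |>.mpr hm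
  rw [← one_div, padicNorm.div, padicNorm.one, h1, div_one]

theorem half_mem (h2 : p ≠ 2) : (1 / 2 : ℚ) ∈ Zp p := by
  have : ¬ (p : ℤ) ∣ 2 := by
    intro hd
    have hd' : p ∣ 2 := by exact_mod_cast hd
    exact h2 ((Nat.prime_dvd_prime_iff_eq hp.out Nat.prime_two).mp hd')
  have := inv_int_mem (p := p) this
  rw [one_div]; exact_mod_cast this

variable (p) in
/-- power series with `p`-integral coefficients -/
noncomputable def IntS : Subring (PowerSeries ℚ) := (PowerSeries.map (Zp p).subtype).range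

theorem mem_IntS {f : PowerSeries ℚ} : f ∈ IntS p ↔ ∀ j, PowerSeries.coeff j f ∈ Zp p :=
  mem_range_map

theorem C_mem_IntS {a : ℚ} (ha : a ∈ Zp p) : PowerSeries.C a ∈ IntS p := by
  rw [mem_IntS]
  intro j
  rw [PowerSeries.coeff_C]
  split_ifs
  · exact ha
  · exact (Zp p).zero_mem

theorem X_mem_IntS : (PowerSeries.X : PowerSeries ℚ) ∈ IntS p := by
  rw [mem_IntS]
  intro j
  rw [PowerSeries.coeff_X]
  split_ifs
  · exact (Zp p).one_mem
  · exact (Zp p).zero_mem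

theorem inv_mem_IntS {f : PowerSeries ℚ} (hf : f ∈ IntS p)
    (h : (PowerSeries.constantCoeff f)⁻¹ ∈ Zp p) (h0 : PowerSeries.constantCoeff f ≠ 0) :
    f⁻¹ ∈ IntS p := by
  obtain ⟨g, rfl⟩ := hf
  have hcc : PowerSeries.constantCoeff (PowerSeries.map (Zp p).subtype g) =
      ((PowerSeries.constantCoeff g : Zp p) : ℚ) := by
    rw [← PowerSeries.coeff_zero_eq_constantCoeff_apply,
      ← PowerSeries.coeff_zero_eq_constantCoeff_apply, PowerSeries.coeff_map]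
    rfl
  have hc : IsUnit (PowerSeries.constantCoeff g) := by
    refine IsUnit.of_mul_eq_one ⟨_, h⟩ (Subtype.ext ?_)
    show ((PowerSeries.constantCoeff g : Zp p) : ℚ) *
      (PowerSeries.constantCoeff (PowerSeries.map (Zp p).subtype g))⁻¹ = 1
    rw [← hcc]
    exact mul_inv_cancel₀ h0
  obtain ⟨u, hu⟩ := (PowerSeries.isUnit_iff_constantCoeff.mpr hc)
  refine ⟨((u⁻¹ : (PowerSeries (Zp p))ˣ) : PowerSeries (Zp p)), ?_⟩
  symm
  rw [PowerSeries.inv_eq_iff_mul_eq_one h0, ← map_mul, ← hu, Units.inv_mul, map_one]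

theorem pt_mem {s : ℚ} (hs : s ∈ Zp p) : pt s ∈ IntS p :=
  (IntS p).add_mem X_mem_IntS (C_mem_IntS hs)

theorem two_pt_mem {s : ℚ} (hs : s ∈ Zp p) : 2 * pt s + 1 ∈ IntS p :=
  (IntS p).add_mem ((IntS p).mul_mem (ofNat_mem _ 2) (pt_mem hs)) (IntS p).one_mem

/-- inverse of `(s+ε)^n` -/
theorem pt_pow_inv {s : ℚ} (hs : s ∈ Zp p) (hs' : s⁻¹ ∈ Zp p) (h0 : s ≠ 0) (n : ℕ) :
    (pt s ^ n)⁻¹ ∈ IntS p := by
  refine inv_mem_IntS ((IntS p).pow_mem (pt_mem hs) n) ?_ ?_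
  · rw [map_pow, constantCoeff_pt, ← inv_pow]
    exact (Zp p).pow_mem hs' n
  · rw [map_pow, constantCoeff_pt]; exact pow_ne_zero _ h0

/-- inverse of `(2(s+ε)+1)^n` -/
theorem two_pt_pow_inv {s : ℚ} (hs : s ∈ Zp p) (hs' : (2 * s + 1)⁻¹ ∈ Zp p)
    (h0 : 2 * s + 1 ≠ 0) (n : ℕ) : ((2 * pt s + 1) ^ n)⁻¹ ∈ IntS p := by
  have e : PowerSeries.constantCoeff (2 * pt s + 1 : PowerSeries ℚ) = 2 * s + 1 := by
    rw [map_add, map_mul, constantCoeff_pt, constantCoeff_two, map_one]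
  refine inv_mem_IntS ((IntS p).pow_mem (two_pt_mem hs) n) ?_ ?_
  · rw [map_pow, e, ← inv_pow]
    exact (Zp p).pow_mem hs' n
  · rw [map_pow, e]; exact pow_ne_zero _ h0

/-! ### chains -/

theorem bi_up_mem {S : Subring (PowerSeries ℚ)} {a b c : ℤ → PowerSeries ℚ}
    {init : PowerSeries ℚ} (h0 : init ∈ S) {M : ℕ}
    (ha : ∀ k : ℕ, k < M → (a k)⁻¹ ∈ S) (hb : ∀ k : ℕ, k < M → b k ∈ S)
    (hc : ∀ k : ℕ, k < M → c k ∈ S) : ∀ n : ℕ, n ≤ M → bi a b c init (n : ℤ) ∈ S := by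
  intro n
  induction n with
  | zero => intro _; exact h0
  | succ n ih =>
    intro hn
    rw [bi_succ]
    exact S.mul_mem (S.sub_mem (hc n (by omega)) (S.mul_mem (hb n (by omega)) (ih (by omega))))
      (ha n (by omega))

theorem bi_down_mem {S : Subring (PowerSeries ℚ)} {a b c : ℤ → PowerSeries ℚ}
    {init : PowerSeries ℚ} (h0 : init ∈ S) {M : ℕ}
    (hb : ∀ k : ℕ, 0 < k → k ≤ M → (b (-(k : ℤ)))⁻¹ ∈ S)
    (ha : ∀ k : ℕ, 0 < k → k ≤ M → a (-(k : ℤ)) ∈ S)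
    (hc : ∀ k : ℕ, 0 < k → k ≤ M → c (-(k : ℤ)) ∈ S) :
    ∀ n : ℕ, n ≤ M → bi a b c init (-(n : ℤ)) ∈ S := by
  have key : ∀ n : ℕ, n + 1 ≤ M → bi a b c init (Int.negSucc n) ∈ S := by
    intro n
    induction n with
    | zero =>
      intro hM
      have e : (Int.negSucc 0 : ℤ) = -1 := rfl
      rw [e, bi_negOne]
      have h1 := ha 1 (by omega) hM
      have h2 := hb 1 (by omega) hM
      have h3 := hc 1 (by omega) hM
      exact S.mul_mem (S.sub_mem h3 (S.mul_mem h1 h0)) h2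
    | succ n ih =>
      intro hM
      rw [bi_negSucc]
      have e : (-(n : ℤ) - 2) = -((n + 2 : ℕ) : ℤ) := by push_cast; ring
      rw [e]
      exact S.mul_mem (S.sub_mem (hc (n + 2) (by omega) (by omega))
        (S.mul_mem (ha (n + 2) (by omega) (by omega)) (ih (by omega))))
        (hb (n + 2) (by omega) (by omega))
  intro n hn
  cases n with
  | zero => exact h0
  | succ n =>
    have e : (-((n + 1 : ℕ) : ℤ)) = Int.negSucc n := rfl
    rw [e]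
    exact key n hn

/-! ### the middle range -/

omit hp in
theorem not_dvd_of_lt {m : ℤ} (h0 : m ≠ 0) (h : |m| < p) : ¬ (p : ℤ) ∣ m := by
  intro hd
  have := Int.le_of_dvd (abs_pos.mpr h0) ((dvd_abs _ _).mpr hd)
  omega

theorem intCast_mem_Zp (m : ℤ) : (m : ℚ) ∈ Zp p := intCast_mem _ m

theorem half_int_mem (h2 : p ≠ 2) (m : ℤ) : (m : ℚ) - 1 / 2 ∈ Zp p :=
  (Zp p).sub_mem (intCast_mem_Zp m) (half_mem h2)

/-- chain at the integers, any integral start value and right hand side -/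
theorem chainZ_int {c : ℤ → PowerSeries ℚ} {init : PowerSeries ℚ} (h0 : init ∈ IntS p)
    (hc : ∀ k, c k ∈ IntS p) {i : ℤ} (h1 : -(p : ℤ) < 2 * i) (h2 : i < p) :
    bi (fun i => pt ((i : ℚ) + 1) ^ 3) (fun i => (2 * pt (i : ℚ) + 1) ^ 3) c init i ∈ IntS p := by
  rcases le_or_gt 0 i with h | h
  · obtain ⟨n, rfl⟩ := Int.eq_ofNat_of_zero_le h
    refine bi_up_mem (M := n) h0 ?_ ?_ (fun k _ => hc k) n le_rfl
    · intro k hk
      have e : (((k : ℤ) : ℚ) + 1) = ((k + 1 : ℤ) : ℚ) := by push_cast; ring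
      show (pt (((k : ℤ) : ℚ) + 1) ^ 3)⁻¹ ∈ IntS p
      rw [e]
      refine pt_pow_inv (intCast_mem_Zp _) (inv_int_mem (not_dvd_of_lt (by omega) ?_)) ?_ 3
      · rw [abs_of_nonneg (by omega)]; omega
      · exact_mod_cast (by omega : (k + 1 : ℤ) ≠ 0)
    · intro k hk
      exact (IntS p).pow_mem (two_pt_mem (intCast_mem_Zp _)) 3
  · obtain ⟨n, rfl⟩ : ∃ n : ℕ, i = -(n : ℤ) := ⟨i.natAbs, by omega⟩
    refine bi_down_mem (M := n) h0 ?_ ?_ (fun k _ _ => hc _) n le_rfl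
    · intro k hk hkn
      refine two_pt_pow_inv (intCast_mem_Zp _) ?_ ?_ 3
      · have e : (2 * ((-(k : ℤ) : ℤ) : ℚ) + 1) = ((-(2 * k) + 1 : ℤ) : ℚ) := by push_cast; ring
        rw [e]
        refine inv_int_mem (not_dvd_of_lt (by omega) ?_)
        rw [abs_of_nonpos (by omega)]; omega
      · have : ((-(2 * k) + 1 : ℤ) : ℚ) ≠ 0 := by
          exact_mod_cast (by omega : (-(2 * (k : ℤ)) + 1 : ℤ) ≠ 0)
        push_cast at this ⊢
        intro h; apply this; linear_combination h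
    · intro k hk hkn
      have e : (((-(k : ℤ) : ℤ) : ℚ) + 1) = ((-(k : ℤ) + 1 : ℤ) : ℚ) := by push_cast; ring
      show pt (((-(k : ℤ) : ℤ) : ℚ) + 1) ^ 3 ∈ IntS p
      rw [e]
      exact (IntS p).pow_mem (pt_mem (intCast_mem_Zp _)) 3

theorem rhs_mem (h2 : p ≠ 2) {s : ℚ} (hs : s ∈ Zp p) :
    -(PowerSeries.C (1 / 2) * (3 * pt s + 2)) ∈ IntS p :=
  (IntS p).neg_mem ((IntS p).mul_mem (C_mem_IntS (half_mem h2))
    ((IntS p).add_mem ((IntS p).mul_mem (ofNat_mem _ 3) (pt_mem hs)) (ofNat_mem _ 2)))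

/-- all jets of `psi0` at `-p/2 < i < p` are integral -/
theorem psi0_Z_int (h2 : p ≠ 2) {i : ℤ} (h : -(p : ℤ) < 2 * i) (h' : i < p) :
    psi0 (.Z i) ∈ IntS p := by
  show PsiZ 0 i ∈ IntS p
  unfold PsiZ
  exact chainZ_int (C_mem_IntS (Zp p).zero_mem) (fun k => rhs_mem h2 (intCast_mem_Zp _)) h h'

theorem psi1_Z_int {i : ℤ} (h : -(p : ℤ) < 2 * i) (h' : i < p) : psi1 (.Z i) ∈ IntS p := by
  show HomZ i ∈ IntS p
  unfold HomZ
  exact chainZ_int (IntS p).one_mem (fun k => (IntS p).zero_mem) h h'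

/-- chain at the half-integers -/
theorem psi0_H_int (h2 : p ≠ 2) {l : ℕ} (h : 2 * l + 1 < p) : psi0 (.H l) ∈ IntS p := by
  show PsiH0 ((l : ℤ) + 1) ∈ IntS p
  unfold PsiH0
  have e : ((l : ℤ) + 1) = ((l + 1 : ℕ) : ℤ) := by push_cast; ring
  rw [e]
  refine bi_up_mem (M := l + 1) (IntS p).zero_mem ?_ ?_ ?_ (l + 1) le_rfl
  · intro k hk
    have e : (((k : ℤ) : ℚ) - 1 / 2 + 1) = ((k + 1 : ℤ) : ℚ) - 1 / 2 := by push_cast; ring
    show (pt (((k : ℤ) : ℚ) - 1 / 2 + 1) ^ 3)⁻¹ ∈ IntS p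
    rw [e]
    refine pt_pow_inv (half_int_mem h2 _) ?_ ?_ 3
    · have e2 : (((k + 1 : ℤ) : ℚ) - 1 / 2)⁻¹ = 2 * ((2 * k + 1 : ℤ) : ℚ)⁻¹ := by
        have h3 : ((2 * k + 1 : ℤ) : ℚ) ≠ 0 := by
          exact_mod_cast (by omega : (2 * (k : ℤ) + 1 : ℤ) ≠ 0)
        have h4 : (((k + 1 : ℤ) : ℚ) - 1 / 2) = ((2 * k + 1 : ℤ) : ℚ) / 2 := by push_cast; ring
        rw [h4, inv_div, div_eq_mul_inv]
      rw [e2]
      refine (Zp p).mul_mem (ofNat_mem _ 2) (inv_int_mem (not_dvd_of_lt (by omega) ?_))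
      rw [abs_of_nonneg (by omega)]; omega
    · have h3 : ((2 * k + 1 : ℤ) : ℚ) ≠ 0 := by
        exact_mod_cast (by omega : (2 * (k : ℤ) + 1 : ℤ) ≠ 0)
      push_cast at h3 ⊢
      intro h; apply h3; linear_combination 2 * h
  · intro k hk
    exact (IntS p).pow_mem (two_pt_mem (half_int_mem h2 _)) 3
  · intro k hk
    exact rhs_mem h2 (half_int_mem h2 _)

/-- germ of `g` at the integers: all jets integral for `-p/2 < i < p` -/
theorem gam_Z_int (h2 : p ≠ 2) {i : ℤ} (h : -(p : ℤ) < 2 * i) (h' : i < p) :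
    gam (.Z i) ∈ IntS p := by
  show GamZ i ∈ IntS p
  have h4 : (PowerSeries.C (1 / 4) : PowerSeries ℚ) ∈ IntS p := by
    refine C_mem_IntS ?_
    have := (Zp p).mul_mem (half_mem (p := p) h2) (half_mem (p := p) h2)
    norm_num at this ⊢
    exact this
  unfold GamZ
  rcases le_or_gt 0 i with h0 | h0
  · obtain ⟨n, rfl⟩ := Int.eq_ofNat_of_zero_le h0
    refine bi_up_mem (M := n) (IntS p).one_mem ?_ ?_ (fun k _ => (IntS p).zero_mem) n le_rfl
    · intro k hk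
      have e : (((k : ℤ) : ℚ) + 1) = ((k + 1 : ℤ) : ℚ) := by push_cast; ring
      show (pt (((k : ℤ) : ℚ) + 1) ^ 2)⁻¹ ∈ IntS p
      rw [e]
      refine pt_pow_inv (intCast_mem_Zp _) (inv_int_mem (not_dvd_of_lt (by omega) ?_)) ?_ 2
      · rw [abs_of_nonneg (by omega)]; omega
      · exact_mod_cast (by omega : (k + 1 : ℤ) ≠ 0)
    · intro k hk
      exact (IntS p).neg_mem ((IntS p).mul_mem h4
        ((IntS p).pow_mem (two_pt_mem (intCast_mem_Zp _)) 2))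
  · obtain ⟨n, rfl⟩ : ∃ n : ℕ, i = -(n : ℤ) := ⟨i.natAbs, by omega⟩
    refine bi_down_mem (M := n) (IntS p).one_mem ?_ ?_ (fun k _ _ => (IntS p).zero_mem) n le_rfl
    · intro k hk hkn
      have e : (2 * ((-(k : ℤ) : ℤ) : ℚ) + 1) = ((-(2 * k) + 1 : ℤ) : ℚ) := by push_cast; ring
      have hne : ((-(2 * k) + 1 : ℤ) : ℚ) ≠ 0 := by
        exact_mod_cast (by omega : (-(2 * (k : ℤ)) + 1 : ℤ) ≠ 0)
      have hinv : ((-(2 * k) + 1 : ℤ) : ℚ)⁻¹ ∈ Zp p := by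
        refine inv_int_mem (not_dvd_of_lt (by omega) ?_)
        rw [abs_of_nonpos (by omega)]; omega
      have hcc : PowerSeries.constantCoeff
          (2 * pt ((-(k : ℤ) : ℤ) : ℚ) + 1 : PowerSeries ℚ) = ((-(2 * k) + 1 : ℤ) : ℚ) := by
        rw [map_add, map_mul, constantCoeff_pt, constantCoeff_two, map_one, e]
      refine inv_mem_IntS ((IntS p).neg_mem ((IntS p).mul_mem h4
        ((IntS p).pow_mem (two_pt_mem (intCast_mem_Zp _)) 2))) ?_ ?_
      · rw [map_neg, map_mul, PowerSeries.constantCoeff_C, map_pow, hcc]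
        have e5 : (-(1 / 4 * ((-(2 * k) + 1 : ℤ) : ℚ) ^ 2))⁻¹
            = -(4 * ((-(2 * k) + 1 : ℤ) : ℚ)⁻¹ ^ 2) := by
          field_simp
        rw [e5]
        exact (Zp p).neg_mem ((Zp p).mul_mem (ofNat_mem _ 4) ((Zp p).pow_mem hinv 2))
      · rw [map_neg, map_mul, PowerSeries.constantCoeff_C, map_pow, hcc]
        exact neg_ne_zero.mpr (mul_ne_zero (by norm_num) (pow_ne_zero 2 hne))
    · intro k hk hkn
      have e : (((-(k : ℤ) : ℤ) : ℚ) + 1) = ((-(k : ℤ) + 1 : ℤ) : ℚ) := by push_cast; ring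
      show pt (((-(k : ℤ) : ℤ) : ℚ) + 1) ^ 2 ∈ IntS p
      rw [e]
      exact (IntS p).pow_mem (pt_mem (intCast_mem_Zp _)) 2

/-- germ of `g` at the half-integers `i + 1/2`: all jets integral for `-p ≤ i`, `2i+1 < p` -/
theorem gam_H_int (h2 : p ≠ 2) {i : ℤ} (h : -(p : ℤ) ≤ i) (h' : 2 * i + 1 < p) :
    gam (.H i) ∈ IntS p := by
  show D.GamH0 (i + 1) ∈ IntS p
  have h4 : (PowerSeries.C (1 / 4) : PowerSeries ℚ) ∈ IntS p := by
    refine C_mem_IntS ?_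
    have := (Zp p).mul_mem (half_mem (p := p) h2) (half_mem (p := p) h2)
    norm_num at this ⊢
    exact this
  unfold D.GamH0
  rcases le_or_gt 0 (i + 1) with h0 | h0
  · obtain ⟨n, hn⟩ := Int.eq_ofNat_of_zero_le h0
    rw [hn]
    refine bi_up_mem (M := n) (IntS p).one_mem ?_ ?_ (fun k _ => (IntS p).zero_mem) n le_rfl
    · intro k hk
      have e : (((k : ℤ) : ℚ) - 1 / 2 + 1) = ((k + 1 : ℤ) : ℚ) - 1 / 2 := by push_cast; ring
      show (pt (((k : ℤ) : ℚ) - 1 / 2 + 1) ^ 2)⁻¹ ∈ IntS p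
      rw [e]
      refine pt_pow_inv (half_int_mem h2 _) ?_ ?_ 2
      · have e2 : (((k + 1 : ℤ) : ℚ) - 1 / 2)⁻¹ = 2 * ((2 * k + 1 : ℤ) : ℚ)⁻¹ := by
          have h3 : ((2 * k + 1 : ℤ) : ℚ) ≠ 0 := by
            exact_mod_cast (by omega : (2 * (k : ℤ) + 1 : ℤ) ≠ 0)
          have h4 : (((k + 1 : ℤ) : ℚ) - 1 / 2) = ((2 * k + 1 : ℤ) : ℚ) / 2 := by push_cast; ring
          rw [h4, inv_div, div_eq_mul_inv]
        rw [e2]
        refine (Zp p).mul_mem (ofNat_mem _ 2) (inv_int_mem (not_dvd_of_lt (by omega) ?_))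
        rw [abs_of_nonneg (by omega)]; omega
      · have h3 : ((2 * k + 1 : ℤ) : ℚ) ≠ 0 := by
          exact_mod_cast (by omega : (2 * (k : ℤ) + 1 : ℤ) ≠ 0)
        push_cast at h3 ⊢
        intro h; apply h3; linear_combination 2 * h
    · intro k hk
      exact (IntS p).neg_mem ((IntS p).mul_mem h4
        ((IntS p).pow_mem (two_pt_mem (half_int_mem h2 _)) 2))
  · obtain ⟨n, hn⟩ : ∃ n : ℕ, i + 1 = -(n : ℤ) := ⟨(i + 1).natAbs, by omega⟩
    rw [hn]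
    refine bi_down_mem (M := n) (IntS p).one_mem ?_ ?_ (fun k _ _ => (IntS p).zero_mem) n le_rfl
    · intro k hk hkn
      have e : (2 * (((-(k : ℤ) : ℤ) : ℚ) - 1 / 2) + 1) = ((-(2 * k) : ℤ) : ℚ) := by
        push_cast; ring
      have hne : ((-(2 * k) : ℤ) : ℚ) ≠ 0 := by
        exact_mod_cast (by omega : (-(2 * (k : ℤ)) : ℤ) ≠ 0)
      have hinv : ((-(2 * k) : ℤ) : ℚ)⁻¹ ∈ Zp p := by
        refine inv_int_mem ?_
        intro hd
        have hd2 : (p : ℤ) ∣ 2 * k := (dvd_neg).mp hd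
        have hd3 : p ∣ 2 * k := by exact_mod_cast hd2
        rcases (Nat.Prime.dvd_mul hp.out).mp hd3 with h5 | h5
        · exact h2 ((Nat.prime_dvd_prime_iff_eq hp.out Nat.prime_two).mp h5)
        · have := Nat.le_of_dvd hk h5
          omega
      have hcc : PowerSeries.constantCoeff
          (2 * pt (((-(k : ℤ) : ℤ) : ℚ) - 1 / 2) + 1 : PowerSeries ℚ) = ((-(2 * k) : ℤ) : ℚ) := by
        rw [map_add, map_mul, constantCoeff_pt, constantCoeff_two, map_one, e]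
      refine inv_mem_IntS ((IntS p).neg_mem ((IntS p).mul_mem h4
        ((IntS p).pow_mem (two_pt_mem (half_int_mem h2 _)) 2))) ?_ ?_
      · rw [map_neg, map_mul, PowerSeries.constantCoeff_C, map_pow, hcc]
        have e5 : (-(1 / 4 * ((-(2 * k) : ℤ) : ℚ) ^ 2))⁻¹
            = -(4 * ((-(2 * k) : ℤ) : ℚ)⁻¹ ^ 2) := by
          field_simp
        rw [e5]
        exact (Zp p).neg_mem ((Zp p).mul_mem (ofNat_mem _ 4) ((Zp p).pow_mem hinv 2))
      · rw [map_neg, map_mul, PowerSeries.constantCoeff_C, map_pow, hcc]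
        exact neg_ne_zero.mpr (mul_ne_zero (by norm_num) (pow_ne_zero 2 hne))
    · intro k hk hkn
      have e : (((-(k : ℤ) : ℤ) : ℚ) - 1 / 2 + 1) = ((-(k : ℤ) + 1 : ℤ) : ℚ) - 1 / 2 := by
        push_cast; ring
      show pt (((-(k : ℤ) : ℤ) : ℚ) - 1 / 2 + 1) ^ 2 ∈ IntS p
      rw [e]
      exact (IntS p).pow_mem (pt_mem (half_int_mem h2 _)) 2

end Zp

end Crest.Agent.R006.Germ620
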