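import Mathlib
import Crest.Agent.R006.P4_LemL_255

/-!
Row 6 (Catalan), block P4, LEAF C (helper143): valuations at the nodes, for every prime `p ≥ 5`.

`O` commutative ring, `L : O[X] → O` the moment functional (key identity), `A` an `O`-algebra,
`ψ x : A` the node values, `Lam L x ψ G = G(x) ψ - L ((G(z) - G(x))/(z - x))`.

* `Lam_rec` : `x^3 Λ_x(e) + (2x-1)^3 Λ_{x-1}(e(z+1)) = L(e (x²+xz+z²)) + 2 L(e(z+1) (...))`.
* `step_up`, `step_down`, `chain_up`, `chain_down`, `gnodes`, `enodes`, `starnodes` : the invariant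
  `Inv` (polar: `p² ψ(x)` integral; regular: `Λ_x(e_c) ∈ p B` for EVERY class idempotent `e_c`)
  propagates along the chain `x_k = k + p w` (`w ∈ O` arbitrary: G-nodes `w = 0`, jets at `-m`:
  `w = η`, stars: `w = η - 1/2`).
* `LB_of_class` : the two facts used on `L` follow from 255's `class_version`.
-/

set_option autoImplicit false

namespace Crest.Agent.R006.NodeC143

open Polynomial

section dd
variable {O : Type*} [CommRing O]

/-- divided difference `(G(z) - G(x))/(z - x)` -/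
noncomputable def dd (x : O) (G : O[X]) : O[X] := G /ₘ (X - C x)

lemma dd_spec (x : O) (G : O[X]) : G = C (G.eval x) + (X - C x) * dd x G := by
  have h := modByMonic_add_div G (X - C x)
  rw [modByMonic_X_sub_C_eq_C_eval] at h
  exact h.symm

lemma dd_unique {x r : O} {G Q : O[X]} (h : G = C r + (X - C x) * Q) : dd x G = Q := by
  nontriviality O
  refine (div_modByMonic_unique (f := G) (g := X - C x) Q (C r) (monic_X_sub_C x) ⟨h.symm, ?_⟩).1
  rw [degree_X_sub_C]
  exact degree_C_le.trans_lt (by norm_num)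

lemma dd_add (x : O) (F G : O[X]) : dd x (F + G) = dd x F + dd x G := by
  apply dd_unique (r := F.eval x + G.eval x)
  conv_lhs => rw [dd_spec x F, dd_spec x G]
  rw [C_add]; ring

lemma dd_C_mul (x a : O) (F : O[X]) : dd x (C a * F) = C a * dd x F := by
  apply dd_unique (r := a * F.eval x)
  conv_lhs => rw [dd_spec x F]
  rw [C_mul]; ring

lemma dd_mul (x : O) (F G : O[X]) : dd x (F * G) = C (F.eval x) * dd x G + dd x F * G := by
  apply dd_unique (r := F.eval x * G.eval x)
  have h1 := dd_spec x F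
  have h2 := dd_spec x G
  have e1 : F * G = C (F.eval x) * G + (X - C x) * (dd x F * G) := by
    conv_lhs => rw [h1]
    ring
  rw [e1, C_mul]
  conv_lhs => rw [show C (F.eval x) * G = C (F.eval x) * (C (G.eval x) + (X - C x) * dd x G) by rw [← h2]]
  ring

/-- the shift `G(z+1)` -/
noncomputable def tau (G : O[X]) : O[X] := G.comp (X + 1)

lemma eval_tau (x : O) (G : O[X]) : (tau G).eval (x - 1) = G.eval x := by
  unfold tau
  rw [eval_comp]; simp

lemma tau_add (F G : O[X]) : tau (F + G) = tau F + tau G := by unfold tau; rw [add_comp]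
lemma tau_mul (F G : O[X]) : tau (F * G) = tau F * tau G := by unfold tau; rw [mul_comp]
lemma tau_C (a : O) : tau (C a) = C a := by unfold tau; rw [C_comp]
lemma tau_X : tau (X : O[X]) = X + 1 := by unfold tau; rw [X_comp]

lemma dd_tau (x : O) (G : O[X]) : dd (x - 1) (tau G) = tau (dd x G) := by
  apply dd_unique (r := G.eval x)
  conv_lhs => rw [dd_spec x G, tau_add, tau_mul, tau_C]
  have : tau (X - C x : O[X]) = X - C (x - 1) := by
    unfold tau; rw [sub_comp, X_comp, C_comp, C_sub, C_1]; ring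
  rw [this]

/-- the moment functional of `ψ_∞` -/
structure Mom (L : O[X] →ₗ[O] O) : Prop where
  key : ∀ P : O[X], L (X ^ 3 * P + (2 * X + 1) ^ 3 * tau P) = 0
  L0 : L 1 = 0
  L1 : 6 * L X = -1
  L2 : 54 * L (X ^ 2) = 7

/-- `x² + x z + z²` -/
noncomputable def q1 (x : O) : O[X] := C (x ^ 2) + C x * X + X ^ 2

/-- `(2x-1)² + (2x-1)(2z+1) + (2z+1)²` -/
noncomputable def q2 (x : O) : O[X] := C ((2 * x - 1) ^ 2) + C (2 * x - 1) * (2 * X + 1) + (2 * X + 1) ^ 2

lemma L_C_mul (L : O[X] →ₗ[O] O) (a : O) (P : O[X]) : L (C a * P) = a * L P := by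
  rw [← smul_eq_C_mul, map_smul, smul_eq_mul]

lemma kappa {L : O[X] →ₗ[O] O} (hL : Mom L) (h3 : IsUnit (3 : O)) (x : O) :
    2 * (L (q1 x) + 2 * L (q2 x)) = 1 - 3 * x := by
  have e1 : L (q1 x) = x * L X + L (X ^ 2) := by
    unfold q1
    rw [map_add, map_add, L_C_mul, show C (x ^ 2) = C (x ^ 2) * 1 by rw [mul_one], L_C_mul, hL.L0]
    ring
  have e2 : L (q2 x) = (2 * x - 1) * (2 * L X) + 4 * L (X ^ 2) + 4 * L X := by
    have : q2 x = C ((2 * x - 1) ^ 2 + (2 * x - 1) + 1) * 1 + C ((2 * x - 1) * 2 + 4) * X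
        + C 4 * X ^ 2 := by
      unfold q2
      simp only [C_add, C_mul, C_1, C_sub, C_pow]
      have h2 : (C (2 : O) : O[X]) = 2 := map_ofNat C 2
      have h4 : (C (4 : O) : O[X]) = 4 := map_ofNat C 4
      rw [h2, h4]; ring
    rw [this, map_add, map_add, L_C_mul, L_C_mul, L_C_mul, hL.L0]
    ring
  rw [e1, e2]
  have h3' : ∀ a b : O, 3 * a = 3 * b → a = b := fun a b h => h3.mul_left_cancel h
  apply h3'
  have l1 := hL.L1
  have l2 := hL.L2
  linear_combination (9 * x + 4) * l1 + l2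

end dd

section Lam

variable {O A : Type*} [CommRing O] [CommRing A] [Algebra O A]

/-- `Λ_x(G) = G(x) ψ - L ((G(z) - G(x))/(z - x))` -/
noncomputable def Lam (L : O[X] →ₗ[O] O) (x : O) (ψ : A) (G : O[X]) : A :=
  algebraMap O A (G.eval x) * ψ - algebraMap O A (L (dd x G))

/-- the recursion of the node values -/
def Rec (x : O) (ψ ψ' : A) : Prop :=
  2 * (algebraMap O A x ^ 3 * ψ + algebraMap O A (2 * x - 1) ^ 3 * ψ') = algebraMap O A (1 - 3 * x)

theorem Lam_rec {L : O[X] →ₗ[O] O} (hL : Mom L) (h2 : IsUnit (2 : O)) (h3 : IsUnit (3 : O))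
    {x : O} {ψ ψ' : A} (hψ : Rec x ψ ψ') (e : O[X]) :
    algebraMap O A x ^ 3 * Lam L x ψ e + algebraMap O A (2 * x - 1) ^ 3 * Lam L (x - 1) ψ' (tau e)
      = algebraMap O A (L (e * q1 x) + 2 * L (tau e * q2 x)) := by
  have hk := hL.key (dd x e)
  have hsp := dd_spec x e
  have hsp' : tau e = C (e.eval x) + (X - C (x - 1)) * tau (dd x e) := by
    have := dd_spec (x - 1) (tau e)
    rwa [dd_tau, eval_tau] at this
  have e1 : X ^ 3 * dd x e = C (x ^ 3) * dd x e + e * q1 x - C (e.eval x) * q1 x := by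
    have : e * q1 x - C (e.eval x) * q1 x = (X - C x) * dd x e * q1 x := by
      conv_lhs => rw [hsp]
      simp only [eval_add, eval_mul, eval_sub, eval_X, eval_C, sub_self, zero_mul, add_zero]
      ring
    rw [add_sub_assoc, this]
    unfold q1
    rw [C_pow, C_pow]; ring
  have e2 : (2 * X + 1) ^ 3 * tau (dd x e) = C ((2 * x - 1) ^ 3) * tau (dd x e)
      + C 2 * (tau e * q2 x) - C (2 * e.eval x) * q2 x := by
    have : C 2 * (tau e * q2 x) - C (2 * e.eval x) * q2 x
        = C 2 * ((X - C (x - 1)) * tau (dd x e) * q2 x) := by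
      rw [C_mul, hsp']
      generalize tau (dd x e) = T
      ring
    rw [add_sub_assoc, this]
    unfold q2
    simp only [C_pow, C_sub, C_mul, C_1]
    have h2 : (C (2 : O) : O[X]) = 2 := map_ofNat C 2
    rw [h2]; ring
  rw [e1, e2] at hk
  simp only [map_add, map_sub, L_C_mul] at hk
  have hk' := kappa hL h3 x
  have h2A : ∀ a b : A, 2 * a = 2 * b → a = b := by
    intro a b h
    have : IsUnit (2 : A) := by
      have := h2.map (algebraMap O A)
      rwa [map_ofNat] at this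
    exact this.mul_left_cancel h
  apply h2A
  unfold Lam
  rw [eval_tau, dd_tau]
  unfold Rec at hψ
  have hkA := congrArg (algebraMap O A) hk
  have hkA' := congrArg (algebraMap O A) hk'
  simp only [map_add, map_sub, map_mul, map_pow, map_zero, map_one, map_ofNat] at hkA hkA' hψ ⊢
  linear_combination (algebraMap O A (e.eval x)) * hψ - 2 * hkA - (algebraMap O A (e.eval x)) * hkA'

end Lam


section J

variable {O : Type*} [CommRing O]

/-- the ideal `(p, X - c)` of a residue class -/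
noncomputable def J (p : ℕ) (c : ℤ) : Ideal O[X] := Ideal.span {C (p : O), X - C (c : O)}

lemma C_p_mem_J (p : ℕ) (c : ℤ) : C (p : O) ∈ (J p c : Ideal O[X]) :=
  Ideal.subset_span (by simp)

lemma X_sub_mem_J (p : ℕ) (c : ℤ) : X - C (c : O) ∈ (J p c : Ideal O[X]) :=
  Ideal.subset_span (by simp)

lemma C_mul_mem_J (p : ℕ) (c : ℤ) (w : O) : C ((p : O) * w) ∈ (J p c : Ideal O[X]) := by
  rw [C_mul]; exact Ideal.mul_mem_right _ _ (C_p_mem_J p c)

lemma X_sub_mem_J' (p : ℕ) {c c' : ℤ} (h : (p : ℤ) ∣ c' - c) : X - C (c' : O) ∈ (J p c : Ideal O[X]) := by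
  obtain ⟨k, hk⟩ := h
  have : (X - C (c' : O) : O[X]) = (X - C (c : O)) - C ((p : O) * (k : O)) := by
    have : (c' : O) = c + p * k := by
      have : c' = c + p * k := by linarith
      rw [this]; push_cast; ring
    rw [this, C_add]; ring
  rw [this]
  exact Ideal.sub_mem _ (X_sub_mem_J p c) (C_mul_mem_J p c _)

lemma J_congr (p : ℕ) {c c' : ℤ} (h : (p : ℤ) ∣ c' - c) : (J p c' : Ideal O[X]) = J p c := by
  apply le_antisymm
  · apply Ideal.span_le.mpr
    rintro _ (rfl | rfl)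
    · exact C_p_mem_J p c
    · exact X_sub_mem_J' p h
  · apply Ideal.span_le.mpr
    rintro _ (rfl | rfl)
    · exact C_p_mem_J p c'
    · exact X_sub_mem_J' p (by rw [← Int.dvd_neg, neg_sub] at h; exact h)

/-- evaluation at a point of the class -/
lemma eval_mem_J {p : ℕ} {c : ℤ} {w : O} {F : O[X]} {n : ℕ} (hF : F ∈ (J p c : Ideal O[X]) ^ n) :
    (p : O) ^ n ∣ F.eval ((c : O) + p * w) := by
  have h1 : Ideal.map (evalRingHom ((c : O) + p * w)) (J p c : Ideal O[X]) ≤ Ideal.span {(p : O)} := by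
    rw [J, Ideal.map_span, Ideal.span_le]
    rintro _ ⟨q, (rfl | rfl), rfl⟩
    · simp only [coe_evalRingHom, eval_C]; exact Ideal.mem_span_singleton_self _
    · simp only [coe_evalRingHom, eval_sub, eval_X, eval_C, add_sub_cancel_left]
      exact Ideal.mem_span_singleton.mpr (Dvd.intro _ rfl)
  have h2 : (evalRingHom ((c : O) + p * w)) F ∈ Ideal.span {(p : O)} ^ n := by
    have h3 := Ideal.mem_map_of_mem (evalRingHom ((c : O) + p * w)) hF
    rw [Ideal.map_pow] at h3
    exact Ideal.pow_right_mono h1 n h3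
  rw [Ideal.span_singleton_pow, Ideal.mem_span_singleton] at h2
  simpa using h2

/-- translation by an integer -/
lemma comp_mem_J {p : ℕ} {c a : ℤ} {F : O[X]} {n : ℕ} (hF : F ∈ (J p c : Ideal O[X]) ^ n) :
    F.comp (X + C (a : O)) ∈ (J p (c - a) : Ideal O[X]) ^ n := by
  have h1 : Ideal.map (compRingHom (X + C (a : O))) (J p c : Ideal O[X]) ≤ J p (c - a) := by
    rw [J, Ideal.map_span, Ideal.span_le]
    rintro _ ⟨q, (rfl | rfl), rfl⟩
    · simp only [coe_compRingHom, C_comp]; exact C_p_mem_J p _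
    · simp only [coe_compRingHom, sub_comp, X_comp, C_comp]
      have : (X + C (a : O) - C (c : O) : O[X]) = X - C ((c - a : ℤ) : O) := by
        push_cast; rw [C_sub]; ring
      rw [this]; exact X_sub_mem_J p _
  have h3 := Ideal.mem_map_of_mem (compRingHom (X + C (a : O))) hF
  rw [Ideal.map_pow] at h3
  exact Ideal.pow_right_mono h1 n h3

/-- `e` is a class idempotent (mod the `N`-th powers) of the class `c` -/
def Conc (p N : ℕ) (c : ℤ) (e : O[X]) : Prop :=
  1 - e ∈ (J p c : Ideal O[X]) ^ N ∧ ∀ c' : ℤ, ¬ (p : ℤ) ∣ c' - c → e ∈ (J p c' : Ideal O[X]) ^ N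

lemma Conc.tau {p N : ℕ} {c : ℤ} {e : O[X]} (h : Conc p N c e) : Conc p N (c - 1) (tau e) := by
  have ht : ∀ G : O[X], NodeC143.tau G = G.comp (X + C ((1 : ℤ) : O)) := by
    intro G; unfold NodeC143.tau; simp
  constructor
  · have := comp_mem_J (a := 1) h.1
    rw [sub_comp, one_comp] at this
    rw [ht]; exact this
  · intro c' hc'
    have h1 := h.2 (c' + 1) (by
      have : c' + 1 - c = c' - (c - 1) := by ring
      rwa [this])
    have := comp_mem_J (a := 1) h1
    rw [add_sub_cancel_right] at this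
    rw [ht]; exact this

lemma Conc.untau {p N : ℕ} {c : ℤ} {e : O[X]} (h : Conc p N (c - 1) e) :
    ∃ e' : O[X], Conc p N c e' ∧ NodeC143.tau e' = e := by
  refine ⟨e.comp (X + C ((-1 : ℤ) : O)), ⟨?_, ?_⟩, ?_⟩
  · have := comp_mem_J (a := -1) h.1
    rw [sub_comp, one_comp] at this
    have e1 : c - 1 - -1 = c := by ring
    rwa [e1] at this
  · intro c' hc'
    have h1 := h.2 (c' - 1) (by
      have : c' - 1 - (c - 1) = c' - c := by ring
      rwa [this])
    have := comp_mem_J (a := -1) h1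
    have e1 : c' - 1 - -1 = c' := by ring
    rwa [e1] at this
  · unfold NodeC143.tau
    rw [comp_assoc]
    simp

lemma Conc.eval {p N : ℕ} {c : ℤ} {e : O[X]} (h : Conc p N c e) (hN : 0 < N) (w : O) :
    ∃ v : O, e.eval ((c : O) + p * w) = ((1 : ℤ) : O) + p * v := by
  obtain ⟨v, hv⟩ := eval_mem_J (w := w) h.1
  obtain ⟨n, rfl⟩ := Nat.exists_eq_succ_of_ne_zero hN.ne'
  refine ⟨-((p : O) ^ n * v), ?_⟩
  rw [eval_sub, eval_one] at hv
  rw [pow_succ] at hv
  push_cast
  linear_combination -hv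

end J

section Step

variable {O A : Type*} [CommRing O] [CommRing A] [Algebra O A]

/-- the two facts on `L` which are used (consequences of Lemma L) -/
structure LB (p N : ℕ) (L : O[X] →ₗ[O] O) : Prop where
  sq : ∀ (c : ℤ) (F : O[X]), F ∈ (J p c : Ideal O[X]) ^ 2 →
    (∀ c' : ℤ, ¬ (p : ℤ) ∣ c' - c → F ∈ (J p c' : Ideal O[X]) ^ N) → (p : O) ∣ L F
  reg : ∀ (c : ℤ) (F : O[X]), (p : ℤ) < 2 * (c % p) →
    (∀ c' : ℤ, ¬ (p : ℤ) ∣ c' - c → F ∈ (J p c' : Ideal O[X]) ^ N) → (p : O) ∣ L F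
  ex : ∀ c : ℤ, ∃ e : O[X], Conc p N c e

/-- all integers prime to `p`, plus `p O`, are units of `O` -/
def Un (p : ℕ) (O : Type*) [CommRing O] : Prop :=
  ∀ (m : ℤ) (w : O), ¬ (p : ℤ) ∣ m → IsUnit ((m : O) + p * w)

/-- The invariant of a node `x = c + p w`. -/
def Inv (B : Subalgebra O A) (p N : ℕ) (L : O[X] →ₗ[O] O) (x : O) (c : ℤ) (ψ : A) : Prop :=
  (2 * (c % p) < p → (p : A) ^ 2 * ψ ∈ B) ∧
  ((p : ℤ) < 2 * (c % p) → ∀ e : O[X], Conc p N c e → ∃ b ∈ B, Lam L x ψ e = (p : A) * b)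

variable {B : Subalgebra O A} {p N : ℕ} {L : O[X] →ₗ[O] O}

lemma map_mem (B : Subalgebra O A) (o : O) : algebraMap O A o ∈ B := B.algebraMap_mem o

lemma mem_of_unit_mul {u : O} (hu : IsUnit u) {a : A} (h : algebraMap O A u * a ∈ B) : a ∈ B := by
  obtain ⟨v, rfl⟩ := hu
  have : a = algebraMap O A (↑v⁻¹ : O) * (algebraMap O A (v : O) * a) := by
    rw [← mul_assoc, ← map_mul]; simp
  rw [this]
  exact B.mul_mem (map_mem B _) h

/-- `p^2 Λ_x(e)` is integral if `p^2 ψ` is. -/
lemma Lam_polar {x : O} {ψ : A} (h : (p : A) ^ 2 * ψ ∈ B) (e : O[X]) :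
    (p : A) ^ 2 * Lam L x ψ e ∈ B := by
  unfold Lam
  have : (p : A) ^ 2 * (algebraMap O A (e.eval x) * ψ - algebraMap O A (L (dd x e)))
      = algebraMap O A (e.eval x) * ((p : A) ^ 2 * ψ) - algebraMap O A ((p : O) ^ 2 * L (dd x e)) := by
    rw [map_mul, map_pow, map_natCast]; ring
  rw [this]
  exact B.sub_mem (B.mul_mem (map_mem B _) h) (map_mem B _)

/-- conversely -/
lemma polar_of_Lam (hU : Un p O) (hN : 0 < N) (hp1 : 1 < p) {c : ℤ} {w : O} {ψ : A} {e : O[X]}
    (he : Conc p N c e)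
    (h : (p : A) ^ 2 * Lam L ((c : O) + p * w) ψ e ∈ B) : (p : A) ^ 2 * ψ ∈ B := by
  obtain ⟨v, hv⟩ := he.eval hN w
  have hu : IsUnit (e.eval ((c : O) + p * w)) := by
    rw [hv]
    exact hU 1 v (by
      intro hd
      have := Int.le_of_dvd one_pos hd
      omega)
  apply mem_of_unit_mul hu
  have : algebraMap O A (e.eval ((c : O) + p * w)) * ((p : A) ^ 2 * ψ)
      = (p : A) ^ 2 * Lam L ((c : O) + p * w) ψ e
        + algebraMap O A ((p : O) ^ 2 * L (dd ((c : O) + p * w) e)) := by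
    unfold Lam
    rw [map_mul, map_pow, map_natCast]; ring
  rw [this]
  exact B.add_mem h (map_mem B _)

/-- at a regular node `ψ` itself is integral -/
lemma integral_of_Lam (hU : Un p O) (hN : 0 < N) (hp1 : 1 < p) {c : ℤ} {w : O} {ψ : A} {e : O[X]}
    (he : Conc p N c e) {b : A} (hb : b ∈ B)
    (h : Lam L ((c : O) + p * w) ψ e = (p : A) * b) : ψ ∈ B := by
  obtain ⟨v, hv⟩ := he.eval hN w
  have hu : IsUnit (e.eval ((c : O) + p * w)) := by
    rw [hv]
    exact hU 1 v (by
      intro hd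
      have := Int.le_of_dvd one_pos hd
      omega)
  apply mem_of_unit_mul hu
  have : algebraMap O A (e.eval ((c : O) + p * w)) * ψ
      = algebraMap O A (p : O) * b + algebraMap O A (L (dd ((c : O) + p * w) e)) := by
    rw [map_natCast, ← h]
    unfold Lam; ring
  rw [this]
  exact B.add_mem (B.mul_mem (map_mem B _) hb) (map_mem B _)

lemma q1_mem {c : ℤ} (hc : (p : ℤ) ∣ c) (w : O) :
    q1 ((c : O) + p * w) ∈ (J p c : Ideal O[X]) ^ 2 := by
  obtain ⟨k, rfl⟩ := hc
  have hx : C ((((p : ℤ) * k : ℤ) : O) + p * w) ∈ (J p (p * k) : Ideal O[X]) := by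
    have : ((((p : ℤ) * k : ℤ) : O) + p * w) = (p : O) * (k + w) := by push_cast; ring
    rw [this]; exact C_mul_mem_J p _ _
  have hX : (X : O[X]) ∈ (J p (p * k) : Ideal O[X]) := by
    have h1 := X_sub_mem_J (O := O) p (p * k)
    have h2 : C (((p * k : ℤ)) : O) ∈ (J p (p * k) : Ideal O[X]) := by
      have : (((p * k : ℤ)) : O) = (p : O) * k := by push_cast; ring
      rw [this]; exact C_mul_mem_J p _ _
    have := Ideal.add_mem _ h1 h2
    simpa using this
  unfold q1
  rw [C_pow]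
  refine Ideal.add_mem _ (Ideal.add_mem _ (Ideal.pow_mem_pow hx 2) ?_) (Ideal.pow_mem_pow hX 2)
  rw [sq]; exact Ideal.mul_mem_mul hx hX

lemma q2_mem {c : ℤ} (hc : (p : ℤ) ∣ 2 * c - 1) (w : O) :
    q2 ((c : O) + p * w) ∈ (J p (c - 1) : Ideal O[X]) ^ 2 := by
  obtain ⟨k, hk⟩ := hc
  have hx : C (2 * ((c : O) + p * w) - 1) ∈ (J p (c - 1) : Ideal O[X]) := by
    have : (2 * ((c : O) + p * w) - 1) = (p : O) * (k + 2 * w) := by
      have h1 : ((2 * c - 1 : ℤ) : O) = ((p * k : ℤ) : O) := by rw [hk]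
      push_cast at h1
      linear_combination h1
    rw [this]; exact C_mul_mem_J p _ _
  have hX : (2 * X + 1 : O[X]) ∈ (J p (c - 1) : Ideal O[X]) := by
    have h1 := X_sub_mem_J (O := O) p (c - 1)
    have h2 : C ((p : O) * k) ∈ (J p (c - 1) : Ideal O[X]) := C_mul_mem_J p _ _
    have h3 := Ideal.add_mem _ (Ideal.mul_mem_left _ 2 h1) h2
    have : (2 * X + 1 : O[X]) = 2 * (X - C (((c - 1 : ℤ)) : O)) + C ((p : O) * k) := by
      have h1 : ((2 * c - 1 : ℤ) : O) = ((p * k : ℤ) : O) := by rw [hk]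
      push_cast at h1
      rw [← h1]
      push_cast
      simp only [C_sub, C_mul, C_1]
      have h2 : (C (2 : O) : O[X]) = 2 := map_ofNat C 2
      rw [h2]; ring
    rw [this]; exact h3
  unfold q2
  rw [C_pow]
  refine Ideal.add_mem _ (Ideal.add_mem _ (Ideal.pow_mem_pow hx 2) ?_) (Ideal.pow_mem_pow hX 2)
  rw [sq]; exact Ideal.mul_mem_mul hx hX

/-- the right hand side of `Lam_rec` is in `p O` unless both classes are polar -/
lemma rhs_dvd (hLB : LB p N L) (hodd : p % 2 = 1) (hp1 : 1 < p) {c : ℤ} (w : O)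
    (hc : (p : ℤ) < 2 * (c % p) ∨ (p : ℤ) ∣ c) {e : O[X]} (he : Conc p N c e) :
    (p : O) ∣ L (e * q1 ((c : O) + p * w)) + 2 * L (tau e * q2 ((c : O) + p * w)) := by
  have hpZ : (0 : ℤ) < p := by exact_mod_cast (by omega : 0 < p)
  have hr0 := Int.emod_nonneg c hpZ.ne'
  have hr1 := Int.emod_lt_of_pos c hpZ
  have hdm := Int.emod_add_mul_ediv c p
  have h1 : (p : O) ∣ L (e * q1 ((c : O) + p * w)) := by
    rcases hc with hc | hc
    · exact hLB.reg c _ hc (fun c' hc' => Ideal.mul_mem_right _ _ (he.2 c' hc'))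
    · exact hLB.sq c _ (Ideal.mul_mem_left _ _ (q1_mem hc w))
        (fun c' hc' => Ideal.mul_mem_right _ _ (he.2 c' hc'))
  have h2 : (p : O) ∣ L (tau e * q2 ((c : O) + p * w)) := by
    by_cases hh : (p : ℤ) ∣ 2 * c - 1
    · exact hLB.sq (c - 1) _ (Ideal.mul_mem_left _ _ (q2_mem hh w))
        (fun c' hc' => Ideal.mul_mem_right _ _ (he.tau.2 c' hc'))
    · refine hLB.reg (c - 1) _ ?_ (fun c' hc' => Ideal.mul_mem_right _ _ (he.tau.2 c' hc'))
      -- residue of c - 1
      rcases hc with hc | hc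
      · have hne : 2 * (c % p) ≠ p + 1 := by
          intro h
          apply hh
          have : 2 * c - 1 = p * (1 + 2 * (c / p)) := by linear_combination h - 2 * hdm
          rw [this]; exact Dvd.intro _ rfl
        have : (c - 1) % p = c % p - 1 := by
          have h3 : c - 1 = (c % p - 1) + p * (c / p) := by linear_combination -hdm
          rw [h3, Int.add_mul_emod_self_left, Int.emod_eq_of_lt (by omega) (by omega)]
          
        rw [this]; omega
      · have h0 : c % p = 0 := Int.emod_eq_zero_of_dvd hc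
        have : (c - 1) % p = p - 1 := by
          have h3 : c - 1 = (p - 1) + p * (c / p - 1) := by rw [h0] at hdm; linear_combination -hdm
          rw [h3, Int.add_mul_emod_self_left, Int.emod_eq_of_lt (by omega) (by omega)]
        rw [this]; omega
  exact dvd_add h1 (Dvd.dvd.mul_left h2 2)


lemma unit_of_class (hU : Un p O) {c : ℤ} {w : O} (h : ¬ (p : ℤ) ∣ c) :
    IsUnit ((c : O) + p * w) := hU c w h

lemma unit_of_class2 (hU : Un p O) {c : ℤ} {w : O} (h : ¬ (p : ℤ) ∣ 2 * c - 1) :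
    IsUnit (2 * ((c : O) + p * w) - 1) := by
  have := hU (2 * c - 1) (2 * w) h
  have e : 2 * ((c : O) + p * w) - 1 = ((2 * c - 1 : ℤ) : O) + p * (2 * w) := by push_cast; ring
  rwa [e]

lemma emod_pred {c p : ℤ} (h0 : 0 < c % p) (h1 : 0 < p) : (c - 1) % p = c % p - 1 := by
  have hr1 := Int.emod_lt_of_pos c h1
  have hdm := Int.emod_add_mul_ediv c p
  have h3 : c - 1 = (c % p - 1) + p * (c / p) := by linear_combination -hdm
  rw [h3, Int.add_mul_emod_self_left, Int.emod_eq_of_lt (by omega) (by omega)]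

lemma emod_pred0 {c p : ℤ} (h0 : c % p = 0) (h1 : 1 < p) : (c - 1) % p = p - 1 := by
  have hdm := Int.emod_add_mul_ediv c p
  have h3 : c - 1 = (p - 1) + p * (c / p - 1) := by rw [h0] at hdm; linear_combination -hdm
  rw [h3, Int.add_mul_emod_self_left, Int.emod_eq_of_lt (by omega) (by omega)]

lemma dvd_two_sub_one_iff {c p : ℤ} (hodd : p % 2 = 1) (h1 : 1 < p) :
    p ∣ 2 * c - 1 ↔ 2 * (c % p) = p + 1 := by
  have hr0 := Int.emod_nonneg c (by omega : p ≠ 0)
  have hr1 := Int.emod_lt_of_pos c (by omega : 0 < p)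
  have hdm := Int.emod_add_mul_ediv c p
  constructor
  · intro h
    have h2 : p ∣ 2 * (c % p) - 1 := by
      have : 2 * (c % p) - 1 = (2 * c - 1) - p * (2 * (c / p)) := by linear_combination 2 * hdm
      rw [this]; exact dvd_sub h (Dvd.intro _ rfl)
    obtain ⟨k, hk⟩ := h2
    have hk0 : 0 < k ∨ k ≤ 0 := by omega
    rcases hk0 with hk0 | hk0
    · have hk2 : k < 2 := by
        by_contra hcon
        have : p * 2 ≤ p * k := by apply mul_le_mul_of_nonneg_left <;> omega
        omega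
      have : k = 1 := by omega
      rw [this] at hk; omega
    · have : p * k ≤ 0 := mul_nonpos_of_nonneg_of_nonpos (by omega) hk0
      have hk' : k = 0 ∨ k < 0 := by omega
      rcases hk' with hk' | hk'
      · rw [hk'] at hk; omega
      · have : p * k ≤ p * (-1) := by apply mul_le_mul_of_nonneg_left <;> omega
        omega
  · intro h
    have : 2 * c - 1 = p * (1 + 2 * (c / p)) := by linear_combination h - 2 * hdm
    rw [this]; exact Dvd.intro _ rfl

/-- **One step up.** -/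
theorem step_up (hL : Mom L) (h2 : IsUnit (2 : O)) (h3 : IsUnit (3 : O)) (hLB : LB p N L)
    (hU : Un p O) (hodd : p % 2 = 1) (hp1 : 1 < p) (hN : 0 < N) (hpA : IsUnit (p : A))
    {c : ℤ} {w : O} {x : O} (hx : x = (c : O) + p * w) {ψ ψ' : A}
    (hrec : Rec x ψ ψ') (hinv : Inv B p N L (x - 1) (c - 1) ψ')
    (h0 : (p : ℤ) ∣ c → ∃ u : O, IsUnit u ∧ x = p * u) :
    Inv B p N L x c ψ := by
  have hpZ : (1 : ℤ) < p := by exact_mod_cast hp1
  have hoddZ : (p : ℤ) % 2 = 1 := by omega
  have hr0 := Int.emod_nonneg c (by omega : (p : ℤ) ≠ 0)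
  have hr1 := Int.emod_lt_of_pos c (by omega : (0 : ℤ) < p)
  have hx1 : x - 1 = ((c - 1 : ℤ) : O) + p * w := by rw [hx]; push_cast; ring
  constructor
  · intro hpol
    by_cases hc0 : c % p = 0
    · -- class 0, from class p - 1
      have hdvd : (p : ℤ) ∣ c := Int.dvd_of_emod_eq_zero hc0
      obtain ⟨u, hu, hxu⟩ := h0 hdvd
      obtain ⟨e, he⟩ := hLB.ex c
      have hreg : (p : ℤ) < 2 * ((c - 1) % p) := by rw [emod_pred0 hc0 hpZ]; omega
      obtain ⟨b, hb, hbL⟩ := hinv.2 hreg _ he.tau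
      have hR := Lam_rec hL h2 h3 hrec e
      obtain ⟨r, hr⟩ := rhs_dvd hLB hodd hp1 w (Or.inr hdvd) he
      rw [← hx] at hr
      rw [hr, hbL] at hR
      -- p^3 u^3 Lam = p * (..)
      have hkey : algebraMap O A (u ^ 3) * ((p : A) ^ 2 * Lam L x ψ e)
          = algebraMap O A r - algebraMap O A (2 * x - 1) ^ 3 * b := by
        have h4 : (p : A) * (algebraMap O A (u ^ 3) * ((p : A) ^ 2 * Lam L x ψ e))
            = (p : A) * (algebraMap O A r - algebraMap O A (2 * x - 1) ^ 3 * b) := by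
          have hxA : algebraMap O A x = (p : A) * algebraMap O A u := by
            rw [hxu, map_mul, map_natCast]
          rw [hxA, map_mul, map_natCast] at hR
          rw [map_pow]
          linear_combination hR
        exact hpA.mul_left_cancel h4
      have hmem : (p : A) ^ 2 * Lam L x ψ e ∈ B := by
        apply mem_of_unit_mul (hu.pow 3)
        rw [hkey, ← map_pow]
        exact B.sub_mem (map_mem B _) (B.mul_mem (map_mem B _) hb)
      rw [hx] at hmem
      exact polar_of_Lam hU hN hp1 he hmem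
    · have hpos : 0 < c % p := by omega
      have hpr := emod_pred hpos (by omega : (0 : ℤ) < p)
      have hψ' : (p : A) ^ 2 * ψ' ∈ B := hinv.1 (by rw [hpr]; omega)
      have hnd : ¬ (p : ℤ) ∣ c := fun h => hc0 (Int.emod_eq_zero_of_dvd h)
      have hux : IsUnit (2 * x ^ 3) := by
        rw [hx]; exact h2.mul ((hU c w hnd).pow 3)
      apply mem_of_unit_mul hux
      unfold Rec at hrec
      have : algebraMap O A (2 * x ^ 3) * ((p : A) ^ 2 * ψ)
          = algebraMap O A ((p : O) ^ 2 * (1 - 3 * x))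
            - algebraMap O A (2 * (2 * x - 1) ^ 3) * ((p : A) ^ 2 * ψ') := by
        simp only [map_mul, map_pow, map_natCast, map_ofNat] at hrec ⊢
        linear_combination (p : A) ^ 2 * hrec
      rw [this]
      exact B.sub_mem (map_mem B _) (B.mul_mem (map_mem B _) hψ')
  · intro hreg e he
    have hpos : 0 < c % p := by omega
    have hpr := emod_pred hpos (by omega : (0 : ℤ) < p)
    have hnd : ¬ (p : ℤ) ∣ c := fun h => by
      have := Int.emod_eq_zero_of_dvd h; omega
    have hR := Lam_rec hL h2 h3 hrec e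
    obtain ⟨r, hr⟩ := rhs_dvd hLB hodd hp1 w (Or.inl hreg) he
    rw [← hx] at hr
    have hux : IsUnit x := by rw [hx]; exact hU c w hnd
    -- the transported term is in p B
    have htr : ∃ b ∈ B, algebraMap O A (2 * x - 1) ^ 3 * Lam L (x - 1) ψ' (tau e) = (p : A) * b := by
      by_cases hcr : 2 * (c % p) = p + 1
      · have hdv : (p : ℤ) ∣ 2 * c - 1 := (dvd_two_sub_one_iff hoddZ hpZ).mpr hcr
        obtain ⟨k, hk⟩ := hdv
        have h2x : 2 * x - 1 = (p : O) * (k + 2 * w) := by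
          have h1 : ((2 * c - 1 : ℤ) : O) = ((p * k : ℤ) : O) := by rw [hk]
          push_cast at h1
          rw [hx]; linear_combination h1
        have hψ' : (p : A) ^ 2 * ψ' ∈ B := hinv.1 (by rw [hpr]; omega)
        refine ⟨algebraMap O A ((k + 2 * w) ^ 3) * ((p : A) ^ 2 * Lam L (x - 1) ψ' (tau e)),
          B.mul_mem (map_mem B _) (Lam_polar hψ' _), ?_⟩
        rw [h2x, map_mul, map_natCast, map_pow]; ring
      · obtain ⟨b, hb, hbL⟩ := hinv.2 (by rw [hpr]; omega) _ he.tau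
        refine ⟨algebraMap O A (2 * x - 1) ^ 3 * b, ?_, by rw [hbL]; ring⟩
        rw [← map_pow]; exact B.mul_mem (map_mem B _) hb
    obtain ⟨b, hb, hbt⟩ := htr
    rw [hbt, hr] at hR
    obtain ⟨v, hv⟩ := hux
    refine ⟨algebraMap O A ((↑v⁻¹ : O) ^ 3) * (algebraMap O A r - b),
      B.mul_mem (map_mem B _) (B.sub_mem (map_mem B _) hb), ?_⟩
    have hxx : algebraMap O A (↑v⁻¹ : O) * algebraMap O A x = 1 := by
      rw [← map_mul, ← hv]; simp
    have hxx3 : algebraMap O A (↑v⁻¹ : O) ^ 3 * algebraMap O A x ^ 3 = 1 := by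
      rw [← mul_pow, hxx, one_pow]
    rw [map_mul, map_natCast] at hR
    rw [map_pow]
    linear_combination (algebraMap O A (↑v⁻¹ : O)) ^ 3 * hR - Lam L x ψ e * hxx3

/-- **One step down.** -/
theorem step_down (hL : Mom L) (h2 : IsUnit (2 : O)) (h3 : IsUnit (3 : O)) (hLB : LB p N L)
    (hU : Un p O) (hodd : p % 2 = 1) (hp1 : 1 < p) (hN : 0 < N) (hpA : IsUnit (p : A))
    {c : ℤ} {w : O} {x : O} (hx : x = (c : O) + p * w) {ψ ψ' : A}
    (hrec : Rec x ψ ψ') (hinv : Inv B p N L x c ψ)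
    (h0 : (p : ℤ) ∣ 2 * c - 1 → ∃ u : O, IsUnit u ∧ 2 * x - 1 = p * u) :
    Inv B p N L (x - 1) (c - 1) ψ' := by
  have hpZ : (1 : ℤ) < p := by exact_mod_cast hp1
  have hoddZ : (p : ℤ) % 2 = 1 := by omega
  have hr0 := Int.emod_nonneg c (by omega : (p : ℤ) ≠ 0)
  have hr1 := Int.emod_lt_of_pos c (by omega : (0 : ℤ) < p)
  have hx1 : x - 1 = ((c - 1 : ℤ) : O) + p * w := by rw [hx]; push_cast; ring
  constructor
  · intro hpol
    have hc0 : c % p ≠ 0 := by
      intro h
      rw [emod_pred0 h hpZ] at hpol; omega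
    have hpos : 0 < c % p := by omega
    have hpr := emod_pred hpos (by omega : (0 : ℤ) < p)
    rw [hpr] at hpol
    by_cases hcr : 2 * (c % p) = p + 1
    · -- crossing
      have hdv : (p : ℤ) ∣ 2 * c - 1 := (dvd_two_sub_one_iff hoddZ hpZ).mpr hcr
      obtain ⟨u, hu, hxu⟩ := h0 hdv
      obtain ⟨e, he⟩ := hLB.ex c
      have hreg : (p : ℤ) < 2 * (c % p) := by omega
      obtain ⟨b, hb, hbL⟩ := hinv.2 hreg _ he
      have hR := Lam_rec hL h2 h3 hrec e
      obtain ⟨r, hr⟩ := rhs_dvd hLB hodd hp1 w (Or.inl hreg) he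
      rw [← hx] at hr
      rw [hr, hbL] at hR
      have hkey : algebraMap O A (u ^ 3) * ((p : A) ^ 2 * Lam L (x - 1) ψ' (tau e))
          = algebraMap O A r - algebraMap O A x ^ 3 * b := by
        have h4 : (p : A) * (algebraMap O A (u ^ 3) * ((p : A) ^ 2 * Lam L (x - 1) ψ' (tau e)))
            = (p : A) * (algebraMap O A r - algebraMap O A x ^ 3 * b) := by
          have hxA : algebraMap O A (2 * x - 1) = (p : A) * algebraMap O A u := by
            rw [hxu, map_mul, map_natCast]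
          rw [hxA, map_mul, map_natCast] at hR
          rw [map_pow]
          linear_combination hR
        exact hpA.mul_left_cancel h4
      have hmem : (p : A) ^ 2 * Lam L (x - 1) ψ' (tau e) ∈ B := by
        apply mem_of_unit_mul (hu.pow 3)
        rw [hkey, ← map_pow]
        exact B.sub_mem (map_mem B _) (B.mul_mem (map_mem B _) hb)
      rw [hx1] at hmem
      exact polar_of_Lam hU hN hp1 he.tau hmem
    · have hψ : (p : A) ^ 2 * ψ ∈ B := hinv.1 (by omega)
      have hnd : ¬ (p : ℤ) ∣ 2 * c - 1 := fun h => hcr ((dvd_two_sub_one_iff hoddZ hpZ).mp h)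
      have hux : IsUnit (2 * (2 * x - 1) ^ 3) := by
        rw [hx]; exact h2.mul ((unit_of_class2 hU hnd).pow 3)
      apply mem_of_unit_mul hux
      unfold Rec at hrec
      have : algebraMap O A (2 * (2 * x - 1) ^ 3) * ((p : A) ^ 2 * ψ')
          = algebraMap O A ((p : O) ^ 2 * (1 - 3 * x))
            - algebraMap O A (2 * x ^ 3) * ((p : A) ^ 2 * ψ) := by
        simp only [map_mul, map_pow, map_natCast, map_ofNat] at hrec ⊢
        linear_combination (p : A) ^ 2 * hrec
      rw [this]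
      exact B.sub_mem (map_mem B _) (B.mul_mem (map_mem B _) hψ)
  · intro hreg e' he'
    obtain ⟨e, he, rfl⟩ := he'.untau
    have hR := Lam_rec hL h2 h3 hrec e
    -- c is regular or class 0
    have hc : (p : ℤ) < 2 * (c % p) ∨ (p : ℤ) ∣ c := by
      by_cases h : c % p = 0
      · exact Or.inr (Int.dvd_of_emod_eq_zero h)
      · left
        rw [emod_pred (by omega) (by omega : (0 : ℤ) < p)] at hreg; omega
    obtain ⟨r, hr⟩ := rhs_dvd hLB hodd hp1 w hc he
    rw [← hx] at hr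
    have hnd : ¬ (p : ℤ) ∣ 2 * c - 1 := fun h => by
      have h5 := (dvd_two_sub_one_iff hoddZ hpZ).mp h
      rw [emod_pred (by omega) (by omega : (0 : ℤ) < p)] at hreg
      omega
    have hux : IsUnit (2 * x - 1) := by rw [hx]; exact unit_of_class2 hU hnd
    have htr : ∃ b ∈ B, algebraMap O A x ^ 3 * Lam L x ψ e = (p : A) * b := by
      rcases hc with hc | hc
      · obtain ⟨b, hb, hbL⟩ := hinv.2 hc _ he
        refine ⟨algebraMap O A x ^ 3 * b, ?_, by rw [hbL]; ring⟩
        rw [← map_pow]; exact B.mul_mem (map_mem B _) hb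
      · have hψ : (p : A) ^ 2 * ψ ∈ B := hinv.1 (by rw [Int.emod_eq_zero_of_dvd hc]; omega)
        obtain ⟨k, hk⟩ := hc
        have hxk : x = (p : O) * (k + w) := by rw [hx, hk]; push_cast; ring
        refine ⟨algebraMap O A ((k + w) ^ 3) * ((p : A) ^ 2 * Lam L x ψ e),
          B.mul_mem (map_mem B _) (Lam_polar hψ _), ?_⟩
        have hxA : algebraMap O A x = (p : A) * algebraMap O A (k + w) := by
          rw [← map_natCast (algebraMap O A) p, ← map_mul, ← hxk]
        rw [hxA, map_pow]; ring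
    obtain ⟨b, hb, hbt⟩ := htr
    rw [hbt, hr] at hR
    obtain ⟨v, hv⟩ := hux
    refine ⟨algebraMap O A ((↑v⁻¹ : O) ^ 3) * (algebraMap O A r - b),
      B.mul_mem (map_mem B _) (B.sub_mem (map_mem B _) hb), ?_⟩
    have hxx : algebraMap O A (↑v⁻¹ : O) * algebraMap O A (2 * x - 1) = 1 := by
      rw [← map_mul, ← hv]; simp
    have hxx3 : algebraMap O A (↑v⁻¹ : O) ^ 3 * algebraMap O A (2 * x - 1) ^ 3 = 1 := by
      rw [← mul_pow, hxx, one_pow]
    rw [map_mul, map_natCast] at hR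
    rw [map_pow]
    linear_combination (algebraMap O A (↑v⁻¹ : O)) ^ 3 * hR - Lam L (x - 1) ψ' (tau e) * hxx3


/-! ### The two facts from 255's class version -/

lemma J_nat (p r : ℕ) : (J p (r : ℤ) : Ideal O[X]) = LemL255.J O p r := by
  unfold J LemL255.J
  rw [Int.cast_natCast]

lemma J_mod (p : ℕ) (hp : 0 < p) (c : ℤ) :
    (J p c : Ideal O[X]) = LemL255.J O p (c % p).toNat := by
  have h0 := Int.emod_nonneg c (by omega : (p : ℤ) ≠ 0)
  rw [← J_nat, Int.toNat_of_nonneg h0]
  apply J_congr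
  exact ⟨c / p, by linear_combination -(Int.emod_add_mul_ediv c p)⟩

theorem LB_of_class [hp : Fact p.Prime] (hodd : Odd p) (h2 : IsUnit (2 : O)) (h3 : IsUnit (3 : O))
    (hu : ∀ a : ℕ, 0 < a → a < p → IsUnit (a : O)) {L : O[X] →ₗ[O] O} (hL : LemL255.IsMom L)
    {N : ℕ} (hN : 3 ≤ N) : LB p N L := by
  obtain ⟨e, hsum, hoff, hon, hpol, hreg⟩ := LemL255.class_version hodd h2 h3 hu hL N
  have hp0 : 0 < p := hp.out.pos
  have hpz : (p : ℤ) ≠ 0 := by omega
  -- integer classes versus natural residues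
  have hnd : ∀ (c : ℤ) (r : ℕ), r < p → r ≠ (c % p).toNat → ¬ (p : ℤ) ∣ (r : ℤ) - c := by
    intro c r hr hne hd
    apply hne
    have h1 : (r : ℤ) % p = c % p := Int.ModEq.symm (Int.modEq_iff_dvd.mpr hd)
    rw [Int.emod_eq_of_lt (by omega) (by omega)] at h1
    omega
  refine ⟨?_, ?_, ?_⟩
  · intro c F hF hF'
    have := LemL255.dvd_of_all hodd h2 h3 hu hL 2 F (fun r hr => ?_)
    · simpa using this
    · by_cases hrc : r = (c % p).toNat
      · rw [hrc, ← J_mod p hp0]; exact hF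
      · rw [← J_nat]
        exact Ideal.pow_le_pow_right (by omega) (hF' r (hnd c r hr hrc))
  · intro c F hc hF'
    have h0 := Int.emod_nonneg c hpz
    have h1 := Int.emod_lt_of_pos c (by omega : (0 : ℤ) < p)
    have hs : L F = ∑ r ∈ Finset.range p, L (e r * F) := by
      rw [← map_sum, ← Finset.sum_mul, hsum, one_mul]
    rw [hs]
    refine Finset.dvd_sum (fun r hr => ?_)
    rw [Finset.mem_range] at hr
    by_cases hrc : r = (c % p).toNat
    · have h5 := hreg r hr (by omega) 0 (by omega) F (by simp)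
      exact (Dvd.intro _ (by rw [← pow_succ'])).trans h5
    · have h5 := hpol r hr N le_rfl F (by rw [← J_nat]; exact hF' r (hnd c r hr hrc))
      refine (dvd_pow_self (p : O) (by omega)).trans h5
  · intro c
    have h0 := Int.emod_nonneg c hpz
    have h1 := Int.emod_lt_of_pos c (by omega : (0 : ℤ) < p)
    have hr : (c % p).toNat < p := by omega
    refine ⟨e (c % p).toNat, ?_, ?_⟩
    · rw [J_mod p hp0]; exact hon _ hr
    · intro c' hc'
      rw [J_mod p hp0]
      have h0' := Int.emod_nonneg c' hpz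
      have h1' := Int.emod_lt_of_pos c' (by omega : (0 : ℤ) < p)
      refine hoff _ hr _ (by omega) ?_
      intro h
      apply hc'
      have h2 : c' % p = c % p := by omega
      exact (Int.ModEq.dvd (a := c) (b := c') (n := p) h2.symm)

/-! ### The chains -/

/-- General chain, upwards: sites `x0 + k`, classes `c0 + k`. -/
theorem chain_up (hL : Mom L) (h2 : IsUnit (2 : O)) (h3 : IsUnit (3 : O)) (hLB : LB p N L)
    (hU : Un p O) (hodd : p % 2 = 1) (hp1 : 1 < p) (hN : 0 < N) (hpA : IsUnit (p : A))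
    (c0 : ℤ) (w : O) (f : ℕ → A) (M : ℕ) (h0 : Inv B p N L ((c0 : O) + p * w) c0 (f 0))
    (hrec : ∀ k < M, Rec (((c0 + (k + 1 : ℕ) : ℤ) : O) + p * w) (f (k + 1)) (f k))
    (hcr : ∀ k < M, (p : ℤ) ∣ c0 + (k + 1 : ℕ) →
      ∃ u : O, IsUnit u ∧ ((c0 + (k + 1 : ℕ) : ℤ) : O) + p * w = p * u) :
    ∀ k ≤ M, Inv B p N L (((c0 + k : ℤ) : O) + p * w) (c0 + k) (f k) := by
  intro k
  induction k with
  | zero => intro _; simpa using h0
  | succ k ih =>
    intro hk
    have ih' := ih (by omega)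
    refine step_up hL h2 h3 hLB hU hodd hp1 hN hpA rfl (hrec k (by omega)) ?_ (hcr k (by omega))
    have e1 : c0 + ((k + 1 : ℕ) : ℤ) - 1 = c0 + k := by push_cast; ring
    have e2 : ((c0 + ((k + 1 : ℕ) : ℤ) : ℤ) : O) + p * w - 1 = ((c0 + (k : ℤ) : ℤ) : O) + p * w := by
      push_cast; ring
    rw [e1, e2]; exact ih'

/-- General chain, downwards: sites `x0 - k`, classes `c0 - k`. -/
theorem chain_down (hL : Mom L) (h2 : IsUnit (2 : O)) (h3 : IsUnit (3 : O)) (hLB : LB p N L)
    (hU : Un p O) (hodd : p % 2 = 1) (hp1 : 1 < p) (hN : 0 < N) (hpA : IsUnit (p : A))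
    (c0 : ℤ) (w : O) (f : ℕ → A) (M : ℕ) (h0 : Inv B p N L ((c0 : O) + p * w) c0 (f 0))
    (hrec : ∀ k < M, Rec (((c0 - k : ℤ) : O) + p * w) (f k) (f (k + 1)))
    (hcr : ∀ k < M, (p : ℤ) ∣ 2 * (c0 - k) - 1 →
      ∃ u : O, IsUnit u ∧ 2 * (((c0 - k : ℤ) : O) + p * w) - 1 = p * u) :
    ∀ k ≤ M, Inv B p N L (((c0 - k : ℤ) : O) + p * w) (c0 - k) (f k) := by
  intro k
  induction k with
  | zero => intro _; simpa using h0
  | succ k ih =>
    intro hk
    have ih' := ih (by omega)
    have := step_down hL h2 h3 hLB hU hodd hp1 hN hpA rfl (hrec k (by omega)) ih' (hcr k (by omega))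
    have e1 : c0 - ((k + 1 : ℕ) : ℤ) = c0 - k - 1 := by push_cast; ring
    have e2 : ((c0 - ((k + 1 : ℕ) : ℤ) : ℤ) : O) + p * w = ((c0 - (k : ℤ) : ℤ) : O) + p * w - 1 := by
      push_cast; ring
    rw [e2, e1]; exact this

/-- the invariant at a polar site with integral (or `0`) value -/
theorem Inv_polar {x : O} {c : ℤ} {ψ : A} (hc : 2 * (c % p) < p) (h : (p : A) ^ 2 * ψ ∈ B) :
    Inv B p N L x c ψ := ⟨fun _ => h, fun h' => by omega⟩

/-- at a regular node the value is integral -/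
theorem Inv.integral (hLB : LB p N L) (hU : Un p O) (hp1 : 1 < p) (hN : 0 < N) {c : ℤ} {w : O}
    {ψ : A} (h : Inv B p N L ((c : O) + p * w) c ψ) (hc : (p : ℤ) < 2 * (c % p)) : ψ ∈ B := by
  obtain ⟨e, he⟩ := hLB.ex c
  obtain ⟨b, hb, hbL⟩ := h.2 hc e he
  exact integral_of_Lam hU hN hp1 he hb hbL

/-- **G-nodes** `n ≥ 0` (`n < p^2`): `f 0` integral. -/
theorem gnodes (hL : Mom L) (h2 : IsUnit (2 : O)) (h3 : IsUnit (3 : O)) (hLB : LB p N L)
    (hU : Un p O) (hodd : p % 2 = 1) (hpp : p.Prime) (hN : 0 < N) (hpA : IsUnit (p : A))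
    (w : O) (hw : w = 0 ∨ ∀ m : ℤ, 0 < m → m < p → IsUnit ((m : O) + w))
    (f : ℕ → A) (h0 : (p : A) ^ 2 * f 0 ∈ B) (hrec : ∀ k, Rec (((k + 1 : ℕ) : O) + p * w) (f (k + 1)) (f k)) :
    ∀ k < p ^ 2, Inv B p N L ((k : O) + p * w) k (f k) := by
  intro k hk
  have hp1 := hpp.one_lt
  have hcast : ∀ k : ℕ, (((0 + (k : ℤ) : ℤ)) : O) = (k : O) := by intro k; push_cast; ring
  have key := chain_up (B := B) hL h2 h3 hLB hU hodd hp1 hN hpA 0 w f k
    (Inv_polar (by simp; omega) h0) (fun j _ => by rw [hcast]; exact hrec j) ?_ k le_rfl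
  · rw [hcast, zero_add] at key; exact key
  · intro j hj hd
    rw [hcast, zero_add] at *
    have hd' : p ∣ j + 1 := by exact_mod_cast hd
    obtain ⟨m, hm⟩ := hd'
    have hm0 : 0 < m := by
      rcases Nat.eq_zero_or_pos m with h | h
      · subst h; omega
      · exact h
    have hmp : m < p := by
      by_contra hcon
      have : p * p ≤ p * m := Nat.mul_le_mul_left _ (by omega)
      have hsq : p ^ 2 = p * p := sq p
      omega
    refine ⟨(m : O) + w, ?_, by rw [hm]; push_cast; ring⟩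
    rcases hw with hw | hw
    · rw [hw, add_zero]
      have hnd : ¬ (p : ℤ) ∣ (m : ℤ) := by
        intro h
        have h' : p ∣ m := by exact_mod_cast h
        have := Nat.le_of_dvd hm0 h'
        omega
      have := hU (m : ℤ) 0 hnd
      simpa using this
    · have := hw (m : ℤ) (by exact_mod_cast hm0) (by exact_mod_cast hmp)
      simpa using this


/-- **e-nodes** `-k + p w`, `k ≥ 0`, started at `x = p w` with `p^2 f 0` integral (e.g. `f 0 = 0`). -/
theorem enodes (hL : Mom L) (h2 : IsUnit (2 : O)) (h3 : IsUnit (3 : O)) (hLB : LB p N L)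
    (hU : Un p O) (hodd : p % 2 = 1) (hpp : p.Prime) (hN : 0 < N) (hpA : IsUnit (p : A))
    (w : O) (hw : w = 0 ∨ ∀ m : ℤ, 0 < m → m < p → IsUnit (-(m : O) + 2 * w))
    (f : ℕ → A) (h0 : (p : A) ^ 2 * f 0 ∈ B) {M : ℕ} (hM : 2 * M ≤ p ^ 2)
    (hrec : ∀ k < M, Rec (-(k : O) + p * w) (f k) (f (k + 1))) :
    ∀ k ≤ M, Inv B p N L (-(k : O) + p * w) (-k) (f k) := by
  intro k hk
  have hp1 := hpp.one_lt
  have hcast : ∀ k : ℕ, (((0 - (k : ℤ) : ℤ)) : O) = -(k : O) := by intro k; push_cast; ring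
  have key := chain_down (B := B) hL h2 h3 hLB hU hodd hp1 hN hpA 0 w f M
    (Inv_polar (by simp; omega) h0) (fun j hj => by rw [hcast]; exact hrec j hj) ?_ k hk
  · rw [hcast, zero_sub] at key; exact key
  · intro j hj hd
    rw [hcast]
    have hd' : (p : ℤ) ∣ (2 * j + 1 : ℕ) := by
      have : ((2 * j + 1 : ℕ) : ℤ) = -(2 * (0 - (j : ℤ)) - 1) := by push_cast; ring
      rw [this]; exact (dvd_neg).mpr hd
    have hd'' : p ∣ 2 * j + 1 := by exact_mod_cast hd'
    obtain ⟨m, hm⟩ := hd''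
    have hm0 : 0 < m := by
      rcases Nat.eq_zero_or_pos m with h | h
      · subst h; omega
      · exact h
    have hmp : m < p := by
      by_contra hcon
      have : p * p ≤ p * m := Nat.mul_le_mul_left _ (by omega)
      have hsq : p ^ 2 = p * p := sq p
      omega
    refine ⟨-(m : O) + 2 * w, ?_, ?_⟩
    · rcases hw with hw | hw
      · rw [hw, mul_zero, add_zero]
        have hnd : ¬ (p : ℤ) ∣ (m : ℤ) := by
          intro h
          have h' : p ∣ m := by exact_mod_cast h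
          have := Nat.le_of_dvd hm0 h'
          omega
        have := hU (m : ℤ) 0 hnd
        simpa using this
      · have := hw (m : ℤ) (by exact_mod_cast hm0) (by exact_mod_cast hmp)
        simpa using this
    · have : ((2 * j + 1 : ℕ) : O) = ((p * m : ℕ) : O) := by rw [hm]
      push_cast at this
      linear_combination -this

/-- **star nodes** `l + 1/2 + p w'`: with `p = 2 h + 1` and `w = w' - 1/2`, the site is
`h + (l+1) + p w`.  Started at `x = -1/2 + p w' = h + p w` with `p^2 f 0` integral (`f 0 = 0`). -/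
theorem starnodes (hL : Mom L) (h2 : IsUnit (2 : O)) (h3 : IsUnit (3 : O)) (hLB : LB p N L)
    (hU : Un p O) {h : ℕ} (hph : p = 2 * h + 1) (hpp : p.Prime) (hN : 0 < N) (hpA : IsUnit (p : A))
    (w : O) (hw : ∀ m : ℕ, 0 < m → 2 * m < p + 1 → IsUnit ((m : O) + w))
    (f : ℕ → A) (h0 : (p : A) ^ 2 * f 0 ∈ B) {M : ℕ} (hM : 2 * M + 1 < p ^ 2)
    (hrec : ∀ k < M, Rec (((h + (k + 1) : ℕ) : O) + p * w) (f (k + 1)) (f k)) :
    ∀ k ≤ M, Inv B p N L (((h + k : ℕ) : O) + p * w) (h + k) (f k) := by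
  intro k hk
  have hp1 := hpp.one_lt
  have hcast : ∀ k : ℕ, (((h : ℤ) + (k : ℤ) : ℤ) : O) = ((h + k : ℕ) : O) := by
    intro k; push_cast; ring
  have key := chain_up (B := B) hL h2 h3 hLB hU (by omega) hp1 hN hpA (h : ℤ) w f M
    (Inv_polar (by rw [Int.emod_eq_of_lt (by omega) (by omega)]; omega) h0)
    (fun j hj => by rw [hcast]; exact hrec j hj) ?_ k hk
  · rw [hcast] at key; exact key
  · intro j hj hd
    have hd' : p ∣ h + (j + 1) := by exact_mod_cast hd
    obtain ⟨m, hm⟩ := hd'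
    have hm0 : 0 < m := by
      rcases Nat.eq_zero_or_pos m with h' | h'
      · subst h'; omega
      · exact h'
    have hmp : 2 * m < p + 1 := by
      by_contra hcon
      have h5 : p * (p + 1) ≤ p * (2 * m) := Nat.mul_le_mul_left _ (by omega)
      have hsq : p ^ 2 = p * p := sq p
      have h6 : p * (2 * m) = 2 * (h + (j + 1)) := by rw [hm]; ring
      have h7 : p * (p + 1) = p * p + p := by ring
      omega
    refine ⟨(m : O) + w, hw m hm0 hmp, ?_⟩
    have : ((h + (j + 1) : ℕ) : O) = ((p * m : ℕ) : O) := by rw [hm]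
    push_cast at this ⊢
    linear_combination this

end Step

end Crest.Agent.R006.NodeC143
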