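import Mathlib
import Crest.Agent.R006.ProdBound_481

/-!
Row 6, block P7 (p = 3) and the determinant half of P5: weighted product bound for a matrix whose
`z`-columns are `A - B s - U t` (helper241).

* `det_schur_form` : `det [A - B s - U t | B] = det [[A, B, U], [t, 0, 1]]`.
* `PB_det_zcols` : potentials on the rows and columns of the bordered matrix.
* `PB_det_poly` : `Z = Fin k`, `t j l` has `p`-adic size `≤ p ^ (w (l - (q + j)) + e)`, everything
  else has size `≤ p ^ e`: then `det` has size `≤ p ^ (w (k-q)^2/4 + ...)`.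
-/

set_option autoImplicit false

namespace Crest.Agent.R006.P7Det241

open Polynomial Matrix Crest.Agent.R006.ProdBound481

section Schur

variable {R : Type*} [CommRing R]
variable {Z O m : Type*} [Fintype Z] [DecidableEq Z] [Fintype O] [DecidableEq O]
  [Fintype m] [DecidableEq m]

theorem det_schur_form (A : Matrix (Z ⊕ O) Z R) (B : Matrix (Z ⊕ O) O R) (s : Matrix O Z R)
    (U : Matrix (Z ⊕ O) m R) (t : Matrix m Z R) :
    (fromCols (A - B * s - U * t) B).det =
      (fromBlocks (fromCols A B) U (fromCols t (0 : Matrix m O R)) 1).det := by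
  rw [det_fromBlocks_one₂₂]
  have h : fromCols (A - B * s - U * t) B =
      (fromCols A B - U * fromCols t (0 : Matrix m O R)) *
        fromBlocks (1 : Matrix Z Z R) 0 (-s) 1 := by
    ext i j
    rcases j with j | j
    · simp [Matrix.mul_apply, fromCols, fromBlocks, Fintype.sum_sum_type, Matrix.one_apply,
        sub_mul, Finset.sum_sub_distrib]
      ring
    · simp [Matrix.mul_apply, fromCols, fromBlocks, Fintype.sum_sum_type, Matrix.one_apply,
        sub_mul, Finset.sum_sub_distrib]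
  rw [h, det_mul, det_fromBlocks_zero₁₂, det_one, det_one, mul_one, mul_one]

end Schur

section PBz

variable {p : ℕ} [hp : Fact p.Prime]
variable {Z O m : Type*} [Fintype Z] [DecidableEq Z] [Fintype O] [DecidableEq O]
  [Fintype m] [DecidableEq m]

theorem PB_det_zcols (A : Matrix (Z ⊕ O) Z ℚ[X]) (B : Matrix (Z ⊕ O) O ℚ[X])
    (s : Matrix O Z ℚ[X]) (U : Matrix (Z ⊕ O) m ℚ[X]) (t : Matrix m Z ℚ[X])
    (a : Z ⊕ O → ℤ) (cz : Z → ℤ) (co : O → ℤ) (r cm : m → ℤ)
    (hA : ∀ i l, PB p (a i + cz l) (A i l)) (hB : ∀ i o, PB p (a i + co o) (B i o))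
    (hU : ∀ i j, PB p (a i + cm j) (U i j)) (ht : ∀ j l, PB p (r j + cz l) (t j l))
    (h1 : ∀ j, r j + cm j ≤ 0) :
    PB p (∑ i, a i + ∑ l, cz l + ∑ o, co o + ∑ j, (r j + cm j))
      (fromCols (A - B * s - U * t) B).det := by
  rw [det_schur_form]
  have key := PB_det (p := p)
    (fromBlocks (fromCols A B) U (fromCols t (0 : Matrix m O ℚ[X])) 1)
    (Sum.elim a r) (Sum.elim (Sum.elim cz co) cm) (by
      intro i j
      rcases i with i | i <;> rcases j with j | j
      · rcases j with j | j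
        · simpa [fromBlocks, fromCols] using hA i j
        · simpa [fromBlocks, fromCols] using hB i j
      · simpa [fromBlocks, fromCols] using hU i j
      · rcases j with j | j
        · simpa [fromBlocks, fromCols] using ht i j
        · simpa [fromBlocks, fromCols] using (PB.zero (p := p) (r i + co j))
      · by_cases hij : i = j
        · subst hij
          simpa [fromBlocks, fromCols] using (PB.one (p := p)).mono (h1 i)
        · simpa [fromBlocks, fromCols, Matrix.one_apply, hij] using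
            (PB.zero (p := p) (r i + cm j)))
  refine key.mono (le_of_eq ?_)
  simp only [Fintype.sum_sum_type, Sum.elim_inl, Sum.elim_inr, Finset.sum_add_distrib]
  ring

end PBz

section Sums

/-- `∑_{l<k} max(0, l - mid) + ∑_{j<k-q} max(0, mid - (q+j)) ≤ (k-q)²/4 + (k-q)`, `mid=(k+q)/2` -/
theorem sum_weights (k q : ℕ) (hqk : q ≤ k) :
    4 * (∑ l : Fin k, max 0 ((l : ℤ) - ((k + q) / 2 : ℕ)) +
      ∑ j : Fin (k - q), max 0 ((((k + q) / 2 : ℕ) : ℤ) - (q + (j : ℕ)))) ≤
      ((k : ℤ) - q) ^ 2 + 4 * ((k : ℤ) - q) := by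
  obtain ⟨d, rfl⟩ := Nat.exists_eq_add_of_le hqk
  have hmid : (q + d + q) / 2 = q + d / 2 := by omega
  rw [hmid]
  have e1 : ∑ l : Fin (q + d), max 0 ((l : ℤ) - ((q + d / 2 : ℕ) : ℤ)) =
      ∑ l ∈ Finset.range (d - d / 2), (l : ℤ) := by
    rw [Fin.sum_univ_eq_sum_range (fun l => max 0 ((l : ℤ) - ((q + d / 2 : ℕ) : ℤ))) (q + d)]
    have hsplit : q + d = (q + d / 2) + (d - d / 2) := by omega
    rw [hsplit, Finset.sum_range_add]
    have hz : ∑ x ∈ Finset.range (q + d / 2), max 0 ((x : ℤ) - ((q + d / 2 : ℕ) : ℤ)) = 0 := by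
      apply Finset.sum_eq_zero
      intro x hx
      have hx' := Finset.mem_range.mp hx
      apply max_eq_left
      have : (x : ℤ) < ((q + d / 2 : ℕ) : ℤ) := by exact_mod_cast hx'
      linarith
    have hd2 : (q + d / 2 + (d - d / 2)) = q + d := by omega
    have hz' : (q + d / 2 + (d - d / 2)) / 1 = q + d := by omega
    rw [hz, zero_add]
    refine Finset.sum_congr rfl fun x hx => ?_
    push_cast
    rw [max_eq_right]
    · ring
    · have : (0 : ℤ) ≤ (x : ℤ) := Int.natCast_nonneg x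
      linarith
  have e2 : ∑ j : Fin (q + d - q), max 0 (((q + d / 2 : ℕ) : ℤ) - ((q : ℤ) + ((j : ℕ) : ℤ))) =
      ∑ l ∈ Finset.range (d / 2 + 1), (l : ℤ) := by
    rw [Fin.sum_univ_eq_sum_range (fun j => max 0 (((q + d / 2 : ℕ) : ℤ) - ((q : ℤ) + (j : ℤ))))
      (q + d - q)]
    have hq : q + d - q = d / 2 + (d - d / 2) := by omega
    rw [hq, Finset.sum_range_add]
    have hz : ∑ x ∈ Finset.range (d - d / 2),
        max 0 (((q + d / 2 : ℕ) : ℤ) - ((q : ℤ) + ((d / 2 + x : ℕ) : ℤ))) = 0 := by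
      apply Finset.sum_eq_zero
      intro x _
      apply max_eq_left
      push_cast
      have : (0 : ℤ) ≤ (x : ℤ) := Int.natCast_nonneg x
      linarith
    rw [hz, add_zero, Finset.sum_range_succ', Nat.cast_zero, add_zero,
      ← Finset.sum_range_reflect]
    refine Finset.sum_congr rfl fun x hx => ?_
    have hx' := Finset.mem_range.mp hx
    push_cast [Nat.cast_sub (show x ≤ d / 2 - 1 by omega), Nat.cast_sub (show 1 ≤ d / 2 by omega)]
    rw [max_eq_right] <;> omega
  have g : ∀ n : ℕ, 2 * ∑ l ∈ Finset.range n, (l : ℤ) = (n : ℤ) * ((n : ℤ) - 1) := by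
    intro n
    induction n with
    | zero => simp
    | succ n ih => rw [Finset.sum_range_succ, mul_add, ih]; push_cast; ring
  rw [e1, e2]
  have h1 := g (d - d / 2)
  have h2 := g (d / 2 + 1)
  have h3 : ((d - d / 2 : ℕ) : ℤ) = (d : ℤ) - ((d / 2 : ℕ) : ℤ) := by
    rw [Nat.cast_sub (by omega)]
  rw [h3] at h1
  rw [Nat.cast_add, Nat.cast_one] at h2
  have h4 : 2 * ((d / 2 : ℕ) : ℤ) ≤ d := by omega
  have h5 : (d : ℤ) ≤ 2 * ((d / 2 : ℕ) : ℤ) + 1 := by omega
  have h6 : (0 : ℤ) ≤ ((d / 2 : ℕ) : ℤ) := Int.natCast_nonneg _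
  generalize ((d / 2 : ℕ) : ℤ) = x at *
  generalize ∑ l ∈ Finset.range (d - d / 2), (l : ℤ) = S1 at *
  generalize ∑ l ∈ Finset.range (d / 2 + 1), (l : ℤ) = S2 at *
  have h7 : ((q + d : ℕ) : ℤ) - q = d := by push_cast; ring
  rw [h7]
  rcases (show (d : ℤ) = 2 * x ∨ (d : ℤ) = 2 * x + 1 by omega) with h | h
  · rw [h] at h1 ⊢
    nlinarith
  · rw [h] at h1 ⊢
    nlinarith

end Sums

section Main

variable {p : ℕ} [hp : Fact p.Prime]
variable {O : Type*} [Fintype O] [DecidableEq O]

/-- The determinant half of P7 (`p = 3`, `w = 2`) and of P5 (`p ≥ 5`, `w = 0`). The columns are the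
`k` polynomial `R`-columns (`A` = entries with the polynomial part dropped, `s` = coefficients of
the polynomial part on the `T`-columns, which are among the columns `B`, `t j l` = coefficient of
the `(q+j)`-th basis polynomial, `U` = its values) and the other columns `B`. -/
theorem PB_det_poly (k q : ℕ) (hqk : q ≤ k) (w e : ℤ) (hw : 0 ≤ w) (he : 0 ≤ e)
    (A : Matrix (Fin k ⊕ O) (Fin k) ℚ[X]) (B : Matrix (Fin k ⊕ O) O ℚ[X])
    (s : Matrix O (Fin k) ℚ[X]) (U : Matrix (Fin k ⊕ O) (Fin (k - q)) ℚ[X])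
    (t : Matrix (Fin (k - q)) (Fin k) ℚ[X])
    (hA : ∀ i l, PB p (-e) (A i l)) (hB : ∀ i o, PB p (-e) (B i o))
    (hU : ∀ i j, PB p (-e) (U i j))
    (ht : ∀ (j : Fin (k - q)) (l : Fin k),
      PB p (-(w * max 0 (((l : ℕ) : ℤ) - (q + (j : ℕ)))) - e) (t j l))
    (V : ℤ)
    (hV : 4 * V ≤ -(w * (((k : ℤ) - q) ^ 2 + 4 * ((k : ℤ) - q))) -
      4 * (e * (k + Fintype.card O + ((k : ℤ) - q)))) :
    PB p V (fromCols (A - B * s - U * t) B).det := by
  classical
  set mid : ℕ := (k + q) / 2 with hmid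
  have key := PB_det_zcols (p := p) A B s U t (fun _ => -e)
    (fun l => -(w * max 0 (((l : ℕ) : ℤ) - mid))) (fun _ => 0)
    (fun j => -(w * max 0 ((mid : ℤ) - (q + (j : ℕ)))) - e) (fun _ => 0)
    (fun i l => (hA i l).mono (by
      have : 0 ≤ w * max 0 (((l : ℕ) : ℤ) - mid) := mul_nonneg hw (le_max_left _ _)
      linarith))
    (fun i o => (hB i o).mono (by linarith))
    (fun i j => (hU i j).mono (by linarith))
    (fun j l => (ht j l).mono (by
      have h1 : max 0 (((l : ℕ) : ℤ) - (q + (j : ℕ))) ≤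
          max 0 ((mid : ℤ) - (q + (j : ℕ))) + max 0 (((l : ℕ) : ℤ) - mid) := by
        apply max_le
        · exact add_nonneg (le_max_left _ _) (le_max_left _ _)
        · have h2 := le_max_right (0 : ℤ) ((mid : ℤ) - (q + (j : ℕ)))
          have h3 := le_max_right (0 : ℤ) (((l : ℕ) : ℤ) - mid)
          linarith
      have h2 := mul_le_mul_of_nonneg_left h1 hw
      linarith))
    (fun j => by
      have : 0 ≤ w * max 0 ((mid : ℤ) - (q + (j : ℕ))) := mul_nonneg hw (le_max_left _ _)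
      linarith)
  refine key.mono ?_
  have hs := sum_weights k q hqk
  rw [← hmid] at hs
  have e1 : ∑ i : Fin k ⊕ O, (-e : ℤ) = -(e * (k + Fintype.card O)) := by
    rw [Finset.sum_const, Finset.card_univ, Fintype.card_sum, Fintype.card_fin, nsmul_eq_mul]
    push_cast; ring
  have e2 : ∑ l : Fin k, -(w * max 0 (((l : ℕ) : ℤ) - mid)) =
      -(w * ∑ l : Fin k, max 0 (((l : ℕ) : ℤ) - mid)) := by
    rw [Finset.sum_neg_distrib, Finset.mul_sum]
  have e3 : ∑ j : Fin (k - q), (-(w * max 0 ((mid : ℤ) - (q + (j : ℕ)))) - e + 0) =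
      -(w * ∑ j : Fin (k - q), max 0 ((mid : ℤ) - (q + (j : ℕ)))) - e * ((k : ℤ) - q) := by
    simp only [add_zero, Finset.sum_sub_distrib, Finset.sum_neg_distrib, Finset.mul_sum,
      Finset.sum_const, Finset.card_univ, Fintype.card_fin, nsmul_eq_mul]
    rw [Nat.cast_sub hqk]; ring
  rw [e1, e2, e3, Finset.sum_const_zero]
  have hs' := mul_le_mul_of_nonneg_left hs hw
  nlinarith

end Main

end Crest.Agent.R006.P7Det241
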