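import Mathlib
import Crest.Agent.R006.ProdBound_481
import Crest.Agent.R006.PsiInf_294
import Crest.Agent.R006.P7_Det_241

/-!
Row 6, blocks P5 and P7: the `N x N` interpolation determinant in the binomial bases, all odd primes
(helper241).

* `dP l = x (x-1) .. (x-l+1)`, `cP l = dP l / l!`;
* `TR_dP`, `TR_cP` : polynomial part of `C(x,l) ψ_∞` in the basis `C(x,i)`;
* `fn x j φ P = [ε^j] P(x+ε) φ(ε)`;
* `mat` : rows = (site, order, germs ρ τ κ), columns = `C(x,l) ψ` (`l < k`), `C(x,i)` (`i < q`),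
  `C(x,l) g` (`l < g`);
* `PB_mat` : `v_p(det) ≥ - w (k-q)^2 / 4 - O(N e)`.
-/

set_option autoImplicit false

namespace Crest.Agent.R006.P57

open Polynomial Matrix Finset Crest.Agent.R006.ProdBound481 Crest.Agent.R006.PsiInf

section TR

variable {K : Type*} [Field K] [CharZero K]

/-- falling factorial polynomial -/
noncomputable abbrev dP (K : Type*) [Field K] (l : ℕ) : K[X] := descPochhammer K l

omit [CharZero K] in
lemma dP_comp_succ (m i : ℕ) :
    (dP K (m + 1)).comp (X - C (i : K)) =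
      (X - C (i : K)) * (dP K m).comp (X - C ((i + 1 : ℕ) : K)) := by
  rw [dP, descPochhammer_succ_left, mul_comp, X_comp, comp_assoc]
  congr 2
  rw [sub_comp, X_comp, one_comp]
  push_cast
  rw [C_add, C_1]; ring

omit [CharZero K] in
lemma dP_divByMonic (l : ℕ) (x : K) :
    (dP K l) /ₘ (X - C x) =
      ∑ i ∈ range l, C ((dP K i).eval x) * (dP K (l - 1 - i)).comp (X - C ((i + 1 : ℕ) : K)) := by
  have key : (X - C x) *
      (∑ i ∈ range l, C ((dP K i).eval x) * (dP K (l - 1 - i)).comp (X - C ((i + 1 : ℕ) : K))) =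
      dP K l - C ((dP K l).eval x) := by
    rw [mul_sum]
    have h : ∀ i ∈ range l, (X - C x) * (C ((dP K i).eval x) *
        (dP K (l - 1 - i)).comp (X - C ((i + 1 : ℕ) : K))) =
        C ((dP K i).eval x) * (dP K (l - i)).comp (X - C (i : K)) -
        C ((dP K (i + 1)).eval x) * (dP K (l - (i + 1))).comp (X - C ((i + 1 : ℕ) : K)) := by
      intro i hi
      have hi' := mem_range.mp hi
      have e1 : l - i = (l - 1 - i) + 1 := by omega
      have e2 : l - (i + 1) = l - 1 - i := by omega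
      rw [e1, e2, dP_comp_succ, dP, dP, dP, descPochhammer_succ_right]
      simp only [eval_mul, eval_sub, eval_X, eval_natCast]
      rw [C_mul, C_sub]
      ring
    rw [sum_congr rfl h, sum_range_sub' (fun i => C ((dP K i).eval x) *
      (dP K (l - i)).comp (X - C (i : K)))]
    simp [dP]
  exact (div_modByMonic_unique (f := dP K l) (g := X - C x) _ (C ((dP K l).eval x))
    (monic_X_sub_C x) ⟨by rw [key]; ring, by
      rw [degree_X_sub_C]
      exact (degree_C_le).trans_lt (by norm_num)⟩).1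

/-- coefficients of the polynomial part, falling factorial basis -/
noncomputable def tD (m : ℕ → K) (l i : ℕ) : K :=
  if i < l then lin m ((dP K (l - 1 - i)).comp (X - C ((i + 1 : ℕ) : K))) else 0

theorem TR_dP (m : ℕ → K) (l : ℕ) : TR m (dP K l) = ∑ i ∈ range l, C (tD m l i) * dP K i := by
  apply Polynomial.funext
  intro x
  rw [eval_TR, dP_divByMonic, map_sum, eval_finsetSum]
  refine sum_congr rfl fun i hi => ?_
  rw [lin_C_mul, eval_mul, eval_C, tD, if_pos (mem_range.mp hi)]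
  ring

/-- binomial polynomial -/
noncomputable def cP (K : Type*) [Field K] (l : ℕ) : K[X] := C ((l.factorial : K)⁻¹) * dP K l

lemma dP_eq (l : ℕ) : dP K l = C (l.factorial : K) * cP K l := by
  rw [cP, ← mul_assoc, ← C_mul, mul_inv_cancel₀ (by exact_mod_cast l.factorial_ne_zero), C_1,
    one_mul]

/-- coefficients of the polynomial part, binomial basis -/
noncomputable def tC (m : ℕ → K) (l i : ℕ) : K :=
  if i < l then ((l * (l - 1).choose i : ℕ) : K)⁻¹ *
    lin m ((cP K (l - 1 - i)).comp (X - C ((i + 1 : ℕ) : K))) else 0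

theorem TR_cP (m : ℕ → K) (l : ℕ) : TR m (cP K l) = ∑ i ∈ range l, C (tC m l i) * cP K i := by
  have h1 : TR m (cP K l) = C ((l.factorial : K)⁻¹) * TR m (dP K l) := by
    rw [cP, ← smul_eq_C_mul, map_smul, smul_eq_C_mul]
  rw [h1, TR_dP, mul_sum]
  refine sum_congr rfl fun i hi => ?_
  have hi' := mem_range.mp hi
  rw [tD, tC, if_pos hi', if_pos hi', dP_eq i, ← mul_assoc, ← mul_assoc, ← C_mul, ← C_mul]
  congr 2
  rw [dP_eq (l - 1 - i), mul_comp, C_comp, lin_C_mul]
  have hfac : ((l * (l - 1).choose i : ℕ) : K) * ((i.factorial : K) * ((l - 1 - i).factorial : K))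
      = (l.factorial : K) := by
    have h2 : (l - 1).choose i * i.factorial * (l - 1 - i).factorial = (l - 1).factorial :=
      Nat.choose_mul_factorial_mul_factorial (by omega)
    have h3 : l * (l - 1).factorial = l.factorial := Nat.mul_factorial_pred (by omega)
    have h4 : (l * (l - 1).choose i) * (i.factorial * (l - 1 - i).factorial) = l.factorial := by
      rw [← h3, ← h2]; ring
    exact_mod_cast h4
  have hne : (l.factorial : K) ≠ 0 := by exact_mod_cast l.factorial_ne_zero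
  have hne2 : ((l * (l - 1).choose i : ℕ) : K) ≠ 0 := by
    intro h0
    rw [h0, zero_mul] at hfac
    exact hne hfac.symm
  have h5 : ((l.factorial : K)⁻¹) * ((i.factorial : K) * ((l - 1 - i).factorial : K)) =
      ((l * (l - 1).choose i : ℕ) : K)⁻¹ := by
    have h6 : (i.factorial : K) * ((l - 1 - i).factorial : K) ≠ 0 := by
      intro h0
      rw [h0, mul_zero] at hfac
      exact hne hfac.symm
    rw [← hfac, mul_inv, mul_assoc, inv_mul_cancel₀ h6, mul_one]
  rw [← h5]; ring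

end TR

section fn

/-- `[ε^j] P(x+ε) φ(ε)` -/
noncomputable def fn (x : ℚ) (j : ℕ) (φ : ℕ → ℚ[X]) (P : ℚ[X]) : ℚ[X] :=
  ∑ a ∈ range (j + 1), C ((taylor x P).coeff a) * φ (j - a)

lemma fn_sum {ι : Type*} (x : ℚ) (j : ℕ) (φ : ℕ → ℚ[X]) (s : Finset ι) (c : ι → ℚ)
    (P : ι → ℚ[X]) :
    fn x j φ (∑ i ∈ s, C (c i) * P i) = ∑ i ∈ s, C (c i) * fn x j φ (P i) := by
  simp only [fn, map_sum, finsetSum_coeff, mul_sum]
  rw [sum_comm]
  refine sum_congr rfl fun a _ => ?_
  rw [sum_mul]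
  refine sum_congr rfl fun i _ => ?_
  rw [taylor_mul, taylor_C, coeff_C_mul, C_mul]; ring

variable {p : ℕ} [hp : Fact p.Prime]

lemma PB_fn {x : ℚ} {j : ℕ} {φ : ℕ → ℚ[X]} {P : ℚ[X]} {e f : ℤ}
    (hP : ∀ a ≤ j, PB p (-e) (C ((taylor x P).coeff a) : ℚ[X]))
    (hφ : ∀ a ≤ j, PB p (-f) (φ a)) : PB p (-(e + f)) (fn x j φ P) := by
  refine PB.sum _ _ fun a ha => ?_
  have ha' : a ≤ j := Nat.lt_succ_iff.mp (mem_range.mp ha)
  have := (hP a ha').mul (hφ (j - a) (Nat.sub_le _ _))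
  exact this.mono (by linarith)

end fn

section tC

variable {p : ℕ} [hp : Fact p.Prime]

lemma padicValNat_mul_choose_le (l i : ℕ) (hi : i < l) :
    padicValNat p (l * (l - 1).choose i) ≤ 2 * Nat.log p l := by
  have hl : l ≠ 0 := by omega
  have hc : (l - 1).choose i ≠ 0 := (Nat.choose_pos (by omega)).ne'
  rw [padicValNat.mul hl hc]
  have h1 : padicValNat p l ≤ Nat.log p l := padicValNat_le_nat_log l
  have h2 : padicValNat p ((l - 1).choose i) ≤ Nat.log p (l - 1) := by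
    rw [← Nat.factorization_def _ hp.out]
    exact Nat.factorization_choose_le_log
  have h3 : Nat.log p (l - 1) ≤ Nat.log p l := Nat.log_mono_right (Nat.sub_le _ _)
  omega

/-- size of the coefficients of the polynomial part, from the size of the moment functional on
binomials -/
theorem PB_tC (m : ℕ → ℚ) (k : ℕ) (w f : ℤ) (hw : 0 ≤ w)
    (hL : ∀ d s : ℕ, d < k → s ≤ k →
      PB p (-(w * d) - f) (C (lin m ((cP ℚ d).comp (X - C (s : ℚ)))) : ℚ[X]))
    (l i : ℕ) (hl : l < k) (hi : i < l) :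
    PB p (-(w * ((l : ℤ) - i)) - (f + 2 * Nat.log p k)) (C (tC m l i) : ℚ[X]) := by
  rw [tC, if_pos hi, C_mul]
  have hn : l * (l - 1).choose i ≠ 0 :=
    mul_ne_zero (by omega) (Nat.choose_pos (by omega)).ne'
  have h1 : PB p (-(2 * Nat.log p k : ℤ)) (C (((l * (l - 1).choose i : ℕ) : ℚ)⁻¹) : ℚ[X]) := by
    apply PB.C
    rw [neg_neg, padicNorm.eq_zpow_of_nonzero (inv_ne_zero (by exact_mod_cast hn)),
      padicValRat.inv, neg_neg, padicValRat.of_nat]
    apply zpow_le_zpow_right₀ (by exact_mod_cast hp.out.one_lt.le)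
    have h2 := padicValNat_mul_choose_le (p := p) l i hi
    have h3 : Nat.log p l ≤ Nat.log p k := Nat.log_mono_right hl.le
    have h4 : padicValNat p (l * (l - 1).choose i) ≤ 2 * Nat.log p k := by omega
    exact_mod_cast h4
  have h2 := hL (l - 1 - i) (i + 1) (by omega) (by omega)
  refine (h1.mul h2).mono ?_
  have h3 : ((l - 1 - i : ℕ) : ℤ) = (l : ℤ) - 1 - i := by omega
  rw [h3]
  nlinarith

end tC

section Mat

variable {p : ℕ} [hp : Fact p.Prime]

/-- the matrix; rows carry a site `x`, an order `j` and three germs -/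
noncomputable def mat (m : ℕ → ℚ) {ρw : Type*} (k q g : ℕ) (x : ρw → ℚ) (j : ρw → ℕ)
    (ρ τ κ : ρw → ℕ → ℚ[X]) : Matrix ρw (Fin k ⊕ (Fin q ⊕ Fin g)) ℚ[X] :=
  Matrix.of fun r c => Sum.elim
    (fun l : Fin k => fn (x r) (j r) (ρ r) (cP ℚ l) - fn (x r) (j r) (τ r) (TR m (cP ℚ l)))
    (Sum.elim (fun i : Fin q => fn (x r) (j r) (τ r) (cP ℚ i))
      (fun l : Fin g => fn (x r) (j r) (κ r) (cP ℚ l))) c

theorem mat_eq (m : ℕ → ℚ) (k q g : ℕ) (hqk : q ≤ k) (x : Fin k ⊕ (Fin q ⊕ Fin g) → ℚ)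
    (j : Fin k ⊕ (Fin q ⊕ Fin g) → ℕ) (ρ τ κ : Fin k ⊕ (Fin q ⊕ Fin g) → ℕ → ℚ[X]) :
    ∃ s : Matrix (Fin q ⊕ Fin g) (Fin k) ℚ[X],
    mat m k q g x j ρ τ κ = fromCols
      ((Matrix.of fun r (l : Fin k) => fn (x r) (j r) (ρ r) (cP ℚ l)) -
        (Matrix.of fun r (c : Fin q ⊕ Fin g) => Sum.elim
          (fun i : Fin q => fn (x r) (j r) (τ r) (cP ℚ i))
          (fun l : Fin g => fn (x r) (j r) (κ r) (cP ℚ l)) c) * s -
        (Matrix.of fun r (i : Fin (k - q)) => fn (x r) (j r) (τ r) (cP ℚ (q + i))) *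
        (Matrix.of fun (i : Fin (k - q)) (l : Fin k) => (C (tC m l (q + i)) : ℚ[X])))
      (Matrix.of fun r (c : Fin q ⊕ Fin g) => Sum.elim
          (fun i : Fin q => fn (x r) (j r) (τ r) (cP ℚ i))
          (fun l : Fin g => fn (x r) (j r) (κ r) (cP ℚ l)) c) := by
  refine ⟨Matrix.of fun c l => Sum.elim (fun i : Fin q => (C (tC m l i) : ℚ[X]))
    (fun _ => 0) c, ?_⟩
  ext1 r c
  rcases c with l | c
  · have hl : (l : ℕ) ≤ k := l.2.le
    have h0 : ∀ i, (l : ℕ) ≤ i → tC m l i = 0 := by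
      intro i hi
      rw [tC, if_neg (by omega)]
    have h1 : fn (x r) (j r) (τ r) (TR m (cP ℚ (l : ℕ))) =
        ∑ i ∈ range k, C (tC m l i) * fn (x r) (j r) (τ r) (cP ℚ i) := by
      rw [TR_cP, fn_sum]
      refine sum_subset (range_subset_range.mpr hl) fun i _ hi => ?_
      rw [h0 i (by simpa using hi), C_0, zero_mul]
    have h2 : (∑ i ∈ range k, C (tC m l i) * fn (x r) (j r) (τ r) (cP ℚ i)) =
        (∑ i : Fin q, fn (x r) (j r) (τ r) (cP ℚ i) * C (tC m l i)) +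
        ∑ i : Fin (k - q), fn (x r) (j r) (τ r) (cP ℚ (q + i)) * C (tC m l (q + i)) := by
      have hsum : ∀ f : ℕ → ℚ[X], ∑ i ∈ range (q + (k - q)), f i =
          ∑ i ∈ range q, f i + ∑ i ∈ range (k - q), f (q + i) := fun f => sum_range_add f q (k - q)
      rw [Nat.add_sub_cancel' hqk] at hsum
      rw [hsum, Fin.sum_univ_eq_sum_range
        (fun i => fn (x r) (j r) (τ r) (cP ℚ i) * C (tC m l i)) q,
        Fin.sum_univ_eq_sum_range
        (fun i => fn (x r) (j r) (τ r) (cP ℚ (q + i)) * C (tC m l (q + i))) (k - q)]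
      congr 1
      · exact sum_congr rfl fun i _ => mul_comm _ _
      · exact sum_congr rfl fun i _ => mul_comm _ _
    simp only [mat, fromCols_apply_inl, Matrix.of_apply, Matrix.sub_apply, Matrix.mul_apply,
      Fintype.sum_sum_type, Sum.elim_inl, Sum.elim_inr, mul_zero, sum_const_zero, add_zero]
    rw [h1, h2]; ring
  · simp only [mat, fromCols_apply_inr, Matrix.of_apply, Sum.elim_inr]

/-- `P5` (`w = 0`) and `P7` (`p = 3`, `w = 2`). `e` bounds everything of logarithmic size. -/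
theorem PB_mat (m : ℕ → ℚ) (k q g : ℕ) (hqk : q ≤ k) (w e : ℤ) (hw : 0 ≤ w) (he : 0 ≤ e)
    (x : Fin k ⊕ (Fin q ⊕ Fin g) → ℚ) (j : Fin k ⊕ (Fin q ⊕ Fin g) → ℕ)
    (ρ τ κ : Fin k ⊕ (Fin q ⊕ Fin g) → ℕ → ℚ[X])
    (hx : ∀ r, ∀ l, l < k + g → ∀ a ≤ j r, PB p (-e) (C ((taylor (x r) (cP ℚ l)).coeff a) : ℚ[X]))
    (hρ : ∀ r, ∀ a ≤ j r, PB p (-e) (ρ r a)) (hτ : ∀ r, ∀ a ≤ j r, PB p (-e) (τ r a))
    (hκ : ∀ r, ∀ a ≤ j r, PB p (-e) (κ r a))
    (ht : ∀ l i, l < k → i < l → PB p (-(w * ((l : ℤ) - i)) - e) (C (tC m l i) : ℚ[X]))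
    (V : ℤ)
    (hV : 4 * V ≤ -(w * (((k : ℤ) - q) ^ 2 + 4 * ((k : ℤ) - q))) -
      4 * (2 * e * (k + (q + g : ℕ) + ((k : ℤ) - q)))) :
    PB p V (mat m k q g x j ρ τ κ).det := by
  obtain ⟨s, hs⟩ := mat_eq m k q g hqk x j ρ τ κ
  rw [hs]
  have h2e : (-(2 * e) : ℤ) = -(e + e) := by ring
  refine P7Det241.PB_det_poly (p := p) k q hqk w (2 * e) hw (by linarith) _ _ s _ _ ?_ ?_ ?_ ?_ V ?_
  · intro i l
    rw [h2e]
    exact PB_fn (hx i l (by omega)) (hρ i)
  · intro i o
    rw [h2e]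
    rcases o with o | o
    · exact PB_fn (hx i o (by omega)) (hτ i)
    · exact PB_fn (hx i o (by omega)) (hκ i)
  · intro i o
    rw [h2e]
    exact PB_fn (hx i (q + o) (by omega)) (hτ i)
  · intro i l
    rw [Matrix.of_apply]
    by_cases h : q + (i : ℕ) < (l : ℕ)
    · refine (ht l (q + i) l.2 h).mono ?_
      rw [max_eq_right (by push_cast at *; omega)]
      push_cast
      linarith
    · rw [tC, if_neg h, C_0]
      exact PB.zero _
  · rw [Fintype.card_sum, Fintype.card_fin, Fintype.card_fin]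
    exact hV

end Mat

end Crest.Agent.R006.P57
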