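import Crest.Agent.R006.NVChain_664


/-!
Row 6, blocks P5 / P7: denominators of the germs (helper939).

`S` is a subring of `ℚ` which contains `1/2`; `Rd S d w f` : `d^(k+w) * coeff k f ∈ S` for all `k`;
`DD S d D` : `d / z ∈ S` for all integers `0 < |z| ≤ D`.

Main results (`S = ℤ_(p)`, `p` odd, `d = p ^ log_p D`; all positions `x` satisfy `|2x| ≤ D`):
* `padicNorm_coeff_PsiZ`, `padicNorm_coeff_PsiH0` : `≤ p^((k+3) log_p D)`;
* `padicNorm_coeff_GamZ`, `padicNorm_coeff_GamH0` : `≤ p^((k+2) log_p D)`;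
* `PB_cP`    : Taylor coefficients of `C(x, l)`, any integer or half-integer `x`, `2 l ≤ D`.
-/

set_option autoImplicit false

namespace Crest.Agent.R006.Germ939

open PowerSeries Finset
open Crest.Agent.R006.NV (pt)

/-- the filtration on power series -/
def Rd (S : Subring ℚ) (d : ℚ) (w : ℕ) (f : PowerSeries ℚ) : Prop :=
  ∀ k, d ^ (k + w) * coeff k f ∈ S

section ring

variable {S : Subring ℚ} {d : ℚ} {w w' : ℕ} {f g : PowerSeries ℚ}

lemma Rd.add (hf : Rd S d w f) (hg : Rd S d w g) : Rd S d w (f + g) := fun k => by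
  rw [map_add, mul_add]; exact S.add_mem (hf k) (hg k)

lemma Rd.neg (hf : Rd S d w f) : Rd S d w (-f) := fun k => by
  rw [map_neg, mul_neg]; exact S.neg_mem (hf k)

lemma Rd.sub (hf : Rd S d w f) (hg : Rd S d w g) : Rd S d w (f - g) := fun k => by
  rw [map_sub, mul_sub]; exact S.sub_mem (hf k) (hg k)

lemma Rd.zero : Rd S d w 0 := fun k => by simpa using S.zero_mem

lemma Rd.sum {ι : Type*} (s : Finset ι) (F : ι → PowerSeries ℚ) (h : ∀ i ∈ s, Rd S d w (F i)) :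
    Rd S d w (∑ i ∈ s, F i) := fun k => by
  rw [map_sum, Finset.mul_sum]
  exact S.sum_mem fun i hi => h i hi k

lemma Rd.mul (hf : Rd S d w f) (hg : Rd S d w' g) : Rd S d (w + w') (f * g) := fun k => by
  rw [coeff_mul, Finset.mul_sum]
  refine S.sum_mem fun ij hij => ?_
  have e : ij.1 + ij.2 = k := by simpa using hij
  have : d ^ (k + (w + w')) * (coeff ij.1 f * coeff ij.2 g)
      = (d ^ (ij.1 + w) * coeff ij.1 f) * (d ^ (ij.2 + w') * coeff ij.2 g) := by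
    rw [← e]; ring
  rw [this]
  exact S.mul_mem (hf _) (hg _)

lemma Rd.mono (hd : d ∈ S) (hf : Rd S d w f) (h : w ≤ w') : Rd S d w' f := fun k => by
  obtain ⟨c, rfl⟩ := Nat.exists_eq_add_of_le h
  have : d ^ (k + (w + c)) * coeff k f = d ^ c * (d ^ (k + w) * coeff k f) := by ring
  rw [this]
  exact S.mul_mem (S.pow_mem hd _) (hf k)

lemma Rd.C (c : ℚ) (hc : c ∈ S) (hd : d ∈ S) : Rd S d 0 (C c) := fun k => by
  rw [coeff_C]
  split_ifs
  · exact S.mul_mem (S.pow_mem hd _) hc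
  · simpa using S.zero_mem

lemma Rd.C_mul (c : ℚ) (hc : c ∈ S) (hf : Rd S d w f) : Rd S d w (PowerSeries.C c * f) := fun k => by
  rw [coeff_C_mul]
  have : d ^ (k + w) * (c * coeff k f) = c * (d ^ (k + w) * coeff k f) := by ring
  rw [this]
  exact S.mul_mem hc (hf k)

lemma Rd.one (hd : d ∈ S) : Rd S d 0 1 := by
  have := Rd.C (S := S) (d := d) 1 S.one_mem hd
  simpa using this

lemma Rd.pow (hd : d ∈ S) (hf : Rd S d w f) (n : ℕ) : Rd S d (n * w) (f ^ n) := by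
  induction n with
  | zero => simpa using Rd.one hd
  | succ n ih =>
    rw [pow_succ, Nat.succ_mul]
    exact ih.mul hf

lemma Rd.prod {ι : Type*} (hd : d ∈ S) (s : Finset ι) (F : ι → PowerSeries ℚ)
    (h : ∀ i ∈ s, Rd S d 0 (F i)) : Rd S d 0 (∏ i ∈ s, F i) := by
  classical
  induction s using Finset.induction_on with
  | empty => simpa using Rd.one hd
  | insert a s ha ih =>
    rw [Finset.prod_insert ha]
    have := (h a (Finset.mem_insert_self _ _)).mul (ih fun i hi => h i (Finset.mem_insert_of_mem hi))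
    simpa using this

lemma Rd_X (hd : d ∈ S) : Rd S d 0 (PowerSeries.X : PowerSeries ℚ) := fun k => by
  rw [coeff_X]
  split_ifs
  · simpa using S.pow_mem hd _
  · simpa using S.zero_mem

/-- `1 + ε / a` -/
lemma Rd.one_add (hd : d ∈ S) {a : ℚ} (ha : d * a⁻¹ ∈ S) :
    Rd S d 0 (1 + PowerSeries.C a⁻¹ * PowerSeries.X : PowerSeries ℚ) := by
  refine (Rd.one hd).add fun k => ?_
  rw [coeff_C_mul, coeff_X]
  split_ifs with h
  · subst h
    simpa using ha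
  · simpa using S.zero_mem

end ring

variable {S : Subring ℚ}

lemma pt_eq (a : ℚ) : pt a = X + PowerSeries.C a := rfl

lemma constCoeff_pt (a : ℚ) : constantCoeff (pt a) = a := by simp [pt_eq]

lemma pt_eq_mul (a : ℚ) (ha : a ≠ 0) : pt a = PowerSeries.C a * (1 + PowerSeries.C a⁻¹ * X) := by
  rw [pt_eq, mul_add, ← mul_assoc, ← map_mul, mul_inv_cancel₀ ha]
  simp [add_comm]

/-- explicit inverse of `a + ε` -/
lemma pt_inv (a : ℚ) (ha : a ≠ 0) : (pt a)⁻¹ = PowerSeries.mk fun k => (-1) ^ k * a⁻¹ ^ (k + 1) := by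
  have h0 : constantCoeff (pt a) ≠ 0 := by rwa [constCoeff_pt]
  symm
  rw [PowerSeries.eq_inv_iff_mul_eq_one h0]
  ext n
  rw [pt_eq, mul_add, map_add, coeff_mul_C]
  cases n with
  | zero =>
    simp [coeff_mk, ha]
  | succ n =>
    rw [coeff_succ_mul_X, coeff_mk, coeff_mk, coeff_one]
    rw [if_neg (Nat.succ_ne_zero n)]
    rw [pow_succ (-1 : ℚ) n, pow_succ a⁻¹ (n + 1)]
    field_simp
    ring

lemma Rd_pt_inv {d : ℚ} {a : ℚ} (ha : a ≠ 0) (h : d * a⁻¹ ∈ S) : Rd S d 1 (pt a)⁻¹ := fun k => by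
  rw [pt_inv a ha, coeff_mk]
  have : d ^ (k + 1) * ((-1) ^ k * a⁻¹ ^ (k + 1)) = (-1) ^ k * (d * a⁻¹) ^ (k + 1) := by
    rw [mul_pow]; ring
  rw [this]
  exact S.mul_mem (S.pow_mem (S.neg_mem S.one_mem) _) (S.pow_mem h _)

/-- `∏_{i<j} (x + ε - i)` -/
noncomputable def PP (x : ℚ) (j : ℕ) : PowerSeries ℚ := ∏ i ∈ range j, pt (x - i)

lemma PP_zero (x : ℚ) : PP x 0 = 1 := by simp [PP]
lemma PP_succ (x : ℚ) (j : ℕ) : PP x (j + 1) = PP x j * pt (x - j) := by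
  rw [PP, prod_range_succ, PP]
lemma PP_succ' (x : ℚ) (j : ℕ) : PP (x + 1) (j + 1) = pt (x + 1) * PP x j := by
  rw [PP, prod_range_succ', PP, mul_comm]
  congr 1
  · simp
  · refine prod_congr rfl fun i _ => ?_
    congr 1; push_cast; ring

lemma constCoeff_PP (x : ℚ) (j : ℕ) : constantCoeff (PP x j) = ∏ i ∈ range j, (x - i) := by
  rw [PP, map_prod]
  exact prod_congr rfl fun i _ => constCoeff_pt _

/-- binomial coefficient `C(x, j)` -/
def bin (x : ℚ) (j : ℕ) : ℚ := (∏ i ∈ range j, (x - i)) / (j.factorial : ℚ)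

/-- Taylor series of `C(x + ε, j)` -/
noncomputable def Cb (x : ℚ) (j : ℕ) : PowerSeries ℚ := PowerSeries.C ((j.factorial : ℚ)⁻¹) * PP x j

/-- `j! / ∏_{i ≤ j} (y + ε - i)` -/
noncomputable def B (y : ℚ) (j : ℕ) : PowerSeries ℚ := PowerSeries.C (j.factorial : ℚ) * (PP y (j + 1))⁻¹

lemma bin_zero (x : ℚ) : bin x 0 = 1 := by simp [bin]

lemma bin_pascal (x : ℚ) (j : ℕ) : bin (x + 1) (j + 1) = bin x (j + 1) + bin x j := by
  unfold bin
  have h1 : ∏ i ∈ range (j + 1), (x + 1 - (i : ℚ)) = (x + 1) * ∏ i ∈ range j, (x - (i : ℚ)) := by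
    rw [prod_range_succ', mul_comm]
    congr 1
    · simp
    · refine prod_congr rfl fun i _ => ?_
      push_cast; ring
  rw [h1, prod_range_succ, Nat.factorial_succ]
  have hj : ((j.factorial : ℕ) : ℚ) ≠ 0 := by exact_mod_cast j.factorial_ne_zero
  have hj' : ((j : ℚ) + 1) ≠ 0 := by positivity
  push_cast
  field_simp
  ring

lemma bin_zero_left (j : ℕ) : bin 0 (j + 1) = 0 := by
  unfold bin
  rw [prod_range_succ']
  simp

lemma bin_neg_half (j : ℕ) : bin (-1 / 2) j = (-1) ^ j * (Nat.centralBinom j : ℚ) / 4 ^ j := by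
  induction j with
  | zero => simp [bin]
  | succ j ih =>
    have h1 : bin (-1 / 2) (j + 1) = bin (-1 / 2) j * ((-1 / 2 - j) / (j + 1)) := by
      unfold bin
      rw [prod_range_succ, Nat.factorial_succ]
      have hj : ((j.factorial : ℕ) : ℚ) ≠ 0 := by exact_mod_cast j.factorial_ne_zero
      have hj' : ((j : ℚ) + 1) ≠ 0 := by positivity
      push_cast
      field_simp
    rw [h1, ih]
    have hc : ((j : ℚ) + 1) * (Nat.centralBinom (j + 1) : ℚ) = 2 * (2 * j + 1) * Nat.centralBinom j := by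
      exact_mod_cast Nat.succ_mul_centralBinom_succ j
    have hj' : ((j : ℚ) + 1) ≠ 0 := by positivity
    have hC : (Nat.centralBinom (j + 1) : ℚ) = 2 * (2 * j + 1) * Nat.centralBinom j / (j + 1) := by
      field_simp; linarith
    rw [hC, pow_succ, pow_succ]
    field_simp
    ring

/-- integers and half-integers -/
def HI (x : ℚ) : Prop := ∃ z : ℤ, 2 * x = z

lemma HI.half {x : ℚ} (h : HI x) : HI (x + 1 / 2) := by
  obtain ⟨z, hz⟩ := h
  exact ⟨z + 1, by push_cast; linarith⟩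

lemma HI.sub_half {x : ℚ} (h : HI x) : HI (x - 1 / 2) := by
  obtain ⟨z, hz⟩ := h
  exact ⟨z - 1, by push_cast; linarith⟩

lemma HI.add_int {x : ℚ} (h : HI x) (n : ℤ) : HI (x + n) := by
  obtain ⟨z, hz⟩ := h
  exact ⟨z + 2 * n, by push_cast; linarith⟩

lemma HI.add_nat {x : ℚ} (h : HI x) (n : ℕ) : HI (x + n) := by
  have := h.add_int (n : ℤ)
  simpa using this

lemma HI.sub_nat {x : ℚ} (h : HI x) (n : ℕ) : HI (x - n) := by
  have := h.add_int (-(n : ℤ))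
  simpa [sub_eq_add_neg] using this

lemma HI.zero : HI 0 := ⟨0, by simp⟩

lemma Cb_pascal (x : ℚ) (j : ℕ) : Cb (x + 1) (j + 1) = Cb x (j + 1) + Cb x j := by
  unfold Cb
  rw [PP_succ', PP_succ, Nat.factorial_succ]
  have hj : ((j : ℚ) + 1) ≠ 0 := by positivity
  have e1 : pt (x + 1) = pt (x - j) + PowerSeries.C ((j : ℚ) + 1) := by
    rw [pt_eq, pt_eq, add_assoc, ← map_add]
    congr 2; ring
  have hc : PowerSeries.C ((j : ℚ) + 1)⁻¹ * PowerSeries.C ((j : ℚ) + 1) = 1 := by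
    rw [← map_mul, inv_mul_cancel₀ hj, map_one]
  push_cast
  rw [mul_inv, map_mul, e1]
  linear_combination (PowerSeries.C ((j.factorial : ℚ)⁻¹) * PP x j) * hc

lemma Cb_zero_right (x : ℚ) : Cb x 0 = 1 := by simp [Cb, PP_zero]

lemma Cb_eq (x : ℚ) (j : ℕ) (h : ∀ i < j, x - i ≠ 0) :
    Cb x j = PowerSeries.C (bin x j) * ∏ i ∈ range j, (1 + PowerSeries.C (x - i)⁻¹ * X) := by
  have : PP x j = PowerSeries.C (∏ i ∈ range j, (x - i)) *
      ∏ i ∈ range j, (1 + PowerSeries.C (x - (i : ℚ))⁻¹ * X) := by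
    rw [map_prod, ← prod_mul_distrib, PP]
    exact prod_congr rfl fun i hi => pt_eq_mul _ (h i (mem_range.mp hi))
  rw [Cb, this, ← mul_assoc, ← map_mul, bin]
  congr 2
  rw [div_eq_inv_mul]

/-- `d / z ∈ S` for `0 < |z| ≤ D` -/
def DD (S : Subring ℚ) (d : ℚ) (D : ℕ) : Prop := ∀ z : ℤ, z ≠ 0 → |z| ≤ D → d * (z : ℚ)⁻¹ ∈ S

lemma Cb_zero_left (j : ℕ) :
    Cb 0 (j + 1) = (PowerSeries.C ((j : ℚ) + 1)⁻¹ * PowerSeries.X) * Cb (-1) j := by
  have h1 := Cb_pascal (-1) j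
  rw [neg_add_cancel] at h1
  unfold Cb
  have h2 := PP_succ' (-1) j
  rw [neg_add_cancel] at h2
  rw [h2, Nat.factorial_succ, pt_eq, map_zero, add_zero]
  push_cast
  rw [mul_inv, map_mul]
  ring

lemma bin_neg_one (j : ℕ) : bin (-1) j = (-1) ^ j := by
  induction j with
  | zero => simp [bin]
  | succ j ih =>
    have h := bin_pascal (-1) j
    rw [neg_add_cancel, bin_zero_left, ih] at h
    rw [pow_succ]; linarith

lemma Rd_Cb_aux {d : ℚ} (hd : d ∈ S) (x0 : ℚ) (J : ℕ) (h0 : ∀ j ≤ J, Rd S d 0 (Cb x0 j)) (z : ℤ) :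
    ∀ j ≤ J, Rd S d 0 (Cb (x0 + z) j) := by
  intro j
  induction j generalizing z with
  | zero => intro _; rw [Cb_zero_right]; exact Rd.one hd
  | succ j ih =>
    intro hj
    induction z using Int.induction_on with
    | zero => simpa using h0 (j + 1) hj
    | succ n hn =>
      have : (x0 + ((n : ℤ) + 1 : ℤ) : ℚ) = (x0 + (n : ℤ)) + 1 := by push_cast; ring
      rw [this, Cb_pascal]
      exact hn.add (ih _ (by omega))
    | pred n hn =>
      have h := Cb_pascal (x0 + (-(n : ℤ) - 1 : ℤ)) j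
      have : (x0 + (-(n : ℤ) - 1 : ℤ) : ℚ) + 1 = x0 + (-(n : ℤ) : ℤ) := by push_cast; ring
      rw [this] at h
      have h' : Cb (x0 + (-(n : ℤ) - 1 : ℤ)) (j + 1) =
          Cb (x0 + (-(n : ℤ) : ℤ)) (j + 1) - Cb (x0 + (-(n : ℤ) - 1 : ℤ)) j := by
        rw [h]; ring
      rw [h']
      exact hn.sub (ih _ (by omega))

/-- Taylor series of `C(x+ε, j)` for every integer or half-integer `x` -/
theorem Rd_Cb (hS : (1 / 2 : ℚ) ∈ S) {d : ℚ} {D : ℕ} (hd : d ∈ S) (hD : DD S d D) {x : ℚ} (hx : HI x)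
    (J : ℕ) (hJ : 2 * J ≤ D) : ∀ j ≤ J, Rd S d 0 (Cb x j) := by
  obtain ⟨z, hz⟩ := hx
  rcases Int.even_or_odd' z with ⟨m, hm | hm⟩
  · have e : x = 0 + (m : ℤ) := by
      rw [hm] at hz; push_cast at hz; linarith
    rw [e]
    refine Rd_Cb_aux hd 0 J (fun j hj => ?_) m
    cases j with
    | zero => rw [Cb_zero_right]; exact Rd.one hd
    | succ j =>
      rw [Cb_zero_left]
      have h1 : Rd S d 0 (PowerSeries.C ((j : ℚ) + 1)⁻¹ * PowerSeries.X) := fun k => by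
        rw [coeff_C_mul, coeff_X]
        split_ifs with h
        · subst h
          have := hD ((j : ℤ) + 1) (by omega) (by rw [abs_of_nonneg (by omega)]; omega)
          push_cast at this
          simpa using this
        · simpa using S.zero_mem
      have h2 : Rd S d 0 (Cb (-1) j) := by
        rw [Cb_eq (-1) j fun i _ => by
          have : (0 : ℚ) ≤ i := Nat.cast_nonneg i
          intro h; linarith]
        refine Rd.C_mul _ ?_ (Rd.prod hd _ _ fun i hi => ?_)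
        · rw [bin_neg_one]; exact S.pow_mem (S.neg_mem S.one_mem) _
        · refine Rd.one_add hd ?_
          have hi' := mem_range.mp hi
          have := hD (-1 - (i : ℤ)) (by omega) (by rw [abs_of_nonpos (by omega)]; omega)
          push_cast at this
          exact this
      have := h1.mul h2
      simpa using this
  · have e : x = -1 / 2 + ((m + 1 : ℤ) : ℚ) := by
      rw [hm] at hz; push_cast at hz ⊢; linarith
    rw [e]
    refine Rd_Cb_aux hd (-1 / 2) J (fun j hj => ?_) (m + 1)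
    rw [Cb_eq (-1 / 2) j fun i _ => by
      have : (0 : ℚ) ≤ i := Nat.cast_nonneg i
      intro h; linarith]
    refine Rd.C_mul _ ?_ (Rd.prod hd _ _ fun i hi => ?_)
    · rw [bin_neg_half]
      have : (-1 : ℚ) ^ j * (Nat.centralBinom j : ℚ) / 4 ^ j
          = (-1) ^ j * (Nat.centralBinom j : ℚ) * ((1 / 2) ^ 2) ^ j := by
        rw [div_eq_mul_inv, ← inv_pow]; norm_num
      rw [this]
      refine S.mul_mem (S.mul_mem (S.pow_mem (S.neg_mem S.one_mem) _) (natCast_mem S _))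
        (S.pow_mem (S.pow_mem hS _) _)
    · refine Rd.one_add hd ?_
      have hi' := mem_range.mp hi
      have h3 := hD (-1 - 2 * (i : ℤ)) (by omega) (by rw [abs_of_nonpos (by omega)]; omega)
      have e2 : d * (-1 / 2 - (i : ℚ))⁻¹ = 2 * (d * ((-1 - 2 * (i : ℤ) : ℤ) : ℚ)⁻¹) := by
        have hi0 : (0 : ℚ) ≤ i := Nat.cast_nonneg i
        have n1 : (-1 / 2 - (i : ℚ)) ≠ 0 := by intro h; linarith
        have n2 : (-1 - 2 * (i : ℚ)) ≠ 0 := by intro h; linarith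
        push_cast
        field_simp
      rw [e2]
      have h2m : (2 : ℚ) ∈ S := by simpa using natCast_mem S 2
      exact S.mul_mem h2m h3

lemma ne_PP {y : ℚ} {j : ℕ} (h : ∀ i < j, y - (i : ℚ) ≠ 0) : constantCoeff (PP y j) ≠ 0 := by
  rw [constCoeff_PP]
  exact prod_ne_zero_iff.mpr fun i hi => h i (mem_range.mp hi)

lemma inv_mul_eq {f g h : PowerSeries ℚ} (hf : constantCoeff f ≠ 0) (hg : constantCoeff g ≠ 0)
    (e : f * h = g) : f⁻¹ = h * g⁻¹ := by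
  rw [PowerSeries.inv_eq_iff_mul_eq_one hf]
  have : h * g⁻¹ * f = g * g⁻¹ := by rw [← e]; ring
  first
    | exact (mul_comm _ _).trans (this.trans (PowerSeries.mul_inv_cancel g hg))
    | exact this.trans (PowerSeries.mul_inv_cancel g hg)

/-- the difference recursion -/
lemma B_succ (y : ℚ) (j : ℕ) (h : ∀ i < j + 2, y - (i : ℚ) ≠ 0) :
    B y (j + 1) = B (y - 1) j - B y j := by
  have hP2 : constantCoeff (PP y (j + 2)) ≠ 0 := ne_PP h
  have hP1 : constantCoeff (PP y (j + 1)) ≠ 0 := ne_PP fun i hi => h i (by omega)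
  have hP1' : constantCoeff (PP (y - 1) (j + 1)) ≠ 0 := ne_PP fun i hi => by
    have := h (i + 1) (by omega)
    push_cast at this
    intro h'; apply this; linarith
  have e1 : PP y (j + 1) * pt (y - (j + 1 : ℕ)) = PP y (j + 2) := (PP_succ y (j + 1)).symm
  have e2 : PP (y - 1) (j + 1) * pt y = PP y (j + 2) := by
    have := PP_succ' (y - 1) (j + 1)
    rw [sub_add_cancel] at this
    rw [this]; ring
  have i1 := inv_mul_eq hP1 hP2 e1
  have i2 := inv_mul_eq hP1' hP2 e2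
  unfold B
  rw [i1, i2, Nat.factorial_succ]
  have e3 : pt y - pt (y - ((j + 1 : ℕ) : ℚ)) = PowerSeries.C ((j + 1 : ℕ) : ℚ) := by
    rw [pt_eq, pt_eq]
    rw [map_sub]; ring
  have e4 : PowerSeries.C (((j + 1) * j.factorial : ℕ) : ℚ)
      = PowerSeries.C ((j + 1 : ℕ) : ℚ) * PowerSeries.C (j.factorial : ℚ) := by
    rw [← map_mul]; push_cast; rfl
  rw [e4, ← e3]
  ring

theorem Rd_B {d : ℚ} (j : ℕ) : ∀ {y : ℚ}, (∀ i < j + 1, y - (i : ℚ) ≠ 0 ∧ d * (y - (i : ℚ))⁻¹ ∈ S) →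
    Rd S d 1 (B y j) := by
  induction j with
  | zero =>
    intro y h
    have h0 := h 0 (by omega)
    simp only [Nat.cast_zero, sub_zero] at h0
    have : B y 0 = (pt y)⁻¹ := by simp [B, PP]
    rw [this]
    exact Rd_pt_inv h0.1 h0.2
  | succ j ih =>
    intro y h
    rw [B_succ y j fun i hi => (h i (by omega)).1]
    refine (ih fun i hi => ?_).sub (ih fun i hi => h i (by omega))
    have := h (i + 1) (by omega)
    push_cast at this
    have e : y - 1 - (i : ℚ) = y - (i + 1) := by ring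
    rw [e]
    exact this

/-! ### recursions for the building blocks -/

lemma two_pt_add_one (y : ℚ) : 2 * pt y + 1 = PowerSeries.C (2 : ℚ) * pt (y + 1 / 2) := by
  have h2 : PowerSeries.C (2 : ℚ) = (2 : PowerSeries ℚ) := map_ofNat PowerSeries.C 2
  rw [pt_eq, pt_eq, map_add, h2, mul_add, mul_add, mul_add]
  have : (2 : PowerSeries ℚ) * PowerSeries.C (1 / 2 : ℚ) = 1 := by
    rw [← h2, ← map_mul]; norm_num
  rw [this]; ring

lemma C_inv (a : ℚ) (ha : a ≠ 0) : (PowerSeries.C a)⁻¹ = PowerSeries.C a⁻¹ := by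
  have h0 : constantCoeff (PowerSeries.C a) ≠ 0 := by simpa using ha
  rw [PowerSeries.inv_eq_iff_mul_eq_one h0, ← map_mul, inv_mul_cancel₀ ha, map_one]

lemma Cb_succ_top (x : ℚ) (j : ℕ) :
    Cb (x + 1) (j + 1) = PowerSeries.C ((j : ℚ) + 1)⁻¹ * (pt (x + 1) * Cb x j) := by
  unfold Cb
  rw [PP_succ', Nat.factorial_succ]
  push_cast
  rw [mul_inv, map_mul]
  ring

lemma Cb_succ_bot (x : ℚ) (j : ℕ) :
    Cb x (j + 1) = PowerSeries.C ((j : ℚ) + 1)⁻¹ * (pt (x - j) * Cb x j) := by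
  unfold Cb
  rw [PP_succ, Nat.factorial_succ]
  push_cast
  rw [mul_inv, map_mul]
  ring

lemma B_zero (y : ℚ) : B y 0 = (pt y)⁻¹ := by simp [B, PP]

lemma B_succ_top (y : ℚ) (j : ℕ) :
    B (y + 1) (j + 1) = PowerSeries.C ((j : ℚ) + 1) * ((pt (y + 1))⁻¹ * B y j) := by
  unfold B
  rw [PP_succ', Nat.factorial_succ, PowerSeries.mul_inv_rev]
  push_cast
  rw [map_mul, map_add, map_one]
  ring

lemma B_succ_bot (y : ℚ) (j : ℕ) :
    B y (j + 1) = PowerSeries.C ((j : ℚ) + 1) * ((pt (y - (j + 1 : ℕ)))⁻¹ * B y j) := by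
  unfold B
  rw [PP_succ y (j + 1), Nat.factorial_succ, PowerSeries.mul_inv_rev]
  push_cast
  rw [map_mul, map_add, map_one]
  ring

/-- `∏_{i<j} (2(y-1-i)+1) / ∏_{i≤j} (y-i)` -/
noncomputable def r (y : ℚ) (j : ℕ) : PowerSeries ℚ :=
  PowerSeries.C ((2 : ℚ) ^ j) * (Cb (y - 1 / 2) j * B y j)

/-- `∏_{i<n} (2(y-1-i)+1) / ∏_{i<n} (y-i)` -/
noncomputable def e (y : ℚ) (n : ℕ) : PowerSeries ℚ :=
  PowerSeries.C ((2 : ℚ) ^ n) * (PP (y - 1 / 2) n * (PP y n)⁻¹)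

lemma r_zero (y : ℚ) : r y 0 = (pt y)⁻¹ := by
  simp [r, Cb, PP_zero, B_zero]

lemma r_succ (y : ℚ) (j : ℕ) :
    r (y + 1) (j + 1) = (2 * pt y + 1) * ((pt (y + 1))⁻¹ * r y j) := by
  unfold r
  have e1 : y + 1 - 1 / 2 = (y - 1 / 2) + 1 := by ring
  have e2 : y - 1 / 2 + 1 = y + 1 / 2 := by ring
  have hj : ((j : ℚ) + 1) ≠ 0 := by positivity
  have hc : PowerSeries.C ((j : ℚ) + 1)⁻¹ * PowerSeries.C ((j : ℚ) + 1) = 1 := by
    rw [← map_mul, inv_mul_cancel₀ hj, map_one]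
  rw [e1, Cb_succ_top, B_succ_top, e2, two_pt_add_one, pow_succ, map_mul]
  linear_combination (PowerSeries.C ((2 : ℚ) ^ j) * PowerSeries.C (2 : ℚ) * pt (y + 1 / 2) *
    Cb (y - 1 / 2) j * (pt (y + 1))⁻¹ * B y j) * hc

lemma e_zero (y : ℚ) : e y 0 = 1 := by
  simp [e, PP_zero]

lemma e_succ (y : ℚ) (j : ℕ) :
    e (y + 1) (j + 1) = (2 * pt y + 1) * ((pt (y + 1))⁻¹ * e y j) := by
  unfold e
  have e1 : y + 1 - 1 / 2 = (y - 1 / 2) + 1 := by ring
  have e2 : y - 1 / 2 + 1 = y + 1 / 2 := by ring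
  rw [e1, PP_succ', PP_succ', e2, two_pt_add_one, pow_succ, map_mul, PowerSeries.mul_inv_rev]
  ring

/-- `∏_{i<j} (y+1+i) / ∏_{i≤j} (2(y+i)+1)` -/
noncomputable def r' (y : ℚ) (j : ℕ) : PowerSeries ℚ :=
  PowerSeries.C (((2 : ℚ) ^ (j + 1))⁻¹) * (Cb (y + j) j * B (y + j + 1 / 2) j)

/-- `∏_{i<n} (y-i) / ∏_{i<n} (2(y-1-i)+1)` -/
noncomputable def e' (y : ℚ) (n : ℕ) : PowerSeries ℚ :=
  PowerSeries.C (((2 : ℚ) ^ n)⁻¹) * (PP y n * (PP (y - 1 / 2) n)⁻¹)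

lemma r'_zero (y : ℚ) : r' (y - 1) 0 = (2 * pt (y - 1) + 1)⁻¹ := by
  unfold r'
  rw [two_pt_add_one, PowerSeries.mul_inv_rev, C_inv 2 (by norm_num)]
  simp only [Nat.cast_zero, add_zero, zero_add, pow_one, Cb, PP_zero, Nat.factorial_zero, Nat.cast_one,
    inv_one, map_one, one_mul, B_zero]
  ring

lemma r'_succ (y : ℚ) (j : ℕ) :
    r' (y - 1) (j + 1) = pt y * ((2 * pt (y - 1) + 1)⁻¹ * r' y j) := by
  unfold r'
  have hj : ((j : ℚ) + 1) ≠ 0 := by positivity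
  have hc : PowerSeries.C ((j : ℚ) + 1)⁻¹ * PowerSeries.C ((j : ℚ) + 1) = 1 := by
    rw [← map_mul, inv_mul_cancel₀ hj, map_one]
  have e1 : y - 1 + ((j + 1 : ℕ) : ℚ) = y + j := by push_cast; ring
  rw [e1, Cb_succ_bot, B_succ_bot]
  have e2 : y + (j : ℚ) - j = y := by ring
  have e3 : y + (j : ℚ) + 1 / 2 - ((j + 1 : ℕ) : ℚ) = y - 1 + 1 / 2 := by push_cast; ring
  rw [e2, e3, two_pt_add_one, PowerSeries.mul_inv_rev, C_inv 2 (by norm_num),
    pow_succ (2 : ℚ) (j + 1), mul_inv, map_mul]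
  linear_combination (PowerSeries.C (((2 : ℚ) ^ (j + 1))⁻¹) * PowerSeries.C (2 : ℚ)⁻¹ * pt y *
    Cb (y + j) j * (pt (y - 1 + 1 / 2))⁻¹ * B (y + j + 1 / 2) j) * hc

lemma e'_zero (y : ℚ) : e' y 0 = 1 := by simp [e', PP_zero]

lemma e'_succ (y : ℚ) (m : ℕ) :
    e' y (m + 1) = pt (y - m) * ((2 * pt (y - m - 1) + 1)⁻¹ * e' y m) := by
  unfold e'
  rw [PP_succ, PP_succ, two_pt_add_one, PowerSeries.mul_inv_rev, PowerSeries.mul_inv_rev,
    C_inv 2 (by norm_num), pow_succ (2 : ℚ) m, mul_inv, map_mul]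
  rw [show y - (m : ℚ) - 1 + 1 / 2 = y - 1 / 2 - m by ring]
  ring

/-- the inhomogeneous term -/
noncomputable def cc (y : ℚ) : PowerSeries ℚ := -(PowerSeries.C (1 / 2) * (3 * pt y + 2))

/-- closed form of the forward chain -/
theorem forward (x0 : ℚ) (ψ : ℕ → PowerSeries ℚ)
    (h : ∀ n : ℕ, ψ (n + 1) = (cc (x0 + n) - (2 * pt (x0 + n) + 1) ^ 3 * ψ n)
      * (pt (x0 + n + 1) ^ 3)⁻¹) (n : ℕ) :
    ψ n = ∑ j ∈ range n, (-1) ^ j * (r (x0 + n) j ^ 3 * cc (x0 + n - 1 - j))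
      + (-1) ^ n * (e (x0 + n) n ^ 3 * ψ 0) := by
  induction n with
  | zero => simp [e_zero]
  | succ n ih =>
    rw [h n, sum_range_succ']
    have hinv : (pt (x0 + n + 1) ^ 3)⁻¹ = (pt (x0 + n + 1))⁻¹ ^ 3 := by
      rw [pow_succ, pow_succ, pow_one, PowerSeries.mul_inv_rev, PowerSeries.mul_inv_rev]; ring
    have ec : x0 + ((n + 1 : ℕ) : ℚ) = x0 + n + 1 := by push_cast; ring
    rw [hinv, ec, r_zero, e_succ]
    have e1 : ∀ j ∈ range n, (-1 : PowerSeries ℚ) ^ (j + 1) *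
        (r (x0 + n + 1) (j + 1) ^ 3 * cc (x0 + n + 1 - 1 - ((j + 1 : ℕ) : ℚ)))
        = -((2 * pt (x0 + n) + 1) ^ 3 * (pt (x0 + n + 1))⁻¹ ^ 3) *
          ((-1) ^ j * (r (x0 + n) j ^ 3 * cc (x0 + n - 1 - j))) := by
      intro j _
      rw [r_succ]
      have : x0 + (n : ℚ) + 1 - 1 - ((j + 1 : ℕ) : ℚ) = x0 + n - 1 - j := by push_cast; ring
      rw [this, pow_succ (-1 : PowerSeries ℚ) j]
      ring
    rw [sum_congr rfl e1, ← mul_sum]
    have e2 : x0 + (n : ℚ) + 1 - 1 - ((0 : ℕ) : ℚ) = x0 + n := by push_cast; ring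
    rw [e2, pow_zero, one_mul, pow_succ (-1 : PowerSeries ℚ) n]
    linear_combination (-((2 * pt (x0 + n) + 1) ^ 3 * (pt (x0 + n + 1))⁻¹ ^ 3)) * ih

/-- closed form of the backward chain -/
theorem backward (y0 : ℚ) (φ : ℕ → PowerSeries ℚ)
    (h : ∀ m : ℕ, φ (m + 1) = (cc (y0 - m - 1) - pt (y0 - m) ^ 3 * φ m)
      * ((2 * pt (y0 - m - 1) + 1) ^ 3)⁻¹) (m : ℕ) :
    φ m = ∑ j ∈ range m, (-1) ^ j * (r' (y0 - m) j ^ 3 * cc (y0 - m + j))
      + (-1) ^ m * (e' y0 m ^ 3 * φ 0) := by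
  induction m with
  | zero => simp [e'_zero]
  | succ m ih =>
    rw [h m, sum_range_succ']
    have hinv : ((2 * pt (y0 - m - 1) + 1) ^ 3)⁻¹ = (2 * pt (y0 - m - 1) + 1)⁻¹ ^ 3 := by
      rw [pow_succ, pow_succ, pow_one, PowerSeries.mul_inv_rev, PowerSeries.mul_inv_rev]; ring
    have ec : y0 - ((m + 1 : ℕ) : ℚ) = y0 - m - 1 := by push_cast; ring
    rw [hinv, ec, r'_zero, e'_succ]
    have e1 : ∀ j ∈ range m, (-1 : PowerSeries ℚ) ^ (j + 1) *
        (r' (y0 - m - 1) (j + 1) ^ 3 * cc (y0 - m - 1 + ((j + 1 : ℕ) : ℚ)))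
        = -(pt (y0 - m) ^ 3 * (2 * pt (y0 - m - 1) + 1)⁻¹ ^ 3) *
          ((-1) ^ j * (r' (y0 - m) j ^ 3 * cc (y0 - m + j))) := by
      intro j _
      rw [r'_succ]
      have : y0 - (m : ℚ) - 1 + ((j + 1 : ℕ) : ℚ) = y0 - m + j := by push_cast; ring
      rw [this, pow_succ (-1 : PowerSeries ℚ) j]
      ring
    rw [sum_congr rfl e1, ← mul_sum]
    have e2 : y0 - (m : ℚ) - 1 + ((0 : ℕ) : ℚ) = y0 - m - 1 := by push_cast; ring
    rw [e2, pow_zero, one_mul, pow_succ (-1 : PowerSeries ℚ) m]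
    linear_combination (-(pt (y0 - m) ^ 3 * (2 * pt (y0 - m - 1) + 1)⁻¹ ^ 3)) * ih

/-! ### bounds for the building blocks -/

section bounds

variable {d : ℚ} {D : ℕ}

/-- `1/x` for an integer or half-integer `x ≠ 0`, `|2x| ≤ D` -/
lemma DD.inv_mem (hD : DD S d D) {x : ℚ} (hx : HI x) (h0 : x ≠ 0) (hb : |2 * x| ≤ D) :
    d * x⁻¹ ∈ S := by
  obtain ⟨z, hz⟩ := hx
  have hz0 : z ≠ 0 := by
    rintro rfl
    apply h0
    simpa using hz
  have h1 := hD z hz0 (by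
    rw [hz] at hb
    exact_mod_cast hb)
  have e1 : d * x⁻¹ = 2 * (d * (z : ℚ)⁻¹) := by
    rw [← hz]
    field_simp
  rw [e1]
  have h2m : (2 : ℚ) ∈ S := by simpa using natCast_mem S 2
  exact S.mul_mem h2m h1

/-- `B y j`: all of `y, y-1, .., y-j` are nonzero and bounded -/
lemma Rd_B' (hD : DD S d D) {y : ℚ} (hy : HI y) (j : ℕ)
    (h : ∀ i < j + 1, y - (i : ℚ) ≠ 0 ∧ |2 * (y - (i : ℚ))| ≤ D) : Rd S d 1 (B y j) :=
  Rd_B j fun i hi => ⟨(h i hi).1, hD.inv_mem (hy.sub_nat i) (h i hi).1 (h i hi).2⟩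

lemma Rd_r (hS : (1 / 2 : ℚ) ∈ S) (hd : d ∈ S) (hD : DD S d D) {y : ℚ} (hy : HI y) (j : ℕ)
    (hj : 2 * j ≤ D)
    (h : ∀ i < j + 1, y - (i : ℚ) ≠ 0 ∧ |2 * (y - (i : ℚ))| ≤ D) : Rd S d 1 (r y j) := by
  unfold r
  have h2m : (2 : ℚ) ∈ S := by simpa using natCast_mem S 2
  refine Rd.C_mul _ (S.pow_mem h2m _) ?_
  have := (Rd_Cb hS hd hD hy.sub_half j hj j le_rfl).mul (Rd_B' hD hy j h)
  simpa using this

lemma Rd_r' (hS : (1 / 2 : ℚ) ∈ S) (hd : d ∈ S) (hD : DD S d D) {y : ℚ} (hy : HI y) (j : ℕ)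
    (hj : 2 * j ≤ D)
    (h : ∀ i < j + 1, y + j + 1 / 2 - (i : ℚ) ≠ 0 ∧ |2 * (y + j + 1 / 2 - (i : ℚ))| ≤ D) :
    Rd S d 1 (r' y j) := by
  unfold r'
  have h2m : ((2 : ℚ) ^ (j + 1))⁻¹ ∈ S := by
    rw [← inv_pow]; exact S.pow_mem (by simpa using hS) _
  refine Rd.C_mul _ h2m ?_
  have := (Rd_Cb hS hd hD (hy.add_nat j) j hj j le_rfl).mul (Rd_B' hD (hy.add_nat j).half j h)
  simpa using this

/-- `PP y n / PP z n = n C(y+ε,n) B(z,n-1)` -/
lemma quot_eq (y z : ℚ) (n : ℕ) :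
    PP y (n + 1) * (PP z (n + 1))⁻¹ = PowerSeries.C ((n : ℚ) + 1) * (Cb y (n + 1) * B z n) := by
  unfold Cb B
  have hf : ((n.factorial : ℕ) : ℚ) ≠ 0 := by exact_mod_cast n.factorial_ne_zero
  have hj : ((n : ℚ) + 1) ≠ 0 := by positivity
  have hc : PowerSeries.C ((n : ℚ) + 1) * (PowerSeries.C (((n + 1).factorial : ℚ)⁻¹) *
      PowerSeries.C (n.factorial : ℚ)) = 1 := by
    rw [← map_mul, ← map_mul, Nat.factorial_succ]
    push_cast
    rw [← map_one PowerSeries.C]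
    congr 1
    field_simp
  linear_combination (-(PP y (n + 1) * (PP z (n + 1))⁻¹)) * hc

lemma Rd_quot (hS : (1 / 2 : ℚ) ∈ S) (hd : d ∈ S) (hD : DD S d D) {y z : ℚ} (hy : HI y) (hz : HI z)
    (n : ℕ) (hn : 2 * n ≤ D)
    (h : ∀ i < n, z - (i : ℚ) ≠ 0 ∧ |2 * (z - (i : ℚ))| ≤ D) :
    Rd S d 1 (PP y n * (PP z n)⁻¹) := by
  cases n with
  | zero =>
    simp only [PP_zero]
    have := (Rd.one (S := S) hd).mono hd (Nat.zero_le 1)
    simpa using this
  | succ n =>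
    rw [quot_eq]
    have hm : ((n : ℚ) + 1) ∈ S := by
      have := natCast_mem S (n + 1)
      simpa using this
    refine Rd.C_mul _ hm ?_
    have := (Rd_Cb hS hd hD hy (n + 1) hn (n + 1) le_rfl).mul (Rd_B' hD hz n h)
    simpa using this

lemma Rd_e (hS : (1 / 2 : ℚ) ∈ S) (hd : d ∈ S) (hD : DD S d D) {y : ℚ} (hy : HI y)
    (n : ℕ) (hn : 2 * n ≤ D) (h : ∀ i < n, y - (i : ℚ) ≠ 0 ∧ |2 * (y - (i : ℚ))| ≤ D) :
    Rd S d 1 (e y n) := by
  unfold e
  have h2m : (2 : ℚ) ∈ S := by simpa using natCast_mem S 2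
  exact Rd.C_mul _ (S.pow_mem h2m _) (Rd_quot hS hd hD hy.sub_half hy n hn h)

lemma Rd_e' (hS : (1 / 2 : ℚ) ∈ S) (hd : d ∈ S) (hD : DD S d D) {y : ℚ} (hy : HI y)
    (n : ℕ) (hn : 2 * n ≤ D) (h : ∀ i < n, y - 1 / 2 - (i : ℚ) ≠ 0 ∧ |2 * (y - 1 / 2 - (i : ℚ))| ≤ D) :
    Rd S d 1 (e' y n) := by
  unfold e'
  have h2m : ((2 : ℚ) ^ n)⁻¹ ∈ S := by
    rw [← inv_pow]; exact S.pow_mem (by simpa using hS) _
  exact Rd.C_mul _ h2m (Rd_quot hS hd hD hy hy.sub_half n hn h)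

lemma Rd_cc (hS : (1 / 2 : ℚ) ∈ S) (hd : d ∈ S) {y : ℚ} (hy : HI y) : Rd S d 0 (cc y) := by
  unfold cc
  refine (Rd.C_mul _ hS ?_).neg
  have hy' : y ∈ S := by
    obtain ⟨z, hz⟩ := hy
    have : y = (1 / 2) * z := by linarith
    rw [this]
    exact S.mul_mem hS (intCast_mem S z)
  have h1 : Rd S d 0 (pt y) := by
    rw [pt_eq]; exact (Rd_X hd).add (Rd.C _ hy' hd)
  have h2 : (3 : PowerSeries ℚ) * pt y + 2 = PowerSeries.C 3 * pt y + PowerSeries.C 2 := by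
    rw [map_ofNat, map_ofNat]
  rw [h2]
  refine (Rd.C_mul _ ?_ h1).add (Rd.C _ ?_ hd)
  · simpa using natCast_mem S 3
  · simpa using natCast_mem S 2

lemma Rd_sign {w : ℕ} {f : PowerSeries ℚ} (hf : Rd S d w f) (n : ℕ) :
    Rd S d w ((-1) ^ n * f) := by
  have : (-1 : PowerSeries ℚ) ^ n = PowerSeries.C ((-1) ^ n) := by simp
  rw [this]
  exact Rd.C_mul _ (S.pow_mem (S.neg_mem S.one_mem) _) hf

theorem Rd_forward (hS : (1 / 2 : ℚ) ∈ S) (hd : d ∈ S) (hD : DD S d D) (x0 : ℚ) (hx0 : HI x0)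
    (ψ : ℕ → PowerSeries ℚ)
    (h : ∀ n : ℕ, ψ (n + 1) = (cc (x0 + n) - (2 * pt (x0 + n) + 1) ^ 3 * ψ n)
      * (pt (x0 + n + 1) ^ 3)⁻¹) (n : ℕ) (hn : 2 * n ≤ D)
    (hx : ∀ i : ℕ, 1 ≤ i → i ≤ n → x0 + i ≠ 0 ∧ |2 * (x0 + i)| ≤ D) (h0 : Rd S d 0 (ψ 0)) :
    Rd S d 3 (ψ n) := by
  rw [forward x0 ψ h n]
  have hy : HI (x0 + n) := hx0.add_nat n
  have hcond : ∀ i < n, x0 + n - (i : ℚ) ≠ 0 ∧ |2 * (x0 + n - (i : ℚ))| ≤ D := by
    intro i hi
    have := hx (n - i) (by omega) (by omega)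
    rw [Nat.cast_sub hi.le] at this
    rw [add_sub_assoc]
    exact this
  refine (Rd.sum _ _ fun j hj => ?_).add (Rd_sign ?_ n)
  · have hj' := mem_range.mp hj
    refine Rd_sign ?_ j
    have h1 := (Rd_r hS hd hD hy j (by omega) fun i hi => hcond i (by omega)).pow hd 3
    have h2 : Rd S d 0 (cc (x0 + n - 1 - j)) := by
      refine Rd_cc hS hd ?_
      have := hy.sub_nat (1 + j)
      push_cast at this
      rw [show x0 + (n : ℚ) - 1 - j = x0 + n - (1 + j) by ring]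
      exact this
    have := h1.mul h2
    simpa using this
  · have h1 := (Rd_e hS hd hD hy n hn hcond).pow hd 3
    have := h1.mul h0
    simpa using this

theorem Rd_backward (hS : (1 / 2 : ℚ) ∈ S) (hd : d ∈ S) (hD : DD S d D) (y0 : ℚ) (hy0 : HI y0)
    (φ : ℕ → PowerSeries ℚ)
    (h : ∀ m : ℕ, φ (m + 1) = (cc (y0 - m - 1) - pt (y0 - m) ^ 3 * φ m)
      * ((2 * pt (y0 - m - 1) + 1) ^ 3)⁻¹) (m : ℕ) (hm : 2 * m ≤ D)
    (hx : ∀ i : ℕ, 1 ≤ i → i ≤ m → y0 + 1 / 2 - i ≠ 0 ∧ |2 * (y0 + 1 / 2 - i)| ≤ D)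
    (h0 : Rd S d 0 (φ 0)) :
    Rd S d 3 (φ m) := by
  rw [backward y0 φ h m]
  have hy : HI (y0 - m) := hy0.sub_nat m
  refine (Rd.sum _ _ fun j hj => ?_).add (Rd_sign ?_ m)
  · have hj' := mem_range.mp hj
    refine Rd_sign ?_ j
    have h1 := (Rd_r' hS hd hD hy j (by omega) fun i hi => ?_).pow hd 3
    · have h2 : Rd S d 0 (cc (y0 - m + j)) := Rd_cc hS hd (hy.add_nat j)
      have := h1.mul h2
      simpa using this
    · have := hx (m - j + i) (by omega) (by omega)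
      rw [Nat.cast_add, Nat.cast_sub hj'.le] at this
      rw [show y0 - (m : ℚ) + j + 1 / 2 - i = y0 + 1 / 2 - ((m : ℚ) - j + i) by ring]
      exact this
  · have h1 := (Rd_e' hS hd hD hy0 m hm fun i hi => ?_).pow hd 3
    · have := h1.mul h0
      simpa using this
    · have := hx (i + 1) (by omega) (by omega)
      push_cast at this
      rw [show y0 - 1 / 2 - (i : ℚ) = y0 + 1 / 2 - (i + 1) by ring]
      exact this

end bounds

end Crest.Agent.R006.Germ939
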