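import Crest.Agent.R006.Defs
import Crest.Agent.R006.P57_Det_241
import Crest.Agent.R006.P5_Germs_939

/-!
Row 6, blocks P5 / P7: denominators of the germs of `ψ`, `g` (chains of `NVChain_664`, `Defs`) and of
the Taylor coefficients of `C(x,l)`; applications of `P5_Germs_939` (helper939).

For `p` odd and `|2x| ≤ D` for all positions `x`:
* `norm_PsiZ`, `norm_PsiH0` : `|coeff k| ≤ p^((k+3) log_p D)`;
* `norm_GamZ`, `norm_GamH0` : `|coeff k| ≤ p^((k+2) log_p D)`;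
* `norm_cP` : `|(taylor x (cP l)).coeff a| ≤ p^(a log_p D)`.
-/

set_option autoImplicit false

namespace Crest.Agent.R006.Germ939

open PowerSeries Finset
open Crest.Agent.R006.NV (pt bi PsiZ GamZ PsiH0)
open Crest.Agent.R006.ProdBound481 (PB)
open Crest.Agent.R006.D (GamH0)

section chains

variable {S : Subring ℚ} {d : ℚ} {D : ℕ}

lemma bi_neg_step (a b c : ℤ → PowerSeries ℚ) (init : PowerSeries ℚ) (m : ℕ) :
    bi a b c init (-((m + 1 : ℕ) : ℤ)) =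
      (c (-(m : ℤ) - 1) - a (-(m : ℤ) - 1) * bi a b c init (-(m : ℤ))) * (b (-(m : ℤ) - 1))⁻¹ := by
  cases m with
  | zero =>
    have e1 : (-((0 + 1 : ℕ) : ℤ)) = -1 := by norm_num
    have e2 : (-((0 : ℕ) : ℤ) - 1) = -1 := by norm_num
    have e3 : (-((0 : ℕ) : ℤ)) = 0 := by norm_num
    rw [e1, e2, e3, NV.bi_zero, NV.bi_negOne]
  | succ m =>
    have e1 : (-((m + 1 + 1 : ℕ) : ℤ)) = Int.negSucc (m + 1) := by
      rw [Int.negSucc_eq]; push_cast; ring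
    have e2 : (-((m + 1 : ℕ) : ℤ) - 1) = -(m : ℤ) - 2 := by push_cast; ring
    have e3 : (-((m + 1 : ℕ) : ℤ)) = Int.negSucc m := by
      rw [Int.negSucc_eq]; push_cast; ring
    rw [e1, e2, e3, NV.bi_negSucc]

lemma HI_neg_half : HI (-1 / 2) := ⟨-1, by norm_num⟩

theorem Rd_PsiZ (hS : (1 / 2 : ℚ) ∈ S) (hd : d ∈ S) (hD : DD S d D) (c : ℚ) (hc : c ∈ S) (i : ℤ)
    (hi : |2 * i| ≤ D) : Rd S d 3 (PsiZ c i) := by
  rcases le_or_gt 0 i with h0 | h0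
  · obtain ⟨n, rfl⟩ := Int.eq_ofNat_of_zero_le h0
    have hn : 2 * n ≤ D := by
      rw [abs_of_nonneg (by positivity)] at hi; exact_mod_cast hi
    refine Rd_forward hS hd hD 0 HI.zero (fun n : ℕ => PsiZ c (n : ℤ)) (fun n => ?_) n hn
      (fun i h1 h2 => ?_) ?_
    · simp only [PsiZ]
      rw [NV.bi_succ]
      simp only [Int.cast_natCast, zero_add, cc]
    · have h3 : (1 : ℚ) ≤ i := by exact_mod_cast h1
      refine ⟨by linarith, ?_⟩
      rw [zero_add, abs_of_nonneg (by positivity)]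
      exact_mod_cast (by omega : 2 * i ≤ D)
    · exact Rd.C c hc hd
  · obtain ⟨m, rfl⟩ : ∃ m : ℕ, i = -(m : ℤ) := ⟨(-i).toNat, by omega⟩
    have hm : 2 * m ≤ D := by
      rw [abs_of_nonpos (by omega)] at hi; omega
    refine Rd_backward hS hd hD 0 HI.zero (fun m : ℕ => PsiZ c (-(m : ℤ))) (fun m => ?_) m hm
      (fun i h1 h2 => ?_) ?_
    · simp only [PsiZ]
      rw [bi_neg_step]
      have e1 : ((-(m : ℤ) - 1 : ℤ) : ℚ) = 0 - m - 1 := by push_cast; ring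
      have e2 : (0 : ℚ) - m - 1 + 1 = 0 - m := by ring
      simp only [e1, e2, cc]
    · have h3 : (1 : ℚ) ≤ i := by exact_mod_cast h1
      refine ⟨by intro h; linarith, ?_⟩
      rw [abs_of_nonpos (by linarith)]
      have : (i : ℚ) ≤ m := by exact_mod_cast h2
      have h4 : (2 * m : ℚ) ≤ D := by exact_mod_cast hm
      linarith
    · exact Rd.C c hc hd

theorem Rd_PsiH0 (hS : (1 / 2 : ℚ) ∈ S) (hd : d ∈ S) (hD : DD S d D) (i : ℤ)
    (hi : |2 * i| ≤ D) : Rd S d 3 (PsiH0 i : PowerSeries ℚ) := by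
  rcases le_or_gt 0 i with h0 | h0
  · obtain ⟨n, rfl⟩ := Int.eq_ofNat_of_zero_le h0
    have hn : 2 * n ≤ D := by
      rw [abs_of_nonneg (by positivity)] at hi; exact_mod_cast hi
    refine Rd_forward hS hd hD (-1 / 2) HI_neg_half (fun n : ℕ => PsiH0 (n : ℤ)) (fun n => ?_) n hn
      (fun i h1 h2 => ?_) ?_
    · simp only [PsiH0]
      rw [NV.bi_succ]
      have e1 : ((n : ℤ) : ℚ) - 1 / 2 = -1 / 2 + n := by push_cast; ring
      simp only [e1, cc]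
    · have h3 : (1 : ℚ) ≤ i := by exact_mod_cast h1
      refine ⟨by linarith, ?_⟩
      rw [abs_of_nonneg (by linarith)]
      have : (i : ℚ) ≤ n := by exact_mod_cast h2
      have h4 : (2 * n : ℚ) ≤ D := by exact_mod_cast hn
      linarith
    · simpa [NV.PsiH0_zero] using (Rd.zero : Rd S d 0 0)
  · obtain ⟨m, rfl⟩ : ∃ m : ℕ, i = -(m : ℤ) := ⟨(-i).toNat, by omega⟩
    have hm : 2 * m ≤ D := by
      rw [abs_of_nonpos (by omega)] at hi; omega
    refine Rd_backward hS hd hD (-1 / 2) HI_neg_half (fun m : ℕ => PsiH0 (-(m : ℤ))) (fun m => ?_) m hm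
      (fun i h1 h2 => ?_) ?_
    · simp only [PsiH0]
      rw [bi_neg_step]
      have e1 : ((-(m : ℤ) - 1 : ℤ) : ℚ) - 1 / 2 = -1 / 2 - m - 1 := by push_cast; ring
      have e2 : (-1 / 2 : ℚ) - m - 1 + 1 = -1 / 2 - m := by ring
      simp only [e1, e2, cc]
    · have h3 : (1 : ℚ) ≤ i := by exact_mod_cast h1
      have e3 : (-1 / 2 : ℚ) + 1 / 2 - i = -i := by ring
      rw [e3]
      refine ⟨by intro h; linarith, ?_⟩
      rw [abs_of_nonpos (by linarith)]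
      have : (i : ℚ) ≤ m := by exact_mod_cast h2
      have h4 : (2 * m : ℚ) ≤ D := by exact_mod_cast hm
      linarith
    · simpa [NV.PsiH0_zero] using (Rd.zero : Rd S d 0 0)

/-! ### `g` -/

theorem gforward (x0 : ℚ) (γ : ℕ → PowerSeries ℚ)
    (h : ∀ n : ℕ, γ (n + 1) = (0 - -(PowerSeries.C (1 / 4) * (2 * pt (x0 + n) + 1) ^ 2) * γ n)
      * (pt (x0 + n + 1) ^ 2)⁻¹) (n : ℕ) :
    γ n = PowerSeries.C ((1 / 4 : ℚ) ^ n) * (e (x0 + n) n ^ 2 * γ 0) := by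
  induction n with
  | zero => simp [e_zero]
  | succ n ih =>
    have hinv : (pt (x0 + n + 1) ^ 2)⁻¹ = (pt (x0 + n + 1))⁻¹ ^ 2 := by
      rw [pow_succ, pow_one, PowerSeries.mul_inv_rev]; ring
    have ec : x0 + ((n + 1 : ℕ) : ℚ) = x0 + n + 1 := by push_cast; ring
    rw [h n, hinv, ec, e_succ, ih, pow_succ (1 / 4 : ℚ) n, map_mul]
    ring

theorem gbackward (y0 : ℚ) (γ : ℕ → PowerSeries ℚ)
    (h : ∀ m : ℕ, γ (m + 1) = (0 - pt (y0 - m) ^ 2 * γ m)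
      * (-(PowerSeries.C (1 / 4) * (2 * pt (y0 - m - 1) + 1) ^ 2))⁻¹) (m : ℕ) :
    γ m = PowerSeries.C ((4 : ℚ) ^ m) * (e' y0 m ^ 2 * γ 0) := by
  induction m with
  | zero => simp [e'_zero]
  | succ m ih =>
    have hinv : (-(PowerSeries.C (1 / 4) * (2 * pt (y0 - m - 1) + 1) ^ 2))⁻¹
        = -(PowerSeries.C 4 * (2 * pt (y0 - m - 1) + 1)⁻¹ ^ 2) := by
      have e1 : -(PowerSeries.C (1 / 4) * (2 * pt (y0 - m - 1) + 1) ^ 2)
          = PowerSeries.C (-(1 / 4)) * ((2 * pt (y0 - m - 1) + 1) * (2 * pt (y0 - m - 1) + 1)) := by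
        rw [map_neg]; ring
      rw [e1, PowerSeries.mul_inv_rev, PowerSeries.mul_inv_rev, C_inv _ (by norm_num)]
      have e2 : (-(1 / 4 : ℚ))⁻¹ = -4 := by norm_num
      rw [e2, map_neg]; ring
    rw [h m, hinv, e'_succ, ih, pow_succ (4 : ℚ) m, map_mul]
    ring

theorem Rd_gforward (hS : (1 / 2 : ℚ) ∈ S) (hd : d ∈ S) (hD : DD S d D) (x0 : ℚ) (hx0 : HI x0)
    (γ : ℕ → PowerSeries ℚ)
    (h : ∀ n : ℕ, γ (n + 1) = (0 - -(PowerSeries.C (1 / 4) * (2 * pt (x0 + n) + 1) ^ 2) * γ n)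
      * (pt (x0 + n + 1) ^ 2)⁻¹) (n : ℕ) (hn : 2 * n ≤ D)
    (hx : ∀ i : ℕ, 1 ≤ i → i ≤ n → x0 + i ≠ 0 ∧ |2 * (x0 + i)| ≤ D) (h0 : Rd S d 0 (γ 0)) :
    Rd S d 2 (γ n) := by
  rw [gforward x0 γ h n]
  have hy : HI (x0 + n) := hx0.add_nat n
  have hcond : ∀ i < n, x0 + n - (i : ℚ) ≠ 0 ∧ |2 * (x0 + n - (i : ℚ))| ≤ D := by
    intro i hi
    have := hx (n - i) (by omega) (by omega)
    rw [Nat.cast_sub hi.le] at this
    rw [add_sub_assoc]
    exact this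
  have h4 : (1 / 4 : ℚ) ^ n ∈ S := by
    have : (1 / 4 : ℚ) = (1 / 2) ^ 2 := by norm_num
    rw [this]
    exact S.pow_mem (S.pow_mem hS _) _
  refine Rd.C_mul _ h4 ?_
  have := ((Rd_e hS hd hD hy n hn hcond).pow hd 2).mul h0
  simpa using this

theorem Rd_gbackward (hS : (1 / 2 : ℚ) ∈ S) (hd : d ∈ S) (hD : DD S d D) (y0 : ℚ) (hy0 : HI y0)
    (γ : ℕ → PowerSeries ℚ)
    (h : ∀ m : ℕ, γ (m + 1) = (0 - pt (y0 - m) ^ 2 * γ m)
      * (-(PowerSeries.C (1 / 4) * (2 * pt (y0 - m - 1) + 1) ^ 2))⁻¹) (m : ℕ) (hm : 2 * m ≤ D)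
    (hx : ∀ i : ℕ, 1 ≤ i → i ≤ m → y0 + 1 / 2 - i ≠ 0 ∧ |2 * (y0 + 1 / 2 - i)| ≤ D)
    (h0 : Rd S d 0 (γ 0)) :
    Rd S d 2 (γ m) := by
  rw [gbackward y0 γ h m]
  have h4 : (4 : ℚ) ^ m ∈ S := S.pow_mem (by simpa using natCast_mem S 4) _
  refine Rd.C_mul _ h4 ?_
  have := ((Rd_e' hS hd hD hy0 m hm fun i hi => ?_).pow hd 2).mul h0
  · simpa using this
  · have := hx (i + 1) (by omega) (by omega)
    push_cast at this
    rw [show y0 - 1 / 2 - (i : ℚ) = y0 + 1 / 2 - (i + 1) by ring]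
    exact this

theorem Rd_GamZ (hS : (1 / 2 : ℚ) ∈ S) (hd : d ∈ S) (hD : DD S d D) (i : ℤ)
    (hi : |2 * i| ≤ D) : Rd S d 2 (GamZ i : PowerSeries ℚ) := by
  rcases le_or_gt 0 i with h0 | h0
  · obtain ⟨n, rfl⟩ := Int.eq_ofNat_of_zero_le h0
    have hn : 2 * n ≤ D := by
      rw [abs_of_nonneg (by positivity)] at hi; exact_mod_cast hi
    refine Rd_gforward hS hd hD 0 HI.zero (fun n : ℕ => GamZ (n : ℤ)) (fun n => ?_) n hn
      (fun i h1 h2 => ?_) ?_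
    · simp only [GamZ]
      rw [NV.bi_succ]
      simp only [Int.cast_natCast, zero_add]
    · have h3 : (1 : ℚ) ≤ i := by exact_mod_cast h1
      refine ⟨by linarith, ?_⟩
      rw [zero_add, abs_of_nonneg (by positivity)]
      exact_mod_cast (by omega : 2 * i ≤ D)
    · simpa [NV.GamZ_zero] using (Rd.one hd : Rd S d 0 1)
  · obtain ⟨m, rfl⟩ : ∃ m : ℕ, i = -(m : ℤ) := ⟨(-i).toNat, by omega⟩
    have hm : 2 * m ≤ D := by
      rw [abs_of_nonpos (by omega)] at hi; omega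
    refine Rd_gbackward hS hd hD 0 HI.zero (fun m : ℕ => GamZ (-(m : ℤ))) (fun m => ?_) m hm
      (fun i h1 h2 => ?_) ?_
    · simp only [GamZ]
      rw [bi_neg_step]
      have e1 : ((-(m : ℤ) - 1 : ℤ) : ℚ) = 0 - m - 1 := by push_cast; ring
      have e2 : (0 : ℚ) - m - 1 + 1 = 0 - m := by ring
      simp only [e1, e2]
    · have h3 : (1 : ℚ) ≤ i := by exact_mod_cast h1
      refine ⟨by intro h; linarith, ?_⟩
      rw [abs_of_nonpos (by linarith)]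
      have : (i : ℚ) ≤ m := by exact_mod_cast h2
      have h4 : (2 * m : ℚ) ≤ D := by exact_mod_cast hm
      linarith
    · simpa [NV.GamZ_zero] using (Rd.one hd : Rd S d 0 1)

lemma GamH0_zero : (GamH0 0 : PowerSeries ℚ) = 1 := rfl

theorem Rd_GamH0 (hS : (1 / 2 : ℚ) ∈ S) (hd : d ∈ S) (hD : DD S d D) (i : ℤ)
    (hi : |2 * i| ≤ D) : Rd S d 2 (GamH0 i : PowerSeries ℚ) := by
  rcases le_or_gt 0 i with h0 | h0
  · obtain ⟨n, rfl⟩ := Int.eq_ofNat_of_zero_le h0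
    have hn : 2 * n ≤ D := by
      rw [abs_of_nonneg (by positivity)] at hi; exact_mod_cast hi
    refine Rd_gforward hS hd hD (-1 / 2) HI_neg_half (fun n : ℕ => GamH0 (n : ℤ)) (fun n => ?_) n hn
      (fun i h1 h2 => ?_) ?_
    · simp only [GamH0]
      rw [NV.bi_succ]
      have e1 : ((n : ℤ) : ℚ) - 1 / 2 = -1 / 2 + n := by push_cast; ring
      simp only [e1]
    · have h3 : (1 : ℚ) ≤ i := by exact_mod_cast h1
      refine ⟨by linarith, ?_⟩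
      rw [abs_of_nonneg (by linarith)]
      have : (i : ℚ) ≤ n := by exact_mod_cast h2
      have h4 : (2 * n : ℚ) ≤ D := by exact_mod_cast hn
      linarith
    · simpa [GamH0_zero] using (Rd.one hd : Rd S d 0 1)
  · obtain ⟨m, rfl⟩ : ∃ m : ℕ, i = -(m : ℤ) := ⟨(-i).toNat, by omega⟩
    have hm : 2 * m ≤ D := by
      rw [abs_of_nonpos (by omega)] at hi; omega
    refine Rd_gbackward hS hd hD (-1 / 2) HI_neg_half (fun m : ℕ => GamH0 (-(m : ℤ))) (fun m => ?_) m hm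
      (fun i h1 h2 => ?_) ?_
    · simp only [GamH0]
      rw [bi_neg_step]
      have e1 : ((-(m : ℤ) - 1 : ℤ) : ℚ) - 1 / 2 = -1 / 2 - m - 1 := by push_cast; ring
      have e2 : (-1 / 2 : ℚ) - m - 1 + 1 = -1 / 2 - m := by ring
      simp only [e1, e2]
    · have h3 : (1 : ℚ) ≤ i := by exact_mod_cast h1
      have e3 : (-1 / 2 : ℚ) + 1 / 2 - i = -i := by ring
      rw [e3]
      refine ⟨by intro h; linarith, ?_⟩
      rw [abs_of_nonpos (by linarith)]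
      have : (i : ℚ) ≤ m := by exact_mod_cast h2
      have h4 : (2 * m : ℚ) ≤ D := by exact_mod_cast hm
      linarith
    · simpa [GamH0_zero] using (Rd.one hd : Rd S d 0 1)

end chains

/-! ### the `p`-adic form -/

section padic

variable (p : ℕ) [hp : Fact p.Prime]

/-- `ℤ_(p)` as a subring of `ℚ` -/
def Zp : Subring ℚ where
  carrier := {x | padicNorm p x ≤ 1}
  mul_mem' := by
    intro a b ha hb
    have h : padicNorm p (a * b) = padicNorm p a * padicNorm p b := padicNorm.mul a b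
    show padicNorm p (a * b) ≤ 1
    rw [h]
    exact mul_le_one₀ ha (padicNorm.nonneg b) hb
  one_mem' := by show padicNorm p 1 ≤ 1; rw [padicNorm.one]
  add_mem' := by
    intro a b ha hb
    exact padicNorm.nonarchimedean.trans (max_le ha hb)
  zero_mem' := by show padicNorm p 0 ≤ 1; rw [padicNorm.zero]; norm_num
  neg_mem' := by
    intro a ha
    show padicNorm p (-a) ≤ 1
    rw [padicNorm.neg]; exact ha

variable {p}

lemma mem_Zp {x : ℚ} : x ∈ Zp p ↔ padicNorm p x ≤ 1 := Iff.rfl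

lemma half_mem_Zp (h2 : p ≠ 2) : (1 / 2 : ℚ) ∈ Zp p := by
  rw [mem_Zp]
  have h2' : padicNorm p (2 : ℚ) = 1 := by
    have : ¬ (p ∣ 2) := by
      intro hd
      have := (Nat.prime_dvd_prime_iff_eq hp.out Nat.prime_two).mp hd
      exact h2 this
    have := (padicNorm.nat_eq_one_iff (p := p) 2).mpr this
    simpa using this
  have h3 : padicNorm p (1 / 2 : ℚ) = padicNorm p 1 / padicNorm p 2 := padicNorm.div 1 2
  rw [h3, h2', padicNorm.one]; norm_num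

/-- `p ^ log_p D` -/
def dp (p D : ℕ) : ℚ := (p : ℚ) ^ Nat.log p D

lemma norm_dp (D : ℕ) : padicNorm p (dp p D) = (p : ℚ) ^ (-(Nat.log p D : ℤ)) := by
  have hp0 : (p : ℚ) ≠ 0 := by exact_mod_cast hp.out.ne_zero
  have h1 : dp p D ≠ 0 := pow_ne_zero _ hp0
  have h2 : padicValRat p (dp p D) = Nat.log p D := by
    have : dp p D = ((p ^ Nat.log p D : ℕ) : ℚ) := by simp [dp]
    rw [this, padicValRat.of_nat, padicValNat.prime_pow]
  rw [padicNorm.eq_zpow_of_nonzero h1, h2]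

lemma dp_mem (D : ℕ) : dp p D ∈ Zp p := by
  rw [mem_Zp, norm_dp]
  have hp1 : (1 : ℚ) ≤ p := by exact_mod_cast hp.out.one_lt.le
  exact zpow_le_one_of_nonpos₀ hp1 (by simp)

lemma DD_dp (D : ℕ) : DD (Zp p) (dp p D) D := by
  intro z hz hzD
  rw [mem_Zp, padicNorm.mul, norm_dp]
  have hz' : (z : ℚ) ≠ 0 := by exact_mod_cast hz
  have hp0 : (0 : ℚ) < p := by exact_mod_cast hp.out.pos
  have hp1 : (1 : ℚ) ≤ p := by exact_mod_cast hp.out.one_lt.le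
  rw [padicNorm.eq_zpow_of_nonzero (inv_ne_zero hz'), padicValRat.inv, neg_neg, ← zpow_add₀ hp0.ne']
  apply zpow_le_one_of_nonpos₀ hp1
  rw [padicValRat.of_int]
  have h1 : padicValInt p z ≤ Nat.log p z.natAbs := by
    unfold padicValInt
    exact padicValNat_le_nat_log _
  have h2 : z.natAbs ≤ D := by
    have := Int.natCast_natAbs z
    omega
  have h3 : Nat.log p z.natAbs ≤ Nat.log p D := Nat.log_mono_right h2
  have h4 : (padicValInt p z : ℤ) ≤ Nat.log p D := by exact_mod_cast h1.trans h3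
  linarith

lemma Rd.norm_le {D w : ℕ} {f : PowerSeries ℚ} (h : Rd (Zp p) (dp p D) w f) (k : ℕ) :
    padicNorm p (coeff k f) ≤ (p : ℚ) ^ ((k + w) * Nat.log p D) := by
  have h1 := mem_Zp.mp (h k)
  have hp0 : (0 : ℚ) < p := by exact_mod_cast hp.out.pos
  have h2 : padicNorm p (dp p D ^ (k + w)) = ((p : ℚ) ^ ((k + w) * Nat.log p D))⁻¹ := by
    have : ∀ n : ℕ, padicNorm p (dp p D ^ n) = ((p : ℚ) ^ (n * Nat.log p D))⁻¹ := by
      intro n
      induction n with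
      | zero => simp
      | succ n ih =>
        rw [pow_succ, padicNorm.mul, ih, norm_dp, Nat.succ_mul, pow_add, mul_inv, zpow_neg,
          zpow_natCast]
    exact this _
  rw [padicNorm.mul, h2, inv_mul_le_iff₀ (by positivity), mul_one] at h1
  exact h1

variable (h2 : p ≠ 2)
include h2

theorem norm_PsiZ {D : ℕ} (c : ℚ) (hc : padicNorm p c ≤ 1) (i : ℤ) (hi : |2 * i| ≤ D) (k : ℕ) :
    padicNorm p (coeff k (PsiZ c i)) ≤ (p : ℚ) ^ ((k + 3) * Nat.log p D) :=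
  (Rd_PsiZ (half_mem_Zp h2) (dp_mem D) (DD_dp D) c hc i hi).norm_le k

theorem norm_PsiH0 {D : ℕ} (i : ℤ) (hi : |2 * i| ≤ D) (k : ℕ) :
    padicNorm p (coeff k (PsiH0 i : PowerSeries ℚ)) ≤ (p : ℚ) ^ ((k + 3) * Nat.log p D) :=
  (Rd_PsiH0 (half_mem_Zp h2) (dp_mem D) (DD_dp D) i hi).norm_le k

theorem norm_GamZ {D : ℕ} (i : ℤ) (hi : |2 * i| ≤ D) (k : ℕ) :
    padicNorm p (coeff k (GamZ i : PowerSeries ℚ)) ≤ (p : ℚ) ^ ((k + 2) * Nat.log p D) :=
  (Rd_GamZ (half_mem_Zp h2) (dp_mem D) (DD_dp D) i hi).norm_le k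

theorem norm_GamH0 {D : ℕ} (i : ℤ) (hi : |2 * i| ≤ D) (k : ℕ) :
    padicNorm p (coeff k (GamH0 i : PowerSeries ℚ)) ≤ (p : ℚ) ^ ((k + 2) * Nat.log p D) :=
  (Rd_GamH0 (half_mem_Zp h2) (dp_mem D) (DD_dp D) i hi).norm_le k

theorem norm_Cb {D : ℕ} {x : ℚ} (hx : HI x) (l : ℕ) (hl : 2 * l ≤ D) (k : ℕ) :
    padicNorm p (coeff k (Cb x l)) ≤ (p : ℚ) ^ (k * Nat.log p D) := by
  have := (Rd_Cb (half_mem_Zp h2) (dp_mem D) (DD_dp D) hx l hl l le_rfl).norm_le k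
  simpa using this

omit h2 hp

lemma gm_descPochhammer (x : ℚ) (l : ℕ) : NV.gm x (descPochhammer ℚ l) = PP x l := by
  induction l with
  | zero => rw [descPochhammer_zero, PP_zero, NV.gm_one]
  | succ l ih =>
    rw [descPochhammer_succ_right, NV.gm_mul, ih, PP_succ, NV.gm_sub, NV.gm_X]
    congr 1
    have : ((l : ℕ) : Polynomial ℚ) = Polynomial.C (l : ℚ) := (map_natCast Polynomial.C l).symm
    rw [this, NV.gm_C, pt_eq, pt_eq, map_sub]
    ring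

lemma coeff_taylor_cP (x : ℚ) (l a : ℕ) :
    (Polynomial.taylor x (P57.cP ℚ l)).coeff a = coeff a (Cb x l) := by
  have h : NV.gm x (P57.cP ℚ l) = Cb x l := by
    rw [P57.cP, NV.gm_mul, NV.gm_C, gm_descPochhammer, Cb]
  rw [← h, NV.gm, Polynomial.coeff_coe]

include hp h2

theorem norm_cP {D : ℕ} {x : ℚ} (hx : HI x) (l : ℕ) (hl : 2 * l ≤ D) (a : ℕ) :
    padicNorm p ((Polynomial.taylor x (P57.cP ℚ l)).coeff a) ≤ (p : ℚ) ^ (a * Nat.log p D) := by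
  rw [coeff_taylor_cP]; exact norm_Cb h2 hx l hl a

/-! ### `PB` forms -/

omit h2 in
lemma PB_of_norm {a : ℚ} {n : ℕ} {e : ℤ} (h : padicNorm p a ≤ (p : ℚ) ^ n) (he : (n : ℤ) ≤ e) :
    PB p (-e) (Polynomial.C a) := by
  apply ProdBound481.PB.C
  rw [neg_neg]
  have hp1 : (1 : ℚ) ≤ p := by exact_mod_cast hp.out.one_lt.le
  refine h.trans ?_
  rw [← zpow_natCast]
  exact zpow_le_zpow_right₀ hp1 he

theorem PB_cP {D : ℕ} {x : ℚ} (hx : HI x) (l : ℕ) (hl : 2 * l ≤ D) (a : ℕ) {e : ℤ}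
    (he : ((a * Nat.log p D : ℕ) : ℤ) ≤ e) :
    PB p (-e) (Polynomial.C ((Polynomial.taylor x (P57.cP ℚ l)).coeff a)) :=
  PB_of_norm (norm_cP h2 hx l hl a) he

theorem PB_PsiZ {D : ℕ} (c : ℚ) (hc : padicNorm p c ≤ 1) (i : ℤ) (hi : |2 * i| ≤ D) (k : ℕ) {e : ℤ}
    (he : (((k + 3) * Nat.log p D : ℕ) : ℤ) ≤ e) : PB p (-e) (Polynomial.C (coeff k (PsiZ c i))) :=
  PB_of_norm (norm_PsiZ h2 c hc i hi k) he

theorem PB_PsiH0 {D : ℕ} (i : ℤ) (hi : |2 * i| ≤ D) (k : ℕ) {e : ℤ}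
    (he : (((k + 3) * Nat.log p D : ℕ) : ℤ) ≤ e) :
    PB p (-e) (Polynomial.C (coeff k (PsiH0 i : PowerSeries ℚ))) :=
  PB_of_norm (norm_PsiH0 h2 i hi k) he

theorem PB_GamZ {D : ℕ} (i : ℤ) (hi : |2 * i| ≤ D) (k : ℕ) {e : ℤ}
    (he : (((k + 2) * Nat.log p D : ℕ) : ℤ) ≤ e) :
    PB p (-e) (Polynomial.C (coeff k (GamZ i : PowerSeries ℚ))) :=
  PB_of_norm (norm_GamZ h2 i hi k) he

theorem PB_GamH0 {D : ℕ} (i : ℤ) (hi : |2 * i| ≤ D) (k : ℕ) {e : ℤ}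
    (he : (((k + 2) * Nat.log p D : ℕ) : ℤ) ≤ e) :
    PB p (-e) (Polynomial.C (coeff k (GamH0 i : PowerSeries ℚ))) :=
  PB_of_norm (norm_GamH0 h2 i hi k) he

end padic

end Crest.Agent.R006.Germ939
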