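import Crest.Agent.R006.P57_Minor_241
import Crest.Agent.R006.P5_GermsPB_939

/-!
Row 6, blocks P5 and P7, final form for the frozen definitions (helper241).
-/

set_option autoImplicit false

namespace Crest.Agent.R006.P57M

open Polynomial Finset Crest.Agent.R006.ProdBound481 Crest.Agent.R006.PsiInf
  Crest.Agent.R006.P57 Crest.Agent.R006.NV

section Hom

variable {K : Type*} [Field K]

lemma bi_sub (a b c : ℤ → PowerSeries K) (x y : PowerSeries K) (i : ℤ) :
    bi a b c x i - bi a b c y i = bi a b (fun _ => 0) (x - y) i := by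
  cases i with
  | ofNat n =>
    induction n with
    | zero => rfl
    | succ n ih =>
      have h := fun (c : ℤ → PowerSeries K) (x : PowerSeries K) => bi_succ a b c x n
      have e : Int.ofNat (n + 1) = ((n + 1 : ℕ) : ℤ) := rfl
      have e' : Int.ofNat n = (n : ℤ) := rfl
      rw [e, h, h, h]
      rw [e'] at ih
      rw [← ih]; ring
  | negSucc n =>
    induction n with
    | zero =>
      have e : (Int.negSucc 0 : ℤ) = -1 := rfl
      rw [e, bi_negOne, bi_negOne, bi_negOne]; ring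
    | succ n ih =>
      rw [bi_negSucc, bi_negSucc, bi_negSucc, ← ih]; ring

lemma HomZ_eq (i : ℤ) : D.HomZ i = PsiZ 1 i - PsiZ 0 i := by
  rw [PsiZ, PsiZ, bi_sub, D.HomZ]
  congr 1
  simp

end Hom

section Site

/-- size of a site -/
def sAbs : D.Site → ℕ
  | .Z i => i.natAbs
  | .H i => i.natAbs

variable {p : ℕ} [hp : Fact p.Prime]

theorem siteB (hp2 : p ≠ 2) (N : ℕ) (z : D.Site) (hz : sAbs z ≤ N) :
    SiteB p N (5 * Nat.log p (2 * N + 2) : ℕ) z := by
  have hle : ∀ a ≤ 2, (((a + 3) * Nat.log p (2 * N + 2) : ℕ) : ℤ) ≤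
      ((5 * Nat.log p (2 * N + 2) : ℕ) : ℤ) := by
    intro a ha
    exact_mod_cast Nat.mul_le_mul_right _ (by omega)
  have hle2 : ∀ a ≤ 2, (((a + 2) * Nat.log p (2 * N + 2) : ℕ) : ℤ) ≤
      ((5 * Nat.log p (2 * N + 2) : ℕ) : ℤ) := by
    intro a ha
    exact_mod_cast Nat.mul_le_mul_right _ (by omega)
  have hle0 : ∀ a ≤ 2, ((a * Nat.log p (2 * N + 2) : ℕ) : ℤ) ≤
      ((5 * Nat.log p (2 * N + 2) : ℕ) : ℤ) := by
    intro a ha
    exact_mod_cast Nat.mul_le_mul_right _ (by omega)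
  have h0 : padicNorm p (0 : ℚ) ≤ 1 := by rw [padicNorm.zero]; norm_num
  have h1 : padicNorm p (1 : ℚ) ≤ 1 := by rw [padicNorm.one]
  rcases z with i | i
  · have hi : |2 * i| ≤ ((2 * N + 2 : ℕ) : ℤ) := by
      simp only [sAbs] at hz; rw [abs_le]; constructor <;> omega
    have hH : Germ939.HI (D.Site.Z i).val := ⟨2 * i, by simp [D.Site.val]⟩
    constructor
    · intro l hl a ha
      exact Germ939.PB_cP hp2 hH l (by omega) a (hle0 a ha)
    · intro a ha
      exact Germ939.PB_PsiZ hp2 0 h0 i hi a (hle a ha)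
    · intro a ha
      have e : PowerSeries.coeff a (D.psi1 (.Z i)) =
          PowerSeries.coeff a (PsiZ 1 i) - PowerSeries.coeff a (PsiZ 0 i) := by
        rw [D.psi1, HomZ_eq, map_sub]
      rw [e, C_sub]
      exact (Germ939.PB_PsiZ hp2 1 h1 i hi a (hle a ha)).sub
        (Germ939.PB_PsiZ hp2 0 h0 i hi a (hle a ha))
    · intro a ha
      exact Germ939.PB_GamZ hp2 i hi a (hle2 a ha)
  · have hi : |2 * (i + 1)| ≤ ((2 * N + 2 : ℕ) : ℤ) := by
      simp only [sAbs] at hz; rw [abs_le]; constructor <;> omega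
    have hH : Germ939.HI (D.Site.H i).val := ⟨2 * i + 1, by simp [D.Site.val]; ring⟩
    constructor
    · intro l hl a ha
      exact Germ939.PB_cP hp2 hH l (by omega) a (hle0 a ha)
    · intro a ha
      exact Germ939.PB_PsiH0 hp2 (i + 1) hi a (hle a ha)
    · intro a ha
      rw [D.psi1, map_zero, C_0]
      exact PB.zero _
    · intro a ha
      exact Germ939.PB_GamH0 hp2 (i + 1) hi a (hle2 a ha)

end Site

section Lam

variable {p : ℕ} [hp : Fact p.Prime]

/-- what is used of the size of the moment functional -/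
def LamB (p : ℕ) : Prop := ∀ d s : ℕ, padicNorm p (lin mu ((cP ℚ d).comp (X - C (s : ℚ)))) ≤
  (p : ℚ) ^ (2 * Nat.log p (d + 1)) * ((padicNorm p 9)⁻¹) ^ d

/-- `2` for `p = 3`, `0` for `p ≥ 5` -/
def wt (p : ℕ) : ℤ := if p = 3 then 2 else 0

lemma wt_nonneg (p : ℕ) : 0 ≤ wt p := by unfold wt; split_ifs <;> norm_num

lemma norm_nine_inv : (padicNorm p 9)⁻¹ = (p : ℚ) ^ (wt p) := by
  unfold wt
  split_ifs with h
  · subst h
    have : padicNorm 3 (9 : ℚ) = (3 : ℚ)⁻¹ * (3 : ℚ)⁻¹ := by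
      have h3 : padicNorm 3 (3 : ℚ) = (3 : ℚ)⁻¹ := by
        have := padicNorm.padicNorm_p_of_prime (p := 3)
        exact_mod_cast this
      have h9 : (9 : ℚ) = 3 * 3 := by norm_num
      rw [h9, padicNorm.mul, h3]
    rw [this]
    norm_num
  · have h9 : padicNorm p (9 : ℚ) = 1 := by
      have : ¬ p ∣ 9 := by
        intro hd
        have h3 : p ∣ 3 ^ 2 := by norm_num; exact hd
        have := hp.out.dvd_of_dvd_pow h3
        exact h ((Nat.prime_dvd_prime_iff_eq hp.out Nat.prime_three).mp this)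
      exact_mod_cast (padicNorm.nat_eq_one_iff 9).mpr this
    rw [h9]; simp

theorem ht_of_LamB (hL : LamB p) (N : ℕ) (j i : ℕ) (hj : j ≤ N) (hi : i < j) :
    PB p (-(wt p * ((j : ℤ) - i)) - (5 * Nat.log p (2 * N + 2) : ℕ))
      (C (tC mu j i) : ℚ[X]) := by
  have hp0 : (p : ℚ) ≠ 0 := by exact_mod_cast hp.out.ne_zero
  have key := PB_tC (p := p) mu (N + 1) (wt p) (2 * Nat.log p (N + 1) : ℕ) (wt_nonneg p)
    (fun d s hd _ => by
      apply PB.C
      refine (hL d s).trans ?_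
      rw [norm_nine_inv, ← zpow_natCast ((p : ℚ) ^ wt p) d, ← zpow_mul, ← zpow_natCast,
        ← zpow_add₀ hp0]
      apply zpow_le_zpow_right₀ (by exact_mod_cast hp.out.one_lt.le)
      have h1 : Nat.log p (d + 1) ≤ Nat.log p (N + 1) := Nat.log_mono_right (by omega)
      have h2 : ((2 * Nat.log p (d + 1) : ℕ) : ℤ) ≤ ((2 * Nat.log p (N + 1) : ℕ) : ℤ) := by
        exact_mod_cast Nat.mul_le_mul_left 2 h1
      linarith) j i (by omega) hi
  refine key.mono ?_
  have h1 : Nat.log p (N + 1) ≤ Nat.log p (2 * N + 2) := Nat.log_mono_right (by omega)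
  have h2 : ((2 * Nat.log p (N + 1) : ℕ) : ℤ) + 2 * (Nat.log p (N + 1) : ℕ) ≤
      ((5 * Nat.log p (2 * N + 2) : ℕ) : ℤ) := by
    push_cast
    have : ((Nat.log p (N + 1) : ℕ) : ℤ) ≤ (Nat.log p (2 * N + 2) : ℕ) := by exact_mod_cast h1
    have h0 : (0 : ℤ) ≤ (Nat.log p (2 * N + 2) : ℕ) := Int.natCast_nonneg _
    linarith
  linarith

end Lam

section Rows

/-- a bound for all sites and degrees -/
def NN (S : D.Shape) (u c : ℕ) : ℕ :=
  (S.B + S.e1 + S.e2 + S.e3 + S.h1 + S.h2 + S.h3 + S.w + S.a1 + S.a2 + S.i1 + S.r1 + S.k + S.q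
    + S.g) * u + c

lemma row_bound (S : D.Shape) (u c : ℕ) (ρ : D.Row) (h : D.IsRow S u c ρ) :
    ρ.2 ≤ 2 ∧ sAbs ρ.1 ≤ NN S u c := by
  obtain ⟨z, j⟩ := ρ
  have hN : ∀ x : ℕ, x ≤ (S.B + S.e1 + S.e2 + S.e3 + S.h1 + S.h2 + S.h3 + S.w) * u + c →
      x ≤ NN S u c := by
    intro x hx
    refine hx.trans ?_
    unfold NN
    refine Nat.add_le_add_right (Nat.mul_le_mul_right _ (by omega)) _
  have e : (S.B + S.e1 + S.e2 + S.e3 + S.h1 + S.h2 + S.h3 + S.w) * u =
    S.B * u + S.e1 * u + S.e2 * u + S.e3 * u + S.h1 * u + S.h2 * u + S.h3 * u + S.w * u := by ring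
  rw [e] at hN
  unfold D.IsRow at h
  rcases z with i | i
  · simp only [D.Shape.mult, ← Nat.cast_mul] at h
    simp only [sAbs]
    generalize S.B * u = x1 at *
    generalize S.e1 * u = x2 at *
    generalize S.e2 * u = x3 at *
    generalize S.e3 * u = x4 at *
    constructor
    · split_ifs at h <;> omega
    · apply hN
      split_ifs at h <;> omega
  · simp only [D.Shape.mult, ← Nat.cast_mul] at h
    simp only [sAbs]
    generalize S.h1 * u = x1 at *
    generalize S.h2 * u = x2 at *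
    generalize S.h3 * u = x3 at *
    generalize S.w * u = x4 at *
    constructor
    · split_ifs at h <;> omega
    · apply hN
      split_ifs at h <;> omega

end Rows

section Final

variable {p : ℕ} [hp : Fact p.Prime]

/-- degree bound of the `R`-space minus number of `T`-columns, per unit -/
def DD (S : D.Shape) : ℤ := (S.a1 + S.a2 + S.i1 + S.r1 + S.k : ℕ) - (S.q : ℤ)

/-- the loss at an odd prime -/
def lossZ (p : ℕ) (S : D.Shape) (u c : ℕ) : ℤ :=
  wt p * (DD S * u) ^ 2 / 4 + 1 + wt p * (DD S * u) +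
    8 * (5 * Nat.log p (2 * NN S u c + 2) : ℕ) * NN S u c

theorem PB_final (hp2 : p ≠ 2) (hL : LamB p) (S : D.Shape) (u c : ℕ)
    (hq : S.q ≤ S.a1 + S.a2 + S.i1 + S.r1 + S.k) (r : D.Col S u → D.Row)
    (hr : D.Adm S u c r) : PB p (-lossZ p S u c) (D.Minor S u r) := by
  have hqk : S.q * u ≤ (S.a1 + S.a2 + S.i1 + S.r1) * u + S.k * u := by
    rw [← Nat.add_mul]; exact Nat.mul_le_mul_right _ hq
  have hNN : NN S u c = S.B * u + S.e1 * u + S.e2 * u + S.e3 * u + S.h1 * u + S.h2 * u + S.h3 * u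
      + S.w * u + (S.a1 + S.a2 + S.i1 + S.r1) * u + S.k * u + S.q * u + S.g * u + c := by
    unfold NN; ring
  refine PB_minor hp2 S u r (wt p) (5 * Nat.log p (2 * NN S u c + 2) : ℕ) (wt_nonneg p)
    (Int.natCast_nonneg _) (NN S u c) hqk (by rw [hNN]; omega) (by rw [hNN]; omega)
    (fun i => (row_bound S u c _ (hr.2 i)).1)
    (fun i => siteB hp2 _ _ (row_bound S u c _ (hr.2 i)).2)
    (fun j i hj hi => ht_of_LamB hL _ j i hj hi) _ ?_
  have hD : (((S.a1 + S.a2 + S.i1 + S.r1) * u + S.k * u : ℕ) : ℤ) - ((S.q * u : ℕ) : ℤ) =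
      DD S * u := by
    unfold DD; push_cast; ring
  rw [hD]
  have hN : ((S.k * u : ℕ) : ℤ) + (S.q * u + S.g * u : ℕ) + DD S * u ≤ 4 * NN S u c := by
    have h1 : DD S * u ≤ ((S.a1 + S.a2 + S.i1 + S.r1) * u + S.k * u : ℕ) := by
      rw [← hD]
      have : (0 : ℤ) ≤ ((S.q * u : ℕ) : ℤ) := Int.natCast_nonneg _
      linarith
    have h2 : ((S.k * u + (S.q * u + S.g * u) + ((S.a1 + S.a2 + S.i1 + S.r1) * u + S.k * u) : ℕ)
        : ℤ) ≤ ((4 * NN S u c : ℕ) : ℤ) := by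
      exact_mod_cast (by rw [hNN]; omega)
    push_cast at h1 h2 ⊢
    linarith
  have he : (0 : ℤ) ≤ ((5 * Nat.log p (2 * NN S u c + 2) : ℕ) : ℤ) := Int.natCast_nonneg _
  have h3 := mul_le_mul_of_nonneg_left hN he
  have hdiv : wt p * (DD S * u) ^ 2 ≤ 4 * (wt p * (DD S * u) ^ 2 / 4 + 1) := by
    have := Int.emod_add_mul_ediv (wt p * (DD S * u) ^ 2) 4
    have h4 := Int.emod_lt_of_pos (wt p * (DD S * u) ^ 2) (show (0 : ℤ) < 4 by norm_num)
    linarith
  unfold lossZ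
  generalize wt p * (DD S * u) ^ 2 / 4 = y at *
  nlinarith

theorem Loss_of_PB {P : ℚ[X]} {E : ℤ} {E' : ℝ} (h : PB p (-E) P) (hE : (E : ℝ) ≤ E') :
    D.Loss p P E' := by
  intro i hi
  have h1 := h.le_padicValRat i hi
  have h2 : ((-E : ℤ) : ℝ) ≤ ((padicValRat p (P.coeff i) : ℤ) : ℝ) := by exact_mod_cast h1
  push_cast at h2
  linarith

end Final

section Asym

/-- slope and constant of `NN` -/
def A1 (S : D.Shape) (c : ℕ) : ℕ := 2 * NN S 1 c + 2

lemma NN_le (S : D.Shape) (u c : ℕ) (hu : 1 ≤ u) : NN S u c ≤ A1 S c * u ∧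
    2 * NN S u c + 2 ≤ A1 S c * u := by
  unfold A1 NN
  generalize (S.B + S.e1 + S.e2 + S.e3 + S.h1 + S.h2 + S.h3 + S.w + S.a1 + S.a2 + S.i1 + S.r1 +
    S.k + S.q + S.g) = x
  have h1 : c ≤ c * u := Nat.le_mul_of_pos_right _ hu
  have h2 : 2 ≤ 2 * u := by omega
  constructor
  · nlinarith
  · nlinarith

lemma log_mul_le (p a u : ℕ) (hp : 1 < p) (ha : a ≠ 0) (hu : u ≠ 0) :
    Nat.log p (a * u) ≤ (a + 1) * (1 + Nat.log p u) := by
  have h1 : a * u < p ^ (Nat.log p a + 1 + (Nat.log p u + 1)) := by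
    rw [pow_add]
    exact Nat.mul_lt_mul'' (Nat.lt_pow_succ_log_self hp a) (Nat.lt_pow_succ_log_self hp u)
  have h2 : Nat.log p (a * u) < Nat.log p a + 1 + (Nat.log p u + 1) :=
    Nat.log_lt_of_lt_pow (mul_ne_zero ha hu) h1
  have h3 : Nat.log p a ≤ a := (Nat.log_lt_self p ha).le
  have h4 : (a + 1) * (1 + Nat.log p u) = a + 1 + Nat.log p u + a * Nat.log p u := by ring
  rw [h4]
  have := Nat.zero_le (a * Nat.log p u)
  omega

/-- explicit constant of the crude bound -/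
def KK (S : D.Shape) (c : ℕ) : ℕ := 40 * (A1 S c + 1) * A1 S c + 1

theorem crude_loss (p : ℕ) (hp : 1 < p) (S : D.Shape) (u c : ℕ) (hu : 1 ≤ u) :
    (1 : ℤ) + 8 * (5 * Nat.log p (2 * NN S u c + 2) : ℕ) * NN S u c ≤
      KK S c * u * (1 + Nat.log p u) := by
  obtain ⟨h1, h2⟩ := NN_le S u c hu
  have hA : A1 S c ≠ 0 := by unfold A1; omega
  have h3 : Nat.log p (2 * NN S u c + 2) ≤ (A1 S c + 1) * (1 + Nat.log p u) :=
    (Nat.log_mono_right h2).trans (log_mul_le p _ u hp hA (by omega))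
  have h4 : 1 + 8 * (5 * Nat.log p (2 * NN S u c + 2)) * NN S u c ≤
      KK S c * u * (1 + Nat.log p u) := by
    have h5 : 8 * (5 * Nat.log p (2 * NN S u c + 2)) * NN S u c ≤
        8 * (5 * ((A1 S c + 1) * (1 + Nat.log p u))) * (A1 S c * u) :=
      Nat.mul_le_mul (Nat.mul_le_mul_left _ (Nat.mul_le_mul_left _ h3)) h1
    have h6 : 1 ≤ u * (1 + Nat.log p u) := Nat.mul_pos (by omega) (by omega)
    calc _ ≤ u * (1 + Nat.log p u) + 8 * (5 * ((A1 S c + 1) * (1 + Nat.log p u))) * (A1 S c * u) :=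
          Nat.add_le_add h6 h5
      _ = KK S c * u * (1 + Nat.log p u) := by unfold KK; ring
  exact_mod_cast h4

/-- **P5**: the crude bound for all primes `p ≥ 5` -/
theorem crude (hL : ∀ p : ℕ, p.Prime → 5 ≤ p → LamB p) (S : D.Shape) (c : ℕ)
    (hq : S.q ≤ S.a1 + S.a2 + S.i1 + S.r1 + S.k) : D.Crude S c (KK S c) := by
  unfold D.Crude
  filter_upwards [Filter.eventually_ge_atTop 1] with u hu r hr p hp h5
  have : Fact p.Prime := ⟨hp⟩
  refine Loss_of_PB (PB_final (by omega) (hL p hp h5) S u c hq r hr) ?_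
  have h1 := crude_loss p hp.one_lt S u c hu
  have hw : wt p = 0 := by unfold wt; rw [if_neg (by omega)]
  have h2 : lossZ p S u c = 1 + 8 * (5 * Nat.log p (2 * NN S u c + 2) : ℕ) * NN S u c := by
    unfold lossZ; rw [hw]; simp
  rw [h2]
  exact_mod_cast h1

lemma log_small (C δ : ℝ) (hδ : 0 < δ) :
    ∀ᶠ u : ℕ in Filter.atTop, C * u * (1 + Nat.log 3 u) ≤ δ * (u : ℝ) ^ 2 := by
  have h1 : (fun x : ℝ => 1 + Real.log x) =o[Filter.atTop] (fun x : ℝ => x) :=
    (Asymptotics.isLittleO_const_id_atTop (1 : ℝ)).add Real.isLittleO_log_id_atTop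
  have h2 := (h1.comp_tendsto tendsto_natCast_atTop_atTop).def
    (show (0 : ℝ) < δ / (|C| + 1) by positivity)
  filter_upwards [h2, Filter.eventually_ge_atTop 1] with u hu hu1
  simp only [Function.comp, Real.norm_eq_abs] at hu
  have hu' : (1 : ℝ) ≤ u := by exact_mod_cast hu1
  have hlog : 0 ≤ Real.log u := Real.log_nonneg hu'
  rw [abs_of_nonneg (by linarith), abs_of_nonneg (by linarith : (0 : ℝ) ≤ u)] at hu
  have h3 : (Nat.log 3 u : ℝ) ≤ Real.log u := by
    refine (Real.natLog_le_logb u 3).trans ?_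
    rw [Real.logb, div_le_iff₀ (Real.log_pos (by norm_num))]
    have : (1 : ℝ) ≤ Real.log (3 : ℕ) := by
      have h := Real.add_one_le_exp (1 : ℝ)
      rw [Real.le_log_iff_exp_le (by norm_num)]
      have := Real.exp_one_lt_d9
      push_cast
      linarith
    nlinarith
  have hC : (0 : ℝ) < |C| + 1 := by positivity
  have h4 : (|C| + 1) * (1 + Real.log u) ≤ δ * u := by
    have := mul_le_mul_of_nonneg_left hu hC.le
    rw [← mul_assoc, mul_div_cancel₀ _ hC.ne'] at this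
    exact this
  calc C * u * (1 + Nat.log 3 u) ≤ (|C| + 1) * u * (1 + Real.log u) := by
        apply mul_le_mul _ (by linarith) (by positivity) (by positivity)
        apply mul_le_mul_of_nonneg_right _ (by linarith)
        linarith [le_abs_self C]
    _ = u * ((|C| + 1) * (1 + Real.log u)) := by ring
    _ ≤ u * (δ * u) := mul_le_mul_of_nonneg_left h4 (by linarith)
    _ = δ * (u : ℝ) ^ 2 := by ring

/-- **P7**: the prime `3` -/
theorem p7 (hL : LamB 3) (S : D.Shape) (c : ℕ)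
    (hq : S.q ≤ S.a1 + S.a2 + S.i1 + S.r1 + S.k) :
    D.AtPrime S c 3 (((S.a1 + S.a2 + S.i1 + S.r1 + S.k : ℕ) - (S.q : ℝ)) ^ 2 / 2) := by
  intro δ hδ
  have : Fact (Nat.Prime 3) := ⟨Nat.prime_three⟩
  have hDD : (0 : ℤ) ≤ DD S := by unfold DD; omega
  have hs := log_small (KK S c + 2 * (DD S : ℝ)) δ hδ
  filter_upwards [hs, Filter.eventually_ge_atTop 1] with u hu hu1 r hr
  refine Loss_of_PB (PB_final (by norm_num) hL S u c hq r hr) ?_
  have h1 := crude_loss 3 (by norm_num) S u c hu1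
  have hw : wt 3 = 2 := by unfold wt; rw [if_pos rfl]
  have h2 : 2 * lossZ 3 S u c ≤ (DD S * u) ^ 2 + 4 * (DD S * u) +
      2 * (KK S c * u * (1 + Nat.log 3 u)) := by
    unfold lossZ
    rw [hw]
    generalize (DD S * u) ^ 2 = y
    generalize hz : (DD S * (u : ℤ)) = z
    have := Int.mul_ediv_self_le (x := 2 * y) (k := 4) (by norm_num)
    linarith
  have h3 : (2 : ℝ) * lossZ 3 S u c ≤ ((DD S : ℝ) * u) ^ 2 + 4 * ((DD S : ℝ) * u) +
      2 * (KK S c * u * (1 + Nat.log 3 u)) := by exact_mod_cast h2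
  have h4 : ((DD S : ℤ) : ℝ) = ((S.a1 + S.a2 + S.i1 + S.r1 + S.k : ℕ) : ℝ) - (S.q : ℝ) := by
    unfold DD; push_cast; ring
  rw [← h4]
  have hDr : (0 : ℝ) ≤ (DD S : ℝ) := by exact_mod_cast hDD
  have h5 : 2 * ((DD S : ℝ) * u) ≤ 2 * (DD S : ℝ) * u * (1 + Nat.log 3 u) := by
    have : (0 : ℝ) ≤ 2 * (DD S : ℝ) * u * Nat.log 3 u := by positivity
    linarith
  nlinarith

end Asym

end Crest.Agent.R006.P57M
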