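import Crest.Agent.R006.P57_Det_241

/-!
Row 6, blocks P5 and P7: `p`-integral valued polynomials (helper241).

* `norm_cP_le` : `|C(z,l)|_p ≤ 1` for `|z|_p ≤ 1`;
* `nd f j` : finite differences at `0`; `newton` : `f = ∑ nd f j C(s,j)`; `norm_nd_le`;
* `norm_eval_le` : a polynomial bounded on `ℕ` is bounded on all `p`-integral rationals.
-/

set_option autoImplicit false

namespace Crest.Agent.R006.P57

open Polynomial Finset Crest.Agent.R006.ProdBound481 Crest.Agent.R006.PsiInf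

section Newton

variable {p : ℕ} [hp : Fact p.Prime]

lemma norm_descPochhammer_le (z : ℚ) (hz : padicNorm p z ≤ 1) (l : ℕ) :
    padicNorm p ((descPochhammer ℚ l).eval z) ≤ padicNorm p (l.factorial : ℚ) := by
  have hz' : ‖((z : ℚ) : ℚ_[p])‖ ≤ 1 := by
    rw [Padic.eq_padicNorm]; exact_mod_cast hz
  set x : ℤ_[p] := ⟨((z : ℚ) : ℚ_[p]), hz'⟩ with hx
  have hxc : ((x : ℤ_[p]) : ℚ_[p]) = ((z : ℚ) : ℚ_[p]) := rfl
  have h1 := PadicInt.norm_ascPochhammer_le l (x - ((l : ℕ) : ℤ_[p]) + 1)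
  rw [← descPochhammer_eval_eq_ascPochhammer] at h1
  have h2 : (((descPochhammer ℤ_[p] l).eval x : ℤ_[p]) : ℚ_[p]) =
      (((descPochhammer ℚ l).eval z : ℚ) : ℚ_[p]) := by
    rw [descPochhammer_eval_eq_prod_range, descPochhammer_eval_eq_prod_range]
    have e1 : ∀ y : ℤ_[p], (y : ℚ_[p]) = PadicInt.Coe.ringHom y := fun _ => rfl
    rw [e1, map_prod, Rat.cast_prod]
    refine prod_congr rfl fun j _ => ?_
    rw [← e1, PadicInt.coe_sub, hxc, PadicInt.coe_natCast]
    push_cast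
    rfl
  have h3 : ‖((descPochhammer ℤ_[p] l).eval x : ℤ_[p])‖ =
      ((padicNorm p ((descPochhammer ℚ l).eval z) : ℚ) : ℝ) := by
    rw [PadicInt.norm_def, h2, Padic.eq_padicNorm]
  have h4 : ‖((l.factorial : ℕ) : ℤ_[p])‖ = ((padicNorm p (l.factorial : ℚ) : ℚ) : ℝ) := by
    rw [PadicInt.norm_def, PadicInt.coe_natCast]
    have : ((l.factorial : ℕ) : ℚ_[p]) = (((l.factorial : ℕ) : ℚ) : ℚ_[p]) := by push_cast; rfl
    rw [this, Padic.eq_padicNorm]
  rw [h3, h4] at h1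
  exact_mod_cast h1

lemma norm_cP_le (z : ℚ) (hz : padicNorm p z ≤ 1) (l : ℕ) :
    padicNorm p ((cP ℚ l).eval z) ≤ 1 := by
  rw [cP, eval_mul, eval_C, padicNorm.mul]
  have h1 := norm_descPochhammer_le (p := p) z hz l
  have h0 : padicNorm p (l.factorial : ℚ) ≠ 0 :=
    padicNorm.nonzero (by exact_mod_cast l.factorial_ne_zero)
  have h2 : padicNorm p ((l.factorial : ℚ)⁻¹) * padicNorm p (l.factorial : ℚ) = 1 := by
    rw [← padicNorm.mul, inv_mul_cancel₀ (by exact_mod_cast l.factorial_ne_zero), padicNorm.one]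
  calc _ ≤ padicNorm p ((l.factorial : ℚ)⁻¹) * padicNorm p (l.factorial : ℚ) :=
        mul_le_mul_of_nonneg_left h1 (padicNorm.nonneg _)
    _ = 1 := h2

lemma cP_eval_nat (l n : ℕ) : (cP ℚ l).eval (n : ℚ) = (n.choose l : ℚ) := by
  rw [cP, eval_mul, eval_C, descPochhammer_eval_eq_descFactorial,
    Nat.descFactorial_eq_factorial_mul_choose, Nat.cast_mul, ← mul_assoc,
    inv_mul_cancel₀ (by exact_mod_cast l.factorial_ne_zero), one_mul]

/-- finite differences at `0` -/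
noncomputable def nd (f : ℚ[X]) (n : ℕ) : ℚ :=
  ∑ i ∈ range (n + 1), ((-1 : ℤ) ^ (n - i) * n.choose i) • f.eval (i : ℚ)

lemma eval_eq_sum_nd (f : ℚ[X]) (n : ℕ) :
    f.eval (n : ℚ) = ∑ k ∈ range (n + 1), (n.choose k : ℚ) * nd f k := by
  have h := shift_eq_sum_fwdDiff_iter (1 : ℕ) (fun m : ℕ => f.eval (m : ℚ)) n 0
  simp only [zero_add, smul_eq_mul, mul_one, nsmul_eq_mul] at h
  rw [h]
  refine sum_congr rfl fun k _ => ?_
  rw [fwdDiff_iter_eq_sum_shift]
  simp [nd]

lemma natDegree_cP_le (l : ℕ) : (cP ℚ l).natDegree ≤ l := by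
  rw [cP]
  exact (natDegree_C_mul_le _ _).trans (descPochhammer_natDegree ℚ l).le

theorem newton (f : ℚ[X]) (d : ℕ) (hf : f.natDegree ≤ d) :
    f = ∑ j ∈ range (d + 1), C (nd f j) * cP ℚ j := by
  apply eq_of_natDegree_lt_card_of_eval_eq' _ _
    ((range (d + 1)).image (fun n : ℕ => (n : ℚ)))
  · intro x hx
    obtain ⟨n, hn, rfl⟩ := mem_image.mp hx
    have hn' := mem_range.mp hn
    rw [eval_eq_sum_nd, eval_finsetSum]
    have hsub : range (n + 1) ⊆ range (d + 1) := range_subset_range.mpr (by omega)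
    rw [← sum_subset hsub]
    · refine sum_congr rfl fun k _ => ?_
      rw [eval_mul, eval_C, cP_eval_nat]; ring
    · intro k _ hk
      rw [eval_mul, cP_eval_nat, Nat.choose_eq_zero_of_lt (by simpa using hk)]
      simp
  · rw [card_image_of_injective _ Nat.cast_injective, card_range]
    refine Nat.lt_succ_of_le (max_le hf ?_)
    refine natDegree_sum_le_of_forall_le _ _ fun j hj => ?_
    refine (natDegree_C_mul_le _ _).trans ((natDegree_cP_le j).trans ?_)
    exact Nat.lt_succ_iff.mp (mem_range.mp hj)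

lemma norm_sum_le {ι : Type*} (s : Finset ι) (f : ι → ℚ) (e : ℚ) (he : 0 ≤ e)
    (h : ∀ i ∈ s, padicNorm p (f i) ≤ e) : padicNorm p (∑ i ∈ s, f i) ≤ e := by
  classical
  induction s using Finset.induction_on with
  | empty => simpa using he
  | insert a s ha ih =>
    rw [sum_insert ha]
    exact (padicNorm.nonarchimedean).trans
      (max_le (h a (mem_insert_self _ _)) (ih fun i hi => h i (mem_insert_of_mem hi)))

lemma norm_nd_le (f : ℚ[X]) (e : ℚ) (he : 0 ≤ e) (hv : ∀ n : ℕ, padicNorm p (f.eval (n : ℚ)) ≤ e)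
    (n : ℕ) : padicNorm p (nd f n) ≤ e := by
  refine norm_sum_le _ _ e he fun i _ => ?_
  rw [zsmul_eq_mul, padicNorm.mul]
  calc _ ≤ 1 * e := mul_le_mul (padicNorm.of_int _) (hv i) (padicNorm.nonneg _) zero_le_one
    _ = e := one_mul e

/-- a polynomial bounded on `ℕ` is bounded on the `p`-integral rationals -/
theorem norm_eval_le (f : ℚ[X]) (e : ℚ) (he : 0 ≤ e)
    (hv : ∀ n : ℕ, padicNorm p (f.eval (n : ℚ)) ≤ e) (z : ℚ) (hz : padicNorm p z ≤ 1) :
    padicNorm p (f.eval z) ≤ e := by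
  rw [newton f f.natDegree le_rfl, eval_finsetSum]
  refine norm_sum_le _ _ e he fun i _ => ?_
  rw [eval_mul, eval_C, padicNorm.mul]
  calc _ ≤ e * 1 := mul_le_mul (norm_nd_le f e he hv i) (norm_cP_le z hz i) (padicNorm.nonneg _) he
    _ = e := mul_one e

end Newton

end Crest.Agent.R006.P57
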