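import Crest.Agent.R006.Defs
import Crest.Agent.R006.P57_Newton_241

/-!
Row 6, blocks P5 and P7 for the frozen definitions `Defs.lean` (helper241).

`PB_minor` : for every odd prime `p`, `v_p(Minor) ≥ - w D^2 / 4 - O(N e)`,
`D = deg bound of R - q`.
-/

set_option autoImplicit false

namespace Crest.Agent.R006.P57M

open Polynomial Matrix Finset Crest.Agent.R006.ProdBound481 Crest.Agent.R006.PsiInf
  Crest.Agent.R006.P57 Crest.Agent.R006.NV Crest.Agent.R006.P7Det241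

section Det

variable {p : ℕ} [hp : Fact p.Prime]
variable {O : Type*} [Fintype O] [DecidableEq O]

/-- determinant step, the `R`-polynomials have degree `≤ δ + l` -/
theorem PB_det_poly' (k δ q : ℕ) (hqk : q ≤ δ + k) (w e : ℤ) (hw : 0 ≤ w) (he : 0 ≤ e)
    (A : Matrix (Fin k ⊕ O) (Fin k) ℚ[X]) (B : Matrix (Fin k ⊕ O) O ℚ[X])
    (s : Matrix O (Fin k) ℚ[X]) (U : Matrix (Fin k ⊕ O) (Fin (δ + k - q)) ℚ[X])
    (t : Matrix (Fin (δ + k - q)) (Fin k) ℚ[X])
    (hA : ∀ i l, PB p (-e) (A i l)) (hB : ∀ i o, PB p (-e) (B i o))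
    (hU : ∀ i j, PB p (-e) (U i j))
    (ht : ∀ (j : Fin (δ + k - q)) (l : Fin k),
      PB p (-(w * max 0 (((δ + (l : ℕ) : ℕ) : ℤ) - (q + (j : ℕ)))) - e) (t j l))
    (V : ℤ)
    (hV : 4 * V ≤ -(w * (((δ + k : ℕ) - (q : ℤ)) ^ 2 + 4 * ((δ + k : ℕ) - (q : ℤ)))) -
      4 * (e * (k + Fintype.card O + ((δ + k : ℕ) - (q : ℤ))))) :
    PB p V (fromCols (A - B * s - U * t) B).det := by
  classical
  set mid : ℕ := ((δ + k) + q) / 2 with hmid
  have key := PB_det_zcols (p := p) A B s U t (fun _ => -e)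
    (fun l => -(w * max 0 (((δ + (l : ℕ) : ℕ) : ℤ) - mid))) (fun _ => 0)
    (fun j => -(w * max 0 ((mid : ℤ) - (q + (j : ℕ)))) - e) (fun _ => 0)
    (fun i l => (hA i l).mono (by
      have : 0 ≤ w * max 0 (((δ + (l : ℕ) : ℕ) : ℤ) - mid) := mul_nonneg hw (le_max_left _ _)
      linarith))
    (fun i o => (hB i o).mono (by linarith))
    (fun i j => (hU i j).mono (by linarith))
    (fun j l => (ht j l).mono (by
      have h1 : max 0 (((δ + (l : ℕ) : ℕ) : ℤ) - (q + (j : ℕ))) ≤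
          max 0 ((mid : ℤ) - (q + (j : ℕ))) + max 0 (((δ + (l : ℕ) : ℕ) : ℤ) - mid) := by
        apply max_le
        · exact add_nonneg (le_max_left _ _) (le_max_left _ _)
        · have h2 := le_max_right (0 : ℤ) ((mid : ℤ) - (q + (j : ℕ)))
          have h3 := le_max_right (0 : ℤ) (((δ + (l : ℕ) : ℕ) : ℤ) - mid)
          linarith
      have h2 := mul_le_mul_of_nonneg_left h1 hw
      linarith))
    (fun j => by
      have : 0 ≤ w * max 0 ((mid : ℤ) - (q + (j : ℕ))) := mul_nonneg hw (le_max_left _ _)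
      linarith)
  refine key.mono ?_
  have hs := sum_weights (δ + k) q hqk
  rw [← hmid] at hs
  have hsub : ∑ l : Fin k, max 0 (((δ + (l : ℕ) : ℕ) : ℤ) - mid) ≤
      ∑ l : Fin (δ + k), max 0 ((l : ℤ) - mid) := by
    rw [Fin.sum_univ_eq_sum_range (fun l => max 0 (((δ + l : ℕ) : ℤ) - (mid : ℤ))) k,
      Fin.sum_univ_eq_sum_range (fun l => max 0 ((l : ℤ) - (mid : ℤ))) (δ + k),
      Finset.sum_range_add]
    have : 0 ≤ ∑ x ∈ range δ, max 0 ((x : ℤ) - (mid : ℤ)) :=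
      Finset.sum_nonneg fun _ _ => le_max_left _ _
    linarith
  have e1 : ∑ i : Fin k ⊕ O, (-e : ℤ) = -(e * (k + Fintype.card O)) := by
    rw [Finset.sum_const, Finset.card_univ, Fintype.card_sum, Fintype.card_fin, nsmul_eq_mul]
    push_cast; ring
  have e2 : ∑ l : Fin k, -(w * max 0 (((δ + (l : ℕ) : ℕ) : ℤ) - mid)) =
      -(w * ∑ l : Fin k, max 0 (((δ + (l : ℕ) : ℕ) : ℤ) - mid)) := by
    rw [Finset.sum_neg_distrib, Finset.mul_sum]
  have e3 : ∑ j : Fin (δ + k - q), (-(w * max 0 ((mid : ℤ) - (q + (j : ℕ)))) - e + 0) =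
      -(w * ∑ j : Fin (δ + k - q), max 0 ((mid : ℤ) - (q + (j : ℕ)))) -
        e * ((δ + k : ℕ) - (q : ℤ)) := by
    simp only [add_zero, Finset.sum_sub_distrib, Finset.sum_neg_distrib, Finset.mul_sum,
      Finset.sum_const, Finset.card_univ, Fintype.card_fin, nsmul_eq_mul]
    rw [Nat.cast_sub hqk]; ring
  rw [e1, e2, e3, Finset.sum_const_zero]
  have hs' := mul_le_mul_of_nonneg_left hs hw
  have hsub' := mul_le_mul_of_nonneg_left hsub hw
  nlinarith

end Det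

section Tau

/-- coefficients of `τ(R)` in the binomial basis -/
noncomputable def tcf (R : ℚ[X]) (n i : ℕ) : ℚ := ∑ j ∈ range (n + 1), nd R j * tC mu j i

lemma TR_C_mul (a : ℚ) (P : ℚ[X]) : TR mu (C a * P) = C a * TR mu P := by
  rw [← smul_eq_C_mul, map_smul, smul_eq_C_mul]

theorem TR_eq (R : ℚ[X]) (n N : ℕ) (hR : R.natDegree ≤ n) (hN : n ≤ N) :
    TR mu R = ∑ i ∈ range N, C (tcf R n i) * cP ℚ i := by
  conv_lhs => rw [newton R n hR]
  rw [map_sum]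
  have h1 : ∀ j ∈ range (n + 1), TR mu (C (nd R j) * cP ℚ j) =
      ∑ i ∈ range N, C (nd R j * tC mu j i) * cP ℚ i := by
    intro j hj
    have hj' := mem_range.mp hj
    rw [TR_C_mul, TR_cP, mul_sum]
    have h2 : ∑ i ∈ range j, C (nd R j) * (C (tC mu j i) * cP ℚ i) =
        ∑ i ∈ range j, C (nd R j * tC mu j i) * cP ℚ i :=
      sum_congr rfl fun i _ => by rw [C_mul, mul_assoc]
    rw [h2]
    refine sum_subset (range_subset_range.mpr (by omega)) fun i _ hi => ?_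
    rw [tC, if_neg (by simpa using hi), mul_zero, C_0, zero_mul]
  rw [sum_congr rfl h1, sum_comm]
  refine sum_congr rfl fun i _ => ?_
  rw [tcf, map_sum, sum_mul]

variable {p : ℕ} [hp : Fact p.Prime]

lemma PB_C_of_norm_le_one {a : ℚ} (h : padicNorm p a ≤ 1) : PB p 0 (C a : ℚ[X]) :=
  PB.C (by simpa using h)

theorem PB_tcf (R : ℚ[X]) (n i : ℕ) (hR : ∀ m : ℕ, padicNorm p (R.eval (m : ℚ)) ≤ 1) (w e : ℤ)
    (hw : 0 ≤ w)
    (ht : ∀ j, j ≤ n → i < j → PB p (-(w * ((j : ℤ) - i)) - e) (C (tC mu j i) : ℚ[X])) :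
    PB p (-(w * max 0 ((n : ℤ) - i)) - e) (C (tcf R n i) : ℚ[X]) := by
  rw [tcf, map_sum]
  refine PB.sum _ _ fun j hj => ?_
  have hj' : j ≤ n := Nat.lt_succ_iff.mp (mem_range.mp hj)
  rw [C_mul]
  by_cases h : i < j
  · have h1 := (PB_C_of_norm_le_one (norm_nd_le (p := p) R 1 zero_le_one hR j)).mul (ht j hj' h)
    refine h1.mono ?_
    have h2 : ((j : ℤ) - i) ≤ max 0 ((n : ℤ) - i) :=
      le_trans (by have : (j : ℤ) ≤ n := by exact_mod_cast hj'
                   linarith) (le_max_right _ _)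
    have h3 := mul_le_mul_of_nonneg_left h2 hw
    linarith
  · rw [tC, if_neg h, C_0, mul_zero]
    exact PB.zero _

end Tau

section Entry

lemma coeff_gm_mul (x : ℚ) (P : ℚ[X]) (φ : PowerSeries ℚ) (j : ℕ) :
    PowerSeries.coeff j (gm x P * φ) =
      ∑ a ∈ range (j + 1), (taylor x P).coeff a * PowerSeries.coeff (j - a) φ := by
  rw [PowerSeries.coeff_mul, Finset.Nat.sum_antidiagonal_eq_sum_range_succ
    (fun a b => PowerSeries.coeff a (gm x P) * PowerSeries.coeff b φ)]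
  refine sum_congr rfl fun a _ => ?_
  rw [gm, Polynomial.coeff_coe]

/-- germ of `ψ` over `ℚ[X]` -/
noncomputable def gR (z : D.Site) (a : ℕ) : ℚ[X] :=
  C (PowerSeries.coeff a (D.psi0 z)) - X * C (PowerSeries.coeff a (D.psi1 z))

/-- germ of `1` -/
noncomputable def gT (a : ℕ) : ℚ[X] := if a = 0 then 1 else 0

/-- germ of `g` over `ℚ[X]` -/
noncomputable def gK (z : D.Site) (a : ℕ) : ℚ[X] := C (PowerSeries.coeff a (D.gam z))

lemma fn_gT (x : ℚ) (j : ℕ) (P : ℚ[X]) : fn x j gT P = C ((taylor x P).coeff j) := by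
  rw [fn, sum_eq_single j]
  · rw [Nat.sub_self, gT, if_pos rfl, mul_one]
  · intro a ha hne
    have : j - a ≠ 0 := by have := mem_range.mp ha; omega
    rw [gT, if_neg this, mul_zero]
  · intro h; exact absurd (mem_range.mpr (Nat.lt_succ_self j)) h

lemma entT_eq (T : ℚ[X]) (ρ : D.Row) : (C (D.entT T ρ) : ℚ[X]) = fn ρ.1.val ρ.2 gT T := by
  rw [fn_gT, D.entT, gm, Polynomial.coeff_coe]

lemma entQ_eq (Q : ℚ[X]) (ρ : D.Row) : (C (D.entQ Q ρ) : ℚ[X]) = fn ρ.1.val ρ.2 (gK ρ.1) Q := by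
  rw [D.entQ, coeff_gm_mul, map_sum, fn]
  refine sum_congr rfl fun a _ => ?_
  rw [C_mul, gK]

lemma entR_eq (R : ℚ[X]) (ρ : D.Row) : (C (D.ent0 R ρ) - X * C (D.ent1 R ρ) : ℚ[X]) =
    fn ρ.1.val ρ.2 (gR ρ.1) R - fn ρ.1.val ρ.2 gT (TR mu R) := by
  rw [D.ent0, D.ent1, map_sub, fn_gT, coeff_gm_mul, coeff_gm_mul, C_sub, map_sum, map_sum, fn,
    gm, Polynomial.coeff_coe, mul_sum]
  have h : ∀ a, (C ((taylor ρ.1.val R).coeff a) * gR ρ.1 (ρ.2 - a) : ℚ[X]) =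
      C ((taylor ρ.1.val R).coeff a * PowerSeries.coeff (ρ.2 - a) (D.psi0 ρ.1)) -
      X * C ((taylor ρ.1.val R).coeff a * PowerSeries.coeff (ρ.2 - a) (D.psi1 ρ.1)) := by
    intro a
    rw [gR, C_mul, C_mul]; ring
  rw [sum_congr rfl fun a _ => h a, sum_sub_distrib, D.tau]
  ring

end Entry

section PolR

variable {p : ℕ} [hp : Fact p.Prime]

lemma norm_half (hp2 : p ≠ 2) : padicNorm p (1 / 2 : ℚ) = 1 := by
  have h2 : padicNorm p (2 : ℚ) = 1 := by
    have : ¬ p ∣ 2 := by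
      intro h
      exact hp2 ((Nat.prime_dvd_prime_iff_eq hp.out Nat.prime_two).mp h)
    exact_mod_cast (padicNorm.nat_eq_one_iff 2).mpr this
  rw [padicNorm.div, h2, padicNorm.one, div_one]

lemma norm_nat_sub_half (hp2 : p ≠ 2) (n : ℕ) : padicNorm p ((n : ℚ) - 1 / 2) ≤ 1 := by
  refine padicNorm.sub.trans (max_le (padicNorm.of_nat n) (norm_half hp2).le)

lemma norm_int_add_half (hp2 : p ≠ 2) (n : ℤ) : padicNorm p ((n : ℚ) + 1 / 2) ≤ 1 := by
  refine (padicNorm.nonarchimedean).trans (max_le (padicNorm.of_int n) (norm_half hp2).le)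

lemma norm_polR_le (hp2 : p ≠ 2) (S : D.Shape) (u l n : ℕ) :
    padicNorm p ((D.polR S u l).eval (n : ℚ)) ≤ 1 := by
  have hb : ∀ (z : ℚ) (m : ℕ), padicNorm p z ≤ 1 → padicNorm p ((D.bin m).eval z) ≤ 1 :=
    fun z m hz => norm_cP_le z hz m
  have h1 := hb (n : ℚ) (S.a2 * u) (padicNorm.of_nat n)
  have h2 := hb ((n : ℚ) + ((S.i1 * u : ℕ) - 1 / 2 : ℚ)) (S.i1 * u) (by
    have := norm_nat_sub_half (p := p) hp2 (n + S.i1 * u)
    have e : (((n + S.i1 * u : ℕ) : ℚ) - 1 / 2) = (n : ℚ) + ((S.i1 * u : ℕ) - 1 / 2 : ℚ) := by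
      push_cast; ring
    rwa [e] at this)
  have h3 := hb ((n : ℚ) + ((S.r1 * u : ℕ) : ℚ)) (S.r1 * u) (by
    have := padicNorm.of_nat (p := p) (n + S.r1 * u)
    rwa [Nat.cast_add] at this)
  have h4 := hb (n : ℚ) (S.a1 * u + l) (padicNorm.of_nat n)
  rw [D.polR, D.gauge, eval_mul, eval_mul, eval_mul, eval_comp, eval_comp, eval_add, eval_X,
    eval_C, eval_add, eval_X, eval_C, padicNorm.mul, padicNorm.mul, padicNorm.mul]
  have hn := fun q : ℚ => padicNorm.nonneg (p := p) q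
  exact mul_le_one₀ (mul_le_one₀ (mul_le_one₀ h1 (hn _) h2) (hn _) h3) (hn _) h4

lemma natDegree_polR_le (S : D.Shape) (u l : ℕ) :
    (D.polR S u l).natDegree ≤ (S.a1 + S.a2 + S.i1 + S.r1) * u + l := by
  have hb : ∀ m, (D.bin m).natDegree ≤ m := fun m => natDegree_cP_le m
  have hc : ∀ (m : ℕ) (c : ℚ), ((D.bin m).comp (X + C c)).natDegree ≤ m := by
    intro m c
    refine natDegree_comp_le.trans ?_
    rw [natDegree_X_add_C, mul_one]
    exact hb m
  rw [D.polR, D.gauge]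
  refine natDegree_mul_le.trans ?_
  have h1 := natDegree_mul_le (p := D.bin (S.a2 * u) * (D.bin (S.i1 * u)).comp
    (X + C ((S.i1 * u : ℕ) - 1 / 2 : ℚ))) (q := (D.bin (S.r1 * u)).comp
    (X + C ((S.r1 * u : ℕ) : ℚ)))
  have h2 := natDegree_mul_le (p := D.bin (S.a2 * u)) (q := (D.bin (S.i1 * u)).comp
    (X + C ((S.i1 * u : ℕ) - 1 / 2 : ℚ)))
  have h3 := hb (S.a2 * u)
  have h4 := hc (S.i1 * u) ((S.i1 * u : ℕ) - 1 / 2 : ℚ)
  have h5 := hc (S.r1 * u) ((S.r1 * u : ℕ) : ℚ)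
  have h6 := hb (S.a1 * u + l)
  have e : (S.a1 + S.a2 + S.i1 + S.r1) * u = S.a1 * u + S.a2 * u + S.i1 * u + S.r1 * u := by ring
  rw [e]
  omega

end PolR

section Main

variable {p : ℕ} [hp : Fact p.Prime]

/-- local bounds at one site: Taylor coefficients of the binomials of degree `≤ N0` and the
germs -/
structure SiteB (p N0 : ℕ) (e : ℤ) (z : D.Site) : Prop where
  tay : ∀ l ≤ N0, ∀ a ≤ 2, PB p (-e) (C ((taylor z.val (D.bin l)).coeff a) : ℚ[X])
  p0 : ∀ a ≤ 2, PB p (-e) (C (PowerSeries.coeff a (D.psi0 z)) : ℚ[X])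
  p1 : ∀ a ≤ 2, PB p (-e) (C (PowerSeries.coeff a (D.psi1 z)) : ℚ[X])
  ga : ∀ a ≤ 2, PB p (-e) (C (PowerSeries.coeff a (D.gam z)) : ℚ[X])

omit hp in
lemma PB_X : PB p 0 (X : ℚ[X]) := by
  intro k
  rw [coeff_X]
  split_ifs <;> simp

lemma SiteB.gR {N0 : ℕ} {e : ℤ} {z : D.Site} (h : SiteB p N0 e z) {a : ℕ} (ha : a ≤ 2) :
    PB p (-e) (gR z a) := by
  refine (h.p0 a ha).sub ?_
  have := (PB_X (p := p)).mul (h.p1 a ha)
  rwa [zero_add] at this

lemma SiteB.gT {N0 : ℕ} {e : ℤ} (he : 0 ≤ e) {z : D.Site} (_h : SiteB p N0 e z) {a : ℕ} :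
    PB p (-e) (gT a) := by
  rw [P57M.gT]
  split_ifs
  · exact (PB.one (p := p)).mono (by linarith)
  · exact PB.zero _

lemma SiteB.tayR {N0 : ℕ} {e : ℤ} {z : D.Site} (h : SiteB p N0 e z) (R : ℚ[X])
    (hR : ∀ m : ℕ, padicNorm p (R.eval (m : ℚ)) ≤ 1) (hd : R.natDegree ≤ N0) {a : ℕ}
    (ha : a ≤ 2) : PB p (-e) (C ((taylor z.val R).coeff a) : ℚ[X]) := by
  rw [newton R N0 hd, map_sum, finsetSum_coeff, map_sum]
  refine PB.sum _ _ fun j hj => ?_
  have hj' : j ≤ N0 := Nat.lt_succ_iff.mp (mem_range.mp hj)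
  rw [taylor_mul, taylor_C, coeff_C_mul, C_mul]
  have := (PB_C_of_norm_le_one (norm_nd_le (p := p) R 1 zero_le_one hR j)).mul (h.tay j hj' a ha)
  rwa [zero_add] at this

/-- the matrix in the form of the determinant lemma -/
theorem Mat_eq (S : D.Shape) (u : ℕ) (r : D.Col S u → D.Row)
    (hqk : S.q * u ≤ (S.a1 + S.a2 + S.i1 + S.r1) * u + S.k * u) :
    ∃ s : Matrix (Fin (S.q * u) ⊕ Fin (S.g * u)) (Fin (S.k * u)) ℚ[X],
    D.Mat S u r = fromCols
      ((Matrix.of fun i (l : Fin (S.k * u)) =>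
          fn (r i).1.val (r i).2 (gR (r i).1) (D.polR S u l)) -
        (Matrix.of fun i (c : Fin (S.q * u) ⊕ Fin (S.g * u)) => Sum.elim
          (fun j : Fin (S.q * u) => fn (r i).1.val (r i).2 gT (cP ℚ j))
          (fun j : Fin (S.g * u) => fn (r i).1.val (r i).2 (gK (r i).1) (cP ℚ j)) c) * s -
        (Matrix.of fun i (j : Fin ((S.a1 + S.a2 + S.i1 + S.r1) * u + S.k * u - S.q * u)) =>
          fn (r i).1.val (r i).2 gT (cP ℚ (S.q * u + j))) *
        (Matrix.of fun (j : Fin ((S.a1 + S.a2 + S.i1 + S.r1) * u + S.k * u - S.q * u))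
          (l : Fin (S.k * u)) =>
          (C (tcf (D.polR S u l) ((S.a1 + S.a2 + S.i1 + S.r1) * u + l) (S.q * u + j)) : ℚ[X])))
      (Matrix.of fun i (c : Fin (S.q * u) ⊕ Fin (S.g * u)) => Sum.elim
          (fun j : Fin (S.q * u) => fn (r i).1.val (r i).2 gT (cP ℚ j))
          (fun j : Fin (S.g * u) => fn (r i).1.val (r i).2 (gK (r i).1) (cP ℚ j)) c) := by
  set δ := (S.a1 + S.a2 + S.i1 + S.r1) * u with hδ
  set k := S.k * u with hk
  set q := S.q * u with hq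
  set g := S.g * u with hg
  refine ⟨Matrix.of fun c (l : Fin k) => Sum.elim
    (fun j : Fin q => (C (tcf (D.polR S u l) (δ + l) j) : ℚ[X])) (fun _ => 0) c, ?_⟩
  ext1 i c
  rcases c with l | c
  · have h1 : fn (r i).1.val (r i).2 gT (TR mu (D.polR S u (l : ℕ))) =
        ∑ j ∈ range (q + (δ + k - q)),
          C (tcf (D.polR S u l) (δ + l) j) * fn (r i).1.val (r i).2 gT (cP ℚ j) := by
      rw [TR_eq (D.polR S u l) (δ + l) (q + (δ + k - q)) (natDegree_polR_le S u l)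
        (by have := l.2; omega), fn_sum]
    rw [sum_range_add] at h1
    simp only [D.Mat, D.entry, fromCols_apply_inl, Matrix.of_apply, Matrix.sub_apply,
      Matrix.mul_apply, Fintype.sum_sum_type, Sum.elim_inl, Sum.elim_inr, mul_zero,
      sum_const_zero, add_zero]
    rw [entR_eq, h1, Fin.sum_univ_eq_sum_range
        (fun j => fn (r i).1.val (r i).2 gT (cP ℚ j) * C (tcf (D.polR S u l) (δ + l) j)) q,
        Fin.sum_univ_eq_sum_range
        (fun j => fn (r i).1.val (r i).2 gT (cP ℚ (q + j)) *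
          C (tcf (D.polR S u l) (δ + l) (q + j))) (δ + k - q)]
    have e1 : ∀ j, C (tcf (D.polR S u l) (δ + l) j) * fn (r i).1.val (r i).2 gT (cP ℚ j) =
        fn (r i).1.val (r i).2 gT (cP ℚ j) * C (tcf (D.polR S u l) (δ + l) j) :=
      fun j => mul_comm _ _
    rw [sum_congr rfl fun j _ => e1 j, sum_congr rfl fun j _ => e1 (q + j)]
    ring
  · simp only [fromCols_apply_inr, Matrix.of_apply]
    rcases c with c | c
    · simp only [D.Mat, D.entry, Matrix.of_apply, Sum.elim_inl]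
      rw [entT_eq]; rfl
    · simp only [D.Mat, D.entry, Matrix.of_apply, Sum.elim_inr]
      rw [entQ_eq]; rfl

/-- **the lower bound for the minor**, every odd prime -/
theorem PB_minor (hp2 : p ≠ 2) (S : D.Shape) (u : ℕ) (r : D.Col S u → D.Row)
    (w e : ℤ) (hw : 0 ≤ w) (he : 0 ≤ e) (N0 : ℕ)
    (hqk : S.q * u ≤ (S.a1 + S.a2 + S.i1 + S.r1) * u + S.k * u)
    (hN1 : (S.a1 + S.a2 + S.i1 + S.r1) * u + S.k * u ≤ N0) (hN2 : S.g * u ≤ N0)
    (hj : ∀ i, (r i).2 ≤ 2) (hS : ∀ i, SiteB p N0 e (r i).1)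
    (ht : ∀ j i, j ≤ N0 → i < j → PB p (-(w * ((j : ℤ) - i)) - e) (C (tC mu j i) : ℚ[X]))
    (V : ℤ)
    (hV : 4 * V ≤ -(w * ((((S.a1 + S.a2 + S.i1 + S.r1) * u + S.k * u : ℕ) - ((S.q * u : ℕ) : ℤ))
        ^ 2 + 4 * (((S.a1 + S.a2 + S.i1 + S.r1) * u + S.k * u : ℕ) - ((S.q * u : ℕ) : ℤ)))) -
      4 * (2 * e * ((S.k * u : ℕ) + (S.q * u + S.g * u : ℕ) +
        (((S.a1 + S.a2 + S.i1 + S.r1) * u + S.k * u : ℕ) - ((S.q * u : ℕ) : ℤ))))) :
    PB p V (D.Minor S u r) := by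
  obtain ⟨s, hs⟩ := Mat_eq S u r hqk
  rw [D.Minor, hs]
  have h2e : (-(2 * e) : ℤ) = -(e + e) := by ring
  have hcP : ∀ i, ∀ l ≤ N0, ∀ a ≤ (r i).2,
      PB p (-e) (C ((taylor (r i).1.val (cP ℚ l)).coeff a) : ℚ[X]) :=
    fun i l hl a ha => (hS i).tay l hl a (ha.trans (hj i))
  refine PB_det_poly' (p := p) (S.k * u) ((S.a1 + S.a2 + S.i1 + S.r1) * u) (S.q * u) hqk w (2 * e)
    hw (by linarith) _ _ s _ _ ?_ ?_ ?_ ?_ V ?_
  · intro i l
    rw [h2e]
    refine PB_fn (fun a ha => (hS i).tayR (D.polR S u l) (norm_polR_le hp2 S u l) ?_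
      (ha.trans (hj i))) (fun a ha => (hS i).gR (ha.trans (hj i)))
    refine (natDegree_polR_le S u l).trans ?_
    have := l.2
    omega
  · intro i o
    rw [h2e]
    rcases o with o | o
    · exact PB_fn (hcP i o (by have := o.2; omega)) (fun a _ => (hS i).gT he)
    · exact PB_fn (hcP i o (by have := o.2; omega)) (fun a ha => (hS i).ga a (ha.trans (hj i)))
  · intro i j
    rw [h2e]
    exact PB_fn (hcP i _ (by have := j.2; omega)) (fun a _ => (hS i).gT he)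
  · intro j l
    have h := PB_tcf (p := p) (D.polR S u l) ((S.a1 + S.a2 + S.i1 + S.r1) * u + l)
      (S.q * u + j) (norm_polR_le hp2 S u l) w e hw
      (fun j' hj' hi => ht j' _ (by have := l.2; omega) hi)
    refine h.mono ?_
    push_cast
    linarith
  · rw [Fintype.card_sum, Fintype.card_fin, Fintype.card_fin]
    exact hV

end Main

end Crest.Agent.R006.P57M
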