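import Crest.Agent.R006.Defs
import Crest.Agent.R006.P5_GermsPB_939

/-!
Row 6, blocks P5 / P7: the bounds of `P5_GermsPB_939` for the frozen germs of `Defs.lean` (helper939).

* `norm_psi0`, `norm_psi1`, `norm_gam` : `|coeff a| ≤ p^((a+3) log_p D)` if `|2 z| + 2 ≤ D`;
* `norm_bin` : `|(taylor x (bin l)).coeff a| ≤ p^(a log_p D)`, `2 l ≤ D`;
* `germ_bound` : everything in the form `≤ p^(10 (1 + log_p N))`, sites `|i| ≤ N`, orders `≤ 2`.
-/

set_option autoImplicit false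

namespace Crest.Agent.R006.Germ939

open PowerSeries Finset
open Crest.Agent.R006.NV (pt bi PsiZ GamZ PsiH0 PsiH)

section chains

variable {S : Subring ℚ} {d : ℚ} {M : ℕ}

theorem hforward (x0 : ℚ) (η : ℕ → PowerSeries ℚ)
    (h : ∀ n : ℕ, η (n + 1) = (0 - (2 * pt (x0 + n) + 1) ^ 3 * η n)
      * (pt (x0 + n + 1) ^ 3)⁻¹) (n : ℕ) :
    η n = (-1) ^ n * (e (x0 + n) n ^ 3 * η 0) := by
  induction n with
  | zero => simp [e_zero]
  | succ n ih =>
    have hinv : (pt (x0 + n + 1) ^ 3)⁻¹ = (pt (x0 + n + 1))⁻¹ ^ 3 := by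
      rw [pow_succ, pow_succ, pow_one, PowerSeries.mul_inv_rev, PowerSeries.mul_inv_rev]; ring
    have ec : x0 + ((n + 1 : ℕ) : ℚ) = x0 + n + 1 := by push_cast; ring
    rw [h n, hinv, ec, e_succ, ih, pow_succ (-1 : PowerSeries ℚ) n]
    ring

theorem hbackward (y0 : ℚ) (η : ℕ → PowerSeries ℚ)
    (h : ∀ m : ℕ, η (m + 1) = (0 - pt (y0 - m) ^ 3 * η m)
      * ((2 * pt (y0 - m - 1) + 1) ^ 3)⁻¹) (m : ℕ) :
    η m = (-1) ^ m * (e' y0 m ^ 3 * η 0) := by
  induction m with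
  | zero => simp [e'_zero]
  | succ m ih =>
    have hinv : ((2 * pt (y0 - m - 1) + 1) ^ 3)⁻¹ = (2 * pt (y0 - m - 1) + 1)⁻¹ ^ 3 := by
      rw [pow_succ, pow_succ, pow_one, PowerSeries.mul_inv_rev, PowerSeries.mul_inv_rev]; ring
    rw [h m, hinv, e'_succ, ih, pow_succ (-1 : PowerSeries ℚ) m]
    ring

lemma HomZ_zero : D.HomZ 0 = 1 := rfl

theorem Rd_HomZ (hS : (1 / 2 : ℚ) ∈ S) (hd : d ∈ S) (hD : DD S d M) (i : ℤ)
    (hi : |2 * i| ≤ M) : Rd S d 3 (D.HomZ i) := by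
  rcases le_or_gt 0 i with h0 | h0
  · obtain ⟨n, rfl⟩ := Int.eq_ofNat_of_zero_le h0
    have hn : 2 * n ≤ M := by
      rw [abs_of_nonneg (by positivity)] at hi; exact_mod_cast hi
    rw [hforward 0 (fun n : ℕ => D.HomZ (n : ℤ)) (fun n => ?_) n]
    · refine Rd_sign ?_ n
      have h1 := (Rd_e hS hd hD (HI.zero.add_nat n) n hn fun i hi => ?_).pow hd 3
      · have := h1.mul (Rd.one hd)
        simpa [HomZ_zero] using this
      · have h3 : (i : ℚ) + 1 ≤ n := by exact_mod_cast hi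
        refine ⟨by intro h; linarith, ?_⟩
        rw [abs_of_nonneg (by linarith)]
        have hn' : (2 * n : ℚ) ≤ M := by exact_mod_cast hn
        have : (0 : ℚ) ≤ i := Nat.cast_nonneg i
        linarith
    · simp only [D.HomZ]
      rw [NV.bi_succ]
      simp only [Int.cast_natCast, zero_add]
  · obtain ⟨m, rfl⟩ : ∃ m : ℕ, i = -(m : ℤ) := ⟨(-i).toNat, by omega⟩
    have hm : 2 * m ≤ M := by
      rw [abs_of_nonpos (by omega)] at hi; omega
    rw [hbackward 0 (fun m : ℕ => D.HomZ (-(m : ℤ))) (fun m => ?_) m]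
    · refine Rd_sign ?_ m
      have h1 := (Rd_e' hS hd hD HI.zero m hm fun i hi => ?_).pow hd 3
      · have := h1.mul (Rd.one hd)
        simpa [HomZ_zero] using this
      · have h3 : (i : ℚ) + 1 ≤ m := by exact_mod_cast hi
        have h4 : (0 : ℚ) ≤ i := Nat.cast_nonneg i
        refine ⟨by intro h; linarith, ?_⟩
        rw [abs_of_nonpos (by linarith)]
        have hm' : (2 * m : ℚ) ≤ M := by exact_mod_cast hm
        linarith
    · simp only [D.HomZ]
      rw [bi_neg_step]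
      have e1 : ((-(m : ℤ) - 1 : ℤ) : ℚ) = 0 - m - 1 := by push_cast; ring
      have e2 : (0 : ℚ) - m - 1 + 1 = 0 - m := by ring
      simp only [e1, e2]

end chains

section padic

/-- the index of a site -/
def idx : D.Site → ℤ
  | .Z i => i
  | .H i => i

lemma HI_val (z : D.Site) : HI z.val := by
  cases z with
  | Z i => exact ⟨2 * i, by simp [D.Site.val]⟩
  | H i => exact ⟨2 * i + 1, by simp [D.Site.val]; ring⟩

variable {p : ℕ} [hp : Fact p.Prime]

lemma pow_mono_aux {a b : ℕ} (h : a ≤ b) : (p : ℚ) ^ a ≤ (p : ℚ) ^ b :=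
  pow_le_pow_right₀ (by exact_mod_cast hp.out.one_lt.le) h

lemma log_four_mul (h2 : p ≠ 2) {N : ℕ} (hN : 1 ≤ N) : Nat.log p (4 * N) ≤ Nat.log p N + 2 := by
  have hp1 : 1 < p := hp.out.one_lt
  have hp3 : 3 ≤ p := by omega
  have h1 : 4 * N ≤ p ^ 2 * N := by
    apply Nat.mul_le_mul_right
    nlinarith
  have h3 : 0 < p * N := Nat.mul_pos (by omega) (by omega)
  calc Nat.log p (4 * N) ≤ Nat.log p (p ^ 2 * N) := Nat.log_mono_right h1
    _ = Nat.log p N + 2 := by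
      rw [pow_two, mul_assoc, Nat.mul_comm p (p * N), Nat.log_mul_base hp1 h3.ne',
        Nat.mul_comm p N, Nat.log_mul_base hp1 (by omega)]

variable (h2 : p ≠ 2)
include h2

theorem norm_HomZ {M : ℕ} (i : ℤ) (hi : |2 * i| ≤ M) (k : ℕ) :
    padicNorm p (coeff k (D.HomZ i)) ≤ (p : ℚ) ^ ((k + 3) * Nat.log p M) :=
  (Rd_HomZ (half_mem_Zp h2) (dp_mem M) (DD_dp M) i hi).norm_le k

theorem norm_psi0 {N : ℕ} (z : D.Site) (hz : |2 * idx z| + 2 ≤ N) (k : ℕ) :
    padicNorm p (coeff k (D.psi0 z)) ≤ (p : ℚ) ^ ((k + 3) * Nat.log p N) := by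
  cases z with
  | Z i =>
    simp only [D.psi0, idx] at *
    exact norm_PsiZ h2 0 (by rw [padicNorm.zero]; norm_num) i (by omega : |2 * i| ≤ (N : ℤ)) k
  | H i =>
    simp only [D.psi0, idx, PsiH] at *
    refine norm_PsiH0 h2 (i + 1) ?_ k
    have h3 := abs_add_le (2 * i) 2
    rw [show |(2 : ℤ)| = 2 by norm_num] at h3
    have : 2 * (i + 1) = 2 * i + 2 := by ring
    rw [this]; omega

theorem norm_psi1 {N : ℕ} (z : D.Site) (hz : |2 * idx z| + 2 ≤ N) (k : ℕ) :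
    padicNorm p (coeff k (D.psi1 z)) ≤ (p : ℚ) ^ ((k + 3) * Nat.log p N) := by
  cases z with
  | Z i =>
    simp only [D.psi1, idx] at *
    exact norm_HomZ h2 i (by omega) k
  | H i =>
    simp only [D.psi1, map_zero, padicNorm.zero]
    positivity

theorem norm_gam {N : ℕ} (z : D.Site) (hz : |2 * idx z| + 2 ≤ N) (k : ℕ) :
    padicNorm p (coeff k (D.gam z)) ≤ (p : ℚ) ^ ((k + 2) * Nat.log p N) := by
  cases z with
  | Z i =>
    simp only [D.gam, idx] at *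
    exact norm_GamZ h2 i (by omega) k
  | H i =>
    simp only [D.gam, idx, D.GamH] at *
    refine norm_GamH0 h2 (i + 1) ?_ k
    have h3 := abs_add_le (2 * i) 2
    rw [show |(2 : ℤ)| = 2 by norm_num] at h3
    have : 2 * (i + 1) = 2 * i + 2 := by ring
    rw [this]; omega

theorem norm_bin {N : ℕ} {x : ℚ} (hx : HI x) (l : ℕ) (hl : 2 * l ≤ N) (a : ℕ) :
    padicNorm p ((Polynomial.taylor x (D.bin l)).coeff a) ≤ (p : ℚ) ^ (a * Nat.log p N) :=
  norm_cP h2 hx l hl a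

/-- all germ bounds, the form used by `P57_Minor` -/
theorem germ_bound {N : ℕ} (hN : 1 ≤ N) (z : D.Site) (hz : |idx z| ≤ N) (a : ℕ) (ha : a ≤ 2) :
    padicNorm p (coeff a (D.psi0 z)) ≤ (p : ℚ) ^ (10 * (1 + Nat.log p N)) ∧
    padicNorm p (coeff a (D.psi1 z)) ≤ (p : ℚ) ^ (10 * (1 + Nat.log p N)) ∧
    padicNorm p (coeff a (D.gam z)) ≤ (p : ℚ) ^ (10 * (1 + Nat.log p N)) := by
  have hz' : |2 * idx z| + 2 ≤ ((4 * N : ℕ) : ℤ) := by
    rw [abs_mul, show |(2 : ℤ)| = 2 by norm_num]; push_cast; omega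
  have hl := log_four_mul h2 hN
  have h5 : (a + 3) * Nat.log p (4 * N) ≤ 10 * (1 + Nat.log p N) := by
    calc (a + 3) * Nat.log p (4 * N) ≤ 5 * (Nat.log p N + 2) := Nat.mul_le_mul (by omega) hl
      _ ≤ 10 * (1 + Nat.log p N) := by omega
  have h6 : (a + 2) * Nat.log p (4 * N) ≤ 10 * (1 + Nat.log p N) := by
    refine le_trans (Nat.mul_le_mul_right _ (by omega)) h5
  exact ⟨(norm_psi0 h2 z hz' a).trans (pow_mono_aux h5),
    (norm_psi1 h2 z hz' a).trans (pow_mono_aux h5),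
    (norm_gam h2 z hz' a).trans (pow_mono_aux h6)⟩

/-- Taylor coefficients of the binomials at the sites -/
theorem bin_bound {N : ℕ} (hN : 1 ≤ N) (z : D.Site) (l : ℕ) (hl : l ≤ N) (a : ℕ) (ha : a ≤ 2) :
    padicNorm p ((Polynomial.taylor z.val (D.bin l)).coeff a) ≤ (p : ℚ) ^ (10 * (1 + Nat.log p N)) := by
  refine (norm_bin h2 (HI_val z) l (N := 4 * N) (by omega) a).trans (pow_mono_aux ?_)
  have hl' := log_four_mul h2 hN
  calc a * Nat.log p (4 * N) ≤ 2 * (Nat.log p N + 2) := Nat.mul_le_mul ha hl'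
    _ ≤ 10 * (1 + Nat.log p N) := by omega

/-- Taylor coefficients of the binomials at any integer or half-integer -/
theorem bin_bound' {N : ℕ} (hN : 1 ≤ N) {x : ℚ} (hx : HI x) (l : ℕ) (hl : l ≤ N) (a : ℕ)
    (ha : a ≤ 2) :
    padicNorm p ((Polynomial.taylor x (D.bin l)).coeff a) ≤ (p : ℚ) ^ (10 * (1 + Nat.log p N)) := by
  refine (norm_bin h2 hx l (N := 4 * N) (by omega) a).trans (pow_mono_aux ?_)
  have hl' := log_four_mul h2 hN
  calc a * Nat.log p (4 * N) ≤ 2 * (Nat.log p N + 2) := Nat.mul_le_mul ha hl'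
    _ ≤ 10 * (1 + Nat.log p N) := by omega

end padic

end Crest.Agent.R006.Germ939
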