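import Mathlib

/-!
Row 6, blocks P5 and P7 (helper250, lemma asked by 537 and 241).

* `intVal`  : `f : ℚ[X]`, `|f(n)|_p ≤ e` for all `n : ℕ`  ==>  `|f(z)|_p ≤ e` for all `z : ℚ`
  with `|z|_p ≤ 1`.
* `nd f j`  : the finite difference `Σ_{i ≤ j} (-1)^(j-i) C(j,i) f(i)`.
* `nd_le`   : `|nd f j|_p ≤ e` if `|f(i)|_p ≤ e` for `i ≤ j`.
* `nd_sum`  : `f = Σ_{j ≤ k} nd f j * C(X,j)` if `natDegree f ≤ k`.
* `intVal_shift`, `bn_le`, `norm_int_add_half` : shifts, `C(X,l)` and half integers (odd `p`).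
-/

set_option autoImplicit false

namespace Crest.Agent.R006.IntVal250

open Polynomial Finset

section norm

variable {p : ℕ} [hp : Fact p.Prime]

/-- a rational polynomial bounded by `e` on `ℕ` is bounded by `e` on the `p`-integral rationals -/
theorem intVal (f : ℚ[X]) (e : ℚ) (hv : ∀ n : ℕ, padicNorm p (f.eval (n : ℚ)) ≤ e)
    (z : ℚ) (hz : padicNorm p z ≤ 1) : padicNorm p (f.eval z) ≤ e := by
  have hev : ∀ q : ℚ, (f.map (algebraMap ℚ ℚ_[p])).eval ((q : ℚ) : ℚ_[p]) =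
      ((f.eval q : ℚ) : ℚ_[p]) := by
    intro q
    have := Polynomial.eval_map_algebraMap (B := ℚ_[p]) f (q : ℚ_[p])
    rw [this]
    have h2 := Polynomial.aeval_algebraMap_apply ℚ_[p] q f
    simpa using h2
  have hF : Continuous fun x : ℤ_[p] => (f.map (algebraMap ℚ ℚ_[p])).eval (x : ℚ_[p]) :=
    (f.map (algebraMap ℚ ℚ_[p])).continuous.comp continuous_subtype_val
  have hcl : IsClosed {x : ℤ_[p] |
      ‖(f.map (algebraMap ℚ ℚ_[p])).eval (x : ℚ_[p])‖ ≤ ((e : ℚ) : ℝ)} :=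
    isClosed_le hF.norm continuous_const
  have hN : ∀ n : ℕ, ‖(f.map (algebraMap ℚ ℚ_[p])).eval (((n : ℤ_[p]) : ℚ_[p]))‖ ≤
      ((e : ℚ) : ℝ) := by
    intro n
    have h1 : ((n : ℤ_[p]) : ℚ_[p]) = (((n : ℕ) : ℚ) : ℚ_[p]) := by push_cast; rfl
    rw [h1, hev, Padic.eq_padicNorm]
    exact_mod_cast hv n
  have hall := fun x : ℤ_[p] => PadicInt.denseRange_natCast.induction_on
    (p := fun x : ℤ_[p] => ‖(f.map (algebraMap ℚ ℚ_[p])).eval (x : ℚ_[p])‖ ≤ ((e : ℚ) : ℝ))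
    x hcl hN
  have hz' : ‖((z : ℚ) : ℚ_[p])‖ ≤ 1 := by
    rw [Padic.eq_padicNorm]; exact_mod_cast hz
  have h3 := hall ⟨((z : ℚ) : ℚ_[p]), hz'⟩
  have h4 : ‖(((f.eval z : ℚ)) : ℚ_[p])‖ ≤ ((e : ℚ) : ℝ) := by
    rw [← hev]; exact h3
  rw [Padic.eq_padicNorm] at h4
  exact_mod_cast h4

/-- version of `intVal` with the (superfluous) degree hypothesis -/
theorem intVal' (f : ℚ[X]) (k : ℕ) (_hf : f.natDegree ≤ k) (e : ℚ)
    (hv : ∀ n : ℕ, padicNorm p (f.eval (n : ℚ)) ≤ e)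
    (z : ℚ) (hz : padicNorm p z ≤ 1) : padicNorm p (f.eval z) ≤ e :=
  intVal f e hv z hz

end norm

/-- the finite difference of `f` of order `j` at `0` -/
noncomputable def nd (f : ℚ[X]) (j : ℕ) : ℚ :=
  ∑ i ∈ range (j + 1), ((-1 : ℚ) ^ (j - i) * (j.choose i : ℚ)) * f.eval (i : ℚ)

theorem nd_eq_fwdDiff (f : ℚ[X]) (j : ℕ) :
    nd f j = (fwdDiff (1 : ℕ))^[j] (fun n : ℕ => f.eval (n : ℚ)) 0 := by
  rw [fwdDiff_iter_eq_sum_shift]
  unfold nd
  refine sum_congr rfl fun i _ => ?_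
  simp

theorem eval_nat_eq_sum_nd (f : ℚ[X]) (n : ℕ) :
    f.eval (n : ℚ) = ∑ j ∈ range (n + 1), (n.choose j : ℚ) * nd f j := by
  have h := shift_eq_sum_fwdDiff_iter (1 : ℕ) (fun n : ℕ => f.eval (n : ℚ)) n 0
  simp only [zero_add, smul_eq_mul, mul_one, nsmul_eq_mul] at h
  rw [h]
  refine sum_congr rfl fun j _ => ?_
  rw [nd_eq_fwdDiff]

/-- the binomial polynomial `C(X,l)` -/
noncomputable def bn (l : ℕ) : ℚ[X] := C ((l.factorial : ℚ)⁻¹) * descPochhammer ℚ l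

lemma eval_bn_nat (l n : ℕ) : (bn l).eval (n : ℚ) = (n.choose l : ℚ) := by
  have h1 : (descPochhammer ℚ l).eval (n : ℚ) = (n.descFactorial l : ℚ) :=
    descPochhammer_eval_eq_descFactorial ℚ n l
  rw [bn, eval_mul, eval_C, h1, Nat.descFactorial_eq_factorial_mul_choose]
  push_cast
  field_simp

lemma natDegree_bn_le (l : ℕ) : (bn l).natDegree ≤ l := by
  refine (natDegree_C_mul_le _ _).trans ?_
  rw [descPochhammer_natDegree]

/-- Newton expansion at the integers -/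
theorem nd_sum (f : ℚ[X]) (k : ℕ) (hf : f.natDegree ≤ k) :
    f = ∑ j ∈ range (k + 1), C (nd f j) * bn j := by
  have hs : (∑ j ∈ range (k + 1), C (nd f j) * bn j).natDegree ≤ k := by
    refine natDegree_sum_le_of_forall_le _ _ fun j hj => ?_
    exact ((natDegree_C_mul_le _ _).trans (natDegree_bn_le j)).trans
      (Nat.lt_succ_iff.mp (mem_range.mp hj))
  refine Polynomial.eq_of_degree_sub_lt_of_eval_finset_eq
    ((range (k + 1)).image (fun n : ℕ => (n : ℚ))) ?_ ?_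
  · rw [card_image_of_injective _ Nat.cast_injective, card_range]
    refine lt_of_le_of_lt degree_le_natDegree ?_
    have := (natDegree_sub_le f (∑ j ∈ range (k + 1), C (nd f j) * bn j)).trans
      (max_le hf hs)
    exact_mod_cast Nat.lt_succ_of_le this
  · intro x hx
    obtain ⟨n, hn, rfl⟩ := mem_image.mp hx
    have hn' : n ≤ k := Nat.lt_succ_iff.mp (mem_range.mp hn)
    rw [eval_nat_eq_sum_nd, eval_finsetSum]
    have h1 : ∑ j ∈ range (k + 1), (C (nd f j) * bn j).eval (n : ℚ) =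
        ∑ j ∈ range (k + 1), (n.choose j : ℚ) * nd f j :=
      sum_congr rfl fun j _ => by rw [eval_mul, eval_C, eval_bn_nat, mul_comm]
    rw [h1]
    refine sum_subset (range_mono (by omega)) fun j _ hj => ?_
    have : n < j := by
      by_contra h
      exact hj (mem_range.mpr (by omega))
    rw [Nat.choose_eq_zero_of_lt this]; simp

section norm2

variable {p : ℕ} [hp : Fact p.Prime]

theorem nd_le (f : ℚ[X]) (j : ℕ) (e : ℚ) (he : 0 ≤ e)
    (hv : ∀ n : ℕ, n ≤ j → padicNorm p (f.eval (n : ℚ)) ≤ e) : padicNorm p (nd f j) ≤ e := by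
  unfold nd
  refine padicNorm.sum_le' (fun i hi => ?_) he
  rw [padicNorm.mul]
  have h1 : padicNorm p ((-1 : ℚ) ^ (j - i) * (j.choose i : ℚ)) ≤ 1 := by
    have := padicNorm.of_int (p := p) ((-1 : ℤ) ^ (j - i) * (j.choose i : ℤ))
    push_cast at this
    exact this
  have h2 := hv i (Nat.lt_succ_iff.mp (mem_range.mp hi))
  calc _ ≤ 1 * e := mul_le_mul h1 h2 (padicNorm.nonneg _) zero_le_one
    _ = e := one_mul e

/-- conversely: `|nd f j| ≤ e` for all `j ≤ n` gives `|f(n)| ≤ e` -/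
theorem eval_le_of_nd (f : ℚ[X]) (e : ℚ) (he : 0 ≤ e) (n : ℕ)
    (h : ∀ j : ℕ, j ≤ n → padicNorm p (nd f j) ≤ e) : padicNorm p (f.eval (n : ℚ)) ≤ e := by
  rw [eval_nat_eq_sum_nd]
  refine padicNorm.sum_le' (fun j hj => ?_) he
  rw [padicNorm.mul]
  have h1 : padicNorm p (n.choose j : ℚ) ≤ 1 := padicNorm.of_nat _
  calc _ ≤ 1 * e := mul_le_mul h1 (h j (Nat.lt_succ_iff.mp (mem_range.mp hj)))
        (padicNorm.nonneg _) zero_le_one
    _ = e := one_mul e

/-- the same bound after a `p`-integral shift -/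
theorem intVal_shift (f : ℚ[X]) (e : ℚ) (hv : ∀ n : ℕ, padicNorm p (f.eval (n : ℚ)) ≤ e)
    (s : ℚ) (hs : padicNorm p s ≤ 1) (z : ℚ) (hz : padicNorm p z ≤ 1) :
    padicNorm p ((f.comp (X + C s)).eval z) ≤ e := by
  rw [eval_comp, eval_add, eval_X, eval_C]
  refine intVal f e hv _ ?_
  exact (padicNorm.nonarchimedean).trans (max_le hz hs)

/-- a half integer is `p`-integral for odd `p` -/
theorem norm_half (hp2 : p ≠ 2) : padicNorm p (1 / 2 : ℚ) = 1 := by
  rw [padicNorm.div, padicNorm.one]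
  have h : padicNorm p (2 : ℚ) = 1 := by
    have := (padicNorm.nat_eq_one_iff (p := p) 2).mpr (fun h => hp2 (by
      exact (Nat.prime_dvd_prime_iff_eq hp.out Nat.prime_two).mp h))
    exact_mod_cast this
  rw [h, div_one]

theorem norm_int_add_half (hp2 : p ≠ 2) (m : ℤ) : padicNorm p ((m : ℚ) + 1 / 2) ≤ 1 :=
  (padicNorm.nonarchimedean).trans (max_le (padicNorm.of_int m) (norm_half hp2).le)

theorem bn_nat_le (l n : ℕ) : padicNorm p ((bn l).eval (n : ℚ)) ≤ 1 := by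
  rw [eval_bn_nat]; exact padicNorm.of_nat _

theorem bn_le (l : ℕ) (z : ℚ) (hz : padicNorm p z ≤ 1) : padicNorm p ((bn l).eval z) ≤ 1 :=
  intVal _ _ (bn_nat_le l) z hz

end norm2

end Crest.Agent.R006.IntVal250
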