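import Crest.Agent.R006.RefClass_555

/-!
# Row 6, block P5, mid range: the class sums of the closed-form certificate (helper788)

For `p² > ` all sizes the closed-form tolls (`λ = ⌊(a₁+k)u/p⌋ + ⌊i₁u/p⌋`, `μ = ⌊gu/p⌋ + 1`,
`ν = ⌊qu/p⌋`) and the normalising factorials give the loss
`u (k/2 - g) + 2 p - ⌊ku/p⌋ (i₁u mod p) + O(u/p)` (plus the jets).

* `two_sum_toll_le` : `2 ∑_{l<L} (x - l)^+ ≤ x (x+1)`;
* `R_part`, `Q_part`, `T_part` : the three parts, abstractly;
* `cnt` facts : `cnt_mem`, `sum_cnt`, `sum_cnt_polar`;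
* `mid_arith` : the total.
-/

set_option autoImplicit false

open Finset

namespace Crest.Agent.R006.P5Mid788

open Crest.Agent.R006.RefClass555

/-! ### tolls -/

/-- `2 ∑_{l<L} (x-l)^+ ≤ x (x+1)` for every integer `x` -/
theorem two_sum_toll_le (x : ℤ) (L : ℕ) :
    2 * ∑ l ∈ range L, max 0 (x - l) ≤ x * (x + 1) := by
  induction L generalizing x with
  | zero =>
    simp only [range_zero, sum_empty, mul_zero]
    rcases le_or_gt 0 x with h | h
    · positivity
    · nlinarith
  | succ L ih =>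
    rw [Finset.sum_range_succ']
    have h1 := ih (x - 1)
    have h2 : ∑ l ∈ range L, max 0 (x - ((l + 1 : ℕ) : ℤ)) = ∑ l ∈ range L, max 0 (x - 1 - l) := by
      refine Finset.sum_congr rfl fun l _ => ?_
      push_cast
      congr 1
      ring
    rw [h2]
    push_cast
    rcases le_or_gt 0 x with h | h
    · rw [sub_zero, max_eq_right h]
      nlinarith
    · rw [sub_zero, max_eq_left h.le]
      have h3 : ∑ l ∈ range L, max 0 (x - 1 - (l : ℤ)) = 0 := by
        refine Finset.sum_eq_zero fun l _ => max_eq_left ?_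
        have : (0 : ℤ) ≤ l := Int.natCast_nonneg l
        linarith
      rw [h3]
      nlinarith

/-! ### polar / regular -/

/-- sign of a class: `+1` polar (`2 c < p`), `-1` regular -/
def sg (p c : ℕ) : ℤ := if 2 * c < p then 1 else -1

/-- `ε_c` : `-2` polar, `+1` regular -/
def eps (p c : ℕ) : ℤ := if 2 * c < p then -2 else 1

/-- `δ_c` : `0` polar, `2` regular -/
def del (p c : ℕ) : ℤ := if 2 * c < p then 0 else 2

lemma sum_sg (p : ℕ) (hodd : p % 2 = 1) : ∑ c ∈ range p, sg p c = 1 := by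
  obtain ⟨h, rfl⟩ : ∃ h, p = h + 1 + h := ⟨p / 2, by omega⟩
  rw [Finset.sum_range_add]
  have h1 : ∀ c ∈ range (h + 1), sg (h + 1 + h) c = 1 := by
    intro c hc
    have := mem_range.mp hc
    unfold sg
    rw [if_pos (by omega)]
  have h2 : ∀ c ∈ range h, sg (h + 1 + h) (h + 1 + c) = -1 := by
    intro c hc
    unfold sg
    rw [if_neg (by omega)]
  rw [Finset.sum_congr rfl h1, Finset.sum_congr rfl h2]
  simp

lemma sg_mul_sg (p c : ℕ) : sg p c * sg p c = 1 := by
  unfold sg; split_ifs <;> norm_num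

/-- an antitone function has more mass on the polar classes -/
lemma sum_sg_mul_nonneg (p : ℕ) (hodd : p % 2 = 1) (f : ℕ → ℤ) (hf : ∀ c, c < p → 0 ≤ f c)
    (hanti : ∀ c d, c ≤ d → d < p → f d ≤ f c) : 0 ≤ ∑ c ∈ range p, sg p c * f c := by
  obtain ⟨h, rfl⟩ : ∃ h, p = h + 1 + h := ⟨p / 2, by omega⟩
  rw [Finset.sum_range_add, Finset.sum_range_succ]
  have h1 : ∀ c ∈ range h, sg (h + 1 + h) c * f c = f c := by
    intro c hc
    have := mem_range.mp hc
    unfold sg
    rw [if_pos (by omega), one_mul]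
  have h2 : ∀ c ∈ range h, sg (h + 1 + h) (h + 1 + c) * f (h + 1 + c) = -f (h + 1 + c) := by
    intro c hc
    unfold sg
    rw [if_neg (by omega)]
    ring
  have h0 : sg (h + 1 + h) h * f h = f h := by
    unfold sg
    rw [if_pos (by omega), one_mul]
  rw [Finset.sum_congr rfl h1, Finset.sum_congr rfl h2, h0, Finset.sum_neg_distrib]
  have h3 : ∑ c ∈ range h, f (h + 1 + c) ≤ ∑ c ∈ range h, f c := by
    refine Finset.sum_le_sum fun c hc => hanti _ _ (by omega) ?_
    have := mem_range.mp hc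
    omega
  have h4 := hf h (by omega)
  linarith

/-! ### the three parts -/

/-- **R-part** (doubled).  `A c - a c` columns, `a c + y c` gauge zeros in the class `c`. -/
theorem R_part (p : ℕ) (hodd : p % 2 = 1) (A a y : ℕ → ℤ) (lam Y m D G : ℤ)
    (hD : ∀ c, c < p → (A c + y c - lam) * (A c + y c - lam - 2) ≤ D)
    (hm : ∀ c, c < p → m ≤ A c - a c) (hy : ∀ c, c < p → Y ≤ y c)
    (ha : 0 ≤ ∑ c ∈ range p, sg p c * a c) (hyG : -G ≤ ∑ c ∈ range p, sg p c * y c) :
    ∑ c ∈ range p, (A c * (A c - 1) - a c * (a c - 1) + 2 * (A c - a c) * (Y - lam)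
        + (lam - eps p c - a c - y c) * (lam - eps p c - a c - y c + 1))
      ≤ ∑ c ∈ range p, (A c - a c) + 3 * lam + 3 * (p + 1) + D * p + 3 * G
        - 2 * m * (∑ c ∈ range p, y c - Y * p) := by
  have hs := sum_sg p hodd
  have key : ∀ c ∈ range p, (A c * (A c - 1) - a c * (a c - 1) + 2 * (A c - a c) * (Y - lam)
        + (lam - eps p c - a c - y c) * (lam - eps p c - a c - y c + 1))
      ≤ D + (A c - a c) + 3 * lam * sg p c - 3 * (sg p c * a c) - 3 * (sg p c * y c)
        + 3 * (1 + sg p c) - 2 * m * (y c - Y) := by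
    intro c hc
    have hc' := mem_range.mp hc
    have h1 := hD c hc'
    have h2 : m * (y c - Y) ≤ (A c - a c) * (y c - Y) :=
      mul_le_mul_of_nonneg_right (hm c hc') (sub_nonneg.mpr (hy c hc'))
    unfold sg eps
    split_ifs with hp
    · have e : A c * (A c - 1) - a c * (a c - 1) + 2 * (A c - a c) * (Y - lam)
          + (lam - -2 - a c - y c) * (lam - -2 - a c - y c + 1)
          = (A c + y c - lam) * (A c + y c - lam - 2) + (A c - a c) + 3 * (lam - a c - y c) + 6
            - 2 * ((A c - a c) * (y c - Y)) := by ring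
      rw [e]
      linarith
    · have e : A c * (A c - 1) - a c * (a c - 1) + 2 * (A c - a c) * (Y - lam)
          + (lam - 1 - a c - y c) * (lam - 1 - a c - y c + 1)
          = (A c + y c - lam) * (A c + y c - lam - 2) + (A c - a c) - 3 * (lam - a c - y c)
            - 2 * ((A c - a c) * (y c - Y)) := by ring
      rw [e]
      linarith
  refine (Finset.sum_le_sum key).trans ?_
  have e : ∑ c ∈ range p, (D + (A c - a c) + 3 * lam * sg p c - 3 * (sg p c * a c)
        - 3 * (sg p c * y c) + 3 * (1 + sg p c) - 2 * m * (y c - Y))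
      = D * p + ∑ c ∈ range p, (A c - a c) + 3 * lam * ∑ c ∈ range p, sg p c
        - 3 * ∑ c ∈ range p, sg p c * a c - 3 * ∑ c ∈ range p, sg p c * y c
        + 3 * (p + ∑ c ∈ range p, sg p c) - 2 * m * (∑ c ∈ range p, y c - Y * p) := by
    simp only [Finset.sum_add_distrib, Finset.sum_sub_distrib, ← Finset.mul_sum,
      Finset.sum_const, Finset.card_range, nsmul_eq_mul]
    ring
  rw [e, hs]
  linarith

/-- **Q-part** (doubled), `n c ∈ {mu - 1, mu}` columns in the class `c`. -/
theorem Q_part (p : ℕ) (hodd : p % 2 = 1) (n : ℕ → ℤ) (mu : ℤ)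
    (hn : ∀ c, c < p → n c = mu - 1 ∨ n c = mu) :
    ∑ c ∈ range p, (n c * (n c - 1) - 2 * mu * n c + (mu - del p c) * (mu - del p c + 1))
      = -2 * ∑ c ∈ range p, n c + p - 1 + 2 * mu := by
  have hs := sum_sg p hodd
  have key : ∀ c ∈ range p, (n c * (n c - 1) - 2 * mu * n c
        + (mu - del p c) * (mu - del p c + 1))
      = 2 * mu - 2 * n c + (1 - 2 * mu) * (1 - sg p c) := by
    intro c hc
    have hc' := mem_range.mp hc
    unfold sg del
    split_ifs with hp <;> rcases hn c hc' with h | h <;> rw [h] <;> ring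
  rw [Finset.sum_congr rfl key]
  simp only [Finset.sum_add_distrib, Finset.sum_sub_distrib, ← Finset.mul_sum,
      Finset.sum_const, Finset.card_range, nsmul_eq_mul]
  rw [hs]
  ring

/-- **T-part** (doubled), `n c ∈ {nu, nu + 1}` columns in the class `c`. -/
theorem T_part (p : ℕ) (n : ℕ → ℤ) (nu : ℤ)
    (hn : ∀ c, c < p → n c = nu ∨ n c = nu + 1) :
    ∑ c ∈ range p, (n c * (n c - 1) - 2 * nu * n c + nu * (nu + 1)) = 0 := by
  refine Finset.sum_eq_zero fun c hc => ?_
  rcases hn c (mem_range.mp hc) with h | h <;> rw [h] <;> ring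

/-! ### facts on `cnt` -/

lemma cnt_mem (n p c : ℕ) (hc : c < p) : cnt n p c = n / p ∨ cnt n p c = n / p + 1 := by
  have hp : 0 < p := by omega
  unfold cnt
  have h1 : n / p ≤ (n + p - 1 - c) / p := Nat.div_le_div_right (by omega)
  have h2 : (n + p - 1 - c) / p ≤ n / p + 1 := by
    rw [← Nat.add_div_right n hp]
    exact Nat.div_le_div_right (by omega)
  omega

lemma cnt_anti (n p c d : ℕ) (hcd : c ≤ d) : cnt n p d ≤ cnt n p c :=
  Nat.div_le_div_right (by omega)

lemma sum_cnt (n p : ℕ) (hp : 0 < p) : ∑ c ∈ range p, cnt n p c = n := by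
  induction n with
  | zero => exact Finset.sum_eq_zero fun c hc => cnt_zero p c (mem_range.mp hc)
  | succ n ih =>
    have h1 : ∀ c ∈ range p, cnt (n + 1) p c = cnt n p c + if n % p = c then 1 else 0 :=
      fun c hc => cnt_succ n p c (mem_range.mp hc)
    rw [Finset.sum_congr rfl h1, Finset.sum_add_distrib, ih, Finset.sum_ite_eq,
      if_pos (mem_range.mpr (Nat.mod_lt n hp))]

lemma cnt_add_ge (n m p c : ℕ) (hc : c < p) : cnt n p c + m / p ≤ cnt (n + m) p c := by
  have hp : 0 < p := by omega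
  unfold cnt
  have h1 : n + m + p - 1 - c = (n + p - 1 - c) + m := by omega
  rw [h1]
  exact Nat.div_add_div_le_add_div

lemma sum_sg_cnt (n p : ℕ) (hodd : p % 2 = 1) :
    0 ≤ ∑ c ∈ range p, sg p c * (cnt n p c : ℤ) :=
  sum_sg_mul_nonneg p hodd (fun c => (cnt n p c : ℤ)) (fun _ _ => Int.natCast_nonneg _)
    fun c d hcd _ => by exact_mod_cast cnt_anti n p c d hcd

/-! ### the half-integer window -/

/-- the reflection `c ↦ -1/2 - c` mod `p` : `(p-1)/2 - c` (polar), `(3p-1)/2 - c` (regular) -/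
def rfl2 (p c : ℕ) : ℕ := if 2 * c < p then (p - 1) / 2 - c else (3 * p - 1) / 2 - c

lemma rfl2_lt (p c : ℕ) (hc : c < p) (hodd : p % 2 = 1) : rfl2 p c < p := by
  unfold rfl2; split_ifs <;> omega

lemma sg_rfl2 (p c : ℕ) (hc : c < p) (hodd : p % 2 = 1) : sg p (rfl2 p c) = sg p c := by
  unfold sg rfl2
  by_cases h : 2 * c < p
  · rw [if_pos h, if_pos h, if_pos (by omega)]
  · rw [if_neg h, if_neg h, if_neg (by omega)]

lemma rfl2_rfl2 (p c : ℕ) (hc : c < p) (hodd : p % 2 = 1) : rfl2 p (rfl2 p c) = c := by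
  unfold rfl2
  by_cases h : 2 * c < p
  · rw [if_pos h, if_pos (by omega)]
    omega
  · rw [if_neg h, if_neg (by omega)]
    omega

lemma sum_rfl2 {M : Type*} [AddCommMonoid M] (p : ℕ) (hodd : p % 2 = 1) (f : ℕ → M) :
    ∑ c ∈ range p, f (rfl2 p c) = ∑ c ∈ range p, f c := by
  refine Finset.sum_nbij' (rfl2 p) (rfl2 p) ?_ ?_ ?_ ?_ ?_
  · exact fun c hc => mem_range.mpr (rfl2_lt p c (mem_range.mp hc) hodd)
  · exact fun c hc => mem_range.mpr (rfl2_lt p c (mem_range.mp hc) hodd)
  · exact fun c hc => rfl2_rfl2 p c (mem_range.mp hc) hodd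
  · exact fun c hc => rfl2_rfl2 p c (mem_range.mp hc) hodd
  · exact fun c hc => rfl

/-- number of `m < n` with `-1/2 - m ≡ c` mod `p` -/
def cntH (n p c : ℕ) : ℕ := cnt n p (rfl2 p c)

lemma cntH_mem (n p c : ℕ) (hc : c < p) (hodd : p % 2 = 1) :
    cntH n p c = n / p ∨ cntH n p c = n / p + 1 := cnt_mem n p _ (rfl2_lt p c hc hodd)

lemma sum_cntH (n p : ℕ) (hodd : p % 2 = 1) : ∑ c ∈ range p, cntH n p c = n := by
  unfold cntH
  rw [sum_rfl2 p hodd (fun c => cnt n p c)]
  exact sum_cnt n p (by omega)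

lemma sum_sg_cntH (n p : ℕ) (hodd : p % 2 = 1) :
    0 ≤ ∑ c ∈ range p, sg p c * (cntH n p c : ℤ) := by
  have h : ∑ c ∈ range p, sg p c * (cntH n p c : ℤ)
      = ∑ c ∈ range p, (fun d => sg p d * (cnt n p d : ℤ)) (rfl2 p c) := by
    refine Finset.sum_congr rfl fun c hc => ?_
    simp only
    rw [sg_rfl2 p c (mem_range.mp hc) hodd]
    rfl
  rw [h, sum_rfl2 p hodd (fun d => sg p d * (cnt n p d : ℤ))]
  exact sum_sg_cnt n p hodd

/-! ### the total -/

/-- the multiplier `λ` -/
def lamM (a1 k i1 u p : ℕ) : ℕ := (a1 + k) * u / p + i1 * u / p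

/-- the multiplier `μ` -/
def muM (g u p : ℕ) : ℕ := g * u / p + 1

/-- the shift `ν` -/
def nuM (q u p : ℕ) : ℕ := q * u / p

/-- number of zeros of the gauge (`a₁`- and `i₁`-windows) in the class `c` -/
def zM (a1 i1 u p c : ℕ) : ℕ := cnt (a1 * u) p c + cntH (i1 * u) p c

/-- doubled class sum of the triangular tolls -/
def tollM (a1 k i1 q g u p : ℕ) : ℤ :=
  ∑ c ∈ range p, ((lamM a1 k i1 u p - eps p c - zM a1 i1 u p c)
      * (lamM a1 k i1 u p - eps p c - zM a1 i1 u p c + 1)
    + (nuM q u p : ℤ) * (nuM q u p + 1)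
    + (muM g u p - del p c) * (muM g u p - del p c + 1))

/-- the valuation of the normalising factorials -/
noncomputable def normM (a1 k i1 q g u p : ℕ) : ℕ :=
  padicValNat p (∏ l ∈ range (k * u), (a1 * u + l).factorial)
    + k * u * padicValNat p (i1 * u).factorial + padicValNat p (sf (q * u))
    + padicValNat p (sf (g * u))

lemma val_factorial_sq (n p : ℕ) [hp : Fact p.Prime] (h : n < p ^ 2) :
    padicValNat p n.factorial = n / p := by
  rcases Nat.eq_zero_or_pos n with rfl | hn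
  · simp
  · rw [padicValNat_factorial (b := 2) (Nat.log_lt_of_lt_pow hn.ne' h),
      show Ico 1 2 = {1} from rfl, Finset.sum_singleton, pow_one]

lemma two_val_sf (n p : ℕ) [hp : Fact p.Prime] (h : n ≤ p ^ 2) :
    (2 * (padicValNat p (sf n) : ℕ) : ℤ)
      = ∑ c ∈ range p, (cnt n p c : ℤ) * ((cnt n p c : ℤ) - 1) := by
  rw [padicVal_sf_sq p n h]
  push_cast
  rw [Finset.mul_sum]
  exact Finset.sum_congr rfl fun c _ => two_mul_choose_two _

lemma two_val_shift (n m p : ℕ) [hp : Fact p.Prime] (h : n + m ≤ p ^ 2) :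
    (2 * (padicValNat p (∏ l ∈ range m, (n + l).factorial) : ℕ) : ℤ)
      = ∑ c ∈ range p, ((cnt (n + m) p c : ℤ) * ((cnt (n + m) p c : ℤ) - 1)
          - (cnt n p c : ℤ) * ((cnt n p c : ℤ) - 1)) := by
  have h1 := prod_factorial_shift n m
  have h2 : padicValNat p (sf n) + padicValNat p (∏ l ∈ range m, (n + l).factorial)
      = padicValNat p (sf (n + m)) := by
    rw [← h1, padicValNat.mul (sf_pos _).ne'
      (Finset.prod_ne_zero_iff.mpr fun l _ => Nat.factorial_ne_zero _)]
  rw [Finset.sum_sub_distrib, ← two_val_sf (n + m) p h, ← two_val_sf n p (by omega), ← h2]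
  push_cast
  ring

/-- **the arithmetic of the mid range** -/
theorem mid_arith (a1 k i1 q g u p : ℕ) [hp : Fact p.Prime] (hodd : p % 2 = 1)
    (h1 : (a1 + k) * u ≤ p ^ 2) (h2 : i1 * u < p ^ 2) (h3 : q * u ≤ p ^ 2) (h4 : g * u ≤ p ^ 2) :
    2 * (normM a1 k i1 q g u p : ℤ)
      - 2 * (lamM a1 k i1 u p * (k * u) + muM g u p * (g * u) + nuM q u p * (q * u))
      + tollM a1 k i1 q g u p
      ≤ (k - 2 * g) * u + 4 * p + 3 * lamM a1 k i1 u p + 2 * (g * u / p : ℕ) + 4
        - 2 * (k * u / p : ℕ) * (i1 * u % p : ℕ) := by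
  have hp0 : 0 < p := hp.out.pos
  set A : ℕ → ℤ := fun c => (cnt ((a1 + k) * u) p c : ℤ) with hA
  set a : ℕ → ℤ := fun c => (cnt (a1 * u) p c : ℤ) with ha
  set y : ℕ → ℤ := fun c => (cntH (i1 * u) p c : ℤ) with hy
  set nq : ℕ → ℤ := fun c => (cnt (q * u) p c : ℤ) with hnq
  set ng : ℕ → ℤ := fun c => (cnt (g * u) p c : ℤ) with hng
  set Y : ℤ := ((i1 * u / p : ℕ) : ℤ) with hY
  set lam : ℤ := (lamM a1 k i1 u p : ℤ) with hlam
  set mu : ℤ := (muM g u p : ℤ) with hmu
  set nu : ℤ := (nuM q u p : ℤ) with hnu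
  have hlamY : lam = (((a1 + k) * u / p : ℕ) : ℤ) + Y := by
    rw [hlam, hY, lamM]; push_cast; ring
  -- sums
  have sA : ∑ c ∈ range p, A c = (a1 + k) * u := by
    have := sum_cnt ((a1 + k) * u) p hp0
    rw [hA]
    have h : ((∑ c ∈ range p, cnt ((a1 + k) * u) p c : ℕ) : ℤ) = (((a1 + k) * u : ℕ) : ℤ) := by
      rw [this]
    push_cast at h
    exact h
  have sa : ∑ c ∈ range p, a c = a1 * u := by
    have := sum_cnt (a1 * u) p hp0
    have h : ((∑ c ∈ range p, cnt (a1 * u) p c : ℕ) : ℤ) = ((a1 * u : ℕ) : ℤ) := by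
      rw [this]
    push_cast at h
    exact h
  have sq' : ∑ c ∈ range p, nq c = q * u := by
    have := sum_cnt (q * u) p hp0
    have h : ((∑ c ∈ range p, cnt (q * u) p c : ℕ) : ℤ) = ((q * u : ℕ) : ℤ) := by
      rw [this]
    push_cast at h
    exact h
  have sg' : ∑ c ∈ range p, ng c = g * u := by
    have := sum_cnt (g * u) p hp0
    have h : ((∑ c ∈ range p, cnt (g * u) p c : ℕ) : ℤ) = ((g * u : ℕ) : ℤ) := by
      rw [this]
    push_cast at h
    exact h
  have sy : ∑ c ∈ range p, y c = i1 * u := by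
    have := sum_cntH (i1 * u) p hodd
    have h : ((∑ c ∈ range p, cntH (i1 * u) p c : ℕ) : ℤ) = ((i1 * u : ℕ) : ℤ) := by
      rw [this]
    push_cast at h
    exact h
  -- the R-part
  have hR := R_part p hodd A a y lam Y ((k * u / p : ℕ) : ℤ) 0 0
    (by
      intro c hc
      have e1 := cnt_mem ((a1 + k) * u) p c hc
      have e2 := cntH_mem (i1 * u) p c hc hodd
      have e1' : A c = (((a1 + k) * u / p : ℕ) : ℤ) ∨ A c = (((a1 + k) * u / p : ℕ) : ℤ) + 1 := by
        rcases e1 with e | e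
        · left; simp only [hA]; rw [e]
        · right; simp only [hA]; rw [e]; push_cast; ring
      have e2' : y c = Y ∨ y c = Y + 1 := by
        rcases e2 with e | e
        · left; simp only [hy]; rw [e]
        · right; simp only [hy]; rw [e, Nat.cast_succ]
      rw [hlamY]
      rcases e1' with e | e <;> rcases e2' with e' | e' <;> rw [e, e'] <;> ring_nf <;> norm_num)
    (by
      intro c hc
      have := cnt_add_ge (a1 * u) (k * u) p c hc
      rw [← add_mul] at this
      simp only [hA, ha]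
      have h : ((cnt (a1 * u) p c + k * u / p : ℕ) : ℤ) ≤ ((cnt ((a1 + k) * u) p c : ℕ) : ℤ) := by
        exact_mod_cast this
      push_cast at h ⊢
      linarith)
    (by
      intro c hc
      rcases cntH_mem (i1 * u) p c hc hodd with e | e
      · simp only [hy]; rw [e]
      · simp only [hy]; rw [e, Nat.cast_succ]; exact le_add_of_nonneg_right zero_le_one)
    (sum_sg_cnt (a1 * u) p hodd) (by simpa using sum_sg_cntH (i1 * u) p hodd)
  have hQ := Q_part p hodd ng mu
    (by
      intro c hc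
      rcases cnt_mem (g * u) p c hc with e | e
      · left; simp only [hng, hmu, muM]; rw [e]; push_cast; ring
      · right; simp only [hng, hmu, muM]; rw [e])
  have hT := T_part p nq nu
    (by
      intro c hc
      rcases cnt_mem (q * u) p c hc with e | e
      · left; simp only [hnq, hnu, nuM]; rw [e]
      · right; simp only [hnq, hnu, nuM]; rw [e]; push_cast; ring)
  -- the normaliser
  have n1 := two_val_shift (a1 * u) (k * u) p (by rw [← add_mul]; exact h1)
  rw [← add_mul] at n1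
  have n2 := val_factorial_sq (i1 * u) p h2
  have n3 := two_val_sf (q * u) p h3
  have n4 := two_val_sf (g * u) p h4
  have hN : 2 * (normM a1 k i1 q g u p : ℤ)
      = ∑ c ∈ range p, (A c * (A c - 1) - a c * (a c - 1)) + 2 * (k * u) * Y
        + ∑ c ∈ range p, nq c * (nq c - 1) + ∑ c ∈ range p, ng c * (ng c - 1) := by
    unfold normM
    rw [n2]
    push_cast
    push_cast at n1 n3 n4
    rw [mul_add, mul_add, mul_add, n1, n3, n4]
    simp only [hA, ha, hnq, hng, hY]
    push_cast
    ring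
  have hkA : ∑ c ∈ range p, (A c - a c) = k * u := by
    rw [Finset.sum_sub_distrib, sA, sa]; ring
  have hmod : ((i1 * u % p : ℕ) : ℤ) = i1 * u - Y * p := by
    have := Nat.div_add_mod (i1 * u) p
    have h : ((p * (i1 * u / p) + i1 * u % p : ℕ) : ℤ) = ((i1 * u : ℕ) : ℤ) := by rw [this]
    push_cast at h
    rw [hY]
    push_cast
    linarith
  have hmu1 : mu = ((g * u / p : ℕ) : ℤ) + 1 := by rw [hmu, muM]; push_cast; ring
  -- assemble
  have htoll : tollM a1 k i1 q g u p
      = ∑ c ∈ range p, ((lam - eps p c - a c - y c) * (lam - eps p c - a c - y c + 1))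
        + ∑ c ∈ range p, nu * (nu + 1)
        + ∑ c ∈ range p, (mu - del p c) * (mu - del p c + 1) := by
    unfold tollM
    rw [← Finset.sum_add_distrib, ← Finset.sum_add_distrib]
    refine Finset.sum_congr rfl fun c _ => ?_
    simp only [zM, ha, hy, ← hlam, ← hmu, ← hnu]
    push_cast
    ring
  have eR : ∑ c ∈ range p, (A c * (A c - 1) - a c * (a c - 1) + 2 * (A c - a c) * (Y - lam)
        + (lam - eps p c - a c - y c) * (lam - eps p c - a c - y c + 1))
      = ∑ c ∈ range p, (A c * (A c - 1) - a c * (a c - 1)) + 2 * (Y - lam) * (k * u)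
        + ∑ c ∈ range p, ((lam - eps p c - a c - y c) * (lam - eps p c - a c - y c + 1)) := by
    rw [Finset.sum_add_distrib, Finset.sum_add_distrib, ← hkA, Finset.mul_sum]
    congr 2
    exact Finset.sum_congr rfl fun c _ => by ring
  have eQ : ∑ c ∈ range p, (ng c * (ng c - 1) - 2 * mu * ng c
        + (mu - del p c) * (mu - del p c + 1))
      = ∑ c ∈ range p, ng c * (ng c - 1) - 2 * mu * (g * u)
        + ∑ c ∈ range p, (mu - del p c) * (mu - del p c + 1) := by
    rw [Finset.sum_add_distrib, Finset.sum_sub_distrib, ← Finset.mul_sum, sg']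
  have eT : ∑ c ∈ range p, (nq c * (nq c - 1) - 2 * nu * nq c + nu * (nu + 1))
      = ∑ c ∈ range p, nq c * (nq c - 1) - 2 * nu * (q * u) + ∑ c ∈ range p, nu * (nu + 1) := by
    rw [Finset.sum_add_distrib, Finset.sum_sub_distrib, ← Finset.mul_sum, sq']
  rw [eR, hkA, sy] at hR
  rw [eQ, sg'] at hQ
  rw [eT] at hT
  rw [hN, htoll, hmod]
  rw [hmu1] at hQ ⊢
  push_cast at hR hQ hT ⊢
  linarith

end Crest.Agent.R006.P5Mid788
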