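import Mathlib

set_option autoImplicit false

/-!
# Row 6, block P5b (small strip `√(Cu) < p ≤ x₀ u`): the arithmetic core (helper481)

Classes `c : ι` (`card ι = p`), `M c` rows in the class, one potential `D c` per class, tolls
`(D c - s)⁺` on the `T`-states, `(D c + lam + α c - l)⁺` on the `R`-states,
`(D c + mu + β c - u)⁺` on the `Q`-states.  The best choice of `lam, mu, D` gives a closed form.
Nothing is assumed on the distribution of the rows.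
-/

namespace Crest.Agent.R006.P5b

open Finset

/-- `x (x+1) / 2` as a real number -/
noncomputable def tri (x : ℤ) : ℝ := (x : ℝ) * (x + 1) / 2

/-- value of the certificate in one class -/
noncomputable def clsVal (M D a b : ℤ) : ℝ := (M : ℝ) * D - tri D - tri (D + a) - tri (D + b)

/-- nearest potential -/
noncomputable def Dopt (M a b : ℤ) : ℤ := round (((M : ℝ) - a - b - 3 / 2) / 3)

lemma clsVal_Dopt (M a b : ℤ) :
    ((M : ℝ) - a - b - 3 / 2) ^ 2 / 6 - ((a : ℝ) ^ 2 + a + b ^ 2 + b) / 2 - 3 / 8 ≤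
      clsVal M (Dopt M a b) a b := by
  have h := abs_sub_round (((M : ℝ) - a - b - 3 / 2) / 3)
  have hD : (Dopt M a b : ℝ) = round (((M : ℝ) - a - b - 3 / 2) / 3) := rfl
  rw [← hD] at h
  generalize (Dopt M a b : ℤ) = d at h
  unfold clsVal tri
  push_cast
  generalize hd : (d : ℝ) = y at h ⊢
  have h2 : (((M : ℝ) - a - b - 3 / 2) / 3 - y) ^ 2 ≤ 1 / 4 := by
    have := sq_le_sq' (by linarith [(abs_le.mp h).1]) (abs_le.mp h).2
    linarith
  nlinarith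

/-- the identity behind the closed form -/
lemma key_identity (P A q K δ ε : ℝ) (hP : P ≠ 0) :
    P * (((A + q + K) / P - ((A - q) / P + δ) - ((K - q) / P + ε) - 3 / 2) ^ 2 / 6
      - (((A - q) / P + δ) ^ 2 + ((A - q) / P + δ) + ((K - q) / P + ε) ^ 2 + ((K - q) / P + ε)) / 2)
      + ((A - q) / P + δ) * A + ((K - q) / P + ε) * K
    = (A ^ 2 + K ^ 2 + q ^ 2) / (2 * P) - (A + q + K) / 2 + 3 * P / 8
      - P * ((δ ^ 2 + ε ^ 2 - δ * ε) / 3) := by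
  field_simp
  ring

lemma quad_le {δ ε : ℝ} (hδ : |δ| ≤ 1 / 2) (hε : |ε| ≤ 1 / 2) :
    (δ ^ 2 + ε ^ 2 - δ * ε) / 3 ≤ 1 / 4 := by
  have hδ2 := abs_le.mp hδ
  have hε2 := abs_le.mp hε
  have h1 : δ ^ 2 ≤ 1 / 4 := by nlinarith
  have h2 : ε ^ 2 ≤ 1 / 4 := by nlinarith
  have h3 : -(δ * ε) ≤ 1 / 4 := by nlinarith
  linarith

variable {ι : Type*} [Fintype ι]

/-- deviations from the mean have sum zero -/
lemma sum_dev (f : ι → ℝ) {p S : ℝ} (hp : (Fintype.card ι : ℝ) = p) (hp0 : 0 < p)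
    (hS : ∑ c, f c = S) : ∑ c, (f c - S / p) = 0 := by
  rw [Finset.sum_sub_distrib, Finset.sum_const, Finset.card_univ, nsmul_eq_mul, hp, hS]
  field_simp
  ring

/-- expansion of the sum of the class values -/
lemma sum_expand (m α β : ι → ℝ) {p : ℝ} (hp : (Fintype.card ι : ℝ) = p) (e a0 b0 : ℝ)
    (hm : ∑ c, m c = 0) (hα : ∑ c, α c = 0) (hβ : ∑ c, β c = 0) :
    ∑ c, ((m c - α c - β c + e) ^ 2 / 6
      - ((α c + a0) ^ 2 + (α c + a0) + (β c + b0) ^ 2 + (β c + b0)) / 2 - 3 / 8)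
      = (∑ c, (m c - α c - β c) ^ 2) / 6 - (∑ c, (α c ^ 2 + β c ^ 2)) / 2
        + p * (e ^ 2 / 6 - (a0 ^ 2 + a0 + b0 ^ 2 + b0) / 2 - 3 / 8) := by
  have hpt : ∀ c, ((m c - α c - β c + e) ^ 2 / 6
      - ((α c + a0) ^ 2 + (α c + a0) + (β c + b0) ^ 2 + (β c + b0)) / 2 - 3 / 8)
      = (m c - α c - β c) ^ 2 / 6 - (α c ^ 2 + β c ^ 2) / 2
        + (e ^ 2 / 6 - (a0 ^ 2 + a0 + b0 ^ 2 + b0) / 2 - 3 / 8)
        + (e / 3) * m c + (-(e / 3) - a0 - 1 / 2) * α c + (-(e / 3) - b0 - 1 / 2) * β c := by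
    intro c; ring
  rw [Finset.sum_congr rfl fun c _ => hpt c]
  rw [Finset.sum_add_distrib, Finset.sum_add_distrib, Finset.sum_add_distrib,
    Finset.sum_add_distrib, Finset.sum_sub_distrib, ← Finset.mul_sum, ← Finset.mul_sum,
    ← Finset.mul_sum, ← Finset.sum_div, ← Finset.sum_div, hm, hα, hβ, Finset.sum_const,
    Finset.card_univ, nsmul_eq_mul, hp]
  ring

/-- the optimal multiplier (an explicit integer) -/
noncomputable def lamOpt (p A q S : ℝ) : ℤ := round ((A - q) / p - S / p)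

/-- **Arithmetic core of P5b.** -/
theorem core (M α β : ι → ℤ) (A q K : ℤ) (hN : ∑ c, M c = A + q + K) {p : ℝ}
    (hp : (Fintype.card ι : ℝ) = p) (hp0 : 0 < p) (lam mu : ℤ)
    (hlam : lam = lamOpt p A q (∑ c, (α c : ℝ))) (hmu : mu = lamOpt p K q (∑ c, (β c : ℝ))) :
    ((A : ℝ) ^ 2 + K ^ 2 + q ^ 2) / (2 * p) - ((A : ℝ) + q + K) / 2
      - (∑ c, (α c : ℝ)) / p * A - (∑ c, (β c : ℝ)) / p * K - p / 4
      - (∑ c, (((α c : ℝ) - (∑ c, (α c : ℝ)) / p) ^ 2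
          + ((β c : ℝ) - (∑ c, (β c : ℝ)) / p) ^ 2)) / 2
    ≤ (lam : ℝ) * A + mu * K
      + ∑ c, clsVal (M c) (Dopt (M c) (lam + α c) (mu + β c)) (lam + α c) (mu + β c) := by
  obtain ⟨δ, hδ⟩ : ∃ δ : ℝ, δ = (lam : ℝ) - (((A : ℝ) - q) / p - (∑ c, (α c : ℝ)) / p) := ⟨_, rfl⟩
  obtain ⟨ε, hε⟩ : ∃ ε : ℝ, ε = (mu : ℝ) - (((K : ℝ) - q) / p - (∑ c, (β c : ℝ)) / p) := ⟨_, rfl⟩
  have hδ1 : |δ| ≤ 1 / 2 := by
    have h := abs_sub_round (((A : ℝ) - q) / p - (∑ c, (α c : ℝ)) / p)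
    rw [abs_sub_comm] at h
    rw [hδ, hlam]
    exact h
  have hε1 : |ε| ≤ 1 / 2 := by
    have h := abs_sub_round (((K : ℝ) - q) / p - (∑ c, (β c : ℝ)) / p)
    rw [abs_sub_comm] at h
    rw [hε, hmu]
    exact h
  have hq := quad_le hδ1 hε1
  have hNr : ∑ c, (M c : ℝ) = (A : ℝ) + q + K := by exact_mod_cast hN
  have hsumα := sum_dev (fun c => (α c : ℝ)) hp hp0 rfl
  have hsumβ := sum_dev (fun c => (β c : ℝ)) hp hp0 rfl
  have hsumM := sum_dev (fun c => (M c : ℝ)) hp hp0 hNr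
  generalize (∑ c, (α c : ℝ)) / p = αb at *
  generalize (∑ c, (β c : ℝ)) / p = βb at *
  have hexp := sum_expand (fun c => (M c : ℝ) - ((A : ℝ) + q + K) / p)
    (fun c => (α c : ℝ) - αb) (fun c => (β c : ℝ) - βb) hp
    (((A : ℝ) + q + K) / p - (((A : ℝ) - q) / p + δ) - (((K : ℝ) - q) / p + ε) - 3 / 2)
    (((A : ℝ) - q) / p + δ) (((K : ℝ) - q) / p + ε) hsumM hsumα hsumβ
  have hcls : ∀ c ∈ (univ : Finset ι), (((M c : ℝ) - ((A : ℝ) + q + K) / p) - ((α c : ℝ) - αb)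
      - ((β c : ℝ) - βb) + (((A : ℝ) + q + K) / p - (((A : ℝ) - q) / p + δ)
        - (((K : ℝ) - q) / p + ε) - 3 / 2)) ^ 2 / 6
      - ((((α c : ℝ) - αb) + (((A : ℝ) - q) / p + δ)) ^ 2
        + (((α c : ℝ) - αb) + (((A : ℝ) - q) / p + δ))
        + (((β c : ℝ) - βb) + (((K : ℝ) - q) / p + ε)) ^ 2
        + (((β c : ℝ) - βb) + (((K : ℝ) - q) / p + ε))) / 2 - 3 / 8
      ≤ clsVal (M c) (Dopt (M c) (lam + α c) (mu + β c)) (lam + α c) (mu + β c) := by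
    intro c _
    refine le_trans (le_of_eq ?_) (clsVal_Dopt (M c) (lam + α c) (mu + β c))
    have e1 : ((lam + α c : ℤ) : ℝ) = ((α c : ℝ) - αb) + (((A : ℝ) - q) / p + δ) := by
      push_cast; linarith
    have e2 : ((mu + β c : ℤ) : ℝ) = ((β c : ℝ) - βb) + (((K : ℝ) - q) / p + ε) := by
      push_cast; linarith
    rw [e1, e2]
    ring
  have hsum := Finset.sum_le_sum hcls
  rw [hexp] at hsum
  have hX : 0 ≤ (∑ c, ((M c : ℝ) - ((A : ℝ) + q + K) / p - ((α c : ℝ) - αb)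
      - ((β c : ℝ) - βb)) ^ 2) / 6 := by positivity
  have hkey := key_identity p A q K δ ε hp0.ne'
  have hpq : p * ((δ ^ 2 + ε ^ 2 - δ * ε) / 3) ≤ p * (1 / 4) :=
    mul_le_mul_of_nonneg_left hq hp0.le
  have hfin : (lam : ℝ) * A + mu * K
      = (((A : ℝ) - q) / p + δ) * A + (((K : ℝ) - q) / p + ε) * K - αb * A - βb * K := by
    have e1 : (lam : ℝ) = (((A : ℝ) - q) / p + δ) - αb := by linarith
    have e2 : (mu : ℝ) = (((K : ℝ) - q) / p + ε) - βb := by linarith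
    rw [e1, e2]; ring
  rw [hfin]
  linarith [hsum, hX, hkey, hpq]

end Crest.Agent.R006.P5b
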