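import Crest.Agent.R006.PNTSum_365

set_option autoImplicit false

/-!
# Row 6, block P5b: the sum over the primes of the small strip (helper481)

`∑ log p * fract (w b / p)` over `w b / J < p ≤ w b / y` is `~ w (log (J/y) - ∑_{y<i≤J} 1/i) b`.
-/

namespace Crest.Agent.R006.P5b

open Filter Topology Finset

/-- the saw-tooth constant -/
noncomputable def saw (w y J : ℕ) : ℝ :=
  w * (Real.log ((J : ℝ) / y) - ∑ i ∈ Ico y J, 1 / ((i : ℝ) + 1))

lemma saw_piece {w : ℝ} (hw : 0 < w) {J : ℕ} (hJ : 0 < J) :
    Tendsto (fun b : ℝ => (∑ p ∈ pr (w / (J + 1) * b) (w / J * b),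
      Real.log p * Int.fract (w * b / p)) / b) atTop
      (𝓝 (w * (Real.log (((J : ℝ) + 1) / J) - 1 / ((J : ℝ) + 1)))) := by
  have hJ' : (0 : ℝ) < J := by exact_mod_cast hJ
  have h0 : 0 < w / ((J : ℝ) + 1) := by positivity
  have hle : w / ((J : ℝ) + 1) ≤ w / J := by gcongr; linarith
  have h := tendsto_sum_pr (φ := fun x => w / x - J) h0.le hle (by
    apply ContinuousOn.sub _ continuousOn_const
    apply ContinuousOn.div continuousOn_const continuousOn_id
    intro x hx
    have := hx.1
    simp only [id]
    linarith)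
  have hint : ∫ x in (w / ((J : ℝ) + 1))..(w / J), (w / x - J)
      = w * (Real.log (((J : ℝ) + 1) / J) - 1 / ((J : ℝ) + 1)) := by
    rw [intervalIntegral.integral_sub, intervalIntegral.integral_const]
    · have e1 : ∫ x in (w / ((J : ℝ) + 1))..(w / J), w / x
          = w * ∫ x in (w / ((J : ℝ) + 1))..(w / J), x⁻¹ := by
        rw [← intervalIntegral.integral_const_mul]
        congr 1
      rw [e1, integral_inv_of_pos h0 (by positivity), smul_eq_mul]
      have e2 : w / J / (w / ((J : ℝ) + 1)) = ((J : ℝ) + 1) / J := by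
        field_simp
      rw [e2]
      field_simp
      ring
    · apply ContinuousOn.intervalIntegrable
      apply ContinuousOn.div continuousOn_const continuousOn_id
      intro x hx
      rw [Set.uIcc_of_le hle] at hx
      have := hx.1
      simp only [id]
      linarith
    · exact intervalIntegrable_const
  rw [hint] at h
  refine h.congr' ?_
  filter_upwards [eventually_gt_atTop 0] with b hb
  congr 1
  refine Finset.sum_congr rfl fun p hp => ?_
  rw [mem_pr] at hp
  obtain ⟨hpp, h1, h2⟩ := hp
  have hp0 : (0 : ℝ) < p := by exact_mod_cast hpp.pos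
  have h3 : w / ((p : ℝ) / b) = w * b / p := by field_simp
  rw [h3]
  have h4 : ⌊w * b / p⌋ = (J : ℤ) := by
    rw [Int.floor_eq_iff]
    push_cast
    constructor
    · rw [le_div_iff₀ hp0]
      have : w / J * b * J = w * b := by field_simp
      nlinarith
    · rw [div_lt_iff₀ hp0]
      have : w / ((J : ℝ) + 1) * b * (J + 1) = w * b := by field_simp
      nlinarith
  have h5 := Int.self_sub_floor (w * b / p)
  rw [h4] at h5
  rw [← h5]
  push_cast
  ring

theorem saw_tendsto {w y : ℕ} (hw : 0 < w) (hy : 0 < y) (J : ℕ) (hJ : y ≤ J) :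
    Tendsto (fun b : ℝ => (∑ p ∈ pr ((w : ℝ) / J * b) ((w : ℝ) / y * b),
      Real.log p * Int.fract (w * b / p)) / b) atTop (𝓝 (saw w y J)) := by
  have hw' : (0 : ℝ) < w := by exact_mod_cast hw
  have hy' : (0 : ℝ) < y := by exact_mod_cast hy
  induction J, hJ using Nat.le_induction with
  | base =>
    have h1 : saw w y y = 0 := by
      unfold saw; rw [div_self hy'.ne']; simp
    rw [h1]
    refine tendsto_const_nhds.congr' ?_
    filter_upwards with b
    have : pr ((w : ℝ) / y * b) ((w : ℝ) / y * b) = ∅ := by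
      ext p
      simp only [mem_pr, Finset.notMem_empty, iff_false]
      rintro ⟨_, h1, h2⟩
      exact absurd h2 (not_le.mpr h1)
    rw [this]; simp
  | succ J hJ ih =>
    have hJ0 : 0 < J := lt_of_lt_of_le hy hJ
    have hJ' : (0 : ℝ) < J := by exact_mod_cast hJ0
    have hyJ : (y : ℝ) ≤ J := by exact_mod_cast hJ
    have h := (saw_piece hw' hJ0).add ih
    have hval : (w : ℝ) * (Real.log (((J : ℝ) + 1) / J) - 1 / ((J : ℝ) + 1)) + saw w y J
        = saw w y (J + 1) := by
      unfold saw
      rw [Finset.sum_Ico_succ_top hJ]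
      push_cast
      have : Real.log (((J : ℝ) + 1) / y) = Real.log (((J : ℝ) + 1) / J) + Real.log ((J : ℝ) / y) := by
        rw [← Real.log_mul (by positivity) (by positivity)]
        congr 1
        field_simp
      rw [this]
      ring
    rw [hval] at h
    refine h.congr' ?_
    filter_upwards [eventually_gt_atTop 0] with b hb
    rw [← add_div]
    congr 1
    have e1 : (w : ℝ) / ((J : ℝ) + 1) * b ≤ (w : ℝ) / J * b := by gcongr; linarith
    have e2 : (w : ℝ) / J * b ≤ (w : ℝ) / y * b := by gcongr
    push_cast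
    exact sum_pr_add e1 e2 _

end Crest.Agent.R006.P5b
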