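import Crest.Agent.R006.P6Stmt_784
import Crest.Agent.R006.Aff_884
import Crest.Agent.R006.P4_GVal_334

/-!
# Row 6, block P6 (p = 2), leaf W: 2-adic weights of the germs (helper153)

`HomZ`, `GamZ`, `GamH` of `Defs`, 2-adic sizes of the coefficients which occur in the rows.

* `coeff_HomZ_nat : coeff 0 (HomZ n) = (-1)^n C(2n,n)^3 / 8^n`, `I2_HomZ`, `coeff_HomZ_neg`;
* `coeff_GamZ_nat : coeff 0 (GamZ n) = C(2n,n)^2 / 16^n`, `I2_GamZ`, `coeff_GamZ_neg`,
  `I2_GamZ_neg` (`ε^2`-coefficient, `v_2 ≥ 2m` at `-m`);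
* `coeff_GamH_nat` (`j < 2`: zero at `l + 1/2`, `l ≥ 0`), `I2_GamH_nat` (`v_2 ≥ 2l + 2`);
* `coeff_GamH_neg : coeff 0 (GamH (-1-m)) = C(2m,m)^2 / 16^m`, `I2_GamH_neg`.
-/

set_option autoImplicit false

namespace Crest.Agent.R006.P6

open Polynomial Crest.Agent.R006.NV Crest.Agent.R006.PsiInf Crest.Agent.R006.D
open Crest.Agent.R006.ProdBound481

namespace Weights

/-! ### the relation `I2` -/

lemma I2.mul {v w : ℤ} {x y : ℚ} (hx : I2 v x) (hy : I2 w y) : I2 (v + w) (x * y) := by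
  unfold I2 at *
  rw [padicNorm.mul, neg_add, zpow_add₀ (by norm_num)]
  exact mul_le_mul hx hy (padicNorm.nonneg _) (by positivity)

lemma I2.mono {v w : ℤ} {x : ℚ} (hx : I2 v x) (h : w ≤ v) : I2 w x := by
  unfold I2 at *
  exact hx.trans (zpow_le_zpow_right₀ (by norm_num) (by omega))

lemma I2_nat (n : ℕ) : I2 0 (n : ℚ) := by
  unfold I2
  simpa using padicNorm.of_nat n

lemma I2_int (n : ℤ) : I2 0 (n : ℚ) := by
  unfold I2
  simpa using padicNorm.of_int n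

lemma I2.pow {v : ℤ} {x : ℚ} (hx : I2 v x) (n : ℕ) : I2 (n * v) (x ^ n) := by
  induction n with
  | zero => simpa using I2_nat 1
  | succ n ih =>
    rw [pow_succ]
    have := I2.mul ih hx
    convert this using 1
    push_cast; ring

lemma padicNorm_two_pow (n : ℕ) : padicNorm 2 ((2 : ℚ) ^ n) = (2 : ℚ) ^ (-(n : ℤ)) := by
  have h : padicNorm 2 (2 : ℚ) = (2 : ℚ)⁻¹ := by
    simpa using padicNorm.padicNorm_p (p := 2) (by norm_num)
  induction n with
  | zero => simp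
  | succ n ih =>
    rw [pow_succ, padicNorm.mul, ih, h, Nat.cast_succ, neg_add, zpow_add₀ (by norm_num)]
    norm_num

lemma I2_two_pow (n : ℕ) : I2 n ((2 : ℚ) ^ n) := by
  unfold I2
  rw [padicNorm_two_pow]

/-- division by an odd number -/
lemma I2_of_odd_mul {v : ℤ} {x : ℚ} {n : ℤ} (hn : ¬ (2 : ℤ) ∣ n) (h : I2 v ((n : ℚ) * x)) :
    I2 v x := by
  unfold I2 at *
  rw [padicNorm.mul, padicNorm.int_eq_one_iff n |>.2 (by exact_mod_cast hn), one_mul] at h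
  exact h

/-- division by a power of 2 -/
lemma I2_div_two_pow {v : ℤ} {x : ℚ} (n : ℕ) (h : I2 v x) : I2 (v - n) (x / 2 ^ n) := by
  unfold I2 at *
  rw [padicNorm.div, padicNorm_two_pow, div_le_iff₀ (by positivity), ← zpow_add₀ (by norm_num)]
  have e : -(v - (n : ℤ)) + -(n : ℤ) = -v := by ring
  rw [e]
  exact h

/-! ### `HomZ` -/

theorem HomZ_step (i : ℤ) :
    pt ((i : ℚ) + 1) ^ 3 * HomZ (i + 1) + (2 * pt (i : ℚ) + 1) ^ 3 * HomZ i = 0 := by
  apply bi_step (K := ℚ) (a := fun i => pt ((i : ℚ) + 1) ^ 3)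
      (b := fun i => (2 * pt (i : ℚ) + 1) ^ 3) (c := fun _ => 0)
  · intro i hi
    rw [map_pow, constantCoeff_pt]
    apply pow_ne_zero
    have : ((i + 1 : ℤ) : ℚ) ≠ 0 := by exact_mod_cast (by omega : (i + 1 : ℤ) ≠ 0)
    push_cast at this
    exact this
  · intro i hi
    rw [map_pow, map_add, map_mul, constantCoeff_pt, constantCoeff_two, map_one]
    apply pow_ne_zero
    have : ((2 * i + 1 : ℤ) : ℚ) ≠ 0 := by exact_mod_cast (by omega : (2 * i + 1 : ℤ) ≠ 0)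
    push_cast at this
    exact this

theorem constantCoeff_HomZ_nat (n : ℕ) : PowerSeries.constantCoeff (HomZ (n : ℤ)) =
    (-1) ^ n * (Nat.centralBinom n : ℚ) ^ 3 / 8 ^ n := by
  induction n with
  | zero =>
    have : HomZ ((0 : ℕ) : ℤ) = 1 := rfl
    rw [this]; simp
  | succ n ih =>
    have h := congrArg PowerSeries.constantCoeff (HomZ_step (n : ℤ))
    simp only [map_mul, map_pow, map_add, constantCoeff_pt, constantCoeff_two, map_one,
      map_zero] at h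
    rw [ih] at h
    have h1 : ((n : ℚ) + 1) * (Nat.centralBinom (n + 1) : ℚ) =
        2 * (2 * n + 1) * Nat.centralBinom n := by
      exact_mod_cast Nat.succ_mul_centralBinom_succ n
    have h3 : ((n : ℚ) + 1) ^ 3 ≠ 0 := by positivity
    apply mul_left_cancel₀ h3
    have h8 : (8 : ℚ) ^ n ≠ 0 := by positivity
    push_cast at h ⊢
    have e : ((n : ℚ) + 1) ^ 3 * ((-1) ^ (n + 1) * (Nat.centralBinom (n + 1) : ℚ) ^ 3 / 8 ^ (n + 1)) =
        (-1) ^ (n + 1) * (((n : ℚ) + 1) * (Nat.centralBinom (n + 1) : ℚ)) ^ 3 / 8 ^ (n + 1) := by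
      ring
    rw [e, h1]
    have e2 : (-1 : ℚ) ^ (n + 1) * (2 * (2 * n + 1) * (Nat.centralBinom n : ℚ)) ^ 3 / 8 ^ (n + 1) =
        -((2 * (n : ℚ) + 1) ^ 3 * ((-1) ^ n * (Nat.centralBinom n : ℚ) ^ 3 / 8 ^ n)) := by
      rw [pow_succ, pow_succ]
      field_simp
      ring
    rw [e2]
    linear_combination h

theorem coeff_HomZ_nat (n : ℕ) : PowerSeries.coeff 0 (HomZ (n : ℤ)) =
    (-1) ^ n * (Nat.centralBinom n : ℚ) ^ 3 / 8 ^ n := by
  rw [PowerSeries.coeff_zero_eq_constantCoeff_apply]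
  exact constantCoeff_HomZ_nat n

/-- weight of the homogeneous chain at `n ≥ 0` -/
theorem I2_HomZ (n : ℕ) : I2 (-(3 * (n : ℤ))) (PowerSeries.coeff 0 (HomZ (n : ℤ))) := by
  rw [coeff_HomZ_nat]
  have h1 : I2 0 ((-1) ^ n * (Nat.centralBinom n : ℚ) ^ 3) := by
    have := I2_int ((-1) ^ n * (Nat.centralBinom n : ℤ) ^ 3)
    push_cast at this
    exact this
  have h2 := I2_div_two_pow (3 * n) h1
  have e : (2 : ℚ) ^ (3 * n) = 8 ^ n := by rw [pow_mul]; norm_num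
  rw [e] at h2
  convert h2 using 1
  push_cast; ring

/-- the homogeneous chain is `O(ε^3)` at the negative integers -/
theorem coeff_HomZ_neg {i : ℤ} (hi : i < 0) {j : ℕ} (hj : j ≤ 2) :
    PowerSeries.coeff j (HomZ i) = 0 := by
  rw [Aff.D_HomZ]
  exact Aff.coeff_HomK_neg hi (by omega)

/-! ### `GamZ` -/

theorem coeff_GamZ_nat (n : ℕ) : PowerSeries.coeff 0 (GamZ (n : ℤ) : PowerSeries ℚ) =
    (Nat.centralBinom n : ℚ) ^ 2 / 16 ^ n := by
  rw [PowerSeries.coeff_zero_eq_constantCoeff_apply, GCong.GamZ_nat, GCong.g1]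

lemma I2_g1 (n : ℕ) : I2 (-(4 * (n : ℤ))) ((Nat.centralBinom n : ℚ) ^ 2 / 16 ^ n) := by
  have h1 : I2 0 ((Nat.centralBinom n : ℚ) ^ 2) := by
    have := I2_int ((Nat.centralBinom n : ℤ) ^ 2)
    push_cast at this
    exact this
  have h2 := I2_div_two_pow (4 * n) h1
  have e : (2 : ℚ) ^ (4 * n) = 16 ^ n := by rw [pow_mul]; norm_num
  rw [e] at h2
  convert h2 using 1
  push_cast; ring

/-- weight of `g` at `n ≥ 0` -/
theorem I2_GamZ (n : ℕ) :
    I2 (-(4 * (n : ℤ))) (PowerSeries.coeff 0 (GamZ (n : ℤ) : PowerSeries ℚ)) := by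
  rw [coeff_GamZ_nat]
  exact I2_g1 n

/-- `g` has double zeros at the negative integers -/
theorem coeff_GamZ_neg {i : ℤ} (hi : i < 0) {j : ℕ} (hj : j ≤ 1) :
    PowerSeries.coeff j (GamZ i : PowerSeries ℚ) = 0 :=
  PowerSeries.X_pow_dvd_iff.mp (Aff.X_sq_dvd_GamZ hi) j (by omega)

lemma I2_kap (m : ℕ) : I2 (2 * (m : ℤ) + 2) (GCong.kap (m + 1)) := by
  induction m with
  | zero =>
    have h : GCong.kap (0 + 1) = (2 : ℚ) ^ 2 := by
      have h1 : Nat.centralBinom 1 = 2 := by decide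
      simp only [GCong.kap, zero_add, pow_one, h1]; norm_num
    rw [h]
    exact I2_two_pow 2
  | succ m ih =>
    have h := GCong.kap_succ m
    have ho : ¬ (2 : ℤ) ∣ (2 * (m : ℤ) + 3) ^ 2 := by
      intro hd
      have := Int.prime_two.dvd_of_dvd_pow hd
      omega
    apply I2_of_odd_mul ho
    have e : (((2 * (m : ℤ) + 3) ^ 2 : ℤ) : ℚ) * GCong.kap (m + 1 + 1) =
        (2 : ℚ) ^ 2 * (((m : ℤ) + 1) ^ 2 : ℤ) * GCong.kap (m + 1) := by
      push_cast
      rw [show m + 1 + 1 = m + 2 by ring]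
      linear_combination h
    rw [e]
    have h1 := I2.mul (I2.mul (I2_two_pow 2) (I2_int (((m : ℤ) + 1) ^ 2))) ih
    convert h1 using 1
    push_cast; ring

/-- `ε²`-coefficient of `g` at `-(m+1)` -/
theorem I2_GamZ_negSucc (m : ℕ) :
    I2 (2 * (m : ℤ) + 2) (PowerSeries.coeff 2 (GamZ (-((m : ℤ) + 1)) : PowerSeries ℚ)) := by
  obtain ⟨v, hv, hv'⟩ := GCong.GamZ_neg m
  have h : PowerSeries.coeff 2 (GamZ (-((m : ℤ) + 1)) : PowerSeries ℚ) = GCong.kap (m + 1) := by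
    rw [hv, PowerSeries.coeff_X_pow_mul', if_pos le_rfl, Nat.sub_self,
      PowerSeries.coeff_zero_eq_constantCoeff_apply, hv']
  rw [h]
  exact I2_kap m

/-- `ε²`-coefficient of `g` at the negative integers, sharp weight -/
theorem I2_GamZ_neg' {i : ℤ} (hi : i < 0) :
    I2 (-(2 * i)) (PowerSeries.coeff 2 (GamZ i : PowerSeries ℚ)) := by
  obtain ⟨m, rfl⟩ : ∃ m : ℕ, i = -((m : ℤ) + 1) := ⟨(-i - 1).toNat, by omega⟩
  have := I2_GamZ_negSucc m
  convert this using 1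
  ring

/-- `ε²`-coefficient of `g` at the negative integers -/
theorem I2_GamZ_neg {i : ℤ} (hi : i < 0) :
    I2 0 (PowerSeries.coeff 2 (GamZ i : PowerSeries ℚ)) :=
  I2.mono (I2_GamZ_neg' hi) (by omega)

/-! ### `GamH` -/

theorem GamH0_step (i : ℤ) :
    pt ((i : ℚ) - 1 / 2 + 1) ^ 2 * D.GamH0 (i + 1) =
      PowerSeries.C (1 / 4) * (2 * pt ((i : ℚ) - 1 / 2) + 1) ^ 2 * D.GamH0 i := by
  have h := (step_HG0 (K := ℚ) 1 i).gam
  have e : ∀ i, (NV.GamH0 (1 : ℚ) i) = D.GamH0 i := by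
    intro i
    unfold NV.GamH0 D.GamH0
    rw [map_one]
  rw [e, e] at h
  exact h

lemma two_pt_add_one (i : ℤ) :
    (2 * pt ((i : ℚ) - 1 / 2) + 1 : PowerSeries ℚ) = 2 * pt (i : ℚ) := by
  have h : pt (i : ℚ) = pt ((i : ℚ) - 1 / 2) + PowerSeries.C (1 / 2) := by
    unfold pt
    rw [add_assoc, ← map_add]
    congr 2
    ring
  have h2 : (2 : PowerSeries ℚ) * PowerSeries.C (1 / 2) = 1 := by
    have : (2 : PowerSeries ℚ) = PowerSeries.C 2 := by rw [map_ofNat]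
    rw [this, ← map_mul]; norm_num
  rw [h]
  linear_combination -h2

/-- the chain of `g` at the half-integers in the form `(2i+1+2ε)² g(i+1) = (2(i+ε))² g(i)` -/
theorem GamH0_step' (i : ℤ) :
    pt ((i : ℚ) + 1 / 2) ^ 2 * D.GamH0 (i + 1) = pt (i : ℚ) ^ 2 * D.GamH0 i := by
  have h := GamH0_step i
  rw [two_pt_add_one, show (i : ℚ) - 1 / 2 + 1 = i + 1 / 2 by ring] at h
  have h2 : PowerSeries.C (1 / 4) * (2 : PowerSeries ℚ) ^ 2 = 1 := by
    have : (2 : PowerSeries ℚ) = PowerSeries.C 2 := by rw [map_ofNat]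
    rw [this, ← map_pow, ← map_mul]; norm_num
  rw [h]
  linear_combination pt (i : ℚ) ^ 2 * D.GamH0 i * h2

lemma GamH0_zero : D.GamH0 0 = 1 := rfl

/-- `ε²`-coefficient of `g` at `l + 1/2`, `l ≥ 0`: it is `4 ∏ (2j/(2j+1))²` -/
theorem GamH0_succ (l : ℕ) : ∃ v : PowerSeries ℚ,
    D.GamH0 ((l : ℤ) + 1) = PowerSeries.X ^ 2 * v ∧
      I2 (2 * (l : ℤ) + 2) (PowerSeries.constantCoeff v) := by
  induction l with
  | zero =>
    have h := GamH0_step' 0
    have e2 : (pt ((0 : ℤ) : ℚ)) = PowerSeries.X := by simp [pt]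
    rw [GamH0_zero, e2] at h
    obtain ⟨v, hv, hv'⟩ := GCong.exists_quot (v := pt (((0 : ℤ) : ℚ) + 1 / 2) ^ 2) (w := 1)
      (G := D.GamH0 (0 + 1)) (by rw [map_pow, constantCoeff_pt]; norm_num) (by
        linear_combination -h)
    refine ⟨v, by simpa using hv, ?_⟩
    rw [map_pow, constantCoeff_pt, map_one] at hv'
    have : PowerSeries.constantCoeff v = 2 ^ 2 := by
      push_cast at hv'
      linear_combination 4 * hv'
    rw [this]
    exact I2_two_pow 2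
  | succ l ih =>
    obtain ⟨v0, hv0, hk0⟩ := ih
    have h := GamH0_step' ((l : ℤ) + 1)
    rw [hv0] at h
    obtain ⟨v, hv, hv'⟩ := GCong.exists_quot (v := pt ((((l : ℤ) + 1 : ℤ) : ℚ) + 1 / 2) ^ 2)
      (w := pt (((l : ℤ) + 1 : ℤ) : ℚ) ^ 2 * v0) (G := D.GamH0 ((l : ℤ) + 1 + 1)) (by
        rw [map_pow, constantCoeff_pt]
        push_cast
        positivity) (by linear_combination -h)
    refine ⟨v, by push_cast; exact hv, ?_⟩
    rw [map_pow, constantCoeff_pt, map_mul, map_pow, constantCoeff_pt] at hv'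
    have ho : ¬ (2 : ℤ) ∣ (2 * (l : ℤ) + 3) ^ 2 := by
      intro hd
      have := Int.prime_two.dvd_of_dvd_pow hd
      omega
    apply I2_of_odd_mul ho
    have e : (((2 * (l : ℤ) + 3) ^ 2 : ℤ) : ℚ) * PowerSeries.constantCoeff v =
        (2 : ℚ) ^ 2 * (((l : ℤ) + 1) ^ 2 : ℤ) * PowerSeries.constantCoeff v0 := by
      push_cast at hv' ⊢
      linear_combination 4 * hv'
    rw [e]
    have h1 := I2.mul (I2.mul (I2_two_pow 2) (I2_int (((l : ℤ) + 1) ^ 2))) hk0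
    convert h1 using 1
    push_cast; ring

/-- `g` has double zeros at `l + 1/2`, `l ≥ 0` -/
theorem coeff_GamH_nonneg {i : ℤ} (hi : 0 ≤ i) {j : ℕ} (hj : j ≤ 1) :
    PowerSeries.coeff j (D.GamH i) = 0 := by
  obtain ⟨l, rfl⟩ := Int.eq_ofNat_of_zero_le hi
  obtain ⟨v, hv, -⟩ := GamH0_succ l
  unfold D.GamH
  rw [hv]
  exact PowerSeries.X_pow_dvd_iff.mp (dvd_mul_right _ _) j (by omega)

/-- `ε²`-coefficient of `g` at `l + 1/2`, `l ≥ 0`, sharp weight -/
theorem I2_GamH_nonneg' {i : ℤ} (hi : 0 ≤ i) :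
    I2 (2 * i + 2) (PowerSeries.coeff 2 (D.GamH i)) := by
  obtain ⟨l, rfl⟩ := Int.eq_ofNat_of_zero_le hi
  obtain ⟨v, hv, hk⟩ := GamH0_succ l
  have h : PowerSeries.coeff 2 (D.GamH (l : ℤ)) = PowerSeries.constantCoeff v := by
    unfold D.GamH
    rw [hv, PowerSeries.coeff_X_pow_mul', if_pos le_rfl, Nat.sub_self,
      PowerSeries.coeff_zero_eq_constantCoeff_apply]
  rw [h]
  exact hk

/-- `ε²`-coefficient of `g` at `l + 1/2`, `l ≥ 0` -/
theorem I2_GamH_nonneg {i : ℤ} (hi : 0 ≤ i) : I2 0 (PowerSeries.coeff 2 (D.GamH i)) :=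
  I2.mono (I2_GamH_nonneg' hi) (by omega)

theorem constantCoeff_GamH0_neg (m : ℕ) : PowerSeries.constantCoeff (D.GamH0 (-(m : ℤ))) =
    (Nat.centralBinom m : ℚ) ^ 2 / 16 ^ m := by
  induction m with
  | zero =>
    have : D.GamH0 (-((0 : ℕ) : ℤ)) = 1 := rfl
    rw [this]; simp
  | succ m ih =>
    have h := congrArg PowerSeries.constantCoeff (GamH0_step' (-((m + 1 : ℕ) : ℤ)))
    have e : -((m + 1 : ℕ) : ℤ) + 1 = -(m : ℤ) := by push_cast; ring
    rw [e] at h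
    simp only [map_mul, map_pow, constantCoeff_pt] at h
    rw [ih] at h
    have h1 := GCong.g1_succ m
    unfold GCong.g1 at h1
    have h3 : ((m : ℚ) + 1) ^ 2 ≠ 0 := by positivity
    apply mul_left_cancel₀ h3
    rw [h1]
    push_cast at h ⊢
    linear_combination -h

theorem coeff_GamH_neg (m : ℕ) : PowerSeries.coeff 0 (D.GamH (-1 - (m : ℤ))) =
    (Nat.centralBinom m : ℚ) ^ 2 / 16 ^ m := by
  unfold D.GamH
  rw [PowerSeries.coeff_zero_eq_constantCoeff_apply,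
    show (-1 - (m : ℤ) + 1) = -(m : ℤ) by ring, constantCoeff_GamH0_neg]

/-- weight of `g` at `-1/2-m` -/
theorem I2_GamH_neg (m : ℕ) :
    I2 (-(4 * (m : ℤ))) (PowerSeries.coeff 0 (D.GamH (-1 - (m : ℤ)))) := by
  rw [coeff_GamH_neg]
  exact I2_g1 m

end Weights

end Crest.Agent.R006.P6
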