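import Crest.Agent.R006.P6A1a_241
import Crest.Agent.R006.P6Weights_153

/-!
Row 6, block P6, leaf A1 (helper241): values at the integer sites, `intSites`.
-/

set_option autoImplicit false

namespace Crest.Agent.R006.P6A1

open Polynomial Finset Crest.Agent.R006.NV Crest.Agent.R006.PsiInf Crest.Agent.R006.Int672
  Crest.Agent.R006.ProdBound481 Crest.Agent.R006.P6 Crest.Agent.R006.D

/-! ### `I2` -/

lemma i2_mono {v w : ℤ} {x : ℚ} (hx : I2 v x) (h : w ≤ v) : I2 w x := by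
  unfold I2 at *
  exact hx.trans (zpow_le_zpow_right₀ (by norm_num) (by omega))

lemma i2_mul {v w : ℤ} {x y : ℚ} (hx : I2 v x) (hy : I2 w y) : I2 (v + w) (x * y) := by
  unfold I2 at *
  rw [padicNorm.mul, neg_add, zpow_add₀ (by norm_num)]
  exact mul_le_mul hx hy (padicNorm.nonneg _) (by positivity)

lemma i2_zero (v : ℤ) : I2 v 0 := by
  unfold I2
  rw [padicNorm.zero]; positivity

lemma i2_add {v : ℤ} {x y : ℚ} (hx : I2 v x) (hy : I2 v y) : I2 v (x + y) := by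
  unfold I2 at *
  exact (padicNorm.nonarchimedean).trans (max_le hx hy)

lemma i2_neg {v : ℤ} {x : ℚ} (hx : I2 v x) : I2 v (-x) := by
  unfold I2 at *
  rwa [padicNorm.neg]

lemma i2_sum {ι : Type*} {v : ℤ} (s : Finset ι) (f : ι → ℚ) (h : ∀ i ∈ s, I2 v (f i)) :
    I2 v (∑ i ∈ s, f i) := by
  classical
  induction s using Finset.induction_on with
  | empty => simpa using i2_zero v
  | insert a s ha ih =>
    rw [sum_insert ha]
    exact i2_add (h a (mem_insert_self _ _)) (ih fun i hi => h i (mem_insert_of_mem hi))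

lemma i2_of_mem {x : ℚ} (h : x ∈ Zp 2) : I2 0 x := by
  unfold I2
  rw [mem_Zp] at h
  simpa using h

lemma i2_half : I2 (-1) (1 / 2 : ℚ) := by
  unfold I2
  have h : padicNorm 2 (2 : ℚ) = (2 : ℚ)⁻¹ := by
    simpa using padicNorm.padicNorm_p (p := 2) (by norm_num)
  rw [padicNorm.div, h, padicNorm.one]; norm_num

/-! ### power series truncated at `J` -/

/-- the coefficients below `J` have valuation `≥ v` -/
def SP (J : ℕ) (v : ℤ) (f : PowerSeries ℚ) : Prop := ∀ j < J, I2 v (PowerSeries.coeff j f)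

lemma SP.mono {J : ℕ} {v w : ℤ} {f : PowerSeries ℚ} (h : SP J v f) (hw : w ≤ v) : SP J w f :=
  fun j hj => i2_mono (h j hj) hw

lemma SP.add {J : ℕ} {v : ℤ} {f g : PowerSeries ℚ} (hf : SP J v f) (hg : SP J v g) :
    SP J v (f + g) := fun j hj => by
  rw [map_add]; exact i2_add (hf j hj) (hg j hj)

lemma SP.neg {J : ℕ} {v : ℤ} {f : PowerSeries ℚ} (hf : SP J v f) : SP J v (-f) := fun j hj => by
  rw [map_neg]; exact i2_neg (hf j hj)

lemma SP.mul {J : ℕ} {v w : ℤ} {f g : PowerSeries ℚ} (hf : SP J v f) (hg : SP J w g) :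
    SP J (v + w) (f * g) := fun j hj => by
  rw [PowerSeries.coeff_mul]
  refine i2_sum _ _ fun x hx => ?_
  have := mem_antidiagonal.mp hx
  exact i2_mul (hf _ (by omega)) (hg _ (by omega))

lemma SP.of_PI {J : ℕ} {f : PowerSeries ℚ} (hf : f ∈ PI 2) : SP J 0 f := fun j _ =>
  i2_of_mem (hf j)

lemma SP_C {J : ℕ} {v : ℤ} {a : ℚ} (h : I2 v a) : SP J v (PowerSeries.C a) := fun j _ => by
  rw [PowerSeries.coeff_C]; split_ifs
  · exact h
  · exact i2_zero v

/-- germs of small polynomials at the integers -/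
lemma SP_gm {J : ℕ} {v : ℤ} {P : ℚ[X]} (hP : PB 2 v P) (i : ℤ) : SP J v (gm (i : ℚ) P) := by
  intro j _
  rw [gm, Polynomial.coeff_coe, taylor_apply, comp_eq_sum_left, Polynomial.sum_def,
    finsetSum_coeff]
  refine i2_sum _ _ fun k _ => ?_
  rw [coeff_C_mul]
  have h1 : I2 v (P.coeff k) := hP k
  have h2 : ((X + C (i : ℚ)) ^ k : ℚ[X]) ∈ PP 2 :=
    (PP 2).pow_mem ((PP 2).add_mem PP_X (PP_C (int_mem 2 i))) k
  have := i2_mul h1 (i2_of_mem (h2 j))
  rwa [add_zero] at this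

lemma I_mem_gm {P : ℚ[X]} (hP : P ∈ PP 2) (i : ℤ) : gm (i : ℚ) P ∈ PI 2 := gm_mem hP (int_mem 2 i)

/-- a power of a series with even constant coefficient -/
lemma pow_small {y : PowerSeries ℚ} (hy : y ∈ PI 2) (h0 : I2 1 (PowerSeries.constantCoeff y))
    (n j : ℕ) : I2 ((n : ℤ) - j) (PowerSeries.coeff j (y ^ n)) := by
  induction n generalizing j with
  | zero =>
    rw [pow_zero, PowerSeries.coeff_one]
    split_ifs with h
    · subst h
      have : I2 0 (1 : ℚ) := i2_of_mem (Zp 2).one_mem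
      simpa using this
    · exact i2_zero _
  | succ n ih =>
    rw [pow_succ', PowerSeries.coeff_mul]
    refine i2_sum _ _ fun x hx => ?_
    have hx' := mem_antidiagonal.mp hx
    have hj : (j : ℤ) = x.1 + x.2 := by exact_mod_cast hx'.symm
    rcases Nat.eq_zero_or_pos x.1 with h | h
    · rw [h, PowerSeries.coeff_zero_eq_constantCoeff_apply]
      refine i2_mono (i2_mul h0 (ih x.2)) ?_
      push_cast
      omega
    · refine i2_mono (i2_mul (i2_of_mem (hy x.1)) (ih x.2)) ?_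
      push_cast
      omega

/-! ### the chain -/

/-- `ψ - γ h` at the integer `i` -/
noncomputable def ps (γ : ℚ) (i : ℤ) : PowerSeries ℚ := PsiZ 0 i - PowerSeries.C γ * HomZ i

lemma ps_step (γ : ℚ) (i : ℤ) :
    pt ((i : ℚ) + 1) ^ 3 * ps γ (i + 1) + (2 * pt (i : ℚ) + 1) ^ 3 * ps γ i =
      -(PowerSeries.C (1 / 2) * (3 * pt (i : ℚ) + 2)) := by
  have h1 := (step_Z (K := ℚ) 0 i).psi
  have h2 := Weights.HomZ_step i
  unfold ps
  linear_combination h1 - PowerSeries.C γ * h2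

variable {P : ℚ[X]}

/-- what is used of `P` -/
structure Good (v : ℤ) (P : ℚ[X]) : Prop where
  int : P ∈ PP 2
  odd : ∀ i : ℤ, padicNorm 2 (P.eval (i : ℚ)) = 1
  kills : Kills v P

lemma cc_gm (i : ℤ) (P : ℚ[X]) : PowerSeries.constantCoeff (gm (i : ℚ) P) = P.eval (i : ℚ) := by
  rw [gm, Polynomial.constantCoeff_coe, taylor_coeff_zero]

lemma Good.inv_mem {v : ℤ} (h : Good v P) (i : ℤ) : (gm (i : ℚ) P)⁻¹ ∈ PI 2 :=
  PI_inv (I_mem_gm h.int i) (by rw [cc_gm]; exact h.odd i)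

lemma Good.ne {v : ℤ} (h : Good v P) (i : ℤ) : PowerSeries.constantCoeff (gm (i : ℚ) P) ≠ 0 := by
  rw [cc_gm]
  intro h0
  have := h.odd i
  rw [h0] at this
  simp at this

/-- `τ(P)/P` at the integer `i` -/
noncomputable def ph (P : ℚ[X]) (i : ℤ) : PowerSeries ℚ := gm (i : ℚ) (TR mu P) * (gm (i : ℚ) P)⁻¹

/-- the error of the recurrence for `ph` -/
noncomputable def er (P : ℚ[X]) (i : ℤ) : PowerSeries ℚ :=
  gm ((i + 1 : ℤ) : ℚ) (Err P) * (gm (i : ℚ) P)⁻¹ * (gm ((i + 1 : ℤ) : ℚ) P)⁻¹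

lemma gm_comp_sub_one (i : ℤ) (P : ℚ[X]) : gm ((i + 1 : ℤ) : ℚ) (P.comp (X - 1)) = gm (i : ℚ) P := by
  rw [gm, gm]
  congr 1
  have : (X - 1 : ℚ[X]) = X + C (-1) := by rw [C_neg, C_1]; ring
  rw [this, ← taylor_apply, taylor_taylor]
  congr 1
  push_cast; ring_nf

lemma ph_step {v : ℤ} (h : Good v P) (i : ℤ) :
    pt ((i : ℚ) + 1) ^ 3 * ph P (i + 1) + (2 * pt (i : ℚ) + 1) ^ 3 * ph P i =
      -(PowerSeries.C (1 / 2) * (3 * pt (i : ℚ) + 2)) + er P i := by
  have e1 := PowerSeries.mul_inv_cancel _ (h.ne i)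
  have e2 := PowerSeries.mul_inv_cancel _ (h.ne (i + 1))
  have e3 : gm ((i + 1 : ℤ) : ℚ) (Err P) = pt ((i : ℚ) + 1) ^ 3 * gm (i : ℚ) P *
      gm ((i + 1 : ℤ) : ℚ) (TR mu P) + (2 * pt (i : ℚ) + 1) ^ 3 * gm ((i + 1 : ℤ) : ℚ) P *
      gm (i : ℚ) (TR mu P) + gm ((i + 1 : ℤ) : ℚ) P * gm (i : ℚ) P *
      (PowerSeries.C (1 / 2) * (3 * pt (i : ℚ) + 2)) := by
    have hp : pt ((i : ℚ) + 1) = pt (i : ℚ) + 1 := (pt_add_one _).symm
    unfold Err
    simp only [gm_add, gm_mul, gm_pow, gm_sub, gm_comp_sub_one, gm_X, gm_C, gm_one, gm_two,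
      gm_three]
    have hc : ((i + 1 : ℤ) : ℚ) = (i : ℚ) + 1 := by push_cast; ring
    rw [hc, hp]
    ring
  unfold ph er
  rw [e3]
  generalize (gm (i : ℚ) P)⁻¹ = A' at *
  generalize (gm ((i + 1 : ℤ) : ℚ) P)⁻¹ = B' at *
  generalize gm (i : ℚ) P = A at *
  generalize gm ((i + 1 : ℤ) : ℚ) P = B at *
  generalize gm ((i + 1 : ℤ) : ℚ) (TR mu P) = T1
  generalize gm (i : ℚ) (TR mu P) = T0
  generalize PowerSeries.C (1 / 2) * (3 * pt (i : ℚ) + 2) = c
  linear_combination (-(pt ((i : ℚ) + 1) ^ 3 * T1 * B') - c * B * B') * e1 -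
    ((2 * pt (i : ℚ) + 1) ^ 3 * T0 * A' + c) * e2

/-- difference -/
noncomputable def dl (γ : ℚ) (P : ℚ[X]) (i : ℤ) : PowerSeries ℚ := ps γ i - ph P i

lemma dl_step {v : ℤ} (h : Good v P) (γ : ℚ) (i : ℤ) :
    pt ((i : ℚ) + 1) ^ 3 * dl γ P (i + 1) + (2 * pt (i : ℚ) + 1) ^ 3 * dl γ P i = -er P i := by
  have h1 := ps_step γ i
  have h2 := ph_step h i
  unfold dl
  linear_combination h1 - h2

lemma er_small {v : ℤ} (h : Good v P) (J : ℕ) (i : ℤ) : SP J v (er P i) := by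
  have h1 : SP J v (gm ((i + 1 : ℤ) : ℚ) (Err P)) := SP_gm (rec_small h.int h.kills) (i + 1)
  have h2 := (h1.mul (SP.of_PI (h.inv_mem i))).mul (SP.of_PI (h.inv_mem (i + 1)))
  simpa [er] using h2

lemma odd_unit (i : ℤ) : U 2 (2 * (i : ℚ) + 1) := by
  have : U 2 (((2 * i + 1 : ℤ)) : ℚ) := U.int (by
    intro h
    have h2 : (2 : ℤ) ∣ 2 * i + 1 := by exact_mod_cast h
    omega)
  push_cast at this
  exact this

lemma pt_mem (i : ℤ) : pt (i : ℚ) ∈ PI 2 := PI_pt (int_mem 2 i)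

lemma two_mem_PI : (2 : PowerSeries ℚ) ∈ PI 2 := by
  have : (2 : PowerSeries ℚ) = 1 + 1 := by norm_num
  rw [this]; exact (PI 2).add_mem (PI 2).one_mem (PI 2).one_mem

lemma b_mem (i : ℤ) : (2 * pt (i : ℚ) + 1) ^ 3 ∈ PI 2 :=
  (PI 2).pow_mem ((PI 2).add_mem ((PI 2).mul_mem two_mem_PI (pt_mem i)) (PI 2).one_mem) 3

lemma b_cc (i : ℤ) : PowerSeries.constantCoeff ((2 * pt (i : ℚ) + 1) ^ 3) = (2 * (i : ℚ) + 1) ^ 3 := by
  rw [map_pow, cc_lin]

lemma b_inv_mem (i : ℤ) : ((2 * pt (i : ℚ) + 1) ^ 3)⁻¹ ∈ PI 2 :=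
  PI_inv (b_mem i) (by rw [b_cc]; exact (odd_unit i).pow 3)

lemma dl_eq {v : ℤ} (h : Good v P) (γ : ℚ) (i : ℤ) :
    dl γ P i = ((2 * pt (i : ℚ) + 1) ^ 3)⁻¹ *
      (-er P i + -(pt ((i : ℚ) + 1) ^ 3 * dl γ P (i + 1))) := by
  have h1 := dl_step h γ i
  have h2 : ((2 * pt (i : ℚ) + 1) ^ 3)⁻¹ * (2 * pt (i : ℚ) + 1) ^ 3 = 1 := by
    apply PowerSeries.inv_mul_cancel
    rw [b_cc]
    exact ((odd_unit i).pow 3).ne_zero
  generalize ((2 * pt (i : ℚ) + 1) ^ 3)⁻¹ = B' at *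
  linear_combination B' * h1 - dl γ P i * h2

/-- negative sites -/
lemma dl_neg {v : ℤ} (h : Good v P) (γ : ℚ) (m : ℕ) : SP 3 v (dl γ P (-1 - (m : ℤ))) := by
  induction m with
  | zero =>
    rw [dl_eq h]
    have hb := SP.of_PI (J := 3) (b_inv_mem (-1 - ((0 : ℕ) : ℤ)))
    have he := (er_small h 3 (-1 - ((0 : ℕ) : ℤ))).neg
    have hz : SP 3 v (-(pt (((-1 - ((0 : ℕ) : ℤ) : ℤ) : ℚ) + 1) ^ 3 *
        dl γ P (-1 - ((0 : ℕ) : ℤ) + 1))) := by
      have e : pt (((-1 - ((0 : ℕ) : ℤ) : ℤ) : ℚ) + 1) = (PowerSeries.X : PowerSeries ℚ) := by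
        rw [pt]; simp
      rw [e]
      intro j hj
      rw [map_neg, PowerSeries.coeff_X_pow_mul', if_neg (by omega), neg_zero]
      exact i2_zero v
    have := hb.mul (he.add hz)
    rwa [zero_add] at this
  | succ m ih =>
    rw [dl_eq h]
    have hb := SP.of_PI (J := 3) (b_inv_mem (-1 - ((m + 1 : ℕ) : ℤ)))
    have he := (er_small h 3 (-1 - ((m + 1 : ℕ) : ℤ))).neg
    have e : (-1 - ((m + 1 : ℕ) : ℤ) + 1 : ℤ) = -1 - (m : ℤ) := by push_cast; ring
    have hz : SP 3 v (-(pt (((-1 - ((m + 1 : ℕ) : ℤ) : ℤ) : ℚ) + 1) ^ 3 *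
        dl γ P (-1 - ((m + 1 : ℕ) : ℤ) + 1))) := by
      rw [e]
      have e2 : (((-1 - ((m + 1 : ℕ) : ℤ) : ℤ) : ℚ) + 1) = ((-1 - (m : ℤ) : ℤ) : ℚ) := by
        push_cast; ring
      rw [e2]
      have h3 := (SP.of_PI (J := 3) ((PI 2).pow_mem (pt_mem (-1 - (m : ℤ))) 3)).mul ih
      rw [zero_add] at h3
      exact h3.neg
    have := hb.mul (he.add hz)
    rwa [zero_add] at this

/-- values at `n ≥ 0` -/
lemma dl_nat {v : ℤ} (h : Good v P) (γ : ℚ)
    (hγ : γ = -((TR mu P).eval 0 * (P.eval 0)⁻¹)) (n : ℕ) :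
    I2 v ((n.factorial : ℚ) ^ 3 * PowerSeries.constantCoeff (dl γ P (n : ℤ))) := by
  induction n with
  | zero =>
    have e : PowerSeries.constantCoeff (dl γ P ((0 : ℕ) : ℤ)) = 0 := by
      have h0 : HomZ ((0 : ℕ) : ℤ) = 1 := rfl
      have h1 : (PsiZ 0 ((0 : ℕ) : ℤ) : PowerSeries ℚ) = PowerSeries.C 0 := rfl
      unfold dl ps ph
      rw [h0, h1, hγ, map_sub, map_sub, map_mul, map_mul, PowerSeries.constantCoeff_inv, cc_gm,
        cc_gm]
      simp
    rw [e, mul_zero]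
    exact i2_zero v
  | succ n ih =>
    have h1 := congrArg PowerSeries.constantCoeff (dl_step h γ (n : ℤ))
    rw [map_add, map_mul, map_mul, map_neg, b_cc, map_pow, constantCoeff_pt] at h1
    have h2 : I2 v (PowerSeries.constantCoeff (er P (n : ℤ))) := by
      have := er_small h 1 (n : ℤ) 0 (by norm_num)
      rwa [PowerSeries.coeff_zero_eq_constantCoeff_apply] at this
    have e : (((n + 1).factorial : ℕ) : ℚ) ^ 3 *
        PowerSeries.constantCoeff (dl γ P ((n + 1 : ℕ) : ℤ)) =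
        (n.factorial : ℚ) ^ 3 * -PowerSeries.constantCoeff (er P (n : ℤ)) +
        (-(2 * ((n : ℤ) : ℚ) + 1) ^ 3) * ((n.factorial : ℚ) ^ 3 *
          PowerSeries.constantCoeff (dl γ P (n : ℤ))) := by
      rw [Nat.factorial_succ]
      push_cast at h1 ⊢
      linear_combination (n.factorial : ℚ) ^ 3 * h1
    rw [e]
    have hf : (n.factorial : ℚ) ^ 3 ∈ Zp 2 := (Zp 2).pow_mem (nat_mem _) 3
    have hb : -(2 * ((n : ℤ) : ℚ) + 1) ^ 3 ∈ Zp 2 := (Zp 2).neg_mem ((odd_unit n).pow 3).mem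
    have h3 := i2_mul (i2_of_mem hf) (i2_neg h2)
    have h4 := i2_mul (i2_of_mem hb) ih
    rw [zero_add] at h3 h4
    exact i2_add h3 h4

lemma norm_two : padicNorm 2 (2 : ℚ) = (2 : ℚ)⁻¹ := by
  simpa using padicNorm.padicNorm_p (p := 2) (by norm_num)

lemma norm_factorial (n : ℕ) :
    padicNorm 2 (n.factorial : ℚ) = (2 : ℚ) ^ (-(padicValNat 2 n.factorial : ℤ)) := by
  rw [padicNorm.eq_zpow_of_nonzero (by exact_mod_cast n.factorial_ne_zero), padicValRat.of_nat]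
  rfl

lemma val_factorial_le (n : ℕ) : padicValNat 2 n.factorial ≤ n := by
  have := sub_one_mul_padicValNat_factorial (p := 2) n
  omega

lemma i2_of_factorial {v : ℤ} {x : ℚ} {n : ℕ} (h : I2 v ((n.factorial : ℚ) ^ 3 * x)) :
    I2 (v - 3 * n) x := by
  unfold I2 at *
  rw [padicNorm.mul] at h
  have h3 : padicNorm 2 ((n.factorial : ℚ) ^ 3) =
      (2 : ℚ) ^ (-(3 * (padicValNat 2 n.factorial : ℤ))) := by
    rw [pow_succ, pow_two, padicNorm.mul, padicNorm.mul, norm_factorial,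
      ← zpow_add₀ (by norm_num), ← zpow_add₀ (by norm_num)]
    congr 1; ring
  rw [h3, ← le_div_iff₀' (by positivity), ← zpow_sub₀ (by norm_num)] at h
  refine h.trans (zpow_le_zpow_right₀ (by norm_num) ?_)
  have : (padicValNat 2 n.factorial : ℤ) ≤ n := by exact_mod_cast val_factorial_le n
  linarith

lemma norm_beta (m : ℕ) : padicNorm 2 (beta m) = (2 : ℚ) ^ (-vb m) := by
  have hpow : ∀ k : ℕ, padicNorm 2 ((2 : ℚ) ^ k) = (2 : ℚ) ^ (-(k : ℤ)) := by
    intro k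
    induction k with
    | zero => simp
    | succ k ih =>
      rw [pow_succ, padicNorm.mul, ih, norm_two, Nat.cast_succ, neg_add,
        zpow_add₀ (by norm_num)]
      norm_num
  unfold beta vb
  rw [padicNorm.div, padicNorm.mul, hpow, norm_factorial, norm_two, div_inv_eq_mul,
    ← zpow_add₀ (by norm_num)]
  have : (2 : ℚ) ^ (-(m : ℤ) + -(padicValNat 2 m.factorial : ℤ)) * 2 =
      (2 : ℚ) ^ (-(m : ℤ) + -(padicValNat 2 m.factorial : ℤ) + 1) := by
    rw [zpow_add₀ (by norm_num) _ 1, zpow_one]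
  rw [this]
  congr 1; ring

lemma beta_ne (m : ℕ) : beta m ≠ 0 := by
  unfold beta
  have : (m.factorial : ℚ) ≠ 0 := by exact_mod_cast m.factorial_ne_zero
  positivity

lemma i2_beta_inv (m : ℕ) : I2 (-vb m) (beta m)⁻¹ := by
  unfold I2
  rw [norm_inv, norm_beta, ← zpow_neg, neg_neg]

lemma i2_one_sub {x : ℚ} (hx : padicNorm 2 x = 1) : I2 1 (1 - x) := by
  have hden0 : (x.den : ℚ) ≠ 0 := by exact_mod_cast x.den_ne_zero
  have hxd : x = (x.num : ℚ) / (x.den : ℚ) := (Rat.num_div_den x).symm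
  have h1 : padicNorm 2 (x.num : ℚ) = padicNorm 2 (x.den : ℚ) := by
    have h2 : padicNorm 2 ((x.num : ℚ) / (x.den : ℚ)) = 1 := by rw [← hxd]; exact hx
    rw [padicNorm.div] at h2
    have h3 : padicNorm 2 (x.den : ℚ) ≠ 0 := padicNorm.nonzero hden0
    field_simp at h2
    exact h2
  have hden : padicNorm 2 (x.den : ℚ) = 1 := by
    by_contra hne
    have h2 : ¬ (2 : ℤ) ∣ x.den → False := by
      intro h3
      apply hne
      have := (padicNorm.int_eq_one_iff (p := 2) (x.den : ℤ)).mpr (by exact_mod_cast h3)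
      exact_mod_cast this
    have h3 : (2 : ℤ) ∣ x.den := by
      by_contra h4; exact h2 h4
    have h4 : ¬ (2 : ℤ) ∣ x.num := by
      intro h5
      have hc := x.reduced
      have h6 : 2 ∣ x.num.natAbs := Int.natCast_dvd.mp (by exact_mod_cast h5)
      have h7 : 2 ∣ x.den := by exact_mod_cast h3
      have := Nat.dvd_gcd h6 h7
      rw [hc] at this
      omega
    have h5 : padicNorm 2 (x.num : ℚ) = 1 :=
      (padicNorm.int_eq_one_iff (p := 2) x.num).mpr (by exact_mod_cast h4)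
    rw [h5] at h1
    exact hne h1.symm
  have hnum : padicNorm 2 (x.num : ℚ) = 1 := by rw [h1]; exact hden
  have ho1 : ¬ (2 : ℤ) ∣ x.num := by
    have := (padicNorm.int_eq_one_iff (p := 2) x.num).mp hnum
    exact_mod_cast this
  have ho2 : ¬ (2 : ℤ) ∣ x.den := by
    have h := (padicNorm.int_eq_one_iff (p := 2) (x.den : ℤ)).mp (by exact_mod_cast hden)
    exact_mod_cast h
  have hdvd : (2 : ℤ) ∣ (x.den : ℤ) - x.num := by omega
  have h2 : padicNorm 2 (((x.den : ℤ) - x.num : ℤ) : ℚ) ≤ (2 : ℚ) ^ (-(1 : ℕ) : ℤ) :=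
    (padicNorm.dvd_iff_norm_le (p := 2) (n := 1)).mp (by simpa using hdvd)
  have e : 1 - x = (((x.den : ℤ) - x.num : ℤ) : ℚ) / (x.den : ℚ) := by
    push_cast
    rw [sub_div, div_self hden0, Rat.num_div_den]
  unfold I2
  rw [e, padicNorm.div, hden, div_one]
  exact_mod_cast h2

variable {g : ℕ → ℚ[X]}

lemma good_of (h : HTwo g) (m : ℕ) : Good (vb m) (g m) where
  int := PB_zero_iff.mp (h.int m)
  odd := h.odd m
  kills := fun F hF => h.main m F (PB_zero_iff.mpr hF)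

lemma kills_one (h : HTwo g) : Kills (-1) 1 := by
  intro F hF
  have h0 : g 0 = C ((g 0).coeff 0) := by
    apply eq_C_of_natDegree_eq_zero
    rw [h.deg 0]
  have hu : padicNorm 2 ((g 0).coeff 0) = 1 := by
    have := h.lead 0
    rwa [leadingCoeff, h.deg 0] at this
  have hu0 : (g 0).coeff 0 ≠ 0 := by
    intro h1; rw [h1] at hu; simp at hu
  have hF' : C ((g 0).coeff 0)⁻¹ * F ∈ PP 2 :=
    (PP 2).mul_mem (PP_C (U.inv_mem hu)) hF
  have h1 := h.main 0 _ (PB_zero_iff.mpr hF')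
  have e : g 0 * (C ((g 0).coeff 0)⁻¹ * F) = 1 * F := by
    conv_lhs => rw [h0]
    rw [← mul_assoc, ← C_mul, coeff_C_zero, mul_inv_cancel₀ hu0, C_1]
  rw [e] at h1
  have h2 : vb 0 = -1 := by simp [vb]
  rwa [h2] at h1

lemma kills_mul (h : HTwo g) (m : ℕ) {f : ℚ[X]} (hf : f ∈ PP 2) : Kills (vb m) (f * g m) := by
  intro F hF
  have := h.main m (f * F) (PB_zero_iff.mpr ((PP 2).mul_mem hf hF))
  have e : g m * (f * F) = f * g m * F := by ring
  rwa [e] at this

lemma vb_ge (m : ℕ) : (m : ℤ) - 1 ≤ vb m := by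
  unfold vb
  have : (0 : ℤ) ≤ (padicValNat 2 m.factorial : ℤ) := Int.natCast_nonneg _
  linarith

theorem _root_.Crest.Agent.R006.P6.intSites {g : ℕ → ℚ[X]} (h : HTwo g) : IntSites g := by
  intro M
  set μ := 4 * M + 10 with hμ
  set P := g μ with hP
  have hg : Good (vb μ) P := good_of h μ
  have hv : 4 * (M : ℤ) + 9 ≤ vb μ := by
    have := vb_ge μ
    rw [hμ] at this ⊢
    push_cast at this ⊢
    linarith
  set γ : ℚ := -((TR mu P).eval 0 * (P.eval 0)⁻¹) with hγ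
  refine ⟨γ, ?_, ?_⟩
  · have h1 : PB 2 (-1) (LQ ((1 : ℚ[X]).map C * DQ P)) := LQ_small (kills_one h) (DQ_mem hg.int)
    rw [Polynomial.map_one, one_mul, LQ_DQ] at h1
    have h2 : I2 (-1) ((TR mu P).eval 0) := by
      rw [← coeff_zero_eq_eval_zero]; exact h1 0
    have h3 : I2 0 (P.eval 0)⁻¹ := by
      have := hg.odd 0
      rw [Int.cast_zero] at this
      exact i2_of_mem (U.inv_mem this)
    have := i2_mul h2 h3
    rw [add_zero] at this
    exact i2_neg this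
  · intro m f hf
    have hf' := PB_zero_iff.mp hf
    have hR : f * g m ∈ PP 2 := (PP 2).mul_mem hf' (good_of h m).int
    obtain ⟨A, B, hAB, hA, hB⟩ := cross_small hg.int hg.kills hR (kills_mul h m hf')
    set R := f * g m with hRdef
    set J := M + 3 with hJ
    set IP : ℚ[X] := ∑ j ∈ range J, (1 - P) ^ j with hIP
    have hIPm : IP ∈ PP 2 := (PP 2).sum_mem fun j _ =>
      (PP 2).pow_mem ((PP 2).sub_mem (PP 2).one_mem hg.int) j
    have hPIP : P * IP = 1 - (1 - P) ^ J := by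
      have h2 := mul_neg_geom_sum (1 - P) J
      rw [sub_sub_cancel] at h2
      exact h2
    refine ⟨C (beta m)⁻¹ * A * IP, ?_, ?_⟩
    · have h1 : PB 2 (-vb m) (C (beta m)⁻¹ : ℚ[X]) := PB.C (i2_beta_inv m)
      have h2 := (h1.mul hA).mul (PB_zero_iff.mpr hIPm)
      refine h2.mono ?_
      linarith
    · intro i j hij hi
      have hdl : SP (j + 1) M (dl γ P i) := by
        rcases hij with ⟨h0, h1⟩ | ⟨h0, h1⟩
        · subst h1
          obtain ⟨n, rfl⟩ := Int.eq_ofNat_of_zero_le h0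
          intro j' hj'
          have hj0 : j' = 0 := by omega
          subst hj0
          rw [PowerSeries.coeff_zero_eq_constantCoeff_apply]
          refine i2_mono (i2_of_factorial (dl_nat hg γ hγ n)) ?_
          linarith
        · obtain ⟨m', rfl⟩ : ∃ m' : ℕ, i = -1 - (m' : ℤ) := ⟨(-1 - i).toNat, by omega⟩
          intro j' hj'
          exact i2_mono (dl_neg hg γ m' j' (by omega)) (by linarith)
      have hj3 : j + 1 ≤ 3 := by
        rcases hij with ⟨_, h1⟩ | ⟨_, h1⟩ <;> omega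
      have e1 := PowerSeries.mul_inv_cancel _ (hg.ne i)
      have e2 : gm (i : ℚ) R * gm (i : ℚ) (TR mu P) - gm (i : ℚ) P * gm (i : ℚ) (TR mu R) =
          gm (i : ℚ) A + gm (i : ℚ) B := by
        rw [← gm_mul, ← gm_mul, ← gm_sub, ← gm_add, hAB]
      have e3 := congrArg (gm (i : ℚ)) hPIP
      rw [gm_mul, gm_sub, gm_one, gm_pow, gm_sub, gm_one] at e3
      have key : D.ent0 R (Site.Z i, j) - γ * D.ent1 R (Site.Z i, j)
          - beta m * PowerSeries.coeff j (gm (i : ℚ) (C (beta m)⁻¹ * A * IP)) =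
          PowerSeries.coeff j (gm (i : ℚ) R * dl γ P i + gm (i : ℚ) B * (gm (i : ℚ) P)⁻¹ +
            gm (i : ℚ) A * ((1 - gm (i : ℚ) P) ^ J * (gm (i : ℚ) P)⁻¹)) := by
        have h1 : D.ent0 R (Site.Z i, j) - γ * D.ent1 R (Site.Z i, j)
          - beta m * PowerSeries.coeff j (gm (i : ℚ) (C (beta m)⁻¹ * A * IP)) =
          PowerSeries.coeff j (gm (i : ℚ) R * ps γ i - gm (i : ℚ) (TR mu R) -
            PowerSeries.C (beta m) * gm (i : ℚ) (C (beta m)⁻¹ * A * IP)) := by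
          unfold D.ent0 D.ent1 ps D.tau
          simp only [D.psi0, D.psi1, Site.val]
          have : gm (i : ℚ) R * (PsiZ 0 i - PowerSeries.C γ * HomZ i) =
            gm (i : ℚ) R * PsiZ 0 i - PowerSeries.C γ * (gm (i : ℚ) R * HomZ i) := by ring
          rw [this]
          simp only [map_sub, PowerSeries.coeff_C_mul]
          ring
        rw [h1]
        congr 1
        have hb : PowerSeries.C (beta m) * gm (i : ℚ) (C (beta m)⁻¹ * A * IP) =
            gm (i : ℚ) A * gm (i : ℚ) IP := by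
          rw [gm_mul, gm_mul, gm_C, ← mul_assoc, ← mul_assoc, ← map_mul,
            mul_inv_cancel₀ (beta_ne m), map_one, one_mul]
        rw [hb]
        unfold dl ph
        generalize (gm (i : ℚ) P)⁻¹ = P' at *
        generalize gm (i : ℚ) P = p at *
        generalize gm (i : ℚ) R = r at *
        generalize gm (i : ℚ) (TR mu R) = tr at *
        generalize gm (i : ℚ) (TR mu P) = tp at *
        generalize gm (i : ℚ) A = a at *
        generalize gm (i : ℚ) B = b at *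
        generalize gm (i : ℚ) IP = ip at *
        linear_combination P' * e2 + (tr + a * ip) * e1 - (a * P') * e3
      rw [key]
      have hyI : 1 - gm (i : ℚ) P ∈ PI 2 := (PI 2).sub_mem (PI 2).one_mem (I_mem_gm hg.int i)
      have hy0 : I2 1 (PowerSeries.constantCoeff (1 - gm (i : ℚ) P)) := by
        rw [map_sub, map_one, cc_gm]
        exact i2_one_sub (hg.odd i)
      have hyJ : SP (j + 1) (M + 1) ((1 - gm (i : ℚ) P) ^ J) := by
        intro j' hj'
        refine i2_mono (pow_small hyI hy0 J j') ?_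
        rw [hJ]; push_cast; omega
      have hAm : SP (j + 1) (-1) (gm (i : ℚ) A) := (SP_gm hA i).mono (by
        have := vb_ge m
        have h0 : (0 : ℤ) ≤ m := Int.natCast_nonneg _
        linarith)
      have t1 := (SP.of_PI (J := j + 1) (I_mem_gm hR i)).mul hdl
      have t2 := (SP_gm (J := j + 1) hB i).mul (SP.of_PI (hg.inv_mem i))
      have t3 := hAm.mul (hyJ.mul (SP.of_PI (hg.inv_mem i)))
      have := ((t1.mono (by linarith)).add (t2.mono (by linarith : (M : ℤ) ≤ _))).add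
        (t3.mono (by linarith : (M : ℤ) ≤ _))
      exact this j (Nat.lt_succ_self j)

end Crest.Agent.R006.P6A1
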