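import Crest.Agent.R006.Defs

/-!
# Row 6, block P6 (p = 2): definitions and statements of the leaves (helper784)

`I2 v x` : `v_2(x) ≥ v`.  `beta m = 2^m m! / 2`.
`HTwo` : the functional form of (H2).  `Input` : everything the determinant half of P6 needs.
-/

set_option autoImplicit false

namespace Crest.Agent.R006.P6

open Polynomial Crest.Agent.R006.NV Crest.Agent.R006.PsiInf Crest.Agent.R006.D
open Crest.Agent.R006.ProdBound481

/-- `v_2(x) ≥ v` -/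
def I2 (v : ℤ) (x : ℚ) : Prop := padicNorm 2 x ≤ (2 : ℚ) ^ (-v)

/-- `2^m m! / 2` -/
def beta (m : ℕ) : ℚ := 2 ^ m * (m.factorial : ℚ) / 2

/-- 2-adic valuation of `beta m` -/
def vb (m : ℕ) : ℤ := (m : ℤ) + padicValNat 2 m.factorial - 1

/-- properties of the polynomials `g m` of (H2) -/
structure HTwo (g : ℕ → ℚ[X]) : Prop where
  int : ∀ m, PB 2 0 (g m)
  deg : ∀ m, (g m).natDegree = 2 * m
  lead : ∀ m, padicNorm 2 (g m).leadingCoeff = 1
  odd : ∀ (m : ℕ) (i : ℤ), padicNorm 2 ((g m).eval (i : ℚ)) = 1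
  main : ∀ (m : ℕ) (F : ℚ[X]), PB 2 0 F → I2 (vb m) (lin mu (g m * F))

/-- rows at integers which occur in the design -/
def IntRow (i : ℤ) (j : ℕ) : Prop := (0 ≤ i ∧ j = 0) ∨ (i < 0 ∧ j ≤ 2)

/-- rows at half-integers which occur in the design, for a given `R` -/
def HalfRow (R : ℚ[X]) (i : ℤ) (j : ℕ) : Prop :=
  (0 ≤ i ∧ j ≤ 2) ∨ (i < 0 ∧ j = 0 ∧ R.eval ((i : ℚ) + 1 / 2) = 0)

/-- leaf A1: values at the integer sites `i ≤ M` (the 2-adic number `γ` is not rational, so the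
bound `i ≤ M` is needed: `h(n)` has valuation `≥ -3n`) -/
def IntSites (g : ℕ → ℚ[X]) : Prop :=
  ∀ M : ℕ, ∃ γ : ℚ, I2 (-1) γ ∧ ∀ (m : ℕ) (f : ℚ[X]), PB 2 0 f →
    ∃ D : ℚ[X], PB 2 0 D ∧ ∀ i j, IntRow i j → i ≤ (M : ℤ) →
      I2 M (ent0 (f * g m) (Site.Z i, j) - γ * ent1 (f * g m) (Site.Z i, j)
        - beta m * PowerSeries.coeff j (gm (i : ℚ) D))

/-- leaf A2: values at the half-integer sites (`W` is a polynomial in `2s`) -/
def HalfSites (g : ℕ → ℚ[X]) : Prop :=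
  ∀ (M m : ℕ) (f : ℚ[X]), PB 2 0 f →
    ∃ W : ℚ[X], PB 2 0 W ∧ ∀ i j, HalfRow (f * g m) i j →
      I2 M (ent0 (f * g m) (Site.H i, j)
        - beta m * PowerSeries.coeff j (gm ((i : ℚ) + 1 / 2) (W.comp (C 2 * X))))

end Crest.Agent.R006.P6
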