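import Crest.Agent.R006.Int_672
import Crest.Agent.R006.P6Stmt_784

/-!
Row 6, block P6, leaf A1, part a (helper241): the moment functional with parameters.

`LQ : ℚ[s][z] →ₗ[ℚ[s]] ℚ[s]`, `LQ (F(z)) = L_z F`; `DQ R = (R(z) - R(s))/(z - s)`;
`LQ_DQ : LQ (DQ R) = τ(R)(s)`; the approximate recurrence `rec_small` and `cross_small`.
-/

set_option autoImplicit false

namespace Crest.Agent.R006.P6A1

open Polynomial Finset Crest.Agent.R006.NV Crest.Agent.R006.PsiInf Crest.Agent.R006.Int672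
  Crest.Agent.R006.ProdBound481 Crest.Agent.R006.P6

/-! ### polynomials with coefficients in a subring -/

section PR

variable {R : Type*} [CommRing R] (T : Subring R)

/-- polynomials with coefficients in `T` -/
def PR : Subring R[X] where
  carrier := {f | ∀ n, f.coeff n ∈ T}
  mul_mem' := fun {a b} ha hb n => by
    rw [coeff_mul]
    exact T.sum_mem fun x _ => T.mul_mem (ha _) (hb _)
  one_mem' := fun n => by
    rw [coeff_one]; split_ifs
    · exact T.one_mem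
    · exact T.zero_mem
  add_mem' := fun {a b} ha hb n => by
    rw [coeff_add]; exact T.add_mem (ha n) (hb n)
  zero_mem' := fun n => by simp [T.zero_mem]
  neg_mem' := fun {a} ha n => by
    rw [coeff_neg]; exact T.neg_mem (ha n)

variable {T}

lemma mem_PR {f : R[X]} : f ∈ PR T ↔ ∀ n, f.coeff n ∈ T := Iff.rfl

lemma PR_C {a : R} (h : a ∈ T) : C a ∈ PR T := fun n => by
  rw [coeff_C]; split_ifs
  · exact h
  · exact T.zero_mem

lemma PR_X : (X : R[X]) ∈ PR T := fun n => by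
  rw [coeff_X]; split_ifs
  · exact T.one_mem
  · exact T.zero_mem

lemma PR_comp {P Q : R[X]} (hP : P ∈ PR T) (hQ : Q ∈ PR T) : P.comp Q ∈ PR T := by
  rw [comp_eq_sum_left, Polynomial.sum_def]
  exact (PR T).sum_mem fun i _ => (PR T).mul_mem (PR_C (hP i)) ((PR T).pow_mem hQ i)

lemma PR_map {S : Type*} [CommRing S] {T' : Subring S} (f : S →+* R) (hf : ∀ a ∈ T', f a ∈ T)
    {P : S[X]} (hP : P ∈ PR T') : P.map f ∈ PR T := fun n => by
  rw [coeff_map]; exact hf _ (hP n)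

end PR

/-- integral polynomials in two variables -/
noncomputable abbrev P2 : Subring ℚ[X][X] := PR (PP 2)

lemma two_mem_PR {R : Type*} [CommRing R] (T : Subring R) : (2 : R[X]) ∈ PR T := by
  have : (2 : R[X]) = 1 + 1 := by norm_num
  rw [this]; exact (PR T).add_mem (PR T).one_mem (PR T).one_mem

lemma PR_map_C {P : ℚ[X]} (hP : P ∈ PP 2) : P.map (C : ℚ →+* ℚ[X]) ∈ P2 := fun n => by
  rw [coeff_map]; exact PP_C (hP n)

lemma PB_zero_iff {P : ℚ[X]} : PB 2 0 P ↔ P ∈ PP 2 := by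
  unfold PB
  rw [mem_PP]
  constructor
  · intro h k
    have := h k
    rw [mem_Zp]; simpa using this
  · intro h k
    have := h k
    rw [mem_Zp] at this; simpa using this

/-! ### the functional -/

/-- `L_z` with coefficients in `ℚ[s]` -/
noncomputable def LQ : ℚ[X][X] →ₗ[ℚ[X]] ℚ[X] :=
  Polynomial.lsum (fun k => LinearMap.mulRight ℚ[X] (C (mu k)))

lemma LQ_monomial (k : ℕ) (a : ℚ[X]) : LQ (monomial k a) = a * C (mu k) := by
  rw [LQ, Polynomial.lsum_apply, Polynomial.sum_monomial_index]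
  · simp
  · simp

lemma LQ_C_mul (a : ℚ[X]) (F : ℚ[X][X]) : LQ (C a * F) = a * LQ F := by
  rw [← smul_eq_C_mul, map_smul, smul_eq_mul]

lemma LQ_X_pow (k : ℕ) : LQ (X ^ k) = C (mu k) := by
  rw [Polynomial.X_pow_eq_monomial, LQ_monomial, one_mul]

lemma LQ_map_C (F : ℚ[X]) : LQ (F.map C) = C (lin mu F) := by
  induction F using Polynomial.induction_on' with
  | add P Q hP hQ => rw [Polynomial.map_add, map_add, hP, hQ, map_add, C_add]
  | monomial k c =>
    rw [Polynomial.map_monomial, LQ_monomial, lin_monomial, C_mul]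

lemma LQ_key (F : ℚ[X][X]) : LQ (X ^ 3 * F + (2 * X + 1) ^ 3 * F.comp (X + 1)) = 0 := by
  induction F using Polynomial.induction_on' with
  | add P Q hP hQ =>
    have e : X ^ 3 * (P + Q) + (2 * X + 1) ^ 3 * (P + Q).comp (X + 1)
        = (X ^ 3 * P + (2 * X + 1) ^ 3 * P.comp (X + 1))
          + (X ^ 3 * Q + (2 * X + 1) ^ 3 * Q.comp (X + 1)) := by
      rw [add_comp]; ring
    rw [e, map_add, hP, hQ, add_zero]
  | monomial k c =>
    have e : X ^ 3 * (monomial k c : ℚ[X][X]) + (2 * X + 1) ^ 3 *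
        (monomial k c : ℚ[X][X]).comp (X + 1)
        = C c * ((X ^ 3 * X ^ k + (2 * X + 1) ^ 3 * (X ^ k).comp (X + 1) : ℚ[X]).map C) := by
      rw [← C_mul_X_pow_eq_monomial, mul_comp, C_comp, pow_comp, X_comp]
      simp only [Polynomial.map_add, Polynomial.map_mul, Polynomial.map_pow, Polynomial.map_X,
        Polynomial.map_one, pow_comp, X_comp, Polynomial.map_ofNat]
      ring
    rw [e, LQ_C_mul, LQ_map_C, key_mu, C_0, mul_zero]

/-- `P` kills integral polynomials up to `2^v` -/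
def Kills (v : ℤ) (P : ℚ[X]) : Prop := ∀ F : ℚ[X], F ∈ PP 2 → I2 v (lin mu (P * F))

lemma LQ_small {v : ℤ} {P : ℚ[X]} (hP : Kills v P) {G : ℚ[X][X]} (hG : G ∈ P2) :
    PB 2 v (LQ (P.map C * G)) := by
  have h : LQ (P.map C * G) = ∑ k ∈ range (G.natDegree + 1),
      G.coeff k * C (lin mu (P * X ^ k)) := by
    conv_lhs => rw [G.as_sum_range_C_mul_X_pow, mul_sum, map_sum]
    refine sum_congr rfl fun k _ => ?_
    have e : P.map C * (C (G.coeff k) * X ^ k) = C (G.coeff k) * ((P * X ^ k).map C) := by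
      rw [Polynomial.map_mul, Polynomial.map_pow, Polynomial.map_X]; ring
    rw [e, LQ_C_mul, LQ_map_C]
  rw [h]
  refine PB.sum _ _ fun k _ => ?_
  have h1 : PB 2 0 (G.coeff k) := PB_zero_iff.mpr (hG k)
  have h2 : PB 2 v (C (lin mu (P * X ^ k)) : ℚ[X]) := PB.C (hP _ ((PP 2).pow_mem PP_X k))
  have := h1.mul h2
  rwa [zero_add] at this

/-! ### the divided difference -/

/-- `(R(z) - R(s))/(z - s)` -/
noncomputable def DQ (R : ℚ[X]) : ℚ[X][X] :=
  R.sum fun k a => C (C a) * ∑ i ∈ range k, C (X ^ (k - 1 - i)) * X ^ i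

lemma DQ_eq (R : ℚ[X]) {n : ℕ} (hn : R.natDegree < n) :
    DQ R = ∑ k ∈ range n, C (C (R.coeff k)) * ∑ i ∈ range k, C (X ^ (k - 1 - i)) * X ^ i := by
  rw [DQ, Polynomial.sum_over_range' R (by simp) n hn]

lemma mul_DQ (R : ℚ[X]) : (X - C X) * DQ R = R.map C - C R := by
  rw [DQ_eq R (Nat.lt_succ_self _), mul_sum]
  have h1 : R.map C = ∑ k ∈ range (R.natDegree + 1), C (C (R.coeff k)) * X ^ k := by
    conv_lhs => rw [R.as_sum_range_C_mul_X_pow, Polynomial.map_sum]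
    exact sum_congr rfl fun k _ => by simp
  have h2 : C R = ∑ k ∈ range (R.natDegree + 1), C (C (R.coeff k)) * (C X : ℚ[X][X]) ^ k := by
    conv_lhs => rw [R.as_sum_range_C_mul_X_pow, map_sum]
    exact sum_congr rfl fun k _ => by simp
  rw [h1, h2, ← sum_sub_distrib]
  refine sum_congr rfl fun k _ => ?_
  have h3 := (Commute.all (X : ℚ[X][X]) (C X)).mul_geom_sum₂ k
  have h4 : ∑ i ∈ range k, C (X ^ (k - 1 - i)) * (X : ℚ[X][X]) ^ i =
      ∑ i ∈ range k, X ^ i * (C X : ℚ[X][X]) ^ (k - 1 - i) :=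
    sum_congr rfl fun i _ => by rw [C_pow]; ring
  rw [h4, ← mul_sub, ← h3]; ring

lemma DQ_mem {R : ℚ[X]} (hR : R ∈ PP 2) : DQ R ∈ P2 := by
  rw [DQ_eq R (Nat.lt_succ_self _)]
  exact (P2).sum_mem fun k _ => (P2).mul_mem (PR_C (PP_C (hR k)))
    ((P2).sum_mem fun i _ => (P2).mul_mem (PR_C ((PP 2).pow_mem PP_X _)) ((P2).pow_mem PR_X _))

lemma LQ_DQ (R : ℚ[X]) : LQ (DQ R) = TR mu R := by
  rw [DQ_eq R (Nat.lt_succ_self _), map_sum, TR_apply,
    Polynomial.sum_over_range' R (by simp) _ (Nat.lt_succ_self _)]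
  refine sum_congr rfl fun k _ => ?_
  rw [LQ_C_mul, map_sum]
  congr 1
  refine sum_congr rfl fun i _ => ?_
  rw [LQ_C_mul, LQ_X_pow]; ring

lemma X_sub_ne_zero : (X - C X : ℚ[X][X]) ≠ 0 := (monic_X_sub_C _).ne_zero

/-- `R T_P - P T_R` -/
theorem cross_eq (P R : ℚ[X]) :
    R * TR mu P - P * TR mu R = LQ (R.map C * DQ P) - LQ (P.map C * DQ R) := by
  have h : C R * DQ P - C P * DQ R = R.map C * DQ P - P.map C * DQ R := by
    apply mul_left_cancel₀ X_sub_ne_zero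
    have h1 := mul_DQ P
    have h2 := mul_DQ R
    linear_combination (C R - R.map C) * h1 - (C P - P.map C) * h2
  have h3 := congrArg LQ h
  rw [map_sub, map_sub, LQ_C_mul, LQ_C_mul, LQ_DQ, LQ_DQ] at h3
  exact h3

/-- `R T_P - P T_R`, size -/
theorem cross_small {P : ℚ[X]} {v : ℤ} (hP : P ∈ PP 2) (hK : Kills v P) {R : ℚ[X]}
    (hR : R ∈ PP 2) {w : ℤ} (hKR : Kills w R) :
    ∃ A B : ℚ[X], R * TR mu P - P * TR mu R = A + B ∧ PB 2 w A ∧ PB 2 v B := by
  refine ⟨LQ (R.map C * DQ P), -LQ (P.map C * DQ R), ?_, LQ_small hKR (DQ_mem hP),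
    (LQ_small hK (DQ_mem hR)).neg⟩
  rw [cross_eq]; ring

/-! ### the approximate recurrence -/

/-- `s ↦ s - 1` -/
noncomputable def sg : ℚ[X] →+* ℚ[X] := compRingHom (X - 1)

lemma sg_apply (P : ℚ[X]) : sg P = P.comp (X - 1) := rfl

lemma LQ_map_sg (G : ℚ[X][X]) : LQ (G.map sg) = (LQ G).comp (X - 1) := by
  induction G using Polynomial.induction_on' with
  | add P Q hP hQ => rw [Polynomial.map_add, map_add, hP, hQ, map_add, add_comp]
  | monomial k c =>
    rw [Polynomial.map_monomial, LQ_monomial, LQ_monomial, mul_comp, C_comp, sg_apply]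

lemma map_C_map_sg (P : ℚ[X]) : (P.map (C : ℚ →+* ℚ[X])).map sg = P.map C := by
  rw [Polynomial.map_map]
  congr 1
  ext a : 1
  simp [sg]

lemma mul_D1 (P : ℚ[X]) : (X + 1 - C X : ℚ[X][X]) * (DQ P).map sg =
    P.map C - C (P.comp (X - 1)) := by
  have h := congrArg (Polynomial.map sg) (mul_DQ P)
  rw [Polynomial.map_mul, Polynomial.map_sub, Polynomial.map_X, Polynomial.map_C,
    Polynomial.map_sub, map_C_map_sg, Polynomial.map_C, sg_apply, sg_apply, X_comp, C_sub,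
    C_1] at h
  rw [← h]; ring

lemma mul_D2 (P : ℚ[X]) : (X + 1 - C X : ℚ[X][X]) * (DQ P).comp (X + 1) =
    (P.comp (X + 1)).map C - C P := by
  have h := congrArg (fun F : ℚ[X][X] => F.comp (X + 1)) (mul_DQ P)
  simp only [mul_comp, sub_comp, X_comp, C_comp] at h
  rw [h, Polynomial.map_comp]
  simp

lemma X_add_one_sub_ne_zero : (X + 1 - C X : ℚ[X][X]) ≠ 0 := by
  have : (X + 1 - C X : ℚ[X][X]) = X - C (X - 1) := by rw [C_sub, C_1]; ring
  rw [this]; exact (monic_X_sub_C _).ne_zero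

lemma comp_sub_one_comp (P : ℚ[X]) : (P.comp (X - 1)).comp (X + 1) = P := by
  rw [comp_assoc]; simp

/-- the error of the recurrence for `τ(P)/P` -/
noncomputable def Err (P : ℚ[X]) : ℚ[X] :=
  X ^ 3 * P.comp (X - 1) * TR mu P + (2 * X - 1) ^ 3 * P * (TR mu P).comp (X - 1) +
    P * P.comp (X - 1) * (C (1 / 2) * (3 * X - 1))

theorem rec_small {P : ℚ[X]} {v : ℤ} (hP : P ∈ PP 2) (hK : Kills v P) : PB 2 v (Err P) := by
  set P1 := P.comp (X - 1) with hP1
  set P2' := P.comp (X + 1) with hP2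
  set F : ℚ[X][X] := P.map C * DQ P1 + C P1 * DQ P with hF
  set D1 := (DQ P).map sg with hD1
  set D2 := (DQ P).comp (X + 1) with hD2
  have m1 := mul_DQ P
  have m2 := mul_DQ P1
  have m3 := mul_D1 P
  have m4 := mul_D2 P
  have m5 := mul_D2 P1
  rw [← hD1, ← hP1] at m3
  rw [← hD2, ← hP2] at m4
  rw [hP1, comp_sub_one_comp, ← hP1] at m5
  have hPc : (P.map (C : ℚ →+* ℚ[X])).comp (X + 1) = P2'.map C := by
    rw [hP2, Polynomial.map_comp]; simp
  have hFz : (X - C X) * F = P.map C * P1.map C - C P * C P1 := by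
    rw [hF]; linear_combination (P.map C) * m2 + C P1 * m1
  have hFc : F.comp (X + 1) = P.map C * D2 + C P * D1 := by
    apply mul_left_cancel₀ X_add_one_sub_ne_zero
    rw [hF, add_comp, mul_comp, mul_comp, C_comp, hPc, ← hD2]
    linear_combination (P2'.map C) * m5 + (C P1 - P.map C) * m4 - C P * m3
  have hFz1 : (X + 1 - C X) * F.comp (X + 1) = P.map C * P2'.map C - C P * C P1 := by
    rw [hFc]; linear_combination (P.map C) * m4 + C P * m3
  set q1 : ℚ[X][X] := X ^ 2 + X * C X + C X ^ 2 with hq1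
  set q2 : ℚ[X][X] := 2 * ((2 * X + 1) ^ 2 + (2 * X + 1) * (2 * C X - 1) + (2 * C X - 1) ^ 2)
    with hq2
  set G : ℚ[X][X] := C X ^ 3 * DQ P1 + q1 * P1.map C + (2 * C X - 1) ^ 3 * D2 + q2 * P2'.map C
    with hG
  have hid : X ^ 3 * F + (2 * X + 1) ^ 3 * F.comp (X + 1) =
      C (X ^ 3 * P1) * DQ P + C ((2 * X - 1) ^ 3 * P) * D1 - C (P * P1) * (q1 + q2)
        + P.map C * G := by
    have e1 : X ^ 3 * F = C X ^ 3 * F + q1 * (P.map C * P1.map C - C P * C P1) := by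
      rw [← hFz, hq1]; ring
    have e2 : (2 * X + 1) ^ 3 * F.comp (X + 1) = (2 * C X - 1) ^ 3 * F.comp (X + 1) +
        q2 * (P.map C * P2'.map C - C P * C P1) := by
      rw [← hFz1, hq2]; ring
    rw [e1, e2, hFc, hF, hG]
    simp only [C_mul, C_pow, C_sub, C_1, map_ofNat]
    ring
  have hL := congrArg LQ hid
  rw [LQ_key, map_add, map_sub, map_add, LQ_C_mul, LQ_C_mul, LQ_C_mul, LQ_DQ, hD1, LQ_map_sg,
    LQ_DQ] at hL
  have hq : LQ (q1 + q2) = C (1 / 2) * (1 - 3 * X) := by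
    have e : q1 + q2 = C (9 : ℚ[X]) * X ^ 2 + C (9 * X + 4 : ℚ[X]) * X ^ 1 +
        C (9 * X ^ 2 - 4 * X + 2 : ℚ[X]) * X ^ 0 := by
      rw [hq1, hq2]
      simp only [C_mul, C_pow, C_sub, C_add, map_ofNat]
      ring
    rw [e, map_add, map_add, LQ_C_mul, LQ_C_mul, LQ_C_mul, LQ_X_pow, LQ_X_pow, LQ_X_pow, mu_zero,
      mu_one, mu_two]
    apply Polynomial.funext
    intro x
    simp only [eval_add, eval_mul, eval_sub, eval_C, eval_X, eval_ofNat, eval_pow, eval_one]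
    ring
  rw [hq] at hL
  have hE : Err P = -LQ (P.map C * G) := by
    unfold Err
    linear_combination (-1 : ℚ[X]) * hL
  rw [hE]
  refine (LQ_small hK ?_).neg
  have hXm : (X - 1 : ℚ[X]) ∈ PP 2 := (PP 2).sub_mem PP_X (PP 2).one_mem
  have hXp : (X + 1 : ℚ[X]) ∈ PP 2 := (PP 2).add_mem PP_X (PP 2).one_mem
  have hXp2 : (X + 1 : ℚ[X][X]) ∈ P2 := (P2).add_mem PR_X (P2).one_mem
  have hP1m : P1 ∈ PP 2 := PP_comp hP hXm
  have hP2m : P2' ∈ PP 2 := PP_comp hP hXp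
  have hCX : (C X : ℚ[X][X]) ∈ P2 := PR_C PP_X
  have h2 : (2 : ℚ[X][X]) ∈ P2 := two_mem_PR _
  have ha : (2 * X + 1 : ℚ[X][X]) ∈ P2 := (P2).add_mem ((P2).mul_mem h2 PR_X) (P2).one_mem
  have hb : (2 * C X - 1 : ℚ[X][X]) ∈ P2 := (P2).sub_mem ((P2).mul_mem h2 hCX) (P2).one_mem
  have hq1m : q1 ∈ P2 := (P2).add_mem ((P2).add_mem ((P2).pow_mem PR_X 2)
    ((P2).mul_mem PR_X hCX)) ((P2).pow_mem hCX 2)
  have hq2m : q2 ∈ P2 := (P2).mul_mem h2 ((P2).add_mem ((P2).add_mem ((P2).pow_mem ha 2)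
    ((P2).mul_mem ha hb)) ((P2).pow_mem hb 2))
  exact (P2).add_mem ((P2).add_mem ((P2).add_mem ((P2).mul_mem ((P2).pow_mem hCX 3)
    (DQ_mem hP1m)) ((P2).mul_mem hq1m (PR_map_C hP1m))) ((P2).mul_mem ((P2).pow_mem hb 3)
    (PR_comp (DQ_mem hP) hXp2))) ((P2).mul_mem hq2m (PR_map_C hP2m))

end Crest.Agent.R006.P6A1
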