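import Mathlib

/-!
# Row 6, block P6 (prime 2): the polynomial identities (helper121)

Everything lives in `ℤ[X]` (`X = s`).  With `t_k = (s+1)_{2k} / ∏_{i≤k} (2s+2i+1)²` (`k ∈ ℤ`):
* `φ_K = -∑_{k<K} t_k = -A K / H K`, `Φ_K = ∑_{1≤k≤K} t_{-k} = B K / D K`;
* `rec_pos`, `rec_neg`: both solve `s³ φ(s) + (2s-1)³ φ(s-1) = 1 - 3s` up to an explicit error;
* `g m`: degree `2m`, leading coefficient `3^m`; `g m * φ` is a polynomial plus a sum divisible by
  `2^m m!` (`A1`, `A2`), because `f m (2k) = 2^m m! C(k,m)`.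
-/

set_option autoImplicit false

namespace Crest.Agent.R006.P6x121

open Polynomial Finset

/-- `∏_{i<K} (2s+2i+1)²` -/
noncomputable def H (K : ℕ) : ℤ[X] := ∏ i ∈ range K, (2 * X + 2 * (i : ℤ[X]) + 1) ^ 2

/-- `(s+1)_{2K}` -/
noncomputable def N1 (K : ℕ) : ℤ[X] := ∏ i ∈ range (2 * K), (X + (i : ℤ[X]) + 1)

/-- `(s)_{2K}` -/
noncomputable def Q (K : ℕ) : ℤ[X] := ∏ i ∈ range (2 * K), (X + (i : ℤ[X]))

/-- `∏_{i<2K} (s-i)` -/
noncomputable def D (K : ℕ) : ℤ[X] := ∏ i ∈ range (2 * K), (X - (i : ℤ[X]))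

/-- `∏_{i<2K} (s-i-1)` -/
noncomputable def D' (K : ℕ) : ℤ[X] := ∏ i ∈ range (2 * K), (X - (i : ℤ[X]) - 1)

/-- `∏_{i<K} (2s-2i-1)²` -/
noncomputable def U (K : ℕ) : ℤ[X] := ∏ i ∈ range K, (2 * X - 2 * (i : ℤ[X]) - 1) ^ 2

/-- `∏_{i<m} (k-2i)` -/
def f (m : ℕ) (k : ℤ) : ℤ := ∏ i ∈ range m, (k - 2 * i)

/-- `A K / H K = ∑_{k<K} t_k`, weighted by `f m (2k)` -/
noncomputable def Am (m : ℕ) : ℕ → ℤ[X]
  | 0 => 0
  | K + 1 => Am m K * (2 * X + 2 * (K : ℤ[X]) + 1) ^ 2 + C (f m (2 * K)) * N1 K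

/-- `B K / D K = ∑_{1≤k≤K} t_{-k}`, weighted by `f m (-2k)` -/
noncomputable def Bm (m : ℕ) : ℕ → ℤ[X]
  | 0 => 0
  | K + 1 => Bm m K * ((X - 2 * (K : ℤ[X])) * (X - 2 * (K : ℤ[X]) - 1)) +
      C (f m (-2 * K - 2)) * U K

/-- `∏_{i<m} (2i+1-2s)` -/
noncomputable def W (m : ℕ) : ℤ[X] := ∏ i ∈ range m, (2 * (i : ℤ[X]) + 1 - 2 * X)

noncomputable def be (m : ℕ) : ℤ[X] :=
  (2 * (m : ℤ[X]) + 1 - 2 * X) * (4 * (m : ℤ[X]) - 2) - 3 * X ^ 2 + 3 * X + 7
    + 4 * ((m : ℤ[X]) - 1) * (2 * X + 1)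

noncomputable def ga (m : ℕ) : ℤ[X] :=
  (2 * (m : ℤ[X]) + 1 - 2 * X) * (2 * (m : ℤ[X]) - 2) ^ 2
    + (2 * (m : ℤ[X]) - 2) * (-3 * X ^ 2 + 3 * X + 7 + 4 * ((m : ℤ[X]) - 1) * (2 * X + 1))
    + 2 * (X + 1) * (X + 2) + (2 * (m : ℤ[X]) - 2) * (2 * X + 1) ^ 2

noncomputable def g : ℕ → ℤ[X]
  | 0 => 1
  | 1 => -be 0
  | m + 2 => -be (m + 1) * g (m + 1) - ga (m + 1) * (2 * (m : ℤ[X]) + 1 - 2 * X) * g m

noncomputable def Y : ℕ → ℤ → ℤ[X]
  | 0, _ => 0
  | 1, _ => 1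
  | m + 2, k => -be (m + 1) * Y (m + 1) k - ga (m + 1) * (2 * (m : ℤ[X]) + 1 - 2 * X) * Y m k
      + W (m + 1) * C (f (m + 1) (2 * k))

@[simp] lemma f_zero (k : ℤ) : f 0 k = 1 := by simp [f]

lemma f_succ (m : ℕ) (k : ℤ) : f (m + 1) k = f m k * (k - 2 * m) := by
  rw [f, prod_range_succ, ← f]

lemma f_shift (m : ℕ) (k : ℤ) : f (m + 1) (k + 2) = (k + 2) * f m k := by
  rw [f, prod_range_succ', f, mul_comm]
  congr 1
  · push_cast; ring
  · exact prod_congr rfl fun i _ => by push_cast; ring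

/-- the three-term identity of the weights -/
lemma f_three (m : ℕ) (k : ℤ) :
    C (f (m + 1) (k + 2)) * ((X + (k : ℤ[X]) + 1) * (X + (k : ℤ[X]) + 2))
      - C (f (m + 1) k) * (2 * X + (k : ℤ[X]) + 1) ^ 2
    = (2 * (m : ℤ[X]) + 3 - 2 * X) * C (f (m + 2) k) + be (m + 1) * C (f (m + 1) k)
      + ga (m + 1) * C (f m k) := by
  have hk : (C k : ℤ[X]) = (k : ℤ[X]) := Polynomial.C_eq_intCast k
  rw [f_shift, f_succ (m + 1), f_succ m, be, ga]
  simp only [map_mul, map_add, map_sub, map_natCast, map_ofNat, hk]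
  push_cast
  ring

lemma W_succ (m : ℕ) : W (m + 1) = W m * (2 * (m : ℤ[X]) + 1 - 2 * X) := by
  rw [W, prod_range_succ, ← W]

/-- the telescoping certificate -/
theorem cert (m : ℕ) (k : ℤ) :
    Y m (k + 1) * ((X + 2 * (k : ℤ[X]) + 1) * (X + 2 * (k : ℤ[X]) + 2))
      - Y m k * (2 * X + 2 * (k : ℤ[X]) + 1) ^ 2 = W m * C (f m (2 * k)) - g m := by
  induction m using Nat.strong_induction_on with
  | _ m ih =>
    match m, ih with
    | 0, _ => simp [Y, W, g]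
    | 1, _ =>
      simp only [Y, W, g, be, f]
      simp
      ring
    | m + 2, ih =>
      have h1 := ih (m + 1) (by omega)
      have h0 := ih m (by omega)
      have h3 := f_three m (2 * k)
      have e : 2 * (k + 1) = 2 * k + 2 := by ring
      rw [Y, Y, g, e]
      have hW : W (m + 2) = W (m + 1) * (2 * (m : ℤ[X]) + 3 - 2 * X) := by
        rw [W_succ (m + 1)]; push_cast; ring
      have hW1 := W_succ m
      push_cast at h3
      rw [hW]
      linear_combination (-be (m + 1)) * h1 + (-(ga (m + 1) * (2 * (m : ℤ[X]) + 1 - 2 * X))) * h0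
        + W (m + 1) * h3 + (ga (m + 1) * C (f m (2 * k))) * hW1

lemma H_succ (K : ℕ) : H (K + 1) = H K * (2 * X + 2 * (K : ℤ[X]) + 1) ^ 2 := by
  rw [H, prod_range_succ, ← H]

lemma U_succ (K : ℕ) : U (K + 1) = U K * (2 * X - 2 * (K : ℤ[X]) - 1) ^ 2 := by
  rw [U, prod_range_succ, ← U]

lemma N1_succ (K : ℕ) :
    N1 (K + 1) = N1 K * ((X + 2 * (K : ℤ[X]) + 1) * (X + 2 * (K : ℤ[X]) + 2)) := by
  rw [N1, show 2 * (K + 1) = 2 * K + 1 + 1 by ring, prod_range_succ, prod_range_succ, ← N1]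
  push_cast; ring

lemma Q_succ (K : ℕ) :
    Q (K + 1) = Q K * ((X + 2 * (K : ℤ[X])) * (X + 2 * (K : ℤ[X]) + 1)) := by
  rw [Q, show 2 * (K + 1) = 2 * K + 1 + 1 by ring, prod_range_succ, prod_range_succ, ← Q]
  push_cast; ring

lemma D_succ (K : ℕ) :
    D (K + 1) = D K * ((X - 2 * (K : ℤ[X])) * (X - 2 * (K : ℤ[X]) - 1)) := by
  rw [D, show 2 * (K + 1) = 2 * K + 1 + 1 by ring, prod_range_succ, prod_range_succ, ← D]
  push_cast; ring

lemma D'_succ (K : ℕ) :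
    D' (K + 1) = D' K * ((X - 2 * (K : ℤ[X]) - 1) * (X - 2 * (K : ℤ[X]) - 2)) := by
  rw [D', show 2 * (K + 1) = 2 * K + 1 + 1 by ring, prod_range_succ, prod_range_succ, ← D']
  push_cast; ring

lemma X_mul_N1 (K : ℕ) : X * N1 K = Q K * (X + 2 * (K : ℤ[X])) := by
  induction K with
  | zero => simp [N1, Q]
  | succ K ih =>
    rw [N1_succ, Q_succ]
    push_cast
    linear_combination ((X + 2 * (K : ℤ[X]) + 1) * (X + 2 * (K : ℤ[X]) + 2)) * ih

lemma D_mul (K : ℕ) : D K * (X - 2 * (K : ℤ[X])) = X * D' K := by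
  induction K with
  | zero => simp [D, D']
  | succ K ih =>
    rw [D_succ, D'_succ]
    push_cast
    linear_combination ((X - 2 * (K : ℤ[X]) - 1) * (X - 2 * (K : ℤ[X]) - 2)) * ih

lemma H_comp (K : ℕ) :
    H K * (2 * X - 1) ^ 2 = (H K).comp (X - 1) * (2 * X + 2 * (K : ℤ[X]) - 1) ^ 2 := by
  induction K with
  | zero => simp [H]
  | succ K ih =>
    rw [H_succ]
    simp only [mul_comp, pow_comp, add_comp, X_comp, ofNat_comp, natCast_comp, one_comp]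
    push_cast
    linear_combination ((2 * X + 2 * (K : ℤ[X]) + 1) ^ 2) * ih

lemma N1_comp (K : ℕ) : (N1 K).comp (X - 1) = Q K := by
  rw [N1, Q, Polynomial.prod_comp]
  refine prod_congr rfl fun i _ => ?_
  simp only [add_comp, X_comp, natCast_comp, one_comp]
  ring

lemma D_comp (K : ℕ) : (D K).comp (X - 1) = D' K := by
  rw [D, D', Polynomial.prod_comp]
  refine prod_congr rfl fun i _ => ?_
  simp only [sub_comp, X_comp, natCast_comp]
  ring

lemma U_comp (K : ℕ) :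
    (2 * X - 1) ^ 2 * (U K).comp (X - 1) = U K * (2 * X - 2 * (K : ℤ[X]) - 1) ^ 2 := by
  induction K with
  | zero => simp [U]
  | succ K ih =>
    rw [U_succ]
    simp only [mul_comp, pow_comp, sub_comp, X_comp, ofNat_comp, natCast_comp, one_comp]
    push_cast
    linear_combination ((2 * X - 2 * (K : ℤ[X]) - 3) ^ 2) * ih

/-- first recursion -/
theorem rec_pos (K : ℕ) :
    X ^ 3 * Am 0 K + (2 * X - 1) * (2 * X + 2 * (K : ℤ[X]) - 1) ^ 2 * (Am 0 K).comp (X - 1)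
      = (1 - 3 * X - 2 * (K : ℤ[X])) * Q K - (1 - 3 * X) * H K := by
  induction K with
  | zero => simp [Am, Q, H]
  | succ K ih =>
    rw [Am, Q_succ, H_succ, f_zero]
    simp only [mul_comp, pow_comp, add_comp, X_comp, ofNat_comp, natCast_comp, one_comp, C_comp,
      N1_comp, map_one]
    push_cast
    have h := X_mul_N1 K
    linear_combination ((2 * X + 2 * (K : ℤ[X]) + 1) ^ 2) * ih + X ^ 2 * h

/-- second recursion -/
theorem rec_neg (K : ℕ) :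
    X ^ 2 * (X - 2 * (K : ℤ[X])) * Bm 0 K + (2 * X - 1) ^ 3 * (Bm 0 K).comp (X - 1)
      = (1 - 3 * X) * D' K - (1 - 3 * X + 2 * (K : ℤ[X])) * U K := by
  induction K with
  | zero => simp [Bm, D', U]
  | succ K ih =>
    rw [Bm, D'_succ, U_succ, f_zero]
    simp only [mul_comp, sub_comp, add_comp, X_comp, ofNat_comp, natCast_comp, one_comp, C_comp,
      map_one]
    push_cast
    have h := U_comp K
    linear_combination ((X - 2 * (K : ℤ[X]) - 1) * (X - 2 * (K : ℤ[X]) - 2)) * ih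
      + (2 * X - 1) * h

theorem A1 (m K : ℕ) :
    Y m 0 * H K + W m * Am m K = g m * Am 0 K + Y m K * N1 K := by
  induction K with
  | zero => simp [H, N1, Am]
  | succ K ih =>
    have hc := cert m K
    rw [H_succ, Am, Am, N1_succ, f_zero]
    push_cast at hc ⊢
    rw [map_one]
    linear_combination ((2 * X + 2 * (K : ℤ[X]) + 1) ^ 2) * ih - N1 K * hc

theorem A2 (m K : ℕ) :
    g m * Bm 0 K + Y m 0 * D K = W m * Bm m K + Y m (-K) * U K := by
  induction K with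
  | zero => simp [D, U, Bm]
  | succ K ih =>
    have hc := cert m (-(K : ℤ) - 1)
    rw [D_succ, Bm, Bm, U_succ, f_zero]
    have e1 : -(K : ℤ) - 1 + 1 = -(K : ℤ) := by ring
    have e2 : 2 * (-(K : ℤ) - 1) = -2 * (K : ℤ) - 2 := by ring
    have e3 : (-((K + 1 : ℕ) : ℤ)) = -(K : ℤ) - 1 := by push_cast; ring
    rw [e1, e2] at hc
    rw [e3]
    push_cast at hc ⊢
    rw [map_one]
    linear_combination ((X - 2 * (K : ℤ[X])) * (X - 2 * (K : ℤ[X]) - 1)) * ih + U K * hc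

end Crest.Agent.R006.P6x121
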