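import Crest.Agent.R006.P6DetA_784

/-!
# Row 6, block P6 (p = 2), leaf L1: the sum of the row potentials (helper153)

`Idx S u c` enumerates the rows of the design, `row` is the enumeration; `exists_idx` says that
every row is hit; `sum_row` evaluates the sum of `rowPot` over all rows;
`sum_rowPot` : the sum over an admissible choice of the rows loses at most `c` maxima.
-/

set_option autoImplicit false

namespace Crest.Agent.R006.P6

open Crest.Agent.R006.D

namespace Rows153

/-- enumeration of the rows -/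
abbrev Idx (S : Shape) (u c : ℕ) :=
  Fin (S.B * u + c) ⊕ (Fin (S.e1 * u) ⊕ Fin (S.e2 * u) ⊕ Fin (S.e3 * u)) ⊕
    (Fin (S.h1 * u) ⊕ Fin (S.h2 * u) ⊕ Fin (S.h3 * u)) ⊕ Fin (S.w * u)

/-- the row with a given index -/
def row (S : Shape) (u c : ℕ) : Idx S u c → Row
  | .inl n => (.Z ((n : ℕ) : ℤ), 0)
  | .inr (.inl (.inl m)) => (.Z (-(((m : ℕ) : ℤ) + 1)), 0)
  | .inr (.inl (.inr (.inl m))) => (.Z (-(((m : ℕ) : ℤ) + 1)), 1)
  | .inr (.inl (.inr (.inr m))) => (.Z (-(((m : ℕ) : ℤ) + 1)), 2)
  | .inr (.inr (.inl (.inl m))) => (.H ((m : ℕ) : ℤ), 0)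
  | .inr (.inr (.inl (.inr (.inl m)))) => (.H ((m : ℕ) : ℤ), 1)
  | .inr (.inr (.inl (.inr (.inr m)))) => (.H ((m : ℕ) : ℤ), 2)
  | .inr (.inr (.inr m)) => (.H (-1 - ((m : ℕ) : ℤ)), 0)

theorem exists_idx {S : Shape} (hS : S.Good) {u c : ℕ} {ρ : Row} (h : IsRow S u c ρ) :
    ∃ x : Idx S u c, row S u c x = ρ := by
  obtain ⟨z, j⟩ := ρ
  have e21 : S.e2 * u ≤ S.e1 * u := Nat.mul_le_mul_right _ hS.e21
  have e32 : S.e3 * u ≤ S.e2 * u := Nat.mul_le_mul_right _ hS.e32
  have h21 : S.h2 * u ≤ S.h1 * u := Nat.mul_le_mul_right _ hS.h21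
  have h32 : S.h3 * u ≤ S.h2 * u := Nat.mul_le_mul_right _ hS.h32
  unfold IsRow Shape.mult at h
  cases z with
  | Z i =>
    simp only at h
    by_cases hi : 0 ≤ i
    · rw [if_pos hi] at h
      split_ifs at h with h1
      · have hj : j = 0 := by omega
        subst hj
        obtain ⟨n, rfl⟩ := Int.eq_ofNat_of_zero_le hi
        refine ⟨.inl ⟨n, ?_⟩, rfl⟩
        have : (n : ℤ) < ((S.B * u + c : ℕ) : ℤ) := by push_cast; exact h1
        exact_mod_cast this
      · omega
    · rw [if_neg hi] at h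
      obtain ⟨m, rfl⟩ : ∃ m : ℕ, i = -((m : ℤ) + 1) := ⟨(-i - 1).toNat, by omega⟩
      have c1 : (-(-((m : ℤ) + 1)) ≤ (S.e1 : ℤ) * u) ↔ m < S.e1 * u := by
        constructor
        · intro hh
          have : ((m : ℤ) + 1) ≤ ((S.e1 * u : ℕ) : ℤ) := by push_cast; linarith
          omega
        · intro hh
          have : ((m : ℤ) + 1) ≤ ((S.e1 * u : ℕ) : ℤ) := by omega
          push_cast at this; linarith
      have c2 : (-(-((m : ℤ) + 1)) ≤ (S.e2 : ℤ) * u) ↔ m < S.e2 * u := by
        constructor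
        · intro hh
          have : ((m : ℤ) + 1) ≤ ((S.e2 * u : ℕ) : ℤ) := by push_cast; linarith
          omega
        · intro hh
          have : ((m : ℤ) + 1) ≤ ((S.e2 * u : ℕ) : ℤ) := by omega
          push_cast at this; linarith
      have c3 : (-(-((m : ℤ) + 1)) ≤ (S.e3 : ℤ) * u) ↔ m < S.e3 * u := by
        constructor
        · intro hh
          have : ((m : ℤ) + 1) ≤ ((S.e3 * u : ℕ) : ℤ) := by push_cast; linarith
          omega
        · intro hh
          have : ((m : ℤ) + 1) ≤ ((S.e3 * u : ℕ) : ℤ) := by omega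
          push_cast at this; linarith
      simp only [c1, c2, c3] at h
      obtain hj | hj | hj | hj : j = 0 ∨ j = 1 ∨ j = 2 ∨ 3 ≤ j := by omega
      · subst hj
        refine ⟨.inr (.inl (.inl ⟨m, ?_⟩)), rfl⟩
        split_ifs at h <;> omega
      · subst hj
        refine ⟨.inr (.inl (.inr (.inl ⟨m, ?_⟩))), rfl⟩
        split_ifs at h <;> omega
      · subst hj
        refine ⟨.inr (.inl (.inr (.inr ⟨m, ?_⟩))), rfl⟩
        split_ifs at h <;> omega
      · exfalso
        split_ifs at h <;> omega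
  | H i =>
    simp only at h
    by_cases hi : 0 ≤ i
    · rw [if_pos hi] at h
      obtain ⟨m, rfl⟩ := Int.eq_ofNat_of_zero_le hi
      have c1 : ((m : ℤ) < (S.h1 : ℤ) * u) ↔ m < S.h1 * u := by
        rw [← Nat.cast_mul]; exact Nat.cast_lt
      have c2 : ((m : ℤ) < (S.h2 : ℤ) * u) ↔ m < S.h2 * u := by
        rw [← Nat.cast_mul]; exact Nat.cast_lt
      have c3 : ((m : ℤ) < (S.h3 : ℤ) * u) ↔ m < S.h3 * u := by
        rw [← Nat.cast_mul]; exact Nat.cast_lt
      simp only [c1, c2, c3] at h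
      obtain hj | hj | hj | hj : j = 0 ∨ j = 1 ∨ j = 2 ∨ 3 ≤ j := by omega
      · subst hj
        refine ⟨.inr (.inr (.inl (.inl ⟨m, ?_⟩))), rfl⟩
        split_ifs at h <;> omega
      · subst hj
        refine ⟨.inr (.inr (.inl (.inr (.inl ⟨m, ?_⟩)))), rfl⟩
        split_ifs at h <;> omega
      · subst hj
        refine ⟨.inr (.inr (.inl (.inr (.inr ⟨m, ?_⟩)))), rfl⟩
        split_ifs at h <;> omega
      · exfalso
        split_ifs at h <;> omega
    · rw [if_neg hi] at h
      obtain ⟨m, rfl⟩ : ∃ m : ℕ, i = -1 - (m : ℤ) := ⟨(-1 - i).toNat, by omega⟩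
      split_ifs at h with h1
      · have hj : j = 0 := by omega
        subst hj
        refine ⟨.inr (.inr (.inr ⟨m, ?_⟩)), rfl⟩
        have : ((m : ℤ) + 1) ≤ ((S.w * u : ℕ) : ℤ) := by push_cast; linarith
        omega
      · omega

lemma card_idx {S : Shape} (hS : S.Good) (u c : ℕ) :
    Fintype.card (Idx S u c) = Fintype.card (Col S u) + c := by
  have hk : S.k + S.q + S.g = S.rows := by
    have := hS.kpos
    unfold Shape.k
    omega
  simp only [Fintype.card_sum, Fintype.card_fin]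
  have h1 : S.k * u + (S.q * u + S.g * u) = (S.k + S.q + S.g) * u := by ring
  rw [h1, hk]
  unfold Shape.rows
  ring

lemma rowPot_G (S : Shape) (u : ℕ) (P : Par ℤ) (n : ℕ) :
    rowPot S u P (.Z ((n : ℕ) : ℤ), 0) = piG S u P n := by
  simp only [rowPot]
  rw [if_pos (Int.natCast_nonneg n), Int.toNat_natCast]

lemma rowPot_E (S : Shape) (u : ℕ) (P : Par ℤ) (m j : ℕ) :
    rowPot S u P (.Z (-((m : ℤ) + 1)), j) = if j < 2 then P.xT else min P.xT P.xQ := by
  simp only [rowPot]
  rw [if_neg (by omega)]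

lemma rowPot_H (S : Shape) (u : ℕ) (P : Par ℤ) (m j : ℕ) :
    rowPot S u P (.H ((m : ℕ) : ℤ), j) = if j < 2 then P.xTH else min P.xTH P.xQH := by
  simp only [rowPot]
  rw [if_pos (Int.natCast_nonneg m)]

lemma rowPot_W (S : Shape) (u : ℕ) (P : Par ℤ) (m : ℕ) :
    rowPot S u P (.H (-1 - (m : ℤ)), 0) = piW P m := by
  simp only [rowPot]
  rw [if_neg (by omega)]
  congr 1
  omega

/-- sum of the potentials over all rows -/
theorem sum_row (S : Shape) (u c : ℕ) (P : Par ℤ) :
    ∑ x : Idx S u c, rowPot S u P (row S u c x) = sumRows S u c P := by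
  simp only [Fintype.sum_sum_type, row, rowPot_G, rowPot_E, rowPot_H, rowPot_W]
  rw [Fin.sum_univ_eq_sum_range (fun n => piG S u P n) (S.B * u + c),
    Fin.sum_univ_eq_sum_range (fun n => piW P n) (S.w * u)]
  simp only [Finset.sum_const, Finset.card_univ, Fintype.card_fin, nsmul_eq_mul]
  unfold sumRows
  norm_num
  ring

end Rows153

open Rows153 in
/-- **leaf L1**: the sum of the row potentials over an admissible choice of the rows -/
theorem sum_rowPot (S : Shape) (hS : S.Good) (u c : ℕ) (P : Par ℤ) (r : Col S u → Row)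
    (h : Adm S u c r) :
    sumRows S u c P - c * max P.xT P.xTH ≤ ∑ i, rowPot S u P (r i) := by
  classical
  choose r' hr' using fun i => exists_idx hS (h.2 i)
  have hinj : Function.Injective r' := by
    intro i j hij
    apply h.1
    rw [← hr' i, ← hr' j, hij]
  have e1 : ∑ i, rowPot S u P (r i) =
      ∑ x ∈ Finset.univ.image r', rowPot S u P (row S u c x) := by
    rw [Finset.sum_image (fun a _ b _ hab => hinj hab)]
    exact Finset.sum_congr rfl fun i _ => by rw [hr' i]
  have e2 := Finset.sum_add_sum_compl (Finset.univ.image r')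
    (fun x => rowPot S u P (row S u c x))
  rw [sum_row] at e2
  have e3 : (Finset.univ.image r')ᶜ.card = c := by
    rw [Finset.card_compl, Finset.card_image_of_injective _ hinj, Finset.card_univ, card_idx hS]
    omega
  have e4 : ∑ x ∈ (Finset.univ.image r')ᶜ, rowPot S u P (row S u c x) ≤
      c * max P.xT P.xTH := by
    have := Finset.sum_le_card_nsmul (Finset.univ.image r')ᶜ
      (fun x => rowPot S u P (row S u c x)) (max P.xT P.xTH)
      (fun x _ => rowPot_le S u P _)
    rw [e3, nsmul_eq_mul] at this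
    exact this
  rw [e1]
  linarith

end Crest.Agent.R006.P6
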