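import Crest.Agent.R006.P6RepB_784
import Crest.Agent.R006.P6Rows_153

/-!
# Row 6, block P6, line A: the determinant half (helper784)
-/

set_option autoImplicit false

namespace Crest.Agent.R006.P6

open Polynomial Crest.Agent.R006.NV Crest.Agent.R006.PsiInf Crest.Agent.R006.D
open Crest.Agent.R006.ProdBound481

/-- base change as a hypothesis -/
def BaseChange (g : ℕ → ℚ[X]) : Prop :=
  ∀ (S : Shape) (u : ℕ) (r : Col S u → Row) (V : ℤ),
    PB 2 V (MatN S u r (fun j => polN S u g j)).det →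
    PB 2 (V - ∑ j ∈ Finset.range (S.k * u), (lh (S.a1 * u + j) - lh (S.a1 * u))) (Minor S u r)

theorem det_bound {g : ℕ → ℚ[X]} (hg : HTwo g) (hA1 : IntSites g) (hA2 : HalfSites g)
    (hB : BaseChange g) (S : Shape) (hS : S.Good) (u c : ℕ) (r : Col S u → Row)
    (h : Adm S u c r) (P : Par ℤ) : ∃ L : ℕ, PB 2 (Vlow S u c P L) (Minor S u r) := by
  classical
  set Mb : ℕ := (∑ i : Col S u, (rowPot S u P (r i)).toNat)
    + ∑ j : Col S u, (colPot S u P j).toNat with hMb
  obtain ⟨γ, L, aR, dR, wR, bb, err, hrep, hγ, haR, haR0, hdR, hwR, hbb, herr⟩ :=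
    exists_rep hg hA1 hA2 S hS.wi u c r h.2 Mb
  refine ⟨L, ?_⟩
  have key := Rep.PB_det (P := P) weights hrep h.2 hγ (rho2_eval S u) haR haR0 hdR hwR hbb
    (fun i j => (herr i j).mono (by
      have h1 : (rowPot S u P (r i)).toNat ≤ ∑ i : Col S u, (rowPot S u P (r i)).toNat :=
        Finset.single_le_sum (f := fun i : Col S u => (rowPot S u P (r i)).toNat)
          (fun _ _ => Nat.zero_le _) (Finset.mem_univ i)
      have h2 : (colPot S u P j).toNat ≤ ∑ j : Col S u, (colPot S u P j).toNat :=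
        Finset.single_le_sum (f := fun j : Col S u => (colPot S u P j).toNat)
          (fun _ _ => Nat.zero_le _) (Finset.mem_univ j)
      omega))
  have key2 := hB S u r _ key
  refine key2.mono ?_
  have h3 := sum_rowPot S hS u c P r h
  have h4 : ∑ j : Fin (S.k * u) ⊕ Fin (S.q * u) ⊕ Fin (S.g * u), colPot S u P j =
      ∑ j ∈ Finset.range (S.k * u), eR S u P j
        + ∑ l ∈ Finset.range (S.q * u), eT P l + ∑ l ∈ Finset.range (S.g * u), eQ P l := by
    rw [Fintype.sum_sum_type, Fintype.sum_sum_type]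
    simp only [colPot, Sum.elim_inl, Sum.elim_inr]
    rw [Finset.sum_range, Finset.sum_range, Finset.sum_range, add_assoc]
  rw [h4]
  unfold Vlow sumCols
  rw [Finset.sum_sub_distrib]
  linarith

theorem atPrime_of {g : ℕ → ℚ[X]} (hg : HTwo g) (hA1 : IntSites g) (hA2 : HalfSites g)
    (hB : BaseChange g) (S : Shape) (hS : S.Good) (c : ℕ) (ξ : Par ℝ)
    (hE : ∀ δ : ℝ, 0 < δ → ∀ᶠ u : ℕ in Filter.atTop, ∀ L : ℕ,
      (val2 S ξ - δ) * (u : ℝ) ^ 2 ≤ (Vlow S u c (parOf ξ u) L : ℝ)) :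
    AtPrime S c 2 (-val2 S ξ) := by
  intro δ hδ
  filter_upwards [hE δ hδ] with u hu r hr i hi
  obtain ⟨L, hL⟩ := det_bound hg hA1 hA2 hB S hS u c r hr (parOf ξ u)
  have h1 := hL.le_padicValRat i hi
  have h2 : (Vlow S u c (parOf ξ u) L : ℝ) ≤ (padicValRat 2 ((Minor S u r).coeff i) : ℝ) := by
    exact_mod_cast h1
  have h3 := hu L
  nlinarith

end Crest.Agent.R006.P6
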