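import Crest.Agent.R006.Defs

/-!
# Row 6, block P6 (p = 2), line B: the quadratic and the final statement (helper404)

The lower bound of the 2-adic valuation of all coefficients of a minor is
`quadB S mu kap eq hq wq * u²` up to `O(u log u)`, minimised over

* `mu`  : number of `R`-type `G`-nodes (they are `≥ a1`),
* `kap` : number of `Q`-type `G`-nodes below `a1`,
* `eq`  : number of `Q`-type triple nodes at `-m` (`≤ e3`),
* `hq`  : number of `Q`-type triple nodes at `l + 1/2` (`≤ h3`),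
* `wq`  : number of `Q`-type `w`-nodes (`≤ w`),

the other `g - kap - eq - hq - wq` `Q`-type nodes are `G`-nodes `≥ a1`.
-/

set_option autoImplicit false

namespace Crest.Agent.R006.P6B

open Crest.Agent.R006.D

/-- the quadratic of line B (units `u`) -/
noncomputable def quadB (S : Shape) (mu kap eq hq wq : ℝ) : ℝ :=
  let N : ℝ := S.rows
  let k : ℝ := S.k
  let K1 : ℝ := S.g - kap - eq - hq - wq
  let y : ℝ := hq + wq
  let Y : ℝ := S.h1 + S.h2 + S.h3 + S.w - y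
  let X : ℝ := N - mu - S.g - Y
  let κ : ℝ := k - mu
  (X - Y) ^ 2 / 2 + mu ^ 2 / 2 + (S.g - 2 * y) ^ 2 / 2 + κ * Y + κ ^ 2 / 2
    + mu * (S.a1 + S.a2 + S.r1)
    - (3 * ((mu + K1) * S.B - (mu + K1) ^ 2 / 2) + (K1 * S.B - K1 ^ 2 / 2))
    - 4 * (S.a1 * kap - kap ^ 2 / 2) + 2 * eq ^ 2 + 2 * hq ^ 2 - 4 * (wq * S.w - wq ^ 2 / 2)
    - (k * (S.a1 + S.a2 + S.r1 + 2 * S.i1) + k ^ 2 / 2 + (S.q : ℝ) ^ 2 / 2 + (S.g : ℝ) ^ 2 / 2)

/-- the region of the states -/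
structure RegB (S : Shape) (mu kap eq hq wq : ℝ) : Prop where
  mu0 : 0 ≤ mu
  muk : mu ≤ S.k
  kap0 : 0 ≤ kap
  kapa : kap ≤ S.a1
  eq0 : 0 ≤ eq
  eqe : eq ≤ S.e3
  hq0 : 0 ≤ hq
  hqh : hq ≤ S.h3
  wq0 : 0 ≤ wq
  wqw : wq ≤ S.w
  K1 : kap + eq + hq + wq ≤ S.g
  top : mu + (S.g - kap - eq - hq - wq) ≤ S.B - S.a1

/-- leaf N: the minimum of the quadratic over the region -/
def MinB (S : Shape) (α : ℝ) : Prop :=
  ∀ mu kap eq hq wq : ℝ, RegB S mu kap eq hq wq → -α ≤ quadB S mu kap eq hq wq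

/-- **the final statement of line B** -/
def FinalB (S : Shape) (c : ℕ) : Prop := ∀ α : ℝ, MinB S α → AtPrime S c 2 α

end Crest.Agent.R006.P6B
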