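import Crest.Agent.R006.P6D3_203

/-!
# Row 6, P6, leaf D (helper203): the determinant at one prime, Cauchy-Binet form

`det_PB` : columns `R` = a sum over nodes `x ∈ X2` (integral nodes) of `al x * f_l (z x) * (z x) ^ k`
plus a small column of valuation `≥ e l` (`e` monotone); columns `Q` = a sum over nodes `x ∈ X3`
of `be x * (z x) ^ (k + j)`; `c` arbitrary columns of valuation `≥ -L`. Then the determinant has
valuation `≥ V0 - v (A!) - v (K!)` as soon as, for all disjoint `S2 ⊆ X2`, `S3 ⊆ X3`,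
`|S3| = K`, `|S2| ≤ A`,
`V0 ≤ ∑ va + ∑ vb + VV (S2 ∪ S3) + VV S2 + VV S3 + ∑_{l < A - |S2|} e l
        - #half S3 * (A - |S2| + c) - c L`.
-/

set_option autoImplicit false
set_option linter.unusedSectionVars false

namespace Crest.Agent.R006.P6D203

open Polynomial Matrix Finset Crest.Agent.R006.ProdBound481

section Main

variable {p : ℕ} [hp : Fact p.Prime]
variable {σ : Type*} [DecidableEq σ] [Nonempty σ] {A K c : ℕ}

/-- columns -/
abbrev Ix (A K c : ℕ) : Type := Fin A ⊕ (Fin K ⊕ Fin c)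

/-- move the `Q`-columns to the front -/
def swapE (A K c : ℕ) : Ix A K c ≃ Fin K ⊕ (Fin A ⊕ Fin c) where
  toFun := Sum.elim (fun l => Sum.inr (Sum.inl l)) (Sum.elim Sum.inl (fun u => Sum.inr (Sum.inr u)))
  invFun := Sum.elim (fun j => Sum.inr (Sum.inl j)) (Sum.elim Sum.inl (fun u => Sum.inr (Sum.inr u)))
  left_inv := by rintro (l | j | u) <;> rfl
  right_inv := by rintro (l | j | u) <;> rfl

/-- the final columns -/
noncomputable def colD (X2 X3 : Finset σ) (z : σ → ℚ) (kk : Ix A K c → ℕ)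
    (E : Ix A K c → Fin A → ℚ[X]) (M : Matrix (Ix A K c) (Ix A K c) ℚ[X])
    (φ : Fin A → {x // x ∈ X2} ⊕ Fin A) (ψ : Fin K → {x // x ∈ X3}) :
    Ix A K c → Ix A K c → ℚ[X]
  | Sum.inl l, i => Sum.elim (fun x : {x // x ∈ X2} => C (z x) ^ kk i) (fun l' => E i l') (φ l)
  | Sum.inr (Sum.inl j), i => C (z (ψ j)) ^ kk i
  | Sum.inr (Sum.inr u), i => M i (Sum.inr (Sum.inr u))

/-- the coefficient of the `R`-columns, restricted labels -/
noncomputable def C2' (X2 : Finset σ) (z : σ → ℚ) (al : σ → ℚ[X]) (f : Fin A → ℚ[X])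
    (w : {x // x ∈ X2} ⊕ Fin A) (l : Fin A) : ℚ[X] :=
  C2 z al f (Sum.map Subtype.val id w) l

/-- **the double Cauchy-Binet expansion** -/
theorem expansion (X2 X3 : Finset σ) (z : σ → ℚ) (al be : σ → ℚ[X]) (f : Fin A → ℚ[X])
    (kk : Ix A K c → ℕ) (E : Ix A K c → Fin A → ℚ[X])
    (M : Matrix (Ix A K c) (Ix A K c) ℚ[X])
    (hR : ∀ i l, M i (Sum.inl l) =
      ∑ x ∈ X2, al x * C ((f l).eval (z x)) * C (z x) ^ kk i + E i l)
    (hQ : ∀ (i : Ix A K c) (j : Fin K),
      M i (Sum.inr (Sum.inl j)) = ∑ x ∈ X3, be x * C (z x) ^ (kk i + (j : ℕ))) :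
    ((A.factorial : ℕ) : ℚ[X]) * ((K.factorial : ℕ) : ℚ[X]) * M.det =
      ∑ φ : Fin A → {x // x ∈ X2} ⊕ Fin A, ∑ ψ : Fin K → {x // x ∈ X3},
        (Matrix.of fun l l' : Fin A => C2' X2 z al f (φ l) l').det *
        (Matrix.of fun j j' : Fin K => be (ψ j) * C (z (ψ j)) ^ (j' : ℕ)).det *
        (Matrix.of fun i j => colD X2 X3 z kk E M φ ψ j i : Matrix (Ix A K c) (Ix A K c) ℚ[X]).det := by
  have hM : M = (Matrix.of fun i j => Sum.elim
      (fun l => ∑ w : {x // x ∈ X2} ⊕ Fin A, C2' X2 z al f w l *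
        Sum.elim (fun x : {x // x ∈ X2} => C (z x) ^ kk i) (fun l' => E i l') w)
      (fun m => M i (Sum.inr m)) ((Equiv.refl (Ix A K c)) j) :
        Matrix (Ix A K c) (Ix A K c) ℚ[X]) := by
    ext1 i j
    rcases j with l | m
    · rw [of_apply, Equiv.refl_apply, Sum.elim_inl, Fintype.sum_sum_type, hR]
      congr 1
      · rw [← Finset.sum_coe_sort X2]
        rfl
      · simp only [C2', C2, Sum.map_inr, id, Sum.elim_inr]
        simp
    · rfl
  have h1 := cb_mixed (R := ℚ[X]) (Equiv.refl (Ix A K c))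
    (fun (w : {x // x ∈ X2} ⊕ Fin A) i =>
      Sum.elim (fun x : {x // x ∈ X2} => C (z x) ^ kk i) (fun l' => E i l') w)
    (C2' X2 z al f) (fun m i => M i (Sum.inr m))
  rw [← hM, Fintype.card_fin] at h1
  have h2 : ∀ φ : Fin A → {x // x ∈ X2} ⊕ Fin A,
      ((K.factorial : ℕ) : ℚ[X]) * (Matrix.of fun i j => Sum.elim
        (fun l => Sum.elim (fun x : {x // x ∈ X2} => C (z x) ^ kk i) (fun l' => E i l') (φ l))
        (fun m => M i (Sum.inr m)) ((Equiv.refl (Ix A K c)) j) :
          Matrix (Ix A K c) (Ix A K c) ℚ[X]).det =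
      ∑ ψ : Fin K → {x // x ∈ X3},
        (Matrix.of fun j j' : Fin K => be (ψ j) * C (z (ψ j)) ^ (j' : ℕ)).det *
        (Matrix.of fun i j => colD X2 X3 z kk E M φ ψ j i :
          Matrix (Ix A K c) (Ix A K c) ℚ[X]).det := by
    intro φ
    have h3 := cb_mixed (R := ℚ[X]) (swapE A K c)
      (fun (x : {x // x ∈ X3}) (i : Ix A K c) => C (z x) ^ kk i)
      (fun (x : {x // x ∈ X3}) (j : Fin K) => be x * C (z x) ^ (j : ℕ))
      (Sum.elim (fun l i => Sum.elim (fun x : {x // x ∈ X2} => C (z x) ^ kk i)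
        (fun l' => E i l') (φ l)) (fun (u : Fin c) i => M i (Sum.inr (Sum.inr u))))
    rw [Fintype.card_fin] at h3
    have h4 : (Matrix.of fun i j => Sum.elim
        (fun l => Sum.elim (fun x : {x // x ∈ X2} => C (z x) ^ kk i) (fun l' => E i l') (φ l))
        (fun m => M i (Sum.inr m)) ((Equiv.refl (Ix A K c)) j) :
          Matrix (Ix A K c) (Ix A K c) ℚ[X]) =
        (Matrix.of fun i j => Sum.elim
          (fun l : Fin K => ∑ x : {x // x ∈ X3}, (be x * C (z x) ^ (l : ℕ)) * C (z x) ^ kk i)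
          (fun m => (Sum.elim (fun l i => Sum.elim (fun x : {x // x ∈ X2} => C (z x) ^ kk i)
            (fun l' => E i l') (φ l)) (fun (u : Fin c) i => M i (Sum.inr (Sum.inr u)))) m i)
          (swapE A K c j) : Matrix (Ix A K c) (Ix A K c) ℚ[X]) := by
      ext1 i j
      rcases j with l | j | u
      · rfl
      · rw [of_apply, of_apply, Equiv.refl_apply, Sum.elim_inr, hQ]
        change _ = ∑ x : {x // x ∈ X3}, (be x * C (z x) ^ (j : ℕ)) * C (z x) ^ kk i
        rw [← Finset.sum_coe_sort X3]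
        refine sum_congr rfl fun x _ => ?_
        rw [pow_add]; ring
      · rfl
    rw [h4, h3]
    refine sum_congr rfl fun ψ _ => ?_
    congr 2
    ext1 i j
    rcases j with l | j | u <;> rfl
  calc ((A.factorial : ℕ) : ℚ[X]) * ((K.factorial : ℕ) : ℚ[X]) * M.det
      = ((K.factorial : ℕ) : ℚ[X]) * (((A.factorial : ℕ) : ℚ[X]) * M.det) := by ring
    _ = ∑ φ : Fin A → {x // x ∈ X2} ⊕ Fin A,
          (Matrix.of fun l l' : Fin A => C2' X2 z al f (φ l) l').det *
          (((K.factorial : ℕ) : ℚ[X]) * (Matrix.of fun i j => Sum.elim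
        (fun l => Sum.elim (fun x : {x // x ∈ X2} => C (z x) ^ kk i) (fun l' => E i l') (φ l))
        (fun m => M i (Sum.inr m)) ((Equiv.refl (Ix A K c)) j) :
          Matrix (Ix A K c) (Ix A K c) ℚ[X]).det) := by
        rw [h1, mul_sum]
        refine sum_congr rfl fun φ _ => ?_
        ring
    _ = _ := by
        refine sum_congr rfl fun φ _ => ?_
        rw [h2 φ, mul_sum]
        refine sum_congr rfl fun ψ _ => ?_
        ring

/-- the site of a column, if any -/
def ndo (X2 X3 : Finset σ) (φ : Fin A → {x // x ∈ X2} ⊕ Fin A) (ψ : Fin K → {x // x ∈ X3}) :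
    Ix A K c → Option σ
  | Sum.inl l => Sum.elim (fun x => some x.1) (fun _ => none) (φ l)
  | Sum.inr (Sum.inl j) => some (ψ j).1
  | Sum.inr (Sum.inr _) => none

/-- the weight of the columns without site -/
def gw (X2 : Finset σ) (e : ℕ → ℤ) (L : ℤ) (φ : Fin A → {x // x ∈ X2} ⊕ Fin A) :
    Ix A K c → ℤ
  | Sum.inl l => Sum.elim (fun _ => (0 : ℤ)) (fun l' : Fin A => e l') (φ l)
  | Sum.inr (Sum.inl _) => 0
  | Sum.inr (Sum.inr _) => -L

/-- the sites used by the `R`-columns -/
def S2s (X2 : Finset σ) (φ : Fin A → {x // x ∈ X2} ⊕ Fin A) : Finset σ :=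
  X2.filter fun x => ∃ l, ∃ h : x ∈ X2, φ l = Sum.inl ⟨x, h⟩

/-- the sites used by the `Q`-columns -/
def S3s (X3 : Finset σ) (ψ : Fin K → {x // x ∈ X3}) : Finset σ :=
  X3.filter fun x => ∃ j, (ψ j).1 = x

/-- **bound for one term** -/
theorem term_PB (X2 X3 : Finset σ) (z : σ → ℚ) (hz : Set.InjOn z (X2 ∪ X3 : Finset σ))
    (half : σ → Prop) [DecidablePred half]
    (h0 : ∀ x, ¬ half x → padicNorm p (z x) ≤ 1) (h1 : ∀ x, padicNorm p (z x) ≤ p)
    (hX2 : ∀ x ∈ X2, ¬ half x)
    (al be : σ → ℚ[X]) (va vb : σ → ℤ) (hal : ∀ x ∈ X2, PB p (va x) (al x))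
    (hbe : ∀ x ∈ X3, PB p (vb x) (be x)) (f : Fin A → ℚ[X]) (hf : ∀ l, PB p 0 (f l))
    (e : ℕ → ℤ) (he : Monotone e) (L : ℤ)
    (kk : Ix A K c → ℕ) (hk : Function.Injective kk) (hk2 : ∀ i, kk i < A + (K + c))
    (E : Ix A K c → Fin A → ℚ[X]) (hE : ∀ i (l : Fin A), PB p (e l) (E i l))
    (M : Matrix (Ix A K c) (Ix A K c) ℚ[X])
    (hU : ∀ i (u : Fin c), PB p (-L) (M i (Sum.inr (Sum.inr u))))
    (V0 : ℤ)
    (hV : ∀ S2 ⊆ X2, ∀ S3 ⊆ X3, Disjoint S2 S3 → S3.card = K → S2.card ≤ A →
      V0 ≤ ∑ x ∈ S2, va x + ∑ x ∈ S3, vb x + VV p z (S2 ∪ S3) + VV p z S2 + VV p z S3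
        + ∑ l ∈ range (A - S2.card), e l
        - (S3.filter half).card * (((A - S2.card : ℕ) : ℤ) + c) - c * L)
    (φ : Fin A → {x // x ∈ X2} ⊕ Fin A) (ψ : Fin K → {x // x ∈ X3}) :
    PB p V0 ((Matrix.of fun l l' : Fin A => C2' X2 z al f (φ l) l').det *
        (Matrix.of fun j j' : Fin K => be (ψ j) * C (z (ψ j)) ^ (j' : ℕ)).det *
        (Matrix.of fun i j => colD X2 X3 z kk E M φ ψ j i :
          Matrix (Ix A K c) (Ix A K c) ℚ[X]).det) := by
  classical
  -- no repeated unit row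
  by_cases hinr : ∃ l l', l ≠ l' ∧ ∃ m, φ l = Sum.inr m ∧ φ l' = Sum.inr m
  · obtain ⟨l, l', hne, m, e1, e2⟩ := hinr
    have : (Matrix.of fun l l' : Fin A => C2' X2 z al f (φ l) l').det = 0 := by
      refine det_zero_of_row_eq hne ?_
      funext j
      simp only [of_apply, e1, e2]
    rw [this, zero_mul, zero_mul]
    exact PB.zero _
  push Not at hinr
  -- the sites are distinct
  set nd0 : Ix A K c → Option σ := ndo X2 X3 φ ψ with hnd0
  by_cases hnd : ∃ i j, i ≠ j ∧ ∃ x, nd0 i = some x ∧ nd0 j = some x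
  · obtain ⟨i, j, hne, x, e1, e2⟩ := hnd
    have hcol : ∀ j x, nd0 j = some x → ∀ i, colD X2 X3 z kk E M φ ψ j i = C (z x) ^ kk i := by
      intro j x hj i
      rcases j with l | j | u
      · simp only [hnd0, ndo] at hj
        simp only [colD]
        rcases hφ : φ l with y | m
        · rw [hφ, Sum.elim_inl, Option.some_inj] at hj
          rw [Sum.elim_inl, hj]
        · rw [hφ, Sum.elim_inr] at hj
          exact absurd hj (by simp)
      · simp only [hnd0, ndo, Option.some_inj] at hj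
        simp only [colD, hj]
      · simp only [hnd0, ndo] at hj
        exact absurd hj (by simp)
    have : (Matrix.of fun i j => colD X2 X3 z kk E M φ ψ j i :
          Matrix (Ix A K c) (Ix A K c) ℚ[X]).det = 0 := by
      refine det_zero_of_column_eq hne ?_
      intro k
      rw [of_apply, of_apply, hcol i x e1, hcol j x e2]
    rw [this, mul_zero]
    exact PB.zero _
  push Not at hnd
  -- the sites of the `R`-columns
  set P2 : Fin A → Prop := fun l => (φ l).isLeft = true with hP2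
  set nd2 : {l // (φ l).isLeft = true} → σ := fun l => ((φ l.1).getLeft l.2).1 with hnd2
  have hφ2 : ∀ l : {l // (φ l).isLeft = true}, φ l = Sum.inl ((φ l.1).getLeft l.2) := fun l => by
    simp
  have hnd0l : ∀ l : {l // (φ l).isLeft = true}, nd0 (Sum.inl l.1) = some (nd2 l) := by
    intro l
    simp only [hnd0, ndo]
    rw [hφ2 l, Sum.elim_inl]
  have inj2 : Function.Injective nd2 := by
    intro l l' h
    by_contra hne
    have h3 : (Sum.inl l.1 : Ix A K c) ≠ Sum.inl l'.1 := fun h4 => hne (Subtype.ext (Sum.inl_injective h4))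
    exact hnd _ _ h3 (nd2 l) (hnd0l l) (by rw [hnd0l l', h])
  have inj3 : Function.Injective (fun j => (ψ j).1) := by
    intro j j' h
    by_contra hne
    have h3 : (Sum.inr (Sum.inl j) : Ix A K c) ≠ Sum.inr (Sum.inl j') := by
      intro h4
      exact hne (Sum.inl_injective (Sum.inr_injective h4))
    exact hnd _ _ h3 (ψ j).1 rfl (congrArg some h.symm)
  set S2 : Finset σ := univ.image nd2 with hS2
  set S3 : Finset σ := univ.image (fun j => (ψ j).1) with hS3
  have hS2X : S2 ⊆ X2 := by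
    intro x hx
    obtain ⟨l, _, rfl⟩ := mem_image.mp hx
    exact ((φ l.1).getLeft l.2).2
  have hS3X : S3 ⊆ X3 := by
    intro x hx
    obtain ⟨j, _, rfl⟩ := mem_image.mp hx
    exact (ψ j).2
  have hdisj : Disjoint S2 S3 := by
    rw [disjoint_left]
    intro x hx hx'
    obtain ⟨l, _, rfl⟩ := mem_image.mp hx
    obtain ⟨j, _, hj⟩ := mem_image.mp hx'
    exact hnd (Sum.inl l.1) (Sum.inr (Sum.inl j)) (by simp) (nd2 l) (hnd0l l) (congrArg some hj)
  have hS3c : S3.card = K := by
    rw [hS3, card_image_of_injective _ inj3, card_univ, Fintype.card_fin]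
  have hS2c : S2.card = Fintype.card {l // (φ l).isLeft = true} := by
    rw [hS2, card_image_of_injective _ inj2, card_univ]
  have hS2A : S2.card ≤ A := by
    rw [hS2c]
    exact (Fintype.card_subtype_le _).trans (le_of_eq (Fintype.card_fin A))
  have hSS : Set.InjOn z (S2 ∪ S3 : Finset σ) := hz.mono (by
    rw [coe_subset]; exact union_subset_union hS2X hS3X)
  have key := hV S2 hS2X S3 hS3X hdisj hS3c hS2A
  -- R coefficients
  have hA : PB p (∑ x ∈ S2, va x + VV p z S2)
      (Matrix.of fun l l' : Fin A => C2' X2 z al f (φ l) l').det := by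
    have h := det_coefR_PB (p := p) z al va f hf (fun l => Sum.map Subtype.val id (φ l))
      (fun l => (φ l).isLeft = true) (by
        intro l hl
        rcases hl' : φ l with y | m
        · rw [hl'] at hl; exact absurd rfl hl
        · simp) nd2 (by
        intro l
        have h3 := hφ2 l
        change Sum.map Subtype.val id (φ l.1) = Sum.inl (nd2 l)
        rw [h3]; rfl) (fun l => hal _ ((φ l.1).getLeft l.2).2)
      (fun l => h0 _ (hX2 _ ((φ l.1).getLeft l.2).2))
      (hSS.mono (by rw [coe_subset]; exact subset_union_left)) (VV p z S2) (fun _ => le_rfl)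
    have h3 : ∑ x ∈ S2, va x = ∑ l, va (nd2 l) := by
      rw [hS2, sum_image inj2.injOn]
    rw [h3]
    exact h
  -- Q coefficients
  have hB : PB p (∑ x ∈ S3, vb x + VV p z S3)
      (Matrix.of fun j j' : Fin K => be (ψ j) * C (z (ψ j)) ^ (j' : ℕ)).det := by
    have h := det_coefQ_PB (p := p) z (fun j => (ψ j).1) be vb (fun j => hbe _ (ψ j).2)
      (hSS.mono (by rw [coe_subset]; exact subset_union_right)) (VV p z S3) (fun _ => le_rfl)
    have h3 : ∑ x ∈ S3, vb x = ∑ j, vb (ψ j) := by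
      rw [hS3, sum_image inj3.injOn]
    rw [h3]
    exact h
  -- the big determinant
  set nd : {j : Ix A K c // (nd0 j).isSome = true} → σ := fun j => (nd0 j.1).get j.2 with hnd'
  have hndv : ∀ j : {j : Ix A K c // (nd0 j).isSome = true}, nd0 j.1 = some (nd j) := fun j => by
    simp [hnd']
  have injn : Function.Injective nd := by
    intro i j h
    by_contra hne
    exact hnd i.1 j.1 (fun h4 => hne (Subtype.ext h4)) (nd i) (hndv i) (by rw [hndv j, h])
  have himg : univ.image nd = S2 ∪ S3 := by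
    ext x
    simp only [mem_image, mem_univ, true_and, mem_union, hS2, hS3]
    constructor
    · rintro ⟨⟨j, hj⟩, rfl⟩
      have h3 := hndv ⟨j, hj⟩
      rcases j with l | j | u
      · left
        simp only [hnd0, ndo] at h3
        rcases hl : φ l with y | m
        · refine ⟨⟨l, by rw [hl]; rfl⟩, ?_⟩
          have h5 := hnd0l ⟨l, by rw [hl]; rfl⟩
          rw [← Option.some_inj, ← h5, ← hndv]
        · rw [hl, Sum.elim_inr] at h3
          exact absurd h3 (by simp)
      · right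
        exact ⟨j, Option.some_injective _ h3⟩
      · exact absurd h3 (by simp [hnd0, ndo])
    · rintro (⟨l, rfl⟩ | ⟨j, rfl⟩)
      · refine ⟨⟨Sum.inl l.1, by rw [hnd0l]; rfl⟩, ?_⟩
        rw [← Option.some_inj, ← hndv, hnd0l]
      · refine ⟨⟨Sum.inr (Sum.inl j), rfl⟩, ?_⟩
        rw [← Option.some_inj, ← hndv]; rfl
  have hcardn : Fintype.card {j : Ix A K c // (nd0 j).isSome = true} = S2.card + K := by
    rw [← card_univ, ← card_image_of_injective _ injn, himg, card_union_of_disjoint hdisj, hS3c]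
  have hcardι : Fintype.card (Ix A K c) = A + (K + c) := by
    rw [Fintype.card_sum, Fintype.card_sum, Fintype.card_fin, Fintype.card_fin, Fintype.card_fin]
  have hcardc : Fintype.card {j : Ix A K c // ¬ (nd0 j).isSome = true} = (A - S2.card) + c := by
    rw [Fintype.card_subtype_compl, hcardn, hcardι]
    omega
  have hhalf : Fintype.card {j : {j : Ix A K c // (nd0 j).isSome = true} // half (nd j)} =
      (S3.filter half).card := by
    rw [Fintype.card_subtype, ← card_image_of_injective _ injn]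
    congr 1
    ext x
    simp only [mem_image, mem_filter, mem_univ, true_and]
    constructor
    · rintro ⟨j, hj, rfl⟩
      have h3 : nd j ∈ S2 ∪ S3 := by rw [← himg]; exact mem_image_of_mem nd (mem_univ j)
      rcases mem_union.mp h3 with h4 | h4
      · exact absurd hj (hX2 _ (hS2X h4))
      · exact ⟨h4, hj⟩
    · rintro ⟨h3, h4⟩
      have h5 : x ∈ univ.image nd := by rw [himg]; exact mem_union_right _ h3
      obtain ⟨j, _, rfl⟩ := mem_image.mp h5
      exact ⟨j, h4, rfl⟩
  have hgsum : ∑ l ∈ range (A - S2.card), e l - c * L ≤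
      ∑ r : {j : Ix A K c // ¬ (nd0 j).isSome = true}, gw (K := K) (c := c) X2 e L φ r.1 := by
    have h3 := Fintype.sum_subtype_add_sum_subtype (fun j : Ix A K c => (nd0 j).isSome = true)
      (gw (K := K) (c := c) X2 e L φ)
    have h4 : ∑ r : {j : Ix A K c // (nd0 j).isSome = true}, gw (K := K) (c := c) X2 e L φ r.1 = 0 := by
      refine sum_eq_zero fun r _ => ?_
      obtain ⟨j, hj⟩ := r
      have h5 := hndv ⟨j, hj⟩
      rcases j with l | j | u
      · simp only [hnd0, ndo] at h5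
        simp only [gw]
        rcases hl : φ l with y | m
        · rfl
        · rw [hl, Sum.elim_inr] at h5
          exact absurd h5 (by simp)
      · rfl
      · exact absurd h5 (by simp [hnd0, ndo])
    rw [h4, zero_add] at h3
    rw [h3, Fintype.sum_sum_type, Fintype.sum_sum_type]
    simp only [gw, sum_const_zero, zero_add, sum_const, card_univ, Fintype.card_fin, smul_neg,
      nsmul_eq_mul]
    rw [sub_eq_add_neg]
    refine add_le_add ?_ le_rfl
    -- the small columns used
    set idx : Fin A → ℕ := fun l => Sum.elim (fun _ => 0) (fun l' : Fin A => (l' : ℕ)) (φ l) with hidx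
    set F : Finset (Fin A) := univ.filter (fun l => ¬ (φ l).isLeft = true) with hF
    have hinj : Set.InjOn idx F := by
      intro l hl l' hl' h
      by_contra hne
      rw [mem_coe, hF, mem_filter] at hl hl'
      rcases h5 : φ l with y | m
      · exact hl.2 (by rw [h5]; rfl)
      · rcases h6 : φ l' with y | m'
        · exact hl'.2 (by rw [h6]; rfl)
        · simp only [hidx, h5, h6, Sum.elim_inr] at h
          have h7 : m = m' := Fin.ext h
          exact hinr l l' hne m h5 (by rw [h6, h7])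
    have hcardF : (F.image idx).card = A - S2.card := by
      rw [card_image_of_injOn hinj, hS2c, hF, ← Fintype.card_subtype,
        Fintype.card_subtype_compl, Fintype.card_fin]
    have h8 := sum_range_card_le e he (F.image idx)
    rw [hcardF, sum_image hinj] at h8
    refine h8.trans (le_of_eq ?_)
    rw [← sum_filter_add_sum_filter_not univ (fun l => (φ l).isLeft = true)
      (fun l => Sum.elim (fun _ => (0 : ℤ)) (fun l' : Fin A => e l') (φ l))]
    have h9 : ∑ l with (φ l).isLeft = true,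
        Sum.elim (fun _ => (0 : ℤ)) (fun l' : Fin A => e l') (φ l) = 0 := by
      refine sum_eq_zero fun l hl => ?_
      rw [mem_filter] at hl
      rcases h5 : φ l with y | m
      · rfl
      · rw [h5] at hl; exact absurd hl.2 (by simp)
    rw [h9, zero_add]
    refine sum_congr rfl fun l hl => ?_
    rw [mem_filter] at hl
    simp only [hidx]
    rcases h5 : φ l with y | m
    · exact absurd (by rw [h5]; rfl) hl.2
    · rfl
  have hD := det_D_PB (p := p) (fun j : Ix A K c => (nd0 j).isSome = true) nd half z h0 h1 kk hk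
    (by intro i; rw [hcardι]; exact hk2 i) (colD X2 X3 z kk E M φ ψ) (by
      rintro ⟨j, hj⟩ i
      have h3 := hndv ⟨j, hj⟩
      rcases j with l | j | u
      · simp only [hnd0, ndo] at h3
        simp only [colD]
        rcases hl : φ l with y | m
        · rw [hl, Sum.elim_inl, Option.some_inj] at h3
          rw [Sum.elim_inl, h3]
        · rw [hl, Sum.elim_inr] at h3
          exact absurd h3 (by simp)
      · simp only [hnd0, ndo, Option.some_inj] at h3
        simp only [colD, h3]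
      · exact absurd h3 (by simp [hnd0, ndo]))
    (fun r => gw (K := K) (c := c) X2 e L φ r.1) (by
      rintro ⟨j, hj⟩ i
      rcases j with l | j | u
      · simp only [hnd0, ndo] at hj
        simp only [colD, gw]
        rcases hl : φ l with y | m
        · rw [hl, Sum.elim_inl] at hj
          exact absurd rfl hj
        · rw [Sum.elim_inr, Sum.elim_inr]
          exact hE i m
      · exact absurd rfl hj
      · exact hU i u) (by rw [himg]; exact hSS) (VV p z (S2 ∪ S3)) (fun _ => by rw [himg])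
  rw [hhalf, hcardc] at hD
  refine ((hA.mul hB).mul hD).mono ?_
  push_cast at *
  linarith

omit [DecidableEq σ] [Nonempty σ] in
lemma PB_cancel {a : ℚ} (ha : a ≠ 0) {v : ℤ} {P : ℚ[X]} (h : PB p v (C a * P)) :
    PB p (v - padicValRat p a) P := by
  intro k
  have h1 := h k
  rw [coeff_C_mul, padicNorm.mul, padicNorm.eq_zpow_of_nonzero ha] at h1
  have hp0 : (0 : ℚ) < p := p_pos
  have h2 : (p : ℚ) ^ (-(v - padicValRat p a)) = (p : ℚ) ^ (-v) * (p : ℚ) ^ (padicValRat p a) := by
    rw [← zpow_add₀ hp0.ne']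
    congr 1; ring
  rw [h2]
  calc padicNorm p (P.coeff k)
      = ((p : ℚ) ^ (-padicValRat p a) * padicNorm p (P.coeff k)) * (p : ℚ) ^ (padicValRat p a) := by
        rw [mul_comm ((p : ℚ) ^ (-padicValRat p a)), mul_assoc, ← zpow_add₀ hp0.ne',
          neg_add_cancel, zpow_zero, mul_one]
    _ ≤ _ := mul_le_mul_of_nonneg_right h1 (zpow_nonneg hp0.le _)

/-- **leaf D** -/
theorem det_PB (X2 X3 : Finset σ) (z : σ → ℚ) (hz : Set.InjOn z (X2 ∪ X3 : Finset σ))
    (half : σ → Prop) [DecidablePred half]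
    (h0 : ∀ x, ¬ half x → padicNorm p (z x) ≤ 1) (h1 : ∀ x, padicNorm p (z x) ≤ p)
    (hX2 : ∀ x ∈ X2, ¬ half x)
    (al be : σ → ℚ[X]) (va vb : σ → ℤ) (hal : ∀ x ∈ X2, PB p (va x) (al x))
    (hbe : ∀ x ∈ X3, PB p (vb x) (be x)) (f : Fin A → ℚ[X]) (hf : ∀ l, PB p 0 (f l))
    (e : ℕ → ℤ) (he : Monotone e) (L : ℤ)
    (kk : Ix A K c → ℕ) (hk : Function.Injective kk) (hk2 : ∀ i, kk i < A + (K + c))
    (E : Ix A K c → Fin A → ℚ[X]) (hE : ∀ i (l : Fin A), PB p (e l) (E i l))
    (M : Matrix (Ix A K c) (Ix A K c) ℚ[X])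
    (hR : ∀ i l, M i (Sum.inl l) =
      ∑ x ∈ X2, al x * C ((f l).eval (z x)) * C (z x) ^ kk i + E i l)
    (hQ : ∀ (i : Ix A K c) (j : Fin K),
      M i (Sum.inr (Sum.inl j)) = ∑ x ∈ X3, be x * C (z x) ^ (kk i + (j : ℕ)))
    (hU : ∀ i (u : Fin c), PB p (-L) (M i (Sum.inr (Sum.inr u))))
    (V0 : ℤ)
    (hV : ∀ S2 ⊆ X2, ∀ S3 ⊆ X3, Disjoint S2 S3 → S3.card = K → S2.card ≤ A →
      V0 ≤ ∑ x ∈ S2, va x + ∑ x ∈ S3, vb x + VV p z (S2 ∪ S3) + VV p z S2 + VV p z S3
        + ∑ l ∈ range (A - S2.card), e l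
        - (S3.filter half).card * (((A - S2.card : ℕ) : ℤ) + c) - c * L) :
    PB p (V0 - padicValNat p A.factorial - padicValNat p K.factorial) M.det := by
  have h2 := expansion X2 X3 z al be f kk E M hR hQ
  have h3 : PB p V0 (((A.factorial : ℕ) : ℚ[X]) * ((K.factorial : ℕ) : ℚ[X]) * M.det) := by
    rw [h2]
    refine PB.sum _ _ fun φ _ => PB.sum _ _ fun ψ _ => ?_
    exact term_PB X2 X3 z hz half h0 h1 hX2 al be va vb hal hbe f hf e he L kk hk hk2 E hE M hU V0
      hV φ ψ
  rw [← C_eq_natCast, ← C_eq_natCast, mul_assoc] at h3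
  have h4 := PB_cancel (p := p) (a := ((A.factorial : ℕ) : ℚ))
    (by exact_mod_cast (Nat.factorial_pos A).ne') h3
  have h5 := PB_cancel (p := p) (a := ((K.factorial : ℕ) : ℚ))
    (by exact_mod_cast (Nat.factorial_pos K).ne') h4
  rw [padicValRat.of_nat, padicValRat.of_nat] at h5
  exact h5

omit [DecidableEq σ] [Nonempty σ] in
lemma val_factorial_le (n : ℕ) : padicValNat p n.factorial ≤ n := by
  have h := sub_one_mul_padicValNat_factorial (p := p) n
  have hp2 : 1 ≤ p - 1 := by have := hp.out.two_le; omega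
  calc padicValNat p n.factorial = 1 * padicValNat p n.factorial := (one_mul _).symm
    _ ≤ (p - 1) * padicValNat p n.factorial := Nat.mul_le_mul_right _ hp2
    _ = n - (p.digits n).sum := h
    _ ≤ n := Nat.sub_le _ _

/-- **leaf D**, the loss of the factorials estimated by `A + K` -/
theorem det_PB' (X2 X3 : Finset σ) (z : σ → ℚ) (hz : Set.InjOn z (X2 ∪ X3 : Finset σ))
    (half : σ → Prop) [DecidablePred half]
    (h0 : ∀ x, ¬ half x → padicNorm p (z x) ≤ 1) (h1 : ∀ x, padicNorm p (z x) ≤ p)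
    (hX2 : ∀ x ∈ X2, ¬ half x)
    (al be : σ → ℚ[X]) (va vb : σ → ℤ) (hal : ∀ x ∈ X2, PB p (va x) (al x))
    (hbe : ∀ x ∈ X3, PB p (vb x) (be x)) (f : Fin A → ℚ[X]) (hf : ∀ l, PB p 0 (f l))
    (e : ℕ → ℤ) (he : Monotone e) (L : ℤ)
    (kk : Ix A K c → ℕ) (hk : Function.Injective kk) (hk2 : ∀ i, kk i < A + (K + c))
    (E : Ix A K c → Fin A → ℚ[X]) (hE : ∀ i (l : Fin A), PB p (e l) (E i l))
    (M : Matrix (Ix A K c) (Ix A K c) ℚ[X])
    (hR : ∀ i l, M i (Sum.inl l) =
      ∑ x ∈ X2, al x * C ((f l).eval (z x)) * C (z x) ^ kk i + E i l)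
    (hQ : ∀ (i : Ix A K c) (j : Fin K),
      M i (Sum.inr (Sum.inl j)) = ∑ x ∈ X3, be x * C (z x) ^ (kk i + (j : ℕ)))
    (hU : ∀ i (u : Fin c), PB p (-L) (M i (Sum.inr (Sum.inr u))))
    (V0 : ℤ)
    (hV : ∀ S2 ⊆ X2, ∀ S3 ⊆ X3, Disjoint S2 S3 → S3.card = K → S2.card ≤ A →
      V0 ≤ ∑ x ∈ S2, va x + ∑ x ∈ S3, vb x + VV p z (S2 ∪ S3) + VV p z S2 + VV p z S3
        + ∑ l ∈ range (A - S2.card), e l
        - (S3.filter half).card * (((A - S2.card : ℕ) : ℤ) + c) - c * L) :
    PB p (V0 - A - K) M.det := by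
  have h := det_PB X2 X3 z hz half h0 h1 hX2 al be va vb hal hbe f hf e he L kk hk hk2 E hE M hR hQ
    hU V0 hV
  refine h.mono ?_
  have h2 : (padicValNat p A.factorial : ℤ) ≤ A := by exact_mod_cast val_factorial_le (p := p) A
  have h3 : (padicValNat p K.factorial : ℤ) ≤ K := by exact_mod_cast val_factorial_le (p := p) K
  linarith

end Main

end Crest.Agent.R006.P6D203
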