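import Crest.Agent.R006.Defs
import Crest.Agent.R006.Lam_89

/-!
# Row 6, block P6 (p = 2), leaf Q (helper674)

* `gtop z` : the coefficient of the germ `gam z` which is seen by the functional `lam`
  (`g(n)` at `n ≥ 0`, `κ_m` at `-m`, `4 g*_l` at `l + 1/2`, `g(m)` at `-1/2-m`).
* `lam_gam` : `lam p (Q g) = ∑ gtop z * p z * Q z / Nhat z` over the sites with top index.
* `gtop` closed forms and `2`-adic valuations.
-/

set_option autoImplicit false

namespace Crest.Agent.R006.P6Q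

open Polynomial Crest.Agent.R006.NV Crest.Agent.R006.D

/-! ### closed forms -/

/-- the order of `gam` at a site -/
def gord : Site → ℕ
  | .Z i => if 0 ≤ i then 0 else 2
  | .H i => if 0 ≤ i then 2 else 0

/-- `(2j/(2j+1))^2` -/
def hstar (l : ℕ) : ℚ := ∏ j ∈ Finset.range l, ((2 * (j + 1 : ℚ)) / (2 * (j + 1 : ℚ) + 1)) ^ 2

/-- `(C(2n,n)/4^n)^2` -/
def gval (n : ℕ) : ℚ := ∏ j ∈ Finset.range n, ((2 * (j : ℚ) + 1) / (2 * (j + 1 : ℚ))) ^ 2

/-- the leading coefficient of `gam` at a site -/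
def gtop : Site → ℚ
  | .Z (Int.ofNat n) => gval n
  | .Z (Int.negSucc n) => 4 * hstar n
  | .H (Int.ofNat n) => 4 * hstar n
  | .H (Int.negSucc n) => gval n

lemma gval_succ (n : ℕ) : gval (n + 1) = gval n * ((2 * (n : ℚ) + 1) / (2 * (n + 1 : ℚ))) ^ 2 := by
  rw [gval, Finset.prod_range_succ]; rfl

lemma hstar_succ (n : ℕ) :
    hstar (n + 1) = hstar n * ((2 * (n + 1 : ℚ)) / (2 * (n + 1 : ℚ) + 1)) ^ 2 := by
  rw [hstar, Finset.prod_range_succ]; rfl

lemma gval_ne (n : ℕ) : gval n ≠ 0 := by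
  rw [gval, Finset.prod_ne_zero_iff]
  intro j _
  have : (0 : ℚ) ≤ j := by positivity
  positivity

lemma hstar_ne (n : ℕ) : hstar n ≠ 0 := by
  rw [hstar, Finset.prod_ne_zero_iff]
  intro j _
  positivity

lemma gtop_ne (z : Site) : gtop z ≠ 0 := by
  rcases z with (n | n) | (n | n) <;> simp only [gtop]
  · exact gval_ne n
  · exact mul_ne_zero (by norm_num) (hstar_ne n)
  · exact mul_ne_zero (by norm_num) (hstar_ne n)
  · exact gval_ne n

lemma gval_eq (n : ℕ) : gval n = (n.centralBinom : ℚ) ^ 2 / 16 ^ n := by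
  induction n with
  | zero => simp [gval]
  | succ n ih =>
    rw [gval_succ, ih]
    have h := Nat.succ_mul_centralBinom_succ n
    have h' : ((n : ℚ) + 1) * ((n + 1).centralBinom : ℚ) = 2 * (2 * n + 1) * (n.centralBinom : ℚ) := by
      exact_mod_cast h
    have h2 : ((n + 1).centralBinom : ℚ) = 2 * (2 * n + 1) * (n.centralBinom : ℚ) / ((n : ℚ) + 1) := by
      field_simp
      linear_combination h'
    rw [h2]
    have h3 : (n : ℚ) + 1 ≠ 0 := by positivity
    field_simp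
    ring

/-- a germ with leading term `a ε^k` -/
def Lead (k : ℕ) (a : ℚ) (f : PowerSeries ℚ) : Prop :=
  ∃ w : PowerSeries ℚ, f = PowerSeries.X ^ k * w ∧ PowerSeries.constantCoeff w = a

lemma Lead.mul {k l : ℕ} {a b : ℚ} {f g : PowerSeries ℚ} (hf : Lead k a f) (hg : Lead l b g) :
    Lead (k + l) (a * b) (f * g) := by
  obtain ⟨w, rfl, rfl⟩ := hf
  obtain ⟨v, rfl, rfl⟩ := hg
  exact ⟨w * v, by ring, by simp⟩

lemma Lead.inv {a : ℚ} {f : PowerSeries ℚ} (hf : Lead 0 a f) : Lead 0 a⁻¹ f⁻¹ := by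
  obtain ⟨w, rfl, rfl⟩ := hf
  refine ⟨w⁻¹, by simp, by simp⟩

lemma Lead.pow {k : ℕ} {a : ℚ} {f : PowerSeries ℚ} (hf : Lead k a f) (n : ℕ) :
    Lead (k * n) (a ^ n) (f ^ n) := by
  obtain ⟨w, rfl, rfl⟩ := hf
  exact ⟨w ^ n, by rw [mul_pow, pow_mul], by simp⟩

lemma Lead.C (a : ℚ) : Lead 0 a (PowerSeries.C a) := ⟨PowerSeries.C a, by simp, by simp⟩

lemma Lead.pt (s : ℚ) : Lead 0 s (pt s) := ⟨NV.pt s, by simp, constantCoeff_pt s⟩

lemma Lead.pt_zero : Lead 1 1 (NV.pt (0 : ℚ)) := ⟨1, by simp [NV.pt], by simp⟩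

lemma lead_two_pt (s : ℚ) : Lead 0 (2 * s + 1) (2 * pt s + 1) :=
  ⟨2 * pt s + 1, by simp, by rw [map_add, map_mul, constantCoeff_pt, constantCoeff_two, map_one]⟩

lemma lead_two_pt_half : Lead 1 2 (2 * pt (-1 / 2 : ℚ) + 1) := by
  refine ⟨2, ?_, constantCoeff_two⟩
  have h : (2 : PowerSeries ℚ) * PowerSeries.C (-1 / 2 : ℚ) = -1 := by
    have : (2 : PowerSeries ℚ) = PowerSeries.C (2 : ℚ) := (map_ofNat PowerSeries.C 2).symm
    rw [this, ← map_mul]
    norm_num
  rw [NV.pt, mul_add, h]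
  ring

lemma Lead.congr {k k' : ℕ} {a a' : ℚ} {f f' : PowerSeries ℚ} (h : Lead k a f) (hk : k = k')
    (ha : a = a') (hf : f = f') : Lead k' a' f' := by
  subst hk; subst ha; subst hf; exact h

/-- germ of `g` at `n ≥ 0` -/
lemma lead_GamZ (n : ℕ) : Lead 0 (gval n) (GamZ (n : ℤ) : PowerSeries ℚ) := by
  induction n with
  | zero => exact ⟨1, by simp [GamZ_zero], by simp [gval]⟩
  | succ n ih =>
    have h := ((Lead.C (1 / 4)).mul ((lead_two_pt (n : ℚ)).pow 2)).mul
      (ih.mul ((Lead.pt ((n : ℚ) + 1)).pow 2).inv)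
    refine h.congr (by norm_num) ?_ ?_
    · rw [gval_succ]
      have h3 : (n : ℚ) + 1 ≠ 0 := by positivity
      field_simp
      ring
    · rw [GamZ, bi_succ]
      push_cast
      ring

/-- germ of `g` at `-n-1` -/
lemma lead_GamZ_neg (n : ℕ) : Lead 2 (4 * hstar n) (GamZ (Int.negSucc n) : PowerSeries ℚ) := by
  induction n with
  | zero =>
    have h := (((Lead.pt_zero).pow 2).mul ((Lead.C (1 / 4)).mul ((lead_two_pt (-1 : ℚ)).pow 2)).inv)
    refine h.congr (by norm_num) (by norm_num [hstar]) ?_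
    have e2 : (Int.negSucc 0 : ℤ) = -1 := rfl
    rw [e2, GamZ, bi_negOne]
    have e3 : ((-1 : ℤ) : ℚ) + 1 = 0 := by norm_num
    have e4 : ((-1 : ℤ) : ℚ) = -1 := by norm_num
    simp only [e3]
    rw [e4]
    have hne : PowerSeries.constantCoeff (PowerSeries.C (1 / 4 : ℚ) * (2 * pt (-1 : ℚ) + 1) ^ 2) ≠ 0 := by
      rw [map_mul, PowerSeries.constantCoeff_C, map_pow, map_add, map_mul, constantCoeff_pt,
        constantCoeff_two, map_one]
      norm_num
    have h1 := PowerSeries.mul_inv_cancel _ hne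
    have h2 : (-(PowerSeries.C (1 / 4 : ℚ) * (2 * pt (-1 : ℚ) + 1) ^ 2))⁻¹ =
        -(PowerSeries.C (1 / 4 : ℚ) * (2 * pt (-1 : ℚ) + 1) ^ 2)⁻¹ := by
      rw [PowerSeries.inv_eq_iff_mul_eq_one]
      · linear_combination h1
      · rw [map_neg]; exact neg_ne_zero.mpr hne
    rw [h2]
    ring
  | succ n ih =>
    have h := (((Lead.pt (-(n : ℚ) - 1)).pow 2).mul ih).mul
      ((Lead.C (1 / 4)).mul ((lead_two_pt (-(n : ℚ) - 2)).pow 2)).inv
    refine h.congr (by norm_num) ?_ ?_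
    · rw [hstar_succ]
      have h3 : 2 * ((n : ℚ) + 1) + 1 ≠ 0 := by positivity
      have h4 : 2 * (-(n : ℚ) - 2) + 1 ≠ 0 := by
        have : (0 : ℚ) ≤ n := by positivity
        linarith
      rw [mul_inv, ← inv_pow]
      field_simp
      ring
    · rw [GamZ, bi_negSucc]
      have e3 : ((-(n : ℤ) - 2 : ℤ) : ℚ) + 1 = -(n : ℚ) - 1 := by push_cast; ring
      have e4 : ((-(n : ℤ) - 2 : ℤ) : ℚ) = -(n : ℚ) - 2 := by push_cast; ring
      simp only [e3]
      rw [e4]
      have hne : PowerSeries.constantCoeff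
          (PowerSeries.C (1 / 4 : ℚ) * (2 * pt (-(n : ℚ) - 2) + 1) ^ 2) ≠ 0 := by
        rw [map_mul, PowerSeries.constantCoeff_C, map_pow, map_add, map_mul, constantCoeff_pt,
          constantCoeff_two, map_one]
        have h4 : 2 * (-(n : ℚ) - 2) + 1 ≠ 0 := by
          have : (0 : ℚ) ≤ n := by positivity
          linarith
        positivity
      have h1 := PowerSeries.mul_inv_cancel _ hne
      have h2 : (-(PowerSeries.C (1 / 4 : ℚ) * (2 * pt (-(n : ℚ) - 2) + 1) ^ 2))⁻¹ =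
          -(PowerSeries.C (1 / 4 : ℚ) * (2 * pt (-(n : ℚ) - 2) + 1) ^ 2)⁻¹ := by
        rw [PowerSeries.inv_eq_iff_mul_eq_one]
        · linear_combination h1
        · rw [map_neg]; exact neg_ne_zero.mpr hne
      rw [h2]
      ring

/-- germ of `g` at `l + 1/2`, `l ≥ 0` -/
lemma lead_GamH0_succ (n : ℕ) :
    Lead 2 (4 * hstar n) (D.GamH0 ((n + 1 : ℕ) : ℤ) : PowerSeries ℚ) := by
  induction n with
  | zero =>
    have h := ((Lead.C (1 / 4)).mul (lead_two_pt_half.pow 2)).mul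
      ((Lead.pt (1 / 2 : ℚ)).pow 2).inv
    refine h.congr (by norm_num) (by norm_num [hstar]) ?_
    rw [D.GamH0, bi_succ]
    have e3 : ((0 : ℕ) : ℤ) = 0 := rfl
    rw [e3]
    have e0 : bi (fun i => pt ((i : ℚ) - 1 / 2 + 1) ^ 2)
        (fun i => -(PowerSeries.C (1 / 4) * (2 * pt ((i : ℚ) - 1 / 2) + 1) ^ 2)) (fun _ => 0) 1 0
        = (1 : PowerSeries ℚ) := rfl
    rw [e0]
    have e4 : (((0 : ℤ)) : ℚ) - 1 / 2 + 1 = 1 / 2 := by norm_num
    have e5 : (((0 : ℤ)) : ℚ) - 1 / 2 = -1 / 2 := by norm_num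
    simp only [e4]
    rw [e5]
    ring
  | succ n ih =>
    have h := ((Lead.C (1 / 4)).mul ((lead_two_pt (((n + 1 : ℕ) : ℚ) - 1 / 2)).pow 2)).mul
      (ih.mul ((Lead.pt (((n + 1 : ℕ) : ℚ) - 1 / 2 + 1)).pow 2).inv)
    refine h.congr (by norm_num) ?_ ?_
    · rw [hstar_succ]
      have h3 : 2 * ((n : ℚ) + 1) + 1 ≠ 0 := by positivity
      have h4 : (((n + 1 : ℕ) : ℚ) - 1 / 2 + 1) ≠ 0 := by
        push_cast
        have : (0 : ℚ) ≤ n := by positivity
        linarith
      have h5 : (((n + 1 : ℕ) : ℚ) - 1 / 2 + 1) = (2 * ((n : ℚ) + 1) + 1) / 2 := by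
        push_cast; ring
      rw [h5]
      push_cast
      field_simp
      ring
    · have hs : D.GamH0 ((n + 1 + 1 : ℕ) : ℤ) =
          (0 - (-(PowerSeries.C (1 / 4) * (2 * pt ((((n + 1 : ℕ) : ℤ) : ℚ) - 1 / 2) + 1) ^ 2))
            * D.GamH0 ((n + 1 : ℕ) : ℤ)) * (pt ((((n + 1 : ℕ) : ℤ) : ℚ) - 1 / 2 + 1) ^ 2)⁻¹ := rfl
      rw [hs, Int.cast_natCast]
      ring

/-- germ of `g` at `-1/2 - n` -/
lemma lead_GamH0_neg (n : ℕ) :
    Lead 0 (gval n) (D.GamH0 (-(n : ℤ)) : PowerSeries ℚ) := by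
  induction n with
  | zero => exact ⟨1, by simp; rfl, by simp [gval]⟩
  | succ n ih =>
    have h := (((Lead.pt (-(n : ℚ) - 1 / 2)).pow 2).mul ih).mul
      ((Lead.C (1 / 4)).mul ((lead_two_pt (-(n : ℚ) - 1 - 1 / 2)).pow 2)).inv
    have hn : (0 : ℚ) ≤ n := by positivity
    have h4 : 2 * (-(n : ℚ) - 1 - 1 / 2) + 1 ≠ 0 := by linarith
    refine h.congr (by norm_num) ?_ ?_
    · rw [gval_succ]
      have h3 : (n : ℚ) + 1 ≠ 0 := by positivity
      have h5 : 2 * (-(n : ℚ) - 1 - 1 / 2) + 1 = -(2 * ((n : ℚ) + 1)) := by ring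
      have h6 : -(n : ℚ) - 1 / 2 = -((2 * (n : ℚ) + 1) / 2) := by ring
      rw [h5, h6]
      field_simp
      ring
    · have hne : PowerSeries.constantCoeff
          (PowerSeries.C (1 / 4 : ℚ) * (2 * pt (-(n : ℚ) - 1 - 1 / 2) + 1) ^ 2) ≠ 0 := by
        rw [map_mul, PowerSeries.constantCoeff_C, map_pow, map_add, map_mul, constantCoeff_pt,
          constantCoeff_two, map_one]
        positivity
      have h1 := PowerSeries.mul_inv_cancel _ hne
      have h2 : (-(PowerSeries.C (1 / 4 : ℚ) * (2 * pt (-(n : ℚ) - 1 - 1 / 2) + 1) ^ 2))⁻¹ =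
          -(PowerSeries.C (1 / 4 : ℚ) * (2 * pt (-(n : ℚ) - 1 - 1 / 2) + 1) ^ 2)⁻¹ := by
        rw [PowerSeries.inv_eq_iff_mul_eq_one]
        · linear_combination h1
        · rw [map_neg]; exact neg_ne_zero.mpr hne
      cases n with
      | zero =>
        have e2 : (-((0 + 1 : ℕ) : ℤ)) = -1 := rfl
        rw [e2, D.GamH0, bi_negOne]
        have e0 : bi (fun i => pt ((i : ℚ) - 1 / 2 + 1) ^ 2)
          (fun i => -(PowerSeries.C (1 / 4) * (2 * pt ((i : ℚ) - 1 / 2) + 1) ^ 2)) (fun _ => 0) 1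
            (-((0 : ℕ) : ℤ)) = (1 : PowerSeries ℚ) := rfl
        rw [e0]
        have e3 : ((-1 : ℤ) : ℚ) - 1 / 2 + 1 = -((0 : ℕ) : ℚ) - 1 / 2 := by norm_num
        have e4 : ((-1 : ℤ) : ℚ) - 1 / 2 = -((0 : ℕ) : ℚ) - 1 - 1 / 2 := by norm_num
        simp only [e3]
        rw [e4, h2]
        ring
      | succ m =>
        have e1 : (-((m + 1 + 1 : ℕ) : ℤ)) = Int.negSucc (m + 1) := by
          rw [Int.negSucc_eq]; push_cast; ring
        have e1' : (-((m + 1 : ℕ) : ℤ)) = Int.negSucc m := by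
          rw [Int.negSucc_eq]; push_cast; ring
        have hs : D.GamH0 (Int.negSucc (m + 1)) =
          (0 - pt (((-(m : ℤ) - 2 : ℤ) : ℚ) - 1 / 2 + 1) ^ 2 * D.GamH0 (Int.negSucc m)) *
            (-(PowerSeries.C (1 / 4) * (2 * pt (((-(m : ℤ) - 2 : ℤ) : ℚ) - 1 / 2) + 1) ^ 2))⁻¹ := rfl
        have e3 : ((-(m : ℤ) - 2 : ℤ) : ℚ) - 1 / 2 + 1 = -((m + 1 : ℕ) : ℚ) - 1 / 2 := by
          push_cast; ring
        have e4 : ((-(m : ℤ) - 2 : ℤ) : ℚ) - 1 / 2 = -((m + 1 : ℕ) : ℚ) - 1 - 1 / 2 := by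
          push_cast; ring
        rw [e1, e1', hs, e3, e4, h2]
        ring

/-- **closed form of the germs of `g`** -/
theorem lead_gam (z : Site) : Lead (gord z) (gtop z) (gam z) := by
  rcases z with (n | n) | (n | n)
  · have := lead_GamZ n
    simpa [gord, gtop, gam] using this
  · have := lead_GamZ_neg n
    have h : ¬ (0 : ℤ) ≤ Int.negSucc n := by
      rw [Int.negSucc_eq]; omega
    simpa [gord, gtop, gam, h] using this
  · have := lead_GamH0_succ n
    simpa [gord, gtop, gam, D.GamH] using this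
  · have := lead_GamH0_neg n
    have h : ¬ (0 : ℤ) ≤ Int.negSucc n := by
      rw [Int.negSucc_eq]; omega
    have h2 : Int.negSucc n + 1 = -(n : ℤ) := by
      rw [Int.negSucc_eq]; ring
    simp only [gord, gtop, gam, D.GamH, h, if_false, h2]
    exact this

/-! ### the `Q`-entries -/

lemma mult_le (S : Shape) (u c : ℕ) (z : Site) : S.mult u c z ≤ gord z + 1 := by
  rcases z with i | i <;> simp only [Shape.mult, gord] <;> split_ifs <;> omega

section lam

variable {ι : Type*} [Fintype ι] [DecidableEq ι] (z : ι → ℚ) (m : ι → ℕ) (σ : ι → Site)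
variable (A : Type*) [CommRing A] [Algebra ℚ A]

/-- **the `Q`-entries**: only the sites whose multiplicity is maximal see the column, through the
leading coefficient of the germ of `g`. -/
theorem lam_gam (hm : ∀ i, m i ≤ gord (σ i) + 1) (hz : Function.Injective z) (p Q : ℚ[X]) :
    Lam.lam z m p (fun i => PowerSeries.map (algebraMap ℚ A) (gm (z i) Q * gam (σ i))) =
      algebraMap ℚ A (∑ i, if m i = gord (σ i) + 1 then
        gtop (σ i) * ((p * Q).eval (z i) / (Lam.Nhat z m i).eval (z i)) else 0) := by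
  rw [Lam.lam, Fintype.sum_sigma, map_sum]
  refine Finset.sum_congr rfl fun i _ => ?_
  rcases Nat.eq_zero_or_pos (m i) with h0 | h0
  · rw [if_neg (by omega), map_zero]
    apply Finset.sum_eq_zero
    intro j _
    exact absurd j.2 (by omega)
  · have h1 : ∀ j : Fin (m i), algebraMap ℚ A (Lam.u z m p ⟨i, j⟩) *
        PowerSeries.coeff (j : ℕ)
          (PowerSeries.map (algebraMap ℚ A) (gm (z i) Q * gam (σ i))) =
        algebraMap ℚ A (Lam.u z m p ⟨i, j⟩ * PowerSeries.coeff (j : ℕ) (gm (z i) Q * gam (σ i))) := by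
      intro j
      rw [PowerSeries.coeff_map, (algebraMap ℚ A).map_mul]
    have h2 : (∑ j : Fin (m i), algebraMap ℚ A (Lam.u z m p ⟨i, j⟩) *
        PowerSeries.coeff (j : ℕ)
          (PowerSeries.map (algebraMap ℚ A) (gm (z i) Q * gam (σ i)))) =
        algebraMap ℚ A (PowerSeries.coeff (m i - 1)
          ((gm (z i) Q * gam (σ i)) * Lam.wt z m p i)) := by
      rw [← Lam.sum_u_mul m i (by omega) p, map_sum]
      exact Finset.sum_congr rfl fun j _ => h1 j
    refine h2.trans ?_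
    congr 1
    obtain ⟨w, hw, hw0⟩ := lead_gam (σ i)
    have h3 : (gm (z i) Q * gam (σ i)) * Lam.wt z m p i =
        PowerSeries.X ^ (gord (σ i)) * (gm (z i) Q * w * Lam.wt z m p i) := by
      rw [hw]; ring
    rw [h3, PowerSeries.coeff_X_pow_mul']
    by_cases h4 : m i = gord (σ i) + 1
    · have h5 : m i - 1 - gord (σ i) = 0 := by omega
      rw [if_pos h4, if_pos (by omega), h5, PowerSeries.coeff_zero_eq_constantCoeff_apply,
        map_mul, map_mul, hw0, Lam.wt, map_mul, PowerSeries.constantCoeff_inv,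
        Lam.constantCoeff_germ, Lam.constantCoeff_germ]
      have h6 : PowerSeries.constantCoeff (gm (z i) Q) = Q.eval (z i) :=
        Lam.constantCoeff_germ (z i) Q
      rw [h6, eval_mul]
      have h7 := Lam.Nhat_eval_ne m hz i
      field_simp
    · have := hm i
      rw [if_neg h4, if_neg (by omega)]

end lam

/-! ### valuations at `2` -/

/-- lower bound for the `2`-adic valuation of `gtop` -/
def gv : Site → ℤ
  | .Z (Int.ofNat n) => -(4 * n)
  | .Z (Int.negSucc n) => 4 * n - 2 * Nat.log 2 n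
  | .H (Int.ofNat n) => 4 * n - 2 * Nat.log 2 n
  | .H (Int.negSucc n) => -(4 * n)

lemma val_factorial_two (n : ℕ) : (n : ℤ) - Nat.log 2 n - 1 ≤ padicValNat 2 n.factorial := by
  have h := sub_one_mul_padicValNat_factorial (p := 2) n
  have h1 : (Nat.digits 2 n).sum ≤ Nat.log 2 n + 1 := by
    rcases Nat.eq_zero_or_pos n with rfl | hn
    · simp
    · have h2 : (Nat.digits 2 n).sum ≤ (Nat.digits 2 n).length * 1 := by
        apply List.sum_le_card_nsmul
        intro d hd
        have := Nat.digits_lt_base (by norm_num : 1 < 2) hd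
        omega
      rw [Nat.length_digits 2 n (by norm_num) (by omega)] at h2
      omega
  have h3 : (Nat.digits 2 n).sum ≤ n := Nat.digit_sum_le 2 n
  omega

lemma val_gval (n : ℕ) : -(4 * n : ℤ) ≤ padicValRat 2 (gval n) := by
  have hc : (n.centralBinom : ℚ) ≠ 0 := by exact_mod_cast n.centralBinom_ne_zero
  rw [gval_eq, padicValRat.div (pow_ne_zero _ hc) (pow_ne_zero _ (by norm_num)), padicValRat.pow,
    padicValRat.pow]
  have h16 : padicValRat 2 (16 : ℚ) = 4 := by
    have : (16 : ℚ) = (2 : ℚ) ^ 4 := by norm_num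
    rw [this, padicValRat.pow]
    have h2 : padicValRat 2 (2 : ℚ) = 1 := by
      have := padicValRat.self (p := 2) (by norm_num)
      exact_mod_cast this
    rw [h2]; norm_num
  rw [h16]
  have h0 : 0 ≤ padicValRat 2 (n.centralBinom : ℚ) := by
    rw [padicValRat.of_nat]; positivity
  push_cast
  linarith

lemma val_hstar (n : ℕ) :
    padicValRat 2 (hstar n) = 2 * n + 2 * (padicValNat 2 n.factorial : ℤ) := by
  have h2 : padicValRat 2 (2 : ℚ) = 1 := by
    have := padicValRat.self (p := 2) (by norm_num)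
    exact_mod_cast this
  induction n with
  | zero => simp [hstar]
  | succ n ih =>
    have h3 : ((n : ℚ) + 1) ≠ 0 := by positivity
    have h4 : 2 * ((n : ℚ) + 1) + 1 ≠ 0 := by positivity
    have h5 : padicValRat 2 (2 * ((n : ℚ) + 1) + 1) = 0 := by
      have : 2 * ((n : ℚ) + 1) + 1 = ((2 * (n + 1) + 1 : ℕ) : ℚ) := by push_cast; ring
      rw [this, padicValRat.of_nat]
      have : padicValNat 2 (2 * (n + 1) + 1) = 0 := by
        apply padicValNat.eq_zero_of_not_dvd
        omega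
      rw [this]; rfl
    rw [hstar_succ, padicValRat.mul (hstar_ne n) (by positivity), ih, padicValRat.pow,
      padicValRat.div (by positivity) h4, h5, padicValRat.mul (by norm_num) h3, h2]
    have h6 : ((n : ℚ) + 1) = ((n + 1 : ℕ) : ℚ) := by push_cast; ring
    rw [h6, padicValRat.of_nat, Nat.factorial_succ,
      padicValNat.mul (by omega) (Nat.factorial_ne_zero n)]
    push_cast
    ring

theorem gv_le (z : Site) : gv z ≤ padicValRat 2 (gtop z) := by
  have h4 : padicValRat 2 (4 : ℚ) = 2 := by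
    have : (4 : ℚ) = (2 : ℚ) ^ 2 := by norm_num
    rw [this, padicValRat.pow]
    have h2 : padicValRat 2 (2 : ℚ) = 1 := by
      have := padicValRat.self (p := 2) (by norm_num)
      exact_mod_cast this
    rw [h2]; norm_num
  rcases z with (n | n) | (n | n) <;> simp only [gtop, gv]
  · exact val_gval n
  · rw [padicValRat.mul (by norm_num) (hstar_ne n), h4, val_hstar]
    have := val_factorial_two n
    omega
  · rw [padicValRat.mul (by norm_num) (hstar_ne n), h4, val_hstar]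
    have := val_factorial_two n
    omega
  · exact val_gval n

end Crest.Agent.R006.P6Q
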