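import Mathlib
import Crest.Agent.R006.Lam_89

/-!
# Row 6, block P6, leaf V (helper404): valuations of node products

`W2 p z m = ∑_{i ≠ l} m_i m_l v_p (z_i - z_l)` = twice the valuation of the confluent Vandermonde.

* `W2_sub`, `W2_sub_ind` : `W(m) - ∑_{x ∈ T} v(Nhat(x)) + W(1_T) = W(m - 1_T)`;
* `W2_ge_of_int` : `W2 ≥ X² ∑_{j ≤ J} p^{-j} - J ∑ m_i²` for integer sites, every prime, every `J`;
* `W2_two_ge` : sites in `ℤ ∪ (ℤ + 1/2)`, `p = 2`:
  `W2 ≥ (X - Y)² - (X² + Y²) / 2^J - J ∑ m_i²`, `X`, `Y` = integer and half-integer mass;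
* `W2_two_ge_log` : the same with `J = log_2 N + 1`.
-/

set_option autoImplicit false

namespace Crest.Agent.R006.P6V

open Finset Polynomial Crest.Agent.R006.Lam

/-! ### the quadratic form -/

section form

variable {ι : Type*} [Fintype ι] [DecidableEq ι]

/-- twice the `p`-adic valuation of the confluent Vandermonde of the sites `z` with the
multiplicities `m` -/
def W2 (p : ℕ) (z : ι → ℚ) (m : ι → ℤ) : ℤ :=
  ∑ i, ∑ l ∈ univ.erase i, m i * m l * padicValRat p (z i - z l)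

/-- valuation of `∏_{l ≠ i} (z i - z l)^(m l)` -/
def vN (p : ℕ) (z : ι → ℚ) (m : ι → ℤ) (i : ι) : ℤ :=
  ∑ l ∈ univ.erase i, m l * padicValRat p (z i - z l)

lemma W2_eq_vN (p : ℕ) (z : ι → ℚ) (m : ι → ℤ) : W2 p z m = ∑ i, m i * vN p z m i := by
  unfold W2 vN
  refine Finset.sum_congr rfl fun i _ => ?_
  rw [Finset.mul_sum]
  exact Finset.sum_congr rfl fun l _ => by ring

lemma W2_cross_symm (p : ℕ) (z : ι → ℚ) (m t : ι → ℤ) :
    ∑ i, m i * vN p z t i = ∑ i, t i * vN p z m i := by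
  unfold vN
  simp only [Finset.mul_sum]
  have h : ∀ f g : ι → ℤ, ∑ i, ∑ l ∈ univ.erase i, f i * (g l * padicValRat p (z i - z l))
      = ∑ i, ∑ l, if l = i then 0 else f i * (g l * padicValRat p (z i - z l)) := by
    intro f g
    refine Finset.sum_congr rfl fun i _ => ?_
    rw [← Finset.add_sum_erase univ _ (mem_univ i)]
    simp only [if_true, zero_add]
    exact Finset.sum_congr rfl fun l hl => by rw [if_neg (Finset.ne_of_mem_erase hl)]
  rw [h m t, h t m, Finset.sum_comm]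
  refine Finset.sum_congr rfl fun i _ => Finset.sum_congr rfl fun l _ => ?_
  by_cases hil : i = l
  · rw [if_pos hil, if_pos hil.symm]
  · rw [if_neg hil, if_neg (Ne.symm hil), ← padicValRat.neg (z l - z i), neg_sub]
    ring

/-- the identity for arbitrary integer weights -/
theorem W2_sub (p : ℕ) (z : ι → ℚ) (m t : ι → ℤ) :
    W2 p z (fun i => m i - t i) = W2 p z m - 2 * ∑ i, t i * vN p z m i + W2 p z t := by
  have h1 : ∀ i, vN p z (fun i => m i - t i) i = vN p z m i - vN p z t i := by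
    intro i
    unfold vN
    rw [← Finset.sum_sub_distrib]
    exact Finset.sum_congr rfl fun l _ => by ring
  have h2 := W2_cross_symm p z m t
  rw [W2_eq_vN, W2_eq_vN, W2_eq_vN]
  simp only [h1]
  have h3 : ∑ i, (m i - t i) * (vN p z m i - vN p z t i)
      = ∑ i, m i * vN p z m i - ∑ i, t i * vN p z m i - ∑ i, m i * vN p z t i
        + ∑ i, t i * vN p z t i := by
    rw [← Finset.sum_sub_distrib, ← Finset.sum_sub_distrib, ← Finset.sum_add_distrib]
    exact Finset.sum_congr rfl fun i _ => by ring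
  rw [h3, h2]
  ring

/-- indicator of a set of sites -/
def ind (T : Finset ι) (i : ι) : ℤ := if i ∈ T then 1 else 0

lemma sum_ind_mul (T : Finset ι) (f : ι → ℤ) : ∑ i, ind T i * f i = ∑ i ∈ T, f i := by
  unfold ind
  simp only [ite_mul, one_mul, zero_mul]
  rw [Finset.sum_ite_mem, Finset.univ_inter]

/-- `W(m - 1_T) = W(m) - ∑_{x ∈ T} v(Nhat(x)) + W(1_T)` (doubled) -/
theorem W2_sub_ind (p : ℕ) (z : ι → ℚ) (m : ι → ℤ) (T : Finset ι) :
    W2 p z (fun i => m i - ind T i)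
      = W2 p z m - 2 * ∑ i ∈ T, vN p z m i + W2 p z (ind T) := by
  rw [W2_sub, sum_ind_mul]

/-- `W2` of an indicator as a sum over the set -/
theorem W2_ind (p : ℕ) (z : ι → ℚ) (T : Finset ι) :
    W2 p z (ind T) = ∑ i ∈ T, ∑ l ∈ T.erase i, padicValRat p (z i - z l) := by
  rw [W2_eq_vN, sum_ind_mul]
  refine Finset.sum_congr rfl fun i hi => ?_
  unfold vN ind
  simp only [ite_mul, one_mul, zero_mul]
  rw [Finset.sum_ite_mem]
  refine Finset.sum_congr ?_ fun _ _ => rfl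
  ext l
  simp only [Finset.mem_inter, Finset.mem_erase, Finset.mem_univ, and_true]

lemma padicValRat_prod {κ : Type*} (p : ℕ) [Fact p.Prime] (s : Finset κ) (f : κ → ℚ)
    (hf : ∀ x ∈ s, f x ≠ 0) : padicValRat p (∏ x ∈ s, f x) = ∑ x ∈ s, padicValRat p (f x) := by
  classical
  induction s using Finset.induction_on with
  | empty => simp
  | insert a s ha ih =>
    rw [Finset.prod_insert ha, Finset.sum_insert ha,
      padicValRat.mul (hf a (mem_insert_self a s))
        (Finset.prod_ne_zero_iff.2 fun x hx => hf x (mem_insert_of_mem hx)),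
      ih fun x hx => hf x (mem_insert_of_mem hx)]

/-- the valuation of `Nhat` at its site -/
theorem padicValRat_Nhat (p : ℕ) [Fact p.Prime] (z : ι → ℚ) (hz : Function.Injective z)
    (m : ι → ℕ) (i : ι) :
    padicValRat p ((Nhat z m i).eval (z i)) = vN p z (fun l => (m l : ℤ)) i := by
  have h : (Nhat z m i).eval (z i) = ∏ l ∈ univ.erase i, (z i - z l) ^ (m l) := by
    unfold Nhat
    rw [Polynomial.eval_prod]
    exact Finset.prod_congr rfl fun l _ => by simp
  rw [h, padicValRat_prod p _ _ (fun l hl => pow_ne_zero _ (sub_ne_zero.2 fun h' =>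
    (Finset.ne_of_mem_erase hl) (hz h').symm))]
  unfold vN
  refine Finset.sum_congr rfl fun l hl => ?_
  rw [padicValRat.pow]

/-- version with `Nhat` -/
theorem W2_sub_ind_Nhat (p : ℕ) [Fact p.Prime] (z : ι → ℚ) (hz : Function.Injective z)
    (m : ι → ℕ) (T : Finset ι) :
    W2 p z (fun i => (m i : ℤ) - ind T i)
      = W2 p z (fun i => (m i : ℤ))
        - 2 * ∑ i ∈ T, padicValRat p ((Nhat z m i).eval (z i)) + W2 p z (ind T) := by
  rw [W2_sub_ind]
  simp only [padicValRat_Nhat p z hz m]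

end form

/-! ### levels -/

lemma padicValInt_ge (p : ℕ) [hp : Fact p.Prime] {d : ℤ} (hd : d ≠ 0) (J : ℕ) :
    ∑ j ∈ Ico 1 (J + 1), (if ((p : ℤ) ^ j ∣ d) then (1 : ℤ) else 0) ≤ padicValInt p d := by
  rw [Finset.sum_ite, Finset.sum_const_zero, add_zero, Finset.sum_const, nsmul_eq_mul, mul_one]
  have h : (Ico 1 (J + 1)).filter (fun j => (p : ℤ) ^ j ∣ d) ⊆ Ico 1 (padicValInt p d + 1) := by
    intro j hj
    rw [Finset.mem_filter, Finset.mem_Ico] at hj
    rw [Finset.mem_Ico]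
    refine ⟨hj.1.1, ?_⟩
    have := (padicValInt_dvd_iff j d).1 hj.2
    rcases this with h0 | h0
    · exact absurd h0 hd
    · omega
  have h2 := Finset.card_le_card h
  rw [Nat.card_Ico] at h2
  have h3 : ((Ico 1 (J + 1)).filter (fun j => (p : ℤ) ^ j ∣ d)).card ≤ padicValInt p d := by omega
  exact_mod_cast h3

/-- Cauchy-Schwarz for the residue classes -/
lemma sum_dvd_ge {ι : Type*} (s : Finset ι) (x : ι → ℤ) (m : ι → ℤ) (N : ℕ) (hN : 0 < N) :
    (∑ i ∈ s, m i) ^ 2 ≤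
      N * ∑ i ∈ s, ∑ l ∈ s, (if ((N : ℤ) ∣ x i - x l) then m i * m l else 0) := by
  classical
  have : NeZero N := ⟨hN.ne'⟩
  set Mc : ZMod N → ℤ := fun c => ∑ i ∈ s, if ((x i : ℤ) : ZMod N) = c then m i else 0 with hMc
  have h1 : ∑ c, Mc c = ∑ i ∈ s, m i := by
    rw [hMc]
    simp only
    rw [Finset.sum_comm]
    refine Finset.sum_congr rfl fun i _ => ?_
    rw [Finset.sum_ite_eq]
    simp
  have h2 : ∑ c, (Mc c) ^ 2 =
      ∑ i ∈ s, ∑ l ∈ s, (if ((N : ℤ) ∣ x i - x l) then m i * m l else 0) := by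
    have : ∀ c, (Mc c) ^ 2 = ∑ i ∈ s, ∑ l ∈ s,
        (if ((x i : ℤ) : ZMod N) = c then m i else 0) *
          (if ((x l : ℤ) : ZMod N) = c then m l else 0) := by
      intro c
      rw [sq, hMc, Finset.sum_mul_sum]
    simp only [this]
    rw [Finset.sum_comm]
    refine Finset.sum_congr rfl fun i _ => ?_
    rw [Finset.sum_comm]
    refine Finset.sum_congr rfl fun l _ => ?_
    have h3 : ∀ c : ZMod N, (if ((x i : ℤ) : ZMod N) = c then m i else 0) *
          (if ((x l : ℤ) : ZMod N) = c then m l else 0)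
        = if ((x i : ℤ) : ZMod N) = c then
            (if ((x l : ℤ) : ZMod N) = ((x i : ℤ) : ZMod N) then m i * m l else 0) else 0 := by
      intro c
      by_cases h : ((x i : ℤ) : ZMod N) = c
      · subst h
        simp only [if_true]
        split_ifs <;> simp
      · simp [h]
    simp only [h3]
    rw [Finset.sum_ite_eq]
    simp only [Finset.mem_univ, if_true]
    have h4 : (((x l : ℤ) : ZMod N) = ((x i : ℤ) : ZMod N)) ↔ ((N : ℤ) ∣ x i - x l) :=
      ZMod.intCast_eq_intCast_iff_dvd_sub (x l) (x i) N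
    simp only [h4]
  have h5 := sq_sum_le_card_mul_sum_sq (s := (Finset.univ : Finset (ZMod N))) (f := Mc)
  rw [h1, h2, Finset.card_univ, ZMod.card] at h5
  exact h5

/-- lower bound for integer sites -/
theorem sum_val_ge {ι : Type*} [DecidableEq ι] (p : ℕ) [hp : Fact p.Prime] (s : Finset ι)
    (x : ι → ℤ) (hx : Set.InjOn x s) (m : ι → ℤ) (hm : ∀ i ∈ s, 0 ≤ m i) (J : ℕ) :
    ((∑ i ∈ s, m i : ℤ) : ℝ) ^ 2 * (∑ j ∈ Ico 1 (J + 1), ((p : ℝ) ^ j)⁻¹)
        - J * ((∑ i ∈ s, (m i) ^ 2 : ℤ) : ℝ) ≤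
      ((∑ i ∈ s, ∑ l ∈ s.erase i, m i * m l * (padicValInt p (x i - x l) : ℤ) : ℤ) : ℝ) := by
  -- integer inequality
  have h1 : ∑ j ∈ Ico 1 (J + 1),
      (∑ i ∈ s, ∑ l ∈ s, (if (((p ^ j : ℕ) : ℤ) ∣ x i - x l) then m i * m l else 0)
        - ∑ i ∈ s, (m i) ^ 2)
      ≤ ∑ i ∈ s, ∑ l ∈ s.erase i, m i * m l * (padicValInt p (x i - x l) : ℤ) := by
    have h2 : ∀ j, (∑ i ∈ s, ∑ l ∈ s, (if (((p ^ j : ℕ) : ℤ) ∣ x i - x l) then m i * m l else 0)
        - ∑ i ∈ s, (m i) ^ 2)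
        = ∑ i ∈ s, ∑ l ∈ s.erase i,
            (if (((p ^ j : ℕ) : ℤ) ∣ x i - x l) then m i * m l else 0) := by
      intro j
      rw [← Finset.sum_sub_distrib]
      refine Finset.sum_congr rfl fun i hi => ?_
      rw [← Finset.add_sum_erase s _ hi]
      simp only [sub_self, dvd_zero, if_true]
      ring
    simp only [h2]
    rw [Finset.sum_comm]
    refine Finset.sum_le_sum fun i hi => ?_
    rw [Finset.sum_comm]
    refine Finset.sum_le_sum fun l hl => ?_
    have hne : x i - x l ≠ 0 := sub_ne_zero.2 fun h =>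
      (Finset.ne_of_mem_erase hl) (hx hi (Finset.mem_of_mem_erase hl) h).symm
    have h3 : ∑ j ∈ Ico 1 (J + 1), (if (((p ^ j : ℕ) : ℤ) ∣ x i - x l) then m i * m l else 0)
        = m i * m l * ∑ j ∈ Ico 1 (J + 1), (if ((p : ℤ) ^ j ∣ x i - x l) then (1 : ℤ) else 0) := by
      rw [Finset.mul_sum]
      refine Finset.sum_congr rfl fun j _ => ?_
      push_cast
      split_ifs <;> simp
    rw [h3]
    exact mul_le_mul_of_nonneg_left (padicValInt_ge p hne J)
      (mul_nonneg (hm i hi) (hm l (Finset.mem_of_mem_erase hl)))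
  refine le_trans ?_ (Int.cast_le.2 h1)
  rw [Int.cast_sum (Ico 1 (J + 1)), Finset.mul_sum]
  have hJ : (J : ℝ) * ((∑ i ∈ s, (m i) ^ 2 : ℤ) : ℝ)
      = ∑ j ∈ Ico 1 (J + 1), ((∑ i ∈ s, (m i) ^ 2 : ℤ) : ℝ) := by
    rw [Finset.sum_const, Nat.card_Ico, nsmul_eq_mul]
    simp
  rw [hJ, ← Finset.sum_sub_distrib]
  refine Finset.sum_le_sum fun j _ => ?_
  rw [Int.cast_sub]
  refine sub_le_sub_right ?_ _
  have hpj : 0 < p ^ j := pow_pos hp.out.pos j
  have h4 := sum_dvd_ge s x m (p ^ j) hpj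
  have h5 : (((∑ i ∈ s, m i : ℤ)) : ℝ) ^ 2 ≤ ((p ^ j : ℕ) : ℝ) *
      ((∑ i ∈ s, ∑ l ∈ s, (if (((p ^ j : ℕ) : ℤ) ∣ x i - x l) then m i * m l else 0) : ℤ) : ℝ) := by
    exact_mod_cast h4
  have hpr : (0 : ℝ) < (p : ℝ) ^ j := by exact_mod_cast hpj
  rw [← div_eq_mul_inv, div_le_iff₀ hpr]
  rw [mul_comm]
  push_cast at h5 ⊢
  exact h5

end Crest.Agent.R006.P6V
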