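import Mathlib
import Crest.Agent.R006.P6V_404
import Crest.Agent.R006.Bord_89

/-!
# Row 6, block P6, leaf V, part 2 (helper404): mixed sites at the prime 2

Sites in `ℤ` and `ℤ + 1/2`; `X`, `Y` = integer and half-integer mass.

* `W2_two_ge` : `(X - Y)² - (X² + Y²) / 2^J - J ∑ m_i² ≤ W2 2 z m`;
* `W2_two_ge_log` : `(X - Y)² - N (1 + M J) ≤ W2 2 z m`, `N ≥ X + Y`, `m ≤ M`, `2^J ≥ N`;
* `W2_St_ge` : the instance for the sites `St S u c` of a shape;
* `W2_St_ind_ge`, `val_set_ge` : the case of a set of sites.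
* `sum_top_le`, `sum_bot_ge`, `vfac_ge`: bookkeeping lemmas.
-/

set_option autoImplicit false

namespace Crest.Agent.R006.P6V

open Finset Polynomial Crest.Agent.R006.Lam

variable {ι : Type*} [Fintype ι] [DecidableEq ι]

lemma filter_erase_pos (P : ι → Prop) [DecidablePred P] (i : ι) :
    (univ.erase i).filter P = (univ.filter P).erase i := by
  ext l
  simp only [Finset.mem_filter, Finset.mem_erase, Finset.mem_univ, and_true, true_and]

/-- splitting a sum over ordered pairs along a predicate -/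
lemma sum_pairs_split (P : ι → Prop) [DecidablePred P] (f : ι → ι → ℤ) :
    ∑ i, ∑ l ∈ univ.erase i, f i l =
      (∑ i ∈ univ.filter P, ∑ l ∈ (univ.filter P).erase i, f i l
        + ∑ i ∈ univ.filter (fun i => ¬ P i), ∑ l ∈ (univ.filter (fun i => ¬ P i)).erase i, f i l)
      + (∑ i ∈ univ.filter P, ∑ l ∈ univ.filter (fun i => ¬ P i), f i l
        + ∑ i ∈ univ.filter (fun i => ¬ P i), ∑ l ∈ univ.filter P, f i l) := by
  have h : ∀ i, ∑ l ∈ univ.erase i, f i l = ∑ l ∈ (univ.filter P).erase i, f i l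
      + ∑ l ∈ (univ.filter (fun i => ¬ P i)).erase i, f i l := by
    intro i
    rw [← Finset.sum_filter_add_sum_filter_not (univ.erase i) P, filter_erase_pos,
      filter_erase_pos]
  rw [← Finset.sum_filter_add_sum_filter_not univ P]
  have h1 : ∑ i ∈ univ.filter P, ∑ l ∈ univ.erase i, f i l
      = ∑ i ∈ univ.filter P, ∑ l ∈ (univ.filter P).erase i, f i l
        + ∑ i ∈ univ.filter P, ∑ l ∈ univ.filter (fun i => ¬ P i), f i l := by
    rw [← Finset.sum_add_distrib]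
    refine Finset.sum_congr rfl fun i hi => ?_
    rw [h i, Finset.erase_eq_of_notMem (s := univ.filter (fun i => ¬ P i))]
    simp only [Finset.mem_filter, Finset.mem_univ, true_and, not_not] at hi ⊢
    exact hi
  have h2 : ∑ i ∈ univ.filter (fun i => ¬ P i), ∑ l ∈ univ.erase i, f i l
      = ∑ i ∈ univ.filter (fun i => ¬ P i), ∑ l ∈ (univ.filter (fun i => ¬ P i)).erase i, f i l
        + ∑ i ∈ univ.filter (fun i => ¬ P i), ∑ l ∈ univ.filter P, f i l := by
    rw [← Finset.sum_add_distrib]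
    refine Finset.sum_congr rfl fun i hi => ?_
    rw [h i, Finset.erase_eq_of_notMem (s := univ.filter P)]
    · rw [add_comm]
    · simp only [Finset.mem_filter, Finset.mem_univ, true_and] at hi ⊢
      exact hi
  rw [h1, h2]
  ring

/-- valuation of an odd half-integer -/
lemma padicValRat_two_half (a : ℤ) : padicValRat 2 ((a : ℚ) + 1 / 2) = -1 := by
  have h0 : (2 * a + 1 : ℤ) ≠ 0 := by omega
  have h1 : ((a : ℚ) + 1 / 2) = ((2 * a + 1 : ℤ) : ℚ) / ((2 : ℕ) : ℚ) := by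
    push_cast
    ring
  rw [h1, padicValRat.div (by exact_mod_cast h0) (by norm_num), padicValRat.of_int,
    padicValRat.self (by norm_num), padicValInt.eq_zero_of_not_dvd (by omega)]
  norm_num

lemma geom_two (J : ℕ) : ∑ j ∈ Ico 1 (J + 1), ((2 : ℝ) ^ j)⁻¹ = 1 - ((2 : ℝ) ^ J)⁻¹ := by
  induction J with
  | zero => simp
  | succ J ih =>
    rw [Finset.sum_Ico_succ_top (by omega), ih, pow_succ]
    have : (2 : ℝ) ^ J ≠ 0 := by positivity
    field_simp
    ring

/-- **Leaf V, real form.** -/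
theorem W2_two_ge (z : ι → ℚ) (hz : Function.Injective z) (x : ι → ℤ) (P : ι → Prop)
    [DecidablePred P] (hx : ∀ i, z i = (x i : ℚ) + if P i then 1 / 2 else 0)
    (m : ι → ℤ) (hm : ∀ i, 0 ≤ m i) (J : ℕ) :
    (((∑ i ∈ univ.filter (fun i => ¬ P i), m i) - ∑ i ∈ univ.filter P, m i : ℤ) : ℝ) ^ 2
      - (((∑ i ∈ univ.filter (fun i => ¬ P i), m i : ℤ) : ℝ) ^ 2
          + ((∑ i ∈ univ.filter P, m i : ℤ) : ℝ) ^ 2) * ((2 : ℝ) ^ J)⁻¹
      - J * ((∑ i, (m i) ^ 2 : ℤ) : ℝ) ≤ ((W2 2 z m : ℤ) : ℝ) := by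
  have hinj1 : Set.InjOn x (univ.filter P : Finset ι) := by
    intro i hi l hl h
    have hi' := (Finset.mem_filter.1 hi).2
    have hl' := (Finset.mem_filter.1 hl).2
    refine hz ?_
    rw [hx i, hx l, h, if_pos hi', if_pos hl']
  have hinj2 : Set.InjOn x (univ.filter (fun i => ¬ P i) : Finset ι) := by
    intro i hi l hl h
    have hi' := (Finset.mem_filter.1 hi).2
    have hl' := (Finset.mem_filter.1 hl).2
    refine hz ?_
    rw [hx i, hx l, h, if_neg hi', if_neg hl']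
  have b1 := sum_val_ge 2 (univ.filter P) x hinj1 m (fun i _ => hm i) J
  have b2 := sum_val_ge 2 (univ.filter (fun i => ¬ P i)) x hinj2 m (fun i _ => hm i) J
  have e1 : ∑ i ∈ univ.filter P, ∑ l ∈ (univ.filter P).erase i,
      m i * m l * padicValRat 2 (z i - z l)
      = ∑ i ∈ univ.filter P, ∑ l ∈ (univ.filter P).erase i,
        m i * m l * (padicValInt 2 (x i - x l) : ℤ) := by
    refine Finset.sum_congr rfl fun i hi => Finset.sum_congr rfl fun l hl => ?_
    have hi' := (Finset.mem_filter.1 hi).2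
    have hl' := (Finset.mem_filter.1 (Finset.mem_of_mem_erase hl)).2
    rw [hx i, hx l, if_pos hi', if_pos hl', add_sub_add_right_eq_sub, ← Int.cast_sub,
      padicValRat.of_int]
  have e2 : ∑ i ∈ univ.filter (fun i => ¬ P i), ∑ l ∈ (univ.filter (fun i => ¬ P i)).erase i,
      m i * m l * padicValRat 2 (z i - z l)
      = ∑ i ∈ univ.filter (fun i => ¬ P i), ∑ l ∈ (univ.filter (fun i => ¬ P i)).erase i,
        m i * m l * (padicValInt 2 (x i - x l) : ℤ) := by
    refine Finset.sum_congr rfl fun i hi => Finset.sum_congr rfl fun l hl => ?_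
    have hi' := (Finset.mem_filter.1 hi).2
    have hl' := (Finset.mem_filter.1 (Finset.mem_of_mem_erase hl)).2
    rw [hx i, hx l, if_neg hi', if_neg hl', add_zero, add_zero, ← Int.cast_sub,
      padicValRat.of_int]
  have e3 : ∑ i ∈ univ.filter P, ∑ l ∈ univ.filter (fun i => ¬ P i),
      m i * m l * padicValRat 2 (z i - z l)
      = -((∑ i ∈ univ.filter P, m i) * ∑ l ∈ univ.filter (fun i => ¬ P i), m l) := by
    rw [Finset.sum_mul_sum, ← Finset.sum_neg_distrib]
    refine Finset.sum_congr rfl fun i hi => ?_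
    rw [← Finset.sum_neg_distrib]
    refine Finset.sum_congr rfl fun l hl => ?_
    have hi' := (Finset.mem_filter.1 hi).2
    have hl' := (Finset.mem_filter.1 hl).2
    have : z i - z l = ((x i - x l : ℤ) : ℚ) + 1 / 2 := by
      rw [hx i, hx l, if_pos hi', if_neg hl']
      push_cast
      ring
    rw [this, padicValRat_two_half]
    ring
  have e4 : ∑ i ∈ univ.filter (fun i => ¬ P i), ∑ l ∈ univ.filter P,
      m i * m l * padicValRat 2 (z i - z l)
      = -((∑ i ∈ univ.filter P, m i) * ∑ l ∈ univ.filter (fun i => ¬ P i), m l) := by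
    rw [← e3, Finset.sum_comm]
    refine Finset.sum_congr rfl fun i _ => Finset.sum_congr rfl fun l _ => ?_
    rw [← padicValRat.neg (z l - z i), neg_sub]
    ring
  have e5 : ∑ i, (m i) ^ 2 = ∑ i ∈ univ.filter P, (m i) ^ 2
      + ∑ i ∈ univ.filter (fun i => ¬ P i), (m i) ^ 2 :=
    (Finset.sum_filter_add_sum_filter_not univ P _).symm
  unfold W2
  rw [sum_pairs_split P, e1, e2, e3, e4, e5]
  have g : ∑ j ∈ Ico 1 (J + 1), (((2 : ℕ) : ℝ) ^ j)⁻¹ = 1 - ((2 : ℝ) ^ J)⁻¹ := by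
    rw [← geom_two J]
    push_cast
    rfl
  rw [g] at b1 b2
  simp only [Int.cast_add, Int.cast_sub, Int.cast_neg, Int.cast_mul]
  generalize ((∑ i ∈ univ.filter P, m i : ℤ) : ℝ) = Y at b1 b2 ⊢
  generalize ((∑ i ∈ univ.filter (fun i => ¬ P i), m i : ℤ) : ℝ) = X at b1 b2 ⊢
  nlinarith [b1, b2]

/-- **Leaf V, integer form.** -/
theorem W2_two_ge_log (z : ι → ℚ) (hz : Function.Injective z) (x : ι → ℤ) (P : ι → Prop)
    [DecidablePred P] (hx : ∀ i, z i = (x i : ℚ) + if P i then 1 / 2 else 0)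
    (m : ι → ℤ) (hm : ∀ i, 0 ≤ m i) (M : ℤ) (hM0 : 0 ≤ M) (hM : ∀ i, m i ≤ M) (N J : ℕ)
    (hN : ∑ i, m i ≤ N) (hJ : N ≤ 2 ^ J) :
    ((∑ i ∈ univ.filter (fun i => ¬ P i), m i) - ∑ i ∈ univ.filter P, m i) ^ 2
      - N * (1 + M * J) ≤ W2 2 z m := by
  have h := W2_two_ge z hz x P hx m hm J
  have hsplit : ∑ i, m i = ∑ i ∈ univ.filter P, m i
      + ∑ i ∈ univ.filter (fun i => ¬ P i), m i :=
    (Finset.sum_filter_add_sum_filter_not univ P _).symm
  have hY : 0 ≤ ∑ i ∈ univ.filter P, m i := Finset.sum_nonneg fun i _ => hm i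
  have hX : 0 ≤ ∑ i ∈ univ.filter (fun i => ¬ P i), m i := Finset.sum_nonneg fun i _ => hm i
  have hsq : ∑ i, (m i) ^ 2 ≤ M * N := by
    calc ∑ i, (m i) ^ 2 ≤ ∑ i, M * m i := by
          refine Finset.sum_le_sum fun i _ => ?_
          nlinarith [hm i, hM i]
      _ = M * ∑ i, m i := by rw [Finset.mul_sum]
      _ ≤ M * N := mul_le_mul_of_nonneg_left hN hM0
  have h2 : ((((∑ i ∈ univ.filter (fun i => ¬ P i), m i) - ∑ i ∈ univ.filter P, m i) ^ 2
      - N * (1 + M * J) : ℤ) : ℝ) ≤ ((W2 2 z m : ℤ) : ℝ) := by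
    refine le_trans ?_ h
    have hsq' : ((∑ i, (m i) ^ 2 : ℤ) : ℝ) ≤ (M : ℝ) * N := by exact_mod_cast hsq
    have hJ' : (N : ℝ) ≤ (2 : ℝ) ^ J := by exact_mod_cast hJ
    have hXY : ((∑ i ∈ univ.filter (fun i => ¬ P i), m i : ℤ) : ℝ)
        + ((∑ i ∈ univ.filter P, m i : ℤ) : ℝ) ≤ N := by
      have : (∑ i ∈ univ.filter (fun i => ¬ P i), m i) + ∑ i ∈ univ.filter P, m i ≤ N := by
        rw [add_comm, ← hsplit]
        exact hN
      exact_mod_cast this
    have hY' : (0 : ℝ) ≤ ((∑ i ∈ univ.filter P, m i : ℤ) : ℝ) := by exact_mod_cast hY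
    have hX' : (0 : ℝ) ≤ ((∑ i ∈ univ.filter (fun i => ¬ P i), m i : ℤ) : ℝ) := by
      exact_mod_cast hX
    simp only [Int.cast_sub, Int.cast_pow, Int.cast_mul, Int.cast_add, Int.cast_one,
      Int.cast_natCast] at hsq' ⊢
    generalize ((∑ i ∈ univ.filter P, m i : ℤ) : ℝ) = Y at *
    generalize ((∑ i ∈ univ.filter (fun i => ¬ P i), m i : ℤ) : ℝ) = X at *
    generalize ((∑ i, (m i) ^ 2 : ℤ) : ℝ) = Q at *
    have h3 : (X ^ 2 + Y ^ 2) * ((2 : ℝ) ^ J)⁻¹ ≤ N := by
      have hp : (0 : ℝ) < (2 : ℝ) ^ J := by positivity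
      rw [← div_eq_mul_inv, div_le_iff₀ hp]
      have hNn : (0 : ℝ) ≤ N := Nat.cast_nonneg N
      nlinarith
    have h4 : (J : ℝ) * Q ≤ J * (M * N) := mul_le_mul_of_nonneg_left hsq' (Nat.cast_nonneg J)
    nlinarith
  exact_mod_cast h2

/-- a set of sites -/
theorem ind_two_ge_log (z : ι → ℚ) (hz : Function.Injective z) (x : ι → ℤ) (P : ι → Prop)
    [DecidablePred P] (hx : ∀ i, z i = (x i : ℚ) + if P i then 1 / 2 else 0)
    (T : Finset ι) (J : ℕ) (hJ : T.card ≤ 2 ^ J) :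
    (((T.filter (fun i => ¬ P i)).card : ℤ) - (T.filter P).card) ^ 2
      - T.card * (1 + J) ≤ ∑ i ∈ T, ∑ l ∈ T.erase i, padicValRat 2 (z i - z l) := by
  have h := W2_two_ge_log z hz x P hx (ind T)
    (fun i => by unfold ind; split_ifs <;> norm_num) 1 zero_le_one
    (fun i => by unfold ind; split_ifs <;> norm_num) T.card J
    (by
      have : ∑ i, ind T i = ∑ i ∈ T, (1 : ℤ) := by
        rw [← sum_ind_mul T (fun _ => (1 : ℤ))]
        simp
      rw [this]
      simp) hJ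
  rw [W2_ind] at h
  have hc : ∀ Q : ι → Prop, ∀ [DecidablePred Q],
      ∑ i ∈ univ.filter Q, ind T i = ((T.filter Q).card : ℤ) := by
    intro Q _
    unfold ind
    rw [Finset.sum_ite_mem, Finset.sum_const, nsmul_eq_mul, mul_one]
    congr 2
    ext i
    simp only [Finset.mem_inter, Finset.mem_filter, Finset.mem_univ, true_and]
    exact and_comm
  rw [hc, hc, one_mul] at h
  exact h

end Crest.Agent.R006.P6V
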