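import Mathlib
import Crest.Agent.R006.P6V2_404
import Crest.Agent.R006.Bord_89

/-!
# Row 6, block P6, leaf V, part 3 (helper404): the sites of `Defs.lean`

* `two_val_site_ge` : weights on a finite family of distinct sites, `p = 2`;
* `W2_St_ge`, `St_set_ge` : the instances for `St S u c`;
* `Finset_site_ge` : a finite set of sites;
* `W2_St_sub` : `W(m) - ∑_{x ∈ T} v(Nhat(x)) + W(1_T) = W(m - 1_T)` with the lower bound;
* `sum_top_le`, `sum_bot_ge`, `two_top_sums` : sums of naturals over finite sets;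
* `le_vfac`, `vfac_le` : `n - log₂ n - 1 ≤ v₂ (n!) ≤ n`.
-/

set_option autoImplicit false

namespace Crest.Agent.R006.P6V

open Finset Polynomial Crest.Agent.R006.Lam Crest.Agent.R006.D

/-- half-integer sites -/
def IsH : Site → Prop
  | .Z _ => False
  | .H _ => True

instance : DecidablePred IsH := fun s =>
  match s with
  | .Z _ => isFalse id
  | .H _ => isTrue trivial

/-- the integer of a site -/
def sidx : Site → ℤ
  | .Z i => i
  | .H i => i

lemma val_eq_sidx (s : Site) : s.val = (sidx s : ℚ) + if IsH s then 1 / 2 else 0 := by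
  cases s with
  | Z i => simp [Site.val, sidx, IsH]
  | H i => simp [Site.val, sidx, IsH]

section family

variable {ι : Type*} [Fintype ι] [DecidableEq ι]

/-- integer mass minus half-integer mass -/
def imb (s : ι → Site) (m : ι → ℤ) : ℤ := ∑ i, if IsH (s i) then -m i else m i

omit [DecidableEq ι] in
lemma imb_eq (s : ι → Site) (m : ι → ℤ) :
    imb s m = (∑ i ∈ univ.filter (fun i => ¬ IsH (s i)), m i)
      - ∑ i ∈ univ.filter (fun i => IsH (s i)), m i := by
  unfold imb
  rw [Finset.sum_ite, Finset.sum_neg_distrib]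
  ring

/-- **weights on a finite family of distinct sites** -/
theorem two_val_site_ge (s : ι → Site) (hs : Function.Injective s) (m : ι → ℤ)
    (hm : ∀ i, 0 ≤ m i) (M : ℤ) (hM0 : 0 ≤ M) (hM : ∀ i, m i ≤ M) (N J : ℕ)
    (hN : ∑ i, m i ≤ N) (hJ : N ≤ 2 ^ J) :
    (imb s m) ^ 2 - N * (1 + M * J) ≤ W2 2 (fun i => (s i).val) m := by
  rw [imb_eq]
  exact W2_two_ge_log (fun i => (s i).val) (fun _ _ h => hs (Bord.val_injective h))
    (fun i => sidx (s i)) (fun i => IsH (s i)) (fun i => val_eq_sidx (s i)) m hm M hM0 hM N J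
    hN hJ

/-- a set of sites inside a finite family -/
theorem two_val_site_set_ge (s : ι → Site) (hs : Function.Injective s) (T : Finset ι) (J : ℕ)
    (hJ : T.card ≤ 2 ^ J) :
    (((T.filter (fun i => ¬ IsH (s i))).card : ℤ) - (T.filter (fun i => IsH (s i))).card) ^ 2
      - T.card * (1 + J) ≤ ∑ i ∈ T, ∑ l ∈ T.erase i, padicValRat 2 ((s i).val - (s l).val) :=
  ind_two_ge_log (fun i => (s i).val) (fun _ _ h => hs (Bord.val_injective h))
    (fun i => sidx (s i)) (fun i => IsH (s i)) (fun i => val_eq_sidx (s i)) T J hJ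

end family

/-- a finite set of sites -/
theorem Finset_site_ge (T : Finset Site) (J : ℕ) (hJ : T.card ≤ 2 ^ J) :
    (((T.filter (fun s => ¬ IsH s)).card : ℤ) - (T.filter IsH).card) ^ 2
      - T.card * (1 + J) ≤ ∑ a ∈ T, ∑ b ∈ T.erase a, padicValRat 2 (a.val - b.val) := by
  have h := two_val_site_set_ge (ι := {x // x ∈ T}) (fun i => i.1) Subtype.val_injective
    (univ : Finset {x // x ∈ T}) J (by rw [Finset.card_univ, Fintype.card_coe]; exact hJ)
  have hc : ∀ Q : Site → Prop, ∀ [DecidablePred Q],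
      ((univ : Finset {x // x ∈ T}).filter (fun i => Q i.1)).card = (T.filter Q).card := by
    intro Q _
    rw [← Finset.card_map (Function.Embedding.subtype (fun x => x ∈ T))]
    congr 1
    ext x
    rw [Finset.mem_map, Finset.mem_filter]
    constructor
    · rintro ⟨a, ha, rfl⟩
      exact ⟨a.2, (Finset.mem_filter.1 ha).2⟩
    · rintro ⟨hx, hQ⟩
      exact ⟨⟨x, hx⟩, Finset.mem_filter.2 ⟨mem_univ _, hQ⟩, rfl⟩
  rw [hc (fun s => ¬ IsH s), hc IsH, Finset.card_univ, Fintype.card_coe] at h
  refine h.trans (le_of_eq ?_)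
  rw [← Finset.sum_coe_sort T]
  refine Finset.sum_congr rfl fun a _ => ?_
  refine Finset.sum_bij (fun b _ => b.1) ?_ ?_ ?_ ?_
  · intro b hb
    rw [Finset.mem_erase] at hb ⊢
    exact ⟨fun h => hb.1 (Subtype.ext h), b.2⟩
  · intro b _ b' _ h
    exact Subtype.ext h
  · intro b hb
    rw [Finset.mem_erase] at hb
    exact ⟨⟨b, hb.2⟩, by
      rw [Finset.mem_erase]
      exact ⟨fun h => hb.1 (congrArg Subtype.val h), mem_univ _⟩, rfl⟩
  · intro b _
    rfl

section St

variable (S : Shape) (u c : ℕ)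

/-- the sites of the window -/
theorem W2_St_ge (m : Bord.St S u c → ℤ) (hm : ∀ i, 0 ≤ m i) (M : ℤ) (hM0 : 0 ≤ M)
    (hM : ∀ i, m i ≤ M) (N J : ℕ) (hN : ∑ i, m i ≤ N) (hJ : N ≤ 2 ^ J) :
    (imb (fun i : Bord.St S u c => i.1) m) ^ 2 - N * (1 + M * J) ≤ W2 2 (Bord.zz S u c) m :=
  two_val_site_ge (fun i : Bord.St S u c => i.1) Subtype.val_injective m hm M hM0 hM N J hN hJ

/-- **the identity and the bound together**: `2 v(V) - 2 ∑_{x ∈ T} v(Nhat(x)) + 2 v(V_T)` -/
theorem W2_St_sub_ge (m : Bord.St S u c → ℕ) (T : Finset (Bord.St S u c))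
    (hT : ∀ i ∈ T, 1 ≤ m i) (M N J : ℕ) (hM : ∀ i, m i ≤ M) (hN : ∑ i, m i ≤ N)
    (hJ : N ≤ 2 ^ J) :
    (imb (fun i : Bord.St S u c => i.1) (fun i => (m i : ℤ) - ind T i)) ^ 2 - N * (1 + M * J)
      ≤ W2 2 (Bord.zz S u c) (fun i => (m i : ℤ))
        - 2 * ∑ i ∈ T, padicValRat 2 ((Nhat (Bord.zz S u c) m i).eval (Bord.zz S u c i))
        + ∑ i ∈ T, ∑ l ∈ T.erase i, padicValRat 2 (Bord.zz S u c i - Bord.zz S u c l) := by
  rw [← W2_ind, ← W2_sub_ind_Nhat 2 (Bord.zz S u c) (Bord.zz_injective S u c) m T]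
  have h0 : ∀ i, 0 ≤ ind T i := fun i => by unfold ind; split_ifs <;> norm_num
  refine W2_St_ge S u c _ (fun i => ?_) M (Int.natCast_nonneg M) (fun i => ?_) N J ?_ hJ
  · unfold ind
    split_ifs with h
    · have := hT i h
      omega
    · omega
  · have h1 := hM i
    have h2 := h0 i
    omega
  · have h1 : ∑ i, ((m i : ℤ) - ind T i) ≤ ∑ i, (m i : ℤ) :=
      Finset.sum_le_sum fun i _ => by have := h0 i; omega
    refine h1.trans ?_
    exact_mod_cast hN

end St

/-! ### sums over finite sets of naturals -/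

/-- the sum of the elements of a set of naturals `< M` is at most that of the top ones -/
theorem sum_top_le (U : Finset ℕ) (M : ℕ) (hU : ∀ x ∈ U, x < M) :
    2 * ∑ x ∈ U, (x : ℤ) ≤ 2 * (U.card : ℤ) * M - U.card ^ 2 - U.card := by
  induction M generalizing U with
  | zero =>
    have : U = ∅ := Finset.eq_empty_of_forall_notMem fun x hx => absurd (hU x hx) (by omega)
    subst this
    simp
  | succ M ih =>
    by_cases hM : M ∈ U
    · have h1 := ih (U.erase M) fun x hx => by
        have h2 := hU x (Finset.mem_of_mem_erase hx)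
        have h3 := Finset.ne_of_mem_erase hx
        omega
      rw [← Finset.add_sum_erase U _ hM]
      have h4 : ((U.erase M).card : ℤ) = U.card - 1 := by
        rw [Finset.card_erase_of_mem hM]
        have : 1 ≤ U.card := Finset.card_pos.2 ⟨M, hM⟩
        omega
      rw [h4] at h1
      push_cast
      nlinarith
    · have h1 := ih U fun x hx => by
        have h2 := hU x hx
        have h3 : x ≠ M := fun h => hM (h ▸ hx)
        omega
      push_cast
      have : (0 : ℤ) ≤ U.card := Int.natCast_nonneg _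
      nlinarith

/-- the sum of distinct naturals is at least that of the smallest ones -/
theorem sum_bot_ge (U : Finset ℕ) : ((U.card : ℤ)) ^ 2 - U.card ≤ 2 * ∑ x ∈ U, (x : ℤ) := by
  obtain ⟨M, hM⟩ : ∃ M : ℕ, ∀ x ∈ U, x < M := by
    refine ⟨U.sup id + 1, fun x hx => ?_⟩
    have := Finset.le_sup (f := id) hx
    simp only [id] at this
    omega
  have hsub : U ⊆ Finset.range M := fun x hx => Finset.mem_range.2 (hM x hx)
  -- complement
  have h1 := sum_top_le (Finset.range M \ U) M fun x hx =>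
    Finset.mem_range.1 (Finset.mem_sdiff.1 hx).1
  have h2 : ∑ x ∈ Finset.range M \ U, (x : ℤ) + ∑ x ∈ U, (x : ℤ)
      = ∑ x ∈ Finset.range M, (x : ℤ) := Finset.sum_sdiff hsub
  have h3 : ((Finset.range M \ U).card : ℤ) = M - U.card := by
    have h5 := Finset.card_sdiff_add_card_eq_card hsub
    rw [Finset.card_range] at h5
    have h6 : ((Finset.range M \ U).card : ℤ) + U.card = M := by exact_mod_cast h5
    linarith
  have h4 : 2 * ∑ x ∈ Finset.range M, (x : ℤ) = (M : ℤ) * M - M := by
    clear h1 h2 h3 hsub hM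
    induction M with
    | zero => simp
    | succ M ih =>
      rw [Finset.sum_range_succ, mul_add, ih]
      push_cast
      ring
  rw [h3] at h1
  nlinarith

/-- the weights `3 n` on `S` and `4 n` on `T`, disjoint -/
theorem two_top_sums (U V : Finset ℕ) (hd : Disjoint U V) (M : ℕ) (hU : ∀ x ∈ U, x < M)
    (hV : ∀ x ∈ V, x < M) :
    2 * (3 * ∑ x ∈ U, (x : ℤ) + 4 * ∑ x ∈ V, (x : ℤ)) ≤
      3 * (2 * ((U.card : ℤ) + V.card) * M - (U.card + V.card) ^ 2)
        + (2 * (V.card : ℤ) * M - V.card ^ 2) := by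
  have h1 := sum_top_le (U ∪ V) M fun x hx => by
    rcases Finset.mem_union.1 hx with h | h
    · exact hU x h
    · exact hV x h
  have h2 := sum_top_le V M hV
  rw [Finset.sum_union hd, Finset.card_union_of_disjoint hd] at h1
  push_cast at h1
  have h3 : (0 : ℤ) ≤ U.card := Int.natCast_nonneg _
  have h4 : (0 : ℤ) ≤ V.card := Int.natCast_nonneg _
  nlinarith

/-! ### factorials -/

theorem vfac_le (n : ℕ) : padicValNat 2 n.factorial ≤ n := by
  have h := sub_one_mul_padicValNat_factorial (p := 2) n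
  simp only [Nat.add_one_sub_one, one_mul] at h
  omega

theorem le_vfac (n : ℕ) : (n : ℤ) - Nat.log 2 n - 1 ≤ padicValNat 2 n.factorial := by
  have h := sub_one_mul_padicValNat_factorial (p := 2) n
  simp only [Nat.add_one_sub_one, one_mul] at h
  have h2 : (Nat.digits 2 n).sum ≤ Nat.log 2 n + 1 := by
    rcases Nat.eq_zero_or_pos n with rfl | hn
    · simp
    · rw [← Nat.length_digits 2 n (by norm_num) hn.ne']
      have h3 : (Nat.digits 2 n).sum ≤ (Nat.digits 2 n).length • 1 := by
        refine List.sum_le_card_nsmul _ _ fun x hx => ?_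
        have := Nat.digits_lt_base (b := 2) (by norm_num) hx
        omega
      simpa using h3
  have h4 := Nat.digit_sum_le 2 n
  omega

end Crest.Agent.R006.P6V
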