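import Crest.Agent.R006.P6Newton_674
import Crest.Agent.R006.P6V3_404

/-!
# Row 6, block P6, leaf U (helper404): valuations of the unit columns

`u_ge` : `v₂ (Lam.u z m (X^k) ⟨i,j⟩) ≥ - (k + vN i + (m i - 1 - j) Λ)`;
`St_u_ge` : for the sites of a shape the bound is linear in `u`.
-/

set_option autoImplicit false

namespace Crest.Agent.R006.P6V

open Finset Polynomial Crest.Agent.R006.Lam Crest.Agent.R006.D Crest.Agent.R006.P6

/-- power series with `v (coeff n) ≥ a - n Λ` -/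
def Fil (Λ : ℕ) (a : ℤ) (f : PowerSeries ℚ) : Prop :=
  ∀ n : ℕ, I2 (a - n * Λ) (PowerSeries.coeff n f)

lemma Fil.mul {Λ : ℕ} {a b : ℤ} {f g : PowerSeries ℚ} (hf : Fil Λ a f) (hg : Fil Λ b g) :
    Fil Λ (a + b) (f * g) := by
  intro n
  rw [PowerSeries.coeff_mul]
  refine I2.sum _ _ fun x hx => ?_
  have h := (hf x.1).mul (hg x.2)
  have h2 : x.1 + x.2 = n := Finset.HasAntidiagonal.mem_antidiagonal.1 hx
  refine h.mono (le_of_eq ?_)
  rw [← h2]
  push_cast
  ring

lemma Fil.one (Λ : ℕ) : Fil Λ 0 1 := by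
  intro n
  rw [PowerSeries.coeff_one]
  split_ifs with h
  · subst h
    have := I2_int 1
    simpa using this
  · exact I2.zero _

lemma Fil.pow {Λ : ℕ} {a : ℤ} {f : PowerSeries ℚ} (hf : Fil Λ a f) (n : ℕ) :
    Fil Λ (n * a) (f ^ n) := by
  induction n with
  | zero => simpa using Fil.one Λ
  | succ n ih =>
    rw [pow_succ]
    have := ih.mul hf
    push_cast
    rw [add_mul, one_mul]
    exact this

lemma Fil.prod {κ : Type*} {Λ : ℕ} (s : Finset κ) (a : κ → ℤ) (f : κ → PowerSeries ℚ)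
    (hf : ∀ x ∈ s, Fil Λ (a x) (f x)) : Fil Λ (∑ x ∈ s, a x) (∏ x ∈ s, f x) := by
  classical
  induction s using Finset.induction_on with
  | empty => simpa using Fil.one Λ
  | insert x s hx ih =>
    rw [Finset.sum_insert hx, Finset.prod_insert hx]
    exact (hf x (mem_insert_self _ _)).mul (ih fun y hy => hf y (mem_insert_of_mem hy))

/-- `(X + d)⁻¹` -/
lemma Fil.inv_linear {Λ : ℕ} {d : ℚ} (hd : d ≠ 0) (hv : padicValRat 2 d ≤ Λ) :
    Fil Λ (-padicValRat 2 d) (PowerSeries.X + PowerSeries.C d)⁻¹ := by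
  have hc : PowerSeries.constantCoeff (PowerSeries.X + PowerSeries.C d) ≠ 0 := by
    rw [map_add, PowerSeries.constantCoeff_X, PowerSeries.constantCoeff_C, zero_add]
    exact hd
  have hm := PowerSeries.mul_inv_cancel _ hc
  set g := (PowerSeries.X + PowerSeries.C d)⁻¹ with hg
  have h0 : PowerSeries.coeff 0 g = d⁻¹ := by
    rw [hg, PowerSeries.coeff_zero_eq_constantCoeff_apply, PowerSeries.constantCoeff_inv,
      map_add, PowerSeries.constantCoeff_X, PowerSeries.constantCoeff_C, zero_add]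
  have h1 : ∀ n : ℕ, PowerSeries.coeff (n + 1) g = -(d⁻¹ * PowerSeries.coeff n g) := by
    intro n
    have h2 := congrArg (PowerSeries.coeff (n + 1)) hm
    rw [add_mul, map_add, PowerSeries.coeff_succ_X_mul, PowerSeries.coeff_C_mul,
      PowerSeries.coeff_one, if_neg (by omega)] at h2
    field_simp
    linear_combination h2
  intro n
  induction n with
  | zero =>
    rw [h0]
    have : I2 (-padicValRat 2 d) d⁻¹ := by
      rw [I2_iff (inv_ne_zero hd), padicValRat.inv]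
    simpa using this
  | succ n ih =>
    rw [h1]
    have h3 : I2 (-padicValRat 2 d) d⁻¹ := by
      rw [I2_iff (inv_ne_zero hd), padicValRat.inv]
    refine ((h3.mul ih).neg).mono ?_
    push_cast
    nlinarith

/-- `germ x (X^k)` -/
lemma Fil.germ_X_pow (Λ : ℕ) (x : ℚ) (hx : I2 (-1) x) (k : ℕ) : Fil Λ (-k) (germ x (X ^ k)) := by
  rw [germ_pow]
  have h : Fil Λ (-1) (germ x X) := by
    intro n
    have e : germ x (X : ℚ[X]) = PowerSeries.X + PowerSeries.C x := by
      simp [germ, taylor_X]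
    rw [e, map_add, PowerSeries.coeff_X, PowerSeries.coeff_C]
    refine I2.add ?_ ?_
    · split_ifs with h1
      · have := I2_int 1
        refine (by simpa using this : I2 0 (1 : ℚ)).mono ?_
        have : (0 : ℤ) ≤ n * Λ := by positivity
        linarith
      · exact I2.zero _
    · split_ifs with h1
      · subst h1
        simpa using hx
      · exact I2.zero _
  have := h.pow k
  simpa using this

section form

variable {ι : Type*} [Fintype ι] [DecidableEq ι]

/-- the weights `p / Nhat` -/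
theorem Fil.wt {Λ : ℕ} (z : ι → ℚ) (hz : Function.Injective z) (m : ι → ℕ) (i : ι)
    (hv : ∀ l ∈ univ.erase i, padicValRat 2 (z i - z l) ≤ Λ) (hx : I2 (-1) (z i)) (k : ℕ) :
    Fil Λ (-(k + vN 2 z (fun l => (m l : ℤ)) i)) (Lam.wt z m (X ^ k) i) := by
  have hne : ∀ l ∈ univ.erase i, z i - z l ≠ 0 := fun l hl =>
    sub_ne_zero.2 fun h => (Finset.ne_of_mem_erase hl) (hz h).symm
  have h1 : (germ (z i) (Nhat z m i))⁻¹ = ∏ l ∈ univ.erase i,
      ((PowerSeries.X + PowerSeries.C (z i - z l))⁻¹) ^ (m l) := by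
    symm
    rw [PowerSeries.eq_inv_iff_mul_eq_one
      (by rw [constantCoeff_germ]; exact Nhat_eval_ne m hz i)]
    have h2 : germ (z i) (Nhat z m i) = ∏ l ∈ univ.erase i,
        (PowerSeries.X + PowerSeries.C (z i - z l)) ^ (m l) := by
      unfold Nhat
      have h3 : ∀ s : Finset ι, germ (z i) (∏ l ∈ s, (X - C (z l)) ^ m l) =
          ∏ l ∈ s, (PowerSeries.X + PowerSeries.C (z i - z l)) ^ (m l) := by
        intro s
        induction s using Finset.induction_on with
        | empty => simp [germ_one]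
        | insert a s ha ih =>
          rw [Finset.prod_insert ha, Finset.prod_insert ha, germ_mul, ih, germ_pow, germ_X_sub_C]
      exact h3 _
    rw [h2, ← Finset.prod_mul_distrib]
    refine Finset.prod_eq_one fun l hl => ?_
    rw [← mul_pow, PowerSeries.inv_mul_cancel, one_pow]
    rw [map_add, PowerSeries.constantCoeff_X, PowerSeries.constantCoeff_C, zero_add]
    exact hne l hl
  rw [Lam.wt, h1]
  have h4 := Fil.prod (Λ := Λ) (univ.erase i) (fun l => (m l : ℤ) * (-padicValRat 2 (z i - z l)))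
    (fun l => ((PowerSeries.X + PowerSeries.C (z i - z l))⁻¹) ^ (m l))
    (fun l hl => (Fil.inv_linear (hne l hl) (hv l hl)).pow (m l))
  have h5 := (Fil.germ_X_pow Λ (z i) hx k).mul h4
  have h6 : -(k : ℤ) + ∑ l ∈ univ.erase i, (m l : ℤ) * (-padicValRat 2 (z i - z l))
      = -(k + vN 2 z (fun l => (m l : ℤ)) i) := by
    unfold vN
    rw [neg_add, ← Finset.sum_neg_distrib]
    congr 1
    exact Finset.sum_congr rfl fun l _ => by ring
  rw [h6] at h5
  exact h5

end form

/-! ### upper bounds -/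

lemma padicValInt_le_natAbs (d : ℤ) (hd : d ≠ 0) : padicValInt 2 d ≤ d.natAbs := by
  have h1 : 2 ^ padicValInt 2 d ∣ d.natAbs := by
    rw [padicValInt]
    exact pow_padicValNat_dvd
  have h2 := Nat.le_of_dvd (Int.natAbs_pos.2 hd) h1
  exact (Nat.lt_two_pow_self).le.trans h2

lemma sum_val_succ (a : ℕ) : ∑ t ∈ range a, padicValNat 2 (t + 1) = padicValNat 2 a.factorial := by
  induction a with
  | zero => simp
  | succ a ih =>
    rw [Finset.sum_range_succ, ih, Nat.factorial_succ,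
      padicValNat.mul (by omega) (Nat.factorial_ne_zero a), add_comm]

lemma sum_val_Icc (L : ℕ) (x : ℤ) (hx : x ∈ Icc (-(L : ℤ)) L) :
    ∑ y ∈ (Icc (-(L : ℤ)) L).erase x, padicValInt 2 (x - y) ≤ 2 * L := by
  rw [Finset.mem_Icc] at hx
  obtain ⟨a, ha⟩ : ∃ a : ℕ, x + L = a := ⟨(x + L).toNat, by omega⟩
  obtain ⟨b, hb⟩ : ∃ b : ℕ, (L : ℤ) - x = b := ⟨(L - x).toNat, by omega⟩
  have hsplit : (Icc (-(L : ℤ)) L).erase x = Ico (-(L : ℤ)) x ∪ Ioc x L := by
    ext y
    simp only [Finset.mem_erase, Finset.mem_Icc, Finset.mem_union, Finset.mem_Ico,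
      Finset.mem_Ioc]
    omega
  have hdisj : Disjoint (Ico (-(L : ℤ)) x) (Ioc x L) := by
    rw [Finset.disjoint_left]
    intro y hy hy'
    rw [Finset.mem_Ico] at hy
    rw [Finset.mem_Ioc] at hy'
    omega
  rw [hsplit, Finset.sum_union hdisj]
  have h1 : ∑ y ∈ Ico (-(L : ℤ)) x, padicValInt 2 (x - y) = ∑ t ∈ range a, padicValNat 2 (t + 1) := by
    symm
    refine Finset.sum_bij (fun t _ => x - (t + 1 : ℕ)) ?_ ?_ ?_ ?_
    · intro t ht
      rw [Finset.mem_range] at ht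
      rw [Finset.mem_Ico]
      push_cast
      omega
    · intro t _ t' _ h
      push_cast at h
      omega
    · intro y hy
      rw [Finset.mem_Ico] at hy
      refine ⟨(x - y - 1).toNat, ?_, ?_⟩
      · rw [Finset.mem_range]; omega
      · push_cast; omega
    · intro t _
      rw [sub_sub_cancel, padicValInt, Int.natAbs_natCast]
  have h2 : ∑ y ∈ Ioc x (L : ℤ), padicValInt 2 (x - y) = ∑ t ∈ range b, padicValNat 2 (t + 1) := by
    symm
    refine Finset.sum_bij (fun t _ => x + (t + 1 : ℕ)) ?_ ?_ ?_ ?_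
    · intro t ht
      rw [Finset.mem_range] at ht
      rw [Finset.mem_Ioc]
      push_cast
      omega
    · intro t _ t' _ h
      push_cast at h
      omega
    · intro y hy
      rw [Finset.mem_Ioc] at hy
      refine ⟨(y - x - 1).toNat, ?_, ?_⟩
      · rw [Finset.mem_range]; omega
      · push_cast; omega
    · intro t _
      rw [sub_add_cancel_left, padicValInt, Int.natAbs_neg, Int.natAbs_natCast]
  rw [h1, h2, sum_val_succ, sum_val_succ]
  have h3 := vfac_le a
  have h4 := vfac_le b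
  omega

lemma sum_val_image {κ : Type*} (s : Finset κ) (x : κ → ℤ) (hx : Set.InjOn x s) (L : ℕ)
    (hL : ∀ l ∈ s, x l ∈ Icc (-(L : ℤ)) L) (y : ℤ) (hy : y ∈ Icc (-(L : ℤ)) L)
    (hys : ∀ l ∈ s, x l ≠ y) : ∑ l ∈ s, padicValInt 2 (y - x l) ≤ 2 * L := by
  classical
  refine le_trans ?_ (sum_val_Icc L y hy)
  rw [← Finset.sum_image (g := x) (f := fun v => padicValInt 2 (y - v)) hx]
  refine Finset.sum_le_sum_of_subset fun v hv => ?_
  obtain ⟨l, hl, rfl⟩ := Finset.mem_image.1 hv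
  exact Finset.mem_erase.2 ⟨hys l hl, hL l hl⟩

section St

variable (S : Shape) (u c : ℕ)

lemma mm_le (i : Bord.St S u c) : Bord.mm S u c i ≤ 3 := by
  obtain ⟨z, hz⟩ := i
  unfold Bord.mm
  rcases z with n | n <;> simp only [Shape.mult] <;> split_ifs <;> omega

lemma sidx_mem (i : Bord.St S u c) :
    sidx i.1 ∈ Icc (-(Bord.L S u c : ℤ)) (Bord.L S u c) := by
  obtain ⟨z, hz⟩ := i
  simp only [Bord.sites, Finset.mem_union, Finset.mem_image] at hz
  rcases hz with ⟨n, hn, rfl⟩ | ⟨n, hn, rfl⟩ <;> exact hn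

lemma zz_sub_same {i l : Bord.St S u c} (h : IsH i.1 ↔ IsH l.1) :
    padicValRat 2 (Bord.zz S u c i - Bord.zz S u c l)
      = (padicValInt 2 (sidx i.1 - sidx l.1) : ℤ) := by
  unfold Bord.zz
  rw [val_eq_sidx, val_eq_sidx]
  have : (sidx i.1 : ℚ) + (if IsH i.1 then 1 / 2 else 0) - ((sidx l.1 : ℚ)
      + (if IsH l.1 then 1 / 2 else 0)) = ((sidx i.1 - sidx l.1 : ℤ) : ℚ) := by
    by_cases h1 : IsH i.1
    · rw [if_pos h1, if_pos (h.1 h1)]; push_cast; ring
    · rw [if_neg h1, if_neg (fun h2 => h1 (h.2 h2))]; push_cast; ring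
  rw [this, padicValRat.of_int]

lemma zz_sub_diff {i l : Bord.St S u c} (h : ¬ (IsH i.1 ↔ IsH l.1)) :
    padicValRat 2 (Bord.zz S u c i - Bord.zz S u c l) = -1 := by
  unfold Bord.zz
  rw [val_eq_sidx, val_eq_sidx]
  by_cases h1 : IsH i.1
  · have h2 : ¬ IsH l.1 := fun h2 => h (by tauto)
    have : (sidx i.1 : ℚ) + (if IsH i.1 then 1 / 2 else 0) - ((sidx l.1 : ℚ)
        + (if IsH l.1 then 1 / 2 else 0)) = ((sidx i.1 - sidx l.1 : ℤ) : ℚ) + 1 / 2 := by
      rw [if_pos h1, if_neg h2]; push_cast; ring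
    rw [this, padicValRat_two_half]
  · have h2 : IsH l.1 := by
      by_contra h2
      exact h (by tauto)
    have : (sidx i.1 : ℚ) + (if IsH i.1 then 1 / 2 else 0) - ((sidx l.1 : ℚ)
        + (if IsH l.1 then 1 / 2 else 0)) = -(((sidx l.1 - sidx i.1 : ℤ) : ℚ) + 1 / 2) := by
      rw [if_neg h1, if_pos h2]; push_cast; ring
    rw [this, padicValRat.neg, padicValRat_two_half]

lemma same_inj {l l' : Bord.St S u c} (h1 : IsH l.1 ↔ IsH l'.1) (h2 : sidx l.1 = sidx l'.1) :
    l = l' := by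
  apply Bord.zz_injective S u c
  unfold Bord.zz
  rw [val_eq_sidx, val_eq_sidx, h2]
  by_cases h3 : IsH l.1
  · rw [if_pos h3, if_pos (h1.1 h3)]
  · rw [if_neg h3, if_neg (fun h4 => h3 (h1.2 h4))]

/-- the other sites of the same type -/
noncomputable def sameT (i : Bord.St S u c) : Finset (Bord.St S u c) :=
  (univ.erase i).filter (fun l : Bord.St S u c => (IsH i.1 ↔ IsH l.1))

lemma sameT_sum (i : Bord.St S u c) :
    ∑ l ∈ sameT S u c i, padicValInt 2 (sidx i.1 - sidx l.1) ≤ 2 * Bord.L S u c := by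
  refine sum_val_image (sameT S u c i) (fun l => sidx l.1) ?_ (Bord.L S u c)
    (fun l _ => sidx_mem S u c l) (sidx i.1) (sidx_mem S u c i) ?_
  · intro l hl l' hl' h
    have a1 := (Finset.mem_filter.1 hl).2
    have a2 := (Finset.mem_filter.1 hl').2
    exact same_inj S u c (a1.symm.trans a2) h
  · intro l hl h
    have a1 := (Finset.mem_filter.1 hl).2
    exact (Finset.ne_of_mem_erase (Finset.mem_filter.1 hl).1) (same_inj S u c a1.symm h)

/-- crude upper bound for `v(Nhat)` -/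
theorem vN_le (m : Bord.St S u c → ℕ) (hm : ∀ i, m i ≤ 3) (i : Bord.St S u c) :
    vN 2 (Bord.zz S u c) (fun l => (m l : ℤ)) i ≤ 6 * Bord.L S u c := by
  have h1 : vN 2 (Bord.zz S u c) (fun l => (m l : ℤ)) i
      ≤ ∑ l ∈ sameT S u c i, 3 * (padicValInt 2 (sidx i.1 - sidx l.1) : ℤ) := by
    unfold vN sameT
    rw [Finset.sum_filter]
    refine Finset.sum_le_sum fun l _ => ?_
    by_cases h : (IsH i.1 ↔ IsH l.1)
    · rw [if_pos h, zz_sub_same S u c h]
      have h2 : (m l : ℤ) ≤ 3 := by exact_mod_cast hm l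
      have h3 : (0 : ℤ) ≤ (padicValInt 2 (sidx i.1 - sidx l.1) : ℤ) := Int.natCast_nonneg _
      exact mul_le_mul_of_nonneg_right h2 h3
    · rw [if_neg h, zz_sub_diff S u c h]
      have : (0 : ℤ) ≤ m l := Int.natCast_nonneg _
      linarith
  have h2 := sameT_sum S u c i
  refine h1.trans ?_
  rw [← Finset.mul_sum]
  have h3 : ∑ l ∈ sameT S u c i, (padicValInt 2 (sidx i.1 - sidx l.1) : ℤ)
      ≤ ((2 * Bord.L S u c : ℕ) : ℤ) := by
    exact_mod_cast h2
  push_cast at h3
  linarith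

lemma zz_sub_le {i l : Bord.St S u c} (h : l ≠ i) :
    padicValRat 2 (Bord.zz S u c i - Bord.zz S u c l) ≤ ((2 * Bord.L S u c : ℕ) : ℤ) := by
  by_cases h1 : (IsH i.1 ↔ IsH l.1)
  · rw [zz_sub_same S u c h1]
    have h2 : sidx i.1 - sidx l.1 ≠ 0 := by
      intro h3
      apply h
      apply Bord.zz_injective S u c
      unfold Bord.zz
      rw [val_eq_sidx, val_eq_sidx, sub_eq_zero.1 h3]
      by_cases h3 : IsH l.1
      · rw [if_pos h3, if_pos (h1.2 h3)]
      · rw [if_neg h3, if_neg (fun h4 => h3 (h1.1 h4))]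
    have h3 := padicValInt_le_natAbs _ h2
    have h4 := Finset.mem_Icc.1 (sidx_mem S u c i)
    have h5 := Finset.mem_Icc.1 (sidx_mem S u c l)
    have h6 : (sidx i.1 - sidx l.1).natAbs ≤ 2 * Bord.L S u c := by omega
    exact_mod_cast h3.trans h6
  · rw [zz_sub_diff S u c h1]
    have : (0 : ℤ) ≤ ((2 * Bord.L S u c : ℕ) : ℤ) := Int.natCast_nonneg _
    linarith

lemma I2_zz (i : Bord.St S u c) : I2 (-1) (Bord.zz S u c i) := by
  unfold Bord.zz
  rw [val_eq_sidx]
  refine I2.add ((I2_int _).mono (by norm_num)) ?_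
  split_ifs
  · have := I2_two_pow_inv 1
    simpa using this
  · exact I2.zero _

/-- **Leaf U.** -/
theorem St_u_ge (k : ℕ) (ρ : Lam.Row (Bord.mm S u c)) :
    I2 (-(k + 10 * Bord.L S u c : ℤ)) (Lam.u (Bord.zz S u c) (Bord.mm S u c) (X ^ k) ρ) := by
  have h := Fil.wt (Λ := 2 * Bord.L S u c) (Bord.zz S u c) (Bord.zz_injective S u c)
    (Bord.mm S u c) ρ.1 (fun l hl => zz_sub_le S u c (Finset.ne_of_mem_erase hl))
    (I2_zz S u c ρ.1) k
  refine (h _).mono ?_
  have h1 := vN_le S u c (Bord.mm S u c) (mm_le S u c) ρ.1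
  have h2 := mm_le S u c ρ.1
  have h3 : ((Bord.mm S u c ρ.1 - 1 - (ρ.2 : ℕ) : ℕ) : ℤ) ≤ 2 := by omega
  have h4 : (0 : ℤ) ≤ ((2 * Bord.L S u c : ℕ) : ℤ) := Int.natCast_nonneg _
  have h5 : ((Bord.mm S u c ρ.1 - 1 - (ρ.2 : ℕ) : ℕ) : ℤ) * ((2 * Bord.L S u c : ℕ) : ℤ)
      ≤ 2 * ((2 * Bord.L S u c : ℕ) : ℤ) := mul_le_mul_of_nonneg_right h3 h4
  push_cast at h5 ⊢
  linarith

end St

end Crest.Agent.R006.P6V
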