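import Crest.Agent.R006.BordM_89
import Crest.Agent.R006.VmatVal_340
import Crest.Agent.R006.P6D_203
import Crest.Agent.R006.P6Q_674
import Crest.Agent.R006.P6Weights_153
import Crest.Agent.R006.P6U_404
import Crest.Agent.R006.P6B_Stmt_404

/-!
# Row 6, block P6 (p = 2), line B, part 1 (helper404): the matrix

* `LeafE S c` : helper121's entry lemma as a proposition;
* `resMat_PB` : leaf D (helper203) applied to the residue matrix;
* `minor_PB` : `v₂` of all coefficients of a minor, in terms of the sets `S2`, `S3`.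
-/

set_option autoImplicit false

namespace Crest.Agent.R006.P6B

open Polynomial Finset Crest.Agent.R006.D Crest.Agent.R006.NV Crest.Agent.R006.Lam
open Crest.Agent.R006.Bord Crest.Agent.R006.P6V Crest.Agent.R006.P6 Crest.Agent.R006.ProdBound481

/-! ### the entry lemma -/

/-- valuation of `2^(l/2) (l/2)!` -/
def dd (l : ℕ) : ℕ := l / 2 + padicValNat 2 (l / 2).factorial

/-- number of half-integer rows -/
def Nh (S : Shape) (u : ℕ) : ℕ := (S.h1 + S.h2 + S.h3 + S.w) * u

open Classical in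
/-- the `R`-type nodes -/
noncomputable def XR (S : Shape) (u c : ℕ) : Finset (St S u c) :=
  univ.filter (fun z => ∃ i : ℤ, z.1 = Site.Z i ∧ S.a1 * u ≤ i ∧ i < S.B * u + c)

/-- the weight of an `R`-type node -/
noncomputable def wR (S : Shape) (u c : ℕ) (z : St S u c) : ℚ :=
  (rho S u).eval (zz S u c z) * PowerSeries.coeff 0 (psi1 z.1) /
    (Nhat (zz S u c) (mm S u c) z).eval (zz S u c z)

/-- helper121's leaf E -/
def LeafE (S : Shape) (c : ℕ) : Prop :=
  ∀ u : ℕ, ∃ (b : ℕ → ℚ[X]) (xi : ℚ), MonicFam b ∧ (∀ l, PB 2 0 (b l)) ∧ padicNorm 2 xi ≤ 1 ∧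
    ∀ l < S.k * u, ∀ k < S.rows * u + c, ∃ e : ℚ,
      padicNorm 2 e ≤ (2 : ℚ) ^ (-((Nh S u : ℤ) + dd l - 1 - S.i1 * u)) ∧
      lam (zz S u c) (mm S u c) (X ^ k) (colR S u c (X : ℚ[X]) (rho S u * b l)) =
        (∑ z ∈ XR S u c, (C (xi / 2) - X) * C (wR S u c z) * C ((b l).eval (zz S u c z))
          * C (zz S u c z) ^ k) + C e

/-! ### valuations of the weights -/

/-- `v₂` of the factorials in `rho` -/
def Va (S : Shape) (u : ℕ) : ℕ :=
  padicValNat 2 (S.a1 * u).factorial + padicValNat 2 (S.a2 * u).factorial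
    + padicValNat 2 (S.r1 * u).factorial

/-- valuation of `Nhat` -/
noncomputable def vNh (S : Shape) (u c : ℕ) (z : St S u c) : ℤ :=
  padicValRat 2 ((Nhat (zz S u c) (mm S u c) z).eval (zz S u c z))

/-- lower bound for `v (al z)` -/
noncomputable def va (S : Shape) (u c : ℕ) (z : St S u c) : ℤ :=
  (Va S u : ℤ) - S.i1 * u - 3 * sidx z.1 - vNh S u c z - 1

/-- lower bound for `v (be z)` -/
noncomputable def vb (S : Shape) (u c : ℕ) (z : St S u c) : ℤ :=
  P6Q.gv z.1 - vNh S u c z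

lemma I2_desc (n N : ℕ) : I2 (padicValNat 2 N.factorial) ((descPochhammer ℚ N).eval (n : ℚ)) := by
  rw [descPochhammer_eval_eq_descFactorial, Nat.descFactorial_eq_factorial_mul_choose]
  push_cast
  have h1 := I2_nat N.factorial (Nat.factorial_ne_zero N)
  have h2 := I2_int (n.choose N : ℤ)
  have := I2.mul h1 h2
  simpa using this

lemma I2_prod {κ : Type*} (s : Finset κ) (v : κ → ℤ) (f : κ → ℚ) (h : ∀ x ∈ s, I2 (v x) (f x)) :
    I2 (∑ x ∈ s, v x) (∏ x ∈ s, f x) := by
  classical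
  induction s using Finset.induction_on with
  | empty => simpa using I2_int 1
  | insert a s ha ih =>
    rw [Finset.sum_insert ha, Finset.prod_insert ha]
    exact (h a (mem_insert_self _ _)).mul (ih fun x hx => h x (mem_insert_of_mem hx))

lemma descPochhammer_eval_prod (N : ℕ) (x : ℚ) :
    (descPochhammer ℚ N).eval x = ∏ m ∈ range N, (x - m) := by
  induction N with
  | zero => simp
  | succ N ih =>
    rw [descPochhammer_succ_right, eval_mul, ih, Finset.prod_range_succ]
    simp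

lemma I2_desc_half (n N : ℕ) :
    I2 (-(N : ℤ)) ((descPochhammer ℚ N).eval ((n : ℚ) + ((N : ℕ) - 1 / 2 : ℚ))) := by
  rw [descPochhammer_eval_prod]
  have h := I2_prod (range N) (fun _ => (-1 : ℤ))
    (fun m => ((n : ℚ) + ((N : ℕ) - 1 / 2 : ℚ)) - m) (fun m _ => by
      have e : ((n : ℚ) + ((N : ℕ) - 1 / 2 : ℚ)) - m = ((2 * (n + N - m) - 1 : ℤ) : ℚ) * (2 ^ 1)⁻¹ := by
        push_cast
        ring
      rw [e]
      have h1 := (I2_int (2 * (n + N - m) - 1)).mul (I2_two_pow_inv 1)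
      simpa using h1)
  simpa using h

lemma I2_rho (S : Shape) (u n : ℕ) :
    I2 ((Va S u : ℤ) - S.i1 * u) ((rho S u).eval (n : ℚ)) := by
  have h1 := I2_desc n (S.a2 * u)
  have h2 := I2_desc_half n (S.i1 * u)
  have h3 := I2_desc (n + S.r1 * u) (S.r1 * u)
  have h4 := I2_desc n (S.a1 * u)
  have h := ((h1.mul h2).mul h3).mul h4
  unfold rho
  rw [eval_mul, eval_mul, eval_mul, eval_comp, eval_comp]
  simp only [eval_add, eval_X, eval_C]
  push_cast at h ⊢
  refine h.mono (le_of_eq ?_)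
  unfold Va
  push_cast
  ring

lemma I2_div {v : ℤ} {x y : ℚ} (hx : I2 v x) (hy : y ≠ 0) : I2 (v - padicValRat 2 y) (x / y) := by
  rw [div_eq_mul_inv, sub_eq_add_neg]
  refine hx.mul ?_
  rw [I2_iff (inv_ne_zero hy), padicValRat.inv]

lemma mem_XR {S : Shape} {u c : ℕ} {z : St S u c} (hz : z ∈ XR S u c) :
    ∃ n : ℕ, z.1 = Site.Z n ∧ S.a1 * u ≤ n ∧ n < S.B * u + c := by
  classical
  unfold XR at hz
  rw [Finset.mem_filter] at hz
  obtain ⟨i, h1, h2, h3⟩ := hz.2
  have h0 : (0 : ℤ) ≤ i := by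
    have : (0 : ℤ) ≤ (S.a1 : ℤ) * u := by positivity
    linarith
  obtain ⟨n, rfl⟩ := Int.eq_ofNat_of_zero_le h0
  exact ⟨n, h1, by exact_mod_cast h2, by exact_mod_cast h3⟩

lemma I2_wR {S : Shape} {u c : ℕ} {z : St S u c} (hz : z ∈ XR S u c) :
    I2 (va S u c z + 1) (wR S u c z) := by
  obtain ⟨n, h1, -, -⟩ := mem_XR hz
  have hne : (Nhat (zz S u c) (mm S u c) z).eval (zz S u c z) ≠ 0 :=
    Nhat_eval_ne (mm S u c) (zz_injective S u c) z
  have e1 : zz S u c z = (n : ℚ) := by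
    unfold zz; rw [h1]; simp [Site.val]
  have h2 : I2 ((Va S u : ℤ) - S.i1 * u) ((rho S u).eval (zz S u c z)) := by
    rw [e1]; exact I2_rho S u n
  have h3 : I2 (-(3 * (n : ℤ))) (PowerSeries.coeff 0 (psi1 z.1)) := by
    rw [h1]; exact Weights.I2_HomZ n
  have h := I2_div (h2.mul h3) hne
  refine h.mono (le_of_eq ?_)
  unfold va vNh
  rw [h1]
  simp only [sidx]
  ring

lemma PB_al {S : Shape} {u c : ℕ} {z : St S u c} (hz : z ∈ XR S u c) {xi : ℚ}
    (hxi : padicNorm 2 xi ≤ 1) :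
    PB 2 (va S u c z) ((C (xi / 2) - X) * C (wR S u c z)) := by
  have h1 : PB 2 (-1) (C (xi / 2) - X) := by
    refine PB.sub ?_ ?_
    · refine I2.toPB ?_
      have h2 : I2 0 xi := by simpa [I2] using hxi
      have h3 := h2.mul (I2_two_pow_inv 1)
      have e : xi / 2 = xi * ((2 : ℚ) ^ 1)⁻¹ := by ring
      rw [e]
      simpa using h3
    · intro k
      rw [coeff_X]
      split_ifs
      · have h3 := (I2_int 1).mono (show (-1 : ℤ) ≤ 0 by norm_num)
        simpa [I2] using h3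
      · rw [padicNorm.zero]; positivity
  have h4 := h1.mul (I2_wR hz).toPB
  refine h4.mono (le_of_eq ?_)
  ring

/-- the coefficient of a `Q`-type node -/
noncomputable def beQ (S : Shape) (u c : ℕ) (z : St S u c) : ℚ :=
  P6Q.gtop z.1 / (Nhat (zz S u c) (mm S u c) z).eval (zz S u c z)

lemma PB_be (S : Shape) (u c : ℕ) (z : St S u c) :
    PB 2 (vb S u c z) (C (beQ S u c z)) := by
  refine I2.toPB ?_
  have hne : (Nhat (zz S u c) (mm S u c) z).eval (zz S u c z) ≠ 0 :=
    Nhat_eval_ne (mm S u c) (zz_injective S u c) z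
  have h1 : I2 (P6Q.gv z.1) (P6Q.gtop z.1) :=
    (I2_iff (P6Q.gtop_ne z.1)).2 (P6Q.gv_le z.1)
  exact I2_div h1 hne

/-- the `Q`-type nodes -/
noncomputable def XQ (S : Shape) (u c : ℕ) : Finset (St S u c) :=
  univ.filter (fun z => mm S u c z = P6Q.gord z.1 + 1)

/-- the `Q`-entries -/
lemma lam_colQ (S : Shape) (u c k j : ℕ) :
    lam (zz S u c) (mm S u c) (X ^ k) (colQ S u c ℚ[X] (X ^ j)) =
      ∑ z ∈ XQ S u c, C (beQ S u c z) * C (zz S u c z) ^ (k + j) := by
  have h := P6Q.lam_gam (zz S u c) (mm S u c) (fun i : St S u c => i.1) ℚ[X]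
    (fun i => P6Q.mult_le S u c i.1) (zz_injective S u c) (X ^ k) (X ^ j)
  have h2 : lam (zz S u c) (mm S u c) (X ^ k) (colQ S u c ℚ[X] (X ^ j)) =
      lam (zz S u c) (mm S u c) (X ^ k)
        (fun i => PowerSeries.map (algebraMap ℚ ℚ[X]) (gm (zz S u c i) (X ^ j) * gam i.1)) := rfl
  rw [h2, h, XQ, Finset.sum_filter, map_sum]
  refine Finset.sum_congr rfl fun z _ => ?_
  by_cases hz : mm S u c z = P6Q.gord z.1 + 1
  · rw [if_pos hz, if_pos hz, algebraMap_eq, ← C_pow, ← C_mul]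
    congr 1
    unfold beQ
    rw [eval_mul, eval_pow, eval_pow, eval_X, pow_add]
    ring
  · rw [if_neg hz, if_neg hz, map_zero]

/-! ### the residue matrix -/

lemma pos_injective (S : Shape) (u c : ℕ) : Function.Injective (pos S u c) := by
  intro a b h
  unfold pos at h
  exact (rcEquiv S u c).symm.injective (Fin.ext h)

lemma pos_lt (S : Shape) (u c : ℕ) (k : RC S u c) : pos S u c k < S.k * u + (S.g * u + c) := by
  unfold pos
  have h := ((rcEquiv S u c).symm k).2
  have h0 : nRC S u c = S.k * u + S.g * u + c := rfl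
  omega

lemma dd_mono : Monotone dd := by
  intro a b h
  unfold dd
  have h1 : a / 2 ≤ b / 2 := Nat.div_le_div_right h
  have h2 : padicValNat 2 (a / 2).factorial ≤ padicValNat 2 (b / 2).factorial := by
    have h3 := Nat.factorial_dvd_factorial h1
    exact (padicValNat_dvd_iff_le (Nat.factorial_ne_zero _)).1 (pow_padicValNat_dvd.trans h3)
  omega

lemma I2_norm_zz (S : Shape) (u c : ℕ) (z : St S u c) : padicNorm 2 (zz S u c z) ≤ 2 := by
  have h := I2_zz S u c z
  unfold I2 at h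
  simpa using h

lemma I2_norm_zz0 (S : Shape) (u c : ℕ) (z : St S u c) (hz : ¬ IsH z.1) :
    padicNorm 2 (zz S u c z) ≤ 1 := by
  unfold zz
  rw [val_eq_sidx, if_neg hz, add_zero]
  exact padicNorm.of_int _

/-- the main inequality for the sets `S2`, `S3` -/
def SetIneq (S : Shape) (u c : ℕ) (V0 : ℤ) : Prop :=
  ∀ S2 ⊆ XR S u c, ∀ S3 ⊆ XQ S u c, Disjoint S2 S3 → S3.card = S.g * u → S2.card ≤ S.k * u →
    V0 ≤ ∑ x ∈ S2, va S u c x + ∑ x ∈ S3, vb S u c x
      + P6D203.VV 2 (zz S u c) (S2 ∪ S3) + P6D203.VV 2 (zz S u c) S2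
      + P6D203.VV 2 (zz S u c) S3
      + ∑ l ∈ range (S.k * u - S2.card), ((Nh S u : ℤ) + dd l - 1 - S.i1 * u)
      - (S3.filter (fun x : St S u c => IsH x.1)).card * (((S.k * u - S2.card : ℕ) : ℤ) + c)
      - c * (S.k * u + S.g * u + c + 10 * L S u c : ℤ)

/-- leaf D for the residue matrix -/
theorem resMat_PB (S : Shape) (u c : ℕ) (hk : S.q + S.g ≤ S.rows) (b : ℕ → ℚ[X]) (xi : ℚ)
    (hb : ∀ l, PB 2 0 (b l)) (hxi : padicNorm 2 xi ≤ 1)
    (hE : ∀ l < S.k * u, ∀ k < S.rows * u + c, ∃ e : ℚ,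
      padicNorm 2 e ≤ (2 : ℚ) ^ (-((Nh S u : ℤ) + dd l - 1 - S.i1 * u)) ∧
      lam (zz S u c) (mm S u c) (X ^ k) (colR S u c (X : ℚ[X]) (rho S u * b l)) =
        (∑ z ∈ XR S u c, (C (xi / 2) - X) * C (wR S u c z) * C ((b l).eval (zz S u c z))
          * C (zz S u c z) ^ k) + C e)
    (V0 : ℤ) (hV : SetIneq S u c V0) (J : Fin c → Rw S u c) :
    PB 2 (V0 - (S.k * u : ℕ) - (S.g * u : ℕ))
      (resMat S u c (X : ℚ[X]) (fun k => X ^ k) (fun l => rho S u * b l) (fun l => X ^ l) J).det := by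
  classical
  have hlt : ∀ k : RC S u c, pos S u c k < S.rows * u + c := by
    intro k
    have h1 := pos_lt S u c k
    have h2 : S.k * u + S.g * u ≤ S.rows * u := by
      rw [← add_mul]
      refine Nat.mul_le_mul_right u ?_
      unfold Shape.k
      omega
    omega
  choose! e he1 he2 using hE
  -- nonempty
  by_cases hne : Nonempty (St S u c)
  · refine P6D203.det_PB' (p := 2) (σ := St S u c) (A := S.k * u) (K := S.g * u) (c := c)
      (XR S u c) (XQ S u c) (zz S u c) (zz_injective S u c).injOn (fun x => IsH x.1)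
      (fun x hx => I2_norm_zz0 S u c x hx) (fun x => by simpa using I2_norm_zz S u c x)
      (fun x hx => ?_) (fun z => (C (xi / 2) - X) * C (wR S u c z)) (fun z => C (beQ S u c z))
      (va S u c) (vb S u c) (fun x hx => PB_al hx hxi) (fun x _ => PB_be S u c x)
      (fun l => b l) (fun l => hb l) (fun l => (Nh S u : ℤ) + dd l - 1 - S.i1 * u) ?_
      (S.k * u + S.g * u + c + 10 * L S u c : ℤ) (pos S u c) (pos_injective S u c)
      (pos_lt S u c) (fun i l => C (e l (pos S u c i))) (fun i l => ?_) _ (fun i l => ?_)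
      (fun i j => ?_) (fun i t => ?_) V0 ?_
    · obtain ⟨n, h1, -, -⟩ := mem_XR hx
      rw [h1]
      exact id
    · intro l l' h
      have := dd_mono h
      have h3 : (dd l : ℤ) ≤ dd l' := by exact_mod_cast this
      simp only
      linarith
    · exact PB.C (he1 l l.2 (pos S u c i) (hlt i))
    · exact he2 l l.2 (pos S u c i) (hlt i)
    · exact lam_colQ S u c (pos S u c i) j
    · have h1 : resMat S u c (X : ℚ[X]) (fun k => X ^ k) (fun l => rho S u * b l) (fun l => X ^ l)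
          J i (Sum.inr (Sum.inr t)) =
          C (Lam.u (zz S u c) (mm S u c) (X ^ (pos S u c i)) (J t)) := by
        have h2 := lam_unitCol (A := ℚ[X]) (zz S u c) (mm S u c) (X ^ (pos S u c i)) (J t)
        rw [algebraMap_eq] at h2
        exact h2
      rw [h1]
      refine (I2.toPB (St_u_ge S u c (pos S u c i) (J t))).mono ?_
      have h3 := pos_lt S u c i
      have h4 : (pos S u c i : ℤ) ≤ (S.k * u + (S.g * u + c) : ℕ) := by exact_mod_cast h3.le
      push_cast at h4
      linarith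
    · exact hV
  · -- no sites: no rows
    have hempty : IsEmpty (St S u c) := not_nonempty_iff.1 hne
    have hR0 : IsEmpty (Rw S u c) := ⟨fun ρ => hempty.false ρ.1⟩
    have hcard := card_Rw (S := S) (u := u) (c := c)
    rw [Fintype.card_eq_zero] at hcard
    have hc0 : c = 0 := by omega
    have hr0 : S.rows * u = 0 := by omega
    have hk0 : S.k * u = 0 := by
      have : S.k * u ≤ S.rows * u := Nat.mul_le_mul_right u (by unfold Shape.k; omega)
      omega
    have hg0 : S.g * u = 0 := by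
      have : S.g * u ≤ S.rows * u := Nat.mul_le_mul_right u (by omega)
      omega
    subst hc0
    have hI : IsEmpty (RC S u 0) := by
      rw [← Fintype.card_eq_zero_iff]
      simp [hk0, hg0]
    rw [Matrix.det_isEmpty, hk0, hg0]
    have h0 := hV ∅ (by simp) ∅ (by simp) (by simp) (by simp [hg0]) (by simp)
    have h1 : V0 ≤ 0 := by
      simpa [hk0, P6D203.VV] using h0
    refine (PB.one (p := 2)).mono ?_
    push_cast
    linarith

/-- **`v₂` of a minor** -/
theorem minor_PB {S : Shape} {c : ℕ} (hk : S.q + S.g ≤ S.rows) (hE : LeafE S c) (u : ℕ) (V0 : ℤ)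
    (hV : SetIneq S u c V0) (r : Col S u → D.Row) (hr : Adm S u c r) :
    ∃ e : Col S u ⊕ Fin c ≃ Rw S u c,
      PB 2 (padicValRat 2 (kap S u) + padicValRat 2 (VV S u c e) + V0 - (S.k * u : ℕ)
        - (S.g * u : ℕ)) (Minor S u r) := by
  obtain ⟨b, xi, hb1, hb2, hxi, hEu⟩ := hE u
  obtain ⟨e, s, -, h⟩ := minor_eq (A := ℚ[X]) hk (X : ℚ[X]) r hr (p := fun k => X ^ k)
    (bR := b) (bQ := fun l => X ^ l) monicFam_X hb1 monicFam_X
  refine ⟨e, ?_⟩
  have hself : ∀ x : ℚ, I2 (padicValRat 2 x) x := by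
    intro x
    by_cases hx : x = 0
    · subst hx; exact I2.zero _
    · exact (I2_iff hx).2 le_rfl
  have h1 := resMat_PB S u c hk b xi hb2 hxi hEu V0 hV (fun t => e (Sum.inr t))
  have h2 : PB 2 (padicValRat 2 (kap S u) + padicValRat 2 (VV S u c e))
      (C (kap S u * VV S u c e)) := ((hself _).mul (hself _)).toPB
  have h3 : PB 2 0 ((((s : ℤˣ) : ℤ) : ℚ[X])) := by
    have h4 := (I2_int ((s : ℤˣ) : ℤ)).toPB
    simpa using h4
  rw [aeval_X_left_apply, algebraMap_eq] at h
  rw [h]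
  refine (h3.mul (h2.mul h1)).mono (le_of_eq ?_)
  ring

end Crest.Agent.R006.P6B
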