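import Mathlib

/-!
# Row 6, block P6 (p = 2), line B, leaf N (helper618): weights of arbitrary node sets

`two_sum_le` / `two_sum_ge` : sums of distinct naturals;
`weights_le` : `4 ∑_{S3} n + 3 ∑_{S2} n` for disjoint sets, `S2` above `a`;
all statements over `ℕ`, resp. `ℝ`.
-/

set_option autoImplicit false

namespace Crest.Agent.R006.P6N618

open Finset

/-- the sum of `s` distinct naturals `< L` is at most the sum of the top ones -/
theorem two_sum_le (S : Finset ℕ) : ∀ L : ℕ, (∀ n ∈ S, n < L) →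
    2 * (∑ n ∈ S, n) + S.card * (S.card + 1) ≤ 2 * S.card * L := by
  induction S using Finset.induction_on_max with
  | empty => intro L _; simp
  | insert a S hlt ih =>
    intro L hL
    have ha : a ∉ S := fun h => lt_irrefl _ (hlt a h)
    have h1 := ih a hlt
    have h2 : a + 1 ≤ L := hL a (mem_insert_self a S)
    rw [sum_insert ha, card_insert_of_notMem ha]
    nlinarith

/-- the sum of `s` distinct naturals is at least `0 + 1 + … + (s-1)` -/
theorem two_sum_ge (S : Finset ℕ) : S.card * S.card ≤ 2 * (∑ n ∈ S, n) + S.card := by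
  induction S using Finset.induction_on_max with
  | empty => simp
  | insert a S hlt ih =>
    have ha : a ∉ S := fun h => lt_irrefl _ (hlt a h)
    have h1 : S.card ≤ a := by
      have := card_le_card (fun x hx => mem_range.2 (hlt x hx) : S ⊆ range a)
      simpa using this
    rw [sum_insert ha, card_insert_of_notMem ha]
    nlinarith

/-- real form of `two_sum_le` -/
theorem sum_le_real (S : Finset ℕ) (L : ℕ) (h : ∀ n ∈ S, n < L) :
    (∑ n ∈ S, (n : ℝ)) ≤ S.card * L - (S.card : ℝ) ^ 2 / 2 := by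
  have h1 := two_sum_le S L h
  have h2 : (2 : ℝ) * (∑ n ∈ S, (n : ℝ)) + S.card * (S.card + 1) ≤ 2 * S.card * L := by
    have h3 := (Nat.cast_le (α := ℝ)).2 h1
    push_cast at h3
    exact h3
  nlinarith [(Nat.cast_nonneg S.card : (0 : ℝ) ≤ S.card)]

/-- real form of `two_sum_ge` -/
theorem sum_ge_real (S : Finset ℕ) :
    (S.card : ℝ) ^ 2 / 2 - S.card / 2 ≤ ∑ n ∈ S, (n : ℝ) := by
  have h2 : (S.card : ℝ) * S.card ≤ 2 * (∑ n ∈ S, (n : ℝ)) + S.card := by
    have h3 := (Nat.cast_le (α := ℝ)).2 (two_sum_ge S)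
    push_cast at h3
    exact h3
  nlinarith

/-- weights of two disjoint node sets `P` (weight `4 n`) and `Q` (weight `3 n`) in `[0, L)` -/
theorem weights_le0 (P Q : Finset ℕ) (L : ℕ) (hPQ : Disjoint P Q) (hP : ∀ n ∈ P, n < L)
    (hQ : ∀ n ∈ Q, n < L) :
    4 * (∑ n ∈ P, (n : ℝ)) + 3 * (∑ n ∈ Q, (n : ℝ)) ≤
      3 * (((P.card : ℝ) + Q.card) * L - ((P.card : ℝ) + Q.card) ^ 2 / 2)
        + (P.card * L - (P.card : ℝ) ^ 2 / 2) := by
  have h1 := sum_le_real P L hP
  have h2 := sum_le_real (P ∪ Q) L (fun n hn => (mem_union.1 hn).elim (hP n) (hQ n))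
  rw [sum_union hPQ, card_union_of_disjoint hPQ] at h2
  push_cast at h2
  nlinarith

/-- the weights of the `G`-nodes: `Q` (weight `3 n`) lies in `[a, L)`, `P` (weight `4 n`) in
`[0, L)`; `kap` = number of the elements of `P` below `a`; `K1` the others -/
theorem weights_le (P Q : Finset ℕ) (a L : ℕ) (hPQ : Disjoint P Q) (hP : ∀ n ∈ P, n < L)
    (hQ : ∀ n ∈ Q, a ≤ n ∧ n < L) :
    ∃ K1 kap : ℕ, P.card = K1 + kap ∧ kap ≤ a ∧ (a ≤ L → Q.card + K1 + a ≤ L) ∧
      4 * (∑ n ∈ P, (n : ℝ)) + 3 * (∑ n ∈ Q, (n : ℝ)) ≤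
      3 * (((K1 : ℝ) + Q.card) * L - ((K1 : ℝ) + Q.card) ^ 2 / 2)
        + (K1 * L - (K1 : ℝ) ^ 2 / 2) + 4 * (kap * a - (kap : ℝ) ^ 2 / 2) := by
  classical
  set P1 := P.filter (fun n => a ≤ n) with hP1
  set P0 := P.filter (fun n => ¬ a ≤ n) with hP0
  have hcard : P1.card + P0.card = P.card := card_filter_add_card_filter_not _
  have hsum : (∑ n ∈ P1, (n : ℝ)) + ∑ n ∈ P0, (n : ℝ) = ∑ n ∈ P, (n : ℝ) :=
    sum_filter_add_sum_filter_not P _ _
  have hd : Disjoint P1 Q := disjoint_of_subset_left (filter_subset _ _) hPQ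
  refine ⟨P1.card, P0.card, by omega, ?_, ?_, ?_⟩
  · have h1 : P0 ⊆ range a := fun x hx => by
      rw [hP0, mem_filter] at hx
      exact mem_range.2 (by omega)
    simpa using card_le_card h1
  · intro haL
    have h1 : P1 ∪ Q ⊆ Finset.Ico a L := by
      intro x hx
      rw [mem_Ico]
      rcases mem_union.1 hx with hx | hx
      · rw [hP1, mem_filter] at hx
        exact ⟨hx.2, hP x hx.1⟩
      · exact hQ x hx
    have h2 := card_le_card h1
    rw [card_union_of_disjoint hd, Nat.card_Ico] at h2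
    omega
  · have h1 := weights_le0 P1 Q L hd (fun n hn => hP n (filter_subset _ _ hn))
      (fun n hn => (hQ n hn).2)
    have h2 := sum_le_real P0 a (fun n hn => by
      rw [hP0, mem_filter] at hn
      omega)
    rw [← hsum]
    nlinarith

end Crest.Agent.R006.P6N618
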