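import Crest.Agent.R006.P6B1_404
import Crest.Agent.R006.P6N_618

/-!
# Row 6, block P6 (p = 2), line B, part 2 (helper404): the four classes of nodes, factorials
-/

set_option autoImplicit false

namespace Crest.Agent.R006.P6B

open Polynomial Finset Crest.Agent.R006.D Crest.Agent.R006.NV Crest.Agent.R006.Lam
open Crest.Agent.R006.Bord Crest.Agent.R006.P6V Crest.Agent.R006.P6 Crest.Agent.R006.ProdBound481

/-! ### the classes -/

/-- the four classes of sites -/
def siteE : Site ≃ (ℕ ⊕ ℕ) ⊕ (ℕ ⊕ ℕ) where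
  toFun
    | .Z (Int.ofNat n) => .inl (.inl n)
    | .Z (Int.negSucc n) => .inl (.inr n)
    | .H (Int.ofNat n) => .inr (.inl n)
    | .H (Int.negSucc n) => .inr (.inr n)
  invFun
    | .inl (.inl n) => .Z (Int.ofNat n)
    | .inl (.inr n) => .Z (Int.negSucc n)
    | .inr (.inl n) => .H (Int.ofNat n)
    | .inr (.inr n) => .H (Int.negSucc n)
  left_inv := by rintro ((n | n) | (n | n)) <;> rfl
  right_inv := by rintro ((n | n) | (n | n)) <;> rfl

section cls

variable {S : Shape} {u c : ℕ}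

/-- the labels of a set of nodes -/
noncomputable def lab (T : Finset (St S u c)) : Finset ((ℕ ⊕ ℕ) ⊕ (ℕ ⊕ ℕ)) :=
  T.map ((Function.Embedding.subtype _).trans siteE.toEmbedding)

/-- indices of the nodes `n ≥ 0` -/
noncomputable def zp (T : Finset (St S u c)) : Finset ℕ := (lab T).toLeft.toLeft
/-- indices of the nodes `-1-n` -/
noncomputable def zn (T : Finset (St S u c)) : Finset ℕ := (lab T).toLeft.toRight
/-- indices of the nodes `n + 1/2` -/
noncomputable def hp (T : Finset (St S u c)) : Finset ℕ := (lab T).toRight.toLeft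
/-- indices of the nodes `-1/2-n` -/
noncomputable def hn (T : Finset (St S u c)) : Finset ℕ := (lab T).toRight.toRight

lemma mem_lab (T : Finset (St S u c)) (y : (ℕ ⊕ ℕ) ⊕ (ℕ ⊕ ℕ)) :
    y ∈ lab T ↔ ∃ x ∈ T, x.1 = siteE.symm y := by
  unfold lab
  rw [Finset.mem_map]
  constructor
  · rintro ⟨x, hx, rfl⟩
    exact ⟨x, hx, by simp⟩
  · rintro ⟨x, hx, h⟩
    exact ⟨x, hx, by simp [h]⟩

lemma mem_zp (T : Finset (St S u c)) (n : ℕ) : n ∈ zp T ↔ ∃ x ∈ T, x.1 = Site.Z n := by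
  unfold zp; rw [mem_toLeft, mem_toLeft, mem_lab]; rfl

lemma mem_zn (T : Finset (St S u c)) (n : ℕ) :
    n ∈ zn T ↔ ∃ x ∈ T, x.1 = Site.Z (Int.negSucc n) := by
  unfold zn; rw [mem_toRight, mem_toLeft, mem_lab]; rfl

lemma mem_hp (T : Finset (St S u c)) (n : ℕ) : n ∈ hp T ↔ ∃ x ∈ T, x.1 = Site.H n := by
  unfold hp; rw [mem_toLeft, mem_toRight, mem_lab]; rfl

lemma mem_hn (T : Finset (St S u c)) (n : ℕ) :
    n ∈ hn T ↔ ∃ x ∈ T, x.1 = Site.H (Int.negSucc n) := by
  unfold hn; rw [mem_toRight, mem_toRight, mem_lab]; rfl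

lemma sum_four {M : Type*} [AddCommMonoid M] (s : Finset ((ℕ ⊕ ℕ) ⊕ (ℕ ⊕ ℕ)))
    (f : (ℕ ⊕ ℕ) ⊕ (ℕ ⊕ ℕ) → M) :
    ∑ y ∈ s, f y = (∑ n ∈ s.toLeft.toLeft, f (.inl (.inl n)) +
      ∑ n ∈ s.toLeft.toRight, f (.inl (.inr n))) + (∑ n ∈ s.toRight.toLeft, f (.inr (.inl n)) +
      ∑ n ∈ s.toRight.toRight, f (.inr (.inr n))) := by
  conv_lhs => rw [← Finset.toLeft_disjSum_toRight (u := s), Finset.sum_disjSum]
  congr 1
  · conv_lhs => rw [← Finset.toLeft_disjSum_toRight (u := s.toLeft), Finset.sum_disjSum]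
  · conv_lhs => rw [← Finset.toLeft_disjSum_toRight (u := s.toRight), Finset.sum_disjSum]

/-- sums over the nodes by class -/
lemma sum_cls {M : Type*} [AddCommMonoid M] (T : Finset (St S u c)) (f : Site → M) :
    ∑ x ∈ T, f x.1 = (∑ n ∈ zp T, f (Site.Z n) + ∑ n ∈ zn T, f (Site.Z (Int.negSucc n)))
      + (∑ n ∈ hp T, f (Site.H n) + ∑ n ∈ hn T, f (Site.H (Int.negSucc n))) := by
  have h := sum_four (lab T) (fun y => f (siteE.symm y))
  unfold lab at h
  rw [Finset.sum_map] at h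
  simp only [Function.Embedding.trans_apply, Equiv.coe_toEmbedding, Equiv.symm_apply_apply,
    Function.Embedding.subtype_apply] at h
  exact h

lemma card_cls (T : Finset (St S u c)) :
    T.card = ((zp T).card + (zn T).card) + ((hp T).card + (hn T).card) := by
  have h := sum_cls T (fun _ => (1 : ℕ))
  simpa using h

lemma card_H (T : Finset (St S u c)) :
    (T.filter (fun x => IsH x.1)).card = (hp T).card + (hn T).card := by
  have h := sum_cls T (fun s => if IsH s then (1 : ℕ) else 0)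
  rw [Finset.card_filter, h]
  simp [IsH]

lemma card_Z (T : Finset (St S u c)) :
    (T.filter (fun x => ¬ IsH x.1)).card = (zp T).card + (zn T).card := by
  have h := sum_cls T (fun s => if IsH s then (0 : ℕ) else 1)
  have h2 : (T.filter (fun x => ¬ IsH x.1)).card = ∑ x ∈ T, if IsH x.1 then (0 : ℕ) else 1 := by
    rw [Finset.card_filter]
    exact Finset.sum_congr rfl fun x _ => by by_cases h : IsH x.1 <;> simp [h]
  rw [h2, h]
  simp [IsH]

end cls

/-! ### the masses -/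

section mass

variable (S : Shape) (u c : ℕ)

lemma sum_St {M : Type*} [AddCommMonoid M] (f : Site → M) :
    ∑ x : St S u c, f x.1 = ∑ i ∈ Finset.Icc (-(L S u c : ℤ)) (L S u c), f (Site.Z i)
      + ∑ i ∈ Finset.Icc (-(L S u c : ℤ)) (L S u c), f (Site.H i) := by
  have h1 : ∑ x : St S u c, f x.1 = ∑ z ∈ sites S u c, f z := Finset.sum_coe_sort (sites S u c) f
  rw [h1, sites, Finset.sum_union]
  · rw [Finset.sum_image (by intro a _ b _ h; simpa using h),
      Finset.sum_image (by intro a _ b _ h; simpa using h)]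
  · rw [Finset.disjoint_left]
    intro x hx hx'
    obtain ⟨i, _, rfl⟩ := Finset.mem_image.mp hx
    obtain ⟨j, _, hj⟩ := Finset.mem_image.mp hx'
    exact Site.noConfusion hj

lemma mass_Z : ∑ i ∈ Finset.Icc (-(L S u c : ℤ)) (L S u c), S.mult u c (Site.Z i)
    = (S.B * u + c) + S.e1 * u + S.e2 * u + S.e3 * u := by
  obtain ⟨l1, l2, l3, l4, l5, l6, l7, l8⟩ := L_ge S u c
  rw [← sum_right l1, ← sum_left l2, ← sum_left l3, ← sum_left l4, ← Finset.sum_add_distrib,
    ← Finset.sum_add_distrib, ← Finset.sum_add_distrib]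
  refine Finset.sum_congr rfl fun i _ => ?_
  simp only [Shape.mult]
  push_cast
  split_ifs <;> rfl

lemma mass_H : ∑ i ∈ Finset.Icc (-(L S u c : ℤ)) (L S u c), S.mult u c (Site.H i)
    = S.h1 * u + S.h2 * u + S.h3 * u + S.w * u := by
  obtain ⟨l1, l2, l3, l4, l5, l6, l7, l8⟩ := L_ge S u c
  rw [← sum_right l5, ← sum_right l6, ← sum_right l7, ← sum_left l8, ← Finset.sum_add_distrib,
    ← Finset.sum_add_distrib, ← Finset.sum_add_distrib]
  refine Finset.sum_congr rfl fun i _ => ?_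
  simp only [Shape.mult]
  push_cast
  split_ifs <;> rfl

lemma mass_total : ∑ x : St S u c, mm S u c x = S.rows * u + c := by
  have h := sum_St S u c (fun s => S.mult u c s)
  rw [mass_Z, mass_H] at h
  unfold mm
  rw [h, Shape.rows]
  ring

/-- integer mass minus half-integer mass -/
lemma imb_mm : imb (fun x : St S u c => x.1) (fun x => (mm S u c x : ℤ)) =
    ((S.B * u + c) + S.e1 * u + S.e2 * u + S.e3 * u)
      - (S.h1 * u + S.h2 * u + S.h3 * u + S.w * u) := by
  have h := sum_St S u c (fun s => if IsH s then -(S.mult u c s : ℤ) else (S.mult u c s : ℤ))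
  unfold imb mm
  rw [h]
  have h1 : ∑ i ∈ Finset.Icc (-(L S u c : ℤ)) (L S u c),
      (if IsH (Site.Z i) then -(S.mult u c (Site.Z i) : ℤ) else (S.mult u c (Site.Z i) : ℤ))
      = ((∑ i ∈ Finset.Icc (-(L S u c : ℤ)) (L S u c), S.mult u c (Site.Z i) : ℕ) : ℤ) := by
    push_cast
    exact Finset.sum_congr rfl fun i _ => by simp [IsH]
  have h2 : ∑ i ∈ Finset.Icc (-(L S u c : ℤ)) (L S u c),
      (if IsH (Site.H i) then -(S.mult u c (Site.H i) : ℤ) else (S.mult u c (Site.H i) : ℤ))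
      = -((∑ i ∈ Finset.Icc (-(L S u c : ℤ)) (L S u c), S.mult u c (Site.H i) : ℕ) : ℤ) := by
    push_cast
    rw [← Finset.sum_neg_distrib]
    exact Finset.sum_congr rfl fun i _ => by simp [IsH]
  rw [h1, h2, mass_Z, mass_H]
  push_cast
  ring

/-- imbalance of a set -/
lemma imb_ind (T : Finset (St S u c)) : imb (fun x : St S u c => x.1) (ind T) =
    (((zp T).card + (zn T).card : ℕ) : ℤ) - ((hp T).card + (hn T).card : ℕ) := by
  have h : imb (fun x : St S u c => x.1) (ind T) = ∑ x, ind T x * (if IsH x.1 then -1 else 1) := by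
    unfold imb
    exact Finset.sum_congr rfl fun x _ => by by_cases h : IsH x.1 <;> simp [h]
  rw [h, sum_ind_mul, sum_cls T (fun s => if IsH s then (-1 : ℤ) else 1)]
  simp [IsH]
  ring

lemma imb_sub (m t : St S u c → ℤ) : imb (fun x : St S u c => x.1) (fun i => m i - t i)
    = imb (fun x : St S u c => x.1) m - imb (fun x : St S u c => x.1) t := by
  unfold imb
  rw [← Finset.sum_sub_distrib]
  exact Finset.sum_congr rfl fun x _ => by by_cases h : IsH x.1 <;> simp [h]; ring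

end mass

/-! ### factorials -/

lemma sum_id_le (n : ℕ) : ∑ l : Fin n, ((l : ℕ) : ℝ) ≤ (n : ℝ) ^ 2 / 2 := by
  rw [Fin.sum_univ_eq_sum_range (fun l => (l : ℝ)) n]
  induction n with
  | zero => simp
  | succ n ih =>
    rw [Finset.sum_range_succ]
    push_cast
    nlinarith

lemma val_inv_fact (n : ℕ) : -(n : ℤ) ≤ padicValRat 2 ((n.factorial : ℚ)⁻¹) := by
  rw [padicValRat.inv, padicValRat.of_nat]
  have := vfac_le n
  omega

lemma inv_fact_ne (n : ℕ) : ((n.factorial : ℚ)⁻¹) ≠ 0 :=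
  inv_ne_zero (by exact_mod_cast Nat.factorial_ne_zero n)

/-- valuation of the normalisation -/
theorem kap_ge (S : Shape) (u : ℕ) :
    -((S.k * u : ℝ) * ((S.a1 + S.a2 + S.i1 + S.r1) * u) + (S.k * u : ℝ) ^ 2 / 2
      + (S.q * u : ℝ) ^ 2 / 2 + (S.g * u : ℝ) ^ 2 / 2) ≤ (padicValRat 2 (kap S u) : ℝ) := by
  have hvR : ∀ l : ℕ, vR S u l ≠ 0 := fun l => by
    unfold vR
    exact mul_ne_zero (mul_ne_zero (mul_ne_zero (inv_fact_ne _) (inv_fact_ne _)) (inv_fact_ne _))
      (inv_fact_ne _)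
  have h1 : padicValRat 2 (kap S u) = ∑ l : Fin (S.k * u), padicValRat 2 (vR S u l)
      + (∑ l : Fin (S.q * u), padicValRat 2 ((((l : ℕ).factorial : ℚ)⁻¹))
        + ∑ l : Fin (S.g * u), padicValRat 2 ((((l : ℕ).factorial : ℚ)⁻¹))) := by
    have n1 : (∏ l : Fin (S.k * u), vR S u l) ≠ 0 := Finset.prod_ne_zero_iff.2 fun l _ => hvR l
    have n2 : ∀ n : ℕ, (∏ l : Fin n, (((l : ℕ).factorial : ℚ)⁻¹)) ≠ 0 := fun n =>
      Finset.prod_ne_zero_iff.2 fun l _ => inv_fact_ne (l : ℕ)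
    have n3 : ∀ n : ℕ, padicValRat 2 (∏ l : Fin n, (((l : ℕ).factorial : ℚ)⁻¹))
        = ∑ l : Fin n, padicValRat 2 ((((l : ℕ).factorial : ℚ)⁻¹)) := fun n =>
      padicValRat_prod 2 _ _ (fun l _ => inv_fact_ne (l : ℕ))
    have n4 : padicValRat 2 (∏ l : Fin (S.k * u), vR S u l)
        = ∑ l : Fin (S.k * u), padicValRat 2 (vR S u l) :=
      padicValRat_prod 2 _ _ (fun l _ => hvR (l : ℕ))
    unfold kap
    rw [padicValRat.mul n1 (mul_ne_zero (n2 _) (n2 _)), padicValRat.mul (n2 _) (n2 _),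
      n4, n3, n3]
  have h2 : ∀ l : Fin (S.k * u), -(((S.a1 + S.a2 + S.i1 + S.r1) * u + (l : ℕ) : ℕ) : ℤ)
      ≤ padicValRat 2 (vR S u l) := by
    intro l
    unfold vR
    rw [padicValRat.mul (mul_ne_zero (mul_ne_zero (inv_fact_ne _) (inv_fact_ne _))
      (inv_fact_ne _)) (inv_fact_ne _), padicValRat.mul (mul_ne_zero (inv_fact_ne _)
      (inv_fact_ne _)) (inv_fact_ne _), padicValRat.mul (inv_fact_ne _) (inv_fact_ne _)]
    have a1 := val_inv_fact (S.a2 * u)
    have a2 := val_inv_fact (S.i1 * u)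
    have a3 := val_inv_fact (S.r1 * u)
    have a4 := val_inv_fact (S.a1 * u + l)
    push_cast at a1 a2 a3 a4 ⊢
    linarith
  have h3 : -(∑ l : Fin (S.k * u), (((S.a1 + S.a2 + S.i1 + S.r1) * u + (l : ℕ) : ℕ) : ℤ)
      + (∑ l : Fin (S.q * u), ((l : ℕ) : ℤ) + ∑ l : Fin (S.g * u), ((l : ℕ) : ℤ)))
      ≤ padicValRat 2 (kap S u) := by
    rw [h1, neg_add, neg_add, ← Finset.sum_neg_distrib, ← Finset.sum_neg_distrib,
      ← Finset.sum_neg_distrib]
    exact add_le_add (Finset.sum_le_sum fun l _ => h2 l)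
      (add_le_add (Finset.sum_le_sum fun l _ => val_inv_fact l)
        (Finset.sum_le_sum fun l _ => val_inv_fact l))
  have h4 := (Int.cast_le (R := ℝ)).2 h3
  refine le_trans ?_ h4
  push_cast
  rw [Finset.sum_add_distrib, Finset.sum_const, Finset.card_univ, Fintype.card_fin, nsmul_eq_mul]
  have b1 := sum_id_le (S.k * u)
  have b2 := sum_id_le (S.q * u)
  have b3 := sum_id_le (S.g * u)
  push_cast at b1 b2 b3 ⊢
  linarith

/-- twice the valuation of the confluent Vandermonde -/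
lemma two_val_VV (S : Shape) (u c : ℕ) (e : Col S u ⊕ Fin c ≃ Rw S u c) :
    2 * padicValRat 2 (Bord.VV S u c e) =
      W2 2 (zz S u c) (fun i => (mm S u c i : ℤ)) := by
  unfold Bord.VV
  rw [VmatValx340.two_padicValRat_det_vmat 2 (zz S u c) (zz_injective S u c) (mm S u c)]
  unfold W2
  refine Finset.sum_congr rfl fun i _ => Finset.sum_congr rfl fun l _ => ?_
  push_cast
  ring

end Crest.Agent.R006.P6B
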