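import Crest.Agent.R006.P6B2_404

/-!
# Row 6, block P6 (p = 2), line B, part 3 (helper404): the inequality for the sets `S2`, `S3`

`set_ge` : the total valuation for `S2`, `S3` is at least
`quadI S u mu kap eq hq wq - Err S u c J`, with the sizes of the classes.
-/

set_option autoImplicit false

namespace Crest.Agent.R006.P6B

open Polynomial Finset Crest.Agent.R006.D Crest.Agent.R006.NV Crest.Agent.R006.Lam
open Crest.Agent.R006.Bord Crest.Agent.R006.P6V Crest.Agent.R006.P6 Crest.Agent.R006.ProdBound481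

section sets

variable {S : Shape} {u c : ℕ}

/-! ### membership -/

lemma XQ_zp {x : St S u c} (hx : x ∈ XQ S u c) {n : ℕ} (h : x.1 = Site.Z n) :
    n < S.B * u + c := by
  unfold XQ at hx
  have h1 := (Finset.mem_filter.1 hx).2
  unfold mm at h1
  rw [h] at h1
  simp only [Shape.mult, P6Q.gord] at h1
  rw [if_pos (Int.natCast_nonneg n), if_pos (Int.natCast_nonneg n)] at h1
  by_contra h2
  rw [if_neg (by omega)] at h1
  omega

lemma XQ_zn {x : St S u c} (hx : x ∈ XQ S u c) {n : ℕ} (h : x.1 = Site.Z (Int.negSucc n)) :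
    n < S.e3 * u := by
  unfold XQ at hx
  have h1 := (Finset.mem_filter.1 hx).2
  unfold mm at h1
  rw [h] at h1
  simp only [Shape.mult, P6Q.gord] at h1
  have h0 : ¬ (0 : ℤ) ≤ Int.negSucc n := by rw [Int.negSucc_eq]; omega
  rw [if_neg h0, if_neg h0] at h1
  by_contra h2
  rw [if_neg (c := -Int.negSucc n ≤ (S.e3 : ℤ) * u) (by
    rw [Int.negSucc_eq]
    have : (S.e3 : ℤ) * u = ((S.e3 * u : ℕ) : ℤ) := by push_cast; ring
    omega)] at h1
  split_ifs at h1 <;> omega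

lemma XQ_hp {x : St S u c} (hx : x ∈ XQ S u c) {n : ℕ} (h : x.1 = Site.H n) :
    n < S.h3 * u := by
  unfold XQ at hx
  have h1 := (Finset.mem_filter.1 hx).2
  unfold mm at h1
  rw [h] at h1
  simp only [Shape.mult, P6Q.gord] at h1
  rw [if_pos (Int.natCast_nonneg n), if_pos (Int.natCast_nonneg n)] at h1
  by_contra h2
  rw [if_neg (c := ((n : ℤ)) < (S.h3 : ℤ) * u) (by
    have : (S.h3 : ℤ) * u = ((S.h3 * u : ℕ) : ℤ) := by push_cast; ring
    omega)] at h1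
  split_ifs at h1 <;> omega

lemma XQ_hn {x : St S u c} (hx : x ∈ XQ S u c) {n : ℕ} (h : x.1 = Site.H (Int.negSucc n)) :
    n < S.w * u := by
  unfold XQ at hx
  have h1 := (Finset.mem_filter.1 hx).2
  unfold mm at h1
  rw [h] at h1
  simp only [Shape.mult, P6Q.gord] at h1
  have h0 : ¬ (0 : ℤ) ≤ Int.negSucc n := by rw [Int.negSucc_eq]; omega
  rw [if_neg h0, if_neg h0] at h1
  by_contra h2
  rw [if_neg (by
    rw [Int.negSucc_eq]
    have : (S.w : ℤ) * u = ((S.w * u : ℕ) : ℤ) := by push_cast; ring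
    omega)] at h1
  omega

lemma XR_mm {x : St S u c} (hx : x ∈ XR S u c) : 1 ≤ mm S u c x := by
  obtain ⟨n, h1, -, h3⟩ := mem_XR hx
  unfold mm
  rw [h1]
  simp only [Shape.mult]
  rw [if_pos (Int.natCast_nonneg n), if_pos (by exact_mod_cast h3)]

lemma XQ_mm {x : St S u c} (hx : x ∈ XQ S u c) : 1 ≤ mm S u c x := by
  unfold XQ at hx
  have h1 := (Finset.mem_filter.1 hx).2
  omega

/-- the sets `S2`: only nodes `n ≥ 0` -/
lemma S2_cls {S2 : Finset (St S u c)} (h : S2 ⊆ XR S u c) :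
    zn S2 = ∅ ∧ hp S2 = ∅ ∧ hn S2 = ∅ ∧ ∀ n ∈ zp S2, S.a1 * u ≤ n ∧ n < S.B * u + c := by
  refine ⟨?_, ?_, ?_, ?_⟩
  · refine Finset.eq_empty_of_forall_notMem fun n hn => ?_
    obtain ⟨x, hx, hx2⟩ := (mem_zn _ _).1 hn
    obtain ⟨n', h1, -, -⟩ := mem_XR (h hx)
    rw [h1] at hx2
    simp at hx2
  · refine Finset.eq_empty_of_forall_notMem fun n hn => ?_
    obtain ⟨x, hx, hx2⟩ := (mem_hp _ _).1 hn
    obtain ⟨n', h1, -, -⟩ := mem_XR (h hx)
    rw [h1] at hx2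
    simp at hx2
  · refine Finset.eq_empty_of_forall_notMem fun n hn => ?_
    obtain ⟨x, hx, hx2⟩ := (mem_hn _ _).1 hn
    obtain ⟨n', h1, -, -⟩ := mem_XR (h hx)
    rw [h1] at hx2
    simp at hx2
  · intro n hn
    obtain ⟨x, hx, hx2⟩ := (mem_zp _ _).1 hn
    obtain ⟨n', h1, h2, h3⟩ := mem_XR (h hx)
    rw [h1] at hx2
    have : n' = n := by simpa using hx2
    subst this
    exact ⟨h2, h3⟩

lemma S3_cls {S3 : Finset (St S u c)} (h : S3 ⊆ XQ S u c) :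
    (∀ n ∈ zp S3, n < S.B * u + c) ∧ (∀ n ∈ zn S3, n < S.e3 * u) ∧ (∀ n ∈ hp S3, n < S.h3 * u) ∧
      ∀ n ∈ hn S3, n < S.w * u := by
  refine ⟨fun n hn => ?_, fun n hn => ?_, fun n hn => ?_, fun n hn' => ?_⟩
  · obtain ⟨x, hx, hx2⟩ := (mem_zp _ _).1 hn
    exact XQ_zp (h hx) hx2
  · obtain ⟨x, hx, hx2⟩ := (mem_zn _ _).1 hn
    exact XQ_zn (h hx) hx2
  · obtain ⟨x, hx, hx2⟩ := (mem_hp _ _).1 hn
    exact XQ_hp (h hx) hx2
  · obtain ⟨x, hx, hx2⟩ := (mem_hn _ _).1 hn'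
    exact XQ_hn (h hx) hx2

lemma zp_disjoint {S2 S3 : Finset (St S u c)} (h : Disjoint S2 S3) : Disjoint (zp S2) (zp S3) := by
  rw [Finset.disjoint_left]
  intro n h2 h3
  obtain ⟨x, hx, hx2⟩ := (mem_zp _ _).1 h2
  obtain ⟨y, hy, hy2⟩ := (mem_zp _ _).1 h3
  have : x = y := Subtype.ext (hx2.trans hy2.symm)
  subst this
  exact (Finset.disjoint_left.1 h) hx hy

/-! ### logarithms -/

lemma log_le_J {n J : ℕ} (h : n ≤ 2 ^ J) : Nat.log 2 n ≤ J := by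
  calc Nat.log 2 n ≤ Nat.log 2 (2 ^ J) := Nat.log_mono_right h
    _ = J := Nat.log_pow (by norm_num) J

lemma vfac_ge_J {n J : ℕ} (h : n ≤ 2 ^ J) : (n : ℤ) - J - 1 ≤ padicValNat 2 n.factorial := by
  have h1 := le_vfac n
  have h2 := log_le_J h
  omega

lemma dd_ge {l J : ℕ} (h : l ≤ 2 ^ J) : (l : ℤ) - J - 2 ≤ dd l := by
  unfold dd
  have h1 : l / 2 ≤ 2 ^ J := (Nat.div_le_self l 2).trans h
  have h2 := vfac_ge_J h1
  rw [Nat.cast_add]
  omega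

lemma Va_ge {J : ℕ} (h : (S.rows + S.a1 + S.a2 + S.r1) * u + c ≤ 2 ^ J) :
    (((S.a1 + S.a2 + S.r1) * u : ℕ) : ℤ) - 3 * (J + 1) ≤ Va S u := by
  unfold Va
  have e : (S.rows + S.a1 + S.a2 + S.r1) * u = S.rows * u + S.a1 * u + S.a2 * u + S.r1 * u := by
    ring
  have h1 := vfac_ge_J (n := S.a1 * u) (J := J) (by omega)
  have h2 := vfac_ge_J (n := S.a2 * u) (J := J) (by omega)
  have h3 := vfac_ge_J (n := S.r1 * u) (J := J) (by omega)
  have e2 : (S.a1 + S.a2 + S.r1) * u = S.a1 * u + S.a2 * u + S.r1 * u := by ring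
  rw [e2]
  push_cast at h1 h2 h3 ⊢
  linarith

lemma sum_e_ge {κ J : ℕ} (h : κ ≤ 2 ^ J) (A : ℤ) :
    (κ : ℝ) * (A - 3 - J) + (κ : ℝ) ^ 2 / 2 - κ / 2 ≤
      ((∑ l ∈ range κ, (A + dd l - 1) : ℤ) : ℝ) := by
  have h1 : ∑ l ∈ range κ, (A - 3 - J + (l : ℤ)) ≤ ∑ l ∈ range κ, (A + dd l - 1) := by
    refine Finset.sum_le_sum fun l hl => ?_
    have h2 : l ≤ 2 ^ J := (Finset.mem_range.1 hl).le.trans h
    have h3 := dd_ge h2
    linarith
  refine le_trans ?_ (Int.cast_le.2 h1)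
  rw [Finset.sum_add_distrib, Finset.sum_const, Finset.card_range, nsmul_eq_mul]
  have h4 : ∀ n : ℕ, ((∑ l ∈ range n, (l : ℤ) : ℤ) : ℝ) = (n : ℝ) ^ 2 / 2 - n / 2 := by
    intro n
    induction n with
    | zero => simp
    | succ n ih =>
      rw [Finset.sum_range_succ]
      push_cast at ih ⊢
      rw [ih]
      ring
  push_cast at h4 ⊢
  rw [h4]
  linarith

/-! ### the sums of the weights -/

lemma sum_gv_ge {S3 : Finset (St S u c)} (h : S3 ⊆ XQ S u c) {J : ℕ}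
    (hJ : S.rows * u + c ≤ 2 ^ J) :
    -4 * (∑ n ∈ zp S3, (n : ℝ)) + (2 * ((zn S3).card : ℝ) ^ 2 - (2 * J + 2) * (zn S3).card)
      + (2 * ((hp S3).card : ℝ) ^ 2 - (2 * J + 2) * (hp S3).card)
      - 4 * ((hn S3).card * (S.w * u : ℝ) - ((hn S3).card : ℝ) ^ 2 / 2)
      ≤ ((∑ x ∈ S3, P6Q.gv x.1 : ℤ) : ℝ) := by
  obtain ⟨h1, h2, h3, h4⟩ := S3_cls h
  rw [sum_cls S3 P6Q.gv]
  have hrows : S.e3 * u ≤ S.rows * u ∧ S.h3 * u ≤ S.rows * u := by
    constructor <;> refine Nat.mul_le_mul_right u ?_ <;> unfold Shape.rows <;> omega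
  have a1 : ((∑ n ∈ zp S3, P6Q.gv (Site.Z n) : ℤ) : ℝ) = -4 * (∑ n ∈ zp S3, (n : ℝ)) := by
    push_cast
    rw [Finset.mul_sum]
    exact Finset.sum_congr rfl fun n _ => by simp [P6Q.gv]
  have aux : ∀ T : Finset ℕ, ∀ M : ℕ, (∀ n ∈ T, n < M) → M ≤ 2 ^ J →
      2 * ((T.card : ℝ)) ^ 2 - (2 * J + 2) * T.card
        ≤ ∑ n ∈ T, (4 * (n : ℝ) - 2 * (Nat.log 2 n : ℝ)) := by
    intro T M hT hM
    have b1 := P6N618.sum_ge_real T
    have b2 : ∑ n ∈ T, (Nat.log 2 n : ℝ) ≤ T.card * J := by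
      have : ∑ n ∈ T, (Nat.log 2 n : ℝ) ≤ ∑ n ∈ T, (J : ℝ) := by
        refine Finset.sum_le_sum fun n hn => ?_
        exact_mod_cast log_le_J ((hT n hn).le.trans hM)
      rw [Finset.sum_const, nsmul_eq_mul] at this
      exact this
    rw [Finset.sum_sub_distrib, ← Finset.mul_sum, ← Finset.mul_sum]
    linarith
  have a2 : 2 * ((zn S3).card : ℝ) ^ 2 - (2 * J + 2) * (zn S3).card
      ≤ ((∑ n ∈ zn S3, P6Q.gv (Site.Z (Int.negSucc n)) : ℤ) : ℝ) := by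
    refine (aux (zn S3) (S.e3 * u) h2 (by omega)).trans (le_of_eq ?_)
    push_cast
    exact Finset.sum_congr rfl fun n _ => by simp [P6Q.gv]
  have a3 : 2 * ((hp S3).card : ℝ) ^ 2 - (2 * J + 2) * (hp S3).card
      ≤ ((∑ n ∈ hp S3, P6Q.gv (Site.H n) : ℤ) : ℝ) := by
    refine (aux (hp S3) (S.h3 * u) h3 (by omega)).trans (le_of_eq ?_)
    push_cast
    exact Finset.sum_congr rfl fun n _ => by simp [P6Q.gv]
  have a4 : -4 * ((hn S3).card * (S.w * u : ℝ) - ((hn S3).card : ℝ) ^ 2 / 2)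
      ≤ ((∑ n ∈ hn S3, P6Q.gv (Site.H (Int.negSucc n)) : ℤ) : ℝ) := by
    have b1 := P6N618.sum_le_real (hn S3) (S.w * u) h4
    have b2 : ((∑ n ∈ hn S3, P6Q.gv (Site.H (Int.negSucc n)) : ℤ) : ℝ)
        = -4 * (∑ n ∈ hn S3, (n : ℝ)) := by
      push_cast
      rw [Finset.mul_sum]
      exact Finset.sum_congr rfl fun n _ => by simp [P6Q.gv]
    rw [b2]
    push_cast at b1
    linarith
  push_cast at a1 a2 a3 a4 ⊢
  linarith

end sets

end Crest.Agent.R006.P6B
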