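import Crest.Agent.R006.P6B3_404

/-!
# Row 6, block P6 (p = 2), line B, part 4 (helper404): the lower bound for `S2`, `S3`

`set_ge` : for all admissible `S2`, `S3` the total valuation is at least `quadI - Err`.
-/

set_option autoImplicit false

namespace Crest.Agent.R006.P6B

open Polynomial Finset Crest.Agent.R006.D Crest.Agent.R006.NV Crest.Agent.R006.Lam
open Crest.Agent.R006.Bord Crest.Agent.R006.P6V Crest.Agent.R006.P6 Crest.Agent.R006.ProdBound481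

/-- the quadratic in absolute units -/
noncomputable def quadI (S : Shape) (U mu kap eq hq wq : ℝ) : ℝ :=
  let K1 : ℝ := S.g * U - kap - eq - hq - wq
  let y : ℝ := hq + wq
  let Y : ℝ := (S.h1 + S.h2 + S.h3 + S.w) * U - y
  let X : ℝ := S.rows * U - mu - S.g * U - Y
  let κ : ℝ := S.k * U - mu
  (X - Y) ^ 2 / 2 + mu ^ 2 / 2 + (S.g * U - 2 * y) ^ 2 / 2 + κ * Y + κ ^ 2 / 2
    + mu * ((S.a1 + S.a2 + S.r1) * U)
    - (3 * ((mu + K1) * (S.B * U) - (mu + K1) ^ 2 / 2) + (K1 * (S.B * U) - K1 ^ 2 / 2))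
    - 4 * (S.a1 * U * kap - kap ^ 2 / 2) + 2 * eq ^ 2 + 2 * hq ^ 2
    - 4 * (wq * (S.w * U) - wq ^ 2 / 2)
    - (S.k * U * ((S.a1 + S.a2 + S.r1 + 2 * S.i1) * U) + (S.k * U) ^ 2 / 2
      + (S.q * U) ^ 2 / 2 + (S.g * U) ^ 2 / 2)

/-- the error term -/
noncomputable def Err (S : Shape) (u c J : ℕ) : ℝ :=
  c * ((S.k + S.g + 2 * (S.h1 + S.h2 + S.h3 + S.w)) * u)
    + (S.rows * u + c) * (1 + 3 * J) / 2 + (S.k + S.g) * u * (1 + J) / 2
    + S.k * u * (3 * J + 4) + c * ((3 * S.k + 4 * S.g) * u) + (2 * J + 2) * (S.g * u)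
    + S.k * u * (J + 4) + c * (S.g * u) + c * (S.k * u + S.g * u + c + 10 * L S u c)

/-- scaling -/
lemma quadI_eq (S : Shape) {U : ℝ} (hU : U ≠ 0) (mu kap eq hq wq : ℝ) :
    quadI S U mu kap eq hq wq =
      U ^ 2 * quadB S (mu / U) (kap / U) (eq / U) (hq / U) (wq / U) := by
  simp only [quadI, quadB]
  field_simp

/-- all the algebra -/
lemma final_alg (rows k g q B h1 h2 h3 w a1 a2 r1 i1 U c J m K1 kp eq hq wq Va Lb
    sQ sP sG se : ℝ)
    (hKK : K1 + kp + eq + hq + wq = g * U)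
    (h0 : 0 ≤ rows ∧ 0 ≤ k ∧ 0 ≤ g ∧ 0 ≤ h1 + h2 + h3 + w ∧ 0 ≤ U ∧ 0 ≤ c ∧ 0 ≤ J)
    (hm : 0 ≤ m) (hmk : m ≤ k * U) (hp : 0 ≤ K1 ∧ 0 ≤ kp ∧ 0 ≤ eq ∧ 0 ≤ hq ∧ 0 ≤ wq)
    (hVa : (a1 + a2 + r1) * U - 3 * (J + 1) ≤ Va)
    (hw : 4 * sP + 3 * sQ ≤ 3 * ((K1 + m) * (B * U + c) - (K1 + m) ^ 2 / 2)
      + (K1 * (B * U + c) - K1 ^ 2 / 2) + 4 * (kp * (a1 * U) - kp ^ 2 / 2))
    (hG : -4 * sP + (2 * eq ^ 2 - (2 * J + 2) * eq) + (2 * hq ^ 2 - (2 * J + 2) * hq)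
      - 4 * (wq * (w * U) - wq ^ 2 / 2) ≤ sG)
    (he : (k * U - m) * ((h1 + h2 + h3 + w) * U - i1 * U - 3 - J) + (k * U - m) ^ 2 / 2
      - (k * U - m) / 2 ≤ se) :
    ((rows * U - m - g * U - 2 * ((h1 + h2 + h3 + w) * U - (hq + wq))) ^ 2 / 2
      + m ^ 2 / 2 + (g * U - 2 * (hq + wq)) ^ 2 / 2
      + (k * U - m) * ((h1 + h2 + h3 + w) * U - (hq + wq)) + (k * U - m) ^ 2 / 2
      + m * ((a1 + a2 + r1) * U)
      - (3 * ((m + K1) * (B * U) - (m + K1) ^ 2 / 2) + (K1 * (B * U) - K1 ^ 2 / 2))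
      - 4 * (a1 * U * kp - kp ^ 2 / 2) + 2 * eq ^ 2 + 2 * hq ^ 2
      - 4 * (wq * (w * U) - wq ^ 2 / 2)
      - (k * U * ((a1 + a2 + r1 + 2 * i1) * U) + (k * U) ^ 2 / 2
        + (q * U) ^ 2 / 2 + (g * U) ^ 2 / 2))
      - (c * ((k + g + 2 * (h1 + h2 + h3 + w)) * U)
        + (rows * U + c) * (1 + 3 * J) / 2 + (k + g) * U * (1 + J) / 2
        + k * U * (3 * J + 4) + c * ((3 * k + 4 * g) * U) + (2 * J + 2) * (g * U)
        + k * U * (J + 4) + c * (g * U) + c * (k * U + g * U + c + 10 * Lb)) ≤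
    -(k * U * ((a1 + a2 + i1 + r1) * U) + (k * U) ^ 2 / 2 + (q * U) ^ 2 / 2 + (g * U) ^ 2 / 2)
      + ((rows * U - m - g * U - 2 * ((h1 + h2 + h3 + w) * U - (hq + wq)) + c) ^ 2
          - (rows * U + c) * (1 + 3 * J)) / 2
      + (m ^ 2 - m * (1 + J)) / 2 + ((g * U - 2 * (hq + wq)) ^ 2 - g * U * (1 + J)) / 2
      + (m * (Va - i1 * U - 1) - 3 * sQ) + sG + se - (hq + wq) * (k * U - m + c)
      - c * (k * U + g * U + c + 10 * Lb) := by
  obtain ⟨r0, k0, g0, hs0, U0, c0, J0⟩ := h0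
  obtain ⟨p1, p2, p3, p4, p5⟩ := hp
  have gU : 0 ≤ g * U := mul_nonneg g0 U0
  have kU : 0 ≤ k * U := mul_nonneg k0 U0
  have rU : 0 ≤ rows * U := mul_nonneg r0 U0
  have hsU : 0 ≤ (h1 + h2 + h3 + w) * U := mul_nonneg hs0 U0
  -- (a)
  have a1' : c * (-((k + g + 2 * (h1 + h2 + h3 + w)) * U)) ≤
      c * (rows * U - m - g * U - 2 * ((h1 + h2 + h3 + w) * U - (hq + wq))) := by
    refine mul_le_mul_of_nonneg_left ?_ c0
    have e : (k + g + 2 * (h1 + h2 + h3 + w)) * U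
        = k * U + g * U + 2 * ((h1 + h2 + h3 + w) * U) := by ring
    rw [e]
    linarith
  -- (c)
  have c1 : m * ((a1 + a2 + r1) * U - 3 * (J + 1)) ≤ m * Va := mul_le_mul_of_nonneg_left hVa hm
  have c2 : m * (3 * J + 4) ≤ k * U * (3 * J + 4) :=
    mul_le_mul_of_nonneg_right hmk (by linarith)
  have b1 : m * (1 + J) ≤ k * U * (1 + J) := mul_le_mul_of_nonneg_right hmk (by linarith)
  -- (d)
  have d1 : c * (3 * (K1 + m) + K1) ≤ c * ((3 * k + 4 * g) * U) := by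
    refine mul_le_mul_of_nonneg_left ?_ c0
    have e : (3 * k + 4 * g) * U = 3 * (k * U) + 4 * (g * U) := by ring
    rw [e]
    linarith
  -- (e)
  have e1' : (2 * J + 2) * (eq + hq) ≤ (2 * J + 2) * (g * U) :=
    mul_le_mul_of_nonneg_left (by linarith) (by linarith)
  -- (f)
  have f1 : (k * U - m) * (J + 4) ≤ k * U * (J + 4) :=
    mul_le_mul_of_nonneg_right (by linarith) (by linarith)
  have f2 : 0 ≤ k * U - m := by linarith
  -- (g)
  have g1 : c * (hq + wq) ≤ c * (g * U) := mul_le_mul_of_nonneg_left (by linarith) c0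
  have cc : 0 ≤ c ^ 2 := sq_nonneg c
  linarith [a1', c1, c2, b1, d1, e1', f1, f2, g1, cc, hw, hG, he]

lemma imb_union (S : Shape) (u c : ℕ) {S2 S3 : Finset (St S u c)} (h : Disjoint S2 S3) :
    imb (fun x : St S u c => x.1) (ind (S2 ∪ S3)) =
      imb (fun x : St S u c => x.1) (ind S2) + imb (fun x : St S u c => x.1) (ind S3) := by
  have h1 : ∀ x, ind (S2 ∪ S3) x = ind S2 x + ind S3 x := by
    intro x
    unfold ind
    by_cases h2 : x ∈ S2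
    · have h3 : x ∉ S3 := fun h3 => (Finset.disjoint_left.1 h) h2 h3
      simp [h2, h3]
    · simp [h2]
  unfold imb
  rw [← Finset.sum_add_distrib]
  refine Finset.sum_congr rfl fun x _ => ?_
  rw [h1]
  by_cases h4 : IsH x.1 <;> simp [h4]; ring

/-- the quantity of `SetIneq` -/
noncomputable def expr (S : Shape) (u c : ℕ) (S2 S3 : Finset (St S u c)) : ℤ :=
  ∑ x ∈ S2, va S u c x + ∑ x ∈ S3, vb S u c x
      + P6D203.VV 2 (zz S u c) (S2 ∪ S3) + P6D203.VV 2 (zz S u c) S2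
      + P6D203.VV 2 (zz S u c) S3
      + ∑ l ∈ range (S.k * u - S2.card), ((Nh S u : ℤ) + dd l - 1 - S.i1 * u)
      - (S3.filter (fun x : St S u c => IsH x.1)).card * (((S.k * u - S2.card : ℕ) : ℤ) + c)
      - c * (S.k * u + S.g * u + c + 10 * L S u c : ℤ)

/-- the Vandermonde part -/
lemma vander_ge (S : Shape) (u c J : ℕ) (hJ : S.rows * u + c ≤ 2 ^ J)
    (hk : S.q + S.g ≤ S.rows)
    {S2 S3 : Finset (St S u c)} (h2 : S2 ⊆ XR S u c) (h3 : S3 ⊆ XQ S u c) (hd : Disjoint S2 S3)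
    (hc3 : S3.card = S.g * u) (hc2 : S2.card ≤ S.k * u) :
    ((((S.B * u + c) + S.e1 * u + S.e2 * u + S.e3 * u)
      - (S.h1 * u + S.h2 * u + S.h3 * u + S.w * u)
      - S2.card - (S.g * u - 2 * ((hp S3).card + (hn S3).card)) : ℤ)) ^ 2
      - (S.rows * u + c) * (1 + 3 * J)
      + ((S2.card : ℤ) ^ 2 - S2.card * (1 + J))
      + ((S.g * u - 2 * ((hp S3).card + (hn S3).card) : ℤ) ^ 2 - S.g * u * (1 + J)) ≤
    W2 2 (zz S u c) (fun i => (mm S u c i : ℤ)) - 2 * ∑ x ∈ S2, vNh S u c x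
      - 2 * ∑ x ∈ S3, vNh S u c x
      + 2 * P6D203.VV 2 (zz S u c) (S2 ∪ S3) + 2 * P6D203.VV 2 (zz S u c) S2
      + 2 * P6D203.VV 2 (zz S u c) S3 := by
  obtain ⟨q1, q2, q3, q4⟩ := S2_cls h2
  have hku : S.k * u ≤ S.rows * u := Nat.mul_le_mul_right u (by unfold Shape.k; omega)
  have hgu : S.g * u ≤ S.rows * u := Nat.mul_le_mul_right u (by omega)
  have I1 := W2_St_sub_ge S u c (mm S u c) (S2 ∪ S3) (fun i hi => by
    rcases Finset.mem_union.1 hi with hi | hi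
    · exact XR_mm (h2 hi)
    · exact XQ_mm (h3 hi)) 3 (S.rows * u + c) J (mm_le S u c) (le_of_eq (mass_total S u c)) hJ
  rw [imb_sub, imb_mm, imb_union S u c hd, imb_ind, imb_ind,
    ← P6D203.two_VV 2 (zz S u c) _ (zz_injective S u c).injOn, Finset.sum_union hd] at I1
  have I2 := two_val_site_set_ge (fun i : St S u c => i.1) Subtype.val_injective S2 J (by omega)
  have I3 := two_val_site_set_ge (fun i : St S u c => i.1) Subtype.val_injective S3 J (by omega)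
  rw [card_Z, card_H] at I2 I3
  have J2 := P6D203.two_VV 2 (zz S u c) S2 (zz_injective S u c).injOn
  have J3 := P6D203.two_VV 2 (zz S u c) S3 (zz_injective S u c).injOn
  have J2' : ∑ i ∈ S2, ∑ l ∈ S2.erase i, padicValRat 2 (i.1.val - l.1.val)
      = 2 * P6D203.VV 2 (zz S u c) S2 := J2.symm
  have J3' : ∑ i ∈ S3, ∑ l ∈ S3.erase i, padicValRat 2 (i.1.val - l.1.val)
      = 2 * P6D203.VV 2 (zz S u c) S3 := J3.symm
  rw [J2'] at I2
  rw [J3'] at I3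
  have c2 := card_cls S2
  have c3 := card_cls S3
  rw [q1, q2, q3, Finset.card_empty] at I1 I2
  rw [q1, q2, q3, Finset.card_empty] at c2
  rw [hc3] at c3 I3
  have c3' : (S.g : ℤ) * u = ((zp S3).card + (zn S3).card) + ((hp S3).card + (hn S3).card) := by
    exact_mod_cast c3
  have c2' : (S2.card : ℤ) = (zp S2).card := by
    rw [c2]; push_cast; ring
  have v2 : ∑ x ∈ S2, vNh S u c x = ∑ i ∈ S2, padicValRat 2
      ((Nhat (zz S u c) (mm S u c) i).eval (zz S u c i)) := rfl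
  have v3 : ∑ x ∈ S3, vNh S u c x = ∑ i ∈ S3, padicValRat 2
      ((Nhat (zz S u c) (mm S u c) i).eval (zz S u c i)) := rfl
  rw [← v2, ← v3] at I1
  rw [c2', c3']
  push_cast at I1 I2 I3 c3' ⊢
  rw [c3'] at I3
  rw [c2'] at I2
  refine le_trans (le_of_eq ?_) (add_le_add (add_le_add I1 I2) I3 |>.trans (le_of_eq ?_))
  · ring
  · ring

end Crest.Agent.R006.P6B
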