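import Crest.Agent.R006.P6B4_404

/-!
# Row 6, block P6 (p = 2), line B, part 5 (helper404): `set_ge`
-/

set_option autoImplicit false

namespace Crest.Agent.R006.P6B

open Polynomial Finset Crest.Agent.R006.D Crest.Agent.R006.NV Crest.Agent.R006.Lam
open Crest.Agent.R006.Bord Crest.Agent.R006.P6V Crest.Agent.R006.P6 Crest.Agent.R006.ProdBound481

/-- the sums of `va`, `vb` -/
lemma sum_va_vb (S : Shape) (u c : ℕ) {S2 S3 : Finset (St S u c)} (h2 : S2 ⊆ XR S u c) :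
    ∑ x ∈ S2, va S u c x + ∑ x ∈ S3, vb S u c x =
      (S2.card : ℤ) * ((Va S u : ℤ) - S.i1 * u - 1) - 3 * ∑ n ∈ zp S2, (n : ℤ)
        + ∑ x ∈ S3, P6Q.gv x.1 - ∑ x ∈ S2, vNh S u c x - ∑ x ∈ S3, vNh S u c x := by
  obtain ⟨q1, q2, q3, q4⟩ := S2_cls h2
  have h := sum_cls S2 (fun s => sidx s)
  rw [q1, q2, q3, Finset.sum_empty, Finset.sum_empty, Finset.sum_empty, add_zero, add_zero,
    add_zero] at h
  have h5 : ∑ n ∈ zp S2, sidx (Site.Z n) = ∑ n ∈ zp S2, (n : ℤ) :=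
    Finset.sum_congr rfl fun n _ => rfl
  rw [h5] at h
  have e1 : ∑ x ∈ S2, va S u c x = (S2.card : ℤ) * ((Va S u : ℤ) - S.i1 * u - 1)
      - 3 * ∑ x ∈ S2, sidx x.1 - ∑ x ∈ S2, vNh S u c x := by
    have e0 : (S2.card : ℤ) * ((Va S u : ℤ) - S.i1 * u - 1)
        = ∑ x ∈ S2, ((Va S u : ℤ) - S.i1 * u - 1) := by
      rw [Finset.sum_const, nsmul_eq_mul]
    unfold va
    rw [e0, Finset.mul_sum, ← Finset.sum_sub_distrib, ← Finset.sum_sub_distrib]
    exact Finset.sum_congr rfl fun x _ => by ring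
  have e2 : ∑ x ∈ S3, vb S u c x = ∑ x ∈ S3, P6Q.gv x.1 - ∑ x ∈ S3, vNh S u c x := by
    unfold vb
    rw [← Finset.sum_sub_distrib]
  rw [e1, e2, h]
  ring

/-- **the bound for `S2`, `S3`** -/
theorem set_ge (S : Shape) (u c J : ℕ) (hJ : (S.rows + S.a1 + S.a2 + S.r1) * u + c ≤ 2 ^ J)
    (hk : S.q + S.g ≤ S.rows) (ha : S.a1 ≤ S.B)
    {S2 S3 : Finset (St S u c)} (h2 : S2 ⊆ XR S u c) (h3 : S3 ⊆ XQ S u c) (hd : Disjoint S2 S3)
    (hc3 : S3.card = S.g * u) (hc2 : S2.card ≤ S.k * u) :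
    ∃ mu K1 kp eq hq wq : ℕ, mu ≤ S.k * u ∧ K1 + kp + eq + hq + wq = S.g * u ∧ kp ≤ S.a1 * u ∧
      mu + K1 + S.a1 * u ≤ S.B * u + c ∧ eq ≤ S.e3 * u ∧ hq ≤ S.h3 * u ∧ wq ≤ S.w * u ∧
      quadI S u mu kp eq hq wq - Err S u c J ≤
        (padicValRat 2 (kap S u) : ℝ) + ((W2 2 (zz S u c) (fun i => (mm S u c i : ℤ)) : ℤ) : ℝ) / 2
          + ((expr S u c S2 S3 : ℤ) : ℝ) := by
  have hrows : S.rows = S.B + (S.e1 + S.e2 + S.e3) + (S.h1 + S.h2 + S.h3) + S.w := rfl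
  have hJ0 : S.rows * u + c ≤ 2 ^ J := by
    refine le_trans ?_ hJ
    have : S.rows * u ≤ (S.rows + S.a1 + S.a2 + S.r1) * u := Nat.mul_le_mul_right u (by omega)
    omega
  have hku : S.k * u ≤ S.rows * u := Nat.mul_le_mul_right u (by unfold Shape.k; omega)
  obtain ⟨q1, q2, q3, q4⟩ := S2_cls h2
  obtain ⟨t1, t2, t3, t4⟩ := S3_cls h3
  obtain ⟨K1, kp, w1, w2, w3, w4⟩ := P6N618.weights_le (zp S3) (zp S2) (S.a1 * u) (S.B * u + c)
    (zp_disjoint hd).symm t1 q4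
  have cS2 : S2.card = (zp S2).card := by
    have := card_cls S2
    rw [q1, q2, q3, Finset.card_empty] at this
    omega
  have cS3 := card_cls S3
  rw [hc3] at cS3
  have haB : S.a1 * u ≤ S.B * u + c := by
    have := Nat.mul_le_mul_right u ha
    omega
  have c1 : (zn S3).card ≤ S.e3 * u := by
    have := Finset.card_le_card (fun n hn => Finset.mem_range.2 (t2 n hn) :
      zn S3 ⊆ Finset.range (S.e3 * u))
    simpa using this
  have c2 : (hp S3).card ≤ S.h3 * u := by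
    have := Finset.card_le_card (fun n hn => Finset.mem_range.2 (t3 n hn) :
      hp S3 ⊆ Finset.range (S.h3 * u))
    simpa using this
  have c3 : (hn S3).card ≤ S.w * u := by
    have := Finset.card_le_card (fun n hn' => Finset.mem_range.2 (t4 n hn') :
      hn S3 ⊆ Finset.range (S.w * u))
    simpa using this
  refine ⟨S2.card, K1, kp, (zn S3).card, (hp S3).card, (hn S3).card, hc2, by omega, w2, ?_,
    c1, c2, c3, ?_⟩
  · have := w3 haB
    omega
  -- real inequalities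
  have hV := vander_ge S u c J hJ0 hk h2 h3 hd hc3 hc2
  have hV' := (Int.cast_le (R := ℝ)).2 hV
  have hG := sum_gv_ge h3 hJ0
  have hE := sum_e_ge (κ := S.k * u - S2.card) (J := J) (by omega) ((Nh S u : ℤ) - S.i1 * u)
  have hsum := sum_va_vb S u c (S3 := S3) h2
  have hVa := Va_ge (S := S) (u := u) (c := c) hJ
  have hkap := kap_ge S u
  have hH : ((S3.filter (fun x : St S u c => IsH x.1)).card : ℤ)
      = (hp S3).card + (hn S3).card := by exact_mod_cast card_H S3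
  have hexpr : ((expr S u c S2 S3 : ℤ) : ℝ) =
      (S2.card : ℝ) * ((Va S u : ℝ) - S.i1 * u - 1) - 3 * ∑ n ∈ zp S2, (n : ℝ)
        + ((∑ x ∈ S3, P6Q.gv x.1 : ℤ) : ℝ) - ((∑ x ∈ S2, vNh S u c x : ℤ) : ℝ)
        - ((∑ x ∈ S3, vNh S u c x : ℤ) : ℝ)
        + (P6D203.VV 2 (zz S u c) (S2 ∪ S3) : ℝ) + (P6D203.VV 2 (zz S u c) S2 : ℝ)
        + (P6D203.VV 2 (zz S u c) S3 : ℝ)
        + ((∑ l ∈ range (S.k * u - S2.card), ((Nh S u : ℤ) - S.i1 * u + dd l - 1) : ℤ) : ℝ)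
        - ((hp S3).card + (hn S3).card) * ((S.k * u - S2.card : ℝ) + c)
        - c * (S.k * u + S.g * u + c + 10 * L S u c) := by
    unfold expr
    rw [hsum, hH]
    have e1 : ∑ l ∈ range (S.k * u - S2.card), ((Nh S u : ℤ) + dd l - 1 - S.i1 * u)
        = ∑ l ∈ range (S.k * u - S2.card), ((Nh S u : ℤ) - S.i1 * u + dd l - 1) :=
      Finset.sum_congr rfl fun l _ => by ring
    rw [e1]
    generalize ∑ l ∈ range (S.k * u - S2.card), ((Nh S u : ℤ) - S.i1 * u + dd l - 1) = t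
    generalize ∑ x ∈ S3, P6Q.gv x.1 = t'
    generalize ∑ x ∈ S2, vNh S u c x = t''
    generalize ∑ x ∈ S3, vNh S u c x = t'''
    push_cast
    rw [Nat.cast_sub hc2]
    push_cast
    ring
  rw [hexpr]
  have e2 : ((S.k * u - S2.card : ℕ) : ℝ) = S.k * u - S2.card := by
    rw [Nat.cast_sub hc2]
    push_cast
    ring
  rw [e2] at hE
  have hg : (K1 : ℝ) + kp + (zn S3).card + (hp S3).card + (hn S3).card = S.g * u := by
    have : K1 + kp + (zn S3).card + (hp S3).card + (hn S3).card = S.g * u := by omega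
    exact_mod_cast this
  have hVar : ((S.a1 : ℝ) + S.a2 + S.r1) * u - 3 * (J + 1) ≤ (Va S u : ℝ) := by
    exact_mod_cast hVa
  have hNh : ((Nh S u : ℕ) : ℝ) = (S.h1 + S.h2 + S.h3 + S.w) * u := by
    unfold Nh; push_cast; ring
  have hfin := final_alg (rows := S.rows) (k := S.k) (g := S.g) (q := S.q) (B := S.B)
    (h1 := S.h1) (h2 := S.h2) (h3 := S.h3) (w := S.w) (a1 := S.a1) (a2 := S.a2) (r1 := S.r1)
    (i1 := S.i1) (U := u) (c := c) (J := J) (m := S2.card) (K1 := K1) (kp := kp)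
    (eq := (zn S3).card) (hq := (hp S3).card) (wq := (hn S3).card) (Va := Va S u)
    (Lb := L S u c) (sQ := ∑ n ∈ zp S2, (n : ℝ)) (sP := ∑ n ∈ zp S3, (n : ℝ))
    (sG := ((∑ x ∈ S3, P6Q.gv x.1 : ℤ) : ℝ))
    (se := ((∑ l ∈ range (S.k * u - S2.card), ((Nh S u : ℤ) - S.i1 * u + dd l - 1) : ℤ) : ℝ))
    hg ⟨by positivity, by positivity, by positivity, by positivity, by positivity, by positivity,
      by positivity⟩ (by positivity) (by exact_mod_cast hc2)
    ⟨by positivity, by positivity, by positivity, by positivity, by positivity⟩ hVar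
    (by
      rw [cS2]
      push_cast at w4
      linarith)
    (by linarith [hG]) (by
      refine le_trans (le_of_eq ?_) hE
      push_cast
      rw [hNh])
  have hKr : (S.g : ℝ) * u - kp - (zn S3).card - (hp S3).card - (hn S3).card = K1 := by
    linarith
  have hrr : (S.rows : ℝ) = S.B + (S.e1 + S.e2 + S.e3) + (S.h1 + S.h2 + S.h3) + S.w := by
    rw [hrows]; push_cast; ring
  simp only [quadI, Err]
  rw [hKr]
  clear hexpr hsum hVar hG hE hVa hV hNh w4 hg hKr e2 hH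
  generalize W2 2 (zz S u c) (fun i => (mm S u c i : ℤ)) = W at *
  generalize ∑ x ∈ S2, vNh S u c x = n2 at *
  generalize ∑ x ∈ S3, vNh S u c x = n3 at *
  generalize P6D203.VV 2 (zz S u c) (S2 ∪ S3) = v1 at *
  generalize P6D203.VV 2 (zz S u c) S2 = v2 at *
  generalize P6D203.VV 2 (zz S u c) S3 = v3 at *
  generalize ∑ l ∈ range (S.k * u - S2.card), ((Nh S u : ℤ) - S.i1 * u + dd l - 1) = t at *
  generalize ∑ x ∈ S3, P6Q.gv x.1 = t' at *
  generalize ∑ n ∈ zp S2, (n : ℝ) = s2 at *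
  generalize ∑ n ∈ zp S3, (n : ℝ) = s3 at *
  push_cast at hV'
  have e5 : (S.B : ℝ) * u + c + S.e1 * u + S.e2 * u + S.e3 * u
      - (S.h1 * u + S.h2 * u + S.h3 * u + S.w * u) - S2.card
      - (S.g * u - 2 * ((hp S3).card + (hn S3).card))
      = S.rows * u - S2.card - S.g * u
        - 2 * ((S.h1 + S.h2 + S.h3 + S.w) * u - ((hp S3).card + (hn S3).card)) + c := by
    rw [hrr]; ring
  rw [e5] at hV'
  refine le_trans (le_of_eq ?_) (le_trans hfin ?_)
  · ring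
  · linarith [hV', hkap]

end Crest.Agent.R006.P6B
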