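import Crest.Agent.R006.P6B5_404

/-!
# Row 6, block P6 (p = 2), line B, part 6 (helper404): the limit and the final theorem

`finalB` : `LeafE S c → MinB S α → AtPrime S c 2 α`.
-/

set_option autoImplicit false

namespace Crest.Agent.R006.P6B

open Polynomial Finset Crest.Agent.R006.D Crest.Agent.R006.NV Crest.Agent.R006.Lam
open Crest.Agent.R006.Bord Crest.Agent.R006.P6V Crest.Agent.R006.P6 Crest.Agent.R006.ProdBound481

/-! ### the logarithm -/

/-- number of binary digits of the size -/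
def Jn (S : Shape) (u c : ℕ) : ℕ := Nat.log 2 ((S.rows + S.a1 + S.a2 + S.r1) * u + c) + 1

lemma le_two_pow_Jn (S : Shape) (u c : ℕ) :
    (S.rows + S.a1 + S.a2 + S.r1) * u + c ≤ 2 ^ Jn S u c :=
  (Nat.lt_pow_succ_log_self (by norm_num) _).le

lemma sq_le_two_pow (J : ℕ) : J ^ 2 ≤ 2 ^ (J + 1) := by
  induction J with
  | zero => norm_num
  | succ J ih =>
    rcases Nat.lt_or_ge J 3 with h | h
    · interval_cases J <;> norm_num
    · rw [pow_succ 2 (J + 1)]
      nlinarith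

lemma Jn_sq (S : Shape) (u c : ℕ) :
    (Jn S u c) ^ 2 ≤ 4 * ((S.rows + S.a1 + S.a2 + S.r1) * u + c + 1) := by
  refine (sq_le_two_pow _).trans ?_
  unfold Jn
  rcases Nat.eq_zero_or_pos ((S.rows + S.a1 + S.a2 + S.r1) * u + c) with h | h
  · rw [h]; norm_num
  · have h1 := Nat.pow_log_le_self 2 h.ne'
    rw [pow_succ, pow_succ]
    omega

lemma Jn_small (S : Shape) (c : ℕ) (ε : ℝ) (hε : 0 < ε) :
    ∀ᶠ u : ℕ in Filter.atTop, (Jn S u c : ℝ) ≤ ε * u := by
  set K : ℝ := 4 * ((S.rows + S.a1 + S.a2 + S.r1) + c + 1) with hK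
  have hK0 : 0 < K := by rw [hK]; positivity
  filter_upwards [Filter.eventually_ge_atTop 1, Filter.eventually_ge_atTop ⌈K / ε ^ 2⌉₊] with u h1 h2
  have h3 : (1 : ℝ) ≤ u := by exact_mod_cast h1
  have h4 : K / ε ^ 2 ≤ u := (Nat.le_ceil _).trans (by exact_mod_cast h2)
  have h5 : ((Jn S u c : ℝ)) ^ 2 ≤ K * u := by
    have h6 : ((Jn S u c : ℝ)) ^ 2 ≤ 4 * ((S.rows + S.a1 + S.a2 + S.r1) * u + c + 1) := by
      exact_mod_cast Jn_sq S u c
    refine h6.trans ?_
    rw [hK]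
    have hc : (0 : ℝ) ≤ c := Nat.cast_nonneg c
    nlinarith
  have h7 : K * u ≤ (ε * u) ^ 2 := by
    rw [div_le_iff₀ (by positivity)] at h4
    nlinarith
  exact abs_le_of_sq_le_sq' (h5.trans h7) (by positivity) |>.2

/-! ### the error -/

/-- coefficient of `J u` -/
noncomputable def C1 (S : Shape) (c : ℕ) : ℝ :=
  3 / 2 * (S.rows + c) + (S.k + S.g) / 2 + 4 * S.k + 2 * S.g

/-- coefficient of `u` -/
noncomputable def C2 (S : Shape) (c : ℕ) : ℝ :=
  c * (S.k + S.g + 2 * (S.h1 + S.h2 + S.h3 + S.w)) + (S.rows + c) / 2 + (S.k + S.g) / 2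
    + 4 * S.k + c * (3 * S.k + 4 * S.g) + 2 * S.g + 4 * S.k + c * S.g
    + c * (S.k + S.g + c + 10 * (S.B + S.e1 + S.e2 + S.e3 + S.h1 + S.h2 + S.h3 + S.w + c))

lemma Err_le (S : Shape) (u c J : ℕ) (hu : 1 ≤ u) :
    Err S u c J ≤ C1 S c * (J * u) + C2 S c * u := by
  have h1 : (1 : ℝ) ≤ u := by exact_mod_cast hu
  have hc : (0 : ℝ) ≤ c := Nat.cast_nonneg c
  have hJ : (0 : ℝ) ≤ J := Nat.cast_nonneg J
  have hcu : (c : ℝ) ≤ c * u := by nlinarith
  have hJc : (J : ℝ) * c ≤ J * (c * u) := mul_le_mul_of_nonneg_left hcu hJ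
  have hcc : (c : ℝ) * c ≤ c * (c * u) := mul_le_mul_of_nonneg_left hcu hc
  have hL : ((L S u c : ℕ) : ℝ) = (S.B + S.e1 + S.e2 + S.e3 + S.h1 + S.h2 + S.h3 + S.w) * u + c := by
    unfold L; push_cast; ring
  unfold Err C1 C2
  rw [hL]
  linarith

lemma Err_small (S : Shape) (c : ℕ) (δ : ℝ) (hδ : 0 < δ) :
    ∀ᶠ u : ℕ in Filter.atTop, Err S u c (Jn S u c) + c * ((S.rows + S.k + 3 * S.B) * u)
      + (S.k * u + S.g * u) ≤ δ * (u : ℝ) ^ 2 := by
  have hC1 : 0 ≤ C1 S c := by unfold C1; positivity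
  set C3 : ℝ := C2 S c + c * (S.rows + S.k + 3 * S.B) + (S.k + S.g) with hC3
  filter_upwards [Jn_small S c (δ / (2 * (C1 S c + 1))) (by positivity),
    Filter.eventually_ge_atTop 1, Filter.eventually_ge_atTop ⌈2 * C3 / δ⌉₊] with u h1 h2 h3
  have h4 : 2 * C3 / δ ≤ u := (Nat.le_ceil _).trans (by exact_mod_cast h3)
  have hu : (0 : ℝ) ≤ u := Nat.cast_nonneg u
  have h5 := Err_le S u c (Jn S u c) h2
  have h6 : C1 S c * (Jn S u c * u) ≤ δ / 2 * (u : ℝ) ^ 2 := by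
    have h7 : C1 S c * ((Jn S u c : ℝ) * u) ≤ C1 S c * (δ / (2 * (C1 S c + 1)) * u * u) :=
      mul_le_mul_of_nonneg_left (mul_le_mul_of_nonneg_right h1 hu) hC1
    refine h7.trans ?_
    have h8 : C1 S c * (δ / (2 * (C1 S c + 1))) ≤ δ / 2 := by
      rw [mul_div_assoc', div_le_div_iff₀ (by positivity) (by positivity)]
      nlinarith
    have h9 : (0 : ℝ) ≤ (u : ℝ) ^ 2 := by positivity
    nlinarith
  have h7 : C3 * u ≤ δ / 2 * (u : ℝ) ^ 2 := by
    rw [div_le_iff₀ hδ] at h4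
    nlinarith
  rw [hC3] at h7
  nlinarith

/-! ### the quadratic -/

lemma quadI_shift (S : Shape) (U mu t kap eq hq wq : ℝ) (hU : 0 ≤ U) (ht : 0 ≤ t)
    (hmu : 0 ≤ mu - t) (hK : 0 ≤ S.g * U - kap - eq - hq - wq)
    (hY : hq + wq ≤ (S.h1 + S.h2 + S.h3 + S.w) * U) :
    quadI S U (mu - t) kap eq hq wq - t * ((S.rows + S.k + 3 * S.B) * U) ≤
      quadI S U mu kap eq hq wq := by
  have key : quadI S U mu kap eq hq wq - quadI S U (mu - t) kap eq hq wq =
      t * (3 * (2 * mu - t) + (-(S.rows * U) + S.g * U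
        + ((S.h1 + S.h2 + S.h3 + S.w) * U - (hq + wq)) - S.k * U + (S.a1 + S.a2 + S.r1) * U
        - 3 * (S.B * U) + 3 * (S.g * U - kap - eq - hq - wq))) := by
    simp only [quadI]
    ring
  have h1 : t * (-((S.rows + S.k + 3 * S.B) * U)) ≤
      t * (3 * (2 * mu - t) + (-(S.rows * U) + S.g * U
        + ((S.h1 + S.h2 + S.h3 + S.w) * U - (hq + wq)) - S.k * U + (S.a1 + S.a2 + S.r1) * U
        - 3 * (S.B * U) + 3 * (S.g * U - kap - eq - hq - wq))) := by
    refine mul_le_mul_of_nonneg_left ?_ ht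
    have g1 : (0 : ℝ) ≤ S.g * U := by positivity
    have g2 : (0 : ℝ) ≤ ((S.a1 : ℝ) + S.a2 + S.r1) * U := by positivity
    have e : ((S.rows : ℝ) + S.k + 3 * S.B) * U = S.rows * U + S.k * U + 3 * (S.B * U) := by ring
    rw [e]
    linarith
  linarith

lemma quad_ge (S : Shape) {α : ℝ} (hα : MinB S α) (hag : S.a1 + S.g ≤ S.B) (u c : ℕ) (hu : 1 ≤ u)
    (mu K1 kp eq hq wq : ℕ) (h1 : mu ≤ S.k * u) (h2 : K1 + kp + eq + hq + wq = S.g * u)
    (h3 : kp ≤ S.a1 * u) (h4 : mu + K1 + S.a1 * u ≤ S.B * u + c) (h5 : eq ≤ S.e3 * u)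
    (h6 : hq ≤ S.h3 * u) (h7 : wq ≤ S.w * u) :
    -α * (u : ℝ) ^ 2 - c * ((S.rows + S.k + 3 * S.B) * u) ≤ quadI S u mu kp eq hq wq := by
  have hu0 : (0 : ℝ) < u := by exact_mod_cast hu
  have h2' : (K1 : ℝ) + kp + eq + hq + wq = S.g * u := by exact_mod_cast h2
  -- for `x ≤ mu` inside the region
  have main : ∀ x : ℝ, 0 ≤ x → x ≤ S.k * u → x + K1 + S.a1 * u ≤ S.B * u →
      -α * (u : ℝ) ^ 2 ≤ quadI S u x kp eq hq wq := by
    intro x hx0 hxk hxB
    rw [quadI_eq S hu0.ne']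
    have hreg : RegB S (x / u) (kp / u) (eq / u) (hq / u) (wq / u) := by
      constructor
      · positivity
      · rw [div_le_iff₀ hu0]; exact hxk
      · positivity
      · rw [div_le_iff₀ hu0]; exact_mod_cast h3
      · positivity
      · rw [div_le_iff₀ hu0]; exact_mod_cast h5
      · positivity
      · rw [div_le_iff₀ hu0]; exact_mod_cast h6
      · positivity
      · rw [div_le_iff₀ hu0]; exact_mod_cast h7
      · rw [← add_div, ← add_div, ← add_div, div_le_iff₀ hu0]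
        have : (0 : ℝ) ≤ K1 := Nat.cast_nonneg K1
        linarith
      · have e : x / u + ((S.g : ℝ) - kp / u - eq / u - hq / u - wq / u)
            = (x + (S.g * u - kp - eq - hq - wq)) / u := by
          field_simp
        rw [e, div_le_iff₀ hu0]
        linarith
    have h := hα _ _ _ _ _ hreg
    have hu2 : (0 : ℝ) ≤ (u : ℝ) ^ 2 := by positivity
    nlinarith
  have hc : (0 : ℝ) ≤ c * ((S.rows + S.k + 3 * S.B) * u) := by positivity
  by_cases hB : mu + K1 + S.a1 * u ≤ S.B * u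
  · have := main mu (Nat.cast_nonneg _) (by exact_mod_cast h1) (by exact_mod_cast hB)
    linarith
  · have h4' : (mu : ℝ) + K1 + S.a1 * u ≤ S.B * u + c := by exact_mod_cast h4
    have hB' : (S.B : ℝ) * u < mu + K1 + S.a1 * u := by
      have : S.B * u < mu + K1 + S.a1 * u := by omega
      exact_mod_cast this
    have hag' : (S.a1 : ℝ) * u + S.g * u ≤ S.B * u := by
      have : S.a1 * u + S.g * u ≤ S.B * u := by
        rw [← add_mul]; exact Nat.mul_le_mul_right u hag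
      exact_mod_cast this
    have k0 : (0 : ℝ) ≤ kp := Nat.cast_nonneg _
    have e0 : (0 : ℝ) ≤ eq := Nat.cast_nonneg _
    have hq0 : (0 : ℝ) ≤ hq := Nat.cast_nonneg _
    have w0 : (0 : ℝ) ≤ wq := Nat.cast_nonneg _
    have K0 : (0 : ℝ) ≤ K1 := Nat.cast_nonneg _
    have h1' : (mu : ℝ) ≤ S.k * u := by exact_mod_cast h1
    have h6' : (hq : ℝ) ≤ S.h3 * u := by exact_mod_cast h6
    have h7' : (wq : ℝ) ≤ S.w * u := by exact_mod_cast h7
    have hh1 : (0 : ℝ) ≤ S.h1 * u := by positivity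
    have hh2 : (0 : ℝ) ≤ S.h2 * u := by positivity
    set t : ℝ := mu + K1 + S.a1 * u - S.B * u with ht
    have hm := main (mu - t) (by rw [ht]; linarith) (by rw [ht]; linarith) (by rw [ht]; linarith)
    have hs := quadI_shift S u mu t kp eq hq wq hu0.le (by rw [ht]; linarith)
      (by rw [ht]; linarith) (by linarith) (by
        have : ((S.h1 : ℝ) + S.h2 + S.h3 + S.w) * u = S.h1 * u + S.h2 * u + S.h3 * u + S.w * u := by
          ring
        rw [this]
        linarith)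
    have htc : t * ((S.rows + S.k + 3 * S.B) * u) ≤ c * ((S.rows + S.k + 3 * S.B) * u) :=
      mul_le_mul_of_nonneg_right (by rw [ht]; linarith) (by positivity)
    linarith

/-! ### the final theorem -/

/-- **line B of P6** -/
theorem finalB (S : Shape) (c : ℕ) (hk : S.q + S.g ≤ S.rows) (hag : S.a1 + S.g ≤ S.B)
    (hE : LeafE S c) : FinalB S c := by
  intro α hα δ hδ
  filter_upwards [Err_small S c δ hδ, Filter.eventually_ge_atTop 1] with u hu1 hu2
  intro r hr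
  set W : ℤ := W2 2 (zz S u c) (fun i => (mm S u c i : ℤ)) with hW
  set x : ℝ := -(α + δ) * (u : ℝ) ^ 2 + (S.k * u + S.g * u)
    - (padicValRat 2 (kap S u) : ℝ) - (W : ℝ) / 2 with hx
  have hV : SetIneq S u c ⌈x⌉ := by
    intro S2 h2 S3 h3 hd hc3 hc2
    obtain ⟨mu, K1, kp, eq, hq, wq, a1, a2, a3, a4, a5, a6, a7, a8⟩ :=
      set_ge S u c (Jn S u c) (le_two_pow_Jn S u c) hk (by omega) h2 h3 hd hc3 hc2
    have hq1 := quad_ge S hα hag u c hu2 mu K1 kp eq hq wq a1 a2 a3 a4 a5 a6 a7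
    have hgoal : ⌈x⌉ ≤ expr S u c S2 S3 := by
      rw [Int.ceil_le, hx]
      rw [← hW] at a8
      linarith
    exact hgoal
  obtain ⟨e, he⟩ := minor_PB hk hE u ⌈x⌉ hV r hr
  intro i hi
  have h1 := he.le_padicValRat i hi
  have h2 := two_val_VV S u c e
  rw [← hW] at h2
  have h3 : (padicValRat 2 (Bord.VV S u c e) : ℝ) = (W : ℝ) / 2 := by
    have : ((2 * padicValRat 2 (Bord.VV S u c e) : ℤ) : ℝ) = (W : ℝ) := by rw [h2]
    push_cast at this
    linarith
  have h4 := Int.le_ceil x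
  have h5 : ((padicValRat 2 (kap S u) + padicValRat 2 (Bord.VV S u c e) + ⌈x⌉ - (S.k * u : ℕ)
      - (S.g * u : ℕ) : ℤ) : ℝ) ≤ (padicValRat 2 ((Minor S u r).coeff i) : ℝ) := by
    exact_mod_cast h1
  refine le_trans ?_ h5
  push_cast
  rw [h3]
  linarith

end Crest.Agent.R006.P6B
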