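import Crest.Agent.R006.P6B_Stmt_404
import Crest.Agent.R006.P6Q2_618
import Crest.Agent.R006.Shape_378

/-!
# Row 6, block P6 (p = 2), line B, leaf N for the frozen shape `SN` (helper618)

`MinB SN (40727/28)`: the minimum of the convex quadratic over the region (`40727/28 =
1454.5357…`, attained at `mu = 223/14`, `wq = 41/14`).
-/

set_option autoImplicit false

namespace Crest.Agent.R006.P6B

open Crest.Agent.R006.D Crest.Agent.R006.P6N618

/-- `quadB` is 618's `F2r` up to the normalisation -/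
theorem quadB_eq (S : Shape) (mu kap eq hq wq : ℝ) :
    quadB S mu kap eq hq wq =
      F2r S.k (S.a1 + S.a2 + S.r1) S.B S.a1 S.g S.rows (S.h1 + S.h2 + S.h3 + S.w) S.w
        mu kap eq hq wq
      - ((S.k : ℝ) * (S.a1 + S.a2 + S.r1 + 2 * S.i1) + (S.k : ℝ) ^ 2 / 2
        + (S.q : ℝ) ^ 2 / 2 + (S.g : ℝ) ^ 2 / 2) := by
  unfold quadB F2r
  ring

theorem minB_SN : MinB SN (40727 / 28) := by
  intro mu kap eq hq wq h
  rw [quadB_eq]
  have h1 := h.top
  have hk := h.kap0
  have he := h.eq0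
  have hh := h.hq0
  simp only [SN_k, SN_a1, SN_a2, SN_r1, SN_B, SN_g, SN_rows, SN_h1, SN_h2, SN_h3, SN_w, SN_i1,
    SN_q] at h1 ⊢
  norm_num at h1 ⊢
  have := F2r_SN mu kap eq hq wq (by linarith) hk he hh
  linarith

/-- the rounded version -/
theorem minB_SN' : MinB SN 1455 := fun mu kap eq hq wq h => by
  have := minB_SN mu kap eq hq wq h
  linarith

end Crest.Agent.R006.P6B
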