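import Crest.Agent.R006.P6Gauge_121

/-!
# Row 6, block P6 (prime 2), leaf E: final form (helper121)

* `XR`, `wR`, `al` : the `R`-type nodes and their weights;
* `leafE` : the `R`-entries of 89's residue matrix in the basis `bq`.
-/

set_option autoImplicit false

namespace Crest.Agent.R006.P6x121

open Polynomial Finset Filter Crest.Agent.R006.Lam Crest.Agent.R006.NV Crest.Agent.R006.D
  Crest.Agent.R006.Bord Crest.Agent.R006.PsiInf Crest.Agent.R006.ProdBound481

/-! ### the homogeneous sum -/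

section main

variable (S : Shape) (u c : ℕ)

/-- the nodes of `R`-type -/
noncomputable def XR : Finset (St S u c) := by
  classical
  exact univ.filter fun z => ∃ i : ℤ, z.1 = Site.Z i ∧ S.a1 * u ≤ i ∧ i < S.B * u + c

lemma mem_XR {z : St S u c} :
    z ∈ XR S u c ↔ ∃ i : ℤ, z.1 = Site.Z i ∧ S.a1 * u ≤ i ∧ i < S.B * u + c := by
  classical
  simp [XR]

/-- their weights -/
noncomputable def wR (z : St S u c) : ℚ :=
  (rho S u).eval (zz S u c z) * PowerSeries.coeff 0 (psi1 z.1) /
    (Nhat (zz S u c) (mm S u c) z).eval (zz S u c z)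

lemma lam_psi1 (k : ℕ) (R : ℚ[X]) (hR : ∀ n : ℕ, n < S.a1 * u → R.eval (n : ℚ) = 0) :
    lam (zz S u c) (mm S u c) (X ^ k) (fun x => gm x.1.val R * psi1 x.1) =
      ∑ z ∈ XR S u c, R.eval (zz S u c z) * PowerSeries.coeff 0 (psi1 z.1) *
        (zz S u c z) ^ k / (Nhat (zz S u c) (mm S u c) z).eval (zz S u c z) := by
  classical
  rw [lam_eq, ← Finset.sum_filter_add_sum_filter_not univ (fun z => z ∈ XR S u c)]
  have h1 : ∑ x with x ∉ XR S u c, (if mm S u c x = 0 then 0 else
      PowerSeries.coeff (mm S u c x - 1) ((gm x.1.val R * psi1 x.1) *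
        Lam.wt (zz S u c) (mm S u c) (X ^ k) x)) = 0 := by
    refine sum_eq_zero fun x hx => ?_
    split_ifs with h0
    · rfl
    have hx' : x ∉ XR S u c := by simpa using hx
    by_cases h : isZ x.1 ∧ 0 ≤ nn x.1
    · rcases hx1 : x.1 with i | i
      · rw [hx1] at h
        have hi : 0 ≤ i := h.2
        have hm : mm S u c x = if i < S.B * u + c then 1 else 0 := by
          rw [mm, hx1]; simp only [Shape.mult, if_pos hi]
        have hlt : i < S.B * u + c := by
          by_contra h'; rw [if_neg h'] at hm; exact h0 hm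
        rw [if_pos hlt] at hm
        have hlt2 : i < S.a1 * u := by
          by_contra h'
          exact hx' ((mem_XR S u c).mpr ⟨i, hx1, by omega, hlt⟩)
        have hr : R.eval (Site.Z i).val = 0 := by
          have := hR i.toNat (by omega)
          have e : ((i.toNat : ℕ) : ℚ) = (Site.Z i).val := by
            rw [Site.val, ← Int.cast_natCast]
            congr 1
            omega
          rwa [e] at this
        rw [hm, show 1 - 1 = 0 from rfl, PowerSeries.coeff_zero_eq_constantCoeff_apply, map_mul,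
          map_mul, constantCoeff_gm, hr]
        ring
      · rw [hx1] at h; exact absurd h.1 not_false
    · have h2 := psi1_neg x.1 h
      have h3 := mm_le_three S u c x
      exact coeff_of_X3 ((h2.mul_left _).mul_right _) (by omega)
  rw [h1, add_zero]
  have h2 : (univ.filter fun z => z ∈ XR S u c) = XR S u c := by
    ext z; simp
  rw [h2]
  refine sum_congr rfl fun x hx => ?_
  obtain ⟨i, hx1, hi1, hi2⟩ := (mem_XR S u c).mp hx
  have hi : 0 ≤ i := le_trans (by positivity) hi1
  have hm : mm S u c x = 1 := by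
    rw [mm, hx1]; simp only [Shape.mult, if_pos hi, if_pos hi2]
  have hval : x.1.val = zz S u c x := rfl
  rw [hm, if_neg one_ne_zero, show 1 - 1 = 0 from rfl,
    PowerSeries.coeff_zero_eq_constantCoeff_apply, map_mul, map_mul, constantCoeff_gm, Lam.wt, map_mul,
    PowerSeries.constantCoeff_inv, constantCoeff_germ, constantCoeff_germ, hval, eval_pow, eval_X,
    PowerSeries.coeff_zero_eq_constantCoeff_apply]
  ring

/-- `al z` -/
noncomputable def al (x : ℚ) (z : St S u c) : ℚ[X] := (C (x / 2) - X) * C (wR S u c z)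

lemma lam_map (p : ℚ[X]) (F : St S u c → PowerSeries ℚ) :
    lam (zz S u c) (mm S u c) p (fun z => PowerSeries.map (algebraMap ℚ ℚ[X]) (F z)) =
      C (lam (zz S u c) (mm S u c) p F) := by
  rw [lam, lam, map_sum]
  refine sum_congr rfl fun r _ => ?_
  rw [PowerSeries.coeff_map, C_mul]
  rfl

lemma lam_colR (k : ℕ) (R : ℚ[X]) :
    lam (zz S u c) (mm S u c) (X ^ k) (colR S u c (X : ℚ[X]) R) =
      C (lam (zz S u c) (mm S u c) (X ^ k)
        (fun x => gm x.1.val R * psi0 x.1 - gm x.1.val (tau R))) -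
      X * C (lam (zz S u c) (mm S u c) (X ^ k) (fun x => gm x.1.val R * psi1 x.1)) := by
  rw [← lam_map, ← lam_map, ← lam_C_mul_right]
  simp only [lam]
  rw [← sum_sub_distrib]
  refine sum_congr rfl fun r _ => ?_
  rw [← mul_sub, ← map_sub]
  rfl

/-- **LEAF E** -/
theorem leafE (hw : S.w ≤ S.i1) : ∃ x : ℚ, padicNorm 2 x ≤ 1 ∧
    ∀ l < S.k * u, ∀ k < S.rows * u + c, ∃ e : ℚ,
      padicNorm 2 e ≤ (2 : ℚ) ^ (-((Nh S u : ℤ) + dd l - 1 - S.i1 * u)) ∧
      lam (zz S u c) (mm S u c) (X ^ k) (colR S u c (X : ℚ[X]) (rho S u * bq l)) =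
        (∑ z ∈ XR S u c, al S u c x z * C ((bq l).eval (zz S u c z)) * C (zz S u c z) ^ k) +
          C e := by
  have hsum : ∑ l, mm S u c l = S.rows * u + c := by
    have := card_Rw S u c
    rw [Fintype.card_sigma] at this
    simpa using this
  have hev : ∀ᶠ K in atTop, ∀ l ∈ range (S.k * u), ∀ k ∈ range (S.rows * u + c),
      V ((NhS S u c : ℤ) + dd l) (lam (zz S u c) (mm S u c) (X ^ k)
        (fun x => F2 (l / 2) (Pz S u * X ^ (l % 2)) x.1) -
          xi K * LR S u c (l / 2) (Pz S u * X ^ (l % 2)) k) := by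
    rw [Filter.eventually_all_finset]
    intro l _
    rw [Filter.eventually_all_finset]
    intro k hk
    refine ev S u c k (by rw [hsum]; exact mem_range.mp hk) ?_ (dd_dvd l)
    intro x i hi hx h0
    have h1 := (mm_H_neg S u c hx hi).2 h0
    have h2 : -i ≤ S.i1 * u := h1.trans (by exact_mod_cast Nat.mul_le_mul_right u hw)
    have h3 := Pz_half S u hi h2
    rw [hx, Site.val, mq_mul, mq_mul, eval_mul, eval_mul, h3]
    ring
  obtain ⟨K, hK⟩ := hev.exists
  refine ⟨xi K, by simpa [V] using xi_int K, fun l hl k hk => ?_⟩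
  have hK' := hK l (mem_range.mpr hl) k (mem_range.mpr hk)
  set P' := Pz S u * X ^ (l % 2) with hP'
  set κ : ℚ := ((2 : ℚ) ^ (S.i1 * u))⁻¹ * ((3 : ℚ) ^ (l / 2))⁻¹ with hκ
  have hR : rho S u * bq l = C κ * mq (P' * g (l / 2)) := by
    have h1 : mq (P' * g (l / 2)) = C ((2 : ℚ) ^ (S.i1 * u)) * rho S u *
        mq (g (l / 2) * X ^ (l % 2)) := by
      rw [← mq_Pz, ← mq_mul, hP']
      congr 1; ring
    rw [h1, bq_eq, hκ, C_mul]
    have h2 : C ((2 : ℚ) ^ (S.i1 * u))⁻¹ * C ((2 : ℚ) ^ (S.i1 * u)) = (1 : ℚ[X]) := by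
      rw [← C_mul, inv_mul_cancel₀ (by positivity), C_1]
    linear_combination (-(rho S u * C (((3 : ℚ) ^ (l / 2))⁻¹) *
      mq (g (l / 2) * X ^ (l % 2)))) * h2
  set R := mq (P' * g (l / 2)) with hRdef
  have hτ : tau (C κ * R) = C κ * tau R := by
    simp only [tau, ← smul_eq_C_mul, map_smul]
  -- the two sums
  set L0 := lam (zz S u c) (mm S u c) (X ^ k) (fun x => F2 (l / 2) P' x.1) with hL0
  set L1 := LR S u c (l / 2) P' k with hL1
  set e0 := L0 - xi K * L1 with he0
  have h0 : lam (zz S u c) (mm S u c) (X ^ k)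
      (fun x => gm x.1.val (C κ * R) * psi0 x.1 - gm x.1.val (tau (C κ * R))) = κ / 2 * L0 := by
    rw [hL0]
    simp only [lam, mul_sum]
    refine sum_congr rfl fun r _ => ?_
    have h3 : gm r.1.1.val (C κ * R) * psi0 r.1.1 - gm r.1.1.val (tau (C κ * R)) =
        PowerSeries.C (κ / 2) * F2 (l / 2) P' r.1.1 := by
      rw [hτ, gm_mul, gm_mul, gm_C, F2]
      have h4 : (PowerSeries.C (κ / 2) : PowerSeries ℚ) * 2 = PowerSeries.C κ := by
        have h5 : (PowerSeries.C (2 : ℚ) : PowerSeries ℚ) = 2 := map_ofNat _ 2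
        rw [← h5, ← map_mul]; congr 1; ring
      linear_combination (-(gm r.1.1.val R * psi0 r.1.1 - gm r.1.1.val (tau R))) * h4
    rw [h3, PowerSeries.coeff_C_mul]
    ring
  have h1 : lam (zz S u c) (mm S u c) (X ^ k) (fun x => gm x.1.val (C κ * R) * psi1 x.1) =
      κ * L1 := by
    rw [hL1, LR]
    simp only [lam, mul_sum]
    refine sum_congr rfl fun r _ => ?_
    rw [gm_mul, gm_C, mul_assoc, PowerSeries.coeff_C_mul]
    ring
  have h2 : κ * L1 = ∑ z ∈ XR S u c, wR S u c z * (bq l).eval (zz S u c z) *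
      (zz S u c z) ^ k := by
    rw [← h1, ← hR, lam_psi1]
    · refine sum_congr rfl fun z _ => ?_
      rw [eval_mul, wR]
      ring
    · intro n hn
      rw [eval_mul, rho_zero S u hn, zero_mul]
  refine ⟨κ / 2 * e0, ?_, ?_⟩
  · have h3 : V (-(S.i1 * u : ℕ) : ℤ) (((2 : ℚ) ^ (S.i1 * u))⁻¹) := by
      have h4 : V (-1) (2 : ℚ)⁻¹ := by
        rw [V, pn_inv, pn_two]; norm_num
      have h5 : ∀ n : ℕ, V (-(n : ℤ)) (((2 : ℚ) ^ n)⁻¹) := by
        intro n
        induction n with
        | zero => simpa using V.one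
        | succ n ih =>
          rw [pow_succ, mul_inv]
          exact (ih.mul h4).mono (by push_cast; omega)
      exact h5 _
    have h6 : V (-1) (2 : ℚ)⁻¹ := by
      rw [V, pn_inv, pn_two]; norm_num
    have h7 := ((h3.mul (V_three_inv (l / 2))).mul h6).mul hK'
    have h8 : ((2 : ℚ) ^ (S.i1 * u))⁻¹ * ((3 : ℚ) ^ (l / 2))⁻¹ * 2⁻¹ * e0 = κ / 2 * e0 := by
      rw [hκ]; ring
    rw [NhS_eq, h8] at h7
    exact h7.mono (by push_cast; omega)
  · rw [lam_colR, hR, h0, h1]
    have h9 : κ / 2 * L0 = xi K / 2 * (κ * L1) + κ / 2 * e0 := by rw [he0]; ring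
    rw [h9, C_add, C_mul]
    have h10 : ∑ z ∈ XR S u c, al S u c (xi K) z * C ((bq l).eval (zz S u c z)) *
        C (zz S u c z) ^ k = (C (xi K / 2) - X) * C (κ * L1) := by
      rw [h2, map_sum, mul_sum]
      refine sum_congr rfl fun z _ => ?_
      rw [al, C_mul, C_mul, C_pow]
      ring
    rw [h10]
    ring

end main

end Crest.Agent.R006.P6x121
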