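import Crest.Agent.R006.P6B6_404
import Crest.Agent.R006.P6F_121
import Crest.Agent.R006.P6B_Min_618

/-!
# Row 6, block P6 (p = 2), line B, the end (helper404)

helper121's leaf E + `finalB` + helper618's minimum: a second, independent proof of
`AtPrime SN c 2 (40727/28)`.
-/

set_option autoImplicit false

namespace Crest.Agent.R006.P6B

open Polynomial Finset Crest.Agent.R006.D Crest.Agent.R006.NV Crest.Agent.R006.Lam
open Crest.Agent.R006.Bord Crest.Agent.R006.P6V Crest.Agent.R006.P6 Crest.Agent.R006.ProdBound481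

lemma XR_eq (S : Shape) (u c : ℕ) : P6x121.XR S u c = XR S u c := by
  classical
  ext z
  rw [P6x121.mem_XR]
  unfold XR
  simp

theorem leafE_holds (S : Shape) (hw : S.w ≤ S.i1) (c : ℕ) : LeafE S c := by
  intro u
  obtain ⟨x, hx, h⟩ := P6x121.leafE S u c hw
  refine ⟨P6x121.bq, x, P6x121.bq_monicFam, P6x121.bq_PB, hx, fun l hl k hk => ?_⟩
  obtain ⟨e, he1, he2⟩ := h l hl k hk
  refine ⟨e, he1, ?_⟩
  rw [he2, XR_eq]
  rfl

/-- **line B, every shape** -/
theorem atPrime_two (S : Shape) (c : ℕ) (hw : S.w ≤ S.i1) (hk : S.q + S.g ≤ S.rows)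
    (hag : S.a1 + S.g ≤ S.B) (α : ℝ) (hα : MinB S α) : AtPrime S c 2 α :=
  finalB S c hk hag (leafE_holds S hw c) α hα

/-- **line B, the frozen shape** -/
theorem SN_two (c : ℕ) : AtPrime SN c 2 (40727 / 28) :=
  atPrime_two SN c (by simp) (by simp) (by simp) _ minB_SN

end Crest.Agent.R006.P6B
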