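import Crest.Agent.R006.P6DetC_784

/-!
# Row 6, block P6, leaf L2: change of the basis of the `R`-space (helper909)

`PB_Minor_of_base` : a 2-adic bound of the determinant with the `R`-columns
`gauge * bin (a1 u) * X^(j % 2) * g (j / 2)` gives a bound of `Minor S u r`.
-/

set_option autoImplicit false

namespace Crest.Agent.R006.P6

open Polynomial Crest.Agent.R006.NV Crest.Agent.R006.PsiInf Crest.Agent.R006.D
open Crest.Agent.R006.ProdBound481

/-! ### the entry is linear in `R` -/

/-- `ent0` as a linear map -/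
noncomputable def ent0L (ρ : Row) : ℚ[X] →ₗ[ℚ] ℚ where
  toFun R := ent0 R ρ
  map_add' R R' := by
    have h : tau (R + R') = tau R + tau R' := by unfold tau; rw [map_add]
    unfold ent0
    rw [h, gm_add, gm_add, add_mul, ← map_add]
    congr 1
    ring
  map_smul' a R := by
    have h : tau (a • R) = C a * tau R := by
      unfold tau; rw [map_smul, smul_eq_C_mul]
    unfold ent0
    rw [h, smul_eq_C_mul, gm_mul, gm_mul, gm_C, mul_assoc, ← mul_sub, PowerSeries.coeff_C_mul]
    rfl

/-- `ent1` as a linear map -/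
noncomputable def ent1L (ρ : Row) : ℚ[X] →ₗ[ℚ] ℚ where
  toFun R := ent1 R ρ
  map_add' R R' := by
    unfold ent1
    rw [gm_add, add_mul, map_add]
  map_smul' a R := by
    unfold ent1
    rw [smul_eq_C_mul, gm_mul, gm_C, mul_assoc, PowerSeries.coeff_C_mul]
    rfl

lemma entR_sum {ι : Type*} (s : Finset ι) (a : ι → ℚ) (f : ι → ℚ[X]) (ρ : Row) :
    entR (∑ l ∈ s, C (a l) * f l) ρ = ∑ l ∈ s, C (a l) * entR (f l) ρ := by
  have h0 : ent0 (∑ l ∈ s, C (a l) * f l) ρ = ∑ l ∈ s, a l * ent0 (f l) ρ := by
    have : ent0L ρ (∑ l ∈ s, a l • f l) = ∑ l ∈ s, a l * ent0L ρ (f l) := by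
      rw [map_sum]
      exact Finset.sum_congr rfl fun l _ => by rw [map_smul, smul_eq_mul]
    simpa only [ent0L, LinearMap.coe_mk, AddHom.coe_mk, smul_eq_C_mul] using this
  have h1 : ent1 (∑ l ∈ s, C (a l) * f l) ρ = ∑ l ∈ s, a l * ent1 (f l) ρ := by
    have : ent1L ρ (∑ l ∈ s, a l • f l) = ∑ l ∈ s, a l * ent1L ρ (f l) := by
      rw [map_sum]
      exact Finset.sum_congr rfl fun l _ => by rw [map_smul, smul_eq_mul]
    simpa only [ent1L, LinearMap.coe_mk, AddHom.coe_mk, smul_eq_C_mul] using this
  unfold entR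
  rw [h0, h1, map_sum, map_sum, Finset.mul_sum, ← Finset.sum_sub_distrib]
  refine Finset.sum_congr rfl fun l _ => ?_
  rw [map_mul, map_mul]
  ring

/-! ### expansion in a monic basis -/

/-- expansion of a polynomial of degree `≤ j` in monic polynomials of degrees `0, .., j` -/
lemma expand_monic (Q : ℕ → ℚ[X]) (hm : ∀ l, (Q l).Monic) (hd : ∀ l, (Q l).natDegree = l)
    (j : ℕ) : ∀ N : ℚ[X], N.natDegree ≤ j →
      ∃ p : ℕ → ℚ, N = ∑ l ∈ Finset.range (j + 1), C (p l) * Q l ∧ p j = N.coeff j := by
  induction j with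
  | zero =>
    intro N hN
    refine ⟨fun _ => N.coeff 0, ?_, rfl⟩
    have h1 : Q 0 = 1 := (hm 0).natDegree_eq_zero.mp (hd 0)
    rw [zero_add, Finset.sum_range_one, h1, mul_one]
    exact eq_C_of_natDegree_le_zero hN
  | succ j ih =>
    intro N hN
    have hlead : (Q (j + 1)).coeff (j + 1) = 1 := by
      have := (hm (j + 1)).coeff_natDegree
      rwa [hd] at this
    have h1 : (N - C (N.coeff (j + 1)) * Q (j + 1)).natDegree ≤ j := by
      rw [natDegree_le_iff_coeff_eq_zero]
      intro n hn
      rw [coeff_sub, coeff_C_mul]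
      rcases Nat.lt_or_ge (j + 1) n with h | h
      · have e1 : N.coeff n = 0 := coeff_eq_zero_of_natDegree_lt (lt_of_le_of_lt hN h)
        have e2 : (Q (j + 1)).coeff n = 0 :=
          coeff_eq_zero_of_natDegree_lt (by rw [hd]; exact h)
        rw [e1, e2, mul_zero, sub_zero]
      · have : n = j + 1 := by omega
        subst this
        rw [hlead, mul_one, sub_self]
    obtain ⟨p, hp, -⟩ := ih _ h1
    refine ⟨fun l => if l = j + 1 then N.coeff (j + 1) else p l, ?_, if_pos rfl⟩
    rw [Finset.sum_range_succ]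
    simp only [if_true]
    have h2 : ∑ l ∈ Finset.range (j + 1),
        C (if l = j + 1 then N.coeff (j + 1) else p l) * Q l
        = ∑ l ∈ Finset.range (j + 1), C (p l) * Q l := by
      refine Finset.sum_congr rfl fun l hl => ?_
      rw [if_neg (by have := Finset.mem_range.mp hl; omega)]
    rw [h2, ← hp]
    ring

/-- the shifted monic factorial polynomials -/
noncomputable def dQ (A l : ℕ) : ℚ[X] := (descPochhammer ℚ l).comp (X - C (A : ℚ))

lemma dQ_monic (A l : ℕ) : (dQ A l).Monic := (monic_descPochhammer ℚ l).comp_X_sub_C _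

lemma dQ_natDegree (A l : ℕ) : (dQ A l).natDegree = l := by
  rw [dQ, natDegree_comp, natDegree_X_sub_C, mul_one, descPochhammer_natDegree]

lemma bin_mul_dQ (A l : ℕ) :
    bin A * dQ A l = C (((A + l).factorial : ℚ) / (A.factorial : ℚ)) * bin (A + l) := by
  have h : descPochhammer ℚ A * dQ A l = descPochhammer ℚ (A + l) := by
    have := descPochhammer_mul ℚ A l
    rw [dQ, map_natCast]
    exact this
  have h1 : ((A + l).factorial : ℚ) ≠ 0 := by positivity
  rw [bin, bin, mul_assoc, h, ← mul_assoc, ← C_mul]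
  congr 2
  field_simp

/-! ### the leaf -/

/-- **leaf L2** : change of the `R`-basis -/
theorem PB_Minor_of_base {g : ℕ → ℚ[X]} (h : HTwo g) (S : Shape) (u : ℕ) (r : Col S u → Row)
    {V : ℤ} (hV : PB 2 V (MatN S u r (fun j => polN S u g j)).det) :
    PB 2 (V - ∑ j ∈ Finset.range (S.k * u), (lh (S.a1 * u + j) - lh (S.a1 * u)))
      (Minor S u r) := by
  classical
  set A := S.a1 * u with hA
  -- the polynomials `N j`
  have hg0 : ∀ m, g m ≠ 0 := by
    intro m h0
    have := h.lead m
    rw [h0, leadingCoeff_zero, padicNorm.zero] at this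
    exact zero_ne_one this
  have hdeg : ∀ j, (X ^ (j % 2) * g (j / 2) : ℚ[X]).natDegree = j := by
    intro j
    rw [natDegree_mul (pow_ne_zero _ X_ne_zero) (hg0 _), natDegree_X_pow, h.deg]
    omega
  have hlead : ∀ j, padicNorm 2 ((X ^ (j % 2) * g (j / 2) : ℚ[X]).coeff j) = 1 := by
    intro j
    have e : (X ^ (j % 2) * g (j / 2) : ℚ[X]).coeff j
        = (X ^ (j % 2) * g (j / 2) : ℚ[X]).leadingCoeff := by
      rw [leadingCoeff, hdeg]
    rw [e, leadingCoeff_mul, leadingCoeff_X_pow, one_mul]
    exact h.lead _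
  choose p hp hpj using fun j =>
    expand_monic (dQ A) (dQ_monic A) (dQ_natDegree A) j _ (hdeg j).le
  -- the coefficients
  set a : ℕ → ℕ → ℚ := fun j l => p j l * (((A + l).factorial : ℚ) / (A.factorial : ℚ)) with ha
  have hpolN : ∀ j, polN S u g j
      = ∑ l ∈ Finset.range (j + 1), C (a j l) * polR S u l := by
    intro j
    rw [polN, hp j, Finset.mul_sum]
    refine Finset.sum_congr rfl fun l _ => ?_
    rw [polR, ha, C_mul, ← hA]
    have := bin_mul_dQ A l
    calc gauge S u * bin A * (C (p j l) * dQ A l)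
        = C (p j l) * gauge S u * (bin A * dQ A l) := by ring
      _ = _ := by rw [this]; ring
  -- the matrix of the base change
  set P : Matrix (Fin (S.k * u)) (Fin (S.k * u)) ℚ[X] :=
    Matrix.of fun l j => if l ≤ j then C (a j l) else 0 with hP
  have hPdet : P.det = ∏ j : Fin (S.k * u), C (a j j) := by
    rw [Matrix.det_of_isUpperTriangular]
    · exact Finset.prod_congr rfl fun j _ => by rw [hP, Matrix.of_apply, if_pos le_rfl]
    · intro i j hij
      rw [hP, Matrix.of_apply]
      exact if_neg (not_le.mpr hij)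
  have hmul : MatN S u r (fun j => polN S u g j) = Mat S u r * Matrix.fromBlocks P 0 0 1 := by
    ext1 i j
    rw [Matrix.mul_apply, Fintype.sum_sum_type]
    rcases j with j | j
    · simp only [MatN, Matrix.of_apply, Sum.elim_inl, Matrix.fromBlocks_apply₁₁,
        Matrix.fromBlocks_apply₂₁, Matrix.zero_apply, mul_zero, Finset.sum_const_zero, add_zero]
      rw [hpolN, entR_sum, Finset.sum_range]
      have hle : (j : ℕ) + 1 ≤ S.k * u := j.2
      -- both sums as sums over `range (k u)`
      have e1 : ∑ l : Fin (S.k * u), Mat S u r i (Sum.inl l) * P l j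
          = ∑ l ∈ Finset.range (S.k * u),
              (if l ≤ (j : ℕ) then C (a j l) * entR (polR S u l) (r i) else 0) := by
        rw [Finset.sum_range]
        refine Finset.sum_congr rfl fun l _ => ?_
        rw [hP, Matrix.of_apply]
        by_cases hl : l ≤ j
        · rw [if_pos hl, if_pos (by exact_mod_cast hl), mul_comm]
          rfl
        · rw [if_neg hl, if_neg (by exact_mod_cast hl), mul_zero]
      rw [e1, ← Finset.sum_range (fun l => C (a j l) * entR (polR S u l) (r i))]
      rw [← Finset.sum_filter]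
      refine Finset.sum_congr ?_ fun _ _ => rfl
      ext l
      simp only [Finset.mem_range, Finset.mem_filter]
      omega
    · simp only [MatN, Matrix.of_apply, Sum.elim_inr, Matrix.fromBlocks_apply₁₂,
        Matrix.fromBlocks_apply₂₂, Matrix.zero_apply, mul_zero, Finset.sum_const_zero, zero_add,
        Matrix.one_apply, mul_ite, mul_one, Finset.sum_ite_eq', Finset.mem_univ, if_true]
      rfl
  have hdet : (MatN S u r (fun j => polN S u g j)).det
      = Minor S u r * C (∏ j : Fin (S.k * u), a j j) := by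
    rw [hmul, Matrix.det_mul, Matrix.det_fromBlocks_zero₂₁, Matrix.det_one, mul_one, hPdet,
      map_prod]
    rfl
  -- norms
  have hnorm : ∀ j, padicNorm 2 (a j j) = (2 : ℚ) ^ (-(lh (A + j) - lh A)) := by
    intro j
    rw [ha]
    simp only
    rw [padicNorm.mul, hpj, hlead, one_mul, padicNorm.div, I2.factorial, I2.factorial,
      ← zpow_sub₀ (by norm_num : (2 : ℚ) ≠ 0)]
    congr 1
    ring
  have hne : ∀ j, a j j ≠ 0 := by
    intro j h0
    have := hnorm j
    rw [h0, padicNorm.zero] at this
    exact absurd this.symm (zpow_ne_zero _ (by norm_num))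
  have hprod : padicNorm 2 (∏ j : Fin (S.k * u), a j j)
      = (2 : ℚ) ^ (-∑ j ∈ Finset.range (S.k * u), (lh (A + j) - lh A)) := by
    rw [Finset.sum_range, ← Finset.sum_neg_distrib]
    generalize hs : (Finset.univ : Finset (Fin (S.k * u))) = s
    clear hs
    induction s using Finset.induction_on with
    | empty => simp
    | insert j s hj ih =>
      rw [Finset.prod_insert hj, Finset.sum_insert hj, padicNorm.mul, ih, hnorm,
        zpow_add₀ (by norm_num : (2 : ℚ) ≠ 0)]
  have hM : Minor S u r
      = C ((∏ j : Fin (S.k * u), a j j)⁻¹) * (MatN S u r (fun j => polN S u g j)).det := by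
    have h0 : (∏ j : Fin (S.k * u), a j j) ≠ 0 := Finset.prod_ne_zero_iff.mpr fun j _ => hne _
    rw [hdet, mul_comm, mul_assoc, ← C_mul, mul_inv_cancel₀ h0, C_1, mul_one]
  rw [hM]
  have hC : PB 2 (-∑ j ∈ Finset.range (S.k * u), (lh (A + j) - lh A))
      (C ((∏ j : Fin (S.k * u), a j j)⁻¹) : ℚ[X]) := by
    refine PB.C (le_of_eq ?_)
    have : padicNorm 2 ((∏ j : Fin (S.k * u), a j j)⁻¹)
        = (padicNorm 2 (∏ j : Fin (S.k * u), a j j))⁻¹ := by
      rw [← one_div, padicNorm.div, padicNorm.one, one_div]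
    rw [this, hprod, ← zpow_neg]
    norm_num
  refine (hC.mul hV).mono ?_
  linarith

end Crest.Agent.R006.P6
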