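import Crest.Agent.R006.P6V_784
import Crest.Agent.R006.Shape_378

/-!
# Row 6, block P6 (p = 2): the certificate for the frozen shape (helper909)

`val2_SN : val2 SN xiN = -40727/28` (the optimum of the dual problem), `|alpha2| = 1454.5357...`.
-/

set_option autoImplicit false

namespace Crest.Agent.R006.P6

open Crest.Agent.R006.D MeasureTheory intervalIntegral Set

/-- integral of a function that is linear on an interval -/
lemma int_lin {F : ℝ → ℝ} {a b p q : ℝ} (hab : a ≤ b)
    (h : ∀ x ∈ Icc a b, F x = p + q * x) :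
    IntervalIntegrable F volume a b ∧
      ∫ x in a..b, F x = p * (b - a) + q * (b ^ 2 - a ^ 2) / 2 := by
  have hc : IntervalIntegrable (fun x : ℝ => p + q * x) volume a b :=
    (by fun_prop : Continuous (fun x : ℝ => p + q * x)).intervalIntegrable _ _
  have hE : EqOn (fun x : ℝ => p + q * x) F (uIcc a b) := by
    intro x hx
    rw [uIcc_of_le hab] at hx
    exact (h x hx).symm
  refine ⟨hc.congr (fun x hx => hE (uIoc_subset_uIcc hx)), ?_⟩
  rw [← integral_congr hE]
  have h1 : IntervalIntegrable (fun _ : ℝ => p) volume a b := by simp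
  have h2 : IntervalIntegrable (fun x : ℝ => q * x) volume a b :=
    (by fun_prop : Continuous (fun x : ℝ => q * x)).intervalIntegrable _ _
  rw [intervalIntegral.integral_add h1 h2, intervalIntegral.integral_const,
    intervalIntegral.integral_const_mul, integral_id, smul_eq_mul]
  ring

/-- integral of a function that is linear on two adjacent intervals -/
lemma int_two {F : ℝ → ℝ} {a t b p q p' q' : ℝ} (hat : a ≤ t) (htb : t ≤ b)
    (h1 : ∀ x ∈ Icc a t, F x = p + q * x) (h2 : ∀ x ∈ Icc t b, F x = p' + q' * x) :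
    ∫ x in a..b, F x = p * (t - a) + q * (t ^ 2 - a ^ 2) / 2
      + (p' * (b - t) + q' * (b ^ 2 - t ^ 2) / 2) := by
  obtain ⟨i1, e1⟩ := int_lin hat h1
  obtain ⟨i2, e2⟩ := int_lin htb h2
  rw [← integral_add_adjacent_intervals i1 i2, e1, e2]

/-- the optimal dual variables for `SN` -/
noncomputable def xiN : Par ℝ where
  xT := 9
  xR := 83 / 7
  xQ := 403 / 14
  xTH := 115 / 14
  xQH := 41 / 2
  r := 71 / 14
  s := -152 / 7
  h := 55 / 14
  h' := -205 / 14

/-- **the certificate**: the value of the dual problem for the frozen shape -/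
theorem val2_SN : val2 SN xiN = -40727 / 28 := by
  have a1 : ∫ x in (0 : ℝ)..1, min (9 : ℝ) (403 / 14 - 4 * x) = 9 := by
    rw [(int_lin (p := 9) (q := 0) (by norm_num) fun x hx => ?_).2]
    · norm_num
    · rw [min_eq_left (by linarith [hx.2])]; ring
  have a2 : ∫ x in (1 : ℝ)..24, min (9 : ℝ) (min (83 / 7 - 3 * x) (403 / 14 - 4 * x))
      = 83 / 7 * (237 / 14 - 1) - 3 * ((237 / 14) ^ 2 - 1) / 2
        + (403 / 14 * (24 - 237 / 14) - 4 * (24 ^ 2 - (237 / 14) ^ 2) / 2) := by
    rw [int_two (t := 237 / 14) (p := 83 / 7) (q := -3) (p' := 403 / 14) (q' := -4)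
      (by norm_num) (by norm_num) (fun x hx => ?_) (fun x hx => ?_)]
    · norm_num
    · rw [min_eq_left (a := 83 / 7 - 3 * x) (by linarith [hx.2]),
        min_eq_right (by linarith [hx.1])]
      ring
    · rw [min_eq_right (a := 83 / 7 - 3 * x) (by linarith [hx.1]),
        min_eq_right (by linarith [hx.1])]
      ring
  have a3 : ∫ x in (0 : ℝ)..6, min (115 / 14 : ℝ) (41 / 2 - 4 * x)
      = 115 / 14 * (43 / 14) + (41 / 2 * (6 - 43 / 14) - 4 * (6 ^ 2 - (43 / 14) ^ 2) / 2) := by
    rw [int_two (t := 43 / 14) (p := 115 / 14) (q := 0) (p' := 41 / 2) (q' := -4)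
      (by norm_num) (by norm_num) (fun x hx => ?_) (fun x hx => ?_)]
    · norm_num
    · rw [min_eq_left (by linarith [hx.2])]; ring
    · rw [min_eq_right (by linarith [hx.1])]; ring
  have a4 : ∫ x in (0 : ℝ)..21, min (71 / 14 : ℝ) (min x (x + 55 / 14))
      = (71 / 14) ^ 2 / 2 + 71 / 14 * (21 - 71 / 14) := by
    rw [int_two (t := 71 / 14) (p := 0) (q := 1) (p' := 71 / 14) (q' := 0)
      (by norm_num) (by norm_num) (fun x hx => ?_) (fun x hx => ?_)]
    · norm_num
    · rw [min_eq_left (a := x) (by linarith), min_eq_right (by linarith [hx.2])]; ring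
    · rw [min_eq_left (a := x) (by linarith), min_eq_left (by linarith [hx.1])]; ring
  have a5 : ∫ x in (0 : ℝ)..10, min (0 : ℝ) (55 / 14 - x)
      = 55 / 14 * (10 - 55 / 14) - (10 ^ 2 - (55 / 14) ^ 2) / 2 := by
    rw [int_two (t := 55 / 14) (p := 0) (q := 0) (p' := 55 / 14) (q' := -1)
      (by norm_num) (by norm_num) (fun x hx => ?_) (fun x hx => ?_)]
    · norm_num
    · rw [min_eq_left (by linarith [hx.2])]; ring
    · rw [min_eq_right (by linarith [hx.1])]; ring
  have a6 : ∫ x in (0 : ℝ)..10, min (-152 / 7 : ℝ) (-205 / 14 - x)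
      = -152 / 7 * (99 / 14) + (-205 / 14 * (10 - 99 / 14) - (10 ^ 2 - (99 / 14) ^ 2) / 2) := by
    rw [int_two (t := 99 / 14) (p := -152 / 7) (q := 0) (p' := -205 / 14) (q' := -1)
      (by norm_num) (by norm_num) (fun x hx => ?_) (fun x hx => ?_)]
    · norm_num
    · rw [min_eq_left (by linarith [hx.2])]; ring
    · rw [min_eq_right (by linarith [hx.1])]; ring
  have m1 : max (0 : ℝ) 9 = 9 := by norm_num
  have m2 : max (0 : ℝ) (83 / 7 + 71 / 14 - 1) = 223 / 14 := by norm_num
  have m3 : max (0 : ℝ) (403 / 14 + -152 / 7) = 99 / 14 := by norm_num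
  have m4 : max (0 : ℝ) (115 / 14 + 55 / 14) = 85 / 7 := by norm_num
  have m5 : max (0 : ℝ) (41 / 2 + -205 / 14) = 41 / 7 := by norm_num
  simp only [val2, xiN, SN_B, SN_e1, SN_e2, SN_e3, SN_h1, SN_h2, SN_h3, SN_w, SN_a1, SN_a2, SN_i1,
    SN_r1, SN_q, SN_g, SN_k, Nat.cast_ofNat, Nat.cast_zero, Nat.cast_one, add_zero]
  rw [a1, a2, a3, a4, a5, a6, m1, m2, m3, m4, m5]
  norm_num

end Crest.Agent.R006.P6
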