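import Mathlib

/-!
# Row 6, block P6 (p = 2), leaf E: elementary sums (helper550)

Two-sided bounds for `v_2(l!)`, for the sums of truncated tolls `max 0 (x - v_2(l!))`,
`max 0 (x - l - v_2(l!))`, and for sums of minima of linear functions.
-/

set_option autoImplicit false

namespace Crest.Agent.R006.P6E

open Finset

/-- `v_2(l!)` -/
def v2f (l : ℕ) : ℕ := padicValNat 2 l.factorial

lemma v2f_eq (l : ℕ) : v2f l = l - (Nat.digits 2 l).sum := by
  have h := sub_one_mul_padicValNat_factorial (p := 2) l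
  simpa [v2f] using h

lemma digits_sum_le (l : ℕ) : (Nat.digits 2 l).sum ≤ Nat.log 2 l + 1 := by
  rcases Nat.eq_zero_or_pos l with h | h
  · subst h; simp
  · have h1 : (Nat.digits 2 l).length = Nat.log 2 l + 1 := by
      rw [Nat.length_digits 2 l (by norm_num) (by omega)]
    have h2 : (Nat.digits 2 l).sum ≤ (Nat.digits 2 l).length * 1 := by
      have := List.sum_le_card_nsmul (Nat.digits 2 l) 1 (fun x hx => by
        have := Nat.digits_lt_base (by norm_num : 1 < 2) hx
        omega)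
      simpa using this
    omega

lemma v2f_le (l : ℕ) : v2f l ≤ l := by rw [v2f_eq]; omega

lemma v2f_ge (l : ℕ) : l ≤ v2f l + (Nat.log 2 l + 1) := by
  rw [v2f_eq]; have := digits_sum_le l; omega

lemma v2f_mono {a b : ℕ} (h : a ≤ b) : v2f a ≤ v2f b := by
  unfold v2f
  exact (padicValNat_dvd_iff_le (Nat.factorial_ne_zero b)).1
    (dvd_trans (pow_padicValNat_dvd) (Nat.factorial_dvd_factorial h))

/-- sum of `max 0 (y - l)` -/
lemma sum_trunc_le (y : ℤ) (hy : 0 ≤ y) (n : ℕ) :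
    2 * ∑ l ∈ range n, max 0 (y - (l : ℤ)) ≤ y * (y + 1) := by
  have key : ∀ n : ℕ, 2 * ∑ l ∈ range n, max 0 (y - (l : ℤ)) ≤
      y * (y + 1) - (max 0 (y - n)) * (max 0 (y - n) + 1) := by
    intro n
    induction n with
    | zero => simp [max_eq_right hy]
    | succ n ih =>
      rw [sum_range_succ, mul_add]
      rcases le_total (y - (n : ℤ)) 0 with h | h
      · have h' : y - ((n + 1 : ℕ) : ℤ) ≤ 0 := by push_cast; linarith
        rw [max_eq_left h] at ih ⊢
        rw [max_eq_left h']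
        linarith
      · rw [max_eq_right h] at ih ⊢
        rcases le_or_gt (y - ((n + 1 : ℕ) : ℤ)) 0 with h' | h'
        · rw [max_eq_left h']
          push_cast at h'
          have : y - (n : ℤ) = 0 ∨ y - (n : ℤ) = 1 := by omega
          rcases this with h2 | h2 <;> rw [h2] at ih ⊢ <;> linarith
        · rw [max_eq_right h'.le]
          push_cast
          nlinarith
  have h := key n
  have h2 : 0 ≤ (max 0 (y - (n : ℤ))) * (max 0 (y - n) + 1) := by positivity
  linarith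

/-- sum of `max 0 (y - 2 l)` -/
lemma sum_trunc2_le (y : ℤ) (hy : 0 ≤ y) (n : ℕ) :
    4 * ∑ l ∈ range n, max 0 (y - 2 * (l : ℤ)) ≤ (y + 1) ^ 2 := by
  have key : ∀ n : ℕ, 4 * ∑ l ∈ range n, max 0 (y - 2 * (l : ℤ)) ≤
      (y + 1) ^ 2 - (max 0 (y - 2 * n + 1)) ^ 2 := by
    intro n
    induction n with
    | zero => simp [max_eq_right (by linarith : (0 : ℤ) ≤ y + 1)]
    | succ n ih =>
      rw [sum_range_succ, mul_add]
      rcases le_or_gt (y - 2 * (n : ℤ) + 1) 0 with h | h
      · have h' : y - 2 * ((n + 1 : ℕ) : ℤ) + 1 ≤ 0 := by push_cast; linarith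
        rw [max_eq_left h] at ih
        rw [max_eq_left (by linarith : y - 2 * (n : ℤ) ≤ 0), max_eq_left h']
        linarith
      · have h0 : 0 ≤ y - 2 * (n : ℤ) := by omega
        rw [max_eq_right h.le] at ih
        rw [max_eq_right h0]
        rcases le_or_gt (y - 2 * ((n + 1 : ℕ) : ℤ) + 1) 0 with h' | h'
        · rw [max_eq_left h']
          push_cast at h'
          have : y - 2 * (n : ℤ) = 0 ∨ y - 2 * (n : ℤ) = 1 := by omega
          rcases this with h2 | h2 <;> rw [h2] at ih ⊢ <;> linarith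
        · rw [max_eq_right h'.le]
          push_cast
          nlinarith
  have h := key n
  have h2 : 0 ≤ (max 0 (y - 2 * (n : ℤ) + 1)) ^ 2 := by positivity
  linarith

/-- **tolls of kind 1**: `∑_{l<n} max 0 (x - v_2(l!)) ≤ (x⁺ + L)(x⁺ + L + 1)/2`, `L = log₂ n + 1` -/
theorem toll1_le (x : ℤ) (hx : 0 ≤ x) (n : ℕ) :
    2 * ∑ l ∈ range n, max 0 (x - (v2f l : ℤ)) ≤
      (x + (Nat.log 2 n + 1)) * (x + (Nat.log 2 n + 1) + 1) := by
  set L : ℤ := (Nat.log 2 n : ℤ) + 1 with hL
  have hL0 : 0 ≤ L := by positivity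
  refine le_trans ?_ (sum_trunc_le (x + L) (by linarith) n)
  have : ∑ l ∈ range n, max 0 (x - (v2f l : ℤ)) ≤ ∑ l ∈ range n, max 0 (x + L - (l : ℤ)) := by
    refine sum_le_sum fun l hl => max_le_max le_rfl ?_
    have h1 := v2f_ge l
    have h2 : Nat.log 2 l ≤ Nat.log 2 n := Nat.log_mono_right (mem_range.1 hl).le
    have h3 : (l : ℤ) ≤ v2f l + (Nat.log 2 n + 1) := by exact_mod_cast (by omega)
    linarith
  linarith

/-- **tolls of kind 2**: `∑_{l<n} max 0 (x - l - v_2(l!)) ≤ (x⁺ + L + 1)²/4` -/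
theorem toll2_le (x : ℤ) (hx : 0 ≤ x) (n : ℕ) :
    4 * ∑ l ∈ range n, max 0 (x - (l : ℤ) - (v2f l : ℤ)) ≤
      (x + (Nat.log 2 n + 1) + 1) ^ 2 := by
  set L : ℤ := (Nat.log 2 n : ℤ) + 1 with hL
  have hL0 : 0 ≤ L := by positivity
  refine le_trans ?_ (sum_trunc2_le (x + L) (by linarith) n)
  have : ∑ l ∈ range n, max 0 (x - (l : ℤ) - (v2f l : ℤ)) ≤
      ∑ l ∈ range n, max 0 (x + L - 2 * (l : ℤ)) := by
    refine sum_le_sum fun l hl => max_le_max le_rfl ?_
    have h1 := v2f_ge l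
    have h2 : Nat.log 2 l ≤ Nat.log 2 n := Nat.log_mono_right (mem_range.1 hl).le
    have h3 : (l : ℤ) ≤ v2f l + (Nat.log 2 n + 1) := by exact_mod_cast (by omega)
    linarith
  linarith

/-- lower bound for the superfactorial sum over a window -/
theorem sum_v2f_ge (a n : ℕ) :
    (n : ℤ) * a * 2 + n * (n - 1) - 2 * n * (Nat.log 2 (a + n) + 1) ≤
      2 * ∑ l ∈ range n, (v2f (a + l) : ℤ) := by
  have h1 : ∑ l ∈ range n, ((a : ℤ) + l - (Nat.log 2 (a + n) + 1)) ≤
      ∑ l ∈ range n, (v2f (a + l) : ℤ) := by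
    refine sum_le_sum fun l hl => ?_
    have h1 := v2f_ge (a + l)
    have h2 : Nat.log 2 (a + l) ≤ Nat.log 2 (a + n) :=
      Nat.log_mono_right (by have := mem_range.1 hl; omega)
    have h3 : ((a + l : ℕ) : ℤ) ≤ v2f (a + l) + (Nat.log 2 (a + n) + 1) := by
      exact_mod_cast (by omega)
    push_cast at h3
    linarith
  have h2 : 2 * ∑ l ∈ range n, ((a : ℤ) + l - (Nat.log 2 (a + n) + 1)) =
      (n : ℤ) * a * 2 + n * (n - 1) - 2 * n * (Nat.log 2 (a + n) + 1) := by
    clear h1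
    generalize (Nat.log 2 (a + n) : ℤ) = L
    induction n with
    | zero => simp
    | succ n ih => rw [sum_range_succ, mul_add, ih]; push_cast; ring
  linarith

/-- upper bound for the superfactorial sum over a window -/
theorem sum_v2f_le (a n : ℕ) :
    2 * ∑ l ∈ range n, (v2f (a + l) : ℤ) ≤ (n : ℤ) * a * 2 + n * (n - 1) := by
  have h1 : ∑ l ∈ range n, (v2f (a + l) : ℤ) ≤ ∑ l ∈ range n, ((a : ℤ) + l) := by
    refine sum_le_sum fun l _ => ?_
    exact_mod_cast v2f_le (a + l)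
  have h2 : 2 * ∑ l ∈ range n, ((a : ℤ) + l) = (n : ℤ) * a * 2 + n * (n - 1) := by
    clear h1
    induction n with
    | zero => simp
    | succ n ih => rw [sum_range_succ, mul_add, ih]; push_cast; ring
  linarith

/-- exact sum of a linear function over a window `[s, s+n)` -/
theorem sum_lin (A B : ℤ) (s n : ℕ) :
    2 * ∑ l ∈ range n, (A + B * ((s + l : ℕ) : ℤ)) =
      2 * n * A + B * (2 * n * s + n * (n - 1)) := by
  induction n with
  | zero => simp
  | succ n ih => rw [sum_range_succ, mul_add, ih]; push_cast; ring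

/-- sum of a truncated increasing linear function (left end points, no error term) -/
theorem sum_plin (β : ℤ) (hβ : 0 ≤ β) (y : ℤ) (N : ℕ) :
    2 * β * ∑ n ∈ range N, max 0 (β * (n : ℤ) - y) ≤ (max 0 (β * (N : ℤ) - y)) ^ 2 := by
  induction N with
  | zero => simp
  | succ N ih =>
    rw [sum_range_succ, mul_add]
    have e : β * ((N + 1 : ℕ) : ℤ) - y = (β * (N : ℤ) - y) + β := by push_cast; ring
    rw [e]
    generalize β * (N : ℤ) - y = t at ih ⊢
    rcases le_total t 0 with h | h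
    · rw [max_eq_left h] at ih ⊢
      have : 0 ≤ (max 0 (t + β)) ^ 2 := by positivity
      linarith
    · rw [max_eq_right h] at ih ⊢
      rw [max_eq_right (by linarith : (0 : ℤ) ≤ t + β)]
      nlinarith

/-- three lines of slopes `0, -3, -4` -/
theorem min3_ge (xT xR xQ n : ℤ) :
    xT - max 0 (3 * n - (xR - xT)) - max 0 (1 * n - (xQ - xR)) ≤
      min xT (min (xR - 3 * n) (xQ - 4 * n)) := by
  have h1 := le_max_left 0 (3 * n - (xR - xT))
  have h2 := le_max_right 0 (3 * n - (xR - xT))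
  have h3 := le_max_left 0 (1 * n - (xQ - xR))
  have h4 := le_max_right 0 (1 * n - (xQ - xR))
  refine le_min ?_ (le_min ?_ ?_) <;> linarith

/-- two lines of slopes `0, -4` -/
theorem min2_ge (xT xQ n : ℤ) :
    xT - max 0 (4 * n - (xQ - xT)) ≤ min xT (xQ - 4 * n) := by
  have h1 := le_max_left 0 (4 * n - (xQ - xT))
  have h2 := le_max_right 0 (4 * n - (xQ - xT))
  refine le_min ?_ ?_ <;> linarith

/-- `log₂` is `o(u)`, with constants -/
theorem eventually_log (C D : ℕ) (δ : ℝ) (hδ : 0 < δ) :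
    ∀ᶠ u : ℕ in Filter.atTop,
      (C : ℝ) * (u + 1) * (Nat.log 2 (D * u + D) + 1) ≤ δ * (u : ℝ) ^ 2 := by
  have ht : Filter.Tendsto (fun u : ℕ => Real.sqrt (u : ℝ)) Filter.atTop Filter.atTop :=
    Real.tendsto_sqrt_atTop.comp tendsto_natCast_atTop_atTop
  filter_upwards [ht.eventually_ge_atTop (2 * C * (4 * Real.sqrt (2 * D) + 1) / δ),
    Filter.eventually_ge_atTop 1] with u hu hu1
  have hu1' : (1 : ℝ) ≤ u := by exact_mod_cast hu1
  have hlog : (Nat.log 2 (D * u + D) : ℝ) ≤ 4 * Real.sqrt ((D * u + D : ℕ) : ℝ) := by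
    rcases Nat.eq_zero_or_pos (D * u + D) with h0 | h0
    · rw [h0]; simp
    · have hm : (0 : ℝ) < ((D * u + D : ℕ) : ℝ) := by exact_mod_cast h0
      have h1 : (Nat.log 2 (D * u + D) : ℝ) ≤ Real.logb 2 ((D * u + D : ℕ) : ℝ) := by
        have := Real.natLog_le_logb (D * u + D) 2
        exact_mod_cast this
      have h2 : Real.log ((D * u + D : ℕ) : ℝ) ≤ 2 * Real.sqrt ((D * u + D : ℕ) : ℝ) := by
        have h3 : Real.log (Real.sqrt ((D * u + D : ℕ) : ℝ)) ≤
            Real.sqrt ((D * u + D : ℕ) : ℝ) - 1 :=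
          Real.log_le_sub_one_of_pos (Real.sqrt_pos.2 hm)
        rw [Real.log_sqrt hm.le] at h3
        linarith
      have h4 : (1 : ℝ) / 2 < Real.log 2 := by
        have := Real.log_two_gt_d9; linarith
      have h5 : Real.logb 2 ((D * u + D : ℕ) : ℝ) ≤ 4 * Real.sqrt ((D * u + D : ℕ) : ℝ) := by
        rw [Real.logb, div_le_iff₀ (by linarith)]
        nlinarith [Real.sqrt_nonneg ((D * u + D : ℕ) : ℝ)]
      linarith
  have hs : Real.sqrt ((D * u + D : ℕ) : ℝ) ≤ Real.sqrt (2 * D) * Real.sqrt u := by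
    rw [← Real.sqrt_mul (by positivity)]
    apply Real.sqrt_le_sqrt
    push_cast
    have : (0 : ℝ) ≤ D := by positivity
    nlinarith
  have hsu : (1 : ℝ) ≤ Real.sqrt u := by
    rw [show (1 : ℝ) = Real.sqrt 1 by simp]; exact Real.sqrt_le_sqrt hu1'
  have hC : (0 : ℝ) ≤ C := by positivity
  have hq : (0 : ℝ) ≤ Real.sqrt (2 * D) := Real.sqrt_nonneg _
  have h6 : (Nat.log 2 (D * u + D) : ℝ) + 1 ≤ (4 * Real.sqrt (2 * D) + 1) * Real.sqrt u := by
    nlinarith
  have h7 : (C : ℝ) * (u + 1) ≤ 2 * C * u := by nlinarith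
  have h8 : (2 * C * (4 * Real.sqrt (2 * D) + 1)) ≤ δ * Real.sqrt u := by
    rw [div_le_iff₀ hδ] at hu; linarith
  have hss : Real.sqrt u * Real.sqrt u = u := Real.mul_self_sqrt (by positivity)
  calc (C : ℝ) * (u + 1) * (Nat.log 2 (D * u + D) + 1)
      ≤ (2 * C * u) * ((4 * Real.sqrt (2 * D) + 1) * Real.sqrt u) := by
        apply mul_le_mul h7 h6 (by positivity) (by positivity)
    _ = (2 * C * (4 * Real.sqrt (2 * D) + 1)) * (u * Real.sqrt u) := by ring
    _ ≤ (δ * Real.sqrt u) * (u * Real.sqrt u) := by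
        apply mul_le_mul_of_nonneg_right h8 (by positivity)
    _ = δ * (u : ℝ) ^ 2 := by
        rw [show (δ * Real.sqrt u) * (u * Real.sqrt u) = δ * u * (Real.sqrt u * Real.sqrt u) by ring,
          hss]; ring

end Crest.Agent.R006.P6E
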