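import Crest.Agent.R006.P6V_784
import Crest.Agent.R006.P6EvalLib_550

/-!
# Row 6, block P6 (p = 2), leaf E: evaluation of `Vlow` (helper550)
-/

set_option autoImplicit false

namespace Crest.Agent.R006.P6

open Crest.Agent.R006.D Crest.Agent.R006.P6E Finset

/-- `f u L ≥ α u² - o(u²)` uniformly in `L` -/
def Low (f : ℕ → ℕ → ℝ) (α : ℝ) : Prop :=
  ∀ d : ℝ, 0 < d → ∀ᶠ u : ℕ in Filter.atTop, ∀ L : ℕ, (α - d) * (u : ℝ) ^ 2 ≤ f u L

lemma Low.add {f g : ℕ → ℕ → ℝ} {α β : ℝ} (hf : Low f α) (hg : Low g β) :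
    Low (fun u L => f u L + g u L) (α + β) := by
  intro d hd
  filter_upwards [hf (d / 2) (by linarith), hg (d / 2) (by linarith)] with u h1 h2 L
  have := h1 L; have := h2 L
  nlinarith

lemma Low.mono {f g : ℕ → ℕ → ℝ} {α : ℝ} (hf : Low f α)
    (h : ∀ᶠ u : ℕ in Filter.atTop, ∀ L, f u L ≤ g u L) : Low g α := by
  intro d hd
  filter_upwards [hf d hd, h] with u h1 h2 L
  exact le_trans (h1 L) (h2 L)

/-- error of size `u log u` -/
lemma Low.of_err {f : ℕ → ℕ → ℝ} {α : ℝ} (C D : ℕ)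
    (h : ∀ u : ℕ, 1 ≤ u → ∀ L : ℕ,
      α * (u : ℝ) ^ 2 - C * (u + 1) * (Nat.log 2 (D * u + D) + 1) ≤ f u L) : Low f α := by
  intro d hd
  filter_upwards [eventually_log C D d hd, Filter.eventually_ge_atTop 1] with u h1 hu L
  have := h u hu L
  nlinarith

/-- tolls: if `y u ≤ (a + d) u` then `- y (y+1)/2 ≥ - a²/2 u² - ..` -/
lemma low_toll1 {t : ℕ → ℕ → ℝ} {y : ℕ → ℝ} {a : ℝ} (ha : 0 ≤ a)
    (h0 : ∀ u, 0 ≤ y u)
    (hy : ∀ d : ℝ, 0 < d → ∀ᶠ u : ℕ in Filter.atTop, y u ≤ (a + d) * u)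
    (ht : ∀ᶠ u : ℕ in Filter.atTop, ∀ L, 2 * t u L ≤ y u * (y u + 1)) :
    Low (fun u L => - t u L) (-(a ^ 2 / 2)) := by
  intro d hd
  set e : ℝ := min 1 (d / (2 * (a + 1))) with he
  have he0 : 0 < e := lt_min one_pos (by positivity)
  have he1 : e ≤ 1 := min_le_left _ _
  have he2 : e * (2 * (a + 1)) ≤ d := by
    have := min_le_right 1 (d / (2 * (a + 1)))
    rw [← he, le_div_iff₀ (by positivity)] at this
    exact this
  filter_upwards [hy e he0, ht, Filter.eventually_ge_atTop ⌈(a + 1) / d⌉₊] with u h1 h2 hu L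
  have hu' : (a + 1) / d ≤ u := le_trans (Nat.le_ceil _) (by exact_mod_cast hu)
  rw [div_le_iff₀ hd] at hu'
  have hu0 : (0 : ℝ) ≤ u := by positivity
  have h3 := h2 L
  have h4 : y u * (y u + 1) ≤ (a + e) * u * ((a + e) * u + 1) := by
    have := h0 u
    nlinarith
  have h5 : (a + e) * u ≤ d * u ^ 2 := by nlinarith
  have h6 : (a + e) ^ 2 ≤ a ^ 2 + d := by nlinarith
  have h7 : (a + e) ^ 2 * u ^ 2 ≤ (a ^ 2 + d) * u ^ 2 :=
    mul_le_mul_of_nonneg_right h6 (by positivity)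
  nlinarith

lemma low_toll2 {t : ℕ → ℕ → ℝ} {y : ℕ → ℝ} {a : ℝ} (ha : 0 ≤ a)
    (h0 : ∀ u, 0 ≤ y u)
    (hy : ∀ d : ℝ, 0 < d → ∀ᶠ u : ℕ in Filter.atTop, y u ≤ (a + d) * u)
    (ht : ∀ᶠ u : ℕ in Filter.atTop, ∀ L, 4 * t u L ≤ (y u + 1) ^ 2) :
    Low (fun u L => - t u L) (-(a ^ 2 / 4)) := by
  intro d hd
  have key := low_toll1 (t := fun u L => 2 * t u L) (y := fun u => y u + 1) (a := a) ha
    (fun u => by have := h0 u; linarith) ?_ ?_ d hd
  · filter_upwards [key] with u hu L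
    have := hu L
    have hu0 : (0 : ℝ) ≤ (u : ℝ) ^ 2 := by positivity
    nlinarith
  · intro d' hd'
    filter_upwards [hy (d' / 2) (by linarith), Filter.eventually_ge_atTop ⌈2 / d'⌉₊] with u h1 hu
    have hu' : 2 / d' ≤ u := le_trans (Nat.le_ceil _) (by exact_mod_cast hu)
    rw [div_le_iff₀ hd'] at hu'
    nlinarith
  · filter_upwards [ht] with u hu L
    have := hu L
    have := h0 u
    nlinarith

lemma six_log {l : ℕ} (h : 64 ≤ l) : 6 * (Nat.log 2 l + 1) ≤ l := by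
  have h1 : 2 ^ Nat.log 2 l ≤ l := Nat.pow_log_le_self 2 (by omega)
  have h2 : 6 ≤ Nat.log 2 l := by
    have : Nat.log 2 64 ≤ Nat.log 2 l := Nat.log_mono_right h
    have e : Nat.log 2 64 = 6 := by
      rw [show (64 : ℕ) = 2 ^ 6 by norm_num]; exact Nat.log_pow (by norm_num) 6
    omega
  have key : ∀ k : ℕ, 6 ≤ k → 6 * (k + 1) ≤ 2 ^ k := by
    intro k hk
    induction k, hk using Nat.le_induction with
    | base => norm_num
    | succ k hk ih =>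
      have : 2 ^ 6 ≤ 2 ^ k := Nat.pow_le_pow_right (by norm_num) hk
      rw [pow_succ]; omega
  have := key _ h2
  omega

/-- general toll bound of the first kind -/
lemma toll_gen (a X L : ℕ) (f : ℕ → ℤ)
    (hf : ∀ l, a ≤ l → f l ≤ X + a + 3 * (Nat.log 2 l + 1) - l)
    (hf0 : ∀ l, l < a → f l ≤ 0) :
    2 * ∑ l ∈ range L, max 0 (f l) ≤
      ((X : ℤ) + 3 * (Nat.log 2 (2 * (X + a) + 64) + 1)) *
        ((X : ℤ) + 3 * (Nat.log 2 (2 * (X + a) + 64) + 1) + 1) := by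
  set Y : ℤ := (X : ℤ) + 3 * (Nat.log 2 (2 * (X + a) + 64) + 1) with hY
  have hY0 : 0 ≤ Y := by positivity
  have h1 : ∀ l, max 0 (f l) ≤ if l < a then 0 else max 0 (Y - ((l - a : ℕ) : ℤ)) := by
    intro l
    split_ifs with h
    · rw [max_eq_left (hf0 l h)]
    · rw [not_lt] at h
      rcases le_total l (2 * (X + a) + 64) with h2 | h2
      · apply max_le_max le_rfl
        have h3 : Nat.log 2 l ≤ Nat.log 2 (2 * (X + a) + 64) := Nat.log_mono_right h2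
        have h4 := hf l h
        have h5 : (Nat.log 2 l : ℤ) ≤ Nat.log 2 (2 * (X + a) + 64) := by exact_mod_cast h3
        push_cast [Nat.cast_sub h]
        rw [hY]; linarith
      · have h3 := six_log (l := l) (by omega)
        have h4 := hf l h
        have h5 : f l ≤ 0 := by
          have : (6 : ℤ) * (Nat.log 2 l + 1) ≤ l := by exact_mod_cast h3
          have h6 : (2 : ℤ) * (X + a) + 64 ≤ l := by exact_mod_cast h2
          linarith
        rw [max_eq_left h5]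
        exact le_max_left _ _
  have h2 : ∑ l ∈ range L, max 0 (f l) ≤
      ∑ l ∈ range (a + L), if l < a then 0 else max 0 (Y - ((l - a : ℕ) : ℤ)) := by
    refine le_trans (sum_le_sum fun l _ => h1 l) ?_
    refine sum_le_sum_of_subset_of_nonneg (range_mono (by omega)) fun l _ _ => ?_
    split_ifs
    · exact le_rfl
    · exact le_max_left _ _
  rw [sum_range_add] at h2
  have h3 : (∑ l ∈ range a, if l < a then (0 : ℤ) else max 0 (Y - ((l - a : ℕ) : ℤ))) = 0 := by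
    apply sum_eq_zero; intro l hl; rw [if_pos (mem_range.1 hl)]
  have h4 : (∑ l ∈ range L, if a + l < a then (0 : ℤ) else max 0 (Y - ((a + l - a : ℕ) : ℤ))) =
      ∑ l ∈ range L, max 0 (Y - (l : ℤ)) := by
    apply sum_congr rfl; intro l _
    rw [if_neg (by omega), Nat.add_sub_cancel_left]
  rw [h3, h4] at h2
  have h5 := sum_trunc_le Y hY0 L
  linarith

/-- general toll bound of the second kind -/
lemma toll_gen2 (X L : ℕ) (f : ℕ → ℤ)
    (hf : ∀ l, f l ≤ X + 3 * (Nat.log 2 l + 1) - 2 * l) :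
    4 * ∑ l ∈ range L, max 0 (f l) ≤
      ((X : ℤ) + 3 * (Nat.log 2 (2 * X + 64) + 1) + 1) ^ 2 := by
  set Y : ℤ := (X : ℤ) + 3 * (Nat.log 2 (2 * X + 64) + 1) with hY
  have hY0 : 0 ≤ Y := by positivity
  have h1 : ∀ l : ℕ, max 0 (f l) ≤ max 0 (Y - 2 * (l : ℤ)) := by
    intro l
    rcases le_total l (2 * X + 64) with h2 | h2
    · apply max_le_max le_rfl
      have h3 : Nat.log 2 l ≤ Nat.log 2 (2 * X + 64) := Nat.log_mono_right h2
      have h4 := hf l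
      have h5 : (Nat.log 2 l : ℤ) ≤ Nat.log 2 (2 * X + 64) := by exact_mod_cast h3
      rw [hY]; linarith
    · have h3 := six_log (l := l) (by omega)
      have h4 := hf l
      have h5 : f l ≤ 0 := by
        have : (6 : ℤ) * (Nat.log 2 l + 1) ≤ l := by exact_mod_cast h3
        have h6 : (2 : ℤ) * X + 64 ≤ l := by exact_mod_cast h2
        linarith
      rw [max_eq_left h5]
      exact le_max_left _ _
  have h2 : ∑ l ∈ range L, max 0 (f l) ≤ ∑ l ∈ range L, max 0 (Y - 2 * (l : ℤ)) :=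
    sum_le_sum fun l _ => h1 l
  have h5 := sum_trunc2_le Y hY0 L
  linarith

lemma ev_log1 (C D : ℕ) (δ : ℝ) (hδ : 0 < δ) :
    ∀ᶠ u : ℕ in Filter.atTop, (C : ℝ) * (Nat.log 2 (D * u + D) + 1) ≤ δ * u := by
  filter_upwards [eventually_log C D δ hδ, Filter.eventually_ge_atTop 1] with u h1 hu
  have hu' : (1 : ℝ) ≤ u := by exact_mod_cast hu
  have h2 : (0 : ℝ) ≤ (C : ℝ) * (Nat.log 2 (D * u + D) + 1) := by positivity
  have h3 : (C : ℝ) * (Nat.log 2 (D * u + D) + 1) * u ≤ δ * u * u := by nlinarith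
  exact le_of_mul_le_mul_right h3 (by linarith)

/-- the natural number `⌈max 0 η * u⌉₊ + logs`, growth -/
lemma y_growth (η : ℝ) (a : ℕ) (d : ℝ) (hd : 0 < d) :
    ∀ᶠ u : ℕ in Filter.atTop,
      ((⌈max 0 η * u⌉₊ : ℝ) + 3 * (Nat.log 2 (2 * (⌈max 0 η * u⌉₊ + a * u) + 64) + 1)) ≤
        (max 0 η + d) * u := by
  set A : ℝ := max 0 η with hA
  have hA0 : 0 ≤ A := le_max_left _ _
  set D : ℕ := 2 * (⌈A⌉₊ + 1 + a) + 64 with hD
  filter_upwards [ev_log1 3 D (d / 2) (by linarith), Filter.eventually_ge_atTop ⌈2 / d⌉₊,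
    Filter.eventually_ge_atTop 1] with u h1 h2 h3
  have h3' : (1 : ℝ) ≤ u := by exact_mod_cast h3
  have hu' : 2 / d ≤ u := le_trans (Nat.le_ceil _) (by exact_mod_cast h2)
  rw [div_le_iff₀ hd] at hu'
  have h4 : (⌈A * u⌉₊ : ℝ) < A * u + 1 := Nat.ceil_lt_add_one (by positivity)
  have h5 : ⌈A * u⌉₊ ≤ ⌈A⌉₊ * u := by
    apply Nat.ceil_le.2
    push_cast
    exact mul_le_mul_of_nonneg_right (Nat.le_ceil A) (by positivity)
  have h6 : 2 * (⌈A * u⌉₊ + a * u) + 64 ≤ D * u + D := by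
    rw [hD]
    nlinarith
  have h7 : (Nat.log 2 (2 * (⌈A * u⌉₊ + a * u) + 64) : ℝ) ≤ Nat.log 2 (D * u + D) := by
    exact_mod_cast Nat.log_mono_right h6
  push_cast at h1
  nlinarith

/-- tolls of the first kind -/
lemma low_tollA (η : ℝ) (a : ℕ) (F : ℕ → ℕ → ℤ)
    (hF : ∀ u : ℕ, 1 ≤ u → ∀ l : ℕ, a * u ≤ l →
      (F u l : ℝ) ≤ η * u + a * u + 3 * (Nat.log 2 l + 1) - l)
    (hF0 : ∀ u : ℕ, ∀ l : ℕ, l < a * u → F u l ≤ 0) :
    Low (fun u L => -((∑ l ∈ range L, max 0 (F u l) : ℤ) : ℝ)) (-((max 0 η) ^ 2 / 2)) := by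
  refine low_toll1 (y := fun u => ((⌈max 0 η * u⌉₊ : ℝ) +
    3 * (Nat.log 2 (2 * (⌈max 0 η * u⌉₊ + a * u) + 64) + 1))) (le_max_left _ _)
    (fun u => by positivity) (fun d hd => y_growth η a d hd) ?_
  filter_upwards [Filter.eventually_ge_atTop 1] with u hu L
  have h := toll_gen (a * u) ⌈max 0 η * u⌉₊ L (F u) (fun l hl => by
    have h1 := hF u hu l hl
    have h2 : η * u ≤ max 0 η * u := mul_le_mul_of_nonneg_right (le_max_right _ _) (by positivity)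
    have h3 : max 0 η * u ≤ (⌈max 0 η * u⌉₊ : ℝ) := Nat.le_ceil _
    have h4 : (F u l : ℝ) ≤ ((⌈max 0 η * u⌉₊ + (a * u : ℕ) + 3 * (Nat.log 2 l + 1) - l : ℤ) : ℝ) := by
      push_cast; linarith
    exact_mod_cast h4) (hF0 u)
  have h' : ((2 * ∑ l ∈ range L, max 0 (F u l) : ℤ) : ℝ) ≤
    ((((⌈max 0 η * u⌉₊ : ℤ) + 3 * (Nat.log 2 (2 * (⌈max 0 η * u⌉₊ + a * u) + 64) + 1)) *
        ((⌈max 0 η * u⌉₊ : ℤ) + 3 * (Nat.log 2 (2 * (⌈max 0 η * u⌉₊ + a * u) + 64) + 1) + 1) : ℤ) : ℝ) := by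
    exact_mod_cast h
  push_cast at h' ⊢
  linarith

/-- tolls of the second kind -/
lemma low_tollB (η : ℝ) (F : ℕ → ℕ → ℤ)
    (hF : ∀ u : ℕ, 1 ≤ u → ∀ l : ℕ,
      (F u l : ℝ) ≤ η * u + 3 * (Nat.log 2 l + 1) - 2 * l) :
    Low (fun u L => -((∑ l ∈ range L, max 0 (F u l) : ℤ) : ℝ)) (-((max 0 η) ^ 2 / 4)) := by
  refine low_toll2 (y := fun u => ((⌈max 0 η * u⌉₊ : ℝ) +
    3 * (Nat.log 2 (2 * (⌈max 0 η * u⌉₊ + 0 * u) + 64) + 1))) (le_max_left _ _)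
    (fun u => by positivity) (fun d hd => y_growth η 0 d hd) ?_
  filter_upwards [Filter.eventually_ge_atTop 1] with u hu L
  have h := toll_gen2 ⌈max 0 η * u⌉₊ L (F u) (fun l => by
    have h1 := hF u hu l
    have h2 : η * u ≤ max 0 η * u := mul_le_mul_of_nonneg_right (le_max_right _ _) (by positivity)
    have h3 : max 0 η * u ≤ (⌈max 0 η * u⌉₊ : ℝ) := Nat.le_ceil _
    have h4 : (F u l : ℝ) ≤ ((⌈max 0 η * u⌉₊ + 3 * (Nat.log 2 l + 1) - 2 * l : ℤ) : ℝ) := by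
      push_cast; linarith
    exact_mod_cast h4)
  have h' : ((4 * ∑ l ∈ range L, max 0 (F u l) : ℤ) : ℝ) ≤
    ((((⌈max 0 η * u⌉₊ : ℤ) + 3 * (Nat.log 2 (2 * ⌈max 0 η * u⌉₊ + 64) + 1) + 1) ^ 2 : ℤ) : ℝ) := by
    exact_mod_cast h
  have e : 2 * (⌈max 0 η * (u : ℝ)⌉₊ + 0 * u) + 64 = 2 * ⌈max 0 η * (u : ℝ)⌉₊ + 64 := by ring
  push_cast at h' ⊢
  rw [e]
  linarith

/-! ### Riemann sums -/

lemma riemann_anti (φ : ℝ → ℝ) (hφ : Antitone φ) (a b : ℕ) (hab : a ≤ b) (u : ℕ) (hu : 1 ≤ u) :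
    (u : ℝ) ^ 2 * ∫ x in (a : ℝ)..b, φ x ≤
      ∑ n ∈ Ico (a * u) (b * u), (u : ℝ) * φ ((n : ℝ) / u) := by
  have hu0 : (0 : ℝ) < u := by exact_mod_cast hu
  have hf : AntitoneOn (fun x : ℝ => (u : ℝ) * φ (x / u))
      (Set.Icc ((a * u : ℕ) : ℝ) ((b * u : ℕ) : ℝ)) := by
    intro x _ y _ hxy
    exact mul_le_mul_of_nonneg_left (hφ (div_le_div_of_nonneg_right hxy hu0.le)) hu0.le
  have h1 := hf.integral_le_sum_Ico (Nat.mul_le_mul_right u hab)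
  refine le_trans (le_of_eq ?_) h1
  rw [intervalIntegral.integral_const_mul, intervalIntegral.integral_comp_div _ hu0.ne']
  push_cast
  rw [mul_div_assoc, div_self hu0.ne', mul_one, mul_div_assoc, div_self hu0.ne', mul_one,
    smul_eq_mul]
  ring

lemma riemann_mono (ψ : ℝ → ℝ) (hψ : Monotone ψ) (b : ℕ) (u : ℕ) (hu : 1 ≤ u) :
    (u : ℝ) ^ 2 * ∫ x in (0 : ℝ)..b, ψ x ≤
      ∑ n ∈ range (b * u), (u : ℝ) * ψ (((n : ℝ) + 1) / u) := by
  have hu0 : (0 : ℝ) < u := by exact_mod_cast hu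
  have hf : MonotoneOn (fun x : ℝ => (u : ℝ) * ψ (x / u))
      (Set.Icc ((0 : ℕ) : ℝ) ((b * u : ℕ) : ℝ)) := by
    intro x _ y _ hxy
    exact mul_le_mul_of_nonneg_left (hψ (div_le_div_of_nonneg_right hxy hu0.le)) hu0.le
  have h1 := hf.integral_le_sum_Ico (Nat.zero_le _)
  rw [Nat.Ico_zero_eq_range] at h1
  have h2 : ∑ n ∈ range (b * u), (u : ℝ) * ψ (((n + 1 : ℕ) : ℝ) / u) =
      ∑ n ∈ range (b * u), (u : ℝ) * ψ (((n : ℝ) + 1) / u) := by
    apply sum_congr rfl; intro n _; push_cast; rfl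
  rw [← h2]
  refine le_trans (le_of_eq ?_) h1
  rw [intervalIntegral.integral_const_mul, intervalIntegral.integral_comp_div _ hu0.ne']
  push_cast
  rw [zero_div, mul_div_assoc, div_self hu0.ne', mul_one, smul_eq_mul]
  ring

lemma low_anti (φ : ℝ → ℝ) (hφ : Antitone φ) (a b : ℕ) (hab : a ≤ b) (C D : ℕ) (G : ℕ → ℕ → ℤ)
    (hG : ∀ u : ℕ, 1 ≤ u → ∀ n : ℕ, a * u ≤ n → n < b * u →
      (u : ℝ) * φ ((n : ℝ) / u) - C * (Nat.log 2 (D * u + D) + 1) ≤ (G u n : ℝ)) :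
    Low (fun u _ => ((∑ n ∈ Ico (a * u) (b * u), G u n : ℤ) : ℝ)) (∫ x in (a : ℝ)..b, φ x) := by
  refine Low.of_err (C * b) D fun u hu L => ?_
  have h1 := riemann_anti φ hφ a b hab u hu
  have h2 : ∑ n ∈ Ico (a * u) (b * u),
      ((u : ℝ) * φ ((n : ℝ) / u) - C * (Nat.log 2 (D * u + D) + 1)) ≤
      ∑ n ∈ Ico (a * u) (b * u), (G u n : ℝ) :=
    sum_le_sum fun n hn => hG u hu n (mem_Ico.1 hn).1 (mem_Ico.1 hn).2
  rw [sum_sub_distrib, sum_const, Nat.card_Ico, nsmul_eq_mul] at h2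
  have h3 : ((b * u - a * u : ℕ) : ℝ) ≤ b * (u + 1) := by
    have : b * u - a * u ≤ b * (u + 1) := by
      have : b * u ≤ b * (u + 1) := Nat.mul_le_mul_left b (by omega)
      omega
    exact_mod_cast this
  have h4 : (0 : ℝ) ≤ C * (Nat.log 2 (D * u + D) + 1) := by positivity
  push_cast
  nlinarith

lemma low_mono (ψ : ℝ → ℝ) (hψ : Monotone ψ) (b : ℕ) (C D : ℕ) (G : ℕ → ℕ → ℤ)
    (hG : ∀ u : ℕ, 1 ≤ u → ∀ n : ℕ, n < b * u →
      (u : ℝ) * ψ (((n : ℝ) + 1) / u) - C * (Nat.log 2 (D * u + D) + 1) ≤ (G u n : ℝ)) :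
    Low (fun u _ => ((∑ n ∈ range (b * u), G u n : ℤ) : ℝ)) (∫ x in (0 : ℝ)..b, ψ x) := by
  refine Low.of_err (C * b) D fun u hu L => ?_
  have h1 := riemann_mono ψ hψ b u hu
  have h2 : ∑ n ∈ range (b * u),
      ((u : ℝ) * ψ (((n : ℝ) + 1) / u) - C * (Nat.log 2 (D * u + D) + 1)) ≤
      ∑ n ∈ range (b * u), (G u n : ℝ) :=
    sum_le_sum fun n hn => hG u hu n (mem_range.1 hn)
  rw [sum_sub_distrib, sum_const, card_range, nsmul_eq_mul] at h2
  have h3 : ((b * u : ℕ) : ℝ) ≤ b * (u + 1) := by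
    push_cast
    have : (0 : ℝ) ≤ b := by positivity
    nlinarith
  have h4 : (0 : ℝ) ≤ C * (Nat.log 2 (D * u + D) + 1) := by positivity
  push_cast
  nlinarith

lemma low_lin {f : ℕ → ℕ → ℝ} (C : ℕ) (h : ∀ u : ℕ, 1 ≤ u → ∀ L : ℕ, -(C * (u + 1) : ℝ) ≤ f u L) :
    Low f 0 := by
  refine Low.of_err C 1 fun u hu L => ?_
  have h1 := h u hu L
  have h2 : (0 : ℝ) ≤ (C : ℝ) * (u + 1) * Nat.log 2 (1 * u + 1) := by positivity
  nlinarith

/-! ### the pieces -/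

lemma lh_le (l : ℕ) : (lh l : ℝ) ≤ l := by
  have := v2f_le l
  unfold lh; unfold v2f at this
  exact_mod_cast this

lemma lh_ge (l : ℕ) : (l : ℝ) - (Nat.log 2 l + 1) ≤ lh l := by
  have := v2f_ge l
  unfold lh; unfold v2f at this
  have h : (l : ℝ) ≤ (padicValNat 2 l.factorial : ℝ) + (Nat.log 2 l + 1) := by exact_mod_cast this
  rw [Int.cast_natCast]
  linarith

lemma lh_ge' (l m : ℕ) (h : l ≤ m) : (l : ℝ) - (Nat.log 2 m + 1) ≤ lh l := by
  have h1 := lh_ge l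
  have h2 : (Nat.log 2 l : ℝ) ≤ Nat.log 2 m := by exact_mod_cast Nat.log_mono_right h
  linarith

lemma fl_ge (x : ℝ) : x - 1 ≤ (⌊x⌋ : ℝ) := (Int.sub_one_lt_floor x).le

lemma fl_le (x : ℝ) : (⌊x⌋ : ℝ) ≤ x := Int.floor_le x

lemma mul_min' (u : ℝ) (hu : 0 ≤ u) (a b : ℝ) : u * min a b = min (u * a) (u * b) :=
  mul_min_of_nonneg a b hu

/-- G-rows below `a1 u` -/
lemma low_G1 (S : Shape) (ξ : Par ℝ) :
    Low (fun u _ => ((∑ n ∈ Ico (0 * u) (S.a1 * u), piG S u (parOf ξ u) n : ℤ) : ℝ))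
      (∫ x in ((0 : ℕ) : ℝ)..(S.a1 : ℝ), min ξ.xT (ξ.xQ - 4 * x)) := by
  refine low_anti (fun x => min ξ.xT (ξ.xQ - 4 * x)) ?_ 0 S.a1 (Nat.zero_le _) 1 1
    (fun u n => piG S u (parOf ξ u) n) ?_
  · intro x y hxy
    exact min_le_min le_rfl (by linarith)
  · intro u hu n _ hn
    have hu0 : (0 : ℝ) < u := by exact_mod_cast hu
    simp only [piG, if_pos hn, parOf]
    rw [mul_min' _ hu0.le]
    have e : (u : ℝ) * (ξ.xQ - 4 * ((n : ℝ) / u)) = ξ.xQ * u - 4 * n := by field_simp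
    rw [e, mul_comm (u : ℝ) ξ.xT]
    push_cast
    have h1 := fl_ge (ξ.xT * u)
    have h2 := fl_ge (ξ.xQ * u)
    have h3 : (0 : ℝ) ≤ Nat.log 2 (1 * u + 1) := by positivity
    rw [le_min_iff]
    constructor
    · have := min_le_left (ξ.xT * u) (ξ.xQ * u - 4 * n); linarith
    · have := min_le_right (ξ.xT * u) (ξ.xQ * u - 4 * n); linarith

/-- G-rows above `a1 u` -/
lemma low_G2 (S : Shape) (ξ : Par ℝ) (hS : S.a1 ≤ S.B) :
    Low (fun u _ => ((∑ n ∈ Ico (S.a1 * u) (S.B * u), piG S u (parOf ξ u) n : ℤ) : ℝ))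
      (∫ x in (S.a1 : ℝ)..(S.B : ℝ),
        min ξ.xT (min (ξ.xR - 3 * x + S.a2 + S.r1) (ξ.xQ - 4 * x))) := by
  refine low_anti (fun x => min ξ.xT (min (ξ.xR - 3 * x + S.a2 + S.r1) (ξ.xQ - 4 * x))) ?_
    S.a1 S.B hS 4 (S.a2 + S.r1 + 1) (fun u n => piG S u (parOf ξ u) n) ?_
  · intro x y hxy
    exact min_le_min le_rfl (min_le_min (by linarith) (by linarith))
  · intro u hu n hn _
    have hu0 : (0 : ℝ) < u := by exact_mod_cast hu
    simp only [piG, if_neg (not_lt.2 hn), parOf]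
    rw [mul_min' _ hu0.le, mul_min' _ hu0.le]
    have e : (u : ℝ) * (ξ.xQ - 4 * ((n : ℝ) / u)) = ξ.xQ * u - 4 * n := by field_simp
    have e2 : (u : ℝ) * (ξ.xR - 3 * ((n : ℝ) / u) + S.a2 + S.r1) =
        ξ.xR * u - 3 * n + S.a2 * u + S.r1 * u := by field_simp
    rw [e, e2, mul_comm (u : ℝ) ξ.xT]
    push_cast
    have h1 := fl_ge (ξ.xT * u)
    have h2 := fl_ge (ξ.xQ * u)
    have h2' := fl_ge (ξ.xR * u)
    set Lg : ℝ := (Nat.log 2 ((S.a2 + S.r1 + 1) * u + (S.a2 + S.r1 + 1)) : ℝ) with hLg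
    have h3 : (0 : ℝ) ≤ Lg := by positivity
    have h4 : ((S.a2 * u : ℕ) : ℝ) - (Lg + 1) ≤ lh (S.a2 * u) :=
      lh_ge' _ _ (by nlinarith)
    have h5 : ((S.r1 * u : ℕ) : ℝ) - (Lg + 1) ≤ lh (S.r1 * u) :=
      lh_ge' _ _ (by nlinarith)
    push_cast at h4 h5
    have m1 := min_le_left (ξ.xT * u) (min (ξ.xR * u - 3 * n + S.a2 * u + S.r1 * u) (ξ.xQ * u - 4 * n))
    have m2 := min_le_right (ξ.xT * u) (min (ξ.xR * u - 3 * n + S.a2 * u + S.r1 * u) (ξ.xQ * u - 4 * n))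
    have m3 := min_le_left (ξ.xR * u - 3 * n + S.a2 * u + S.r1 * u) (ξ.xQ * u - 4 * n)
    have m4 := min_le_right (ξ.xR * u - 3 * n + S.a2 * u + S.r1 * u) (ξ.xQ * u - 4 * n)
    rw [le_min_iff, le_min_iff]
    refine ⟨?_, ?_, ?_⟩ <;> linarith

/-- the extra G-rows -/
lemma low_G3 (S : Shape) (c : ℕ) (ξ : Par ℝ) :
    Low (fun u _ => ((∑ n ∈ Ico (S.B * u) (S.B * u + c), piG S u (parOf ξ u) n : ℤ) : ℝ)) 0 := by
  set M : ℕ := ⌈|ξ.xT| + |ξ.xR| + |ξ.xQ|⌉₊ + 4 * (S.B + c) + 4 with hM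
  refine low_lin (c * M) fun u hu L => ?_
  have hu0 : (1 : ℝ) ≤ u := by exact_mod_cast hu
  have hA := Nat.le_ceil (|ξ.xT| + |ξ.xR| + |ξ.xQ|)
  have hM' : (M : ℝ) = (⌈|ξ.xT| + |ξ.xR| + |ξ.xQ|⌉₊ : ℝ) + 4 * (S.B + c) + 4 := by
    rw [hM]; push_cast; ring
  have a1 := abs_nonneg ξ.xT
  have a2 := abs_nonneg ξ.xR
  have a3 := abs_nonneg ξ.xQ
  have b1 := neg_abs_le ξ.xT
  have b2 := neg_abs_le ξ.xR
  have b3 := neg_abs_le ξ.xQ
  have key : ∀ n ∈ Ico (S.B * u) (S.B * u + c), -(M * u : ℝ) ≤ (piG S u (parOf ξ u) n : ℝ) := by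
    intro n hn
    have hn2 : (n : ℝ) ≤ (S.B + c) * u := by
      have h1 := (mem_Ico.1 hn).2
      have h2 : (n : ℝ) ≤ S.B * u + c := by exact_mod_cast h1.le
      have : (0 : ℝ) ≤ c := by positivity
      nlinarith
    have h1 := fl_ge (ξ.xT * u)
    have h2 := fl_ge (ξ.xQ * u)
    have h2' := fl_ge (ξ.xR * u)
    have h4 : (0 : ℝ) ≤ lh (S.a2 * u) := by unfold lh; positivity
    have h5 : (0 : ℝ) ≤ lh (S.r1 * u) := by unfold lh; positivity
    have c1 : -(M * u : ℝ) ≤ ξ.xT * u - 1 := by rw [hM']; nlinarith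
    have c2 : -(M * u : ℝ) ≤ ξ.xR * u - 3 * n - 2 := by rw [hM']; nlinarith
    have c3 : -(M * u : ℝ) ≤ ξ.xQ * u - 4 * n - 1 := by rw [hM']; nlinarith
    unfold piG
    split_ifs with h
    · simp only [parOf]; push_cast
      rw [le_min_iff]; constructor <;> linarith
    · simp only [parOf]; push_cast
      rw [le_min_iff, le_min_iff]; refine ⟨?_, ?_, ?_⟩ <;> linarith
  have h2 : ∑ n ∈ Ico (S.B * u) (S.B * u + c), -(M * u : ℝ) ≤
      ∑ n ∈ Ico (S.B * u) (S.B * u + c), (piG S u (parOf ξ u) n : ℝ) := sum_le_sum key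
  rw [sum_const, Nat.card_Ico, Nat.add_sub_cancel_left, nsmul_eq_mul] at h2
  push_cast
  have : (0 : ℝ) ≤ c * M := by positivity
  nlinarith

/-- the `w`-rows -/
lemma low_W (S : Shape) (ξ : Par ℝ) :
    Low (fun u _ => ((∑ n ∈ Ico (0 * u) (S.w * u), piW (parOf ξ u) n : ℤ) : ℝ))
      (∫ x in ((0 : ℕ) : ℝ)..(S.w : ℝ), min ξ.xTH (ξ.xQH - 4 * x)) := by
  refine low_anti (fun x => min ξ.xTH (ξ.xQH - 4 * x)) ?_ 0 S.w (Nat.zero_le _) 1 1
    (fun u n => piW (parOf ξ u) n) ?_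
  · intro x y hxy
    exact min_le_min le_rfl (by linarith)
  · intro u hu n _ hn
    have hu0 : (0 : ℝ) < u := by exact_mod_cast hu
    simp only [piW, parOf]
    rw [mul_min' _ hu0.le]
    have e : (u : ℝ) * (ξ.xQH - 4 * ((n : ℝ) / u)) = ξ.xQH * u - 4 * n := by field_simp
    rw [e, mul_comm (u : ℝ) ξ.xTH]
    push_cast
    have h1 := fl_ge (ξ.xTH * u)
    have h2 := fl_ge (ξ.xQH * u)
    have h3 : (0 : ℝ) ≤ Nat.log 2 (1 * u + 1) := by positivity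
    rw [le_min_iff]
    constructor
    · have := min_le_left (ξ.xTH * u) (ξ.xQH * u - 4 * n); linarith
    · have := min_le_right (ξ.xTH * u) (ξ.xQH * u - 4 * n); linarith

/-- constant rows -/
lemma low_const (m : ℕ) (x : ℝ) (X : ℕ → ℤ) (hX : ∀ u : ℕ, x * u - 1 ≤ (X u : ℝ)) :
    Low (fun u _ => ((((m * u : ℕ) : ℤ) * X u : ℤ) : ℝ)) (m * x) := by
  refine Low.of_err m 1 fun u hu L => ?_
  have hu0 : (1 : ℝ) ≤ u := by exact_mod_cast hu
  have h1 := hX u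
  have h2 : (0 : ℝ) ≤ (m : ℝ) * (u + 1) * Nat.log 2 (1 * u + 1) := by positivity
  have h3 : (0 : ℝ) ≤ (m : ℝ) * u := by positivity
  have h4 : (m : ℝ) * u * (x * u - 1) ≤ (m : ℝ) * u * X u := mul_le_mul_of_nonneg_left h1 h3
  have h5 : (0 : ℝ) ≤ m := by positivity
  push_cast
  nlinarith

lemma min_fl (x y : ℝ) (u : ℕ) : min x y * u - 1 ≤ ((min ⌊x * u⌋ ⌊y * u⌋ : ℤ) : ℝ) := by
  have h1 := fl_ge (x * u)
  have h2 := fl_ge (y * u)
  have hu : (0 : ℝ) ≤ u := by positivity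
  have h3 : min x y * u ≤ x * u := mul_le_mul_of_nonneg_right (min_le_left _ _) hu
  have h4 : min x y * u ≤ y * u := mul_le_mul_of_nonneg_right (min_le_right _ _) hu
  push_cast
  rw [le_min_iff]; constructor <;> linarith

/-- the loss from the extra rows -/
lemma low_c (c : ℕ) (ξ : Par ℝ) :
    Low (fun u _ => ((-((c : ℤ) * max (parOf ξ u).xT (parOf ξ u).xTH) : ℤ) : ℝ)) 0 := by
  set M : ℕ := ⌈|ξ.xT| + |ξ.xTH|⌉₊ with hM
  refine low_lin (c * M) fun u hu L => ?_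
  have hA := Nat.le_ceil (|ξ.xT| + |ξ.xTH|)
  rw [← hM] at hA
  have hu0 : (1 : ℝ) ≤ u := by exact_mod_cast hu
  have h1 := fl_le (ξ.xT * u)
  have h2 := fl_le (ξ.xTH * u)
  have a1 := abs_nonneg ξ.xT
  have a2 := abs_nonneg ξ.xTH
  have b1 := le_abs_self ξ.xT
  have b2 := le_abs_self ξ.xTH
  simp only [parOf]
  push_cast
  have h3 : max (⌊ξ.xT * u⌋ : ℝ) (⌊ξ.xTH * u⌋ : ℝ) ≤ M * u := by
    rw [max_le_iff]; constructor <;> nlinarith
  have h4 : (c : ℝ) * max (⌊ξ.xT * u⌋ : ℝ) (⌊ξ.xTH * u⌋ : ℝ) ≤ c * (M * u) :=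
    mul_le_mul_of_nonneg_left h3 (by positivity)
  have : (0 : ℝ) ≤ c * M := by positivity
  nlinarith

/-! ### tolls -/

lemma low_sT (ξ : Par ℝ) :
    Low (fun u L => -((∑ l ∈ range L, sT (parOf ξ u) l : ℤ) : ℝ)) (-((max 0 ξ.xT) ^ 2 / 2)) := by
  refine low_tollA ξ.xT 0 (fun u l => (parOf ξ u).xT + lg l - lh l) ?_ (fun u l hl => by omega)
  intro u hu l _
  have h1 := fl_le (ξ.xT * u)
  have h2 := lh_ge l
  simp only [parOf, lg]
  push_cast
  linarith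

lemma low_sQ (ξ : Par ℝ) :
    Low (fun u L => -((∑ l ∈ range L, sQ (parOf ξ u) l : ℤ) : ℝ))
      (-((max 0 (ξ.xQ + ξ.s)) ^ 2 / 2)) := by
  refine low_tollA (ξ.xQ + ξ.s) 0 (fun u l => (parOf ξ u).xQ + (parOf ξ u).s - lh l) ?_
    (fun u l hl => by omega)
  intro u hu l _
  have h1 := fl_le (ξ.xQ * u)
  have h1' := fl_le (ξ.s * u)
  have h2 := lh_ge l
  have h3 : (0 : ℝ) ≤ Nat.log 2 l := by positivity
  simp only [parOf]
  push_cast
  linarith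

lemma low_sR (S : Shape) (ξ : Par ℝ) :
    Low (fun u L => -((∑ l ∈ range L, sR S u (parOf ξ u) l : ℤ) : ℝ))
      (-((max 0 (ξ.xR + ξ.r - S.a1)) ^ 2 / 2)) := by
  have h := low_tollA (ξ.xR + ξ.r - S.a1) S.a1
    (fun u l => if l < S.a1 * u then 0 else (parOf ξ u).xR + (parOf ξ u).r - lh l) ?_
    (fun u l hl => by simp only [if_pos hl]; exact le_rfl)
  · refine h.mono (Filter.Eventually.of_forall fun u L => le_of_eq ?_)
    congr 2
    apply sum_congr rfl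
    intro l _
    unfold sR
    split_ifs with h
    · simp
    · rfl
  · intro u hu l hl
    have h1 := fl_le (ξ.xR * u)
    have h1' := fl_le (ξ.r * u)
    have h2 := lh_ge l
    have h3 : (0 : ℝ) ≤ Nat.log 2 l := by positivity
    simp only [if_neg (not_lt.2 hl), parOf]
    push_cast
    linarith

lemma low_sTH (ξ : Par ℝ) :
    Low (fun u L => -((∑ l ∈ range L, sTH (parOf ξ u) l : ℤ) : ℝ))
      (-((max 0 (ξ.xTH + ξ.h)) ^ 2 / 4)) := by
  refine low_tollB (ξ.xTH + ξ.h) (fun u l => (parOf ξ u).xTH + (parOf ξ u).h + lg l - l - lh l) ?_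
  intro u hu l
  have h1 := fl_le (ξ.xTH * u)
  have h1' := fl_le (ξ.h * u)
  have h2 := lh_ge l
  simp only [parOf, lg]
  push_cast
  linarith

lemma low_sQH (ξ : Par ℝ) :
    Low (fun u L => -((∑ l ∈ range L, sQH (parOf ξ u) l : ℤ) : ℝ))
      (-((max 0 (ξ.xQH + ξ.h')) ^ 2 / 4)) := by
  refine low_tollB (ξ.xQH + ξ.h') (fun u l => (parOf ξ u).xQH + (parOf ξ u).h' - l - lh l) ?_
  intro u hu l
  have h1 := fl_le (ξ.xQH * u)
  have h1' := fl_le (ξ.h' * u)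
  have h2 := lh_ge l
  have h3 : (0 : ℝ) ≤ Nat.log 2 l := by positivity
  simp only [parOf]
  push_cast
  linarith

/-! ### columns -/

lemma low_kap (S : Shape) :
    Low (fun u _ => ((∑ _j ∈ range (S.k * u), -kap S u : ℤ) : ℝ))
      (-((S.k : ℝ) * (2 * S.i1 + S.a1 + S.a2 + S.r1))) := by
  intro d hd
  filter_upwards [] with u L
  rw [sum_const, card_range, nsmul_eq_mul]
  have h1 := lh_le (S.a1 * u)
  have h2 := lh_le (S.a2 * u)
  have h3 := lh_le (S.i1 * u)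
  have h4 := lh_le (S.r1 * u)
  have h5 : ((kap S u : ℤ) : ℝ) ≤ (2 * S.i1 + S.a1 + S.a2 + S.r1) * u := by
    unfold kap
    push_cast at h1 h2 h3 h4 ⊢
    linarith
  have h6 : (0 : ℝ) ≤ (S.k : ℝ) * u := by positivity
  have h7 : (S.k : ℝ) * u * (kap S u : ℝ) ≤ (S.k : ℝ) * u * ((2 * S.i1 + S.a1 + S.a2 + S.r1) * u) :=
    mul_le_mul_of_nonneg_left h5 h6
  have h8 : (0 : ℝ) ≤ d * (u : ℝ) ^ 2 := by positivity
  push_cast
  nlinarith

lemma low_base (S : Shape) :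
    Low (fun u _ => ((∑ j ∈ Ico (0 * u) (S.k * u), -(lh (S.a1 * u + j) - lh (S.a1 * u)) : ℤ) : ℝ))
      (-((S.k : ℝ) ^ 2 / 2)) := by
  have h := low_anti (fun x => -x) (fun x y hxy => by simpa using hxy) 0 S.k (Nat.zero_le _) 1
    (S.a1 + 1) (fun u j => -(lh (S.a1 * u + j) - lh (S.a1 * u))) ?_
  · have e : ∫ x in ((0 : ℕ) : ℝ)..(S.k : ℝ), -x = -((S.k : ℝ) ^ 2 / 2) := by
      rw [intervalIntegral.integral_neg, integral_id]; push_cast; ring
    rw [e] at h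
    exact h
  · intro u hu n _ _
    have hu0 : (0 : ℝ) < u := by exact_mod_cast hu
    have h1 := lh_le (S.a1 * u + n)
    have h2 := lh_ge' (S.a1 * u) ((S.a1 + 1) * u + (S.a1 + 1)) (by nlinarith)
    have e : (u : ℝ) * (-((n : ℝ) / u)) = -n := by field_simp
    rw [e]
    push_cast at h1 h2 ⊢
    linarith

lemma low_neglh (m : ℕ) :
    Low (fun u _ => ((∑ j ∈ Ico (0 * u) (m * u), -lh j : ℤ) : ℝ)) (-((m : ℝ) ^ 2 / 2)) := by
  have h := low_anti (fun x => -x) (fun x y hxy => by simpa using hxy) 0 m (Nat.zero_le _) 1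
    1 (fun _ j => -lh j) ?_
  · have e : ∫ x in ((0 : ℕ) : ℝ)..(m : ℝ), -x = -((m : ℝ) ^ 2 / 2) := by
      rw [intervalIntegral.integral_neg, integral_id]; push_cast; ring
    rw [e] at h
    exact h
  · intro u hu n _ _
    have hu0 : (0 : ℝ) < u := by exact_mod_cast hu
    have h1 := lh_le n
    have e : (u : ℝ) * (-((n : ℝ) / u)) = -n := by field_simp
    rw [e]
    have h3 : (0 : ℝ) ≤ Nat.log 2 (1 * u + 1) := by positivity
    push_cast at h1 ⊢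
    linarith

lemma low_minT (m : ℕ) (ξ : Par ℝ) :
    Low (fun u _ => ((∑ j ∈ Ico (0 * u) (m * u), min 0 ((parOf ξ u).h - j) : ℤ) : ℝ))
      (∫ x in ((0 : ℕ) : ℝ)..(m : ℝ), min 0 (ξ.h - x)) := by
  refine low_anti (fun x => min 0 (ξ.h - x)) (fun x y hxy => min_le_min le_rfl (by linarith))
    0 m (Nat.zero_le _) 1 1 (fun u j => min 0 ((parOf ξ u).h - j)) ?_
  intro u hu n _ _
  have hu0 : (0 : ℝ) < u := by exact_mod_cast hu
  simp only [parOf]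
  rw [mul_min' _ hu0.le]
  have e : (u : ℝ) * (ξ.h - (n : ℝ) / u) = ξ.h * u - n := by field_simp
  rw [e, mul_zero]
  have h1 := fl_ge (ξ.h * u)
  have h3 : (0 : ℝ) ≤ Nat.log 2 (1 * u + 1) := by positivity
  have m1 := min_le_left 0 (ξ.h * u - n)
  have m2 := min_le_right 0 (ξ.h * u - n)
  push_cast
  rw [le_min_iff]; constructor <;> linarith

lemma low_minQ (m : ℕ) (ξ : Par ℝ) :
    Low (fun u _ => ((∑ j ∈ Ico (0 * u) (m * u),
        min (parOf ξ u).s ((parOf ξ u).h' - j) : ℤ) : ℝ))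
      (∫ x in ((0 : ℕ) : ℝ)..(m : ℝ), min ξ.s (ξ.h' - x)) := by
  refine low_anti (fun x => min ξ.s (ξ.h' - x)) (fun x y hxy => min_le_min le_rfl (by linarith))
    0 m (Nat.zero_le _) 1 1 (fun u j => min (parOf ξ u).s ((parOf ξ u).h' - j)) ?_
  intro u hu n _ _
  have hu0 : (0 : ℝ) < u := by exact_mod_cast hu
  simp only [parOf]
  rw [mul_min' _ hu0.le]
  have e : (u : ℝ) * (ξ.h' - (n : ℝ) / u) = ξ.h' * u - n := by field_simp
  rw [e, mul_comm (u : ℝ) ξ.s]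
  have h1 := fl_ge (ξ.h' * u)
  have h2 := fl_ge (ξ.s * u)
  have h3 : (0 : ℝ) ≤ Nat.log 2 (1 * u + 1) := by positivity
  have m1 := min_le_left (ξ.s * u) (ξ.h' * u - n)
  have m2 := min_le_right (ξ.s * u) (ξ.h' * u - n)
  push_cast
  rw [le_min_iff]; constructor <;> linarith

lemma vb_ge (j m : ℕ) (h : j ≤ m) : (j : ℝ) - (Nat.log 2 m + 3) ≤ (vb (j / 2) : ℝ) := by
  have h1 := lh_ge' (j / 2) m (by omega)
  have h2 : (j : ℝ) - 1 ≤ 2 * ((j / 2 : ℕ) : ℝ) := by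
    have : j ≤ 2 * (j / 2) + 1 := by omega
    have h' : (j : ℝ) ≤ 2 * ((j / 2 : ℕ) : ℝ) + 1 := by exact_mod_cast this
    linarith
  have e : (vb (j / 2) : ℝ) = ((j / 2 : ℕ) : ℝ) + (lh (j / 2) : ℝ) - 1 := by
    unfold vb lh; push_cast; rfl
  rw [e]
  linarith

lemma low_minR (m : ℕ) (ξ : Par ℝ) :
    Low (fun u _ => ((∑ j ∈ range (m * u),
        min (parOf ξ u).r (min (vb (j / 2)) (vb (j / 2) + (parOf ξ u).h)) : ℤ) : ℝ))
      (∫ x in (0 : ℝ)..(m : ℝ), min ξ.r (min x (x + ξ.h))) := by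
  refine low_mono (fun x => min ξ.r (min x (x + ξ.h)))
    (fun x y hxy => min_le_min le_rfl (min_le_min hxy (by linarith))) m 5 (m + 1)
    (fun u j => min (parOf ξ u).r (min (vb (j / 2)) (vb (j / 2) + (parOf ξ u).h))) ?_
  intro u hu n hn
  have hu0 : (0 : ℝ) < u := by exact_mod_cast hu
  simp only [parOf]
  rw [mul_min' _ hu0.le, mul_min' _ hu0.le]
  have e : (u : ℝ) * (((n : ℝ) + 1) / u + ξ.h) = n + 1 + ξ.h * u := by field_simp
  have e2 : (u : ℝ) * (((n : ℝ) + 1) / u) = n + 1 := by field_simp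
  rw [e, e2, mul_comm (u : ℝ) ξ.r]
  have h1 := fl_ge (ξ.r * u)
  have h2 := fl_ge (ξ.h * u)
  have h4 := vb_ge n ((m + 1) * u + (m + 1)) (by nlinarith)
  set Lg : ℝ := (Nat.log 2 ((m + 1) * u + (m + 1)) : ℝ) with hLg
  have h3 : (0 : ℝ) ≤ Lg := by positivity
  have m1 := min_le_left (ξ.r * u) (min ((n : ℝ) + 1) (n + 1 + ξ.h * u))
  have m2 := min_le_right (ξ.r * u) (min ((n : ℝ) + 1) (n + 1 + ξ.h * u))
  have m3 := min_le_left ((n : ℝ) + 1) (n + 1 + ξ.h * u)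
  have m4 := min_le_right ((n : ℝ) + 1) (n + 1 + ξ.h * u)
  push_cast
  rw [le_min_iff, le_min_iff]; refine ⟨?_, ?_, ?_⟩ <;> linarith

/-! ### assembly -/

lemma Vlow_split (S : Shape) (u c : ℕ) (P : Par ℤ) (L : ℕ) (hS : S.a1 ≤ S.B) :
    Vlow S u c P L =
      (∑ n ∈ Ico (0 * u) (S.a1 * u), piG S u P n)
      + (∑ n ∈ Ico (S.a1 * u) (S.B * u), piG S u P n)
      + (∑ n ∈ Ico (S.B * u) (S.B * u + c), piG S u P n)
      + (((S.e1 + S.e2) * u : ℕ) : ℤ) * P.xT + ((S.e3 * u : ℕ) : ℤ) * min P.xT P.xQ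
      + (((S.h1 + S.h2) * u : ℕ) : ℤ) * P.xTH + ((S.h3 * u : ℕ) : ℤ) * min P.xTH P.xQH
      + (∑ m ∈ Ico (0 * u) (S.w * u), piW P m)
      + (-((c : ℤ) * max P.xT P.xTH))
      + (-(∑ l ∈ range L, sT P l)) + (-(∑ l ∈ range L, sR S u P l))
      + (-(∑ l ∈ range L, sQ P l)) + (-(∑ l ∈ range L, sTH P l)) + (-(∑ l ∈ range L, sQH P l))
      + (∑ _j ∈ range (S.k * u), -kap S u)
      + (∑ j ∈ range (S.k * u), min P.r (min (vb (j / 2)) (vb (j / 2) + P.h)))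
      + (∑ j ∈ Ico (0 * u) (S.k * u), -(lh (S.a1 * u + j) - lh (S.a1 * u)))
      + (∑ j ∈ Ico (0 * u) (S.q * u), -lh j)
      + (∑ j ∈ Ico (0 * u) (S.q * u), min 0 (P.h - j))
      + (∑ j ∈ Ico (0 * u) (S.g * u), -lh j)
      + (∑ j ∈ Ico (0 * u) (S.g * u), min P.s (P.h' - j)) := by
  have h1 : ∑ n ∈ range (S.B * u + c), piG S u P n =
      (∑ n ∈ Ico (0 * u) (S.a1 * u), piG S u P n)
      + (∑ n ∈ Ico (S.a1 * u) (S.B * u), piG S u P n)
      + (∑ n ∈ Ico (S.B * u) (S.B * u + c), piG S u P n) := by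
    rw [zero_mul, sum_Ico_consecutive _ (Nat.zero_le _) (Nat.mul_le_mul_right u hS),
      sum_Ico_consecutive _ (Nat.zero_le _) (Nat.le_add_right _ _), Nat.Ico_zero_eq_range]
  have h2 : tolls S u P L = (∑ l ∈ range L, sT P l) + (∑ l ∈ range L, sR S u P l)
      + (∑ l ∈ range L, sQ P l) + (∑ l ∈ range L, sTH P l) + (∑ l ∈ range L, sQH P l) := by
    unfold tolls
    simp only [sum_add_distrib]
  have h3 : sumCols S u P = (∑ _j ∈ range (S.k * u), -kap S u)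
      + (∑ j ∈ range (S.k * u), min P.r (min (vb (j / 2)) (vb (j / 2) + P.h)))
      + (∑ j ∈ range (S.k * u), -(lh (S.a1 * u + j) - lh (S.a1 * u)))
      + (∑ j ∈ range (S.q * u), -lh j)
      + (∑ j ∈ range (S.q * u), min 0 (P.h - j))
      + (∑ j ∈ range (S.g * u), -lh j)
      + (∑ j ∈ range (S.g * u), min P.s (P.h' - j)) := by
    unfold sumCols eR eT eQ
    have e1 : ∑ j ∈ range (S.k * u), (-kap S u + min P.r (min (vb (j / 2)) (vb (j / 2) + P.h)) -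
        (lh (S.a1 * u + j) - lh (S.a1 * u))) = (∑ _j ∈ range (S.k * u), -kap S u)
      + (∑ j ∈ range (S.k * u), min P.r (min (vb (j / 2)) (vb (j / 2) + P.h)))
      + (∑ j ∈ range (S.k * u), -(lh (S.a1 * u + j) - lh (S.a1 * u))) := by
      rw [← sum_add_distrib, ← sum_add_distrib]
      exact sum_congr rfl fun j _ => by ring
    have e2 : ∑ l ∈ range (S.q * u), (-lh l + min 0 (P.h - l)) =
        (∑ j ∈ range (S.q * u), -lh j) + (∑ j ∈ range (S.q * u), min 0 (P.h - j)) :=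
      sum_add_distrib
    have e3 : ∑ l ∈ range (S.g * u), (-lh l + min P.s (P.h' - l)) =
        (∑ j ∈ range (S.g * u), -lh j) + (∑ j ∈ range (S.g * u), min P.s (P.h' - j)) :=
      sum_add_distrib
    rw [e1, e2, e3]
    ring
  unfold Vlow sumRows
  rw [h1, h2, h3]
  simp only [zero_mul, Nat.Ico_zero_eq_range]
  ring

/-- **Leaf E1** -/
theorem Vlow_ge (S : Shape) (c : ℕ) (ξ : Par ℝ) (hS : S.a1 ≤ S.B) :
    ∀ d : ℝ, 0 < d → ∀ᶠ u : ℕ in Filter.atTop, ∀ L : ℕ,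
      (val2 S ξ - d) * (u : ℝ) ^ 2 ≤ (Vlow S u c (parOf ξ u) L : ℝ) := by
  have H := ((((((((((((((((((((low_G1 S ξ).add (low_G2 S ξ hS)).add (low_G3 S c ξ)).add
    (low_const (S.e1 + S.e2) ξ.xT (fun u => (parOf ξ u).xT) (fun u => fl_ge _))).add
    (low_const S.e3 (min ξ.xT ξ.xQ) (fun u => min (parOf ξ u).xT (parOf ξ u).xQ)
      (fun u => min_fl _ _ _))).add
    (low_const (S.h1 + S.h2) ξ.xTH (fun u => (parOf ξ u).xTH) (fun u => fl_ge _))).add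
    (low_const S.h3 (min ξ.xTH ξ.xQH) (fun u => min (parOf ξ u).xTH (parOf ξ u).xQH)
      (fun u => min_fl _ _ _))).add
    (low_W S ξ)).add (low_c c ξ)).add (low_sT ξ)).add (low_sR S ξ)).add (low_sQ ξ)).add
    (low_sTH ξ)).add (low_sQH ξ)).add (low_kap S)).add (low_minR S.k ξ)).add
    (low_base S)).add (low_neglh S.q)).add (low_minT S.q ξ)).add (low_neglh S.g)).add
    (low_minQ S.g ξ)
  have H3 := H.mono (g := fun u L => (Vlow S u c (parOf ξ u) L : ℝ))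
    (Filter.Eventually.of_forall fun u L => le_of_eq (by
      rw [Vlow_split _ _ _ _ _ hS]
      simp only [Int.cast_add, Int.cast_neg]))
  have H4 : Low (fun u L => (Vlow S u c (parOf ξ u) L : ℝ)) (val2 S ξ) := by
    convert H3 using 1
    unfold val2
    rw [Nat.cast_zero, Nat.cast_add, Nat.cast_add]
    ring
  exact H4

end Crest.Agent.R006.P6
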