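import Crest.Agent.R006.P6Main_784
import Crest.Agent.R006.P6Base_909
import Crest.Agent.R006.P6Eval_550
import Crest.Agent.R006.P6Cert_909

/-!
# Row 6, block P6 (p = 2): closed (helper784, 909, 241, 664, 674, 153, 550, 814, 481)

`SN_two : AtPrime SN c 2 (40727 / 28)`.
-/

set_option autoImplicit false

namespace Crest.Agent.R006.P6

open Crest.Agent.R006.D

/-- **P6** for every shape, parametric in the nine dual variables -/
theorem atPrime_two (S : Shape) (hS : S.Good) (c : ℕ) (ξ : Par ℝ) :
    AtPrime S c 2 (-val2 S ξ) :=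
  atPrime_two_A (fun _ hg S u r _ h => PB_Minor_of_base hg S u r h) S hS c ξ
    (Vlow_ge S c ξ hS.a1B.le)

/-- **P6** for the frozen shape -/
theorem SN_two (c : ℕ) : AtPrime SN c 2 (40727 / 28) := by
  have h := atPrime_two SN SN_good c xiN
  rw [val2_SN] at h
  norm_num at h
  exact h

end Crest.Agent.R006.P6
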