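import Crest.Agent.R006.P6Toll_784

/-!
# Row 6, block P6: states and the entrywise table (helper784)

Columns `Fin nR ⊕ Fin nT ⊕ Fin nQ`, rows `r i : Row` (sites with orders).  States
`(tag, l)`, `l < L`, tags `R, T, Q, TH, QH`, and one error state per row.
-/

set_option autoImplicit false

namespace Crest.Agent.R006.P6

open Polynomial Crest.Agent.R006.NV Crest.Agent.R006.PsiInf Crest.Agent.R006.D
open Crest.Agent.R006.ProdBound481

/-- kinds of states -/
inductive Tag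
  | R | T | Q | TH | QH
  deriving DecidableEq, Fintype

lemma sum_tag {A : Type*} [AddCommMonoid A] (f : Tag → A) :
    ∑ t, f t = f .R + f .T + f .Q + f .TH + f .QH := by
  have h : (Finset.univ : Finset Tag) = {.R, .T, .Q, .TH, .QH} := rfl
  rw [h]
  rw [Finset.sum_insert (by decide), Finset.sum_insert (by decide), Finset.sum_insert (by decide),
    Finset.sum_insert (by decide), Finset.sum_singleton]
  simp only [add_assoc]

/-- value of the state `(t, l)` at the row `ρ` -/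
noncomputable def Xst (γ : ℚ) (ρ2 : ℚ[X]) (ρ : Row) : Tag → ℕ → ℚ[X]
  | .R, l => match ρ.1 with
    | .Z i => (C γ - X) * C (PowerSeries.coeff ρ.2 (gm (i : ℚ) (ρ2 * bin l) * HomZ i))
    | .H _ => 0
  | .T, l => match ρ.1 with
    | .Z i => C (PowerSeries.coeff ρ.2 (gm (i : ℚ) (bin l)))
    | .H _ => 0
  | .Q, l => match ρ.1 with
    | .Z i => C (PowerSeries.coeff ρ.2 (gm (i : ℚ) (bin l) * GamZ i))
    | .H _ => 0
  | .TH, l => match ρ.1 with
    | .Z _ => 0
    | .H i => C (PowerSeries.coeff ρ.2 (gm (i : ℚ) (bin l)))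
  | .QH, l => match ρ.1 with
    | .Z _ => 0
    | .H i => C (PowerSeries.coeff ρ.2 (gm (i : ℚ) (bin l) * GamH i))

variable {nR nT nQ : ℕ}

/-- coordinates of the columns in the states -/
noncomputable def Yst (aR dR wR : Fin nR → ℕ → ℚ) (bb : ℕ → ℕ → ℚ) :
    Tag → ℕ → (Fin nR ⊕ Fin nT ⊕ Fin nQ) → ℚ[X]
  | .R, l => Sum.elim (fun j => C (aR j l)) (fun _ => 0)
  | .T, l => Sum.elim (fun j => C (dR j l))
      (Sum.elim (fun l' => if (l' : ℕ) = l then 1 else 0) (fun _ => 0))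
  | .Q, l => Sum.elim (fun _ => 0)
      (Sum.elim (fun _ => 0) (fun l' => if (l' : ℕ) = l then 1 else 0))
  | .TH, l => Sum.elim (fun j => C (wR j l)) (Sum.elim (fun l' => C (bb l' l)) (fun _ => 0))
  | .QH, l => Sum.elim (fun _ => 0) (Sum.elim (fun _ => 0) (fun l' => C (bb l' l)))

/-- the representation of the matrix by states -/
structure Rep (M : Matrix (Fin nR ⊕ Fin nT ⊕ Fin nQ) (Fin nR ⊕ Fin nT ⊕ Fin nQ) ℚ[X])
    (r : Fin nR ⊕ Fin nT ⊕ Fin nQ → Row) (γ : ℚ) (ρ2 : ℚ[X]) (L : ℕ)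
    (aR dR wR : Fin nR → ℕ → ℚ) (bb : ℕ → ℕ → ℚ)
    (err : (Fin nR ⊕ Fin nT ⊕ Fin nQ) → (Fin nR ⊕ Fin nT ⊕ Fin nQ) → ℚ[X]) : Prop where
  LT : nT ≤ L
  LQ : nQ ≤ L
  zR : ∀ i z, (r i).1 = .Z z → ∀ j, M i (Sum.inl j) =
    (C γ - X) * C (∑ l ∈ Finset.range L, aR j l *
      PowerSeries.coeff (r i).2 (gm (z : ℚ) (ρ2 * bin l) * HomZ z)) +
    C (∑ l ∈ Finset.range L, dR j l * PowerSeries.coeff (r i).2 (gm (z : ℚ) (bin l))) +
    err i (Sum.inl j)
  zT : ∀ i z, (r i).1 = .Z z → ∀ l, M i (Sum.inr (Sum.inl l)) =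
    C (PowerSeries.coeff (r i).2 (gm (z : ℚ) (bin l))) + err i (Sum.inr (Sum.inl l))
  zQ : ∀ i z, (r i).1 = .Z z → ∀ l, M i (Sum.inr (Sum.inr l)) =
    C (PowerSeries.coeff (r i).2 (gm (z : ℚ) (bin l) * GamZ z)) + err i (Sum.inr (Sum.inr l))
  hR : ∀ i z, (r i).1 = .H z → ∀ j, M i (Sum.inl j) =
    C (∑ l ∈ Finset.range L, wR j l * PowerSeries.coeff (r i).2 (gm (z : ℚ) (bin l))) +
    err i (Sum.inl j)
  hT : ∀ i z, (r i).1 = .H z → ∀ l : Fin nT, M i (Sum.inr (Sum.inl l)) =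
    C (∑ l' ∈ Finset.range L, bb l l' * PowerSeries.coeff (r i).2 (gm (z : ℚ) (bin l'))) +
    err i (Sum.inr (Sum.inl l))
  hQ : ∀ i z, (r i).1 = .H z → ∀ l : Fin nQ, M i (Sum.inr (Sum.inr l)) =
    C (∑ l' ∈ Finset.range L, bb l l' *
      PowerSeries.coeff (r i).2 (gm (z : ℚ) (bin l') * GamH z)) +
    err i (Sum.inr (Sum.inr l))

/-- sum over the states -/
lemma sum_states {L : ℕ} {ι : Type*} [Fintype ι] [DecidableEq ι] (X : Tag → ℕ → ℚ[X])
    (Y : Tag → ℕ → ℚ[X]) (i : ι) (e : ι → ℚ[X]) :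
    ∑ s : (Tag × Fin L) ⊕ ι, Sum.elim (fun s : Tag × Fin L => X s.1 s.2)
      (fun i' => if i = i' then 1 else 0) s *
      Sum.elim (fun s : Tag × Fin L => Y s.1 s.2) e s =
    (∑ l ∈ Finset.range L, X .R l * Y .R l) + (∑ l ∈ Finset.range L, X .T l * Y .T l) +
    (∑ l ∈ Finset.range L, X .Q l * Y .Q l) + (∑ l ∈ Finset.range L, X .TH l * Y .TH l) +
    (∑ l ∈ Finset.range L, X .QH l * Y .QH l) + e i := by
  rw [Fintype.sum_sum_type, Fintype.sum_prod_type, sum_tag]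
  simp only [Sum.elim_inl, Sum.elim_inr, ite_mul, one_mul, zero_mul, Finset.sum_ite_eq,
    Finset.mem_univ, if_true]
  simp only [Fin.sum_univ_eq_sum_range (fun l => X .R l * Y .R l) L,
    Fin.sum_univ_eq_sum_range (fun l => X .T l * Y .T l) L,
    Fin.sum_univ_eq_sum_range (fun l => X .Q l * Y .Q l) L,
    Fin.sum_univ_eq_sum_range (fun l => X .TH l * Y .TH l) L,
    Fin.sum_univ_eq_sum_range (fun l => X .QH l * Y .QH l) L]

theorem Rep.eq {M : Matrix (Fin nR ⊕ Fin nT ⊕ Fin nQ) (Fin nR ⊕ Fin nT ⊕ Fin nQ) ℚ[X]}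
    {r : Fin nR ⊕ Fin nT ⊕ Fin nQ → Row} {γ : ℚ} {ρ2 : ℚ[X]} {L : ℕ}
    {aR dR wR : Fin nR → ℕ → ℚ} {bb : ℕ → ℕ → ℚ}
    {err : (Fin nR ⊕ Fin nT ⊕ Fin nQ) → (Fin nR ⊕ Fin nT ⊕ Fin nQ) → ℚ[X]}
    (h : Rep M r γ ρ2 L aR dR wR bb err) (i j : Fin nR ⊕ Fin nT ⊕ Fin nQ) :
    M i j = ∑ s : (Tag × Fin L) ⊕ (Fin nR ⊕ Fin nT ⊕ Fin nQ),
      Sum.elim (fun s : Tag × Fin L => Xst γ ρ2 (r i) s.1 s.2)
      (fun i' => if i = i' then 1 else 0) s *
      Sum.elim (fun s : Tag × Fin L => Yst (nT := nT) (nQ := nQ) aR dR wR bb s.1 s.2 j)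
        (fun i' => err i' j) s := by
  rw [sum_states (fun t l => Xst γ ρ2 (r i) t l)
    (fun t l => Yst (nT := nT) (nQ := nQ) aR dR wR bb t l j) i (fun i' => err i' j)]
  rcases hz : (r i).1 with z | z
  · rcases j with j | l | l
    · rw [h.zR i z hz j]
      simp only [Xst, Yst, hz, Sum.elim_inl, Sum.elim_inr, mul_zero, zero_mul,
        Finset.sum_const_zero, add_zero, map_sum, map_mul]
      rw [Finset.mul_sum]
      congr 2
      · refine Finset.sum_congr rfl fun l _ => ?_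
        ring
      · refine Finset.sum_congr rfl fun l _ => ?_
        ring
    · rw [h.zT i z hz l]
      simp only [Xst, Yst, hz, Sum.elim_inl, Sum.elim_inr, mul_zero, zero_mul,
        Finset.sum_const_zero, add_zero, zero_add, mul_ite, mul_one]
      rw [Finset.sum_ite_eq, if_pos (Finset.mem_range.mpr (l.2.trans_le h.LT))]
    · rw [h.zQ i z hz l]
      simp only [Xst, Yst, hz, Sum.elim_inl, Sum.elim_inr, mul_zero, zero_mul,
        Finset.sum_const_zero, add_zero, zero_add, mul_ite, mul_one]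
      rw [Finset.sum_ite_eq, if_pos (Finset.mem_range.mpr (l.2.trans_le h.LQ))]
  · rcases j with j | l | l
    · rw [h.hR i z hz j]
      simp only [Xst, Yst, hz, Sum.elim_inl, Sum.elim_inr, mul_zero, zero_mul,
        Finset.sum_const_zero, add_zero, zero_add, map_sum, map_mul]
      congr 1
      refine Finset.sum_congr rfl fun l _ => ?_
      ring
    · rw [h.hT i z hz l]
      simp only [Xst, Yst, hz, Sum.elim_inl, Sum.elim_inr, mul_zero, zero_mul,
        Finset.sum_const_zero, add_zero, zero_add, map_sum, map_mul]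
      congr 1
      refine Finset.sum_congr rfl fun l _ => ?_
      ring
    · rw [h.hQ i z hz l]
      simp only [Xst, Yst, hz, Sum.elim_inl, Sum.elim_inr, mul_zero, zero_mul,
        Finset.sum_const_zero, add_zero, zero_add, map_sum, map_mul]
      congr 1
      refine Finset.sum_congr rfl fun l _ => ?_
      ring

end Crest.Agent.R006.P6
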