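import Crest.Agent.R006.ProdBound_481

/-!
# Row 6, P6, leaf D (helper203), part 1: linear algebra over any commutative ring

* `cb_mixed` : Cauchy-Binet for some columns (factorial form);
* `cc`, `NN` : Newton coefficients of `s ^ k` at a sequence of nodes;
* `det_newton_cols` : the columns `(x t ^ k)_k`, `t < n`, are replaced by the Newton coefficients,
  the factor is the Vandermonde product.
-/

set_option autoImplicit false
set_option linter.unusedSectionVars false

namespace Crest.Agent.R006.P6D203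

open Matrix Finset

/-! ### Cauchy-Binet for some columns -/

section CB

variable {R : Type*} [CommRing R] {ι δ κ Z : Type*} [Fintype ι] [DecidableEq ι]
  [Fintype δ] [DecidableEq δ] [Fintype κ] [DecidableEq κ] [Fintype Z] [DecidableEq Z]

lemma prod_split {S : Type*} [CommMonoid S] (e : ι ≃ δ ⊕ κ) (F : ι → S) :
    ∏ j, F j = (∏ l : δ, F (e.symm (Sum.inl l))) * ∏ m : κ, F (e.symm (Sum.inr m)) := by
  rw [← Equiv.prod_comp e.symm F, Fintype.prod_sum_type]

/-- the columns `δ` are `∑ z, C z l • w z`: expansion -/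
theorem det_expand (e : ι ≃ δ ⊕ κ) (w : Z → ι → R) (C : Z → δ → R) (B : κ → ι → R) :
    (Matrix.of fun i j => Sum.elim (fun l => ∑ z, C z l * w z i) (fun m => B m i) (e j) :
        Matrix ι ι R).det =
      ∑ φ : δ → Z, (∏ l, C (φ l) l) *
        (Matrix.of fun i j => Sum.elim (fun l => w (φ l) i) (fun m => B m i) (e j) :
          Matrix ι ι R).det := by
  simp only [det_apply', of_apply]
  simp_rw [prod_split e, Equiv.apply_symm_apply, Sum.elim_inl, Sum.elim_inr,
    Finset.prod_univ_sum, Fintype.piFinset_univ, Finset.prod_mul_distrib, Finset.mul_sum,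
    Finset.sum_mul, Finset.mul_sum]
  rw [Finset.sum_comm]
  refine Finset.sum_congr rfl fun φ _ => Finset.sum_congr rfl fun σ _ => ?_
  ring

/-- a permutation of the columns `δ` -/
def liftPerm (e : ι ≃ δ ⊕ κ) (π : Equiv.Perm δ) : Equiv.Perm ι :=
  (e.trans (Equiv.sumCongr π (Equiv.refl κ))).trans e.symm

lemma sign_liftPerm (e : ι ≃ δ ⊕ κ) (π : Equiv.Perm δ) :
    Equiv.Perm.sign (liftPerm e π) = Equiv.Perm.sign π := by
  have h : liftPerm e π = e.symm.permCongr (Equiv.Perm.sumCongr π (Equiv.refl κ)) := by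
    ext i
    simp [liftPerm, Equiv.permCongr_apply]
  rw [h, Equiv.Perm.sign_permCongr, Equiv.Perm.sign_sumCongr]
  simp [← Equiv.Perm.one_def]

lemma det_perm_columns (e : ι ≃ δ ⊕ κ) (π : Equiv.Perm δ) (w : δ → ι → R) (B : κ → ι → R) :
    (Matrix.of fun i j => Sum.elim (fun l => w (π l) i) (fun m => B m i) (e j) :
      Matrix ι ι R).det =
      ((Equiv.Perm.sign π : ℤ) : R) *
        (Matrix.of fun i j => Sum.elim (fun l => w l i) (fun m => B m i) (e j) :
          Matrix ι ι R).det := by
  have h := Matrix.det_permute' (liftPerm e π)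
    (Matrix.of fun i j => Sum.elim (fun l => w l i) (fun m => B m i) (e j) : Matrix ι ι R)
  rw [sign_liftPerm] at h
  rw [← h]
  congr 1
  ext i j
  simp only [submatrix_apply, of_apply, id, liftPerm, Equiv.trans_apply, Equiv.apply_symm_apply,
    Equiv.sumCongr_apply]
  rcases e j with l | m <;> simp

/-- **Cauchy-Binet for the columns `δ`**, factorial form -/
theorem cb_mixed (e : ι ≃ δ ⊕ κ) (w : Z → ι → R) (C : Z → δ → R) (B : κ → ι → R) :
    ((Fintype.card δ).factorial : R) *
      (Matrix.of fun i j => Sum.elim (fun l => ∑ z, C z l * w z i) (fun m => B m i) (e j) :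
        Matrix ι ι R).det =
      ∑ φ : δ → Z, (Matrix.of fun l l' => C (φ l) l' : Matrix δ δ R).det *
        (Matrix.of fun i j => Sum.elim (fun l => w (φ l) i) (fun m => B m i) (e j) :
          Matrix ι ι R).det := by
  have h1 : ∀ π : Equiv.Perm δ,
      (Matrix.of fun i j => Sum.elim (fun l => ∑ z, C z l * w z i) (fun m => B m i) (e j) :
        Matrix ι ι R).det =
      ∑ φ : δ → Z, (((Equiv.Perm.sign π : ℤ) : R) * ∏ l, C (φ (π l)) l) *
        (Matrix.of fun i j => Sum.elim (fun l => w (φ l) i) (fun m => B m i) (e j) :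
          Matrix ι ι R).det := by
    intro π
    rw [det_expand, ← Equiv.sum_comp (Equiv.arrowCongr π.symm (Equiv.refl Z))]
    refine Finset.sum_congr rfl fun φ _ => ?_
    have h2 := det_perm_columns (R := R) e π (fun l => w (φ l)) B
    simp only [Equiv.arrowCongr_apply, Equiv.coe_refl, Function.comp_def, Equiv.symm_symm, id]
    rw [h2]
    ring
  have h3 : ((Fintype.card δ).factorial : R) *
      (Matrix.of fun i j => Sum.elim (fun l => ∑ z, C z l * w z i) (fun m => B m i) (e j) :
        Matrix ι ι R).det =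
      ∑ π : Equiv.Perm δ,
      (Matrix.of fun i j => Sum.elim (fun l => ∑ z, C z l * w z i) (fun m => B m i) (e j) :
        Matrix ι ι R).det := by
    rw [Finset.sum_const, Finset.card_univ, Fintype.card_perm, nsmul_eq_mul]
  rw [h3]
  conv_lhs => rw [Finset.sum_congr rfl fun π _ => h1 π]
  rw [Finset.sum_comm]
  refine Finset.sum_congr rfl fun φ _ => ?_
  rw [← Finset.sum_mul]
  congr 1
  rw [det_apply']
  refine Finset.sum_congr rfl fun π _ => ?_
  simp only [of_apply]

end CB

/-! ### Newton coefficients -/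

section Newton

variable {R : Type*} [CommRing R]

/-- Newton basis polynomial at a point -/
def NN (x : ℕ → R) (t : ℕ) (s : R) : R := ∏ l ∈ range t, (s - x l)

/-- Newton coefficients of `s ^ k` -/
def cc (x : ℕ → R) : ℕ → ℕ → R
  | 0, 0 => 1
  | 0, _ + 1 => 0
  | k + 1, 0 => x 0 * cc x k 0
  | k + 1, t + 1 => cc x k t + x (t + 1) * cc x k (t + 1)

lemma cc_of_lt (x : ℕ → R) : ∀ k t : ℕ, k < t → cc x k t = 0 := by
  intro k
  induction k with
  | zero =>
    intro t ht
    obtain ⟨t, rfl⟩ : ∃ t', t = t' + 1 := ⟨t - 1, by omega⟩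
    rfl
  | succ k ih =>
    intro t ht
    obtain ⟨t, rfl⟩ : ∃ t', t = t' + 1 := ⟨t - 1, by omega⟩
    rw [cc, ih t (by omega), ih (t + 1) (by omega), mul_zero, add_zero]

lemma NN_succ (x : ℕ → R) (t : ℕ) (s : R) : NN x (t + 1) s = NN x t s * (s - x t) := by
  rw [NN, prod_range_succ, NN]

lemma NN_zero (x : ℕ → R) (s : R) : NN x 0 s = 1 := by rw [NN, prod_range_zero]

lemma NN_node (x : ℕ → R) {t j : ℕ} (h : j < t) : NN x t (x j) = 0 := by
  rw [NN]
  exact prod_eq_zero (mem_range.mpr h) (sub_self _)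

/-- Newton expansion, any length -/
lemma newton (x : ℕ → R) (k : ℕ) : ∀ m : ℕ, k < m → ∀ s : R,
    s ^ k = ∑ t ∈ range m, cc x k t * NN x t s := by
  induction k with
  | zero =>
    intro m hm s
    obtain ⟨m, rfl⟩ : ∃ m', m = m' + 1 := ⟨m - 1, by omega⟩
    rw [sum_range_succ', NN_zero, cc, pow_zero, mul_one]
    simp [cc]
  | succ k ih =>
    intro m hm s
    obtain ⟨m, rfl⟩ : ∃ m', m = m' + 1 := ⟨m - 1, by omega⟩
    rw [pow_succ, ih (m + 1) (by omega) s, sum_mul]
    have h1 : ∀ t, cc x k t * NN x t s * s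
        = cc x k t * NN x (t + 1) s + x t * cc x k t * NN x t s := by
      intro t
      rw [NN_succ]; ring
    rw [sum_congr rfl fun t _ => h1 t, sum_add_distrib, sum_range_succ, cc_of_lt x k m (by omega),
      zero_mul, add_zero, sum_range_succ' (fun t => x t * cc x k t * NN x t s),
      sum_range_succ' (fun t => cc x (k + 1) t * NN x t s), ← add_assoc, ← sum_add_distrib]
    congr 1
    refine sum_congr rfl fun t _ => ?_
    rw [cc]; ring

/-- at a node only the first coefficients count -/
lemma newton_node (x : ℕ → R) (k : ℕ) {n j : ℕ} (hj : j < n) :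
    x j ^ k = ∑ t ∈ range n, cc x k t * NN x t (x j) := by
  rw [newton x k (max n (k + 1)) (by omega) (x j)]
  have h : range n ⊆ range (max n (k + 1)) := range_subset_range.mpr (le_max_left _ _)
  symm
  refine sum_subset h fun t _ ht => ?_
  rw [mem_range, not_lt] at ht
  rw [NN_node x (by omega : j < t), mul_zero]

variable {ρ : Type*} [Fintype ρ] [DecidableEq ρ]

/-- the Vandermonde product of the first `n` nodes -/
def VP (x : ℕ → R) (n : ℕ) : R := ∏ t ∈ range n, ∏ l ∈ range t, (x t - x l)

/-- the triangular matrix `NN x t' (x t)` -/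
def TT (x : ℕ → R) (n : ℕ) : Matrix (Fin n) (Fin n) R := Matrix.of fun t' t => NN x t' (x t)

lemma det_TT (x : ℕ → R) (n : ℕ) : (TT x n).det = VP x n := by
  have h : (TT x n).IsUpperTriangular := by
    intro i j hij
    exact NN_node x hij
  rw [det_of_isUpperTriangular h, VP, ← Fin.prod_univ_eq_prod_range (fun t => ∏ l ∈ range t, (x t - x l))]
  rfl

/-- power columns -> Newton coefficients -/
theorem det_newton_cols (x : ℕ → R) (n : ℕ) (kk : Fin n ⊕ ρ → ℕ) (B : ρ → Fin n ⊕ ρ → R) :
    (Matrix.of fun i j => Sum.elim (fun t : Fin n => x t ^ kk i) (fun m => B m i) j :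
        Matrix (Fin n ⊕ ρ) (Fin n ⊕ ρ) R).det =
      (Matrix.of fun i j => Sum.elim (fun t : Fin n => cc x (kk i) t) (fun m => B m i) j :
        Matrix (Fin n ⊕ ρ) (Fin n ⊕ ρ) R).det * VP x n := by
  have h : (Matrix.of fun i j => Sum.elim (fun t : Fin n => x t ^ kk i) (fun m => B m i) j :
        Matrix (Fin n ⊕ ρ) (Fin n ⊕ ρ) R) =
      (Matrix.of fun i j => Sum.elim (fun t : Fin n => cc x (kk i) t) (fun m => B m i) j) *
        fromBlocks (TT x n) 0 0 1 := by
    ext i j
    rw [mul_apply, Fintype.sum_sum_type]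
    rcases j with t | m
    · simp only [of_apply, Sum.elim_inl, Sum.elim_inr, fromBlocks_apply₁₁, fromBlocks_apply₂₁,
        Matrix.zero_apply, mul_zero, sum_const_zero, add_zero, TT]
      rw [newton_node x (kk i) t.2,
        Fin.sum_univ_eq_sum_range (fun t' => cc x (kk i) t' * NN x t' (x t))]
    · simp only [of_apply, Sum.elim_inl, Sum.elim_inr, fromBlocks_apply₁₂, fromBlocks_apply₂₂,
        Matrix.zero_apply, mul_zero, sum_const_zero, zero_add, one_apply]
      simp
  rw [h, det_mul, det_fromBlocks_zero₂₁, det_TT, det_one, mul_one]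

/-- rows of values of polynomials -> Newton coefficients of the polynomials -/
theorem det_newton_rows (x : ℕ → R) (n : ℕ)
    (d : Fin n ⊕ ρ → ℕ → R) (m : ℕ) (B : ρ → Fin n ⊕ ρ → R) :
    (Matrix.of fun i j => Sum.elim (fun t : Fin n => ∑ k ∈ range m, d j k * x t ^ k)
        (fun r => B r j) i : Matrix (Fin n ⊕ ρ) (Fin n ⊕ ρ) R).det =
      VP x n * (Matrix.of fun i j => Sum.elim (fun t : Fin n => ∑ k ∈ range m, d j k * cc x k t)
        (fun r => B r j) i : Matrix (Fin n ⊕ ρ) (Fin n ⊕ ρ) R).det := by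
  have h : (Matrix.of fun i j => Sum.elim (fun t : Fin n => ∑ k ∈ range m, d j k * x t ^ k)
        (fun r => B r j) i : Matrix (Fin n ⊕ ρ) (Fin n ⊕ ρ) R) =
      fromBlocks (TT x n)ᵀ 0 0 1 *
      (Matrix.of fun i j => Sum.elim (fun t : Fin n => ∑ k ∈ range m, d j k * cc x k t)
        (fun r => B r j) i) := by
    ext i j
    rw [mul_apply, Fintype.sum_sum_type]
    rcases i with t | r
    · simp only [of_apply, Sum.elim_inl, Sum.elim_inr, fromBlocks_apply₁₁, fromBlocks_apply₁₂,
        Matrix.zero_apply, zero_mul, sum_const_zero, add_zero, TT, transpose_apply]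
      simp_rw [newton_node x _ t.2, mul_sum]
      rw [sum_comm, ← Fin.sum_univ_eq_sum_range
        (fun t' => ∑ k ∈ range m, d j k * (cc x k t' * NN x t' (x t)))]
      refine sum_congr rfl fun t' _ => sum_congr rfl fun k _ => ?_
      ring
    · simp only [of_apply, Sum.elim_inl, Sum.elim_inr, fromBlocks_apply₂₁, fromBlocks_apply₂₂,
        Matrix.zero_apply, zero_mul, sum_const_zero, zero_add, one_apply]
      simp
  rw [h, det_mul, det_fromBlocks_zero₂₁, det_transpose, det_TT, det_one, mul_one]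

end Newton

end Crest.Agent.R006.P6D203
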