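import Mathlib

/-!
# Row 6, block P6, leaf D, part 1: the Newton factorisation (helper909)

If the rows `i ∈ s` of a square matrix are values of polynomials, `M i k = φ ((f k).eval (x i))`,
then `det M = φ (V) det M'`, `V` the Vandermonde determinant of the nodes `x i`, `i ∈ s`, and `M'`
has again entries `φ (..)` in these rows and is unchanged in the other rows.
-/

set_option autoImplicit false

namespace Crest.Agent.R006.P6Dx909

open Polynomial Finset Matrix

variable {S R : Type*} [CommRing S] [CommRing R]

/-- iterated quotients `f, f /ₘ (X - x 0), ..` -/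
noncomputable def itq (x : ℕ → S) (f : S[X]) : ℕ → S[X]
  | 0 => f
  | l + 1 => itq x f l /ₘ (X - C (x l))

theorem itq_zero_poly (x : ℕ → S) (l : ℕ) : itq x (0 : S[X]) l = 0 := by
  induction l with
  | zero => rfl
  | succ l ih => rw [itq, ih, zero_divByMonic]

theorem itq_step (x : ℕ → S) (f : S[X]) (l : ℕ) (z : S) :
    (itq x f l).eval z = (itq x f l).eval (x l) + (z - x l) * (itq x f (l + 1)).eval z := by
  have h := congrArg (fun p : S[X] => p.eval z)
    (modByMonic_add_div (itq x f l) (X - C (x l)))
  rw [modByMonic_X_sub_C_eq_C_eval] at h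
  simp only [eval_add, eval_C, eval_mul, eval_sub, eval_X] at h
  rw [itq, ← h]

/-- Newton interpolation with remainder -/
theorem itq_eval (x : ℕ → S) (f : S[X]) (L : ℕ) (z : S) :
    f.eval z = ∑ l ∈ range L, (∏ m ∈ range l, (z - x m)) * (itq x f l).eval (x l)
      + (∏ m ∈ range L, (z - x m)) * (itq x f L).eval z := by
  induction L with
  | zero => simp [itq]
  | succ L ih =>
    rw [sum_range_succ, prod_range_succ, ih, itq_step x f L z]
    ring

theorem itq_eval_node (x : ℕ → S) (f : S[X]) {t i : ℕ} (hi : i < t) :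
    f.eval (x i) = ∑ l ∈ range t, (∏ m ∈ range l, (x i - x m)) * (itq x f l).eval (x l) := by
  rw [itq_eval x f t (x i), prod_eq_zero (mem_range.2 hi) (sub_self (x i)), zero_mul, add_zero]

/-- Vandermonde product -/
def VV (x : ℕ → S) (t : ℕ) : S := ∏ i ∈ range t, ∏ m ∈ range i, (x i - x m)

theorem VV_eq_det (x : ℕ → S) (t : ℕ) :
    VV x t = (vandermonde fun i : Fin t => x i).det := by
  rw [det_vandermonde, VV, ← Fin.prod_univ_eq_prod_range (fun i => ∏ m ∈ range i, (x i - x m)) t]
  have h1 : ∀ j : Fin t, ∏ m ∈ range (j : ℕ), (x j - x m) = ∏ i ∈ Iio j, (x j - x i) := by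
    intro j
    refine (prod_bij (fun (i : Fin t) _ => (i : ℕ)) ?_ ?_ ?_ ?_).symm
    · intro a ha
      exact mem_range.2 (by simpa using ha)
    · intro a _ b _ hab
      exact Fin.ext hab
    · intro b hb
      have hb' := mem_range.1 hb
      exact ⟨⟨b, hb'.trans j.2⟩, by simpa [Fin.lt_def] using hb', rfl⟩
    · intro a _; rfl
  rw [prod_congr rfl fun j _ => h1 j]
  refine prod_comm' ?_
  intro a b
  simp

/-- the Newton factorisation, index form -/
theorem newton_factor {J : Type*} [Fintype J] [DecidableEq J] {τ : Type*} [Fintype τ]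
    [DecidableEq τ] (t : ℕ) (e : J ≃ Fin t ⊕ τ) (φ : S →+* R) (x : ℕ → S) (f : J → S[X])
    (M : Matrix J J R) (hM : ∀ (i : Fin t) (k : J), M (e.symm (Sum.inl i)) k = φ ((f k).eval (x i))) :
    M.det = φ (VV x t) *
      (Matrix.of fun j k => Sum.elim (fun i : Fin t => φ ((itq x (f k) i).eval (x i)))
        (fun _ => M j k) (e j)).det := by
  classical
  set M' : Matrix J J R := Matrix.of fun j k =>
    Sum.elim (fun i : Fin t => φ ((itq x (f k) i).eval (x i))) (fun _ => M j k) (e j) with hM'
  set T11 : Matrix (Fin t) (Fin t) R :=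
    Matrix.of fun i l => φ (∏ m ∈ range (l : ℕ), (x i - x m)) with hT11
  set T : Matrix (Fin t ⊕ τ) (Fin t ⊕ τ) R := Matrix.fromBlocks T11 0 0 1 with hT
  have hdet : T.det = φ (VV x t) := by
    rw [hT, det_fromBlocks_zero₂₁, det_one, mul_one]
    have hlow : T11.BlockTriangular OrderDual.toDual := by
      intro i l hil
      have hil' : i < l := hil
      simp only [hT11, of_apply]
      rw [prod_eq_zero (mem_range.2 hil') (sub_self (x i)), map_zero]
    rw [det_of_isLowerTriangular T11 hlow, VV, map_prod,
      ← Fin.prod_univ_eq_prod_range (fun i => φ (∏ m ∈ range i, (x i - x m))) t]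
    rfl
  have hmul : M = T.submatrix e e * M' := by
    ext j k
    rw [mul_apply]
    have h1 : ∑ j', T.submatrix e e j j' * M' j' k
        = ∑ b : Fin t ⊕ τ, T (e j) b * M' (e.symm b) k := by
      refine Fintype.sum_equiv e _ _ fun j' => ?_
      simp
    rw [h1, Fintype.sum_sum_type]
    obtain ⟨b, rfl⟩ : ∃ b, e.symm b = j := ⟨e j, by simp⟩
    rw [Equiv.apply_symm_apply]
    rcases b with i | b
    · have h2 : ∑ l : Fin t, T (Sum.inl i) (Sum.inl l) * M' (e.symm (Sum.inl l)) k
          = φ (∑ l ∈ range t, (∏ m ∈ range l, (x i - x m)) * (itq x (f k) l).eval (x l)) := by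
        rw [map_sum, ← Fin.sum_univ_eq_sum_range (fun l =>
          φ ((∏ m ∈ range l, (x i - x m)) * (itq x (f k) l).eval (x l))) t]
        refine sum_congr rfl fun l _ => ?_
        simp [hT, hT11, hM', map_mul]
      rw [h2, ← itq_eval_node x (f k) i.2, hM]
      simp [hT]
    · have h2 : ∀ l : Fin t, T (Sum.inr b) (Sum.inl l) = 0 := fun l => by simp [hT]
      simp only [h2, zero_mul, sum_const_zero, zero_add]
      have h3 : ∀ b' : τ, T (Sum.inr b) (Sum.inr b') = if b = b' then 1 else 0 := fun b' => by
        simp [hT, one_apply]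
      simp only [h3, ite_mul, one_mul, zero_mul, sum_ite_eq, mem_univ, if_true]
      simp [hM']
  rw [← hdet]
  conv_lhs => rw [hmul]
  rw [det_mul, det_submatrix_equiv_self]

/-- the Newton factorisation, finset form -/
theorem newton_finset {J : Type*} [Fintype J] [DecidableEq J] (s : Finset J) (φ : S →+* R)
    (x : J → S) (f : J → S[X]) (M : Matrix J J R)
    (hM : ∀ i ∈ s, ∀ k, M i k = φ ((f k).eval (x i))) :
    ∃ (g : Fin s.card → J) (y : J → J → S), Function.Injective g ∧ (∀ a, g a ∈ s) ∧
      (∀ i k, f k = 0 → y i k = 0) ∧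
      M.det = φ (vandermonde (x ∘ g)).det *
        (Matrix.of fun i k => if i ∈ s then φ (y i k) else M i k).det := by
  classical
  set t := s.card with ht
  set es : {i // i ∈ s} ≃ Fin t := s.equivFin with hes
  set e : J ≃ Fin t ⊕ {i // ¬ i ∈ s} :=
    (Equiv.sumCompl (fun i => i ∈ s)).symm.trans (Equiv.sumCongr es (Equiv.refl _)) with he
  set g : Fin t → J := fun a => (es.symm a : J) with hg
  set x' : ℕ → S := fun l => if h : l < t then x (g ⟨l, h⟩) else 0 with hx'
  have hsymm : ∀ i : Fin t, e.symm (Sum.inl i) = g i := by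
    intro i; simp [he, hg]
  have hx'i : ∀ i : Fin t, x' i = x (g i) := by
    intro i; simp [hx']
  have hgs : ∀ a, g a ∈ s := fun a => (es.symm a).2
  have h := newton_factor (R := R) t e φ x' f M (by
    intro i k
    rw [hsymm, hM _ (hgs i), hx'i])
  refine ⟨g, fun j k => Sum.elim (fun i : Fin t => (itq x' (f k) i).eval (x' i))
    (fun _ => 0) (e j), ?_, hgs, ?_, ?_⟩
  · intro a b hab
    exact es.symm.injective (Subtype.ext hab)
  · intro j k hk
    rcases hej : e j with i | b
    · simp [hej, hk, itq_zero_poly]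
    · simp [hej]
  · rw [h, VV_eq_det]
    congr 2
    · congr 2
      funext i
      exact hx'i i
    · funext j k
      simp only [of_apply]
      by_cases hj : j ∈ s
      · have : e j = Sum.inl (es ⟨j, hj⟩) := by
          simp only [he, Equiv.trans_apply]
          rw [Equiv.sumCompl_symm_apply_of_pos (p := fun i => i ∈ s) hj]
          simp
        rw [if_pos hj, this]
        simp
      · have : e j = Sum.inr ⟨j, hj⟩ := by
          simp only [he, Equiv.trans_apply]
          rw [Equiv.sumCompl_symm_apply_of_neg (p := fun i => i ∈ s) hj]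
          simp
        rw [if_neg hj, this]
        simp

end Crest.Agent.R006.P6Dx909
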