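import Crest.Agent.R006.P6D1_203

/-!
# Row 6, P6, leaf D (helper203), part 2: valuations

* `VV p z S` : sum over the unordered pairs of `S` of `padicValRat p (z x - z y)`;
* `two_VV` : twice `VV` is the sum over ordered pairs of distinct elements;
* `VP_PB` : the Vandermonde product of an injective enumeration of `S` is in `PB p (VV p z S)`;
* `det_cols_PB` : determinants with `n` power columns (nodes of type `0` integral, type `1` with
  `padicNorm ≤ p`) and other columns.
* `det_rows_PB` : determinants with `n` rows of values of integral polynomials and other integral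
  rows.
-/

set_option autoImplicit false
set_option linter.unusedSectionVars false

namespace Crest.Agent.R006.P6D203

open Polynomial Matrix Finset Crest.Agent.R006.ProdBound481

/-! ### sums over pairs -/

section Pairs

variable {σ : Type*} [DecidableEq σ]

/-- ordered pairs of distinct elements = twice the pairs in increasing order -/
lemma two_pairs {Λ : Type*} [LinearOrder Λ] (g : σ → Λ) (S : Finset σ) (hg : Set.InjOn g S)
    (F : σ → σ → ℤ) (hF : ∀ x y, F x y = F y x) :
    2 * ∑ x ∈ S, ∑ y ∈ S with g y < g x, F x y = ∑ x ∈ S, ∑ y ∈ S.erase x, F x y := by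
  have h1 : ∑ x ∈ S, ∑ y ∈ S with g y < g x, F x y = ∑ x ∈ S, ∑ y ∈ S with g x < g y, F x y := by
    rw [Finset.sum_comm' (t' := S) (s' := fun y => {x ∈ S | g y < g x})]
    · exact sum_congr rfl fun x _ => sum_congr rfl fun y _ => hF _ _
    · intro x y
      simp only [mem_filter]
      tauto
  rw [two_mul]
  nth_rewrite 2 [h1]
  rw [← sum_add_distrib]
  refine sum_congr rfl fun x hx => ?_
  rw [← sum_union]
  · congr 1
    ext y
    simp only [mem_union, mem_filter, mem_erase]
    constructor
    · rintro (⟨h, h'⟩ | ⟨h, h'⟩)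
      · exact ⟨fun e => by rw [e] at h'; exact lt_irrefl _ h', h⟩
      · exact ⟨fun e => by rw [e] at h'; exact lt_irrefl _ h', h⟩
    · rintro ⟨hne, h⟩
      rcases lt_trichotomy (g y) (g x) with h' | h' | h'
      · exact Or.inl ⟨h, h'⟩
      · exact absurd (hg h hx h') hne
      · exact Or.inr ⟨h, h'⟩
  · rw [disjoint_left]
    intro y hy hy'
    exact lt_asymm (mem_filter.mp hy).2 (mem_filter.mp hy').2

/-- sum over unordered pairs of the valuations of the differences -/
def VV (p : ℕ) (z : σ → ℚ) (S : Finset σ) : ℤ :=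
  ∑ x ∈ S, ∑ y ∈ S with z y < z x, padicValRat p (z x - z y)

lemma val_symm (p : ℕ) (a b : ℚ) : padicValRat p (a - b) = padicValRat p (b - a) := by
  rw [← neg_sub b a, padicValRat.neg]

lemma two_VV (p : ℕ) (z : σ → ℚ) (S : Finset σ) (hz : Set.InjOn z S) :
    2 * VV p z S = ∑ x ∈ S, ∑ y ∈ S.erase x, padicValRat p (z x - z y) :=
  two_pairs z S hz _ fun _ _ => val_symm p _ _

lemma VV_enum (p : ℕ) (z : σ → ℚ) (x : ℕ → σ) (n : ℕ) (hx : Set.InjOn x (range n))
    (hz : Set.InjOn z ((range n).image x)) :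
    ∑ t ∈ range n, ∑ l ∈ range t, padicValRat p (z (x t) - z (x l))
      = VV p z ((range n).image x) := by
  have h2 := two_VV p z _ hz
  have h1 := two_pairs (fun t : ℕ => t) (range n) (fun a _ b _ h => h)
    (fun t l => padicValRat p (z (x t) - z (x l))) (fun _ _ => val_symm p _ _)
  have h3 : ∑ t ∈ range n, ∑ l ∈ range n with l < t, padicValRat p (z (x t) - z (x l))
      = ∑ t ∈ range n, ∑ l ∈ range t, padicValRat p (z (x t) - z (x l)) := by
    refine sum_congr rfl fun t ht => sum_congr ?_ fun _ _ => rfl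
    ext l
    rw [mem_range] at ht
    simp only [mem_filter, mem_range]
    omega
  have h4 : ∑ t ∈ range n, ∑ l ∈ (range n).erase t, padicValRat p (z (x t) - z (x l))
      = ∑ a ∈ (range n).image x, ∑ b ∈ ((range n).image x).erase a, padicValRat p (z a - z b) := by
    rw [sum_image hx]
    refine sum_congr rfl fun t ht => ?_
    have h5 : ((range n).image x).erase (x t) = ((range n).erase t).image x := by
      ext b
      simp only [mem_erase, mem_image]
      constructor
      · rintro ⟨hb, l, hl, rfl⟩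
        exact ⟨l, ⟨fun e => hb (by rw [e]), hl⟩, rfl⟩
      · rintro ⟨l, ⟨hlt, hl⟩, rfl⟩
        exact ⟨fun e => hlt (hx hl ht e), l, hl, rfl⟩
    rw [h5, sum_image]
    intro a ha b hb hab
    exact hx (mem_of_mem_erase ha) (mem_of_mem_erase hb) hab
  rw [h3] at h1
  linarith [h1, h2, h4]

end Pairs

/-! ### integrality -/

section PBs

variable {p : ℕ} [hp : Fact p.Prime]

lemma PB_of_val {a : ℚ} (ha : a ≠ 0) : PB p (padicValRat p a) (C a) := by
  refine PB.C ?_
  rw [padicNorm.eq_zpow_of_nonzero ha]

lemma PB_neg_one {a : ℚ} (h : padicNorm p a ≤ p) : PB p (-1) (C a) := by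
  refine PB.C ?_
  rw [neg_neg, zpow_one]
  exact h

lemma PB.pow' {v : ℤ} {P : ℚ[X]} (h : PB p v P) (k : ℕ) : PB p (k * v) (P ^ k) := by
  induction k with
  | zero => simpa using (PB.one (p := p))
  | succ k ih =>
    rw [pow_succ]
    have := ih.mul h
    push_cast
    rw [add_mul, one_mul]
    exact this

variable {σ : Type*} [DecidableEq σ]

/-- nodes in `ℚ[X]` -/
noncomputable def xx (z : σ → ℚ) (x : ℕ → σ) (t : ℕ) : ℚ[X] := C (z (x t))

lemma VP_PB (z : σ → ℚ) (x : ℕ → σ) (n : ℕ) (hx : Set.InjOn x (range n))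
    (hz : Set.InjOn z ((range n).image x)) :
    PB p (VV p z ((range n).image x)) (VP (xx z x) n) := by
  rw [← VV_enum p z x n hx hz, VP]
  refine PB.prod _ _ _ fun t ht => PB.prod _ _ _ fun l hl => ?_
  rw [xx, xx, ← C_sub]
  refine PB_of_val ?_
  rw [sub_ne_zero]
  intro h
  have h1 : l < n := (mem_range.mp hl).trans (mem_range.mp ht)
  have h2 := hz (mem_image_of_mem x ht) (mem_image_of_mem x (mem_range.mpr h1)) h
  have h3 := hx ht (mem_range.mpr h1) h2
  rw [h3] at hl
  exact lt_irrefl _ (mem_range.mp hl)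

/-- if the enumeration is not injective the Vandermonde product vanishes -/
lemma VP_zero (z : σ → ℚ) (x : ℕ → σ) (n : ℕ) (hx : ¬ Set.InjOn x (range n)) :
    VP (xx z x) n = 0 := by
  rw [Set.InjOn] at hx
  push Not at hx
  obtain ⟨a, ha, b, hb, hab, hne⟩ := hx
  wlog hlt : a < b generalizing a b
  · exact this b hb a ha hab.symm hne.symm (lt_of_le_of_ne (not_lt.mp hlt) hne.symm)
  rw [VP]
  refine prod_eq_zero hb (prod_eq_zero (mem_range.mpr hlt) ?_)
  rw [xx, xx, hab, sub_self]

lemma cc_PB_zero {x : ℕ → ℚ[X]} {T : ℕ} (h : ∀ t ≤ T, PB p 0 (x t)) :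
    ∀ k t : ℕ, t ≤ T → PB p 0 (cc x k t) := by
  intro k
  induction k with
  | zero =>
    intro t _
    rcases t with _ | t
    · exact PB.one
    · exact PB.zero _
  | succ k ih =>
    intro t ht
    rcases t with _ | t
    · rw [cc]
      simpa using (h 0 ht).mul (ih 0 ht)
    · rw [cc]
      refine (ih t (by omega)).add ?_
      simpa using (h (t + 1) ht).mul (ih (t + 1) ht)

lemma cc_PB_neg {x : ℕ → ℚ[X]} {T : ℕ} (h : ∀ t ≤ T, PB p (-1) (x t)) :
    ∀ k t : ℕ, t ≤ T → t ≤ k → PB p (-((k : ℤ) - t)) (cc x k t) := by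
  intro k
  induction k with
  | zero =>
    intro t _ hk
    obtain rfl : t = 0 := by omega
    rw [cc]
    simpa using (PB.one (p := p))
  | succ k ih =>
    intro t ht hk
    rcases t with _ | t
    · rw [cc]
      have := (h 0 ht).mul (ih 0 ht (by omega))
      refine this.mono (le_of_eq ?_)
      push_cast; ring
    · rw [cc]
      refine PB.add ?_ ?_
      · refine (ih t (by omega) (by omega)).mono (le_of_eq ?_)
        push_cast; ring
      · rcases Nat.lt_or_ge k (t + 1) with h1 | h1
        · rw [cc_of_lt x k (t + 1) h1, mul_zero]; exact PB.zero _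
        · have := (h (t + 1) ht).mul (ih (t + 1) ht h1)
          refine this.mono (le_of_eq ?_)
          push_cast; ring

/-- rows of values of integral polynomials -/
theorem det_rows_PB {ρ : Type*} [Fintype ρ] [DecidableEq ρ] (x : ℕ → ℚ[X]) (n : ℕ)
    (hx : ∀ t < n, PB p 0 (x t)) (m : ℕ) (d : Fin n ⊕ ρ → ℕ → ℚ[X])
    (hd : ∀ j k, PB p 0 (d j k)) (B : ρ → Fin n ⊕ ρ → ℚ[X]) (hB : ∀ r j, PB p 0 (B r j))
    (v : ℤ) (hv : PB p v (VP x n)) :
    PB p v (Matrix.of fun i j => Sum.elim (fun t : Fin n => ∑ k ∈ range m, d j k * x t ^ k)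
        (fun r => B r j) i : Matrix (Fin n ⊕ ρ) (Fin n ⊕ ρ) ℚ[X]).det := by
  rw [det_newton_rows]
  have h := PB_det (p := p) (Matrix.of fun i j => Sum.elim
      (fun t : Fin n => ∑ k ∈ range m, d j k * cc x k t) (fun r => B r j) i :
        Matrix (Fin n ⊕ ρ) (Fin n ⊕ ρ) ℚ[X]) (fun _ => 0) (fun _ => 0) (by
    intro i j
    rw [add_zero]
    rcases i with t | r
    · simp only [of_apply, Sum.elim_inl]
      refine PB.sum _ _ fun k _ => ?_
      have h1 := cc_PB_zero (p := p) (x := x) (T := t) (fun s hs => hx s (lt_of_le_of_lt hs t.2))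
        k t le_rfl
      simpa using (hd j k).mul h1
    · simp only [of_apply, Sum.elim_inr]
      exact hB r j)
  simpa using hv.mul h

/-- power columns and other columns: the first `a` nodes are integral, the others have one `p` in
the denominator. `kk` runs through `0, …, n + card ρ - 1`. -/
theorem det_cols_PB {ρ : Type*} [Fintype ρ] [DecidableEq ρ] (x : ℕ → ℚ[X]) (a h : ℕ)
    (hx0 : ∀ t < a, PB p 0 (x t)) (hx1 : ∀ t < a + h, PB p (-1) (x t))
    (kk : Fin (a + h) ⊕ ρ → ℕ) (hk : Function.Injective kk)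
    (hk2 : ∀ i, kk i < a + h + Fintype.card ρ) (B : ρ → Fin (a + h) ⊕ ρ → ℚ[X]) (g : ρ → ℤ)
    (hB : ∀ r i, PB p (g r) (B r i)) (v : ℤ) (hv : PB p v (VP x (a + h))) :
    PB p (v + ∑ r, g r - h * Fintype.card ρ)
      (Matrix.of fun i j => Sum.elim (fun t : Fin (a + h) => x t ^ kk i) (fun m => B m i) j :
        Matrix (Fin (a + h) ⊕ ρ) (Fin (a + h) ⊕ ρ) ℚ[X]).det := by
  rw [det_newton_cols]
  set r : ℕ := Fintype.card ρ with hr
  set t0 : ℤ := (a : ℤ) + r with ht0
  -- row weights
  set α : ℕ → ℤ := fun k => -max 0 ((k : ℤ) - t0) with hα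
  set γ : Fin (a + h) ⊕ ρ → ℤ :=
    Sum.elim (fun t => if (t : ℕ) < a then 0 else ((t : ℕ) : ℤ) - t0) g with hγ
  have key := PB_det (p := p) (Matrix.of fun i j => Sum.elim
      (fun t : Fin (a + h) => cc x (kk i) t) (fun m => B m i) j :
        Matrix (Fin (a + h) ⊕ ρ) (Fin (a + h) ⊕ ρ) ℚ[X]) (fun i => α (kk i)) γ (by
    intro i j
    have hα0 : α (kk i) ≤ 0 := by
      simp only [hα]
      exact neg_nonpos.mpr (le_max_left _ _)
    rcases j with t | m
    · simp only [of_apply, Sum.elim_inl, hγ]
      split_ifs with hta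
      · have h1 := cc_PB_zero (p := p) (x := x) (T := t)
          (fun s hs => hx0 s (lt_of_le_of_lt hs hta)) (kk i) t le_rfl
        exact h1.mono (by linarith)
      · rcases Nat.lt_or_ge (kk i) t with h1 | h1
        · rw [cc_of_lt x _ _ h1]; exact PB.zero _
        · have h2 := cc_PB_neg (p := p) (x := x) (T := t)
            (fun s hs => hx1 s (lt_of_le_of_lt hs t.2)) (kk i) t le_rfl h1
          refine h2.mono ?_
          have h3 : (kk i : ℤ) - t0 ≤ max 0 ((kk i : ℤ) - t0) := le_max_right _ _
          simp only [hα]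
          linarith
    · simp only [of_apply, Sum.elim_inr, hγ]
      exact (hB m i).mono (by linarith))
  -- the sum of the weights
  have hsum : ∑ i, α (kk i) + ∑ j, γ j = ∑ r, g r - h * r := by
    have h1 : ∑ i, α (kk i) = ∑ k ∈ range (a + h + r), α k := by
      have h2 : (univ : Finset (Fin (a + h) ⊕ ρ)).image kk = range (a + h + r) := by
        refine eq_of_subset_of_card_le ?_ ?_
        · intro k hk'
          obtain ⟨i, _, rfl⟩ := mem_image.mp hk'
          exact mem_range.mpr (hk2 i)
        · rw [card_range, card_image_of_injective _ hk, card_univ, Fintype.card_sum,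
            Fintype.card_fin]
      rw [← h2, sum_image hk.injOn]
    have h3 : ∑ k ∈ range (a + h + r), α k = - ∑ j ∈ range h, (j : ℤ) := by
      have h4 : a + h + r = (a + r) + h := by ring
      rw [h4, sum_range_add, ← sum_neg_distrib]
      have h5 : ∑ k ∈ range (a + r), α k = 0 := by
        refine sum_eq_zero fun k hk' => ?_
        rw [mem_range] at hk'
        have h8 : (k : ℤ) - t0 ≤ 0 := by rw [ht0]; omega
        simp only [hα]
        rw [max_eq_left h8, neg_zero]
      rw [h5, zero_add]
      refine sum_congr rfl fun j _ => ?_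
      have h8 : 0 ≤ (((a + r + j : ℕ) : ℤ)) - t0 := by rw [ht0]; push_cast; omega
      simp only [hα]
      rw [max_eq_right h8, ht0]
      push_cast; ring
    have h6 : ∑ j, γ j = ∑ j ∈ range h, ((j : ℤ) - r) + ∑ r, g r := by
      rw [Fintype.sum_sum_type]
      congr 1
      simp only [hγ, Sum.elim_inl]
      rw [Fin.sum_univ_eq_sum_range (fun t => if t < a then (0 : ℤ) else (t : ℤ) - t0),
        sum_range_add]
      have h7 : ∑ t ∈ range a, (if t < a then (0 : ℤ) else (t : ℤ) - t0) = 0 := by
        refine sum_eq_zero fun t ht => ?_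
        rw [if_pos (mem_range.mp ht)]
      rw [h7, zero_add]
      refine sum_congr rfl fun j _ => ?_
      rw [if_neg (by omega)]
      simp only [ht0]
      push_cast; ring
    rw [h1, h3, h6, sum_sub_distrib, sum_const, card_range, nsmul_eq_mul]
    ring
  rw [hsum] at key
  have := key.mul hv
  refine this.mono (le_of_eq ?_)
  ring

end PBs

end Crest.Agent.R006.P6D203
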