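import Crest.Agent.R006.P6D2_203

/-!
# Row 6, P6, leaf D (helper203), part 3: the pieces of the Cauchy-Binet expansion

* `det_coefR_PB` : rows `al x * f_l (z x)` (nodes) or unit vectors;
* `det_coefQ_PB` : rows `be x * (z x) ^ j`;
* `det_D_PB` : the matrix of the power columns, the small columns and the arbitrary columns.
-/

set_option autoImplicit false
set_option linter.unusedSectionVars false

namespace Crest.Agent.R006.P6D203

open Polynomial Matrix Finset Crest.Agent.R006.ProdBound481

/-! ### enumerations -/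

/-- first the elements with `¬ b`, then the elements with `b` -/
lemma exists_enum {J : Type*} [Fintype J] [DecidableEq J] (b : J → Prop) [DecidablePred b] :
    ∃ (a h : ℕ), h = Fintype.card {j // b j} ∧ ∃ e : Fin (a + h) ≃ J,
      ∀ t : Fin (a + h), (t : ℕ) < a ↔ ¬ b (e t) := by
  refine ⟨Fintype.card {j // ¬ b j}, Fintype.card {j // b j}, rfl,
    finSumFinEquiv.symm.trans
      (((Equiv.sumCongr (Fintype.equivFin {j // ¬ b j}).symm (Fintype.equivFin {j // b j}).symm).trans
      (Equiv.sumComm _ _)).trans (Equiv.sumCompl b)), fun t => ?_⟩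
  obtain ⟨s, rfl⟩ := finSumFinEquiv.surjective t
  rcases s with s | s
  · have h2 := ((Fintype.equivFin {j // ¬ b j}).symm s).2
    simp only [finSumFinEquiv_apply_left, Fin.val_castAdd, s.2, true_iff]
    simpa using h2
  · have h2 := ((Fintype.equivFin {j // b j}).symm s).2
    simp only [finSumFinEquiv_apply_right, Fin.val_natAdd]
    constructor
    · intro h3; omega
    · intro h3
      exact absurd h2 (by simpa using h3)

/-- sum of a monotone function over a set of naturals -/
lemma sum_range_card_le (e : ℕ → ℤ) (he : Monotone e) (T : Finset ℕ) :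
    ∑ l ∈ range T.card, e l ≤ ∑ l ∈ T, e l := by
  induction h : T.card generalizing T with
  | zero =>
    rw [card_eq_zero] at h
    rw [h]; simp
  | succ n ih =>
    have hne : T.Nonempty := by
      rw [← card_pos]; omega
    set m := T.max' hne with hm
    have hmT : m ∈ T := T.max'_mem hne
    have h1 : (T.erase m).card = n := by rw [card_erase_of_mem hmT]; omega
    have h2 := ih (T.erase m) h1
    have h3 : n ≤ m := by
      have h4 : T ⊆ range (m + 1) := fun x hx => mem_range.mpr (Nat.lt_succ_of_le (T.le_max' x hx))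
      have h5 := card_le_card h4
      rw [card_range] at h5
      omega
    rw [sum_range_succ, ← sum_erase_add T e hmT]
    exact add_le_add h2 (he h3)

section Pieces

variable {p : ℕ} [hp : Fact p.Prime]
variable {σ : Type*} [DecidableEq σ] [Nonempty σ]

/-- extension of an enumeration to `ℕ` -/
noncomputable def ext {n : ℕ} (y : Fin n → σ) (t : ℕ) : σ :=
  if h : t < n then y ⟨t, h⟩ else Classical.arbitrary σ

omit [DecidableEq σ] in
lemma ext_val {n : ℕ} (y : Fin n → σ) (t : Fin n) : ext y t = y t := by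
  rw [ext, dif_pos t.2]

lemma ext_injOn {n : ℕ} (y : Fin n → σ) : Set.InjOn (ext y) (range n) ↔ Function.Injective y := by
  constructor
  · intro h a b hab
    have := h (mem_coe.mpr (mem_range.mpr a.2)) (mem_coe.mpr (mem_range.mpr b.2))
      (by rw [ext_val, ext_val, hab])
    exact Fin.ext this
  · intro h a ha b hb hab
    rw [mem_coe, mem_range] at ha hb
    rw [ext, ext, dif_pos ha, dif_pos hb] at hab
    exact congrArg Fin.val (h hab)

lemma ext_image {n : ℕ} (y : Fin n → σ) : (range n).image (ext y) = univ.image y := by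
  ext s
  simp only [mem_image, mem_range, mem_univ, true_and]
  constructor
  · rintro ⟨t, ht, rfl⟩
    exact ⟨⟨t, ht⟩, by rw [ext, dif_pos ht]⟩
  · rintro ⟨t, rfl⟩
    exact ⟨t, t.2, ext_val y t⟩

lemma VP_ext_PB (z : σ → ℚ) {n : ℕ} (y : Fin n → σ) (hz : Set.InjOn z (univ.image y)) (v : ℤ)
    (hv : Function.Injective y → v ≤ VV p z (univ.image y)) :
    PB p v (VP (xx z (ext y)) n) := by
  by_cases hy : Function.Injective y
  · have h1 := VP_PB (p := p) z (ext y) n ((ext_injOn y).mpr hy) (by rw [ext_image]; exact hz)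
    rw [ext_image] at h1
    exact h1.mono (hv hy)
  · rw [VP_zero z (ext y) n (fun h => hy ((ext_injOn y).mp h))]
    exact PB.zero _

/-- the matrix of powers is the Vandermonde product -/
lemma det_pow {R : Type*} [CommRing R] (x : ℕ → R) (n : ℕ) :
    (Matrix.of fun i j : Fin n => x i ^ (j : ℕ)).det = VP x n := by
  have h : (Matrix.of fun i j : Fin n => x i ^ (j : ℕ)) =
      (TT x n)ᵀ * (Matrix.of fun t j : Fin n => cc x j t) := by
    ext i j
    rw [mul_apply, of_apply, newton_node x j i.2,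
      ← Fin.sum_univ_eq_sum_range (fun t => cc x j t * NN x t (x i))]
    refine sum_congr rfl fun t _ => ?_
    simp only [TT, transpose_apply, of_apply]
    ring
  have hd : ∀ k : ℕ, cc x k k = 1 := by
    intro k
    induction k with
    | zero => rfl
    | succ k ih => rw [cc, ih, cc_of_lt x k (k + 1) (by omega), mul_zero, add_zero]
  have h2 : (Matrix.of fun t j : Fin n => cc x j t).IsUpperTriangular := by
    intro i j hij
    exact cc_of_lt x _ _ hij
  rw [h, det_mul, det_transpose, det_TT, det_of_isUpperTriangular h2]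
  simp [hd]

/-- the `Q`-coefficients -/
theorem det_coefQ_PB (z : σ → ℚ) {K : ℕ} (ψ : Fin K → σ) (be : σ → ℚ[X]) (vb : σ → ℤ)
    (hbe : ∀ j, PB p (vb (ψ j)) (be (ψ j))) (hz : Set.InjOn z (univ.image ψ)) (v : ℤ)
    (hv : Function.Injective ψ → v ≤ VV p z (univ.image ψ)) :
    PB p (∑ j, vb (ψ j) + v)
      (Matrix.of fun j j' : Fin K => be (ψ j) * C (z (ψ j)) ^ (j' : ℕ)).det := by
  have h1 : (Matrix.of fun j j' : Fin K => be (ψ j) * C (z (ψ j)) ^ (j' : ℕ)) =
      Matrix.diagonal (fun j => be (ψ j)) *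
        (Matrix.of fun i j : Fin K => (xx z (ext ψ)) i ^ (j : ℕ)) := by
    ext1 i j
    rw [diagonal_mul]
    simp only [of_apply, xx, ext_val]
  rw [h1, det_mul, det_diagonal, det_pow]
  exact (PB.prod _ _ _ fun j _ => hbe j).mul (VP_ext_PB z ψ hz v hv)

variable {A : ℕ}

/-- node labels of the `R`-expansion: a site or one of the small columns -/
abbrev Z2 (σ : Type*) (A : ℕ) : Type _ := σ ⊕ Fin A

/-- coefficients of the `R`-columns -/
noncomputable def C2 (z : σ → ℚ) (al : σ → ℚ[X]) (f : Fin A → ℚ[X]) : Z2 σ A → Fin A → ℚ[X]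
  | Sum.inl x, l => al x * C ((f l).eval (z x))
  | Sum.inr l', l => if l' = l then 1 else 0

lemma C2_inr_PB (z : σ → ℚ) (al : σ → ℚ[X]) (f : Fin A → ℚ[X]) (w : Z2 σ A) (hw : ¬ w.isLeft = true)
    (l : Fin A) : PB p 0 (C2 z al f w l) := by
  rcases w with x | l'
  · exact absurd rfl hw
  · simp only [C2]
    split_ifs
    · exact PB.one
    · exact PB.zero _

/-- the `R`-coefficients: rows `al x * f_l (z x)` and unit rows -/
theorem det_coefR_PB (z : σ → ℚ) (al : σ → ℚ[X]) (va : σ → ℤ) (f : Fin A → ℚ[X])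
    (hf : ∀ l, PB p 0 (f l)) (φ : Fin A → Z2 σ A) (P : Fin A → Prop) [DecidablePred P]
    (hP : ∀ l, ¬ P l → ¬ (φ l).isLeft = true)
    (nd : {l // P l} → σ) (hnd : ∀ l : {l // P l}, φ l = Sum.inl (nd l))
    (hal : ∀ l, PB p (va (nd l)) (al (nd l))) (hint : ∀ l, padicNorm p (z (nd l)) ≤ 1)
    (hz : Set.InjOn z (univ.image nd)) (v : ℤ)
    (hv : Function.Injective nd → v ≤ VV p z (univ.image nd)) :
    PB p (∑ l, va (nd l) + v) (Matrix.of fun l l' : Fin A => C2 z al f (φ l) l').det := by
  classical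
  obtain ⟨n, ⟨e1⟩⟩ : ∃ n, Nonempty (Fin n ≃ {l // P l}) := ⟨_, ⟨(Fintype.equivFin _).symm⟩⟩
  obtain ⟨ε, hε1, hε2⟩ : ∃ ε : Fin n ⊕ {l // ¬ P l} ≃ Fin A,
      (∀ t, ε (Sum.inl t) = (e1 t).1) ∧ ∀ r, ε (Sum.inr r) = r.1 :=
    ⟨(Equiv.sumCongr e1 (Equiv.refl _)).trans (Equiv.sumCompl P),
      fun t => by simp, fun r => by simp⟩
  set y : Fin n → σ := fun t => nd (e1 t) with hy
  obtain ⟨m, hm⟩ : ∃ m : ℕ, ∀ l, (f l).natDegree < m :=
    ⟨univ.sup (fun l => (f l).natDegree) + 1, fun l =>
      Nat.lt_succ_of_le (Finset.le_sup (f := fun l => (f l).natDegree) (mem_univ l))⟩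
  set F : Matrix (Fin n ⊕ {l // ¬ P l}) (Fin n ⊕ {l // ¬ P l}) ℚ[X] :=
    Matrix.of fun i j => Sum.elim
      (fun t : Fin n => ∑ k ∈ range m, C ((f (ε j)).coeff k) * (xx z (ext y)) t ^ k)
      (fun r => C2 z al f (φ r.1) (ε j)) i with hF
  have h1 : (Matrix.of fun l l' : Fin A => C2 z al f (φ l) l').submatrix ε ε =
      Matrix.diagonal (Sum.elim (fun t => al (y t)) (fun _ => 1)) * F := by
    ext1 i j
    rw [diagonal_mul, submatrix_apply, of_apply]
    rcases i with t | r
    · rw [hε1, hnd (e1 t)]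
      simp only [C2, Sum.elim_inl, hF, of_apply, xx, ext_val]
      congr 1
      rw [eval_eq_sum_range' (hm (ε j)), map_sum]
      refine sum_congr rfl fun k _ => ?_
      rw [C_mul, C_pow]
    · rw [hε2]
      simp only [Sum.elim_inr, hF, of_apply, one_mul]
  rw [← det_submatrix_equiv_self ε, h1, det_mul, det_diagonal, Fintype.prod_sum_type]
  simp only [Sum.elim_inl, Sum.elim_inr, prod_const_one, mul_one]
  have himg : univ.image y = univ.image nd := by
    ext s
    simp only [mem_image, mem_univ, true_and, hy]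
    constructor
    · rintro ⟨t, rfl⟩; exact ⟨e1 t, rfl⟩
    · rintro ⟨l, rfl⟩; exact ⟨e1.symm l, by rw [Equiv.apply_symm_apply]⟩
  have hinj : Function.Injective y ↔ Function.Injective nd := by
    constructor
    · intro h
      have : nd = y ∘ e1.symm := by funext l; simp [hy]
      rw [this]
      exact h.comp e1.symm.injective
    · intro h; exact h.comp e1.injective
  have hsum : ∑ l, va (nd l) = ∑ t, va (y t) := by
    rw [← Equiv.sum_comp e1]
  rw [hsum]
  refine (PB.prod _ _ _ fun t _ => hal (e1 t)).mul ?_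
  refine det_rows_PB (xx z (ext y)) n ?_ m _ ?_ _ ?_ v ?_
  · intro t ht
    rw [xx, ext, dif_pos ht]
    refine PB.C ?_
    rw [neg_zero, zpow_zero]
    exact hint _
  · intro j k
    refine PB.C ?_
    exact hf (ε j) k
  · intro r j
    exact C2_inr_PB z al f _ (hP _ r.2) _
  · refine VP_ext_PB z y (by rw [himg]; exact hz) v ?_
    intro h
    rw [himg]
    exact hv (hinj.mp h)

/-- the matrix of power columns (nodes) and arbitrary columns -/
theorem det_D_PB {ι : Type*} [Fintype ι] [DecidableEq ι] (P : ι → Prop) [DecidablePred P]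
    (nd : {j // P j} → σ) (half : σ → Prop) [DecidablePred half] (z : σ → ℚ)
    (h0 : ∀ x, ¬ half x → padicNorm p (z x) ≤ 1) (h1 : ∀ x, padicNorm p (z x) ≤ p)
    (kk : ι → ℕ) (hk : Function.Injective kk) (hk2 : ∀ i, kk i < Fintype.card ι)
    (col : ι → ι → ℚ[X]) (hcol : ∀ (j : {j // P j}) (i : ι), col j i = C (z (nd j)) ^ kk i)
    (g : {j // ¬ P j} → ℤ) (hg : ∀ (j : {j // ¬ P j}) (i : ι), PB p (g j) (col j i))
    (hz : Set.InjOn z (univ.image nd)) (v : ℤ)
    (hv : Function.Injective nd → v ≤ VV p z (univ.image nd)) :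
    PB p (v + ∑ r, g r - (Fintype.card {j // half (nd j)}) * (Fintype.card {j // ¬ P j}))
      (Matrix.of fun i j => col j i : Matrix ι ι ℚ[X]).det := by
  classical
  obtain ⟨a, h, hh, e1, he1⟩ := exists_enum (J := {j // P j}) (fun j => half (nd j))
  rw [← hh]
  obtain ⟨ε, hε1, hε2⟩ : ∃ ε : Fin (a + h) ⊕ {j // ¬ P j} ≃ ι,
      (∀ t, ε (Sum.inl t) = (e1 t).1) ∧ ∀ r, ε (Sum.inr r) = r.1 :=
    ⟨(Equiv.sumCongr e1 (Equiv.refl _)).trans (Equiv.sumCompl P),
      fun t => by simp, fun r => by simp⟩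
  set y : Fin (a + h) → σ := fun t => nd (e1 t) with hy
  have himg : univ.image y = univ.image nd := by
    ext s
    simp only [mem_image, mem_univ, true_and, hy]
    constructor
    · rintro ⟨t, rfl⟩; exact ⟨e1 t, rfl⟩
    · rintro ⟨l, rfl⟩; exact ⟨e1.symm l, by rw [Equiv.apply_symm_apply]⟩
  have hinj : Function.Injective y ↔ Function.Injective nd := by
    constructor
    · intro h
      have : nd = y ∘ e1.symm := by funext l; simp [hy]
      rw [this]
      exact h.comp e1.symm.injective
    · intro h; exact h.comp e1.injective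
  have hM : (Matrix.of fun i j => col j i : Matrix ι ι ℚ[X]).submatrix ε ε =
      (Matrix.of fun i j => Sum.elim (fun t : Fin (a + h) => (xx z (ext y)) t ^ kk (ε i))
        (fun m => col m.1 (ε i)) j) := by
    ext1 i j
    rw [submatrix_apply, of_apply, of_apply]
    rcases j with t | m
    · rw [hε1, hcol (e1 t), Sum.elim_inl, xx, ext_val]
    · rw [hε2, Sum.elim_inr]
  rw [← det_submatrix_equiv_self ε, hM]
  refine det_cols_PB (xx z (ext y)) a h ?_ ?_ (fun i => kk (ε i)) (hk.comp ε.injective) ?_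
    (fun m i => col m.1 (ε i)) g (fun r i => hg r _) v ?_
  · intro t ht
    have ht' : t < a + h := by omega
    rw [xx, ext, dif_pos ht']
    refine PB.C ?_
    rw [neg_zero, zpow_zero]
    exact h0 _ ((he1 ⟨t, ht'⟩).mp ht)
  · intro t ht
    rw [xx, ext, dif_pos ht]
    exact PB_neg_one (h1 _)
  · intro i
    have := hk2 (ε i)
    rw [← Fintype.card_congr ε, Fintype.card_sum, Fintype.card_fin] at this
    exact this
  · refine VP_ext_PB z y (by rw [himg]; exact hz) v ?_
    intro h
    rw [himg]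
    exact hv (hinj.mp h)

end Pieces

end Crest.Agent.R006.P6D203
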