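import Crest.Agent.R006.P6Alg_121

/-!
# Row 6, block P6 (prime 2): degrees and divisibilities (helper121)
-/

set_option autoImplicit false

namespace Crest.Agent.R006.P6x121

open Polynomial Finset

/-- `2^m m!` -/
def wt (m : ℕ) : ℤ := 2 ^ m * (m.factorial : ℤ)

lemma f_dvd (m : ℕ) (k : ℤ) : wt m ∣ f m (2 * k) := by
  have h1 : f m (2 * k) = 2 ^ m * ∏ i ∈ range m, (k - i) := by
    rw [f]
    have : ∀ i ∈ range m, (2 * k - 2 * (i : ℤ)) = 2 * (k - i) := fun i _ => by ring
    rw [prod_congr rfl this, prod_mul_distrib, prod_const, card_range]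
  have h2 : ((m.factorial : ℤ)) ∣ ∏ i ∈ range m, (k - i) := by
    have h3 := Ring.descPochhammer_eq_factorial_smul_choose k m
    rw [← Polynomial.eval_eq_smeval, descPochhammer_eval_eq_prod_range] at h3
    rw [h3, nsmul_eq_mul]
    exact dvd_mul_right _ _
  rw [h1, wt]
  exact mul_dvd_mul_left _ h2

lemma Am_dvd (m K : ℕ) : C (wt m) ∣ Am m K := by
  induction K with
  | zero => rw [Am]; exact dvd_zero _
  | succ K ih =>
    rw [Am]
    exact dvd_add (ih.mul_right _) (((map_dvd C (f_dvd m K))).mul_right _)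

lemma Bm_dvd (m K : ℕ) : C (wt m) ∣ Bm m K := by
  induction K with
  | zero => rw [Bm]; exact dvd_zero _
  | succ K ih =>
    rw [Bm]
    have e : (-2 * (K : ℤ) - 2) = 2 * (-(K : ℤ) - 1) := by ring
    rw [e]
    exact dvd_add (ih.mul_right _) (((map_dvd C (f_dvd m _))).mul_right _)

lemma D_monic (K : ℕ) : (D K).Monic := by
  rw [D]
  exact monic_prod_of_monic _ _ fun i _ => by
    have := monic_X_sub_C (i : ℤ)
    simpa using this

lemma D_natDegree (K : ℕ) : (D K).natDegree = 2 * K := by
  rw [D, natDegree_prod_of_monic]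
  · have : ∀ i ∈ range (2 * K), (X - (i : ℤ[X])).natDegree = 1 := fun i _ => by
      have := natDegree_X_sub_C (i : ℤ)
      simpa using this
    rw [sum_congr rfl this]; simp
  · exact fun i _ => by
      have := monic_X_sub_C (i : ℤ)
      simpa using this

lemma D'_monic (K : ℕ) : (D' K).Monic := by
  rw [D']
  exact monic_prod_of_monic _ _ fun i _ => by
    have := monic_X_sub_C ((i : ℤ) + 1)
    simpa [sub_sub] using this

lemma D'_natDegree (K : ℕ) : (D' K).natDegree = 2 * K := by
  rw [D', natDegree_prod_of_monic]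
  · have : ∀ i ∈ range (2 * K), (X - (i : ℤ[X]) - 1).natDegree = 1 := fun i _ => by
      have := natDegree_X_sub_C ((i : ℤ) + 1)
      simpa [sub_sub] using this
    rw [sum_congr rfl this]; simp
  · exact fun i _ => by
      have := monic_X_sub_C ((i : ℤ) + 1)
      simpa [sub_sub] using this

lemma U_natDegree (K : ℕ) : (U K).natDegree ≤ 2 * K := by
  induction K with
  | zero => simp [U]
  | succ K ih =>
    rw [U_succ]
    refine natDegree_mul_le.trans ?_
    have : ((2 * X - 2 * (K : ℤ[X]) - 1) ^ 2).natDegree ≤ 2 := by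
      refine natDegree_pow_le.trans ?_
      have : (2 * X - 2 * (K : ℤ[X]) - 1).natDegree ≤ 1 := by compute_degree
      omega
    omega

lemma Bm_natDegree (K : ℕ) : (Bm 0 K).natDegree ≤ 2 * K - 2 := by
  induction K with
  | zero => simp [Bm]
  | succ K ih =>
    rw [Bm, f_zero, map_one, one_mul]
    refine natDegree_add_le_of_degree_le ?_ ((U_natDegree K).trans (by omega))
    rcases Nat.eq_zero_or_pos K with h | h
    · subst h; simp [Bm]
    · refine natDegree_mul_le.trans ?_
      have : ((X - 2 * (K : ℤ[X])) * (X - 2 * (K : ℤ[X]) - 1)).natDegree ≤ 2 := by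
        compute_degree
      omega

lemma Bm_degree_lt (K : ℕ) : (Bm 0 K).degree < (D K).degree := by
  rcases Nat.eq_zero_or_pos K with h | h
  · subst h
    simp [Bm, D]
  · rw [degree_eq_natDegree (D_monic K).ne_zero, D_natDegree]
    refine (degree_le_natDegree).trans_lt ?_
    have := Bm_natDegree K
    exact_mod_cast (by omega : (Bm 0 K).natDegree < 2 * K)

lemma be_natDegree (m : ℕ) : (be m).natDegree ≤ 2 := by
  rw [be]; compute_degree

lemma ga_natDegree (m : ℕ) : (ga m).natDegree ≤ 2 := by
  rw [ga]; compute_degree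

lemma be_coeff (m : ℕ) : (be m).coeff 2 = -3 := by
  have e : be m = C (-3) * X ^ 2 + C (-(2 * (4 * (m : ℤ) - 2)) + 3 + 8 * ((m : ℤ) - 1)) * X
      + C ((2 * (m : ℤ) + 1) * (4 * m - 2) + 7 + 4 * ((m : ℤ) - 1)) := by
    rw [be]
    simp only [map_add, map_sub, map_mul, map_neg, map_natCast, map_ofNat, map_one]
    ring
  rw [e, coeff_add, coeff_add, coeff_C_mul, coeff_X_pow, if_pos rfl, coeff_C_mul, coeff_X, coeff_C,
    if_neg (by norm_num), if_neg (by norm_num)]
  ring

lemma g_deg (m : ℕ) : (g m).natDegree ≤ 2 * m ∧ (g m).coeff (2 * m) = 3 ^ m := by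
  induction m using Nat.strong_induction_on with
  | _ m ih =>
    match m, ih with
    | 0, _ => simp [g]
    | 1, _ =>
      rw [g]
      refine ⟨by rw [natDegree_neg]; exact be_natDegree 0, ?_⟩
      rw [coeff_neg, mul_one, be_coeff]; norm_num
    | m + 2, ih =>
      obtain ⟨d1, c1⟩ := ih (m + 1) (by omega)
      obtain ⟨d0, _⟩ := ih m (by omega)
      have hl : (2 * (m : ℤ[X]) + 1 - 2 * X).natDegree ≤ 1 := by compute_degree
      have hsm : (ga (m + 1) * (2 * (m : ℤ[X]) + 1 - 2 * X) * g m).natDegree ≤ 2 * m + 3 := by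
        refine natDegree_mul_le.trans ?_
        have h1 : (ga (m + 1) * (2 * (m : ℤ[X]) + 1 - 2 * X)).natDegree ≤ 3 :=
          natDegree_mul_le.trans (by have := ga_natDegree (m + 1); omega)
        omega
      have hb : (-be (m + 1) * g (m + 1)).natDegree ≤ 2 * (m + 2) := by
        refine natDegree_mul_le.trans ?_
        rw [natDegree_neg]
        have := be_natDegree (m + 1)
        omega
      rw [g]
      refine ⟨(natDegree_sub_le _ _).trans (max_le hb (hsm.trans (by omega))), ?_⟩
      have h0 : (ga (m + 1) * (2 * (m : ℤ[X]) + 1 - 2 * X) * g m).coeff (2 * (m + 2)) = 0 :=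
        coeff_eq_zero_of_natDegree_lt (by omega)
      rw [coeff_sub, h0, sub_zero,
        show 2 * (m + 2) = 2 + 2 * (m + 1) by ring,
        coeff_mul_add_eq_of_natDegree_le (by rw [natDegree_neg]; exact be_natDegree (m + 1)) d1,
        coeff_neg, be_coeff, c1]
      ring

lemma W_natDegree (m : ℕ) : (W m).natDegree ≤ m := by
  induction m with
  | zero => simp [W]
  | succ m ih =>
    rw [W_succ]
    refine natDegree_mul_le.trans ?_
    have hl : (2 * (m : ℤ[X]) + 1 - 2 * X).natDegree ≤ 1 := by compute_degree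
    omega

lemma Y_natDegree (m : ℕ) (k : ℤ) : (Y m k).natDegree ≤ 2 * m := by
  induction m using Nat.strong_induction_on with
  | _ m ih =>
    match m, ih with
    | 0, _ => simp [Y]
    | 1, _ => simp [Y]
    | m + 2, ih =>
      have d1 := ih (m + 1) (by omega)
      have d0 := ih m (by omega)
      have hl : (2 * (m : ℤ[X]) + 1 - 2 * X).natDegree ≤ 1 := by compute_degree
      have hsm : (ga (m + 1) * (2 * (m : ℤ[X]) + 1 - 2 * X) * Y m k).natDegree ≤ 2 * m + 3 := by
        refine natDegree_mul_le.trans ?_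
        have h1 : (ga (m + 1) * (2 * (m : ℤ[X]) + 1 - 2 * X)).natDegree ≤ 3 :=
          natDegree_mul_le.trans (by have := ga_natDegree (m + 1); omega)
        omega
      have hb : (-be (m + 1) * Y (m + 1) k).natDegree ≤ 2 * (m + 2) := by
        refine natDegree_mul_le.trans ?_
        rw [natDegree_neg]
        have := be_natDegree (m + 1)
        omega
      have hw : (W (m + 1) * C (f (m + 1) (2 * k))).natDegree ≤ 2 * (m + 2) := by
        refine (natDegree_mul_C_le _ _).trans ?_
        have := W_natDegree (m + 1)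
        omega
      rw [Y]
      exact natDegree_add_le_of_degree_le
        ((natDegree_sub_le _ _).trans (max_le hb (hsm.trans (by omega)))) hw

lemma g_ne_zero (m : ℕ) : g m ≠ 0 := by
  intro h
  have := (g_deg m).2
  rw [h, coeff_zero] at this
  exact absurd this.symm (by positivity)

lemma g_natDegree (m : ℕ) : (g m).natDegree = 2 * m :=
  le_antisymm (g_deg m).1 (le_natDegree_of_ne_zero (by rw [(g_deg m).2]; positivity))

/-- the basis of the `R`-columns, over `ℤ` (leading coefficient `3^(i/2)`) -/
noncomputable def bz (i : ℕ) : ℤ[X] := g (i / 2) * X ^ (i % 2)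

lemma bz_natDegree (i : ℕ) : (bz i).natDegree = i := by
  rw [bz, natDegree_mul_X_pow _ (g_ne_zero _), g_natDegree]
  omega

lemma bz_leadingCoeff (i : ℕ) : (bz i).leadingCoeff = 3 ^ (i / 2) := by
  rw [bz, leadingCoeff_mul_X_pow, leadingCoeff, g_natDegree, (g_deg _).2]

/-- the monic basis of the `R`-columns, over `ℚ` -/
noncomputable def bq (i : ℕ) : ℚ[X] := C ((3 : ℚ) ^ (i / 2))⁻¹ * (bz i).map (Int.castRingHom ℚ)

lemma bz_map_ne_zero (i : ℕ) : (bz i).map (Int.castRingHom ℚ) ≠ 0 := by
  rw [Ne, Polynomial.map_eq_zero_iff (Int.cast_injective)]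
  intro h
  have := bz_leadingCoeff i
  rw [h, leadingCoeff_zero] at this
  exact absurd this.symm (by positivity)

lemma bq_natDegree (i : ℕ) : (bq i).natDegree = i := by
  rw [bq, natDegree_C_mul (by positivity), natDegree_map_eq_of_injective Int.cast_injective,
    bz_natDegree]

lemma bq_monic (i : ℕ) : (bq i).Monic := by
  rw [Monic, bq, leadingCoeff_mul, leadingCoeff_C, leadingCoeff_map_of_injective
    Int.cast_injective, bz_leadingCoeff]
  simp

end Crest.Agent.R006.P6x121
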