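import Crest.Agent.R006.P6Stmt_784

/-!
# Row 6, block P6 (p = 2), leaf N of note 2889: Newton expansions (helper674)

* `N1` : an integral polynomial in the basis `bin l`: coefficients divisible by `l!`.
* `N1_zero` : the coefficients below `A` vanish if `P` vanishes at `0, .., A-1`.
* `N2` : `W(2s+1)`: coefficients divisible by `2^l l!`.
* `N3` : `bin l (s + 1/2)`.
* `N4` : Taylor coefficients of `bin l` at integers.
-/

set_option autoImplicit false

namespace Crest.Agent.R006.P6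

open Polynomial Crest.Agent.R006.NV Crest.Agent.R006.PsiInf Crest.Agent.R006.D
open Crest.Agent.R006.ProdBound481

/-! ### `I2` -/

lemma two_zpow_pos (v : ℤ) : (0 : ℚ) < (2 : ℚ) ^ v := zpow_pos (by norm_num) _

lemma I2.zero (v : ℤ) : I2 v 0 := by
  rw [I2, padicNorm.zero]; exact (two_zpow_pos _).le

lemma I2.mono {v w : ℤ} {x : ℚ} (h : I2 v x) (hw : w ≤ v) : I2 w x :=
  h.trans (zpow_le_zpow_right₀ (by norm_num) (by omega))

lemma I2.add {v : ℤ} {x y : ℚ} (hx : I2 v x) (hy : I2 v y) : I2 v (x + y) :=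
  (padicNorm.nonarchimedean (p := 2)).trans (max_le hx hy)

lemma I2.neg {v : ℤ} {x : ℚ} (hx : I2 v x) : I2 v (-x) := by
  rw [I2, padicNorm.neg]; exact hx

lemma I2.sub {v : ℤ} {x y : ℚ} (hx : I2 v x) (hy : I2 v y) : I2 v (x - y) := by
  rw [sub_eq_add_neg]; exact hx.add hy.neg

lemma I2.mul {v w : ℤ} {x y : ℚ} (hx : I2 v x) (hy : I2 w y) : I2 (v + w) (x * y) := by
  rw [I2, padicNorm.mul, neg_add, zpow_add₀ (by norm_num : (2 : ℚ) ≠ 0)]
  exact mul_le_mul hx hy (padicNorm.nonneg _) (two_zpow_pos _).le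

lemma I2.sum {ι : Type*} {v : ℤ} (s : Finset ι) (f : ι → ℚ) (h : ∀ i ∈ s, I2 v (f i)) :
    I2 v (∑ i ∈ s, f i) := by
  classical
  induction s using Finset.induction_on with
  | empty => simpa using I2.zero v
  | insert a s ha ih =>
    rw [Finset.sum_insert ha]
    exact (h a (Finset.mem_insert_self _ _)).add
      (ih fun i hi => h i (Finset.mem_insert_of_mem hi))

lemma I2_iff {v : ℤ} {x : ℚ} (hx : x ≠ 0) : I2 v x ↔ v ≤ padicValRat 2 x := by
  rw [I2, padicNorm.eq_zpow_of_nonzero hx]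
  have h2 : (1 : ℚ) < (2 : ℕ) := by norm_num
  push_cast
  rw [zpow_le_zpow_iff_right₀ (by norm_num)]
  omega

lemma I2_nat (n : ℕ) (hn : n ≠ 0) : I2 (padicValNat 2 n) (n : ℚ) := by
  rw [I2_iff (by exact_mod_cast hn), padicValRat.of_nat]

lemma I2_inv_nat (n : ℕ) (hn : n ≠ 0) : I2 (-(padicValNat 2 n : ℤ)) ((n : ℚ)⁻¹) := by
  rw [I2_iff (inv_ne_zero (by exact_mod_cast hn)), padicValRat.inv, padicValRat.of_nat]

lemma I2_int (z : ℤ) : I2 0 (z : ℚ) := by
  rw [I2, neg_zero, zpow_zero]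
  exact padicNorm.of_int z

lemma I2_two_pow (n : ℕ) : I2 n ((2 : ℚ) ^ n) := by
  rw [I2_iff (by positivity), padicValRat.pow]
  have h2 : padicValRat 2 (2 : ℚ) = 1 := by
    have := padicValRat.self (p := 2) (by norm_num)
    exact_mod_cast this
  rw [h2, mul_one]

lemma I2_two_pow_inv (n : ℕ) : I2 (-(n : ℤ)) (((2 : ℚ) ^ n)⁻¹) := by
  rw [I2_iff (by positivity), padicValRat.inv, padicValRat.pow]
  have h2 : padicValRat 2 (2 : ℚ) = 1 := by
    have := padicValRat.self (p := 2) (by norm_num)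
    exact_mod_cast this
  rw [h2, mul_one]

lemma I2.coeff {v : ℤ} {P : ℚ[X]} (h : PB 2 v P) (k : ℕ) : I2 v (P.coeff k) := by
  have := h k
  push_cast at this
  exact this

lemma I2.toPB {v : ℤ} {x : ℚ} (h : I2 v x) : PB 2 v (C x) := by
  apply PB.C
  push_cast
  exact h

/-! ### monic bases -/

lemma PB_X_sub_C_int (z : ℤ) : PB 2 0 (X - C (z : ℚ)) := by
  refine PB.sub ?_ (I2_int z).toPB
  intro k
  rw [coeff_X]
  push_cast
  split_ifs
  · simp
  · simp

/-- expansion of an integral polynomial in a monic integral basis -/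
lemma expand (D : ℕ → ℚ[X]) (hm : ∀ l, (D l).Monic) (hd : ∀ l, (D l).natDegree = l)
    (hD : ∀ l, PB 2 0 (D l)) (d : ℕ) : ∀ P : ℚ[X], P.natDegree ≤ d → PB 2 0 P →
    ∃ c : ℕ → ℚ, (∀ l, I2 0 (c l)) ∧ P = ∑ l ∈ Finset.range (d + 1), C (c l) * D l := by
  induction d with
  | zero =>
    intro P hP hPB
    refine ⟨fun l => P.coeff 0, fun l => I2.coeff hPB 0, ?_⟩
    have h0 : D 0 = 1 := (hm 0).natDegree_eq_zero.mp (hd 0)
    rw [Finset.sum_range_one, h0, mul_one]
    exact eq_C_of_natDegree_le_zero hP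
  | succ d ih =>
    intro P hP hPB
    set a : ℚ := P.coeff (d + 1) with ha
    have hI : I2 0 a := I2.coeff hPB _
    have h1 : PB 2 0 (P - C a * D (d + 1)) := by
      refine hPB.sub ?_
      have := hI.toPB.mul (hD (d + 1))
      simpa using this
    have h2 : (P - C a * D (d + 1)).natDegree ≤ d := by
      rw [natDegree_le_iff_coeff_eq_zero]
      intro N hN
      rcases Nat.lt_or_ge (d + 1) N with h | h
      · rw [coeff_sub, coeff_eq_zero_of_natDegree_lt (lt_of_le_of_lt hP h), coeff_C_mul,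
          coeff_eq_zero_of_natDegree_lt (by rw [hd]; exact h), mul_zero, sub_zero]
      · have : N = d + 1 := by omega
        subst this
        have h3 : (D (d + 1)).coeff (d + 1) = 1 := by
          have := (hm (d + 1)).coeff_natDegree
          rwa [hd] at this
        rw [coeff_sub, coeff_C_mul, h3, mul_one, ← ha, sub_self]
    obtain ⟨c, hc, hcP⟩ := ih _ h2 h1
    refine ⟨fun l => if l = d + 1 then a else c l, fun l => ?_, ?_⟩
    · dsimp only
      split_ifs
      · exact hI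
      · exact hc l
    · rw [Finset.sum_range_succ]
      dsimp only
      rw [if_pos rfl]
      have h3 : ∑ l ∈ Finset.range (d + 1), C (if l = d + 1 then a else c l) * D l =
          ∑ l ∈ Finset.range (d + 1), C (c l) * D l := by
        refine Finset.sum_congr rfl fun l hl => ?_
        rw [if_neg (by have := Finset.mem_range.mp hl; omega)]
      rw [h3, ← hcP]
      ring

lemma PB_descPochhammer (l : ℕ) : PB 2 0 (descPochhammer ℚ l) := by
  induction l with
  | zero => rw [descPochhammer_zero]; exact PB.one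
  | succ l ih =>
    rw [descPochhammer_succ_right]
    have h := PB_X_sub_C_int (l : ℤ)
    have e : (X - ((l : ℕ) : ℚ[X])) = X - C ((l : ℤ) : ℚ) := by
      push_cast
      rw [← C_eq_natCast]
    rw [e]
    simpa using ih.mul h

lemma bin_eq (l : ℕ) : D.bin l = C ((l.factorial : ℚ)⁻¹) * descPochhammer ℚ l := rfl

lemma descPochhammer_eq_bin (l : ℕ) : descPochhammer ℚ l = C (l.factorial : ℚ) * D.bin l := by
  rw [bin_eq, ← mul_assoc, ← C_mul, mul_inv_cancel₀ (by exact_mod_cast l.factorial_ne_zero), C_1,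
    one_mul]

/-- **(N1)** -/
theorem N1 {P : ℚ[X]} (hP : PB 2 0 P) {d : ℕ} (hd : P.natDegree ≤ d) :
    ∃ a : ℕ → ℚ, (∀ l, I2 (padicValNat 2 l.factorial) (a l)) ∧
      P = ∑ l ∈ Finset.range (d + 1), C (a l) * D.bin l := by
  obtain ⟨c, hc, h⟩ := expand (fun l => descPochhammer ℚ l) (fun l => monic_descPochhammer ℚ l)
    (fun l => descPochhammer_natDegree ℚ l) PB_descPochhammer d P hd hP
  refine ⟨fun l => c l * l.factorial, fun l => ?_, ?_⟩
  · have := (hc l).mul (I2_nat _ l.factorial_ne_zero)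
    simpa using this
  · rw [h]
    refine Finset.sum_congr rfl fun l _ => ?_
    rw [descPochhammer_eq_bin, C_mul, mul_assoc]

lemma bin_eval_nat (l n : ℕ) : (D.bin l).eval (n : ℚ) = n.choose l := by
  rw [bin_eq, eval_mul, eval_C, descPochhammer_eval_eq_descFactorial,
    Nat.descFactorial_eq_factorial_mul_choose]
  push_cast
  rw [← mul_assoc, inv_mul_cancel₀ (by exact_mod_cast l.factorial_ne_zero), one_mul]

/-- **(N1), vanishing** -/
theorem N1_zero {P : ℚ[X]} {d A : ℕ} {a : ℕ → ℚ}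
    (h : P = ∑ l ∈ Finset.range (d + 1), C (a l) * D.bin l)
    (h0 : ∀ n < A, P.eval (n : ℚ) = 0) : ∀ l < A, l ≤ d → a l = 0 := by
  intro l
  induction l using Nat.strong_induction_on with
  | _ l ih =>
    intro hl hld
    have h1 := h0 l hl
    rw [h, eval_finsetSum] at h1
    rw [Finset.sum_eq_single l] at h1
    · rw [eval_mul, eval_C, bin_eval_nat, Nat.choose_self, Nat.cast_one, mul_one] at h1
      exact h1
    · intro k hk hkl
      rw [eval_mul, eval_C, bin_eval_nat]
      rcases Nat.lt_or_ge l k with h2 | h2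
      · rw [Nat.choose_eq_zero_of_lt h2, Nat.cast_zero, mul_zero]
      · rw [ih k (by omega) (by omega) (by omega), zero_mul]
    · intro h2
      exact absurd (Finset.mem_range.mpr (by omega)) h2

/-- `y (y-2) .. (y-2l+2)` -/
noncomputable def dd2 (l : ℕ) : ℚ[X] := ∏ i ∈ Finset.range l, (X - C ((2 * i : ℤ) : ℚ))

lemma dd2_monic (l : ℕ) : (dd2 l).Monic := monic_prod_of_monic _ _ fun _ _ => monic_X_sub_C _

lemma dd2_natDegree (l : ℕ) : (dd2 l).natDegree = l := by
  rw [dd2, natDegree_prod_of_monic _ _ fun _ _ => monic_X_sub_C _,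
    Finset.sum_congr rfl fun _ _ => natDegree_X_sub_C _]
  simp

lemma PB_dd2 (l : ℕ) : PB 2 0 (dd2 l) := by
  have := PB.prod (p := 2) (Finset.range l) (fun _ => 0) (fun i => (X - C ((2 * i : ℤ) : ℚ)))
    fun i _ => PB_X_sub_C_int _
  simpa [dd2] using this

lemma dd2_comp (l : ℕ) :
    (dd2 l).comp (C 2 * X) = C ((2 : ℚ) ^ l * l.factorial) * D.bin l := by
  have h : (dd2 l).comp (C 2 * X) = C ((2 : ℚ) ^ l) * descPochhammer ℚ l := by
    induction l with
    | zero => simp [dd2]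
    | succ l ih =>
      have h1 : dd2 (l + 1) = dd2 l * (X - C ((2 * l : ℤ) : ℚ)) := by
        rw [dd2, Finset.prod_range_succ]; rfl
      rw [h1, mul_comp, ih, descPochhammer_succ_right, sub_comp, X_comp, C_comp, pow_succ, C_mul]
      have e : C (((2 * l : ℤ)) : ℚ) = C (2 : ℚ) * ((l : ℕ) : ℚ[X]) := by
        rw [← C_eq_natCast, ← C_mul]
        congr 1
        push_cast
        ring
      rw [e]
      ring
  rw [h, descPochhammer_eq_bin, C_mul, mul_assoc]

/-- polynomials in `2s` -/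
theorem N2' {V : ℚ[X]} (hV : PB 2 0 V) {d : ℕ} (hd : V.natDegree ≤ d) :
    ∃ a : ℕ → ℚ, (∀ l : ℕ, I2 ((l : ℤ) + padicValNat 2 l.factorial) (a l)) ∧
      V.comp (C 2 * X) = ∑ l ∈ Finset.range (d + 1), C (a l) * D.bin l := by
  obtain ⟨c, hc, h⟩ := expand dd2 dd2_monic dd2_natDegree PB_dd2 d V hd hV
  refine ⟨fun l => c l * ((2 : ℚ) ^ l * l.factorial), fun l => ?_, ?_⟩
  · have := (hc l).mul ((I2_two_pow l).mul (I2_nat _ l.factorial_ne_zero))
    simpa using this
  · conv_lhs => rw [h]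
    rw [← coe_compRingHom_apply, map_sum]
    refine Finset.sum_congr rfl fun l _ => ?_
    rw [coe_compRingHom_apply, mul_comp, C_comp, dd2_comp, C_mul (a := c l), mul_assoc]

lemma PB_comp_X_add_one {W : ℚ[X]} (hW : PB 2 0 W) : PB 2 0 (W.comp (X + 1)) := by
  rw [comp_eq_sum_left, Polynomial.sum]
  refine PB.sum _ _ fun k _ => ?_
  have h1 : PB 2 0 (X + 1 : ℚ[X]) := by
    have := PB_X_sub_C_int (-1)
    have e : (X - C ((-1 : ℤ) : ℚ)) = X + 1 := by
      push_cast
      rw [C_neg, C_1, sub_neg_eq_add]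
    rwa [e] at this
  have h2 : PB 2 0 ((X + 1 : ℚ[X]) ^ k) := by
    have := PB.prod (p := 2) (Finset.range k) (fun _ => 0) (fun _ => (X + 1 : ℚ[X])) fun _ _ => h1
    simpa using this
  have := (I2.coeff hW k).toPB.mul h2
  simpa using this

/-- **(N2)** -/
theorem N2 {W : ℚ[X]} (hW : PB 2 0 W) {d : ℕ} (hd : W.natDegree ≤ d) :
    ∃ a : ℕ → ℚ, (∀ l : ℕ, I2 ((l : ℤ) + padicValNat 2 l.factorial) (a l)) ∧
      (W.comp (C 2 * X)).comp (X + C (1 / 2)) = ∑ l ∈ Finset.range (d + 1), C (a l) * D.bin l := by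
  have h1 : (W.comp (X + 1)).natDegree ≤ d := by
    rw [natDegree_comp]
    have : (X + 1 : ℚ[X]).natDegree = 1 := natDegree_X_add_C (1 : ℚ)
    rw [this, mul_one]; exact hd
  obtain ⟨a, ha, h⟩ := N2' (PB_comp_X_add_one hW) h1
  refine ⟨a, ha, ?_⟩
  rw [← h, comp_assoc, comp_assoc]
  congr 1
  simp only [mul_comp, C_comp, X_comp, add_comp, one_comp]
  rw [mul_add, ← C_mul]
  norm_num

/-- `(y+1)(y-1)..(y+3-2l)` -/
noncomputable def od2 (l : ℕ) : ℚ[X] := ∏ i ∈ Finset.range l, (X - C ((2 * i - 1 : ℤ) : ℚ))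

lemma PB_od2 (l : ℕ) : PB 2 0 (od2 l) := by
  have := PB.prod (p := 2) (Finset.range l) (fun _ => 0) (fun i => (X - C ((2 * i - 1 : ℤ) : ℚ)))
    fun i _ => PB_X_sub_C_int _
  simpa [od2] using this

lemma od2_natDegree (l : ℕ) : (od2 l).natDegree = l := by
  rw [od2, natDegree_prod_of_monic _ _ fun _ _ => monic_X_sub_C _,
    Finset.sum_congr rfl fun _ _ => natDegree_X_sub_C _]
  simp

lemma bin_comp_half (l : ℕ) : (D.bin l).comp (X + C (1 / 2)) =
    C (((2 : ℚ) ^ l)⁻¹ * (l.factorial : ℚ)⁻¹) * (od2 l).comp (C 2 * X) := by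
  have h : (descPochhammer ℚ l).comp (X + C (1 / 2)) = C (((2 : ℚ) ^ l)⁻¹) * (od2 l).comp (C 2 * X) := by
    induction l with
    | zero => simp [od2]
    | succ l ih =>
      have h1 : od2 (l + 1) = od2 l * (X - C ((2 * l - 1 : ℤ) : ℚ)) := by
        rw [od2, Finset.prod_range_succ]; rfl
      rw [h1, mul_comp (od2 l), descPochhammer_succ_right, mul_comp, ih, sub_comp, sub_comp, X_comp,
        X_comp, C_comp]
      have e : ((l : ℕ) : ℚ[X]).comp (X + C (1 / 2)) = C (l : ℚ) := by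
        rw [← C_eq_natCast, C_comp]
      have e2 : (C ((2 : ℚ) ^ (l + 1))⁻¹ : ℚ[X]) = C (((2 : ℚ) ^ l)⁻¹) * C (1 / 2) := by
        rw [← C_mul]
        congr 1
        rw [pow_succ, mul_inv]
        norm_num
      have e3 : (X : ℚ[X]) + C (1 / 2) - C (l : ℚ) = C (1 / 2) * (C 2 * X - C ((2 * l - 1 : ℤ) : ℚ)) := by
        rw [mul_sub, ← mul_assoc, ← C_mul, ← C_mul]
        push_cast
        have : (1 / 2 : ℚ) * 2 = 1 := by norm_num
        rw [this, C_1, one_mul]
        have h2 : (1 / 2 : ℚ) * (2 * (l : ℚ) - 1) = l - 1 / 2 := by ring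
        rw [h2, C_sub]
        ring
      rw [e, e3, e2]
      ring
  rw [bin_eq, mul_comp, C_comp, h, ← mul_assoc, ← C_mul]
  congr 2
  ring

/-- **(N3)** -/
theorem N3 (l : ℕ) : ∃ a : ℕ → ℚ,
    (∀ i : ℕ, I2 ((i : ℤ) + padicValNat 2 i.factorial - l - padicValNat 2 l.factorial) (a i)) ∧
      (D.bin l).comp (X + C (1 / 2)) = ∑ i ∈ Finset.range (l + 1), C (a i) * D.bin i := by
  obtain ⟨a, ha, h⟩ := N2' (PB_od2 l) (d := l) (od2_natDegree l).le
  refine ⟨fun i => ((2 : ℚ) ^ l)⁻¹ * (l.factorial : ℚ)⁻¹ * a i, fun i => ?_, ?_⟩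
  · have := ((I2_two_pow_inv l).mul (I2_inv_nat _ l.factorial_ne_zero)).mul (ha i)
    refine this.mono ?_
    omega
  · rw [bin_comp_half, h, Finset.mul_sum]
    refine Finset.sum_congr rfl fun i _ => ?_
    rw [← mul_assoc, ← C_mul]

/-! ### Taylor coefficients of `bin l` at integers -/

lemma bin_succ_mul (l : ℕ) : C ((l : ℚ) + 1) * D.bin (l + 1) = D.bin l * (X - C (l : ℚ)) := by
  rw [bin_eq, bin_eq, descPochhammer_succ_right, ← C_eq_natCast, ← mul_assoc, ← C_mul,
    Nat.factorial_succ]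
  have : ((l : ℚ) + 1) * (((l + 1) * l.factorial : ℕ) : ℚ)⁻¹ = (l.factorial : ℚ)⁻¹ := by
    have h1 : (l.factorial : ℚ) ≠ 0 := by exact_mod_cast l.factorial_ne_zero
    have h2 : (l : ℚ) + 1 ≠ 0 := by positivity
    push_cast
    field_simp
  rw [this]
  ring

lemma bin_coeff_succ (l j : ℕ) : ((l : ℚ) + 1) * (D.bin (l + 1)).coeff (j + 1) =
    (D.bin l).coeff j - l * (D.bin l).coeff (j + 1) := by
  have := congrArg (fun P : ℚ[X] => P.coeff (j + 1)) (bin_succ_mul l)
  simp only [coeff_C_mul] at this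
  rw [this, mul_sub, coeff_sub, coeff_mul_X, coeff_mul_C]
  ring

lemma bin_coeff_zero (l : ℕ) : (D.bin l).coeff 0 = if l = 0 then 1 else 0 := by
  rw [coeff_zero_eq_eval_zero]
  have := bin_eval_nat l 0
  rw [Nat.cast_zero] at this
  rw [this]
  rcases l with _ | l
  · simp
  · simp

lemma bin_coeff_one (l : ℕ) : (D.bin (l + 1)).coeff 1 = (-1) ^ l / ((l : ℚ) + 1) := by
  induction l with
  | zero =>
    have h := bin_coeff_succ 0 0
    simp only [bin_coeff_zero, if_pos, Nat.cast_zero] at h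
    norm_num at h ⊢
    exact h
  | succ l ih =>
    have h := bin_coeff_succ (l + 1) 0
    rw [bin_coeff_zero, if_neg (by omega), zero_add, ih] at h
    have h2 : ((l + 1 : ℕ) : ℚ) + 1 ≠ 0 := by positivity
    have h3 : (l : ℚ) + 1 ≠ 0 := by positivity
    rw [eq_div_iff h2, mul_comm, h]
    push_cast
    field_simp
    ring

lemma bin_coeff_two (l : ℕ) : (D.bin (l + 1)).coeff 2 =
    (-1) ^ (l + 1) / ((l : ℚ) + 1) * ∑ i ∈ Finset.range l, ((i : ℚ) + 1)⁻¹ := by
  induction l with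
  | zero =>
    have h := bin_coeff_succ 0 1
    have h1 : (D.bin 0).coeff 1 = 0 := by
      simp [bin_eq, coeff_one]
    rw [h1] at h
    norm_num at h ⊢
    exact h
  | succ l ih =>
    have h := bin_coeff_succ (l + 1) 1
    rw [bin_coeff_one, ih] at h
    have h2 : ((l + 1 : ℕ) : ℚ) + 1 ≠ 0 := by positivity
    have h3 : (l : ℚ) + 1 ≠ 0 := by positivity
    rw [Finset.sum_range_succ]
    rw [div_mul_eq_mul_div, eq_div_iff h2, mul_comm, h]
    push_cast
    field_simp
    ring

lemma I2_inv_of_le {n L : ℕ} (hn : n ≠ 0) (hL : n ≤ L) : I2 (-(Nat.log 2 L : ℤ)) ((n : ℚ)⁻¹) := by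
  refine (I2_inv_nat n hn).mono ?_
  have h1 : padicValNat 2 n ≤ Nat.log 2 n := padicValNat_le_nat_log n
  have h2 : Nat.log 2 n ≤ Nat.log 2 L := Nat.log_mono_right hL
  omega

lemma I2_sign (n : ℕ) : I2 0 ((-1 : ℚ) ^ n) := by
  have := I2_int ((-1) ^ n)
  push_cast at this
  exact this

lemma bin_coeff_bound {l L : ℕ} (hl : l ≤ L) (j : ℕ) (hj : j ≤ 2) :
    I2 (-((j : ℤ) * (Nat.log 2 L + 1))) ((D.bin l).coeff j) := by
  have hlog : (0 : ℤ) ≤ Nat.log 2 L := by positivity
  interval_cases j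
  · rw [bin_coeff_zero]
    split_ifs
    · have := I2_int 1; push_cast at this; simpa using this
    · exact I2.zero _
  · rcases l with _ | l
    · have h1 : (D.bin 0).coeff 1 = 0 := by simp [bin_eq, coeff_one]
      rw [h1]; exact I2.zero _
    · rw [bin_coeff_one, div_eq_mul_inv]
      have := (I2_sign l).mul (I2_inv_of_le (n := l + 1) (by omega) hl)
      push_cast at this
      refine this.mono ?_
      push_cast
      omega
  · rcases l with _ | l
    · have h1 : (D.bin 0).coeff 2 = 0 := by simp [bin_eq, coeff_one]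
      rw [h1]; exact I2.zero _
    · rw [bin_coeff_two, div_eq_mul_inv]
      have h1 := (I2_sign (l + 1)).mul (I2_inv_of_le (n := l + 1) (by omega) hl)
      have h2 : I2 (-(Nat.log 2 L : ℤ)) (∑ i ∈ Finset.range l, ((i : ℚ) + 1)⁻¹) := by
        refine I2.sum _ _ fun i hi => ?_
        have hi' := Finset.mem_range.mp hi
        have := I2_inv_of_le (n := i + 1) (L := L) (by omega) (by omega)
        push_cast at this
        exact this
      have := h1.mul h2
      push_cast at this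
      refine this.mono ?_
      push_cast
      omega

lemma bin_comp_succ (l : ℕ) : (D.bin (l + 1)).comp (X + 1) = D.bin (l + 1) + D.bin l := by
  have hinj : ∀ P Q : ℚ[X], (∀ n : ℕ, P.eval (n : ℚ) = Q.eval (n : ℚ)) → P = Q := by
    intro P Q h
    apply Polynomial.eq_of_infinite_eval_eq
    refine Set.Infinite.mono (s := Set.range (fun n : ℕ => (n : ℚ))) ?_ ?_
    · rintro _ ⟨n, rfl⟩; exact h n
    · exact Set.infinite_range_of_injective Nat.cast_injective
  apply hinj
  intro n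
  rw [eval_comp, eval_add, eval_add, eval_X, eval_one, bin_eval_nat, bin_eval_nat]
  have h1 := bin_eval_nat (l + 1) (n + 1)
  push_cast at h1
  rw [h1, Nat.choose_succ_succ]
  push_cast
  ring

lemma gm_bin_succ (i : ℚ) (l : ℕ) :
    gm (i + 1) (D.bin (l + 1)) = gm i (D.bin (l + 1)) + gm i (D.bin l) := by
  have h : gm (i + 1) (D.bin (l + 1)) = gm i ((D.bin (l + 1)).comp (X + 1)) := by
    unfold gm
    congr 1
    have e : (D.bin (l + 1)).comp (X + 1) = taylor 1 (D.bin (l + 1)) := by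
      rw [taylor_apply, C_1]
    rw [e, taylor_taylor]
  rw [h, bin_comp_succ, gm_add]

/-- **(N4)** -/
theorem N4 (i : ℤ) (l j : ℕ) (hj : j ≤ 2) :
    I2 (-((j : ℤ) * (Nat.log 2 l + 1))) (PowerSeries.coeff j (gm (i : ℚ) (D.bin l))) := by
  have key : ∀ L : ℕ, ∀ i : ℤ, ∀ l ≤ L,
      I2 (-((j : ℤ) * (Nat.log 2 L + 1))) (PowerSeries.coeff j (gm (i : ℚ) (D.bin l))) := by
    intro L
    have h0 : ∀ i : ℤ, I2 (-((j : ℤ) * (Nat.log 2 L + 1)))
        (PowerSeries.coeff j (gm (i : ℚ) (D.bin 0))) := by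
      intro i
      have h1 : gm (i : ℚ) (D.bin 0) = 1 := by
        have : D.bin 0 = 1 := by simp [bin_eq]
        rw [this, gm_one]
      rw [h1, PowerSeries.coeff_one]
      split_ifs with h2
      · subst h2
        have := I2_int 1; push_cast at this; simpa using this
      · exact I2.zero _
    intro i
    induction i using Int.induction_on with
    | zero =>
      intro l hl
      have h1 : PowerSeries.coeff j (gm ((0 : ℤ) : ℚ) (D.bin l)) = (D.bin l).coeff j := by
        rw [Int.cast_zero, gm, taylor_zero, Polynomial.coeff_coe]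
      rw [h1]
      exact bin_coeff_bound hl j hj
    | succ i ih =>
      intro l hl
      rcases l with _ | l
      · exact h0 _
      · push_cast
        rw [gm_bin_succ, map_add]
        have h1 := ih (l + 1) hl
        have h2 := ih l (by omega)
        push_cast at h1 h2
        exact h1.add h2
    | pred i ih =>
      intro l
      induction l with
      | zero => intro _; exact h0 _
      | succ l ihl =>
        intro hl
        have h1 := ih (l + 1) hl
        have h2 := ihl (by omega)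
        have h3 := gm_bin_succ (((-(i : ℤ) - 1 : ℤ)) : ℚ) l
        have e : (((-(i : ℤ) - 1 : ℤ)) : ℚ) + 1 = ((-(i : ℤ) : ℤ) : ℚ) := by push_cast; ring
        rw [e] at h3
        have h4 : PowerSeries.coeff j (gm (((-(i : ℤ) - 1 : ℤ)) : ℚ) (D.bin (l + 1))) =
            PowerSeries.coeff j (gm ((-(i : ℤ) : ℤ) : ℚ) (D.bin (l + 1))) -
              PowerSeries.coeff j (gm (((-(i : ℤ) - 1 : ℤ)) : ℚ) (D.bin l)) := by
          rw [h3, map_add]; ring
        rw [h4]
        exact h1.sub h2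
  exact key l i l le_rfl

end Crest.Agent.R006.P6
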