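import Crest.Agent.R006.P6Stmt_784

/-!
# Row 6, block P6 (p = 2): the lower bound `Vlow` of the determinant half (helper784)

`Par` : nine integer parameters (dual variables), `Vlow S u c P L` the explicit lower bound of the
2-adic valuation of every maximal minor (leaf DET), for some `L`; leaf E evaluates it for
`P = parOf ξ u` (`⌊ξ u⌋`), uniformly in `L`.
-/

set_option autoImplicit false

namespace Crest.Agent.R006.P6

open Crest.Agent.R006.D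

/-- nine dual variables -/
structure Par (A : Type*) where
  xT : A
  xR : A
  xQ : A
  xTH : A
  xQH : A
  r : A
  s : A
  h : A
  h' : A

/-- `v_2(l!)` as an integer -/
def lh (l : ℕ) : ℤ := (padicValNat 2 l.factorial : ℤ)

/-- loss of the second Taylor coefficient of `C(s, l)` at an integer -/
def lg (l : ℕ) : ℤ := 2 * ((Nat.log 2 l : ℤ) + 1)

/-- potential of the row `F(n) = 0` -/
def piG (S : Shape) (u : ℕ) (P : Par ℤ) (n : ℕ) : ℤ :=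
  if n < S.a1 * u then min P.xT (P.xQ - 4 * n)
  else min P.xT (min (P.xR - 3 * n - 1 + lh (S.a2 * u) + lh (S.r1 * u)) (P.xQ - 4 * n))

/-- potential of the row at `-1/2-m` -/
def piW (P : Par ℤ) (m : ℕ) : ℤ := min P.xTH (P.xQH - 4 * m)

/-- sum of the potentials of all rows -/
def sumRows (S : Shape) (u c : ℕ) (P : Par ℤ) : ℤ :=
  ∑ n ∈ Finset.range (S.B * u + c), piG S u P n
    + (((S.e1 + S.e2) * u : ℕ) : ℤ) * P.xT + ((S.e3 * u : ℕ) : ℤ) * min P.xT P.xQ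
    + (((S.h1 + S.h2) * u : ℕ) : ℤ) * P.xTH + ((S.h3 * u : ℕ) : ℤ) * min P.xTH P.xQH
    + ∑ m ∈ Finset.range (S.w * u), piW P m

/-- tolls -/
def sT (P : Par ℤ) (l : ℕ) : ℤ := max 0 (P.xT + lg l - lh l)
/-- tolls -/
def sR (S : Shape) (u : ℕ) (P : Par ℤ) (l : ℕ) : ℤ :=
  if l < S.a1 * u then 0 else max 0 (P.xR + P.r - lh l)
/-- tolls -/
def sQ (P : Par ℤ) (l : ℕ) : ℤ := max 0 (P.xQ + P.s - lh l)
/-- tolls -/
def sTH (P : Par ℤ) (l : ℕ) : ℤ := max 0 (P.xTH + P.h + lg l - l - lh l)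
/-- tolls -/
def sQH (P : Par ℤ) (l : ℕ) : ℤ := max 0 (P.xQH + P.h' - l - lh l)

/-- sum of the tolls -/
def tolls (S : Shape) (u : ℕ) (P : Par ℤ) (L : ℕ) : ℤ :=
  ∑ l ∈ Finset.range L, (sT P l + sR S u P l + sQ P l + sTH P l + sQH P l)

/-- normalisation of the gauge -/
def kap (S : Shape) (u : ℕ) : ℤ :=
  ((S.i1 * u : ℕ) : ℤ) + lh (S.a1 * u) + lh (S.a2 * u) + lh (S.i1 * u) + lh (S.r1 * u)

/-- column potentials -/
def eR (S : Shape) (u : ℕ) (P : Par ℤ) (j : ℕ) : ℤ :=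
  -kap S u + min P.r (min (vb (j / 2)) (vb (j / 2) + P.h))
/-- column potentials -/
def eT (P : Par ℤ) (l : ℕ) : ℤ := -lh l + min 0 (P.h - l)
/-- column potentials -/
def eQ (P : Par ℤ) (l : ℕ) : ℤ := -lh l + min P.s (P.h' - l)

/-- sum of the column potentials, with the change of the `R`-basis -/
def sumCols (S : Shape) (u : ℕ) (P : Par ℤ) : ℤ :=
  ∑ j ∈ Finset.range (S.k * u), (eR S u P j - (lh (S.a1 * u + j) - lh (S.a1 * u)))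
    + ∑ l ∈ Finset.range (S.q * u), eT P l + ∑ l ∈ Finset.range (S.g * u), eQ P l

/-- **the lower bound** of the determinant half -/
def Vlow (S : Shape) (u c : ℕ) (P : Par ℤ) (L : ℕ) : ℤ :=
  sumRows S u c P - c * max P.xT P.xTH - tolls S u P L + sumCols S u P

/-- integer parameters from real ones -/
noncomputable def parOf (ξ : Par ℝ) (u : ℕ) : Par ℤ :=
  ⟨⌊ξ.xT * u⌋, ⌊ξ.xR * u⌋, ⌊ξ.xQ * u⌋, ⌊ξ.xTH * u⌋, ⌊ξ.xQH * u⌋, ⌊ξ.r * u⌋, ⌊ξ.s * u⌋,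
    ⌊ξ.h * u⌋, ⌊ξ.h' * u⌋⟩

/-- the constant of leaf E: `Vlow = alpha2 * u^2 + O(u log u)` with `alpha2 ≤ 0` -/
noncomputable def val2 (S : Shape) (ξ : Par ℝ) : ℝ :=
  (∫ x in (0 : ℝ)..S.a1, min ξ.xT (ξ.xQ - 4 * x))
  + (∫ x in (S.a1 : ℝ)..S.B, min ξ.xT (min (ξ.xR - 3 * x + S.a2 + S.r1) (ξ.xQ - 4 * x)))
  + (S.e1 + S.e2) * ξ.xT + S.e3 * min ξ.xT ξ.xQ
  + (S.h1 + S.h2) * ξ.xTH + S.h3 * min ξ.xTH ξ.xQH
  + (∫ x in (0 : ℝ)..S.w, min ξ.xTH (ξ.xQH - 4 * x))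
  - (max 0 ξ.xT) ^ 2 / 2 - (max 0 (ξ.xR + ξ.r - S.a1)) ^ 2 / 2
  - (max 0 (ξ.xQ + ξ.s)) ^ 2 / 2 - (max 0 (ξ.xTH + ξ.h)) ^ 2 / 4
  - (max 0 (ξ.xQH + ξ.h')) ^ 2 / 4
  - S.k * (2 * S.i1 + S.a1 + S.a2 + S.r1 : ℝ)
  + (∫ x in (0 : ℝ)..S.k, min ξ.r (min x (x + ξ.h))) - (S.k : ℝ) ^ 2 / 2
  + (∫ x in (0 : ℝ)..S.q, min 0 (ξ.h - x)) - (S.q : ℝ) ^ 2 / 2
  + (∫ x in (0 : ℝ)..S.g, min ξ.s (ξ.h' - x)) - (S.g : ℝ) ^ 2 / 2

end Crest.Agent.R006.P6
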