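import Crest.Agent.R006.P6Core_784
import Crest.Agent.R006.P6V_784
import Crest.Agent.R006.P6Newton_674
import Crest.Agent.R006.P6Weights_153

/-!
# Row 6, block P6: entrywise valuations and the toll bound of the represented matrix (helper784)
-/

set_option autoImplicit false

namespace Crest.Agent.R006.P6

open Polynomial Crest.Agent.R006.NV Crest.Agent.R006.PsiInf Crest.Agent.R006.D
open Crest.Agent.R006.ProdBound481

/-! ### `I2` -/

lemma I2.intCast (z : ℤ) : I2 0 (z : ℚ) := by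
  unfold I2
  rw [neg_zero, zpow_zero]
  exact padicNorm.of_int z

lemma I2.natCast (n : ℕ) : I2 0 (n : ℚ) := by
  exact_mod_cast I2.intCast (n : ℤ)

lemma I2.one : I2 0 (1 : ℚ) := by exact_mod_cast I2.natCast 1

lemma I2.pb {v : ℤ} {x : ℚ} (h : I2 v x) : PB 2 v (C x) :=
  PB.C (by unfold I2 at h; exact_mod_cast h)

lemma PB.i2coeff {v : ℤ} {P : ℚ[X]} (h : PB 2 v P) (k : ℕ) : I2 v (P.coeff k) := by
  unfold I2
  have := h k
  exact_mod_cast this

lemma I2.factorial (n : ℕ) : padicNorm 2 (n.factorial : ℚ) = (2 : ℚ) ^ (-lh n) := by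
  rw [padicNorm.eq_zpow_of_nonzero (by positivity)]
  simp only [lh, padicValRat.of_nat, Nat.cast_ofNat]

lemma I2.fac (n : ℕ) : I2 (lh n) (n.factorial : ℚ) := (I2.factorial n).le

lemma I2.facinv (n : ℕ) : I2 (-lh n) ((n.factorial : ℚ)⁻¹) := by
  unfold I2
  rw [padicNorm.eq_zpow_of_nonzero (by positivity)]
  simp only [lh, padicValRat.inv, padicValRat.of_nat, Nat.cast_ofNat]
  exact le_rfl

lemma lh_nonneg (l : ℕ) : 0 ≤ lh l := by unfold lh; positivity

lemma pb_X : PB 2 0 (X : ℚ[X]) := by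
  intro k
  rw [coeff_X, neg_zero, zpow_zero]
  split_ifs
  · rw [padicNorm.one]
  · rw [padicNorm.zero]; exact zero_le_one

/-! ### potentials -/

/-- row potentials -/
def rowPot (S : Shape) (u : ℕ) (P : Par ℤ) : Row → ℤ
  | (.Z i, j) => if 0 ≤ i then piG S u P i.toNat else if j < 2 then P.xT else min P.xT P.xQ
  | (.H i, j) => if 0 ≤ i then (if j < 2 then P.xTH else min P.xTH P.xQH)
      else piW P (-1 - i).toNat

/-- state potentials -/
def Dst (S : Shape) (u c : ℕ) (P : Par ℤ) : Tag → ℕ → ℤ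
  | .R, l => if l < S.a1 * u then max P.xT P.xTH + 3 * ((S.B * u + c : ℕ) : ℤ) + 1 else lh l - P.r
  | .T, l => lh l
  | .Q, l => lh l - P.s
  | .TH, l => l + lh l - P.h
  | .QH, l => l + lh l - P.h'

/-- tolls -/
def Sst (S : Shape) (u : ℕ) (P : Par ℤ) : Tag → ℕ → ℤ
  | .R, l => sR S u P l
  | .T, l => sT P l
  | .Q, l => sQ P l
  | .TH, l => sTH P l
  | .QH, l => sQH P l

/-- column potentials -/
def colPot (S : Shape) (u : ℕ) (P : Par ℤ) {nR nT nQ : ℕ} : Fin nR ⊕ Fin nT ⊕ Fin nQ → ℤ :=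
  Sum.elim (fun j => eR S u P j) (Sum.elim (fun l => eT P l) (fun l => eQ P l))

lemma rowPot_le (S : Shape) (u : ℕ) (P : Par ℤ) (ρ : Row) :
    rowPot S u P ρ ≤ max P.xT P.xTH := by
  rcases ρ with ⟨z | z, j⟩ <;> simp only [rowPot]
  · split_ifs
    · unfold piG
      split_ifs <;> omega
    · omega
    · omega
  · split_ifs
    · omega
    · omega
    · unfold piW
      omega

lemma Sst_nonneg (S : Shape) (u : ℕ) (P : Par ℤ) (t : Tag) (l : ℕ) : 0 ≤ Sst S u P t l := by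
  cases t <;> simp only [Sst, sT, sR, sQ, sTH, sQH]
  · split_ifs
    · exact le_rfl
    · exact le_max_left _ _
  all_goals exact le_max_left _ _

/-! ### the input on weights and Taylor coefficients -/

/-- leaf W and (N4) -/
structure Weights : Prop where
  homN : ∀ n : ℕ, I2 (-(3 * n : ℤ)) (PowerSeries.coeff 0 (HomZ n))
  homE : ∀ i : ℤ, i < 0 → ∀ j ≤ 2, PowerSeries.coeff j (HomZ i) = 0
  gamN : ∀ n : ℕ, I2 (-(4 * n : ℤ)) (PowerSeries.coeff 0 (GamZ (n : ℤ) : PowerSeries ℚ))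
  gamE : ∀ i : ℤ, i < 0 → ∀ j ≤ 1, PowerSeries.coeff j (GamZ i : PowerSeries ℚ) = 0
  gamE2 : ∀ i : ℤ, i < 0 → I2 0 (PowerSeries.coeff 2 (GamZ i : PowerSeries ℚ))
  gamH : ∀ i : ℤ, 0 ≤ i → ∀ j ≤ 1, PowerSeries.coeff j (GamH i) = 0
  gamH2 : ∀ i : ℤ, 0 ≤ i → I2 0 (PowerSeries.coeff 2 (GamH i))
  gamW : ∀ m : ℕ, I2 (-(4 * m : ℤ)) (PowerSeries.coeff 0 (GamH (-1 - m)))
  n4 : ∀ (i : ℤ) (j l : ℕ), j ≤ 2 → I2 (-(j * ((Nat.log 2 l : ℤ) + 1)))
    (PowerSeries.coeff j (gm (i : ℚ) (bin l)))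

theorem weights : Weights where
  homN := Weights.I2_HomZ
  homE := fun _ hi _ hj => Weights.coeff_HomZ_neg hi hj
  gamN := Weights.I2_GamZ
  gamE := fun _ hi _ hj => Weights.coeff_GamZ_neg hi hj
  gamE2 := fun _ hi => Weights.I2_GamZ_neg hi
  gamH := fun _ hi _ hj => Weights.coeff_GamH_nonneg hi hj
  gamH2 := fun _ hi => Weights.I2_GamH_nonneg hi
  gamW := Weights.I2_GamH_neg
  n4 := fun i j l hj => N4 i l j hj

/-- coefficient `0` of a product -/
lemma coeff0_mul (A B : PowerSeries ℚ) :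
    PowerSeries.coeff 0 (A * B) = PowerSeries.coeff 0 A * PowerSeries.coeff 0 B := by
  simp

lemma coeff_mul_zero {A B : PowerSeries ℚ} {n : ℕ} (h : ∀ j ≤ n, PowerSeries.coeff j B = 0) :
    PowerSeries.coeff n (A * B) = 0 := by
  rw [PowerSeries.coeff_mul]
  refine Finset.sum_eq_zero fun x hx => ?_
  rw [h x.2 (by have := Finset.HasAntidiagonal.mem_antidiagonal.mp hx; omega), mul_zero]

lemma coeff2_mul {A B : PowerSeries ℚ} (h : ∀ j ≤ 1, PowerSeries.coeff j B = 0) :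
    PowerSeries.coeff 2 (A * B) = PowerSeries.coeff 0 A * PowerSeries.coeff 2 B := by
  rw [PowerSeries.coeff_mul]
  rw [Finset.sum_eq_single (0, 2)]
  · rintro ⟨a, b⟩ hx hne
    have h1 := Finset.HasAntidiagonal.mem_antidiagonal.mp hx
    simp only at h1
    rcases (show b = 2 ∨ b ≤ 1 by omega) with h2 | h2
    · exact absurd (by rw [h2]; congr 1; omega) hne
    · rw [h b h2, mul_zero]
  · intro hx
    exact absurd (show ((0 : ℕ), (2 : ℕ)) ∈ Finset.HasAntidiagonal.antidiagonal 2 from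
        Finset.HasAntidiagonal.mem_antidiagonal.mpr (by norm_num)) hx

lemma coeff0_gm (s : ℚ) (P : ℚ[X]) : PowerSeries.coeff 0 (gm s P) = P.eval s := by
  rw [gm, Polynomial.coeff_coe, taylor_coeff_zero]

end Crest.Agent.R006.P6
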