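import Crest.Agent.R006.P6DetA_784

/-!
# Row 6, block P6: the entrywise table and the toll bound of a represented matrix (helper784)
-/

set_option autoImplicit false

namespace Crest.Agent.R006.P6

open Polynomial Crest.Agent.R006.NV Crest.Agent.R006.PsiInf Crest.Agent.R006.D
open Crest.Agent.R006.ProdBound481

variable {S : Shape} {u c : ℕ} {P : Par ℤ}

/-! ### the rows -/

lemma isRow_Z_nonneg {i : ℤ} {j : ℕ} (h : IsRow S u c (.Z i, j)) (hi : 0 ≤ i) :
    j = 0 ∧ i < ((S.B * u + c : ℕ) : ℤ) := by
  simp only [IsRow, Shape.mult, if_pos hi] at h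
  split_ifs at h with h1
  · exact ⟨by omega, by push_cast; exact h1⟩
  · omega

lemma isRow_Z_neg {i : ℤ} {j : ℕ} (h : IsRow S u c (.Z i, j)) (hi : i < 0) : j ≤ 2 := by
  simp only [IsRow, Shape.mult, if_neg (not_le.mpr hi)] at h
  split_ifs at h <;> omega

lemma isRow_H_nonneg {i : ℤ} {j : ℕ} (h : IsRow S u c (.H i, j)) (hi : 0 ≤ i) : j ≤ 2 := by
  simp only [IsRow, Shape.mult, if_pos hi] at h
  split_ifs at h <;> omega

lemma isRow_H_neg {i : ℤ} {j : ℕ} (h : IsRow S u c (.H i, j)) (hi : i < 0) :
    j = 0 ∧ -i ≤ S.w * u := by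
  simp only [IsRow, Shape.mult, if_neg (not_le.mpr hi)] at h
  split_ifs at h with h1
  · exact ⟨by omega, h1⟩
  · omega

/-! ### rows against states -/

lemma I2.eval_bin (z : ℤ) (l : ℕ) (hW : Weights) : I2 0 ((bin l).eval (z : ℚ)) := by
  have := hW.n4 z 0 l (by norm_num)
  rw [coeff0_gm] at this
  simpa using this

lemma I2.gmbin (hW : Weights) (z : ℤ) (j l : ℕ) (hj : j ≤ 2) :
    I2 (-lg l) (PowerSeries.coeff j (gm (z : ℚ) (bin l))) := by
  refine (hW.n4 z j l hj).mono ?_
  unfold lg
  have : (0 : ℤ) ≤ (Nat.log 2 l : ℤ) := by positivity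
  have h2 : (j : ℤ) ≤ 2 := by exact_mod_cast hj
  nlinarith

theorem hX_core (hW : Weights) {γ : ℚ} (hγ : I2 (-1) γ) {ρ2 : ℚ[X]}
    (hρ2 : ∀ n : ℕ, I2 (lh (S.a2 * u) + lh (S.r1 * u)) (ρ2.eval (n : ℚ)))
    {ρ : Row} (hρ : IsRow S u c ρ) (t : Tag) (l : ℕ) :
    PB 2 (rowPot S u P ρ - Dst S u c P t l - Sst S u P t l) (Xst γ ρ2 ρ t l) := by
  rcases ρ with ⟨z | z, j⟩
  · -- integer sites
    rcases lt_or_ge z 0 with hz | hz
    · -- E rows
      have hj := isRow_Z_neg hρ hz
      cases t <;> simp only [Xst]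
      · rw [coeff_mul_zero (fun i hi => hW.homE z hz i (by omega)), map_zero, mul_zero]
        exact PB.zero _
      · refine (I2.gmbin hW z j l hj).pb.mono ?_
        simp only [rowPot, Dst, Sst, if_neg (not_le.mpr hz), sT]
        split_ifs <;> omega
      · rcases (show j ≤ 1 ∨ j = 2 by omega) with h1 | h1
        · rw [coeff_mul_zero (fun i hi => hW.gamE z hz i (by omega)), map_zero]
          exact PB.zero _
        · subst h1
          rw [coeff2_mul (fun i hi => hW.gamE z hz i hi), coeff0_gm]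
          refine ((I2.eval_bin z l hW).mul (hW.gamE2 z hz)).pb.mono ?_
          simp only [rowPot, Dst, Sst, if_neg (not_le.mpr hz), sQ]
          have := lh_nonneg l
          split_ifs <;> omega
      · exact PB.zero _
      · exact PB.zero _
    · -- G rows
      obtain ⟨hj, hlt⟩ := isRow_Z_nonneg hρ hz
      subst hj
      lift z to ℕ using hz
      have hn : z < S.B * u + c := by exact_mod_cast hlt
      cases t <;> simp only [Xst]
      · rw [coeff0_mul, coeff0_gm, eval_mul]
        have h1 : PB 2 (-1) (C γ - X) := hγ.pb.sub (pb_X.mono (by norm_num))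
        rcases lt_or_ge l (S.a1 * u) with hl | hl
        · have h2 := (hρ2 z).mul (I2.eval_bin (z : ℤ) l hW)
          have h3 := h2.mul (hW.homN z)
          have h4 := h1.mul h3.pb
          refine PB.mono (by exact_mod_cast h4) ?_
          have e1 := rowPot_le S u P (.Z (z : ℤ), 0)
          have e2 := Sst_nonneg S u P .R l
          have e3 := lh_nonneg (S.a2 * u)
          have e4 := lh_nonneg (S.r1 * u)
          simp only [Dst, if_pos hl]
          omega
        · rcases lt_or_ge z (S.a1 * u) with hz1 | hz1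
          · have h0 : (bin l).eval ((z : ℤ) : ℚ) = 0 := by
              rw [bin, eval_mul, eval_C, Int.cast_natCast,
                descPochhammer_eval_eq_descFactorial, Nat.descFactorial_eq_zero_iff_lt.mpr
                (by omega), Nat.cast_zero, mul_zero]
            rw [h0, mul_zero, zero_mul, map_zero, mul_zero]
            exact PB.zero _
          · have h2 := (hρ2 z).mul (I2.eval_bin (z : ℤ) l hW)
            have h3 := h2.mul (hW.homN z)
            have h4 := h1.mul h3.pb
            refine PB.mono (by exact_mod_cast h4) ?_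
            simp only [rowPot, Dst, Sst, if_neg (not_lt.mpr hl), sR, Int.toNat_natCast,
              Int.natCast_nonneg, if_true, piG, if_neg (not_lt.mpr hz1)]
            omega
      · refine (hW.n4 z 0 l (by norm_num)).pb.mono ?_
        simp only [rowPot, Dst, Sst, sT, Int.toNat_natCast, Int.natCast_nonneg, if_true, piG]
        have e1 : 0 ≤ lg l := by unfold lg; positivity
        push_cast
        split_ifs <;> omega
      · rw [coeff0_mul, coeff0_gm]
        have h2 := (I2.eval_bin (z : ℤ) l hW).mul (hW.gamN z)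
        refine h2.pb.mono ?_
        simp only [rowPot, Dst, Sst, sQ, Int.toNat_natCast, Int.natCast_nonneg, if_true, piG]
        split_ifs <;> omega
      · exact PB.zero _
      · exact PB.zero _
  · -- half-integer sites
    rcases lt_or_ge z 0 with hz | hz
    · obtain ⟨hj, -⟩ := isRow_H_neg hρ hz
      subst hj
      obtain ⟨m, rfl⟩ : ∃ m : ℕ, z = -1 - m := ⟨(-1 - z).toNat, by omega⟩
      cases t <;> simp only [Xst]
      · exact PB.zero _
      · exact PB.zero _
      · exact PB.zero _
      · refine (hW.n4 _ 0 l (by norm_num)).pb.mono ?_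
        simp only [rowPot, Dst, Sst, sTH, if_neg (not_le.mpr hz), piW]
        have e1 : 0 ≤ lg l := by unfold lg; positivity
        have e2 : (-1 - (-1 - (m : ℤ))).toNat = m := by omega
        rw [e2]
        push_cast
        omega
      · rw [coeff0_mul, coeff0_gm]
        have h2 := (I2.eval_bin (-1 - (m : ℤ)) l hW).mul (hW.gamW m)
        refine h2.pb.mono ?_
        simp only [rowPot, Dst, Sst, sQH, if_neg (not_le.mpr hz), piW]
        have e2 : (-1 - (-1 - (m : ℤ))).toNat = m := by omega
        rw [e2]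
        omega
    · have hj := isRow_H_nonneg hρ hz
      cases t <;> simp only [Xst]
      · exact PB.zero _
      · exact PB.zero _
      · exact PB.zero _
      · refine (I2.gmbin hW z j l hj).pb.mono ?_
        simp only [rowPot, Dst, Sst, if_pos hz, sTH]
        split_ifs <;> omega
      · rcases (show j ≤ 1 ∨ j = 2 by omega) with h1 | h1
        · rw [coeff_mul_zero (fun i hi => hW.gamH z hz i (by omega)), map_zero]
          exact PB.zero _
        · subst h1
          rw [coeff2_mul (fun i hi => hW.gamH z hz i hi), coeff0_gm]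
          refine ((I2.eval_bin z l hW).mul (hW.gamH2 z hz)).pb.mono ?_
          simp only [rowPot, Dst, Sst, if_pos hz, sQH]
          split_ifs <;> omega

/-! ### states against columns -/

variable {nR nT nQ : ℕ}

theorem hY_core {aR dR wR : Fin nR → ℕ → ℚ} {bb : ℕ → ℕ → ℚ}
    (haR : ∀ j l, I2 (-kap S u + lh l) (aR j l)) (haR0 : ∀ j l, l < S.a1 * u → aR j l = 0)
    (hdR : ∀ (j : Fin nR) l, I2 (-kap S u + vb (j / 2) + lh l) (dR j l))
    (hwR : ∀ (j : Fin nR) (l : ℕ), I2 (-kap S u + vb (j / 2) + l + lh l) (wR j l))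
    (hbb : ∀ l i : ℕ, I2 (i + lh i - l - lh l) (bb l i))
    (t : Tag) (l : ℕ) (j : Fin nR ⊕ Fin nT ⊕ Fin nQ) :
    PB 2 (Dst S u c P t l + colPot S u P j) (Yst aR dR wR bb t l j) := by
  rcases j with j | j | j
  · cases t <;> simp only [Yst, Sum.elim_inl, Sum.elim_inr, colPot, Dst, eR]
    · split_ifs with h1
      · rw [haR0 j l h1, map_zero]; exact PB.zero _
      · refine (haR j l).pb.mono ?_
        omega
    · refine (hdR j l).pb.mono ?_
      omega
    · exact PB.zero _
    · refine (hwR j l).pb.mono ?_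
      omega
    · exact PB.zero _
  · cases t <;> simp only [Yst, Sum.elim_inl, Sum.elim_inr, colPot, Dst, eT]
    · exact PB.zero _
    · split_ifs with h1
      · refine PB.mono PB.one ?_
        rw [h1]
        omega
      · exact PB.zero _
    · exact PB.zero _
    · refine (hbb j l).pb.mono ?_
      omega
    · exact PB.zero _
  · cases t <;> simp only [Yst, Sum.elim_inl, Sum.elim_inr, colPot, Dst, eQ]
    · exact PB.zero _
    · exact PB.zero _
    · split_ifs with h1
      · refine PB.mono PB.one ?_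
        rw [h1]
        omega
      · exact PB.zero _
    · exact PB.zero _
    · refine (hbb j l).pb.mono ?_
      omega

/-- **toll bound of a represented matrix** -/
theorem Rep.PB_det (hW : Weights)
    {M : Matrix (Fin nR ⊕ Fin nT ⊕ Fin nQ) (Fin nR ⊕ Fin nT ⊕ Fin nQ) ℚ[X]}
    {r : Fin nR ⊕ Fin nT ⊕ Fin nQ → Row} {γ : ℚ} {ρ2 : ℚ[X]} {L : ℕ}
    {aR dR wR : Fin nR → ℕ → ℚ} {bb : ℕ → ℕ → ℚ}
    {err : (Fin nR ⊕ Fin nT ⊕ Fin nQ) → (Fin nR ⊕ Fin nT ⊕ Fin nQ) → ℚ[X]}
    (hrep : Rep M r γ ρ2 L aR dR wR bb err) (hr : ∀ i, IsRow S u c (r i))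
    (hγ : I2 (-1) γ)
    (hρ2 : ∀ n : ℕ, I2 (lh (S.a2 * u) + lh (S.r1 * u)) (ρ2.eval (n : ℚ)))
    (haR : ∀ j l, I2 (-kap S u + lh l) (aR j l)) (haR0 : ∀ j l, l < S.a1 * u → aR j l = 0)
    (hdR : ∀ (j : Fin nR) l, I2 (-kap S u + vb (j / 2) + lh l) (dR j l))
    (hwR : ∀ (j : Fin nR) (l : ℕ), I2 (-kap S u + vb (j / 2) + l + lh l) (wR j l))
    (hbb : ∀ l i : ℕ, I2 (i + lh i - l - lh l) (bb l i))
    (herr : ∀ i j, PB 2 (rowPot S u P (r i) + colPot S u P j) (err i j)) :
    PB 2 (∑ i, rowPot S u P (r i) - tolls S u P L +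
      ∑ j : Fin nR ⊕ Fin nT ⊕ Fin nQ, colPot S u P j) M.det := by
  have key := PB_det_toll (p := 2) M
    (fun i s => Sum.elim (fun s : Tag × Fin L => Xst γ ρ2 (r i) s.1 s.2)
      (fun i' => if i = i' then 1 else 0) s)
    (fun s j => Sum.elim (fun s : Tag × Fin L => Yst (nT := nT) (nQ := nQ) aR dR wR bb s.1 s.2 j)
      (fun i' => err i' j) s)
    (fun i j => hrep.eq i j) (fun i => rowPot S u P (r i)) (colPot S u P)
    (Sum.elim (fun s : Tag × Fin L => Dst S u c P s.1 s.2) (fun i' => rowPot S u P (r i')))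
    (Sum.elim (fun s : Tag × Fin L => Sst S u P s.1 s.2) (fun _ => 0))
    (by
      rintro (s | i')
      · exact Sst_nonneg S u P s.1 s.2
      · exact le_rfl)
    (by
      rintro i (s | i')
      · exact hX_core hW hγ hρ2 (hr i) s.1 s.2
      · simp only [Sum.elim_inr]
        split_ifs with h1
        · subst h1
          refine PB.mono PB.one ?_
          omega
        · exact PB.zero _)
    (by
      rintro (s | i') j
      · exact hY_core haR haR0 hdR hwR hbb s.1 s.2 j
      · exact herr i' j)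
  have e : ∑ s : (Tag × Fin L) ⊕ (Fin nR ⊕ Fin nT ⊕ Fin nQ),
      Sum.elim (fun s : Tag × Fin L => Sst S u P s.1 s.2) (fun _ => (0 : ℤ)) s =
      tolls S u P L := by
    rw [Fintype.sum_sum_type]
    simp only [Sum.elim_inl, Sum.elim_inr, Finset.sum_const_zero, add_zero]
    rw [Fintype.sum_prod_type_right, tolls, Finset.sum_range]
    refine Finset.sum_congr rfl fun l _ => ?_
    rw [sum_tag]
    simp only [Sst]
    ring
  rw [e] at key
  exact key

end Crest.Agent.R006.P6
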