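import Crest.Agent.R006.P6DetB_784

/-!
# Row 6, block P6: definitions for the base change (helper784)
-/

set_option autoImplicit false

namespace Crest.Agent.R006.P6

open Polynomial Crest.Agent.R006.NV Crest.Agent.R006.PsiInf Crest.Agent.R006.D
open Crest.Agent.R006.ProdBound481

/-- entry of the column of the polynomial `R` -/
noncomputable def entR (R : ℚ[X]) (ρ : Row) : ℚ[X] := C (ent0 R ρ) - X * C (ent1 R ρ)

/-- the matrix with free `R`-columns -/
noncomputable def MatN (S : Shape) (u : ℕ) (r : Col S u → Row) (R' : Fin (S.k * u) → ℚ[X]) :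
    Matrix (Col S u) (Col S u) ℚ[X] :=
  Matrix.of fun i j => Sum.elim (fun l => entR (R' l) (r i))
    (fun x => entry S u (r i) (Sum.inr x)) j

/-- the new basis of the `R`-space -/
noncomputable def polN (S : Shape) (u : ℕ) (g : ℕ → ℚ[X]) (j : ℕ) : ℚ[X] :=
  gauge S u * bin (S.a1 * u) * (X ^ (j % 2) * g (j / 2))

end Crest.Agent.R006.P6
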