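import Crest.Agent.R006.P6Germ_121
import Crest.Agent.R006.PsiInfKey_294

/-!
# Row 6, block P6 (prime 2): division by monic integer polynomials (helper121)

* `T e P` : `v_2(P_n) ≥ n - e`; `T.div`, `T.res`, `mod_int`;
* `resInf_mul_right`, `resInf_comp` : invariance of the residue at infinity.
-/

set_option autoImplicit false

namespace Crest.Agent.R006.P6x121

open Polynomial Finset Filter Crest.Agent.R006.NV Crest.Agent.R006.PsiInf

/-- `v_2(P_n) ≥ n - e` -/
def T (e : ℤ) (P : ℚ[X]) : Prop := ∀ n : ℕ, V (n - e) (P.coeff n)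

lemma T.mul {e f : ℤ} {P R : ℚ[X]} (hP : T e P) (hR : T f R) : T (e + f) (P * R) := fun n => by
  rw [coeff_mul]
  refine V.sum _ _ fun x hx => ((hP _).mul (hR _)).mono ?_
  rw [HasAntidiagonal.mem_antidiagonal] at hx
  omega

lemma T.of_natDegree {p : ℤ[X]} {e : ℕ} (h : p.natDegree ≤ e) : T e (mq p) := fun n => by
  rw [mq_coeff]
  rcases Nat.lt_or_ge p.natDegree n with h1 | h1
  · rw [coeff_eq_zero_of_natDegree_lt h1, Int.cast_zero]; exact V.zero _
  · exact (V.int _).mono (by omega)

lemma T.mono {e f : ℤ} {P : ℚ[X]} (h : T e P) (hf : e ≤ f) : T f P :=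
  fun n => (h n).mono (by omega)

lemma T_lin (a : ℤ) : T 0 (mq (2 * X - C a)) := fun n => by
  have e : mq (2 * X - C a) = C 2 * X - C (a : ℚ) := by
    rw [mq_sub, mq_mul, mq_two, mq_X, mq_C]; congr 1
  rw [e, coeff_sub, coeff_C_mul, coeff_X, coeff_C]
  rcases n with _ | _ | n
  · simpa using (V.int a).neg
  · simpa using V.two
  · simpa using V.zero _

lemma T_U (K : ℕ) : T 0 (mq (U K)) := by
  induction K with
  | zero =>
    have := T.of_natDegree (p := U 0) (e := 0) (by simp [U])
    simpa using this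
  | succ K ih =>
    have e : U (K + 1) = U K * ((2 * X - C (2 * (K : ℤ) + 1)) * (2 * X - C (2 * (K : ℤ) + 1))) := by
      rw [U_succ]
      simp only [map_add, map_mul, map_natCast, map_ofNat, map_one]
      ring
    rw [e, mq_mul, mq_mul]
    have := ih.mul ((T_lin (2 * (K : ℤ) + 1)).mul (T_lin (2 * (K : ℤ) + 1)))
    simpa using this

/-- division of the monomials -/
lemma mq_div (p d : ℤ[X]) (hd : d.Monic) : mq p /ₘ mq d = mq (p /ₘ d) :=
  (map_divByMonic _ hd).symm

lemma mq_mod (p d : ℤ[X]) (hd : d.Monic) : mq p %ₘ mq d = mq (p %ₘ d) :=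
  (map_modByMonic _ hd).symm

lemma sum_div {ι : Type*} (s : Finset ι) (f : ι → ℚ[X]) (N : ℚ[X]) (hN : N.Monic) :
    (∑ i ∈ s, f i) /ₘ N = ∑ i ∈ s, (f i) /ₘ N := by
  classical
  induction s using Finset.induction_on with
  | empty => simp
  | insert a s ha ih => rw [sum_insert ha, sum_insert ha, add_divByMonic' _ _ _ hN, ih]

lemma sum_mod {ι : Type*} (s : Finset ι) (f : ι → ℚ[X]) (N : ℚ[X]) :
    (∑ i ∈ s, f i) %ₘ N = ∑ i ∈ s, (f i) %ₘ N := by
  classical
  induction s using Finset.induction_on with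
  | empty => simp
  | insert a s ha ih => rw [sum_insert ha, sum_insert ha, add_modByMonic, ih]

lemma div_expand (P : ℚ[X]) (d : ℤ[X]) (hd : d.Monic) :
    P /ₘ mq d = ∑ n ∈ range (P.natDegree + 1), C (P.coeff n) * mq (X ^ n /ₘ d) := by
  conv_lhs => rw [P.as_sum_range_C_mul_X_pow]
  rw [sum_div _ _ _ (mq_monic hd)]
  refine sum_congr rfl fun n _ => ?_
  rw [C_mul_divByMonic _ _ _ (mq_monic hd), ← mq_div _ _ hd, mq_pow, mq_X]

lemma mod_expand (P : ℚ[X]) (d : ℤ[X]) (hd : d.Monic) :
    P %ₘ mq d = ∑ n ∈ range (P.natDegree + 1), C (P.coeff n) * mq (X ^ n %ₘ d) := by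
  conv_lhs => rw [P.as_sum_range_C_mul_X_pow]
  rw [sum_mod]
  refine sum_congr rfl fun n _ => ?_
  rw [← smul_eq_C_mul, smul_modByMonic, ← mq_mod _ _ hd, mq_pow, mq_X, smul_eq_C_mul]

lemma T.div {e : ℤ} {P : ℚ[X]} (h : T e P) (d : ℤ[X]) (hd : d.Monic) :
    T (e - d.natDegree) (P /ₘ mq d) := fun i => by
  rw [div_expand _ _ hd, finsetSum_coeff]
  refine V.sum _ _ fun n _ => ?_
  rw [coeff_C_mul, mq_coeff]
  rcases Nat.lt_or_ge n (d.natDegree + i) with h1 | h1
  · have h2 : (X ^ n /ₘ d).coeff i = 0 := by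
      rcases Nat.lt_or_ge n d.natDegree with h3 | h3
      · have : (X ^ n : ℤ[X]) /ₘ d = 0 := by
          rw [divByMonic_eq_zero_iff hd]
          rw [degree_X_pow, degree_eq_natDegree hd.ne_zero]
          exact_mod_cast h3
        rw [this, coeff_zero]
      · apply coeff_eq_zero_of_natDegree_lt
        rw [natDegree_divByMonic _ hd, natDegree_X_pow]
        omega
    rw [h2, Int.cast_zero, mul_zero]; exact V.zero _
  · exact ((h n).mul (V.int _)).mono (by omega)

lemma T.res {e : ℤ} {P : ℚ[X]} (h : T e P) (d : ℤ[X]) (hd : d.Monic) :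
    V ((d.natDegree : ℤ) - 1 - e) (resInf P (mq d)) := by
  rw [resInf, mod_expand _ _ hd, finsetSum_coeff, mq_natDegree]
  refine V.sum _ _ fun n _ => ?_
  rw [coeff_C_mul, mq_coeff]
  rcases Nat.lt_or_ge (n + 1) d.natDegree with h1 | h1
  · have h2 : (X ^ n : ℤ[X]) %ₘ d = X ^ n := by
      rw [modByMonic_eq_self_iff hd, degree_X_pow, degree_eq_natDegree hd.ne_zero]
      exact_mod_cast (by omega : n < d.natDegree)
    rw [h2, coeff_X_pow, if_neg (by omega), Int.cast_zero, mul_zero]; exact V.zero _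
  · exact ((h n).mul (V.int _)).mono (by omega)

lemma mod_int {v : ℤ} {P : ℚ[X]} (h : ∀ n, V v (P.coeff n)) (d : ℤ[X]) (hd : d.Monic) (i : ℕ) :
    V v ((P %ₘ mq d).coeff i) := by
  rw [mod_expand _ _ hd, finsetSum_coeff]
  refine V.sum _ _ fun n _ => ?_
  rw [coeff_C_mul, mq_coeff]
  exact ((h n).mul (V.int _)).mono (by omega)

/-! ### invariance of the residue at infinity -/

lemma resInf_mul_right (A N E : ℚ[X]) (hN : N.Monic) (hE : E.Monic) :
    resInf (A * E) (N * E) = resInf A N := by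
  have h := modByMonic_add_div A N
  have h1 : (A * E) %ₘ (N * E) = (A %ₘ N) * E := by
    refine (div_modByMonic_unique (f := A * E) (g := N * E) (A /ₘ N) ((A %ₘ N) * E) (hN.mul hE)
      ⟨?_, ?_⟩).2
    · linear_combination E * h
    · rw [degree_mul, degree_mul]
      have h2 := degree_modByMonic_lt A hN
      have hE0 : E.degree ≠ ⊥ := by rw [Ne, degree_eq_bot]; exact hE.ne_zero
      exact WithBot.add_lt_add_right hE0 h2
  rw [resInf, resInf, h1, hN.natDegree_mul hE]
  rcases Nat.eq_zero_or_pos N.natDegree with h0 | h0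
  · have hN1 : N = 1 := (Polynomial.Monic.natDegree_eq_zero hN).mp h0
    rw [hN1, modByMonic_one]; simp
  · have h3 : (A %ₘ N).natDegree ≤ N.natDegree - 1 := by
      have := natDegree_modByMonic_lt A hN (by
        intro h4; rw [h4, natDegree_one] at h0; omega)
      omega
    have e : N.natDegree + E.natDegree - 1 = (N.natDegree - 1) + E.natDegree := by omega
    rw [e, coeff_mul_add_eq_of_natDegree_le h3 le_rfl, hE.coeff_natDegree, mul_one]

lemma coeff_comp_top {S : ℚ[X]} {n : ℕ} (h : S.natDegree ≤ n) (a : ℚ) :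
    (S.comp (X + C a)).coeff n = S.coeff n := by
  rcases Nat.lt_or_ge S.natDegree n with h1 | h1
  · rw [coeff_eq_zero_of_natDegree_lt h1, coeff_eq_zero_of_natDegree_lt]
    rw [natDegree_comp, natDegree_X_add_C, mul_one]; exact h1
  · have h2 : S.natDegree = n := le_antisymm h h1
    have h3 : (S.comp (X + C a)).natDegree = n := by
      rw [natDegree_comp, natDegree_X_add_C, mul_one, h2]
    have h4 : (S.comp (X + C a)).leadingCoeff = S.leadingCoeff := by
      rw [leadingCoeff_comp (by rw [natDegree_X_add_C]; norm_num), leadingCoeff_X_add_C, one_pow,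
        mul_one]
    rw [leadingCoeff, leadingCoeff, h3, h2] at h4
    exact h4

lemma resInf_comp (A N : ℚ[X]) (hN : N.Monic) (a : ℚ) :
    resInf (A.comp (X + C a)) (N.comp (X + C a)) = resInf A N := by
  have h1 := (comp_divByMonic A N hN a).2
  have h2 : (N.comp (X + C a)).natDegree = N.natDegree := by
    rw [natDegree_comp, natDegree_X_add_C, mul_one]
  rw [resInf, resInf, h1, h2]
  rcases Nat.eq_zero_or_pos N.natDegree with h0 | h0
  · have hN1 : N = 1 := (Polynomial.Monic.natDegree_eq_zero hN).mp h0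
    rw [hN1, modByMonic_one]; simp
  · apply coeff_comp_top
    have := natDegree_modByMonic_lt A hN (by
        intro h4; rw [h4, natDegree_one] at h0; omega)
    omega

end Crest.Agent.R006.P6x121
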