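import Crest.Agent.R006.P6Site_121

/-!
# Row 6, block P6 (prime 2), leaf E: the `R`-entries of the residue matrix (helper121)
-/

set_option autoImplicit false

namespace Crest.Agent.R006.P6x121

open Polynomial Finset Filter Crest.Agent.R006.Lam Crest.Agent.R006.NV Crest.Agent.R006.D
  Crest.Agent.R006.Bord Crest.Agent.R006.PsiInf Crest.Agent.R006.ProdBound481

/-! ### germs of `psi1` -/

lemma HomZ_neg (n : ℕ) : (PowerSeries.X : PowerSeries ℚ) ^ 3 ∣ HomZ (-(n : ℤ) - 1) := by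
  induction n with
  | zero =>
    have h := rec_HomZ (-1)
    have e1 : ((-1 : ℤ) : ℚ) + 1 = 0 := by norm_num
    have e2 : (-1 : ℤ) + 1 = 0 := by norm_num
    have e3 : HomZ 0 = 1 := rfl
    have e4 : (-((0 : ℕ) : ℤ) - 1) = -1 := by norm_num
    have e5 : pt (0 : ℚ) = PowerSeries.X := by simp [pt]
    rw [e1, e2, e3, e5, mul_one] at h
    rw [e4]
    have hc : PowerSeries.constantCoeff (2 * pt (((-1 : ℤ)) : ℚ) + 1) ≠ 0 := by
      rw [map_add, map_mul, constantCoeff_pt, constantCoeff_two, map_one]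
      norm_num
    have hi := inv_pow3 hc
    refine ⟨-((2 * pt (((-1 : ℤ)) : ℚ) + 1) ^ 3)⁻¹, ?_⟩
    linear_combination ((2 * pt (((-1 : ℤ)) : ℚ) + 1) ^ 3)⁻¹ * h - HomZ (-1) * hi
  | succ n ih =>
    obtain ⟨w, hw⟩ := ih
    have h := rec_HomZ (-((n + 1 : ℕ) : ℤ) - 1)
    have e2 : (-((n + 1 : ℕ) : ℤ) - 1) + 1 = -(n : ℤ) - 1 := by push_cast; ring
    rw [e2, hw] at h
    have hc : PowerSeries.constantCoeff (2 * pt (((-((n + 1 : ℕ) : ℤ) - 1 : ℤ)) : ℚ) + 1) ≠ 0 := by
      rw [map_add, map_mul, constantCoeff_pt, constantCoeff_two, map_one]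
      have : ((2 * (-((n + 1 : ℕ) : ℤ) - 1) + 1 : ℤ) : ℚ) ≠ 0 := by
        exact_mod_cast (by omega : (2 * (-((n + 1 : ℕ) : ℤ) - 1) + 1 : ℤ) ≠ 0)
      push_cast at this ⊢
      exact this
    have hi := inv_pow3 hc
    refine ⟨-(((2 * pt (((-((n + 1 : ℕ) : ℤ) - 1 : ℤ)) : ℚ) + 1) ^ 3)⁻¹ *
      pt (((-((n + 1 : ℕ) : ℤ) - 1 : ℤ) : ℚ) + 1) ^ 3 * w), ?_⟩
    linear_combination ((2 * pt (((-((n + 1 : ℕ) : ℤ) - 1 : ℤ)) : ℚ) + 1) ^ 3)⁻¹ * h
      - HomZ (-((n + 1 : ℕ) : ℤ) - 1) * hi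

/-- at every site other than `Z i`, `i ≥ 0`, the germ `psi1` is `O(ε³)` -/
lemma psi1_neg (s : Site) (h : ¬ (isZ s ∧ 0 ≤ nn s)) :
    (PowerSeries.X : PowerSeries ℚ) ^ 3 ∣ psi1 s := by
  cases s with
  | Z i =>
    have hi : i < 0 := by
      by_contra h'
      exact h ⟨trivial, by simpa [nn] using h'⟩
    have := HomZ_neg (-i - 1).toNat
    have e : -(((-i - 1).toNat : ℕ) : ℤ) - 1 = i := by omega
    rw [e] at this
    exact this
  | H i => exact dvd_zero _

lemma coeff_of_X3 {F : PowerSeries ℚ} (h : (PowerSeries.X : PowerSeries ℚ) ^ 3 ∣ F) {j : ℕ}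
    (hj : j < 3) : PowerSeries.coeff j F = 0 := PowerSeries.X_pow_dvd_iff.mp h j hj

section main

variable (S : Shape) (u c : ℕ)

lemma mm_le_three (x : St S u c) : mm S u c x ≤ 3 := by
  rw [mm]
  rcases x.1 with i | i <;> simp only [Shape.mult] <;> split_ifs <;> omega

lemma mm_le_one_Z {x : St S u c} (h : isZ x.1) (h0 : 0 ≤ nn x.1) : mm S u c x ≤ 1 := by
  rw [mm]
  rcases hx : x.1 with i | i
  · rw [hx] at h0
    simp only [nn] at h0
    simp only [Shape.mult, if_pos h0]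
    split_ifs <;> omega
  · rw [hx] at h; exact absurd h not_false

lemma mm_H_neg {x : St S u c} {i : ℤ} (hx : x.1 = .H i) (hi : i < 0) :
    mm S u c x ≤ 1 ∧ (mm S u c x ≠ 0 → -i ≤ S.w * u) := by
  rw [mm, hx]
  have h1 : ¬ 0 ≤ i := by omega
  simp only [Shape.mult, if_neg h1]
  split_ifs with h2
  · exact ⟨le_rfl, fun _ => h2⟩
  · exact ⟨by omega, fun h => absurd rfl h⟩

lemma lam_add' (p : ℚ[X]) (F G : St S u c → PowerSeries ℚ) :
    lam (zz S u c) (mm S u c) p (fun i => F i + G i) =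
      lam (zz S u c) (mm S u c) p F + lam (zz S u c) (mm S u c) p G := by
  simp only [lam, map_add, mul_add, sum_add_distrib]

variable (mi : ℕ) (P' : ℤ[X])

/-- the homogeneous sum -/
noncomputable def LR (k : ℕ) : ℚ :=
  lam (zz S u c) (mm S u c) (X ^ k) (fun x => gm x.1.val (mq (P' * g mi)) * psi1 x.1)

/-- the 2-adic Catalan number, truncated -/
noncomputable def xi (K : ℕ) : ℚ := -PowerSeries.constantCoeff (phiZ K 0)

lemma xi_int (K : ℕ) : V 0 (xi K) := by
  rw [xi, phiZ, map_neg, neg_neg]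
  have h1 := (SV_mq_int (Am 0 K) 0).mul (SV_H_inv K 0)
  have := h1 0
  rwa [PowerSeries.coeff_zero_eq_constantCoeff_apply, add_zero] at this

lemma lam_hp (k K : ℕ) :
    lam (zz S u c) (mm S u c) (X ^ k) (fun x => hp mi P' K x.1) = xi K * LR S u c mi P' k := by
  rw [LR, lam, lam, mul_sum]
  refine sum_congr rfl fun r _ => ?_
  have key : PowerSeries.coeff (r.2 : ℕ) (hp mi P' K r.1.1) =
      xi K * PowerSeries.coeff (r.2 : ℕ) (gm r.1.1.val (mq (P' * g mi)) * psi1 r.1.1) := by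
    have hr : (r.2 : ℕ) < 3 := lt_of_lt_of_le r.2.2 (mm_le_three S u c r.1)
    by_cases h : isZ r.1.1 ∧ 0 ≤ nn r.1.1
    · have h1 := mm_le_one_Z S u c h.1 h.2
      have h0 : (r.2 : ℕ) = 0 := by have := r.2.2; omega
      rw [h0, PowerSeries.coeff_zero_eq_constantCoeff_apply,
        PowerSeries.coeff_zero_eq_constantCoeff_apply, hp, xi, map_neg, map_mul]
      ring
    · have h1 := psi1_neg r.1.1 h
      rw [coeff_of_X3 (h1.mul_left _) hr, mul_zero, hp, map_neg,
        coeff_of_X3 ((h1.mul_left _).mul_right _) hr, neg_zero]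
  rw [key]
  simp only [Algebra.algebraMap_self, RingHom.id_apply]
  ring

/-- number of half-integer nodes -/
noncomputable def NhS : ℕ := ∑ l, mQ (mm S u c) (fun x : St S u c => isZ x.1) l

variable {mi P'}

theorem ev (k : ℕ) (hk : k < ∑ l, mm S u c l)
    (h0 : ∀ (x : St S u c) (i : ℤ), i < 0 → x.1 = .H i → mm S u c x ≠ 0 →
      (mq (P' * g mi)).eval x.1.val = 0) {v : ℕ} (hv : (2 ^ v : ℤ) ∣ P6x121.wt mi) :
    ∀ᶠ K in atTop, V ((NhS S u c : ℤ) + v) (lam (zz S u c) (mm S u c) (X ^ k)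
      (fun x => F2 mi P' x.1) - xi K * LR S u c mi P' k) := by
  -- the small part
  have hs : Sm (fun K => lam (zz S u c) (mm S u c) (X ^ k)
      (fun x => F2 mi P' x.1 - gg mi P' K x.1 - hp mi P' K x.1)) := by
    simp only [lam]
    refine Sm.sum _ (fun r K => algebraMap ℚ ℚ (Lam.u (zz S u c) (mm S u c) (X ^ k) r) *
      PowerSeries.coeff (r.2 : ℕ) (F2 mi P' r.1.1 - gg mi P' K r.1.1 - hp mi P' K r.1.1))
      fun r _ => ?_
    apply Sm.const_mul
    apply small_site
    · intro i hi hx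
      exact h0 r.1 i hi hx (by have := r.2.2; omega)
    · exact lt_of_lt_of_le r.2.2 (mm_le_three S u c r.1)
    · intro i hi hx
      have := (mm_H_neg S u c hx hi).1
      have := r.2.2
      omega
  filter_upwards [hs ((NhS S u c : ℤ) + v), eventually_gt_atTop 0] with K hK hK0
  have e1 : lam (zz S u c) (mm S u c) (X ^ k) (fun x => F2 mi P' x.1) -
      xi K * LR S u c mi P' k =
      lam (zz S u c) (mm S u c) (X ^ k) (fun x => gg mi P' K x.1) +
      lam (zz S u c) (mm S u c) (X ^ k)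
        (fun x => F2 mi P' x.1 - gg mi P' K x.1 - hp mi P' K x.1) := by
    rw [← lam_hp, ← lam_add', sub_eq_iff_eq_add, ← lam_add']
    congr 1
    funext x
    ring
  rw [e1]
  refine V.add ?_ hK
  have hP : ∀ x : St S u c, isZ x.1 → zz S u c x = nn x.1 := fun x hx => val_Z_site hx
  have hQ : ∀ x : St S u c, ¬ isZ x.1 → zz S u c x = nn x.1 + 1 / 2 := fun x hx => val_H_site hx
  have hz := zz_injective S u c
  rw [lam_split (zz S u c) (mm S u c) (fun x : St S u c => isZ x.1)]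
  refine V.add ?_ ?_
  · have := good_int (mm S u c) (fun x : St S u c => isZ x.1) hz hP hQ hv K k (GI mi P' K)
      (GI_dvd mi P' K)
    refine (le_of_eq ?_).trans this
    congr 1
    refine sum_congr rfl fun x _ => ?_
    split_ifs with h
    · rfl
    · have hx : isZ x.1 := by
        by_contra h'; exact h (by simp [mP, h'])
      rw [gg, if_pos hx]
      rfl
  · have := good_half (mm S u c) (fun x : St S u c => isZ x.1) hz hP hQ hv (K := K) hk
      (RM mi P' K) (RM_dvd mi P' K) (RM_natDegree mi P' hK0)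
    refine (le_of_eq ?_).trans this
    congr 1
    refine sum_congr rfl fun x _ => ?_
    split_ifs with h
    · rfl
    · have hx : ¬ isZ x.1 := by
        intro h'; exact h (by simp [mQ, h'])
      rw [gg, if_neg hx]
      rfl

end main

end Crest.Agent.R006.P6x121
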