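import Crest.Agent.R006.P6V_784
import Crest.Agent.R006.Shape_378

/-!
# Row 6, block P6 (p = 2), leaf E2: the value of `val2` for the frozen shape `SN` (helper674)

* `int_lin` : integral of a function which is affine on the interval;
* `xi0` : the integer dual point; `val2_SN : val2 SN xi0 = -11637/8` (the optimum over all dual
  points is `-40727/28 = -1454.5357..`).
-/

set_option autoImplicit false

namespace Crest.Agent.R006.P6.EvalN674

open Crest.Agent.R006.P6 Crest.Agent.R006.D

/-- integral of a function which is `c + m x` on `[a, b]` -/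
lemma int_lin {f : ℝ → ℝ} {a b : ℝ} (c m : ℝ) (hab : a ≤ b)
    (h : ∀ x, a ≤ x → x ≤ b → f x = c + m * x) :
    ∫ x in a..b, f x = c * (b - a) + m * (b ^ 2 - a ^ 2) / 2 := by
  rw [intervalIntegral.integral_congr (g := fun x => c + m * x)
    (fun x hx => by
      rw [Set.uIcc_of_le hab] at hx
      exact h x hx.1 hx.2)]
  have hm : Continuous fun x : ℝ => m * x := by fun_prop
  have h1 := intervalIntegral.integral_add (f := fun _ : ℝ => c) (g := fun x : ℝ => m * x)
    (continuous_const.intervalIntegrable a b) (hm.intervalIntegrable a b)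
    (μ := MeasureTheory.volume)
  rw [h1, intervalIntegral.integral_const, intervalIntegral.integral_const_mul, integral_id,
    smul_eq_mul]
  ring

/-- splitting -/
lemma int_split {f : ℝ → ℝ} (hf : Continuous f) (a b c : ℝ) :
    ∫ x in a..c, f x = (∫ x in a..b, f x) + ∫ x in b..c, f x :=
  (intervalIntegral.integral_add_adjacent_intervals (hf.intervalIntegrable _ _)
    (hf.intervalIntegrable _ _)).symm

/-- the integer dual point for `SN` -/
def xi0 : Par ℝ := ⟨9, 12, 29, 8, 21, 5, -22, 4, -15⟩

theorem val2_SN : val2 SN xi0 = -11637 / 8 := by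
  have i1 : ∫ x in (0 : ℝ)..1, min (9 : ℝ) (29 - 4 * x) = 9 := by
    rw [int_lin 9 0 (by norm_num) (fun x h1 h2 => by rw [min_eq_left (by linarith)]; ring)]
    norm_num
  have i2 : ∫ x in (1 : ℝ)..24, min (9 : ℝ) (min (12 - 3 * x) (29 - 4 * x)) = -611 := by
    rw [int_split (by fun_prop) 1 17 24,
      int_lin 12 (-3) (by norm_num) (fun x h1 h2 => by
        rw [min_eq_left (a := 12 - 3 * x) (by linarith), min_eq_right (by linarith)]; ring),
      int_lin 29 (-4) (by norm_num) (fun x h1 h2 => by
        rw [min_eq_right (a := 12 - 3 * x) (by linarith), min_eq_right (by linarith)]; ring)]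
    norm_num
  have i3 : ∫ x in (0 : ℝ)..6, min (8 : ℝ) (21 - 4 * x) = 263 / 8 := by
    rw [int_split (by fun_prop) 0 (13 / 4) 6,
      int_lin 8 0 (by norm_num) (fun x h1 h2 => by rw [min_eq_left (by linarith)]; ring),
      int_lin 21 (-4) (by norm_num) (fun x h1 h2 => by rw [min_eq_right (by linarith)]; ring)]
    norm_num
  have i4 : ∫ x in (0 : ℝ)..21, min (5 : ℝ) (min x (x + 4)) = 185 / 2 := by
    rw [int_split (by fun_prop) 0 5 21,
      int_lin 0 1 (by norm_num) (fun x h1 h2 => by
        rw [min_eq_left (a := x) (by linarith), min_eq_right (by linarith)]; ring),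
      int_lin 5 0 (by norm_num) (fun x h1 h2 => by
        rw [min_eq_left (a := x) (by linarith), min_eq_left (by linarith)]; ring)]
    norm_num
  have i5 : ∫ x in (0 : ℝ)..10, min (0 : ℝ) (4 - x) = -18 := by
    rw [int_split (by fun_prop) 0 4 10,
      int_lin 0 0 (by norm_num) (fun x h1 h2 => by rw [min_eq_left (by linarith)]; ring),
      int_lin 4 (-1) (by norm_num) (fun x h1 h2 => by rw [min_eq_right (by linarith)]; ring)]
    norm_num
  have i6 : ∫ x in (0 : ℝ)..10, min (-22 : ℝ) (-15 - x) = -449 / 2 := by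
    rw [int_split (by fun_prop) 0 7 10,
      int_lin (-22) 0 (by norm_num) (fun x h1 h2 => by rw [min_eq_left (by linarith)]; ring),
      int_lin (-15) (-1) (by norm_num) (fun x h1 h2 => by rw [min_eq_right (by linarith)]; ring)]
    norm_num
  unfold val2
  simp only [SN_B, SN_e1, SN_e2, SN_e3, SN_h1, SN_h2, SN_h3, SN_w, SN_a1, SN_a2, SN_i1, SN_r1,
    SN_q, SN_g, SN_k, xi0]
  push_cast
  simp only [add_zero]
  rw [i1, i2, i3, i4, i5, i6]
  norm_num

end Crest.Agent.R006.P6.EvalN674
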