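import Crest.Agent.R006.P6E_121

/-!
# Row 6, block P6 (prime 2), leaf E: basis and gauge (helper121)

* `bq` : monic basis, `bq_monicFam`, `bq_PB`;  `dd l = v_2(2^(l/2) (l/2)!)`, `dd_mono`;
* `Nh S u`, `NhS_eq` : number of half-integer nodes;
* `rho_val`, `rho_zero` : values of the gauge at the integers.
-/

set_option autoImplicit false

namespace Crest.Agent.R006.P6x121

open Polynomial Finset Filter Crest.Agent.R006.Lam Crest.Agent.R006.NV Crest.Agent.R006.D
  Crest.Agent.R006.Bord Crest.Agent.R006.PsiInf Crest.Agent.R006.ProdBound481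

lemma bq_monicFam : MonicFam bq := fun l => ⟨bq_monic l, bq_natDegree l⟩

lemma odd_three_pow (k : ℕ) : Odd ((3 : ℤ) ^ k) := Odd.pow ⟨1, by norm_num⟩

lemma V_three_inv (k : ℕ) : V 0 (((3 : ℚ) ^ k)⁻¹) := by
  have := V.odd_inv (odd_three_pow k)
  push_cast at this
  exact this

lemma bq_eq (l : ℕ) : bq l = C (((3 : ℚ) ^ (l / 2))⁻¹) * mq (g (l / 2) * X ^ (l % 2)) := rfl

lemma bq_PB (l : ℕ) : PB 2 0 (bq l) := by
  intro k
  rw [bq_eq, coeff_C_mul, mq_coeff]
  have := (V_three_inv (l / 2)).mul (V.int ((g (l / 2) * X ^ (l % 2)).coeff k))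
  rw [add_zero] at this
  exact_mod_cast this

/-- `v_2(2^(l/2) (l/2)!)` -/
def dd (l : ℕ) : ℕ := l / 2 + padicValNat 2 (l / 2).factorial

lemma dd_dvd (l : ℕ) : (2 ^ dd l : ℤ) ∣ P6x121.wt (l / 2) := by
  rw [dd, pow_add, P6x121.wt]
  refine mul_dvd_mul_left _ ?_
  exact_mod_cast (pow_padicValNat_dvd : 2 ^ padicValNat 2 (l / 2).factorial ∣ (l / 2).factorial)

lemma dd_mono : Monotone dd := by
  intro a b h
  have h1 : a / 2 ≤ b / 2 := Nat.div_le_div_right h
  rw [dd, dd]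
  refine Nat.add_le_add h1 ?_
  exact (padicValNat_dvd_iff_le (Nat.factorial_ne_zero _)).mp
    (pow_padicValNat_dvd.trans (Nat.factorial_dvd_factorial h1))

/-- number of half-integer nodes -/
def Nh (S : Shape) (u : ℕ) : ℕ := (S.h1 + S.h2 + S.h3 + S.w) * u

lemma NhS_eq (S : Shape) (u c : ℕ) : NhS S u c = Nh S u := by
  have h0 : NhS S u c = ∑ z ∈ sites S u c, (if isZ z then 0 else S.mult u c z) := by
    rw [NhS, ← Finset.sum_coe_sort (sites S u c)]
    rfl
  rw [h0, sites, Finset.sum_union]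
  · rw [Finset.sum_image (by intro a _ b _ h; simpa using h),
      Finset.sum_image (by intro a _ b _ h; simpa using h)]
    obtain ⟨-, -, -, -, l5, l6, l7, l8⟩ := L_ge S u c
    have hZ : ∑ i ∈ Finset.Icc (-(L S u c : ℤ)) (L S u c),
        (if isZ (Site.Z i) then 0 else S.mult u c (Site.Z i)) = 0 :=
      Finset.sum_eq_zero fun i _ => if_pos trivial
    have hH : ∑ i ∈ Finset.Icc (-(L S u c : ℤ)) (L S u c),
        (if isZ (Site.H i) then 0 else S.mult u c (Site.H i))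
        = S.h1 * u + S.h2 * u + S.h3 * u + S.w * u := by
      rw [← sum_right l5, ← sum_right l6, ← sum_right l7, ← sum_left l8, ← Finset.sum_add_distrib,
        ← Finset.sum_add_distrib, ← Finset.sum_add_distrib]
      refine Finset.sum_congr rfl fun i _ => ?_
      have : ¬ isZ (Site.H i) := not_false
      rw [if_neg this]
      simp only [Shape.mult]
      push_cast
      split_ifs <;> first | rfl | omega
    rw [hZ, hH, Nh]
    ring
  · rw [Finset.disjoint_left]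
    intro x hx hx'
    obtain ⟨i, _, rfl⟩ := Finset.mem_image.mp hx
    obtain ⟨j, _, hj⟩ := Finset.mem_image.mp hx'
    exact Site.noConfusion hj

/-! ### the gauge -/

/-- `∏_{m<n} (2s+2m+1)` -/
noncomputable def hz (n : ℕ) : ℤ[X] := ∏ m ∈ range n, (2 * X + 2 * (m : ℤ[X]) + 1)

lemma hz_eq (n : ℕ) : mq (hz n) =
    C ((2 : ℚ) ^ n) * (descPochhammer ℚ n).comp (X + C ((n : ℚ) - 1 / 2)) := by
  induction n with
  | zero => simp [hz, mq_one]
  | succ n ih =>
    have h2 : (C (2 : ℚ) : ℚ[X]) = 2 := map_ofNat C 2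
    have h3 : (2 : ℚ[X]) * C (1 / 2 : ℚ) = 1 := by
      rw [← h2, ← C_mul]; norm_num
    have e1 : mq (hz (n + 1)) = mq (hz n) * (2 * X + 2 * (n : ℚ[X]) + 1) := by
      rw [hz, prod_range_succ, ← hz]
      simp only [mq_mul, mq_add, mq_two, mq_X, mq_nat, mq_one]
    have e2 : (descPochhammer ℚ (n + 1)).comp (X + C (((n + 1 : ℕ) : ℚ) - 1 / 2)) =
        (X + C (((n + 1 : ℕ) : ℚ) - 1 / 2)) *
          (descPochhammer ℚ n).comp (X + C ((n : ℚ) - 1 / 2)) := by
      rw [descPochhammer_succ_left, mul_comp, X_comp, comp_assoc]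
      congr 2
      simp only [sub_comp, X_comp, one_comp]
      push_cast
      rw [map_sub, map_sub, map_add, map_one]
      ring
    have e3 : (C (((n + 1 : ℕ) : ℚ) - 1 / 2) : ℚ[X]) = (n : ℚ[X]) + 1 - C (1 / 2 : ℚ) := by
      push_cast
      rw [map_sub, map_add, map_one, map_natCast]
    rw [e1, e2, ih, pow_succ, C_mul, e3, h2]
    generalize (descPochhammer ℚ n).comp (X + C ((n : ℚ) - 1 / 2)) = G
    linear_combination (C ((2 : ℚ) ^ n) * G) * h3

/-- the integral gauge `2^(i1 u) rho` -/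
noncomputable def Pz (S : Shape) (u : ℕ) : ℤ[X] :=
  descPochhammer ℤ (S.a2 * u) * hz (S.i1 * u)
    * (descPochhammer ℤ (S.r1 * u)).comp (X + C ((S.r1 * u : ℕ) : ℤ)) * descPochhammer ℤ (S.a1 * u)

lemma mq_desc (n : ℕ) : mq (descPochhammer ℤ n) = descPochhammer ℚ n := by
  rw [mq, descPochhammer_map]

lemma mq_Pz (S : Shape) (u : ℕ) : mq (Pz S u) = C ((2 : ℚ) ^ (S.i1 * u)) * rho S u := by
  rw [Pz, rho, mq_mul, mq_mul, mq_mul, mq_desc, mq_desc, hz_eq, mq_comp, mq_desc, mq_add, mq_X,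
    mq_C]
  push_cast
  ring

lemma rho_zero (S : Shape) (u : ℕ) {n : ℕ} (hn : n < S.a1 * u) : (rho S u).eval (n : ℚ) = 0 := by
  rw [rho, eval_mul, descPochhammer_eval_eq_prod_range, prod_eq_zero (mem_range.mpr hn), mul_zero]
  ring

lemma fact_dvd_desc (n : ℕ) (a : ℤ) : (n.factorial : ℤ) ∣ (descPochhammer ℤ n).eval a := by
  have h3 := Ring.descPochhammer_eq_factorial_smul_choose a n
  rw [← Polynomial.eval_eq_smeval] at h3
  rw [h3, nsmul_eq_mul]
  exact dvd_mul_right _ _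

lemma Pz_dvd (S : Shape) (u : ℕ) (a : ℤ) :
    (((S.a1 * u).factorial * (S.a2 * u).factorial * (S.r1 * u).factorial : ℕ) : ℤ) ∣
      (Pz S u).eval a := by
  have h1 := fact_dvd_desc (S.a1 * u) a
  have h2 := fact_dvd_desc (S.a2 * u) a
  have h3 := fact_dvd_desc (S.r1 * u) (a + (S.r1 * u : ℕ))
  have e : (Pz S u).eval a = (descPochhammer ℤ (S.a1 * u)).eval a *
      (descPochhammer ℤ (S.a2 * u)).eval a *
      (descPochhammer ℤ (S.r1 * u)).eval (a + (S.r1 * u : ℕ)) * (hz (S.i1 * u)).eval a := by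
    rw [Pz, eval_mul, eval_mul, eval_mul, eval_comp, eval_add, eval_X, eval_C]
    ring
  rw [e]
  push_cast
  exact Dvd.dvd.mul_right (mul_dvd_mul (mul_dvd_mul h1 h2) h3) _

lemma mq_eval (p : ℤ[X]) (a : ℤ) : (mq p).eval (a : ℚ) = ((p.eval a : ℤ) : ℚ) := by
  rw [mq, eval_intCast_map]; rfl

theorem rho_val (S : Shape) (u : ℕ) (a : ℤ) :
    V (padicValNat 2 (S.a1 * u).factorial + padicValNat 2 (S.a2 * u).factorial +
      padicValNat 2 (S.r1 * u).factorial) ((2 : ℚ) ^ (S.i1 * u) * (rho S u).eval (a : ℚ)) := by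
  have h1 : (2 : ℚ) ^ (S.i1 * u) * (rho S u).eval (a : ℚ) = (((Pz S u).eval a : ℤ) : ℚ) := by
    rw [← mq_eval, mq_Pz, eval_mul, eval_C]
  rw [h1]
  have h2 := V.of_dvd (n := padicValNat 2 (S.a1 * u).factorial +
    padicValNat 2 (S.a2 * u).factorial + padicValNat 2 (S.r1 * u).factorial)
    (x := (Pz S u).eval a) (by
      refine dvd_trans ?_ (Pz_dvd S u a)
      rw [pow_add, pow_add]
      push_cast
      refine mul_dvd_mul (mul_dvd_mul ?_ ?_) ?_ <;>
      exact_mod_cast (pow_padicValNat_dvd))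
  exact_mod_cast h2

lemma Pz_half (S : Shape) (u : ℕ) {i : ℤ} (hi : i < 0) (hi2 : -i ≤ S.i1 * u) :
    (mq (Pz S u)).eval ((i : ℚ) + 1 / 2) = 0 := by
  have h : (mq (hz (S.i1 * u))).eval ((i : ℚ) + 1 / 2) = 0 := by
    rw [hz, mq_prod, eval_prod]
    refine prod_eq_zero (i := (-i - 1).toNat) (mem_range.mpr (by omega)) ?_
    simp only [mq_add, mq_mul, mq_two, mq_X, mq_nat, mq_one, eval_add, eval_mul, eval_X,
      eval_natCast, eval_one, eval_ofNat]
    have : (((-i - 1).toNat : ℕ) : ℤ) = -i - 1 := by omega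
    have h2 : (((-i - 1).toNat : ℕ) : ℚ) = -(i : ℚ) - 1 := by
      rw [← Int.cast_natCast, this]; push_cast; ring
    rw [h2]; ring
  rw [Pz, mq_mul, mq_mul, mq_mul, eval_mul, eval_mul, eval_mul, h]
  ring

end Crest.Agent.R006.P6x121
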