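import Crest.Agent.R006.P6Sm_121

/-!
# Row 6, block P6 (prime 2): germs at integers and half-integers (helper121)
-/

set_option autoImplicit false

namespace Crest.Agent.R006.P6x121

open Polynomial Finset Filter Crest.Agent.R006.NV

/-- an integer polynomial over `ℚ` -/
noncomputable def mq (p : ℤ[X]) : ℚ[X] := p.map (Int.castRingHom ℚ)

lemma mq_add (p q : ℤ[X]) : mq (p + q) = mq p + mq q := Polynomial.map_add _
lemma mq_sub (p q : ℤ[X]) : mq (p - q) = mq p - mq q := Polynomial.map_sub _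
lemma mq_neg (p : ℤ[X]) : mq (-p) = -mq p := Polynomial.map_neg _
lemma mq_mul (p q : ℤ[X]) : mq (p * q) = mq p * mq q := Polynomial.map_mul _
lemma mq_pow (p : ℤ[X]) (n : ℕ) : mq (p ^ n) = mq p ^ n := Polynomial.map_pow _ n
lemma mq_X : mq X = X := Polynomial.map_X _
lemma mq_C (a : ℤ) : mq (C a) = C (a : ℚ) := Polynomial.map_C _
lemma mq_one : mq 1 = 1 := Polynomial.map_one _
lemma mq_zero : mq 0 = 0 := Polynomial.map_zero _
lemma mq_nat (n : ℕ) : mq (n : ℤ[X]) = (n : ℚ[X]) := Polynomial.map_natCast _ n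
lemma mq_two : mq 2 = 2 := by
  have := mq_nat 2; simpa using this
lemma mq_three : mq 3 = 3 := by
  have := mq_nat 3; simpa using this
lemma mq_comp (p q : ℤ[X]) : mq (p.comp q) = (mq p).comp (mq q) := Polynomial.map_comp _ p q
lemma mq_coeff (p : ℤ[X]) (k : ℕ) : (mq p).coeff k = (p.coeff k : ℚ) := by
  rw [mq, coeff_map]; rfl
lemma mq_natDegree (p : ℤ[X]) : (mq p).natDegree = p.natDegree :=
  natDegree_map_eq_of_injective Int.cast_injective p
lemma mq_monic {p : ℤ[X]} (h : p.Monic) : (mq p).Monic := h.map _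
lemma mq_prod {ι : Type*} (s : Finset ι) (f : ι → ℤ[X]) :
    mq (∏ i ∈ s, f i) = ∏ i ∈ s, mq (f i) := Polynomial.map_prod _ _ _

lemma gm_nat (s : ℚ) (n : ℕ) : gm s (n : ℚ[X]) = (n : PowerSeries ℚ) := by
  have h : (n : ℚ[X]) = C (n : ℚ) := (map_natCast C n).symm
  rw [h, gm_C, map_natCast]

lemma gm_prod {ι : Type*} (s : ℚ) (t : Finset ι) (f : ι → ℚ[X]) :
    gm s (∏ i ∈ t, f i) = ∏ i ∈ t, gm s (f i) := by
  classical
  induction t using Finset.induction_on with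
  | empty => simp [gm_one]
  | insert a t ha ih => rw [prod_insert ha, prod_insert ha, gm_mul, ih]

lemma gm_sum {ι : Type*} (s : ℚ) (t : Finset ι) (f : ι → ℚ[X]) :
    gm s (∑ i ∈ t, f i) = ∑ i ∈ t, gm s (f i) := by
  classical
  induction t using Finset.induction_on with
  | empty => simp [gm_zero]
  | insert a t ha ih => rw [sum_insert ha, sum_insert ha, gm_add, ih]

lemma constantCoeff_gm (s : ℚ) (p : ℚ[X]) : PowerSeries.constantCoeff (gm s p) = p.eval s := by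
  rw [gm, Polynomial.constantCoeff_coe, taylor_coeff_zero]

lemma gm_eq_sum (s : ℚ) (P : ℚ[X]) :
    gm s P = ∑ k ∈ range (P.natDegree + 1), PowerSeries.C (P.coeff k) * pt s ^ k := by
  conv_lhs => rw [P.as_sum_range_C_mul_X_pow]
  rw [gm_sum]
  exact sum_congr rfl fun k _ => by rw [gm_mul, gm_C, gm_pow, gm_X]

lemma gm_comp_sub (s : ℚ) (p : ℚ[X]) : gm (s + 1) (p.comp (X - 1)) = gm s p := by
  rw [gm, gm, taylor_apply, taylor_apply, comp_assoc]
  congr 2
  simp only [sub_comp, X_comp, one_comp, map_add, map_one]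
  ring

lemma SV_pt_int (i : ℤ) : SV 0 (pt (i : ℚ)) := SV.X.add (SV.C (V.int i))

lemma pn_two : padicNorm 2 (2 : ℚ) = 2⁻¹ := by
  have := padicNorm.padicNorm_p_of_prime (p := 2)
  rwa [Nat.cast_ofNat] at this

lemma V_half (i : ℤ) : V (-1) ((i : ℚ) + 1 / 2) := by
  have h : (i : ℚ) + 1 / 2 = ((2 * i + 1 : ℤ) : ℚ) * (2 : ℚ)⁻¹ := by push_cast; ring
  have h2 : V (-1) (2 : ℚ)⁻¹ := by
    rw [V, pn_inv, pn_two]; norm_num
  rw [h]
  exact ((V.int _).mul h2).mono (by omega)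

lemma SV_pt_half (i : ℤ) : SV (-1) (pt ((i : ℚ) + 1 / 2)) :=
  (SV.X.mono (by omega)).add (SV.C (V_half i))

lemma SV_gm_int {v : ℤ} {P : ℚ[X]} (h : ∀ k, V v (P.coeff k)) (i : ℤ) : SV v (gm (i : ℚ) P) := by
  rw [gm_eq_sum]
  refine SV.sum _ _ fun k _ => ?_
  exact ((SV.C (h k)).mul ((SV_pt_int i).pow k)).mono (by omega)

lemma SV_gm_half {v : ℤ} {P : ℚ[X]} (h : ∀ k : ℕ, V (v + k) (P.coeff k)) (i : ℤ) :
    SV v (gm ((i : ℚ) + 1 / 2) P) := by
  rw [gm_eq_sum]
  refine SV.sum _ _ fun k _ => ?_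
  exact ((SV.C (h k)).mul ((SV_pt_half i).pow k)).mono (by ring_nf; omega)

lemma SV_mq_int (p : ℤ[X]) (i : ℤ) : SV 0 (gm (i : ℚ) (mq p)) :=
  SV_gm_int (fun k => by rw [mq_coeff]; exact V.int _) i

lemma SV_mq_half {p : ℤ[X]} {e : ℕ} (he : p.natDegree ≤ e) (i : ℤ) :
    SV (-(e : ℤ)) (gm ((i : ℚ) + 1 / 2) (mq p)) := by
  refine SV_gm_half (fun k => ?_) i
  rcases Nat.lt_or_ge p.natDegree k with h | h
  · rw [mq_coeff, coeff_eq_zero_of_natDegree_lt h, Int.cast_zero]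
    exact V.zero _
  · rw [mq_coeff]
    exact (V.int _).mono (by omega)

/-! ### the explicit factors -/

lemma pn_odd {w : ℤ} (hw : Odd w) : padicNorm 2 (w : ℚ) = 1 := by
  rw [padicNorm.int_eq_one_iff]
  intro h
  exact (Int.not_even_iff_odd.mpr hw) (even_iff_two_dvd.mpr (by exact_mod_cast h))

lemma pn_pow (x : ℚ) (n : ℕ) : padicNorm 2 (x ^ n) = padicNorm 2 x ^ n := by
  induction n with
  | zero => simp
  | succ n ih => rw [pow_succ, pow_succ, padicNorm.mul, ih]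

lemma H_const (K : ℕ) (i : ℤ) : padicNorm 2 ((mq (H K)).eval (i : ℚ)) = 1 := by
  induction K with
  | zero => simp [H, mq_one]
  | succ K ih =>
    have e : (mq (H (K + 1))).eval (i : ℚ) =
        (mq (H K)).eval (i : ℚ) * ((2 * i + 2 * K + 1 : ℤ) : ℚ) ^ 2 := by
      rw [H_succ, mq_mul, mq_pow, mq_add, mq_add, mq_mul, mq_mul, mq_two, mq_X, mq_nat, mq_one]
      simp
    rw [e, padicNorm.mul, ih, pn_pow, pn_odd ⟨i + K, by ring⟩]
    norm_num

lemma H_eval_ne (K : ℕ) (i : ℤ) : (mq (H K)).eval (i : ℚ) ≠ 0 := by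
  intro h
  have := H_const K i
  rw [h, padicNorm.zero] at this
  exact absurd this (by norm_num)

lemma SV_H_inv (K : ℕ) (i : ℤ) : SV 0 (gm (i : ℚ) (mq (H K)))⁻¹ := by
  apply SV.inv
  · rw [neg_zero]; exact SV_mq_int _ i
  · rw [constantCoeff_gm, H_const, zpow_zero]

lemma gm_H_cancel (K : ℕ) (i : ℤ) :
    gm (i : ℚ) (mq (H K)) * (gm (i : ℚ) (mq (H K)))⁻¹ = 1 := by
  apply PowerSeries.mul_inv_cancel
  rw [constantCoeff_gm]
  exact H_eval_ne K i

lemma J_even {a : ℤ} (ha : Even a) : J 1 (PowerSeries.X + PowerSeries.C (a : ℚ)) := by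
  intro j
  rw [map_add, PowerSeries.coeff_X, PowerSeries.coeff_C]
  rcases j with _ | _ | j
  · obtain ⟨b, hb⟩ := ha
    have h1 : V 1 (a : ℚ) := by
      have := V.of_dvd (n := 1) (x := a) ⟨b, by rw [hb]; ring⟩
      simpa using this
    simpa using h1
  · simpa using V.one
  · have h1 : ¬ (j + 1 + 1 = 1) := by omega
    have h2 : ¬ (j + 1 + 1 = 0) := by omega
    rw [if_neg h1, if_neg h2, add_zero]
    exact V.zero _

lemma J_int (a : ℤ) : J 0 (PowerSeries.X + PowerSeries.C (a : ℚ)) :=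
  (SV.X.add (SV.C (V.int a))).J

lemma J_pair (a : ℤ) : J 1 ((PowerSeries.X + PowerSeries.C (a : ℚ)) *
    (PowerSeries.X + PowerSeries.C ((a + 1 : ℤ) : ℚ))) := by
  rcases Int.even_or_odd a with h | h
  · have := (J_even h).mul (J_int (a + 1))
    rwa [add_zero] at this
  · have := (J_int a).mul (J_even (h.add_one))
    rwa [zero_add] at this

lemma J_Q (K : ℕ) (i : ℤ) : J K (gm (i : ℚ) (mq (Q K))) := by
  induction K with
  | zero => simp [Q, mq_one, gm_one]; exact SV.one.J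
  | succ K ih =>
    have e : gm (i : ℚ) (mq (Q (K + 1))) = gm (i : ℚ) (mq (Q K)) *
        ((PowerSeries.X + PowerSeries.C ((i + 2 * K : ℤ) : ℚ)) *
          (PowerSeries.X + PowerSeries.C ((i + 2 * K + 1 : ℤ) : ℚ))) := by
      rw [Q_succ]
      simp only [mq_mul, mq_add, mq_two, mq_X, mq_nat, mq_one, gm_mul, gm_add, gm_X, gm_nat,
        gm_one, gm_two, pt]
      push_cast
      simp only [map_add, map_mul, map_natCast, map_intCast, map_ofNat, map_one]
      ring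
    rw [e]
    exact_mod_cast ih.mul (J_pair _)

lemma J_N1 (K : ℕ) (i : ℤ) : J K (gm (i : ℚ) (mq (N1 K))) := by
  induction K with
  | zero => simp [N1, mq_one, gm_one]; exact SV.one.J
  | succ K ih =>
    have e : gm (i : ℚ) (mq (N1 (K + 1))) = gm (i : ℚ) (mq (N1 K)) *
        ((PowerSeries.X + PowerSeries.C ((i + 2 * K + 1 : ℤ) : ℚ)) *
          (PowerSeries.X + PowerSeries.C ((i + 2 * K + 1 + 1 : ℤ) : ℚ))) := by
      rw [N1_succ]
      simp only [mq_mul, mq_add, mq_two, mq_X, mq_nat, mq_one, gm_mul, gm_add, gm_X, gm_nat,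
        gm_one, gm_two, pt]
      push_cast
      simp only [map_add, map_mul, map_natCast, map_intCast, map_ofNat, map_one]
      ring
    rw [e]
    exact_mod_cast ih.mul (J_pair _)

lemma SV_U_half (K : ℕ) (i : ℤ) : SV (2 * K) (gm ((i : ℚ) + 1 / 2) (mq (U K))) := by
  induction K with
  | zero => simp [U, mq_one, gm_one]; exact SV.one
  | succ K ih =>
    have e : gm ((i : ℚ) + 1 / 2) (mq (U (K + 1))) = gm ((i : ℚ) + 1 / 2) (mq (U K)) *
        (PowerSeries.C 2 * (PowerSeries.X + PowerSeries.C ((i - K : ℤ) : ℚ))) ^ 2 := by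
      rw [U_succ]
      simp only [mq_mul, mq_pow, mq_sub, mq_two, mq_X, mq_nat, mq_one, gm_mul, gm_pow, gm_sub,
        gm_X, gm_nat, gm_one, gm_two, pt]
      have h1 : (PowerSeries.C (2 : ℚ) : PowerSeries ℚ) = 2 := map_ofNat _ 2
      have h2 : (2 : PowerSeries ℚ) * PowerSeries.C (1 / 2 : ℚ) = 1 := by
        rw [← h1, ← map_mul]; norm_num
      push_cast
      simp only [map_add, map_sub, map_natCast, map_intCast]
      congr 1
      rw [h1]
      linear_combination (2 * (2 * PowerSeries.X + 2 * (i : PowerSeries ℚ)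
        - 2 * (K : PowerSeries ℚ)) + (2 * PowerSeries.C (1 / 2 : ℚ) - 1)) * h2
    rw [e]
    have h3 : SV 1 (PowerSeries.C 2 * (PowerSeries.X + PowerSeries.C ((i - K : ℤ) : ℚ))) := by
      have := (SV.C V.two).mul (SV.X.add (SV.C (V.int (i - K))))
      rwa [add_zero] at this
    exact (ih.mul (h3.pow 2)).mono (by push_cast; ring_nf; omega)

lemma D_const (K : ℕ) (i : ℤ) :
    padicNorm 2 ((mq (D K)).eval ((i : ℚ) + 1 / 2)) = 2 ^ (2 * (K : ℤ)) := by
  have h2 : padicNorm 2 (2 : ℚ)⁻¹ = 2 := by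
    rw [pn_inv, pn_two]; norm_num
  induction K with
  | zero => simp [D, mq_one]
  | succ K ih =>
    have e : (mq (D (K + 1))).eval ((i : ℚ) + 1 / 2) = (mq (D K)).eval ((i : ℚ) + 1 / 2) *
        (((2 * i + 1 - 4 * K : ℤ) : ℚ) * (2 : ℚ)⁻¹ *
          (((2 * i + 1 - 4 * K - 2 : ℤ) : ℚ) * (2 : ℚ)⁻¹)) := by
      rw [D_succ]
      simp only [mq_mul, mq_sub, mq_two, mq_X, mq_nat, mq_one]
      simp only [eval_mul, eval_sub, eval_X, eval_natCast, eval_one, eval_ofNat]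
      push_cast
      ring
    rw [e, padicNorm.mul, ih, padicNorm.mul, padicNorm.mul, padicNorm.mul, h2,
      pn_odd (w := 2 * i + 1 - 4 * K) ⟨i - 2 * K, by ring⟩,
      pn_odd (w := 2 * i + 1 - 4 * K - 2) ⟨i - 2 * K - 1, by ring⟩]
    have : (2 : ℤ) * ((K + 1 : ℕ) : ℤ) = 2 * K + 2 := by push_cast; ring
    rw [this, zpow_add₀ (by norm_num)]
    norm_num

lemma D_eval_ne (K : ℕ) (i : ℤ) : (mq (D K)).eval ((i : ℚ) + 1 / 2) ≠ 0 := by
  intro h
  have := D_const K i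
  rw [h, padicNorm.zero] at this
  exact absurd this.symm (by positivity)

lemma SV_D_inv (K : ℕ) (i : ℤ) : SV (2 * K) (gm ((i : ℚ) + 1 / 2) (mq (D K)))⁻¹ := by
  apply SV.inv
  · have := SV_mq_half (p := D K) (e := 2 * K) (D_natDegree K).le i
    push_cast at this
    exact this
  · rw [constantCoeff_gm, D_const]

lemma gm_D_cancel (K : ℕ) (i : ℤ) :
    gm ((i : ℚ) + 1 / 2) (mq (D K)) * (gm ((i : ℚ) + 1 / 2) (mq (D K)))⁻¹ = 1 := by
  apply PowerSeries.mul_inv_cancel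
  rw [constantCoeff_gm]
  exact D_eval_ne K i

end Crest.Agent.R006.P6x121
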