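import Crest.Agent.R006.P6Div_121

/-!
# Row 6, block P6 (prime 2): the moments (helper121)

* `cK K j` : `[s^(-j-1)]` of `Φ_K = B_K / D_K`; `cK_small` : `cK K j - 2 mu j → 0`;
* `quotK` : polynomial part of `R Φ_K` is `TR (cK K) R`; `tau_small`.
-/

set_option autoImplicit false

namespace Crest.Agent.R006.P6x121

open Polynomial Finset Filter Crest.Agent.R006.NV Crest.Agent.R006.PsiInf

/-! ### the moments of `Φ_K` -/

/-- `[s^(-j-1)] Φ_K` -/
noncomputable def cK (K j : ℕ) : ℚ := resInf (X ^ j * mq (Bm 0 K)) (mq (D K))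

lemma lin_cK (K : ℕ) (P : ℚ[X]) : lin (cK K) P = resInf (P * mq (Bm 0 K)) (mq (D K)) := by
  conv_rhs => rw [P.as_sum_range_C_mul_X_pow, sum_mul, resInf_sum]
  rw [lin_eq_sum (cK K) P (Nat.lt_succ_self _)]
  refine sum_congr rfl fun n _ => ?_
  rw [mul_assoc, resInf_C_mul, cK]

/-- approximate key identity -/
lemma key_cK (K : ℕ) (P : ℚ[X]) :
    lin (cK K) (X ^ 3 * P + (2 * X + 1) ^ 3 * P.comp (X + 1)) =
      -resInf (P * mq ((1 - 3 * X + 2 * (K : ℤ[X])) * U K)) (mq (D' K)) := by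
  rw [map_add, lin_cK, lin_cK]
  have hD := mq_monic (D_monic K)
  have hD' := mq_monic (D'_monic K)
  -- first term
  have hE : (mq (X - 2 * (K : ℤ[X]))).Monic := by
    have e : mq (X - 2 * (K : ℤ[X])) = X - C (2 * (K : ℚ)) := by
      rw [mq_sub, mq_mul, mq_two, mq_X, mq_nat, map_mul, map_natCast]; rfl
    rw [e]; exact monic_X_sub_C _
  have e1 : resInf (X ^ 3 * P * mq (Bm 0 K)) (mq (D K)) =
      resInf (P * (X ^ 2 * mq (X - 2 * (K : ℤ[X])) * mq (Bm 0 K))) (mq (D' K)) := by
    rw [← resInf_mul_right _ _ _ hD hE, ← resInf_mul_right _ _ _ hD' monic_X]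
    congr 1
    · ring
    · rw [← mq_mul, D_mul, mq_mul, mq_X]; ring
  -- second term
  have e2 : resInf ((2 * X + 1) ^ 3 * P.comp (X + 1) * mq (Bm 0 K)) (mq (D K)) =
      resInf (P * ((2 * X - 1) ^ 3 * mq ((Bm 0 K).comp (X - 1)))) (mq (D' K)) := by
    rw [← resInf_comp _ _ hD (-1)]
    have ex : (X : ℚ[X]) + C (-1) = X - 1 := by rw [map_neg, map_one]; ring
    have hm : mq (X - 1 : ℤ[X]) = X - 1 := by rw [mq_sub, mq_X, mq_one]
    congr 1
    · rw [ex, mul_comp, mul_comp, comp_assoc, mq_comp, hm]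
      have h1 : ((2 * X + 1 : ℚ[X]) ^ 3).comp (X - 1) = (2 * X - 1) ^ 3 := by
        simp only [pow_comp, add_comp, mul_comp, X_comp, ofNat_comp, one_comp]
        ring
      have h2 : (X + 1 : ℚ[X]).comp (X - 1) = X := by
        simp only [add_comp, X_comp, one_comp]; ring
      rw [h1, h2, comp_X]; ring
    · rw [ex, ← hm, ← mq_comp, D_comp]
  rw [e1, e2, ← resInf_add]
  have h := congrArg mq (rec_neg K)
  simp only [mq_add, mq_sub, mq_mul, mq_pow, mq_X, mq_two, mq_three, mq_one, mq_nat] at h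
  have e3 : P * (X ^ 2 * mq (X - 2 * (K : ℤ[X])) * mq (Bm 0 K)) +
      P * ((2 * X - 1) ^ 3 * mq ((Bm 0 K).comp (X - 1))) =
      mq (D' K) * (P * (1 - 3 * X)) + C (-1) * (P * mq ((1 - 3 * X + 2 * (K : ℤ[X])) * U K)) := by
    simp only [mq_add, mq_sub, mq_mul, mq_X, mq_two, mq_three, mq_one, mq_nat, map_neg, map_one]
    linear_combination P * h
  rw [e3, resInf_add, resInf_mul_self _ _ hD', resInf_C_mul]
  ring

lemma key_err (K j : ℕ) :
    V ((K : ℤ) - (j + 2)) (lin (cK K) (X ^ 3 * X ^ j + (2 * X + 1) ^ 3 * (X ^ j).comp (X + 1))) := by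
  rw [key_cK]
  apply V.neg
  have h1 : T (j + 1) (mq (X ^ j * (1 - 3 * X + 2 * (K : ℤ[X])))) := by
    have := T.of_natDegree (p := X ^ j * (1 - 3 * X + 2 * (K : ℤ[X]))) (e := j + 1) (by
      refine natDegree_mul_le.trans ?_
      rw [natDegree_X_pow]
      have : (1 - 3 * X + 2 * (K : ℤ[X])).natDegree ≤ 1 := by compute_degree
      omega)
    exact_mod_cast this
  have h2 := (h1.mul (T_U K)).res (D' K) (D'_monic K)
  rw [D'_natDegree] at h2
  have e : X ^ j * mq ((1 - 3 * X + 2 * (K : ℤ[X])) * U K) =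
      mq (X ^ j * (1 - 3 * X + 2 * (K : ℤ[X]))) * mq (U K) := by
    simp only [mq_mul, mq_pow, mq_X]; ring
  rw [e]
  exact h2.mono (by push_cast; omega)

/-! ### initial values -/

lemma cK_zero_right (K : ℕ) : cK K 0 = 0 := by
  rw [cK, pow_zero, one_mul, resInf, mq_natDegree, D_natDegree]
  have h1 : mq (Bm 0 K) %ₘ mq (D K) = mq (Bm 0 K) := by
    rw [mq_mod _ _ (D_monic K), (modByMonic_eq_self_iff (D_monic K)).mpr (Bm_degree_lt K)]
  rw [h1, mq_coeff]
  rcases Nat.eq_zero_or_pos K with h | h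
  · subst h; simp [Bm]
  · rw [coeff_eq_zero_of_natDegree_lt, Int.cast_zero]
    have := Bm_natDegree K
    omega

lemma quad_eq (K : ℕ) : (X - 2 * (K : ℤ[X])) * (X - 2 * (K : ℤ[X]) - 1) =
    C 1 * X ^ 2 + C (-(4 * (K : ℤ) + 1)) * X + C (2 * (K : ℤ) * (2 * K + 1)) := by
  simp only [map_add, map_mul, map_neg, map_natCast, map_ofNat, map_one]
  ring

lemma quad_eq' (K : ℕ) : (2 * X - 2 * (K : ℤ[X]) - 1) ^ 2 =
    C 4 * X ^ 2 + C (-(4 * (2 * (K : ℤ) + 1))) * X + C ((2 * (K : ℤ) + 1) ^ 2) := by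
  simp only [map_add, map_mul, map_neg, map_natCast, map_ofNat, map_one, map_pow]
  ring

lemma coeff_quad (F : ℤ[X]) (a b c : ℤ) (n : ℕ) :
    (F * (C a * X ^ 2 + C b * X + C c)).coeff (n + 2) =
      a * F.coeff n + b * F.coeff (n + 1) + c * F.coeff (n + 2) := by
  have e : F * (C a * X ^ 2 + C b * X + C c) = C a * (F * X ^ 2) + C b * (F * X) + C c * F := by
    ring
  rw [e, coeff_add, coeff_add, coeff_C_mul, coeff_C_mul, coeff_C_mul, coeff_mul_X_pow,
    coeff_mul_X]

lemma U_top (K : ℕ) : (U K).coeff (2 * K) = 4 ^ K := by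
  induction K with
  | zero => simp [U]
  | succ K ih =>
    rw [U_succ, quad_eq', show 2 * (K + 1) = 2 * K + 2 by ring, coeff_quad, ih,
      coeff_eq_zero_of_natDegree_lt (by have := U_natDegree K; omega : _ < 2 * K + 1),
      coeff_eq_zero_of_natDegree_lt (by have := U_natDegree K; omega : _ < 2 * K + 2)]
    ring

lemma U_next (K : ℕ) : (U (K + 1)).coeff (2 * K + 1) = -4 ^ (K + 1) * (K + 1) ^ 2 := by
  induction K with
  | zero =>
    rw [U_succ, quad_eq']
    simp [U, coeff_X, coeff_one]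
  | succ K ih =>
    rw [U_succ, quad_eq', show 2 * (K + 1) + 1 = 2 * K + 1 + 2 by ring, coeff_quad, ih,
      show 2 * K + 1 + 1 = 2 * (K + 1) by ring, U_top,
      coeff_eq_zero_of_natDegree_lt (by have := U_natDegree (K + 1); omega : _ < 2 * K + 1 + 2)]
    push_cast
    ring

lemma D_next (K : ℕ) : (D (K + 1)).coeff (2 * K + 1) = -(K + 1) * (2 * K + 1) := by
  induction K with
  | zero =>
    rw [D_succ, quad_eq]
    simp [D, coeff_X]
  | succ K ih =>
    rw [D_succ, quad_eq, show 2 * (K + 1) + 1 = 2 * K + 1 + 2 by ring, coeff_quad, ih,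
      show 2 * K + 1 + 1 = 2 * (K + 1) by ring,
      coeff_eq_zero_of_natDegree_lt (by rw [D_natDegree]; omega : _ < 2 * K + 1 + 2)]
    have h := (D_monic (K + 1)).coeff_natDegree
    rw [D_natDegree] at h
    rw [h]
    push_cast
    ring

lemma cK_succ (K j : ℕ) :
    cK (K + 1) j = cK K j + resInf (mq (X ^ j * U K)) (mq (D (K + 1))) := by
  have hE : ((X - 2 * (K : ℤ[X])) * (X - 2 * (K : ℤ[X]) - 1)).Monic := by
    have h1 : (X - 2 * (K : ℤ[X])).Monic := by
      have := monic_X_sub_C (2 * (K : ℤ)); simpa using this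
    have h2 : (X - 2 * (K : ℤ[X]) - 1).Monic := by
      have := monic_X_sub_C (2 * (K : ℤ) + 1); simpa [sub_sub] using this
    exact h1.mul h2
  rw [cK, cK, ← resInf_mul_right _ _ _ (mq_monic (D_monic K)) (mq_monic hE), ← mq_mul, ← D_succ,
    ← resInf_add]
  congr 1
  rw [Bm, f_zero, map_one, one_mul]
  simp only [mq_add, mq_mul, mq_pow, mq_X]
  ring

lemma cK_one (K : ℕ) : 3 * cK K 1 = 4 ^ K - 1 := by
  induction K with
  | zero => simp [cK, Bm, mq_zero, resInf]
  | succ K ih =>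
    have h : resInf (mq (X ^ 1 * U K)) (mq (D (K + 1))) = 4 ^ K := by
      rw [resInf, mq_natDegree, D_natDegree, mq_mod _ _ (D_monic _)]
      have h1 : (X ^ 1 * U K) %ₘ D (K + 1) = X ^ 1 * U K := by
        rw [modByMonic_eq_self_iff (D_monic _), degree_eq_natDegree (D_monic _).ne_zero,
          D_natDegree]
        refine degree_le_natDegree.trans_lt ?_
        have : (X ^ 1 * U K).natDegree ≤ 1 + 2 * K :=
          natDegree_mul_le.trans (by rw [natDegree_X_pow]; have := U_natDegree K; omega)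
        exact_mod_cast (by omega : (X ^ 1 * U K).natDegree < 2 * (K + 1))
      rw [h1, mq_coeff, show 2 * (K + 1) - 1 = 2 * K + 1 by omega, coeff_X_pow_mul, U_top]
      push_cast; ring
    rw [cK_succ, h]
    linear_combination ih

lemma cK_two (K : ℕ) : 27 * cK K 2 = 7 + 4 ^ K * (9 * K ^ 2 + 3 * K - 7) := by
  induction K with
  | zero => simp [cK, Bm, mq_zero, resInf]
  | succ K ih =>
    have h : resInf (mq (X ^ 2 * U K)) (mq (D (K + 1))) = 4 ^ K * (K ^ 2 + 3 * K + 1) := by
      rw [resInf, mq_natDegree, D_natDegree, mq_mod _ _ (D_monic _)]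
      have hd : (D (K + 1)).natDegree = 2 * K + 2 := by rw [D_natDegree]; ring
      have h1 : (X ^ 2 * U K) %ₘ D (K + 1) = X ^ 2 * U K - C (4 ^ K) * D (K + 1) := by
        refine (div_modByMonic_unique (f := X ^ 2 * U K) (g := D (K + 1)) (C (4 ^ K)) _
          (D_monic _) ⟨by ring, ?_⟩).2
        rw [degree_eq_natDegree (D_monic _).ne_zero, hd, degree_lt_iff_coeff_zero]
        intro j hj
        rw [coeff_sub, coeff_C_mul]
        rcases Nat.lt_or_ge (2 * K + 2) j with h2 | h2
        · have e1 : (X ^ 2 * U K).coeff j = 0 := by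
            apply coeff_eq_zero_of_natDegree_lt
            refine lt_of_le_of_lt natDegree_mul_le ?_
            rw [natDegree_X_pow]; have := U_natDegree K; omega
          rw [e1, coeff_eq_zero_of_natDegree_lt (by rw [hd]; exact h2)]; ring
        · have h3 : j = 2 * K + 2 := le_antisymm h2 hj
          have h4 := (D_monic (K + 1)).coeff_natDegree
          rw [hd] at h4
          rw [h3, h4, coeff_X_pow_mul, U_top]; ring
      rw [h1, mq_coeff, show 2 * (K + 1) - 1 = 2 * K + 1 by omega, coeff_sub, coeff_C_mul, D_next]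
      rcases K with _ | K
      · simp [U, coeff_X_pow]
      · rw [show 2 * (K + 1) + 1 = 2 * K + 1 + 2 by ring, coeff_X_pow_mul, U_next]
        push_cast; ring
    rw [cK_succ, h]
    push_cast
    linear_combination ih

lemma two_mu_one : 2 * mu 1 = -1 / 3 := by rw [mu_one]; norm_num
lemma two_mu_two : 2 * mu 2 = 7 / 27 := by rw [mu_two]; norm_num

lemma V_four_pow (K : ℕ) : V K ((4 : ℚ) ^ K) := by
  have h : (4 : ℚ) ^ K = 2 ^ K * ((2 ^ K : ℤ) : ℚ) := by
    push_cast; rw [← mul_pow]; norm_num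
  rw [h]
  exact ((V.two_pow K).mul (V.int _)).mono (by omega)

/-- the moments converge -/
theorem cK_small (j : ℕ) : Sm (fun K => cK K j - 2 * mu j) := by
  induction j using Nat.strong_induction_on with
  | _ j ih =>
    match j, ih with
    | 0, _ =>
      have : (fun K => cK K 0 - 2 * mu 0) = fun _ => 0 := by
        funext K; rw [cK_zero_right, mu_zero]; ring
      rw [this]; exact Sm.zero
    | 1, _ =>
      apply Sm.of_V 0
      intro K
      have e : cK K 1 - 2 * mu 1 = 4 ^ K * ((3 : ℤ) : ℚ)⁻¹ := by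
        rw [two_mu_one]
        have := cK_one K
        push_cast
        linear_combination this / 3
      rw [e]
      exact ((V_four_pow K).mul (V.odd_inv ⟨1, by norm_num⟩)).mono (by omega)
    | 2, _ =>
      apply Sm.of_V 0
      intro K
      have e : cK K 2 - 2 * mu 2 = 4 ^ K * (((9 * K ^ 2 + 3 * K - 7 : ℤ)) : ℚ) *
          ((27 : ℤ) : ℚ)⁻¹ := by
        rw [two_mu_two]
        have := cK_two K
        push_cast
        linear_combination this / 27
      rw [e]
      exact (((V_four_pow K).mul (V.int _)).mul (V.odd_inv ⟨13, by norm_num⟩)).mono (by omega)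
    | j + 3, ih =>
      have h9 : ∀ K, 9 * (cK K (j + 3) - 2 * mu (j + 3)) =
          lin (cK K) (X ^ 3 * X ^ j + (2 * X + 1) ^ 3 * (X ^ j).comp (X + 1)) -
          ∑ i ∈ range (j + 3), (shp ℚ j).coeff i * (cK K i - 2 * mu i) := by
        intro K
        have e : X ^ 3 * (X ^ j : ℚ[X]) + (2 * X + 1) ^ 3 * (X ^ j : ℚ[X]).comp (X + 1)
          = X ^ (j + 3) + shp ℚ j := by
          rw [pow_comp, X_comp, shp]; ring
        have h1 := lin_shp (cK K) j
        have h2 := mu_rec j
        rw [e, map_add, lin_X_pow, h1]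
        have h3 : ∑ i ∈ range (j + 3), (shp ℚ j).coeff i * (cK K i - 2 * mu i) =
            ∑ i ∈ range (j + 3), (shp ℚ j).coeff i * cK K i -
              2 * ∑ i ∈ range (j + 3), (shp ℚ j).coeff i * mu i := by
          rw [mul_sum, ← sum_sub_distrib]
          exact sum_congr rfl fun i _ => by ring
        rw [h3]
        linear_combination (-18 : ℚ) * h2
      have h10 : (fun K => cK K (j + 3) - 2 * mu (j + 3)) = fun K =>
          (9 : ℚ)⁻¹ * (lin (cK K) (X ^ 3 * X ^ j + (2 * X + 1) ^ 3 * (X ^ j).comp (X + 1)) +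
          ∑ i ∈ range (j + 3), (-(shp ℚ j).coeff i) * (cK K i - 2 * mu i)) := by
        funext K
        have := h9 K
        have h11 : ∑ i ∈ range (j + 3), (-(shp ℚ j).coeff i) * (cK K i - 2 * mu i) =
            -∑ i ∈ range (j + 3), (shp ℚ j).coeff i * (cK K i - 2 * mu i) := by
          rw [← sum_neg_distrib]; exact sum_congr rfl fun i _ => by ring
        rw [h11]
        linear_combination this / 9
      rw [h10]
      refine Sm.const_mul (Sm.add (Sm.of_V (j + 2) fun K => key_err K j) ?_) _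
      refine Sm.sum _ (fun i K => (-(shp ℚ j).coeff i) * (cK K i - 2 * mu i)) fun i hi => ?_
      exact Sm.const_mul (ih i (mem_range.mp hi)) _

/-! ### the polynomial part -/

lemma quotK (K : ℕ) (R : ℚ[X]) : (R * mq (Bm 0 K)) /ₘ mq (D K) = TR (cK K) R := by
  have hD := mq_monic (D_monic K)
  have hlt : (mq (Bm 0 K)).degree < (mq (D K)).degree := by
    rw [mq, mq, degree_map_eq_of_injective Int.cast_injective,
      degree_map_eq_of_injective Int.cast_injective]
    exact Bm_degree_lt K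
  have key : ∀ k : ℕ, (X ^ k * mq (Bm 0 K)) /ₘ mq (D K) = TR (cK K) (X ^ k) := by
    intro k
    rw [divByMonic_X_pow_mul _ _ hD hlt, X_pow_eq_monomial k, TR_monomial, map_one, one_mul]
    rw [← sum_range_reflect]
    refine sum_congr rfl fun i hi => ?_
    rw [mem_range] at hi
    have e : k - 1 - (k - 1 - i) = i := by omega
    rw [e, cK]
  conv_lhs => rw [R.as_sum_range_C_mul_X_pow]
  conv_rhs => rw [R.as_sum_range_C_mul_X_pow]
  rw [sum_mul, sum_div _ _ _ hD, map_sum]
  refine sum_congr rfl fun n _ => ?_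
  rw [mul_assoc, C_mul_divByMonic _ _ _ hD, key, ← smul_eq_C_mul, ← smul_eq_C_mul, map_smul]

lemma TR_expand (m : ℕ → ℚ) (R : ℚ[X]) : TR m R =
    ∑ n ∈ range (R.natDegree + 1), ∑ i ∈ range n, C (R.coeff n) * X ^ (n - 1 - i) * C (m i) := by
  conv_lhs => rw [R.as_sum_range_C_mul_X_pow]
  rw [map_sum]
  refine sum_congr rfl fun n _ => ?_
  rw [← smul_eq_C_mul, map_smul, X_pow_eq_monomial n, TR_monomial, map_one, one_mul, smul_eq_C_mul,
    mul_sum]
  exact sum_congr rfl fun i _ => by ring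

lemma SmP_C {x : ℕ → ℚ} (h : Sm x) : SmP (fun K => PowerSeries.C (x K)) := by
  intro j _
  rcases Nat.eq_zero_or_pos j with h0 | h0
  · subst h0
    simpa using h
  · have : (fun K => PowerSeries.coeff j (PowerSeries.C (x K))) = fun _ => 0 := by
      funext K
      rw [PowerSeries.coeff_C, if_neg (by omega)]
    rw [this]; exact Sm.zero

/-- `polynomial part of R Φ_K` tends to `2 τ(R)` -/
theorem tau_small (s : ℚ) (R : ℚ[X]) :
    SmP (fun K => gm s ((R * mq (Bm 0 K)) /ₘ mq (D K)) - 2 * gm s (TR mu R)) := by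
  have e : (fun K => gm s ((R * mq (Bm 0 K)) /ₘ mq (D K)) - 2 * gm s (TR mu R)) = fun K =>
      ∑ n ∈ range (R.natDegree + 1), ∑ i ∈ range n,
        gm s (C (R.coeff n) * X ^ (n - 1 - i)) * PowerSeries.C (cK K i - 2 * mu i) := by
    funext K
    rw [quotK, TR_expand, TR_expand, gm_sum, gm_sum, mul_sum, ← sum_sub_distrib]
    refine sum_congr rfl fun n _ => ?_
    rw [gm_sum, gm_sum, mul_sum, ← sum_sub_distrib]
    refine sum_congr rfl fun i _ => ?_
    rw [gm_mul s (C (R.coeff n) * X ^ (n - 1 - i)) (C (cK K i)),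
      gm_mul s (C (R.coeff n) * X ^ (n - 1 - i)) (C (mu i)), gm_C, gm_C s (mu i), map_sub, map_mul]
    have h2 : (PowerSeries.C (2 : ℚ) : PowerSeries ℚ) = 2 := map_ofNat _ 2
    rw [h2]; ring
  rw [e]
  refine SmP.sum _ _ fun n _ => SmP.sum _ _ fun i _ => ?_
  exact (SmP_C (cK_small i)).mul_left _

end Crest.Agent.R006.P6x121
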