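import Crest.Agent.R006.P6Res_121
import Crest.Agent.R006.P6Mom_121

/-!
# Row 6, block P6 (prime 2): the residues are 2-integral (helper121)

Sites: `z i = n i` if `P i`, `z i = n i + 1/2` otherwise.
* `good_int` : residues at the integer sites of `c A/(H NS)`;
* `good_half` : residues at the half-integer sites of `c r/(D NS)`, `deg r < deg D`.
Both have valuation `≥ Nh + v_2(c)`, `Nh` = number of half-integer nodes.
-/

set_option autoImplicit false

namespace Crest.Agent.R006.P6x121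

open Polynomial Finset Crest.Agent.R006.Lam Crest.Agent.R006.NV

/-! ### comaximality up to an odd number -/

/-- `U O + V D = w`, `w` odd -/
def Cop (O D : ℤ[X]) : Prop := ∃ (U V : ℤ[X]) (w : ℤ), Odd w ∧ U * O + V * D = C w

lemma Cop.mul_left {O₁ O₂ D : ℤ[X]} (h1 : Cop O₁ D) (h2 : Cop O₂ D) : Cop (O₁ * O₂) D := by
  obtain ⟨U1, V1, w1, hw1, e1⟩ := h1
  obtain ⟨U2, V2, w2, hw2, e2⟩ := h2
  refine ⟨U1 * U2, U1 * O₁ * V2 + V1 * U2 * O₂ + V1 * V2 * D, w1 * w2, hw1.mul hw2, ?_⟩
  rw [map_mul, ← e1, ← e2]; ring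

lemma Cop.mul_right {O D₁ D₂ : ℤ[X]} (h1 : Cop O D₁) (h2 : Cop O D₂) : Cop O (D₁ * D₂) := by
  obtain ⟨U1, V1, w1, hw1, e1⟩ := h1
  obtain ⟨U2, V2, w2, hw2, e2⟩ := h2
  refine ⟨U1 * U2 * O + U1 * V2 * D₂ + V1 * D₁ * U2, V1 * V2, w1 * w2, hw1.mul hw2, ?_⟩
  rw [map_mul, ← e1, ← e2]; ring

lemma Cop.one_left (D : ℤ[X]) : Cop 1 D := ⟨1, 0, 1, odd_one, by simp⟩
lemma Cop.one_right (O : ℤ[X]) : Cop O 1 := ⟨0, 1, 1, odd_one, by simp⟩

lemma Cop.pow_left {O D : ℤ[X]} (h : Cop O D) (k : ℕ) : Cop (O ^ k) D := by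
  induction k with
  | zero => rw [pow_zero]; exact Cop.one_left D
  | succ k ih => rw [pow_succ]; exact ih.mul_left h

lemma Cop.pow_right {O D : ℤ[X]} (h : Cop O D) (k : ℕ) : Cop O (D ^ k) := by
  induction k with
  | zero => rw [pow_zero]; exact Cop.one_right O
  | succ k ih => rw [pow_succ]; exact ih.mul_right h

lemma Cop.prod_left {α : Type*} (s : Finset α) (f : α → ℤ[X]) {D : ℤ[X]}
    (h : ∀ i ∈ s, Cop (f i) D) : Cop (∏ i ∈ s, f i) D := by
  classical
  induction s using Finset.induction_on with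
  | empty => rw [prod_empty]; exact Cop.one_left D
  | insert a s ha ih =>
    rw [prod_insert ha]
    exact (h a (mem_insert_self _ _)).mul_left (ih fun i hi => h i (mem_insert_of_mem hi))

lemma Cop.prod_right {α : Type*} (s : Finset α) (f : α → ℤ[X]) {O : ℤ[X]}
    (h : ∀ i ∈ s, Cop O (f i)) : Cop O (∏ i ∈ s, f i) := by
  classical
  induction s using Finset.induction_on with
  | empty => rw [prod_empty]; exact Cop.one_right O
  | insert a s ha ih =>
    rw [prod_insert ha]
    exact (h a (mem_insert_self _ _)).mul_right (ih fun i hi => h i (mem_insert_of_mem hi))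

lemma Cop.lin (a b : ℤ) : Cop (2 * X + C (2 * a + 1)) (X - C b) :=
  ⟨1, -2, 2 * a + 1 + 2 * b, ⟨a + b, by ring⟩, by
    simp only [map_add, map_mul, map_ofNat, map_one]; ring⟩

section sites

variable {ι : Type*} [Fintype ι] [DecidableEq ι] (z : ι → ℚ) (m : ι → ℕ)
variable (P : ι → Prop) [DecidablePred P] (n : ι → ℤ)

/-- the integer node polynomial -/
noncomputable def NIz : ℤ[X] := ∏ l, (X - C (n l)) ^ (mP m P l)

/-- `2^Nh` times the half-integer node polynomial -/
noncomputable def NHz : ℤ[X] := ∏ l, (2 * X + C (2 * (-n l - 1) + 1)) ^ (mQ m P l)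

omit [DecidableEq ι] in
lemma NIz_monic : (NIz m P n).Monic :=
  monic_prod_of_monic _ _ fun _ _ => (monic_X_sub_C _).pow _

variable {z n}

omit [DecidableEq ι] in
lemma mq_NIz (hP : ∀ i, P i → z i = n i) : mq (NIz m P n) = NS z (mP m P) := by
  rw [NIz, mq_prod, NS]
  refine prod_congr rfl fun l _ => ?_
  by_cases h : P l
  · rw [mq_pow, mq_sub, mq_X, mq_C, hP l h]
  · simp [mP, h, mq_one]

omit [DecidableEq ι] in
lemma mq_NHz (hQ : ∀ i, ¬ P i → z i = n i + 1 / 2) :
    mq (NHz m P n) = C ((2 : ℚ) ^ (∑ l, mQ m P l)) * NS z (mQ m P) := by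
  rw [NHz, mq_prod, NS, ← prod_pow_eq_pow_sum, map_prod, ← prod_mul_distrib]
  refine prod_congr rfl fun l _ => ?_
  by_cases h : P l
  · simp [mQ, h, mq_one]
  · rw [map_pow, ← mul_pow, mq_pow]
    congr 1
    have h2 : (C (2 : ℚ) : ℚ[X]) = 2 := map_ofNat C 2
    have h3 : C (2 : ℚ) * C ((n l : ℚ) + 1 / 2) = -C (((2 * (-n l - 1) + 1 : ℤ) : ℚ)) := by
      rw [← C_mul, ← C_neg]
      congr 1
      push_cast; ring
    rw [mq_add, mq_mul, mq_two, mq_X, mq_C, hQ l h]
    rw [h2] at h3 ⊢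
    linear_combination h3

variable (n)

omit [DecidableEq ι] in
lemma cop_int (K : ℕ) : Cop (NHz m P n * H K) (NIz m P n) := by
  apply Cop.mul_left
  · exact Cop.prod_left _ _ fun i _ => Cop.prod_right _ _ fun j _ =>
      ((Cop.lin _ _).pow_left _).pow_right _
  · refine Cop.prod_left _ _ fun i _ => Cop.prod_right _ _ fun j _ => ?_
    have e : 2 * X + 2 * (i : ℤ[X]) + 1 = 2 * X + C (2 * (i : ℤ) + 1) := by
      simp only [map_add, map_mul, map_natCast, map_ofNat, map_one]; ring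
    rw [e]
    exact ((Cop.lin _ _).pow_left _).pow_right _

omit [DecidableEq ι] in
lemma cop_half (K : ℕ) : Cop (NHz m P n) (NIz m P n * D K) := by
  apply Cop.mul_right
  · exact Cop.prod_left _ _ fun i _ => Cop.prod_right _ _ fun j _ =>
      ((Cop.lin _ _).pow_left _).pow_right _
  · refine Cop.prod_left _ _ fun i _ => Cop.prod_right _ _ fun j _ => ?_
    have e : X - (j : ℤ[X]) = X - C (j : ℤ) := by simp
    rw [e]
    exact (Cop.lin _ _).pow_left _

variable {n}

lemma V_of_odd_mul {v : ℤ} {w : ℤ} (hw : Odd w) {x : ℚ} (h : V v ((w : ℚ) * x)) : V v x := by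
  rw [V, padicNorm.mul, pn_odd hw, one_mul] at h
  exact h

/-- residues at the integer sites -/
theorem good_int (hz : Function.Injective z) (hP : ∀ i, P i → z i = n i)
    (hQ : ∀ i, ¬ P i → z i = n i + 1 / 2) {v : ℕ} {c : ℤ} (hc : (2 ^ v : ℤ) ∣ c) (K k : ℕ)
    (A : ℤ[X]) (hA : C c ∣ A) :
    V ((∑ l, mQ m P l : ℕ) + v) (∑ i, if mP m P i = 0 then 0 else
      PowerSeries.coeff (mP m P i - 1) ((germ (z i) (mq A) * (germ (z i) (mq (H K)))⁻¹) *
        (germ (z i) (X ^ k) * (germ (z i) (Nhat z (mP m P) i * NS z (mQ m P)))⁻¹))) := by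
  obtain ⟨A', rfl⟩ := hA
  obtain ⟨U, W', w, hw, hUV⟩ := cop_int m P n K
  have h1 := congrArg mq hUV
  rw [mq_add, mq_mul, mq_mul, mq_mul, mq_NHz m P hQ, mq_NIz m P hP, mq_C] at h1
  have h2 : C (w : ℚ) * mq (C c * A' * X ^ k) =
      mq (C c * A' * X ^ k * W') * NS z (mP m P) +
      (C ((2 : ℚ) ^ (∑ l, mQ m P l)) * mq (C c * A' * X ^ k * U)) *
        (NS z (mQ m P) * mq (H K)) := by
    rw [← h1, mq_mul (C c * A' * X ^ k) W', mq_mul (C c * A' * X ^ k) U]
    ring
  have hE : ∀ i, mP m P i ≠ 0 → (NS z (mQ m P) * mq (H K)).eval (z i) ≠ 0 := by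
    intro i hi
    have hPi : P i := by
      by_contra h; exact hi (by simp [mP, h])
    rw [eval_mul]
    refine mul_ne_zero ?_ (by rw [hP i hPi]; exact H_eval_ne K _)
    rw [NS, eval_prod, prod_ne_zero_iff]
    intro l _
    rw [eval_pow, eval_sub, eval_X, eval_C]
    by_cases hl : P l
    · simp [mQ, hl]
    · exact pow_ne_zero _ (sub_ne_zero.mpr fun h => hl (by rw [← hz h]; exact hPi))
  have h3 := sum_res (mP m P) hz h2 hE
  apply V_of_odd_mul hw
  have h4 : (w : ℚ) * (∑ i, if mP m P i = 0 then 0 else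
      PowerSeries.coeff (mP m P i - 1) ((germ (z i) (mq (C c * A')) *
        (germ (z i) (mq (H K)))⁻¹) * (germ (z i) (X ^ k) *
          (germ (z i) (Nhat z (mP m P) i * NS z (mQ m P)))⁻¹))) =
      (w : ℚ) * (∑ i, if mP m P i = 0 then 0 else
      PowerSeries.coeff (mP m P i - 1) (germ (z i) (mq (C c * A' * X ^ k)) *
        (germ (z i) (Nhat z (mP m P) i))⁻¹ * (germ (z i) (NS z (mQ m P) * mq (H K)))⁻¹)) := by
    congr 1
    refine sum_congr rfl fun i _ => ?_
    split_ifs with h0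
    · rfl
    · congr 1
      rw [mq_mul (C c * A') (X ^ k), mq_pow, mq_X, germ_mul (z i) (mq (C c * A')),
        germ_mul (z i) (Nhat z (mP m P) i), germ_mul (z i) (NS z (mQ m P)),
        PowerSeries.mul_inv_rev, PowerSeries.mul_inv_rev]
      ring
  rw [h4, h3, ← mq_NIz m P hP]
  apply mod_int _ _ (NIz_monic m P n)
  intro j
  rw [coeff_C_mul, mq_coeff]
  refine (V.two_pow _).mul ?_
  have e : C c * A' * X ^ k * U = C c * (A' * X ^ k * U) := by ring
  rw [e, coeff_C_mul]
  push_cast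
  have := (V.of_dvd hc).mul (V.int ((A' * X ^ k * U).coeff j))
  rwa [add_zero] at this

/-- residues at the half-integer sites -/
theorem good_half (hz : Function.Injective z) (hP : ∀ i, P i → z i = n i)
    (hQ : ∀ i, ¬ P i → z i = n i + 1 / 2) {v : ℕ} {c : ℤ} (hc : (2 ^ v : ℤ) ∣ c) {K k : ℕ}
    (hk : k < ∑ l, m l) (r : ℤ[X]) (hr : C c ∣ r) (hd : r.natDegree < 2 * K) :
    V ((∑ l, mQ m P l : ℕ) + v) (∑ i, if mQ m P i = 0 then 0 else
      PowerSeries.coeff (mQ m P i - 1) ((germ (z i) (mq r) * (germ (z i) (mq (D K)))⁻¹) *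
        (germ (z i) (X ^ k) * (germ (z i) (Nhat z (mQ m P) i * NS z (mP m P)))⁻¹))) := by
  obtain ⟨U, W', w, hw, hUV⟩ := cop_half m P n K
  have hED : (NIz m P n * D K).Monic := (NIz_monic m P n).mul (D_monic K)
  have hE1 : mq (NIz m P n * D K) = NS z (mP m P) * mq (D K) := by
    rw [mq_mul, mq_NIz m P hP]
  have h1 := congrArg mq hUV
  rw [mq_add, mq_mul, mq_mul, mq_NHz m P hQ, mq_C, hE1] at h1
  set Nh := ∑ l, mQ m P l with hNh
  set NH := NS z (mQ m P) with hNH
  set E := NS z (mP m P) * mq (D K) with hE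
  have hEm : E.Monic := by rw [← hE1]; exact mq_monic hED
  have hNHm : NH.Monic := NS_monic z _
  set f := mq (r * X ^ k) with hf
  set α0 := C ((2 : ℚ) ^ Nh) * mq (r * X ^ k * U) with hα0
  set α := α0 %ₘ E with hα
  set q := α0 /ₘ E with hq
  have hdec : α + E * q = α0 := modByMonic_add_div α0 E
  set β := mq (r * X ^ k * W') + q * NH with hβ
  have h2 : C (w : ℚ) * f = α * NH + β * E := by
    rw [← h1, hβ, mq_mul (r * X ^ k) W']
    have h5 : α = α0 - E * q := by linear_combination hdec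
    rw [h5, hα0, mq_mul (r * X ^ k) U]
    ring
  have hev : ∀ i, mQ m P i ≠ 0 → E.eval (z i) ≠ 0 := by
    intro i hi
    have hPi : ¬ P i := by
      intro h; exact hi (by simp [mQ, h])
    rw [hE, eval_mul]
    refine mul_ne_zero ?_ (by rw [hQ i hPi]; exact D_eval_ne K _)
    rw [NS, eval_prod, prod_ne_zero_iff]
    intro l _
    rw [eval_pow, eval_sub, eval_X, eval_C]
    by_cases hl : P l
    · exact pow_ne_zero _ (sub_ne_zero.mpr fun h => hPi (by rw [hz h]; exact hl))
    · simp [mP, hl]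
  have h3 := sum_res (mQ m P) hz h2 hev
  apply V_of_odd_mul hw
  have h4 : (w : ℚ) * (∑ i, if mQ m P i = 0 then 0 else
      PowerSeries.coeff (mQ m P i - 1) ((germ (z i) (mq r) *
        (germ (z i) (mq (D K)))⁻¹) * (germ (z i) (X ^ k) *
          (germ (z i) (Nhat z (mQ m P) i * NS z (mP m P)))⁻¹))) =
      (w : ℚ) * (∑ i, if mQ m P i = 0 then 0 else
      PowerSeries.coeff (mQ m P i - 1) (germ (z i) f *
        (germ (z i) (Nhat z (mQ m P) i))⁻¹ * (germ (z i) E)⁻¹)) := by
    congr 1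
    refine sum_congr rfl fun i _ => ?_
    split_ifs with h0
    · rfl
    · congr 1
      rw [hf, hE, mq_mul r (X ^ k), mq_pow, mq_X, germ_mul (z i) (mq r),
        germ_mul (z i) (Nhat z (mQ m P) i), germ_mul (z i) (NS z (mP m P)),
        PowerSeries.mul_inv_rev, PowerSeries.mul_inv_rev]
      ring
  rw [h4, h3, ← hNH, ← hNh]
  -- degrees
  have hNHd : NH.natDegree = Nh := natDegree_NS z _
  have hEd : E.natDegree = ∑ l, mP m P l + 2 * K := by
    rw [hE, (NS_monic z _).natDegree_mul (mq_monic (D_monic K)), natDegree_NS, mq_natDegree,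
      D_natDegree]
  have hN : ∑ l, mP m P l + Nh = ∑ l, m l := sum_mP_add m P
  rcases Nat.eq_zero_or_pos Nh with h0 | h0
  · have hN1 : NH = 1 := (Polynomial.Monic.natDegree_eq_zero hNHm).mp (by rw [hNHd, h0])
    rw [hN1, modByMonic_one, coeff_zero]
    exact V.zero _
  have hfd : f.natDegree ≤ 2 * K + ∑ l, m l - 2 := by
    rw [hf, mq_natDegree]
    refine natDegree_mul_le.trans ?_
    rw [natDegree_X_pow]
    omega
  have hαd : α.natDegree ≤ E.natDegree - 1 := by
    have h5 := natDegree_modByMonic_lt α0 hEm (by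
      intro h4; rw [h4, natDegree_one] at hEd; omega)
    rw [← hα] at h5
    omega
  have hβd : β.natDegree < Nh ∨ β = 0 := by
    by_cases hb : β = 0
    · right; exact hb
    · left
      have h6 : (β * E).natDegree ≤ 2 * K + ∑ l, m l - 1 := by
        have h7 : β * E = C (w : ℚ) * f - α * NH := by linear_combination -h2
        rw [h7]
        refine (natDegree_sub_le _ _).trans (max_le ?_ ?_)
        · refine (natDegree_C_mul_le _ _).trans ?_
          omega
        · refine natDegree_mul_le.trans ?_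
          omega
      have h8 : (β * E).natDegree = β.natDegree + E.natDegree := by
        rw [mul_comm, hEm.natDegree_mul' hb, add_comm]
      omega
  have hβd' : β.natDegree ≤ Nh - 1 := by
    rcases hβd with h | h
    · omega
    · rw [h, natDegree_zero]; omega
  have hmod : β %ₘ NH = β := by
    rw [modByMonic_eq_self_iff hNHm, degree_eq_natDegree hNHm.ne_zero, hNHd]
    refine degree_le_natDegree.trans_lt ?_
    exact_mod_cast (by omega : β.natDegree < Nh)
  rw [hmod]
  have hcf : f.coeff (2 * K + ∑ l, m l - 1) = 0 := coeff_eq_zero_of_natDegree_lt (by omega)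
  have hca : (α * NH).coeff (2 * K + ∑ l, m l - 1) = α.coeff (E.natDegree - 1) := by
    have e : 2 * K + ∑ l, m l - 1 = (E.natDegree - 1) + NH.natDegree := by omega
    rw [e, coeff_mul_add_eq_of_natDegree_le hαd le_rfl, hNHm.coeff_natDegree, mul_one]
  have hcb : (β * E).coeff (2 * K + ∑ l, m l - 1) = β.coeff (Nh - 1) := by
    have e : 2 * K + ∑ l, m l - 1 = (Nh - 1) + E.natDegree := by omega
    rw [e, coeff_mul_add_eq_of_natDegree_le hβd' le_rfl, hEm.coeff_natDegree, mul_one]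
  have h9 := congrArg (fun p => p.coeff (2 * K + ∑ l, m l - 1)) h2
  simp only [coeff_add, coeff_C_mul, hcf, hca, hcb, mul_zero] at h9
  have h10 : β.coeff (Nh - 1) = -α.coeff (E.natDegree - 1) := by linear_combination -h9
  rw [h10]
  apply V.neg
  rw [hα, ← hE1]
  apply mod_int _ _ hED
  intro j
  rw [hα0, coeff_C_mul, mq_coeff]
  refine (V.two_pow _).mul ?_
  obtain ⟨r', rfl⟩ := hr
  have e : C c * r' * X ^ k * U = C c * (r' * X ^ k * U) := by ring
  rw [e, coeff_C_mul]
  push_cast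
  have := (V.of_dvd hc).mul (V.int ((r' * X ^ k * U).coeff j))
  rwa [add_zero] at this

end sites

end Crest.Agent.R006.P6x121
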