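import Mathlib
import Crest.Agent.R006.H2_Rod_909
import Crest.Agent.R006.P6Stmt_784

/-!
# Row 6, block P6, leaf H: `exists_HTwo` (helper909)

From the Rodrigues polynomials `Pn n = w^n + 2 G` (`w = X^2+X+1`) over `Z_(2)` one gets, by
division by `w^n` and induction, a monic `g_n = w^n + 2 r`, `deg r < 2 n`, with
`2^n n! ∣ Lam (g_n F)` for all `F`.
-/

set_option autoImplicit false

namespace Crest.Agent.R006.P6Hx909

open Polynomial Finset Crest.Agent.R006.H2x909 Crest.Agent.R006.FuncLx170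
open Crest.Agent.R006.ProdBound481 Crest.Agent.R006.P6

/-! ### reduction modulo `Pn` over a general ring -/

section red

variable {A : Type*} [CommRing A] [Nontrivial A]

theorem w_monic (n : ℕ) : ((X ^ 2 + X + 1 : A[X]) ^ n).Monic ∧
    ((X ^ 2 + X + 1 : A[X]) ^ n).natDegree = 2 * n := by
  have h1 : (X ^ 2 + X + 1 : A[X]).Monic := by monicity!
  have h2 : (X ^ 2 + X + 1 : A[X]).natDegree = 2 := by compute_degree!
  exact ⟨h1.pow n, by rw [h1.natDegree_pow, h2, mul_comm]⟩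

theorem red_step (n : ℕ) {P G : A[X]} (hP : P = (X ^ 2 + X + 1) ^ n + C 2 * G) (k : ℕ) (f : A[X]) :
    ∃ r q h : A[X], r.degree < ((2 * n : ℕ) : WithBot ℕ) ∧ f = r + P * q + C (2 ^ k) * h := by
  induction k with
  | zero =>
    refine ⟨0, 0, f, ?_, by simp⟩
    rw [degree_zero]; exact WithBot.bot_lt_coe _
  | succ k ih =>
    obtain ⟨r, q, h, hr, hf⟩ := ih
    obtain ⟨hm, hd⟩ := w_monic (A := A) n
    have h1 := modByMonic_add_div h ((X ^ 2 + X + 1 : A[X]) ^ n)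
    set r' := h %ₘ ((X ^ 2 + X + 1 : A[X]) ^ n)
    set q' := h /ₘ ((X ^ 2 + X + 1 : A[X]) ^ n)
    have hr' : r'.degree < ((2 * n : ℕ) : WithBot ℕ) := by
      have := degree_modByMonic_lt h hm
      rwa [degree_eq_natDegree hm.ne_zero, hd] at this
    refine ⟨r + C (2 ^ k) * r', q + C (2 ^ k) * q', -(G * q'), ?_, ?_⟩
    · refine (degree_add_le _ _).trans_lt (max_lt hr ?_)
      rw [← smul_eq_C_mul]
      exact (degree_smul_le _ _).trans_lt hr'
    · rw [hf, ← h1, hP]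
      rw [pow_succ (2 : A) k, C_mul]
      ring

/-- monic polynomial `w^n + 2 r` with the same divisibility as `P` -/
theorem exists_monic (n : ℕ) {P G : A[X]} (hP : P = (X ^ 2 + X + 1) ^ n + C 2 * G)
    (L : A[X] →ₗ[A] A) (t : ℕ) (hL : ∀ F, (2 : A) ^ t ∣ L (P * F)) :
    ∃ r : A[X], r.degree < ((2 * n : ℕ) : WithBot ℕ) ∧
      ∀ F, (2 : A) ^ t ∣ L (((X ^ 2 + X + 1) ^ n + C 2 * r) * F) := by
  obtain ⟨r, q, h, hr, hG⟩ := red_step n hP t G
  refine ⟨r, hr, fun F => ?_⟩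
  have e : ((X ^ 2 + X + 1) ^ n + C 2 * r) * F
      = P * ((1 - C 2 * q) * F) - C (2 ^ t) * (C 2 * h * F) := by
    have h1 : (X ^ 2 + X + 1 : A[X]) ^ n = P - C 2 * G := by rw [hP]; ring
    have h2 : r = G - P * q - C (2 ^ t) * h := by
      linear_combination -hG
    rw [h1, h2]; ring
  rw [e, map_sub]
  refine dvd_sub (hL _) ?_
  rw [← smul_eq_C_mul, map_smul, smul_eq_mul]
  exact dvd_mul_right _ _

end red

/-! ### the ring `Z_(2)` -/

/-- 2-integral rational numbers -/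
def Z2 : Subring ℚ where
  carrier := {x | padicNorm 2 x ≤ 1}
  mul_mem' := by
    intro a b ha hb
    simp only [Set.mem_ofPred_eq] at ha hb ⊢
    rw [padicNorm.mul]
    exact mul_le_one₀ ha (padicNorm.nonneg _) hb
  one_mem' := by simp
  add_mem' := by
    intro a b ha hb
    exact (padicNorm.nonarchimedean).trans (max_le ha hb)
  zero_mem' := by simp
  neg_mem' := by
    intro a ha
    simp only [Set.mem_ofPred_eq] at ha ⊢
    rwa [padicNorm.neg]

theorem mem_Z2 {x : ℚ} : x ∈ Z2 ↔ padicNorm 2 x ≤ 1 := Iff.rfl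

theorem isUnit_three : IsUnit (3 : Z2) := by
  have h : padicNorm 2 (3⁻¹ : ℚ) ≤ 1 := by
    have h1 : padicNorm 2 (3 : ℚ) = 1 := by
      have := padicNorm.nat_eq_one_iff (p := 2) 3
      exact_mod_cast this.2 (by norm_num)
    have h2 : padicNorm 2 (3⁻¹ : ℚ) * padicNorm 2 (3 : ℚ) = 1 := by
      rw [← padicNorm.mul]; norm_num
    rw [h1, mul_one] at h2
    exact h2.le
  refine IsUnit.of_mul_eq_one ⟨3⁻¹, mem_Z2.2 h⟩ (Subtype.ext ?_)
  have h3 : ((3 : Z2) : ℚ) = 3 := rfl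
  rw [Subring.coe_mul, h3]
  norm_num

theorem norm_two_pow (t : ℕ) : padicNorm 2 ((2 : ℚ) ^ t) = (2 : ℚ) ^ (-(t : ℤ)) := by
  have h1 : padicNorm 2 (2 : ℚ) = 2⁻¹ := by
    have := padicNorm.padicNorm_p_of_prime (p := 2)
    exact_mod_cast this
  induction t with
  | zero => simp
  | succ t ih =>
    rw [pow_succ, padicNorm.mul, ih, h1]
    push_cast
    rw [neg_add, zpow_add₀ (by norm_num : (2 : ℚ) ≠ 0), zpow_neg_one]

theorem coe_two_pow (t : ℕ) : (((2 : Z2) ^ t : Z2) : ℚ) = 2 ^ t := by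
  have h2 : ((2 : Z2) : ℚ) = 2 := rfl
  rw [Subring.coe_pow, h2]

theorem pow_dvd_iff {t : ℕ} {x : Z2} : (2 : Z2) ^ t ∣ x ↔ padicNorm 2 (x : ℚ) ≤ (2 : ℚ) ^ (-(t : ℤ)) := by
  constructor
  · rintro ⟨y, rfl⟩
    rw [Subring.coe_mul, coe_two_pow, padicNorm.mul, norm_two_pow]
    exact mul_le_of_le_one_right (by positivity) (mem_Z2.1 y.2)
  · intro h
    have hy : padicNorm 2 ((x : ℚ) * (2 ^ t)⁻¹) ≤ 1 := by
      have h1 : padicNorm 2 ((2 ^ t : ℚ)⁻¹) = 2 ^ t := by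
        rw [← one_div, padicNorm.div, padicNorm.one, norm_two_pow]
        rw [zpow_neg, zpow_natCast, one_div, inv_inv]
      rw [padicNorm.mul, h1]
      calc padicNorm 2 (x : ℚ) * 2 ^ t ≤ (2 : ℚ) ^ (-(t : ℤ)) * 2 ^ t :=
            mul_le_mul_of_nonneg_right h (by positivity)
        _ = 1 := by rw [zpow_neg, zpow_natCast]; exact inv_mul_cancel₀ (by positivity)
    refine ⟨⟨(x : ℚ) * (2 ^ t)⁻¹, mem_Z2.2 hy⟩, Subtype.ext ?_⟩
    rw [Subring.coe_mul, coe_two_pow]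
    field_simp

/-! ### moments of `2 psi_oo` over `Z_(2)` -/

/-- coefficients of the recursion are integers -/
theorem shp_coeff_int (j i : ℕ) : ∃ z : ℤ, (PsiInf.shp ℚ j).coeff i = z := by
  refine ⟨((2 * X + 1 : ℤ[X]) ^ 3 * (X + 1) ^ j).coeff i, ?_⟩
  have : PsiInf.shp ℚ j = ((2 * X + 1 : ℤ[X]) ^ 3 * (X + 1) ^ j).map (Int.castRingHom ℚ) := by
    simp [PsiInf.shp]
  rw [this, coeff_map]; simp

theorem int_mem (z : ℤ) : (z : ℚ) ∈ Z2 := intCast_mem Z2 z

theorem inv9_mem : (1 / 9 : ℚ) ∈ Z2 := by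
  have h := isUnit_three
  obtain ⟨u, hu⟩ := h
  have h3 : ((u : Z2) : ℚ) = 3 := by rw [hu]; rfl
  have h4 : ((u⁻¹ : Z2ˣ) : Z2) * u = 1 := by simp
  have h5 : (((u⁻¹ : Z2ˣ) : Z2) : ℚ) * 3 = 1 := by
    rw [← h3, ← Subring.coe_mul, h4]; rfl
  have h6 : (((u⁻¹ : Z2ˣ) : Z2) : ℚ) = 1 / 3 := by linarith
  have h7 := Z2.mul_mem ((u⁻¹ : Z2ˣ) : Z2).2 ((u⁻¹ : Z2ˣ) : Z2).2
  rw [h6] at h7
  norm_num at h7 ⊢
  exact h7

theorem two_mu_mem (k : ℕ) : 2 * PsiInf.mu k ∈ Z2 := by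
  induction k using Nat.strong_induction_on with
  | _ k ih =>
    have h9 := inv9_mem
    match k, ih with
    | 0, _ => simp
    | 1, _ =>
      have := Z2.mul_mem (int_mem (-3)) h9
      rw [PsiInf.mu_one]
      norm_num at this ⊢
      exact this
    | 2, _ =>
      have h3 : (1 / 3 : ℚ) ∈ Z2 := by
        have := Z2.mul_mem (int_mem 3) h9
        norm_num at this ⊢
        exact this
      have := Z2.mul_mem (Z2.mul_mem (int_mem 7) h9) h3
      rw [PsiInf.mu_two]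
      norm_num at this ⊢
      exact this
    | j + 3, ih =>
      have e : 2 * PsiInf.mu (j + 3)
          = -(1 / 9 * ∑ i ∈ range (j + 3), (PsiInf.shp ℚ j).coeff i * (2 * PsiInf.mu i)) := by
        rw [PsiInf.mu_rec, mul_sum, mul_sum, mul_sum, ← sum_neg_distrib]
        exact sum_congr rfl fun i _ => by ring
      rw [e]
      refine Z2.neg_mem (Z2.mul_mem h9 (Z2.sum_mem fun i hi => ?_))
      obtain ⟨z, hz⟩ := shp_coeff_int j i
      rw [hz]
      exact Z2.mul_mem (int_mem z) (ih i (by simpa using hi))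

/-- the moments -/
noncomputable def aa (k : ℕ) : Z2 := ⟨2 * PsiInf.mu k, two_mu_mem k⟩

/-- the inclusion -/
noncomputable def inc : Z2 →+* ℚ := Z2.subtype

theorem Lam_aa (F : Z2[X]) : ((Lam aa F : Z2) : ℚ) = 2 * PsiInf.lin PsiInf.mu (F.map inc) := by
  rw [Lam_eq_sum_range aa F _ (Nat.lt_succ_self _),
    PsiInf.lin_eq_sum PsiInf.mu (F.map inc) (n := F.natDegree + 1)
      (Nat.lt_succ_of_le natDegree_map_le)]
  have : ∀ (s : Finset ℕ) (f : ℕ → Z2), ((∑ i ∈ s, f i : Z2) : ℚ) = ∑ i ∈ s, (f i : ℚ) :=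
    fun s f => map_sum Z2.subtype f s
  rw [this, mul_sum]
  refine sum_congr rfl fun i _ => ?_
  rw [Subring.coe_mul, coeff_map]
  change _ = 2 * (((F.coeff i : Z2) : ℚ) * PsiInf.mu i)
  simp only [aa]
  ring

theorem mom_aa : Mom aa := by
  refine ⟨?_, ?_, ?_, ?_⟩
  · intro P
    apply Subtype.ext
    rw [Lam_aa]
    have h := PsiInf.key_mu (P.map inc)
    have e : (X ^ 3 * P + (2 * X + 1) ^ 3 * P.comp (X + 1)).map inc
        = X ^ 3 * P.map inc + (2 * X + 1) ^ 3 * (P.map inc).comp (X + 1) := by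
      simp [map_comp]
    rw [e, h, mul_zero]; rfl
  · apply Subtype.ext
    change 2 * PsiInf.mu 0 = 0
    simp
  · apply Subtype.ext
    change (3 : ℚ) * (2 * PsiInf.mu 1) = -1
    rw [PsiInf.mu_one]; norm_num
  · apply Subtype.ext
    change (27 : ℚ) * (2 * PsiInf.mu 2) = 7
    rw [PsiInf.mu_two]; norm_num

/-! ### the polynomials -/

theorem PB_map (F : Z2[X]) : PB 2 0 (F.map inc) := by
  intro k
  rw [coeff_map, neg_zero, zpow_zero]
  exact mem_Z2.1 (F.coeff k).2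

theorem exists_lift {F : ℚ[X]} (h : PB 2 0 F) : ∃ F' : Z2[X], F'.map inc = F := by
  have hp : (↑F.coeffs : Set ℚ) ⊆ Z2 := by
    intro x hx
    obtain ⟨n, -, rfl⟩ := Polynomial.mem_coeffs_iff.1 (Finset.mem_coe.1 hx)
    have := h n
    rw [neg_zero, zpow_zero] at this
    exact this
  exact ⟨F.toSubring Z2 hp, by ext n; simp [inc]⟩

theorem exists_gm (m : ℕ) : ∃ r : Z2[X], r.degree < ((2 * m : ℕ) : WithBot ℕ) ∧
    ∀ F, (2 : Z2) ^ (m + padicValNat 2 m.factorial) ∣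
      Lam aa (((X ^ 2 + X + 1) ^ m + C 2 * r) * F) := by
  obtain ⟨G, hG⟩ := Pn_mod2 (A := Z2) m
  refine exists_monic m hG (Lam aa) _ fun F => ?_
  refine rodrigues isUnit_three mom_aa m F ?_
  rw [pow_add]
  refine mul_dvd_mul_left _ ?_
  have h1 : 2 ^ padicValNat 2 m.factorial ∣ m.factorial := pow_padicValNat_dvd
  obtain ⟨q, hq⟩ := h1
  refine ⟨(q : Z2), ?_⟩
  have := congrArg (fun n : ℕ => (n : Z2)) hq
  simpa using this

/-- **Leaf H of P6.** -/
theorem exists_HTwo : ∃ g : ℕ → ℚ[X], HTwo g := by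
  choose r hr hL using exists_gm
  set g' : ℕ → Z2[X] := fun m => (X ^ 2 + X + 1) ^ m + C 2 * r m with hg'
  have hmon : ∀ m, (g' m).Monic ∧ (g' m).natDegree = 2 * m := by
    intro m
    obtain ⟨h1, h2⟩ := w_monic (A := Z2) m
    have hlt : (C 2 * r m).degree < ((X ^ 2 + X + 1 : Z2[X]) ^ m).degree := by
      rw [degree_eq_natDegree h1.ne_zero, h2, ← smul_eq_C_mul]
      exact (degree_smul_le _ _).trans_lt (hr m)
    refine ⟨h1.add_of_left hlt, ?_⟩
    have h3 : (g' m).degree = ((X ^ 2 + X + 1 : Z2[X]) ^ m).degree := degree_add_eq_left_of_degree_lt hlt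
    rw [natDegree_eq_of_degree_eq h3, h2]
  refine ⟨fun m => (g' m).map inc, ⟨fun m => PB_map _, fun m => ?_, fun m => ?_, fun m i => ?_,
    fun m F hF => ?_⟩⟩
  · rw [(hmon m).1.natDegree_map, (hmon m).2]
  · rw [((hmon m).1.map inc).leadingCoeff, padicNorm.one]
  · have e : ((g' m).map inc).eval (i : ℚ)
        = ((i ^ 2 + i + 1) ^ m : ℤ) + 2 * ((((r m).eval (i : Z2) : Z2)) : ℚ) := by
      have h1 : (i : ℚ) = inc (i : Z2) := by simp
      rw [h1, eval_map, eval₂_at_apply]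
      simp only [hg', eval_add, eval_mul, eval_pow, eval_X, eval_one, eval_C]
      change (((((i : Z2) ^ 2 + i + 1) ^ m + 2 * (r m).eval (i : Z2) : Z2)) : ℚ) = _
      rw [Subring.coe_add, Subring.coe_mul, Subring.coe_pow, Subring.coe_add, Subring.coe_add,
        Subring.coe_pow]
      push_cast
      rfl
    rw [e]
    have hodd : padicNorm 2 (((i ^ 2 + i + 1) ^ m : ℤ) : ℚ) = 1 := by
      rw [padicNorm.int_eq_one_iff]
      intro hdvd
      have h2 : (2 : ℤ) ∣ i ^ 2 + i + 1 := Int.Prime.dvd_pow' Nat.prime_two hdvd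
      have h3 : (i ^ 2 + i + 1) % 2 = 1 := by
        rcases Int.emod_two_eq_zero_or_one i with h | h <;>
          simp [pow_two, Int.add_emod, Int.mul_emod, h]
      omega
    have hsmall : padicNorm 2 (2 * ((((r m).eval (i : Z2) : Z2)) : ℚ)) < 1 := by
      have h1 : padicNorm 2 (2 : ℚ) = 2⁻¹ := by
        have := norm_two_pow 1
        simpa using this
      rw [padicNorm.mul, h1]
      have := mem_Z2.1 ((r m).eval (i : Z2)).2
      have h0 := padicNorm.nonneg (p := 2) ((((r m).eval (i : Z2) : Z2)) : ℚ)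
      nlinarith
    have hne : padicNorm 2 (((i ^ 2 + i + 1) ^ m : ℤ) : ℚ)
        ≠ padicNorm 2 (2 * ((((r m).eval (i : Z2) : Z2)) : ℚ)) := by
      rw [hodd]; exact hsmall.ne'
    rw [padicNorm.add_eq_max_of_ne hne, hodd]
    exact max_eq_left hsmall.le
  · obtain ⟨F', rfl⟩ := exists_lift hF
    have h1 := pow_dvd_iff.1 (hL m F')
    have e : ((g' m).map inc) * F'.map inc = (g' m * F').map inc := by rw [Polynomial.map_mul]
    rw [e]
    rw [Lam_aa] at h1
    rw [padicNorm.mul] at h1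
    have h2 : padicNorm 2 (2 : ℚ) = 2⁻¹ := by
      have := norm_two_pow 1
      simpa using this
    rw [h2] at h1
    change padicNorm 2 _ ≤ (2 : ℚ) ^ (-(vb m))
    have h3 : (2 : ℚ) ^ (-(vb m)) = 2 * (2 : ℚ) ^ (-((m + padicValNat 2 m.factorial : ℕ) : ℤ)) := by
      rw [vb, ← zpow_one_add₀ (by norm_num : (2 : ℚ) ≠ 0)]
      congr 1
      push_cast; ring
    rw [h3]
    linarith

end Crest.Agent.R006.P6Hx909
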