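import Crest.Agent.R006.P6Stmt_784
import Crest.Agent.R006.CinfMu_189

/-!
Row 6, block P6 (p = 2), leaf A2: values at the half-integer sites.

`theorem halfSites {g} (h : HTwo g) : HalfSites g`.

Idea: at a half-integer `x` the formal series `ψ_∞` converges 2-adically and is the germ `ψ_*`
(mod `ε^3`): the truncation satisfies the recurrence up to a 2-adically small defect, and the
chain starts with `(2s+1)^3 = 8 ε^3` at `-1/2`.
-/

set_option autoImplicit false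

namespace Crest.Agent.R006.P6Halfx664

open Polynomial Crest.Agent.R006.NV Crest.Agent.R006.PsiInf Crest.Agent.R006.D
open Crest.Agent.R006.ProdBound481 Crest.Agent.R006.P6

instance : Fact (Nat.Prime 2) := ⟨Nat.prime_two⟩

/-! ### the predicate `I2` -/

lemma i2_zero (v : ℤ) : I2 v 0 := by
  unfold I2
  rw [padicNorm.zero]
  positivity

lemma i2_mono {v w : ℤ} {x : ℚ} (h : I2 v x) (hw : w ≤ v) : I2 w x := by
  unfold I2 at *
  refine h.trans (zpow_le_zpow_right₀ (by norm_num) (by omega))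

lemma i2_add {v : ℤ} {x y : ℚ} (hx : I2 v x) (hy : I2 v y) : I2 v (x + y) := by
  unfold I2 at *
  exact padicNorm.nonarchimedean.trans (max_le hx hy)

lemma i2_neg {v : ℤ} {x : ℚ} (hx : I2 v x) : I2 v (-x) := by
  unfold I2 at *
  rwa [padicNorm.neg]

lemma i2_sub {v : ℤ} {x y : ℚ} (hx : I2 v x) (hy : I2 v y) : I2 v (x - y) := by
  rw [sub_eq_add_neg]; exact i2_add hx (i2_neg hy)

lemma i2_mul {v w : ℤ} {x y : ℚ} (hx : I2 v x) (hy : I2 w y) : I2 (v + w) (x * y) := by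
  unfold I2 at *
  rw [padicNorm.mul, neg_add, zpow_add₀ (by norm_num)]
  exact mul_le_mul hx hy (padicNorm.nonneg _) (by positivity)

lemma i2_sum {ι : Type*} {v : ℤ} (s : Finset ι) (f : ι → ℚ) (h : ∀ i ∈ s, I2 v (f i)) :
    I2 v (∑ i ∈ s, f i) := by
  classical
  induction s using Finset.induction_on with
  | empty => simpa using i2_zero v
  | insert a s ha ih =>
    rw [Finset.sum_insert ha]
    exact i2_add (h a (Finset.mem_insert_self _ _))
      (ih fun i hi => h i (Finset.mem_insert_of_mem hi))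

lemma i2_int (n : ℤ) : I2 0 (n : ℚ) := by
  unfold I2
  rw [neg_zero, zpow_zero]
  exact padicNorm.of_int n

lemma i2_one : I2 0 (1 : ℚ) := by
  have := i2_int 1
  simpa using this

lemma norm_two : padicNorm 2 (2 : ℚ) = 2⁻¹ := by
  have h := padicNorm.padicNorm_p (p := 2) (by norm_num)
  exact_mod_cast h

lemma i2_two : I2 1 (2 : ℚ) := by
  unfold I2
  rw [norm_two]
  norm_num

lemma i2_half : I2 (-1) (1 / 2 : ℚ) := by
  unfold I2
  rw [padicNorm.div, padicNorm.one, norm_two]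
  norm_num

lemma i2_pow {v : ℤ} {x : ℚ} (hx : I2 v x) (n : ℕ) : I2 (n * v) (x ^ n) := by
  induction n with
  | zero => simpa using i2_one
  | succ n ih =>
    rw [pow_succ]
    refine i2_mono (i2_mul ih hx) ?_
    push_cast
    linarith

/-! ### power series modulo `ε^3` -/

/-- the coefficients of `ε^j`, `j < 3`, have 2-adic valuation `≥ v` -/
def Iv (v : ℤ) (φ : PowerSeries ℚ) : Prop := ∀ j < 3, I2 v (PowerSeries.coeff j φ)

lemma Iv.zero (v : ℤ) : Iv v 0 := by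
  intro j _; simpa using i2_zero v

lemma Iv.mono {v w : ℤ} {φ : PowerSeries ℚ} (h : Iv v φ) (hw : w ≤ v) : Iv w φ :=
  fun j hj => i2_mono (h j hj) hw

lemma Iv.add {v : ℤ} {φ ψ : PowerSeries ℚ} (h1 : Iv v φ) (h2 : Iv v ψ) : Iv v (φ + ψ) := by
  intro j hj
  rw [map_add]
  exact i2_add (h1 j hj) (h2 j hj)

lemma Iv.neg {v : ℤ} {φ : PowerSeries ℚ} (h1 : Iv v φ) : Iv v (-φ) := by
  intro j hj
  rw [map_neg]
  exact i2_neg (h1 j hj)

lemma Iv.sub {v : ℤ} {φ ψ : PowerSeries ℚ} (h1 : Iv v φ) (h2 : Iv v ψ) : Iv v (φ - ψ) := by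
  rw [sub_eq_add_neg]; exact h1.add h2.neg

lemma Iv.sum {ι : Type*} {v : ℤ} (s : Finset ι) (f : ι → PowerSeries ℚ)
    (h : ∀ i ∈ s, Iv v (f i)) : Iv v (∑ i ∈ s, f i) := by
  classical
  induction s using Finset.induction_on with
  | empty => simpa using Iv.zero v
  | insert a s ha ih =>
    rw [Finset.sum_insert ha]
    exact (h a (Finset.mem_insert_self _ _)).add
      (ih fun i hi => h i (Finset.mem_insert_of_mem hi))

lemma Iv.mul {v w : ℤ} {φ ψ : PowerSeries ℚ} (h1 : Iv v φ) (h2 : Iv w ψ) :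
    Iv (v + w) (φ * ψ) := by
  intro j hj
  rw [PowerSeries.coeff_mul]
  apply i2_sum
  intro x hx
  have hx' : x.1 + x.2 = j := Finset.HasAntidiagonal.mem_antidiagonal.mp hx
  exact i2_mul (h1 x.1 (by omega)) (h2 x.2 (by omega))

lemma Iv.C {v : ℤ} {x : ℚ} (h : I2 v x) : Iv v (PowerSeries.C x) := by
  intro j _
  rw [PowerSeries.coeff_C]
  split_ifs
  · exact h
  · exact i2_zero v

lemma Iv.X : Iv 0 (PowerSeries.X : PowerSeries ℚ) := by
  intro j _
  rw [PowerSeries.coeff_X]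
  split_ifs
  · exact i2_one
  · exact i2_zero 0

lemma Iv.one : Iv 0 (1 : PowerSeries ℚ) := by
  have := Iv.C i2_one
  simpa using this

lemma Iv.pow {v : ℤ} {φ : PowerSeries ℚ} (hx : Iv v φ) (n : ℕ) : Iv (n * v) (φ ^ n) := by
  induction n with
  | zero => simpa using Iv.one
  | succ n ih =>
    rw [pow_succ]
    have := ih.mul hx
    refine this.mono ?_
    push_cast
    linarith

/-- inverses of units -/
lemma Iv.inv {φ ψ : PowerSeries ℚ} (h : Iv 0 φ)
    (h0 : padicNorm 2 (PowerSeries.constantCoeff φ) = 1) (hψ : φ * ψ = 1) : Iv 0 ψ := by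
  intro j
  induction j using Nat.strong_induction_on with
  | _ j ih =>
    intro hj
    have hc := congrArg (PowerSeries.coeff j) hψ
    rw [PowerSeries.coeff_mul, Finset.Nat.sum_antidiagonal_eq_sum_range_succ
      (fun a b => PowerSeries.coeff a φ * PowerSeries.coeff b ψ), Finset.sum_range_succ'] at hc
    simp only [Nat.sub_zero] at hc
    have h1 : I2 0 (PowerSeries.coeff 0 φ * PowerSeries.coeff j ψ) := by
      have e : PowerSeries.coeff 0 φ * PowerSeries.coeff j ψ = PowerSeries.coeff j 1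
          - ∑ k ∈ Finset.range j, PowerSeries.coeff (k + 1) φ
            * PowerSeries.coeff (j - (k + 1)) ψ := by
        linear_combination hc
      rw [e]
      apply i2_sub
      · exact Iv.one j hj
      · apply i2_sum
        intro k hk
        have hk' := Finset.mem_range.mp hk
        have := i2_mul (h (k + 1) (by omega)) (ih (j - (k + 1)) (by omega) (by omega))
        simpa using this
    unfold I2 at *
    rw [padicNorm.mul] at h1
    have h2 : padicNorm 2 (PowerSeries.coeff 0 φ) = 1 := by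
      rw [PowerSeries.coeff_zero_eq_constantCoeff_apply]; exact h0
    rwa [h2, one_mul] at h1

/-! ### the local parameter at a half-integer -/

/-- `2 (x + ε)` at `x = i + 1/2` -/
noncomputable def tt (i : ℤ) : PowerSeries ℚ :=
  PowerSeries.C (2 * (i : ℚ) + 1) + PowerSeries.C 2 * PowerSeries.X

/-- its inverse -/
noncomputable def ti (i : ℤ) : PowerSeries ℚ := (tt i)⁻¹

lemma tt_eq (i : ℤ) : tt i = 2 * pt ((i : ℚ) + 1 / 2) := by
  unfold tt pt
  have h2 : (2 : PowerSeries ℚ) = PowerSeries.C 2 := (map_ofNat PowerSeries.C 2).symm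
  rw [h2, mul_add, ← map_mul, add_comm]
  congr 2
  ring

lemma odd_norm (i : ℤ) : padicNorm 2 (2 * (i : ℚ) + 1) = 1 := by
  have : (2 * (i : ℚ) + 1) = ((2 * i + 1 : ℤ) : ℚ) := by push_cast; ring
  rw [this]
  apply (padicNorm.int_eq_one_iff (p := 2) (2 * i + 1)).mpr
  intro h
  have : (2 : ℤ) ∣ 2 * i + 1 := by exact_mod_cast h
  omega

lemma tt_const (i : ℤ) : PowerSeries.constantCoeff (tt i) = 2 * (i : ℚ) + 1 := by
  simp [tt]

lemma tt_mul_ti (i : ℤ) : tt i * ti i = 1 := by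
  apply PowerSeries.mul_inv_cancel
  rw [tt_const]
  intro h
  have := odd_norm i
  rw [h, padicNorm.zero] at this
  exact zero_ne_one this

lemma Iv_tt (i : ℤ) : Iv 0 (tt i) := by
  unfold tt
  apply Iv.add
  · apply Iv.C
    have := i2_int (2 * i + 1)
    push_cast at this
    exact this
  · have := (Iv.C (i2_int 2)).mul Iv.X
    simpa using this

lemma Iv_ti (i : ℤ) : Iv 0 (ti i) :=
  Iv.inv (Iv_tt i) (by rw [tt_const]; exact odd_norm i) (tt_mul_ti i)

/-- `1 / (x + ε)` -/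
noncomputable def si (i : ℤ) : PowerSeries ℚ := 2 * ti i

lemma pt_mul_si (i : ℤ) : pt ((i : ℚ) + 1 / 2) * si i = 1 := by
  have h := tt_mul_ti i
  rw [tt_eq] at h
  unfold si
  linear_combination h

lemma Iv_si (i : ℤ) : Iv 1 (si i) := by
  unfold si
  have h2 : (2 : PowerSeries ℚ) = PowerSeries.C 2 := (map_ofNat PowerSeries.C 2).symm
  rw [h2]
  have := (Iv.C i2_two).mul (Iv_ti i)
  simpa using this

lemma Iv_pt (i : ℤ) : Iv (-1) (pt ((i : ℚ) + 1 / 2)) := by
  have e : pt ((i : ℚ) + 1 / 2) = PowerSeries.C (1 / 2) * tt i := by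
    rw [tt_eq]
    have h2 : (2 : PowerSeries ℚ) = PowerSeries.C 2 := (map_ofNat PowerSeries.C 2).symm
    rw [h2, ← mul_assoc, ← map_mul]
    norm_num
  rw [e]
  have := (Iv.C i2_half).mul (Iv_tt i)
  simpa using this

/-! ### germs of integral polynomials -/

lemma gm_sum' {ι : Type*} (x : ℚ) (s : Finset ι) (f : ι → ℚ[X]) :
    gm x (∑ i ∈ s, f i) = ∑ i ∈ s, gm x (f i) := by
  classical
  induction s using Finset.induction_on with
  | empty => simp [gm_zero]
  | insert a s ha ih => rw [Finset.sum_insert ha, Finset.sum_insert ha, gm_add, ih]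

lemma i2_of_PB {v : ℤ} {P : ℚ[X]} (h : PB 2 v P) (k : ℕ) : I2 v (P.coeff k) := h k

/-- germ of a polynomial of degree `≤ n` with coefficients of valuation `≥ v` -/
lemma Iv_gm {v : ℤ} {P : ℚ[X]} (h : PB 2 v P) {n : ℕ} (hn : P.natDegree ≤ n) (i : ℤ) :
    Iv (v - n) (gm ((i : ℚ) + 1 / 2) P) := by
  rw [P.as_sum_range_C_mul_X_pow, gm_sum']
  apply Iv.sum
  intro l hl
  have hl' : l ≤ P.natDegree := Nat.lt_succ_iff.mp (Finset.mem_range.mp hl)
  rw [gm_mul, gm_C, gm_pow, gm_X]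
  refine ((Iv.C (i2_of_PB h l)).mul ((Iv_pt i).pow l)).mono ?_
  have : (l : ℤ) ≤ n := by exact_mod_cast hl'.trans hn
  linarith

/-! ### the truncated formal solution -/

/-- `∑_{k<N} mu k (x+ε)^{-(k+1)}` -/
noncomputable def SN (N : ℕ) (i : ℤ) : PowerSeries ℚ :=
  ∑ k ∈ Finset.range N, PowerSeries.C (mu k) * si i ^ (k + 1)

lemma SN_succ (N : ℕ) (i : ℤ) :
    SN (N + 1) i = SN N i + PowerSeries.C (mu N) * si i ^ (N + 1) := by
  unfold SN; rw [Finset.sum_range_succ]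

lemma gm_pinf (N : ℕ) (i : ℤ) :
    gm ((i : ℚ) + 1 / 2) (pinf N) * si i ^ N = SN N i := by
  induction N with
  | zero => simp [pinf, SN, gm_zero]
  | succ N ih =>
    rw [SN_succ, ← ih, pinf_succ, gm_add, gm_mul, gm_X, gm_C, CinfMu.cinf_succ_rat]
    have h := pt_mul_si i
    rw [pow_succ]
    linear_combination (gm ((i : ℚ) + 1 / 2) (pinf N) * si i ^ N) * h

/-- the defect of the truncated series in the recurrence -/
lemma SN_rec (N : ℕ) (i : ℤ) :
    pt ((i : ℚ) + 1 / 2 + 1) ^ 3 * SN N (i + 1) + (2 * pt ((i : ℚ) + 1 / 2) + 1) ^ 3 * SN N i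
      + PowerSeries.C (1 / 2) * (3 * pt ((i : ℚ) + 1 / 2) + 2) =
    gm ((i : ℚ) + 1 / 2) (EE N (pinf N)) * si i ^ N * si (i + 1) ^ N := by
  have e1 : ((i + 1 : ℤ) : ℚ) + 1 / 2 = (i : ℚ) + 1 / 2 + 1 := by push_cast; ring
  have hs := pt_mul_si i
  have hs' := pt_mul_si (i + 1)
  rw [e1] at hs'
  have g0 := gm_pinf N i
  have g1 := gm_pinf N (i + 1)
  rw [e1] at g1
  have hE : gm ((i : ℚ) + 1 / 2) (EE N (pinf N)) =
      (2 * pt ((i : ℚ) + 1 / 2) + 1) ^ 3 * pt ((i : ℚ) + 1 / 2 + 1) ^ N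
        * gm ((i : ℚ) + 1 / 2) (pinf N)
      + pt ((i : ℚ) + 1 / 2) ^ N * pt ((i : ℚ) + 1 / 2 + 1) ^ 3
        * gm ((i : ℚ) + 1 / 2 + 1) (pinf N)
      + PowerSeries.C (1 / 2) * (3 * pt ((i : ℚ) + 1 / 2) + 2) * pt ((i : ℚ) + 1 / 2) ^ N
        * pt ((i : ℚ) + 1 / 2 + 1) ^ N := by
    simp only [EE, gm_add, gm_mul, gm_pow, gm_X, gm_one, gm_taylor_one, gm_two, gm_three, gm_C,
      pt_add_one]
  have p0 : pt ((i : ℚ) + 1 / 2) ^ N * si i ^ N = 1 := by rw [← mul_pow, hs, one_pow]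
  have p1 : pt ((i : ℚ) + 1 / 2 + 1) ^ N * si (i + 1) ^ N = 1 := by rw [← mul_pow, hs', one_pow]
  rw [hE, ← g0, ← g1]
  set s := pt ((i : ℚ) + 1 / 2)
  set s' := pt ((i : ℚ) + 1 / 2 + 1)
  linear_combination (-(2 * s + 1) ^ 3 * gm ((i : ℚ) + 1 / 2) (pinf N) * si i ^ N) * p1
    - (s' ^ 3 * gm ((i : ℚ) + 1 / 2 + 1) (pinf N) * si (i + 1) ^ N) * p0
    - (PowerSeries.C (1 / 2) * (3 * s + 2)) * p0
    - (PowerSeries.C (1 / 2) * (3 * s + 2) * s ^ N * si i ^ N) * p1

/-! ### integrality of the moments and of the defect -/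

lemma PB_C {v : ℤ} {a : ℚ} (h : I2 v a) : PB 2 v (C a) := by
  intro k
  rw [coeff_C]
  split_ifs
  · exact h
  · exact i2_zero v

lemma PB_X : PB 2 0 (X : ℚ[X]) := by
  intro k
  rw [coeff_X]
  split_ifs
  · exact i2_one
  · exact i2_zero 0

lemma PB_pow {P : ℚ[X]} (h : PB 2 0 P) (n : ℕ) : PB 2 0 (P ^ n) := by
  induction n with
  | zero => simpa using PB.one (p := 2)
  | succ n ih => rw [pow_succ]; simpa using ih.mul h

lemma PB_Xpow (n : ℕ) : PB 2 0 (X ^ n : ℚ[X]) := PB_pow PB_X n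

lemma PB_mul0 {v : ℤ} {P Q : ℚ[X]} (hP : PB 2 0 P) (hQ : PB 2 v Q) : PB 2 v (P * Q) := by
  have := hP.mul hQ
  rwa [zero_add] at this

lemma PB_ofNat2 : PB 2 0 (2 : ℚ[X]) := by
  have h : (2 : ℚ[X]) = C 2 := (map_ofNat C 2).symm
  rw [h]; exact PB_C (by simpa using i2_int 2)

lemma PB_ofNat3 : PB 2 0 (3 : ℚ[X]) := by
  have h : (3 : ℚ[X]) = C 3 := (map_ofNat C 3).symm
  rw [h]; exact PB_C (by simpa using i2_int 3)

lemma PB_taylor {v : ℤ} {P : ℚ[X]} (h : PB 2 v P) : PB 2 v (taylor 1 P) := by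
  rw [P.as_sum_range_C_mul_X_pow, map_sum]
  apply PB.sum
  intro l _
  rw [taylor_mul, taylor_C, taylor_pow, taylor_X, C_1]
  have h1 : PB 2 0 ((X + 1 : ℚ[X]) ^ l) := PB_pow (PB_X.add PB.one) l
  have := (PB_C (h l)).mul h1
  rwa [add_zero] at this

/-- the moments have `v_2 ≥ -1` -/
lemma i2_mu {g : ℕ → ℚ[X]} (h : HTwo g) (k : ℕ) : I2 (-1) (mu k) := by
  have h1 := h.main 0 (X ^ k) (PB_Xpow k)
  have hd : (g 0).natDegree = 0 := by simpa using h.deg 0
  obtain ⟨c, hc⟩ : ∃ c, g 0 = C c := ⟨_, eq_C_of_natDegree_eq_zero hd⟩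
  have hl : padicNorm 2 c = 1 := by
    have := h.lead 0
    rwa [hc, leadingCoeff_C] at this
  have e : lin mu (g 0 * X ^ k) = c * mu k := by
    rw [hc, C_mul_X_pow_eq_monomial, lin_apply, sum_monomial_index]
    simp
  rw [e] at h1
  have hv : vb 0 = -1 := by simp [vb]
  rw [hv] at h1
  unfold I2 at *
  rwa [padicNorm.mul, hl, one_mul] at h1

lemma PB_pinf {g : ℕ → ℚ[X]} (h : HTwo g) (N : ℕ) : PB 2 (-1) (pinf N : ℚ[X]) := by
  induction N with
  | zero => exact PB.zero _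
  | succ N ih =>
    rw [pinf_succ, CinfMu.cinf_succ_rat]
    exact (PB_mul0 PB_X ih).add (PB_C (i2_mu h N))

lemma PB_EE {g : ℕ → ℚ[X]} (h : HTwo g) (N : ℕ) : PB 2 (-1) (EE N (pinf N) : ℚ[X]) := by
  have hp := PB_pinf h N
  have hX1 : PB 2 0 (X + 1 : ℚ[X]) := PB_X.add PB.one
  have h2X1 : PB 2 0 (2 * X + 1 : ℚ[X]) := (PB_mul0 PB_ofNat2 PB_X).add PB.one
  unfold EE
  refine (PB.add ?_ ?_).add ?_
  · exact PB_mul0 (PB_mul0 (PB_pow h2X1 3) (PB_pow hX1 N)) hp
  · exact PB_mul0 (PB_mul0 (PB_Xpow N) (PB_pow hX1 3)) (PB_taylor hp)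
  · have h1 : PB 2 (-1) (C (1 / 2) * (3 * X + 2) : ℚ[X]) := by
      have := (PB_C i2_half).mul ((PB_mul0 PB_ofNat3 PB_X).add PB_ofNat2)
      simpa using this
    have h2 := (h1.mul (PB_Xpow N)).mul (PB_pow hX1 N)
    simpa using h2

/-- the defect is 2-adically small -/
lemma Iv_defect {g : ℕ → ℚ[X]} (h : HTwo g) (N : ℕ) (i : ℤ) :
    Iv (N - 3) (gm ((i : ℚ) + 1 / 2) (EE N (pinf N)) * si i ^ N * si (i + 1) ^ N) := by
  have h1 := Iv_gm (PB_EE h N) (EE_pinf_natDegree N) i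
  refine ((h1.mul ((Iv_si i).pow N)).mul ((Iv_si (i + 1)).pow N)).mono ?_
  push_cast
  linarith

/-! ### `ψ_*` is the formal solution -/

lemma PsiH_neg_one : (PsiH (-1) : PowerSeries ℚ) = 0 := PsiH0_zero

lemma two_pt_add_one (i : ℤ) : 2 * pt ((i : ℚ) + 1 / 2) + 1 =
    PowerSeries.C 2 * (PowerSeries.C ((i : ℚ) + 1) + PowerSeries.X) := by
  rw [← tt_eq]
  unfold tt
  have h1 : (1 : PowerSeries ℚ) = PowerSeries.C 1 := (map_one PowerSeries.C).symm
  have e : PowerSeries.C (2 * (i : ℚ) + 1) + PowerSeries.C (1 : ℚ) =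
      PowerSeries.C 2 * PowerSeries.C ((i : ℚ) + 1) := by
    rw [← map_add, ← map_mul]; congr 1; ring
  rw [h1]
  linear_combination e

lemma Iv_two_pt (i : ℤ) : Iv 1 (2 * pt ((i : ℚ) + 1 / 2) + 1) := by
  rw [two_pt_add_one]
  have h1 : I2 0 ((i : ℚ) + 1) := by
    have := i2_int (i + 1)
    push_cast at this
    exact this
  have := (Iv.C i2_two).mul ((Iv.C h1).add Iv.X)
  simpa using this

lemma cube_neg_one (φ : PowerSeries ℚ) (v : ℤ) :
    Iv v ((2 * pt (((-1 : ℤ) : ℚ) + 1 / 2) + 1) ^ 3 * φ) := by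
  intro j hj
  have e : (2 * pt (((-1 : ℤ) : ℚ) + 1 / 2) + 1) ^ 3 * φ =
      PowerSeries.X ^ 3 * (PowerSeries.C 8 * φ) := by
    rw [two_pt_add_one]
    have h0 : PowerSeries.C (((-1 : ℤ) : ℚ) + 1) = (0 : PowerSeries ℚ) := by
      have : (((-1 : ℤ) : ℚ) + 1) = 0 := by norm_num
      rw [this, map_zero]
    have h8 : (PowerSeries.C 8 : PowerSeries ℚ) = PowerSeries.C 2 ^ 3 := by
      rw [← map_pow]; norm_num
    rw [h0, h8]
    ring
  rw [e, PowerSeries.coeff_X_pow_mul', if_neg (by omega)]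
  exact i2_zero v

/-- **main comparison**: at `i + 1/2`, `i ≥ 0`, modulo `ε^3` -/
theorem PsiH_sub_SN {g : ℕ → ℚ[X]} (h : HTwo g) (N : ℕ) (i : ℕ) :
    Iv (N - 3) (PsiH (i : ℤ) - SN N i) := by
  have key : ∀ i : ℤ, Iv (N - 3) ((2 * pt ((i : ℚ) + 1 / 2) + 1) ^ 3 * (PsiH i - SN N i)) →
      Iv (N - 3) (PsiH (i + 1) - SN N (i + 1)) := by
    intro i hi
    have st := (step_H (K := ℚ) i).psi
    have sn := SN_rec N i
    have hd := Iv_defect h N i
    have e1 : ((i + 1 : ℤ) : ℚ) + 1 / 2 = (i : ℚ) + 1 / 2 + 1 := by push_cast; ring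
    have hs' := pt_mul_si (i + 1)
    rw [e1] at hs'
    have e : PsiH (i + 1) - SN N (i + 1) = -(si (i + 1) ^ 3 *
        ((2 * pt ((i : ℚ) + 1 / 2) + 1) ^ 3 * (PsiH i - SN N i)
          + gm ((i : ℚ) + 1 / 2) (EE N (pinf N)) * si i ^ N * si (i + 1) ^ N)) := by
      rw [← sn]
      have h3 : pt ((i : ℚ) + 1 / 2 + 1) ^ 3 * si (i + 1) ^ 3 = 1 := by
        rw [← mul_pow, hs', one_pow]
      linear_combination (-(PsiH (i + 1) - SN N (i + 1))) * h3 + si (i + 1) ^ 3 * st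
    rw [e]
    apply Iv.neg
    refine (((Iv_si (i + 1)).pow 3).mul (hi.add hd)).mono ?_
    push_cast
    linarith
  induction i with
  | zero =>
    have := key (-1) (cube_neg_one _ _)
    have e : (-1 : ℤ) + 1 = ((0 : ℕ) : ℤ) := by norm_num
    rw [e] at this
    exact this
  | succ i ih =>
    have h1 : Iv (N - 3) ((2 * pt ((((i : ℕ) : ℤ) : ℚ) + 1 / 2) + 1) ^ 3
        * (PsiH (i : ℤ) - SN N i)) := by
      refine (((Iv_two_pt (i : ℤ)).pow 3).mul ih).mono ?_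
      push_cast
      linarith
    have := key i h1
    push_cast
    exact this

/-! ### the negative part of `R ψ_∞` -/

/-- `∑_{t<N} lin mu (R X^t) (x+ε)^{-(t+1)}` -/
noncomputable def VN (N : ℕ) (R : ℚ[X]) (i : ℤ) : PowerSeries ℚ :=
  ∑ t ∈ Finset.range N, PowerSeries.C (lin mu (R * X ^ t)) * si i ^ (t + 1)

lemma lin_X_pow (l : ℕ) : lin mu (X ^ l : ℚ[X]) = mu l := by
  rw [X_pow_eq_monomial, lin_apply, sum_monomial_index]
  · simp
  · simp

lemma pt_pow_mul_si_pow_le {i : ℤ} {l k : ℕ} (h : k ≤ l) :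
    pt ((i : ℚ) + 1 / 2) ^ l * si i ^ k = pt ((i : ℚ) + 1 / 2) ^ (l - k) := by
  obtain ⟨d, rfl⟩ := Nat.exists_eq_add_of_le h
  have : pt ((i : ℚ) + 1 / 2) ^ k * si i ^ k = 1 := by rw [← mul_pow, pt_mul_si, one_pow]
  rw [Nat.add_sub_cancel_left, pow_add]
  linear_combination (pt ((i : ℚ) + 1 / 2) ^ d) * this

lemma pt_pow_mul_si_pow_ge {i : ℤ} {l k : ℕ} (h : l ≤ k) :
    pt ((i : ℚ) + 1 / 2) ^ l * si i ^ k = si i ^ (k - l) := by
  obtain ⟨d, rfl⟩ := Nat.exists_eq_add_of_le h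
  have : pt ((i : ℚ) + 1 / 2) ^ l * si i ^ l = 1 := by rw [← mul_pow, pt_mul_si, one_pow]
  rw [Nat.add_sub_cancel_left, pow_add]
  linear_combination (si i ^ d) * this

/-- the error for a monomial -/
lemma mono_error {g : ℕ → ℚ[X]} (h : HTwo g) {N l : ℕ} (hl : l ≤ N) (i : ℤ) :
    Iv (N - l) (gm ((i : ℚ) + 1 / 2) (X ^ l) * SN N i - gm ((i : ℚ) + 1 / 2) (TR mu (X ^ l))
      - VN N (X ^ l) i) := by
  have hV : VN N (X ^ l) i = ∑ t ∈ Finset.range N, PowerSeries.C (mu (l + t)) * si i ^ (t + 1) := by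
    unfold VN
    refine Finset.sum_congr rfl fun t _ => ?_
    rw [← pow_add, lin_X_pow]
  have hT : gm ((i : ℚ) + 1 / 2) (TR mu (X ^ l)) =
      ∑ k ∈ Finset.range l, PowerSeries.C (mu k) * pt ((i : ℚ) + 1 / 2) ^ (l - 1 - k) := by
    rw [CinfMu.TR_X_pow, gm_sum']
    refine Finset.sum_congr rfl fun k _ => ?_
    rw [gm_mul, gm_C, gm_pow, gm_X]
  have hS : gm ((i : ℚ) + 1 / 2) (X ^ l) * SN N i =
      ∑ k ∈ Finset.range l, PowerSeries.C (mu k) * pt ((i : ℚ) + 1 / 2) ^ (l - 1 - k)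
      + ∑ t ∈ Finset.range (N - l), PowerSeries.C (mu (l + t)) * si i ^ (t + 1) := by
    obtain ⟨d, rfl⟩ := Nat.exists_eq_add_of_le hl
    rw [Nat.add_sub_cancel_left]
    unfold SN
    rw [Finset.sum_range_add, mul_add, gm_pow, gm_X]
    congr 1
    · rw [Finset.mul_sum]
      refine Finset.sum_congr rfl fun k hk => ?_
      have hk' := Finset.mem_range.mp hk
      have := pt_pow_mul_si_pow_le (i := i) (l := l) (k := k + 1) (by omega)
      rw [show l - 1 - k = l - (k + 1) by omega, ← this]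
      ring
    · rw [Finset.mul_sum]
      refine Finset.sum_congr rfl fun t _ => ?_
      have := pt_pow_mul_si_pow_ge (i := i) (l := l) (k := l + t + 1) (by omega)
      rw [show l + t + 1 - l = t + 1 by omega] at this
      rw [← this]
      ring
  rw [hS, hT, hV]
  have e : (∑ k ∈ Finset.range l, PowerSeries.C (mu k) * pt ((i : ℚ) + 1 / 2) ^ (l - 1 - k)
      + ∑ t ∈ Finset.range (N - l), PowerSeries.C (mu (l + t)) * si i ^ (t + 1))
      - ∑ k ∈ Finset.range l, PowerSeries.C (mu k) * pt ((i : ℚ) + 1 / 2) ^ (l - 1 - k)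
      - ∑ t ∈ Finset.range N, PowerSeries.C (mu (l + t)) * si i ^ (t + 1) =
      -∑ t ∈ Finset.range l, PowerSeries.C (mu (l + (N - l + t))) * si i ^ (N - l + t + 1) := by
    have : ∑ t ∈ Finset.range N, PowerSeries.C (mu (l + t)) * si i ^ (t + 1) =
        ∑ t ∈ Finset.range (N - l), PowerSeries.C (mu (l + t)) * si i ^ (t + 1)
        + ∑ t ∈ Finset.range l, PowerSeries.C (mu (l + (N - l + t))) * si i ^ (N - l + t + 1) := by
      have h1 := Finset.sum_range_add (fun t => PowerSeries.C (mu (l + t)) * si i ^ (t + 1)) (N - l) l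
      rw [Nat.sub_add_cancel hl] at h1
      exact h1
    rw [this]; ring
  rw [e]
  apply Iv.neg
  apply Iv.sum
  intro t _
  refine ((Iv.C (i2_mu h _)).mul ((Iv_si i).pow (N - l + t + 1))).mono ?_
  have : ((N - l + t + 1 : ℕ) : ℤ) = (N : ℤ) - l + t + 1 := by
    push_cast [Nat.cast_sub hl]; ring
  rw [this]
  have h0 : (0 : ℤ) ≤ t := Int.natCast_nonneg t
  linarith

/-- the error for an integral polynomial -/
lemma poly_error {g : ℕ → ℚ[X]} (h : HTwo g) {N n : ℕ} {R : ℚ[X]} (hR : PB 2 0 R)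
    (hn : R.natDegree ≤ n) (hN : n ≤ N) (i : ℤ) :
    Iv (N - n) (gm ((i : ℚ) + 1 / 2) R * SN N i - gm ((i : ℚ) + 1 / 2) (TR mu R) - VN N R i) := by
  have e : gm ((i : ℚ) + 1 / 2) R * SN N i - gm ((i : ℚ) + 1 / 2) (TR mu R) - VN N R i =
      ∑ l ∈ Finset.range (R.natDegree + 1), PowerSeries.C (R.coeff l) *
        (gm ((i : ℚ) + 1 / 2) (X ^ l) * SN N i - gm ((i : ℚ) + 1 / 2) (TR mu (X ^ l))
          - VN N (X ^ l) i) := by
    have hRs := R.as_sum_range_C_mul_X_pow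
    have h1 : gm ((i : ℚ) + 1 / 2) R = ∑ l ∈ Finset.range (R.natDegree + 1),
        PowerSeries.C (R.coeff l) * gm ((i : ℚ) + 1 / 2) (X ^ l) := by
      conv_lhs => rw [hRs]
      rw [gm_sum']
      refine Finset.sum_congr rfl fun l _ => ?_
      rw [gm_mul, gm_C]
    have h2 : gm ((i : ℚ) + 1 / 2) (TR mu R) = ∑ l ∈ Finset.range (R.natDegree + 1),
        PowerSeries.C (R.coeff l) * gm ((i : ℚ) + 1 / 2) (TR mu (X ^ l)) := by
      conv_lhs => rw [hRs]
      rw [map_sum, gm_sum']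
      refine Finset.sum_congr rfl fun l _ => ?_
      rw [← smul_eq_C_mul, map_smul, smul_eq_C_mul, gm_mul, gm_C]
    have h3 : VN N R i = ∑ l ∈ Finset.range (R.natDegree + 1),
        PowerSeries.C (R.coeff l) * VN N (X ^ l) i := by
      unfold VN
      simp_rw [Finset.mul_sum]
      rw [Finset.sum_comm]
      refine Finset.sum_congr rfl fun t _ => ?_
      have : lin mu (R * X ^ t) = ∑ l ∈ Finset.range (R.natDegree + 1),
          R.coeff l * lin mu (X ^ l * X ^ t) := by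
        conv_lhs => rw [hRs]
        rw [Finset.sum_mul, map_sum]
        refine Finset.sum_congr rfl fun l _ => ?_
        rw [mul_assoc, ← smul_eq_C_mul, map_smul, smul_eq_mul]
      rw [this, map_sum, Finset.sum_mul]
      refine Finset.sum_congr rfl fun l _ => ?_
      rw [map_mul]; ring
    rw [h1, h2, h3, Finset.sum_mul, ← Finset.sum_sub_distrib, ← Finset.sum_sub_distrib]
    refine Finset.sum_congr rfl fun l _ => ?_
    ring
  rw [e]
  apply Iv.sum
  intro l hl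
  have hl' : l ≤ R.natDegree := Nat.lt_succ_iff.mp (Finset.mem_range.mp hl)
  have hR' : I2 0 (R.coeff l) := hR l
  refine ((Iv.C hR').mul (mono_error h (hl'.trans (hn.trans hN)) i)).mono ?_
  have : (l : ℤ) ≤ n := by exact_mod_cast hl'.trans hn
  linarith

/-! ### the polynomial `W` -/

lemma beta_ne_zero (m : ℕ) : beta m ≠ 0 := by
  unfold beta
  have : (m.factorial : ℚ) ≠ 0 := by exact_mod_cast m.factorial_ne_zero
  positivity

lemma norm_beta (m : ℕ) : padicNorm 2 (beta m) = (2 : ℚ) ^ (-vb m) := by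
  unfold beta vb
  have hf : (m.factorial : ℚ) ≠ 0 := by exact_mod_cast m.factorial_ne_zero
  have h1 : padicNorm 2 (m.factorial : ℚ) = (2 : ℚ) ^ (-(padicValNat 2 m.factorial : ℤ)) := by
    rw [padicNorm.eq_zpow_of_nonzero hf, padicValRat.of_nat]
    norm_num
  have h2 : padicNorm 2 ((2 : ℚ) ^ m) = (2 : ℚ) ^ (-(m : ℤ)) := by
    rw [IsAbsoluteValue.abv_pow (padicNorm 2), norm_two, inv_pow, zpow_neg, zpow_natCast]
  rw [padicNorm.div, padicNorm.mul, h1, h2, norm_two]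
  rw [div_inv_eq_mul, ← zpow_add₀ (by norm_num), ← zpow_add_one₀ (by norm_num)]
  congr 1
  ring

lemma i2_div_beta {m : ℕ} {x : ℚ} {v : ℤ} (h : I2 (vb m + v) x) : I2 v (x / beta m) := by
  unfold I2 at *
  rw [padicNorm.div, norm_beta, div_le_iff₀ (by positivity), ← zpow_add₀ (by norm_num)]
  refine h.trans (le_of_eq ?_)
  congr 1
  ring

/-- `∑_{j<J} (1-X)^j` -/
noncomputable def UJ (J : ℕ) : ℚ[X] := ∑ j ∈ Finset.range J, (1 - X) ^ j

lemma PB_UJ (J : ℕ) : PB 2 0 (UJ J) := by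
  unfold UJ
  apply PB.sum
  intro j _
  exact PB_pow (PB.one.sub PB_X) j

/-- germ of `U(2s)` -/
noncomputable def uu (J : ℕ) (i : ℤ) : PowerSeries ℚ :=
  gm ((i : ℚ) + 1 / 2) ((UJ J).comp (C 2 * X))

lemma gm_twoX (i : ℤ) : gm ((i : ℚ) + 1 / 2) (C 2 * X) = tt i := by
  rw [gm_mul, gm_C, gm_X, tt_eq]
  have h2 : (2 : PowerSeries ℚ) = PowerSeries.C 2 := (map_ofNat PowerSeries.C 2).symm
  rw [h2]

lemma uu_eq (J : ℕ) (i : ℤ) : uu J i = ∑ j ∈ Finset.range J, (1 - tt i) ^ j := by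
  unfold uu UJ
  have e : (∑ j ∈ Finset.range J, (1 - X : ℚ[X]) ^ j).comp (C 2 * X) =
      ∑ j ∈ Finset.range J, (1 - C 2 * X) ^ j := by
    rw [← Polynomial.coe_compRingHom_apply, map_sum]
    refine Finset.sum_congr rfl fun j _ => ?_
    rw [map_pow, map_sub, map_one, Polynomial.coe_compRingHom_apply, X_comp]
  rw [e, gm_sum']
  refine Finset.sum_congr rfl fun j _ => ?_
  rw [gm_pow, gm_sub, gm_one, gm_twoX]

lemma tt_mul_uu (J : ℕ) (i : ℤ) : tt i * uu J i = 1 - (1 - tt i) ^ J := by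
  rw [uu_eq]
  have := mul_neg_geom_sum (1 - tt i) J
  rw [← this]
  ring

lemma Iv_one_sub_tt (i : ℤ) : Iv 1 (1 - tt i) := by
  have e : 1 - tt i = PowerSeries.C 2 * (PowerSeries.C (-(i : ℚ)) - PowerSeries.X) := by
    unfold tt
    have h1 : (1 : PowerSeries ℚ) = PowerSeries.C 1 := (map_one PowerSeries.C).symm
    have e : PowerSeries.C (2 * (i : ℚ) + 1) =
        PowerSeries.C (1 : ℚ) - PowerSeries.C 2 * PowerSeries.C (-(i : ℚ)) := by
      rw [← map_mul, ← map_sub]; congr 1; ring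
    rw [e, h1]
    ring
  rw [e]
  have h1 : I2 0 (-(i : ℚ)) := by
    have := i2_int (-i)
    push_cast at this
    exact this
  have := (Iv.C i2_two).mul ((Iv.C h1).sub Iv.X)
  simpa using this

lemma Iv_uu (J : ℕ) (i : ℤ) : Iv 0 (uu J i) := by
  rw [uu_eq]
  apply Iv.sum
  intro j _
  refine ((Iv_one_sub_tt i).pow j).mono ?_
  have : (0 : ℤ) ≤ j := Int.natCast_nonneg j
  linarith

lemma ti_sub_uu (J : ℕ) (i : ℤ) : Iv J (ti i - uu J i) := by
  have e : ti i - uu J i = ti i * (1 - tt i) ^ J := by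
    have h1 := tt_mul_uu J i
    have h2 := tt_mul_ti i
    linear_combination (-(ti i)) * h1 + uu J i * h2
  rw [e]
  refine ((Iv_ti i).mul ((Iv_one_sub_tt i).pow J)).mono ?_
  linarith

lemma ti_pow_sub_uu_pow (J : ℕ) (i : ℤ) (r : ℕ) : Iv J (ti i ^ r - uu J i ^ r) := by
  induction r with
  | zero => simpa using Iv.zero _
  | succ r ih =>
    have e : ti i ^ (r + 1) - uu J i ^ (r + 1) =
        ti i * (ti i ^ r - uu J i ^ r) + (ti i - uu J i) * uu J i ^ r := by ring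
    rw [e]
    refine Iv.add ?_ ?_
    · refine ((Iv_ti i).mul ih).mono ?_
      linarith
    · refine ((ti_sub_uu J i).mul ((Iv_uu J i).pow r)).mono ?_
      linarith

/-- the polynomial `W` -/
noncomputable def WW (J N m : ℕ) (R : ℚ[X]) : ℚ[X] :=
  ∑ t ∈ Finset.range N, C (lin mu (R * X ^ t) * 2 ^ (t + 1) / beta m) * UJ J ^ (t + 1)

lemma i2_two_pow (t : ℕ) : I2 t ((2 : ℚ) ^ t) := by
  have := i2_pow i2_two t
  simpa using this

lemma i2_lam {g : ℕ → ℚ[X]} (h : HTwo g) (m : ℕ) {f : ℚ[X]} (hf : PB 2 0 f) (t : ℕ) :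
    I2 (vb m) (lin mu (f * g m * X ^ t)) := by
  have e : f * g m * X ^ t = g m * (f * X ^ t) := by ring
  rw [e]
  exact h.main m _ (PB_mul0 hf (PB_Xpow t))

lemma PB_WW {g : ℕ → ℚ[X]} (h : HTwo g) (J N m : ℕ) {f : ℚ[X]} (hf : PB 2 0 f) :
    PB 2 0 (WW J N m (f * g m)) := by
  unfold WW
  apply PB.sum
  intro t _
  have h1 : I2 0 (lin mu (f * g m * X ^ t) * 2 ^ (t + 1) / beta m) := by
    apply i2_div_beta
    refine i2_mono (i2_mul (i2_lam h m hf t) (i2_two_pow (t + 1))) ?_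
    push_cast
    have : (0 : ℤ) ≤ t := Int.natCast_nonneg t
    linarith
  exact PB_mul0 (PB_C h1) (PB_pow (PB_UJ J) _)

lemma VN_sub_WW {g : ℕ → ℚ[X]} (h : HTwo g) (J N m : ℕ) {f : ℚ[X]} (hf : PB 2 0 f) (i : ℤ) :
    Iv J (VN N (f * g m) i - PowerSeries.C (beta m) *
      gm ((i : ℚ) + 1 / 2) ((WW J N m (f * g m)).comp (C 2 * X))) := by
  have e1 : (WW J N m (f * g m)).comp (C 2 * X) = ∑ t ∈ Finset.range N,
      C (lin mu (f * g m * X ^ t) * 2 ^ (t + 1) / beta m) * ((UJ J).comp (C 2 * X)) ^ (t + 1) := by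
    unfold WW
    rw [← Polynomial.coe_compRingHom_apply, map_sum]
    refine Finset.sum_congr rfl fun t _ => ?_
    rw [map_mul, map_pow, Polynomial.coe_compRingHom_apply, Polynomial.coe_compRingHom_apply,
      C_comp]
  have e2 : VN N (f * g m) i - PowerSeries.C (beta m) *
      gm ((i : ℚ) + 1 / 2) ((WW J N m (f * g m)).comp (C 2 * X)) =
      ∑ t ∈ Finset.range N, PowerSeries.C (lin mu (f * g m * X ^ t) * 2 ^ (t + 1)) *
        (ti i ^ (t + 1) - uu J i ^ (t + 1)) := by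
    rw [e1, gm_sum']
    unfold VN
    rw [Finset.mul_sum, ← Finset.sum_sub_distrib]
    refine Finset.sum_congr rfl fun t _ => ?_
    rw [gm_mul, gm_C, gm_pow]
    have hb : PowerSeries.C (beta m) *
        PowerSeries.C (lin mu (f * g m * X ^ t) * 2 ^ (t + 1) / beta m) =
        PowerSeries.C (lin mu (f * g m * X ^ t) * 2 ^ (t + 1)) := by
      rw [← map_mul, mul_div_cancel₀ _ (beta_ne_zero m)]
    have hs : si i ^ (t + 1) = PowerSeries.C (2 ^ (t + 1)) * ti i ^ (t + 1) := by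
      unfold si
      have h2 : (2 : PowerSeries ℚ) = PowerSeries.C 2 := (map_ofNat PowerSeries.C 2).symm
      rw [h2, mul_pow, map_pow]
    have hc : PowerSeries.C (lin mu (f * g m * X ^ t) * 2 ^ (t + 1)) =
        PowerSeries.C (lin mu (f * g m * X ^ t)) * PowerSeries.C (2 ^ (t + 1)) := map_mul _ _ _
    have hu : gm ((i : ℚ) + 1 / 2) ((UJ J).comp (C 2 * X)) = uu J i := rfl
    rw [hs, hu, ← mul_assoc (PowerSeries.C (beta m)), hb, hc]
    ring
  rw [e2]
  apply Iv.sum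
  intro t _
  have h1 : I2 0 (lin mu (f * g m * X ^ t) * 2 ^ (t + 1)) := by
    refine i2_mono (i2_mul (i2_lam h m hf t) (i2_two_pow (t + 1))) ?_
    have h0 : (0 : ℤ) ≤ t := Int.natCast_nonneg t
    have h2 : (-1 : ℤ) ≤ vb m := by unfold vb; omega
    push_cast
    linarith
  refine ((Iv.C h1).mul (ti_pow_sub_uu_pow J i (t + 1))).mono ?_
  linarith

/-! ### leaf A2 -/

theorem halfSites {g : ℕ → ℚ[X]} (h : HTwo g) : HalfSites g := by
  intro M m f hf
  set R := f * g m with hR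
  have hRint : PB 2 0 R := PB_mul0 hf (h.int m)
  set n := R.natDegree with hn
  set N := M + n + 3 with hN
  refine ⟨WW M N m R, PB_WW h M N m hf, ?_⟩
  intro i j hrow
  have hj : j < 3 := by
    rcases hrow with ⟨_, h1⟩ | ⟨_, h1, _⟩ <;> omega
  have hval : (Site.H i).val = (i : ℚ) + 1 / 2 := rfl
  have e : ent0 R (Site.H i, j)
        - beta m * PowerSeries.coeff j (gm ((i : ℚ) + 1 / 2) ((WW M N m R).comp (C 2 * X))) =
      PowerSeries.coeff j (gm ((i : ℚ) + 1 / 2) R * (PsiH i - SN N i))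
      + PowerSeries.coeff j (gm ((i : ℚ) + 1 / 2) R * SN N i
          - gm ((i : ℚ) + 1 / 2) (TR mu R) - VN N R i)
      + PowerSeries.coeff j (VN N R i - PowerSeries.C (beta m) *
          gm ((i : ℚ) + 1 / 2) ((WW M N m R).comp (C 2 * X))) := by
    have e1 : ent0 R (Site.H i, j) = PowerSeries.coeff j
        (gm ((i : ℚ) + 1 / 2) R * PsiH i - gm ((i : ℚ) + 1 / 2) (TR mu R)) := rfl
    have e2 : beta m * PowerSeries.coeff j
        (gm ((i : ℚ) + 1 / 2) ((WW M N m R).comp (C 2 * X))) =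
        PowerSeries.coeff j (PowerSeries.C (beta m) *
          gm ((i : ℚ) + 1 / 2) ((WW M N m R).comp (C 2 * X))) := by
      rw [PowerSeries.coeff_C_mul]
    rw [e1, e2, ← map_sub, ← map_add, ← map_add]
    congr 1
    ring
  rw [e]
  refine i2_add (i2_add ?_ ?_) ?_
  · rcases hrow with ⟨h0, _⟩ | ⟨_, h1, h2⟩
    · obtain ⟨k, rfl⟩ := Int.eq_ofNat_of_zero_le h0
      have h3 := (Iv_gm hRint (le_refl R.natDegree) (k : ℤ)).mul (PsiH_sub_SN h N k)
      refine i2_mono (h3 j hj) ?_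
      rw [hN]
      push_cast
      rw [← hn]
      linarith
    · subst h1
      have h3 : PowerSeries.coeff 0 (gm ((i : ℚ) + 1 / 2) R * (PsiH i - SN N i)) = 0 := by
        rw [PowerSeries.coeff_zero_eq_constantCoeff_apply, map_mul]
        have : PowerSeries.constantCoeff (gm ((i : ℚ) + 1 / 2) R) = R.eval ((i : ℚ) + 1 / 2) := by
          unfold gm
          rw [Polynomial.constantCoeff_coe, taylor_coeff_zero]
        rw [this, h2, zero_mul]
      rw [h3]
      exact i2_zero _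
  · refine i2_mono (poly_error h hRint (le_refl R.natDegree) (by omega) i j hj) ?_
    rw [hN]
    push_cast
    rw [← hn]
    linarith
  · exact i2_mono (VN_sub_WW h M N m hf i j hj) le_rfl

end Crest.Agent.R006.P6Halfx664
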