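import Crest.Agent.R006.P6Asm_784
import Crest.Agent.R006.P6A1_241
import Crest.Agent.R006.P6HalfSites_664
import Crest.Agent.R006.P6H_909

/-!
# Row 6, block P6, line A: the block theorem (helper784)
-/

set_option autoImplicit false

namespace Crest.Agent.R006.P6

open Polynomial Crest.Agent.R006.NV Crest.Agent.R006.PsiInf Crest.Agent.R006.D
open Crest.Agent.R006.ProdBound481

/-- P6 from the evaluation of `Vlow` -/
theorem atPrime_two_A (hB : ∀ g, HTwo g → BaseChange g) (S : Shape) (hS : S.Good) (c : ℕ)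
    (ξ : Par ℝ) (hE : ∀ δ : ℝ, 0 < δ → ∀ᶠ u : ℕ in Filter.atTop, ∀ L : ℕ,
      (val2 S ξ - δ) * (u : ℝ) ^ 2 ≤ (Vlow S u c (parOf ξ u) L : ℝ)) :
    AtPrime S c 2 (-val2 S ξ) := by
  obtain ⟨g, hg⟩ := P6Hx909.exists_HTwo
  exact atPrime_of hg (intSites hg) (P6Halfx664.halfSites hg) (hB g hg) S hS c ξ hE

end Crest.Agent.R006.P6
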