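import Crest.Agent.R006.P6Rep_784

/-!
# Row 6, block P6: existence of the representation (helper784)
-/

set_option autoImplicit false

namespace Crest.Agent.R006.P6

open Polynomial Crest.Agent.R006.NV Crest.Agent.R006.PsiInf Crest.Agent.R006.D
open Crest.Agent.R006.ProdBound481

lemma natDegree_le_sum {ι : Type*} [Fintype ι] (f : ι → ℚ[X]) (i : ι) (d : ℕ) :
    (f i).natDegree ≤ (∑ j, (f j).natDegree) + d :=
  (Finset.single_le_sum (f := fun j => (f j).natDegree) (fun _ _ => Nat.zero_le _)
    (Finset.mem_univ i)).trans (Nat.le_add_right _ _)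

lemma I2_beta (m : ℕ) : I2 (vb m) (beta m) := by
  have h := (I2_two_pow m).mul (I2.fac m)
  have h2 : I2 (-1) ((2 : ℚ)⁻¹) := by simpa using I2_two_pow_inv 1
  have := h.mul h2
  unfold beta
  rw [div_eq_mul_inv]
  refine this.mono ?_
  unfold vb lh
  omega

/-- main part of the entries -/
noncomputable def mainE {nR nT nQ : ℕ} (γ : ℚ) (ρ2 : ℚ[X]) (L : ℕ)
    (aR dR wR : Fin nR → ℕ → ℚ) (bb : ℕ → ℕ → ℚ) (ρ : Row) :
    Fin nR ⊕ Fin nT ⊕ Fin nQ → ℚ[X] :=
  match ρ.1 with
  | .Z z => Sum.elim (fun j => (C γ - X) * C (∑ l ∈ Finset.range L, aR j l *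
      PowerSeries.coeff ρ.2 (gm (z : ℚ) (ρ2 * bin l) * HomZ z)) +
      C (∑ l ∈ Finset.range L, dR j l * PowerSeries.coeff ρ.2 (gm (z : ℚ) (bin l))))
      (Sum.elim (fun l => C (PowerSeries.coeff ρ.2 (gm (z : ℚ) (bin l))))
        (fun l => C (PowerSeries.coeff ρ.2 (gm (z : ℚ) (bin l) * GamZ z))))
  | .H z => Sum.elim
      (fun j => C (∑ l ∈ Finset.range L, wR j l * PowerSeries.coeff ρ.2 (gm (z : ℚ) (bin l))))
      (Sum.elim (fun l => C (∑ l' ∈ Finset.range L, bb l l' *
          PowerSeries.coeff ρ.2 (gm (z : ℚ) (bin l'))))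
        (fun l => C (∑ l' ∈ Finset.range L, bb l l' *
          PowerSeries.coeff ρ.2 (gm (z : ℚ) (bin l') * GamH z))))

theorem Rep.of_main {nR nT nQ : ℕ}
    (M : Matrix (Fin nR ⊕ Fin nT ⊕ Fin nQ) (Fin nR ⊕ Fin nT ⊕ Fin nQ) ℚ[X])
    (r : Fin nR ⊕ Fin nT ⊕ Fin nQ → Row) (γ : ℚ) (ρ2 : ℚ[X]) (L : ℕ)
    (aR dR wR : Fin nR → ℕ → ℚ) (bb : ℕ → ℕ → ℚ) (hT : nT ≤ L) (hQ : nQ ≤ L) :
    Rep M r γ ρ2 L aR dR wR bb (fun i j => M i j - mainE γ ρ2 L aR dR wR bb (r i) j) where
  LT := hT
  LQ := hQ
  zR i z hz j := by simp only [mainE, hz, Sum.elim_inl]; ring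
  zT i z hz j := by simp only [mainE, hz, Sum.elim_inl, Sum.elim_inr]; ring
  zQ i z hz j := by simp only [mainE, hz, Sum.elim_inr]; ring
  hR i z hz j := by simp only [mainE, hz, Sum.elim_inl]; ring
  hT i z hz j := by simp only [mainE, hz, Sum.elim_inl, Sum.elim_inr]; ring
  hQ i z hz j := by simp only [mainE, hz, Sum.elim_inr]; ring

/-- the functions of the new basis, without the scalar -/
noncomputable def fN (S : Shape) (u j : ℕ) : ℚ[X] :=
  rho2 S u * descPochhammer ℚ (S.a1 * u) * X ^ (j % 2)

lemma polN_eq (S : Shape) (u : ℕ) (g : ℕ → ℚ[X]) (j : ℕ) :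
    polN S u g j = C (kap0 S u) * (fN S u j * g (j / 2)) := by
  rw [polN, gauge_eq, fN]
  ring

lemma PB_fN (S : Shape) (u j : ℕ) : PB 2 0 (fN S u j) := by
  have hX : PB 2 0 ((X : ℚ[X]) ^ (j % 2)) := by
    have := PB.prod0 (Finset.range (j % 2)) (fun _ => (X : ℚ[X])) (fun _ _ => pb_X)
    simpa using this
  have := ((PB_rho2 S u).mul (PB_descPochhammer (S.a1 * u))).mul hX
  simpa [fN] using this

/-- **existence of the representation** -/
theorem exists_rep {g : ℕ → ℚ[X]} (hg : HTwo g) (hA1 : IntSites g) (hA2 : HalfSites g)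
    (S : Shape) (hw : S.w ≤ S.i1) (u c : ℕ) (r : Col S u → Row)
    (hr : ∀ i, IsRow S u c (r i)) (Mb : ℕ) :
    ∃ (γ : ℚ) (L : ℕ) (aR dR wR : Fin (S.k * u) → ℕ → ℚ) (bb : ℕ → ℕ → ℚ)
      (err : Col S u → Col S u → ℚ[X]),
      Rep (MatN S u r (fun j => polN S u g j)) r γ (rho2 S u) L aR dR wR bb err ∧ I2 (-1) γ ∧
      (∀ j l, I2 (-kap S u + lh l) (aR j l)) ∧ (∀ j l, l < S.a1 * u → aR j l = 0) ∧
      (∀ (j : Fin (S.k * u)) l, I2 (-kap S u + vb (j / 2) + lh l) (dR j l)) ∧
      (∀ (j : Fin (S.k * u)) (l : ℕ), I2 (-kap S u + vb (j / 2) + l + lh l) (wR j l)) ∧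
      (∀ l i : ℕ, I2 (i + lh i - l - lh l) (bb l i)) ∧
      (∀ i j, PB 2 Mb (err i j)) := by
  classical
  set M0 : ℕ := Mb + (kap S u).toNat + (S.B * u + c) with hM0
  obtain ⟨γ, hγ, hD⟩ := hA1 M0
  choose D hDint hDv using fun j : Fin (S.k * u) => hD (j / 2) (fN S u j) (PB_fN S u j)
  choose W hWint hWv using fun j : Fin (S.k * u) => hA2 M0 (j / 2) (fN S u j) (PB_fN S u j)
  -- the polynomials of the `R`-states
  set Pj : Fin (S.k * u) → ℚ[X] := fun j =>
    descPochhammer ℚ (S.a1 * u) * (X ^ ((j : ℕ) % 2) * g (j / 2)) with hPj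
  have hPjint : ∀ j, PB 2 0 (Pj j) := by
    intro j
    have hX : PB 2 0 ((X : ℚ[X]) ^ ((j : ℕ) % 2)) := by
      have := PB.prod0 (Finset.range ((j : ℕ) % 2)) (fun _ => (X : ℚ[X])) (fun _ _ => pb_X)
      simpa using this
    have := (PB_descPochhammer (S.a1 * u)).mul (hX.mul (hg.int (j / 2)))
    simpa [hPj] using this
  set d : ℕ := (∑ j, (Pj j).natDegree) + (∑ j, (D j).natDegree) + (∑ j, (W j).natDegree)
    + S.q * u + S.g * u with hd
  have hdP : ∀ j, (Pj j).natDegree ≤ d := fun j =>
    (natDegree_le_sum Pj j 0).trans (by omega)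
  have hdD : ∀ j, (D j).natDegree ≤ d := fun j =>
    (natDegree_le_sum D j 0).trans (by omega)
  have hdW : ∀ j, (W j).natDegree ≤ d := fun j =>
    (natDegree_le_sum W j 0).trans (by omega)
  choose a ha haE using fun j => N1 (hPjint j) (hdP j)
  choose b hb hbE using fun j => N1 (hDint j) (hdD j)
  choose w hwv hwE using fun j => N2 (hWint j) (hdW j)
  choose n3 hn3 hn3E using fun l => N3 l
  have hκ := I2_kap0 S u
  have hκ0 : 0 ≤ kap S u := by
    unfold kap
    have := lh_nonneg (S.a1 * u)
    have := lh_nonneg (S.a2 * u)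
    have := lh_nonneg (S.i1 * u)
    have := lh_nonneg (S.r1 * u)
    omega
  have haz : ∀ j l, l < S.a1 * u → l ≤ d → a j l = 0 := by
    intro j l hl hld
    refine N1_zero (haE j) ?_ l hl hld
    intro n hn
    rw [hPj]
    simp only [eval_mul]
    rw [descPochhammer_eval_eq_descFactorial, Nat.descFactorial_eq_zero_iff_lt.mpr hn,
      Nat.cast_zero, zero_mul]
  refine ⟨γ, d + 1, fun j l => if l < S.a1 * u then 0 else kap0 S u * a j l,
    fun j l => kap0 S u * beta (j / 2) * b j l, fun j l => kap0 S u * beta (j / 2) * w j l,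
    fun l i => if i < l + 1 then n3 l i else 0, _,
    Rep.of_main _ r γ (rho2 S u) (d + 1) _ _ _ _ (by omega) (by omega), hγ, ?_, ?_, ?_, ?_, ?_, ?_⟩
  · intro j l
    dsimp only
    split_ifs
    · exact I2.zero _
    · exact hκ.mul (ha j l)
  · intro j l hl
    simp only [if_pos hl]
  · intro j l
    exact (hκ.mul (I2_beta _)).mul (hb j l)
  · intro j l
    refine ((hκ.mul (I2_beta _)).mul (hwv j l)).mono ?_
    unfold lh
    omega
  · intro l i
    dsimp only
    split_ifs
    · exact hn3 l i
    · exact I2.zero _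
  · -- the error
    intro i j
    have hri := hr i
    rcases hρ : r i with ⟨z | z, t⟩
    · -- integer sites
      rw [hρ] at hri
      have hrow : IntRow z t ∧ z ≤ (M0 : ℤ) := by
        rcases lt_or_ge z 0 with hz | hz
        · exact ⟨Or.inr ⟨hz, isRow_Z_neg hri hz⟩, by omega⟩
        · obtain ⟨h1, h2⟩ := isRow_Z_nonneg hri hz
          exact ⟨Or.inl ⟨hz, h1⟩, by omega⟩
      rcases j with j | l | l
      · have h1 := hDv j z t hrow.1 hrow.2
        -- values of the `R`-part
        have e1 : ent1 (fN S u j * g (j / 2)) (Site.Z z, t) =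
            ∑ l ∈ Finset.range (d + 1), a j l *
              PowerSeries.coeff t (gm (z : ℚ) (rho2 S u * bin l) * HomZ z) := by
          have e2 : fN S u j * g (j / 2) =
              ∑ l ∈ Finset.range (d + 1), C (a j l) * (rho2 S u * bin l) := by
            have e3 : fN S u j * g (j / 2) = rho2 S u * Pj j := by
              simp only [fN, hPj]; ring
            rw [e3, haE j, Finset.mul_sum]
            refine Finset.sum_congr rfl fun l _ => ?_
            ring
          have e4 : ent1 (fN S u j * g (j / 2)) (Site.Z z, t) =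
              PowerSeries.coeff t (gm (z : ℚ) (fN S u j * g (j / 2)) * HomZ z) := rfl
          rw [e4, e2, coeff_gm_sum]
        have e5 : PowerSeries.coeff t (gm (z : ℚ) (D j)) =
            ∑ l ∈ Finset.range (d + 1), b j l * PowerSeries.coeff t (gm (z : ℚ) (bin l)) := by
          conv_lhs => rw [hbE j]
          rw [coeff_gm_sum']
        have e6 : ∑ l ∈ Finset.range (d + 1), (if l < S.a1 * u then 0 else kap0 S u * a j l) *
            PowerSeries.coeff t (gm (z : ℚ) (rho2 S u * bin l) * HomZ z) =
            kap0 S u * ent1 (fN S u j * g (j / 2)) (Site.Z z, t) := by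
          rw [e1, Finset.mul_sum]
          refine Finset.sum_congr rfl fun l hl => ?_
          split_ifs with h2
          · rw [haz j l h2 (by have := Finset.mem_range.mp hl; omega)]
            ring
          · ring
        have e7 : ∑ l ∈ Finset.range (d + 1), kap0 S u * beta (j / 2) * b j l *
            PowerSeries.coeff t (gm (z : ℚ) (bin l)) =
            kap0 S u * (beta (j / 2) * PowerSeries.coeff t (gm (z : ℚ) (D j))) := by
          rw [e5, Finset.mul_sum, Finset.mul_sum]
          refine Finset.sum_congr rfl fun l _ => ?_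
          ring
        have e8 : MatN S u r (fun j => polN S u g j) i (Sum.inl j) -
            mainE (nT := S.q * u) (nQ := S.g * u) γ (rho2 S u) (d + 1) (fun j l => if l < S.a1 * u then 0 else kap0 S u * a j l)
              (fun j l => kap0 S u * beta (j / 2) * b j l)
              (fun j l => kap0 S u * beta (j / 2) * w j l)
              (fun l i => if i < l + 1 then n3 l i else 0) (Site.Z z, t) (Sum.inl j) =
            C (kap0 S u * (ent0 (fN S u j * g (j / 2)) (Site.Z z, t)
              - γ * ent1 (fN S u j * g (j / 2)) (Site.Z z, t)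
              - beta (j / 2) * PowerSeries.coeff t (gm (z : ℚ) (D j)))) := by
          simp only [MatN, Matrix.of_apply, Sum.elim_inl, mainE, entR]
          rw [e6, e7, polN_eq, hρ, ent0_C_mul, ent1_C_mul]
          simp only [C_sub, C_mul, C_add]
          ring
        rw [e8]
        refine ((hκ.mul h1).pb).mono ?_
        omega
      · have e8 : MatN S u r (fun j => polN S u g j) i (Sum.inr (Sum.inl l)) -
            mainE (nT := S.q * u) (nQ := S.g * u) γ (rho2 S u) (d + 1) (fun j l => if l < S.a1 * u then 0 else kap0 S u * a j l)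
              (fun j l => kap0 S u * beta (j / 2) * b j l)
              (fun j l => kap0 S u * beta (j / 2) * w j l)
              (fun l i => if i < l + 1 then n3 l i else 0) (Site.Z z, t)
              (Sum.inr (Sum.inl l)) = 0 := by
          simp only [MatN, Matrix.of_apply, Sum.elim_inl, Sum.elim_inr, mainE, entry, hρ]
          exact sub_self _
        rw [e8]
        exact PB.zero _
      · have e8 : MatN S u r (fun j => polN S u g j) i (Sum.inr (Sum.inr l)) -
            mainE (nT := S.q * u) (nQ := S.g * u) γ (rho2 S u) (d + 1) (fun j l => if l < S.a1 * u then 0 else kap0 S u * a j l)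
              (fun j l => kap0 S u * beta (j / 2) * b j l)
              (fun j l => kap0 S u * beta (j / 2) * w j l)
              (fun l i => if i < l + 1 then n3 l i else 0) (Site.Z z, t)
              (Sum.inr (Sum.inr l)) = 0 := by
          simp only [MatN, Matrix.of_apply, Sum.elim_inr, mainE, entry, hρ]
          exact sub_self _
        rw [e8]
        exact PB.zero _
    · -- half-integer sites
      rw [hρ] at hri
      have e9 : ∀ l : ℕ, l ≤ d → ∀ φ : PowerSeries ℚ,
          ∑ l' ∈ Finset.range (d + 1), (if l' < l + 1 then n3 l l' else 0) *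
            PowerSeries.coeff t (gm (z : ℚ) (bin l') * φ) =
          PowerSeries.coeff t (gm ((z : ℚ) + 1 / 2) (bin l) * φ) := by
        intro l hl φ
        rw [gm_half, hn3E l, coeff_gm_sum]
        have h3 : Finset.range (l + 1) ⊆ Finset.range (d + 1) :=
          Finset.range_subset_range.mpr (by omega)
        rw [← Finset.sum_subset h3]
        · refine Finset.sum_congr rfl fun l' hl' => ?_
          rw [if_pos (Finset.mem_range.mp hl')]
        · intro l' _ hl'
          rw [if_neg (fun h => hl' (Finset.mem_range.mpr h)), zero_mul]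
      rcases j with j | l | l
      · have hrow : HalfRow (fN S u j * g (j / 2)) z t := by
          rcases lt_or_ge z 0 with hz | hz
          · obtain ⟨h1, h2⟩ := isRow_H_neg hri hz
            refine Or.inr ⟨hz, h1, ?_⟩
            rw [fN, eval_mul, eval_mul, eval_mul, rho2_zero S u hz h2 hw]
            ring
          · exact Or.inl ⟨hz, isRow_H_nonneg hri hz⟩
        have h1 := hWv j z t hrow
        have e5 : PowerSeries.coeff t (gm ((z : ℚ) + 1 / 2) ((W j).comp (C 2 * X))) =
            ∑ l ∈ Finset.range (d + 1), w j l * PowerSeries.coeff t (gm (z : ℚ) (bin l)) := by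
          rw [gm_half, hwE j, coeff_gm_sum']
        have e7 : ∑ l ∈ Finset.range (d + 1), kap0 S u * beta (j / 2) * w j l *
            PowerSeries.coeff t (gm (z : ℚ) (bin l)) =
            kap0 S u * (beta (j / 2) *
              PowerSeries.coeff t (gm ((z : ℚ) + 1 / 2) ((W j).comp (C 2 * X)))) := by
          rw [e5, Finset.mul_sum, Finset.mul_sum]
          refine Finset.sum_congr rfl fun l _ => ?_
          ring
        have e10 : ent1 (fN S u j * g (j / 2)) (Site.H z, t) = 0 := by
          simp only [ent1, psi1, mul_zero, map_zero]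
        have e8 : MatN S u r (fun j => polN S u g j) i (Sum.inl j) -
            mainE (nT := S.q * u) (nQ := S.g * u) γ (rho2 S u) (d + 1) (fun j l => if l < S.a1 * u then 0 else kap0 S u * a j l)
              (fun j l => kap0 S u * beta (j / 2) * b j l)
              (fun j l => kap0 S u * beta (j / 2) * w j l)
              (fun l i => if i < l + 1 then n3 l i else 0) (Site.H z, t) (Sum.inl j) =
            C (kap0 S u * (ent0 (fN S u j * g (j / 2)) (Site.H z, t)
              - beta (j / 2) *
                PowerSeries.coeff t (gm ((z : ℚ) + 1 / 2) ((W j).comp (C 2 * X))))) := by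
          simp only [MatN, Matrix.of_apply, Sum.elim_inl, mainE, entR]
          rw [e7, polN_eq, hρ, ent0_C_mul, ent1_C_mul, e10, mul_zero, C_0, mul_zero, sub_zero]
          simp only [C_sub, C_mul]
          ring
        rw [e8]
        refine ((hκ.mul h1).pb).mono ?_
        omega
      · have e8 : MatN S u r (fun j => polN S u g j) i (Sum.inr (Sum.inl l)) -
            mainE (nT := S.q * u) (nQ := S.g * u) γ (rho2 S u) (d + 1) (fun j l => if l < S.a1 * u then 0 else kap0 S u * a j l)
              (fun j l => kap0 S u * beta (j / 2) * b j l)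
              (fun j l => kap0 S u * beta (j / 2) * w j l)
              (fun l i => if i < l + 1 then n3 l i else 0) (Site.H z, t)
              (Sum.inr (Sum.inl l)) = 0 := by
          have e11 := e9 l (by have := l.2; omega) 1
          simp only [mul_one] at e11
          simp only [MatN, Matrix.of_apply, Sum.elim_inl, Sum.elim_inr, mainE, entry, hρ, e11]
          exact sub_self _
        rw [e8]
        exact PB.zero _
      · have e8 : MatN S u r (fun j => polN S u g j) i (Sum.inr (Sum.inr l)) -
            mainE (nT := S.q * u) (nQ := S.g * u) γ (rho2 S u) (d + 1) (fun j l => if l < S.a1 * u then 0 else kap0 S u * a j l)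
              (fun j l => kap0 S u * beta (j / 2) * b j l)
              (fun j l => kap0 S u * beta (j / 2) * w j l)
              (fun l i => if i < l + 1 then n3 l i else 0) (Site.H z, t)
              (Sum.inr (Sum.inr l)) = 0 := by
          have e11 := e9 l (by have := l.2; omega) (GamH z)
          simp only [MatN, Matrix.of_apply, Sum.elim_inr, mainE, entry, hρ, e11]
          exact sub_self _
        rw [e8]
        exact PB.zero _

end Crest.Agent.R006.P6
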