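import Crest.Agent.R006.P6DetC_784

/-!
# Row 6, block P6: the representation of the matrix with the new `R`-basis (helper784)
-/

set_option autoImplicit false

namespace Crest.Agent.R006.P6

open Polynomial Crest.Agent.R006.NV Crest.Agent.R006.PsiInf Crest.Agent.R006.D
open Crest.Agent.R006.ProdBound481

/-! ### linearity -/

lemma gm_finset_sum {ι : Type*} (z : ℚ) (s : Finset ι) (f : ι → ℚ[X]) :
    gm z (∑ i ∈ s, f i) = ∑ i ∈ s, gm z (f i) := by
  classical
  induction s using Finset.induction_on with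
  | empty => simp [gm_zero]
  | insert a s ha ih => rw [Finset.sum_insert ha, Finset.sum_insert ha, gm_add, ih]

/-- the coefficient functional of a linear combination -/
lemma coeff_gm_sum (z : ℚ) (j : ℕ) (L : ℕ) (a : ℕ → ℚ) (f : ℕ → ℚ[X]) (φ : PowerSeries ℚ) :
    PowerSeries.coeff j (gm z (∑ l ∈ Finset.range L, C (a l) * f l) * φ) =
      ∑ l ∈ Finset.range L, a l * PowerSeries.coeff j (gm z (f l) * φ) := by
  rw [gm_finset_sum, Finset.sum_mul, map_sum]
  refine Finset.sum_congr rfl fun l _ => ?_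
  rw [gm_mul, gm_C, mul_assoc, PowerSeries.coeff_C_mul]

lemma coeff_gm_sum' (z : ℚ) (j : ℕ) (L : ℕ) (a : ℕ → ℚ) (f : ℕ → ℚ[X]) :
    PowerSeries.coeff j (gm z (∑ l ∈ Finset.range L, C (a l) * f l)) =
      ∑ l ∈ Finset.range L, a l * PowerSeries.coeff j (gm z (f l)) := by
  have := coeff_gm_sum z j L a f 1
  simpa only [mul_one] using this

lemma ent0_C_mul (a : ℚ) (R : ℚ[X]) (ρ : Row) : ent0 (C a * R) ρ = a * ent0 R ρ := by
  unfold ent0 tau
  have h : TR mu (C a * R) = C a * TR mu R := by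
    rw [← smul_eq_C_mul, ← smul_eq_C_mul, map_smul]
  rw [h, gm_mul, gm_mul, gm_C, mul_assoc, ← mul_sub, PowerSeries.coeff_C_mul]

lemma ent1_C_mul (a : ℚ) (R : ℚ[X]) (ρ : Row) : ent1 (C a * R) ρ = a * ent1 R ρ := by
  unfold ent1
  rw [gm_mul, gm_C, mul_assoc, PowerSeries.coeff_C_mul]

lemma gm_half (z : ℚ) (Q : ℚ[X]) : gm (z + 1 / 2) Q = gm z (Q.comp (X + C (1 / 2))) := by
  unfold gm
  have : Q.comp (X + C (1 / 2)) = taylor (1 / 2) Q := rfl
  rw [this, taylor_taylor, add_comm]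

/-! ### the gauge -/

/-- value of the scalar in front -/
noncomputable def kap0 (S : Shape) (u : ℕ) : ℚ :=
  ((2 : ℚ) ^ (S.i1 * u))⁻¹ * ((S.a1 * u).factorial : ℚ)⁻¹ * ((S.a2 * u).factorial : ℚ)⁻¹ *
    ((S.i1 * u).factorial : ℚ)⁻¹ * ((S.r1 * u).factorial : ℚ)⁻¹

/-- the part of the gauge which is evaluated -/
noncomputable def rho2 (S : Shape) (u : ℕ) : ℚ[X] :=
  descPochhammer ℚ (S.a2 * u) * (∏ m ∈ Finset.range (S.i1 * u), (C 2 * X + C ((2 * m + 1 : ℕ) : ℚ)))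
    * ∏ m ∈ Finset.range (S.r1 * u), (X + C ((m + 1 : ℕ) : ℚ))

lemma descPochhammer_comp (n : ℕ) (c : ℚ) : (descPochhammer ℚ n).comp (X + C c) =
    ∏ t ∈ Finset.range n, (X + C (c - t)) := by
  induction n with
  | zero => simp
  | succ n ih =>
    rw [descPochhammer_succ_right, mul_comp, ih, Finset.prod_range_succ]
    congr 1
    rw [sub_comp, X_comp, natCast_comp, C_sub, add_sub_assoc]
    simp

lemma bin_comp_r (n : ℕ) : (bin n).comp (X + C (n : ℚ)) =
    C ((n.factorial : ℚ)⁻¹) * ∏ m ∈ Finset.range n, (X + C ((m + 1 : ℕ) : ℚ)) := by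
  rw [bin, mul_comp, C_comp, descPochhammer_comp, ← Finset.prod_range_reflect]
  congr 1
  refine Finset.prod_congr rfl fun m hm => ?_
  have h1 : m < n := Finset.mem_range.mp hm
  rw [Nat.sub_sub, Nat.cast_sub (by omega)]
  congr 2
  push_cast
  ring

lemma bin_comp_i (n : ℕ) : (bin n).comp (X + C ((n : ℚ) - 1 / 2)) =
    C (((2 : ℚ) ^ n)⁻¹ * (n.factorial : ℚ)⁻¹) *
      ∏ m ∈ Finset.range n, (C 2 * X + C ((2 * m + 1 : ℕ) : ℚ)) := by
  rw [bin, mul_comp, C_comp, descPochhammer_comp, ← Finset.prod_range_reflect]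
  have h : ∏ m ∈ Finset.range n, (C 2 * X + C ((2 * m + 1 : ℕ) : ℚ)) =
      C ((2 : ℚ) ^ n) * ∏ m ∈ Finset.range n, (X + C (((m : ℚ) + 1 / 2))) := by
    rw [C_pow, ← Finset.card_range n, ← Finset.prod_const, Finset.card_range,
      ← Finset.prod_mul_distrib]
    refine Finset.prod_congr rfl fun m _ => ?_
    rw [mul_add, ← C_mul]
    congr 2
    push_cast
    ring
  rw [h, ← mul_assoc, ← C_mul]
  have h2 : ((2 : ℚ) ^ n)⁻¹ * (n.factorial : ℚ)⁻¹ * (2 : ℚ) ^ n = (n.factorial : ℚ)⁻¹ := by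
    field_simp
  rw [h2]
  congr 1
  refine Finset.prod_congr rfl fun m hm => ?_
  have h1 : m < n := Finset.mem_range.mp hm
  rw [Nat.sub_sub, Nat.cast_sub (by omega)]
  congr 2
  push_cast
  ring

lemma gauge_eq (S : Shape) (u : ℕ) :
    gauge S u * bin (S.a1 * u) = C (kap0 S u) * (rho2 S u * descPochhammer ℚ (S.a1 * u)) := by
  unfold D.gauge
  rw [bin_comp_r, bin_comp_i, rho2, kap0, bin, bin]
  simp only [C_mul]
  ring

lemma I2_kap0 (S : Shape) (u : ℕ) : I2 (-kap S u) (kap0 S u) := by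
  have h := ((((I2_two_pow_inv (S.i1 * u)).mul (I2.facinv (S.a1 * u))).mul
    (I2.facinv (S.a2 * u))).mul (I2.facinv (S.i1 * u))).mul (I2.facinv (S.r1 * u))
  refine h.mono ?_
  unfold kap
  omega

lemma PB_lin (a b : ℤ) : PB 2 0 (C (a : ℚ) * X + C (b : ℚ)) := by
  have h1 : PB 2 0 (C (a : ℚ)) := (I2.intCast a).pb
  have h2 : PB 2 0 (C (b : ℚ)) := (I2.intCast b).pb
  have h3 : PB 2 (0 + 0) (C (a : ℚ) * X) := h1.mul pb_X
  exact (h3.mono (by norm_num)).add h2

lemma PB.prod0 {ι : Type*} (s : Finset ι) (f : ι → ℚ[X]) (h : ∀ i ∈ s, PB 2 0 (f i)) :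
    PB 2 0 (∏ i ∈ s, f i) := by
  have := PB.prod (p := 2) s (fun _ => 0) f h
  simpa using this

lemma PB_rho2 (S : Shape) (u : ℕ) : PB 2 0 (rho2 S u) := by
  unfold rho2
  have h1 : PB 2 0 (∏ m ∈ Finset.range (S.i1 * u), (C 2 * X + C ((2 * m + 1 : ℕ) : ℚ))) :=
    PB.prod0 _ _ fun m _ => by
      have := PB_lin 2 ((2 * m + 1 : ℕ) : ℤ)
      push_cast at this ⊢
      exact this
  have h2 : PB 2 0 (∏ m ∈ Finset.range (S.r1 * u), (X + C ((m + 1 : ℕ) : ℚ))) :=
    PB.prod0 _ _ fun m _ => by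
      have := PB_lin 1 ((m + 1 : ℕ) : ℤ)
      push_cast at this ⊢
      simpa using this
  have := ((PB_descPochhammer (S.a2 * u)).mul h1).mul h2
  simpa using this

lemma rho2_eval (S : Shape) (u n : ℕ) :
    I2 (lh (S.a2 * u) + lh (S.r1 * u)) ((rho2 S u).eval (n : ℚ)) := by
  have h1 : I2 (lh (S.a2 * u)) ((descPochhammer ℚ (S.a2 * u)).eval (n : ℚ)) := by
    rw [descPochhammer_eval_eq_descFactorial, Nat.descFactorial_eq_factorial_mul_choose]
    push_cast
    have := (I2.fac (S.a2 * u)).mul (I2.natCast (n.choose (S.a2 * u)))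
    simpa using this
  have h2 : I2 0 ((∏ m ∈ Finset.range (S.i1 * u),
      (C 2 * X + C ((2 * m + 1 : ℕ) : ℚ)) : ℚ[X]).eval (n : ℚ)) := by
    have : (∏ m ∈ Finset.range (S.i1 * u),
      (C 2 * X + C ((2 * m + 1 : ℕ) : ℚ)) : ℚ[X]).eval (n : ℚ) =
      ((∏ m ∈ Finset.range (S.i1 * u), (2 * n + (2 * m + 1)) : ℕ) : ℚ) := by
      rw [eval_prod]
      push_cast
      refine Finset.prod_congr rfl fun m _ => ?_
      simp
    rw [this]
    exact I2.natCast _
  have h3 : I2 (lh (S.r1 * u)) ((∏ m ∈ Finset.range (S.r1 * u),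
      (X + C ((m + 1 : ℕ) : ℚ)) : ℚ[X]).eval (n : ℚ)) := by
    have : (∏ m ∈ Finset.range (S.r1 * u), (X + C ((m + 1 : ℕ) : ℚ)) : ℚ[X]).eval (n : ℚ) =
      (((S.r1 * u).factorial * (n + S.r1 * u).choose (S.r1 * u) : ℕ) : ℚ) := by
      rw [eval_prod, ← Nat.ascFactorial_eq_factorial_mul_choose, Nat.ascFactorial_eq_prod_range]
      push_cast
      refine Finset.prod_congr rfl fun m _ => ?_
      simp
      ring
    rw [this]
    push_cast
    have := (I2.fac (S.r1 * u)).mul (I2.natCast ((n + S.r1 * u).choose (S.r1 * u)))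
    push_cast at this
    simpa using this
  have := (h1.mul h2).mul h3
  rw [rho2, eval_mul, eval_mul]
  simpa using this

/-- the gauge vanishes at the `w`-sites -/
lemma rho2_zero (S : Shape) (u : ℕ) {i : ℤ} (hi : i < 0) (h : -i ≤ S.w * u) (hw : S.w ≤ S.i1) :
    (rho2 S u).eval ((i : ℚ) + 1 / 2) = 0 := by
  obtain ⟨m, rfl⟩ : ∃ m : ℕ, i = -1 - m := ⟨(-1 - i).toNat, by omega⟩
  have hm : m < S.i1 * u := by
    have : (m : ℤ) < S.w * u := by omega
    have h2 : m < S.w * u := by exact_mod_cast this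
    exact h2.trans_le (Nat.mul_le_mul_right _ hw)
  rw [rho2, eval_mul, eval_mul, eval_prod]
  rw [Finset.prod_eq_zero (Finset.mem_range.mpr hm), mul_zero, zero_mul]
  simp only [eval_add, eval_mul, eval_C, eval_X]
  push_cast
  ring

end Crest.Agent.R006.P6
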