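import Crest.Agent.R006.Lam_89

/-!
# Row 6, block P6 (prime 2): residue lemmas (helper121)

* `lam_eq` : `lam z m p F = ∑_i [ε^(m i - 1)] (F i * p / Nhat_i)`;
* `res_step` : if `w f = α NS + β E` then the residue of `f/(NS E)` at `z i` is `w⁻¹` times the one of
  `β / NS`;
* `resSum_mod` : `∑` residues of `β / NS` is the top coefficient of `β %ₘ NS`.
-/

set_option autoImplicit false

namespace Crest.Agent.R006.P6x121

open Polynomial Finset Crest.Agent.R006.Lam

variable {K : Type*} [Field K] {ι : Type*} [Fintype ι] [DecidableEq ι] (z : ι → K) (m : ι → ℕ)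

lemma lam_eq (p : K[X]) (F : ι → PowerSeries K) :
    lam z m p F = ∑ i, if m i = 0 then 0 else PowerSeries.coeff (m i - 1) (F i * wt z m p i) := by
  rw [lam, Fintype.sum_sigma]
  refine sum_congr rfl fun i _ => ?_
  split_ifs with h0
  · exact sum_eq_zero fun j _ => absurd j.2 (by omega)
  · rw [← sum_u_mul m i h0 p (F i)]
    rfl

lemma coeff_X_pow_mul_lt {n j : ℕ} (h : j < n) (f : PowerSeries K) :
    PowerSeries.coeff j (PowerSeries.X ^ n * f) = 0 := by
  have := PowerSeries.X_pow_dvd_iff.mp (dvd_mul_right (PowerSeries.X ^ n : PowerSeries K) f)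
  exact this j h

lemma germ_NS (i : ι) :
    germ (z i) (NS z m) = PowerSeries.X ^ (m i) * germ (z i) (Nhat z m i) := by
  rw [NS_eq z m i, germ_mul, germ_pow, germ_X_sub_C_self]

variable {z} in
lemma germ_Nhat_cancel (hz : Function.Injective z) (i : ι) :
    germ (z i) (Nhat z m i) * (germ (z i) (Nhat z m i))⁻¹ = 1 := by
  apply PowerSeries.mul_inv_cancel
  rw [constantCoeff_germ]
  exact Nhat_eval_ne m hz i

variable {z} in
lemma res_step (hz : Function.Injective z) (i : ι) (hi : m i ≠ 0) {f E α β : K[X]} {w : K}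
    (h : C w * f = α * NS z m + β * E) (hE : E.eval (z i) ≠ 0) :
    w * PowerSeries.coeff (m i - 1) (germ (z i) f * (germ (z i) (Nhat z m i))⁻¹ *
      (germ (z i) E)⁻¹) = PowerSeries.coeff (m i - 1) (wt z m β i) := by
  have h1 : PowerSeries.C w * germ (z i) f = germ (z i) α * (PowerSeries.X ^ (m i) *
      germ (z i) (Nhat z m i)) + germ (z i) β * germ (z i) E := by
    rw [← germ_C (z i) w, ← germ_mul, h, germ_add, germ_mul, germ_mul, germ_NS]
  have h2 := germ_Nhat_cancel m hz i
  have h3 : germ (z i) E * (germ (z i) E)⁻¹ = 1 := by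
    apply PowerSeries.mul_inv_cancel
    rw [constantCoeff_germ]
    exact hE
  have h4 : PowerSeries.C w * (germ (z i) f * (germ (z i) (Nhat z m i))⁻¹ * (germ (z i) E)⁻¹) =
      PowerSeries.X ^ (m i) * (germ (z i) α * (germ (z i) E)⁻¹) + wt z m β i := by
    rw [wt]
    linear_combination ((germ (z i) (Nhat z m i))⁻¹ * (germ (z i) E)⁻¹) * h1 +
      (germ (z i) α * PowerSeries.X ^ (m i) * (germ (z i) E)⁻¹) * h2 +
      (germ (z i) β * (germ (z i) (Nhat z m i))⁻¹) * h3
  rw [← PowerSeries.coeff_C_mul, h4, map_add, coeff_X_pow_mul_lt (by omega), zero_add]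

variable {z} in
lemma resSum_mod (hz : Function.Injective z) (β : K[X]) :
    resSum z m β = (β %ₘ NS z m).coeff (∑ l, m l - 1) := by
  rw [← resSum_eq m hz (f := β %ₘ NS z m)]
  · rw [resSum, resSum]
    refine sum_congr rfl fun i _ => ?_
    split_ifs with h0
    · rfl
    · have e : β = β %ₘ NS z m + NS z m * (β /ₘ NS z m) := (modByMonic_add_div β (NS z m)).symm
      have e2 : wt z m β i = wt z m (β %ₘ NS z m) i +
          PowerSeries.X ^ (m i) * germ (z i) (β /ₘ NS z m) := by
        conv_lhs => rw [e]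
        rw [wt_add, wt, wt, germ_mul, germ_NS]
        have h2 := germ_Nhat_cancel m hz i
        linear_combination (PowerSeries.X ^ (m i) * germ (z i) (β /ₘ NS z m)) * h2
      rw [e2, map_add, coeff_X_pow_mul_lt (by omega), add_zero]
  · have h1 := degree_modByMonic_lt β (NS_monic z m)
    rw [degree_eq_natDegree (NS_monic z m).ne_zero, natDegree_NS] at h1
    exact h1

variable {z} in
/-- sum of the residues at the sites of `z` (with `m i ≠ 0`) of `f / (NS E)` -/
lemma sum_res (hz : Function.Injective z) {f E α β : K[X]} {w : K}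
    (h : C w * f = α * NS z m + β * E) (hE : ∀ i, m i ≠ 0 → E.eval (z i) ≠ 0) :
    w * ∑ i, (if m i = 0 then 0 else PowerSeries.coeff (m i - 1)
      (germ (z i) f * (germ (z i) (Nhat z m i))⁻¹ * (germ (z i) E)⁻¹)) =
      (β %ₘ NS z m).coeff (∑ l, m l - 1) := by
  rw [← resSum_mod m hz, resSum, mul_sum]
  refine sum_congr rfl fun i _ => ?_
  split_ifs with h0
  · rw [mul_zero]
  · exact res_step m hz i h0 h (hE i h0)

section split

variable (P : ι → Prop) [DecidablePred P]

/-- multiplicities restricted to `P` -/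
def mP : ι → ℕ := fun i => if P i then m i else 0

/-- multiplicities off `P` -/
def mQ : ι → ℕ := fun i => if P i then 0 else m i

omit [DecidableEq ι] in
lemma NS_split : NS z m = NS z (mP m P) * NS z (mQ m P) := by
  rw [NS, NS, NS, ← prod_mul_distrib]
  refine prod_congr rfl fun i _ => ?_
  by_cases h : P i <;> simp [mP, mQ, h]

lemma Nhat_P {i : ι} (hi : P i) : Nhat z m i = Nhat z (mP m P) i * NS z (mQ m P) := by
  have h1 : Nhat z (mQ m P) i = NS z (mQ m P) := by
    rw [NS_eq z (mQ m P) i]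
    simp [mQ, hi]
  rw [← h1, Nhat, Nhat, Nhat, ← prod_mul_distrib]
  refine prod_congr rfl fun l _ => ?_
  by_cases h : P l <;> simp [mP, mQ, h]

lemma Nhat_Q {i : ι} (hi : ¬ P i) : Nhat z m i = Nhat z (mQ m P) i * NS z (mP m P) := by
  have h1 : Nhat z (mP m P) i = NS z (mP m P) := by
    rw [NS_eq z (mP m P) i]
    simp [mP, hi]
  rw [← h1, Nhat, Nhat, Nhat, ← prod_mul_distrib]
  refine prod_congr rfl fun l _ => ?_
  by_cases h : P l <;> simp [mP, mQ, h]

omit [DecidableEq ι] in
lemma sum_mP_add : ∑ i, mP m P i + ∑ i, mQ m P i = ∑ i, m i := by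
  rw [← sum_add_distrib]
  refine sum_congr rfl fun i _ => ?_
  by_cases h : P i <;> simp [mP, mQ, h]

/-- splitting of `lam` -/
lemma lam_split (p : K[X]) (F : ι → PowerSeries K) :
    lam z m p F =
      (∑ i, if mP m P i = 0 then 0 else PowerSeries.coeff (mP m P i - 1)
        (F i * (germ (z i) p * (germ (z i) (Nhat z (mP m P) i * NS z (mQ m P)))⁻¹))) +
      (∑ i, if mQ m P i = 0 then 0 else PowerSeries.coeff (mQ m P i - 1)
        (F i * (germ (z i) p * (germ (z i) (Nhat z (mQ m P) i * NS z (mP m P)))⁻¹))) := by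
  rw [lam_eq, ← sum_add_distrib]
  refine sum_congr rfl fun i _ => ?_
  by_cases h : P i
  · have e1 : mP m P i = m i := by simp [mP, h]
    have e2 : mQ m P i = 0 := by simp [mQ, h]
    rw [e2, if_pos rfl, add_zero, e1, wt, Nhat_P z m P h]
  · have e1 : mQ m P i = m i := by simp [mQ, h]
    have e2 : mP m P i = 0 := by simp [mP, h]
    rw [e2, if_pos rfl, zero_add, e1, wt, Nhat_Q z m P h]

end split

end Crest.Agent.R006.P6x121
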