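import Crest.Agent.R006.P6Germ_121
import Crest.Agent.R006.Defs

/-!
# Row 6, block P6 (prime 2): the values of `ψ` (helper121)

* `val_Z` : `2 ψ(i) = φ_K(i) - h(i) φ_K(0) + small` at every integer `i` (germs mod `ε³`);
* `val_H` : `2 ψ_*(i + 1/2) = Φ_K(i + 1/2) + small`, `i ≥ 0`.
-/

set_option autoImplicit false

namespace Crest.Agent.R006.P6x121

open Polynomial Finset Filter Crest.Agent.R006.NV Crest.Agent.R006.D

/-- germ of `φ_K = -A/H` at the integer `i` -/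
noncomputable def phiZ (K : ℕ) (i : ℤ) : PowerSeries ℚ :=
  -(gm (i : ℚ) (mq (Am 0 K)) * (gm (i : ℚ) (mq (H K)))⁻¹)

/-- germ of `Φ_K = B/D` at `i + 1/2` -/
noncomputable def phiH (K : ℕ) (i : ℤ) : PowerSeries ℚ :=
  gm ((i : ℚ) + 1 / 2) (mq (Bm 0 K)) * (gm ((i : ℚ) + 1 / 2) (mq (D K)))⁻¹

/-- the error of the recursion -/
noncomputable def eZ (K : ℕ) (i : ℤ) : PowerSeries ℚ :=
  (3 * pt (i : ℚ) + 2 + 2 * (K : PowerSeries ℚ)) * gm ((i : ℚ) + 1) (mq (Q K)) *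
    (gm ((i : ℚ) + 1) (mq (H K)))⁻¹

lemma pt_succ (s : ℚ) : pt (s + 1) = pt s + 1 := (pt_add_one s).symm

lemma rec_phiZ (K : ℕ) (i : ℤ) :
    pt ((i : ℚ) + 1) ^ 3 * phiZ K (i + 1) + (2 * pt (i : ℚ) + 1) ^ 3 * phiZ K i
      = -(3 * pt (i : ℚ) + 2) + eZ K i := by
  have h1 := congrArg (fun p => gm ((i : ℚ) + 1) (mq p)) (rec_pos K)
  have h2 := congrArg (fun p => gm ((i : ℚ) + 1) (mq p)) (H_comp K)
  simp only [mq_add, mq_sub, mq_mul, mq_pow, mq_X, mq_two, mq_three, mq_one, mq_nat, mq_comp,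
    gm_add, gm_sub, gm_mul, gm_pow, gm_X, gm_two, gm_three, gm_one, gm_nat, gm_comp_sub,
    pt_succ] at h1 h2
  have h3 := gm_H_cancel K (i + 1)
  have h4 := gm_H_cancel K i
  push_cast at h3
  rw [phiZ, phiZ, eZ]
  push_cast
  rw [pt_succ]
  set A1 := gm ((i : ℚ) + 1) (mq (Am 0 K))
  set A0 := gm (i : ℚ) (mq (Am 0 K))
  set H1 := gm ((i : ℚ) + 1) (mq (H K))
  set H0 := gm (i : ℚ) (mq (H K))
  set QQ := gm ((i : ℚ) + 1) (mq (Q K))
  set P := pt (i : ℚ)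
  set K1 := (K : PowerSeries ℚ)
  generalize H1⁻¹ = I1 at h3 ⊢
  generalize H0⁻¹ = I0 at h4 ⊢
  linear_combination (-I1) * h1 - ((2 * P + 1) * A0 * I0 * I1) * h2
    + ((2 * P + 1) ^ 3 * A0 * I0 - (2 + 3 * P)) * h3
    - ((2 * P + 1) * (2 * P + 2 * K1 + 1) ^ 2 * A0 * I1) * h4

lemma J_eZ (K : ℕ) (i : ℤ) : J K (eZ K i) := by
  have h0 : SV 0 (3 * pt (i : ℚ) + 2 + 2 * (K : PowerSeries ℚ)) := by
    have e : 3 * pt (i : ℚ) + 2 + 2 * (K : PowerSeries ℚ) =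
        gm (i : ℚ) (mq (3 * X + 2 + 2 * (K : ℤ[X]))) := by
      simp only [mq_add, mq_mul, mq_X, mq_two, mq_three, mq_nat, gm_add, gm_mul, gm_X, gm_two,
        gm_three, gm_nat]
    rw [e]; exact SV_mq_int _ i
  have h1 := J_Q K (i + 1)
  have h2 := (SV_H_inv K (i + 1)).J
  push_cast at h1 h2
  have h3 := (h0.J.mul h1).mul h2
  rw [eZ]
  rwa [zero_add, add_zero] at h3

/-- the recursion of the homogeneous germs -/
lemma rec_HomZ (i : ℤ) :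
    pt ((i : ℚ) + 1) ^ 3 * HomZ (i + 1) + (2 * pt (i : ℚ) + 1) ^ 3 * HomZ i = 0 := by
  apply bi_step (K := ℚ) (a := fun i => pt ((i : ℚ) + 1) ^ 3)
    (b := fun i => (2 * pt (i : ℚ) + 1) ^ 3)
  · intro i hi
    rw [map_pow, constantCoeff_pt]
    apply pow_ne_zero
    have : ((i + 1 : ℤ) : ℚ) ≠ 0 := by exact_mod_cast (by omega : (i + 1 : ℤ) ≠ 0)
    push_cast at this
    exact this
  · intro i hi
    rw [map_pow, map_add, map_mul, constantCoeff_pt, constantCoeff_two, map_one]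
    apply pow_ne_zero
    have : ((2 * i + 1 : ℤ) : ℚ) ≠ 0 := by exact_mod_cast (by omega : (2 * i + 1 : ℤ) ≠ 0)
    push_cast at this
    exact this

/-- the defect -/
noncomputable def dZ (K : ℕ) (i : ℤ) : PowerSeries ℚ :=
  2 * PsiZ 0 i - phiZ K i + HomZ i * phiZ K 0

lemma two_half : (2 : PowerSeries ℚ) * PowerSeries.C (1 / 2 : ℚ) = 1 := by
  have h1 : (PowerSeries.C (2 : ℚ) : PowerSeries ℚ) = 2 := map_ofNat _ 2
  rw [← h1, ← map_mul]; norm_num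

lemma rec_dZ (K : ℕ) (i : ℤ) :
    pt ((i : ℚ) + 1) ^ 3 * dZ K (i + 1) + (2 * pt (i : ℚ) + 1) ^ 3 * dZ K i = -eZ K i := by
  have h1 := (step_Z (0 : ℚ) i).psi
  have h2 := rec_phiZ K i
  have h3 := rec_HomZ i
  rw [dZ, dZ]
  linear_combination 2 * h1 - h2 + phiZ K 0 * h3 - (3 * pt (i : ℚ) + 2) * two_half

lemma dZ_zero (K : ℕ) : dZ K 0 = 0 := by
  have h1 : (PsiZ 0 0 : PowerSeries ℚ) = 0 := by rw [PsiZ_zero, map_zero]
  have h2 : HomZ 0 = 1 := rfl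
  rw [dZ, h1, h2]; ring

lemma SmP_eZ (i : ℤ) : SmP (fun K => eZ K i) :=
  SmP.of_J 0 fun K => by rw [sub_zero]; exact J_eZ K i

lemma inv_pow3 {F : PowerSeries ℚ} (h : PowerSeries.constantCoeff F ≠ 0) :
    F ^ 3 * (F ^ 3)⁻¹ = 1 :=
  PowerSeries.mul_inv_cancel _ (by rw [map_pow]; exact pow_ne_zero _ h)

theorem val_Z (i : ℤ) : SmP (fun K => dZ K i) := by
  rcases le_or_gt 0 i with h | h
  · obtain ⟨n, rfl⟩ := Int.eq_ofNat_of_zero_le h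
    clear h
    induction n with
    | zero =>
      have : (fun K => dZ K ((0 : ℕ) : ℤ)) = fun _ => 0 := by
        funext K; exact dZ_zero K
      rw [this]; exact SmP.zero
    | succ n ih =>
      have hc : PowerSeries.constantCoeff (pt (((n : ℤ) : ℚ) + 1)) ≠ 0 := by
        rw [constantCoeff_pt]
        have : (((n : ℤ) + 1 : ℤ) : ℚ) ≠ 0 := by exact_mod_cast (by omega : ((n : ℤ) + 1) ≠ 0)
        push_cast at this ⊢
        exact this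
      have hi := inv_pow3 hc
      have e : (fun K => dZ K ((n + 1 : ℕ) : ℤ)) = fun K =>
          (-(pt (((n : ℤ) : ℚ) + 1) ^ 3)⁻¹) * eZ K n +
          (-((pt (((n : ℤ) : ℚ) + 1) ^ 3)⁻¹ * (2 * pt ((n : ℤ) : ℚ) + 1) ^ 3)) * dZ K n := by
        funext K
        have h1 := rec_dZ K n
        push_cast
        linear_combination (pt (((n : ℤ) : ℚ) + 1) ^ 3)⁻¹ * h1 - dZ K ((n : ℤ) + 1) * hi
      rw [e]
      exact ((SmP_eZ n).mul_left _).add (ih.mul_left _)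
  · obtain ⟨n, rfl⟩ : ∃ n : ℕ, i = -(n : ℤ) := ⟨i.natAbs, by omega⟩
    clear h
    induction n with
    | zero =>
      have : (fun K => dZ K (-((0 : ℕ) : ℤ))) = fun _ => 0 := by
        funext K; simpa using dZ_zero K
      rw [this]; exact SmP.zero
    | succ n ih =>
      have hc : PowerSeries.constantCoeff (2 * pt (((-((n + 1 : ℕ) : ℤ) : ℤ)) : ℚ) + 1) ≠ 0 := by
        rw [map_add, map_mul, constantCoeff_pt, constantCoeff_two, map_one]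
        have : ((2 * (-((n + 1 : ℕ) : ℤ)) + 1 : ℤ) : ℚ) ≠ 0 := by
          exact_mod_cast (by omega : (2 * (-((n + 1 : ℕ) : ℤ)) + 1 : ℤ) ≠ 0)
        push_cast at this ⊢
        exact this
      have hi := inv_pow3 hc
      have e : (fun K => dZ K (-((n + 1 : ℕ) : ℤ))) = fun K =>
          (-((2 * pt (((-((n + 1 : ℕ) : ℤ) : ℤ)) : ℚ) + 1) ^ 3)⁻¹) * eZ K (-((n + 1 : ℕ) : ℤ)) +
          (-(((2 * pt (((-((n + 1 : ℕ) : ℤ) : ℤ)) : ℚ) + 1) ^ 3)⁻¹ *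
            pt ((((-((n + 1 : ℕ) : ℤ) : ℤ)) : ℚ) + 1) ^ 3)) * dZ K (-(n : ℤ)) := by
        funext K
        have h1 := rec_dZ K (-((n + 1 : ℕ) : ℤ))
        have e1 : -((n + 1 : ℕ) : ℤ) + 1 = -(n : ℤ) := by push_cast; ring
        rw [e1] at h1
        linear_combination ((2 * pt (((-((n + 1 : ℕ) : ℤ) : ℤ)) : ℚ) + 1) ^ 3)⁻¹ * h1
          - dZ K (-((n + 1 : ℕ) : ℤ)) * hi
      rw [e]
      exact ((SmP_eZ _).mul_left _).add (ih.mul_left _)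

/-! ### half-integers -/

/-- the error of the second recursion -/
noncomputable def eH (K : ℕ) (i : ℤ) : PowerSeries ℚ :=
  (3 * pt ((i : ℚ) + 1 / 2) + 2 - 2 * (K : PowerSeries ℚ)) * gm ((i : ℚ) + 1 / 2 + 1) (mq (U K)) *
    (gm ((i : ℚ) + 1 / 2) (mq (D K)))⁻¹

lemma rec_phiH (K : ℕ) (i : ℤ) :
    pt ((i : ℚ) + 1 / 2 + 1) ^ 3 * phiH K (i + 1) + (2 * pt ((i : ℚ) + 1 / 2) + 1) ^ 3 * phiH K i
      = -(3 * pt ((i : ℚ) + 1 / 2) + 2) + eH K i := by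
  have h1 := congrArg (fun p => gm ((i : ℚ) + 1 / 2 + 1) (mq p)) (rec_neg K)
  have h2 := congrArg (fun p => gm ((i : ℚ) + 1 / 2 + 1) (mq p)) (D_mul K)
  rw [← D_comp] at h1 h2
  simp only [mq_add, mq_sub, mq_mul, mq_pow, mq_X, mq_two, mq_three, mq_one, mq_nat, mq_comp,
    gm_add, gm_sub, gm_mul, gm_pow, gm_X, gm_two, gm_three, gm_one, gm_nat, gm_comp_sub,
    pt_succ] at h1 h2
  have h3 := gm_D_cancel K (i + 1)
  have h4 := gm_D_cancel K i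
  have es : (((i + 1 : ℤ) : ℚ) + 1 / 2) = (i : ℚ) + 1 / 2 + 1 := by push_cast; ring
  rw [es] at h3
  rw [phiH, phiH, eH, es, pt_succ]
  set B1 := gm ((i : ℚ) + 1 / 2 + 1) (mq (Bm 0 K))
  set B0 := gm ((i : ℚ) + 1 / 2) (mq (Bm 0 K))
  set D1 := gm ((i : ℚ) + 1 / 2 + 1) (mq (D K))
  set D0 := gm ((i : ℚ) + 1 / 2) (mq (D K))
  set UU := gm ((i : ℚ) + 1 / 2 + 1) (mq (U K))
  set P := pt ((i : ℚ) + 1 / 2)
  set K1 := (K : PowerSeries ℚ)
  generalize D1⁻¹ = I1 at h3 ⊢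
  generalize D0⁻¹ = I0 at h4 ⊢
  linear_combination I0 * h1 + ((P + 1) ^ 2 * B1 * I0 * I1) * (-1 : PowerSeries ℚ) * h2
    + ((P + 1) ^ 2 * (P + 1 - 2 * K1) * B1 * I0) * h3
    + (-((P + 1) ^ 3 * B1 * I1) - (2 + 3 * P)) * h4

lemma SV_eH (K : ℕ) (i : ℤ) : SV (4 * K - 1) (eH K i) := by
  have h0 : SV (-1) (3 * pt ((i : ℚ) + 1 / 2) + 2 - 2 * (K : PowerSeries ℚ)) := by
    have e : 3 * pt ((i : ℚ) + 1 / 2) + 2 - 2 * (K : PowerSeries ℚ) =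
        gm ((i : ℚ) + 1 / 2) (mq (3 * X + 2 - 2 * (K : ℤ[X]))) := by
      simp only [mq_add, mq_sub, mq_mul, mq_X, mq_two, mq_three, mq_nat, gm_add, gm_sub, gm_mul,
        gm_X, gm_two, gm_three, gm_nat]
    rw [e]
    have := SV_mq_half (p := 3 * X + 2 - 2 * (K : ℤ[X])) (e := 1) (by compute_degree) i
    simpa using this
  have h1 := SV_U_half K (i + 1)
  have es : (((i + 1 : ℤ) : ℚ) + 1 / 2) = (i : ℚ) + 1 / 2 + 1 := by push_cast; ring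
  rw [es] at h1
  exact ((h0.mul h1).mul (SV_D_inv K i)).mono (by omega)

lemma SmP_eH (i : ℤ) : SmP (fun K => eH K i) :=
  SmP.of_SV 1 fun K => (SV_eH K i).mono (by omega)

/-- the defect at `i + 1/2` -/
noncomputable def dH (K : ℕ) (i : ℤ) : PowerSeries ℚ := 2 * PsiH i - phiH K i

lemma rec_dH (K : ℕ) (i : ℤ) :
    pt ((i : ℚ) + 1 / 2 + 1) ^ 3 * dH K (i + 1) + (2 * pt ((i : ℚ) + 1 / 2) + 1) ^ 3 * dH K i
      = -eH K i := by
  have h1 := (step_H (K := ℚ) i).psi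
  have h2 := rec_phiH K i
  rw [dH, dH]
  linear_combination 2 * h1 - h2 - (3 * pt ((i : ℚ) + 1 / 2) + 2) * two_half

lemma half_const (n : ℕ) :
    PowerSeries.constantCoeff (pt ((((n : ℤ) - 1 : ℤ) : ℚ) + 1 / 2 + 1)) ≠ 0 := by
  rw [constantCoeff_pt]
  have : ((n : ℚ) + 1 / 2) ≠ 0 := by positivity
  push_cast
  intro h
  apply this
  linarith

theorem val_H_nat (n : ℕ) : SmP (fun K => dH K n) := by
  induction n with
  | zero =>
    have hi := inv_pow3 (half_const 0)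
    have e : (fun K => dH K ((0 : ℕ) : ℤ)) = fun K =>
        (-(pt (((((0 : ℕ) : ℤ) - 1 : ℤ) : ℚ) + 1 / 2 + 1) ^ 3)⁻¹) * eH K (((0 : ℕ) : ℤ) - 1) +
        PowerSeries.X ^ 3 * (-(8 * (pt (((((0 : ℕ) : ℤ) - 1 : ℤ) : ℚ) + 1 / 2 + 1) ^ 3)⁻¹) *
          dH K (((0 : ℕ) : ℤ) - 1)) := by
      funext K
      have h1 := rec_dH K (((0 : ℕ) : ℤ) - 1)
      have e1 : (((0 : ℕ) : ℤ) - 1 + 1) = ((0 : ℕ) : ℤ) := by norm_num
      have e2 : 2 * pt (((((0 : ℕ) : ℤ) - 1 : ℤ) : ℚ) + 1 / 2) + 1 = 2 * PowerSeries.X := by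
        rw [pt]
        have : ((((0 : ℕ) : ℤ) - 1 : ℤ) : ℚ) + 1 / 2 = -(1 / 2) := by norm_num
        rw [this, map_neg]
        linear_combination (-1 : PowerSeries ℚ) * two_half
      rw [e1, e2] at h1
      linear_combination (pt (((((0 : ℕ) : ℤ) - 1 : ℤ) : ℚ) + 1 / 2 + 1) ^ 3)⁻¹ * h1
        - dH K ((0 : ℕ) : ℤ) * hi
    rw [e]
    refine ((SmP_eH _).mul_left _).add ?_
    intro j hj
    have : (fun K => PowerSeries.coeff j (PowerSeries.X ^ 3 *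
        (-(8 * (pt (((((0 : ℕ) : ℤ) - 1 : ℤ) : ℚ) + 1 / 2 + 1) ^ 3)⁻¹) *
          dH K (((0 : ℕ) : ℤ) - 1)))) = fun _ => 0 := by
      funext K
      rw [PowerSeries.coeff_X_pow_mul', if_neg (by omega)]
    rw [this]
    exact Sm.zero
  | succ n ih =>
    have hi := inv_pow3 (half_const (n + 1))
    have es : (((((n + 1 : ℕ) : ℤ) - 1 : ℤ)) : ℚ) = ((n : ℤ) : ℚ) := by push_cast; ring
    rw [es] at hi
    have e : (fun K => dH K ((n + 1 : ℕ) : ℤ)) = fun K =>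
        (-(pt (((n : ℤ) : ℚ) + 1 / 2 + 1) ^ 3)⁻¹) * eH K n +
        (-((pt (((n : ℤ) : ℚ) + 1 / 2 + 1) ^ 3)⁻¹ * (2 * pt (((n : ℤ) : ℚ) + 1 / 2) + 1) ^ 3)) *
          dH K n := by
      funext K
      have h1 := rec_dH K n
      push_cast at h1 ⊢
      push_cast at hi
      linear_combination (pt ((n : ℚ) + 1 / 2 + 1) ^ 3)⁻¹ * h1 - dH K ((n : ℤ) + 1) * hi
    rw [e]
    exact ((SmP_eH n).mul_left _).add (ih.mul_left _)

theorem val_H {i : ℤ} (h : 0 ≤ i) : SmP (fun K => dH K i) := by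
  obtain ⟨n, rfl⟩ := Int.eq_ofNat_of_zero_le h
  exact val_H_nat n

end Crest.Agent.R006.P6x121
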