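import Crest.Agent.R006.P6Good_121
import Crest.Agent.R006.P6Val_121
import Crest.Agent.R006.BordM_89

/-!
# Row 6, block P6 (prime 2): the germ of an `R`-column at every site (helper121)

`2 (R ψ - τ(R)) = gg K + hp K + (small)`, `R = P' g_m`, at every site of the design.
-/

set_option autoImplicit false

namespace Crest.Agent.R006.P6x121

open Polynomial Finset Filter Crest.Agent.R006.Lam Crest.Agent.R006.NV Crest.Agent.R006.D
  Crest.Agent.R006.Bord Crest.Agent.R006.PsiInf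

/-- integer site? -/
def isZ : Site → Prop
  | .Z _ => True
  | .H _ => False

instance : DecidablePred isZ := fun s => by
  cases s
  · exact isTrue trivial
  · exact isFalse not_false

/-- index of a site -/
def nn : Site → ℤ
  | .Z i => i
  | .H i => i

lemma val_Z_site {s : Site} (h : isZ s) : s.val = nn s := by
  cases s
  · rfl
  · exact absurd h not_false

lemma val_H_site {s : Site} (h : ¬ isZ s) : s.val = nn s + 1 / 2 := by
  cases s
  · exact absurd trivial h
  · rfl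

variable (mi : ℕ) (P' : ℤ[X])

/-- numerator at the integer sites -/
noncomputable def GI (K : ℕ) : ℤ[X] :=
  -(P' * W mi * Am mi K) - ((P' * W mi * Bm mi K) /ₘ D K) * H K

/-- numerator at the half-integer sites -/
noncomputable def RM (K : ℕ) : ℤ[X] := (P' * W mi * Bm mi K) %ₘ D K

/-- the small polynomial part -/
noncomputable def q2 (K : ℕ) : ℤ[X] := (P' * Y mi (-K) * U K) /ₘ D K

/-- division of `R B` -/
lemma div_RB (K : ℕ) :
    (P' * g mi * Bm 0 K) /ₘ D K =
      (P' * W mi * Bm mi K) /ₘ D K + q2 mi P' K - P' * Y mi 0 ∧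
    (P' * g mi * Bm 0 K) %ₘ D K = RM mi P' K + (P' * Y mi (-K) * U K) %ₘ D K := by
  have hD := D_monic K
  have h1 := modByMonic_add_div (P' * W mi * Bm mi K) (D K)
  have h2 := modByMonic_add_div (P' * Y mi (-K) * U K) (D K)
  have h3 := A2 mi K
  refine div_modByMonic_unique _ _ hD ⟨?_, ?_⟩
  · rw [RM, q2]
    linear_combination h1 + h2 - P' * h3
  · exact (degree_add_le _ _).trans_lt (max_lt (degree_modByMonic_lt _ hD)
      (degree_modByMonic_lt _ hD))

lemma C_dvd_div {c : ℤ} {A : ℤ[X]} (h : C c ∣ A) {d : ℤ[X]} (hd : d.Monic) :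
    C c ∣ A /ₘ d ∧ C c ∣ A %ₘ d := by
  obtain ⟨B, rfl⟩ := h
  have h1 := modByMonic_add_div B d
  have h2 := div_modByMonic_unique (f := C c * B) (g := d) (C c * (B /ₘ d)) (C c * (B %ₘ d)) hd
    ⟨by linear_combination C c * h1, by
      refine lt_of_le_of_lt ?_ (degree_modByMonic_lt B hd)
      rw [← smul_eq_C_mul]
      exact degree_smul_le _ _⟩
  rw [h2.1, h2.2]
  exact ⟨dvd_mul_right _ _, dvd_mul_right _ _⟩

lemma GI_dvd (K : ℕ) : C (P6x121.wt mi) ∣ GI mi P' K := by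
  have h1 : C (P6x121.wt mi) ∣ P' * W mi * Am mi K := (Am_dvd mi K).mul_left _
  have h2 : C (P6x121.wt mi) ∣ P' * W mi * Bm mi K := (Bm_dvd mi K).mul_left _
  exact dvd_sub (dvd_neg.mpr h1) (((C_dvd_div h2 (D_monic K)).1).mul_right _)

lemma RM_dvd (K : ℕ) : C (P6x121.wt mi) ∣ RM mi P' K := by
  have h2 : C (P6x121.wt mi) ∣ P' * W mi * Bm mi K := (Bm_dvd mi K).mul_left _
  exact (C_dvd_div h2 (D_monic K)).2

lemma RM_natDegree {K : ℕ} (hK : 0 < K) : (RM mi P' K).natDegree < 2 * K := by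
  have h := natDegree_modByMonic_lt (P' * W mi * Bm mi K) (D_monic K) (by
    intro h; have := D_natDegree K; rw [h, natDegree_one] at this; omega)
  rwa [D_natDegree] at h

/-! ### small parts -/

/-- degree bound, independent of `K` -/
def ee : ℕ := P'.natDegree + 2 * mi

lemma PY_natDegree (k : ℤ) : (P' * Y mi k).natDegree ≤ ee mi P' :=
  natDegree_mul_le.trans (by have := Y_natDegree mi k; unfold ee; omega)

lemma T_q2 (K : ℕ) : T ((ee mi P' : ℤ) - 2 * K) (mq (q2 mi P' K)) := by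
  have h1 := (T.of_natDegree (PY_natDegree mi P' (-K))).mul (T_U K)
  rw [← mq_mul] at h1
  have h2 := h1.div (D K) (D_monic K)
  rw [mq_div _ _ (D_monic K), D_natDegree] at h2
  refine h2.mono ?_
  push_cast; omega

lemma q2_int_small (i : ℤ) : SmP (fun K => gm (i : ℚ) (mq (q2 mi P' K))) :=
  SmP.of_SV (ee mi P') fun K => SV_gm_int (fun k => (T_q2 mi P' K k).mono (by omega)) i

lemma q2_half_small (i : ℤ) : SmP (fun K => gm ((i : ℚ) + 1 / 2) (mq (q2 mi P' K))) :=
  SmP.of_SV (ee mi P') fun K => SV_gm_half (fun k => (T_q2 mi P' K k).mono (by omega)) i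

lemma YU_half_small (i : ℤ) : SmP (fun K => gm ((i : ℚ) + 1 / 2) (mq (P' * Y mi (-K) * U K)) *
    (gm ((i : ℚ) + 1 / 2) (mq (D K)))⁻¹) :=
  SmP.of_SV (ee mi P') fun K => by
    have h1 := (SV_mq_half (PY_natDegree mi P' (-K)) i).mul (SV_U_half K i)
    rw [← gm_mul, ← mq_mul] at h1
    exact (h1.mul (SV_D_inv K i)).mono (by omega)

lemma YN_int_small (i : ℤ) : SmP (fun K => gm (i : ℚ) (mq (P' * Y mi K * N1 K)) *
    (gm (i : ℚ) (mq (H K)))⁻¹) :=
  SmP.of_J 0 fun K => by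
    have h1 := (SV_mq_int (P' * Y mi K) i).J.mul (J_N1 K i)
    rw [← gm_mul, ← mq_mul] at h1
    have h2 := h1.mul (SV_H_inv K i).J
    rw [sub_zero]
    simpa using h2

/-! ### the decomposition -/

/-- the germ `2 (R ψ_0 - τ(R))` -/
noncomputable def F2 (s : Site) : PowerSeries ℚ :=
  2 * (gm s.val (mq (P' * g mi)) * psi0 s - gm s.val (tau (mq (P' * g mi))))

/-- the good part -/
noncomputable def gg (K : ℕ) (s : Site) : PowerSeries ℚ :=
  if isZ s then gm s.val (mq (GI mi P' K)) * (gm s.val (mq (H K)))⁻¹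
  else gm s.val (mq (RM mi P' K)) * (gm s.val (mq (D K)))⁻¹

/-- the homogeneous part -/
noncomputable def hp (K : ℕ) (s : Site) : PowerSeries ℚ :=
  -(gm s.val (mq (P' * g mi)) * psi1 s * phiZ K 0)

lemma quot_eq (K : ℕ) (s : ℚ) : gm s ((mq (P' * g mi) * mq (Bm 0 K)) /ₘ mq (D K)) =
    gm s (mq ((P' * W mi * Bm mi K) /ₘ D K)) + gm s (mq (q2 mi P' K)) - gm s (mq (P' * Y mi 0)) := by
  rw [← mq_mul, mq_div _ _ (D_monic K), (div_RB mi P' K).1, mq_sub, mq_add, gm_sub, gm_add]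

theorem dec_Z (i : ℤ) (K : ℕ) : F2 mi P' (.Z i) - gg mi P' K (.Z i) - hp mi P' K (.Z i) =
    gm (i : ℚ) (mq (P' * g mi)) * dZ K i
    + (gm (i : ℚ) (mq (P' * Y mi K * N1 K)) * (gm (i : ℚ) (mq (H K)))⁻¹
    + (-gm (i : ℚ) (mq (q2 mi P' K)) +
      (gm (i : ℚ) ((mq (P' * g mi) * mq (Bm 0 K)) /ₘ mq (D K)) -
        2 * gm (i : ℚ) (TR mu (mq (P' * g mi)))))) := by
  have h1 := congrArg (fun p => gm (i : ℚ) (mq (P' * p))) (A1 mi K)
  have h2 := quot_eq mi P' K (i : ℚ)
  have h3 := gm_H_cancel K i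
  have e1 : isZ (.Z i) := trivial
  simp only [F2, gg, hp, if_pos e1, Site.val, psi0, psi1, tau, GI, dZ, phiZ] at *
  simp only [mq_add, mq_sub, mq_neg, mq_mul, gm_add, gm_sub, gm_neg, gm_mul] at *
  rw [h2]
  generalize (gm (i : ℚ) (mq (H K)))⁻¹ = I at *
  linear_combination I * h1 +
    (-(gm (i : ℚ) (mq P') * gm (i : ℚ) (mq (Y mi 0))) +
      gm (i : ℚ) (mq ((P' * W mi * Bm mi K) /ₘ D K))) * h3

theorem dec_H (i : ℤ) (K : ℕ) : F2 mi P' (.H i) - gg mi P' K (.H i) - hp mi P' K (.H i) =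
    gm ((i : ℚ) + 1 / 2) (mq (P' * g mi)) * (2 * PsiH i - phiH K i)
    + (gm ((i : ℚ) + 1 / 2) (mq (P' * Y mi (-K) * U K)) * (gm ((i : ℚ) + 1 / 2) (mq (D K)))⁻¹
    + (-gm ((i : ℚ) + 1 / 2) (mq (q2 mi P' K)) +
      (gm ((i : ℚ) + 1 / 2) ((mq (P' * g mi) * mq (Bm 0 K)) /ₘ mq (D K)) -
        2 * gm ((i : ℚ) + 1 / 2) (TR mu (mq (P' * g mi)))))) := by
  have h3 := gm_D_cancel K i
  have e1 : ¬ isZ (.H i) := not_false
  have h4 : mq (P' * g mi * Bm 0 K) =
      mq (RM mi P' K) + mq ((P' * Y mi (-K) * U K) %ₘ D K) +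
        mq (D K) * ((mq (P' * g mi) * mq (Bm 0 K)) /ₘ mq (D K)) := by
    rw [← mq_mul (P' * g mi) (Bm 0 K), mq_div _ _ (D_monic K), ← mq_add, ← (div_RB mi P' K).2,
      ← mq_mul, ← mq_add, modByMonic_add_div]
  have h5 : mq (P' * Y mi (-K) * U K) =
      mq ((P' * Y mi (-K) * U K) %ₘ D K) + mq (D K) * mq (q2 mi P' K) := by
    rw [q2, ← mq_mul, ← mq_add, modByMonic_add_div]
  have h6 := congrArg (fun p => gm ((i : ℚ) + 1 / 2) p) h4
  have h7 := congrArg (fun p => gm ((i : ℚ) + 1 / 2) p) h5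
  simp only [F2, gg, hp, if_neg e1, Site.val, psi0, psi1, tau, phiH] at *
  simp only [mq_mul (P' * g mi) (Bm 0 K), gm_add, gm_mul (_) (mq (P' * g mi)), gm_mul (_) (mq (D K))] at *
  generalize (gm ((i : ℚ) + 1 / 2) (mq (D K)))⁻¹ = I at *
  linear_combination I * h6 - I * h7
    + (gm ((i : ℚ) + 1 / 2) ((mq (P' * g mi) * mq (Bm 0 K)) /ₘ mq (D K))
      - gm ((i : ℚ) + 1 / 2) (mq (q2 mi P' K))) * h3

/-- the remainder is small at every row -/
theorem small_site (s : Site)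
    (h0 : ∀ i : ℤ, i < 0 → s = .H i → (mq (P' * g mi)).eval s.val = 0) (j : ℕ) (hj : j < 3)
    (hj0 : ∀ i : ℤ, i < 0 → s = .H i → j = 0) :
    Sm (fun K => PowerSeries.coeff j (F2 mi P' s - gg mi P' K s - hp mi P' K s)) := by
  cases s with
  | Z i =>
    have h := ((val_Z i).mul_left (gm (i : ℚ) (mq (P' * g mi)))).add
      ((YN_int_small mi P' i).add (((q2_int_small mi P' i).neg).add
        (tau_small (i : ℚ) (mq (P' * g mi)))))
    intro E
    filter_upwards [h j hj E] with K hK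
    rw [dec_Z]
    exact hK
  | H i =>
    have h := (YU_half_small mi P' i).add (((q2_half_small mi P' i).neg).add
        (tau_small ((i : ℚ) + 1 / 2) (mq (P' * g mi))))
    have h1 : Sm (fun K => PowerSeries.coeff j
        (gm ((i : ℚ) + 1 / 2) (mq (P' * g mi)) * dH K i)) := by
      rcases lt_or_ge i 0 with hi | hi
      · have hj' := hj0 i hi rfl
        subst hj'
        have h1 := h0 i hi rfl
        have : (fun K => PowerSeries.coeff 0 (gm ((i : ℚ) + 1 / 2) (mq (P' * g mi)) * dH K i)) =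
            fun _ => 0 := by
          funext K
          rw [PowerSeries.coeff_zero_eq_constantCoeff_apply, map_mul, constantCoeff_gm]
          rw [Site.val] at h1
          rw [h1, zero_mul]
        rw [this]
        exact Sm.zero
      · exact ((val_H hi).mul_left _) j hj
    intro E
    filter_upwards [h1.add (h j hj) E] with K hK
    rw [dec_H, map_add]
    exact hK

end Crest.Agent.R006.P6x121
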