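import Crest.Agent.R006.P6Deg_121
import Crest.Agent.R006.NVChain_664

/-!
# Row 6, block P6 (prime 2): valuations of power series, small sequences (helper121)

* `V v x` : `v_2(x) ≥ v`;  `SV v F` : all coefficients `V v`;  `J v F` : `coeff j` is `V (v - j)`;
* `Sm x` : `x K → 0` 2-adically;  `SmP F` : the coefficients `0,1,2` are small.
-/

set_option autoImplicit false

namespace Crest.Agent.R006.P6x121

open Polynomial Finset Filter

/-- `v_2(x) ≥ v` -/
def V (v : ℤ) (x : ℚ) : Prop := padicNorm 2 x ≤ (2 : ℚ) ^ (-v)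

lemma V.mono {v w : ℤ} {x : ℚ} (h : V v x) (hw : w ≤ v) : V w x :=
  le_trans h (zpow_le_zpow_right₀ (by norm_num) (by omega))

lemma V.zero (v : ℤ) : V v 0 := by
  rw [V, padicNorm.zero]; positivity

lemma V.add {v : ℤ} {x y : ℚ} (hx : V v x) (hy : V v y) : V v (x + y) :=
  padicNorm.nonarchimedean.trans (max_le hx hy)

lemma V.neg {v : ℤ} {x : ℚ} (hx : V v x) : V v (-x) := by
  rw [V, padicNorm.neg]; exact hx

lemma V.sub {v : ℤ} {x y : ℚ} (hx : V v x) (hy : V v y) : V v (x - y) := by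
  rw [sub_eq_add_neg]; exact hx.add hy.neg

lemma V.mul {v w : ℤ} {x y : ℚ} (hx : V v x) (hy : V w y) : V (v + w) (x * y) := by
  rw [V, padicNorm.mul, neg_add, zpow_add₀ (by norm_num)]
  exact mul_le_mul hx hy (padicNorm.nonneg _) (by positivity)

lemma V.sum {ι : Type*} {v : ℤ} (s : Finset ι) (f : ι → ℚ) (h : ∀ i ∈ s, V v (f i)) :
    V v (∑ i ∈ s, f i) := by
  classical
  induction s using Finset.induction_on with
  | empty => simpa using V.zero v
  | insert a s ha ih =>
    rw [sum_insert ha]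
    exact (h a (mem_insert_self _ _)).add (ih fun i hi => h i (mem_insert_of_mem hi))

lemma V.int (n : ℤ) : V 0 (n : ℚ) := by
  rw [V, neg_zero, zpow_zero]; exact padicNorm.of_int n

lemma V.nat (n : ℕ) : V 0 (n : ℚ) := by
  have := V.int n; simpa using this

lemma V.one : V 0 1 := by simpa using V.nat 1

lemma pn_inv (x : ℚ) : padicNorm 2 x⁻¹ = (padicNorm 2 x)⁻¹ := by
  have := padicNorm.div (p := 2) 1 x
  rwa [padicNorm.one, one_div, one_div] at this

lemma V.two : V 1 2 := by
  have h := padicNorm.padicNorm_p_of_prime (p := 2)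
  rw [V]
  norm_num at h ⊢
  rw [h]

lemma V.two_pow (n : ℕ) : V n ((2 : ℚ) ^ n) := by
  induction n with
  | zero => simpa using V.one
  | succ n ih =>
    rw [pow_succ]
    exact (ih.mul V.two).mono (by push_cast; omega)

lemma V.of_dvd {n : ℕ} {x : ℤ} (h : (2 ^ n : ℤ) ∣ x) : V n (x : ℚ) := by
  obtain ⟨y, rfl⟩ := h
  push_cast
  have := (V.two_pow n).mul (V.int y)
  rwa [add_zero] at this

lemma V.exists (x : ℚ) : ∃ a : ℕ, V (-(a : ℤ)) x := by
  obtain ⟨a, ha⟩ := pow_unbounded_of_one_lt (padicNorm 2 x) (by norm_num : (1 : ℚ) < 2)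
  refine ⟨a, ?_⟩
  rw [V, neg_neg, zpow_natCast]
  exact ha.le

lemma V.odd_inv {w : ℤ} (hw : Odd w) : V 0 ((w : ℚ))⁻¹ := by
  have h : padicNorm 2 (w : ℚ) = 1 := by
    rw [padicNorm.int_eq_one_iff]
    intro h
    exact (Int.not_even_iff_odd.mpr hw) (even_iff_two_dvd.mpr (by exact_mod_cast h))
  rw [V, pn_inv, h]; norm_num

/-! ### power series -/

/-- all coefficients have valuation `≥ v` -/
def SV (v : ℤ) (F : PowerSeries ℚ) : Prop := ∀ j, V v (PowerSeries.coeff j F)

/-- `coeff j` has valuation `≥ v - j` -/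
def J (v : ℤ) (F : PowerSeries ℚ) : Prop := ∀ j : ℕ, V (v - j) (PowerSeries.coeff j F)

lemma SV.mono {v w : ℤ} {F : PowerSeries ℚ} (h : SV v F) (hw : w ≤ v) : SV w F :=
  fun j => (h j).mono hw

lemma SV.J {v : ℤ} {F : PowerSeries ℚ} (h : SV v F) : J v F := fun j => (h j).mono (by omega)

lemma SV.add {v : ℤ} {F G : PowerSeries ℚ} (hF : SV v F) (hG : SV v G) : SV v (F + G) :=
  fun j => by rw [map_add]; exact (hF j).add (hG j)

lemma SV.neg {v : ℤ} {F : PowerSeries ℚ} (hF : SV v F) : SV v (-F) :=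
  fun j => by rw [map_neg]; exact (hF j).neg

lemma SV.mul {v w : ℤ} {F G : PowerSeries ℚ} (hF : SV v F) (hG : SV w G) : SV (v + w) (F * G) :=
  fun j => by
    rw [PowerSeries.coeff_mul]
    exact V.sum _ _ fun x _ => (hF _).mul (hG _)

lemma J.mul {v w : ℤ} {F G : PowerSeries ℚ} (hF : J v F) (hG : J w G) : J (v + w) (F * G) :=
  fun j => by
    rw [PowerSeries.coeff_mul]
    refine V.sum _ _ fun x hx => ((hF _).mul (hG _)).mono ?_
    rw [HasAntidiagonal.mem_antidiagonal] at hx
    omega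

lemma SV.zero (v : ℤ) : SV v 0 := fun j => by rw [map_zero]; exact V.zero v

lemma SV.C {v : ℤ} {a : ℚ} (h : V v a) : SV v (PowerSeries.C a) := fun j => by
  rw [PowerSeries.coeff_C]
  split_ifs
  · exact h
  · exact V.zero v

lemma SV.one : SV 0 1 := by simpa using SV.C V.one

lemma SV.X : SV 0 PowerSeries.X := fun j => by
  rw [PowerSeries.coeff_X]
  split_ifs
  · exact V.one
  · exact V.zero 0

lemma SV.sum {ι : Type*} {v : ℤ} (s : Finset ι) (f : ι → PowerSeries ℚ) (h : ∀ i ∈ s, SV v (f i)) :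
    SV v (∑ i ∈ s, f i) := fun j => by
  rw [map_sum]; exact V.sum _ _ fun i hi => h i hi j

lemma SV.pow {v : ℤ} {F : PowerSeries ℚ} (hF : SV v F) (n : ℕ) : SV (n * v) (F ^ n) := by
  induction n with
  | zero => simpa using SV.one
  | succ n ih =>
    rw [pow_succ]
    exact (ih.mul hF).mono (by push_cast; ring_nf; omega)

lemma SV.inv {a : ℤ} {F : PowerSeries ℚ} (h : SV (-a) F)
    (hc : padicNorm 2 (PowerSeries.constantCoeff F) = 2 ^ a) : SV a F⁻¹ := by
  have hci : V a (PowerSeries.constantCoeff F)⁻¹ := by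
    rw [V, pn_inv, hc, zpow_neg]
  intro n
  induction n using Nat.strong_induction_on with
  | _ n ih =>
    rw [PowerSeries.coeff_inv]
    split_ifs with h0
    · exact hci
    · have h1 : V (a + 0) (-(PowerSeries.constantCoeff F)⁻¹ * ∑ x ∈ antidiagonal n,
          if x.2 < n then PowerSeries.coeff x.1 F * PowerSeries.coeff x.2 F⁻¹ else 0) := by
        refine hci.neg.mul (V.sum _ _ fun x _ => ?_)
        split_ifs with hx
        · exact ((h _).mul (ih _ hx)).mono (by omega)
        · exact V.zero 0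
      rwa [add_zero] at h1

/-! ### small sequences -/

/-- `x K → 0` -/
def Sm (x : ℕ → ℚ) : Prop := ∀ E : ℤ, ∀ᶠ K in atTop, V E (x K)

lemma Sm.add {x y : ℕ → ℚ} (hx : Sm x) (hy : Sm y) : Sm (fun K => x K + y K) := fun E => by
  filter_upwards [hx E, hy E] with K h1 h2 using h1.add h2

lemma Sm.neg {x : ℕ → ℚ} (hx : Sm x) : Sm (fun K => -x K) := fun E => by
  filter_upwards [hx E] with K h1 using h1.neg

lemma Sm.zero : Sm (fun _ => 0) := fun E => Eventually.of_forall fun _ => V.zero E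

lemma Sm.const_mul {x : ℕ → ℚ} (hx : Sm x) (a : ℚ) : Sm (fun K => a * x K) := fun E => by
  obtain ⟨c, hc⟩ := V.exists a
  filter_upwards [hx (E + c)] with K h1
  exact (hc.mul h1).mono (by omega)

lemma Sm.sum {ι : Type*} (s : Finset ι) (x : ι → ℕ → ℚ) (h : ∀ i ∈ s, Sm (x i)) :
    Sm (fun K => ∑ i ∈ s, x i K) := by
  classical
  induction s using Finset.induction_on with
  | empty => simpa using Sm.zero
  | insert a s ha ih =>
    simp only [sum_insert ha]
    exact (h a (mem_insert_self _ _)).add (ih fun i hi => h i (mem_insert_of_mem hi))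

lemma Sm.of_V {x : ℕ → ℚ} (a : ℤ) (h : ∀ K : ℕ, V ((K : ℤ) - a) (x K)) : Sm x := fun E => by
  filter_upwards [eventually_ge_atTop (E + a).toNat] with K hK
  exact (h K).mono (by omega)

/-- coefficients `0,1,2` are small -/
def SmP (F : ℕ → PowerSeries ℚ) : Prop := ∀ j < 3, Sm (fun K => PowerSeries.coeff j (F K))

lemma SmP.add {F G : ℕ → PowerSeries ℚ} (hF : SmP F) (hG : SmP G) : SmP (fun K => F K + G K) :=
  fun j hj => by simpa only [map_add] using (hF j hj).add (hG j hj)

lemma SmP.neg {F : ℕ → PowerSeries ℚ} (hF : SmP F) : SmP (fun K => -F K) :=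
  fun j hj => by simpa only [map_neg] using (hF j hj).neg

lemma SmP.zero : SmP (fun _ => 0) := fun j _ => by simpa only [map_zero] using Sm.zero

lemma SmP.mul_left {F : ℕ → PowerSeries ℚ} (hF : SmP F) (a : PowerSeries ℚ) :
    SmP (fun K => a * F K) := by
  intro j hj
  have h1 : Sm (fun K => ∑ x ∈ antidiagonal j,
      PowerSeries.coeff x.1 a * PowerSeries.coeff x.2 (F K)) := by
    apply Sm.sum
    intro x hx
    have hx' : x.1 + x.2 = j := by simpa using hx
    have h2 := hF x.2 (by omega)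
    exact Sm.const_mul h2 _
  have h3 : (fun K => PowerSeries.coeff j (a * F K)) = (fun K => ∑ x ∈ antidiagonal j,
      PowerSeries.coeff x.1 a * PowerSeries.coeff x.2 (F K)) := by
    funext K; rw [PowerSeries.coeff_mul]
  rw [h3]; exact h1

lemma SmP.of_J {F : ℕ → PowerSeries ℚ} (a : ℤ) (h : ∀ K : ℕ, J ((K : ℤ) - a) (F K)) : SmP F :=
  fun j hj => Sm.of_V (a + 2) fun K => (h K j).mono (by omega)

lemma SmP.of_SV {F : ℕ → PowerSeries ℚ} (a : ℤ) (h : ∀ K : ℕ, SV ((K : ℤ) - a) (F K)) : SmP F :=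
  SmP.of_J a fun K => (h K).J

lemma SmP.sum {ι : Type*} (s : Finset ι) (x : ι → ℕ → PowerSeries ℚ) (h : ∀ i ∈ s, SmP (x i)) :
    SmP (fun K => ∑ i ∈ s, x i K) := fun j hj => by
  simp only [map_sum]
  exact Sm.sum s (fun i K => PowerSeries.coeff j (x i K)) fun i hi => h i hi j hj

end Crest.Agent.R006.P6x121
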