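import Crest.Agent.R006.P6Stmt_784
import Crest.Agent.R006.Toll_814

/-!
# Row 6, block P6: the toll bound for `PB` (helper784)
-/

set_option autoImplicit false

namespace Crest.Agent.R006.P6

open Polynomial Crest.Agent.R006.ProdBound481

/-- the Gauss filtration as a `ZFil` -/
def filPB (p : ℕ) [Fact p.Prime] : Tollx814.ZFil ℚ[X] where
  F v :=
    { carrier := {P | PB p v P}
      add_mem' := fun h1 h2 => PB.add h1 h2
      zero_mem' := PB.zero v
      neg_mem' := fun h => PB.neg h }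
  anti := fun h _ hx => PB.mono hx h
  mul_mem := fun h1 h2 => PB.mul h1 h2
  one_mem := PB.one

variable {p : ℕ} [hp : Fact p.Prime]

/-- **Toll bound.** `M = X * Y` through the states `s`. -/
theorem PB_det_toll {ι S : Type*} [Fintype ι] [DecidableEq ι] [Fintype S]
    (M : Matrix ι ι ℚ[X]) (X : ι → S → ℚ[X]) (Y : S → ι → ℚ[X])
    (hM : ∀ i j, M i j = ∑ s, X i s * Y s j)
    (π E : ι → ℤ) (D σ : S → ℤ) (hσ : ∀ s, 0 ≤ σ s)
    (hX : ∀ i s, PB p (π i - D s - σ s) (X i s))
    (hY : ∀ s j, PB p (D s + E j) (Y s j)) :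
    PB p (∑ i, π i - ∑ s, σ s + ∑ j, E j) M.det := by
  have hMeq : M = Matrix.of fun i j => ∑ s, X i s * Y s j := by
    ext1 i j
    rw [Matrix.of_apply, hM]
  rw [hMeq]
  exact Tollx814.det_toll_one (filPB p) π D σ hσ X Y (∑ j, E j) hX
    (fun ψ _ => by
      have h := PB_det (p := p) (Matrix.of fun i j => Y (ψ i) j) (fun i => D (ψ i)) E
        (fun i j => hY (ψ i) j)
      rw [add_comm] at h
      exact h)

end Crest.Agent.R006.P6
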