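import Crest.Agent.R006.P6DetA_784
import Crest.Agent.R006.P6Weights_153
import Crest.Agent.R006.P6Newton_674

/-!
# Row 6, block P6 (p = 2): the record `Weights` of `P6DetA_784` (helper153)
-/

set_option autoImplicit false

namespace Crest.Agent.R006.P6

open Crest.Agent.R006.D

/-- leaf W together with (N4) -/
theorem weights_153 : Weights where
  homN := Weights.I2_HomZ
  homE := fun _ hi _ hj => Weights.coeff_HomZ_neg hi hj
  gamN := Weights.I2_GamZ
  gamE := fun _ hi _ hj => Weights.coeff_GamZ_neg hi hj
  gamE2 := fun _ hi => Weights.I2_GamZ_neg hi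
  gamH := fun _ hi _ hj => Weights.coeff_GamH_nonneg hi hj
  gamH2 := fun _ hi => Weights.I2_GamH_nonneg hi
  gamW := Weights.I2_GamH_neg
  n4 := fun i j l hj => N4 i l j hj

end Crest.Agent.R006.P6
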