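import Mathlib
import Crest.Agent.R006.ProdBound_481

/-!
Row 6, block P7 (p = 3), functional (`Λ`-matrix) form: product bound with a potential
(helper241).

If every entry satisfies `v(M i j) ≥ a i + c j - w * max 0 (dC j - dR i) - e`, then for every `mid`
`v(det M) ≥ ∑ a + ∑ c - w * (∑ max 0 (dC j - mid) + ∑ max 0 (mid - dR i)) - e * n`.
-/

set_option autoImplicit false

namespace Crest.Agent.R006.P7Pot241

open Polynomial Matrix Crest.Agent.R006.ProdBound481

variable {p : ℕ} [hp : Fact p.Prime]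

theorem PB_det_pot {n : Type*} [Fintype n] [DecidableEq n] (M : Matrix n n ℚ[X])
    (a c dR dC : n → ℤ) (w e mid : ℤ) (hw : 0 ≤ w)
    (h : ∀ i j, PB p (a i + c j - w * max 0 (dC j - dR i) - e) (M i j)) :
    PB p (∑ i, a i + ∑ j, c j - w * (∑ j, max 0 (dC j - mid) + ∑ i, max 0 (mid - dR i))
      - e * Fintype.card n) M.det := by
  have key := PB_det (p := p) M (fun i => a i - w * max 0 (mid - dR i) - e)
    (fun j => c j - w * max 0 (dC j - mid)) (fun i j => (h i j).mono (by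
      have h1 : max 0 (dC j - dR i) ≤ max 0 (mid - dR i) + max 0 (dC j - mid) := by
        apply max_le
        · exact add_nonneg (le_max_left _ _) (le_max_left _ _)
        · have h2 := le_max_right (0 : ℤ) (mid - dR i)
          have h3 := le_max_right (0 : ℤ) (dC j - mid)
          linarith
      have h2 := mul_le_mul_of_nonneg_left h1 hw
      linarith))
  refine key.mono (le_of_eq ?_)
  simp only [Finset.sum_sub_distrib, Finset.mul_sum, Finset.sum_const, Finset.card_univ,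
    nsmul_eq_mul, mul_add]
  ring

/-- `2 ∑_{i<A} max 0 (i + δ - mid) ≤ (k - mid)²` for `k = A + δ`, if `mid ≤ k` -/
theorem two_sum_col (A : ℕ) (δ mid : ℤ) (h : mid ≤ A + δ) :
    2 * ∑ i : Fin A, max 0 (((i : ℕ) : ℤ) + δ - mid) ≤ (A + δ - mid) ^ 2 := by
  rw [Fin.sum_univ_eq_sum_range (fun i => max 0 ((i : ℤ) + δ - mid)) A]
  induction A with
  | zero => simp; positivity
  | succ n ih =>
    rw [Finset.sum_range_succ, mul_add]
    push_cast at h ⊢
    rcases le_or_gt mid (n + δ) with h1 | h1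
    · have := ih h1
      rw [max_eq_right (by linarith : (0 : ℤ) ≤ (n : ℤ) + δ - mid)]
      nlinarith
    · have h2 : ∀ m ∈ Finset.range n, max 0 ((m : ℤ) + δ - mid) = 0 := by
        intro m hm
        have : (m : ℤ) < n := by exact_mod_cast Finset.mem_range.mp hm
        exact max_eq_left (by linarith)
      rw [Finset.sum_eq_zero h2, max_eq_left (by linarith : (n : ℤ) + δ - mid ≤ 0)]
      simpa using sq_nonneg (((n : ℤ) + 1 + δ - mid))

/-- `2 ∑_{j<m} max 0 (mid - (N - j)) ≤ (mid - N + m)²`, if `0 ≤ mid - N + m` -/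
theorem two_sum_row (m : ℕ) (N mid : ℤ) (h : 0 ≤ mid - N + m) :
    2 * ∑ j : Fin m, max 0 (mid - (N - ((j : ℕ) : ℤ))) ≤ (mid - N + m) ^ 2 := by
  have := two_sum_col m (mid - N) 0 (by linarith)
  have e : ∀ j : Fin m, max 0 (mid - (N - ((j : ℕ) : ℤ))) = max 0 (((j : ℕ) : ℤ) + (mid - N) - 0) := by
    intro j; congr 1; ring
  simp only [e]
  refine this.trans (le_of_eq ?_)
  ring

/-- P7, functional form: rows `j < A + K` (pole degree `N - j`), `R`-columns `i < A` of degree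
`i + δ`, `g`-columns `i < K`; `N = A + q + K`. -/
theorem PB_det_lam (A K q : ℕ) (δ : ℤ) (hq : (q : ℤ) ≤ A + δ)
    (M : Matrix (Fin (A + K)) (Fin A ⊕ Fin K) ℚ[X]) (E : (Fin A ⊕ Fin K) ≃ Fin (A + K))
    (a : Fin (A + K) → ℤ) (cR : Fin A → ℤ) (cQ : Fin K → ℤ) (w e : ℤ) (hw : 0 ≤ w)
    (hR : ∀ j i, PB p (a j + cR i -
      w * max 0 ((((i : ℕ) : ℤ) + δ) - (((A + q + K : ℕ) : ℤ) - ((j : ℕ) : ℤ))) - e) (M j (.inl i)))
    (hQ : ∀ j i, PB p (a j + cQ i - e) (M j (.inr i)))
    (V : ℤ)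
    (hV : 4 * V ≤ 4 * (∑ j, a j + ∑ i, cR i + ∑ i, cQ i) - w * ((A + δ - q) ^ 2 + 1)
      - 4 * (e * (A + K))) :
    PB p V (M.submatrix E id).det := by
  set k : ℤ := A + δ with hk
  set mid : ℤ := (k + q) / 2 with hmid
  have hm1 : 2 * mid ≤ k + q := by omega
  have hm2 : k + q ≤ 2 * mid + 1 := by omega
  have hmidk : mid ≤ k := by omega
  have hqm : (q : ℤ) ≤ mid := by omega
  have key := PB_det_pot (p := p) (M.submatrix E id) (fun x => a (E x))
    (Sum.elim cR cQ) (fun x => ((A + q + K : ℕ) : ℤ) - ((E x : ℕ) : ℤ))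
    (Sum.elim (fun i => ((i : ℕ) : ℤ) + δ) (fun _ => mid)) w e mid hw (by
      intro x y
      rcases y with y | y
      · simpa using hR (E x) y
      · refine PB.mono (hQ (E x) y) ?_
        have : 0 ≤ w * max 0 ((Sum.elim (fun i : Fin A => ((i : ℕ) : ℤ) + δ)
            (fun _ : Fin K => mid) (Sum.inr y)) - (((A + q + K : ℕ) : ℤ) - ((E x : ℕ) : ℤ))) :=
          mul_nonneg hw (le_max_left _ _)
        simp only [Sum.elim_inr] at this ⊢
        linarith)
  refine key.mono ?_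
  have e1 : ∑ x, a (E x) = ∑ j, a j := Equiv.sum_comp E a
  have e2 : ∑ x, max 0 (mid - (((A + q + K : ℕ) : ℤ) - ((E x : ℕ) : ℤ))) =
      ∑ j : Fin (A + K), max 0 (mid - (((A + q + K : ℕ) : ℤ) - ((j : ℕ) : ℤ))) :=
    Equiv.sum_comp E (fun j : Fin (A + K) =>
      max 0 (mid - (((A + q + K : ℕ) : ℤ) - ((j : ℕ) : ℤ))))
  rw [e1, e2]
  simp only [Fintype.sum_sum_type, Sum.elim_inl, Sum.elim_inr, sub_self, max_self,
    Finset.sum_const_zero, add_zero, Fintype.card_sum, Fintype.card_fin]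
  have s1 := two_sum_col A δ mid hmidk
  have s2 := two_sum_row (A + K) ((A + q + K : ℕ) : ℤ) mid (by push_cast; linarith)
  have s2' : (mid - ((A + q + K : ℕ) : ℤ) + ((A + K : ℕ) : ℤ)) ^ 2 = (mid - q) ^ 2 := by
    push_cast; ring
  rw [s2'] at s2
  rw [← hk] at s1
  have s3 : 2 * ((k - mid) ^ 2 + (mid - q) ^ 2) ≤ (k - q) ^ 2 + 1 := by
    rcases (show k + q = 2 * mid ∨ k + q = 2 * mid + 1 by omega) with h | h
    · have : k = 2 * mid - q := by linarith
      rw [this]; nlinarith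
    · have : k = 2 * mid + 1 - q := by linarith
      rw [this]; nlinarith
  have s4 : 4 * (∑ i : Fin A, max 0 (((i : ℕ) : ℤ) + δ - mid) +
      ∑ j : Fin (A + K), max 0 (mid - (((A + q + K : ℕ) : ℤ) - ((j : ℕ) : ℤ)))) ≤
      (k - q) ^ 2 + 1 := by linarith
  have s5 := mul_le_mul_of_nonneg_left s4 hw
  push_cast at hV s5 ⊢
  nlinarith

end Crest.Agent.R006.P7Pot241
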