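import Crest.Agent.R006.P8_FastSpec_799
import Crest.Agent.R006.CellTot_305

/-!
# Row 6, block P8 (helper799): `total_ge` for the fast evaluation

`StripLB`, `TotLB`: lower bounds for one strip and for a list of strips, whatever the way they have
been computed; `total_ge_LB` is `total_ge` for them; `total_ge_fast` is `total_ge` for `fastTotal`.
-/

set_option autoImplicit false

namespace Crest.Agent.R006.P8

open Filter Topology Finset

/-- `a` is a lower bound (scaled by `Sc`) of the integral of the strip -/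
def StripLB (Sc : ℤ) (bd : List (ℤ × ℤ)) (kap : List ℤ → List ℤ → ℤ) (ext : List ℤ → ℤ)
    (I : Iv) (t : List ℤ) (a : ℤ) : Prop :=
  ∃ cs : List Cell, checkStrip bd I cs = true ∧
    a ≤ intLow Sc I (alTot (kap t) cs + ext t) (jTot (kap t) cs)

/-- `T` is a lower bound of the sum over consecutive strips -/
def TotLB (Sc : ℤ) (bd : List (ℤ × ℤ)) (kap : List ℤ → List ℤ → ℤ) (ext : List ℤ → ℤ) :
    List St → ℤ → Prop
  | s :: s' :: L, T => ∃ a b, StripLB Sc bd kap ext ⟨s.u, s.v, s'.u, s'.v⟩ s.t a ∧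
      TotLB Sc bd kap ext (s' :: L) b ∧ T = a + b
  | _, T => T = 0

/-- one strip -/
theorem strip_ge_LB (Sc : ℤ) (hSc : 0 < Sc) (bd : List (ℤ × ℤ))
    (kap : List ℤ → List ℤ → ℤ) (ext : List ℤ → ℤ) (I : Iv) (t : List ℤ) (a : ℤ)
    (ha : StripLB Sc bd kap ext I t a) (C : ℝ) {δ : ℝ} (hδ : 0 < δ) :
    ((I.u0 : ℝ) / I.v0 ≤ (I.u1 : ℝ) / I.v1 ∧ 0 < (I.u0 : ℝ) / I.v0) ∧
    ∀ᶠ N : ℕ in atTop, ∀ V : ℕ → ℝ,
      (∀ p ∈ pr ((I.u0 : ℝ) / I.v0 * N) ((I.u1 : ℝ) / I.v1 * N),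
        (∑ c ∈ range p, (kap t (jvec bd N p c) : ℝ)) + ext t * N - C ≤ V p) →
      (N : ℝ) ^ 2 * ((a : ℝ) / Sc - δ)
        ≤ ∑ p ∈ pr ((I.u0 : ℝ) / I.v0 * N) ((I.u1 : ℝ) / I.v1 * N), Real.log p * V p := by
  obtain ⟨cs, hc, hae⟩ := ha
  obtain ⟨hu0, hv0, hv1, huv⟩ := Iv.ok_iff (ok_of_checkStrip hc)
  set al : ℤ := alTot (kap t) cs with hal
  set j : ℤ := jTot (kap t) cs with hj
  have hu0R : (0 : ℝ) < I.u0 := by exact_mod_cast hu0
  have hv0R : (0 : ℝ) < I.v0 := by exact_mod_cast hv0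
  have hv1R : (0 : ℝ) < I.v1 := by exact_mod_cast hv1
  have huvR : (I.u0 : ℝ) * I.v1 ≤ I.u1 * I.v0 := by exact_mod_cast huv
  have hle : (I.u0 : ℝ) / I.v0 ≤ (I.u1 : ℝ) / I.v1 := by
    rw [div_le_div_iff₀ hv0R hv1R]; exact huvR
  refine ⟨⟨hle, by positivity⟩, ?_⟩
  set P : Piece := ivPiece I (al + ext t) j with hP
  have hPlo : ((P.lo : ℚ) : ℝ) = (I.u0 : ℝ) / I.v0 := by simp [hP, ivPiece]
  have hPhi : ((P.hi : ℚ) : ℝ) = (I.u1 : ℝ) / I.v1 := by simp [hP, ivPiece]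
  have hlo0 : 0 ≤ P.lo := by
    have : (0 : ℝ) ≤ ((P.lo : ℚ) : ℝ) := by rw [hPlo]; positivity
    exact_mod_cast this
  have hlh : P.lo ≤ P.hi := by
    have : ((P.lo : ℚ) : ℝ) ≤ ((P.hi : ℚ) : ℝ) := by rw [hPlo, hPhi]; exact hle
    exact_mod_cast this
  have key := tendsto_natCast_atTop_atTop.eventually
    (P.sum_le hlo0 hlh (C + absTot (kap t) cs) hδ)
  filter_upwards [key, eventually_gt_atTop 0] with N hN hN0 V hV
  have hN0R : (0 : ℝ) < N := by exact_mod_cast hN0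
  rw [hPlo, hPhi] at hN
  have e1 := hN (fun p => -V p) ?_
  · have e2 : ∑ p ∈ pr ((I.u0 : ℝ) / I.v0 * N) ((I.u1 : ℝ) / I.v1 * N), Real.log p * -V p
        = -∑ p ∈ pr ((I.u0 : ℝ) / I.v0 * N) ((I.u1 : ℝ) / I.v1 * N), Real.log p * V p := by
      rw [← Finset.sum_neg_distrib]
      exact Finset.sum_congr rfl fun p _ => by ring
    rw [e2] at e1
    have hScR : (0 : ℝ) < Sc := by exact_mod_cast hSc
    have e3 : (a : ℝ) ≤ -(Sc * (P.I : ℝ)) := by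
      have h1 := intLow_le (Sc := Sc) hv0 hv1 (al + ext t) j
      have h2 : (a : ℚ) ≤ ((intLow Sc I (al + ext t) j : ℤ) : ℚ) := by exact_mod_cast hae
      have h3 := h2.trans h1
      exact_mod_cast h3
    have e4 : (a : ℝ) / Sc ≤ -(P.I : ℝ) := by
      rw [div_le_iff₀ hScR]; linarith
    have e5 : (N : ℝ) ^ 2 * ((a : ℝ) / Sc - δ) ≤ (N : ℝ) ^ 2 * (-(P.I : ℝ) - δ) := by
      gcongr
    linarith
  · intro p hp
    have hp' := hp
    rw [mem_pr] at hp'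
    have hV' := hV p hp
    have h0 : I.u0 * N ≤ I.v0 * p := by
      have := hp'.2.1
      rw [div_mul_eq_mul_div, div_lt_iff₀ hv0R] at this
      have h' : (I.u0 : ℝ) * N ≤ I.v0 * p := by linarith
      exact_mod_cast h'
    have h1 : I.v1 * p ≤ I.u1 * N := by
      have := hp'.2.2
      rw [div_mul_eq_mul_div, le_div_iff₀ hv1R] at this
      have h' : (I.v1 : ℝ) * p ≤ I.u1 * N := by linarith
      exact_mod_cast h'
    have h2 := classSumGe bd I cs hc (kap t) N p hN0 h0 h1 (fun c => kap t (jvec bd N p c))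
      (fun c _ => le_rfl)
    have h3 : (N : ℝ) * ((P.al : ℝ) + P.be * (p / N))
        = -((N : ℝ) * (al + ext t)) + p * j / 2 := by
      simp only [hP, ivPiece]
      push_cast
      field_simp
    rw [h3]
    linarith

theorem total_ge_LB_of (Sc : ℤ) (hSc : 0 < Sc) (bd : List (ℤ × ℤ))
    (kap : List ℤ → List ℤ → ℤ) (ext : List ℤ → ℤ) (se : St) (C : ℝ) (L : List St) :
    ∀ (s0 : St) (T : ℤ) (_ : TotLB Sc bd kap ext (s0 :: L ++ [se]) T) {δ : ℝ}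
      (_ : 0 < δ),
      ((s0.u : ℝ) / s0.v ≤ (se.u : ℝ) / se.v) ∧
      ∀ᶠ N : ℕ in atTop, ∀ V : ℕ → ℝ,
        (∀ s s' : St, [s, s'] <:+: (s0 :: L ++ [se]) →
          ∀ p ∈ pr ((s.u : ℝ) / s.v * N) ((s'.u : ℝ) / s'.v * N),
            (∑ c ∈ range p, (kap s.t (jvec bd N p c) : ℝ)) + ext s.t * N - C ≤ V p) →
        (N : ℝ) ^ 2 * ((T : ℝ) / Sc - δ)
          ≤ ∑ p ∈ pr ((s0.u : ℝ) / s0.v * N) ((se.u : ℝ) / se.v * N), Real.log p * V p := by
  induction L with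
  | nil =>
    intro s0 T hT δ hδ
    obtain ⟨a, b, ha, hb, rfl⟩ := hT
    have hb0 : b = 0 := hb
    subst hb0
    obtain ⟨⟨h1, _⟩, h2⟩ := strip_ge_LB Sc hSc bd kap ext _ _ a ha C hδ
    refine ⟨h1, ?_⟩
    filter_upwards [h2] with N hN V hV
    have := hN V (fun p hp => hV s0 se (List.infix_rfl) p hp)
    simpa using this
  | cons s1 L ih =>
    intro s0 T hT δ hδ
    obtain ⟨a, b, ha, hb, rfl⟩ := hT
    obtain ⟨⟨h1, _⟩, h2⟩ := strip_ge_LB Sc hSc bd kap ext _ _ a ha C (half_pos hδ)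
    obtain ⟨h3, h4⟩ := ih s1 b hb (half_pos hδ)
    simp only at h1 h2
    refine ⟨h1.trans h3, ?_⟩
    filter_upwards [h2, h4, eventually_ge_atTop 0] with N hN1 hN2 _ V hV
    have hNn : (0 : ℝ) ≤ N := Nat.cast_nonneg N
    have e1 := hN1 V (fun p hp => hV s0 s1 ⟨[], L ++ [se], by simp⟩ p hp)
    have e2 := hN2 V (fun s s' hss p hp => hV s s' ?_ p hp)
    · rw [← sum_pr_add (mul_le_mul_of_nonneg_right h1 hNn) (mul_le_mul_of_nonneg_right h3 hNn)]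
      push_cast
      have e3 : (N : ℝ) ^ 2 * (((a : ℝ) + b) / Sc - δ)
          = (N : ℝ) ^ 2 * ((a : ℝ) / Sc - δ / 2) + (N : ℝ) ^ 2 * ((b : ℝ) / Sc - δ / 2) := by
        ring
      linarith
    · exact hss.trans (List.infix_cons List.infix_rfl)

/-- **P8, link with P4**, for lower bounds computed in any way. -/
theorem total_ge_LB (Sc : ℤ) (hSc : 0 < Sc) (bd : List (ℤ × ℤ)) (kap : List ℤ → List ℤ → ℤ)
    (ext : List ℤ → ℤ) (s0 : St) (L : List St) (se : St) (T : ℤ)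
    (hT : TotLB Sc bd kap ext (s0 :: L ++ [se]) T) (C : ℝ) {δ : ℝ} (hδ : 0 < δ) :
    ∀ᶠ N : ℕ in atTop, ∀ V : ℕ → ℝ,
      (∀ s s' : St, [s, s'] <:+: (s0 :: L ++ [se]) →
        ∀ p ∈ pr ((s.u : ℝ) / s.v * N) ((s'.u : ℝ) / s'.v * N),
          (∑ c ∈ range p, (kap s.t (jvec bd N p c) : ℝ)) + ext s.t * N - C ≤ V p) →
      (N : ℝ) ^ 2 * ((T : ℝ) / Sc - δ)
        ≤ ∑ p ∈ pr ((s0.u : ℝ) / s0.v * N) ((se.u : ℝ) / se.v * N), Real.log p * V p :=
  (total_ge_LB_of Sc hSc bd kap ext se C L s0 T hT hδ).2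

/-- lower bounds may be cut at any strip `s` -/
theorem TotLB.append {Sc : ℤ} {bd : List (ℤ × ℤ)} {kap : List ℤ → List ℤ → ℤ}
    {ext : List ℤ → ℤ} {s : St} {L2 : List St} {b : ℤ}
    (h2 : TotLB Sc bd kap ext (s :: L2) b) :
    ∀ {L1 : List St} {a : ℤ}, TotLB Sc bd kap ext (L1 ++ [s]) a →
      TotLB Sc bd kap ext (L1 ++ s :: L2) (a + b)
  | [], a, h1 => by
    have h0 : a = 0 := h1
    subst h0
    rw [zero_add]; exact h2
  | [r], a, h1 => by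
    obtain ⟨x, y, hx, hy, rfl⟩ := h1
    have hy0 : y = 0 := hy
    subst hy0
    exact ⟨x, b, hx, h2, by ring⟩
  | r :: r' :: L1, a, h1 => by
    obtain ⟨x, y, hx, hy, rfl⟩ := h1
    have hy' : TotLB Sc bd kap ext ((r' :: L1) ++ [s]) y := hy
    have h3 := TotLB.append h2 hy'
    exact ⟨x, y + b, hx, h3, by ring⟩

/-- the fast evaluation gives a lower bound -/
theorem TotLB_of_fastTotal {Sc : ℤ} {bd : List (ℤ × ℤ)} {kap : List ℤ → List ℤ → ℤ}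
    {ext : List ℤ → ℤ} : ∀ {L : List St} {T : ℤ}, fastTotal Sc bd kap ext L = some T →
      TotLB Sc bd kap ext L T
  | [], T, h => by
    simp only [fastTotal, Option.some.injEq] at h
    exact h.symm
  | [_], T, h => by
    simp only [fastTotal, Option.some.injEq] at h
    exact h.symm
  | s :: s' :: L, T, h => by
    obtain ⟨a, b, ha, hb, hT⟩ := fastTotal_cons h
    obtain ⟨cs, h1, h2⟩ := fastStrip_spec ha
    exact ⟨a, b, ⟨cs, h1, h2.le⟩, TotLB_of_fastTotal hb, hT⟩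

/-- **P8, link with P4**, for `fastTotal`. -/
theorem total_ge_fast (Sc : ℤ) (hSc : 0 < Sc) (bd : List (ℤ × ℤ)) (kap : List ℤ → List ℤ → ℤ)
    (ext : List ℤ → ℤ) (s0 : St) (L : List St) (se : St) (T : ℤ)
    (hT : fastTotal Sc bd kap ext (s0 :: L ++ [se]) = some T) (C : ℝ) {δ : ℝ} (hδ : 0 < δ) :
    ∀ᶠ N : ℕ in atTop, ∀ V : ℕ → ℝ,
      (∀ s s' : St, [s, s'] <:+: (s0 :: L ++ [se]) →
        ∀ p ∈ pr ((s.u : ℝ) / s.v * N) ((s'.u : ℝ) / s'.v * N),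
          (∑ c ∈ range p, (kap s.t (jvec bd N p c) : ℝ)) + ext s.t * N - C ≤ V p) →
      (N : ℝ) ^ 2 * ((T : ℝ) / Sc - δ)
        ≤ ∑ p ∈ pr ((s0.u : ℝ) / s0.v * N) ((se.u : ℝ) / se.v * N), Real.log p * V p :=
  total_ge_LB Sc hSc bd kap ext s0 L se T (TotLB_of_fastTotal hT) C hδ

end Crest.Agent.R006.P8
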