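import Crest.Agent.R006.CellDefs_365

/-!
Row 6, block P8 (helper799): a faster kernel evaluation of the strip sums of `CellDefs_365`.

`fastStrip` builds the cells of one strip by ONE walk from the bottom to the top (the `j`-vector changes
in one entry at every breakpoint line) and checks only the chain of lines; `fastStrip_spec` :
`fastStrip ... = some a` gives cells `cs` with `checkStrip bd I cs = true` and
`a = intLow Sc I (alTot (kap t) cs + ext t) (jTot (kap t) cs)`.
-/

set_option autoImplicit false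

namespace Crest.Agent.R006.P8

/-- a breakpoint line of the boundary number `i` with its values at the ends of the strip -/
structure QL where
  i : ℕ
  ln : Ln
  a : ℤ
  b : ℤ
  c : ℤ

/-- the line of a boundary with least `j`-value `J` -/
def mkQL (I : Iv) (i : ℕ) (q : ℤ × ℤ) (J : ℤ) : QL :=
  ⟨i, ⟨q.1, 2 * J - 2 + q.2⟩, 2 * q.1 * I.v0 - (2 * J - 2 + q.2) * I.u0,
    2 * q.1 * I.v1 - (2 * J - 2 + q.2) * I.u1,
    (2 * q.1 * I.v0 - (2 * J - 2 + q.2) * I.u0) + (2 * q.1 * I.v1 - (2 * J - 2 + q.2) * I.u1)⟩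

/-- all lines -/
def mkQLs (I : Iv) (J : ℤ × ℤ → ℤ) : ℕ → List (ℤ × ℤ) → List QL
  | _, [] => []
  | i, q :: bd => mkQL I i q (J q) :: mkQLs I J (i + 1) bd

/-- insertion by the value at the mediant -/
def insQL (l : QL) : List QL → List QL
  | [] => [l]
  | a :: as => bif decide (l.c ≤ a.c) then l :: a :: as else a :: insQL l as

/-- insertion sort -/
def sortQL : List QL → List QL
  | [] => []
  | a :: as => insQL a (sortQL as)

/-- subtract one from the entry number `i` -/
def decAt : ℕ → List ℤ → List ℤ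
  | _, [] => []
  | 0, j :: js => (j - 1) :: js
  | i + 1, j :: js => j :: decAt i js

/-- the entry number `i` belongs to the line -/
def entOK (l : Ln) : ℕ → List (ℤ × ℤ) → List ℤ → Bool
  | 0, q :: _, j :: _ => decide (l.al = q.1) && decide (l.j = 2 * j - 2 + q.2)
  | i + 1, _ :: bd, _ :: js => entOK l i bd js
  | _, _, _ => false

/-- the cells of the walk -/
def walk : Ln → List ℤ → List QL → List Cell
  | l, js, [] => [⟨l, js⟩]
  | l, js, q :: S => ⟨l, js⟩ :: walk q.ln (decAt q.i js) S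

/-- the check of the walk; `la`, `lb` = values of the present line at the two ends -/
def chkWalk (bd : List (ℤ × ℤ)) (I : Iv) : ℤ → ℤ → List ℤ → List QL → Bool
  | la, lb, _, [] => decide (la ≤ 2 * I.u0) && decide (lb ≤ 2 * I.u1)
  | la, lb, js, q :: S => decide (la ≤ q.a) && (decide (lb ≤ q.b) &&
      (entOK q.ln q.i bd js && chkWalk bd I q.a q.b (decAt q.i js) S))

/-- both totals of the walk at once -/
def walkTot (kap : List ℤ → ℤ) : Ln → List ℤ → List QL → ℤ → ℤ → ℤ × ℤ
  | l, js, [], x, y => (x + kap js * (0 - l.al), y + kap js * (-2 - l.j))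
  | l, js, q :: S, x, y => walkTot kap q.ln (decAt q.i js) S
      (x + kap js * (q.ln.al - l.al)) (y + kap js * (q.ln.j - l.j))

/-- fast version of `stripLow` -/
def fastStrip (Sc : ℤ) (bd : List (ℤ × ℤ)) (kap : List ℤ → List ℤ → ℤ) (ext : List ℤ → ℤ)
    (I : Iv) (t : List ℤ) : Option ℤ :=
  bif I.ok && chkWalk bd I 0 0 (bd.map fun q => jst q.1 q.2 (I.v0 + I.v1) (I.u0 + I.u1) 0)
      (sortQL (mkQLs I (fun q => jst q.1 q.2 (I.v0 + I.v1) (I.u0 + I.u1) 0) 0 bd)) then
    some (intLow Sc I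
      ((walkTot (kap t) ⟨0, 0⟩ (bd.map fun q => jst q.1 q.2 (I.v0 + I.v1) (I.u0 + I.u1) 0)
        (sortQL (mkQLs I (fun q => jst q.1 q.2 (I.v0 + I.v1) (I.u0 + I.u1) 0) 0 bd)) 0 0).1 + ext t)
      (walkTot (kap t) ⟨0, 0⟩ (bd.map fun q => jst q.1 q.2 (I.v0 + I.v1) (I.u0 + I.u1) 0)
        (sortQL (mkQLs I (fun q => jst q.1 q.2 (I.v0 + I.v1) (I.u0 + I.u1) 0) 0 bd)) 0 0).2)
  else none

/-- fast version of `totalLow` -/
def fastTotal (Sc : ℤ) (bd : List (ℤ × ℤ)) (kap : List ℤ → List ℤ → ℤ) (ext : List ℤ → ℤ) :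
    List St → Option ℤ
  | [] => some 0
  | [_] => some 0
  | s :: s' :: L =>
    match fastStrip Sc bd kap ext ⟨s.u, s.v, s'.u, s'.v⟩ s.t, fastTotal Sc bd kap ext (s' :: L) with
    | some a, some b => some (a + b)
    | _, _ => none

end Crest.Agent.R006.P8
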