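import Crest.Agent.R006.P8_HintSpec_799

/-! Row 6, block P8 (helper799): correctness of the hinted strip evaluation, second part. -/

set_option autoImplicit false

namespace Crest.Agent.R006.P8

/-! ### entries and cells -/

/-- the entry is sound for the value `x` -/
def EntLE (J : ℕ) (x : ℤ) (e : Ent) : Prop :=
  64 * ((foldIt J e.its 0 e.toll).1 : ℤ) - ((foldIt J e.its 0 e.toll).2 : ℤ) ≤ x

lemma entLE_of {J : ℕ} {js : List ℤ} (h : PK J js) (o s c : Kind → ℤ) {ks : List Kind}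
    (hks : ∀ k ∈ ks, KOK js.length k) (toll x : ℤ) (hx : kindSum js o s c ks - toll ≤ x) :
    EntLE J x ⟨toll.toNat, itsOf o s c ks⟩ := by
  have h1 := foldIt_le h o s c ks hks 0 toll.toNat
  have h2 : toll ≤ (toll.toNat : ℤ) := Int.self_le_toNat _
  unfold EntLE
  simp only
  push_cast at h1
  linarith

lemma EntLE.entP {J : ℕ} {js : List ℤ} (h : PK J js) {ks : List Kind}
    (hks : ∀ k ∈ ks, KOK js.length k) {lam mu p r q x : ℤ}
    (hx : polVal ks js lam mu (p + lam + 2 + r) p (p + mu + q) ≤ x) :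
    EntLE J x (entP ks lam mu p r q) :=
  entLE_of h _ _ _ hks _ _ hx

lemma EntLE.entR {J : ℕ} {js : List ℤ} (h : PK J js) {ks : List Kind}
    (hks : ∀ k ∈ ks, KOK js.length k) {lam mu p r q x : ℤ}
    (hx : regVal ks js lam mu (p + lam - 1 + r) p (p + mu - 2 + q) ≤ x) :
    EntLE J x (entR ks lam mu p r q) :=
  entLE_of h _ _ _ hks _ _ hx

lemma EntLE.entB {J : ℕ} {js : List ℤ} (h : PK J js) {ks : List Kind}
    (hks : ∀ k ∈ ks, KOK js.length k) {lam mu p r q x : ℤ}
    (hx : regValB ks js lam mu (p + lam - 1 + r) p (p + mu - 2 + q) ≤ x) :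
    EntLE J x (entB ks lam mu p r q) :=
  entLE_of h _ _ _ hks _ _ hx

lemma nthD_mem {α : Type} {P : α → Prop} {d : α} (hd : P d) : ∀ (L : List α) (_ : ∀ e ∈ L, P e)
    (h : ℕ), P (nthD d L h)
  | [], _, _ => hd
  | a :: L, hL, 0 => hL a (List.mem_cons_self ..)
  | a :: L, hL, h + 1 =>
    nthD_mem hd L (fun e he => hL e (List.mem_cons_of_mem _ he)) h

lemma le_bestOf_default (g : ℤ → ℤ → ℤ → ℤ) : ∀ L : List ℤ, g 0 0 0 ≤ bestOf g L
  | p :: r :: q :: L => (le_bestOf_default g L).trans (le_max_right _ _)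
  | [] => le_rfl
  | [_] => le_rfl
  | [_, _] => le_rfl

lemma tabOf_mem {P : Ent → Prop} (f : ℤ → ℤ → ℤ → Ent) (g : ℤ → ℤ → ℤ → ℤ) (x : ℤ)
    (hf : ∀ p r q, g p r q ≤ x → P (f p r q)) {tl : List Ent} (htl : ∀ e ∈ tl, P e) :
    ∀ L : List ℤ, bestOf g L ≤ x → ∀ e ∈ tabOf f tl L, P e
  | p :: r :: q :: L, hx => by
    intro e he
    rw [bestOf, max_le_iff] at hx
    simp only [tabOf, List.mem_cons] at he
    rcases he with he | he
    · rw [he]; exact hf p r q hx.1
    · exact tabOf_mem f g x hf htl L hx.2 e he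
  | [], _ => by simpa [tabOf] using htl
  | [_], _ => by simpa [tabOf] using htl
  | [_, _], _ => by simpa [tabOf] using htl

/-- validity of the tables -/
structure COK (ks : List Kind) (refs : List (ℤ × List (ℕ × ℕ))) (ip m : ℕ) : Prop where
  ip : ip < m
  ks : ∀ k ∈ ks, KOK m k
  refs : ∀ r ∈ refs, ∀ q ∈ r.2, q.1 < m ∧ q.2 < m

lemma beq_true {a b : ℕ} : Nat.beq a b = true ↔ a = b := by
  constructor
  · exact Nat.eq_of_beq_eq_true
  · rintro rfl; exact Nat.beq_refl a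

/-- **a cell** -/
theorem cellH_le {ks : List Kind} {refs : List (ℤ × List (ℕ × ℕ))} {ip : ℕ} {J : ℕ} {js : List ℤ}
    (h : PK J js) (hc : COK ks refs ip js.length) {t : List ℤ} (ht : lenOK t = true) (n : ℕ) :
    ((cellH (mkTb ks refs ip t) J n).1 : ℤ) - ((cellH (mkTb ks refs ip t) J n).2 : ℤ)
      ≤ kapK ks refs ip t js := by
  match t, ht with
  | lam :: mu :: L, _ =>
    have href := ref_eq h refs hc.refs
    set T := mkTb ks refs ip (lam :: mu :: L) with hT
    have hrP : refN J T.rP = refN J (refPN refs) := refN_dropZ J _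
    have hrM : refN J T.rM = refN J (refMN refs) := refN_dropZ J _
    -- the value without the references
    have key : EntLE J (kapK ks refs ip (lam :: mu :: L) js + refSum js refs) (entOf T J n) := by
      have hip := h.get hc.ip
      have e1 : entOf T J n = cond (Nat.beq (pget J (10 * ip)) 256)
        (nthD (entP ks lam mu 0 0 0) (tabOf (entP ks lam mu) [] L) n)
        (nthD (entR ks lam mu 0 0 0)
          (tabOf (entR ks lam mu) (tabOf (entB ks lam mu) [] L) L) n) := rfl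
      rw [e1]
      by_cases hz : js.getD ip 0 = 0
      · have h1 : Nat.beq (pget J (10 * ip)) 256 = true := by rw [beq_true]; omega
        rw [h1, cond_true]
        have hk : bestOf (fun p r q => polVal ks js lam mu (p + lam + 2 + r) p (p + mu + q)) L
            ≤ kapK ks refs ip (lam :: mu :: L) js + refSum js refs := by
          rw [kapK, if_pos hz]; linarith
        refine nthD_mem (EntLE.entP h hc.ks ((le_bestOf_default
          (fun p r q => polVal ks js lam mu (p + lam + 2 + r) p (p + mu + q)) L).trans hk)) _ ?_ n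
        exact tabOf_mem _ (fun p r q => polVal ks js lam mu (p + lam + 2 + r) p (p + mu + q)) _
          (fun p r q hx => EntLE.entP h hc.ks hx) (by simp) L hk
      · have h1 : Nat.beq (pget J (10 * ip)) 256 = false := by
          cases hb : Nat.beq (pget J (10 * ip)) 256 with
          | false => rfl
          | true => rw [beq_true] at hb; omega
        rw [h1, cond_false]
        have hk : max (bestOf (fun p r q => regVal ks js lam mu (p + lam - 1 + r) p
              (p + mu - 2 + q)) L)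
            (bestOf (fun p r q => regValB ks js lam mu (p + lam - 1 + r) p (p + mu - 2 + q)) L)
            ≤ kapK ks refs ip (lam :: mu :: L) js + refSum js refs := by
          rw [kapK, if_neg hz]; linarith
        rw [max_le_iff] at hk
        refine nthD_mem (EntLE.entR h hc.ks ((le_bestOf_default
          (fun p r q => regVal ks js lam mu (p + lam - 1 + r) p (p + mu - 2 + q)) L).trans hk.1))
          _ ?_ n
        exact tabOf_mem _ (fun p r q => regVal ks js lam mu (p + lam - 1 + r) p (p + mu - 2 + q)) _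
          (fun p r q hx => EntLE.entR h hc.ks hx)
          (tabOf_mem _ (fun p r q => regValB ks js lam mu (p + lam - 1 + r) p (p + mu - 2 + q)) _
            (fun p r q hx => EntLE.entB h hc.ks hx) (by simp) L hk.2) L hk.1
    have e2 : cellH T J n = (64 * (foldIt J (entOf T J n).its 0 (entOf T J n).toll).1
        + refN J T.rM, (foldIt J (entOf T J n).its 0 (entOf T J n).toll).2 + refN J T.rP) := rfl
    unfold EntLE at key
    rw [e2, hrP, hrM]
    simp only
    push_cast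
    linarith

/-! ### lines -/

lemma decAt_length : ∀ (i : ℕ) (js : List ℤ), (decAt i js).length = js.length
  | _, [] => by simp [decAt]
  | 0, _ :: _ => rfl
  | i + 1, j :: js => by simp [decAt, decAt_length i js]

lemma getD_decAt_ne : ∀ (i k : ℕ) (js : List ℤ), i ≠ k → (decAt k js).getD i 0 = js.getD i 0
  | _, _, [], _ => by simp [decAt]
  | 0, 0, _ :: _, h => absurd rfl h
  | 0, _ + 1, _ :: _, _ => rfl
  | _ + 1, 0, _ :: _, _ => by simp [decAt]
  | i + 1, k + 1, j :: js, h => by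
    simp only [decAt, List.getD_cons_succ]
    exact getD_decAt_ne i k js (by omega)

lemma entOK_decAt_ne (l : Ln) : ∀ (i k : ℕ) (bd : List (ℤ × ℤ)) (js : List ℤ), i ≠ k →
    entOK l i bd (decAt k js) = entOK l i bd js
  | _, _, _, [], _ => by simp [decAt]
  | i, k, [], j :: js, _ => by cases i <;> cases k <;> simp [entOK, decAt]
  | 0, 0, _ :: _, _ :: _, h => absurd rfl h
  | 0, _ + 1, _ :: _, _ :: _, _ => rfl
  | _ + 1, 0, _ :: _, _ :: _, _ => rfl
  | i + 1, k + 1, q :: bd, j :: js, h => by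
    simp only [decAt, entOK]
    exact entOK_decAt_ne l i k bd js (by omega)

lemma entOK_lt {l : Ln} : ∀ (i : ℕ) (bd : List (ℤ × ℤ)) (js : List ℤ),
    entOK l i bd js = true → i < js.length
  | _, [], _, h => by simp [entOK] at h
  | 0, _ :: _, [], h => by simp [entOK] at h
  | _ + 1, _ :: _, [], h => by simp [entOK] at h
  | 0, _ :: _, _ :: _, _ => by simp
  | i + 1, _ :: bd, _ :: js, h => by
    have := entOK_lt i bd js (by simpa [entOK] using h)
    simpa using this

/-- insertion by a key -/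
def insG (w : QL → ℕ) (l : QL) : List QL → List QL
  | [] => [l]
  | a :: as => cond (Nat.ble (w l) (w a)) (l :: a :: as) (a :: insG w l as)

/-- insertion sort by a key -/
def sortG (w : QL → ℕ) : List QL → List QL
  | [] => []
  | a :: as => insG w a (sortG w as)

lemma insG_perm (w : QL → ℕ) (l : QL) : ∀ L : List QL, (insG w l L).Perm (l :: L)
  | [] => List.Perm.refl _
  | a :: as => by
    unfold insG
    cases Nat.ble (w l) (w a) with
    | true => exact List.Perm.refl _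
    | false => exact ((insG_perm w l as).cons a).trans (List.Perm.swap l a as)

lemma sortG_perm (w : QL → ℕ) : ∀ L : List QL, (sortG w L).Perm L
  | [] => List.Perm.refl _
  | a :: as => (insG_perm w a (sortG w as)).trans ((sortG_perm w as).cons a)

/-- a `ℕ`-line and its model -/
structure RelQ (u0 v0 u1 v1 : ℕ) (q : QN) (s : QL) : Prop where
  e : q.e = 1024 ^ s.i
  z0 : (q.z0 : ℤ) = s.a + (64 * v0 + 1534 * u0)
  z1 : (q.z1 : ℤ) = s.b + (64 * v1 + 1534 * u1)
  w : q.w = v1 * q.z0 + v0 * q.z1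

/-- the key -/
def keyG (u0 v0 u1 v1 : ℕ) (s : QL) : ℕ :=
  v1 * (s.a + (64 * v0 + 1534 * u0)).toNat + v0 * (s.b + (64 * v1 + 1534 * u1)).toNat

lemma RelQ.key {u0 v0 u1 v1 : ℕ} {q : QN} {s : QL} (h : RelQ u0 v0 u1 v1 q s) :
    q.w = keyG u0 v0 u1 v1 s := by
  rw [h.w, keyG, ← h.z0, ← h.z1, Int.toNat_natCast, Int.toNat_natCast]

lemma insN_cons (l a : QN) (as : List QN) :
    insN l (a :: as) = cond (Nat.ble l.w a.w) (l :: a :: as) (a :: insN l as) := rfl

lemma insN_rel {u0 v0 u1 v1 : ℕ} {l : QN} {s : QL} (h : RelQ u0 v0 u1 v1 l s) :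
    ∀ {L : List QN} {L' : List QL}, List.Forall₂ (RelQ u0 v0 u1 v1) L L' →
      List.Forall₂ (RelQ u0 v0 u1 v1) (insN l L) (insG (keyG u0 v0 u1 v1) s L')
  | _, _, List.Forall₂.nil => List.Forall₂.cons h List.Forall₂.nil
  | a :: as, b :: bs, List.Forall₂.cons h1 h2 => by
    rw [insN_cons, insG, h.key, h1.key]
    cases Nat.ble (keyG u0 v0 u1 v1 s) (keyG u0 v0 u1 v1 b) with
    | true => exact List.Forall₂.cons h (List.Forall₂.cons h1 h2)
    | false => exact List.Forall₂.cons h1 (insN_rel h h2)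

lemma sortN_rel {u0 v0 u1 v1 : ℕ} : ∀ {L : List QN} {L' : List QL},
    List.Forall₂ (RelQ u0 v0 u1 v1) L L' →
      List.Forall₂ (RelQ u0 v0 u1 v1) (sortN L) (sortG (keyG u0 v0 u1 v1) L')
  | _, _, List.Forall₂.nil => List.Forall₂.nil
  | _ :: _, _ :: _, List.Forall₂.cons h1 h2 => insN_rel h1 (sortN_rel h2)

lemma mkQNs_cons (u0 v0 u1 v1 : ℕ) (q : ℕ × ℕ) (bd : List (ℕ × ℕ)) (i e : ℕ) :
    mkQNs u0 v0 u1 v1 (q :: bd) i e = mkQN u0 v0 u1 v1 i e q.1
        (mN (jbN (v0 + v1) (u0 + u1) q.1 q.2) q.2) ::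
      mkQNs u0 v0 u1 v1 bd (i + 1) (e * 1024) := rfl

/-- validity of a boundary -/
def BOK (q : ℤ × ℤ) : Prop := -32 ≤ q.1 ∧ 0 ≤ q.2 ∧ q.2 ≤ 1

/-- the start entry -/
def JQ (u0 v0 u1 v1 : ℕ) (q : ℤ × ℤ) : ℤ :=
  (jbN (v0 + v1) (u0 + u1) (q.1 + 32).toNat q.2.toNat : ℤ) - 256

lemma jbN_bounds (N p A h : ℕ) : 1 ≤ jbN N p A h ∧ jbN N p A h < 1024 := by
  unfold jbN
  simp only [Nat.add_eq]
  have : ∀ x : ℕ, Nat.mod x 1023 < 1023 := fun x => Nat.mod_lt _ (by norm_num)
  have := this (Nat.div (Nat.sub (Nat.mul (Nat.mul 2 A) N + Nat.mul (Nat.sub 512 h) p)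
    (Nat.mul 64 N + 1)) (Nat.mul 2 p))
  omega

lemma mkQN_rel (u0 v0 u1 v1 i : ℕ) {q : ℤ × ℤ} (hq : BOK q) :
    RelQ u0 v0 u1 v1 (mkQN u0 v0 u1 v1 i (1024 ^ i) (q.1 + 32).toNat
        (mN (jbN (v0 + v1) (u0 + u1) (q.1 + 32).toNat q.2.toNat) q.2.toNat))
      (mkQL ⟨u0, v0, u1, v1⟩ i q (JQ u0 v0 u1 v1 q)) := by
  obtain ⟨h1, h2, h3⟩ := hq
  have hb := jbN_bounds (v0 + v1) (u0 + u1) (q.1 + 32).toNat q.2.toNat
  have hm : ((mN (jbN (v0 + v1) (u0 + u1) (q.1 + 32).toNat q.2.toNat) q.2.toNat : ℕ) : ℤ)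
      = 1534 - (2 * JQ u0 v0 u1 v1 q - 2 + q.2) := by
    unfold mN JQ
    simp only [Nat.sub_eq, Nat.mul_eq]
    omega
  have hA : (((q.1 + 32).toNat : ℕ) : ℤ) = q.1 + 32 := by omega
  have hz : ∀ v u : ℕ, ((zN (q.1 + 32).toNat
      (mN (jbN (v0 + v1) (u0 + u1) (q.1 + 32).toNat q.2.toNat) q.2.toNat) v u : ℕ) : ℤ)
      = (2 * q.1 * v - (2 * JQ u0 v0 u1 v1 q - 2 + q.2) * u) + (64 * v + 1534 * u) := by
    intro v u
    unfold zN
    simp only [Nat.add_eq, Nat.mul_eq]
    push_cast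
    rw [hm, hA]
    ring
  constructor
  · rfl
  · exact hz v0 u0
  · exact hz v1 u1
  · rfl

lemma mkQNs_rel (u0 v0 u1 v1 : ℕ) : ∀ (bd : List (ℤ × ℤ)) (_ : ∀ q ∈ bd, BOK q) (i : ℕ),
    List.Forall₂ (RelQ u0 v0 u1 v1) (mkQNs u0 v0 u1 v1 (bdN bd) i (1024 ^ i))
      (mkQLs ⟨u0, v0, u1, v1⟩ (JQ u0 v0 u1 v1) i bd)
  | [], _, _ => List.Forall₂.nil
  | q :: bd, h, i => by
    have e1 : bdN (q :: bd) = ((q.1 + 32).toNat, q.2.toNat) :: bdN bd := rfl
    rw [e1, mkQNs_cons, mkQLs, ← pow_succ]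
    exact List.Forall₂.cons (mkQN_rel u0 v0 u1 v1 i (h q (List.mem_cons_self ..)))
      (mkQNs_rel u0 v0 u1 v1 bd (fun q' hq' => h q' (List.mem_cons_of_mem _ hq')) (i + 1))

/-! ### invariants of the walk -/

/-- invariant of the remaining lines -/
structure Inv (bd : List (ℤ × ℤ)) (js : List ℤ) (S : List QL) : Prop where
  nd : (S.map QL.i).Nodup
  ent : ∀ q ∈ S, entOK q.ln q.i bd js = true
  pos : ∀ q ∈ S, -255 ≤ js.getD q.i 0

lemma Inv.tail {bd : List (ℤ × ℤ)} {js : List ℤ} {q : QL} {S : List QL}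
    (h : Inv bd js (q :: S)) : Inv bd (decAt q.i js) S := by
  have hnd := h.nd
  rw [List.map_cons, List.nodup_cons] at hnd
  have hne : ∀ s ∈ S, s.i ≠ q.i := by
    intro s hs he
    exact hnd.1 (by rw [← he]; exact List.mem_map_of_mem hs)
  constructor
  · exact hnd.2
  · intro s hs
    rw [entOK_decAt_ne _ _ _ _ _ (hne s hs)]
    exact h.ent s (List.mem_cons_of_mem _ hs)
  · intro s hs
    rw [getD_decAt_ne _ _ _ (hne s hs)]
    exact h.pos s (List.mem_cons_of_mem _ hs)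

lemma mkQLs_i (I : Iv) (J : ℤ × ℤ → ℤ) : ∀ (bd : List (ℤ × ℤ)) (i : ℕ),
    (mkQLs I J i bd).map QL.i = List.range' i bd.length
  | [], _ => rfl
  | q :: bd, i => by
    simp only [mkQLs, List.map_cons, List.length_cons, List.range'_succ]
    rw [mkQLs_i I J bd (i + 1)]
    rfl

lemma mkQLs_ent (I : Iv) (J : ℤ × ℤ → ℤ) (hJ : ∀ q, -255 ≤ J q) :
    ∀ (bd : List (ℤ × ℤ)) (i : ℕ), ∀ s ∈ mkQLs I J i bd,
      i ≤ s.i ∧ entOK s.ln (s.i - i) bd (bd.map J) = true ∧ -255 ≤ (bd.map J).getD (s.i - i) 0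
  | [], _, s, h => by simp [mkQLs] at h
  | q :: bd, i, s, h => by
    simp only [mkQLs, List.mem_cons] at h
    rcases h with h | h
    · subst h
      refine ⟨le_rfl, ?_, ?_⟩
      · simp [mkQL, entOK]
      · simpa [mkQL] using hJ q
    · obtain ⟨h1, h2, h3⟩ := mkQLs_ent I J hJ bd (i + 1) s h
      have e : s.i - i = (s.i - (i + 1)) + 1 := by omega
      refine ⟨by omega, ?_, ?_⟩
      · rw [e]; simpa [entOK] using h2
      · rw [e]; simpa using h3

lemma inv_start (I : Iv) (J : ℤ × ℤ → ℤ) (hJ : ∀ q, -255 ≤ J q) (bd : List (ℤ × ℤ))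
    {S : List QL} (hS : S.Perm (mkQLs I J 0 bd)) : Inv bd (bd.map J) S := by
  constructor
  · rw [(hS.map QL.i).nodup_iff, mkQLs_i]
    exact List.nodup_range'
  · intro s hs
    have := (mkQLs_ent I J hJ bd 0 s (hS.mem_iff.1 hs)).2.1
    simpa using this
  · intro s hs
    have := (mkQLs_ent I J hJ bd 0 s (hS.mem_iff.1 hs)).2.2
    simpa using this

lemma chkN_cons (t0 t1 : ℕ) (q : QN) (S : List QN) (a b : ℕ) : chkN t0 t1 (q :: S) a b =
    cond (Nat.ble a q.z0) (cond (Nat.ble b q.z1) (chkN t0 t1 S q.z0 q.z1) false) false := rfl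

lemma chkN_cons_true {t0 t1 : ℕ} {q : QN} {S : List QN} {a b : ℕ}
    (h : chkN t0 t1 (q :: S) a b = true) :
    a ≤ q.z0 ∧ b ≤ q.z1 ∧ chkN t0 t1 S q.z0 q.z1 = true := by
  rw [chkN_cons] at h
  cases h1 : Nat.ble a q.z0 with
  | false => rw [h1] at h; simp at h
  | true =>
    cases h2 : Nat.ble b q.z1 with
    | false => rw [h1, h2] at h; simp at h
    | true =>
      rw [h1, h2] at h
      exact ⟨ble_true.1 h1, ble_true.1 h2, h⟩

lemma chkN_nil_true {t0 t1 a b : ℕ} (h : chkN t0 t1 [] a b = true) : a ≤ t0 ∧ b ≤ t1 := by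
  have e : chkN t0 t1 [] a b = cond (Nat.ble a t0) (Nat.ble b t1) false := rfl
  rw [e] at h
  cases h1 : Nat.ble a t0 with
  | false => rw [h1] at h; simp at h
  | true => rw [h1] at h; exact ⟨ble_true.1 h1, ble_true.1 h⟩

/-- the `ℕ` check implies the check of the model -/
lemma chk_of_chkN {u0 v0 u1 v1 : ℕ} {bd : List (ℤ × ℤ)} :
    ∀ {S : List QN} {S' : List QL}, List.Forall₂ (RelQ u0 v0 u1 v1) S S' →
      ∀ {js : List ℤ} {a b : ℕ} {la lb : ℤ}, Inv bd js S' →
      (a : ℤ) = la + (64 * v0 + 1534 * u0) → (b : ℤ) = lb + (64 * v1 + 1534 * u1) →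
      chkN (64 * v0 + 1536 * u0) (64 * v1 + 1536 * u1) S a b = true →
      chkWalk bd ⟨u0, v0, u1, v1⟩ la lb js S' = true
  | _, _, List.Forall₂.nil, js, a, b, la, lb, _, ha, hb, h => by
    obtain ⟨h1, h2⟩ := chkN_nil_true h
    simp only [chkWalk, Bool.and_eq_true, decide_eq_true_eq]
    constructor
    · have : (a : ℤ) ≤ 64 * v0 + 1536 * u0 := by exact_mod_cast h1
      linarith
    · have : (b : ℤ) ≤ 64 * v1 + 1536 * u1 := by exact_mod_cast h2
      linarith
  | q :: S, s :: S', List.Forall₂.cons hr hR, js, a, b, la, lb, hI, ha, hb, h => by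
    obtain ⟨h1, h2, h3⟩ := chkN_cons_true h
    simp only [chkWalk, Bool.and_eq_true, decide_eq_true_eq]
    have h1' : (a : ℤ) ≤ q.z0 := by exact_mod_cast h1
    have h2' : (b : ℤ) ≤ q.z1 := by exact_mod_cast h2
    refine ⟨?_, ?_, hI.ent s (List.mem_cons_self ..),
      chk_of_chkN hR hI.tail hr.z0 hr.z1 h3⟩
    · have := hr.z0; linarith
    · have := hr.z1; linarith

/-- the walk passes `checkStrip`, for any order of the lines -/
lemma walk_checkStrip_perm (bd : List (ℤ × ℤ)) (I : Iv) (J : ℤ × ℤ → ℤ) (hI : I.ok = true)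
    (S : List QL) (hperm : S.Perm (mkQLs I J 0 bd))
    (hc : chkWalk bd I 0 0 (bd.map J) S = true) :
    checkStrip bd I (walk ⟨0, 0⟩ (bd.map J) S) = true := by
  have hbounds := (chk_bounds bd I S 0 0 _ hc).2
  have hQ : ∀ q ∈ S, QOK I q := by
    intro s hs
    obtain ⟨q, _, k, hk⟩ := mem_mkQLs I J 0 bd s (hperm.mem_iff.1 hs)
    rw [hk]; exact QOK_mkQL I k q (J q)
  have hval : ∀ q ∈ bd,
      (0 ≤ 2 * q.1 * I.v0 - (2 * J q - 2 + q.2) * I.u0 ∧
        2 * q.1 * I.v0 - (2 * J q - 2 + q.2) * I.u0 ≤ 2 * I.u0) ∧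
      (0 ≤ 2 * q.1 * I.v1 - (2 * J q - 2 + q.2) * I.u1 ∧
        2 * q.1 * I.v1 - (2 * J q - 2 + q.2) * I.u1 ≤ 2 * I.u1) := by
    intro q hq
    obtain ⟨k, hk⟩ := mkQLs_mem I J 0 bd q hq
    exact hbounds _ (hperm.mem_iff.2 hk)
  have hL : LowP I ⟨0, 0⟩ bd (bd.map J) := by
    unfold LowP
    rw [List.forall₂_map_right_iff, List.forall₂_same]
    intro q hq
    rw [le2_iff]
    have := hval q hq
    simp only [Ln.v]
    constructor
    · have := this.1.2
      linarith
    · have := this.2.2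
      linarith
  have hfold : S.foldl (fun js q => decAt q.i js) (bd.map J) = bd.map fun q => J q - 1 := by
    have h1 := hperm.foldl_eq' (f := fun js (q : QL) => decAt q.i js)
      (fun x _ y _ z => decAt_comm y.i x.i z) (bd.map J)
    rw [h1]
    have := foldl_mkQLs I J bd []
    simpa using this
  have hU : UpP I topLn bd (S.foldl (fun js q => decAt q.i js) (bd.map J)) := by
    rw [hfold]
    unfold UpP
    rw [List.forall₂_map_right_iff, List.forall₂_same]
    intro q hq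
    rw [le2_iff]
    have := hval q hq
    simp only [Ln.v, topLn]
    constructor
    · have := this.1.1
      linarith
    · have := this.2.1
      linarith
  have h0 : ∀ N p : ℤ, (0 : ℤ) = (⟨0, 0⟩ : Ln).v N p := by intro N p; simp [Ln.v]
  have hw := walk_check bd I S ⟨0, 0⟩ 0 0 (bd.map J) (h0 _ _) (h0 _ _) hQ hc hL hU
  rw [walk_eq]
  simp only [checkStrip]
  rw [← walk_eq]
  simp [hI, hw.1]

/-! ### the sums -/

/-- weight of a line -/
def Wl (u0 v0 u1 v1 : ℕ) (l : Ln) : ℤ :=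
  4 * l.al * (v0 * v1) - l.j * (u0 * v1 + u1 * v0)

lemma walkN_cons (T : Tb) (wt : ℕ) (q : QN) (S : List QN) (J w code sp sm : ℕ) :
    walkN T wt (q :: S) J w code sp sm = walkN T wt S (J - q.e) q.w (code / 64)
      (sp + (cellH T J (code % 64)).1 * (q.w - w)) (sm + (cellH T J (code % 64)).2 * (q.w - w)) :=
  rfl

lemma walkN_nil (T : Tb) (wt : ℕ) (J w code sp sm : ℕ) :
    walkN T wt [] J w code sp sm = (sp + (cellH T J (code % 64)).1 * (wt - w),
      sm + (cellH T J (code % 64)).2 * (wt - w)) := rfl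

lemma walkN_le (T : Tb) (kap : List ℤ → ℤ) (n : ℕ) (hn : ∀ J js h, PK J js → js.length = n →
      ((cellH T J h).1 : ℤ) - ((cellH T J h).2 : ℤ) ≤ kap js)
    {u0 v0 u1 v1 : ℕ} {bd : List (ℤ × ℤ)} :
    ∀ {S : List QN} {S' : List QL}, List.Forall₂ (RelQ u0 v0 u1 v1) S S' →
      (∀ s ∈ S', QOK ⟨u0, v0, u1, v1⟩ s) →
      ∀ (l : Ln) (J : ℕ) (js : List ℤ) (a b code sp sm : ℕ), PK J js → js.length = n →
      Inv bd js S' → (a : ℤ) = l.v v0 u0 + (64 * v0 + 1534 * u0) →
      (b : ℤ) = l.v v1 u1 + (64 * v1 + 1534 * u1) →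
      chkN (64 * v0 + 1536 * u0) (64 * v1 + 1536 * u1) S a b = true →
      ((walkN T (v1 * (64 * v0 + 1536 * u0) + v0 * (64 * v1 + 1536 * u1)) S J
          (v1 * a + v0 * b) code sp sm).1 : ℤ)
        - ((walkN T (v1 * (64 * v0 + 1536 * u0) + v0 * (64 * v1 + 1536 * u1)) S J
          (v1 * a + v0 * b) code sp sm).2 : ℤ)
        ≤ (sp - sm) + (4 * alTot kap (walk l js S') * (v0 * v1)
          - jTot kap (walk l js S') * (u0 * v1 + u1 * v0))
  | _, _, List.Forall₂.nil, _, l, J, js, a, b, code, sp, sm, hP, hl, _, ha, hb, h => by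
    obtain ⟨h1, h2⟩ := chkN_nil_true h
    have hc := hn J js (code % 64) hP hl
    rw [walkN_nil]
    simp only [walk, alTot, jTot, nextLn, topLn]
    have hle : v1 * a + v0 * b ≤ v1 * (64 * v0 + 1536 * u0) + v0 * (64 * v1 + 1536 * u1) :=
      Nat.add_le_add (Nat.mul_le_mul_left _ h1) (Nat.mul_le_mul_left _ h2)
    push_cast [Nat.cast_sub hle]
    have hw : (0 : ℤ) ≤ ((v1 : ℤ) * (64 * v0 + 1536 * u0) + v0 * (64 * v1 + 1536 * u1))
        - (v1 * a + v0 * b) := by
      have : ((v1 * a + v0 * b : ℕ) : ℤ)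
        ≤ ((v1 * (64 * v0 + 1536 * u0) + v0 * (64 * v1 + 1536 * u1) : ℕ) : ℤ) := by
        exact_mod_cast hle
      push_cast at this
      linarith
    have hmul := mul_le_mul_of_nonneg_right hc hw
    have e : ((v1 : ℤ) * (64 * v0 + 1536 * u0) + v0 * (64 * v1 + 1536 * u1))
        - (v1 * a + v0 * b) = 4 * (0 - l.al) * (v0 * v1) - (-2 - l.j) * (u0 * v1 + u1 * v0) := by
      rw [ha, hb]
      simp only [Ln.v]
      ring
    rw [e] at hmul ⊢
    nlinarith
  | q :: S, s :: S', List.Forall₂.cons hr hR, hQ, l, J, js, a, b, code, sp, sm, hP, hl, hI,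
      ha, hb, h => by
    obtain ⟨h1, h2, h3⟩ := chkN_cons_true h
    have hc := hn J js (code % 64) hP hl
    have hs := hQ s (List.mem_cons_self ..)
    have hlt := entOK_lt _ _ _ (hI.ent s (List.mem_cons_self ..))
    have hP' : PK (J - q.e) (decAt s.i js) := by
      rw [hr.e]
      exact hP.dec hlt (hI.pos s (List.mem_cons_self ..))
    have hz0 : (q.z0 : ℤ) = s.ln.v v0 u0 + (64 * v0 + 1534 * u0) := by
      rw [hr.z0, hs.1]
    have hz1 : (q.z1 : ℤ) = s.ln.v v1 u1 + (64 * v1 + 1534 * u1) := by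
      rw [hr.z1, hs.2]
    have ih := walkN_le T kap n hn hR (fun s' hs' => hQ s' (List.mem_cons_of_mem _ hs')) s.ln
      (J - q.e) (decAt s.i js) q.z0 q.z1 (code / 64)
      (sp + (cellH T J (code % 64)).1 * (q.w - (v1 * a + v0 * b)))
      (sm + (cellH T J (code % 64)).2 * (q.w - (v1 * a + v0 * b)))
      hP' (by rw [decAt_length]; exact hl) hI.tail hz0 hz1 h3
    rw [walkN_cons]
    rw [← hr.w] at ih
    refine ih.trans ?_
    have hle : v1 * a + v0 * b ≤ q.w := by
      rw [hr.w]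
      exact Nat.add_le_add (Nat.mul_le_mul_left _ h1) (Nat.mul_le_mul_left _ h2)
    have hn' : nextLn (walk s.ln (decAt s.i js) S') = s.ln := by rw [walk_eq]; rfl
    simp only [walk, alTot, jTot]
    rw [hn']
    have hqw : (q.w : ℤ) = v1 * q.z0 + v0 * q.z1 := by exact_mod_cast hr.w
    push_cast [Nat.cast_sub hle]
    have hw : (0 : ℤ) ≤ (q.w : ℤ) - (v1 * a + v0 * b) := by
      have : ((v1 * a + v0 * b : ℕ) : ℤ) ≤ (q.w : ℤ) := by exact_mod_cast hle
      push_cast at this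
      linarith
    have hmul := mul_le_mul_of_nonneg_right hc hw
    have e : (q.w : ℤ) - (v1 * a + v0 * b)
        = 4 * (s.ln.al - l.al) * (v0 * v1) - (s.ln.j - l.j) * (u0 * v1 + u1 * v0) := by
      rw [hqw, ha, hb, hz0, hz1]
      simp only [Ln.v]
      ring
    rw [e] at hmul ⊢
    nlinarith

end Crest.Agent.R006.P8
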