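import Crest.Agent.R006.P8_Hint_799
import Crest.Agent.R006.P8_FastTot_799

/-! Row 6, block P8 (helper799): correctness of the hinted all-`ℕ` strip evaluation. -/

set_option autoImplicit false

namespace Crest.Agent.R006.P8

/-! ### packed vectors -/

/-- the packed value -/
def pkL : List ℕ → ℕ
  | [] => 0
  | a :: l => a + 1024 * pkL l

lemma pget_eq (J s : ℕ) : pget J s = (J >>> s) % 1024 := rfl

lemma pget_pkL : ∀ (l : List ℕ) (_ : ∀ a ∈ l, a < 1024) (i : ℕ),
    pget (pkL l) (10 * i) = l.getD i 0
  | [], _, i => by simp [pget_eq, pkL]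
  | a :: l, h, 0 => by
    have ha := h a (List.mem_cons_self ..)
    simp only [pget_eq, pkL, mul_zero, Nat.shiftRight_zero, List.getD_cons_zero]
    omega
  | a :: l, h, i + 1 => by
    have ha := h a (List.mem_cons_self ..)
    have ih := pget_pkL l (fun b hb => h b (List.mem_cons_of_mem _ hb)) i
    rw [List.getD_cons_succ, ← ih, pget_eq, pget_eq, pkL]
    congr 1
    rw [Nat.shiftRight_eq_div_pow, Nat.shiftRight_eq_div_pow, show 10 * (i + 1) = 10 + 10 * i by ring,
      pow_add, ← Nat.div_div_eq_div_mul]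
    congr 1
    omega

/-- entry minus one -/
def decL : ℕ → List ℕ → List ℕ
  | _, [] => []
  | 0, a :: l => (a - 1) :: l
  | i + 1, a :: l => a :: decL i l

lemma pkL_decL : ∀ (i : ℕ) (l : List ℕ), i < l.length → 1 ≤ l.getD i 0 →
    pkL l = pkL (decL i l) + 1024 ^ i
  | _, [], h, _ => by simp at h
  | 0, a :: l, _, h => by
    simp only [List.getD_cons_zero] at h
    simp only [decL, pkL, pow_zero]
    omega
  | i + 1, a :: l, h, h1 => by
    have ih := pkL_decL i l (by simpa using h) (by simpa using h1)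
    simp only [decL, pkL]
    rw [ih]
    ring

lemma decL_lt : ∀ (i : ℕ) (l : List ℕ), (∀ a ∈ l, a < 1024) → ∀ a ∈ decL i l, a < 1024
  | _, [], _ => by simp [decL]
  | 0, b :: l, h => by
    intro a ha
    simp only [decL, List.mem_cons] at ha
    rcases ha with ha | ha
    · have := h b (List.mem_cons_self ..); omega
    · exact h a (List.mem_cons_of_mem _ ha)
  | i + 1, b :: l, h => by
    intro a ha
    simp only [decL, List.mem_cons] at ha
    rcases ha with ha | ha
    · rw [ha]; exact h b (List.mem_cons_self ..)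
    · exact decL_lt i l (fun c hc => h c (List.mem_cons_of_mem _ hc)) a ha

/-- `J` is the packed vector `js` -/
def PK (J : ℕ) (js : List ℤ) : Prop :=
  ∃ l : List ℕ, J = pkL l ∧ (∀ a ∈ l, a < 1024) ∧ js = l.map fun a : ℕ => (a : ℤ) - 256

lemma getD_map_sub : ∀ (l : List ℕ) (i : ℕ), i < l.length →
    (l.map fun a : ℕ => (a : ℤ) - 256).getD i 0 = (l.getD i 0 : ℕ) - 256
  | [], _, h => by simp at h
  | a :: l, 0, _ => by simp
  | a :: l, i + 1, h => by
    have := getD_map_sub l i (by simpa using h)
    simpa using this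

lemma PK.get {J : ℕ} {js : List ℤ} (h : PK J js) {i : ℕ} (hi : i < js.length) :
    ((pget J (10 * i) : ℕ) : ℤ) = js.getD i 0 + 256 := by
  obtain ⟨l, rfl, h1, rfl⟩ := h
  rw [pget_pkL l h1 i, getD_map_sub l i (by simpa using hi)]
  ring

lemma decL_map : ∀ (i : ℕ) (l : List ℕ), i < l.length → 1 ≤ l.getD i 0 →
    (decL i l).map (fun a : ℕ => (a : ℤ) - 256) = decAt i (l.map fun a : ℕ => (a : ℤ) - 256)
  | _, [], h, _ => by simp at h
  | 0, a :: l, _, h => by
    simp only [List.getD_cons_zero] at h
    simp only [decL, List.map_cons, decAt]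
    congr 1
    push_cast [Nat.cast_sub h]
    ring
  | i + 1, a :: l, h, h1 => by
    have ih := decL_map i l (by simpa using h) (by simpa using h1)
    simp only [decL, List.map_cons, decAt, ih]

lemma PK.dec {J : ℕ} {js : List ℤ} (h : PK J js) {i : ℕ} (hi : i < js.length)
    (h1 : -255 ≤ js.getD i 0) : PK (J - 1024 ^ i) (decAt i js) := by
  obtain ⟨l, rfl, h2, rfl⟩ := h
  have hi' : i < l.length := by simpa using hi
  rw [getD_map_sub l i hi'] at h1
  have h3 : 1 ≤ l.getD i 0 := by omega
  refine ⟨decL i l, ?_, decL_lt i l h2, (decL_map i l hi' h3).symm⟩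
  rw [pkL_decL i l hi' h3]
  omega

/-! ### losses -/

lemma lossN_ge (D : ℤ) : 64 - D ≤ (lossN D : ℤ) := Int.self_le_toNat _

lemma loss_mul (n : ℕ) (D : ℤ) : (n : ℤ) * (64 - (lossN D : ℤ)) ≤ n * D :=
  mul_le_mul_of_nonneg_left (by have := lossN_ge D; linarith) (by positivity)

/-- validity of a kind -/
structure KOK (m : ℕ) (k : Kind) : Prop where
  a : k.ia < m
  b : k.ib < m
  c : k.ca < m
  d : k.cb < m
  j : -256 ≤ k.j0
  cj : -256 ≤ k.cj

/-- the contribution of a kind -/
def kterm (js : List ℤ) (o s c : Kind → ℤ) (k : Kind) : ℤ :=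
  if js.getD k.ib 0 ≤ js.getD k.ia 0 then 0
  else if js.getD k.ia 0 ≤ k.j0 ∧ k.j0 < js.getD k.ib 0 then
    (js.getD k.ib 0 - js.getD k.ia 0 - 1) * o k + (if k.cond js then c k else s k)
  else (js.getD k.ib 0 - js.getD k.ia 0) * o k

lemma kindSum_cons (js : List ℤ) (o s c : Kind → ℤ) (k : Kind) (ks : List Kind) :
    kindSum js o s c (k :: ks) = kterm js o s c k + kindSum js o s c ks := by
  simp only [kindSum, kterm]
  split_ifs <;> ring

/-- the item of a kind -/
def itK (o s c : Kind → ℤ) (k : Kind) : It :=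
  ⟨10 * k.ia, 10 * k.ib, (k.j0 + 256).toNat, (k.j0 + 257).toNat,
      10 * k.ca, 10 * k.cb, (k.cj + 256).toNat, (k.cj + 257).toNat,
      lossN (o k), lossN (s k), lossN (c k)⟩

lemma ble_true {a b : ℕ} : Nat.ble a b = true ↔ a ≤ b := by
  rw [Nat.ble_eq]

lemma ble_false {a b : ℕ} : Nat.ble a b = false ↔ b < a := by
  rw [← Bool.not_eq_true, Nat.ble_eq, not_le]

lemma itLoss_le {J : ℕ} {js : List ℤ} (h : PK J js) (o s c : Kind → ℤ) {k : Kind}
    (hk : KOK js.length k) :
    64 * ((Nat.sub (pget J (10 * k.ib)) (pget J (10 * k.ia)) : ℕ) : ℤ)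
      - (itLoss J (itK o s c k) : ℤ) ≤ kterm js o s c k := by
  have hU := h.get hk.a
  have hV := h.get hk.b
  have hA := h.get hk.c
  have hB := h.get hk.d
  have hj := hk.j
  have hcj := hk.cj
  unfold itLoss itK kterm
  simp only
  generalize pget J (10 * k.ia) = U at *
  generalize pget J (10 * k.ib) = V at *
  generalize pget J (10 * k.ca) = A at *
  generalize pget J (10 * k.cb) = B at *
  simp only [Nat.sub_eq, Nat.add_eq, Nat.mul_eq]
  have ho := loss_mul (V - U) (o k)
  by_cases c0 : js.getD k.ib 0 ≤ js.getD k.ia 0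
  · have hn : V - U = 0 := by omega
    rw [if_pos c0, hn]
    cases h1 : Nat.ble U (k.j0 + 256).toNat with
    | false => simp
    | true =>
      cases h2 : Nat.ble (k.j0 + 257).toNat V with
      | false => simp
      | true =>
        exfalso
        rw [ble_true] at h1 h2
        omega
  · rw [if_neg c0]
    by_cases c1 : js.getD k.ia 0 ≤ k.j0 ∧ k.j0 < js.getD k.ib 0
    · rw [if_pos c1]
      have h1 : Nat.ble U (k.j0 + 256).toNat = true := by rw [ble_true]; omega
      have h2 : Nat.ble (k.j0 + 257).toNat V = true := by rw [ble_true]; omega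
      rw [h1, h2]
      simp only [cond_true]
      have hn : ((V - U - 1 : ℕ) : ℤ) = js.getD k.ib 0 - js.getD k.ia 0 - 1 := by omega
      have hn' : ((V - U : ℕ) : ℤ) = (V - U - 1 : ℕ) + 1 := by omega
      have ho' := loss_mul (V - U - 1) (o k)
      have key : ((cond (Nat.ble A (k.cj + 256).toNat)
          (cond (Nat.ble (k.cj + 257).toNat B) (lossN (c k)) (lossN (s k))) (lossN (s k)) : ℕ) : ℤ)
          ≥ 64 - (if k.cond js then c k else s k) := by
        by_cases c2 : k.cond js = true
        · rw [if_pos c2]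
          unfold Kind.cond at c2
          rw [Bool.and_eq_true, decide_eq_true_eq, decide_eq_true_eq] at c2
          have h3 : Nat.ble A (k.cj + 256).toNat = true := by rw [ble_true]; omega
          have h4 : Nat.ble (k.cj + 257).toNat B = true := by rw [ble_true]; omega
          rw [h3, h4]
          simp only [cond_true]
          exact lossN_ge _
        · rw [if_neg c2]
          unfold Kind.cond at c2
          rw [Bool.and_eq_true, decide_eq_true_eq, decide_eq_true_eq] at c2
          cases h3 : Nat.ble A (k.cj + 256).toNat with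
          | false => simp only [cond_false]; exact lossN_ge _
          | true =>
            cases h4 : Nat.ble (k.cj + 257).toNat B with
            | false => simp only [cond_true, cond_false]; exact lossN_ge _
            | true =>
              exfalso
              rw [ble_true] at h3 h4
              omega
      rw [hn']
      push_cast
      rw [hn] at ho' ⊢
      nlinarith
    · rw [if_neg c1]
      have hn : ((V - U : ℕ) : ℤ) = js.getD k.ib 0 - js.getD k.ia 0 := by omega
      have hE : ∀ X : ℕ, cond (Nat.ble U (k.j0 + 256).toNat)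
          (cond (Nat.ble (k.j0 + 257).toNat V) X ((V - U) * lossN (o k)))
          ((V - U) * lossN (o k)) = (V - U) * lossN (o k) := by
        intro X
        cases h1 : Nat.ble U (k.j0 + 256).toNat with
        | false => rfl
        | true =>
          cases h2 : Nat.ble (k.j0 + 257).toNat V with
          | false => rfl
          | true =>
            exfalso
            rw [ble_true] at h1 h2
            omega
      rw [hE]
      push_cast
      rw [hn] at ho ⊢
      linarith

lemma foldIt_le {J : ℕ} {js : List ℤ} (h : PK J js) (o s c : Kind → ℤ) :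
    ∀ (ks : List Kind) (_ : ∀ k ∈ ks, KOK js.length k) (n e : ℕ),
      64 * ((foldIt J (itsOf o s c ks) n e).1 : ℤ) - ((foldIt J (itsOf o s c ks) n e).2 : ℤ)
        ≤ 64 * n - e + kindSum js o s c ks
  | [], _, n, e => by
    show 64 * (n : ℤ) - e ≤ 64 * n - e + 0
    linarith
  | k :: ks, hk, n, e => by
    have h1 := itLoss_le h o s c (hk k (List.mem_cons_self ..))
    have h2 := foldIt_le h o s c ks (fun k' hk' => hk k' (List.mem_cons_of_mem _ hk'))
      (Nat.add n (Nat.sub (pget J (10 * k.ib)) (pget J (10 * k.ia))))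
      (Nat.add e (itLoss J (itK o s c k)))
    rw [kindSum_cons]
    have h3 : foldIt J (itsOf o s c (k :: ks)) n e = foldIt J (itsOf o s c ks)
      (Nat.add n (Nat.sub (pget J (10 * k.ib)) (pget J (10 * k.ia))))
      (Nat.add e (itLoss J (itK o s c k))) := rfl
    rw [h3]
    refine h2.trans ?_
    simp only [Nat.add_eq]
    push_cast
    linarith

/-! ### references -/

lemma sumB_sub_sumA {J : ℕ} {js : List ℤ} (h : PK J js) : ∀ (L : List (ℕ × ℕ))
    (_ : ∀ q ∈ L, q.1 < js.length ∧ q.2 < js.length),
    ((sumB J (winN L) : ℕ) : ℤ) - (sumA J (winN L) : ℕ) = cntSum js L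
  | [], _ => by simp [sumA, sumB, winN, cntSum]
  | q :: L, hL => by
    have ih := sumB_sub_sumA h L (fun q' hq' => hL q' (List.mem_cons_of_mem _ hq'))
    have hq := hL q (List.mem_cons_self ..)
    have h1 := h.get hq.1
    have h2 := h.get hq.2
    have e1 : sumB J (winN (q :: L)) = pget J (10 * q.2) + sumB J (winN L) := rfl
    have e2 : sumA J (winN (q :: L)) = pget J (10 * q.1) + sumA J (winN L) := rfl
    rw [e1, e2, cntSum]
    push_cast
    linarith

lemma tri_eq (B A : ℕ) (x : ℤ) (h : ((B : ℕ) : ℤ) - (A : ℕ) = x) :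
    tri (x - 1) = (((B - A) * (B - A - 1) / 2 : ℕ) : ℤ) := by
  unfold tri
  congr 1
  subst h
  rcases le_or_gt B A with h1 | h1
  · have e1 : B - A = 0 := by omega
    have e2 : ((B : ℤ) - A - 1).toNat = 0 := by omega
    rw [e1, e2]
  · have e2 : ((B : ℤ) - A - 1).toNat = B - A - 1 := by omega
    have e3 : B - A - 1 + 1 = B - A := by omega
    rw [e2, e3, mul_comm]

lemma refN_cons (J : ℕ) (a : ℕ × List (ℕ × ℕ)) (L : List (ℕ × List (ℕ × ℕ))) :
    refN J (a :: L) = a.1 * ((sumB J a.2 - sumA J a.2) * (sumB J a.2 - sumA J a.2 - 1) / 2)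
      + refN J L := rfl

lemma refN_dropZ (J : ℕ) : ∀ L : List (ℕ × List (ℕ × ℕ)), refN J (dropZ L) = refN J L
  | [] => rfl
  | a :: L => by
    have ih := refN_dropZ J L
    unfold dropZ at *
    rw [List.filter_cons]
    rcases Nat.eq_zero_or_pos a.1 with h | h
    · rw [h]
      simp only [Nat.beq, Bool.not_true, Bool.false_eq_true, if_false]
      rw [ih, refN_cons, h]
      simp
    · have h1 : Nat.beq a.1 0 = false := by
        cases hb : Nat.beq a.1 0 with
        | false => rfl
        | true => have := Nat.eq_of_beq_eq_true hb; omega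
      rw [h1]
      simp only [Bool.not_false, if_true]
      rw [refN_cons, ih, refN_cons]

lemma ref_eq {J : ℕ} {js : List ℤ} (h : PK J js) : ∀ (L : List (ℤ × List (ℕ × ℕ)))
    (_ : ∀ r ∈ L, ∀ q ∈ r.2, q.1 < js.length ∧ q.2 < js.length),
    ((refN J (refPN L) : ℕ) : ℤ) - (refN J (refMN L) : ℕ) = refSum js L
  | [], _ => by simp [refN, refPN, refMN, refSum]
  | r :: L, hL => by
    have ih := ref_eq h L (fun q' hq' => hL q' (List.mem_cons_of_mem _ hq'))
    have hr := sumB_sub_sumA h r.2 (hL r (List.mem_cons_self ..))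
    have e0 := tri_eq _ _ _ hr
    have e1 : refPN (r :: L) = (r.1.toNat, winN r.2) :: refPN L := rfl
    have e2 : refMN (r :: L) = ((-r.1).toNat, winN r.2) :: refMN L := rfl
    rw [e1, e2, refN_cons, refN_cons, refSum, e0]
    have e3 : r.1 = (r.1.toNat : ℤ) - ((-r.1).toNat : ℤ) := by omega
    rw [← ih]
    generalize ((sumB J (winN r.2) - sumA J (winN r.2)) *
      (sumB J (winN r.2) - sumA J (winN r.2) - 1) / 2 : ℕ) = X at *
    simp only
    push_cast
    nlinarith [e3]

end Crest.Agent.R006.P8
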