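import Crest.Agent.R006.P8_HintSpec2_799

/-!
# Row 6, block P8 (helper799): the hinted strip evaluation

`TotLB_of_totalH`: if `totalH Sc ks refs ip tf bd ext L = some T` then `T` is a lower bound
(`TotLB` of `P8_FastTot_799`) for the strips `L.map SH.st` and the class cost
`fun t => kapK ks refs ip (tf t)`; `total_ge_hint` = `total_ge` for `totalH`.
-/

set_option autoImplicit false

namespace Crest.Agent.R006.P8

open Filter Topology Finset

/-- the strip without the hint -/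
def SH.st (s : SH) : St := ⟨s.u, s.v, s.t⟩

lemma BOK_of_cfg {ks : List Kind} {refs : List (ℤ × List (ℕ × ℕ))} {ip : ℕ}
    {bd : List (ℤ × ℤ)} (h : cfgOK ks refs ip bd = true) : ∀ q ∈ bd, BOK q := by
  simp only [cfgOK, Bool.and_eq_true, List.all_eq_true, decide_eq_true_eq] at h
  intro q hq
  have := h.1 q hq
  exact ⟨this.1, this.2.1, this.2.2⟩

lemma COK_of_cfg {ks : List Kind} {refs : List (ℤ × List (ℕ × ℕ))} {ip : ℕ}
    {bd : List (ℤ × ℤ)} (h : cfgOK ks refs ip bd = true) : COK ks refs ip bd.length := by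
  simp only [cfgOK, Bool.and_eq_true, List.all_eq_true, decide_eq_true_eq] at h
  obtain ⟨_, h1, h2, h3⟩ := h
  refine ⟨h1, ?_, ?_⟩
  · intro k hk
    obtain ⟨a, b, c, d, e, f⟩ := h2 k hk
    exact ⟨a, b, c, d, e, f⟩
  · intro r hr q hq
    exact h3 r hr q hq

lemma and_true {a b : Bool} : (a && b) = true ↔ a = true ∧ b = true := Bool.and_eq_true_iff

lemma pk0_cons (N p : ℕ) (q : ℕ × ℕ) (bd : List (ℕ × ℕ)) :
    pk0 N p (q :: bd) = jbN N p q.1 q.2 + 1024 * pk0 N p bd := rfl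

lemma pk0_eq (N p : ℕ) : ∀ bd : List (ℤ × ℤ),
    pk0 N p (bdN bd) = pkL (bd.map fun q => jbN N p (q.1 + 32).toNat q.2.toNat)
  | [] => rfl
  | q :: bd => by
    have e1 : bdN (q :: bd) = ((q.1 + 32).toNat, q.2.toNat) :: bdN bd := rfl
    rw [e1, pk0_cons, pk0_eq N p bd]
    rfl

lemma PK_start (u0 v0 u1 v1 : ℕ) (bd : List (ℤ × ℤ)) :
    PK (pk0 (v0 + v1) (u0 + u1) (bdN bd)) (bd.map (JQ u0 v0 u1 v1)) := by
  refine ⟨bd.map fun q => jbN (v0 + v1) (u0 + u1) (q.1 + 32).toNat q.2.toNat, pk0_eq _ _ bd,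
    ?_, ?_⟩
  · intro a ha
    obtain ⟨q, _, rfl⟩ := List.mem_map.1 ha
    exact (jbN_bounds _ _ _ _).2
  · rw [List.map_map]
    rfl

/-- **Specification of the hinted evaluation of a strip.** -/
theorem stripH_spec {Sc : ℤ} (hSc : 0 ≤ Sc) {ks : List Kind} {refs : List (ℤ × List (ℕ × ℕ))}
    {ip : ℕ} {tf : List ℤ → List ℤ} {bd : List (ℤ × ℤ)} {ext : List ℤ → ℤ} {u0 v0 u1 v1 : ℕ}
    {t : List ℤ} {code : ℕ} {a : ℤ} (hcfg : cfgOK ks refs ip bd = true)
    (h : stripH Sc ks refs ip tf bd ext u0 v0 u1 v1 t code = some a) :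
    StripLB Sc bd (fun t => kapK ks refs ip (tf t)) ext ⟨u0, v0, u1, v1⟩ t a := by
  unfold stripH at h
  set S := sortN (mkQNs u0 v0 u1 v1 (bdN bd) 0 1) with hS
  set I : Iv := ⟨u0, v0, u1, v1⟩ with hI
  set J := JQ u0 v0 u1 v1 with hJ
  set S' := sortG (keyG u0 v0 u1 v1) (mkQLs I J 0 bd) with hS'
  cases hb : (Nat.ble 1 u0 && (Nat.ble 1 v0 && (Nat.ble 1 v1 &&
    (Nat.ble (Nat.mul u0 v1) (Nat.mul u1 v0) && (lenOK (tf t) &&
     chkN (Nat.add (Nat.mul 64 v0) (Nat.mul 1536 u0)) (Nat.add (Nat.mul 64 v1) (Nat.mul 1536 u1))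
      S (Nat.add (Nat.mul 64 v0) (Nat.mul 1534 u0))
        (Nat.add (Nat.mul 64 v1) (Nat.mul 1534 u1))))))) with
  | false => rw [hb] at h; simp at h
  | true =>
    rw [hb] at h
    simp only [cond_true, Option.some.injEq] at h
    rw [and_true, and_true, and_true, and_true, and_true] at hb
    obtain ⟨b1, b2, b3, b4, b5, b6⟩ := hb
    rw [ble_true] at b1 b2 b3 b4
    simp only [Nat.add_eq, Nat.mul_eq] at b4 b6 h
    have hrel : List.Forall₂ (RelQ u0 v0 u1 v1) S S' := by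
      have h1 := mkQNs_rel u0 v0 u1 v1 bd (BOK_of_cfg hcfg) 0
      rw [pow_zero] at h1
      exact sortN_rel h1
    have hperm : S'.Perm (mkQLs I J 0 bd) := sortG_perm _ _
    have hJ255 : ∀ q, -255 ≤ J q := by
      intro q
      have := (jbN_bounds (v0 + v1) (u0 + u1) (q.1 + 32).toNat q.2.toNat).1
      simp only [hJ, JQ]
      omega
    have hinv : Inv bd (bd.map J) S' := inv_start I J hJ255 bd hperm
    have hQ : ∀ s ∈ S', QOK I s := by
      intro s hs
      obtain ⟨q, _, k, hk⟩ := mem_mkQLs I J 0 bd s (hperm.mem_iff.1 hs)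
      rw [hk]; exact QOK_mkQL I k q (J q)
    have hok : I.ok = true := by
      simp only [Iv.ok, hI, Bool.and_eq_true, decide_eq_true_eq]
      refine ⟨by exact_mod_cast b1, by exact_mod_cast b2, by exact_mod_cast b3, ?_⟩
      exact_mod_cast b4
    have hchk : chkWalk bd I 0 0 (bd.map J) S' = true :=
      chk_of_chkN hrel hinv (by push_cast; ring) (by push_cast; ring) b6
    have hck := walk_checkStrip_perm bd I J hok S' hperm hchk
    refine ⟨walk ⟨0, 0⟩ (bd.map J) S', hck, ?_⟩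
    have hcell : ∀ (Jn : ℕ) (js : List ℤ) (n : ℕ), PK Jn js → js.length = bd.length →
        ((cellH (mkTb ks refs ip (tf t)) Jn n).1 : ℤ)
          - ((cellH (mkTb ks refs ip (tf t)) Jn n).2 : ℤ) ≤ kapK ks refs ip (tf t) js := by
      intro Jn js n hP hl
      exact cellH_le hP (by rw [hl]; exact COK_of_cfg hcfg) b5 n
    have hw := walkN_le (mkTb ks refs ip (tf t)) (kapK ks refs ip (tf t)) bd.length hcell hrel hQ
      ⟨0, 0⟩ (pk0 (v0 + v1) (u0 + u1) (bdN bd)) (bd.map J) (64 * v0 + 1534 * u0)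
      (64 * v1 + 1534 * u1) code 0 0 (PK_start u0 v0 u1 v1 bd) (by simp) hinv
      (by simp [Ln.v]) (by simp [Ln.v]) b6
    rw [← h]
    unfold finN intLow
    set r := walkN (mkTb ks refs ip (tf t)) (v1 * (64 * v0 + 1536 * u0) +
      v0 * (64 * v1 + 1536 * u1)) S (pk0 (v0 + v1) (u0 + u1) (bdN bd))
      (v1 * (64 * v0 + 1534 * u0) + v0 * (64 * v1 + 1534 * u1)) code 0 0 with hr
    simp only [hI]
    refine Int.ediv_le_ediv (by positivity) (mul_le_mul_of_nonneg_left ?_ hSc)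
    have b4' : (u0 : ℤ) * v1 ≤ u1 * v0 := by exact_mod_cast b4
    refine mul_le_mul_of_nonneg_left ?_ (by linarith)
    push_cast at hw
    nlinarith

lemma totalH_cons {Sc : ℤ} {ks : List Kind} {refs : List (ℤ × List (ℕ × ℕ))}
    {ip : ℕ} {tf : List ℤ → List ℤ} {bd : List (ℤ × ℤ)} {ext : List ℤ → ℤ} {s s' : SH}
    {L : List SH} {T : ℤ} (h : totalH Sc ks refs ip tf bd ext (s :: s' :: L) = some T) :
    ∃ a b, stripH Sc ks refs ip tf bd ext s.u s.v s'.u s'.v s.t s.code = some a ∧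
      totalH Sc ks refs ip tf bd ext (s' :: L) = some b ∧ T = a + b := by
  obtain ⟨u, v, t, c⟩ := s
  obtain ⟨u', v', t', c'⟩ := s'
  simp only [totalH] at h ⊢
  rcases h1 : stripH Sc ks refs ip tf bd ext u v u' v' t c with _ | a
  · rw [h1] at h; simp at h
  · rcases h2 : totalH Sc ks refs ip tf bd ext (⟨u', v', t', c'⟩ :: L) with _ | b
    · rw [h1, h2] at h; simp at h
    · rw [h1, h2] at h
      simp only [Option.some.injEq] at h
      exact ⟨a, b, rfl, rfl, h.symm⟩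

/-- **The hinted evaluation gives a lower bound.** -/
theorem TotLB_of_totalH {Sc : ℤ} (hSc : 0 ≤ Sc) {ks : List Kind}
    {refs : List (ℤ × List (ℕ × ℕ))} {ip : ℕ} {tf : List ℤ → List ℤ} {bd : List (ℤ × ℤ)}
    {ext : List ℤ → ℤ} (hcfg : cfgOK ks refs ip bd = true) : ∀ {L : List SH} {T : ℤ},
    totalH Sc ks refs ip tf bd ext L = some T →
      TotLB Sc bd (fun t => kapK ks refs ip (tf t)) ext (L.map SH.st) T
  | [], T, h => by
    simp only [totalH, Option.some.injEq] at h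
    exact h.symm
  | [_], T, h => by
    simp only [totalH, Option.some.injEq] at h
    exact h.symm
  | s :: s' :: L, T, h => by
    obtain ⟨a, b, ha, hb, hT⟩ := totalH_cons h
    exact ⟨a, b, stripH_spec hSc hcfg ha, TotLB_of_totalH hSc hcfg hb, hT⟩

/-- **P8, link with P4**, for `totalH`. -/
theorem total_ge_hint (Sc : ℤ) (hSc : 0 < Sc) (ks : List Kind)
    (refs : List (ℤ × List (ℕ × ℕ))) (ip : ℕ) (tf : List ℤ → List ℤ) (bd : List (ℤ × ℤ))
    (ext : List ℤ → ℤ) (hcfg : cfgOK ks refs ip bd = true) (s0 : SH) (L : List SH) (se : SH)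
    (T : ℤ) (hT : totalH Sc ks refs ip tf bd ext (s0 :: L ++ [se]) = some T) (C : ℝ) {δ : ℝ}
    (hδ : 0 < δ) :
    ∀ᶠ N : ℕ in atTop, ∀ V : ℕ → ℝ,
      (∀ s s' : St, [s, s'] <:+: (s0.st :: L.map SH.st ++ [se.st]) →
        ∀ p ∈ pr ((s.u : ℝ) / s.v * N) ((s'.u : ℝ) / s'.v * N),
          (∑ c ∈ range p, (kapK ks refs ip (tf s.t) (jvec bd N p c) : ℝ)) + ext s.t * N - C
            ≤ V p) →
      (N : ℝ) ^ 2 * ((T : ℝ) / Sc - δ)
        ≤ ∑ p ∈ pr ((s0.u : ℝ) / s0.v * N) ((se.u : ℝ) / se.v * N), Real.log p * V p := by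
  have h1 := TotLB_of_totalH hSc.le hcfg hT
  have h2 : (s0 :: L ++ [se]).map SH.st = s0.st :: L.map SH.st ++ [se.st] := by simp
  rw [h2] at h1
  have h3 := total_ge_LB Sc hSc bd (fun t => kapK ks refs ip (tf t)) ext s0.st (L.map SH.st)
    se.st T h1 C hδ
  simpa [SH.st] using h3

end Crest.Agent.R006.P8
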