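import Crest.Agent.R006.P8_FastSpec_799
import Crest.Agent.R006.KapKinds_305

/-!
Row 6, block P8 (helper799): all-`ℕ` kernel evaluation of the strip sums for the class cost `kapK`
of `KapKinds_305`, with hints.

`tf` = function applied to the multipliers of the strip first (e.g. to drop an entry which is
used by `ext` only). A strip `⟨u, v, t, code⟩` carries the multipliers `t = lam :: mu :: (pi, dR, dQ) triples` and a number
`code`: its digits in base `64` are, for the cells from the bottom to the top, the number of the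
triple to be used (polar classes and decomposition A: the number `h` of the triple; decomposition B1:
`h + number of triples`). Any hint is sound (`stripH_spec`): the value is a lower bound of the exact
one, and it is equal to it if the hints point to the best triples.

The `j`-vector is packed in base `1024` (entries shifted by `256`); all lines are compared by the
natural numbers `2 (A + 32) v + (1534 - j) u`. The definitions use explicit recursors and `Nat.add`
etc., which the kernel evaluates about 50 times faster than `totalLow`.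
-/

set_option autoImplicit false

namespace Crest.Agent.R006.P8

/-- an item: shifts of the boundaries, special node (`j0`, `j0 + 1`), condition of the special node,
losses (`64 - D`) of the ordinary, special and conditional special rows -/
structure It where
  sa : ℕ
  sb : ℕ
  j0 : ℕ
  j1 : ℕ
  sc : ℕ
  sd : ℕ
  c0 : ℕ
  c1 : ℕ
  E : ℕ
  Es : ℕ
  Ec : ℕ

/-- an entry of the table -/
structure Ent where
  toll : ℕ
  its : List It

/-- a digit of a packed vector -/
def pget (J s : ℕ) : ℕ := Nat.mod (Nat.shiftRight J s) 1024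

/-- loss of the rows of an item -/
def itLoss (J : ℕ) (a : It) : ℕ :=
  cond (Nat.ble (pget J a.sa) a.j0)
    (cond (Nat.ble a.j1 (pget J a.sb))
      (Nat.add (Nat.mul (Nat.sub (Nat.sub (pget J a.sb) (pget J a.sa)) 1) a.E)
        (cond (Nat.ble (pget J a.sc) a.c0) (cond (Nat.ble a.c1 (pget J a.sd)) a.Ec a.Es) a.Es))
      (Nat.mul (Nat.sub (pget J a.sb) (pget J a.sa)) a.E))
    (Nat.mul (Nat.sub (pget J a.sb) (pget J a.sa)) a.E)

/-- (number of rows, loss) -/
noncomputable def foldIt (J : ℕ) (L : List It) : ℕ → ℕ → ℕ × ℕ :=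
  List.rec (motive := fun _ => ℕ → ℕ → ℕ × ℕ) (fun n e => (n, e))
    (fun a _ ih n e =>
      ih (Nat.add n (Nat.sub (pget J a.sb) (pget J a.sa))) (Nat.add e (itLoss J a))) L

/-- sum of the upper ends -/
noncomputable def sumB (J : ℕ) (L : List (ℕ × ℕ)) : ℕ :=
  List.rec (motive := fun _ => ℕ) 0 (fun a _ ih => Nat.add (pget J a.2) ih) L

/-- sum of the lower ends -/
noncomputable def sumA (J : ℕ) (L : List (ℕ × ℕ)) : ℕ :=
  List.rec (motive := fun _ => ℕ) 0 (fun a _ ih => Nat.add (pget J a.1) ih) L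

/-- a part of the reference: sum of `s * C(cnt, 2)` -/
noncomputable def refN (J : ℕ) (L : List (ℕ × List (ℕ × ℕ))) : ℕ :=
  List.rec (motive := fun _ => ℕ) 0
    (fun a _ ih => Nat.add (Nat.mul a.1 (Nat.div (Nat.mul (Nat.sub (sumB J a.2) (sumA J a.2))
      (Nat.sub (Nat.sub (sumB J a.2) (sumA J a.2)) 1)) 2)) ih) L

/-- entry number `h` -/
noncomputable def nthD {α : Type} (d : α) (L : List α) : ℕ → α :=
  List.rec (motive := fun _ => ℕ → α) (fun _ => d)
    (fun a _ ih h => Nat.rec (motive := fun _ => α) a (fun h' _ => ih h') h) L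

/-- a line -/
structure QN where
  i : ℕ
  e : ℕ
  z0 : ℕ
  z1 : ℕ
  w : ℕ

/-- start digit of a boundary -/
def jbN (N p A h : ℕ) : ℕ :=
  Nat.add 1 (Nat.mod (Nat.div (Nat.sub (Nat.add (Nat.mul (Nat.mul 2 A) N) (Nat.mul (Nat.sub 512 h) p))
    (Nat.add (Nat.mul 64 N) 1)) (Nat.mul 2 p)) 1023)

/-- value of a line -/
def zN (A m v u : ℕ) : ℕ := Nat.add (Nat.mul (Nat.mul 2 A) v) (Nat.mul m u)

/-- the line of a boundary -/
def mkQN (u0 v0 u1 v1 i e A m : ℕ) : QN :=
  ⟨i, e, zN A m v0 u0, zN A m v1 u1, Nat.add (Nat.mul v1 (zN A m v0 u0)) (Nat.mul v0 (zN A m v1 u1))⟩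

/-- slope number of the line -/
def mN (J h : ℕ) : ℕ := Nat.sub (Nat.sub 2048 (Nat.mul 2 J)) h

/-- all lines -/
noncomputable def mkQNs (u0 v0 u1 v1 : ℕ) (bd : List (ℕ × ℕ)) : ℕ → ℕ → List QN :=
  List.rec (motive := fun _ => ℕ → ℕ → List QN) (fun _ _ => [])
    (fun q _ ih i e => mkQN u0 v0 u1 v1 i e q.1
        (mN (jbN (Nat.add v0 v1) (Nat.add u0 u1) q.1 q.2) q.2) ::
      ih (Nat.succ i) (Nat.mul e 1024)) bd

/-- packed start vector -/
noncomputable def pk0 (N p : ℕ) (bd : List (ℕ × ℕ)) : ℕ :=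
  List.rec (motive := fun _ => ℕ) 0
    (fun q _ ih => Nat.add (jbN N p q.1 q.2) (Nat.mul 1024 ih)) bd

/-- insertion by the weight -/
noncomputable def insN (l : QN) (L : List QN) : List QN :=
  List.rec (motive := fun _ => List QN) [l]
    (fun a as ih => cond (Nat.ble l.w a.w) (l :: a :: as) (a :: ih)) L

/-- insertion sort -/
noncomputable def sortN (L : List QN) : List QN :=
  List.rec (motive := fun _ => List QN) [] (fun a _ ih => insN a ih) L

/-- chain check -/
noncomputable def chkN (t0 t1 : ℕ) (S : List QN) : ℕ → ℕ → Bool :=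
  List.rec (motive := fun _ => ℕ → ℕ → Bool)
    (fun a b => cond (Nat.ble a t0) (Nat.ble b t1) false)
    (fun q _ ih a b => cond (Nat.ble a q.z0) (cond (Nat.ble b q.z1) (ih q.z0 q.z1) false) false) S

/-- the tables of a strip -/
structure Tb where
  sp : ℕ
  rP : List (ℕ × List (ℕ × ℕ))
  rM : List (ℕ × List (ℕ × ℕ))
  dP : Ent
  dR : Ent
  tP : List Ent
  tR : List Ent

/-- the table entry of a cell -/
noncomputable def entOf (T : Tb) (J h : ℕ) : Ent :=
  cond (Nat.beq (pget J T.sp) 256) (nthD T.dP T.tP h) (nthD T.dR T.tR h)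

/-- value of a cell `(plus, minus)` -/
noncomputable def cellV (T : Tb) (J : ℕ) (r : ℕ × ℕ) : ℕ × ℕ :=
  (Nat.add (Nat.mul 64 r.1) (refN J T.rM), Nat.add r.2 (refN J T.rP))

/-- value of a cell -/
noncomputable def cellH (T : Tb) (J h : ℕ) : ℕ × ℕ :=
  cellV T J (foldIt J (entOf T J h).its 0 (entOf T J h).toll)

/-- the pair of sums -/
noncomputable def walkN (T : Tb) (wt : ℕ) (S : List QN) : ℕ → ℕ → ℕ → ℕ → ℕ → ℕ × ℕ :=
  List.rec (motive := fun _ => ℕ → ℕ → ℕ → ℕ → ℕ → ℕ × ℕ)
    (fun J w code sp sm =>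
      (Nat.add sp (Nat.mul (cellH T J (Nat.mod code 64)).1 (Nat.sub wt w)),
       Nat.add sm (Nat.mul (cellH T J (Nat.mod code 64)).2 (Nat.sub wt w))))
    (fun q _ ih J w code sp sm =>
      ih (Nat.sub J q.e) q.w (Nat.div code 64)
        (Nat.add sp (Nat.mul (cellH T J (Nat.mod code 64)).1 (Nat.sub q.w w)))
        (Nat.add sm (Nat.mul (cellH T J (Nat.mod code 64)).2 (Nat.sub q.w w)))) S

/-! ### the tables -/

/-- loss of a row: `64 - D` -/
def lossN (D : ℤ) : ℕ := Int.toNat (64 - D)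

/-- items of an entry -/
def itsOf (o s c : Kind → ℤ) : List Kind → List It
  | [] => []
  | k :: ks => ⟨10 * k.ia, 10 * k.ib, (k.j0 + 256).toNat, (k.j0 + 257).toNat,
      10 * k.ca, 10 * k.cb, (k.cj + 256).toNat, (k.cj + 257).toNat,
      lossN (o k), lossN (s k), lossN (c k)⟩ :: itsOf o s c ks

/-- polar class -/
def polEnt (ks : List Kind) (lam mu sR sX sQ : ℤ) : Ent :=
  ⟨(tri sR + (tri sX + (tri sQ + bePol lam sR))).toNat,
    itsOf (fun k => k.pol.D lam mu sR sX sQ) (fun k => k.polS.D lam mu sR sX sQ)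
      (fun k => k.polC.D lam mu sR sX sQ) ks⟩

/-- regular class, decomposition A -/
def regEnt (ks : List Kind) (lam mu sR sX sQ : ℤ) : Ent :=
  ⟨(tri sR + (tri sX + (tri sQ + tri (lam - 2 - pos sR)))).toNat,
    itsOf (fun k => k.reg.D lam mu sR sX sQ) (fun k => k.regS.D lam mu sR sX sQ)
      (fun k => k.regS.D lam mu sR sX sQ) ks⟩

/-- regular class, decomposition B1 -/
def regEntB (ks : List Kind) (lam mu sR sX sQ : ℤ) : Ent :=
  ⟨(tri sR + (tri sX + (tri sQ + tri (lam - 2 - pos sR)))).toNat,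
    itsOf (fun k => k.regB.DB lam mu sR sX sQ) (fun k => k.regBS.DB lam mu sR sX sQ)
      (fun k => k.regBS.DB lam mu sR sX sQ) ks⟩

/-- polar -/
def entP (ks : List Kind) (lam mu p r q : ℤ) : Ent :=
  polEnt ks lam mu (p + lam + 2 + r) p (p + mu + q)

/-- regular, A -/
def entR (ks : List Kind) (lam mu p r q : ℤ) : Ent :=
  regEnt ks lam mu (p + lam - 1 + r) p (p + mu - 2 + q)

/-- regular, B1 -/
def entB (ks : List Kind) (lam mu p r q : ℤ) : Ent :=
  regEntB ks lam mu (p + lam - 1 + r) p (p + mu - 2 + q)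

/-- table over the triples -/
def tabOf (f : ℤ → ℤ → ℤ → Ent) (tl : List Ent) : List ℤ → List Ent
  | p :: r :: q :: L => f p r q :: tabOf f tl L
  | _ => tl

/-- `ℕ` version of the boundaries -/
def bdN (bd : List (ℤ × ℤ)) : List (ℕ × ℕ) := bd.map fun q => ((q.1 + 32).toNat, q.2.toNat)

/-- shifts of windows -/
def winN (L : List (ℕ × ℕ)) : List (ℕ × ℕ) := L.map fun q => (10 * q.1, 10 * q.2)

/-- positive references -/
def refPN (L : List (ℤ × List (ℕ × ℕ))) : List (ℕ × List (ℕ × ℕ)) :=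
  L.map fun q => (q.1.toNat, winN q.2)

/-- negative references -/
def refMN (L : List (ℤ × List (ℕ × ℕ))) : List (ℕ × List (ℕ × ℕ)) :=
  L.map fun q => ((-q.1).toNat, winN q.2)

/-- drop the references with coefficient `0` -/
def dropZ (L : List (ℕ × List (ℕ × ℕ))) : List (ℕ × List (ℕ × ℕ)) :=
  L.filter fun q => !(Nat.beq q.1 0)

/-- the tables of `t` -/
def mkTb (ks : List Kind) (refs : List (ℤ × List (ℕ × ℕ))) (ip : ℕ) : List ℤ → Tb
  | lam :: mu :: L =>
    ⟨10 * ip, dropZ (refPN refs), dropZ (refMN refs),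
      entP ks lam mu 0 0 0, entR ks lam mu 0 0 0,
      tabOf (entP ks lam mu) [] L,
      tabOf (entR ks lam mu) (tabOf (entB ks lam mu) [] L) L⟩
  | _ => ⟨0, [], [], ⟨0, []⟩, ⟨0, []⟩, [], []⟩

/-- two multipliers are given -/
def lenOK : List ℤ → Bool
  | _ :: _ :: _ => true
  | _ => false

/-- the sums to an integer -/
def finN (Sc : ℤ) (e : ℤ) (u0 v0 u1 v1 : ℕ) (r : ℕ × ℕ) : ℤ :=
  (Sc * ((u1 * v0 - u0 * v1) * (r.1 - r.2 + 4 * e * (v0 * v1)))) / (4 * (v0 * v1 : ℤ) ^ 2)

/-- the value of a strip -/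
noncomputable def stripH (Sc : ℤ) (ks : List Kind) (refs : List (ℤ × List (ℕ × ℕ))) (ip : ℕ)
    (tf : List ℤ → List ℤ) (bd : List (ℤ × ℤ)) (ext : List ℤ → ℤ) (u0 v0 u1 v1 : ℕ) (t : List ℤ)
    (code : ℕ) : Option ℤ :=
  cond (Nat.ble 1 u0 && (Nat.ble 1 v0 && (Nat.ble 1 v1 &&
    (Nat.ble (Nat.mul u0 v1) (Nat.mul u1 v0) && (lenOK (tf t) &&
     chkN (Nat.add (Nat.mul 64 v0) (Nat.mul 1536 u0)) (Nat.add (Nat.mul 64 v1) (Nat.mul 1536 u1))
      (sortN (mkQNs u0 v0 u1 v1 (bdN bd) 0 1))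
      (Nat.add (Nat.mul 64 v0) (Nat.mul 1534 u0)) (Nat.add (Nat.mul 64 v1) (Nat.mul 1534 u1)))))))
    (some (finN Sc (ext t) u0 v0 u1 v1
      (walkN (mkTb ks refs ip (tf t))
        (Nat.add (Nat.mul v1 (Nat.add (Nat.mul 64 v0) (Nat.mul 1536 u0)))
          (Nat.mul v0 (Nat.add (Nat.mul 64 v1) (Nat.mul 1536 u1))))
        (sortN (mkQNs u0 v0 u1 v1 (bdN bd) 0 1))
        (pk0 (Nat.add v0 v1) (Nat.add u0 u1) (bdN bd))
        (Nat.add (Nat.mul v1 (Nat.add (Nat.mul 64 v0) (Nat.mul 1534 u0)))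
          (Nat.mul v0 (Nat.add (Nat.mul 64 v1) (Nat.mul 1534 u1)))) code 0 0)))
    none

/-- a strip with hints -/
structure SH where
  u : ℕ
  v : ℕ
  t : List ℤ
  code : ℕ

/-- total over consecutive strips -/
noncomputable def totalH (Sc : ℤ) (ks : List Kind) (refs : List (ℤ × List (ℕ × ℕ))) (ip : ℕ)
    (tf : List ℤ → List ℤ) (bd : List (ℤ × ℤ)) (ext : List ℤ → ℤ) : List SH → Option ℤ
  | [] => some 0
  | [_] => some 0
  | ⟨u, v, t, c⟩ :: ⟨u', v', t', c'⟩ :: L =>
    match stripH Sc ks refs ip tf bd ext u v u' v' t c,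
      totalH Sc ks refs ip tf bd ext (⟨u', v', t', c'⟩ :: L) with
    | some a, some b => some (a + b)
    | _, _ => none

/-- static check of the tables -/
def cfgOK (ks : List Kind) (refs : List (ℤ × List (ℕ × ℕ))) (ip : ℕ) (bd : List (ℤ × ℤ)) : Bool :=
  bd.all (fun q => decide (-32 ≤ q.1) && (decide (0 ≤ q.2) && decide (q.2 ≤ 1))) &&
  (decide (ip < bd.length) &&
  (ks.all (fun k => decide (k.ia < bd.length) && (decide (k.ib < bd.length) &&
    (decide (k.ca < bd.length) && (decide (k.cb < bd.length) &&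
    (decide (-256 ≤ k.j0) && decide (-256 ≤ k.cj)))))) &&
  refs.all (fun r => r.2.all (fun q => decide (q.1 < bd.length) && decide (q.2 < bd.length)))))

end Crest.Agent.R006.P8
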