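import Crest.Agent.R006.Ded
import Crest.Agent.R006.PNTSum_365

set_option autoImplicit false

/-!
# Row 6 (Catalan), block P9: final assembly with a reference number (helper481)

`W` is a positive rational number (a quotient of superfactorials). By the product formula
(`∑_p v_p(W) log p = log W`) it is enough to bound the real size of `P(G)` against `log W` and
the valuations of the coefficients of `P` against `v_p(W)`. No Mertens constant is needed.
-/

namespace Crest.Agent.R006

open Filter Topology Finset Polynomial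

/-- The prime part of the error budget: `E p` is the loss at the prime `p` (in the exponent),
relative to the reference number. -/
structure PrimeBudget (L : List Piece) (x X : ℚ) (C K K' C' two three : ℝ) (n : ℕ) (E : ℕ → ℝ) :
    Prop where
  two : E 2 * Real.log 2 ≤ two * (n : ℝ) ^ 2
  three : E 3 * Real.log 3 ≤ three * (n : ℝ) ^ 2
  tiny : ∀ p : ℕ, p.Prime → 5 ≤ p → (p : ℝ) ≤ Real.sqrt (C * n) →
    Real.log p * E p ≤ K' * (n * Real.log n)
  small : ∀ p : ℕ, p.Prime → 5 ≤ p → Real.sqrt (C * n) < p → (p : ℝ) ≤ x * n → E p ≤ K * n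
  mid : ∀ P ∈ L, ∀ p : ℕ, p.Prime → 5 ≤ p → (P.lo : ℝ) * n < p → (p : ℝ) ≤ P.hi * n →
    E p ≤ n * ((P.al : ℝ) + P.be * (p / n)) + C'
  large : ∀ p : ℕ, p.Prime → 5 ≤ p → (X : ℝ) * n < p → E p ≤ 0

lemma Chain.le_lo {x : ℚ} {L : List Piece} {X : ℚ} (h : Chain x L X) :
    ∀ P ∈ L, x ≤ P.lo := by
  induction L generalizing x with
  | nil => intro P hP; simp at hP
  | cons Q L ih =>
    obtain ⟨h1, h2, h3⟩ := h
    intro P hP
    rcases List.mem_cons.mp hP with rfl | hP
    · exact h1.ge
    · exact (h1 ▸ h2).trans (ih h3 P hP)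

lemma five_le_of_prime {p : ℕ} (hp : p.Prime) (h : 3 < p) : 5 ≤ p := by
  by_contra hcon
  have : p = 4 := by omega
  subst this
  exact absurd hp (by decide)

/-- All primes together. -/
theorem PrimeBudget.sum_le (L : List Piece) (x X : ℚ) (h0 : 0 < x) (hL : Chain x L X)
    (C K K' C' two three : ℝ) (hC : 0 < C) (hK : 0 ≤ K) {δ : ℝ} (hδ : 0 < δ) :
    ∀ᶠ n : ℕ in atTop, ∀ E : ℕ → ℝ, PrimeBudget L x X C K K' C' two three n E →
      ∑ p ∈ pr 0 (max ((X : ℝ) * n) 3), Real.log p * E p
        ≤ (two + three + (pieceSum L : ℝ) + K * x + δ) * (n : ℝ) ^ 2 := by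
  have hx : (0 : ℝ) < x := by exact_mod_cast h0
  have hmain := tendsto_natCast_atTop_atTop.eventually
    (all_sum_le L x X h0 hL C K (max K' 0) C' hC hK hδ)
  have hlarge : ∀ᶠ n : ℕ in atTop, (3 : ℝ) < x * n := by
    filter_upwards [tendsto_natCast_atTop_atTop.eventually (eventually_gt_atTop (3 / (x : ℝ)))]
      with n hn
    rw [div_lt_iff₀ hx] at hn
    linarith
  filter_upwards [hmain, hlarge, eventually_ge_atTop 1] with n hn hn3 hn1 E hE
  have hn1' : (1 : ℝ) ≤ n := by exact_mod_cast hn1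
  have hn0 : (0 : ℝ) ≤ n := by linarith
  set E' : ℕ → ℝ := fun p => if p ≤ 3 then 0 else E p with hE'
  set Y : ℝ := max ((X : ℝ) * n) 3 with hY
  have hnl : 0 ≤ (n : ℝ) * Real.log n := mul_nonneg hn0 (Real.log_nonneg hn1')
  have key := hn E' Y (le_max_left _ _) ?_ ?_ ?_ ?_
  · -- split off 2 and 3
    have h2 : (2 : ℕ) ∈ pr 0 Y := by
      rw [mem_pr]
      refine ⟨Nat.prime_two, by norm_num, ?_⟩
      exact le_trans (by norm_num) (le_max_right _ _)
    have h3 : (3 : ℕ) ∈ pr 0 Y := by
      rw [mem_pr]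
      refine ⟨Nat.prime_three, by norm_num, ?_⟩
      exact le_trans (by norm_num) (le_max_right _ _)
    have hsplit : ∑ p ∈ pr 0 Y, Real.log p * E p =
        ∑ p ∈ pr 0 Y, Real.log p * E' p + (Real.log 2 * E 2 + Real.log 3 * E 3) := by
      have e1 : ∀ p ∈ pr 0 Y, Real.log p * E p = Real.log p * E' p +
          ((if p = 2 then Real.log 2 * E 2 else 0) + (if p = 3 then Real.log 3 * E 3 else 0)) := by
        intro p hp
        rw [mem_pr] at hp
        by_cases hp2 : p = 2
        · subst hp2; simp [hE']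
        · by_cases hp3 : p = 3
          · subst hp3; simp [hE']
          · have : ¬ p ≤ 3 := by
              have := hp.1.two_le
              omega
            simp [hE', this, hp2, hp3]
      rw [Finset.sum_congr rfl e1, Finset.sum_add_distrib, Finset.sum_add_distrib,
        Finset.sum_ite_eq', Finset.sum_ite_eq', if_pos h2, if_pos h3]
    rw [hsplit]
    have := hE.two
    have := hE.three
    nlinarith
  · intro p hp
    rw [mem_pr] at hp
    simp only [hE']
    split_ifs with h
    · simp only [mul_zero]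
      exact mul_nonneg (le_max_right _ _) hnl
    · refine (hE.tiny p hp.1 (five_le_of_prime hp.1 (by omega)) hp.2.2).trans ?_
      exact mul_le_mul_of_nonneg_right (le_max_left _ _) hnl
  · intro p hp
    rw [mem_pr] at hp
    simp only [hE']
    split_ifs with h
    · positivity
    · exact hE.small p hp.1 (five_le_of_prime hp.1 (by omega)) hp.2.1 hp.2.2
  · intro P hP p hp
    rw [mem_pr] at hp
    have hlo : (x : ℝ) ≤ P.lo := by exact_mod_cast hL.le_lo P hP
    have h3p : (3 : ℝ) < p := by
      have := mul_le_mul_of_nonneg_right hlo hn0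
      linarith [hp.2.1]
    have h3p' : 3 < p := by exact_mod_cast h3p
    simp only [hE']
    rw [if_neg (by omega)]
    exact hE.mid P hP p hp.1 (five_le_of_prime hp.1 h3p') hp.2.1 hp.2.2
  · intro p hp
    rw [mem_pr] at hp
    have hXx : (x : ℝ) ≤ X := by exact_mod_cast hL.le
    have h3p : (3 : ℝ) < p := by
      have := mul_le_mul_of_nonneg_right hXx hn0
      linarith [hp.2.1]
    have h3p' : 3 < p := by exact_mod_cast h3p
    simp only [hE']
    rw [if_neg (by omega)]
    exact hE.large p hp.1 (five_le_of_prime hp.1 h3p') hp.2.1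

/-- **Final assembly.** For every `δ > 0` and infinitely many `n` we need a rational polynomial
`P` (its construction may use `G = r`), a reference number `W > 0` and losses `E p`. -/
theorem assembly (G : ℝ) (L : List Piece) (x X : ℚ) (h0 : 0 < x) (hL : Chain x L X)
    (Cd C K K' C' arch two three : ℝ) (hC : 0 < C) (hK : 0 ≤ K)
    (hT : arch + two + three + (pieceSum L : ℝ) + K * x < 0)
    (h : ∀ r : ℚ, (r : ℝ) = G → ∀ δ : ℝ, 0 < δ → ∃ᶠ n : ℕ in atTop,
      ∃ (P : ℚ[X]) (W : ℚ) (E : ℕ → ℝ), 0 < W ∧ (P.natDegree : ℝ) ≤ Cd * n ∧ aeval G P ≠ 0 ∧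
        Real.log |aeval G P| ≤ Real.log W + (arch + δ) * (n : ℝ) ^ 2 ∧
        (∀ p : ℕ, p.Prime → ∀ i, P.coeff i ≠ 0 →
          (padicValRat p W : ℝ) - E p ≤ (padicValRat p (P.coeff i) : ℝ)) ∧
        PrimeBudget L x X C K K' C' (two + δ) (three + δ) n E) :
    Irrational G := by
  set T : ℝ := arch + two + three + (pieceSum L : ℝ) + K * x with hTdef
  set c : ℝ := -T / 2 with hc
  have hcpos : 0 < c := by rw [hc]; linarith
  set δ : ℝ := c / 4 with hδ
  have hδpos : 0 < δ := by rw [hδ]; linarith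
  refine irrational_of_rat_polys G Cd c hcpos fun r hr D0 => ?_
  have hX0 : 0 ≤ X := h0.le.trans hL.le
  obtain ⟨n, ⟨⟨P, W, E, hW, hdeg, hne, harch, hval, hbud⟩, hsum⟩, hnD⟩ :=
    (((h r hr δ hδpos).and_eventually
      (PrimeBudget.sum_le L x X h0 hL C K K' C' (two + δ) (three + δ) hC hK hδpos)).and_eventually
      (eventually_ge_atTop D0)).exists
  have hWR : (0 : ℝ) < W := by exact_mod_cast hW
  have hW0 : W ≠ 0 := hW.ne'
  refine ⟨n, hnD, Polynomial.C (W⁻¹) * P, pr 0 (max ((X : ℝ) * n) 3), fun p => ⌊E p⌋, ?_, ?_, ?_,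
    ?_, ?_⟩
  · intro p hp
    rw [mem_pr] at hp
    exact hp.1
  · intro p hp i hi
    rw [coeff_C_mul] at hi ⊢
    have hPi : P.coeff i ≠ 0 := right_ne_zero_of_mul hi
    have := Fact.mk hp
    rw [padicValRat.mul (inv_ne_zero hW0) hPi, padicValRat.inv]
    have h1 := hval p hp i hPi
    have h2 : ((padicValRat p W - padicValRat p (P.coeff i) : ℤ) : ℝ) ≤ E p := by
      push_cast
      linarith
    have h3 := Int.le_floor.mpr h2
    split_ifs with hmem
    · linarith
    · have h4 : E p ≤ 0 := by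
        rw [mem_pr] at hmem
        have hbig : max ((X : ℝ) * n) 3 < p := by
          by_contra hcon
          exact hmem ⟨hp, by exact_mod_cast hp.pos, not_lt.mp hcon⟩
        have h3p : (3 : ℝ) < p := lt_of_le_of_lt (le_max_right _ _) hbig
        have h3p' : 3 < p := by exact_mod_cast h3p
        exact hbud.large p hp (five_le_of_prime hp h3p')
          (lt_of_le_of_lt (le_max_left _ _) hbig)
      have h5 : ((padicValRat p W - padicValRat p (P.coeff i) : ℤ) : ℝ) ≤ ((0 : ℤ) : ℝ) := by
        push_cast at h2 ⊢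
        linarith
      have h6 := Int.cast_le.mp h5
      linarith
  · rw [natDegree_C_mul (inv_ne_zero hW0)]
    exact hdeg
  · rw [map_mul, aeval_C]
    refine mul_ne_zero ?_ hne
    simpa using hW0
  · have e1 : aeval G (Polynomial.C (W⁻¹) * P) = (W : ℝ)⁻¹ * aeval G P := by
      rw [map_mul, aeval_C]
      simp
    rw [e1, abs_mul, abs_inv, abs_of_pos hWR, Real.log_mul (inv_ne_zero hWR.ne')
      (abs_pos.mpr hne).ne', Real.log_inv]
    have h1 := hsum E hbud
    have h2 : ∑ p ∈ pr 0 (max ((X : ℝ) * n) 3), ((⌊E p⌋ : ℤ) : ℝ) * Real.log p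
        ≤ ∑ p ∈ pr 0 (max ((X : ℝ) * n) 3), Real.log p * E p := by
      apply Finset.sum_le_sum
      intro p hp
      rw [mul_comm]
      exact mul_le_mul_of_nonneg_left (Int.floor_le _) (log_nonneg_of_mem hp)
    have h3 : (two + δ + (three + δ) + (pieceSum L : ℝ) + K * x + δ) * (n : ℝ) ^ 2 +
        (arch + δ) * (n : ℝ) ^ 2 = -c * (n : ℝ) ^ 2 := by
      have : two + δ + (three + δ) + (pieceSum L : ℝ) + K * x + δ + (arch + δ) = -c := by
        rw [hδ, hc, hTdef]; ring
      rw [← add_mul, this]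
    linarith

end Crest.Agent.R006
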