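import Crest.Agent.R006.P9_Assembly_481

set_option autoImplicit false

/-!
# Row 6 (Catalan), block P9: the spine (helper481)

Extended matrix (more rows than columns) over `ℚ[X]` with entries of degree `≤ 1`; full column rank
at `X = r` when `G = r`; size and valuation bounds for every maximal minor: `G` is irrational.
-/

namespace Crest.Agent.R006

open Filter Topology Finset Polynomial Matrix

/-- full column rank gives a nonzero maximal minor -/
theorem exists_minor {F ι κ : Type*} [Field F] [Fintype ι] [Fintype κ] [DecidableEq κ]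
    (A : Matrix ι κ F) (h : ∀ v : κ → F, A *ᵥ v = 0 → v = 0) :
    ∃ f : κ → ι, Function.Injective f ∧ (A.submatrix f id).det ≠ 0 := by
  classical
  obtain ⟨κ', a, ha, hsp, hli⟩ := exists_linearIndependent' F A.row
  have : Finite κ' := Finite.of_injective a ha
  have := Fintype.ofFinite κ'
  have hrank : A.rank = Fintype.card κ := by
    have hinj : Function.Injective A.mulVecLin := by
      rw [← LinearMap.ker_eq_bot, LinearMap.ker_eq_bot']
      intro v hv
      exact h v (by simpa using hv)
    rw [Matrix.rank, LinearMap.finrank_range_of_inj hinj, Module.finrank_fintype_fun_eq_card]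
  have hcard : Fintype.card κ' = Fintype.card κ := by
    rw [← hrank, Matrix.rank_eq_finrank_span_row, ← hsp]
    exact (finrank_span_eq_card hli).symm
  obtain ⟨e⟩ := Fintype.card_eq.mp hcard.symm
  refine ⟨a ∘ e, ha.comp e.injective, ?_⟩
  have hli2 : LinearIndependent F (A.submatrix (a ∘ e) id).row := by
    have := hli.comp e e.injective
    exact this
  have hu := Matrix.linearIndependent_rows_iff_isUnit.mp hli2
  exact ((Matrix.isUnit_iff_isUnit_det _).mp hu).ne_zero

lemma natDegree_det_le_card {κ : Type*} [Fintype κ] [DecidableEq κ] (M : Matrix κ κ ℚ[X])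
    (h : ∀ i j, (M i j).natDegree ≤ 1) : M.det.natDegree ≤ Fintype.card κ := by
  rw [Matrix.det_apply]
  refine natDegree_sum_le_of_forall_le _ _ fun σ _ => ?_
  refine (natDegree_smul_le _ _).trans ?_
  refine (natDegree_prod_le _ _).trans ?_
  refine (Finset.sum_le_sum fun i _ => h (σ i) i).trans ?_
  simp

/-- **Spine.** The blocks P2 (rank), P3 (real size), P4-P7 (valuations) imply the irrationality.
The reference number `W u f` may depend on the selected rows. -/
theorem spine (G : ℝ) (L : List Piece) (x X : ℚ) (h0 : 0 < x) (hL : Chain x L X)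
    (Cd C K K' C' arch two three : ℝ) (hC : 0 < C) (hK : 0 ≤ K)
    (hT : arch + two + three + (pieceSum L : ℝ) + K * x < 0)
    (ι κ : ℕ → Type) [∀ u, Fintype (ι u)] [∀ u, Fintype (κ u)] [∀ u, DecidableEq (κ u)]
    (M : ∀ u, Matrix (ι u) (κ u) ℚ[X])
    (hdeg : ∀ u i j, (M u i j).natDegree ≤ 1)
    (hcard : ∀ u, (Fintype.card (κ u) : ℝ) ≤ Cd * u)
    -- P2
    (hrank : ∀ r : ℚ, (r : ℝ) = G → ∀ᶠ u : ℕ in atTop, ∀ v : κ u → ℚ,
      ((M u).map (eval r)) *ᵥ v = 0 → v = 0)
    (W : ∀ u, (κ u → ι u) → ℚ) (hW : ∀ u f, Function.Injective f → 0 < W u f)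
    -- P3
    (harch : ∀ δ : ℝ, 0 < δ → ∀ᶠ u : ℕ in atTop, ∀ f : κ u → ι u, Function.Injective f →
      aeval G ((M u).submatrix f id).det ≠ 0 →
      Real.log |aeval G ((M u).submatrix f id).det| ≤ Real.log (W u f) + (arch + δ) * (u : ℝ) ^ 2)
    -- P4, P5, P6, P7
    (hval : ∀ δ : ℝ, 0 < δ → ∀ᶠ u : ℕ in atTop, ∀ f : κ u → ι u, Function.Injective f →
      ∃ E : ℕ → ℝ, PrimeBudget L x X C K K' C' (two + δ) (three + δ) u E ∧
        ∀ p : ℕ, p.Prime → ∀ i, (((M u).submatrix f id).det).coeff i ≠ 0 →
          (padicValRat p (W u f) : ℝ) - E p ≤ (padicValRat p ((((M u).submatrix f id).det).coeff i) : ℝ)) :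
    Irrational G := by
  refine assembly G L x X h0 hL Cd C K K' C' arch two three hC hK hT fun r hr δ hδ => ?_
  refine Eventually.frequently ?_
  filter_upwards [hrank r hr, harch δ hδ, hval δ hδ] with u hu1 hu2 hu3
  obtain ⟨f, hf, hdet⟩ := exists_minor _ hu1
  have hev : eval r ((M u).submatrix f id).det ≠ 0 := by
    have e1 : (((M u).map (eval r)).submatrix f id).det = eval r ((M u).submatrix f id).det := by
      rw [← Polynomial.coe_evalRingHom, RingHom.map_det]
      rfl
    rw [← e1]; exact hdet
  have hne : aeval G ((M u).submatrix f id).det ≠ 0 := by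
    rw [← hr]
    intro h
    apply hev
    have h2 : aeval (r : ℝ) ((M u).submatrix f id).det =
        ((eval r ((M u).submatrix f id).det : ℚ) : ℝ) := by
      rw [aeval_def]
      exact (Polynomial.eval₂_at_apply (algebraMap ℚ ℝ) r)
    rw [h2] at h
    exact_mod_cast h
  obtain ⟨E, hE, hE2⟩ := hu3 f hf
  refine ⟨((M u).submatrix f id).det, W u f, E, hW u f hf, ?_, hne, hu2 f hf hne, hE2, hE⟩
  refine le_trans ?_ (hcard u)
  exact_mod_cast natDegree_det_le_card _ fun i j => hdeg u (f i) j

end Crest.Agent.R006
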