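import Mathlib

/-!
Row 6, block P3: discrete products against segment potentials, uniformly in the complex plane.

`Phi v u = u/2 log(u^2+v^2) - u + v arctan(u/v)` is the primitive (in `u`) of `g v u = (1/2) log(u^2+v^2)`.
For equally spaced points `c + k h ω` (`‖ω‖ = 1`) and every `z`:
`∑_{k<n} log ‖z - (c + k h ω)‖ = (Phi v (n h - x) - Phi v (-x)) / h + O(log)`, `x + i v = (z - c) * conj ω`.
The upper bound needs no separation; the lower bound needs `δ ≤ ‖z - point‖`.
-/

namespace Crest.Agent.R006.PotDiscx41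

open Real Finset

/-- primitive of `g v`. -/
noncomputable def Phi (v u : ℝ) : ℝ := u / 2 * Real.log (u ^ 2 + v ^ 2) - u + v * Real.arctan (u / v)

/-- `log |u + i v|`. -/
noncomputable def g (v u : ℝ) : ℝ := Real.log (u ^ 2 + v ^ 2) / 2

lemma Phi_zero (v : ℝ) : Phi v 0 = 0 := by simp [Phi]

lemma Phi_neg (v u : ℝ) : Phi v (-u) = -Phi v u := by
  unfold Phi
  rw [show -u / v = -(u / v) by ring, Real.arctan_neg]
  ring_nf

lemma g_neg (v u : ℝ) : g v (-u) = g v u := by
  unfold g; ring_nf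

lemma sq_add_pos {v u : ℝ} (h : v ≠ 0 ∨ u ≠ 0) : 0 < u ^ 2 + v ^ 2 := by
  rcases h with h | h
  · have := sq_nonneg u
    have : 0 < v ^ 2 := by positivity
    linarith
  · have := sq_nonneg v
    have : 0 < u ^ 2 := by positivity
    linarith

lemma g_mono {v u w : ℝ} (h : v ≠ 0 ∨ u ≠ 0) (huw : |u| ≤ |w|) : g v u ≤ g v w := by
  unfold g
  have h0 := sq_add_pos h
  have : u ^ 2 ≤ w ^ 2 := sq_le_sq.2 huw
  have := Real.log_le_log h0 (by linarith : u ^ 2 + v ^ 2 ≤ w ^ 2 + v ^ 2)
  linarith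

lemma hasDerivAt_Phi {v u : ℝ} (h : v ≠ 0 ∨ u ≠ 0) : HasDerivAt (Phi v) (g v u) u := by
  have h0 := sq_add_pos h
  have h1 : HasDerivAt (fun u : ℝ => u ^ 2 + v ^ 2) (2 * u) u := by
    simpa using (hasDerivAt_pow 2 u).add_const (v ^ 2)
  have h2 : HasDerivAt (fun u : ℝ => Real.log (u ^ 2 + v ^ 2)) (2 * u / (u ^ 2 + v ^ 2)) u :=
    h1.log h0.ne'
  have h3 : HasDerivAt (fun u : ℝ => u / 2) (1 / 2) u := (hasDerivAt_id u).div_const 2
  have h4 := h3.mul h2
  have h5 : HasDerivAt (fun u : ℝ => v * Real.arctan (u / v)) (v ^ 2 / (u ^ 2 + v ^ 2)) u := by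
    rcases eq_or_ne v 0 with rfl | hv
    · simp only [zero_mul]
      simpa using hasDerivAt_const u (0 : ℝ)
    · have h6 : HasDerivAt (fun u : ℝ => u / v) (1 / v) u := (hasDerivAt_id u).div_const v
      have h7 := (h6.arctan).const_mul v
      refine h7.congr_deriv ?_
      have : (1 + (u / v) ^ 2) = (u ^ 2 + v ^ 2) / v ^ 2 := by field_simp; ring
      rw [this]
      field_simp
  have h8 := (h4.sub (hasDerivAt_id u)).add h5
  have h9 : HasDerivAt (Phi v) (1 / 2 * Real.log (u ^ 2 + v ^ 2) + u / 2 * (2 * u / (u ^ 2 + v ^ 2))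
      - 1 + v ^ 2 / (u ^ 2 + v ^ 2)) u := h8
  refine h9.congr_deriv ?_
  have h10 : u / 2 * (2 * u / (u ^ 2 + v ^ 2)) + v ^ 2 / (u ^ 2 + v ^ 2) = 1 := by
    field_simp
  unfold g
  linarith

lemma continuous_Phi (v : ℝ) : Continuous (Phi v) := by
  rcases eq_or_ne v 0 with rfl | hv
  · have : Phi 0 = fun u => u * Real.log u - u := by
      funext u
      unfold Phi
      simp only [zero_mul, add_zero]
      rw [show (u ^ 2 + 0 ^ 2 : ℝ) = u ^ 2 by ring, Real.log_pow]
      push_cast
      ring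
    rw [this]
    exact Real.continuous_mul_log.sub continuous_id
  · exact continuous_iff_continuousAt.2 fun u => (hasDerivAt_Phi (Or.inl hv)).continuousAt

lemma stepU {v u h : ℝ} (hu : 0 ≤ u) (hh : 0 < h) (hne : v ≠ 0 ∨ u ≠ 0) :
    h * g v u ≤ Phi v (u + h) - Phi v u := by
  obtain ⟨c, hc, hc'⟩ := exists_hasDerivAt_eq_slope (Phi v) (g v) (by linarith : u < u + h)
    (continuous_Phi v).continuousOn
    (fun x hx => hasDerivAt_Phi (Or.inr (lt_of_le_of_lt hu hx.1).ne'))
  have h1 : g v u ≤ g v c := g_mono hne (by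
    rw [abs_of_nonneg hu, abs_of_nonneg (hu.trans hc.1.le)]; exact hc.1.le)
  rw [hc'] at h1
  have h2 : u + h - u = h := by ring
  rw [h2, le_div_iff₀ hh] at h1
  linarith

lemma stepL {v u h : ℝ} (hu : h ≤ u) (hh : 0 < h) :
    Phi v u - Phi v (u - h) ≤ h * g v u := by
  obtain ⟨c, hc, hc'⟩ := exists_hasDerivAt_eq_slope (Phi v) (g v) (by linarith : u - h < u)
    (continuous_Phi v).continuousOn
    (fun x hx => hasDerivAt_Phi (Or.inr (by have := hx.1; intro h0; rw [h0] at this; linarith)))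
  have hc0 : 0 < c := by linarith [hc.1]
  have h1 : g v c ≤ g v u := g_mono (Or.inr hc0.ne') (by
    rw [abs_of_pos hc0, abs_of_pos (by linarith : (0:ℝ) < u)]; exact hc.2.le)
  rw [hc'] at h1
  have h2 : u - (u - h) = h := by ring
  rw [h2, div_le_iff₀ hh] at h1
  linarith

lemma arctan_mul_nonneg {v u : ℝ} (hu : 0 ≤ u) : 0 ≤ v * Real.arctan (u / v) := by
  rcases le_total 0 v with hv | hv
  · exact mul_nonneg hv (by
      rw [← Real.arctan_zero]; exact Real.arctan_strictMono.monotone (div_nonneg hu hv))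
  · exact mul_nonneg_of_nonpos_of_nonpos hv (by
      rw [← Real.arctan_zero]; exact Real.arctan_strictMono.monotone (div_nonpos_of_nonneg_of_nonpos hu hv))

/-- tangent lower bound. -/
lemma Phi_ge {v u c : ℝ} (hu : 0 ≤ u) (hc : 0 < c) : u * Real.log c - c ≤ Phi v u := by
  rcases hu.eq_or_lt with rfl | hu
  · rw [Phi_zero]; linarith
  · have h1 : Real.log u ≤ Real.log (u ^ 2 + v ^ 2) / 2 := by
      have := Real.log_le_log (by positivity : 0 < u ^ 2) (by nlinarith [sq_nonneg v] : u ^ 2 ≤ u ^ 2 + v ^ 2)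
      rw [Real.log_pow] at this
      push_cast at this
      linarith
    have h2 := arctan_mul_nonneg (v := v) hu.le
    have h3 : Real.log (c / u) ≤ c / u - 1 := Real.log_le_sub_one_of_pos (by positivity)
    rw [Real.log_div hc.ne' hu.ne'] at h3
    have h4 : u * (Real.log c - Real.log u) ≤ c - u := by
      have := mul_le_mul_of_nonneg_left h3 hu.le
      have h5 : u * (c / u - 1) = c - u := by field_simp
      linarith
    have h6 : u * Real.log u ≤ u * (Real.log (u ^ 2 + v ^ 2) / 2) := mul_le_mul_of_nonneg_left h1 hu.le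
    unfold Phi
    nlinarith

lemma D_ge_pos {v s h : ℝ} (hs : 0 ≤ s) (hh : 0 < h) :
    h * Real.log h - h ≤ Phi v (s + h) - Phi v s := by
  have hmono : MonotoneOn (fun s : ℝ => Phi v (s + h) - Phi v s) (Set.Ici 0) := by
    have hder : ∀ x : ℝ, 0 < x →
        HasDerivAt (fun s : ℝ => Phi v (s + h) - Phi v s) (g v (x + h) - g v x) x := by
      intro x hx
      have h1 : HasDerivAt (fun s : ℝ => Phi v (s + h)) (g v (x + h)) x := by
        have := (hasDerivAt_Phi (v := v) (u := x + h) (Or.inr (by linarith : (0:ℝ) < x + h).ne'))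
        exact this.comp_add_const x h
      exact h1.sub (hasDerivAt_Phi (Or.inr hx.ne'))
    refine monotoneOn_of_deriv_nonneg (convex_Ici 0) ?_ ?_ ?_
    · exact (((continuous_Phi v).comp (continuous_id.add continuous_const)).sub
        (continuous_Phi v)).continuousOn
    · intro x hx
      rw [interior_Ici] at hx
      exact (hder x hx).differentiableAt.differentiableWithinAt
    · intro x hx
      rw [interior_Ici] at hx
      rw [(hder x hx).deriv]
      have hx' : 0 < x := hx
      have := g_mono (v := v) (u := x) (w := x + h) (Or.inr hx'.ne') (by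
        rw [abs_of_pos hx', abs_of_pos (by linarith)]; linarith)
      linarith
  have h1 := hmono (Set.mem_Ici.2 le_rfl) (Set.mem_Ici.2 hs) hs
  simp only [zero_add, Phi_zero, sub_zero] at h1
  have h2 := Phi_ge (v := v) hh.le hh
  linarith

lemma D_ge {v s h : ℝ} (hh : 0 < h) :
    h * Real.log (h / 2) - h ≤ Phi v (s + h) - Phi v s := by
  have hlog : Real.log (h / 2) ≤ Real.log h := Real.log_le_log (by positivity) (by linarith)
  have hlog' : h * Real.log (h / 2) ≤ h * Real.log h := mul_le_mul_of_nonneg_left hlog hh.le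
  rcases le_or_gt 0 s with hs | hs
  · have := D_ge_pos (v := v) hs hh
    linarith
  · rcases le_or_gt (s + h) 0 with hs' | hs'
    · have := D_ge_pos (v := v) (s := -(s + h)) (by linarith) hh
      rw [show -(s + h) + h = -s by ring, Phi_neg, Phi_neg] at this
      linarith
    · have h1 := Phi_ge (v := v) (u := s + h) (c := h / 2) hs'.le (by positivity)
      have h2 := Phi_ge (v := v) (u := -s) (c := h / 2) (by linarith) (by positivity)
      rw [Phi_neg] at h2
      nlinarith

lemma Phi_le {v u : ℝ} (hu : 0 < u) : Phi v u ≤ u * g v u := by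
  have := stepL (v := v) (le_refl u) hu
  rwa [sub_self, Phi_zero, sub_zero] at this

lemma D_le {v s h : ℝ} (hh : 0 < h) :
    Phi v (s + h) - Phi v s ≤ h * g v (|s| + h) := by
  rcases le_or_gt 0 s with hs | hs
  · have := stepL (v := v) (u := s + h) (h := h) (by linarith) hh
    rw [abs_of_nonneg hs]
    rwa [add_sub_cancel_right] at this
  · rw [abs_of_neg hs]
    have hne : v ≠ 0 ∨ -s + h ≠ 0 := Or.inr (by linarith : (0:ℝ) < -s + h).ne'
    rcases le_or_gt (s + h) 0 with hs' | hs'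
    · have h1 := stepL (v := v) (u := -s) (h := h) (by linarith) hh
      rw [show -s - h = -(s + h) by ring, Phi_neg, Phi_neg] at h1
      have h2 : g v (-s) ≤ g v (-s + h) := g_mono (Or.inr (by linarith : (0:ℝ) < -s).ne') (by
        rw [abs_of_pos (by linarith), abs_of_pos (by linarith)]; linarith)
      have h3 := mul_le_mul_of_nonneg_left h2 hh.le
      linarith
    · have h1 := Phi_le (v := v) hs'
      have h2 := Phi_le (v := v) (u := -s) (by linarith)
      rw [Phi_neg] at h2
      have h3 : g v (s + h) ≤ g v (-s + h) := g_mono (Or.inr hs'.ne') (by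
        rw [abs_of_pos hs', abs_of_pos (by linarith)]; linarith)
      have h4 : g v (-s) ≤ g v (-s + h) := g_mono (Or.inr (by linarith : (0:ℝ) < -s).ne') (by
        rw [abs_of_pos (by linarith), abs_of_pos (by linarith)]; linarith)
      have h5 := mul_le_mul_of_nonneg_left h3 hs'.le
      have h6 := mul_le_mul_of_nonneg_left h4 (by linarith : (0:ℝ) ≤ -s)
      nlinarith

/-! ### sums over equally spaced points -/

lemma neg_sum_le {v u0 h : ℝ} (hh : 0 < h) (n : ℕ) (hne : ∀ k < n, v ≠ 0 ∨ u0 + k * h ≠ 0)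
    (hneg : ∀ k < n, u0 + k * h ≤ 0) :
    h * ∑ k ∈ range n, g v (u0 + k * h) ≤ Phi v (u0 + n * h - h) - Phi v (u0 - h) := by
  induction n with
  | zero => simp
  | succ n ih =>
    have ih' := ih (fun k hk => hne k (by omega)) (fun k hk => hneg k (by omega))
    rw [sum_range_succ, mul_add]
    have hn := hneg n (by omega)
    have h1 := stepU (v := v) (u := -(u0 + n * h)) (h := h) (by linarith) hh (by
      rcases hne n (by omega) with h | h
      · exact Or.inl h
      · exact Or.inr (neg_ne_zero.2 h))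
    rw [g_neg, show -(u0 + n * h) + h = -(u0 + n * h - h) by ring, Phi_neg, Phi_neg] at h1
    push_cast
    rw [show u0 + (n + 1) * h - h = u0 + n * h by ring]
    linarith

/-- upper bound, all cases. -/
lemma sum_g_le {v u0 h : ℝ} (hh : 0 < h) (n : ℕ) (hne : ∀ k < n, v ≠ 0 ∨ u0 + k * h ≠ 0) :
    h * ∑ k ∈ range n, g v (u0 + k * h) ≤ Phi v (u0 + n * h) - Phi v u0 +
      (max 0 (h * g v (|u0| + h)) + max 0 (h - h * Real.log (h / 2))) := by
  induction n with
  | zero =>
    simp only [range_zero, sum_empty, mul_zero, Nat.cast_zero, zero_mul, add_zero, sub_self, zero_add]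
    positivity
  | succ n ih =>
    have ih' := ih (fun k hk => hne k (by omega))
    rcases le_or_gt 0 (u0 + n * h) with hn | hn
    · rw [sum_range_succ, mul_add]
      have h1 := stepU (v := v) hn hh (hne n (by omega))
      push_cast
      rw [show u0 + (n + 1) * h = u0 + n * h + h by ring]
      linarith
    · have hall : ∀ k < n + 1, u0 + k * h ≤ 0 := by
        intro k hk
        have : (k : ℝ) ≤ n := by exact_mod_cast Nat.lt_succ_iff.1 hk
        nlinarith
      have h1 := neg_sum_le hh (n + 1) hne hall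
      have h2 := D_ge (v := v) (s := u0 + n * h) hh
      have hu0 : u0 ≤ 0 := by simpa using hall 0 (by omega)
      have h3 := stepL (v := v) (u := -u0 + h) (h := h) (by linarith) hh
      rw [add_sub_cancel_right, show -u0 + h = -(u0 - h) by ring, Phi_neg, Phi_neg,
        show -(u0 - h) = |u0| + h by rw [abs_of_nonpos hu0]; ring] at h3
      have h4 := le_max_right 0 (h * g v (|u0| + h))
      have h5 := le_max_right 0 (h - h * Real.log (h / 2))
      push_cast at h1 ⊢
      rw [show u0 + ((n : ℝ) + 1) * h - h = u0 + n * h by ring] at h1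
      rw [show u0 + ((n : ℝ) + 1) * h = u0 + n * h + h by ring]
      linarith

lemma neg_sum_ge {v u0 h : ℝ} (hh : 0 < h) (n : ℕ) (hneg : ∀ k < n, u0 + k * h ≤ -h) :
    Phi v (u0 + n * h) - Phi v u0 ≤ h * ∑ k ∈ range n, g v (u0 + k * h) := by
  induction n with
  | zero => simp
  | succ n ih =>
    have ih' := ih (fun k hk => hneg k (by omega))
    rw [sum_range_succ, mul_add]
    have hn := hneg n (by omega)
    have h1 := stepL (v := v) (u := -(u0 + n * h)) (h := h) (by linarith) hh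
    rw [g_neg, show -(u0 + n * h) - h = -(u0 + n * h + h) by ring, Phi_neg, Phi_neg] at h1
    push_cast
    rw [show u0 + ((n : ℝ) + 1) * h = u0 + n * h + h by ring]
    linarith

lemma sum_g_ge_aux {v u0 h l : ℝ} (hh : 0 < h) (hl : l ≤ 0) (n : ℕ)
    (hδ : ∀ k < n + 1, l ≤ g v (u0 + k * h)) :
    Phi v (u0 + n * h) - Phi v u0 + (2 * h * l - max 0 (h * g v (2 * h))) ≤
      h * ∑ k ∈ range (n + 1), g v (u0 + k * h) := by
  have hE := le_max_right 0 (h * g v (2 * h))
  have hE0 := le_max_left 0 (h * g v (2 * h))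
  have hhl : h * l ≤ 0 := mul_nonpos_of_nonneg_of_nonpos hh.le hl
  induction n with
  | zero =>
    have h1 := mul_le_mul_of_nonneg_left (hδ 0 (by omega)) hh.le
    simp only [Nat.cast_zero, zero_mul, add_zero, zero_add, range_one, sum_singleton, sub_self] at h1 ⊢
    linarith
  | succ n ih =>
    have ih' := ih (fun k hk => hδ k (by omega))
    have hn1 := mul_le_mul_of_nonneg_left (hδ (n + 1) (by omega)) hh.le
    have hn0 := mul_le_mul_of_nonneg_left (hδ n (by omega)) hh.le
    rcases le_or_gt h (u0 + (n + 1 : ℕ) * h) with hn | hn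
    · rw [sum_range_succ _ (n + 1), mul_add]
      have h1 := stepL (v := v) hn hh
      rw [show u0 + ((n + 1 : ℕ) : ℝ) * h - h = u0 + n * h by push_cast; ring] at h1
      linarith
    · rcases le_or_gt (u0 + n * h) (-h) with hn' | hn'
      · have hall : ∀ k < n + 1, u0 + k * h ≤ -h := by
          intro k hk
          have : (k : ℝ) ≤ n := by exact_mod_cast Nat.lt_succ_iff.1 hk
          nlinarith
        have h1 := neg_sum_ge (v := v) hh (n + 1) hall
        rw [sum_range_succ _ (n + 1), mul_add]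
        linarith
      · have hall : ∀ k < n, u0 + k * h ≤ -h := by
          intro k hk
          have : (k : ℝ) + 1 ≤ n := by exact_mod_cast hk
          push_cast at hn
          nlinarith
        have h1 := neg_sum_ge (v := v) hh n hall
        have h2 := D_le (v := v) (s := u0 + n * h) hh
        have hneg : u0 + n * h ≤ 0 := by push_cast at hn; linarith
        have h3 : g v (|u0 + n * h| + h) ≤ g v (2 * h) :=
          g_mono (Or.inr (by positivity)) (by
            rw [abs_of_nonpos hneg, abs_of_pos (by linarith : (0:ℝ) < -(u0 + n * h) + h),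
              abs_of_pos (by linarith : (0:ℝ) < 2 * h)]
            linarith)
        have h4 := mul_le_mul_of_nonneg_left h3 hh.le
        rw [sum_range_succ _ (n + 1), sum_range_succ _ n, mul_add, mul_add]
        rw [show u0 + ((n + 1 : ℕ) : ℝ) * h = u0 + n * h + h by push_cast; ring] at hn1 ⊢
        linarith

/-- lower bound, all cases: `l ≤ 0` is a lower bound of the logarithms of the distances. -/
lemma sum_g_ge {v u0 h l : ℝ} (hh : 0 < h) (hl : l ≤ 0) (n : ℕ)
    (hδ : ∀ k < n, l ≤ g v (u0 + k * h)) :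
    Phi v (u0 + n * h) - Phi v u0 +
        (2 * h * l - max 0 (h * g v (2 * h)) - max 0 (h * g v (max |u0| |u0 + n * h| + h))) ≤
      h * ∑ k ∈ range n, g v (u0 + k * h) := by
  rcases n with _ | n
  · simp only [range_zero, sum_empty, mul_zero, Nat.cast_zero, zero_mul, add_zero, sub_self, zero_add]
    have h1 := le_max_left 0 (h * g v (2 * h))
    have h2 := le_max_left 0 (h * g v (max |u0| |u0| + h))
    have h3 : h * l ≤ 0 := mul_nonpos_of_nonneg_of_nonpos hh.le hl
    linarith
  · have h1 := sum_g_ge_aux hh hl n hδ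
    have h2 := D_le (v := v) (s := u0 + n * h) hh
    have h5 : |u0 + n * h| ≤ max |u0| |u0 + (n + 1 : ℕ) * h| := by
      rcases le_or_gt 0 (u0 + n * h) with hs | hs
      · refine le_max_of_le_right ?_
        rw [abs_of_nonneg hs, abs_of_nonneg (by push_cast; linarith)]
        push_cast; linarith
      · refine le_max_of_le_left ?_
        have : (0:ℝ) ≤ n * h := by positivity
        rw [abs_of_neg hs, abs_of_neg (by linarith)]
        linarith
    have h7 : (0:ℝ) ≤ |u0 + n * h| := abs_nonneg _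
    have h3 : g v (|u0 + n * h| + h) ≤ g v (max |u0| |u0 + (n + 1 : ℕ) * h| + h) := by
      refine g_mono (Or.inr (by linarith : (0:ℝ) < |u0 + n * h| + h).ne') ?_
      rw [abs_of_pos (by linarith : (0:ℝ) < |u0 + n * h| + h),
        abs_of_pos (by linarith : (0:ℝ) < max |u0| |u0 + (n + 1 : ℕ) * h| + h)]
      linarith
    have h4 := mul_le_mul_of_nonneg_left h3 hh.le
    have h6 := le_max_right 0 (h * g v (max |u0| |u0 + (n + 1 : ℕ) * h| + h))
    rw [show u0 + ((n + 1 : ℕ) : ℝ) * h = u0 + n * h + h by push_cast; ring] at *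
    linarith

lemma g_le_log {v u R : ℝ} (hR : 1 ≤ R) (hv : |v| ≤ R) (hu : |u| ≤ 2 * R) :
    g v u ≤ Real.log (3 * R) := by
  unfold g
  have h1 : u ^ 2 ≤ (2 * R) ^ 2 := by
    rw [← sq_abs]; exact pow_le_pow_left₀ (abs_nonneg _) hu 2
  have h2 : v ^ 2 ≤ R ^ 2 := by
    rw [← sq_abs]; exact pow_le_pow_left₀ (abs_nonneg _) hv 2
  have h3 : u ^ 2 + v ^ 2 ≤ (3 * R) ^ 2 := by nlinarith
  have h4 : Real.log ((3 * R) ^ 2) = 2 * Real.log (3 * R) := by rw [Real.log_pow]; norm_num
  rcases (by positivity : (0:ℝ) ≤ u ^ 2 + v ^ 2).eq_or_lt with h0 | h0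
  · rw [← h0, Real.log_zero]
    have : 0 ≤ Real.log (3 * R) := Real.log_nonneg (by linarith)
    linarith
  · have := Real.log_le_log h0 h3
    linarith

lemma Phi_scale {b v u : ℝ} (hb : 0 < b) :
    Phi (b * v) (b * u) = b * (Phi v u + u * Real.log b) := by
  unfold Phi
  rw [show (b * u) ^ 2 + (b * v) ^ 2 = b ^ 2 * (u ^ 2 + v ^ 2) by ring,
    show b * u / (b * v) = u / v from mul_div_mul_left u v hb.ne']
  rcases (by positivity : (0:ℝ) ≤ u ^ 2 + v ^ 2).eq_or_lt with h0 | h0
  · have hu : u = 0 := by nlinarith [sq_nonneg u, sq_nonneg v]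
    subst hu
    simp
  · rw [Real.log_mul (by positivity) h0.ne', Real.log_pow]
    push_cast
    ring

/-- friendly upper bound. -/
theorem sum_le {v u0 h R : ℝ} (hh : 0 < h) (n : ℕ) (hne : ∀ k < n, v ≠ 0 ∨ u0 + k * h ≠ 0)
    (hR : 1 ≤ R) (hv : |v| ≤ R) (hu : |u0| ≤ R) (hhR : h ≤ R) :
    ∑ k ∈ range n, g v (u0 + k * h) ≤ (Phi v (u0 + n * h) - Phi v u0) / h +
      (Real.log (3 * R) + 1 + |Real.log (h / 2)|) := by
  have h1 := sum_g_le hh n hne
  have h0 : 0 ≤ Real.log (3 * R) := Real.log_nonneg (by linarith)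
  have h2 : max 0 (h * g v (|u0| + h)) ≤ h * Real.log (3 * R) := by
    refine max_le (by positivity) (mul_le_mul_of_nonneg_left (g_le_log hR hv ?_) hh.le)
    rw [abs_of_nonneg (by positivity)]; linarith
  have h3 : max 0 (h - h * Real.log (h / 2)) ≤ h * (1 + |Real.log (h / 2)|) := by
    refine max_le (by positivity) ?_
    have := neg_abs_le (Real.log (h / 2))
    nlinarith
  rw [div_add' _ _ _ hh.ne', le_div_iff₀ hh]
  nlinarith

/-- friendly lower bound. -/
theorem sum_ge {v u0 h R l : ℝ} (hh : 0 < h) (hl : l ≤ 0) (n : ℕ)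
    (hδ : ∀ k < n, l ≤ g v (u0 + k * h))
    (hR : 1 ≤ R) (hv : |v| ≤ R) (hu : |u0| ≤ R) (hu' : |u0 + n * h| ≤ R) (hhR : h ≤ R) :
    (Phi v (u0 + n * h) - Phi v u0) / h - (2 * Real.log (3 * R) - 2 * l) ≤
      ∑ k ∈ range n, g v (u0 + k * h) := by
  have h1 := sum_g_ge hh hl n hδ
  have h0 : 0 ≤ Real.log (3 * R) := Real.log_nonneg (by linarith)
  have h2 : max 0 (h * g v (2 * h)) ≤ h * Real.log (3 * R) := by
    refine max_le (by positivity) (mul_le_mul_of_nonneg_left (g_le_log hR hv ?_) hh.le)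
    rw [abs_of_nonneg (by positivity)]; linarith
  have h3 : max 0 (h * g v (max |u0| |u0 + n * h| + h)) ≤ h * Real.log (3 * R) := by
    refine max_le (by positivity) (mul_le_mul_of_nonneg_left (g_le_log hR hv ?_) hh.le)
    rw [abs_of_nonneg (by positivity)]
    have := max_le hu hu'
    linarith
  rw [sub_le_iff_le_add, div_le_iff₀ hh]
  nlinarith

/-! ### points on a segment of the complex plane -/

/-- potential at `z` of the uniform unit density on the segment `[c, c + L ω]`, `‖ω‖ = 1`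
(`= ∫_0^L log ‖z - c - t ω‖ dt`). -/
noncomputable def segPot (c ω : ℂ) (L : ℝ) (z : ℂ) : ℝ :=
  Phi ((z - c) * (starRingEnd ℂ) ω).im (L - ((z - c) * (starRingEnd ℂ) ω).re) -
    Phi ((z - c) * (starRingEnd ℂ) ω).im (-((z - c) * (starRingEnd ℂ) ω).re)

lemma log_norm_eq (z c ω : ℂ) (hω : ‖ω‖ = 1) (t : ℝ) :
    Real.log ‖z - (c + t * ω)‖ =
      g ((z - c) * (starRingEnd ℂ) ω).im (-((z - c) * (starRingEnd ℂ) ω).re + t) := by
  have h1 : ‖z - (c + t * ω)‖ = ‖(z - c) * (starRingEnd ℂ) ω - t‖ := by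
    have h2 : (z - c) * (starRingEnd ℂ) ω - t = (z - (c + t * ω)) * (starRingEnd ℂ) ω := by
      have : ω * (starRingEnd ℂ) ω = 1 := by
        rw [Complex.mul_conj, Complex.normSq_eq_norm_sq, hω]; simp
      linear_combination (t : ℂ) * this
    rw [h2, norm_mul, RCLike.norm_conj, hω, mul_one]
  rw [h1]
  set w := (z - c) * (starRingEnd ℂ) ω with hw
  unfold g
  have h3 : ‖w - t‖ ^ 2 = (-w.re + t) ^ 2 + w.im ^ 2 := by
    rw [← Complex.normSq_eq_norm_sq, Complex.normSq_apply]
    simp only [Complex.sub_re, Complex.ofReal_re, Complex.sub_im, Complex.ofReal_im, sub_zero]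
    ring
  rw [← h3, Real.log_pow]
  push_cast
  ring

/-- the scaling rule of the segment potential. -/
lemma segPot_scale {b : ℝ} (hb : 0 < b) (c ω : ℂ) (L : ℝ) (z : ℂ) :
    segPot (b * c) ω (b * L) (b * z) = b * (segPot c ω L z + L * Real.log b) := by
  have h1 : ((b : ℂ) * z - b * c) * (starRingEnd ℂ) ω = b * ((z - c) * (starRingEnd ℂ) ω) := by ring
  unfold segPot
  rw [h1]
  set w := (z - c) * (starRingEnd ℂ) ω
  have h2 : ((b : ℂ) * w).im = b * w.im := by simp
  have h3 : ((b : ℂ) * w).re = b * w.re := by simp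
  rw [h2, h3, show b * L - b * w.re = b * (L - w.re) by ring, show -(b * w.re) = b * -w.re by ring,
    Phi_scale hb, Phi_scale hb]
  ring

/-- UPPER BOUND: `n` points with step `h` starting at `c`, direction `ω`. -/
theorem sum_log_le (z c ω : ℂ) (hω : ‖ω‖ = 1) {h R : ℝ} (hh : 0 < h) (n : ℕ)
    (hne : ∀ k < n, z ≠ c + ((k * h : ℝ) : ℂ) * ω) (hR : 1 ≤ R) (hz : ‖z - c‖ ≤ R) (hhR : h ≤ R) :
    ∑ k ∈ range n, Real.log ‖z - (c + ((k * h : ℝ) : ℂ) * ω)‖ ≤
      segPot c ω (n * h) z / h + (Real.log (3 * R) + 1 + |Real.log (h / 2)|) := by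
  have hw : ‖(z - c) * (starRingEnd ℂ) ω‖ ≤ R := by
    rw [norm_mul, RCLike.norm_conj, hω, mul_one]; exact hz
  simp only [log_norm_eq z c ω hω]
  have key := sum_le (v := ((z - c) * (starRingEnd ℂ) ω).im)
    (u0 := -((z - c) * (starRingEnd ℂ) ω).re) (h := h) (R := R) hh n (by
      intro k hk
      by_contra hcon
      push Not at hcon
      refine hne k hk ?_
      have h1 := log_norm_eq z c ω hω (k * h)
      have h2 : ‖z - (c + ((k * h : ℝ) : ℂ) * ω)‖ = ‖(z - c) * (starRingEnd ℂ) ω - ((k * h : ℝ) : ℂ)‖ := by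
        have h2 : (z - c) * (starRingEnd ℂ) ω - ((k * h : ℝ) : ℂ) =
            (z - (c + ((k * h : ℝ) : ℂ) * ω)) * (starRingEnd ℂ) ω := by
          have : ω * (starRingEnd ℂ) ω = 1 := by
            rw [Complex.mul_conj, Complex.normSq_eq_norm_sq, hω]; simp
          linear_combination ((k * h : ℝ) : ℂ) * this
        rw [h2, norm_mul, RCLike.norm_conj, hω, mul_one]
      have h3 : (z - c) * (starRingEnd ℂ) ω - ((k * h : ℝ) : ℂ) = 0 := by
        apply Complex.ext
        · rw [Complex.sub_re, Complex.ofReal_re, Complex.zero_re]; linarith [hcon.2]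
        · rw [Complex.sub_im, Complex.ofReal_im, Complex.zero_im, sub_zero]; exact hcon.1
      rw [h3, norm_zero, norm_eq_zero] at h2
      exact sub_eq_zero.1 h2) hR
    ((Complex.abs_im_le_norm _).trans hw) (by rw [abs_neg]; exact (Complex.abs_re_le_norm _).trans hw) hhR
  refine key.trans (le_of_eq ?_)
  unfold segPot
  congr 3
  ring_nf

/-- LOWER BOUND: all distances at least `exp l`, `l ≤ 0`. -/
theorem sum_log_ge (z c ω : ℂ) (hω : ‖ω‖ = 1) {h R l : ℝ} (hh : 0 < h) (hl : l ≤ 0) (n : ℕ)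
    (hδ : ∀ k < n, l ≤ Real.log ‖z - (c + ((k * h : ℝ) : ℂ) * ω)‖) (hR : 1 ≤ R)
    (hz : ‖z - c‖ + n * h ≤ R) (hhR : h ≤ R) :
    segPot c ω (n * h) z / h - (2 * Real.log (3 * R) - 2 * l) ≤
      ∑ k ∈ range n, Real.log ‖z - (c + ((k * h : ℝ) : ℂ) * ω)‖ := by
  have hw : ‖(z - c) * (starRingEnd ℂ) ω‖ = ‖z - c‖ := by
    rw [norm_mul, RCLike.norm_conj, hω, mul_one]
  have hnh : 0 ≤ n * h := by positivity
  have hre := Complex.abs_re_le_norm ((z - c) * (starRingEnd ℂ) ω)
  have him := Complex.abs_im_le_norm ((z - c) * (starRingEnd ℂ) ω)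
  rw [hw] at hre him
  simp only [log_norm_eq z c ω hω] at hδ ⊢
  have key := sum_ge (v := ((z - c) * (starRingEnd ℂ) ω).im)
    (u0 := -((z - c) * (starRingEnd ℂ) ω).re) (h := h) (R := R) hh hl n hδ hR
    (by linarith) (by rw [abs_neg]; linarith) (by
      refine (abs_add_le _ _).trans ?_
      rw [abs_neg, abs_of_nonneg hnh]; linarith) hhR
  refine le_trans (le_of_eq ?_) key
  unfold segPot
  congr 3
  ring_nf

/-- UPPER BOUND for the product, no condition on `z`. -/
theorem prod_norm_le (z c ω : ℂ) (hω : ‖ω‖ = 1) {h R : ℝ} (hh : 0 < h) (n : ℕ)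
    (hR : 1 ≤ R) (hz : ‖z - c‖ ≤ R) (hhR : h ≤ R) :
    ∏ k ∈ range n, ‖z - (c + ((k * h : ℝ) : ℂ) * ω)‖ ≤
      Real.exp (segPot c ω (n * h) z / h + (Real.log (3 * R) + 1 + |Real.log (h / 2)|)) := by
  by_cases hne : ∀ k < n, z ≠ c + ((k * h : ℝ) : ℂ) * ω
  · have h1 := sum_log_le z c ω hω hh n hne hR hz hhR
    rw [← Real.log_prod (fun k hk => norm_ne_zero_iff.2 (sub_ne_zero.2 (hne k (mem_range.1 hk))))] at h1
    exact (Real.log_le_iff_le_exp (prod_pos fun k hk =>
      norm_pos_iff.2 (sub_ne_zero.2 (hne k (mem_range.1 hk))))).1 h1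
  · push Not at hne
    obtain ⟨k, hk, hk'⟩ := hne
    rw [prod_eq_zero (mem_range.2 hk) (by rw [norm_eq_zero, sub_eq_zero]; exact hk')]
    exact (Real.exp_pos _).le

/-- LOWER BOUND for the product: distances at least `δ ≤ 1`. -/
theorem prod_norm_ge (z c ω : ℂ) (hω : ‖ω‖ = 1) {h R δ : ℝ} (hh : 0 < h) (hδ0 : 0 < δ) (hδ1 : δ ≤ 1)
    (n : ℕ) (hδ : ∀ k < n, δ ≤ ‖z - (c + ((k * h : ℝ) : ℂ) * ω)‖) (hR : 1 ≤ R)
    (hz : ‖z - c‖ + n * h ≤ R) (hhR : h ≤ R) :
    Real.exp (segPot c ω (n * h) z / h - (2 * Real.log (3 * R) - 2 * Real.log δ)) ≤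
      ∏ k ∈ range n, ‖z - (c + ((k * h : ℝ) : ℂ) * ω)‖ := by
  have hpos : ∀ k ∈ range n, 0 < ‖z - (c + ((k * h : ℝ) : ℂ) * ω)‖ := fun k hk =>
    lt_of_lt_of_le hδ0 (hδ k (mem_range.1 hk))
  have h1 := sum_log_ge z c ω hω hh (Real.log_nonpos hδ0.le hδ1) n
    (fun k hk => Real.log_le_log hδ0 (hδ k hk)) hR hz hhR
  rw [← Real.log_prod (fun k hk => (hpos k hk).ne')] at h1
  exact (Real.le_log_iff_exp_le (prod_pos hpos)).1 h1

end Crest.Agent.R006.PotDiscx41
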