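import Crest.Agent.R006.PsiJ4_576
import Crest.Agent.R006.PsiInf_294
import Crest.Agent.R6K.WZ_630

/-!
# Row 6 (Catalan), block P3, analytic input (helper576), part 5

* `psi_nat : psi n = psiN n`
* Laurent decomposition of `J`, `L` in terms of jets
* all derivatives of `psiF` as sums
* moments `M vv j = mu j`
-/

set_option autoImplicit false

open Complex Filter Topology Metric Set
open scoped Real

namespace Crest.Agent.R006.PsiJ

/-! ### values at the natural numbers -/

open Crest.Agent.R6K in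
theorem psi_nat (n : ℕ) : psi (n : ℂ) = ((WZ.psiN n : ℝ) : ℂ) := by
  have hce : ∀ (n l : ℕ), (n : ℂ) ≠ ce l := by
    intro n l h
    have := congrArg Complex.re h
    rw [ce_re] at this
    simp at this
    have h1 : (0 : ℝ) ≤ l := Nat.cast_nonneg l
    have h2 : (0 : ℝ) ≤ n := Nat.cast_nonneg n
    linarith
  -- crude bound for psiN
  have hN : ∀ n : ℕ, |WZ.psiN n| ≤ (8 / 3) ^ n * Cat1.G := by
    intro n
    unfold WZ.psiN
    rw [abs_mul, abs_neg, abs_div]
    have h1 := WZ.abs_A_le n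
    have h2 : |WZ.h n| ≤ 8 ^ n := by
      unfold WZ.h
      rw [abs_div, abs_pow, abs_pow]
      have h3 : (Nat.centralBinom n : ℝ) ≤ 4 ^ n := by
        have h4 : Nat.centralBinom n ≤ 2 ^ (2 * n) := by
          rw [Nat.centralBinom_eq_two_mul_choose]
          exact Nat.choose_le_two_pow _ _
        have h5 : (Nat.centralBinom n : ℝ) ≤ 2 ^ (2 * n) := by exact_mod_cast h4
        rw [pow_mul] at h5
        norm_num at h5
        exact h5
      rw [div_le_iff₀ (by positivity)]
      rw [show |(-8 : ℝ)| = 8 by norm_num, abs_of_nonneg (Nat.cast_nonneg _)]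
      calc (Nat.centralBinom n : ℝ) ^ 3 ≤ (4 ^ n) ^ 3 := by gcongr
        _ = 8 ^ n * 8 ^ n := by
          rw [← pow_mul, ← mul_pow, mul_comm n 3, pow_mul]; norm_num
    have hG := WZ.G_pos
    calc |WZ.h n| / |(8 : ℝ)| * |WZ.A n| ≤ 8 ^ n / 8 * ((1 / 3) ^ n * (8 * Cat1.G)) := by
          rw [show |(8 : ℝ)| = 8 by norm_num]
          gcongr
      _ = _ := by
          rw [div_pow, div_pow]; simp; field_simp
  set f : ℕ → ℂ := fun n => (psi n - WZ.psiN n) / 3 ^ n with hf
  set ρ : ℕ → ℂ := fun n => -((2 * ((0 : ℂ) + n) + 1) ^ 3 / ((0 : ℂ) + n + 1) ^ 3) / 3 with hρ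
  have hrec : ∀ n, f (n + 1) = ρ n * f n := by
    intro n
    have h1 := psi_rec (z := (n : ℂ) + 1) (fun l => by
      have := hce (n + 1) l; push_cast at this; exact this) (fun l => by
      rw [add_sub_cancel_right]; exact hce n l)
    rw [add_sub_cancel_right] at h1
    have h2 : ((n : ℂ) + 1) ^ 3 * ((WZ.psiN (n + 1) : ℝ) : ℂ) +
        (2 * n + 1) ^ 3 * ((WZ.psiN n : ℝ) : ℂ) = -(3 * (n + 1) - 1) / 2 := by
      have := WZ.psiN_succ n
      have h3 := congrArg (fun x : ℝ => (x : ℂ)) this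
      push_cast at h3
      exact h3
    have h3 : ((n : ℂ) + 1) ≠ 0 := by exact_mod_cast Nat.succ_ne_zero n
    simp only [hf, hρ]
    push_cast
    have h4 : ((n : ℂ) + 1) ^ 3 * (psi (n + 1) - WZ.psiN (n + 1)) =
        -((2 * n + 1) ^ 3) * (psi n - WZ.psiN n) := by
      linear_combination h1 - h2
    have h5 : psi (n + 1) - WZ.psiN (n + 1) =
        -((2 * n + 1) ^ 3) * (psi n - WZ.psiN n) / ((n : ℂ) + 1) ^ 3 := by
      rw [eq_div_iff (pow_ne_zero _ h3)]
      linear_combination h4
    rw [h5]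
    simp only [zero_add]
    field_simp
    ring
  have hρ0 : ∀ n, ρ n ≠ 0 := by
    intro n
    simp only [hρ, zero_add]
    refine div_ne_zero (neg_ne_zero.mpr (div_ne_zero (pow_ne_zero _ ?_) (pow_ne_zero _ ?_)))
      (by norm_num)
    · exact_mod_cast (by omega : 2 * n + 1 ≠ 0)
    · exact_mod_cast Nat.succ_ne_zero n
  have hρ2 : ∀ᶠ n in atTop, 2 ≤ ‖ρ n‖ := by
    filter_upwards [eventually_ge_atTop 100] with n hn
    have hn' : (100 : ℝ) ≤ n := by exact_mod_cast hn
    have e : ‖ρ n‖ = (2 * n + 1) ^ 3 / (n + 1) ^ 3 / 3 := by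
      simp only [hρ, zero_add]
      rw [norm_div, norm_neg, norm_div, norm_pow, norm_pow]
      have e1 : ‖(2 * (n : ℂ) + 1)‖ = 2 * n + 1 := by
        rw [show (2 * (n : ℂ) + 1) = ((2 * n + 1 : ℕ) : ℂ) by push_cast; ring,
          Complex.norm_natCast]; push_cast; ring
      have e2 : ‖((n : ℂ) + 1)‖ = n + 1 := by
        rw [show ((n : ℂ) + 1) = ((n + 1 : ℕ) : ℂ) by push_cast; ring,
          Complex.norm_natCast]; push_cast; ring
      rw [e1, e2]; simp
    rw [e, le_div_iff₀ (by norm_num), le_div_iff₀ (by positivity)]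
    have h1 : (19 / 10 : ℝ) * (n + 1) ≤ 2 * n + 1 := by linarith
    calc (2 : ℝ) * 3 * (n + 1) ^ 3 ≤ (19 / 10 * (n + 1)) ^ 3 := by
          rw [mul_pow]
          have : (0 : ℝ) ≤ ((n : ℝ) + 1) ^ 3 := by positivity
          nlinarith
      _ ≤ _ := by gcongr
  obtain ⟨B, hB⟩ := psiF_bounded vv
  have hG := WZ.G_pos
  have hfB : ∀ᶠ n in atTop, ‖f n‖ ≤ |B| + Cat1.G := by
    filter_upwards [eventually_ge_atTop 1] with n hn
    have h1 : ‖psi n‖ ≤ |B| := by
      refine (hB n ?_).trans (le_abs_self B)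
      have : (1 : ℝ) ≤ n := by exact_mod_cast hn
      simp
      linarith
    simp only [hf]
    rw [norm_div, norm_pow, div_le_iff₀ (by simp)]
    have h2 : ‖((WZ.psiN n : ℝ) : ℂ)‖ ≤ (8 / 3) ^ n * Cat1.G := by
      rw [Complex.norm_real]; exact hN n
    have h3 : (1 : ℝ) ≤ 3 ^ n := one_le_pow₀ (by norm_num)
    have h4 : ((8 / 3 : ℝ)) ^ n ≤ 3 ^ n := by gcongr; norm_num
    calc ‖psi n - WZ.psiN n‖ ≤ ‖psi n‖ + ‖((WZ.psiN n : ℝ) : ℂ)‖ := norm_sub_le _ _
      _ ≤ |B| * 3 ^ n + 3 ^ n * Cat1.G := by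
          have := abs_nonneg B
          gcongr
          · nlinarith
          · exact h2.trans (by gcongr)
      _ = (|B| + Cat1.G) * ‖(3 : ℂ)‖ ^ n := by simp; ring
  have := eq_zero_of_ratio f ρ hrec hρ0 hρ2 _ hfB n
  simp only [hf] at this
  have h3 : ((3 : ℂ)) ^ n ≠ 0 := pow_ne_zero _ (by norm_num)
  rw [div_eq_zero_iff] at this
  rcases this with h | h
  · linear_combination h
  · exact absurd h h3

theorem psi_zero : psi 0 = -((Crest.Agent.R6K.Cat1.G : ℝ) : ℂ) := by
  have := psi_nat 0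
  rw [Crest.Agent.R6K.WZ.psiN_zero] at this
  push_cast at this
  exact this

/-! ### Laurent decomposition of `J` -/

/-- the holomorphic part of `J` near `ce l` -/
noncomputable def G3 (v : Fin 3 → ℂ) (l : ℕ) : ℂ → ℂ :=
  dslope (dslope (dslope (fun s => U l s * P v s) (ce l)) (ce l)) (ce l)

lemma UP_diffOn (v : Fin 3 → ℂ) (l : ℕ) :
    DifferentiableOn ℂ (fun s => U l s * P v s) (closedBall (ce l) (1 / 4)) := by
  intro s hs
  rw [mem_closedBall, dist_eq_norm] at hs
  exact ((U_differentiableAt l hs).mul (P_differentiable v s)).differentiableWithinAt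

lemma G3_diffOn (v : Fin 3 → ℂ) (l : ℕ) :
    DifferentiableOn ℂ (G3 v l) (closedBall (ce l) (1 / 4)) := by
  have hn : closedBall (ce l) (1 / 4 : ℝ) ∈ 𝓝 (ce l) := closedBall_mem_nhds _ (by norm_num)
  unfold G3
  rw [Complex.differentiableOn_dslope hn, Complex.differentiableOn_dslope hn,
    Complex.differentiableOn_dslope hn]
  exact UP_diffOn v l

lemma J_decomp (v : Fin 3 → ℂ) (l : ℕ) {s : ℂ} (hs : s ≠ ce l) :
    J v s = (dslope (dslope (fun s => U l s * P v s) (ce l)) (ce l) (ce l)) / (s - ce l)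
      + (dslope (fun s => U l s * P v s) (ce l) (ce l)) / (s - ce l) ^ 2
      + (U l (ce l) * P v (ce l)) / (s - ce l) ^ 3 + G3 v l s := by
  have he : s - ce l ≠ 0 := sub_ne_zero.mpr hs
  rw [J_eq v l hs]
  unfold G3
  rw [dslope_of_ne _ hs, slope_def_field, dslope_of_ne _ hs, slope_def_field,
    dslope_of_ne _ hs, slope_def_field]
  field_simp
  ring

/-- circle integrals of negative powers -/
lemma circ_neg_pow (c : ℂ) (r : ℝ) (k : ℕ) (hk : 2 ≤ k) :
    (∮ s in C(c, r), 1 / (s - c) ^ k) = 0 := by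
  have h := circleIntegral.integral_sub_zpow_of_ne (n := -(k : ℤ)) (by omega) c c r
  rw [← h]
  congr 1
  funext s
  rw [zpow_neg, zpow_natCast, one_div]

lemma circ_neg_one (c : ℂ) {r : ℝ} (hr : 0 < r) :
    (∮ s in C(c, r), 1 / (s - c)) = 2 * π * I := by
  have h := circleIntegral.integral_sub_center_inv c hr.ne'
  rw [← h]
  congr 1
  funext s
  rw [one_div]

/-- evaluation of the functional on holomorphic functions by 2-jets of the test function:
abstract form `J = a/(s-c) + b/(s-c)^2 + d/(s-c)^3 + G3` -/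
lemma L_eq_jets0 (v : Fin 3 → ℂ) (l : ℕ) {f : ℂ → ℂ}
    (hf : DifferentiableOn ℂ f (closedBall (ce l) (1 / 4))) :
    L v l f = (dslope (dslope (fun s => U l s * P v s) (ce l)) (ce l) (ce l)) * f (ce l)
      + (dslope (fun s => U l s * P v s) (ce l) (ce l)) * deriv f (ce l)
      + (U l (ce l) * P v (ce l)) * (deriv (deriv f) (ce l) / 2) := by
  set c := ce l with hc
  set a := (dslope (dslope (fun s => U l s * P v s) c) c c) with ha
  set b := (dslope (fun s => U l s * P v s) c c) with hb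
  set d := (U l c * P v c) with hd
  have h4 : (0 : ℝ) < 1 / 4 := by norm_num
  have hcont : ContinuousOn f (sphere c (1 / 4)) := hf.continuousOn.mono sphere_subset_closedBall
  have hinv : ∀ k : ℕ, ContinuousOn (fun s : ℂ => 1 / (s - c) ^ k) (sphere c (1 / 4)) := by
    intro k s hs
    refine ContinuousWithinAt.div continuousWithinAt_const (by fun_prop) (pow_ne_zero _ ?_)
    intro h
    have : s = c := by linear_combination h
    rw [this, mem_sphere, dist_self] at hs
    norm_num at hs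
  have hGc : ContinuousOn (G3 v l) (sphere c (1 / 4)) :=
    (G3_diffOn v l).continuousOn.mono sphere_subset_closedBall
  have i1 : CircleIntegrable (fun s => a * ((1 / (s - c) ^ (0 + 1)) • f s)) c (1 / 4) :=
    (ContinuousOn.mul continuousOn_const ((hinv _).smul hcont)).circleIntegrable h4.le
  have i2 : CircleIntegrable (fun s => b * ((1 / (s - c) ^ (1 + 1)) • f s)) c (1 / 4) :=
    (ContinuousOn.mul continuousOn_const ((hinv _).smul hcont)).circleIntegrable h4.le
  have i3 : CircleIntegrable (fun s => d * ((1 / (s - c) ^ (2 + 1)) • f s)) c (1 / 4) :=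
    (ContinuousOn.mul continuousOn_const ((hinv _).smul hcont)).circleIntegrable h4.le
  have i4 : CircleIntegrable (fun s => G3 v l s * f s) c (1 / 4) :=
    (hGc.mul hcont).circleIntegrable h4.le
  have e : (∮ s in C(c, 1 / 4), J v s * f s) =
      ∮ s in C(c, 1 / 4), (((a * ((1 / (s - c) ^ (0 + 1)) • f s) + b * ((1 / (s - c) ^ (1 + 1)) • f s))
        + d * ((1 / (s - c) ^ (2 + 1)) • f s)) + G3 v l s * f s) := by
    apply circleIntegral.integral_congr h4.le
    intro s hs
    have hne : s ≠ c := by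
      rintro rfl
      rw [mem_sphere, dist_self] at hs; norm_num at hs
    simp only [smul_eq_mul]
    rw [J_decomp v l hne]
    ring
  have e4 : (∮ s in C(c, 1 / 4), G3 v l s * f s) = 0 := by
    apply Complex.circleIntegral_eq_zero_of_differentiable_on_off_countable h4.le
      Set.countable_empty
    · exact (G3_diffOn v l).continuousOn.mul hf.continuousOn
    · intro s hs
      exact ((G3_diffOn v l).differentiableAt (closedBall_mem_nhds_of_mem hs.1)).mul
        (hf.differentiableAt (closedBall_mem_nhds_of_mem hs.1))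
  have f0 := hf.circleIntegral_one_div_sub_center_pow_smul h4 0
  have f1 := hf.circleIntegral_one_div_sub_center_pow_smul h4 1
  have f2 := hf.circleIntegral_one_div_sub_center_pow_smul h4 2
  have hit2 : iteratedDeriv 2 f c = deriv (deriv f) c := by
    rw [show (2 : ℕ) = 1 + 1 from rfl, iteratedDeriv_succ, iteratedDeriv_one]
  have s1 := circleIntegral.integral_add ((i1.add i2).add i3) i4
  have s2 := circleIntegral.integral_add (i1.add i2) i3
  simp only [Pi.add_apply] at s1 s2
  unfold L Lr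
  rw [e, s1, s2, circleIntegral.integral_add i1 i2, e4,
    circleIntegral.integral_const_mul, circleIntegral.integral_const_mul,
    circleIntegral.integral_const_mul, f0, f1, f2, hit2, iteratedDeriv_zero, iteratedDeriv_one]
  have := Complex.two_pi_I_ne_zero
  simp only [smul_eq_mul, Nat.factorial]
  push_cast
  field_simp
  ring

lemma p_values (v : Fin 3 → ℂ) (l : ℕ) :
    p v l 0 = dslope (dslope (fun s => U l s * P v s) (ce l)) (ce l) (ce l) ∧
    p v l 1 = dslope (fun s => U l s * P v s) (ce l) (ce l) ∧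
    p v l 2 = U l (ce l) * P v (ce l) := by
  have hd : ∀ j : ℕ, DifferentiableOn ℂ (fun s : ℂ => (s - ce l) ^ j) (closedBall (ce l) (1 / 4)) :=
    fun j => by fun_prop
  have d1 : ∀ s : ℂ, deriv (fun s : ℂ => (s - ce l) ^ 1) s = 1 := by
    intro s; simp
  have d2 : ∀ s : ℂ, deriv (fun s : ℂ => (s - ce l) ^ 2) s = 2 * (s - ce l) := by
    intro s
    have h : HasDerivAt (fun s : ℂ => (s - ce l) ^ 2) _ s :=
      ((hasDerivAt_id s).sub_const (ce l)).fun_pow 2
    rw [h.deriv]; simp
  refine ⟨?_, ?_, ?_⟩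
  · unfold p
    rw [L_eq_jets0 v l (hd 0)]
    simp
  · unfold p
    rw [L_eq_jets0 v l (hd 1)]
    have : deriv (fun s : ℂ => (s - ce l) ^ 1) = fun _ => 1 := by funext s; exact d1 s
    rw [this]
    simp
  · unfold p
    rw [L_eq_jets0 v l (hd 2)]
    have : deriv (fun s : ℂ => (s - ce l) ^ 2) = fun s => 2 * (s - ce l) := by funext s; exact d2 s
    rw [this]
    have h3 : deriv (fun s : ℂ => 2 * (s - ce l)) (ce l) = 2 := by
      have h : HasDerivAt (fun s : ℂ => 2 * (s - ce l)) _ (ce l) :=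
        ((hasDerivAt_id (ce l)).sub_const (ce l)).const_mul 2
      rw [h.deriv]; simp
    rw [h3]
    simp

/-- **the functional by 2-jets** -/
theorem L_eq_jets (v : Fin 3 → ℂ) (l : ℕ) {f : ℂ → ℂ}
    (hf : DifferentiableOn ℂ f (closedBall (ce l) (1 / 4))) :
    L v l f = p v l 0 * f (ce l) + p v l 1 * deriv f (ce l) +
      p v l 2 * (deriv (deriv f) (ce l) / 2) := by
  obtain ⟨h0, h1, h2⟩ := p_values v l
  rw [L_eq_jets0 v l hf, h0, h1, h2]

/-- **`J` minus its polar part is holomorphic** near `-1/2-l` -/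
theorem J_sub_pol (v : Fin 3 → ℂ) (l : ℕ) {s : ℂ} (hs : s ≠ ce l) :
    J v s = pol v l s + G3 v l s := by
  obtain ⟨h0, h1, h2⟩ := p_values v l
  rw [J_decomp v l hs]
  unfold pol
  simp only [Finset.sum_range_succ, Finset.sum_range_zero, zero_add]
  rw [h0, h1, h2]
  ring

end Crest.Agent.R006.PsiJ
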