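import Crest.Agent.R006.NumDict_464
import Crest.Agent.R006.CertOK_322

/-!
# Row 6, block P3: ray and real-cell inequalities from the fast checker (helper464)

`rayR_of`, `rayQ_of` : `RayR S d (x/2) (x/2 + Σ hs)`; `cellR_of`, `cellQ_of` : real cells with a
common origin `-X0`.
-/

set_option autoImplicit false

namespace Crest.Agent.R006.Cert

open D NumSegx464 Num482 NumDictx464 NumFastx179

def linEq (L M : Lin) : Bool :=
  Nat.beq L.A0p M.A0p && Nat.beq L.A0n M.A0n && Nat.beq L.B0p M.B0p && Nat.beq L.B0n M.B0n &&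
    Nat.beq L.eA0 M.eA0 && Nat.beq L.eB0 M.eB0 && Nat.beq L.Dp M.Dp && Nat.beq L.Dn M.Dn

theorem linEq_eq {L M : Lin} (h : linEq L M = true) : L = M := by
  unfold linEq at h
  simp only [Bool.and_eq_true] at h
  obtain ⟨⟨⟨⟨⟨⟨⟨h1, h2⟩, h3⟩, h4⟩, h5⟩, h6⟩, h7⟩, h8⟩ := h
  cases L; cases M
  simp only [Lin.mk.injEq]
  exact ⟨Nat.eq_of_beq_eq_true h1, Nat.eq_of_beq_eq_true h2, Nat.eq_of_beq_eq_true h3,
    Nat.eq_of_beq_eq_true h4, Nat.eq_of_beq_eq_true h5, Nat.eq_of_beq_eq_true h6,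
    Nat.eq_of_beq_eq_true h7, Nat.eq_of_beq_eq_true h8⟩

/-- the list part of the check -/
def preL (L : List WSeg) (P δ : ℤ × ℤ) (Dh : ℕ) (ts : List NT) : Bool :=
  Nat.blt 0 Dh && potOK L && okL (2 * Dh) (dblL L) &&
    same ts (genL (2 * Dh) (2 * P.1, 2 * P.2) δ (dblL L))

/-- the linear part -/
def preLin (L : List WSeg) (Dh : ℕ) (IA IB : ℤ × ℤ) (cl : ℤ) (ln : Lin) : Bool :=
  linEq (mkLin Dh (mass L) (mass2 (dblL L)) IA IB cl) ln

theorem line_of {L : List WSeg} {P δ : ℤ × ℤ} {Dh : ℕ} {ts : List NT} {IA IB : ℤ × ℤ}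
    {cl : ℤ} {ln : Lin} {a b : ℝ} (hp : preL L P δ Dh ts = true)
    (hl : preLin L Dh IA IB cl ln = true) (ha : Enc a IA) (hb : Enc b IB) {x : ℕ} {hs : List ℕ}
    (hne : hs ≠ []) (hc : checkCellsN ts ln x hs = true) :
    ∀ t : ℝ, (x : ℝ) ≤ 2 * t → 2 * t ≤ x + 2 * (hs.sum : ℕ) →
      potL L (gc P + t * gc δ) + a + b * t ≤ (cl : ℝ) / 281474976710656 := by
  unfold preL at hp
  unfold preLin at hl
  simp only [Bool.and_eq_true] at hp
  obtain ⟨⟨⟨h1, h2⟩, h3⟩, h4⟩ := hp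
  have h1' : 0 < Dh := Nat.le_of_ble_eq_true h1
  rw [← linEq_eq hl] at hc
  exact potL_line_le h1' ha hb h2 h3 h4 hne hc

/-! ### rays -/

def rayRPre (S : Shape) (d : Data) (Dh : ℕ) (ts : List NT) (ln : Lin) : Bool :=
  Nat.blt 0 d.D && preL (LRl S d) (apx S d) (-1, 1) Dh ts &&
    preLin (LRl S d) Dh (smulI (-(d.K * S.w)) ln8I) (negI (addI ln8I piI)) (lev d.lR d.D) ln

def rayQPre (S : Shape) (d : Data) (Dh : ℕ) (ts : List NT) (ln : Lin) : Bool :=
  Nat.blt 0 d.D && preL (LQl S d) (apx S d) (-1, 1) Dh ts &&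
    preLin (LQl S d) Dh (0, 0) (negI (smulI 2 piI)) (lev d.lQ d.D) ln

theorem rayR_of {S : Shape} {d : Data} {Dh : ℕ} {ts : List NT} {ln : Lin}
    (hp : rayRPre S d Dh ts ln = true) {x : ℕ} {hs : List ℕ}
    (hc : checkCellsN ts ln x hs = true) {r r' : ℝ} (hr : r = (x : ℝ) / 2)
    (hr' : r' = ((x : ℝ) + 2 * (hs.sum : ℕ)) / 2) (hne : hs ≠ [] := by simp) :
    RayR S d r r' := by
  subst hr hr'
  unfold rayRPre at hp
  simp only [Bool.and_eq_true] at hp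
  obtain ⟨⟨h0, h1⟩, h2⟩ := hp
  have hD : 0 < d.D := Nat.le_of_ble_eq_true h0
  have ha : Enc (-(Real.log 8 * (d.K * S.w))) (smulI (-(d.K * S.w)) ln8I) := by
    have := enc_ln8.smul (-(d.K * S.w))
    refine (Eq.subst (motive := fun r : ℝ => Enc r _) ?_ this)
    push_cast; ring
  have hb : Enc (-(Real.log 8 + Real.pi)) (negI (addI ln8I piI)) := (enc_ln8.add enc_pi).neg
  intro T h3 h4
  have hT : (0 : ℝ) ≤ T := le_trans (by positivity) h3
  rw [PhiR_ray S d hT]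
  exact (line_of h1 h2 ha hb hne hc T (by linarith) (by linarith)).trans (lev_le _ hD)

theorem rayQ_of {S : Shape} {d : Data} {Dh : ℕ} {ts : List NT} {ln : Lin}
    (hp : rayQPre S d Dh ts ln = true) {x : ℕ} {hs : List ℕ}
    (hc : checkCellsN ts ln x hs = true) {r r' : ℝ} (hr : r = (x : ℝ) / 2)
    (hr' : r' = ((x : ℝ) + 2 * (hs.sum : ℕ)) / 2) (hne : hs ≠ [] := by simp) :
    RayQ S d r r' := by
  subst hr hr'
  unfold rayQPre at hp
  simp only [Bool.and_eq_true] at hp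
  obtain ⟨⟨h0, h1⟩, h2⟩ := hp
  have hD : 0 < d.D := Nat.le_of_ble_eq_true h0
  have hb : Enc (-(2 * Real.pi)) (negI (smulI 2 piI)) := by
    have := (enc_pi.smul 2).neg
    refine (Eq.subst (motive := fun r : ℝ => Enc r _) ?_ this)
    push_cast; ring
  intro T h3 h4
  have hT : (0 : ℝ) ≤ T := le_trans (by positivity) h3
  rw [PhiQ_ray S d hT]
  have := (line_of h1 h2 enc_zero hb hne hc T (by linarith) (by linarith)).trans (lev_le _ hD)
  linarith

/-! ### real cells, common origin `-X0` -/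

theorem gc_lineX (X0 : ℤ) (x : ℝ) :
    ((x : ℝ) : ℂ) = gc (-X0, 0) + ((x + X0 : ℝ) : ℂ) * gc (1, 0) := by
  apply Complex.ext <;> simp

theorem castR {a b : ℤ} {x N : ℕ} (h : 2 * (a + b) = (x : ℤ) + 2 * (N : ℤ)) :
    2 * ((a : ℝ) + b) = x + 2 * (N : ℝ) := by
  have h' := congrArg (Int.cast : ℤ → ℝ) h
  push_cast at h'
  exact h'

/-- linear parts of one real cell (`R`) -/
def linR (S : Shape) (d : Data) (X0 : ℤ) (Dh : ℕ) (c : SCell) : Lin :=
  mkLin Dh (mass (LRl S d)) (mass2 (dblL (LRl S d)))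
    (subI (smulI (-X0) ln8I) (ofQ (d.lR + (c.al - c.be * X0)) d.D))
    (subI ln8I (ofQ c.be d.D)) 0

def linQ (S : Shape) (d : Data) (X0 : ℤ) (Dh : ℕ) (c : SCell) : Lin :=
  mkLin Dh (mass (LQl S d)) (mass2 (dblL (LQl S d)))
    (negI (ofQ (d.lQ + (c.al - c.be * X0)) d.D)) (negI (ofQ c.be d.D)) 0

theorem cellR_of {S : Shape} {d : Data} {X0 : ℤ} {Dh : ℕ} {ts : List NT} (hD : 0 < d.D)
    (hp : preL (LRl S d) (-X0, 0) (1, 0) Dh ts = true) {c : SCell} {ln : Lin}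
    (hl : linEq (linR S d X0 Dh c) ln = true) {hs : List ℕ} {x : ℕ}
    (hx : 2 * (c.l + X0) = x) (hr : 2 * (c.r + X0) = x + 2 * (hs.sum : ℕ)) (hne : hs ≠ [])
    (hc : checkCellsN ts ln x hs = true) : CellR S d c := by
  intro y hy
  have ha := (enc_ln8.smul (-X0)).sub (enc_ofQ (d.lR + (c.al - c.be * X0)) hD)
  have hb := enc_ln8.sub (enc_ofQ c.be hD)
  have hx' : 2 * ((c.l : ℝ) + X0) = x := by exact_mod_cast hx
  have hr' := castR hr
  have := line_of (P := (-X0, 0)) (δ := (1, 0)) (cl := 0) hp (ln := ln) hl ha hb hne hc (y + X0)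
    (by linarith [hy.1]) (by linarith [hy.2])
  rw [← gc_lineX] at this
  rw [PhiR_real]
  unfold SCell.val
  push_cast at this
  have e : (c.al + c.be * y : ℝ) / d.D = ((c.al : ℝ) - c.be * X0) / d.D +
      (c.be : ℝ) / d.D * (y + X0) := by ring
  have e2 : ((d.lR : ℝ) + ((c.al : ℝ) - c.be * X0)) / d.D =
      (d.lR : ℝ) / d.D + ((c.al : ℝ) - c.be * X0) / d.D := by ring
  rw [e]
  rw [e2, zero_div] at this
  nlinarith

theorem cellQ_of {S : Shape} {d : Data} {X0 : ℤ} {Dh : ℕ} {ts : List NT} (hD : 0 < d.D)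
    (hp : preL (LQl S d) (-X0, 0) (1, 0) Dh ts = true) {c : SCell} {ln : Lin}
    (hl : linEq (linQ S d X0 Dh c) ln = true) {hs : List ℕ} {x : ℕ}
    (hx : 2 * (c.l + X0) = x) (hr : 2 * (c.r + X0) = x + 2 * (hs.sum : ℕ)) (hne : hs ≠ [])
    (hc : checkCellsN ts ln x hs = true) : CellQ S d c := by
  intro y hy
  have ha := (enc_ofQ (d.lQ + (c.al - c.be * X0)) hD).neg
  have hb := (enc_ofQ c.be hD).neg
  have hx' : 2 * ((c.l : ℝ) + X0) = x := by exact_mod_cast hx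
  have hr' := castR hr
  have := line_of (P := (-X0, 0)) (δ := (1, 0)) (cl := 0) hp (ln := ln) hl ha hb hne hc (y + X0)
    (by linarith [hy.1]) (by linarith [hy.2])
  rw [← gc_lineX] at this
  rw [PhiQ_real]
  unfold SCell.val
  push_cast at this
  have e : (c.al + c.be * y : ℝ) / d.D = ((c.al : ℝ) - c.be * X0) / d.D +
      (c.be : ℝ) / d.D * (y + X0) := by ring
  have e2 : ((d.lQ : ℝ) + ((c.al : ℝ) - c.be * X0)) / d.D =
      (d.lQ : ℝ) / d.D + ((c.al : ℝ) - c.be * X0) / d.D := by ring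
  rw [e]
  rw [e2, zero_div] at this
  nlinarith

/-- all cells of a list: `k = (hsR, hsQ)` per cell -/
def realChk (S : Shape) (d : Data) (X0 : ℤ) (Dh Dh' : ℕ) (ts ts' : List NT) :
    List SCell → List (List ℕ × List ℕ) → Bool
  | [], [] => true
  | c :: L, k :: ks =>
    decide (0 ≤ c.l + X0) && decide (2 * (c.r + X0) = 2 * (c.l + X0) + 2 * (k.1.sum : ℕ)) &&
      decide (2 * (c.r + X0) = 2 * (c.l + X0) + 2 * (k.2.sum : ℕ)) &&
      (!k.1.isEmpty) && (!k.2.isEmpty) &&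
      checkCellsN ts (linR S d X0 Dh c) (2 * (c.l + X0)).toNat k.1 &&
      checkCellsN ts' (linQ S d X0 Dh' c) (2 * (c.l + X0)).toNat k.2 &&
      cell0_chk c && realChk S d X0 Dh Dh' ts ts' L ks
  | _, _ => false

theorem linEq_refl (L : Lin) : linEq L L = true := by
  unfold linEq; simp

theorem real_of {S : Shape} {d : Data} {X0 : ℤ} {Dh Dh' : ℕ} {ts ts' : List NT} (hD : 0 < d.D)
    (hp : preL (LRl S d) (-X0, 0) (1, 0) Dh ts = true)
    (hp' : preL (LQl S d) (-X0, 0) (1, 0) Dh' ts' = true) : ∀ (L : List SCell)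
    (ks : List (List ℕ × List ℕ)), realChk S d X0 Dh Dh' ts ts' L ks = true → CellsOK S d L
  | [], _, _ => by intro c hc; simp at hc
  | c :: L, [], h => by simp [realChk] at h
  | c :: L, k :: ks, h => by
    simp only [realChk, Bool.and_eq_true, decide_eq_true_eq] at h
    obtain ⟨⟨⟨⟨⟨⟨⟨⟨h1, h2⟩, h3⟩, h4⟩, h5⟩, h6⟩, h7⟩, h8⟩, h9⟩ := h
    have hx : 2 * (c.l + X0) = ((2 * (c.l + X0)).toNat : ℕ) :=
      (Int.toNat_of_nonneg (by omega)).symm
    intro c' hc'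
    rcases List.mem_cons.1 hc' with rfl | hc'
    · exact ⟨cellR_of hD hp (linEq_refl _) hx (by rw [← hx]; exact h2) (ne_of_isEmpty h4) h6,
        cellQ_of hD hp' (linEq_refl _) hx (by rw [← hx]; exact h3) (ne_of_isEmpty h5) h7,
        cell0_of_chk h8⟩
    · exact real_of hD hp hp' L ks h9 c' hc'

end Crest.Agent.R006.Cert
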