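import Crest.Agent.R006.Tail4_516

/-!
Row 6 (Catalan), block P3 (helper516), leaf (h) of 390's split: norm of the two-ray integral.

* `norm_rays_le`: `‖Φ‖ ≤ M (1+t)^{-2}` on both rays gives `‖rays k0 c Φ‖ ≤ 2 (1+c) M`;
* `norm_rays_exp`: `‖Φ‖ ≤ A (1+t)^D exp (u G(t/u))`, `G ≤ l` and `G T ≤ l - (T - T1)` for `T ≥ T1`
  give `‖rays k0 c Φ‖ ≤ 2 (1+c) A C (1+u)^(D+2) exp (u l)`, `C` depending on `D, T1` only.
-/

set_option autoImplicit false

open Complex MeasureTheory Set Filter Topology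
open scoped Real

noncomputable section

namespace Crest.Agent.R006.Tail516

lemma hasDerivAt_neg_inv {t : ℝ} (ht : 0 ≤ t) :
    HasDerivAt (fun t : ℝ => -(1 + t)⁻¹) (1 / (1 + t) ^ 2) t := by
  have h1 : (1 + t) ≠ 0 := by linarith
  have h : HasDerivAt (fun t : ℝ => -(1 + t)⁻¹) (-(-1 / (1 + t) ^ 2)) t :=
    (((hasDerivAt_id t).const_add 1).inv h1).neg
  rwa [neg_div, neg_neg] at h

lemma tendsto_neg_inv : Tendsto (fun t : ℝ => -(1 + t)⁻¹) atTop (𝓝 0) := by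
  have h : Tendsto (fun t : ℝ => 1 + t) atTop atTop := tendsto_atTop_add_const_left _ 1 tendsto_id
  have := (tendsto_inv_atTop_zero.comp h).neg
  simpa using this

lemma integrableOn_inv_sq : IntegrableOn (fun t : ℝ => 1 / (1 + t) ^ 2) (Ioi 0) :=
  integrableOn_Ioi_deriv_of_nonneg'
    (fun _ ht => hasDerivAt_neg_inv ht) (fun t _ => by positivity) tendsto_neg_inv

lemma integral_inv_sq : ∫ t in Ioi (0 : ℝ), 1 / (1 + t) ^ 2 = 1 := by
  have := integral_Ioi_of_hasDerivAt_of_nonneg' (a := 0)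
    (fun t ht => hasDerivAt_neg_inv (t := t) ht) (fun t _ => by positivity) tendsto_neg_inv
  rw [this]
  norm_num

lemma norm_ray_integral_le {f : ℝ → ℂ} {M : ℝ} (h : ∀ t : ℝ, 0 < t → ‖f t‖ ≤ M / (1 + t) ^ 2) :
    ‖∫ t in Ioi (0 : ℝ), f t‖ ≤ M := by
  have hi : IntegrableOn (fun t : ℝ => M * (1 / (1 + t) ^ 2)) (Ioi 0) :=
    integrableOn_inv_sq.const_mul M
  refine (norm_integral_le_of_norm_le hi ?_).trans ?_
  · filter_upwards [ae_restrict_mem measurableSet_Ioi] with t ht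
    have := h t ht
    rwa [div_eq_mul_one_div] at this
  · rw [integral_const_mul, integral_inv_sq, mul_one]

lemma norm_dir_le {c : ℝ} (hc : 0 < c) : ‖(-c + I : ℂ)‖ ≤ 1 + c ∧ ‖(-c - I : ℂ)‖ ≤ 1 + c := by
  constructor
  · calc ‖(-c + I : ℂ)‖ ≤ ‖(-c : ℂ)‖ + ‖I‖ := norm_add_le _ _
      _ = 1 + c := by rw [norm_neg, Complex.norm_real, Complex.norm_I, Real.norm_of_nonneg hc.le]; ring
  · calc ‖(-c - I : ℂ)‖ ≤ ‖(-c : ℂ)‖ + ‖I‖ := norm_sub_le _ _
      _ = 1 + c := by rw [norm_neg, Complex.norm_real, Complex.norm_I, Real.norm_of_nonneg hc.le]; ring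

/-- **norm of the two-ray integral** -/
theorem norm_rays_le {k0 : ℕ} {c M : ℝ} (hc : 0 < c) {Φ : ℂ → ℂ}
    (h1 : ∀ t : ℝ, 0 < t → ‖Φ (-(((k0 : ℝ) + 1 / 4 : ℝ) : ℂ) + t * (-c + I))‖ ≤ M / (1 + t) ^ 2)
    (h2 : ∀ t : ℝ, 0 < t → ‖Φ (-(((k0 : ℝ) + 1 / 4 : ℝ) : ℂ) + t * (-c - I))‖ ≤ M / (1 + t) ^ 2) :
    ‖rays k0 c Φ‖ ≤ 2 * (1 + c) * M := by
  have e1 := norm_ray_integral_le h1
  have e2 := norm_ray_integral_le h2
  obtain ⟨d1, d2⟩ := norm_dir_le hc
  have hM : 0 ≤ M := (norm_nonneg _).trans e1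
  unfold rays
  refine (norm_sub_le _ _).trans ?_
  rw [norm_mul, norm_mul]
  have f1 := mul_le_mul d1 e1 (norm_nonneg _) (by positivity)
  have f2 := mul_le_mul d2 e2 (norm_nonneg _) (by positivity)
  linarith

/-- the constant of `norm_rays_exp` -/
def rayC (D : ℕ) (T1 : ℝ) : ℝ := ((D + 2).factorial : ℝ) * Real.exp (1 + T1) + (1 + T1) ^ (D + 2)

lemma rayC_pos {D : ℕ} {T1 : ℝ} (h : 0 ≤ T1) : 0 < rayC D T1 := by
  unfold rayC; positivity

lemma ray_aux {G : ℝ → ℝ} {l T1 u : ℝ} (D : ℕ) (hu : 1 ≤ u) (hT1 : 0 ≤ T1)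
    (hG : ∀ T, 0 ≤ T → G T ≤ l) (hG1 : ∀ T, T1 ≤ T → G T ≤ l - (T - T1)) {t : ℝ} (ht : 0 ≤ t) :
    (1 + t) ^ (D + 2) * Real.exp (u * G (t / u)) ≤
      rayC D T1 * (1 + u) ^ (D + 2) * Real.exp (u * l) := by
  have hu0 : 0 < u := by linarith
  set T := t / u with hT
  have hT0 : 0 ≤ T := by positivity
  have htT : t = u * T := by rw [hT]; field_simp
  have h1 : 1 + t ≤ (1 + u) * (1 + T) := by rw [htT]; nlinarith
  have h2 : (1 + t) ^ (D + 2) ≤ (1 + u) ^ (D + 2) * (1 + T) ^ (D + 2) := by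
    rw [← mul_pow]; gcongr
  have h3 : (1 + T) ^ (D + 2) * Real.exp (u * G T) ≤ rayC D T1 * Real.exp (u * l) := by
    rcases le_total T T1 with h | h
    · have h4 : Real.exp (u * G T) ≤ Real.exp (u * l) :=
        Real.exp_le_exp.2 (mul_le_mul_of_nonneg_left (hG T hT0) hu0.le)
      have h5 : (1 + T) ^ (D + 2) ≤ rayC D T1 := by
        unfold rayC
        have : (1 + T) ^ (D + 2) ≤ (1 + T1) ^ (D + 2) := by gcongr
        have h6 : 0 ≤ ((D + 2).factorial : ℝ) * Real.exp (1 + T1) := by positivity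
        linarith
      exact mul_le_mul h5 h4 (Real.exp_pos _).le (rayC_pos hT1).le
    · have h4 : Real.exp (u * G T) ≤ Real.exp (u * l) * Real.exp (-(T - T1)) := by
        rw [← Real.exp_add]
        apply Real.exp_le_exp.2
        have := mul_le_mul_of_nonneg_left (hG1 T h) hu0.le
        nlinarith
      have h5 : (1 + T) ^ (D + 2) ≤ ((D + 2).factorial : ℝ) * Real.exp (1 + T) := by
        have := Real.pow_div_factorial_le_exp (1 + T) (by linarith) (D + 2)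
        rw [div_le_iff₀ (by positivity)] at this
        linarith
      calc (1 + T) ^ (D + 2) * Real.exp (u * G T)
          ≤ (((D + 2).factorial : ℝ) * Real.exp (1 + T)) *
              (Real.exp (u * l) * Real.exp (-(T - T1))) :=
            mul_le_mul h5 h4 (Real.exp_pos _).le (by positivity)
        _ = ((D + 2).factorial : ℝ) * (Real.exp (1 + T) * Real.exp (-(T - T1))) *
              Real.exp (u * l) := by ring
        _ = ((D + 2).factorial : ℝ) * Real.exp (1 + T1) * Real.exp (u * l) := by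
            rw [← Real.exp_add]
            congr 3
            ring
        _ ≤ rayC D T1 * Real.exp (u * l) := by
            refine mul_le_mul_of_nonneg_right ?_ (Real.exp_pos _).le
            unfold rayC
            have : 0 ≤ (1 + T1) ^ (D + 2) := by positivity
            linarith
  calc (1 + t) ^ (D + 2) * Real.exp (u * G T)
      ≤ ((1 + u) ^ (D + 2) * (1 + T) ^ (D + 2)) * Real.exp (u * G T) :=
        mul_le_mul_of_nonneg_right h2 (Real.exp_pos _).le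
    _ = (1 + u) ^ (D + 2) * ((1 + T) ^ (D + 2) * Real.exp (u * G T)) := by ring
    _ ≤ (1 + u) ^ (D + 2) * (rayC D T1 * Real.exp (u * l)) :=
        mul_le_mul_of_nonneg_left h3 (by positivity)
    _ = _ := by ring

/-- **ray integral from a pointwise exponent inequality**: upper and lower exponents may differ. -/
theorem norm_rays_exp {k0 : ℕ} {c A l T1 u : ℝ} {D : ℕ} {G1 G2 : ℝ → ℝ} (hc : 0 < c) (hA : 0 ≤ A)
    (hu : 1 ≤ u) (hT1 : 0 ≤ T1)
    (hG1 : ∀ T, 0 ≤ T → G1 T ≤ l) (hG1' : ∀ T, T1 ≤ T → G1 T ≤ l - (T - T1))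
    (hG2 : ∀ T, 0 ≤ T → G2 T ≤ l) (hG2' : ∀ T, T1 ≤ T → G2 T ≤ l - (T - T1)) {Φ : ℂ → ℂ}
    (h1 : ∀ t : ℝ, 0 < t → ‖Φ (-(((k0 : ℝ) + 1 / 4 : ℝ) : ℂ) + t * (-c + I))‖ ≤
      A * (1 + t) ^ D * Real.exp (u * G1 (t / u)))
    (h2 : ∀ t : ℝ, 0 < t → ‖Φ (-(((k0 : ℝ) + 1 / 4 : ℝ) : ℂ) + t * (-c - I))‖ ≤
      A * (1 + t) ^ D * Real.exp (u * G2 (t / u))) :
    ‖rays k0 c Φ‖ ≤ 2 * (1 + c) * (A * (rayC D T1 * (1 + u) ^ (D + 2) * Real.exp (u * l))) := by
  have key : ∀ G : ℝ → ℝ, (∀ T, 0 ≤ T → G T ≤ l) → (∀ T, T1 ≤ T → G T ≤ l - (T - T1)) →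
      ∀ t : ℝ, 0 < t → A * (1 + t) ^ D * Real.exp (u * G (t / u)) ≤
        A * (rayC D T1 * (1 + u) ^ (D + 2) * Real.exp (u * l)) / (1 + t) ^ 2 := by
    intro G g1 g2 t ht
    have h3 := ray_aux (G := G) D hu hT1 g1 g2 ht.le
    rw [le_div_iff₀ (by positivity)]
    calc A * (1 + t) ^ D * Real.exp (u * G (t / u)) * (1 + t) ^ 2
        = A * ((1 + t) ^ (D + 2) * Real.exp (u * G (t / u))) := by rw [pow_add]; ring
      _ ≤ _ := mul_le_mul_of_nonneg_left h3 hA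
  exact norm_rays_le hc (fun t ht => (h1 t ht).trans (key G1 hG1 hG1' t ht))
    (fun t ht => (h2 t ht).trans (key G2 hG2 hG2' t ht))

end Crest.Agent.R006.Tail516
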