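import Crest.Agent.R006.Link2_724
import Crest.Agent.R006.EntR3_724
import Crest.Agent.R006.LamR_724

/-!
Row 6 (helper724): REP, `R`-side. For a finite set `A` of sites of `Defs.lean` with
multiplicities `m` (`≤ 1` at integers `≥ 0` and at negative half-integers, `≤ 3` otherwise) and
`pc R = (∏_{w-sites} (X - z)) R'`, `deg P < ∑ m`:

`lam P (entries of R at X = G) = - ∑_l L vv l f - ∑_{stars} (2πi)⁻¹ ∮_{C(z,1/4)} J vv f`,
`f = R' P / NS'`, `NS' = ∏_{not w} (X - z)^m`.
-/

set_option autoImplicit false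

namespace Crest.Agent.R006.Base724

open Polynomial Filter Topology
open Crest.Agent.R006.NV Crest.Agent.R006.Germ724

/-! ### positions of sites -/

/-- doubled position -/
def dbl : D.Site → ℤ
  | .Z i => 2 * i
  | .H i => 2 * i + 1

lemma dbl_inj : Function.Injective dbl := by
  rintro (a | a) (b | b) h
  · simp only [dbl] at h; congr 1; omega
  · simp only [dbl] at h; omega
  · simp only [dbl] at h; omega
  · simp only [dbl] at h; congr 1; omega

lemma val_eq (z : D.Site) : ((z.val : ℚ) : ℂ) = (dbl z : ℂ) / 2 := by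
  rcases z with i | i
  · simp [D.Site.val, dbl]
  · simp [D.Site.val, dbl]; ring

lemma dist_half {a b : ℤ} (h : a ≠ b) : 1 / 2 ≤ ‖(a : ℂ) / 2 - (b : ℂ) / 2‖ := by
  have e : (a : ℂ) / 2 - (b : ℂ) / 2 = ((a - b : ℤ) : ℂ) / 2 := by push_cast; ring
  rw [e, norm_div, Complex.norm_intCast]
  have h1 : (1 : ℝ) ≤ |((a - b : ℤ) : ℝ)| := by
    have : (1 : ℤ) ≤ |a - b| := Int.one_le_abs (sub_ne_zero.mpr h)
    exact_mod_cast this
  have h2 : ‖(2 : ℂ)‖ = 2 := by simp
  rw [h2]
  linarith

lemma val_dist {a b : D.Site} (h : a ≠ b) : 1 / 2 ≤ ‖((a.val : ℚ) : ℂ) - ((b.val : ℚ) : ℂ)‖ := by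
  rw [val_eq, val_eq]
  exact dist_half fun hh => h (dbl_inj hh)

lemma site_eq_half (l : ℕ) : site l = ((-(2 * (l : ℤ)) - 1 : ℤ) : ℂ) / 2 := by
  unfold site; push_cast; ring

/-- w-sites -/
def IsW : D.Site → Prop
  | .Z _ => False
  | .H i => i < 0

instance : DecidablePred IsW := fun z => by
  rcases z with i | i
  · exact isFalse id
  · exact inferInstanceAs (Decidable (i < 0))

/-- star sites -/
def IsSt : D.Site → Prop
  | .Z _ => False
  | .H i => 0 ≤ i

instance : DecidablePred IsSt := fun z => by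
  rcases z with i | i
  · exact isFalse id
  · exact inferInstanceAs (Decidable (0 ≤ i))

lemma IsSt.exists {z : D.Site} (h : IsSt z) : ∃ l : ℕ, z = D.Site.H l := by
  rcases z with i | i
  · exact absurd h id
  · obtain ⟨l, hl⟩ := Int.eq_ofNat_of_zero_le (show 0 ≤ i from h)
    exact ⟨l, by rw [hl]⟩

lemma dist_site {a : D.Site} (ha : ¬ IsW a) (l : ℕ) : 1 / 2 ≤ ‖site l - ((a.val : ℚ) : ℂ)‖ := by
  rw [val_eq, site_eq_half]
  apply dist_half
  rcases a with i | i
  · simp only [dbl]; omega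
  · simp only [dbl, IsW] at *; omega

/-! ### node sets -/

/-- node data -/
structure Nodes where
  A : Finset D.Site
  m : D.Site → ℕ
  hZ : ∀ i : ℤ, 0 ≤ i → m (.Z i) ≤ 1
  hZ' : ∀ i : ℤ, i < 0 → m (.Z i) ≤ 3
  hH : ∀ i : ℤ, 0 ≤ i → m (.H i) ≤ 3
  hW : ∀ i : ℤ, D.Site.H i ∈ A → i < 0 → m (.H i) = 1

namespace Nodes

variable (N : Nodes)

/-- node positions -/
noncomputable def z (i : N.A) : ℂ := ((i.1.val : ℚ) : ℂ)

/-- multiplicities -/
def mul (i : N.A) : ℕ := N.m i.1

/-- the w-nodes -/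
def W : Finset N.A := Finset.univ.filter fun i => IsW i.1

/-- the star nodes -/
def St : Finset N.A := Finset.univ.filter fun i => IsSt i.1

lemma z_inj : Function.Injective N.z := by
  intro a b h
  by_contra hne
  have h1 := val_dist (a := a.1) (b := b.1) fun hh => hne (Subtype.ext hh)
  unfold z at h
  rw [h, sub_self, norm_zero] at h1
  linarith

/-- jump germ at a node -/
noncomputable def kap (K0 : PowerSeries ℂ) (i : N.A) : PowerSeries ℂ :=
  match i.1 with
  | .Z _ => 0
  | .H (Int.ofNat l) => Kr K0 l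
  | .H (Int.negSucc _) => 0

/-- the column of real entries -/
noncomputable def col (R : ℚ[X]) (i : N.A) : PowerSeries ℂ := PowerSeries.mk fun j => entC R (i.1, j)

/-- node polynomial without the w-nodes -/
noncomputable def den : ℂ[X] := NSoff N.z N.mul N.W

lemma off_of_not_W {i : N.A} (hi : i ∉ N.W) : Off (N.z i) := by
  intro l e
  have h : ¬ IsW i.1 := by
    intro h; apply hi; unfold W; simp [h]
  have := dist_site h l
  unfold z at e
  rw [e, sub_self, norm_zero] at this
  linarith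

lemma den_ne_of_dist {s : ℂ} (h : ∀ i, i ∉ N.W → s ≠ N.z i) : N.den.eval s ≠ 0 := by
  unfold den NSoff
  rw [eval_prod, Finset.prod_ne_zero_iff]
  intro i hi
  rw [eval_pow, eval_sub, eval_X, eval_C]
  exact pow_ne_zero _ (sub_ne_zero.mpr (h i (Finset.mem_sdiff.mp hi).2))

/-- the rational function -/
noncomputable def fR (R' P : ℂ[X]) (s : ℂ) : ℂ := R'.eval s * P.eval s / N.den.eval s

lemma fR_diff (R' P : ℂ[X]) {s : ℂ} (h : ∀ i, i ∉ N.W → s ≠ N.z i) :
    DifferentiableAt ℂ (N.fR R' P) s :=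
  (R'.differentiable.differentiableAt.mul P.differentiable.differentiableAt).div
    N.den.differentiable.differentiableAt (N.den_ne_of_dist h)

lemma near_site_ne {l : ℕ} {s : ℂ} (hs : ‖s - site l‖ ≤ 1 / 4) {i : N.A} (hi : i ∉ N.W) :
    s ≠ N.z i := by
  rintro rfl
  have h : ¬ IsW i.1 := by
    intro h; apply hi; unfold W; simp [h]
  have := dist_site h l
  rw [norm_sub_rev] at this
  unfold z at hs
  linarith

lemma fR_diffOn (R' P : ℂ[X]) (l : ℕ) :
    DifferentiableOn ℂ (N.fR R' P) (Metric.closedBall (site l) (1 / 4)) := by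
  intro s hs
  rw [Metric.mem_closedBall, dist_eq_norm] at hs
  exact (N.fR_diff R' P fun i hi => N.near_site_ne hs hi).differentiableWithinAt

lemma fR_good (R' P : ℂ[X]) : Good (N.fR R' P) := by
  have e : N.fR R' P = fun s =>
      (R' * P).eval s * ∏ i ∈ Finset.univ \ N.W, (s - N.z i) ^ (-(N.mul i : ℤ)) := by
    ext s
    unfold fR den
    rw [eval_mul, NSoff, eval_prod, div_eq_mul_inv, ← Finset.prod_inv_distrib]
    congr 1
    refine Finset.prod_congr rfl fun i _ => ?_
    rw [eval_pow, eval_sub, eval_X, eval_C, zpow_neg, zpow_natCast]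
  rw [e]
  refine (Good.eval _).mul (Good.prod _ fun i hi => ?_)
  exact Good.zpow (N.off_of_not_W (Finset.mem_sdiff.mp hi).2) _

/-- first form: `mu` and star coefficients -/
theorem rep1 {K0 : PowerSeries ℂ} (hK : Adm K0) (R : ℚ[X]) (R' P : ℂ[X])
    (hR : pc R = (∏ i ∈ N.W, (X - C (N.z i))) * R')
    (hP : P.degree < (∑ i, N.mul i : ℕ)) :
    Lam.lam N.z N.mul P (N.col R) = mu K0 (N.fR R' P) -
      ∑ i ∈ N.St, if N.mul i = 0 then 0 else
        PowerSeries.coeff (N.mul i - 1) (gm (N.z i) (pc R) * N.kap K0 i * Lam.wt N.z N.mul P i) := by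
  have hW : ∀ i ∈ N.W, N.mul i = 1 := by
    intro i hi
    unfold W at hi
    rw [Finset.mem_filter] at hi
    obtain ⟨⟨s, hs⟩, h⟩ := (⟨i, hi.2⟩ : ∃ j : N.A, IsW j.1)
    obtain ⟨i, hiA⟩ := i
    rcases i with j | j
    · exact absurd hi.2 id
    · exact N.hW j hiA hi.2
  have h := lamR N.z N.mul N.z_inj K0 N.W hW (fun i hi => N.off_of_not_W hi) (pc R) R' P hR hP
    (N.kap K0) (N.col R) ?_ ?_
  · rw [h]
    unfold fR den
    congr 1
    have hsub : N.St ⊆ Finset.univ \ N.W := by
      intro i hi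
      unfold St at hi
      rw [Finset.mem_filter] at hi
      obtain ⟨l, hl⟩ := hi.2.exists
      rw [Finset.mem_sdiff]
      refine ⟨Finset.mem_univ _, fun hw => ?_⟩
      unfold W at hw
      rw [Finset.mem_filter, hl] at hw
      have : ((l : ℤ)) < 0 := hw.2
      omega
    symm
    apply Finset.sum_subset hsub
    intro i _ hi
    have hk : N.kap K0 i = 0 := by
      unfold kap
      rcases hi' : i.1 with j | j
      · rfl
      · rcases j with l | l
        · exfalso
          apply hi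
          unfold St
          rw [Finset.mem_filter]
          refine ⟨Finset.mem_univ _, ?_⟩
          rw [hi']
          exact Int.natCast_nonneg l
        · rfl
    rw [hk]
    simp
  · intro i hi j hj
    have hc : PowerSeries.coeff j (N.col R i) = entC R (i.1, j) := by
      unfold col; simp
    rw [hc]
    obtain ⟨i, hiA⟩ := i
    rcases i with a | a
    · rcases a with n | n
      · have hj1 : j = 0 := by
          have := N.hZ (Int.ofNat n) (Int.natCast_nonneg n)
          have h2 : N.mul ⟨D.Site.Z (Int.ofNat n), hiA⟩ = N.m (D.Site.Z (Int.ofNat n)) := rfl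
          rw [h2] at hj
          omega
        subst hj1
        have hk : N.kap K0 ⟨D.Site.Z (Int.ofNat n), hiA⟩ = 0 := rfl
        have hz : N.z ⟨D.Site.Z (Int.ofNat n), hiA⟩ = (n : ℂ) := by
          unfold z; simp [D.Site.val]
        rw [hk, hz]
        have := hK.entC_nonneg R n
        simpa using this
      · have hj2 : j ≤ 2 := by
          have := N.hZ' (Int.negSucc n) (Int.negSucc_lt_zero n)
          have h2 : N.mul ⟨D.Site.Z (Int.negSucc n), hiA⟩ = N.m (D.Site.Z (Int.negSucc n)) := rfl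
          rw [h2] at hj
          omega
        have hk : N.kap K0 ⟨D.Site.Z (Int.negSucc n), hiA⟩ = 0 := rfl
        have hneg : Int.negSucc n = -(n : ℤ) - 1 := by rw [Int.negSucc_eq]; ring
        have hz : N.z ⟨D.Site.Z (Int.negSucc n), hiA⟩ = ((-(n : ℤ) - 1 : ℤ) : ℂ) := by
          unfold z; simp [D.Site.val, hneg]
        rw [hk, hz]
        have := hK.entC_neg R n j hj2
        simp only [mul_zero, map_zero, sub_zero]
        rw [← this]
        congr 2
        simp [hneg]
    · rcases a with l | l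
      · have hj2 : j ≤ 2 := by
          have := N.hH (Int.ofNat l) (Int.natCast_nonneg l)
          have h2 : N.mul ⟨D.Site.H (Int.ofNat l), hiA⟩ = N.m (D.Site.H (Int.ofNat l)) := rfl
          rw [h2] at hj
          omega
        have hk : N.kap K0 ⟨D.Site.H (Int.ofNat l), hiA⟩ = Kr K0 l := rfl
        have hz : N.z ⟨D.Site.H (Int.ofNat l), hiA⟩ = (l : ℂ) + 1 / 2 := by
          unfold z; simp [D.Site.val]
        rw [hk, hz]
        exact hK.entC_star R l j hj2
      · exfalso
        apply hi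
        unfold W
        rw [Finset.mem_filter]
        exact ⟨Finset.mem_univ _, Int.negSucc_lt_zero l⟩
  · intro i hi
    have hc : PowerSeries.coeff 0 (N.col R i) = entC R (i.1, 0) := by
      unfold col; simp
    rw [hc]
    have hi0 := hi
    obtain ⟨i, hiA⟩ := i
    unfold W at hi
    rw [Finset.mem_filter] at hi
    rcases i with a | a
    · exact absurd hi.2 id
    · rcases a with l | l
      · have : Int.ofNat l < 0 := hi.2
        simp at this
        omega
      · have hneg : Int.negSucc l = -(l : ℤ) - 1 := by rw [Int.negSucc_eq]; ring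
        have hz : N.z ⟨D.Site.H (Int.negSucc l), hiA⟩ = site l := by
          unfold z site; simp [D.Site.val, hneg]; ring
        have hroot : (pc R).eval (site l) = 0 := by
          rw [hR, eval_mul, eval_prod, Finset.prod_eq_zero hi0, zero_mul]
          simp [hz]
        rw [hz, ← hK.entC_w R l hroot]
        congr 2
        simp [hneg]

lemma near_node_ne {i k : N.A} (hik : k ≠ i) {s : ℂ} (hs : ‖s - N.z i‖ ≤ 1 / 4) : s ≠ N.z k := by
  rintro rfl
  have h := val_dist (a := k.1) (b := i.1) fun hh => hik (Subtype.ext hh)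
  unfold z at hs
  linarith

lemma W_mul {i : N.A} (hi : i ∈ N.W) : N.mul i = 1 := by
  unfold W at hi
  rw [Finset.mem_filter] at hi
  obtain ⟨i, hiA⟩ := i
  rcases i with j | j
  · exact absurd hi.2 id
  · exact N.hW j hiA hi.2

lemma St_not_W {i : N.A} (hi : i ∈ N.St) : i ∉ N.W := by
  unfold St at hi
  rw [Finset.mem_filter] at hi
  obtain ⟨l, hl⟩ := hi.2.exists
  intro hw
  unfold W at hw
  rw [Finset.mem_filter, hl] at hw
  have : ((l : ℤ)) < 0 := hw.2
  omega

/-- `f = R P / NS` off the nodes -/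
lemma fR_eq {R : ℚ[X]} {R' P : ℂ[X]} (hR : pc R = (∏ i ∈ N.W, (X - C (N.z i))) * R') {s : ℂ}
    (hs : ∀ i, s ≠ N.z i) : N.fR R' P s = (pc R).eval s * P.eval s / (Lam.NS N.z N.mul).eval s := by
  have hne : ∀ i, s - N.z i ≠ 0 := fun i => sub_ne_zero.mpr (hs i)
  have e4 : (Lam.NS N.z N.mul).eval s = (∏ i ∈ N.W, (s - N.z i)) * N.den.eval s := by
    unfold den
    rw [Lam.NS, NSoff, eval_prod, eval_prod, ← Finset.prod_sdiff (Finset.subset_univ N.W), mul_comm]
    congr 1
    refine Finset.prod_congr rfl fun i hi => ?_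
    rw [N.W_mul hi, pow_one, eval_sub, eval_X, eval_C]
  have e5 : (pc R).eval s = (∏ i ∈ N.W, (s - N.z i)) * R'.eval s := by
    rw [hR, eval_mul, eval_prod]
    simp
  have e6 : ∏ i ∈ N.W, (s - N.z i) ≠ 0 := Finset.prod_ne_zero_iff.mpr fun i _ => hne i
  have e7 : N.den.eval s ≠ 0 := N.den_ne_of_dist fun i _ => hs i
  unfold fR
  rw [e4, e5]
  field_simp

/-- circle form of one star term -/
lemma star_term (v : Fin 3 → ℂ) {R : ℚ[X]} {R' P : ℂ[X]}
    (hR : pc R = (∏ i ∈ N.W, (X - C (N.z i))) * R') {i : N.A} (hi : i ∈ N.St)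
    (hm : N.mul i ≠ 0) :
    PowerSeries.coeff (N.mul i - 1)
      (gm (N.z i) (pc R) * N.kap (K0J v) i * Lam.wt N.z N.mul P i) =
    (2 * Real.pi * Complex.I)⁻¹ * ∮ s in C(N.z i, 1 / 4), PsiJ.J v s * N.fR R' P s := by
  have hi0 := hi
  unfold St at hi0
  rw [Finset.mem_filter] at hi0
  obtain ⟨l, hl⟩ := hi0.2.exists
  have hz : N.z i = star l := by
    unfold z star; rw [hl]; simp [D.Site.val]
  have hk : N.kap (K0J v) i = Kr (K0J v) l := by
    obtain ⟨i, hiA⟩ := i
    simp only at hl
    subst hl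
    rfl
  set h : ℂ → ℂ := fun s => (pc R).eval s * P.eval s / (Lam.Nhat N.z N.mul i).eval s with hh
  have hNh : ∀ s, ‖s - N.z i‖ ≤ 1 / 4 → (Lam.Nhat N.z N.mul i).eval s ≠ 0 := by
    intro s hs
    rw [Lam.Nhat, eval_prod, Finset.prod_ne_zero_iff]
    intro k hk
    rw [eval_pow, eval_sub, eval_X, eval_C]
    exact pow_ne_zero _ (sub_ne_zero.mpr (N.near_node_ne (Finset.mem_erase.mp hk).1 hs))
  have hd : DifferentiableOn ℂ h (Metric.closedBall (star l) (1 / 4)) := by
    intro s hs
    rw [Metric.mem_closedBall, dist_eq_norm, ← hz] at hs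
    exact (((pc R).differentiable.differentiableAt.mul P.differentiable.differentiableAt).div
      (Lam.Nhat N.z N.mul i).differentiable.differentiableAt (hNh s hs)).differentiableWithinAt
  have hT : T h (star l) = gm (N.z i) (pc R) * Lam.wt N.z N.mul P i := by
    rw [← hz, hh, T_div ((analyticAt_eval _ _).fun_mul (analyticAt_eval _ _))
      (analyticAt_eval _ _) (hNh _ (by simp)), T_mul (analyticAt_eval _ _) (analyticAt_eval _ _),
      T_eval, T_eval, T_eval, Lam.wt, germ_eq_gm, germ_eq_gm, mul_assoc]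
  have hc := circle_star v l (N.mul i - 1) (by norm_num : (0 : ℝ) < 1 / 4) le_rfl hd
  have e1 : (∮ s in C(N.z i, 1 / 4), PsiJ.J v s * N.fR R' P s) =
      ∮ s in C(star l, 1 / 4), PsiJ.J v s * (h s / (s - star l) ^ (N.mul i - 1 + 1)) := by
    rw [hz]
    apply circleIntegral.integral_congr (by norm_num)
    intro s hs
    have hs' : ‖s - N.z i‖ = 1 / 4 := by
      rw [Metric.mem_sphere, dist_eq_norm] at hs; rw [hz]; exact hs
    have hne : ∀ k, s ≠ N.z k := by
      intro k
      by_cases hki : k = i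
      · subst hki
        rintro rfl
        simp at hs'
      · exact N.near_node_ne hki hs'.le
    simp only
    rw [N.fR_eq hR hne, Lam.NS_eq N.z N.mul i, eval_mul, eval_pow, eval_sub, eval_X, eval_C, hh]
    have : N.mul i - 1 + 1 = N.mul i := by omega
    rw [this, hz]
    simp only
    rw [mul_comm ((s - star l) ^ N.mul i), div_div]
  rw [e1, hc, hT, hk]
  have hpi : (2 * (Real.pi : ℂ) * Complex.I) ≠ 0 := Complex.two_pi_I_ne_zero
  rw [← mul_assoc, inv_mul_cancel₀ hpi, one_mul]
  congr 1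
  ring

/-- REP, `R`-side: circles at all the sites `-1/2-l` and at the star nodes. -/
theorem rep {R : ℚ[X]} {R' P : ℂ[X]}
    (hR : pc R = (∏ i ∈ N.W, (X - C (N.z i))) * R')
    (hP : P.degree < (∑ i, N.mul i : ℕ)) (hm : ∀ i ∈ N.St, N.mul i ≠ 0) :
    HasSum (fun l => PsiJ.L PsiJ.vv l (N.fR R' P))
      (-Lam.lam N.z N.mul P (N.col R) -
        ∑ i ∈ N.St, (2 * Real.pi * Complex.I)⁻¹ *
          ∮ s in C(N.z i, 1 / 4), PsiJ.J PsiJ.vv s * N.fR R' P s) := by
  have h := hasSum_L PsiJ.vv (N.fR_good R' P) (N.fR_diffOn R' P)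
  have h1 := N.rep1 adm_vv R R' P hR hP
  have h2 : ∑ i ∈ N.St, (if N.mul i = 0 then 0 else
        PowerSeries.coeff (N.mul i - 1)
          (gm (N.z i) (pc R) * N.kap (K0J PsiJ.vv) i * Lam.wt N.z N.mul P i)) =
      ∑ i ∈ N.St, (2 * Real.pi * Complex.I)⁻¹ *
          ∮ s in C(N.z i, 1 / 4), PsiJ.J PsiJ.vv s * N.fR R' P s := by
    refine Finset.sum_congr rfl fun i hi => ?_
    rw [if_neg (hm i hi), N.star_term PsiJ.vv hR hi (hm i hi)]
  rw [h2] at h1
  rw [h1]
  convert h using 1
  ring

end Nodes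

end Crest.Agent.R006.Base724
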