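import Crest.Agent.R006.RowSum_757

set_option autoImplicit false

/-!
# Row 6, blocks P4/P8: the sum over all rows, class by class (helper757)

`sum_rows_cls` : if `F` at a row is `V w (class) (index)` with `w` = the window of the row
(`0` : integers `n ≥ 0`; `1,2,3` : jets `0,1,2` at negative integers; `4,5,6` : jets at `l + 1/2`,
`l ≥ 0`; `7` : `-1/2-m`), then the sum over all rows is the sum over the classes of the window sums
plus the `c` extra `G`-rows.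
-/

namespace Crest.Agent.R006.P8.RowSumx757

open Finset Crest.Agent.R006 Crest.Agent.R006.P8 Crest.Agent.R006.D

/-- the window of a row -/
def wnd : D.Row → ℕ
  | (.Z i, j) => if 0 ≤ i then 0 else j + 1
  | (.H i, j) => if 0 ≤ i then j + 4 else 7

/-- the window sums of the class `a` -/
noncomputable def clsSum {M : Type*} [AddCommMonoid M] (S : Shape) (N p a : ℤ) (V : ℕ → ℤ → M) : M :=
  ∑ j ∈ Ico (jst 0 0 N p a) (jst S.B 0 N p a), V 0 j
    + (∑ j ∈ Ico (jst (-S.e1) 0 N p a) (jst 0 0 N p a), V 1 j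
    + (∑ j ∈ Ico (jst (-S.e2) 0 N p a) (jst 0 0 N p a), V 2 j
    + (∑ j ∈ Ico (jst (-S.e3) 0 N p a) (jst 0 0 N p a), V 3 j
    + (∑ j ∈ Ico (jst 0 1 N p a) (jst S.h1 1 N p a), V 4 j
    + (∑ j ∈ Ico (jst 0 1 N p a) (jst S.h2 1 N p a), V 5 j
    + (∑ j ∈ Ico (jst 0 1 N p a) (jst S.h3 1 N p a), V 6 j
    + ∑ j ∈ Ico (jst (-S.w) 1 N p a) (jst 0 1 N p a), V 7 j))))))

/-- **the sum over all rows, class by class** -/
theorem sum_rows_cls {M : Type*} [AddCommMonoid M] {S : Shape} {u c : ℕ} (hS : S.Good) {p : ℕ}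
    (hp : 0 < p) (hodd : p % 2 = 1) (V : ℕ → ℤ → ℤ → M) :
    ∑ x : Lam.Row (Bordx929.mm S u c), V (wnd (Bordx929.ofRow u c x))
        (cls p (dblx (Bordx929.ofRow u c x).1)) (jdx p (dblx (Bordx929.ofRow u c x).1)) =
      ∑ a ∈ range p, clsSum S u p a (fun w j => V w a j)
        + ∑ n ∈ Ico ((S.B * u : ℕ) : ℤ) ((S.B * u + c : ℕ) : ℤ), V 0 (cls p (2 * n)) (jdx p (2 * n)) := by
  rw [sum_rows hS (fun ρ => V (wnd ρ) (cls p (dblx ρ.1)) (jdx p (dblx ρ.1)))]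
  simp only [clsSum, Finset.sum_add_distrib]
  rw [← sum_winx (M := M) (A := 0) (B := S.B) (N := u) hp hodd (Or.inl rfl) (fun a j => V 0 a j),
    ← sum_winx (M := M) (A := -S.e1) (B := 0) (N := u) hp hodd (Or.inl rfl) (fun a j => V 1 a j),
    ← sum_winx (M := M) (A := -S.e2) (B := 0) (N := u) hp hodd (Or.inl rfl) (fun a j => V 2 a j),
    ← sum_winx (M := M) (A := -S.e3) (B := 0) (N := u) hp hodd (Or.inl rfl) (fun a j => V 3 a j),
    ← sum_winx (M := M) (A := 0) (B := S.h1) (N := u) hp hodd (Or.inr rfl) (fun a j => V 4 a j),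
    ← sum_winx (M := M) (A := 0) (B := S.h2) (N := u) hp hodd (Or.inr rfl) (fun a j => V 5 a j),
    ← sum_winx (M := M) (A := 0) (B := S.h3) (N := u) hp hodd (Or.inr rfl) (fun a j => V 6 a j),
    ← sum_winx (M := M) (A := -S.w) (B := 0) (N := u) hp hodd (Or.inr rfl) (fun a j => V 7 a j)]
  have hsplit : ∀ G : ℤ → M, ∑ i ∈ Ico (0 : ℤ) ((S.B * u + c : ℕ) : ℤ), G i =
      ∑ i ∈ Ico (0 : ℤ) ((S.B * u : ℕ) : ℤ), G i
        + ∑ i ∈ Ico ((S.B * u : ℕ) : ℤ) ((S.B * u + c : ℕ) : ℤ), G i := by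
    intro G
    rw [← Finset.Ico_union_Ico_eq_Ico (a := (0 : ℤ)) (b := ((S.B * u : ℕ) : ℤ)) (by positivity)
      (by push_cast; linarith [Int.natCast_nonneg c]),
      Finset.sum_union (Finset.Ico_disjoint_Ico_consecutive _ _ _)]
  rw [hsplit]
  have w0 : ∀ n ∈ Ico (0 : ℤ) ((S.B * u : ℕ) : ℤ), V (wnd (.Z n, 0)) (cls p (dblx (.Z n)))
      (jdx p (dblx (.Z n))) = V 0 (cls p (dblx (stx 0 n))) (jdx p (dblx (stx 0 n))) := by
    intro n hn
    rw [mem_Ico] at hn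
    rw [wnd, if_pos hn.1, stx_zero]
  have w0' : ∀ n ∈ Ico ((S.B * u : ℕ) : ℤ) ((S.B * u + c : ℕ) : ℤ), V (wnd (.Z n, 0))
      (cls p (dblx (.Z n))) (jdx p (dblx (.Z n))) = V 0 (cls p (2 * n)) (jdx p (2 * n)) := by
    intro n hn
    rw [mem_Ico] at hn
    rw [wnd, if_pos ((Int.natCast_nonneg _).trans hn.1), dblx]
  have wneg : ∀ (A : ℕ) (o : ℕ), ∀ n ∈ Ico (-(A : ℤ)) 0, V (wnd (.Z n, o)) (cls p (dblx (.Z n)))
      (jdx p (dblx (.Z n))) = V (o + 1) (cls p (dblx (stx 0 n))) (jdx p (dblx (stx 0 n))) := by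
    intro A o n hn
    rw [mem_Ico] at hn
    rw [wnd, if_neg (not_le.mpr hn.2), stx_zero]
  have wst : ∀ (A : ℕ) (o : ℕ), ∀ n ∈ Ico (0 : ℤ) (A : ℤ), V (wnd (.H n, o)) (cls p (dblx (.H n)))
      (jdx p (dblx (.H n))) = V (o + 4) (cls p (dblx (stx 1 n))) (jdx p (dblx (stx 1 n))) := by
    intro A o n hn
    rw [mem_Ico] at hn
    rw [wnd, if_pos hn.1, stx_one]
  have ww : ∀ n ∈ Ico (-((S.w * u : ℕ) : ℤ)) 0, V (wnd (.H n, 0)) (cls p (dblx (.H n)))
      (jdx p (dblx (.H n))) = V 7 (cls p (dblx (stx 1 n))) (jdx p (dblx (stx 1 n))) := by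
    intro n hn
    rw [mem_Ico] at hn
    rw [wnd, if_neg (not_le.mpr hn.2), stx_one]
  rw [Finset.sum_congr rfl w0, Finset.sum_congr rfl w0', Finset.sum_congr rfl (wneg _ 0),
    Finset.sum_congr rfl (wneg _ 1), Finset.sum_congr rfl (wneg _ 2),
    Finset.sum_congr rfl (wst _ 0), Finset.sum_congr rfl (wst _ 1), Finset.sum_congr rfl (wst _ 2),
    Finset.sum_congr rfl ww]
  push_cast
  simp only [zero_mul, neg_mul]
  abel

end Crest.Agent.R006.P8.RowSumx757
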