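import Crest.Agent.R006.RowCount_757
import Crest.Agent.R006.Bord_929

set_option autoImplicit false

/-!
# Row 6, blocks P4/P8: sums over all rows of the design = sums over the classes (helper757)

* `sum_rows` : `∑` over all rows `Lam.Row (mm S u c)` of `F (site, jet)` as a sum over the windows
  of the design (exact, any `F`).
* `dblx` : doubled coordinate of a site; `sum_winx` : the sum over a window of sites of any function
  of (class, index) = the sum over the classes and the indices between the two `jst`.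
* `jvec_getD` : the entries of `jvec`.
-/

namespace Crest.Agent.R006.P8.RowSumx757

open Finset Crest.Agent.R006 Crest.Agent.R006.P8 Crest.Agent.R006.D

/-! ### the rows of the design -/

section rows

variable {M : Type*} [AddCommMonoid M] {S : Shape} {u c : ℕ}

theorem sum_rows_sites (F : D.Row → M) :
    ∑ x : Lam.Row (Bordx929.mm S u c), F (Bordx929.ofRow u c x) =
      ∑ z ∈ Bordx929.sites S u c, ∑ j ∈ range (S.mult u c z), F (z, j) := by
  rw [← Finset.sum_coe_sort (Bordx929.sites S u c)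
    (fun z => ∑ j ∈ range (S.mult u c z), F (z, j)), Fintype.sum_sigma]
  refine Finset.sum_congr rfl fun z _ => ?_
  rw [← Fin.sum_univ_eq_sum_range (fun j => F (z.1, j)) (S.mult u c z.1)]
  rfl

/-- restriction of an interval by a condition that describes another interval -/
lemma sum_ite_Ico (G : ℤ → M) (a b a' b' : ℤ) (q : ℤ → Prop) [DecidablePred q]
    (h : ∀ i, (a ≤ i ∧ i < b) ∧ q i ↔ a' ≤ i ∧ i < b') :
    ∑ i ∈ Ico a b, (if q i then G i else 0) = ∑ i ∈ Ico a' b', G i := by
  rw [← Finset.sum_filter]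
  refine Finset.sum_congr ?_ fun _ _ => rfl
  ext i
  rw [mem_filter, mem_Ico, mem_Ico, h]

lemma sum_range_mult {m : ℕ} (hm : m ≤ 3) (G : ℕ → M) :
    ∑ j ∈ range m, G j = (if 0 < m then G 0 else 0) + (if 1 < m then G 1 else 0)
      + (if 2 < m then G 2 else 0) := by
  interval_cases m <;> simp [Finset.sum_range_succ]

/-- **the sum over all rows of the design**, window by window -/
theorem sum_rows (hS : S.Good) (F : D.Row → M) :
    ∑ x : Lam.Row (Bordx929.mm S u c), F (Bordx929.ofRow u c x) =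
      ∑ i ∈ Ico (0 : ℤ) ((S.B * u + c : ℕ) : ℤ), F (.Z i, 0)
      + (∑ i ∈ Ico (-((S.e1 * u : ℕ) : ℤ)) 0, F (.Z i, 0)
        + ∑ i ∈ Ico (-((S.e2 * u : ℕ) : ℤ)) 0, F (.Z i, 1)
        + ∑ i ∈ Ico (-((S.e3 * u : ℕ) : ℤ)) 0, F (.Z i, 2))
      + (∑ l ∈ Ico (0 : ℤ) ((S.h1 * u : ℕ) : ℤ), F (.H l, 0)
        + ∑ l ∈ Ico (0 : ℤ) ((S.h2 * u : ℕ) : ℤ), F (.H l, 1)
        + ∑ l ∈ Ico (0 : ℤ) ((S.h3 * u : ℕ) : ℤ), F (.H l, 2))
      + ∑ l ∈ Ico (-((S.w * u : ℕ) : ℤ)) 0, F (.H l, 0) := by
  have h1 := Nat.mul_le_mul_right u hS.e21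
  have h2 := Nat.mul_le_mul_right u hS.e32
  have h3 := Nat.mul_le_mul_right u hS.h21
  have h4 := Nat.mul_le_mul_right u hS.h32
  rw [sum_rows_sites, Bordx929.sites, Finset.sum_disjUnion, Finset.sum_map, Finset.sum_map]
  simp only [Function.Embedding.coeFn_mk]
  have e1 : ∀ i : ℤ, ∑ j ∈ range (S.mult u c (Site.Z i)), F (.Z i, j) =
      (if 0 ≤ i ∧ i < S.B * u + c then F (.Z i, 0) else 0)
      + (if i < 0 ∧ -i ≤ S.e1 * u then F (.Z i, 0) else 0)
      + (if i < 0 ∧ -i ≤ S.e2 * u then F (.Z i, 1) else 0)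
      + (if i < 0 ∧ -i ≤ S.e3 * u then F (.Z i, 2) else 0) := by
    intro i
    by_cases h : 0 ≤ i
    · have h' : ¬ i < 0 := not_lt.mpr h
      rw [Shape.mult, if_pos h]
      by_cases h5 : i < S.B * u + c
      · rw [if_pos h5]; simp [h, h', h5]
      · rw [if_neg h5]; simp [h', h5]
    · have h' : i < 0 := not_le.mp h
      rw [sum_range_mult (by rw [Shape.mult, if_neg h]; split_ifs <;> omega)]
      simp only [h, h', false_and, true_and, if_false, zero_add]
      rw [Shape.mult, if_neg h]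
      zify at h1 h2
      congr 1
      · congr 1
        · refine if_congr ?_ rfl rfl
          split_ifs <;> simp <;> omega
        · refine if_congr ?_ rfl rfl
          split_ifs <;> simp <;> omega
      · refine if_congr ?_ rfl rfl
        split_ifs <;> simp <;> omega
  have e2 : ∀ i : ℤ, ∑ j ∈ range (S.mult u c (Site.H i)), F (.H i, j) =
      (if i < 0 ∧ -i ≤ S.w * u then F (.H i, 0) else 0)
      + (if 0 ≤ i ∧ i < S.h1 * u then F (.H i, 0) else 0)
      + (if 0 ≤ i ∧ i < S.h2 * u then F (.H i, 1) else 0)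
      + (if 0 ≤ i ∧ i < S.h3 * u then F (.H i, 2) else 0) := by
    intro i
    by_cases h : 0 ≤ i
    · have h' : ¬ i < 0 := not_lt.mpr h
      rw [sum_range_mult (by rw [Shape.mult, if_pos h]; split_ifs <;> omega)]
      simp only [h, h', false_and, true_and, if_false, zero_add]
      rw [Shape.mult, if_pos h]
      zify at h3 h4
      congr 1
      · congr 1
        · refine if_congr ?_ rfl rfl
          split_ifs <;> simp <;> omega
        · refine if_congr ?_ rfl rfl
          split_ifs <;> simp <;> omega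
      · refine if_congr ?_ rfl rfl
        split_ifs <;> simp <;> omega
    · have h' : i < 0 := not_le.mp h
      rw [Shape.mult, if_neg h]
      by_cases h5 : -i ≤ S.w * u
      · rw [if_pos h5]; simp [h, h', h5]
      · rw [if_neg h5]; simp [h, h5]
  simp only [e1, e2, Finset.sum_add_distrib]
  rw [sum_ite_Ico _ _ _ 0 (S.B * u + c : ℕ), sum_ite_Ico _ _ _ (-((S.e1 * u : ℕ) : ℤ)) 0,
    sum_ite_Ico _ _ _ (-((S.e2 * u : ℕ) : ℤ)) 0, sum_ite_Ico _ _ _ (-((S.e3 * u : ℕ) : ℤ)) 0,
    sum_ite_Ico _ _ _ (-((S.w * u : ℕ) : ℤ)) 0, sum_ite_Ico _ _ _ 0 ((S.h1 * u : ℕ) : ℤ),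
    sum_ite_Ico _ _ _ 0 ((S.h2 * u : ℕ) : ℤ), sum_ite_Ico _ _ _ 0 ((S.h3 * u : ℕ) : ℤ)]
  · abel
  all_goals
    intro i
    zify at h1 h2 h3 h4
    have p1 : (0 : ℤ) ≤ S.e1 * u := by positivity
    have p2 : (0 : ℤ) ≤ S.e2 * u := by positivity
    have p3 : (0 : ℤ) ≤ S.e3 * u := by positivity
    have p4 : (0 : ℤ) ≤ S.h1 * u := by positivity
    have p5 : (0 : ℤ) ≤ S.h2 * u := by positivity
    have p6 : (0 : ℤ) ≤ S.h3 * u := by positivity
    have p7 : (0 : ℤ) ≤ S.w * u := by positivity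
    have p8 : (0 : ℤ) ≤ S.B * u := by positivity
    have p9 : (0 : ℤ) ≤ c := by positivity
    push_cast
    omega

end rows

/-! ### windows of sites, class by class -/

section wins

/-- doubled coordinate of a site -/
def dblx : Site → ℤ
  | .Z i => 2 * i
  | .H i => 2 * i + 1

/-- the site number `n` of type `h` -/
def stx (h n : ℤ) : Site := if h = 0 then .Z n else .H n

lemma stx_zero (n : ℤ) : stx 0 n = .Z n := rfl

lemma stx_one (n : ℤ) : stx 1 n = .H n := rfl

/-- **windows, class by class**: any function `V` of the class and of the index -/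
theorem sum_winx {M : Type*} [AddCommMonoid M] {A B h N : ℤ} {p : ℕ} (hp : 0 < p)
    (hodd : p % 2 = 1) (hh : h = 0 ∨ h = 1) (V : ℤ → ℤ → M) :
    ∑ n ∈ Ico (A * N) (B * N), V (cls p (dblx (stx h n))) (jdx p (dblx (stx h n))) =
      ∑ a ∈ range p, ∑ j ∈ Ico (jst A h N p a) (jst B h N p a), V a j := by
  have hp' : (0 : ℤ) < p := by exact_mod_cast hp
  have hodd' : (p : ℤ) % 2 = 1 := by omega
  have key : ∀ a ∈ range p, ∀ j : ℤ,
      V (cls p (2 * (a : ℤ) + (2 * j + h) * p)) (jdx p (2 * (a : ℤ) + (2 * j + h) * p)) = V a j := by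
    intro a ha j
    rw [mem_range] at ha
    obtain ⟨_, h1, h2⟩ := node_unique (c := a) (j := j) (h := h) hp' hodd' (by positivity)
      (by exact_mod_cast ha) hh rfl
    rw [h1, h2]
  have h1 := sum_window (A := A) (B := B) (N := N) hp hodd hh
    (fun s => V (cls p s) (jdx p s))
  rw [Finset.sum_congr rfl fun a ha => Finset.sum_congr rfl fun j _ => key a ha j] at h1
  rw [← h1]
  rcases hh with rfl | rfl
  · rw [win_int, Finset.sum_image (by intro a _ b _ hab; simpa using hab)]
    rfl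
  · rw [win_half, Finset.sum_image (by intro a _ b _ hab; simpa using hab)]
    rfl

lemma jvec_getD (bd : List (ℤ × ℤ)) {u p a : ℤ} (hp : 0 < p) (h0 : 0 ≤ a) (h1 : a < p) (i : ℕ) :
    (jvec bd u p a).getD i 0 = jst (bd.getD i (0, 0)).1 (bd.getD i (0, 0)).2 u p a := by
  rw [jvec]
  by_cases hi : i < bd.length
  · rw [List.getD_eq_getElem _ _ (by simpa using hi), List.getD_eq_getElem _ _ hi, List.getElem_map]
  · rw [List.getD_eq_default _ _ (by simpa using hi), List.getD_eq_default _ _ (by simpa using hi)]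
    rw [jst_zero_zero hp h0 h1]

lemma getD_idxOf {bd : List (ℤ × ℤ)} {q d : ℤ × ℤ} (h : q ∈ bd) : bd.getD (bd.idxOf q) d = q := by
  rw [List.getD_eq_getElem _ _ (List.idxOf_lt_length_of_mem h), List.getElem_idxOf]

/-- the entry of `jvec` at a listed boundary -/
lemma jvec_idxOf {bd : List (ℤ × ℤ)} {q : ℤ × ℤ} (h : q ∈ bd) {u p a : ℤ} (hp : 0 < p)
    (h0 : 0 ≤ a) (h1 : a < p) : (jvec bd u p a).getD (bd.idxOf q) 0 = jst q.1 q.2 u p a := by
  rw [jvec_getD bd hp h0 h1, getD_idxOf h]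

/-- the class of a site as a natural number (`P4M.cl`) -/
lemma cls_dblx_Z (p i : ℤ) : cls p (dblx (.Z i)) = i % p := cls_two_mul p i

lemma cls_dblx_H {p i : ℤ} (hodd : p % 2 = 1) :
    cls p (dblx (.H i)) = (i + (p + 1) / 2) % p := cls_two_mul_add_one hodd

end wins

end Crest.Agent.R006.P8.RowSumx757
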