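import Crest.Agent.R006.NumBr_464

/-!
# Row 6: symmetry of the mutual energy, self energy of a segment, permutation invariance (helper170)

* `segE_symm` : `segE A B C D = segE C D A B` (Fubini);
* `segE_self` : `segE A B A B = log ‖B - A‖ - 3/2`;
* `potL_perm`, `selfE_perm` : the list functionals of `NumSum_464` do not depend on the order.
-/

set_option autoImplicit false

namespace Crest.Agent.R006.SegSymmx170

open Real MeasureTheory Num482 Crest.Agent.R006.NumSegx464

/-- the integrand of `segE` is integrable on the square -/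
theorem integrable_square {A B : ℂ} (C D : ℂ) (hAB : B - A ≠ 0) :
    Integrable (Function.uncurry fun (τ κ : ℝ) =>
      Real.log ‖(C + τ * (D - C)) - (A + κ * (B - A))‖)
      ((volume.restrict (Set.uIoc (0:ℝ) 1)).prod (volume.restrict (Set.uIoc (0:ℝ) 1))) := by
  have hmeas : Measurable (Function.uncurry fun (τ κ : ℝ) =>
      Real.log ‖(C + τ * (D - C)) - (A + κ * (B - A))‖) := by
    refine Real.measurable_log.comp ?_
    have hc : Continuous fun p : ℝ × ℝ => ‖(C + p.1 * (D - C)) - (A + p.2 * (B - A))‖ := by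
      fun_prop
    exact hc.measurable
  -- the bound
  set M : ℝ := 1 + ‖C‖ + ‖D - C‖ + ‖A‖ + ‖B - A‖ with hM
  have hM1 : 1 ≤ M := by
    have := norm_nonneg C; have := norm_nonneg (D - C); have := norm_nonneg A
    have := norm_nonneg (B - A); linarith
  have hle : ∀ τ κ : ℝ, τ ∈ Set.uIoc (0:ℝ) 1 → κ ∈ Set.uIoc (0:ℝ) 1 →
      ‖(C + τ * (D - C)) - (A + κ * (B - A))‖ ≤ M := by
    intro τ κ hτ hκ
    rw [Set.uIoc_of_le zero_le_one] at hτ hκ
    have e1 : ‖(τ : ℂ) * (D - C)‖ ≤ ‖D - C‖ := by
      rw [norm_mul, Complex.norm_real, Real.norm_of_nonneg hτ.1.le]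
      exact mul_le_of_le_one_left (norm_nonneg _) hτ.2
    have e2 : ‖(κ : ℂ) * (B - A)‖ ≤ ‖B - A‖ := by
      rw [norm_mul, Complex.norm_real, Real.norm_of_nonneg hκ.1.le]
      exact mul_le_of_le_one_left (norm_nonneg _) hκ.2
    calc ‖(C + τ * (D - C)) - (A + κ * (B - A))‖
        ≤ ‖C + τ * (D - C)‖ + ‖A + κ * (B - A)‖ := norm_sub_le _ _
      _ ≤ (‖C‖ + ‖(τ:ℂ) * (D - C)‖) + (‖A‖ + ‖(κ:ℂ) * (B - A)‖) :=
          add_le_add (norm_add_le _ _) (norm_add_le _ _)
      _ ≤ M := by linarith
  have habs : ∀ x : ℝ, 0 ≤ x → x ≤ M → |Real.log x| ≤ 2 * Real.log M - Real.log x := by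
    intro x hx hxM
    have hlM : 0 ≤ Real.log M := Real.log_nonneg hM1
    rcases hx.eq_or_lt with h | h
    · rw [← h]; simp; linarith
    · have : Real.log x ≤ Real.log M := Real.log_le_log h hxM
      rw [abs_le]; constructor <;> linarith
  have hII : ∀ s : ℂ, IntervalIntegrable (fun κ : ℝ => Real.log ‖s - (A + κ * (B - A))‖)
      volume 0 1 := fun s => Potx943.intervalIntegrable_Iseg 0 1
  have hI : ∀ s : ℂ, Integrable (fun κ : ℝ => Real.log ‖s - (A + κ * (B - A))‖)
      (volume.restrict (Set.uIoc (0:ℝ) 1)) := fun s => by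
    have := hII s
    rw [intervalIntegrable_iff] at this
    exact this
  rw [integrable_prod_iff hmeas.aestronglyMeasurable]
  constructor
  · exact Filter.Eventually.of_forall fun τ => hI (C + τ * (D - C))
  · have hg : Integrable (fun τ : ℝ => 2 * Real.log M -
        ∫ κ in (0:ℝ)..1, Real.log ‖(C + τ * (D - C)) - (A + κ * (B - A))‖)
        (volume.restrict (Set.uIoc (0:ℝ) 1)) := by
      have hc : Continuous fun τ : ℝ => 2 * Real.log M -
        ∫ κ in (0:ℝ)..1, Real.log ‖(C + τ * (D - C)) - (A + κ * (B - A))‖ :=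
        continuous_const.sub ((continuous_inner hAB).comp (by fun_prop))
      have := hc.intervalIntegrable (μ := volume) 0 1
      rw [intervalIntegrable_iff] at this
      exact this
    refine hg.mono' hmeas.aestronglyMeasurable.norm.integral_prod_right' ?_
    rw [ae_restrict_iff' measurableSet_uIoc]
    refine Filter.Eventually.of_forall fun τ hτ => ?_
    rw [Real.norm_of_nonneg (integral_nonneg fun _ => norm_nonneg _)]
    have hIτ := hI (C + τ * (D - C))
    have : IsFiniteMeasure (volume.restrict (Set.uIoc (0:ℝ) 1)) := by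
      rw [Set.uIoc_of_le zero_le_one]; infer_instance
    have hcst : Integrable (fun _ : ℝ => 2 * Real.log M) (volume.restrict (Set.uIoc (0:ℝ) 1)) :=
      integrable_const _
    have hle' := hle τ
    have hmono : ∀ κ ∈ Set.uIoc (0:ℝ) 1, ‖Real.log ‖(C + τ * (D - C)) - (A + κ * (B - A))‖‖ ≤
        2 * Real.log M - Real.log ‖(C + τ * (D - C)) - (A + κ * (B - A))‖ := fun κ hκ =>
      habs _ (norm_nonneg _) (hle' κ hτ hκ)
    show ∫ κ : ℝ, ‖Real.log ‖(C + τ * (D - C)) - (A + κ * (B - A))‖‖
      ∂(volume.restrict (Set.uIoc (0:ℝ) 1)) ≤ _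
    generalize C + τ * (D - C) = s at hIτ hmono ⊢
    have h1 : ∫ κ : ℝ, ‖Real.log ‖s - (A + κ * (B - A))‖‖
          ∂(volume.restrict (Set.uIoc (0:ℝ) 1)) ≤
        ∫ κ : ℝ, (2 * Real.log M - Real.log ‖s - (A + κ * (B - A))‖)
          ∂(volume.restrict (Set.uIoc (0:ℝ) 1)) := by
      refine integral_mono_ae hIτ.norm (hcst.sub hIτ) ?_
      rw [Filter.EventuallyLE, ae_restrict_iff' measurableSet_uIoc]
      exact Filter.Eventually.of_forall hmono
    refine h1.trans (le_of_eq ?_)
    rw [integral_sub hcst hIτ, Set.uIoc_of_le zero_le_one,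
      intervalIntegral.integral_of_le zero_le_one]
    simp

/-- **symmetry of the mutual energy** -/
theorem segE_symm {A B : ℂ} (C D : ℂ) (hAB : B - A ≠ 0) : segE A B C D = segE C D A B := by
  unfold segE
  rw [intervalIntegral_intervalIntegral_swap
    (F := fun τ κ => Real.log ‖(C + τ * (D - C)) - (A + κ * (B - A))‖)]
  · congr 1; funext κ; congr 1; funext τ
    rw [norm_sub_rev]
  · have h := integrable_square C D hAB
    rw [Measure.prod_restrict, ← Measure.volume_eq_prod] at h
    exact h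

/-- **self energy of a segment** -/
theorem segE_self {A B : ℂ} (hAB : B - A ≠ 0) : segE A B A B = Real.log ‖B - A‖ - 3 / 2 := by
  set N : ℝ := Complex.normSq (B - A) with hN
  have hN0 : 0 < N := by rw [hN]; exact Complex.normSq_pos.2 hAB
  have hM : ((N : ℝ) : ℂ) = (B - A) * (starRingEnd ℂ) (B - A) := by
    rw [Complex.mul_conj]
  have h := segE_eq hAB hAB (N := N) (M := (N : ℂ)) (Z := 0) rfl hM (by simp) (by simp) (by simp)
  rw [h]
  have hk0 : kor (N : ℂ) 0 = 0 := by simp [kor]
  have hk1 : kor (N : ℂ) (N : ℂ) = N ^ 3 * Real.log N := by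
    unfold kor
    have e1 : ((starRingEnd ℂ) (N : ℂ) * (N : ℂ) ^ 2) = ((N ^ 3 : ℝ) : ℂ) := by
      rw [Complex.conj_ofReal]; push_cast; ring
    have e2 : ((N : ℂ)).re ^ 2 + ((N : ℂ)).im ^ 2 = N ^ 2 := by simp
    rw [e1, e2, Real.log_pow, Complex.ofReal_re, Complex.ofReal_im]
    push_cast; ring
  have hk2 : kor (N : ℂ) (0 - (N : ℂ)) = N ^ 3 * Real.log N := by
    unfold kor
    have e1 : ((starRingEnd ℂ) (N : ℂ) * (0 - (N : ℂ)) ^ 2) = ((N ^ 3 : ℝ) : ℂ) := by
      rw [Complex.conj_ofReal]; push_cast; ring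
    have e2 : ((0 - (N : ℂ))).re ^ 2 + ((0 - (N : ℂ))).im ^ 2 = N ^ 2 := by simp
    rw [e1, e2, Real.log_pow, Complex.ofReal_re, Complex.ofReal_im]
    push_cast; ring
  have e3 : (0 : ℂ) + (N : ℂ) = N := by ring
  have e4 : (0 : ℂ) + (N : ℂ) - ((N : ℝ) : ℂ) = 0 := by ring
  rw [e3, sub_self, hk0, hk1, hk2]
  have hlog : Real.log ‖B - A‖ = 1 / 2 * Real.log N := by
    rw [hN, ← Complex.sq_norm, Real.log_pow]; push_cast; ring
  have hsq : Complex.normSq (N : ℂ) = N ^ 2 := by
    rw [Complex.normSq_ofReal]; ring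
  rw [hlog, hsq]
  field_simp
  ring

/-! ### lists -/

/-- nondegenerate segment -/
def ND (p : WSeg) : Prop := gc p.2.1 - gc p.1 ≠ 0

theorem pairE_symm {p : WSeg} (q : WSeg) (hp : ND p) : pairE p q = pairE q p := by
  unfold pairE
  rw [segE_symm _ _ hp, mul_comm p.2.2]

theorem pairE_self {p : WSeg} (hp : ND p) :
    pairE p p = (p.2.2 : ℝ) ^ 2 * (Real.log ‖gc p.2.1 - gc p.1‖ - 3 / 2) := by
  unfold pairE
  rw [segE_self hp]
  push_cast; ring

theorem rowE_eq (p : WSeg) (L : List WSeg) : rowE p L = (L.map (pairE p)).sum := by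
  induction L with
  | nil => rfl
  | cons q L ih => simp [rowE, ih]

theorem potL_eq (L : List WSeg) (s : ℂ) :
    potL L s = (L.map fun p => (p.2.2 : ℝ) * pot (gc p.1) (gc p.2.1) s).sum := by
  induction L with
  | nil => rfl
  | cons q L ih => simp [potL, ih]

theorem potL_append (L L' : List WSeg) (s : ℂ) : potL (L ++ L') s = potL L s + potL L' s := by
  simp [potL_eq]

theorem potL_perm {L L' : List WSeg} (h : L.Perm L') (s : ℂ) : potL L s = potL L' s := by
  rw [potL_eq, potL_eq]
  exact (h.map _).sum_eq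

/-- the self energy as a full double sum -/
theorem two_selfE (L : List WSeg) (h : ∀ p ∈ L, ND p) :
    2 * selfE L = (L.map fun p => (L.map (pairE p)).sum).sum := by
  induction L with
  | nil => simp [selfE]
  | cons q L ih =>
    have hq := h q (by simp)
    have ih' := ih fun p hp => h p (by simp [hp])
    simp only [selfE, rowE_eq, List.map_cons, List.sum_cons]
    have e1 : (L.map fun p => pairE p q + (L.map (pairE p)).sum).sum
        = (L.map fun p => pairE p q).sum + (L.map fun p => (L.map (pairE p)).sum).sum := by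
      rw [List.sum_map_add]
    rw [e1, ← ih']
    have e2 : (L.map fun p => pairE p q) = L.map (pairE q) := by
      refine List.map_congr_left fun p hp => ?_
      exact pairE_symm q (h p (by simp [hp]))
    rw [e2]
    push_cast
    ring

theorem selfE_perm {L L' : List WSeg} (hp : L.Perm L') (h : ∀ p ∈ L, ND p) :
    selfE L = selfE L' := by
  have h' : ∀ p ∈ L', ND p := fun p hp' => h p (hp.mem_iff.2 hp')
  have e1 := two_selfE L h
  have e2 := two_selfE L' h'
  have e3 : (L.map fun p => (L.map (pairE p)).sum).sum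
      = (L'.map fun p => (L'.map (pairE p)).sum).sum := by
    have : (fun p => (L.map (pairE p)).sum) = fun p => (L'.map (pairE p)).sum := by
      funext p
      exact (hp.map _).sum_eq
    rw [this]
    exact (hp.map _).sum_eq
  linarith

/-- reflection of a potential -/
theorem pot_conj (A B s : ℂ) : pot ((starRingEnd ℂ) A) ((starRingEnd ℂ) B) ((starRingEnd ℂ) s)
    = pot A B s := by
  unfold pot
  congr 1; funext κ
  rw [← Complex.norm_conj]
  congr 2
  simp

end Crest.Agent.R006.SegSymmx170
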