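import Crest.Agent.R006.Tail1_516
import Crest.Agent.R006.G1Base_186

/-!
Row 6 (Catalan), block P3 (helper516).  Circle sums to the left of the apex `-(k0+1/4)` equal two
ray integrals, for densities `𝒥 z * (P z / N z)`, `N` with roots in `(1/2)ℤ`.
Part 2: pole structure, the theorems for `PsiJ.J v` and `G1x186.J1`.
-/

set_option autoImplicit false

open Complex MeasureTheory Set Filter Topology intervalIntegral Metric Function Polynomial
open scoped Real Interval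

noncomputable section

namespace Crest.Agent.R006.Tail516

open Crest.Agent.R006.Wedge516

/-- `𝒥` has poles of order at most `3` at the sites and is holomorphic elsewhere on the left -/
def Jump (𝒥 : ℂ → ℂ) : Prop := ∀ L : ℕ, ∃ Jr : ℂ → ℂ,
  DifferentiableOn ℂ Jr (strip (-L - 11 / 8) (-L - 1 / 8)) ∧
  ∀ z ∈ strip (-L - 11 / 8) (-L - 1 / 8), z ≠ PsiJ.ce L → 𝒥 z = Jr z / (z - PsiJ.ce L) ^ 3

/-- the offsets: site `1/4`, integer node `3/4` -/
def Off : Finset ℝ := {1 / 4, 3 / 4}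

lemma offM : OffM Off (1 / 4) (1 / 8) where
  pos := by intro φ hφ; simp [Off] at hφ; rcases hφ with rfl | rfl <;> norm_num
  lt_one := by intro φ hφ; simp [Off] at hφ; rcases hφ with rfl | rfl <;> norm_num
  r_pos := by norm_num
  δ_pos := by norm_num
  lo := by intro φ hφ; simp [Off] at hφ; rcases hφ with rfl | rfl <;> norm_num
  hi := by intro φ hφ; simp [Off] at hφ; rcases hφ with rfl | rfl <;> norm_num
  sep := by
    intro φ hφ φ' hφ' h
    simp [Off] at hφ hφ'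
    rcases hφ with rfl | rfl <;> rcases hφ' with rfl | rfl <;>
      first
        | exact absurd rfl h
        | norm_num [abs_of_pos, abs_of_neg]

lemma site_eq (k0 l : ℕ) : ((-(((k0 : ℝ) + 1 / 4) + l + 1 / 4) : ℝ) : ℂ) = PsiJ.ce (k0 + l) := by
  unfold PsiJ.ce; push_cast; ring

lemma node_eq (k0 l : ℕ) : ((-(((k0 : ℝ) + 1 / 4) + l + 3 / 4) : ℝ) : ℂ) =
    -((k0 + l + 1 : ℕ) : ℂ) := by
  push_cast; ring

/-- the only half-integers in the strip -/
lemma half_in_strip {k0 l : ℕ} {k : ℤ}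
    (h : ((k : ℂ) / 2) ∈ strip (-((k0 + l : ℕ) : ℝ) - 11 / 8) (-((k0 + l : ℕ) : ℝ) - 1 / 8)) :
    (k : ℂ) / 2 = PsiJ.ce (k0 + l) ∨ (k : ℂ) / 2 = -((k0 + l + 1 : ℕ) : ℂ) := by
  have e1 : ((k : ℂ) / 2).re = (k : ℝ) / 2 := by
    rw [show ((k : ℂ) / 2) = (((k : ℝ) / 2 : ℝ) : ℂ) by push_cast; ring, ofReal_re]
  obtain ⟨h1, h2⟩ := h
  rw [e1] at h1 h2
  push_cast at h1 h2
  have h3 : (-2 * (k0 + l : ℤ) - 3 : ℤ) < k := by
    have : ((-2 * (k0 + l : ℤ) - 3 : ℤ) : ℝ) < k := by push_cast; linarith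
    exact_mod_cast this
  have h4 : k < -2 * (k0 + l : ℤ) := by
    have : (k : ℝ) < ((-2 * (k0 + l : ℤ) : ℤ) : ℝ) := by push_cast; linarith
    exact_mod_cast this
  have h5 : k = -2 * (k0 + l : ℤ) - 1 ∨ k = -2 * (k0 + l : ℤ) - 2 := by omega
  rcases h5 with rfl | rfl
  · left; unfold PsiJ.ce; push_cast; ring
  · right; push_cast; ring

lemma cell_poles {𝒥 : ℂ → ℂ} (hJ : Jump 𝒥) {P N : ℂ[X]} (hN : N ≠ 0) (hr : HalfRoots N)
    (k0 l : ℕ) : PolesAt (fun z => 𝒥 z * (P.eval z / N.eval z))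
      (-(((k0 : ℝ) + 1 / 4) + l + 1) - 1 / 8) (-(((k0 : ℝ) + 1 / 4) + l) + 1 / 8)
      (cellF Off ((k0 : ℝ) + 1 / 4) l) (2 + N.natDegree) := by
  classical
  have hstrip : strip (-(((k0 : ℝ) + 1 / 4) + l + 1) - 1 / 8) (-(((k0 : ℝ) + 1 / 4) + l) + 1 / 8) =
      strip (-((k0 + l : ℕ) : ℝ) - 11 / 8) (-((k0 + l : ℕ) : ℝ) - 1 / 8) := by
    congr 1 <;> push_cast <;> ring
  rw [show PolesAt (fun z => 𝒥 z * (P.eval z / N.eval z))
      (-(((k0 : ℝ) + 1 / 4) + l + 1) - 1 / 8) (-(((k0 : ℝ) + 1 / 4) + l) + 1 / 8)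
      (cellF Off ((k0 : ℝ) + 1 / 4) l) (2 + N.natDegree) = PolesAt
      (fun z => 𝒥 z * (P.eval z / N.eval z))
      (-((k0 + l : ℕ) : ℝ) - 11 / 8) (-((k0 + l : ℕ) : ℝ) - 1 / 8)
      (cellF Off ((k0 : ℝ) + 1 / 4) l) (2 + N.natDegree) by
    congr 1 <;> push_cast <;> ring]
  obtain ⟨Jr, hJr, hJe⟩ := hJ (k0 + l)
  set a : ℂ := PsiJ.ce (k0 + l) with ha
  set b : ℂ := -((k0 + l + 1 : ℕ) : ℂ) with hb
  -- factor N
  obtain ⟨N1, hN1, hN1a⟩ := exists_eq_pow_rootMultiplicity_mul_and_not_dvd N hN a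
  set i := rootMultiplicity a N with hi
  have hN10 : N1 ≠ 0 := by rintro rfl; rw [mul_zero] at hN1; exact hN hN1
  obtain ⟨N2, hN2, hN2b⟩ := exists_eq_pow_rootMultiplicity_mul_and_not_dvd N1 hN10 b
  set j := rootMultiplicity b N1 with hj
  have hdeg : ∀ (x : ℂ) (n : ℕ) (M : ℂ[X]), M ≠ 0 → (X - C x) ^ n ∣ M → n ≤ M.natDegree := by
    intro x n M hM hd
    have := natDegree_le_of_dvd hd hM
    rwa [natDegree_pow, natDegree_X_sub_C, mul_one] at this
  have hi' : i ≤ N.natDegree := hdeg a i N hN ⟨N1, hN1⟩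
  have hj' : j ≤ N.natDegree := (hdeg b j N hN (Dvd.dvd.trans ⟨N2, hN2⟩ ⟨_, by rw [mul_comm]; exact hN1⟩))
  have hev : ∀ z : ℂ, N.eval z = (z - a) ^ i * ((z - b) ^ j * N2.eval z) := by
    intro z
    conv_lhs => rw [hN1, hN2]
    simp [eval_mul, eval_pow, eval_sub]
  have hN2ne : ∀ z ∈ strip (-((k0 + l : ℕ) : ℝ) - 11 / 8) (-((k0 + l : ℕ) : ℝ) - 1 / 8),
      N2.eval z ≠ 0 := by
    intro z hz h0
    have h1 : N.eval z = 0 := by rw [hev, h0]; simp
    obtain ⟨k, rfl⟩ := hr z h1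
    rcases half_in_strip hz with h2 | h2
    · rw [h2] at h0
      refine hN1a ?_
      rw [dvd_iff_isRoot, IsRoot.def, hN2, eval_mul, h0, mul_zero]
    · rw [h2] at h0
      exact hN2b (by rwa [dvd_iff_isRoot, IsRoot.def])
  have hab : a ≠ b := by
    intro h
    have := congrArg Complex.re h
    simp [ha, hb, PsiJ.ce] at this
    linarith
  have hF : cellF Off ((k0 : ℝ) + 1 / 4) l =
      {-(((k0 : ℝ) + 1 / 4) + l + 1 / 4), -(((k0 : ℝ) + 1 / 4) + l + 3 / 4)} := by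
    ext s
    simp only [cellF, Off, Finset.mem_image, Finset.mem_insert, Finset.mem_singleton]
    constructor
    · rintro ⟨φ, hφ, rfl⟩
      rcases hφ with rfl | rfl
      · left; rfl
      · right; rfl
    · rintro (rfl | rfl)
      · exact ⟨1 / 4, Or.inl rfl, rfl⟩
      · exact ⟨3 / 4, Or.inr rfl, rfl⟩
  refine polesAt_of_prod (H := fun z => Jr z * P.eval z * ((z - a) ^ (N.natDegree - i) *
    (z - b) ^ (3 + N.natDegree - j)) / N2.eval z) (by rw [hF]; simp) ?_ ?_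
  · refine DifferentiableOn.div ?_ N2.differentiable.differentiableOn hN2ne
    exact (hJr.mul P.differentiable.differentiableOn).mul (by fun_prop)
  · intro z hz hne
    have hza : z ≠ a := by
      have := hne _ (by rw [hF]; exact Finset.mem_insert_self _ _)
      rwa [site_eq] at this
    have hzb : z ≠ b := by
      have := hne _ (by rw [hF]; exact Finset.mem_insert_of_mem (Finset.mem_singleton_self _))
      rwa [node_eq] at this
    have hza' : z - a ≠ 0 := sub_ne_zero.2 hza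
    have hzb' : z - b ≠ 0 := sub_ne_zero.2 hzb
    have hN2z := hN2ne z hz
    have hprod : ∏ s ∈ cellF Off ((k0 : ℝ) + 1 / 4) l, (z - (s : ℂ)) ^ (2 + N.natDegree + 1) =
        (z - a) ^ (3 + N.natDegree) * (z - b) ^ (3 + N.natDegree) := by
      rw [hF, Finset.prod_insert, Finset.prod_singleton, site_eq, node_eq,
        show 2 + N.natDegree + 1 = 3 + N.natDegree by ring]
      rw [Finset.mem_singleton]
      intro h
      linarith
    rw [hprod, hJe z hz hza, hev z]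
    have e1 : (z - a) ^ (3 + N.natDegree) = (z - a) ^ 3 * (z - a) ^ i *
        (z - a) ^ (N.natDegree - i) := by
      rw [← pow_add, ← pow_add]; congr 1; omega
    have e2 : (z - b) ^ (3 + N.natDegree) = (z - b) ^ j * (z - b) ^ (3 + N.natDegree - j) := by
      rw [← pow_add]; congr 1; omega
    rw [e1, e2]
    have p1 : (z - a) ^ 3 ≠ 0 := pow_ne_zero _ hza'
    have p2 : (z - a) ^ i ≠ 0 := pow_ne_zero _ hza'
    have p3 : (z - a) ^ (N.natDegree - i) ≠ 0 := pow_ne_zero _ hza'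
    have p4 : (z - b) ^ j ≠ 0 := pow_ne_zero _ hzb'
    have p5 : (z - b) ^ (3 + N.natDegree - j) ≠ 0 := pow_ne_zero _ hzb'
    field_simp

/-- the ray integral -/
def rays (k0 : ℕ) (c : ℝ) (Φ : ℂ → ℂ) : ℂ :=
  (-c + I) * (∫ t in Ioi (0 : ℝ), Φ (-(((k0 : ℝ) + 1 / 4 : ℝ) : ℂ) + t * (-c + I))) -
    (-c - I) * (∫ t in Ioi (0 : ℝ), Φ (-(((k0 : ℝ) + 1 / 4 : ℝ) : ℂ) + t * (-c - I)))

/-- the circles around the site `-1/2-(k0+l)` and around the integer `-(k0+l+1)` -/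
def circs (k0 : ℕ) (Φ : ℂ → ℂ) (l : ℕ) : ℂ :=
  (∮ z in C(PsiJ.ce (k0 + l), 1 / 4), Φ z) + ∮ z in C(-((k0 + l + 1 : ℕ) : ℂ), 1 / 4), Φ z

lemma sum_off (k0 l : ℕ) (Φ : ℂ → ℂ) :
    ∑ φ ∈ Off, (∮ z in C((-(((k0 : ℝ) + 1 / 4) + l + φ) : ℝ), 1 / 4), Φ z) = circs k0 Φ l := by
  unfold Off circs
  rw [Finset.sum_insert (by norm_num), Finset.sum_singleton, site_eq, node_eq]

end Crest.Agent.R006.Tail516
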