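import Crest.Agent.R006.Tail2_516

/-!
Row 6 (Catalan), block P3 (helper516).  Circle sums to the left of the apex `-(k0+1/4)` equal two
ray integrals.  Part 3: `tail_psi` for `PsiJ.J v`, `tail_g` for `G1x186.J1`.
-/

set_option autoImplicit false

open Complex MeasureTheory Set Filter Topology intervalIntegral Metric Function Polynomial
open scoped Real Interval

noncomputable section

namespace Crest.Agent.R006.Tail516

open Crest.Agent.R006.Wedge516

/-! ### the jumps -/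

lemma ne_ce_of_strip {L : ℕ} {z : ℂ} (hz : z ∈ strip (-L - 11 / 8) (-L - 1 / 8))
    (h : z ≠ PsiJ.ce L) (l : ℕ) : z ≠ PsiJ.ce l := by
  rintro rfl
  obtain ⟨h1, h2⟩ := hz
  rw [PsiJ.ce_re] at h1 h2
  have h3 : l < L + 1 := by
    have : (l : ℝ) < ((L + 1 : ℕ) : ℝ) := by push_cast; linarith
    exact_mod_cast this
  have h4 : L < l + 1 := by
    have : (L : ℝ) < ((l + 1 : ℕ) : ℝ) := by push_cast; linarith
    exact_mod_cast this
  have : l = L := by omega
  exact h (by rw [this])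

lemma re_neg_of_strip {L : ℕ} {z : ℂ} (hz : z ∈ strip (-L - 11 / 8) (-L - 1 / 8)) : z.re < 0 := by
  have := hz.2
  have h : (0 : ℝ) ≤ L := Nat.cast_nonneg L
  linarith

theorem jump_psi (v : Fin 3 → ℂ) : Jump (PsiJ.J v) := by
  intro L
  refine ⟨fun z => PsiJ.U L z * PsiJ.P v z, ?_, fun z _ h => PsiJ.J_eq v L h⟩
  intro z hz
  refine DifferentiableAt.differentiableWithinAt ?_
  by_cases h : z = PsiJ.ce L
  · subst h
    exact (PsiJ.U_differentiableAt L (by simp)).mul (PsiJ.P_differentiable v _)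
  · have h1 : DifferentiableAt ℂ (fun z => (z - PsiJ.ce L) ^ 3 * PsiJ.J v z) z := by
      refine DifferentiableAt.mul (by fun_prop) ?_
      exact PsiJ.J_differentiableAt v (re_neg_of_strip hz) (ne_ce_of_strip hz h)
    refine h1.congr_of_eventuallyEq ?_
    filter_upwards [isOpen_ne.mem_nhds h] with w hw
    have hw' : w - PsiJ.ce L ≠ 0 := sub_ne_zero.2 hw
    rw [PsiJ.J_eq v L hw]
    field_simp

lemma Dd_ne' {e : ℂ} (h : ∀ n : ℤ, n ≠ 0 → e ≠ n) : PsiJ.Dd e ≠ 0 := by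
  by_cases he : e = 0
  · subst he
    rw [PsiJ.Dd_zero]
    exact_mod_cast Real.pi_ne_zero
  · rw [PsiJ.Dd_of_ne he]
    refine div_ne_zero ?_ he
    rw [Ne, Complex.sin_eq_zero_iff]
    rintro ⟨k, hk⟩
    have hpi : (π : ℂ) ≠ 0 := by exact_mod_cast Real.pi_ne_zero
    have h1 : e = k := by
      have : (π : ℂ) * e = π * k := by rw [hk]; ring
      exact mul_left_cancel₀ hpi this
    by_cases hk0 : k = 0
    · rw [hk0] at h1; simp at h1; exact he h1
    · exact h k hk0 h1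

theorem jump_g : Jump G1x186.J1 := by
  intro L
  refine ⟨fun z => (z - PsiJ.ce L) * G1x186.g1L z / PsiJ.Dd (z - PsiJ.ce L) ^ 2, ?_, ?_⟩
  · intro z hz
    refine DifferentiableAt.differentiableWithinAt ?_
    have hre := re_neg_of_strip hz
    have hD : DifferentiableAt ℂ (fun z => PsiJ.Dd (z - PsiJ.ce L)) z := by
      have h1 : DifferentiableAt ℂ PsiJ.Dd (z - PsiJ.ce L) := PsiJ.Dd_differentiable _
      exact DifferentiableAt.comp z h1 (differentiableAt_id.sub_const _)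
    refine DifferentiableAt.div ?_ (hD.pow 2) (pow_ne_zero _ (Dd_ne' ?_))
    · exact (by fun_prop : DifferentiableAt ℂ (fun z => z - PsiJ.ce L) z).mul
        (G1x186.differentiableAt_g1L hre)
    · intro n hn h
      have h1 := congrArg Complex.re h
      simp at h1
      obtain ⟨h2, h3⟩ := hz
      have h4 : (-1 : ℝ) < n := by linarith
      have h5 : (n : ℝ) < 1 := by linarith
      have h6 : -1 < n := by exact_mod_cast h4
      have h7 : n < 1 := by exact_mod_cast h5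
      exact hn (by omega)
  · intro z hz h
    have he : z - PsiJ.ce L ≠ 0 := sub_ne_zero.2 h
    show G1x186.J1 z = (z - PsiJ.ce L) * G1x186.g1L z / PsiJ.Dd (z - PsiJ.ce L) ^ 2 /
      (z - PsiJ.ce L) ^ 3
    unfold G1x186.J1
    rw [PsiJ.cos_pi_ce L z, PsiJ.Dd_of_ne he, mul_pow, ← pow_mul, mul_comm L 2, pow_mul]
    simp only [neg_one_sq, one_pow, one_mul]
    by_cases hs : Complex.sin (π * (z - PsiJ.ce L)) = 0
    · rw [hs]; simp
    · field_simp

/-! ### exponential bounds -/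

lemma eight_rpow_le {u : ℝ} (hu : 0 ≤ u) : (8 : ℝ) ^ (-u) ≤ Real.exp (-(2 * u)) := by
  rw [Real.rpow_def_of_pos (by norm_num)]
  apply Real.exp_le_exp.2
  have h8 : (2 : ℝ) ≤ Real.log 8 := by
    rw [show (8 : ℝ) = 2 ^ 3 by norm_num, Real.log_pow]
    have := Real.log_two_gt_d9
    push_cast
    linarith
  nlinarith

lemma poly_exp {A B : ℝ} (hA : 0 ≤ A) (hB : 0 ≤ B) (d : ℕ) : ∃ M : ℝ, 0 < M ∧ ∀ u : ℝ, 0 ≤ u →
    (8 : ℝ) ^ (-u) * (A + B * u) ^ d ≤ M * Real.exp (-u) := by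
  refine ⟨(A + B + 1) ^ d * d.factorial * Real.exp 1, by positivity, fun u hu => ?_⟩
  have h1 : A + B * u ≤ (A + B + 1) * (1 + u) := by nlinarith [mul_nonneg hA hu]
  have h2 : (1 + u) ^ d ≤ d.factorial * Real.exp (1 + u) := by
    have := Real.pow_div_factorial_le_exp (1 + u) (by linarith) d
    rw [div_le_iff₀ (by positivity)] at this
    linarith
  calc (8 : ℝ) ^ (-u) * (A + B * u) ^ d
      ≤ Real.exp (-(2 * u)) * ((A + B + 1) * (1 + u)) ^ d := by
        refine mul_le_mul (eight_rpow_le hu) ?_ (by positivity) (Real.exp_pos _).le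
        gcongr
    _ = (A + B + 1) ^ d * Real.exp (-(2 * u)) * (1 + u) ^ d := by rw [mul_pow]; ring
    _ ≤ (A + B + 1) ^ d * Real.exp (-(2 * u)) * (d.factorial * Real.exp (1 + u)) := by gcongr
    _ = (A + B + 1) ^ d * d.factorial * (Real.exp (-(2 * u)) * Real.exp (1 + u)) := by ring
    _ = (A + B + 1) ^ d * d.factorial * Real.exp 1 * Real.exp (-u) := by
        rw [← Real.exp_add, mul_assoc _ (Real.exp 1), ← Real.exp_add]
        congr 2
        ring

lemma norm_le_re_im {z : ℂ} : ‖z‖ ≤ |z.re| + |z.im| := Complex.norm_le_abs_re_add_abs_im z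

lemma bound_psi (v : Fin 3 → ℂ) {P N : ℂ[X]} (hN : N ≠ 0) (hr : HalfRoots N) (k0 : ℕ) {a : ℝ}
    (ha : 0 ≤ a) : ∃ M : ℝ, 0 < M ∧ ∀ z : ℂ, Far z → z.re ≤ -((k0 : ℝ) + 1 / 4) →
      |z.im| ≤ a * (-z.re - ((k0 : ℝ) + 1 / 4)) + 1 →
      ‖PsiJ.J v z * (P.eval z / N.eval z)‖ ≤ M * Real.exp (-(-z.re - ((k0 : ℝ) + 1 / 4))) := by
  obtain ⟨K, hK, hJ⟩ := PsiJ.J_bound v
  obtain ⟨C, hC, hf⟩ := rat_bound_up (P := P) hN hr
  obtain ⟨M, hM, hM'⟩ := poly_exp (A := 2 + ((k0 : ℝ) + 1 / 4)) (B := 1 + a) (by positivity)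
    (by positivity) P.natDegree
  refine ⟨K * C * M, by positivity, fun z hz h1 h2 => ?_⟩
  set κ : ℝ := (k0 : ℝ) + 1 / 4 with hκ
  have hκ0 : 1 / 4 ≤ κ := by rw [hκ]; have : (0 : ℝ) ≤ k0 := Nat.cast_nonneg _; linarith
  set u : ℝ := -z.re - κ with hu
  have hu0 : 0 ≤ u := by rw [hu]; linarith
  have h3 := hJ z (by linarith) (far_ne_ce hz)
  have h4 := hf z hz
  have h5 : ‖z‖ ≤ κ + u + (a * u + 1) := by
    refine norm_le_re_im.trans ?_
    have : |z.re| = κ + u := by rw [abs_of_neg (by linarith), hu]; ring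
    rw [this]
    linarith
  have h6 : (8 : ℝ) ^ z.re ≤ (8 : ℝ) ^ (-u) := by
    apply Real.rpow_le_rpow_of_exponent_le (by norm_num)
    rw [hu]; linarith
  have h7 : Real.exp (-(π * |z.im|)) ≤ 1 := by
    rw [Real.exp_le_one_iff]
    have := Real.pi_pos
    have := abs_nonneg z.im
    nlinarith
  have h8 : (0 : ℝ) < (8 : ℝ) ^ z.re := Real.rpow_pos_of_pos (by norm_num) _
  have h9 : 1 + ‖z‖ ≤ 2 + κ + (1 + a) * u := by linarith
  have h10 : (1 + ‖z‖) ^ P.natDegree ≤ (2 + κ + (1 + a) * u) ^ P.natDegree :=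
    pow_le_pow_left₀ (by positivity) h9 _
  rw [norm_mul]
  calc ‖PsiJ.J v z‖ * ‖P.eval z / N.eval z‖
      ≤ (K * (8 : ℝ) ^ z.re * Real.exp (-(π * |z.im|))) * (C * (1 + ‖z‖) ^ P.natDegree) := by
        refine mul_le_mul h3 h4 (norm_nonneg _) (by positivity)
    _ ≤ (K * (8 : ℝ) ^ (-u) * 1) * (C * (2 + κ + (1 + a) * u) ^ P.natDegree) := by
        refine mul_le_mul ?_ (mul_le_mul_of_nonneg_left h10 hC.le) (by positivity) (by positivity)
        exact mul_le_mul (mul_le_mul_of_nonneg_left h6 hK.le) h7 (Real.exp_pos _).le (by positivity)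
    _ = K * C * ((8 : ℝ) ^ (-u) * (2 + κ + (1 + a) * u) ^ P.natDegree) := by ring
    _ ≤ K * C * (M * Real.exp (-u)) := mul_le_mul_of_nonneg_left (hM' u hu0) (by positivity)
    _ = _ := by ring

/-- geometry of the four families of points -/
lemma geo_ray {k0 : ℕ} {c t : ℝ} (_hc : 0 < c) (ht : 0 ≤ t) {v : ℂ} (hv : v = -c + I ∨ v = -c - I) :
    (-(((k0 : ℝ) + 1 / 4 : ℝ) : ℂ) + t * v).re = -((k0 : ℝ) + 1 / 4) - c * t ∧
    |(-(((k0 : ℝ) + 1 / 4 : ℝ) : ℂ) + t * v).im| = t := by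
  rcases hv with rfl | rfl
  · constructor
    · simp; ring
    · simp [abs_of_nonneg ht]
  · constructor
    · simp; ring
    · simp [abs_of_nonneg ht]

lemma geo_circ {k0 l : ℕ} {φ : ℝ} (hφ : φ ∈ Off) {z : ℂ}
    (hz : ‖z - ((-(((k0 : ℝ) + 1 / 4) + l + φ) : ℝ) : ℂ)‖ = 1 / 4) :
    Far z ∧ z.re ≤ -((k0 : ℝ) + 1 / 4) - l ∧ |z.im| ≤ 1 := by
  have h1 := (Complex.abs_re_le_norm (z - ((-(((k0 : ℝ) + 1 / 4) + l + φ) : ℝ) : ℂ))).trans hz.le
  have h2 := (Complex.abs_im_le_norm (z - ((-(((k0 : ℝ) + 1 / 4) + l + φ) : ℝ) : ℂ))).trans hz.le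
  simp only [sub_re, ofReal_re, sub_im, ofReal_im, sub_zero] at h1 h2
  have h3 := (abs_le.1 h1).2
  simp only [Off, Finset.mem_insert, Finset.mem_singleton] at hφ
  refine ⟨?_, ?_, by linarith⟩
  · rcases hφ with rfl | rfl
    · refine far_circle (h := -(2 * (k0 + l) + 1)) ?_
      rw [← hz]
      congr 2
      push_cast
      ring
    · refine far_circle (h := -(2 * (k0 + l) + 2)) ?_
      rw [← hz]
      congr 2
      push_cast
      ring
  · rcases hφ with rfl | rfl <;> linarith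

/-- **Tail theorem for `ψ`.** -/
theorem tail_psi (v : Fin 3 → ℂ) {P N : ℂ[X]} (hN : N ≠ 0) (hr : HalfRoots N) (k0 : ℕ) {c : ℝ}
    (hc : 0 < c) (hc3 : c ^ 2 ≤ 3) :
    HasSum (circs k0 (fun z => PsiJ.J v z * (P.eval z / N.eval z)))
      (rays k0 c (fun z => PsiJ.J v z * (P.eval z / N.eval z))) := by
  obtain ⟨M, hM, hb⟩ := bound_psi v (P := P) hN hr k0 (a := 1 / c) (by positivity)
  set Φ : ℂ → ℂ := fun z => PsiJ.J v z * (P.eval z / N.eval z) with hΦ
  have hray : ∀ w : ℂ, (w = -c + I ∨ w = -c - I) → ∀ t : ℝ, 0 ≤ t →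
      ‖Φ (-(((k0 : ℝ) + 1 / 4 : ℝ) : ℂ) + t * w)‖ ≤ M * Real.exp (-(min c 1) * t) := by
    intro w hw t ht
    obtain ⟨g1, g2⟩ := geo_ray (k0 := k0) hc ht hw
    have h := hb _ (far_ray (t := t) hc3 hw) (by rw [g1]; nlinarith) (by
      rw [g1, g2]
      have : 1 / c * (-(-((k0 : ℝ) + 1 / 4) - c * t) - ((k0 : ℝ) + 1 / 4)) = t := by
        field_simp; ring
      rw [this]; linarith)
    refine h.trans ?_
    rw [g1]
    gcongr
    have : min c 1 * t ≤ c * t := mul_le_mul_of_nonneg_right (min_le_left _ _) ht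
    linarith
  have key := wedge_hasSum_m (κ := (k0 : ℝ) + 1 / 4) (c := c) (r := 1 / 4) (δ := 1 / 8) (Off := Off)
    (m := 2 + N.natDegree) (Φ := Φ) (M := M) (lam := min c 1) hc (lt_min hc one_pos) offM
    (fun l => cell_poles (jump_psi v) hN hr k0 l) (hray _ (Or.inl rfl)) (hray _ (Or.inr rfl)) ?_ ?_
  · have e : circs k0 Φ = fun l : ℕ => ∑ φ ∈ Off,
        (∮ z in C((-(((k0 : ℝ) + 1 / 4) + l + φ) : ℝ), 1 / 4), Φ z) := by
      funext l
      exact (sum_off k0 l Φ).symm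
    rw [e]
    exact key
  · intro n y hy
    have hn0 : (0 : ℝ) ≤ n := Nat.cast_nonneg n
    have h := hb _ (far_vert (k0 := k0) (n := n) (y := y)) (by
      simp only [add_re, ofReal_re, mul_re, I_re, mul_zero, ofReal_im, I_im, mul_one, sub_self,
        add_zero]
      linarith) (by
      simp only [add_re, ofReal_re, mul_re, I_re, mul_zero, ofReal_im, I_im, mul_one, sub_self,
        add_zero, add_im, mul_im, zero_add]
      have : 1 / c * (-(-((k0 : ℝ) + 1 / 4 + n)) - ((k0 : ℝ) + 1 / 4)) = n / c := by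
        field_simp; ring
      rw [this]; linarith)
    refine h.trans ?_
    gcongr
    simp only [add_re, ofReal_re, mul_re, I_re, mul_zero, ofReal_im, I_im, mul_one, sub_self,
        add_zero]
    have : min c 1 * (n : ℝ) ≤ 1 * n := mul_le_mul_of_nonneg_right (min_le_right _ _)
      (Nat.cast_nonneg n)
    linarith
  · intro l φ hφ z hz
    obtain ⟨g1, g2, g3⟩ := geo_circ hφ hz
    have hl : (0 : ℝ) ≤ l := Nat.cast_nonneg l
    have h := hb z g1 (by linarith) (by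
      have : 0 ≤ 1 / c * (-z.re - ((k0 : ℝ) + 1 / 4)) := mul_nonneg (by positivity) (by linarith)
      linarith)
    refine h.trans ?_
    gcongr
    have : min c 1 * (l : ℝ) ≤ 1 * l := mul_le_mul_of_nonneg_right (min_le_right _ _) hl
    linarith

end Crest.Agent.R006.Tail516
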