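import Crest.Agent.R006.Final_378
import Crest.Agent.R006.OddSN_365
import Crest.Agent.R006.P3_AlphaN_103
import Crest.Agent.R006.P6B_Min_618

/-!
# Row 6: what is open for `SN`, literal (helper378)

`top_378` : `S0006` from
* P3 : `Cert.Claim SN datN` (390: `Disc` ⟹ `Claim`) and `Cert.OK SN datN` (464),
* P6 : `AtPrime SN 40 2 1455` (line A: 784, line B: 404 with `minB_SN'`),
* P5b : `P5b.PW SN 40 C0 x0 (7/2) (9/4) 21 6` (481),
* P4 + P8 : `Mid SN 40 (1/2) 60 am`, `am ≤ -433.5` (814, 965, 365; expected `-450.79`).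
-/

set_option autoImplicit false

namespace Crest.Agent.R006.D

theorem SN_archK {α : ℝ} (h : Cert.alphaV SN Cert.datN / (Cert.datN.K : ℝ) ^ 2 ≤ α)
    (hClaim : Cert.Claim SN Cert.datN) (hOK : Cert.OK SN Cert.datN) : ArchK SN 40 100 α := by
  have h1 := hClaim hOK 40
  intro δ hδ
  filter_upwards [h1 δ hδ] with v hv r hr
  refine (hv r hr).trans (Real.exp_le_exp.mpr ?_)
  have : (0 : ℝ) ≤ ((Cert.datN.K * v : ℕ) : ℝ) ^ 2 := by positivity
  exact mul_le_mul_of_nonneg_right (by linarith) this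

theorem top_378 (hClaim : Cert.Claim SN Cert.datN) (hOK : Cert.OK SN Cert.datN)
    (h2 : AtPrime SN 40 2 1455)
    {C0 x0 : ℝ} (hC0 : 0 < C0) (hx0 : 1 / 2 ≤ x0)
    (hPW : P5b.PW SN 40 C0 x0 (7 / 2) (9 / 4) 21 6) {am : ℝ}
    (hM : Oddx529.Mid SN 40 (1 / 2) 60 am) (ham : am ≤ -433.5) : Irrational GG :=
  final_378 (by norm_num) (SN_archK Cert.alphaN hClaim hOK) h2
    (odd_SN hC0 hx0 hPW hM le_rfl) le_rfl (by norm_num at ham ⊢; linarith)

/-- with line B of P6 -/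
theorem top_B (hClaim : Cert.Claim SN Cert.datN) (hOK : Cert.OK SN Cert.datN)
    (hB : P6B.FinalB SN 40)
    {C0 x0 : ℝ} (hC0 : 0 < C0) (hx0 : 1 / 2 ≤ x0)
    (hPW : P5b.PW SN 40 C0 x0 (7 / 2) (9 / 4) 21 6) {am : ℝ}
    (hM : Oddx529.Mid SN 40 (1 / 2) 60 am) (ham : am ≤ -433.5) : Irrational GG :=
  top_378 hClaim hOK (hB _ P6B.minB_SN') hC0 hx0 hPW hM ham

end Crest.Agent.R006.D
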