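import Crest.Agent.R006.VVAsym_929
import Crest.Agent.R006.VAsym_252
import Crest.Agent.R006.Pre_L3_764

/-!
# Row 6: the literal confluent Vandermonde `VV` of `Minor_eq_lam` (helper929), links

* `log_VV_eq_LV` : `log |VV| = LV S u c (sites S u c)` (252's node energy);
* `two_val_VV` : `2 v_p(VV) = ∑_s ∑_t m_s m_t v_p(z_s - z_t)`;
* `val_VV_class` : odd `p`: class sum at all levels `p^i`;
-/

set_option autoImplicit false

namespace Crest.Agent.R006.VVx929

open Finset Crest.Agent.R006.D Crest.Agent.R006.Bordx929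

variable {S : Shape} (u c : ℕ)

theorem log_VV_eq_LV (hS : S.Good) :
    Real.log |(VV S u c hS : ℝ)| = LV S u c (sites S u c) := by
  have h := two_log_VV u c hS
  have h2 : 2 * LV S u c (sites S u c) = ∑ s ∈ sites S u c, ∑ t ∈ sites S u c,
        ((S.mult u c s * S.mult u c t : ℕ) : ℝ) * Real.log ((s.val : ℝ) - t.val) := by
    unfold LV
    rw [← mul_assoc, show (2 : ℝ) * (1 / 2) = 1 by norm_num, one_mul]
    refine Finset.sum_congr rfl fun s _ => Finset.sum_congr rfl fun t _ => ?_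
    rw [Site.r_val, Site.r_val]
    push_cast
    ring
  linarith

theorem two_val_VV (hS : S.Good) (p : ℕ) [Fact p.Prime] :
    2 * padicValRat p (VV S u c hS) =
      ∑ s ∈ sites S u c, ∑ t ∈ sites S u c,
        ((S.mult u c s * S.mult u c t : ℕ) : ℤ) * padicValRat p (s.val - t.val) := by
  have h := VmatValx340.two_padicValRat_det_vmat p (zz S u c) (zz_injective u c) (mm S u c)
    (ER S u c hS)
  rw [VV, h, ← Finset.sum_coe_sort (sites S u c)]
  refine Finset.sum_congr rfl fun s _ => ?_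
  rw [← Finset.sum_coe_sort (sites S u c), ← Finset.sum_erase_add _ _ (Finset.mem_univ s)]
  rw [sub_self, padicValRat.zero, mul_zero, add_zero]
  rfl

/-- twice the point of a site, an integer -/
def n2 : Site → ℤ
  | .Z i => 2 * i
  | .H i => 2 * i + 1

lemma n2_injective : Function.Injective n2 := by
  rintro (i | i) (j | j) h <;> simp only [n2] at h
  · rw [show i = j by omega]
  · omega
  · omega
  · rw [show i = j by omega]

lemma val_eq_n2 (z : Site) : z.val = (n2 z : ℚ) / 2 := by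
  cases z with
  | Z i => simp only [Site.val, n2]; push_cast; ring
  | H i => simp only [Site.val, n2]; push_cast; ring

lemma padicValRat_sub_site (p : ℕ) [hp : Fact p.Prime] (hp2 : p ≠ 2) (s t : Site) :
    padicValRat p (s.val - t.val) = (padicValInt p (n2 s - n2 t) : ℤ) := by
  rw [val_eq_n2, val_eq_n2, ← sub_div]
  by_cases h : n2 s - n2 t = 0
  · have h' : (n2 s : ℚ) - n2 t = 0 := by exact_mod_cast h
    rw [h', h]
    simp
  · have h' : (n2 s : ℚ) - n2 t ≠ 0 := by exact_mod_cast h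
    rw [padicValRat.div h' (by norm_num)]
    have h2 : padicValRat p (2 : ℚ) = 0 := by
      have h3 : padicValRat p ((2 : ℕ) : ℚ) = ((padicValNat p 2 : ℕ) : ℤ) := padicValRat.of_nat
      rw [padicValNat_primes (p := p) (q := 2) hp2] at h3
      simpa using h3
    rw [h2, sub_zero, ← padicValRat.of_int]
    push_cast
    rfl

/-- weight of a class of `2 z` modulo `m` -/
noncomputable def WS (S : Shape) (u c m : ℕ) (a : ℤ) : ℕ :=
  ∑ z ∈ sites S u c with n2 z % (m : ℤ) = a, S.mult u c z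

/-- the multiplicities as a function of `2 z` -/
noncomputable def wt2 (S : Shape) (u c : ℕ) (x : ℤ) : ℕ :=
  ∑ z ∈ sites S u c with n2 z = x, S.mult u c z

lemma wt2_n2 {z : Site} (hz : z ∈ sites S u c) : wt2 S u c (n2 z) = S.mult u c z := by
  unfold wt2
  rw [Finset.sum_eq_single z]
  · intro w hw hne
    rw [Finset.mem_filter] at hw
    exact absurd (n2_injective hw.2) hne
  · intro h
    exact absurd (Finset.mem_filter.mpr ⟨hz, by simp⟩) h

lemma W_eq_WS (m : ℕ) (a : ℤ) :
    PreL3x764.W ((sites S u c).map ⟨n2, n2_injective⟩) (wt2 S u c) m a = WS S u c m a := by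
  unfold PreL3x764.W WS
  rw [Finset.filter_map, Finset.sum_map]
  refine Finset.sum_congr rfl fun z hz => ?_
  rw [Finset.mem_filter] at hz
  exact wt2_n2 u c hz.1

/-- **class sum** for the valuation of the confluent Vandermonde, odd `p` -/
theorem val_VV_class (hS : S.Good) (p : ℕ) [hp : Fact p.Prime] (hp2 : p ≠ 2) (b : ℕ)
    (hb : ∀ s ∈ sites S u c, ∀ t ∈ sites S u c, (n2 s - n2 t).natAbs < p ^ b) :
    2 * padicValRat p (VV S u c hS) + ((b - 1 : ℕ) : ℤ) * ∑ z ∈ sites S u c, ((S.mult u c z) ^ 2 : ℕ)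
      = ((∑ i ∈ Ico 1 b, ∑ a ∈ range (p ^ i), (WS S u c (p ^ i) a) ^ 2 : ℕ) : ℤ) := by
  classical
  set A : Finset ℤ := (sites S u c).map ⟨n2, n2_injective⟩ with hA
  set w : ℤ → ℕ := wt2 S u c with hw
  have hbA : ∀ x ∈ A, ∀ y ∈ A, (x - y).natAbs < p ^ b := by
    intro x hx y hy
    rw [hA, Finset.mem_map] at hx hy
    obtain ⟨s, hs, rfl⟩ := hx
    obtain ⟨t, ht, rfl⟩ := hy
    exact hb s hs t ht
  have h1 : 2 * padicValRat p (VV S u c hS) =
      ((∑ x ∈ A, ∑ y ∈ A, w x * w y * padicValInt p (x - y) : ℕ) : ℤ) := by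
    rw [two_val_VV u c hS p, hA, Finset.sum_map, Nat.cast_sum]
    refine Finset.sum_congr rfl fun s hs => ?_
    rw [Finset.sum_map, Nat.cast_sum]
    refine Finset.sum_congr rfl fun t ht => ?_
    rw [padicValRat_sub_site p hp2]
    simp only [Function.Embedding.coeFn_mk]
    rw [hw, wt2_n2 u c hs, wt2_n2 u c ht]
    push_cast
    ring
  have h2 : ∑ z ∈ sites S u c, ((S.mult u c z) ^ 2 : ℕ) = ∑ x ∈ A, ∑ y ∈ A,
      (if x = y then w x * w y else 0) := by
    rw [hA, Finset.sum_map]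
    refine Finset.sum_congr rfl fun s hs => ?_
    rw [Finset.sum_ite_eq, if_pos (Finset.mem_map_of_mem _ hs)]
    simp only [Function.Embedding.coeFn_mk]
    rw [hw, wt2_n2 u c hs, sq]
  have h3 : ∀ x ∈ A, ∀ y ∈ A, w x * w y * padicValInt p (x - y) +
      (b - 1) * (if x = y then w x * w y else 0) =
      ∑ i ∈ Ico 1 b, (if (((p ^ i : ℕ) : ℤ) ∣ x - y) then w x * w y else 0) := by
    intro x hx y hy
    by_cases hxy : x = y
    · subst hxy
      simp
    · have hne : x - y ≠ 0 := sub_ne_zero.mpr hxy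
      rw [if_neg hxy, mul_zero, add_zero, PreL3x764.val_eq_sum p _ hne b (hbA x hx y hy),
        Finset.mul_sum]
      refine Finset.sum_congr rfl fun i _ => ?_
      push_cast
      split_ifs <;> simp
  have h4 : (∑ x ∈ A, ∑ y ∈ A, w x * w y * padicValInt p (x - y)) +
      (b - 1) * ∑ z ∈ sites S u c, ((S.mult u c z) ^ 2 : ℕ) =
      ∑ i ∈ Ico 1 b, ∑ a ∈ range (p ^ i), (WS S u c (p ^ i) a) ^ 2 := by
    rw [h2, Finset.mul_sum, ← Finset.sum_add_distrib]
    have h5 : ∀ x ∈ A, (∑ y ∈ A, w x * w y * padicValInt p (x - y)) +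
        (b - 1) * (∑ y ∈ A, (if x = y then w x * w y else 0)) =
        ∑ i ∈ Ico 1 b, ∑ y ∈ A, (if (((p ^ i : ℕ) : ℤ) ∣ x - y) then w x * w y else 0) := by
      intro x hx
      rw [Finset.mul_sum, ← Finset.sum_add_distrib, Finset.sum_congr rfl (h3 x hx),
        Finset.sum_comm]
    rw [Finset.sum_congr rfl h5, Finset.sum_comm]
    refine Finset.sum_congr rfl fun i _ => ?_
    rw [PreL3x764.sum_pairs_dvd A A w w (p ^ i) (pow_pos hp.out.pos i)]
    refine Finset.sum_congr rfl fun a _ => ?_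
    rw [hA, hw, W_eq_WS, sq]
  rw [h1, ← h4]
  push_cast
  ring

end Crest.Agent.R006.VVx929
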