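import Crest.Agent.R006.Bord_929
import Crest.Agent.R006.VmatVal_340
import Crest.Agent.R006.RefAsym_252

/-!
# Row 6: the literal confluent Vandermonde `VV` of `Minor_eq_lam` (helper929)

* `two_log_VV` : `2 log |VV| = ∑_s ∑_t m_s m_t log |z_s - z_t|` over the sites;
* `sum_mult_smul` : a sum over the sites with multiplicities = sum over 8 windows;
* `log_VV_asymp` : `log |VV S u c| = u² (rows²/2 log u + cV S) + O(u log u)`.
-/

set_option autoImplicit false

namespace Crest.Agent.R006.VVx929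

open Finset Crest.Agent.R006.D Crest.Agent.R006.Bordx929

variable {S : Shape} (u c : ℕ)

/-- order-free logarithm -/
theorem two_log_VV (hS : S.Good) :
    2 * Real.log |(VV S u c hS : ℝ)| =
      ∑ s ∈ sites S u c, ∑ t ∈ sites S u c,
        ((S.mult u c s * S.mult u c t : ℕ) : ℝ) * Real.log ((s.val : ℝ) - t.val) := by
  have h := VmatValx340.two_log_norm_det_vmat (K := ℚ) (zz S u c) (zz_injective u c) (mm S u c)
    (ER S u c hS)
  have h1 : ‖(Lam.vmat (zz S u c) (mm S u c) ℚ (ER S u c hS)).det‖ = |(VV S u c hS : ℝ)| := rfl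
  rw [h1] at h
  rw [h, ← Finset.sum_coe_sort (sites S u c)]
  refine Finset.sum_congr rfl fun s _ => ?_
  rw [← Finset.sum_coe_sort (sites S u c), ← Finset.sum_erase_add _ _ (Finset.mem_univ s)]
  have h2 : (((s : Site).val : ℚ) : ℝ) - (((s : Site).val : ℚ) : ℝ) = 0 := sub_self _
  rw [h2, Real.log_zero, mul_zero, add_zero]
  refine Finset.sum_congr rfl fun t _ => ?_
  have h3 : ‖zz S u c s - zz S u c t‖ = |(((s : Site).val : ℚ) : ℝ) - (((t : Site).val : ℚ) : ℝ)| := by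
    change |((zz S u c s - zz S u c t : ℚ) : ℝ)| = _
    rw [Rat.cast_sub]
    rfl
  rw [h3, Real.log_abs]
  rfl

/-- sum over an integer interval with an indicator -/
lemma sum_ind_smul {M : Type*} [AddCommMonoid M] (a b a' b' : ℤ) (p : ℤ → Prop) [DecidablePred p]
    (h : ∀ i, (a ≤ i ∧ i < b) ∧ p i ↔ a' ≤ i ∧ i < b') (f : ℤ → M) :
    ∑ i ∈ Finset.Ico a b, (if p i then 1 else 0) • f i = ∑ i ∈ Finset.Ico a' b', f i := by
  have : Finset.filter p (Finset.Ico a b) = Finset.Ico a' b' := by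
    ext i
    rw [Finset.mem_filter, Finset.mem_Ico, Finset.mem_Ico, h]
  rw [← this, Finset.sum_filter]
  refine Finset.sum_congr rfl fun i _ => ?_
  split_ifs <;> simp

/-- **sum over the sites with multiplicities** = sum over the eight windows -/
theorem sum_mult_smul {M : Type*} [AddCommMonoid M] (hS : S.Good) (f : Site → M) :
    ∑ z ∈ sites S u c, S.mult u c z • f z =
      (((∑ i ∈ Ico (0 : ℤ) ((S.B * u + c : ℕ) : ℤ), f (Site.Z i)) +
        (∑ i ∈ Ico (-((S.e1 * u : ℕ) : ℤ)) 0, f (Site.Z i)) +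
        (∑ i ∈ Ico (-((S.e2 * u : ℕ) : ℤ)) 0, f (Site.Z i))) +
        (∑ i ∈ Ico (-((S.e3 * u : ℕ) : ℤ)) 0, f (Site.Z i))) +
      (((∑ i ∈ Ico (-((S.w * u : ℕ) : ℤ)) 0, f (Site.H i)) +
        (∑ i ∈ Ico (0 : ℤ) ((S.h1 * u : ℕ) : ℤ), f (Site.H i)) +
        (∑ i ∈ Ico (0 : ℤ) ((S.h2 * u : ℕ) : ℤ), f (Site.H i))) +
        (∑ i ∈ Ico (0 : ℤ) ((S.h3 * u : ℕ) : ℤ), f (Site.H i))) := by
  have h1 := Nat.mul_le_mul_right u hS.e21
  have h2 := Nat.mul_le_mul_right u hS.e32
  have h3 := Nat.mul_le_mul_right u hS.h21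
  have h4 := Nat.mul_le_mul_right u hS.h32
  rw [sites, Finset.sum_disjUnion, Finset.sum_map, Finset.sum_map]
  simp only [Function.Embedding.coeFn_mk]
  have e1 : ∀ i : ℤ, S.mult u c (Site.Z i) =
      (if 0 ≤ i ∧ i < S.B * u + c then 1 else 0) + (if i < 0 ∧ -i ≤ S.e1 * u then 1 else 0)
      + (if i < 0 ∧ -i ≤ S.e2 * u then 1 else 0) + (if i < 0 ∧ -i ≤ S.e3 * u then 1 else 0) := by
    intro i
    rw [Shape.mult]
    by_cases h : 0 ≤ i
    · have h' : ¬ i < 0 := not_lt.mpr h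
      simp [h, h']
    · have h' : i < 0 := not_le.mp h
      simp only [h, h', if_false, false_and, true_and, zero_add]
  have e2 : ∀ i : ℤ, S.mult u c (Site.H i) =
      (if i < 0 ∧ -i ≤ S.w * u then 1 else 0) + (if 0 ≤ i ∧ i < S.h1 * u then 1 else 0)
      + (if 0 ≤ i ∧ i < S.h2 * u then 1 else 0) + (if 0 ≤ i ∧ i < S.h3 * u then 1 else 0) := by
    intro i
    rw [Shape.mult]
    by_cases h : 0 ≤ i
    · have h' : ¬ i < 0 := not_lt.mpr h
      simp only [h, h', if_true, false_and, true_and, if_false, zero_add]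
    · have h' : i < 0 := not_le.mp h
      simp [h, h']
  simp only [e1, e2, add_smul, Finset.sum_add_distrib]
  rw [sum_ind_smul _ _ 0 (S.B * u + c : ℕ), sum_ind_smul _ _ (-((S.e1 * u : ℕ) : ℤ)) 0,
    sum_ind_smul _ _ (-((S.e2 * u : ℕ) : ℤ)) 0, sum_ind_smul _ _ (-((S.e3 * u : ℕ) : ℤ)) 0,
    sum_ind_smul _ _ (-((S.w * u : ℕ) : ℤ)) 0, sum_ind_smul _ _ 0 ((S.h1 * u : ℕ) : ℤ),
    sum_ind_smul _ _ 0 ((S.h2 * u : ℕ) : ℤ), sum_ind_smul _ _ 0 ((S.h3 * u : ℕ) : ℤ)]
  all_goals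
    intro i
    zify at h1 h2 h3 h4
    have p1 : (0 : ℤ) ≤ S.e1 * u := by positivity
    have p2 : (0 : ℤ) ≤ S.e2 * u := by positivity
    have p3 : (0 : ℤ) ≤ S.e3 * u := by positivity
    have p4 : (0 : ℤ) ≤ S.h1 * u := by positivity
    have p5 : (0 : ℤ) ≤ S.h2 * u := by positivity
    have p6 : (0 : ℤ) ≤ S.h3 * u := by positivity
    have p7 : (0 : ℤ) ≤ S.w * u := by positivity
    have p8 : (0 : ℤ) ≤ S.B * u := by positivity
    have p9 : (0 : ℤ) ≤ c := by positivity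
    push_cast
    omega

/-! ### the eight windows -/

/-- shift of a window -/
noncomputable def eW : Fin 8 → ℝ := ![0, 0, 0, 0, 1 / 2, 1 / 2, 1 / 2, 1 / 2]

/-- left ends, per unit -/
def loW (S : Shape) : Fin 8 → ℤ := ![0, -S.e1, -S.e2, -S.e3, -S.w, 0, 0, 0]

/-- right ends, per unit -/
def hiW (S : Shape) : Fin 8 → ℤ := ![S.B, 0, 0, 0, 0, S.h1, S.h2, S.h3]

/-- extra nodes at the right end -/
def exW (c : ℕ) : Fin 8 → ℤ := ![c, 0, 0, 0, 0, 0, 0, 0]

lemma loW_le_hiW (S : Shape) (w : Fin 8) : loW S w ≤ hiW S w := by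
  fin_cases w <;> simp [loW, hiW]

/-- the point of a window -/
noncomputable def ptW (w : Fin 8) (i : ℤ) : ℝ := i + eW w

/-- sum over the sites as a sum over windows, real version -/
theorem sum_sites_real (hS : S.Good) (f : ℝ → ℝ) :
    ∑ z ∈ sites S u c, (S.mult u c z : ℝ) * f (z.val : ℝ) =
      ∑ w : Fin 8, ∑ i ∈ Ico (loW S w * u) (hiW S w * u + exW c w), f (i + eW w) := by
  have h := sum_mult_smul u c hS (fun z => f (z.val : ℝ))
  simp only [nsmul_eq_mul] at h
  rw [h]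
  rw [Fin.sum_univ_eight]
  simp only [loW, hiW, exW, eW, Site.val, Matrix.cons_val_zero, Matrix.cons_val_one,
    Matrix.cons_val]
  push_cast
  simp only [zero_mul, add_zero, neg_mul]
  ring

/-- `2 log |VV|` as a double sum over the windows -/
theorem two_log_VV_W (hS : S.Good) :
    2 * Real.log |(VV S u c hS : ℝ)| =
      ∑ w : Fin 8, ∑ v : Fin 8, W2 (eW w - eW v) (loW S w * u) (hiW S w * u + exW c w)
        (loW S v * u) (hiW S v * u + exW c v) := by
  rw [two_log_VV u c hS]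
  have h1 : ∀ s ∈ sites S u c, (∑ t ∈ sites S u c,
        ((S.mult u c s * S.mult u c t : ℕ) : ℝ) * Real.log ((s.val : ℝ) - t.val)) =
      (S.mult u c s : ℝ) * ∑ v : Fin 8, ∑ j ∈ Ico (loW S v * u) (hiW S v * u + exW c v),
        Real.log ((s.val : ℝ) - (j + eW v)) := by
    intro s _
    rw [← sum_sites_real u c hS (fun x => Real.log ((s.val : ℝ) - x)), Finset.mul_sum]
    refine Finset.sum_congr rfl fun t _ => ?_
    push_cast
    ring
  rw [Finset.sum_congr rfl h1, sum_sites_real u c hS (fun x => ∑ v : Fin 8,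
    ∑ j ∈ Ico (loW S v * u) (hiW S v * u + exW c v), Real.log (x - (j + eW v)))]
  refine Finset.sum_congr rfl fun w _ => ?_
  rw [Finset.sum_comm]
  refine Finset.sum_congr rfl fun v _ => ?_
  unfold W2
  refine Finset.sum_congr rfl fun i _ => Finset.sum_congr rfl fun j _ => ?_
  congr 1
  ring

/-- bound of one logarithm -/
lemma abs_log_le {δ : ℝ} (hδ : δ = 0 ∨ δ = 1 / 2 ∨ δ = -(1 / 2)) (i j : ℤ) {M : ℝ} (hM : 1 ≤ M)
    (h : |(i : ℝ) - j + δ| ≤ M) : |Real.log ((i : ℝ) - j + δ)| ≤ Real.log M + Real.log 2 := by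
  have hl2 : 0 ≤ Real.log 2 := Real.log_nonneg (by norm_num)
  have hlM : 0 ≤ Real.log M := Real.log_nonneg hM
  by_cases h0 : (i : ℝ) - j + δ = 0
  · rw [h0, Real.log_zero, abs_zero]; linarith
  have hge : 1 / 2 ≤ |(i : ℝ) - j + δ| := by
    obtain ⟨m, hm⟩ : ∃ m : ℤ, (i : ℝ) - j + δ = m / 2 := by
      rcases hδ with rfl | rfl | rfl
      · exact ⟨2 * (i - j), by push_cast; ring⟩
      · exact ⟨2 * (i - j) + 1, by push_cast; ring⟩
      · exact ⟨2 * (i - j) - 1, by push_cast; ring⟩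
    rw [hm] at h0 ⊢
    have hm0 : m ≠ 0 := by rintro rfl; simp at h0
    have h1 : (1 : ℝ) ≤ |(m : ℝ)| := by
      have : (1 : ℤ) ≤ |m| := Int.one_le_abs hm0
      exact_mod_cast this
    rw [abs_div, abs_two]
    linarith
  rw [← Real.log_abs, abs_le]
  constructor
  · have h2 : Real.log (1 / 2) ≤ Real.log |(i : ℝ) - j + δ| :=
      Real.log_le_log (by norm_num) hge
    rw [one_div, Real.log_inv] at h2
    linarith
  · have h2 : Real.log |(i : ℝ) - j + δ| ≤ Real.log M :=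
      Real.log_le_log (by linarith) h
    linarith

lemma abs_W2_le {δ : ℝ} (hδ : δ = 0 ∨ δ = 1 / 2 ∨ δ = -(1 / 2)) {A B A' B' : ℤ} (hAB : A ≤ B)
    (hAB' : A' ≤ B') {M : ℝ} (hM : 1 ≤ M)
    (h : ∀ i ∈ Ico A B, ∀ j ∈ Ico A' B', |(i : ℝ) - j + δ| ≤ M) :
    |W2 δ A B A' B'| ≤ ((B : ℝ) - A) * (((B' : ℝ) - A') * (Real.log M + Real.log 2)) := by
  unfold W2
  refine (Finset.abs_sum_le_sum_abs _ _).trans ?_
  have h1 : ∀ i ∈ Ico A B, |∑ j ∈ Ico A' B', Real.log ((i : ℝ) - j + δ)| ≤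
      ((B' : ℝ) - A') * (Real.log M + Real.log 2) := by
    intro i hi
    refine (Finset.abs_sum_le_sum_abs _ _).trans ?_
    refine (Finset.sum_le_card_nsmul _ _ _ fun j hj => abs_log_le hδ i j hM (h i hi j hj)).trans ?_
    rw [nsmul_eq_mul, Int.card_Ico]
    have : (((B' - A').toNat : ℕ) : ℝ) = (B' : ℝ) - A' := by
      have h2 : (((B' - A').toNat : ℕ) : ℤ) = B' - A' := Int.toNat_of_nonneg (by omega)
      exact_mod_cast h2
    rw [this]
  refine (Finset.sum_le_card_nsmul _ _ _ h1).trans ?_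
  rw [nsmul_eq_mul, Int.card_Ico]
  have : (((B - A).toNat : ℕ) : ℝ) = (B : ℝ) - A := by
    have h2 : (((B - A).toNat : ℕ) : ℤ) = B - A := Int.toNat_of_nonneg (by omega)
    exact_mod_cast h2
  rw [this]

lemma W2_split_left (δ : ℝ) {A B C A' B' : ℤ} (h1 : A ≤ B) (h2 : B ≤ C) :
    W2 δ A C A' B' = W2 δ A B A' B' + W2 δ B C A' B' := by
  unfold W2
  rw [← Finset.Ico_union_Ico_eq_Ico h1 h2, Finset.sum_union (Finset.Ico_disjoint_Ico_consecutive _ _ _)]

lemma W2_split_right (δ : ℝ) {A B A' B' C' : ℤ} (h1 : A' ≤ B') (h2 : B' ≤ C') :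
    W2 δ A B A' C' = W2 δ A B A' B' + W2 δ A B B' C' := by
  unfold W2
  rw [← Finset.sum_add_distrib]
  refine Finset.sum_congr rfl fun i _ => ?_
  rw [← Finset.Ico_union_Ico_eq_Ico h1 h2, Finset.sum_union (Finset.Ico_disjoint_Ico_consecutive _ _ _)]

/-- a few extra nodes at the right ends change little -/
lemma W2_extra {δ : ℝ} (hδ : δ = 0 ∨ δ = 1 / 2 ∨ δ = -(1 / 2)) {A B A' B' e e' : ℤ}
    (hAB : A ≤ B) (hAB' : A' ≤ B') (he : 0 ≤ e) (he' : 0 ≤ e') {M : ℝ} (hM : 1 ≤ M)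
    (h : ∀ i ∈ Ico A (B + e), ∀ j ∈ Ico A' (B' + e'), |(i : ℝ) - j + δ| ≤ M) :
    |W2 δ A (B + e) A' (B' + e') - W2 δ A B A' B'| ≤
      ((e : ℝ) * ((B' : ℝ) + e' - A') + ((B : ℝ) - A) * e') * (Real.log M + Real.log 2) := by
  rw [W2_split_left δ hAB (show B ≤ B + e by omega), W2_split_right δ hAB'
    (show B' ≤ B' + e' by omega)]
  have h1 := abs_W2_le (A := B) (B := B + e) (A' := A') (B' := B' + e') hδ (by omega) (by omega) hM
    (fun i hi j hj => h i (by rw [Finset.mem_Ico] at hi ⊢; omega) j hj)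
  have h2 := abs_W2_le (A := A) (B := B) (A' := B') (B' := B' + e') hδ hAB (by omega) hM
    (fun i hi j hj => h i (by rw [Finset.mem_Ico] at hi ⊢; omega) j
      (by rw [Finset.mem_Ico] at hj ⊢; omega))
  push_cast at h1 h2
  rw [show W2 δ A B A' B' + W2 δ A B B' (B' + e') + W2 δ B (B + e) A' (B' + e') - W2 δ A B A' B' =
    W2 δ B (B + e) A' (B' + e') + W2 δ A B B' (B' + e') by ring]
  refine (abs_add_le _ _).trans ((add_le_add h1 h2).trans (le_of_eq ?_))
  ring

/-- the constant of `log |V|` per `u²` -/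
noncomputable def cV (S : Shape) : ℝ :=
  (∑ w : Fin 8, ∑ v : Fin 8, QW (loW S w) (hiW S w) (loW S v) (hiW S v)) / 2

lemma eW_sub (w v : Fin 8) :
    eW w - eW v = 0 ∨ eW w - eW v = 1 / 2 ∨ eW w - eW v = -(1 / 2) := by
  have h : ∀ w : Fin 8, eW w = 0 ∨ eW w = 1 / 2 := by
    intro w
    fin_cases w <;> simp [eW]
  rcases h w with h1 | h1 <;> rcases h v with h2 | h2 <;> rw [h1, h2]
  · left; norm_num
  · right; right; norm_num
  · right; left; norm_num
  · left; norm_num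

/-- a bound for all the ends -/
def KW (S : Shape) (c : ℕ) : ℕ := S.B + S.e1 + S.e2 + S.e3 + S.w + S.h1 + S.h2 + S.h3 + c + 1

lemma loW_bd (S : Shape) (c : ℕ) (w : Fin 8) : -(KW S c : ℤ) ≤ loW S w ∧ loW S w ≤ 0 := by
  unfold KW
  push_cast
  constructor <;> fin_cases w <;> simp [loW] <;> omega

lemma hiW_bd (S : Shape) (c : ℕ) (w : Fin 8) : 0 ≤ hiW S w ∧ hiW S w + c + 1 ≤ (KW S c : ℤ) := by
  unfold KW
  push_cast
  constructor <;> fin_cases w <;> simp [hiW] <;> omega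

lemma exW_bd (c : ℕ) (w : Fin 8) : 0 ≤ exW c w ∧ exW c w ≤ c := by
  constructor <;> fin_cases w <;> simp [exW]

lemma sum_len (S : Shape) : ∑ w : Fin 8, ((hiW S w : ℝ) - loW S w) = (S.rows : ℝ) := by
  rw [Fin.sum_univ_eight]
  simp only [loW, hiW, Matrix.cons_val_zero, Matrix.cons_val_one, Matrix.cons_val, Shape.rows]
  push_cast
  ring

/-- **asymptotics of the literal confluent Vandermonde** -/
theorem log_VV_asymp (S : Shape) (hS : S.Good) (c : ℕ) :
    ∃ C : ℝ, 0 ≤ C ∧ ∀ u : ℕ, 2 ≤ u →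
      |Real.log |(VV S u c hS : ℝ)| -
        (u : ℝ) ^ 2 * (Real.log u * ((S.rows : ℝ) ^ 2 / 2) + cV S)| ≤ C * (u * Real.log u) := by
  obtain ⟨C, hC0, hC⟩ := WB_scaled (Finset.univ : Finset (Fin 8)) (Finset.univ : Finset (Fin 8))
    (fun _ => 1) (fun _ => 1) eW eW (loW S) (hiW S) (loW S) (hiW S)
    (fun w _ v _ => by
      rcases eW_sub w v with h | h | h <;> rw [h] <;> norm_num [abs_of_pos])
    (fun w _ => loW_le_hiW S w) (fun v _ => loW_le_hiW S v)
  set K : ℝ := (KW S c : ℝ) with hK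
  have hK1 : 1 ≤ K := by
    rw [hK, KW]; push_cast
    have : (0 : ℝ) ≤ (S.B : ℝ) + S.e1 + S.e2 + S.e3 + S.w + S.h1 + S.h2 + S.h3 + c := by positivity
    linarith
  have hl3K : 0 ≤ Real.log (3 * K) := Real.log_nonneg (by linarith)
  have hl2 : 0 ≤ Real.log 2 := Real.log_nonneg (by norm_num)
  refine ⟨C / 2 + 32 * (4 * K * c * (2 * Real.log (3 * K) + 1 + 2 * Real.log 2)), by positivity, ?_⟩
  intro u hu
  have hu0 : (0 : ℝ) < u := by positivity
  have hu2 : (2 : ℝ) ≤ u := by exact_mod_cast hu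
  have hlu : 1 / 2 ≤ Real.log u := by
    have h2 : Real.log 2 ≤ Real.log u := Real.log_le_log (by norm_num) hu2
    have := Real.log_two_gt_d9
    linarith
  have hM : 1 ≤ 3 * K * u := by nlinarith
  have hlM : Real.log (3 * K * u) = Real.log (3 * K) + Real.log u :=
    Real.log_mul (by positivity) (by positivity)
  have hz : (1 : ℤ) ≤ u := by exact_mod_cast (by omega : 1 ≤ u)
  -- the difference
  have hd : ∀ w v : Fin 8, |W2 (eW w - eW v) (loW S w * u) (hiW S w * u + exW c w)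
        (loW S v * u) (hiW S v * u + exW c v) - W2 (eW w - eW v) (loW S w * u) (hiW S w * u)
        (loW S v * u) (hiW S v * u)| ≤
        4 * K * c * (2 * Real.log (3 * K) + 1 + 2 * Real.log 2) * (u * Real.log u) := by
    intro w v
    have a1 := loW_bd S c w
    have a2 := hiW_bd S c w
    have a3 := exW_bd c w
    have b1 := loW_bd S c v
    have b2 := hiW_bd S c v
    have b3 := exW_bd c v
    have h := W2_extra (eW_sub w v) (A := loW S w * u) (B := hiW S w * u) (A' := loW S v * u)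
      (B' := hiW S v * u) (e := exW c w) (e' := exW c v)
      (mul_le_mul_of_nonneg_right (loW_le_hiW S w) (by positivity))
      (mul_le_mul_of_nonneg_right (loW_le_hiW S v) (by positivity)) a3.1 b3.1 hM ?_
    · refine h.trans ?_
      have c1 : (exW c w : ℝ) ≤ c := by exact_mod_cast a3.2
      have c2 : (exW c v : ℝ) ≤ c := by exact_mod_cast b3.2
      have c3 : (0 : ℝ) ≤ exW c w := by exact_mod_cast a3.1
      have c4 : (0 : ℝ) ≤ exW c v := by exact_mod_cast b3.1
      have d1 : ((hiW S v * u : ℤ) : ℝ) + exW c v - ((loW S v * u : ℤ) : ℝ) ≤ 2 * K * u := by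
        have e1 : hiW S v * u + exW c v - loW S v * u ≤ 2 * (KW S c : ℤ) * u := by nlinarith
        have e2 : ((hiW S v * u + exW c v - loW S v * u : ℤ) : ℝ) ≤ ((2 * (KW S c : ℤ) * u : ℤ) : ℝ) :=
          by exact_mod_cast e1
        push_cast at e2 ⊢
        rw [hK]
        exact e2
      have d2 : ((hiW S w * u : ℤ) : ℝ) - ((loW S w * u : ℤ) : ℝ) ≤ 2 * K * u := by
        have e1 : hiW S w * u - loW S w * u ≤ 2 * (KW S c : ℤ) * u := by nlinarith
        have e2 : ((hiW S w * u - loW S w * u : ℤ) : ℝ) ≤ ((2 * (KW S c : ℤ) * u : ℤ) : ℝ) := by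
          exact_mod_cast e1
        push_cast at e2 ⊢
        rw [hK]
        exact e2
      have d3 : 0 ≤ ((hiW S v * u : ℤ) : ℝ) + exW c v - ((loW S v * u : ℤ) : ℝ) := by
        have e1 : 0 ≤ hiW S v * u + exW c v - loW S v * u := by nlinarith
        exact_mod_cast e1
      have f1 : (exW c w : ℝ) * (((hiW S v * u : ℤ) : ℝ) + exW c v - ((loW S v * u : ℤ) : ℝ)) +
          (((hiW S w * u : ℤ) : ℝ) - ((loW S w * u : ℤ) : ℝ)) * exW c v ≤ 4 * K * c * u := by
        have g1 := mul_le_mul c1 d1 d3 (by positivity)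
        have g2 := mul_le_mul d2 c2 c4 (by positivity)
        linarith
      have f2 : 0 ≤ Real.log (3 * K * u) + Real.log 2 := by
        have := Real.log_nonneg hM; linarith
      refine (mul_le_mul_of_nonneg_right f1 f2).trans ?_
      rw [hlM]
      have f3 : Real.log (3 * K) + Real.log u + Real.log 2 ≤
          (2 * Real.log (3 * K) + 1 + 2 * Real.log 2) * Real.log u := by nlinarith
      have f4 : 0 ≤ 4 * K * c * u := by positivity
      calc 4 * K * c * u * (Real.log (3 * K) + Real.log u + Real.log 2)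
          ≤ 4 * K * c * u * ((2 * Real.log (3 * K) + 1 + 2 * Real.log 2) * Real.log u) :=
            mul_le_mul_of_nonneg_left f3 f4
        _ = _ := by ring
    · intro i hi j hj
      rw [Finset.mem_Ico] at hi hj
      have e1 : i - j ≤ 2 * (KW S c : ℤ) * u := by nlinarith
      have e2 : -(2 * (KW S c : ℤ) * u) ≤ i - j := by nlinarith
      have e1' : (i : ℝ) - j ≤ 2 * K * u := by
        have : ((i - j : ℤ) : ℝ) ≤ ((2 * (KW S c : ℤ) * u : ℤ) : ℝ) := by exact_mod_cast e1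
        push_cast at this
        rw [hK]; exact this
      have e2' : -(2 * K * u) ≤ (i : ℝ) - j := by
        have : ((-(2 * (KW S c : ℤ) * u) : ℤ) : ℝ) ≤ ((i - j : ℤ) : ℝ) := by exact_mod_cast e2
        push_cast at this
        rw [hK]; exact this
      have e3 : |eW w - eW v| ≤ 1 / 2 := by
        rcases eW_sub w v with h | h | h <;> rw [h] <;> norm_num [abs_of_pos]
      have e4 : 1 ≤ K * u := by nlinarith
      rw [abs_le] at e3 ⊢
      constructor <;> linarith [e3.1, e3.2]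
  have h2 := two_log_VV_W u c hS
  have h3 := hC u hu
  have e5 : WB (Finset.univ : Finset (Fin 8)) (Finset.univ : Finset (Fin 8))
      (fun _ => 1) (fun _ => 1) eW eW (loW S) (hiW S) (loW S) (hiW S) u =
      ∑ w : Fin 8, ∑ v : Fin 8, W2 (eW w - eW v) (loW S w * u) (hiW S w * u)
        (loW S v * u) (hiW S v * u) := by
    unfold WB
    simp only [one_mul]
  have h4 : |2 * Real.log |(VV S u c hS : ℝ)| -
      WB (Finset.univ : Finset (Fin 8)) (Finset.univ : Finset (Fin 8))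
      (fun _ => 1) (fun _ => 1) eW eW (loW S) (hiW S) (loW S) (hiW S) u| ≤
      64 * (4 * K * c * (2 * Real.log (3 * K) + 1 + 2 * Real.log 2) * (u * Real.log u)) := by
    rw [h2, e5, ← Finset.sum_sub_distrib]
    refine (Finset.abs_sum_le_sum_abs _ _).trans ?_
    refine (Finset.sum_le_card_nsmul _ _
      (8 * (4 * K * c * (2 * Real.log (3 * K) + 1 + 2 * Real.log 2) * (u * Real.log u))) ?_).trans ?_
    · intro w _
      rw [← Finset.sum_sub_distrib]
      refine (Finset.abs_sum_le_sum_abs _ _).trans ?_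
      refine (Finset.sum_le_card_nsmul _ _ _ fun v _ => hd w v).trans ?_
      rw [Finset.card_univ, Fintype.card_fin, nsmul_eq_mul]
      exact le_of_eq (by push_cast; ring)
    · rw [Finset.card_univ, Fintype.card_fin, nsmul_eq_mul]
      exact le_of_eq (by push_cast; ring)
  simp only [one_mul] at h3
  rw [sum_len] at h3
  have h5 : Real.log |(VV S u c hS : ℝ)| -
        (u : ℝ) ^ 2 * (Real.log u * ((S.rows : ℝ) ^ 2 / 2) + cV S) =
      ((2 * Real.log |(VV S u c hS : ℝ)| - WB (Finset.univ : Finset (Fin 8))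
        (Finset.univ : Finset (Fin 8)) (fun _ => 1) (fun _ => 1) eW eW (loW S) (hiW S) (loW S)
        (hiW S) u) + (WB (Finset.univ : Finset (Fin 8))
        (Finset.univ : Finset (Fin 8)) (fun _ => 1) (fun _ => 1) eW eW (loW S) (hiW S) (loW S)
        (hiW S) u - (u : ℝ) ^ 2 * (Real.log u * ((S.rows : ℝ) * (S.rows : ℝ)) +
          ∑ w : Fin 8, ∑ v : Fin 8, QW (loW S w) (hiW S w) (loW S v) (hiW S v)))) / 2 := by
    rw [cV]; ring
  rw [h5, abs_div, abs_two]
  have h6 := abs_add_le (2 * Real.log |(VV S u c hS : ℝ)| - WB (Finset.univ : Finset (Fin 8))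
        (Finset.univ : Finset (Fin 8)) (fun _ => 1) (fun _ => 1) eW eW (loW S) (hiW S) (loW S)
        (hiW S) u) (WB (Finset.univ : Finset (Fin 8))
        (Finset.univ : Finset (Fin 8)) (fun _ => 1) (fun _ => 1) eW eW (loW S) (hiW S) (loW S)
        (hiW S) u - (u : ℝ) ^ 2 * (Real.log u * ((S.rows : ℝ) * (S.rows : ℝ)) +
          ∑ w : Fin 8, ∑ v : Fin 8, QW (loW S w) (hiW S w) (loW S v) (hiW S v)))
  linarith

end Crest.Agent.R006.VVx929
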