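import Crest.Agent.R006.Wedge_516

/-!
Row 6 (Catalan), block P3 (helper516).  The wedge lemma of `Wedge_516` with several poles per unit
cell (sites at the half-integers and nodes at the integers): offsets `φ ∈ Off ⊆ (0,1)`, poles at
`-(κ+l+φ)`.
-/

set_option autoImplicit false

open Complex MeasureTheory Set Filter Topology intervalIntegral Metric Function
open scoped Real Interval

noncomputable section

namespace Crest.Agent.R006.Wedge516

/-- `Φ` is holomorphic on the strip except for poles of order at most `m+1` at the points of `F` -/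
def PolesAt (Φ : ℂ → ℂ) (x0 x1 : ℝ) (F : Finset ℝ) (m : ℕ) : Prop :=
  ∃ (H0 : ℂ → ℂ) (H : ℝ → ℂ → ℂ), DifferentiableOn ℂ H0 (strip x0 x1) ∧
    (∀ s ∈ F, DifferentiableOn ℂ (H s) (strip x0 x1)) ∧
    ∀ z ∈ strip x0 x1, (∀ s ∈ F, z ≠ (s : ℝ)) →
      Φ z = H0 z + ∑ s ∈ F, H s z / (z - s) ^ (m + 1)

/-- the multiplicative form of the hypothesis -/
lemma polesAt_of_prod {Φ H : ℂ → ℂ} {x0 x1 : ℝ} {F : Finset ℝ} {m : ℕ} (hF : F.Nonempty)
    (hH : DifferentiableOn ℂ H (strip x0 x1))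
    (h : ∀ z ∈ strip x0 x1, (∀ s ∈ F, z ≠ (s : ℝ)) →
      Φ z = H z / ∏ s ∈ F, (z - s) ^ (m + 1)) : PolesAt Φ x0 x1 F m := by
  classical
  have hcop : Pairwise (IsCoprime on fun s : F =>
      ((fun s : ℝ => (Polynomial.X - Polynomial.C (s : ℂ)) ^ (m + 1)) (s : ℝ))) := by
    intro s t hst
    refine IsCoprime.pow ?_
    refine Polynomial.isCoprime_X_sub_C_of_isUnit_sub ?_
    have : ((s : ℝ) : ℂ) - ((t : ℝ) : ℂ) ≠ 0 := by
      rw [sub_ne_zero]
      exact fun h => hst (Subtype.ext (by exact_mod_cast h))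
    exact this.isUnit
  obtain ⟨μ, hμ⟩ := (exists_sum_eq_one_iff_pairwise_coprime hF
    (s := fun s : ℝ => (Polynomial.X - Polynomial.C (s : ℂ)) ^ (m + 1))).2 hcop
  refine ⟨0, fun s z => H z * (μ s).eval z, differentiableOn_const 0, ?_, ?_⟩
  · intro s hs
    exact hH.mul (Polynomial.differentiable _).differentiableOn
  · intro z hz hne
    rw [h z hz hne]
    have hne' : ∀ s ∈ F, (z - (s : ℂ)) ^ (m + 1) ≠ 0 := fun s hs =>
      pow_ne_zero _ (sub_ne_zero.2 (hne s hs))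
    have e1 := congrArg (Polynomial.eval z) hμ
    rw [Polynomial.eval_finsetSum] at e1
    simp only [Polynomial.eval_mul, Polynomial.eval_prod, Polynomial.eval_pow,
      Polynomial.eval_sub, Polynomial.eval_X, Polynomial.eval_C, Polynomial.eval_one] at e1
    have hP : ∏ s ∈ F, (z - (s : ℂ)) ^ (m + 1) ≠ 0 := Finset.prod_ne_zero_iff.2 hne'
    rw [Pi.zero_apply, zero_add, div_eq_iff hP, Finset.sum_mul]
    have e2 : ∀ s ∈ F, H z * (μ s).eval z / (z - (s : ℂ)) ^ (m + 1) *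
        ∏ s ∈ F, (z - (s : ℂ)) ^ (m + 1) =
        H z * ((μ s).eval z * ∏ t ∈ F \ {s}, (z - (t : ℂ)) ^ (m + 1)) := by
      intro s hs
      rw [← Finset.mul_prod_erase F _ hs, Finset.sdiff_singleton_eq_erase]
      have := hne' s hs
      field_simp
    rw [Finset.sum_congr rfl e2, ← Finset.mul_sum, e1, mul_one]

lemma circle_sum {s : ℂ} {r : ℝ} (hr : 0 ≤ r) {ι : Type*} (F : Finset ι) (g : ι → ℂ → ℂ)
    (hg : ∀ i ∈ F, ContinuousOn (g i) (sphere s r)) :
    (∮ z in C(s, r), ∑ i ∈ F, g i z) = ∑ i ∈ F, ∮ z in C(s, r), g i z := by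
  classical
  induction F using Finset.induction_on with
  | empty => simp [circleIntegral]
  | insert i F hi ih =>
    simp only [Finset.sum_insert hi]
    rw [circleIntegral.integral_add ((hg i (Finset.mem_insert_self _ _)).circleIntegrable hr)
      ((continuousOn_finsetSum F fun j hj => hg j (Finset.mem_insert_of_mem hj)).circleIntegrable
        hr), ih fun j hj => hg j (Finset.mem_insert_of_mem hj)]

lemma trap_sum {κ c a b : ℝ} {ι : Type*} (F : Finset ι) (g : ι → ℂ → ℂ)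
    (hg : ∀ i ∈ F, ContinuousOn (g i) (trapP κ c a b)) :
    trap κ c a b (fun z => ∑ i ∈ F, g i z) = ∑ i ∈ F, trap κ c a b (g i) := by
  classical
  induction F using Finset.induction_on with
  | empty => simp [trap, sg]
  | insert i F hi ih =>
    simp only [Finset.sum_insert hi]
    rw [trap_add (hg i (Finset.mem_insert_self _ _))
      (continuousOn_finsetSum F fun j hj => hg j (Finset.mem_insert_of_mem hj)),
      ih fun j hj => hg j (Finset.mem_insert_of_mem hj)]

lemma closedBall_subset_strip {x0 x1 s r : ℝ} (h4 : x0 < s - r) (h5 : s + r < x1) :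
    closedBall (s : ℂ) r ⊆ strip x0 x1 := by
  intro z hz
  rw [mem_closedBall, dist_eq_norm] at hz
  have := (Complex.abs_re_le_norm (z - s)).trans hz
  rw [abs_le] at this
  simp at this
  simp [strip]
  constructor <;> linarith

/-- one trapezoid with several poles -/
theorem trap_poles {κ c a b : ℝ} (hc : 0 < c) (ha : 0 ≤ a) (hab : a < b) {x0 x1 r : ℝ}
    (h0 : x0 < -(κ + c * b)) (h1 : -(κ + c * a) < x1) {F : Finset ℝ} {m : ℕ} {Φ : ℂ → ℂ}
    (hΦ : PolesAt Φ x0 x1 F m) (hr : 0 < r)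
    (hF : ∀ s ∈ F, -(κ + c * b) < s ∧ s < -(κ + c * a))
    (hFr : ∀ s ∈ F, x0 < s - r ∧ s + r < x1)
    (hsep : ∀ s ∈ F, ∀ t ∈ F, s ≠ t → r < |s - t|) :
    trap κ c a b Φ = ∑ s ∈ F, ∮ z in C(s, r), Φ z := by
  classical
  obtain ⟨H0, H, hH0, hH, hΦ⟩ := hΦ
  have hsub := trapP_subset hc hab h0 h1
  have hnot : ∀ s ∈ F, (s : ℂ) ∉ trapP κ c a b := fun s hs =>
    notMem_trapP ha hab (hF s hs).1 (hF s hs).2
  have hcontT : ∀ s ∈ F, ContinuousOn (fun z => H s z / (z - (s : ℂ)) ^ (m + 1))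
      (trapP κ c a b) := by
    intro s hs
    refine ((hH s hs).continuousOn.mono hsub).div (by fun_prop) fun z hz => pow_ne_zero _ fun h =>
      hnot s hs (by rw [← sub_eq_zero.1 h]; exact hz)
  -- the trapezoid
  have e1 : trap κ c a b Φ = ∑ s ∈ F, 2 * π * I * ((fun f => dslope f (s : ℂ))^[m] (H s)) s := by
    rw [trap_congr (g := fun z => H0 z + ∑ s ∈ F, H s z / (z - (s : ℂ)) ^ (m + 1)),
      trap_add (hH0.continuousOn.mono hsub) (continuousOn_finsetSum F hcontT),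
      trap_holo hc hab h0 h1 hH0, zero_add, trap_sum F _ hcontT]
    · exact Finset.sum_congr rfl fun s hs => trap_residue hc ha hab h0 h1 (hF s hs).1 (hF s hs).2 m
        (hH s hs)
    · intro z hz
      exact hΦ z (hsub hz) fun s hs h => hnot s hs (h ▸ hz)
  rw [e1]
  refine Finset.sum_congr rfl fun s hs => ?_
  have hball := closedBall_subset_strip (hFr s hs).1 (hFr s hs).2
  have hne : ∀ t ∈ F, t ≠ s → ∀ z ∈ closedBall (s : ℂ) r, z - (t : ℂ) ≠ 0 := by
    intro t ht hts z hz h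
    rw [sub_eq_zero] at h
    subst h
    rw [mem_closedBall, Complex.dist_eq, ← Complex.ofReal_sub, Complex.norm_real,
      Real.norm_eq_abs, abs_sub_comm] at hz
    exact absurd (hsep s hs t ht hts.symm) (not_lt.2 hz)
  have hnes : ∀ z ∈ sphere (s : ℂ) r, z - (s : ℂ) ≠ 0 := by
    intro z hz h
    rw [sub_eq_zero] at h
    subst h
    simp at hz
    exact hr.ne hz
  have hcontC : ∀ t ∈ F, ContinuousOn (fun z => H t z / (z - (t : ℂ)) ^ (m + 1))
      (sphere (s : ℂ) r) := by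
    intro t ht
    refine ((hH t ht).continuousOn.mono (sphere_subset_closedBall.trans hball)).div (by fun_prop)
      fun z hz => pow_ne_zero _ ?_
    by_cases hts : t = s
    · subst hts; exact hnes z hz
    · exact hne t ht hts z (sphere_subset_closedBall hz)
  have e2 : (∮ z in C(s, r), Φ z) =
      ∮ z in C(s, r), (H0 z + ∑ t ∈ F, H t z / (z - (t : ℂ)) ^ (m + 1)) := by
    refine circleIntegral.integral_congr hr.le fun z hz => ?_
    refine hΦ z (hball (sphere_subset_closedBall hz)) fun t ht h => ?_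
    by_cases hts : t = s
    · subst hts; exact hnes z hz (sub_eq_zero.2 h)
    · exact hne t ht hts z (sphere_subset_closedBall hz) (sub_eq_zero.2 h)
  have hzero : ∀ g : ℂ → ℂ, DifferentiableOn ℂ g (closedBall (s : ℂ) r) →
      (∮ z in C(s, r), g z) = 0 := by
    intro g hg
    refine circleIntegral_eq_zero_of_differentiable_on_off_countable hr.le countable_empty
      hg.continuousOn ?_
    intro z hz
    exact (hg z (ball_subset_closedBall hz.1)).differentiableAt
      (closedBall_mem_nhds_of_mem hz.1)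
  rw [e2, circleIntegral.integral_add
    ((hH0.continuousOn.mono (sphere_subset_closedBall.trans hball)).circleIntegrable hr.le)
    ((continuousOn_finsetSum F hcontC).circleIntegrable hr.le), hzero _ (hH0.mono hball), zero_add,
    circle_sum hr.le F _ hcontC, Finset.sum_eq_single_of_mem s hs]
  · rw [circle_residue hr (isOpen_strip x0 x1) hball m (hH s hs)]
  · intro t ht hts
    refine hzero _ ?_
    refine ((hH t ht).mono hball).div (by fun_prop) fun z hz => pow_ne_zero _ (hne t ht hts z hz)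

/-- hypotheses on the offsets: in `(0,1)`, `r`-separated -/
structure OffOK (Off : Finset ℝ) (r : ℝ) : Prop where
  pos : ∀ φ ∈ Off, 0 < φ
  lt_one : ∀ φ ∈ Off, φ < 1
  r_pos : 0 < r
  r_le : r ≤ 1 / 4
  sep : ∀ φ ∈ Off, ∀ φ' ∈ Off, φ ≠ φ' → r < |φ - φ'|

/-- the pole set of cell `l` -/
def cellF (Off : Finset ℝ) (κ : ℝ) (l : ℕ) : Finset ℝ :=
  Off.image (fun φ => -(κ + l + φ))

lemma mem_cellF {Off : Finset ℝ} {κ s : ℝ} {l : ℕ} :
    s ∈ cellF Off κ l ↔ ∃ φ ∈ Off, -(κ + l + φ) = s := by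
  simp [cellF]

lemma PolesAt.continuousOn {Φ : ℂ → ℂ} {x0 x1 : ℝ} {F : Finset ℝ} {m : ℕ}
    (h : PolesAt Φ x0 x1 F m) {P : Set ℂ}
    (hP : P ⊆ strip x0 x1) (hs : ∀ s ∈ F, (s : ℂ) ∉ P) : ContinuousOn Φ P := by
  obtain ⟨H0, H, hH0, hH, hΦ⟩ := h
  have : ContinuousOn (fun z => H0 z + ∑ s ∈ F, H s z / (z - (s : ℂ)) ^ (m + 1)) P := by
    refine (hH0.continuousOn.mono hP).add (continuousOn_finsetSum F fun s hsF => ?_)
    exact ((hH s hsF).continuousOn.mono hP).div (by fun_prop) fun z hz => pow_ne_zero _ fun h =>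
      hs s hsF (by rw [← sub_eq_zero.1 h]; exact hz)
  exact this.congr fun z hz => hΦ z (hP hz) fun s hsF h => hs s hsF (h ▸ hz)

section W2

variable {κ c r : ℝ} {Off : Finset ℝ} {m : ℕ} {Φ : ℂ → ℂ}

lemma cell2 (hc : 0 < c) (hO : OffOK Off r) {l : ℕ}
    (h : PolesAt Φ (-(κ + l) - 3 / 2) (-(κ + l) + 1 / 2) (cellF Off κ l) m) :
    trap κ c (l / c) ((l + 1 : ℕ) / c) Φ =
      ∑ φ ∈ Off, (∮ z in C((-(κ + l + φ) : ℝ), r), Φ z) := by
  have e1 : c * ((l : ℝ) / c) = l := mul_div_cancel₀ _ hc.ne'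
  have e2 : c * (((l + 1 : ℕ) : ℝ) / c) = (l + 1 : ℕ) := mul_div_cancel₀ _ hc.ne'
  have ha : (0 : ℝ) ≤ l / c := by positivity
  have hab : (l : ℝ) / c < ((l + 1 : ℕ) : ℝ) / c := by
    gcongr
    simp
  have hr := hO.r_le
  have key := trap_poles (κ := κ) hc ha hab (x0 := -(κ + l) - 3 / 2) (x1 := -(κ + l) + 1 / 2)
    (r := r) (by rw [e2]; push_cast; linarith) (by rw [e1]; linarith) h hO.r_pos ?_ ?_ ?_
  · rw [key, cellF, Finset.sum_image]
    intro x _ y _ hxy
    simpa using hxy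
  · intro s hs
    obtain ⟨φ, hφ, rfl⟩ := mem_cellF.1 hs
    have := hO.pos φ hφ
    have := hO.lt_one φ hφ
    rw [e1, e2]
    push_cast
    constructor <;> linarith
  · intro s hs
    obtain ⟨φ, hφ, rfl⟩ := mem_cellF.1 hs
    have := hO.pos φ hφ
    have := hO.lt_one φ hφ
    constructor <;> linarith
  · intro s hs t ht hst
    obtain ⟨φ, hφ, rfl⟩ := mem_cellF.1 hs
    obtain ⟨φ', hφ', rfl⟩ := mem_cellF.1 ht
    have := hO.sep φ' hφ' φ hφ (fun h => hst (by rw [h]))
    rwa [show -(κ + l + φ) - -(κ + l + φ') = φ' - φ by ring]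

lemma cellF_notMem (hc : 0 < c) (hO : OffOK Off r) {l : ℕ} :
    ∀ s ∈ cellF Off κ l, (s : ℂ) ∉ trapP κ c ((l : ℝ) / c) (((l + 1 : ℕ) : ℝ) / c) := by
  have e1 : c * ((l : ℝ) / c) = l := mul_div_cancel₀ _ hc.ne'
  have e2 : c * (((l + 1 : ℕ) : ℝ) / c) = (l + 1 : ℕ) := mul_div_cancel₀ _ hc.ne'
  have ha : (0 : ℝ) ≤ l / c := by positivity
  have hab : (l : ℝ) / c < ((l + 1 : ℕ) : ℝ) / c := by
    gcongr
    simp
  intro s hs
  obtain ⟨φ, hφ, rfl⟩ := mem_cellF.1 hs
  have := hO.pos φ hφ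
  have := hO.lt_one φ hφ
  refine notMem_trapP ha hab ?_ ?_
  · rw [e2]; push_cast; linarith
  · rw [e1]; linarith

lemma cell_continuousOn (hc : 0 < c) (hO : OffOK Off r) {l : ℕ}
    (h : PolesAt Φ (-(κ + l) - 3 / 2) (-(κ + l) + 1 / 2) (cellF Off κ l) m) :
    ContinuousOn Φ (trapP κ c ((l : ℝ) / c) (((l + 1 : ℕ) : ℝ) / c)) := by
  have e1 : c * ((l : ℝ) / c) = l := mul_div_cancel₀ _ hc.ne'
  have e2 : c * (((l + 1 : ℕ) : ℝ) / c) = (l + 1 : ℕ) := mul_div_cancel₀ _ hc.ne'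
  have hab : (l : ℝ) / c < ((l + 1 : ℕ) : ℝ) / c := by
    gcongr
    simp
  refine h.continuousOn (trapP_subset hc hab ?_ ?_) (cellF_notMem hc hO)
  · rw [e2]; push_cast; linarith
  · rw [e1]; linarith

/-- finite wedge, several poles per cell -/
theorem wedge2_finite (hc : 0 < c) (hO : OffOK Off r) (n : ℕ)
    (h : ∀ l < n, PolesAt Φ (-(κ + l) - 3 / 2) (-(κ + l) + 1 / 2) (cellF Off κ l) m) :
    ∑ l ∈ Finset.range n, ∑ φ ∈ Off, (∮ z in C((-(κ + l + φ) : ℝ), r), Φ z) =
      sg (-κ) (-c + I) 0 (n / c) Φ - sg (-κ) (-c - I) 0 (n / c) Φ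
        - sg ((-(κ + n) : ℝ) : ℂ) I (-(n / c)) (n / c) Φ := by
  induction n with
  | zero => simp [sg]
  | succ n ih =>
    rw [Finset.sum_range_succ, ih fun l hl => h l (hl.trans (Nat.lt_succ_self n)),
      ← cell2 hc hO (h n (Nat.lt_succ_self n))]
    have e1 : c * ((n : ℝ) / c) = n := mul_div_cancel₀ _ hc.ne'
    have e2 : c * (((n + 1 : ℕ) : ℝ) / c) = (n + 1 : ℕ) := mul_div_cancel₀ _ hc.ne'
    unfold trap
    rw [e1, e2]
    -- the ray integrals are additive
    have hint : ∀ v : ℂ, (v = -c + I ∨ v = -c - I) → ∀ l ≤ n,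
        IntervalIntegrable (fun t : ℝ => Φ (-κ + t * v)) volume (l / c) ((l + 1 : ℕ) / c) := by
      intro v hv l hl
      have hcont := cell_continuousOn hc hO (h l (Nat.lt_succ_of_le hl))
      rcases hv with rfl | rfl
      · exact (continuousOn_line hcont fun t ht => line2_mem ht).intervalIntegrable
      · exact (continuousOn_line hcont fun t ht => line4_mem ht).intervalIntegrable
    have hint' : ∀ v : ℂ, (v = -c + I ∨ v = -c - I) → ∀ l ≤ n,
        IntervalIntegrable (fun t : ℝ => Φ (-κ + t * v)) volume 0 ((l : ℕ) / c) := by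
      intro v hv l
      induction l with
      | zero => intro _; simp
      | succ l ihl =>
        intro hl
        exact (ihl (by omega)).trans (hint v hv l (by omega))
    have hadd : ∀ v : ℂ, (v = -c + I ∨ v = -c - I) →
        sg (-κ) v 0 ((n : ℝ) / c) Φ + sg (-κ) v ((n : ℝ) / c) (((n + 1 : ℕ) : ℝ) / c) Φ =
          sg (-κ) v 0 (((n + 1 : ℕ) : ℝ) / c) Φ := by
      intro v hv
      unfold sg
      rw [← mul_add, intervalIntegral.integral_add_adjacent_intervals (hint' v hv n le_rfl)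
        (hint v hv n le_rfl)]
    rw [← hadd _ (Or.inl rfl), ← hadd _ (Or.inr rfl)]
    ring

/-- infinite wedge, several poles per cell -/
theorem wedge2_tendsto (hc : 0 < c) (hO : OffOK Off r)
    (h : ∀ l : ℕ, PolesAt Φ (-(κ + l) - 3 / 2) (-(κ + l) + 1 / 2) (cellF Off κ l) m)
    (h1 : IntegrableOn (fun t : ℝ => Φ (-κ + t * (-c + I))) (Ioi 0))
    (h2 : IntegrableOn (fun t : ℝ => Φ (-κ + t * (-c - I))) (Ioi 0))
    (h3 : Tendsto (fun n : ℕ => sg ((-(κ + n) : ℝ) : ℂ) I (-(n / c)) (n / c) Φ) atTop (𝓝 0)) :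
    Tendsto (fun n : ℕ => ∑ l ∈ Finset.range n, ∑ φ ∈ Off,
        (∮ z in C((-(κ + l + φ) : ℝ), r), Φ z))
      atTop (𝓝 ((-c + I) * (∫ t in Ioi (0 : ℝ), Φ (-κ + t * (-c + I))) -
        (-c - I) * (∫ t in Ioi (0 : ℝ), Φ (-κ + t * (-c - I))))) := by
  have hn : Tendsto (fun n : ℕ => (n : ℝ) / c) atTop atTop :=
    tendsto_natCast_atTop_atTop.atTop_div_const hc
  have t1 := (intervalIntegral_tendsto_integral_Ioi 0 h1 hn).const_mul (-c + I)
  have t2 := (intervalIntegral_tendsto_integral_Ioi 0 h2 hn).const_mul (-c - I)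
  have t3 := (t1.sub t2).sub h3
  rw [sub_zero] at t3
  refine t3.congr fun n => ?_
  rw [wedge2_finite hc hO n fun l _ => h l]
  rfl

lemma ray_continuousOn (hc : 0 < c) (hO : OffOK Off r)
    (h : ∀ l : ℕ, PolesAt Φ (-(κ + l) - 3 / 2) (-(κ + l) + 1 / 2) (cellF Off κ l) m)
    {v : ℂ} (hv : v = -c + I ∨ v = -c - I) :
    ContinuousOn (fun t : ℝ => Φ (-κ + t * v)) (Ici 0) := by
  intro t ht
  have ht0 : (0 : ℝ) ≤ t := ht
  have hre : ((-κ : ℂ) + t * v).re = -κ - c * t := by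
    rcases hv with rfl | rfl <;> simp <;> ring
  set l := ⌊c * t⌋₊ with hl
  have hl1 : (l : ℝ) ≤ c * t := Nat.floor_le (by positivity)
  have hl2 : c * t < l + 1 := Nat.lt_floor_add_one _
  set S : Set ℂ := strip (-(κ + l) - 3 / 2) (-(κ + l) + 1 / 2) \
    ((cellF Off κ l).image (fun s : ℝ => (s : ℂ)) : Set ℂ) with hS
  have hmem : (-κ : ℂ) + t * v ∈ strip (-(κ + l) - 3 / 2) (-(κ + l) + 1 / 2) := by
    constructor <;> rw [hre] <;> linarith
  have hne : (-κ : ℂ) + t * v ∉ ((cellF Off κ l).image (fun s : ℝ => (s : ℂ)) : Set ℂ) := by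
    intro he
    rw [Finset.coe_image, mem_image] at he
    obtain ⟨s, hs, he⟩ := he
    obtain ⟨φ, hφ, rfl⟩ := mem_cellF.1 (Finset.mem_coe.1 hs)
    have hp := hO.pos φ hφ
    have h2 := congrArg Complex.im he
    have h3 : t = 0 := by rcases hv with rfl | rfl <;> simpa using h2.symm
    have h4 := congrArg Complex.re he
    rw [hre, h3] at h4
    simp only [mul_zero, sub_zero, ofReal_re] at h4
    have : (0 : ℝ) ≤ l := Nat.cast_nonneg l
    linarith
  have hSo : S ∈ 𝓝 ((-κ : ℂ) + t * v) :=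
    ((isOpen_strip _ _).sdiff (Finset.finite_toSet _).isClosed).mem_nhds ⟨hmem, hne⟩
  have h5 : ContinuousOn Φ S := (h l).continuousOn sdiff_subset (fun s hs h' => h'.2 (by
    rw [Finset.coe_image]; exact mem_image_of_mem _ hs))
  have hca : ContinuousAt Φ ((-κ : ℂ) + t * v) := h5.continuousAt hSo
  exact (ContinuousAt.comp (f := fun t : ℝ => (-κ : ℂ) + t * v) hca
    (continuous_line _ _).continuousAt).continuousWithinAt

/-- wedge with exponential decay -/
theorem wedge2_hasSum {M lam : ℝ} (hc : 0 < c) (hlam : 0 < lam) (hO : OffOK Off r)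
    (h : ∀ l : ℕ, PolesAt Φ (-(κ + l) - 3 / 2) (-(κ + l) + 1 / 2) (cellF Off κ l) m)
    (hb1 : ∀ t : ℝ, 0 ≤ t → ‖Φ (-κ + t * (-c + I))‖ ≤ M * Real.exp (-lam * t))
    (hb2 : ∀ t : ℝ, 0 ≤ t → ‖Φ (-κ + t * (-c - I))‖ ≤ M * Real.exp (-lam * t))
    (hb3 : ∀ (n : ℕ) (y : ℝ), |y| ≤ n / c → ‖Φ (((-(κ + n) : ℝ) : ℂ) + y * I)‖ ≤
      M * Real.exp (-lam * n))
    (hb4 : ∀ (l : ℕ), ∀ φ ∈ Off, ∀ (z : ℂ), ‖z - ((-(κ + l + φ) : ℝ) : ℂ)‖ = r →
      ‖Φ z‖ ≤ M * Real.exp (-lam * l)) :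
    HasSum (fun l : ℕ => ∑ φ ∈ Off, ∮ z in C((-(κ + l + φ) : ℝ), r), Φ z)
      ((-c + I) * (∫ t in Ioi (0 : ℝ), Φ (-κ + t * (-c + I))) -
        (-c - I) * (∫ t in Ioi (0 : ℝ), Φ (-κ + t * (-c - I)))) := by
  have hM : 0 ≤ M := by
    have := (norm_nonneg _).trans (hb1 0 le_rfl)
    simpa using this
  have hintv : ∀ v : ℂ, (v = -c + I ∨ v = -c - I) →
      (∀ t : ℝ, 0 ≤ t → ‖Φ (-κ + t * v)‖ ≤ M * Real.exp (-lam * t)) →
      IntegrableOn (fun t : ℝ => Φ (-κ + t * v)) (Ioi 0) := by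
    intro v hv hb
    have hg : IntegrableOn (fun t : ℝ => M * Real.exp (-lam * t)) (Ioi 0) :=
      (exp_neg_integrableOn_Ioi 0 hlam).const_mul M
    refine Integrable.mono' hg (((ray_continuousOn hc hO h hv).mono
      Ioi_subset_Ici_self).aestronglyMeasurable measurableSet_Ioi) ?_
    filter_upwards [ae_restrict_mem measurableSet_Ioi] with t ht
    exact hb t (le_of_lt ht)
  have htend := wedge2_tendsto hc hO h (hintv _ (Or.inl rfl) hb1) (hintv _ (Or.inr rfl) hb2) ?_
  · have hsum : Summable (fun l : ℕ => ∑ φ ∈ Off, ∮ z in C((-(κ + l + φ) : ℝ), r), Φ z) := by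
      refine Summable.of_norm_bounded
        (g := fun l : ℕ => ∑ φ ∈ Off, 2 * π * r * (M * Real.exp (-lam * l))) ?_ fun l => ?_
      · refine summable_sum fun φ _ => ?_
        refine ((?_ : Summable fun l : ℕ => Real.exp (-lam * l)).mul_left M).mul_left _
        have := Real.summable_exp_nat_mul_iff.2 (show -lam < 0 by linarith)
        refine this.congr fun l => ?_
        rw [mul_comm]
      · refine (norm_sum_le _ _).trans (Finset.sum_le_sum fun φ hφ => ?_)
        refine circleIntegral.norm_integral_le_of_norm_le_const hO.r_pos.le fun z hz => ?_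
        rw [mem_sphere, dist_eq_norm] at hz
        exact hb4 l φ hφ z hz
    exact (hsum.hasSum_iff_tendsto_nat).2 htend
  · rw [tendsto_zero_iff_norm_tendsto_zero]
    have hlim : Tendsto (fun n : ℕ => 2 / c * M * ((n : ℝ) * Real.exp (-lam * n))) atTop
        (𝓝 0) := by
      have h5 : Tendsto (fun x : ℝ => x * Real.exp (-lam * x)) atTop (𝓝 0) := by
        have := Real.tendsto_pow_mul_exp_neg_atTop_nhds_zero 1
        have h6 := (this.comp (tendsto_id.const_mul_atTop hlam)).const_mul (1 / lam)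
        rw [mul_zero] at h6
        refine h6.congr fun x => ?_
        simp only [Function.comp, pow_one, id]
        rw [show -(lam * x) = -lam * x by ring]
        field_simp
      have := (h5.comp tendsto_natCast_atTop_atTop).const_mul (2 / c * M)
      rw [mul_zero] at this
      exact this
    refine squeeze_zero (fun _ => norm_nonneg _) (fun n => ?_) hlim
    have hn0 : (0 : ℝ) ≤ (n : ℝ) / c := by positivity
    unfold sg
    rw [norm_mul, Complex.norm_I, one_mul]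
    have h7 := intervalIntegral.norm_integral_le_of_norm_le_const
      (a := -((n : ℝ) / c)) (b := (n : ℝ) / c)
      (f := fun y : ℝ => Φ (((-(κ + n) : ℝ) : ℂ) + y * I)) (C := M * Real.exp (-lam * n))
      (fun y hy => hb3 n y ?_)
    · refine h7.trans (le_of_eq ?_)
      rw [sub_neg_eq_add, abs_of_nonneg (by linarith)]
      ring
    · rw [uIoc_of_le (by linarith)] at hy
      exact abs_le.2 ⟨hy.1.le, hy.2⟩

end W2

end Crest.Agent.R006.Wedge516
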