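import Mathlib

/-!
Row 6 (Catalan), block P3, leaf "wedge" (helper516).

Contour integrals along the two rays `-k0 + t (-c ± I)`, `t > 0`, versus the sum of the residues
at the sites `-1/2-l`, `l ≥ k0`.  Everything is built from straight segments
`sg p v a b Φ = v * ∫ t in a..b, Φ (p + t v)`.
-/

set_option autoImplicit false

open Complex MeasureTheory Set Filter Topology intervalIntegral Metric
open scoped Real Interval

noncomputable section

namespace Crest.Agent.R006.Wedge516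

/-- integral of `Φ` along the segment `t ↦ p + t v`, `t ∈ [a,b]`. -/
def sg (p v : ℂ) (a b : ℝ) (Φ : ℂ → ℂ) : ℂ := v * ∫ t in a..b, Φ (p + t * v)

lemma continuous_line (p v : ℂ) : Continuous (fun t : ℝ => p + t * v) := by fun_prop

lemma sg_ftc {p v : ℂ} {a b : ℝ} {Φ G : ℂ → ℂ}
    (h : ∀ t ∈ uIcc a b, HasDerivAt G (Φ (p + t * v)) (p + t * v))
    (hc : ContinuousOn (fun t : ℝ => Φ (p + t * v)) (uIcc a b)) :
    sg p v a b Φ = G (p + b * v) - G (p + a * v) := by
  have h1 : ∀ t ∈ uIcc a b, HasDerivAt (fun t : ℝ => G (p + t * v)) (Φ (p + t * v) * v) t := by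
    intro t ht
    have h2 : HasDerivAt (fun t : ℝ => p + (t : ℂ) * v) v t := by
      have := ((Complex.ofRealCLM.hasDerivAt (x := t)).mul_const v).const_add p
      simpa using this
    exact (h t ht).comp_of_eq t h2 rfl
  have h3 := intervalIntegral.integral_eq_sub_of_hasDerivAt h1
    ((hc.mul continuousOn_const).intervalIntegrable)
  rw [sg, ← h3, ← intervalIntegral.integral_const_mul]
  exact intervalIntegral.integral_congr fun t _ => mul_comm _ _

lemma sg_congr {p v : ℂ} {a b : ℝ} {Φ Ψ : ℂ → ℂ}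
    (h : ∀ t ∈ uIcc a b, Φ (p + t * v) = Ψ (p + t * v)) : sg p v a b Φ = sg p v a b Ψ := by
  rw [sg, sg, intervalIntegral.integral_congr h]

lemma sg_add {p v : ℂ} {a b : ℝ} {Φ Ψ : ℂ → ℂ}
    (h1 : ContinuousOn (fun t : ℝ => Φ (p + t * v)) (uIcc a b))
    (h2 : ContinuousOn (fun t : ℝ => Ψ (p + t * v)) (uIcc a b)) :
    sg p v a b (fun z => Φ z + Ψ z) = sg p v a b Φ + sg p v a b Ψ := by
  rw [sg, sg, sg, intervalIntegral.integral_add h1.intervalIntegrable h2.intervalIntegrable]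
  ring

lemma sg_const_mul {p v : ℂ} {a b : ℝ} (c : ℂ) {Φ : ℂ → ℂ} :
    sg p v a b (fun z => c * Φ z) = c * sg p v a b Φ := by
  rw [sg, sg, intervalIntegral.integral_const_mul]
  ring

/-- A linear functional which kills holomorphic functions and has the right values on the powers
`(z-s)^(-m)` computes residues. -/
lemma residue_rec (L : (ℂ → ℂ) → ℂ) (P S : Set ℂ) (s : ℂ) (hsP : s ∉ P)
    (hPS : P ⊆ S) (hS : S ∈ 𝓝 s)
    (hadd : ∀ f g : ℂ → ℂ, ContinuousOn f P → ContinuousOn g P →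
      L (fun z => f z + g z) = L f + L g)
    (hsmul : ∀ (c : ℂ) (f : ℂ → ℂ), L (fun z => c * f z) = c * L f)
    (hcongr : ∀ f g : ℂ → ℂ, EqOn f g P → L f = L g)
    (h0 : ∀ g : ℂ → ℂ, DifferentiableOn ℂ g S → L g = 0)
    (h1 : L (fun z => (z - s)⁻¹) = 2 * π * I)
    (h2 : ∀ m : ℕ, L (fun z => ((z - s) ^ (m + 2))⁻¹) = 0) :
    ∀ (n : ℕ) (f : ℂ → ℂ), DifferentiableOn ℂ f S →
      L (fun z => f z / (z - s) ^ (n + 1)) = 2 * π * I * ((fun f => dslope f s)^[n] f) s := by
  have hne : ∀ z ∈ P, z - s ≠ 0 := fun z hz h => hsP (by rw [← sub_eq_zero.1 h]; exact hz)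
  have hpc : ∀ m : ℕ, ContinuousOn (fun z => ((z - s) ^ m)⁻¹) P := fun m =>
    ContinuousOn.inv₀ (by fun_prop) (fun z hz => pow_ne_zero _ (hne z hz))
  intro n
  induction n with
  | zero =>
    intro f hf
    have hd : DifferentiableOn ℂ (dslope f s) S := (differentiableOn_dslope hS).2 hf
    have e : EqOn (fun z => f z / (z - s) ^ (0 + 1))
        (fun z => f s * (z - s)⁻¹ + dslope f s z) P := by
      intro z hz
      have hz' := hne z hz
      have : z ≠ s := fun h => hsP (h ▸ hz)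
      simp only
      rw [dslope_of_ne _ this, slope_def_field]
      field_simp
      ring
    rw [hcongr _ _ e, hadd _ _ _ (hd.continuousOn.mono hPS), hsmul, h1, h0 _ hd]
    · simp [mul_comm]
    · have := hpc 1
      simp only [pow_one] at this
      exact continuousOn_const.mul this
  | succ n ih =>
    intro f hf
    have hd : DifferentiableOn ℂ (dslope f s) S := (differentiableOn_dslope hS).2 hf
    have e : EqOn (fun z => f z / (z - s) ^ (n + 1 + 1))
        (fun z => f s * ((z - s) ^ (n + 2))⁻¹ + dslope f s z / (z - s) ^ (n + 1)) P := by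
      intro z hz
      have hz' := hne z hz
      have : z ≠ s := fun h => hsP (h ▸ hz)
      simp only
      rw [dslope_of_ne _ this, slope_def_field]
      field_simp
      ring
    rw [hcongr _ _ e, hadd, hsmul, h2, mul_zero, zero_add, ih _ hd, Function.iterate_succ_apply]
    · exact continuousOn_const.mul (hpc _)
    · refine ContinuousOn.div (hd.continuousOn.mono hPS) (by fun_prop)
        (fun z hz => pow_ne_zero _ (hne z hz))

/-- the same for circles -/
lemma circle_residue {s : ℂ} {r : ℝ} (hr : 0 < r) {S : Set ℂ} (hS : IsOpen S)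
    (hb : closedBall s r ⊆ S) (n : ℕ) {f : ℂ → ℂ} (hf : DifferentiableOn ℂ f S) :
    (∮ z in C(s, r), f z / (z - s) ^ (n + 1)) = 2 * π * I * ((fun f => dslope f s)^[n] f) s := by
  refine residue_rec (fun g => ∮ z in C(s, r), g z) (sphere s r) S s ?_ ?_ ?_ ?_ ?_ ?_ ?_ ?_ ?_ n f hf
  · simp [hr.ne]
  · exact sphere_subset_closedBall.trans hb
  · exact hS.mem_nhds (hb (mem_closedBall_self hr.le))
  · intro f g h1 h2
    exact circleIntegral.integral_add (h1.circleIntegrable hr.le) (h2.circleIntegrable hr.le)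
  · intro c f
    exact circleIntegral.integral_const_mul c f s r
  · intro f g h
    exact circleIntegral.integral_congr hr.le h
  · intro g hg
    refine circleIntegral_eq_zero_of_differentiable_on_off_countable hr.le countable_empty
      (hg.continuousOn.mono hb) ?_
    intro z hz
    exact hg.differentiableAt (hS.mem_nhds (hb (ball_subset_closedBall hz.1)))
  · exact circleIntegral.integral_sub_center_inv s hr.ne'
  · intro m
    have := circleIntegral.integral_sub_zpow_of_ne (n := -((m : ℤ) + 2)) (by omega) s s r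
    rw [← this]
    refine circleIntegral.integral_congr hr.le (fun z _ => ?_)
    rw [zpow_neg]
    norm_cast


/-! ### the trapezoid -/

/-- closed trapezoid with corners `-(κ+c a) ± a I`, `-(κ+c b) ± b I` (counterclockwise). -/
def trap (κ c a b : ℝ) (Φ : ℂ → ℂ) : ℂ :=
  sg ((-(κ + c * a) : ℝ) : ℂ) I (-a) a Φ + sg (-κ) (-c + I) a b Φ
    - sg ((-(κ + c * b) : ℝ) : ℂ) I (-b) b Φ - sg (-κ) (-c - I) a b Φ

def trapP (κ c a b : ℝ) : Set ℂ :=
  ((fun t : ℝ => ((-(κ + c * a) : ℝ) : ℂ) + t * I) '' uIcc (-a) a) ∪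
  ((fun t : ℝ => (-κ : ℂ) + t * (-c + I)) '' uIcc a b) ∪
  ((fun t : ℝ => ((-(κ + c * b) : ℝ) : ℂ) + t * I) '' uIcc (-b) b) ∪
  ((fun t : ℝ => (-κ : ℂ) + t * (-c - I)) '' uIcc a b)

def strip (x0 x1 : ℝ) : Set ℂ := {z | x0 < z.re ∧ z.re < x1}

lemma isOpen_strip (x0 x1 : ℝ) : IsOpen (strip x0 x1) :=
  (isOpen_lt continuous_const Complex.continuous_re).inter
    (isOpen_lt Complex.continuous_re continuous_const)

lemma convex_strip (x0 x1 : ℝ) : Convex ℝ (strip x0 x1) :=
  (convex_halfSpace_re_gt x0).inter (convex_halfSpace_re_lt x1)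

section Trap

variable {κ c a b : ℝ}

lemma line1_mem {t : ℝ} (ht : t ∈ uIcc (-a) a) :
    ((-(κ + c * a) : ℝ) : ℂ) + t * I ∈ trapP κ c a b :=
  Or.inl (Or.inl (Or.inl ⟨t, ht, rfl⟩))
lemma line2_mem {t : ℝ} (ht : t ∈ uIcc a b) :
    (-κ : ℂ) + t * (-c + I) ∈ trapP κ c a b := Or.inl (Or.inl (Or.inr ⟨t, ht, rfl⟩))
lemma line3_mem {t : ℝ} (ht : t ∈ uIcc (-b) b) :
    ((-(κ + c * b) : ℝ) : ℂ) + t * I ∈ trapP κ c a b := Or.inl (Or.inr ⟨t, ht, rfl⟩)
lemma line4_mem {t : ℝ} (ht : t ∈ uIcc a b) :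
    (-κ : ℂ) + t * (-c - I) ∈ trapP κ c a b := Or.inr ⟨t, ht, rfl⟩

lemma trapP_subset (hc : 0 < c) (hab : a < b) {x0 x1 : ℝ}
    (h0 : x0 < -(κ + c * b)) (h1 : -(κ + c * a) < x1) : trapP κ c a b ⊆ strip x0 x1 := by
  have hm : ∀ t ∈ uIcc a b, c * a ≤ c * t ∧ c * t ≤ c * b := by
    intro t ht
    rw [uIcc_of_le hab.le] at ht
    exact ⟨mul_le_mul_of_nonneg_left ht.1 hc.le, mul_le_mul_of_nonneg_left ht.2 hc.le⟩
  have hcab : c * a < c * b := mul_lt_mul_of_pos_left hab hc
  rintro z (((⟨t, ht, rfl⟩ | ⟨t, ht, rfl⟩) | ⟨t, ht, rfl⟩) | ⟨t, ht, rfl⟩) <;>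
    show _ ∧ _
  · simp; constructor <;> linarith
  · have := hm t ht
    simp; constructor <;> nlinarith
  · simp; constructor <;> linarith
  · have := hm t ht
    simp; constructor <;> nlinarith

lemma continuousOn_line {P : Set ℂ} {Φ : ℂ → ℂ} (h : ContinuousOn Φ P) {p v : ℂ} {a b : ℝ}
    (hm : ∀ t ∈ uIcc a b, p + (t : ℂ) * v ∈ P) :
    ContinuousOn (fun t : ℝ => Φ (p + t * v)) (uIcc a b) :=
  h.comp (continuous_line p v).continuousOn hm

lemma trap_add {f g : ℂ → ℂ} (hf : ContinuousOn f (trapP κ c a b))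
    (hg : ContinuousOn g (trapP κ c a b)) :
    trap κ c a b (fun z => f z + g z) = trap κ c a b f + trap κ c a b g := by
  unfold trap
  rw [sg_add (continuousOn_line hf fun t ht => line1_mem ht)
      (continuousOn_line hg fun t ht => line1_mem ht),
    sg_add (continuousOn_line hf fun t ht => line2_mem ht)
      (continuousOn_line hg fun t ht => line2_mem ht),
    sg_add (continuousOn_line hf fun t ht => line3_mem ht)
      (continuousOn_line hg fun t ht => line3_mem ht),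
    sg_add (continuousOn_line hf fun t ht => line4_mem ht)
      (continuousOn_line hg fun t ht => line4_mem ht)]
  ring

lemma trap_smul (d : ℂ) (f : ℂ → ℂ) :
    trap κ c a b (fun z => d * f z) = d * trap κ c a b f := by
  unfold trap
  rw [sg_const_mul, sg_const_mul, sg_const_mul, sg_const_mul]
  ring

lemma trap_congr {f g : ℂ → ℂ} (h : EqOn f g (trapP κ c a b)) :
    trap κ c a b f = trap κ c a b g := by
  unfold trap
  rw [sg_congr (fun t ht => h (line1_mem ht)), sg_congr (fun t ht => h (line2_mem ht)),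
    sg_congr (fun t ht => h (line3_mem ht)), sg_congr (fun t ht => h (line4_mem ht))]

/-- a primitive along the path kills the closed integral -/
lemma trap_eq_zero_of_primitive {f G : ℂ → ℂ}
    (h : ∀ z ∈ trapP κ c a b, HasDerivAt G (f z) z) (hc : ContinuousOn f (trapP κ c a b)) :
    trap κ c a b f = 0 := by
  unfold trap
  rw [sg_ftc (fun t ht => h _ (line1_mem ht)) (continuousOn_line hc fun t ht => line1_mem ht),
    sg_ftc (fun t ht => h _ (line2_mem ht)) (continuousOn_line hc fun t ht => line2_mem ht),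
    sg_ftc (fun t ht => h _ (line3_mem ht)) (continuousOn_line hc fun t ht => line3_mem ht),
    sg_ftc (fun t ht => h _ (line4_mem ht)) (continuousOn_line hc fun t ht => line4_mem ht)]
  have e1 : ((-(κ + c * a) : ℝ) : ℂ) + (a : ℝ) * I = -κ + (a : ℝ) * (-c + I) := by
    push_cast; ring
  have e2 : ((-(κ + c * a) : ℝ) : ℂ) + ((-a : ℝ) : ℂ) * I = -κ + (a : ℝ) * (-c - I) := by
    push_cast; ring
  have e3 : ((-(κ + c * b) : ℝ) : ℂ) + (b : ℝ) * I = -κ + (b : ℝ) * (-c + I) := by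
    push_cast; ring
  have e4 : ((-(κ + c * b) : ℝ) : ℂ) + ((-b : ℝ) : ℂ) * I = -κ + (b : ℝ) * (-c - I) := by
    push_cast; ring
  rw [e1, e2, e3, e4]
  ring

lemma trap_holo (hc : 0 < c) (hab : a < b) {x0 x1 : ℝ}
    (h0 : x0 < -(κ + c * b)) (h1 : -(κ + c * a) < x1) {g : ℂ → ℂ}
    (hg : DifferentiableOn ℂ g (strip x0 x1)) : trap κ c a b g = 0 := by
  obtain ⟨G, hG⟩ := (convex_strip x0 x1).exists_forall_hasDerivWithinAt hg
  have hsub := trapP_subset hc hab h0 h1
  exact trap_eq_zero_of_primitive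
    (fun z hz => (hG z (hsub hz)).hasDerivAt ((isOpen_strip x0 x1).mem_nhds (hsub hz)))
    (hg.continuousOn.mono hsub)

lemma trap_pow {s : ℂ} (hs : s ∉ trapP κ c a b) (m : ℕ) :
    trap κ c a b (fun z => ((z - s) ^ (m + 2))⁻¹) = 0 := by
  have hne : ∀ z ∈ trapP κ c a b, z - s ≠ 0 := fun z hz h =>
    hs (by rw [← sub_eq_zero.1 h]; exact hz)
  refine trap_eq_zero_of_primitive (G := fun z => -((m : ℂ) + 1)⁻¹ * (z - s) ^ (-((m : ℤ) + 1)))
    (fun z hz => ?_) ?_
  · have h1 : HasDerivAt (fun z : ℂ => z - s) 1 z := (hasDerivAt_id z).sub_const s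
    have h2 := (hasDerivAt_zpow (-((m : ℤ) + 1)) (z - s) (Or.inl (hne z hz))).comp z h1
    have h3 := h2.const_mul (-((m : ℂ) + 1)⁻¹)
    refine h3.congr_deriv ?_
    have hm : (m : ℂ) + 1 ≠ 0 := by exact_mod_cast Nat.succ_ne_zero m
    have h4 : (z - s) ^ (-((m : ℤ) + 1) - 1) = ((z - s) ^ (m + 2))⁻¹ := by
      rw [← zpow_natCast, ← zpow_neg, show -((m : ℤ) + 1) - 1 = -((m + 2 : ℕ) : ℤ) by
        push_cast; ring]
    rw [h4]
    push_cast
    field_simp
  · exact ContinuousOn.inv₀ (by fun_prop) (fun z hz => pow_ne_zero _ (hne z hz))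

lemma log_neg_of_im_neg {z : ℂ} (h : z.im < 0) : Complex.log (-z) = Complex.log z + π * I := by
  apply Complex.ext
  · simp [Complex.log_re]
  · simp [Complex.log_im, Complex.arg_neg_eq_arg_add_pi_of_im_neg h]

lemma trap_inv (ha : 0 ≤ a) (hab : a < b) {s : ℝ}
    (h0 : -(κ + c * b) < s) (h1 : s < -(κ + c * a)) :
    trap κ c a b (fun z => (z - s)⁻¹) = 2 * π * I := by
  have hb : 0 < b := ha.trans_lt hab
  have hlog : ∀ z : ℂ, z - s ∈ slitPlane → HasDerivAt (fun z : ℂ => Complex.log (z - s))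
      ((z - s)⁻¹) z := by
    intro z hz
    have h1 : HasDerivAt (fun z : ℂ => z - s) 1 z := (hasDerivAt_id z).sub_const _
    simpa using h1.clog hz
  have hlog' : ∀ z : ℂ, -(z - s) ∈ slitPlane → HasDerivAt (fun z : ℂ => Complex.log (-(z - s)))
      ((z - s)⁻¹) z := by
    intro z hz
    have h1 : HasDerivAt (fun z : ℂ => -(z - s)) (-1) z := ((hasDerivAt_id z).sub_const _).neg
    have h2 := h1.clog hz
    convert h2 using 1
    rw [neg_div_neg_eq, one_div]
  have hc' : ∀ (p v : ℂ) (a b : ℝ), (∀ t ∈ uIcc a b, p + (t : ℂ) * v - s ≠ 0) →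
      ContinuousOn (fun t : ℝ => (p + (t : ℂ) * v - s)⁻¹) (uIcc a b) := by
    intro p v a b h
    exact ContinuousOn.inv₀ (by fun_prop) h
  have m1 : ∀ t ∈ uIcc (-a) a, ((-(κ + c * a) : ℝ) : ℂ) + t * I - s ∈ slitPlane := by
    intro t _
    left
    simp
    linarith
  have m2 : ∀ t ∈ uIcc a b, (-κ : ℂ) + t * (-c + I) - s ∈ slitPlane := by
    intro t ht
    rw [uIcc_of_le hab.le] at ht
    rcases (ha.trans ht.1).eq_or_lt with h | h
    · left
      have : a = 0 := le_antisymm (h ▸ ht.1) ha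
      subst this
      rw [← h]
      simp at h1 ⊢
      linarith
    · right
      simp [h.ne']
  have m4 : ∀ t ∈ uIcc a b, (-κ : ℂ) + t * (-c - I) - s ∈ slitPlane := by
    intro t ht
    rw [uIcc_of_le hab.le] at ht
    rcases (ha.trans ht.1).eq_or_lt with h | h
    · left
      have : a = 0 := le_antisymm (h ▸ ht.1) ha
      subst this
      rw [← h]
      simp at h1 ⊢
      linarith
    · right
      simp [h.ne']
  have m3 : ∀ t ∈ uIcc (-b) b, -(((-(κ + c * b) : ℝ) : ℂ) + t * I - s) ∈ slitPlane := by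
    intro t _
    left
    simp
    linarith
  unfold trap
  rw [sg_ftc (fun t ht => hlog _ (m1 t ht)) (hc' _ _ _ _ fun t ht => slitPlane_ne_zero (m1 t ht)),
    sg_ftc (fun t ht => hlog _ (m2 t ht)) (hc' _ _ _ _ fun t ht => slitPlane_ne_zero (m2 t ht)),
    sg_ftc (fun t ht => hlog' _ (m3 t ht)) (hc' _ _ _ _ fun t ht => neg_ne_zero.1
      (slitPlane_ne_zero (m3 t ht))),
    sg_ftc (fun t ht => hlog _ (m4 t ht)) (hc' _ _ _ _ fun t ht => slitPlane_ne_zero (m4 t ht))]
  have e1 : ((-(κ + c * a) : ℝ) : ℂ) + (a : ℝ) * I = -κ + (a : ℝ) * (-c + I) := by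
    push_cast; ring
  have e2 : ((-(κ + c * a) : ℝ) : ℂ) + ((-a : ℝ) : ℂ) * I = -κ + (a : ℝ) * (-c - I) := by
    push_cast; ring
  have e3 : ((-(κ + c * b) : ℝ) : ℂ) + (b : ℝ) * I = -κ + (b : ℝ) * (-c + I) := by
    push_cast; ring
  have e4 : ((-(κ + c * b) : ℝ) : ℂ) + ((-b : ℝ) : ℂ) * I = -κ + (b : ℝ) * (-c - I) := by
    push_cast; ring
  rw [e1, e2, e3, e4]
  have k1 := log_neg_of_im_neg (z := (-κ : ℂ) + (b : ℝ) * (-c - I) - s) (by simpa using hb)
  have k2 := log_neg_of_im_neg (z := -((-κ : ℂ) + (b : ℝ) * (-c + I) - s)) (by simpa using hb)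
  rw [neg_neg] at k2
  linear_combination k1 + k2

lemma notMem_trapP (ha : 0 ≤ a) (hab : a < b) {s : ℝ}
    (h0 : -(κ + c * b) < s) (h1 : s < -(κ + c * a)) : (s : ℂ) ∉ trapP κ c a b := by
  rintro (((⟨t, ht, h⟩ | ⟨t, ht, h⟩) | ⟨t, ht, h⟩) | ⟨t, ht, h⟩)
  · have := congrArg Complex.re h
    simp at this
    linarith
  · have h2 := congrArg Complex.im h
    have h3 := congrArg Complex.re h
    rw [uIcc_of_le hab.le] at ht
    simp at h2 h3
    subst h2
    have : a = 0 := le_antisymm ht.1 ha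
    subst this
    simp at h3 h1
    linarith
  · have := congrArg Complex.re h
    simp at this
    linarith
  · have h2 := congrArg Complex.im h
    have h3 := congrArg Complex.re h
    rw [uIcc_of_le hab.le] at ht
    simp at h2 h3
    subst h2
    have : a = 0 := le_antisymm ht.1 ha
    subst this
    simp at h3 h1
    linarith

lemma trap_residue (hc : 0 < c) (ha : 0 ≤ a) (hab : a < b) {x0 x1 s : ℝ}
    (h0 : x0 < -(κ + c * b)) (h1 : -(κ + c * a) < x1)
    (h2 : -(κ + c * b) < s) (h3 : s < -(κ + c * a)) (n : ℕ) {f : ℂ → ℂ}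
    (hf : DifferentiableOn ℂ f (strip x0 x1)) :
    trap κ c a b (fun z => f z / (z - s) ^ (n + 1)) =
      2 * π * I * ((fun f => dslope f (s : ℂ))^[n] f) s := by
  refine residue_rec (trap κ c a b) (trapP κ c a b) (strip x0 x1) s ?_ ?_ ?_ ?_ ?_ ?_ ?_ ?_ ?_ n f hf
  · exact notMem_trapP ha hab h2 h3
  · exact trapP_subset hc hab h0 h1
  · exact (isOpen_strip x0 x1).mem_nhds (by simp [strip]; constructor <;> linarith)
  · exact fun f g => trap_add
  · exact fun d f => trap_smul d f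
  · exact fun f g => trap_congr
  · exact fun g hg => trap_holo hc hab h0 h1 hg
  · exact trap_inv ha hab h2 h3
  · exact trap_pow (notMem_trapP ha hab h2 h3)

/-- the trapezoid integral equals the circle integral -/
theorem trap_eq_circle (hc : 0 < c) (ha : 0 ≤ a) (hab : a < b) {x0 x1 s r : ℝ}
    (h0 : x0 < -(κ + c * b)) (h1 : -(κ + c * a) < x1)
    (h2 : -(κ + c * b) < s) (h3 : s < -(κ + c * a)) (hr : 0 < r) (h4 : x0 < s - r)
    (h5 : s + r < x1) (n : ℕ) {f : ℂ → ℂ} (hf : DifferentiableOn ℂ f (strip x0 x1)) :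
    trap κ c a b (fun z => f z / (z - s) ^ (n + 1)) =
      ∮ z in C(s, r), f z / (z - s) ^ (n + 1) := by
  rw [trap_residue hc ha hab h0 h1 h2 h3 n hf, circle_residue hr (isOpen_strip x0 x1) ?_ n hf]
  intro z hz
  rw [mem_closedBall, dist_eq_norm] at hz
  have := (Complex.abs_re_le_norm (z - s)).trans hz
  rw [abs_le] at this
  simp at this
  simp [strip]
  constructor <;> linarith

end Trap

/-! ### the wedge -/

/-- `Φ` has a pole of order at most `m+1` at `s` and is otherwise holomorphic on the strip -/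
def PoleAt (Φ : ℂ → ℂ) (x0 x1 s : ℝ) (m : ℕ) : Prop :=
  ∃ H : ℂ → ℂ, DifferentiableOn ℂ H (strip x0 x1) ∧
    ∀ z ∈ strip x0 x1, z ≠ s → Φ z = H z / (z - s) ^ (m + 1)

lemma PoleAt.continuousOn {Φ : ℂ → ℂ} {x0 x1 s : ℝ} {m : ℕ} (h : PoleAt Φ x0 x1 s m) {P : Set ℂ}
    (hP : P ⊆ strip x0 x1) (hs : (s : ℂ) ∉ P) : ContinuousOn Φ P := by
  obtain ⟨H, hH, hΦ⟩ := h
  have : ContinuousOn (fun z => H z / (z - s) ^ (m + 1)) P :=
    (hH.continuousOn.mono hP).div (by fun_prop) fun z hz => pow_ne_zero _ fun h =>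
      hs (by rw [← sub_eq_zero.1 h]; exact hz)
  exact this.congr fun z hz => hΦ z (hP hz) fun h => hs (h ▸ hz)

/-- one cell of the wedge -/
lemma cell {κ c : ℝ} (hc : 0 < c) {Φ : ℂ → ℂ} {m l : ℕ}
    (h : PoleAt Φ (-(κ + l) - 5 / 4) (-(κ + l) + 1 / 4) (-(κ + l + 1 / 2)) m) :
    (∮ z in C((-(κ + l + 1 / 2) : ℝ), 1 / 4), Φ z) = trap κ c (l / c) ((l + 1 : ℕ) / c) Φ := by
  have e1 : c * ((l : ℝ) / c) = l := mul_div_cancel₀ _ hc.ne'
  have e2 : c * (((l + 1 : ℕ) : ℝ) / c) = (l + 1 : ℕ) := mul_div_cancel₀ _ hc.ne'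
  have ha : (0 : ℝ) ≤ l / c := by positivity
  have hab : (l : ℝ) / c < ((l + 1 : ℕ) : ℝ) / c := by
    gcongr
    simp
  have g0 : -(κ + l) - 5 / 4 < -(κ + c * (((l + 1 : ℕ) : ℝ) / c)) := by
    rw [e2]; push_cast; linarith
  have g1 : -(κ + c * ((l : ℝ) / c)) < -(κ + l) + 1 / 4 := by rw [e1]; linarith
  have g2 : -(κ + c * (((l + 1 : ℕ) : ℝ) / c)) < -(κ + l + 1 / 2) := by
    rw [e2]; push_cast; linarith
  have g3 : -(κ + l + 1 / 2) < -(κ + c * ((l : ℝ) / c)) := by rw [e1]; linarith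
  obtain ⟨H, hH, hΦ⟩ := h
  have key := trap_eq_circle hc ha hab (x0 := -(κ + l) - 5 / 4) (x1 := -(κ + l) + 1 / 4)
    (s := -(κ + l + 1 / 2)) (r := 1 / 4) g0 g1 g2 g3 (by norm_num) (by linarith) (by linarith) m hH
  rw [← trap_congr (f := Φ)] at key
  · rw [key]
    refine circleIntegral.integral_congr (by norm_num) fun z hz => ?_
    rw [mem_sphere, dist_eq_norm] at hz
    have h1 := (Complex.abs_re_le_norm (z - ((-(κ + l + 1 / 2) : ℝ) : ℂ))).trans hz.le
    rw [abs_le] at h1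
    simp only [sub_re, ofReal_re] at h1
    refine hΦ z ⟨by linarith [h1.1], by linarith [h1.2]⟩ ?_
    rintro rfl
    simp at hz
  · intro z hz
    refine hΦ z (trapP_subset hc hab g0 g1 hz) ?_
    rintro rfl
    exact notMem_trapP ha hab g2 g3 hz

/-- finite wedge: the sum of the circle integrals around `n` consecutive sites equals the integral
over the two ray pieces closed by a vertical segment -/
theorem wedge_finite {κ c : ℝ} (hc : 0 < c) {Φ : ℂ → ℂ} {m : ℕ} (n : ℕ)
    (h : ∀ l < n, PoleAt Φ (-(κ + l) - 5 / 4) (-(κ + l) + 1 / 4) (-(κ + l + 1 / 2)) m) :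
    ∑ l ∈ Finset.range n, (∮ z in C((-(κ + l + 1 / 2) : ℝ), 1 / 4), Φ z) =
      sg (-κ) (-c + I) 0 (n / c) Φ - sg (-κ) (-c - I) 0 (n / c) Φ
        - sg ((-(κ + n) : ℝ) : ℂ) I (-(n / c)) (n / c) Φ := by
  induction n with
  | zero => simp [sg]
  | succ n ih =>
    rw [Finset.sum_range_succ, ih fun l hl => h l (hl.trans (Nat.lt_succ_self n)),
      cell hc (h n (Nat.lt_succ_self n))]
    have e1 : c * ((n : ℝ) / c) = n := mul_div_cancel₀ _ hc.ne'
    have e2 : c * (((n + 1 : ℕ) : ℝ) / c) = (n + 1 : ℕ) := mul_div_cancel₀ _ hc.ne'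
    have hab : (n : ℝ) / c < ((n + 1 : ℕ) : ℝ) / c := by
      gcongr
      simp
    unfold trap
    rw [e1, e2]
    -- the ray integrals are additive
    have hint : ∀ v : ℂ, (v = -c + I ∨ v = -c - I) → ∀ l ≤ n,
        IntervalIntegrable (fun t : ℝ => Φ (-κ + t * v)) volume (l / c) ((l + 1 : ℕ) / c) := by
      intro v hv l hl
      have e1 : c * ((l : ℝ) / c) = l := mul_div_cancel₀ _ hc.ne'
      have e2 : c * (((l + 1 : ℕ) : ℝ) / c) = (l + 1 : ℕ) := mul_div_cancel₀ _ hc.ne'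
      have ha : (0 : ℝ) ≤ l / c := by positivity
      have hab : (l : ℝ) / c < ((l + 1 : ℕ) : ℝ) / c := by
        gcongr
        simp
      have g0 : -(κ + l) - 5 / 4 < -(κ + c * (((l + 1 : ℕ) : ℝ) / c)) := by
        rw [e2]; push_cast; linarith
      have g1 : -(κ + c * ((l : ℝ) / c)) < -(κ + l) + 1 / 4 := by rw [e1]; linarith
      have g2 : -(κ + c * (((l + 1 : ℕ) : ℝ) / c)) < -(κ + l + 1 / 2) := by
        rw [e2]; push_cast; linarith
      have g3 : -(κ + l + 1 / 2) < -(κ + c * ((l : ℝ) / c)) := by rw [e1]; linarith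
      have hcont := (h l (Nat.lt_succ_of_le hl)).continuousOn (trapP_subset hc hab g0 g1)
        (notMem_trapP ha hab g2 g3)
      rcases hv with rfl | rfl
      · exact (continuousOn_line hcont fun t ht => line2_mem ht).intervalIntegrable
      · exact (continuousOn_line hcont fun t ht => line4_mem ht).intervalIntegrable
    have hint' : ∀ v : ℂ, (v = -c + I ∨ v = -c - I) → ∀ l ≤ n,
        IntervalIntegrable (fun t : ℝ => Φ (-κ + t * v)) volume 0 ((l : ℕ) / c) := by
      intro v hv l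
      induction l with
      | zero => intro _; simp
      | succ l ihl =>
        intro hl
        exact (ihl (by omega)).trans (hint v hv l (by omega))
    have hadd : ∀ v : ℂ, (v = -c + I ∨ v = -c - I) →
        sg (-κ) v 0 ((n : ℝ) / c) Φ + sg (-κ) v ((n : ℝ) / c) (((n + 1 : ℕ) : ℝ) / c) Φ =
          sg (-κ) v 0 (((n + 1 : ℕ) : ℝ) / c) Φ := by
      intro v hv
      unfold sg
      rw [← mul_add, intervalIntegral.integral_add_adjacent_intervals (hint' v hv n le_rfl)
        (hint v hv n le_rfl)]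
    rw [← hadd _ (Or.inl rfl), ← hadd _ (Or.inr rfl)]
    ring

/-- infinite wedge -/
theorem wedge_tendsto {κ c : ℝ} (hc : 0 < c) {Φ : ℂ → ℂ} {m : ℕ}
    (h : ∀ l : ℕ, PoleAt Φ (-(κ + l) - 5 / 4) (-(κ + l) + 1 / 4) (-(κ + l + 1 / 2)) m)
    (h1 : IntegrableOn (fun t : ℝ => Φ (-κ + t * (-c + I))) (Ioi 0))
    (h2 : IntegrableOn (fun t : ℝ => Φ (-κ + t * (-c - I))) (Ioi 0))
    (h3 : Tendsto (fun n : ℕ => sg ((-(κ + n) : ℝ) : ℂ) I (-(n / c)) (n / c) Φ) atTop (𝓝 0)) :
    Tendsto (fun n : ℕ => ∑ l ∈ Finset.range n, (∮ z in C((-(κ + l + 1 / 2) : ℝ), 1 / 4), Φ z))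
      atTop (𝓝 ((-c + I) * (∫ t in Ioi (0 : ℝ), Φ (-κ + t * (-c + I))) -
        (-c - I) * (∫ t in Ioi (0 : ℝ), Φ (-κ + t * (-c - I))))) := by
  have hn : Tendsto (fun n : ℕ => (n : ℝ) / c) atTop atTop :=
    tendsto_natCast_atTop_atTop.atTop_div_const hc
  have t1 := (intervalIntegral_tendsto_integral_Ioi 0 h1 hn).const_mul (-c + I)
  have t2 := (intervalIntegral_tendsto_integral_Ioi 0 h2 hn).const_mul (-c - I)
  have t3 := (t1.sub t2).sub h3
  rw [sub_zero] at t3
  refine t3.congr fun n => ?_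
  rw [wedge_finite hc n fun l _ => h l]
  rfl

/-- wedge with exponential decay: `‖Φ z‖ ≤ M e^{λ (Re z + κ)}` on the closed wedge, away from the
open unit squares... it is enough to have the bound on the two rays and on the vertical lines
through the integers. -/
theorem wedge_hasSum {κ c M lam : ℝ} (hc : 0 < c) (hlam : 0 < lam) {Φ : ℂ → ℂ} {m : ℕ}
    (h : ∀ l : ℕ, PoleAt Φ (-(κ + l) - 5 / 4) (-(κ + l) + 1 / 4) (-(κ + l + 1 / 2)) m)
    (hb1 : ∀ t : ℝ, 0 ≤ t → ‖Φ (-κ + t * (-c + I))‖ ≤ M * Real.exp (-lam * t))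
    (hb2 : ∀ t : ℝ, 0 ≤ t → ‖Φ (-κ + t * (-c - I))‖ ≤ M * Real.exp (-lam * t))
    (hb3 : ∀ (n : ℕ) (y : ℝ), |y| ≤ n / c → ‖Φ (((-(κ + n) : ℝ) : ℂ) + y * I)‖ ≤
      M * Real.exp (-lam * n))
    (hb4 : ∀ (l : ℕ) (z : ℂ), ‖z - ((-(κ + l + 1 / 2) : ℝ) : ℂ)‖ = 1 / 4 →
      ‖Φ z‖ ≤ M * Real.exp (-lam * l)) :
    HasSum (fun l : ℕ => ∮ z in C((-(κ + l + 1 / 2) : ℝ), 1 / 4), Φ z)
      ((-c + I) * (∫ t in Ioi (0 : ℝ), Φ (-κ + t * (-c + I))) -
        (-c - I) * (∫ t in Ioi (0 : ℝ), Φ (-κ + t * (-c - I)))) := by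
  have hM : 0 ≤ M := by
    have := (norm_nonneg _).trans (hb1 0 le_rfl)
    simpa using this
  -- continuity on the rays
  have hcont : ∀ v : ℂ, (v = -c + I ∨ v = -c - I) →
      ContinuousOn (fun t : ℝ => Φ (-κ + t * v)) (Ici 0) := by
    intro v hv t ht
    -- `t` lies in the cell `l = floor (c t)`
    have ht0 : (0 : ℝ) ≤ t := ht
    have hre : ((-κ : ℂ) + t * v).re = -κ - c * t := by
      rcases hv with rfl | rfl <;> simp <;> ring
    set l := ⌊c * t⌋₊ with hl
    have hl1 : (l : ℝ) ≤ c * t := Nat.floor_le (by positivity)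
    have hl2 : c * t < l + 1 := Nat.lt_floor_add_one _
    obtain ⟨H, hH, hΦ⟩ := h l
    have hmem : (-κ : ℂ) + t * v ∈ strip (-(κ + l) - 5 / 4) (-(κ + l) + 1 / 4) := by
      constructor <;> rw [hre] <;> linarith
    have hne : (-κ : ℂ) + t * v ≠ ((-(κ + l + 1 / 2) : ℝ) : ℂ) := by
      intro he
      have h2 := congrArg Complex.im he
      have h3 : t = 0 := by rcases hv with rfl | rfl <;> simpa using h2
      have h4 := congrArg Complex.re he
      rw [hre, h3] at h4
      simp only [mul_zero, sub_zero, ofReal_re] at h4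
      have : (0 : ℝ) ≤ l := Nat.cast_nonneg l
      linarith
    have hopen : strip (-(κ + l) - 5 / 4) (-(κ + l) + 1 / 4) \ {((-(κ + l + 1 / 2) : ℝ) : ℂ)} ∈
        𝓝 ((-κ : ℂ) + t * v) :=
      ((isOpen_strip _ _).sdiff isClosed_singleton).mem_nhds ⟨hmem, hne⟩
    have hca : ContinuousAt Φ ((-κ : ℂ) + t * v) := by
      have h5 : ContinuousOn Φ (strip (-(κ + l) - 5 / 4) (-(κ + l) + 1 / 4) \
          {((-(κ + l + 1 / 2) : ℝ) : ℂ)}) := (h l).continuousOn sdiff_subset (fun h => h.2 rfl)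
      exact h5.continuousAt hopen
    exact (ContinuousAt.comp (f := fun t : ℝ => (-κ : ℂ) + t * v) hca
      (continuous_line _ _).continuousAt).continuousWithinAt
  have hintv : ∀ v : ℂ, (v = -c + I ∨ v = -c - I) →
      (∀ t : ℝ, 0 ≤ t → ‖Φ (-κ + t * v)‖ ≤ M * Real.exp (-lam * t)) →
      IntegrableOn (fun t : ℝ => Φ (-κ + t * v)) (Ioi 0) := by
    intro v hv hb
    have hg : IntegrableOn (fun t : ℝ => M * Real.exp (-lam * t)) (Ioi 0) :=
      (exp_neg_integrableOn_Ioi 0 hlam).const_mul M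
    refine Integrable.mono' hg (((hcont v hv).mono Ioi_subset_Ici_self).aestronglyMeasurable
      measurableSet_Ioi) ?_
    filter_upwards [ae_restrict_mem measurableSet_Ioi] with t ht
    exact hb t (le_of_lt ht)
  have htend := wedge_tendsto hc h (hintv _ (Or.inl rfl) hb1) (hintv _ (Or.inr rfl) hb2) ?_
  · have hsum : Summable (fun l : ℕ => ∮ z in C((-(κ + l + 1 / 2) : ℝ), 1 / 4), Φ z) := by
      refine Summable.of_norm_bounded
        (g := fun l : ℕ => 2 * π * (1 / 4) * (M * Real.exp (-lam * l))) ?_ fun l => ?_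
      · refine ((?_ : Summable fun l : ℕ => Real.exp (-lam * l)).mul_left M).mul_left _
        have := Real.summable_exp_nat_mul_iff.2 (show -lam < 0 by linarith)
        refine this.congr fun l => ?_
        rw [mul_comm]
      · refine circleIntegral.norm_integral_le_of_norm_le_const (by norm_num) fun z hz => ?_
        rw [mem_sphere, dist_eq_norm] at hz
        exact hb4 l z hz
    exact (hsum.hasSum_iff_tendsto_nat).2 htend
  · -- the closing segments tend to 0
    rw [tendsto_zero_iff_norm_tendsto_zero]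
    have hlim : Tendsto (fun n : ℕ => 2 / c * M * ((n : ℝ) * Real.exp (-lam * n))) atTop
        (𝓝 0) := by
      have h5 : Tendsto (fun x : ℝ => x * Real.exp (-lam * x)) atTop (𝓝 0) := by
        have := Real.tendsto_pow_mul_exp_neg_atTop_nhds_zero 1
        have h6 := (this.comp (tendsto_id.const_mul_atTop hlam)).const_mul (1 / lam)
        rw [mul_zero] at h6
        refine h6.congr fun x => ?_
        simp only [Function.comp, pow_one, id]
        rw [show -(lam * x) = -lam * x by ring]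
        field_simp
      have := (h5.comp tendsto_natCast_atTop_atTop).const_mul (2 / c * M)
      rw [mul_zero] at this
      exact this
    refine squeeze_zero (fun _ => norm_nonneg _) (fun n => ?_) hlim
    have hn0 : (0 : ℝ) ≤ (n : ℝ) / c := by positivity
    unfold sg
    rw [norm_mul, Complex.norm_I, one_mul]
    have h7 := intervalIntegral.norm_integral_le_of_norm_le_const
      (a := -((n : ℝ) / c)) (b := (n : ℝ) / c)
      (f := fun y : ℝ => Φ (((-(κ + n) : ℝ) : ℂ) + y * I)) (C := M * Real.exp (-lam * n))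
      (fun y hy => hb3 n y ?_)
    · refine h7.trans (le_of_eq ?_)
      rw [sub_neg_eq_add, abs_of_nonneg (by linarith)]
      ring
    · rw [uIoc_of_le (by linarith)] at hy
      exact abs_le.2 ⟨hy.1.le, hy.2⟩

end Crest.Agent.R006.Wedge516
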